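import Crest.Agent.R4C.Base_935

/-!
# Row 4: prefix energy for general `M` (helper882)

`b, c ∣ M`, exact type law `nu M b = φ(M/b)/M` (helper935's `Base_935`), pair weight
`gcd b c * nu M b * nu M c`; `R` is a strict total order on the primes (used for `<` and for `>`).

* `sum_prod`, `nu_eq_prod`, `gcd_eq_prod`, `row_prod` : product formulas.
* `Part R b c x` : `c` is a prefix partner of `b` with first difference `x`, `v_x(b) < v_x(c)`.
* `row_x` : for one `x`, `∑_c gcd(b,c) ν(c) ≤ (1/x) ∏_{p R x, v_p(b) < a_p} (1 - 1/p)`.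
* `tel_free` : `∑_{x free} (1/x) V_{b,x} + b ν(b) = 1`.
* `row`, `pair`, `pair_symm`, `frm_pre` : row and pair bounds.
* `row_weighted`, `pair_weighted` : the same with a weight `h x` and the factor `V_{b,x}` visible.
-/

set_option autoImplicit false

open Finset

namespace Crest.Agent.R4C.PrefixMx882

open Crest.Agent.R4C.Basex935

/-! ### Product formulas -/

lemma primeFactors_split {p : ℕ} (hp : p.Prime) {a : ℕ} (ha : 0 < a) {M1 : ℕ} (hM : 0 < M1) :
    (p ^ a * M1).primeFactors = insert p M1.primeFactors := by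
  rw [Nat.primeFactors_mul (pow_ne_zero _ hp.ne_zero) hM.ne', Nat.primeFactors_prime_pow ha.ne' hp]
  rfl

lemma fact_split_self {p : ℕ} (hp : p.Prime) (v : ℕ) {b : ℕ} (hb : ¬ p ∣ b) :
    (p ^ v * b).factorization p = v := by
  have hb0 : b ≠ 0 := fun hc => hb (hc ▸ dvd_zero p)
  rw [Nat.factorization_mul (pow_ne_zero _ hp.ne_zero) hb0, Finsupp.add_apply,
    hp.factorization_pow, Finsupp.single_eq_same, Nat.factorization_eq_zero_of_not_dvd hb, add_zero]

lemma fact_split_ne {p r : ℕ} (hp : p.Prime) (hr : r ≠ p) (v : ℕ) {b : ℕ} (hb : b ≠ 0) :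
    (p ^ v * b).factorization r = b.factorization r := by
  rw [Nat.factorization_mul (pow_ne_zero _ hp.ne_zero) hb, Finsupp.add_apply,
    hp.factorization_pow, Finsupp.single_eq_of_ne hr, zero_add]

lemma dvd_split {p : ℕ} (hp : p.Prime) {a M1 b : ℕ} (hM : 0 < M1) (h : ¬ p ∣ M1)
    (hb : b ∣ p ^ a * M1) : ∃ v b1, v ≤ a ∧ b1 ∣ M1 ∧ b = p ^ v * b1 := by
  have hb0 : b ≠ 0 := fun hc => (Nat.mul_pos (pow_pos hp.pos a) hM).ne' (Nat.eq_zero_of_zero_dvd (hc ▸ hb))
  obtain ⟨v, b1, hnd, he⟩ := Nat.exists_eq_pow_mul_and_not_dvd hb0 p hp.ne_one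
  refine ⟨v, b1, ?_, ?_, he⟩
  · have h1 : p ^ v ∣ p ^ a * M1 := (Dvd.intro _ he.symm).trans hb
    have hc1 : Nat.Coprime (p ^ v) M1 := Nat.Coprime.pow_left v ((Nat.Prime.coprime_iff_not_dvd hp).2 h)
    exact (Nat.pow_dvd_pow_iff_le_right hp.one_lt).1 (hc1.dvd_of_dvd_mul_right h1)
  · have h2 : b1 ∣ p ^ a * M1 := (Dvd.intro_left _ he.symm).trans hb
    have hc2 : Nat.Coprime b1 (p ^ a) :=
      (Nat.Coprime.pow_left a ((Nat.Prime.coprime_iff_not_dvd hp).2 hnd)).symm
    exact hc2.dvd_of_dvd_mul_left h2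

/-- a sum over the divisors of `M` of a product over the primes of `M` factorises -/
theorem sum_prod (F : ℕ → ℕ → ℝ) : ∀ M : ℕ, 0 < M →
    ∑ c ∈ M.divisors, ∏ p ∈ M.primeFactors, F p (c.factorization p) =
      ∏ p ∈ M.primeFactors, ∑ v ∈ range (M.factorization p + 1), F p v := by
  refine ind_min ?_ ?_
  · simp
  · intro p a M1 hp ha hM1 hnd _ ih
    have hpn : p ∉ M1.primeFactors := fun hc => hnd (Nat.dvd_of_mem_primeFactors hc)
    rw [sum_split hp a hM1 hnd, primeFactors_split hp ha hM1, prod_insert hpn,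
      fact_split_self hp a hnd, sum_mul]
    refine sum_congr rfl fun v _ => ?_
    have e2 : ∏ r ∈ M1.primeFactors, ∑ v ∈ range ((p ^ a * M1).factorization r + 1), F r v =
        ∏ r ∈ M1.primeFactors, ∑ v ∈ range (M1.factorization r + 1), F r v := by
      refine prod_congr rfl fun r hr => ?_
      rw [fact_split_ne hp (fun hc => hpn (hc ▸ hr)) a hM1.ne']
    rw [e2, ← ih, mul_sum]
    refine sum_congr rfl fun b hb => ?_
    rw [Nat.mem_divisors] at hb
    have hnb : ¬ p ∣ b := fun hc => hnd (hc.trans hb.1)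
    have hb0 : b ≠ 0 := fun hc => hnb (hc ▸ dvd_zero p)
    rw [prod_insert hpn, fact_split_self hp v hnb]
    congr 1
    refine prod_congr rfl fun r hr => ?_
    rw [fact_split_ne hp (fun hc => hpn (hc ▸ hr)) v hb0]

theorem nu_eq_prod : ∀ M : ℕ, 0 < M → ∀ b, b ∣ M →
    nu M b = ∏ p ∈ M.primeFactors, nup p (M.factorization p) (b.factorization p) := by
  refine ind_min ?_ ?_
  · intro b hb
    rw [Nat.dvd_one] at hb
    subst hb
    simp [nu]
  · intro p a M1 hp ha hM1 hnd _ ih b hb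
    have hpn : p ∉ M1.primeFactors := fun hc => hnd (Nat.dvd_of_mem_primeFactors hc)
    obtain ⟨v, b1, hv, hb1, rfl⟩ := dvd_split hp hM1 hnd hb
    have hcop : Nat.Coprime (p ^ a) M1 :=
      Nat.Coprime.pow_left a ((Nat.Prime.coprime_iff_not_dvd hp).2 hnd)
    have hnb : ¬ p ∣ b1 := fun hc => hnd (hc.trans hb1)
    have hb0 : b1 ≠ 0 := fun hc => hnb (hc ▸ dvd_zero p)
    rw [nu_mul hcop (pow_dvd_pow p hv) hb1, nu_prime_pow hp hv, primeFactors_split hp ha hM1,
      prod_insert hpn, fact_split_self hp a hnd, fact_split_self hp v hnb, ih b1 hb1]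
    congr 1
    refine prod_congr rfl fun r hr => ?_
    have hrp : r ≠ p := fun hc => hpn (hc ▸ hr)
    rw [fact_split_ne hp hrp a hM1.ne', fact_split_ne hp hrp v hb0]

theorem gcd_eq_prod {M b c : ℕ} (hM : 0 < M) (hb : b ∣ M) (hc : c ∣ M) :
    (Nat.gcd b c : ℝ) =
      ∏ p ∈ M.primeFactors, (p : ℝ) ^ (min (b.factorization p) (c.factorization p)) := by
  have hb0 : b ≠ 0 := fun h => hM.ne' (Nat.eq_zero_of_zero_dvd (h ▸ hb))
  have hc0 : c ≠ 0 := fun h => hM.ne' (Nat.eq_zero_of_zero_dvd (h ▸ hc))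
  have hg0 : Nat.gcd b c ≠ 0 := Nat.gcd_ne_zero_left hb0
  have h1 : Nat.gcd b c = ∏ p ∈ M.primeFactors, p ^ ((Nat.gcd b c).factorization p) := by
    conv_lhs => rw [← Nat.prod_factorization_pow_eq_self hg0]
    refine Finsupp.prod_of_support_subset _ ?_ _ (fun i _ => pow_zero i)
    rw [Nat.support_factorization]
    exact Nat.primeFactors_mono ((Nat.gcd_dvd_left b c).trans hb) hM.ne'
  rw [h1, Nat.factorization_gcd hb0 hc0]
  push_cast
  rfl

/-- **row product formula** -/
theorem row_prod {M b : ℕ} (hM : 0 < M) (hb : b ∣ M) (G : ℕ → ℕ → ℝ) :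
    ∑ c ∈ M.divisors, (Nat.gcd b c : ℝ) * nu M c *
        ∏ p ∈ M.primeFactors, G p (c.factorization p) =
      ∏ p ∈ M.primeFactors, ∑ v ∈ range (M.factorization p + 1),
        (p : ℝ) ^ (min (b.factorization p) v) * nup p (M.factorization p) v * G p v := by
  rw [← sum_prod (fun p v => (p : ℝ) ^ (min (b.factorization p) v) *
    nup p (M.factorization p) v * G p v) M hM]
  refine sum_congr rfl fun c hc => ?_
  rw [Nat.mem_divisors] at hc
  rw [gcd_eq_prod hM hb hc.1, nu_eq_prod M hM c hc.1, ← prod_mul_distrib, ← prod_mul_distrib]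

/-! ### Local sums -/

lemma geo {w : ℝ} (j k : ℕ) : ∑ v ∈ Ico j (j + k), (1 - w) * w ^ v = w ^ j - w ^ (j + k) := by
  induction k with
  | zero => simp
  | succ k ih =>
    rw [← add_assoc, sum_Ico_succ_top (by omega), ih, pow_succ w (j + k)]
    ring

/-- tail of the local law -/
lemma nup_tail (p : ℕ) {a j : ℕ} (hj : j ≤ a) :
    ∑ v ∈ Ico j (a + 1), nup p a v = (1 / (p : ℝ)) ^ j := by
  obtain ⟨k, rfl⟩ := Nat.exists_eq_add_of_le hj
  rw [sum_Ico_succ_top (by omega)]
  have e : ∑ v ∈ Ico j (j + k), nup p (j + k) v =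
      ∑ v ∈ Ico j (j + k), (1 - 1 / (p : ℝ)) * (1 / (p : ℝ)) ^ v := by
    refine sum_congr rfl fun v hv => ?_
    rw [mem_Ico] at hv
    unfold nup
    rw [if_pos hv.2]
  rw [e, geo]
  unfold nup
  rw [if_neg (lt_irrefl _)]
  ring

lemma nup_total (p a : ℕ) : ∑ v ∈ range (a + 1), nup p a v = 1 := by
  have := nup_tail p (Nat.zero_le a)
  rw [pow_zero] at this
  rw [← this, Finset.range_eq_Ico]

/-- agreement: `p^v ν_p(v) = 1 - 1/p` or `1` -/
lemma loc_agree {p : ℕ} (hp : 0 < p) {a v : ℕ} (hv : v ≤ a) :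
    (p : ℝ) ^ v * nup p a v = if v < a then 1 - 1 / (p : ℝ) else 1 := by
  have hp0 : (p : ℝ) ≠ 0 := by exact_mod_cast hp.ne'
  have h4 : (p : ℝ) ^ v * (1 / (p : ℝ)) ^ v = 1 := by
    rw [← mul_pow, mul_one_div_cancel hp0, one_pow]
  unfold nup
  split_ifs with h
  · linear_combination (1 - 1 / (p : ℝ)) * h4
  · have : a = v := by omega
    rw [this, h4]

/-- jump up: `∑_{v' > v} p^v ν_p(v') = 1/p` -/
lemma loc_up {p : ℕ} (hp : 0 < p) {a v : ℕ} (hv : v < a) :
    ∑ v' ∈ Ico (v + 1) (a + 1), (p : ℝ) ^ v * nup p a v' = 1 / (p : ℝ) := by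
  have hp0 : (p : ℝ) ≠ 0 := by exact_mod_cast hp.ne'
  have h4 : (p : ℝ) ^ v * (1 / (p : ℝ)) ^ v = 1 := by
    rw [← mul_pow, mul_one_div_cancel hp0, one_pow]
  rw [← mul_sum, nup_tail p hv, pow_succ]
  linear_combination (1 / (p : ℝ)) * h4

/-! ### Strict total orders on the primes and the telescoping identity -/

/-- strict total order -/
structure Ord (R : ℕ → ℕ → Prop) : Prop where
  irr : ∀ x, ¬ R x x
  tri : ∀ x y, x ≠ y → R x y ∨ R y x
  tr : ∀ x y z, R x y → R y z → R x z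

lemma ordLt : Ord (fun x y : ℕ => x < y) :=
  ⟨fun x => lt_irrefl x, fun _ _ h => lt_or_gt_of_ne h, fun _ _ _ h1 h2 => h1.trans h2⟩

lemma ordGt : Ord (fun x y : ℕ => y < x) :=
  ⟨fun x => lt_irrefl x, fun _ _ h => (lt_or_gt_of_ne h).symm, fun _ _ _ h1 h2 => h2.trans h1⟩

lemma Ord.asymm {R : ℕ → ℕ → Prop} (h : Ord R) {x y : ℕ} (h1 : R x y) (h2 : R y x) : False :=
  h.irr x (h.tr x y x h1 h2)

lemma Ord.exists_last {R : ℕ → ℕ → Prop} (h : Ord R) (S : Finset ℕ) (hS : S.Nonempty) :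
    ∃ a ∈ S, ∀ x ∈ S, x ≠ a → R x a := by
  classical
  induction S using Finset.induction_on with
  | empty => exact absurd hS (by simp)
  | insert b S hb ih =>
    rcases S.eq_empty_or_nonempty with h0 | h0
    · subst h0
      refine ⟨b, by simp, fun x hx hne => ?_⟩
      rw [mem_insert] at hx
      rcases hx with hx | hx
      · exact absurd hx hne
      · simp at hx
    · obtain ⟨a, ha, h1⟩ := ih h0
      have hab : a ≠ b := fun hc => hb (hc ▸ ha)
      rcases h.tri a b hab with h2 | h2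
      · refine ⟨b, mem_insert_self _ _, fun x hx hne => ?_⟩
        rw [mem_insert] at hx
        rcases hx with hx | hx
        · exact absurd hx hne
        · by_cases hxa : x = a
          · rw [hxa]; exact h2
          · exact h.tr _ _ _ (h1 x hx hxa) h2
      · refine ⟨a, mem_insert_of_mem ha, fun x hx hne => ?_⟩
        rw [mem_insert] at hx
        rcases hx with hx | hx
        · rw [hx]; exact h2
        · exact h1 x hx hne

lemma Ord.exists_first {R : ℕ → ℕ → Prop} (h : Ord R) (S : Finset ℕ) (hS : S.Nonempty) :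
    ∃ a ∈ S, ∀ x ∈ S, x ≠ a → R a x := by
  have h' : Ord (fun x y => R y x) :=
    ⟨h.irr, fun x y hne => (h.tri x y hne).symm, fun x y z h1 h2 => h.tr z y x h2 h1⟩
  exact h'.exists_last S hS

/-- telescoping identity -/
lemma tel {R : ℕ → ℕ → Prop} [DecidableRel R] (hR : Ord R) (w : ℕ → ℝ) (S : Finset ℕ) :
    ∑ x ∈ S, w x * ∏ p ∈ S.filter (fun p => R p x), (1 - w p) + ∏ p ∈ S, (1 - w p) = 1 := by
  classical
  induction hn : S.card generalizing S with
  | zero =>
    rw [card_eq_zero] at hn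
    subst hn
    simp
  | succ n ih =>
    have hS : S.Nonempty := by rw [← card_pos]; omega
    obtain ⟨a, ha, hlast⟩ := hR.exists_last S hS
    have ih' := ih (S.erase a) (by rw [card_erase_of_mem ha]; omega)
    rw [← add_sum_erase S _ ha, ← mul_prod_erase S _ ha]
    have e1 : S.filter (fun p => R p a) = S.erase a := by
      ext x
      simp only [mem_filter, mem_erase]
      constructor
      · rintro ⟨h1, h2⟩
        exact ⟨fun hc => hR.irr a (hc ▸ h2), h1⟩
      · rintro ⟨h1, h2⟩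
        exact ⟨h2, hlast x h2 h1⟩
    have e2 : ∀ x ∈ S.erase a, S.filter (fun p => R p x) = (S.erase a).filter (fun p => R p x) := by
      intro x hx
      rw [mem_erase] at hx
      ext y
      simp only [mem_filter, mem_erase]
      constructor
      · rintro ⟨h1, h2⟩
        exact ⟨⟨fun hc => hR.asymm (hlast x hx.2 hx.1) (hc ▸ h2), h1⟩, h2⟩
      · rintro ⟨⟨_, h1⟩, h2⟩
        exact ⟨h1, h2⟩
    rw [e1, sum_congr rfl fun x hx => by rw [e2 x hx]]
    linear_combination ih'

/-! ### Free primes -/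

/-- primes of `M` at which `b` is not full -/
def free (M b : ℕ) : Finset ℕ := M.primeFactors.filter (fun p => b.factorization p < M.factorization p)

/-- `V_{b,x} = ∏_{p R x, v_p(b) < v_p(M)} (1 - 1/p)` -/
noncomputable def V (R : ℕ → ℕ → Prop) [DecidableRel R] (M b x : ℕ) : ℝ :=
  ∏ p ∈ (free M b).filter (fun p => R p x), (1 - 1 / (p : ℝ))

lemma mem_free {M b p : ℕ} :
    p ∈ free M b ↔ p ∈ M.primeFactors ∧ b.factorization p < M.factorization p := by
  unfold free; rw [mem_filter]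

lemma one_sub_nonneg (p : ℕ) : (0 : ℝ) ≤ 1 - 1 / (p : ℝ) := by
  rcases Nat.eq_zero_or_pos p with h | h
  · simp [h]
  · have : (1 : ℝ) / p ≤ 1 := by
      rw [div_le_one (by exact_mod_cast h)]
      exact_mod_cast h
    linarith

lemma one_sub_le_one (p : ℕ) : 1 - 1 / (p : ℝ) ≤ 1 := by
  have : (0 : ℝ) ≤ 1 / (p : ℝ) := by positivity
  linarith

lemma V_nonneg (R : ℕ → ℕ → Prop) [DecidableRel R] (M b x : ℕ) : 0 ≤ V R M b x :=
  prod_nonneg fun p _ => one_sub_nonneg p

lemma V_le_one (R : ℕ → ℕ → Prop) [DecidableRel R] (M b x : ℕ) : V R M b x ≤ 1 :=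
  prod_le_one (fun p _ => one_sub_nonneg p) fun p _ => one_sub_le_one p

lemma fact_le {M b : ℕ} (hM : 0 < M) (hb : b ∣ M) (p : ℕ) : b.factorization p ≤ M.factorization p := by
  have hb0 : b ≠ 0 := fun h => hM.ne' (Nat.eq_zero_of_zero_dvd (h ▸ hb))
  exact (Nat.factorization_le_iff_dvd hb0 hM.ne').2 hb p

/-- `b ν(b) = ∏_{v_p(b) < v_p(M)} (1 - 1/p)` -/
lemma diag {M b : ℕ} (hM : 0 < M) (hb : b ∣ M) :
    (b : ℝ) * nu M b = ∏ p ∈ free M b, (1 - 1 / (p : ℝ)) := by
  have h1 := gcd_eq_prod hM hb hb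
  rw [Nat.gcd_self] at h1
  rw [h1, nu_eq_prod M hM b hb, ← prod_mul_distrib]
  unfold free
  rw [prod_filter]
  refine prod_congr rfl fun p hp => ?_
  rw [min_self, loc_agree (Nat.prime_of_mem_primeFactors hp).pos (fact_le hM hb p)]

/-- **telescoping with the product factor visible** -/
theorem tel_free {R : ℕ → ℕ → Prop} [DecidableRel R] (hR : Ord R) {M b : ℕ} (hM : 0 < M)
    (hb : b ∣ M) :
    ∑ x ∈ free M b, 1 / (x : ℝ) * V R M b x + (b : ℝ) * nu M b = 1 := by
  rw [diag hM hb]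
  exact tel hR (fun x => 1 / (x : ℝ)) (free M b)

theorem sum_wV_le_one {R : ℕ → ℕ → Prop} [DecidableRel R] (hR : Ord R) {M b : ℕ} (hM : 0 < M)
    (hb : b ∣ M) : ∑ x ∈ free M b, 1 / (x : ℝ) * V R M b x ≤ 1 := by
  have h1 := tel_free hR hM hb
  have h2 : 0 ≤ (b : ℝ) * nu M b := mul_nonneg (Nat.cast_nonneg b) (nu_nonneg M b)
  linarith

/-! ### Prefix partners -/

/-- `c` is a prefix partner of `b`, first difference `x`, with `v_x(b) < v_x(c)` -/
structure Part (R : ℕ → ℕ → Prop) (b c x : ℕ) : Prop where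
  before : ∀ p, p.Prime → R p x → c.factorization p = b.factorization p
  at_x : b.factorization x < c.factorization x
  after : ∀ p, p.Prime → R x p → b.factorization p = 0 ∨ c.factorization p = 0

lemma Part.prime {R : ℕ → ℕ → Prop} {b c x : ℕ} (h : Part R b c x) : x.Prime := by
  by_contra hc
  have := h.at_x
  rw [Nat.factorization_eq_zero_of_not_prime c hc] at this
  omega

lemma Part.mem_free {R : ℕ → ℕ → Prop} {M b c x : ℕ} (hM : 0 < M) (hc : c ∣ M)
    (h : Part R b c x) : x ∈ free M b := by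
  have h1 := fact_le hM hc x
  have h2 := h.at_x
  rw [PrefixMx882.mem_free]
  refine ⟨?_, by omega⟩
  rw [← Nat.support_factorization, Finsupp.mem_support_iff]
  omega

/-- the local indicator of a prefix partner -/
noncomputable def ind (R : ℕ → ℕ → Prop) (b x p v : ℕ) : ℝ := by
  classical
  exact if (R p x → v = b.factorization p) ∧ (p = x → b.factorization p < v) ∧
    (R x p → b.factorization p = 0 ∨ v = 0) then 1 else 0

lemma ind_nonneg (R : ℕ → ℕ → Prop) (b x p v : ℕ) : 0 ≤ ind R b x p v := by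
  unfold ind; split_ifs <;> norm_num

/-- **exact value of the row at one `x`** -/
theorem row_x_eq {R : ℕ → ℕ → Prop} [DecidableRel R] (hR : Ord R) {M b x : ℕ} (hM : 0 < M)
    (hb : b ∣ M) (hx : x ∈ free M b) :
    ∑ c ∈ M.divisors, (Nat.gcd b c : ℝ) * nu M c *
        ∏ p ∈ M.primeFactors, ind R b x p (c.factorization p) =
      1 / (x : ℝ) * V R M b x *
        ∏ p ∈ M.primeFactors.filter (fun p => R x p ∧ p ∣ b), (1 - 1 / (p : ℝ)) := by
  classical
  rw [row_prod hM hb]
  rw [mem_free] at hx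
  have hxp := Nat.prime_of_mem_primeFactors hx.1
  -- the three local factors
  have key : ∀ p ∈ M.primeFactors, ∑ v ∈ range (M.factorization p + 1),
      (p : ℝ) ^ (min (b.factorization p) v) * nup p (M.factorization p) v * ind R b x p v =
      (if p = x then 1 / (x : ℝ) else 1) *
      (if R p x ∧ b.factorization p < M.factorization p then 1 - 1 / (p : ℝ) else 1) *
      (if R x p ∧ p ∣ b then 1 - 1 / (p : ℝ) else 1) := by
    intro p hp
    have hpp := Nat.prime_of_mem_primeFactors hp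
    have hle := fact_le hM hb p
    by_cases h1 : p = x
    · subst h1
      have hirr := hR.irr p
      rw [if_pos rfl, if_neg (fun h => hirr h.1), if_neg (fun h => hirr h.1), mul_one, mul_one,
        ← loc_up hpp.pos hx.2]
      symm
      refine sum_subset_zero_on_sdiff ?_ ?_ ?_
      · intro v hv
        rw [mem_Ico] at hv
        rw [mem_range]
        omega
      · intro v hv
        rw [mem_sdiff, mem_range, mem_Ico] at hv
        have : ind R b p p v = 0 := by
          unfold ind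
          rw [if_neg]
          rintro ⟨_, h2, _⟩
          have := h2 rfl
          omega
        rw [this, mul_zero]
      · intro v hv
        rw [mem_Ico] at hv
        have : ind R b p p v = 1 := by
          unfold ind
          rw [if_pos]
          exact ⟨fun h => absurd h hirr, fun _ => by omega, fun h => absurd h hirr⟩
        rw [this, mul_one, min_eq_left (by omega)]
    · rw [if_neg h1, one_mul]
      rcases hR.tri p x h1 with h2 | h2
      · have h3 : ¬ R x p := fun h => hR.asymm h2 h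
        rw [if_neg (fun h => h3 h.1 : ¬ (R x p ∧ p ∣ b)), mul_one]
        have e : ∑ v ∈ range (M.factorization p + 1),
            (p : ℝ) ^ (min (b.factorization p) v) * nup p (M.factorization p) v * ind R b x p v =
            (p : ℝ) ^ (b.factorization p) * nup p (M.factorization p) (b.factorization p) := by
          rw [sum_eq_single (b.factorization p)]
          · have : ind R b x p (b.factorization p) = 1 := by
              unfold ind
              rw [if_pos]
              exact ⟨fun _ => rfl, fun h => absurd h h1, fun h => absurd h h3⟩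
            rw [this, mul_one, min_self]
          · intro v _ hne
            have : ind R b x p v = 0 := by
              unfold ind
              rw [if_neg]
              rintro ⟨h4, _, _⟩
              exact hne (h4 h2)
            rw [this, mul_zero]
          · intro h
            rw [mem_range] at h
            omega
        rw [e, loc_agree hpp.pos hle]
        by_cases h4 : b.factorization p < M.factorization p
        · rw [if_pos h4, if_pos ⟨h2, h4⟩]
        · rw [if_neg h4, if_neg (fun h => h4 h.2)]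
      · have h3 : ¬ R p x := fun h => hR.asymm h2 h
        rw [if_neg (fun h => h3 h.1 : ¬ (R p x ∧ b.factorization p < M.factorization p)), one_mul]
        by_cases h4 : p ∣ b
        · have hb0 : b ≠ 0 := fun h => hM.ne' (Nat.eq_zero_of_zero_dvd (h ▸ hb))
          have hbp : 0 < b.factorization p := hpp.factorization_pos_of_dvd hb0 h4
          rw [if_pos ⟨h2, h4⟩]
          rw [sum_eq_single 0]
          · have : ind R b x p 0 = 1 := by
              unfold ind
              rw [if_pos]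
              exact ⟨fun h => absurd h h3, fun h => absurd h h1, fun _ => Or.inr rfl⟩
            rw [this, mul_one, Nat.min_zero, pow_zero, one_mul]
            unfold nup
            rw [if_pos (by omega), pow_zero, mul_one]
          · intro v _ hne
            have : ind R b x p v = 0 := by
              unfold ind
              rw [if_neg]
              rintro ⟨_, _, h5⟩
              rcases h5 h2 with h6 | h6
              · omega
              · exact hne h6
            rw [this, mul_zero]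
          · intro h
            rw [mem_range] at h
            omega
        · have hbp : b.factorization p = 0 := Nat.factorization_eq_zero_of_not_dvd h4
          rw [if_neg (fun h => h4 h.2), ← nup_total p (M.factorization p)]
          refine sum_congr rfl fun v _ => ?_
          have : ind R b x p v = 1 := by
            unfold ind
            rw [if_pos]
            exact ⟨fun h => absurd h h3, fun h => absurd h h1, fun _ => Or.inl hbp⟩
          rw [this, mul_one, hbp, Nat.zero_min, pow_zero, one_mul]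
  rw [prod_congr rfl key, prod_mul_distrib, prod_mul_distrib, prod_ite_eq' M.primeFactors x,
    if_pos hx.1]
  congr 1
  · congr 1
    unfold V free
    rw [filter_filter, ← prod_filter]
    refine prod_congr ?_ fun _ _ => rfl
    ext p
    simp only [mem_filter]
    tauto
  · rw [← prod_filter]

/-- any finite set of prefix partners of `b` with first difference `x` -/
theorem row_x {R : ℕ → ℕ → Prop} [DecidableRel R] (hR : Ord R) {M b x : ℕ} (hM : 0 < M)
    (hb : b ∣ M) (T : Finset ℕ) (hT : ∀ c ∈ T, c ∣ M ∧ Part R b c x) :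
    ∑ c ∈ T, (Nat.gcd b c : ℝ) * nu M c ≤ 1 / (x : ℝ) * V R M b x := by
  classical
  rcases T.eq_empty_or_nonempty with h0 | ⟨c0, hc0⟩
  · subst h0
    rw [sum_empty]
    exact mul_nonneg (by positivity) (V_nonneg R M b x)
  have hx : x ∈ free M b := (hT c0 hc0).2.mem_free hM (hT c0 hc0).1
  have e := row_x_eq hR hM hb hx
  have hle : ∑ c ∈ T, (Nat.gcd b c : ℝ) * nu M c ≤
      ∑ c ∈ M.divisors, (Nat.gcd b c : ℝ) * nu M c *
        ∏ p ∈ M.primeFactors, ind R b x p (c.factorization p) := by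
    have h1 : ∑ c ∈ T, (Nat.gcd b c : ℝ) * nu M c = ∑ c ∈ T, (Nat.gcd b c : ℝ) * nu M c *
        ∏ p ∈ M.primeFactors, ind R b x p (c.factorization p) := by
      refine sum_congr rfl fun c hc => ?_
      rw [prod_eq_one, mul_one]
      intro p hp
      have hpp := Nat.prime_of_mem_primeFactors hp
      obtain ⟨_, hP⟩ := hT c hc
      unfold ind
      rw [if_pos]
      refine ⟨fun h => hP.before p hpp h, ?_, fun h => hP.after p hpp h⟩
      rintro rfl
      exact hP.at_x
    rw [h1]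
    refine sum_le_sum_of_subset_of_nonneg ?_ ?_
    · intro c hc
      exact Nat.mem_divisors.2 ⟨(hT c hc).1, hM.ne'⟩
    · intro c _ _
      exact mul_nonneg (mul_nonneg (Nat.cast_nonneg _) (nu_nonneg M c))
        (prod_nonneg fun p _ => ind_nonneg R b x p _)
  refine hle.trans ?_
  rw [e]
  have h2 : ∏ p ∈ M.primeFactors.filter (fun p => R x p ∧ p ∣ b), (1 - 1 / (p : ℝ)) ≤ 1 :=
    prod_le_one (fun p _ => one_sub_nonneg p) fun p _ => one_sub_le_one p
  calc 1 / (x : ℝ) * V R M b x *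
        ∏ p ∈ M.primeFactors.filter (fun p => R x p ∧ p ∣ b), (1 - 1 / (p : ℝ))
      ≤ 1 / (x : ℝ) * V R M b x * 1 :=
        mul_le_mul_of_nonneg_left h2 (mul_nonneg (by positivity) (V_nonneg R M b x))
    _ = _ := mul_one _

/-- first differences are unique -/
lemma Part.unique {R : ℕ → ℕ → Prop} (hR : Ord R) {b c x y : ℕ} (h1 : Part R b c x)
    (h2 : Part R b c y) : x = y := by
  by_contra hne
  rcases hR.tri x y hne with h | h
  · have := h2.before x h1.prime h
    have := h1.at_x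
    omega
  · have := h1.before y h2.prime h
    have := h2.at_x
    omega

/-- **row bound** (with the diagonal) -/
theorem row {R : ℕ → ℕ → Prop} [DecidableRel R] (hR : Ord R) {M b : ℕ} (hM : 0 < M)
    (hb : b ∣ M) (T : Finset ℕ) (hT : ∀ c ∈ T, c ∣ M ∧ (c = b ∨ ∃ x, Part R b c x)) :
    ∑ c ∈ T, (Nat.gcd b c : ℝ) * nu M c ≤ 1 := by
  classical
  have hpos : ∀ c, 0 ≤ (Nat.gcd b c : ℝ) * nu M c := fun c =>
    mul_nonneg (Nat.cast_nonneg _) (nu_nonneg M c)
  have hsub : T ⊆ insert b ((free M b).biUnion fun x => T.filter (fun c => Part R b c x)) := by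
    intro c hc
    rw [mem_insert, mem_biUnion]
    rcases (hT c hc).2 with h | ⟨x, hx⟩
    · exact Or.inl h
    · exact Or.inr ⟨x, hx.mem_free hM (hT c hc).1, mem_filter.2 ⟨hc, hx⟩⟩
  calc ∑ c ∈ T, (Nat.gcd b c : ℝ) * nu M c
      ≤ ∑ c ∈ insert b ((free M b).biUnion fun x => T.filter (fun c => Part R b c x)),
          (Nat.gcd b c : ℝ) * nu M c := sum_le_sum_of_subset_of_nonneg hsub fun c _ _ => hpos c
    _ ≤ (Nat.gcd b b : ℝ) * nu M b +
        ∑ c ∈ (free M b).biUnion fun x => T.filter (fun c => Part R b c x),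
          (Nat.gcd b c : ℝ) * nu M c := by
        by_cases h : b ∈ (free M b).biUnion fun x => T.filter (fun c => Part R b c x)
        · rw [insert_eq_of_mem h]
          linarith [hpos b]
        · rw [sum_insert h]
    _ ≤ (b : ℝ) * nu M b + ∑ x ∈ free M b, ∑ c ∈ T.filter (fun c => Part R b c x),
          (Nat.gcd b c : ℝ) * nu M c := by
        rw [Nat.gcd_self]
        refine add_le_add le_rfl (le_of_eq ?_)
        refine sum_biUnion ?_
        intro x _ y _ hxy
        simp only [Function.onFun]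
        rw [disjoint_left]
        intro c hc hc'
        rw [mem_filter] at hc hc'
        exact hxy (hc.2.unique hR hc'.2)
    _ ≤ (b : ℝ) * nu M b + ∑ x ∈ free M b, 1 / (x : ℝ) * V R M b x := by
        refine add_le_add le_rfl (sum_le_sum fun x _ => ?_)
        refine row_x hR hM hb _ fun c hc => ?_
        rw [mem_filter] at hc
        exact ⟨(hT c hc.1).1, hc.2⟩
    _ = 1 := by rw [add_comm]; exact tel_free hR hM hb

/-- **weighted row bound**, product factor visible: `h x` bounds the weight of the partners whose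
first difference is `x` -/
theorem row_weighted {R : ℕ → ℕ → Prop} [DecidableRel R] (hR : Ord R) {M b : ℕ} (hM : 0 < M)
    (hb : b ∣ M) (T : Finset ℕ) (hT : ∀ c ∈ T, c ∣ M ∧ ∃ x, Part R b c x) (h G : ℕ → ℝ)
    (hh : ∀ x, 0 ≤ h x) (hG : ∀ c ∈ T, ∀ x, Part R b c x → G c ≤ h x) :
    ∑ c ∈ T, (Nat.gcd b c : ℝ) * nu M c * G c ≤
      ∑ x ∈ free M b, 1 / (x : ℝ) * V R M b x * h x := by
  classical
  have hpos : ∀ c, 0 ≤ (Nat.gcd b c : ℝ) * nu M c := fun c =>
    mul_nonneg (Nat.cast_nonneg _) (nu_nonneg M c)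
  have hT' : T = (free M b).biUnion fun x => T.filter (fun c => Part R b c x) := by
    ext c
    rw [mem_biUnion]
    constructor
    · intro hc
      obtain ⟨h1, x, hx⟩ := hT c hc
      exact ⟨x, hx.mem_free hM h1, mem_filter.2 ⟨hc, hx⟩⟩
    · rintro ⟨x, _, hx⟩
      exact (mem_filter.1 hx).1
  rw [hT', sum_biUnion]
  · refine sum_le_sum fun x _ => ?_
    have h1 : ∑ c ∈ T.filter (fun c => Part R b c x), (Nat.gcd b c : ℝ) * nu M c * G c ≤
        ∑ c ∈ T.filter (fun c => Part R b c x), (Nat.gcd b c : ℝ) * nu M c * h x := by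
      refine sum_le_sum fun c hc => ?_
      rw [mem_filter] at hc
      exact mul_le_mul_of_nonneg_left (hG c hc.1 x hc.2) (hpos c)
    refine h1.trans ?_
    rw [← sum_mul]
    refine mul_le_mul_of_nonneg_right ?_ (hh x)
    refine row_x hR hM hb _ fun c hc => ?_
    rw [mem_filter] at hc
    exact ⟨(hT c hc.1).1, hc.2⟩
  · intro x _ y _ hxy
    simp only [Function.onFun]
    rw [disjoint_left]
    intro c hc hc'
    rw [mem_filter] at hc hc'
    exact hxy (hc.2.unique hR hc'.2)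

/-- **pair bound**, one orientation: `U` any finite set of pairs, `v_x(b) < v_x(c)` at the first
difference (or `b = c`) -/
theorem pair {R : ℕ → ℕ → Prop} [DecidableRel R] (hR : Ord R) {M : ℕ} (hM : 0 < M)
    (U : Finset (ℕ × ℕ))
    (hU : ∀ u ∈ U, u.1 ∣ M ∧ u.2 ∣ M ∧ (u.2 = u.1 ∨ ∃ x, Part R u.1 u.2 x))
    (f : ℕ → ℝ) (hf : ∀ b, 0 ≤ f b) :
    ∑ u ∈ U, (Nat.gcd u.1 u.2 : ℝ) * nu M u.1 * nu M u.2 * f u.1 ≤
      ∑ b ∈ M.divisors, nu M b * f b := by
  classical
  have h1 : ∑ u ∈ U, (Nat.gcd u.1 u.2 : ℝ) * nu M u.1 * nu M u.2 * f u.1 =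
      ∑ b ∈ M.divisors, ∑ u ∈ U.filter (fun u => u.1 = b),
        (Nat.gcd u.1 u.2 : ℝ) * nu M u.1 * nu M u.2 * f u.1 :=
    (sum_fiberwise_of_maps_to (fun u hu => Nat.mem_divisors.2 ⟨(hU u hu).1, hM.ne'⟩) _).symm
  rw [h1]
  refine sum_le_sum fun b hb => ?_
  rw [Nat.mem_divisors] at hb
  have h2 : ∑ u ∈ U.filter (fun u => u.1 = b),
        (Nat.gcd u.1 u.2 : ℝ) * nu M u.1 * nu M u.2 * f u.1 =
      nu M b * f b * ∑ c ∈ (U.filter (fun u => u.1 = b)).image Prod.snd,
        (Nat.gcd b c : ℝ) * nu M c := by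
    rw [mul_sum, sum_image]
    · refine sum_congr rfl fun u hu => ?_
      rw [mem_filter] at hu
      rw [hu.2]
      ring
    · intro u hu u' hu' he
      rw [mem_coe, mem_filter] at hu hu'
      exact Prod.ext (hu.2.trans hu'.2.symm) he
  rw [h2]
  have h3 : ∑ c ∈ (U.filter (fun u => u.1 = b)).image Prod.snd, (Nat.gcd b c : ℝ) * nu M c ≤ 1 := by
    refine row hR hM hb.1 _ fun c hc => ?_
    rw [mem_image] at hc
    obtain ⟨u, hu, rfl⟩ := hc
    rw [mem_filter] at hu
    have := hU u hu.1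
    rw [hu.2] at this
    exact this.2
  calc nu M b * f b * ∑ c ∈ (U.filter (fun u => u.1 = b)).image Prod.snd,
        (Nat.gcd b c : ℝ) * nu M c
      ≤ nu M b * f b * 1 := mul_le_mul_of_nonneg_left h3 (mul_nonneg (nu_nonneg M b) (hf b))
    _ = _ := mul_one _

/-- **weighted pair bound**, one orientation, product factor visible -/
theorem pair_weighted {R : ℕ → ℕ → Prop} [DecidableRel R] (hR : Ord R) {M : ℕ} (hM : 0 < M)
    (U : Finset (ℕ × ℕ)) (hU : ∀ u ∈ U, u.1 ∣ M ∧ u.2 ∣ M ∧ ∃ x, Part R u.1 u.2 x)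
    (h : ℕ → ℕ → ℝ) (F : ℕ → ℕ → ℝ) (hh : ∀ b x, 0 ≤ h b x)
    (hF : ∀ u ∈ U, ∀ x, Part R u.1 u.2 x → F u.1 u.2 ≤ h u.1 x) :
    ∑ u ∈ U, (Nat.gcd u.1 u.2 : ℝ) * nu M u.1 * nu M u.2 * F u.1 u.2 ≤
      ∑ b ∈ M.divisors, nu M b * ∑ x ∈ free M b, 1 / (x : ℝ) * V R M b x * h b x := by
  classical
  have h1 : ∑ u ∈ U, (Nat.gcd u.1 u.2 : ℝ) * nu M u.1 * nu M u.2 * F u.1 u.2 =
      ∑ b ∈ M.divisors, ∑ u ∈ U.filter (fun u => u.1 = b),
        (Nat.gcd u.1 u.2 : ℝ) * nu M u.1 * nu M u.2 * F u.1 u.2 :=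
    (sum_fiberwise_of_maps_to (fun u hu => Nat.mem_divisors.2 ⟨(hU u hu).1, hM.ne'⟩) _).symm
  rw [h1]
  refine sum_le_sum fun b hb => ?_
  rw [Nat.mem_divisors] at hb
  have h2 : ∑ u ∈ U.filter (fun u => u.1 = b),
        (Nat.gcd u.1 u.2 : ℝ) * nu M u.1 * nu M u.2 * F u.1 u.2 =
      nu M b * ∑ c ∈ (U.filter (fun u => u.1 = b)).image Prod.snd,
        (Nat.gcd b c : ℝ) * nu M c * F b c := by
    rw [mul_sum, sum_image]
    · refine sum_congr rfl fun u hu => ?_
      rw [mem_filter] at hu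
      rw [hu.2]
      ring
    · intro u hu u' hu' he
      rw [mem_coe, mem_filter] at hu hu'
      exact Prod.ext (hu.2.trans hu'.2.symm) he
  rw [h2]
  refine mul_le_mul_of_nonneg_left ?_ (nu_nonneg M b)
  refine row_weighted hR hM hb.1 _ ?_ (h b) (F b) (hh b) ?_
  · intro c hc
    rw [mem_image] at hc
    obtain ⟨u, hu, rfl⟩ := hc
    rw [mem_filter] at hu
    have := hU u hu.1
    rw [hu.2] at this
    exact this.2
  · intro c hc x hx
    rw [mem_image] at hc
    obtain ⟨u, hu, rfl⟩ := hc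
    rw [mem_filter] at hu
    have := hF u hu.1 x
    rw [hu.2] at this
    exact this hx

/-- prefix pairs: no differing prime comes strictly before a common prime -/
def Pre (R : ℕ → ℕ → Prop) (b c : ℕ) : Prop :=
  ∀ r p, r.Prime → r ∣ b → r ∣ c → p.Prime → b.factorization p ≠ c.factorization p → ¬ R p r

lemma Pre.cases {R : ℕ → ℕ → Prop} (hR : Ord R) {b c : ℕ} (hb : b ≠ 0) (hc : c ≠ 0)
    (h : Pre R b c) : c = b ∨ (∃ x, Part R b c x) ∨ ∃ x, Part R c b x := by
  classical
  by_cases hbc : c = b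
  · exact Or.inl hbc
  right
  set S := (b.primeFactors ∪ c.primeFactors).filter
    (fun p => b.factorization p ≠ c.factorization p) with hS
  have hmem : ∀ p, p.Prime → b.factorization p ≠ c.factorization p → p ∈ S := by
    intro p hp hne
    rw [hS, mem_filter, mem_union, ← Nat.support_factorization, ← Nat.support_factorization,
      Finsupp.mem_support_iff, Finsupp.mem_support_iff]
    exact ⟨by omega, hne⟩
  have hSne : S.Nonempty := by
    rw [nonempty_iff_ne_empty]
    intro h0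
    apply hbc
    refine Nat.eq_of_factorization_eq hc hb fun p => ?_
    by_contra hne
    by_cases hp : p.Prime
    · have := hmem p hp (Ne.symm hne)
      rw [h0] at this
      simp at this
    · rw [Nat.factorization_eq_zero_of_not_prime c hp,
        Nat.factorization_eq_zero_of_not_prime b hp] at hne
      exact hne rfl
  obtain ⟨x, hxS, hfirst⟩ := hR.exists_first S hSne
  have hxne : b.factorization x ≠ c.factorization x := (mem_filter.1 hxS).2
  have hxp : x.Prime := by
    by_contra hp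
    rw [Nat.factorization_eq_zero_of_not_prime c hp,
        Nat.factorization_eq_zero_of_not_prime b hp] at hxne
    exact hxne rfl
  have hbef : ∀ p, p.Prime → R p x → c.factorization p = b.factorization p := by
    intro p hp hpx
    by_contra hne
    have h1 := hmem p hp (Ne.symm hne)
    have h2 : p ≠ x := fun he => hR.irr x (he ▸ hpx)
    exact hR.asymm hpx (hfirst p h1 h2)
  have haft : ∀ p, p.Prime → R x p → b.factorization p = 0 ∨ c.factorization p = 0 := by
    intro p hp hxp'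
    by_contra hcon
    push Not at hcon
    have h1 : p ∣ b := Nat.dvd_of_factorization_pos hcon.1
    have h2 : p ∣ c := Nat.dvd_of_factorization_pos hcon.2
    exact h p x hp h1 h2 hxp hxne hxp'
  rcases lt_or_gt_of_ne hxne with h1 | h1
  · exact Or.inl ⟨x, hbef, h1, haft⟩
  · exact Or.inr ⟨x, fun p hp hpx => (hbef p hp hpx).symm, h1, fun p hp hpx => (haft p hp hpx).symm⟩

/-- **pair bound**, both orientations, arbitrary pair weight `F` -/
theorem pair_symm {R : ℕ → ℕ → Prop} [DecidableRel R] (hR : Ord R) {M : ℕ} (hM : 0 < M)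
    (U : Finset (ℕ × ℕ)) (hU : ∀ u ∈ U, u.1 ∣ M ∧ u.2 ∣ M ∧ Pre R u.1 u.2)
    (f : ℕ → ℝ) (hf : ∀ b, 0 ≤ f b) (F : ℕ → ℕ → ℝ)
    (hF1 : ∀ u ∈ U, F u.1 u.2 ≤ f u.1) (hF2 : ∀ u ∈ U, F u.1 u.2 ≤ f u.2) :
    ∑ u ∈ U, (Nat.gcd u.1 u.2 : ℝ) * nu M u.1 * nu M u.2 * F u.1 u.2 ≤
      2 * ∑ b ∈ M.divisors, nu M b * f b := by
  classical
  set A := U.filter (fun u => u.2 = u.1 ∨ ∃ x, Part R u.1 u.2 x) with hA
  set B := U.filter (fun u => ¬ (u.2 = u.1 ∨ ∃ x, Part R u.1 u.2 x)) with hB
  have hsplit := (sum_filter_add_sum_filter_not U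
    (fun u => u.2 = u.1 ∨ ∃ x, Part R u.1 u.2 x)
    (fun u : ℕ × ℕ => (Nat.gcd u.1 u.2 : ℝ) * nu M u.1 * nu M u.2 * F u.1 u.2)).symm
  have hw : ∀ u : ℕ × ℕ, 0 ≤ (Nat.gcd u.1 u.2 : ℝ) * nu M u.1 * nu M u.2 := fun u =>
    mul_nonneg (mul_nonneg (Nat.cast_nonneg _) (nu_nonneg M _)) (nu_nonneg M _)
  have h1 : ∑ u ∈ A, (Nat.gcd u.1 u.2 : ℝ) * nu M u.1 * nu M u.2 * F u.1 u.2 ≤
      ∑ b ∈ M.divisors, nu M b * f b := by
    refine le_trans (sum_le_sum fun u hu => ?_) (pair hR hM A ?_ f hf)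
    · exact mul_le_mul_of_nonneg_left (hF1 u (mem_filter.1 hu).1) (hw u)
    · intro u hu
      rw [hA, mem_filter] at hu
      have := hU u hu.1
      exact ⟨this.1, this.2.1, hu.2⟩
  have h2 : ∑ u ∈ B, (Nat.gcd u.1 u.2 : ℝ) * nu M u.1 * nu M u.2 * F u.1 u.2 ≤
      ∑ b ∈ M.divisors, nu M b * f b := by
    have e : ∑ u ∈ B, (Nat.gcd u.1 u.2 : ℝ) * nu M u.1 * nu M u.2 * f u.2 =
        ∑ u ∈ B.image Prod.swap, (Nat.gcd u.1 u.2 : ℝ) * nu M u.1 * nu M u.2 * f u.1 := by
      rw [sum_image (fun u _ u' _ h => Prod.swap_injective h)]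
      refine sum_congr rfl fun u _ => ?_
      simp only [Prod.fst_swap, Prod.snd_swap]
      rw [Nat.gcd_comm]
      ring
    refine le_trans (sum_le_sum (g := fun u : ℕ × ℕ =>
      (Nat.gcd u.1 u.2 : ℝ) * nu M u.1 * nu M u.2 * f u.2) fun u hu => ?_) ?_
    · exact mul_le_mul_of_nonneg_left (hF2 u (mem_filter.1 hu).1) (hw u)
    · rw [e]
      refine pair hR hM _ ?_ f hf
      intro u hu
      rw [mem_image] at hu
      obtain ⟨v, hv, rfl⟩ := hu
      rw [hB, mem_filter] at hv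
      obtain ⟨h3, h4, h5⟩ := hU v hv.1
      have hv1 : v.1 ≠ 0 := fun h => hM.ne' (Nat.eq_zero_of_zero_dvd (h ▸ h3))
      have hv2 : v.2 ≠ 0 := fun h => hM.ne' (Nat.eq_zero_of_zero_dvd (h ▸ h4))
      refine ⟨h4, h3, ?_⟩
      simp only [Prod.fst_swap, Prod.snd_swap]
      rcases h5.cases hR hv1 hv2 with h6 | h6 | h6
      · exact absurd (Or.inl h6) hv.2
      · exact absurd (Or.inr h6) hv.2
      · exact Or.inr h6
  rw [hsplit]
  linarith

/-- form version -/
theorem frm_pre {R : ℕ → ℕ → Prop} [DecidableRel R] (hR : Ord R) {M : ℕ} (hM : 0 < M)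
    (f : ℕ → ℝ) (hf : ∀ b, 0 ≤ f b) (F : ℕ → ℕ → ℝ)
    (hF0 : ∀ b c, b ∣ M → c ∣ M → ¬ Pre R b c → F b c ≤ 0)
    (hF1 : ∀ b c, b ∣ M → c ∣ M → Pre R b c → F b c ≤ f b ∧ F b c ≤ f c) :
    frm M F ≤ 2 * ∑ b ∈ M.divisors, nu M b * f b := by
  classical
  set D := M.divisors ×ˢ M.divisors with hD
  have h0 : frm M F = ∑ u ∈ D, (Nat.gcd u.1 u.2 : ℝ) * nu M u.1 * nu M u.2 * F u.1 u.2 := by
    unfold frm
    rw [hD, sum_product]
  have hw : ∀ u : ℕ × ℕ, 0 ≤ (Nat.gcd u.1 u.2 : ℝ) * nu M u.1 * nu M u.2 := fun u =>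
    mul_nonneg (mul_nonneg (Nat.cast_nonneg _) (nu_nonneg M _)) (nu_nonneg M _)
  have hmem : ∀ u ∈ D, u.1 ∣ M ∧ u.2 ∣ M := by
    intro u hu
    rw [hD, mem_product, Nat.mem_divisors, Nat.mem_divisors] at hu
    exact ⟨hu.1.1, hu.2.1⟩
  rw [h0, ← sum_filter_add_sum_filter_not D (fun u => Pre R u.1 u.2)]
  have h1 := pair_symm hR hM (D.filter (fun u => Pre R u.1 u.2))
    (fun u hu => by
      rw [mem_filter] at hu
      exact ⟨(hmem u hu.1).1, (hmem u hu.1).2, hu.2⟩) f hf F
    (fun u hu => by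
      rw [mem_filter] at hu
      exact (hF1 _ _ (hmem u hu.1).1 (hmem u hu.1).2 hu.2).1)
    (fun u hu => by
      rw [mem_filter] at hu
      exact (hF1 _ _ (hmem u hu.1).1 (hmem u hu.1).2 hu.2).2)
  have h2 : ∑ u ∈ D.filter (fun u => ¬ Pre R u.1 u.2),
      (Nat.gcd u.1 u.2 : ℝ) * nu M u.1 * nu M u.2 * F u.1 u.2 ≤ 0 := by
    refine sum_nonpos fun u hu => ?_
    rw [mem_filter] at hu
    exact mul_nonpos_of_nonneg_of_nonpos (hw u) (hF0 _ _ (hmem u hu.1).1 (hmem u hu.1).2 hu.2)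
  linarith

/-! ### The two orders -/

/-- smallest prime first -/
theorem pair_lt {M : ℕ} (hM : 0 < M) (U : Finset (ℕ × ℕ))
    (hU : ∀ u ∈ U, u.1 ∣ M ∧ u.2 ∣ M ∧ Pre (fun x y => x < y) u.1 u.2)
    (f : ℕ → ℝ) (hf : ∀ b, 0 ≤ f b) (F : ℕ → ℕ → ℝ)
    (hF1 : ∀ u ∈ U, F u.1 u.2 ≤ f u.1) (hF2 : ∀ u ∈ U, F u.1 u.2 ≤ f u.2) :
    ∑ u ∈ U, (Nat.gcd u.1 u.2 : ℝ) * nu M u.1 * nu M u.2 * F u.1 u.2 ≤
      2 * ∑ b ∈ M.divisors, nu M b * f b :=
  pair_symm ordLt hM U hU f hf F hF1 hF2

/-- largest prime first -/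
theorem pair_gt {M : ℕ} (hM : 0 < M) (U : Finset (ℕ × ℕ))
    (hU : ∀ u ∈ U, u.1 ∣ M ∧ u.2 ∣ M ∧ Pre (fun x y => y < x) u.1 u.2)
    (f : ℕ → ℝ) (hf : ∀ b, 0 ≤ f b) (F : ℕ → ℕ → ℝ)
    (hF1 : ∀ u ∈ U, F u.1 u.2 ≤ f u.1) (hF2 : ∀ u ∈ U, F u.1 u.2 ≤ f u.2) :
    ∑ u ∈ U, (Nat.gcd u.1 u.2 : ℝ) * nu M u.1 * nu M u.2 * F u.1 u.2 ≤
      2 * ∑ b ∈ M.divisors, nu M b * f b :=
  pair_symm ordGt hM U hU f hf F hF1 hF2

end Crest.Agent.R4C.PrefixMx882
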