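import Crest.Agent.R4C.CrCoin_935
import Crest.Agent.R4C.PrefixM_882

/-!
# Row 4: bridge between the `q`-language and the `b`-language (helper882)

`KCb γ` is the interface `KCl γ` of helper935's `CrCoin_935` written for sets `B` of divisors of `M`
(`b = M / q`, `L = 2 ρ M`, `t = gcd(b,c) / L`, `s = b / gcd b c`, `s' = c / gcd b c`).

* `KCl_of_KCb : KCb γ → KCl γ`.
-/

set_option autoImplicit false

open Finset

namespace Crest.Agent.R4C.Bridgex882

open Crest.Agent.R4C.Basex935 Crest.Agent.R4C.PrefixMx882 Crest.Agent.R4C.CrCountx935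
  Crest.Agent.R4C.CrCoinx935

/-- an offset killed by a label, `b`-language -/
def killedB (lam : ℕ → ℕ → Option ℤ) (b c : ℕ) (h : ℤ) : Prop :=
  (∃ p : ℕ, p.Prime ∧ p ∣ c / Nat.gcd b c ∧ ∃ a, lam b p = some a ∧
    (p : ℤ) ∣ h - ((b / Nat.gcd b c : ℕ) : ℤ) * a) ∨
  (∃ p : ℕ, p.Prime ∧ p ∣ b / Nat.gcd b c ∧ ∃ a, lam c p = some a ∧
    (p : ℤ) ∣ h + ((c / Nat.gcd b c : ℕ) : ℤ) * a)

/-- charged primes, `b`-language -/
def chargedB (lam : ℕ → ℕ → Option ℤ) (b c : ℕ) (h : ℤ) (p : ℕ) : Prop :=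
  (p ∣ c / Nat.gcd b c ∧ lam b p ≠ none) ∨ (p ∣ b / Nat.gcd b c ∧ lam c p ≠ none) ∨
    (¬ p ∣ b / Nat.gcd b c ∧ ¬ p ∣ c / Nat.gcd b c ∧ ∃ a a', lam b p = some a ∧ lam c p = some a' ∧
      (p : ℤ) ∣ h - ((b / Nat.gcd b c : ℕ) : ℤ) * a + ((c / Nat.gcd b c : ℕ) : ℤ) * a')

open Classical in
/-- boost, `b`-language -/
noncomputable def boostB (M : ℕ) (lam : ℕ → ℕ → Option ℤ) (b c : ℕ) (h : ℤ) : ℝ :=
  ∏ p ∈ free M b ∪ free M c, (if chargedB lam b c h p then (1 - 1 / (p : ℝ))⁻¹ else 1)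

/-- linked offsets -/
noncomputable def Lnk (γ L : ℝ) (b c : ℕ) : Finset ℤ :=
  Hf γ (L / (Nat.gcd b c : ℕ)) (b / Nat.gcd b c) (c / Nat.gcd b c)

open Classical in
/-- energy of a pair, `b`-language (without the factor `L`) -/
noncomputable def EnB (γ L : ℝ) (M : ℕ) (lam : ℕ → ℕ → Option ℤ) (b c : ℕ) : ℝ :=
  (Nat.gcd b c : ℝ) * nu M b * nu M c *
    ∑ h ∈ (Lnk γ L b c).filter (fun h => ¬ killedB lam b c h), boostB M lam b c h

/-- **the interface in the `b`-language** -/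
def KCb (γ : ℝ) : Prop := ∃ c : ℝ, 0 < c ∧ ∃ C : ℝ, ∃ δ : ℝ, 0 < δ ∧ ∃ P : ℕ,
  ∀ (M : ℕ) (B : Finset ℕ) (L : ℝ), 0 < M → B ⊆ M.divisors → 0 < L →
    (∀ b ∈ B, P ≤ M / b) → (∀ b ∈ B, L ≤ δ * b) →
    1 / 2 ≤ L * ∑ b ∈ B, nu M b → L * ∑ b ∈ B, nu M b ≤ 1 →
    ∃ B' ⊆ B, ∃ lam : ℕ → ℕ → Option ℤ, c ≤ L * ∑ b ∈ B', nu M b ∧
      L * ∑ b ∈ B', ∑ b' ∈ B'.erase b, EnB γ L M lam b b' ≤ C

/-! ### Selection of a subset with mass in `[1/2, 1]` -/

lemma exists_half (f : ℕ → ℝ) (S : Finset ℕ) (h0 : ∀ q ∈ S, 0 ≤ f q) (h1 : ∀ q ∈ S, f q ≤ 1 / 2)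
    (h2 : 1 / 2 ≤ ∑ q ∈ S, f q) : ∃ T ⊆ S, 1 / 2 ≤ ∑ q ∈ T, f q ∧ ∑ q ∈ T, f q ≤ 1 := by
  classical
  induction S using Finset.induction_on with
  | empty => simp at h2; linarith
  | insert a S ha ih =>
    by_cases h3 : ∑ q ∈ insert a S, f q ≤ 1
    · exact ⟨insert a S, subset_rfl, h2, h3⟩
    · push Not at h3
      rw [sum_insert ha] at h3
      have h4 := h1 a (mem_insert_self _ _)
      obtain ⟨T, hT, h5⟩ := ih (fun q hq => h0 q (mem_insert_of_mem hq))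
        (fun q hq => h1 q (mem_insert_of_mem hq)) (by linarith)
      exact ⟨T, hT.trans (subset_insert _ _), h5⟩

/-! ### Dictionary -/

lemma mem_free_div {M q p : ℕ} (hM : 0 < M) (hq : q ∣ M) :
    p ∈ free M (M / q) ↔ p ∈ q.primeFactors := by
  have hq0 : 0 < q := Nat.pos_of_dvd_of_pos hq hM
  have hb0 : 0 < M / q := Nat.div_pos (Nat.le_of_dvd hM hq) hq0
  have e : M.factorization p = (M / q).factorization p + q.factorization p := by
    have h1 : (M / q) * q = M := Nat.div_mul_cancel hq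
    conv_lhs => rw [← h1]
    rw [Nat.factorization_mul hb0.ne' hq0.ne', Finsupp.add_apply]
  rw [mem_free, e]
  constructor
  · rintro ⟨_, h2⟩
    rw [← Nat.support_factorization, Finsupp.mem_support_iff]
    omega
  · intro h
    have h1 := h
    rw [← Nat.support_factorization, Finsupp.mem_support_iff] at h
    exact ⟨Nat.primeFactors_mono hq hM.ne' h1, by omega⟩

lemma free_union {M q q' : ℕ} (hM : 0 < M) (hq : q ∣ M) (hq' : q' ∣ M) :
    free M (M / q) ∪ free M (M / q') = (q * q').primeFactors := by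
  have hq0 : 0 < q := Nat.pos_of_dvd_of_pos hq hM
  have hq0' : 0 < q' := Nat.pos_of_dvd_of_pos hq' hM
  ext p
  rw [mem_union, mem_free_div hM hq, mem_free_div hM hq', Nat.primeFactors_mul hq0.ne' hq0'.ne',
    mem_union]

lemma cof_div' {M q q' : ℕ} (hM : 0 < M) (hq : q ∣ M) (hq' : q' ∣ M) :
    (M / q') / Nat.gcd (M / q) (M / q') = q / Nat.gcd q q' := by
  rw [Nat.gcd_comm (M / q), cof_div hM hq' hq, Nat.gcd_comm]

lemma killed_div {M q q' : ℕ} (hM : 0 < M) (hq : q ∣ M) (hq' : q' ∣ M)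
    (lam : ℕ → ℕ → Option ℤ) (h : ℤ) :
    killedL (fun r => lam (M / r)) q q' (q' / Nat.gcd q q') (q / Nat.gcd q q') h ↔
      killedB lam (M / q) (M / q') h := by
  unfold killedL killedB
  rw [cof_div' hM hq hq', cof_div hM hq hq']

lemma charged_div {M q q' : ℕ} (hM : 0 < M) (hq : q ∣ M) (hq' : q' ∣ M)
    (lam : ℕ → ℕ → Option ℤ) (h : ℤ) (p : ℕ) :
    charged (fun r => lam (M / r)) q q' (q' / Nat.gcd q q') (q / Nat.gcd q q') h p ↔
      chargedB lam (M / q) (M / q') h p := by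
  unfold charged chargedB
  rw [cof_div' hM hq hq', cof_div hM hq hq']

lemma boost_div {M q q' : ℕ} (hM : 0 < M) (hq : q ∣ M) (hq' : q' ∣ M)
    (lam : ℕ → ℕ → Option ℤ) (h : ℤ) :
    boost (fun r => lam (M / r)) q q' (q' / Nat.gcd q q') (q / Nat.gcd q q') h =
      boostB M lam (M / q) (M / q') h := by
  classical
  unfold boost boostB
  rw [free_union hM hq hq']
  refine prod_congr rfl fun p _ => ?_
  by_cases hc : chargedB lam (M / q) (M / q') h p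
  · rw [if_pos hc, if_pos ((charged_div hM hq hq' lam h p).2 hc)]
  · rw [if_neg hc, if_neg (fun h1 => hc ((charged_div hM hq hq' lam h p).1 h1))]

lemma Hf_div {γ ρ : ℝ} {M q q' : ℕ} (hM : 0 < M) (hq : q ∣ M) (hq' : q' ∣ M) :
    Hf γ (2 * ρ * (Nat.lcm q q' : ℕ)) (q' / Nat.gcd q q') (q / Nat.gcd q q') =
      Lnk γ (2 * ρ * M) (M / q) (M / q') := by
  have hq0 : 0 < q := Nat.pos_of_dvd_of_pos hq hM
  have hq0' : 0 < q' := Nat.pos_of_dvd_of_pos hq' hM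
  have hl0 : 0 < Nat.lcm q q' := Nat.lcm_pos hq0 hq0'
  have hl0' : ((Nat.lcm q q' : ℕ) : ℝ) ≠ 0 := by exact_mod_cast hl0.ne'
  have hM0 : (M : ℝ) ≠ 0 := by exact_mod_cast hM.ne'
  unfold Lnk
  rw [cof_div' hM hq hq', cof_div hM hq hq', gcd_div_div hM hq hq',
    Nat.cast_div (Nat.lcm_dvd hq hq') hl0']
  congr 1
  field_simp

/-- **bound of the averaged energy in the `b`-language** -/
theorem EnA_le_EnB {γ ρ : ℝ} {M q q' : ℕ} (hM : 0 < M) (hq : q ∣ M) (hq' : q' ∣ M)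
    (lam : ℕ → ℕ → Option ℤ) :
    EnA γ ρ (fun r => lam (M / r)) q q' ≤ M * EnB γ (2 * ρ * M) M lam (M / q) (M / q') := by
  classical
  have hq0 : 0 < q := Nat.pos_of_dvd_of_pos hq hM
  have hq0' : 0 < q' := Nat.pos_of_dvd_of_pos hq' hM
  refine (EnA_le hq0 hq0').trans (le_of_eq ?_)
  rw [weight_div hM hq hq', Hf_div hM hq hq']
  unfold EnB
  rw [mul_assoc (M : ℝ)]
  congr 2
  refine sum_congr ?_ fun h _ => boost_div hM hq hq' lam h
  ext h
  rw [mem_filter, mem_filter, killed_div hM hq hq']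

theorem KCl_of_KCb {γ : ℝ} (H : KCb γ) : KCl γ := by
  classical
  obtain ⟨c, hc, C, δ, hδ, P, H⟩ := H
  refine ⟨c / 2, by linarith, C / 2, min (δ / 2) (1 / 4), lt_min (by linarith) (by norm_num), P,
    fun Q ρ hQ hρ hmass hs => ?_⟩
  -- the common multiple
  set M := Q.lcm id with hMdef
  have hdvd : ∀ q ∈ Q, q ∣ M := fun q hq => Finset.dvd_lcm (f := id) hq
  have hM : 0 < M := by
    rw [Nat.pos_iff_ne_zero, hMdef, Ne, Finset.lcm_eq_zero_iff]
    rintro ⟨q, hq, h0⟩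
    have := (hQ q hq).1
    simp only [id] at h0
    omega
  have hMr : (0 : ℝ) < M := by exact_mod_cast hM
  have hL : 0 < 2 * ρ * M := by positivity
  -- selection
  obtain ⟨Q1, hQ1, h1, h2⟩ := exists_half (fun q => 2 * ρ * (Nat.totient q : ℝ)) Q
    (fun q _ => by positivity)
    (fun q hq => by
      have h3 : (Nat.totient q : ℝ) ≤ q := by exact_mod_cast Nat.totient_le q
      have h4 : ρ * q ≤ 1 / 4 := (hs q hq).trans (min_le_right _ _)
      have h5 : ρ * (Nat.totient q : ℝ) ≤ ρ * q := mul_le_mul_of_nonneg_left h3 hρ.le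
      linarith)
    (by
      rw [← mul_sum]
      linarith)
  rw [← mul_sum] at h1 h2
  have hQ1d : ∀ q ∈ Q1, q ∣ M := fun q hq => hdvd q (hQ1 hq)
  set B := Q1.image (fun q => M / q) with hB
  have hmassB : ∀ T : Finset ℕ, T ⊆ Q1 → ∑ b ∈ T.image (fun q => M / q), nu M b =
      (∑ q ∈ T, (Nat.totient q : ℝ)) / M := by
    intro T hT
    rw [sum_image_div hM T (fun q hq => hQ1d q (hT hq)), sum_div]
    refine sum_congr rfl fun q hq => ?_
    rw [mass_div hM (hQ1d q (hT hq))]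
    field_simp
  have hBd : B ⊆ M.divisors := by
    intro b hb
    rw [hB, mem_image] at hb
    obtain ⟨q, hq, rfl⟩ := hb
    exact Nat.mem_divisors.2 ⟨Nat.div_dvd_of_dvd (hQ1d q hq), hM.ne'⟩
  have hmB : (2 * ρ * M) * ∑ b ∈ B, nu M b = 2 * ρ * ∑ q ∈ Q1, (Nat.totient q : ℝ) := by
    rw [hB, hmassB Q1 subset_rfl]
    field_simp
  obtain ⟨B', hB', lam, h3, h4⟩ := H M B (2 * ρ * M) hM hBd hL
    (fun b hb => by
      rw [hB, mem_image] at hb
      obtain ⟨q, hq, rfl⟩ := hb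
      rw [Nat.div_div_self (hQ1d q hq) hM.ne']
      exact (hQ q (hQ1 hq)).2)
    (fun b hb => by
      rw [hB, mem_image] at hb
      obtain ⟨q, hq, rfl⟩ := hb
      have hq0 : (0 : ℝ) < q := by exact_mod_cast (hQ q (hQ1 hq)).1
      rw [Nat.cast_div (hQ1d q hq) hq0.ne']
      have h5 : ρ * q ≤ δ / 2 := (hs q (hQ1 hq)).trans (min_le_left _ _)
      rw [← mul_div_assoc, le_div_iff₀ hq0]
      nlinarith)
    (by rw [hmB]; exact h1) (by rw [hmB]; exact h2)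
  -- back to `Q`
  set Q' := Q1.filter (fun q => M / q ∈ B') with hQ'
  have hQ'1 : Q' ⊆ Q1 := filter_subset _ _
  have himg : Q'.image (fun q => M / q) = B' := by
    ext b
    rw [mem_image]
    constructor
    · rintro ⟨q, hq, rfl⟩
      exact (mem_filter.1 hq).2
    · intro hb
      have h5 := hB' hb
      rw [hB, mem_image] at h5
      obtain ⟨q, hq, rfl⟩ := h5
      exact ⟨q, mem_filter.2 ⟨hq, hb⟩, rfl⟩
  have hinj : ∀ q ∈ Q', ∀ q' ∈ Q', M / q = M / q' → q = q' := by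
    intro q hq q' hq' he
    have h5 := Nat.div_div_self (hQ1d q (hQ'1 hq)) hM.ne'
    have h6 := Nat.div_div_self (hQ1d q' (hQ'1 hq')) hM.ne'
    rw [← h5, ← h6, he]
  refine ⟨Q', hQ'1.trans hQ1, fun q p => lam (M / q) p, ?_, ?_⟩
  · have h5 : (2 * ρ * M) * ∑ b ∈ B', nu M b = 2 * ρ * ∑ q ∈ Q', (Nat.totient q : ℝ) := by
      rw [← himg, hmassB Q' hQ'1]
      field_simp
    rw [h5] at h3
    linarith
  · have h5 : ∑ q ∈ Q', ∑ q' ∈ Q'.erase q, EnA γ ρ (fun q p => lam (M / q) p) q q' ≤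
        ∑ q ∈ Q', ∑ q' ∈ Q'.erase q, M * EnB γ (2 * ρ * M) M lam (M / q) (M / q') := by
      refine sum_le_sum fun q hq => sum_le_sum fun q' hq' => ?_
      exact EnA_le_EnB hM (hQ1d q (hQ'1 hq)) (hQ1d q' (hQ'1 (mem_of_mem_erase hq'))) lam
    have h6 : ∑ q ∈ Q', ∑ q' ∈ Q'.erase q, M * EnB γ (2 * ρ * M) M lam (M / q) (M / q') =
        M * ∑ b ∈ B', ∑ b' ∈ B'.erase b, EnB γ (2 * ρ * M) M lam b b' := by
      rw [mul_sum, ← himg, sum_image hinj]
      refine sum_congr rfl fun q hq => ?_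
      rw [mul_sum]
      have h7 : (Q'.image (fun q => M / q)).erase (M / q) =
          (Q'.erase q).image (fun q => M / q) := by
        ext b
        simp only [mem_erase, mem_image]
        constructor
        · rintro ⟨h8, q', hq', rfl⟩
          exact ⟨q', ⟨fun h9 => h8 (by rw [h9]), hq'⟩, rfl⟩
        · rintro ⟨q', ⟨h8, hq'⟩, rfl⟩
          exact ⟨fun h9 => h8 (hinj q' hq' q hq h9), q', hq', rfl⟩
      rw [h7, sum_image fun x hx y hy h => hinj x (mem_of_mem_erase hx) y (mem_of_mem_erase hy) h]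
    calc ρ * ∑ q ∈ Q', ∑ q' ∈ Q'.erase q, EnA γ ρ (fun q p => lam (M / q) p) q q'
        ≤ ρ * (M * ∑ b ∈ B', ∑ b' ∈ B'.erase b, EnB γ (2 * ρ * M) M lam b b') := by
          rw [← h6]
          exact mul_le_mul_of_nonneg_left h5 hρ.le
      _ = (2 * ρ * M * ∑ b ∈ B', ∑ b' ∈ B'.erase b, EnB γ (2 * ρ * M) M lam b b') / 2 := by ring
      _ ≤ C / 2 := by linarith

end Crest.Agent.R4C.Bridgex882
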