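import Mathlib

/-!
# Base language for the energy theorems of row 4 (helper935)

General `M` (not squarefree).  `b ∣ M`, exact-type law `nu M b = φ(M/b)/M`, pair weight
`gcd b c * nu M b * nu M c`.  One prime at a time **with all its exponents**.

Dictionary: `b = M/q`, `gcd (M/q) (M/q') = M / lcm q q'`, `s = b / gcd = q'/gcd q q'`.
-/

namespace Crest.Agent.R4C.Basex935

open Finset

/-- exact type law on the divisors of `M` -/
noncomputable def nu (M b : ℕ) : ℝ := ((M / b).totient : ℝ) / M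

/-- local law of the exponent, `v ≤ a` -/
noncomputable def nup (p a v : ℕ) : ℝ :=
  if v < a then (1 - 1 / (p : ℝ)) * (1 / (p : ℝ)) ^ v else (1 / (p : ℝ)) ^ a

lemma nu_nonneg (M b : ℕ) : 0 ≤ nu M b := by unfold nu; positivity

lemma nu_pos {M b : ℕ} (hM : 0 < M) (hb : b ∣ M) : 0 < nu M b := by
  have h1 : 0 < M / b := Nat.div_pos (Nat.le_of_dvd hM hb) (Nat.pos_of_dvd_of_pos hb hM)
  have h2 : 0 < (M / b).totient := Nat.totient_pos.2 h1
  unfold nu
  positivity

lemma nup_nonneg {p : ℕ} (hp : 0 < p) (a v : ℕ) : 0 ≤ nup p a v := by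
  have h : (1 : ℝ) / p ≤ 1 := by
    rw [div_le_one (by exact_mod_cast hp)]
    exact_mod_cast hp
  unfold nup
  split_ifs
  · have : (0 : ℝ) ≤ 1 - 1 / p := by linarith
    positivity
  · positivity

lemma nup_le {p : ℕ} (hp : 0 < p) (a v : ℕ) (hv : v ≤ a) : nup p a v ≤ (1 / (p : ℝ)) ^ v := by
  have h : (0 : ℝ) ≤ 1 / p := by positivity
  have h1 : (1 : ℝ) / p ≤ 1 := by
    rw [div_le_one (by exact_mod_cast hp)]
    exact_mod_cast hp
  unfold nup
  split_ifs with h2
  · have h3 : (0 : ℝ) ≤ (1 / (p : ℝ)) ^ v := by positivity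
    nlinarith
  · have : a = v := by omega
    rw [this]

lemma nup_ge {p : ℕ} (hp : 0 < p) (a v : ℕ) (hv : v ≤ a) :
    (1 - 1 / (p : ℝ)) * (1 / (p : ℝ)) ^ v ≤ nup p a v := by
  have h : (0 : ℝ) ≤ 1 / p := by positivity
  unfold nup
  split_ifs with h2
  · exact le_rfl
  · have : a = v := by omega
    rw [this]
    have h3 : (0 : ℝ) ≤ (1 / (p : ℝ)) ^ v := by positivity
    nlinarith

/-- total mass one -/
lemma sum_nu {M : ℕ} (hM : 0 < M) : ∑ b ∈ M.divisors, nu M b = 1 := by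
  unfold nu
  rw [← Finset.sum_div, Nat.sum_div_divisors M (fun k => ((Nat.totient k : ℕ) : ℝ))]
  have h := Nat.sum_totient M
  have h2 : ((∑ d ∈ M.divisors, Nat.totient d : ℕ) : ℝ) = M := by exact_mod_cast h
  push_cast at h2
  rw [h2, div_self (by exact_mod_cast hM.ne')]

lemma nu_prime_pow {p : ℕ} (hp : p.Prime) {a v : ℕ} (hv : v ≤ a) :
    nu (p ^ a) (p ^ v) = nup p a v := by
  have hp0 : (p : ℝ) ≠ 0 := by exact_mod_cast hp.ne_zero
  unfold nu nup
  rw [Nat.pow_div hv hp.pos]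
  split_ifs with h
  · have h1 : 0 < a - v := by omega
    rw [Nat.totient_prime_pow hp h1]
    have h2 : ((p ^ (a - v - 1) * (p - 1) : ℕ) : ℝ) = (p : ℝ) ^ (a - v - 1) * ((p : ℝ) - 1) := by
      push_cast [Nat.cast_sub hp.one_lt.le]
      ring
    rw [h2]
    have h3 : ((p ^ a : ℕ) : ℝ) = (p : ℝ) ^ (a - v - 1) * (p : ℝ) * (p : ℝ) ^ v := by
      push_cast
      rw [← pow_succ, ← pow_add]
      congr 1
      omega
    rw [h3]
    have h4 : (p : ℝ) ^ v * (1 / (p : ℝ)) ^ v = 1 := by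
      rw [← mul_pow, mul_one_div_cancel hp0, one_pow]
    have h5 : (1 / (p : ℝ)) ^ v = ((p : ℝ) ^ v)⁻¹ := by
      rw [one_div, inv_pow]
    rw [h5]
    field_simp
  · have h1 : a = v := by omega
    subst h1
    simp

/-- multiplicativity -/
lemma nu_mul {M1 M2 b1 b2 : ℕ} (h : Nat.Coprime M1 M2) (hb1 : b1 ∣ M1) (hb2 : b2 ∣ M2) :
    nu (M1 * M2) (b1 * b2) = nu M1 b1 * nu M2 b2 := by
  unfold nu
  rw [Nat.mul_div_mul_comm hb1 hb2, Nat.totient_mul]
  · push_cast
    rw [div_mul_div_comm]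
  · exact Nat.Coprime.coprime_div_left (Nat.Coprime.coprime_div_right h hb2) hb1

/-- splitting of a sum over the divisors of `p^a * M1` -/
lemma sum_split {p : ℕ} (hp : p.Prime) (a : ℕ) {M1 : ℕ} (hM : 0 < M1) (h : ¬ p ∣ M1)
    (F : ℕ → ℝ) :
    ∑ b ∈ (p ^ a * M1).divisors, F b =
      ∑ v ∈ range (a + 1), ∑ b1 ∈ M1.divisors, F (p ^ v * b1) := by
  classical
  rw [← Finset.sum_product']
  symm
  refine Finset.sum_bij (fun x _ => p ^ x.1 * x.2) ?_ ?_ ?_ ?_
  · rintro ⟨v, b1⟩ hx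
    rw [Finset.mem_product, Finset.mem_range, Nat.mem_divisors] at hx
    rw [Nat.mem_divisors]
    exact ⟨Nat.mul_dvd_mul (pow_dvd_pow p (by omega)) hx.2.1, by
      have := pow_pos hp.pos a
      positivity⟩
  · rintro ⟨v, b1⟩ hx ⟨v', b1'⟩ hx' he
    rw [Finset.mem_product, Finset.mem_range, Nat.mem_divisors] at hx hx'
    simp only at he hx hx'
    have hnd : ¬ p ∣ b1 := fun hc => h (hc.trans hx.2.1)
    have hnd' : ¬ p ∣ b1' := fun hc => h (hc.trans hx'.2.1)
    have hb : b1 ≠ 0 := fun hc => hnd (hc ▸ dvd_zero p)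
    have hb' : b1' ≠ 0 := fun hc => hnd' (hc ▸ dvd_zero p)
    have hv : v = v' := by
      have e := congrArg (fun n => n.factorization p) he
      simp only [Nat.factorization_mul (pow_ne_zero _ hp.ne_zero) hb,
        Nat.factorization_mul (pow_ne_zero _ hp.ne_zero) hb', Finsupp.add_apply,
        hp.factorization_pow, Finsupp.single_eq_same, Nat.factorization_eq_zero_of_not_dvd hnd,
        Nat.factorization_eq_zero_of_not_dvd hnd', add_zero] at e
      exact e
    subst hv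
    have := Nat.eq_of_mul_eq_mul_left (pow_pos hp.pos v) he
    rw [this]
  · intro b hb
    rw [Nat.mem_divisors] at hb
    have hb0 : b ≠ 0 := fun hc => hb.2 (Nat.eq_zero_of_zero_dvd (hc ▸ hb.1))
    obtain ⟨v, b1, hnd, he⟩ := Nat.exists_eq_pow_mul_and_not_dvd hb0 p hp.ne_one
    refine ⟨(v, b1), ?_, he.symm⟩
    rw [Finset.mem_product, Finset.mem_range, Nat.mem_divisors]
    have h1 : p ^ v ∣ p ^ a * M1 := (Dvd.intro _ he.symm).trans hb.1
    have h2 : b1 ∣ p ^ a * M1 := (Dvd.intro_left _ he.symm).trans hb.1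
    have hc1 : Nat.Coprime (p ^ v) M1 := Nat.Coprime.pow_left v ((Nat.Prime.coprime_iff_not_dvd hp).2 h)
    have hc2 : Nat.Coprime b1 (p ^ a) := (Nat.Coprime.pow_left a ((Nat.Prime.coprime_iff_not_dvd hp).2 hnd)).symm
    have h3 : p ^ v ∣ p ^ a := hc1.dvd_of_dvd_mul_right h1
    have h4 : b1 ∣ M1 := hc2.dvd_of_dvd_mul_left h2
    have h5 : v ≤ a := (Nat.pow_dvd_pow_iff_le_right hp.one_lt).1 h3
    exact ⟨by omega, h4, hM.ne'⟩
  · intro x _
    rfl

lemma gcd_split {p : ℕ} (hp : p.Prime) (v v' : ℕ) {b c : ℕ} (hb : ¬ p ∣ b) (hc : ¬ p ∣ c) :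
    Nat.gcd (p ^ v * b) (p ^ v' * c) = p ^ (min v v') * Nat.gcd b c := by
  have hcb : ∀ k, Nat.Coprime (p ^ k) b := fun k =>
    Nat.Coprime.pow_left k ((Nat.Prime.coprime_iff_not_dvd hp).2 hb)
  have hcc : ∀ k, Nat.Coprime (p ^ k) c := fun k =>
    Nat.Coprime.pow_left k ((Nat.Prime.coprime_iff_not_dvd hp).2 hc)
  rcases le_total v v' with h | h
  · obtain ⟨k, rfl⟩ := Nat.exists_eq_add_of_le h
    rw [min_eq_left h, pow_add, mul_assoc, Nat.gcd_mul_left]
    congr 1
    exact Nat.Coprime.gcd_mul_left_cancel_right c (hcb k)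
  · obtain ⟨k, rfl⟩ := Nat.exists_eq_add_of_le h
    rw [min_eq_right h, pow_add, mul_assoc, Nat.gcd_mul_left]
    congr 1
    exact Nat.Coprime.gcd_mul_left_cancel b (hcc k)

/-- the bilinear form with arbitrary pair weight `F` -/
noncomputable def frm (M : ℕ) (F : ℕ → ℕ → ℝ) : ℝ :=
  ∑ b ∈ M.divisors, ∑ c ∈ M.divisors, (Nat.gcd b c : ℝ) * nu M b * nu M c * F b c

/-- **splitting of the pair form at one prime, all exponents** -/
theorem frm_split {p : ℕ} (hp : p.Prime) (a : ℕ) {M1 : ℕ} (hM : 0 < M1) (h : ¬ p ∣ M1)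
    (F : ℕ → ℕ → ℝ) :
    frm (p ^ a * M1) F = ∑ v ∈ range (a + 1), ∑ v' ∈ range (a + 1),
      (p : ℝ) ^ (min v v') * nup p a v * nup p a v' *
        frm M1 (fun b c => F (p ^ v * b) (p ^ v' * c)) := by
  unfold frm
  rw [sum_split hp a hM h]
  refine Finset.sum_congr rfl fun v hv => ?_
  rw [Finset.mem_range] at hv
  have hcop : Nat.Coprime (p ^ a) M1 :=
    Nat.Coprime.pow_left a ((Nat.Prime.coprime_iff_not_dvd hp).2 h)
  calc ∑ b ∈ M1.divisors, ∑ c ∈ (p ^ a * M1).divisors,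
        (Nat.gcd (p ^ v * b) c : ℝ) * nu (p ^ a * M1) (p ^ v * b) * nu (p ^ a * M1) c *
          F (p ^ v * b) c
      = ∑ b ∈ M1.divisors, ∑ v' ∈ range (a + 1), ∑ c ∈ M1.divisors,
        (Nat.gcd (p ^ v * b) (p ^ v' * c) : ℝ) * nu (p ^ a * M1) (p ^ v * b) *
          nu (p ^ a * M1) (p ^ v' * c) * F (p ^ v * b) (p ^ v' * c) :=
        Finset.sum_congr rfl fun b _ => sum_split hp a hM h _
    _ = ∑ v' ∈ range (a + 1), ∑ b ∈ M1.divisors, ∑ c ∈ M1.divisors,
        (Nat.gcd (p ^ v * b) (p ^ v' * c) : ℝ) * nu (p ^ a * M1) (p ^ v * b) *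
          nu (p ^ a * M1) (p ^ v' * c) * F (p ^ v * b) (p ^ v' * c) := Finset.sum_comm
    _ = _ := by
        refine Finset.sum_congr rfl fun v' hv' => ?_
        rw [Finset.mem_range] at hv'
        rw [Finset.mul_sum]
        refine Finset.sum_congr rfl fun b hb => ?_
        rw [Finset.mul_sum]
        refine Finset.sum_congr rfl fun c hc => ?_
        rw [Nat.mem_divisors] at hb hc
        rw [nu_mul hcop (pow_dvd_pow p (by omega)) hb.1, nu_mul hcop (pow_dvd_pow p (by omega)) hc.1,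
          nu_prime_pow hp (by omega), nu_prime_pow hp (by omega),
          gcd_split hp v v' (fun hc' => h (hc'.trans hb.1)) (fun hc' => h (hc'.trans hc.1))]
        push_cast
        ring

/-- induction over the primes of `M`, **smallest prime on the outside** -/
theorem ind_min {P : ℕ → Prop} (h1 : P 1)
    (hs : ∀ p a M1 : ℕ, p.Prime → 0 < a → 0 < M1 → ¬ p ∣ M1 →
      (∀ r, r.Prime → r ∣ M1 → p < r) → P M1 → P (p ^ a * M1)) :
    ∀ M : ℕ, 0 < M → P M := by
  intro M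
  induction M using Nat.strong_induction_on with
  | _ M ih =>
    intro hM
    by_cases hM1 : M = 1
    · rw [hM1]; exact h1
    · have hp := Nat.minFac_prime hM1
      obtain ⟨a, M1, hnd, he⟩ := Nat.exists_eq_pow_mul_and_not_dvd hM.ne' M.minFac hp.ne_one
      have hM1p : 0 < M1 := by
        rcases Nat.eq_zero_or_pos M1 with h | h
        · rw [h] at hnd; exact absurd (dvd_zero _) hnd
        · exact h
      have ha : 0 < a := by
        rcases Nat.eq_zero_or_pos a with h | h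
        · exfalso
          rw [h, pow_zero, one_mul] at he
          exact hnd (he ▸ Nat.minFac_dvd M)
        · exact h
      have hlt : M1 < M := by
        conv_rhs => rw [he]
        have : 1 < M.minFac ^ a := Nat.one_lt_pow ha.ne' hp.one_lt
        nlinarith
      rw [he]
      refine hs _ a M1 hp ha hM1p hnd ?_ (ih M1 hlt hM1p)
      intro r hr hrd
      have hrM : r ∣ M := by rw [he]; exact dvd_mul_of_dvd_right hrd _
      refine lt_of_le_of_ne (Nat.minFac_le_of_dvd hr.two_le hrM) ?_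
      rintro rfl
      exact hnd hrd

/-- induction over the primes of `M`, **largest prime on the outside** -/
theorem ind_max {P : ℕ → Prop} (h1 : P 1)
    (hs : ∀ p a M1 : ℕ, p.Prime → 0 < a → 0 < M1 → ¬ p ∣ M1 →
      (∀ r, r.Prime → r ∣ M1 → r < p) → P M1 → P (p ^ a * M1)) :
    ∀ M : ℕ, 0 < M → P M := by
  intro M
  induction M using Nat.strong_induction_on with
  | _ M ih =>
    intro hM
    by_cases hM1 : M = 1
    · rw [hM1]; exact h1
    · have hne : M.primeFactors.Nonempty := Nat.nonempty_primeFactors.2 (by omega)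
      set p := M.primeFactors.max' hne with hpdef
      have hpm : p ∈ M.primeFactors := Finset.max'_mem _ _
      have hp := Nat.prime_of_mem_primeFactors hpm
      have hpd := Nat.dvd_of_mem_primeFactors hpm
      obtain ⟨a, M1, hnd, he⟩ := Nat.exists_eq_pow_mul_and_not_dvd hM.ne' p hp.ne_one
      have hM1p : 0 < M1 := by
        rcases Nat.eq_zero_or_pos M1 with h | h
        · rw [h] at hnd; exact absurd (dvd_zero _) hnd
        · exact h
      have ha : 0 < a := by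
        rcases Nat.eq_zero_or_pos a with h | h
        · exfalso
          rw [h, pow_zero, one_mul] at he
          exact hnd (he ▸ hpd)
        · exact h
      have hlt : M1 < M := by
        conv_rhs => rw [he]
        have : 1 < p ^ a := Nat.one_lt_pow ha.ne' hp.one_lt
        nlinarith
      rw [he]
      refine hs _ a M1 hp ha hM1p hnd ?_ (ih M1 hlt hM1p)
      intro r hr hrd
      have hrM : r ∣ M := by rw [he]; exact dvd_mul_of_dvd_right hrd _
      have hrm : r ∈ M.primeFactors := Nat.mem_primeFactors.2 ⟨hr, hrM, hM.ne'⟩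
      refine lt_of_le_of_ne (Finset.le_max' _ _ hrm) ?_
      rintro rfl
      exact hnd hrd

/-! ### Dictionary with the `q` language -/

lemma gcd_div_div {M q q' : ℕ} (hM : 0 < M) (hq : q ∣ M) (hq' : q' ∣ M) :
    Nat.gcd (M / q) (M / q') = M / Nat.lcm q q' := by
  have hl : Nat.lcm q q' ∣ M := Nat.lcm_dvd hq hq'
  have hq0 : 0 < q := Nat.pos_of_dvd_of_pos hq hM
  have hq0' : 0 < q' := Nat.pos_of_dvd_of_pos hq' hM
  have hl0 : 0 < Nat.lcm q q' := Nat.lcm_pos hq0 hq0'
  obtain ⟨K, hK⟩ := hl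
  have e1 : M / q = (Nat.lcm q q' / q) * K := by
    rw [hK, Nat.mul_comm, Nat.mul_div_assoc _ (Nat.dvd_lcm_left q q'), Nat.mul_comm]
  have e2 : M / q' = (Nat.lcm q q' / q') * K := by
    rw [hK, Nat.mul_comm, Nat.mul_div_assoc _ (Nat.dvd_lcm_right q q'), Nat.mul_comm]
  have e3 : M / Nat.lcm q q' = K := by
    conv_lhs => rw [hK]
    exact Nat.mul_div_cancel_left K hl0
  have g0 : 0 < Nat.gcd q q' := Nat.gcd_pos_of_pos_left _ hq0
  have e4 : Nat.lcm q q' / q = q' / Nat.gcd q q' := by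
    rw [Nat.lcm, Nat.div_div_eq_div_mul, Nat.mul_comm (Nat.gcd q q') q,
      ← Nat.div_div_eq_div_mul, Nat.mul_div_cancel_left _ hq0]
  have e5 : Nat.lcm q q' / q' = q / Nat.gcd q q' := by
    rw [Nat.lcm, Nat.div_div_eq_div_mul, Nat.mul_comm (Nat.gcd q q') q',
      ← Nat.div_div_eq_div_mul, Nat.mul_div_cancel _ hq0']
  have hc : Nat.Coprime (q' / Nat.gcd q q') (q / Nat.gcd q q') :=
    (Nat.coprime_div_gcd_div_gcd g0).symm
  rw [e1, e2, e3, e4, e5, Nat.gcd_mul_right, hc.gcd_eq_one, one_mul]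

/-- cofactor dictionary: `b / gcd b c = q' / gcd q q'` -/
lemma cof_div {M q q' : ℕ} (hM : 0 < M) (hq : q ∣ M) (hq' : q' ∣ M) :
    (M / q) / Nat.gcd (M / q) (M / q') = q' / Nat.gcd q q' := by
  have hq0 : 0 < q := Nat.pos_of_dvd_of_pos hq hM
  have hq0' : 0 < q' := Nat.pos_of_dvd_of_pos hq' hM
  have hl0 : 0 < Nat.lcm q q' := Nat.lcm_pos hq0 hq0'
  rw [gcd_div_div hM hq hq']
  obtain ⟨K, hK⟩ := Nat.lcm_dvd hq hq'
  have hK0 : 0 < K := by
    rcases Nat.eq_zero_or_pos K with h | h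
    · rw [h, mul_zero] at hK; omega
    · exact h
  have e3 : M / Nat.lcm q q' = K := by
    conv_lhs => rw [hK]
    exact Nat.mul_div_cancel_left K hl0
  have e1 : M / q = (Nat.lcm q q' / q) * K := by
    rw [hK, Nat.mul_comm, Nat.mul_div_assoc _ (Nat.dvd_lcm_left q q'), Nat.mul_comm]
  have e4 : Nat.lcm q q' / q = q' / Nat.gcd q q' := by
    rw [Nat.lcm, Nat.div_div_eq_div_mul, Nat.mul_comm (Nat.gcd q q') q,
      ← Nat.div_div_eq_div_mul, Nat.mul_div_cancel_left _ hq0]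
  rw [e3, e1, e4, Nat.mul_div_cancel _ hK0]

/-- weight dictionary: `φφ'/lcm = M · gcd(b,c) ν(b) ν(c)` -/
lemma weight_div {M q q' : ℕ} (hM : 0 < M) (hq : q ∣ M) (hq' : q' ∣ M) :
    (Nat.totient q : ℝ) * Nat.totient q' / (Nat.lcm q q' : ℕ) =
      M * ((Nat.gcd (M / q) (M / q') : ℕ) * nu M (M / q) * nu M (M / q')) := by
  have hq0 : 0 < q := Nat.pos_of_dvd_of_pos hq hM
  have hq0' : 0 < q' := Nat.pos_of_dvd_of_pos hq' hM
  have hl0 : 0 < Nat.lcm q q' := Nat.lcm_pos hq0 hq0'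
  have hM0 : (M : ℝ) ≠ 0 := by exact_mod_cast hM.ne'
  have hl0' : ((Nat.lcm q q' : ℕ) : ℝ) ≠ 0 := by exact_mod_cast hl0.ne'
  unfold nu
  rw [gcd_div_div hM hq hq', Nat.div_div_self hq hM.ne', Nat.div_div_self hq' hM.ne',
    Nat.cast_div (Nat.lcm_dvd hq hq') hl0']
  field_simp

lemma mass_div {M q : ℕ} (hM : 0 < M) (hq : q ∣ M) : (Nat.totient q : ℝ) = M * nu M (M / q) := by
  have hM0 : (M : ℝ) ≠ 0 := by exact_mod_cast hM.ne'
  unfold nu
  rw [Nat.div_div_self hq hM.ne']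
  field_simp

/-- transport of a finite set of denominators to a finite set of divisors -/
lemma sum_image_div {M : ℕ} (hM : 0 < M) (Q : Finset ℕ) (hQ : ∀ q ∈ Q, q ∣ M) (F : ℕ → ℝ) :
    ∑ b ∈ Q.image (fun q => M / q), F b = ∑ q ∈ Q, F (M / q) := by
  classical
  refine Finset.sum_image ?_
  intro q hq q' hq' he
  have h1 := Nat.div_div_self (hQ q hq) hM.ne'
  have h2 := Nat.div_div_self (hQ q' hq') hM.ne'
  rw [← h1, ← h2]
  simp only at he
  rw [he]

end Crest.Agent.R4C.Basex935
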