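import Crest.Agent.R4C.CrCount_935

/-!
# Row 4: partial labels and independent coins (helper935)

`lam q p : Option ℤ` : `some c` = the class `c` is forbidden modulo `p`, `none` = a uniform
independent coin.  `EnA` is the exact average of the off-diagonal energy.

* `KCl γ` : bound for the averaged energy; `main_KCl : KCl γ → (S0004 for γ)`.
-/

set_option autoImplicit false
open MeasureTheory Filter Set Topology

namespace Crest.Agent.R4C.CrCoinx935

open Crest.Agent.R4.Soft104 Crest.Agent.R4C.CrRedx935 Crest.Agent.R4C.CrLocx935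
  Crest.Agent.R4C.CrPairx935 Crest.Agent.R4C.CrSievex935 Crest.Agent.R4C.CrCountx935

open Classical in
/-- survival factor of one side at a differing prime: `h ≢ u · a` -/
noncomputable def surv (p : ℕ) (u h : ℤ) : Option ℤ → ℝ
  | some a => if (p : ℤ) ∣ h - u * a then 0 else 1
  | none => 1 - 1 / (p : ℝ)

open Classical in
/-- factor of a common prime not dividing `s s'` -/
noncomputable def comm (p : ℕ) (u v h : ℤ) : Option ℤ → Option ℤ → ℝ
  | some a, some b => 1 - (if (p : ℤ) ∣ h - u * a + v * b then 1 else 2) / (p : ℝ)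
  | some _, none => (1 - 1 / (p : ℝ)) ^ 2
  | none, some _ => (1 - 1 / (p : ℝ)) ^ 2
  | none, none => (1 - 1 / (p : ℝ)) ^ 2

/-- factor at the prime `p`; `q = g s'`, `q' = g s` -/
noncomputable def fac (g s s' : ℕ) (h : ℤ) (p : ℕ) (α β : Option ℤ) : ℝ :=
  if p ∣ s' then surv p s h α * (if p ∣ g then 1 - 1 / (p : ℝ) else 1)
  else if p ∣ s then surv p (-s') h β * (if p ∣ g then 1 - 1 / (p : ℝ) else 1)
  else comm p s s' h α β

/-- number of residues `a` with `u a ≡ h` -/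
lemma card_class {p : ℕ} (hp : p.Prime) {u : ℤ} (hu : ¬ (p : ℤ) ∣ u) (h : ℤ) :
    ∃ a₀ ∈ Finset.range p, ∀ a ∈ Finset.range p, ((p : ℤ) ∣ h - u * (a : ℤ)) ↔ a = a₀ := by
  have hf : Fact p.Prime := ⟨hp⟩
  have hu' : ((u : ℤ) : ZMod p) ≠ 0 := fun hc => hu ((ZMod.intCast_zmod_eq_zero_iff_dvd u p).1 hc)
  refine ⟨(((h : ZMod p)) * (u : ZMod p)⁻¹).val, Finset.mem_range.2 (ZMod.val_lt _), fun a ha => ?_⟩
  rw [← ZMod.intCast_zmod_eq_zero_iff_dvd]
  push_cast
  have ha' := Finset.mem_range.1 ha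
  constructor
  · intro h1
    have h2 : (a : ZMod p) = h * (u : ZMod p)⁻¹ := by
      field_simp
      linear_combination -h1
    rw [← h2, ZMod.val_natCast, Nat.mod_eq_of_lt ha']
  · intro h1
    have h2 : (a : ZMod p) = h * (u : ZMod p)⁻¹ := by
      rw [h1, ZMod.natCast_zmod_val]
    rw [h2]
    field_simp
    ring

lemma avg_ite {p : ℕ} (hp : p.Prime) {u : ℤ} (hu : ¬ (p : ℤ) ∣ u) (h : ℤ) (x y : ℝ) :
    ∑ a ∈ Finset.range p, (open Classical in if (p : ℤ) ∣ h - u * (a : ℤ) then x else y) =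
      x + (p - 1) * y := by
  classical
  obtain ⟨a₀, ha₀, ha⟩ := card_class hp hu h
  have e : ∀ a ∈ Finset.range p, (if (p : ℤ) ∣ h - u * (a : ℤ) then x else y) =
      y + (if a = a₀ then x - y else 0) := by
    intro a haa
    by_cases hc : a = a₀
    · rw [if_pos ((ha a haa).2 hc), if_pos hc]; ring
    · rw [if_neg (fun h1 => hc ((ha a haa).1 h1)), if_neg hc]; ring
  rw [Finset.sum_congr rfl e, Finset.sum_add_distrib, Finset.sum_ite_eq' (Finset.range p) a₀,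
    if_pos ha₀]
  simp only [Finset.sum_const, Finset.card_range, nsmul_eq_mul]
  ring

lemma surv_avg {p : ℕ} (hp : p.Prime) {u : ℤ} (hu : ¬ (p : ℤ) ∣ u) (h : ℤ) :
    ∑ a ∈ Finset.range p, surv p u h (some (a : ℤ)) = p * surv p u h none := by
  have hp0 : (p : ℝ) ≠ 0 := by exact_mod_cast hp.ne_zero
  have := avg_ite hp hu h 0 1
  simp only [surv]
  rw [this]
  field_simp
  ring

lemma comm_avg_left {p : ℕ} (hp : p.Prime) {u v : ℤ} (hu : ¬ (p : ℤ) ∣ u) (h : ℤ) (β : Option ℤ) :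
    ∑ a ∈ Finset.range p, comm p u v h (some (a : ℤ)) β = p * comm p u v h none β := by
  classical
  have hp0 : (p : ℝ) ≠ 0 := by exact_mod_cast hp.ne_zero
  cases β with
  | none => simp only [comm, Finset.sum_const, Finset.card_range, nsmul_eq_mul]
  | some b =>
    have e : ∀ a ∈ Finset.range p, comm p u v h (some (a : ℤ)) (some b) =
        (if (p : ℤ) ∣ (h + v * b) - u * (a : ℤ) then (1 - 1 / (p : ℝ)) else (1 - 2 / (p : ℝ))) := by
      intro a _
      have e1 : h - u * (a : ℤ) + v * b = (h + v * b) - u * (a : ℤ) := by ring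
      simp only [comm, e1]
      split_ifs <;> rfl
    rw [Finset.sum_congr rfl e, avg_ite hp hu]
    simp only [comm]
    field_simp
    ring

lemma comm_avg_right {p : ℕ} (hp : p.Prime) {u v : ℤ} (hv : ¬ (p : ℤ) ∣ v) (h : ℤ) (α : Option ℤ) :
    ∑ a ∈ Finset.range p, comm p u v h α (some (a : ℤ)) = p * comm p u v h α none := by
  classical
  have hp0 : (p : ℝ) ≠ 0 := by exact_mod_cast hp.ne_zero
  cases α with
  | none => simp only [comm, Finset.sum_const, Finset.card_range, nsmul_eq_mul]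
  | some b =>
    have e : ∀ a ∈ Finset.range p, comm p u v h (some b) (some (a : ℤ)) =
        (if (p : ℤ) ∣ (h - u * b) - (-v) * (a : ℤ) then (1 - 1 / (p : ℝ)) else (1 - 2 / (p : ℝ))) := by
      intro a _
      have e1 : h - u * b + v * (a : ℤ) = (h - u * b) - (-v) * (a : ℤ) := by ring
      simp only [comm, e1]
      split_ifs <;> rfl
    have hv' : ¬ (p : ℤ) ∣ -v := fun hc => hv (by simpa using hc)
    rw [Finset.sum_congr rfl e, avg_ite hp hv']
    simp only [comm]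
    field_simp
    ring

lemma fac_avg_left {p g s s' : ℕ} (hp : p.Prime) (hcop : Nat.Coprime s s') (h : ℤ)
    (β : Option ℤ) :
    ∑ a ∈ Finset.range p, fac g s s' h p (some (a : ℤ)) β = p * fac g s s' h p none β := by
  unfold fac
  split_ifs with h1 h2 h3 h4
  · have hs : ¬ (p : ℤ) ∣ s := by
      intro hc
      have hc' : p ∣ s := by exact_mod_cast hc
      have := Nat.dvd_gcd hc' h1
      rw [hcop.gcd_eq_one] at this
      exact hp.one_lt.ne' (Nat.dvd_one.1 this)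
    rw [← Finset.sum_mul, surv_avg hp hs]; ring
  · have hs : ¬ (p : ℤ) ∣ s := by
      intro hc
      have hc' : p ∣ s := by exact_mod_cast hc
      have := Nat.dvd_gcd hc' h1
      rw [hcop.gcd_eq_one] at this
      exact hp.one_lt.ne' (Nat.dvd_one.1 this)
    rw [← Finset.sum_mul, surv_avg hp hs]; ring
  · simp
  · simp
  · exact comm_avg_left hp (fun hc => h3 (by exact_mod_cast hc)) h β

lemma fac_avg_right {p g s s' : ℕ} (hp : p.Prime) (h : ℤ)
    (α : Option ℤ) :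
    ∑ a ∈ Finset.range p, fac g s s' h p α (some (a : ℤ)) = p * fac g s s' h p α none := by
  unfold fac
  split_ifs with h1 h2 h3 h4
  · simp
  · simp
  · have hs : ¬ (p : ℤ) ∣ -(s' : ℤ) := by
      intro hc
      rw [dvd_neg] at hc
      exact h1 (by exact_mod_cast hc)
    rw [← Finset.sum_mul, surv_avg hp hs]; ring
  · have hs : ¬ (p : ℤ) ∣ -(s' : ℤ) := by
      intro hc
      rw [dvd_neg] at hc
      exact h1 (by exact_mod_cast hc)
    rw [← Finset.sum_mul, surv_avg hp hs]; ring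
  · exact comm_avg_right hp (fun hc => h1 (by exact_mod_cast hc)) h α

lemma surv_nonneg {p : ℕ} (hp : p.Prime) (u h : ℤ) (α : Option ℤ) : 0 ≤ surv p u h α := by
  have hp1 : (1 : ℝ) ≤ p := by exact_mod_cast hp.one_lt.le
  have : (1 : ℝ) / p ≤ 1 := by rw [div_le_one (by linarith)]; exact hp1
  cases α with
  | none => simp only [surv]; linarith
  | some a => simp only [surv]; split_ifs <;> norm_num

lemma comm_nonneg {p : ℕ} (hp : p.Prime) (u v h : ℤ) (α β : Option ℤ) : 0 ≤ comm p u v h α β := by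
  have hp2 : (2 : ℝ) ≤ p := by exact_mod_cast hp.two_le
  cases α with
  | none => cases β <;> simp only [comm] <;> positivity
  | some a =>
    cases β with
    | none => simp only [comm]; positivity
    | some b =>
      simp only [comm]
      split_ifs
      · rw [sub_nonneg, div_le_one (by linarith)]; linarith
      · rw [sub_nonneg, div_le_one (by linarith)]; linarith

lemma fac_nonneg {p g s s' : ℕ} (hp : p.Prime) (h : ℤ) (α β : Option ℤ) :
    0 ≤ fac g s s' h p α β := by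
  have hp1 : (1 : ℝ) ≤ p := by exact_mod_cast hp.one_lt.le
  have h1 : (0 : ℝ) ≤ 1 - 1 / (p : ℝ) := by
    rw [sub_nonneg, div_le_one (by linarith)]; exact hp1
  unfold fac
  split_ifs
  · exact mul_nonneg (surv_nonneg hp _ _ _) h1
  · exact mul_nonneg (surv_nonneg hp _ _ _) zero_le_one
  · exact mul_nonneg (surv_nonneg hp _ _ _) h1
  · exact mul_nonneg (surv_nonneg hp _ _ _) zero_le_one
  · exact comm_nonneg hp _ _ _ _ _

/-- product form of the weight -/
lemma Wt_eq {κ : ℕ → ℕ → ℤ} {g s s' : ℕ} (hg : 0 < g) (hs : 0 < s) (hs' : 0 < s')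
    (hcop : Nat.Coprime s s') (h : ℤ) :
    Wt κ (g * s') (g * s) g s s' h = g * ∏ p ∈ ((g * s') * (g * s)).primeFactors,
      fac g s s' h p (some (κ (g * s') p)) (some (κ (g * s) p)) := by
  classical
  have hN : (g * s') * (g * s) ≠ 0 := by positivity
  have hmem : ∀ p, p ∈ ((g * s') * (g * s)).primeFactors ↔
      p.Prime ∧ (p ∣ g ∨ p ∣ s ∨ p ∣ s') := by
    intro p
    rw [Nat.mem_primeFactors]
    constructor
    · rintro ⟨h1, h2, _⟩
      refine ⟨h1, ?_⟩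
      rcases (h1.dvd_mul).1 h2 with h3 | h3 <;> rcases (h1.dvd_mul).1 h3 with h4 | h4 <;> tauto
    · rintro ⟨h1, h2 | h2 | h2⟩
      · exact ⟨h1, dvd_mul_of_dvd_left (dvd_mul_of_dvd_left h2 _) _, hN⟩
      · exact ⟨h1, dvd_mul_of_dvd_right (dvd_mul_of_dvd_right h2 _) _, hN⟩
      · exact ⟨h1, dvd_mul_of_dvd_left (dvd_mul_of_dvd_right h2 _) _, hN⟩
  have hnot : ∀ p, p.Prime → p ∣ s → ¬ p ∣ s' := by
    intro p hp h1 h2
    have := Nat.dvd_gcd h1 h2
    rw [hcop.gcd_eq_one] at this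
    exact hp.one_lt.ne' (Nat.dvd_one.1 this)
  unfold Wt
  split_ifs with hk
  · symm
    rw [mul_eq_zero]
    right
    rcases hk with ⟨p, hp, hd⟩ | ⟨p, hp, hd⟩
    · have hpp := Nat.prime_of_mem_primeFactors hp
      have hps' := Nat.dvd_of_mem_primeFactors hp
      refine Finset.prod_eq_zero ((hmem p).2 ⟨hpp, Or.inr (Or.inr hps')⟩) ?_
      unfold fac
      rw [if_pos hps']
      simp only [surv, if_pos hd, zero_mul]
    · have hpp := Nat.prime_of_mem_primeFactors hp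
      have hps := Nat.dvd_of_mem_primeFactors hp
      refine Finset.prod_eq_zero ((hmem p).2 ⟨hpp, Or.inr (Or.inl hps)⟩) ?_
      unfold fac
      rw [if_neg (hnot p hpp hps), if_pos hps]
      have hd' : (p : ℤ) ∣ h - -(s' : ℤ) * κ (g * s) p := by
        have e : h - -(s' : ℤ) * κ (g * s) p = h + s' * κ (g * s) p := by ring
        rw [e]; exact hd
      simp only [surv, if_pos hd', zero_mul]
  · congr 1
    have hk1 : ∀ p, p.Prime → p ∣ s' → ¬ (p : ℤ) ∣ h - s * κ (g * s') p := fun p hp h1 h2 =>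
      hk (Or.inl ⟨p, Nat.mem_primeFactors.2 ⟨hp, h1, hs'.ne'⟩, h2⟩)
    have hk2 : ∀ p, p.Prime → p ∣ s → ¬ (p : ℤ) ∣ h - -(s' : ℤ) * κ (g * s) p := fun p hp h1 h2 =>
      hk (Or.inr ⟨p, Nat.mem_primeFactors.2 ⟨hp, h1, hs.ne'⟩, by
        have e : h - -(s' : ℤ) * κ (g * s) p = h + s' * κ (g * s) p := by ring
        rwa [e] at h2⟩)
    have hsub : g.primeFactors ⊆ ((g * s') * (g * s)).primeFactors := by
      intro p hp
      exact (hmem p).2 ⟨Nat.prime_of_mem_primeFactors hp, Or.inl (Nat.dvd_of_mem_primeFactors hp)⟩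
    rw [← Finset.prod_subset hsub]
    · refine Finset.prod_congr rfl fun p hp => ?_
      have hpp := Nat.prime_of_mem_primeFactors hp
      have hpg := Nat.dvd_of_mem_primeFactors hp
      unfold fac nuc
      by_cases h1 : p ∣ s'
      · rw [if_pos h1, if_pos hpg, if_pos (Or.inl (dvd_mul_of_dvd_right h1 s))]
        simp only [surv, if_neg (hk1 p hpp h1)]
        push_cast
        ring
      · by_cases h2 : p ∣ s
        · rw [if_neg h1, if_pos h2, if_pos hpg, if_pos (Or.inl (dvd_mul_of_dvd_left h2 s'))]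
          simp only [surv, if_neg (hk2 p hpp h2)]
          push_cast
          ring
        · rw [if_neg h1, if_neg h2]
          have h3 : ¬ p ∣ s * s' := fun hc => ((hpp.dvd_mul).1 hc).elim h2 h1
          simp only [comm]
          by_cases h4 : (p : ℤ) ∣ h - s * κ (g * s') p + s' * κ (g * s) p
          · rw [if_pos (Or.inr h4), if_pos h4]; push_cast; ring
          · rw [if_neg (by tauto), if_neg h4]; push_cast; ring
    · intro p hp hpg
      have hpp := ((hmem p).1 hp).1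
      have hpg' : ¬ p ∣ g := fun hc => hpg (Nat.mem_primeFactors.2 ⟨hpp, hc, hg.ne'⟩)
      unfold fac
      by_cases h1 : p ∣ s'
      · rw [if_pos h1, if_neg hpg']
        simp only [surv, if_neg (hk1 p hpp h1), mul_one]
      · have h2 : p ∣ s := by
          rcases ((hmem p).1 hp).2 with h3 | h3 | h3
          · exact absurd h3 hpg'
          · exact h3
          · exact absurd h3 h1
        rw [if_neg h1, if_pos h2, if_neg hpg']
        simp only [surv, if_neg (hk2 p hpp h2), mul_one]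

/-! ### averaged energies -/

/-- averaged energy of the ordered pair `(q, q')`, `q ≠ q'` -/
noncomputable def EnA (γ ρ : ℝ) (lam : ℕ → ℕ → Option ℤ) (q q' : ℕ) : ℝ :=
  ∑ h ∈ Hf γ (2 * ρ * (Nat.lcm q q' : ℕ)) (q' / Nat.gcd q q') (q / Nat.gcd q q'),
    Nat.gcd q q' * ∏ p ∈ (q * q').primeFactors,
      fac (Nat.gcd q q') (q' / Nat.gcd q q') (q / Nat.gcd q q') h p (lam q p) (lam q' p)

/-- off-diagonal averaged energy -/
noncomputable def Phi (γ ρ : ℝ) (Q : Finset ℕ) (lam : ℕ → ℕ → Option ℤ) : ℝ :=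
  ∑ q ∈ Q, ∑ q' ∈ Q.erase q, EnA γ ρ lam q q'

/-- update of a partial label -/
def upd (lam : ℕ → ℕ → Option ℤ) (q₀ p₀ : ℕ) (c : Option ℤ) : ℕ → ℕ → Option ℤ :=
  fun q p => if q = q₀ ∧ p = p₀ then c else lam q p

lemma upd_self (lam : ℕ → ℕ → Option ℤ) (q₀ p₀ : ℕ) (c : Option ℤ) : upd lam q₀ p₀ c q₀ p₀ = c := by
  simp [upd]

lemma upd_q (lam : ℕ → ℕ → Option ℤ) {q₀ q : ℕ} (h : q ≠ q₀) (p₀ p : ℕ) (c : Option ℤ) :
    upd lam q₀ p₀ c q p = lam q p := by
  simp [upd, h]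

lemma upd_p (lam : ℕ → ℕ → Option ℤ) (q₀ q : ℕ) {p₀ p : ℕ} (h : p ≠ p₀) (c : Option ℤ) :
    upd lam q₀ p₀ c q p = lam q p := by
  simp [upd, h]

lemma cop_div {q q' : ℕ} (hq : 0 < q) :
    Nat.Coprime (q' / Nat.gcd q q') (q / Nat.gcd q q') :=
  (Nat.coprime_div_gcd_div_gcd (Nat.gcd_pos_of_pos_left q' hq)).symm

lemma EnA_avg {γ ρ : ℝ} {lam : ℕ → ℕ → Option ℤ} {q₀ p₀ : ℕ} (hp : p₀.Prime)
    (hl : lam q₀ p₀ = none) {q q' : ℕ} (hq : 0 < q) (hne : q ≠ q') :
    ∑ a ∈ Finset.range p₀, EnA γ ρ (upd lam q₀ p₀ (some (a : ℤ))) q q' = p₀ * EnA γ ρ lam q q' := by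
  classical
  unfold EnA
  rw [Finset.sum_comm, Finset.mul_sum]
  refine Finset.sum_congr rfl fun h _ => ?_
  rw [← Finset.mul_sum, mul_left_comm]
  congr 1
  set g := Nat.gcd q q' with hg
  by_cases hpm : p₀ ∈ (q * q').primeFactors
  swap
  · -- the factor does not occur
    have : ∀ a ∈ Finset.range p₀, ∏ p ∈ (q * q').primeFactors, fac g (q' / g) (q / g) h p
        (upd lam q₀ p₀ (some (a : ℤ)) q p) (upd lam q₀ p₀ (some (a : ℤ)) q' p) =
        ∏ p ∈ (q * q').primeFactors, fac g (q' / g) (q / g) h p (lam q p) (lam q' p) := by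
      intro a _
      refine Finset.prod_congr rfl fun p hp' => ?_
      have hpp : p ≠ p₀ := fun hc => hpm (hc ▸ hp')
      rw [upd_p _ _ _ hpp, upd_p _ _ _ hpp]
    rw [Finset.sum_congr rfl this]
    simp
  have hprod : ∀ mu : ℕ → ℕ → Option ℤ, (∀ p, p ≠ p₀ → ∀ q, mu q p = lam q p) →
      ∏ p ∈ (q * q').primeFactors, fac g (q' / g) (q / g) h p (mu q p) (mu q' p) =
      fac g (q' / g) (q / g) h p₀ (mu q p₀) (mu q' p₀) *
        ∏ p ∈ (q * q').primeFactors.erase p₀, fac g (q' / g) (q / g) h p (lam q p) (lam q' p) := by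
    intro mu hmu
    rw [← Finset.mul_prod_erase _ _ hpm]
    congr 1
    refine Finset.prod_congr rfl fun p hp' => ?_
    rw [hmu p (Finset.ne_of_mem_erase hp') q, hmu p (Finset.ne_of_mem_erase hp') q']
  rw [hprod lam fun _ _ _ => rfl]
  have hupd : ∀ a : ℕ, ∏ p ∈ (q * q').primeFactors, fac g (q' / g) (q / g) h p
        (upd lam q₀ p₀ (some (a : ℤ)) q p) (upd lam q₀ p₀ (some (a : ℤ)) q' p) =
      fac g (q' / g) (q / g) h p₀ (upd lam q₀ p₀ (some (a : ℤ)) q p₀)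
        (upd lam q₀ p₀ (some (a : ℤ)) q' p₀) *
        ∏ p ∈ (q * q').primeFactors.erase p₀, fac g (q' / g) (q / g) h p (lam q p) (lam q' p) :=
    fun a => hprod _ fun p hp' q => upd_p _ _ _ hp' _
  rw [Finset.sum_congr rfl fun a _ => hupd a, ← Finset.sum_mul, ← mul_assoc]
  congr 1
  by_cases h1 : q = q₀
  · have h2 : q' ≠ q₀ := fun hc => hne (h1.trans hc.symm)
    have e : ∀ a ∈ Finset.range p₀, fac g (q' / g) (q / g) h p₀
        (upd lam q₀ p₀ (some (a : ℤ)) q p₀) (upd lam q₀ p₀ (some (a : ℤ)) q' p₀) =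
        fac g (q' / g) (q / g) h p₀ (some (a : ℤ)) (lam q' p₀) := by
      intro a _
      have e1 : upd lam q₀ p₀ (some (a : ℤ)) q p₀ = some (a : ℤ) := by rw [h1, upd_self]
      rw [upd_q _ h2, e1]
    have hlq : lam q p₀ = none := by rw [h1]; exact hl
    rw [Finset.sum_congr rfl e, fac_avg_left hp (cop_div hq), hlq]
  · by_cases h2 : q' = q₀
    · have e : ∀ a ∈ Finset.range p₀, fac g (q' / g) (q / g) h p₀
          (upd lam q₀ p₀ (some (a : ℤ)) q p₀) (upd lam q₀ p₀ (some (a : ℤ)) q' p₀) =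
          fac g (q' / g) (q / g) h p₀ (lam q p₀) (some (a : ℤ)) := by
        intro a _
        have e1 : upd lam q₀ p₀ (some (a : ℤ)) q' p₀ = some (a : ℤ) := by rw [h2, upd_self]
        rw [upd_q _ h1, e1]
      have hlq : lam q' p₀ = none := by rw [h2]; exact hl
      rw [Finset.sum_congr rfl e, fac_avg_right hp, hlq]
    · have e : ∀ a ∈ Finset.range p₀, fac g (q' / g) (q / g) h p₀
          (upd lam q₀ p₀ (some (a : ℤ)) q p₀) (upd lam q₀ p₀ (some (a : ℤ)) q' p₀) =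
          fac g (q' / g) (q / g) h p₀ (lam q p₀) (lam q' p₀) := by
        intro a _
        rw [upd_q _ h1, upd_q _ h2]
      rw [Finset.sum_congr rfl e]
      simp

lemma Phi_avg {γ ρ : ℝ} {Q : Finset ℕ} {lam : ℕ → ℕ → Option ℤ} {q₀ p₀ : ℕ} (hp : p₀.Prime)
    (hl : lam q₀ p₀ = none) (hQ : ∀ q ∈ Q, 0 < q) :
    ∑ a ∈ Finset.range p₀, Phi γ ρ Q (upd lam q₀ p₀ (some (a : ℤ))) = p₀ * Phi γ ρ Q lam := by
  unfold Phi
  rw [Finset.sum_comm, Finset.mul_sum]
  refine Finset.sum_congr rfl fun q hq => ?_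
  rw [Finset.sum_comm, Finset.mul_sum]
  refine Finset.sum_congr rfl fun q' hq' => ?_
  exact EnA_avg hp hl (hQ q hq) (Finset.ne_of_mem_erase hq').symm

lemma exists_upd {γ ρ : ℝ} {Q : Finset ℕ} {lam : ℕ → ℕ → Option ℤ} {q₀ p₀ : ℕ} (hp : p₀.Prime)
    (hl : lam q₀ p₀ = none) (hQ : ∀ q ∈ Q, 0 < q) :
    ∃ a : ℤ, Phi γ ρ Q (upd lam q₀ p₀ (some a)) ≤ Phi γ ρ Q lam := by
  by_contra hc
  push Not at hc
  have h1 : ∑ _a ∈ Finset.range p₀, Phi γ ρ Q lam <
      ∑ a ∈ Finset.range p₀, Phi γ ρ Q (upd lam q₀ p₀ (some (a : ℤ))) :=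
    Finset.sum_lt_sum_of_nonempty ⟨0, Finset.mem_range.2 hp.pos⟩ fun a _ => hc a
  rw [Phi_avg hp hl hQ] at h1
  simp at h1

lemma exists_full {γ ρ : ℝ} {Q : Finset ℕ} (hQ : ∀ q ∈ Q, 0 < q) (D : Finset (ℕ × ℕ))
    (hD : ∀ d ∈ D, (d.2).Prime) (lam : ℕ → ℕ → Option ℤ) :
    ∃ lam' : ℕ → ℕ → Option ℤ, (∀ d ∈ D, lam' d.1 d.2 ≠ none) ∧
      (∀ q p, lam q p ≠ none → lam' q p = lam q p) ∧ Phi γ ρ Q lam' ≤ Phi γ ρ Q lam := by
  classical
  induction D using Finset.induction_on with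
  | empty => exact ⟨lam, by simp, fun _ _ _ => rfl, le_rfl⟩
  | insert d D hd ih =>
    obtain ⟨l1, h1, h2, h3⟩ := ih fun x hx => hD x (Finset.mem_insert_of_mem hx)
    by_cases hl : l1 d.1 d.2 = none
    · obtain ⟨a, ha⟩ := exists_upd (γ := γ) (ρ := ρ) (hD d (Finset.mem_insert_self _ _)) hl hQ
      refine ⟨upd l1 d.1 d.2 (some a), fun x hx => ?_, fun q p hqp => ?_, ha.trans h3⟩
      · rcases Finset.mem_insert.1 hx with rfl | hx
        · rw [upd_self]; simp
        · unfold upd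
          split_ifs
          · simp
          · exact h1 x hx
      · have e := h2 q p hqp
        unfold upd
        rw [if_neg, e]
        rintro ⟨rfl, rfl⟩
        rw [hl] at e
        exact hqp e.symm
    · refine ⟨l1, fun x hx => ?_, h2, h3⟩
      rcases Finset.mem_insert.1 hx with rfl | hx
      · exact hl
      · exact h1 x hx

/-- complete labels: averaged energy = energy -/
lemma EnA_some {γ ρ : ℝ} {lam : ℕ → ℕ → Option ℤ} {κ : ℕ → ℕ → ℤ} {q q' : ℕ} (hq : 0 < q)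
    (hq' : 0 < q') (h1 : ∀ p ∈ (q * q').primeFactors, lam q p = some (κ q p))
    (h2 : ∀ p ∈ (q * q').primeFactors, lam q' p = some (κ q' p)) :
    EnA γ ρ lam q q' = En γ ρ κ q q' := by
  set g := Nat.gcd q q' with hg
  have hg0 : 0 < g := Nat.gcd_pos_of_pos_left _ hq
  have e1 : g * (q / g) = q := Nat.mul_div_cancel' (Nat.gcd_dvd_left _ _)
  have e2 : g * (q' / g) = q' := Nat.mul_div_cancel' (Nat.gcd_dvd_right _ _)
  have hs : 0 < q' / g := Nat.div_pos (Nat.le_of_dvd hq' (Nat.gcd_dvd_right _ _)) hg0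
  have hs' : 0 < q / g := Nat.div_pos (Nat.le_of_dvd hq (Nat.gcd_dvd_left _ _)) hg0
  unfold EnA En
  rw [← hg]
  refine Finset.sum_congr rfl fun h _ => ?_
  have := Wt_eq (κ := κ) hg0 hs hs' (cop_div hq) h
  rw [e1, e2] at this
  rw [this]
  congr 1
  refine Finset.prod_congr rfl fun p hp => ?_
  rw [h1 p hp, h2 p hp]

lemma Hf_self {γ ρ : ℝ} {q : ℕ} (h0 : 0 < ρ * q) (hρ : ρ * q ≤ 1 / 2) :
    Hf γ (2 * ρ * q) 1 1 = {0} := by
  ext h
  rw [mem_Hf, Finset.mem_singleton]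
  simp only [Nat.cast_one, sub_self, zero_mul, zero_add]
  constructor
  · intro hh
    have : |(h : ℝ)| < 1 := hh.trans_le (by linarith)
    exact Int.abs_lt_one_iff.1 (by exact_mod_cast this)
  · rintro rfl
    simp only [Int.cast_zero, abs_zero]
    linarith

lemma En_self {γ ρ : ℝ} {κ : ℕ → ℕ → ℤ} {q : ℕ} (hq : 0 < q) (h0 : 0 < ρ) (hρ : ρ * q ≤ 1 / 2) :
    En γ ρ κ q q = Nat.totient q := by
  have hq' : (0 : ℝ) < q := by exact_mod_cast hq
  unfold En
  rw [Nat.gcd_self, Nat.lcm_self, Nat.div_self hq, Hf_self (by positivity) hρ, Finset.sum_singleton]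
  unfold Wt
  rw [if_neg]
  · rw [totient_real]
    congr 1
    refine Finset.prod_congr rfl fun p _ => ?_
    unfold nuc
    rw [if_pos (Or.inr (by simp))]
    simp
  · rintro (⟨p, hp, _⟩ | ⟨p, hp, _⟩) <;> simp at hp

/-- **interface with partial labels and independent coins** -/
def KCl (γ : ℝ) : Prop := ∃ c : ℝ, 0 < c ∧ ∃ C : ℝ, ∃ δ : ℝ, 0 < δ ∧ ∃ P : ℕ,
  ∀ (Q : Finset ℕ) (ρ : ℝ), (∀ q ∈ Q, 0 < q ∧ P ≤ q) → 0 < ρ →
    ρ * ∑ q ∈ Q, (Nat.totient q : ℝ) = 1 → (∀ q ∈ Q, ρ * q ≤ δ) →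
    ∃ Q' ⊆ Q, ∃ lam : ℕ → ℕ → Option ℤ, c ≤ ρ * ∑ q ∈ Q', (Nat.totient q : ℝ) ∧
      ρ * ∑ q ∈ Q', ∑ q' ∈ Q'.erase q, EnA γ ρ lam q q' ≤ C

theorem KCw_of_KCl {γ : ℝ} (h : KCl γ) : KCw γ := by
  classical
  obtain ⟨c, hc, C, δ, hδ, P, h⟩ := h
  refine ⟨c, hc, C + 1, min δ (1 / 2), lt_min hδ (by norm_num), P, fun Q ρ hQ hρ hmass hs => ?_⟩
  obtain ⟨Q', hQ', lam, h1, h2⟩ := h Q ρ hQ hρ hmass (fun q hq => (hs q hq).trans (min_le_left _ _))
  have hQ'0 : ∀ q ∈ Q', 0 < q := fun q hq => (hQ q (hQ' hq)).1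
  set D : Finset (ℕ × ℕ) := Q' ×ˢ (Q'.biUnion Nat.primeFactors) with hD
  obtain ⟨lam', h3, _, h5⟩ := exists_full (γ := γ) (ρ := ρ) hQ'0 D (fun d hd => by
    rw [hD, Finset.mem_product, Finset.mem_biUnion] at hd
    obtain ⟨_, q, _, hp⟩ := hd
    exact Nat.prime_of_mem_primeFactors hp) lam
  set κ : ℕ → ℕ → ℤ := fun q p => (lam' q p).getD 0 with hκ
  have hfull : ∀ q ∈ Q', ∀ q₁ ∈ Q', ∀ q₂ ∈ Q', ∀ p ∈ (q₁ * q₂).primeFactors,
      lam' q p = some (κ q p) := by
    intro q hq q₁ hq₁ q₂ hq₂ p hp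
    have hpD : (q, p) ∈ D := by
      rw [hD, Finset.mem_product, Finset.mem_biUnion]
      refine ⟨hq, ?_⟩
      have hpp := Nat.prime_of_mem_primeFactors hp
      rcases (hpp.dvd_mul).1 (Nat.dvd_of_mem_primeFactors hp) with h6 | h6
      · exact ⟨q₁, hq₁, Nat.mem_primeFactors.2 ⟨hpp, h6, (hQ'0 q₁ hq₁).ne'⟩⟩
      · exact ⟨q₂, hq₂, Nat.mem_primeFactors.2 ⟨hpp, h6, (hQ'0 q₂ hq₂).ne'⟩⟩
    have := h3 (q, p) hpD
    simp only at this
    rw [hκ]
    cases hh : lam' q p with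
    | none => exact absurd hh this
    | some a => simp [hh]
  refine ⟨Q', hQ', κ, h1, ?_⟩
  have e1 : ∀ q ∈ Q', ∑ q' ∈ Q', En γ ρ κ q q' =
      (Nat.totient q : ℝ) + ∑ q' ∈ Q'.erase q, EnA γ ρ lam' q q' := by
    intro q hq
    rw [← Finset.add_sum_erase _ _ hq, En_self (hQ'0 q hq) hρ
      ((hs q (hQ' hq)).trans (min_le_right _ _))]
    congr 1
    refine Finset.sum_congr rfl fun q' hq' => ?_
    have hq'' := Finset.mem_of_mem_erase hq'
    rw [EnA_some (hQ'0 q hq) (hQ'0 q' hq'') (fun p hp => hfull q hq q hq q' hq'' p hp)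
      (fun p hp => hfull q' hq'' q hq q' hq'' p hp)]
  rw [Finset.sum_congr rfl e1, Finset.sum_add_distrib, mul_add]
  have e2 : ρ * ∑ q ∈ Q', (Nat.totient q : ℝ) ≤ 1 := by
    rw [← hmass]
    refine mul_le_mul_of_nonneg_left ?_ hρ.le
    exact Finset.sum_le_sum_of_subset_of_nonneg hQ' fun _ _ _ => by positivity
  have e3 : ρ * ∑ q ∈ Q', ∑ q' ∈ Q'.erase q, EnA γ ρ lam' q q' ≤ C := by
    refine le_trans ?_ h2
    exact mul_le_mul_of_nonneg_left h5 hρ.le
  linarith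

theorem main_KCl {γ : ℝ} (h : KCl γ) (ψ : ℕ → ℝ)
    (hψ : ∀ q, 0 ≤ ψ q) (hdiv : ¬ Summable fun q : ℕ => (Nat.totient q : ℝ) / q * ψ q) :
    ∀ᵐ x : ℝ, ∃ᶠ q : ℕ in atTop, |(q : ℝ) * x - γ - round ((q : ℝ) * x - γ)| < ψ q :=
  main_KCw (KCw_of_KCl h) ψ hψ hdiv

/-! ### sizes -/

open Classical in
/-- local factor of a pair of pure coins -/
noncomputable def base (q q' p : ℕ) : ℝ :=
  (if p ∣ q then 1 - 1 / (p : ℝ) else 1) * (if p ∣ q' then 1 - 1 / (p : ℝ) else 1)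

lemma one_sub_inv_pos {p : ℕ} (hp : p.Prime) : (0 : ℝ) < 1 - 1 / (p : ℝ) := by
  have hp2 : (2 : ℝ) ≤ p := by exact_mod_cast hp.two_le
  have : (1 : ℝ) / p ≤ 1 / 2 := one_div_le_one_div_of_le (by norm_num) hp2
  linarith

lemma base_pos {q q' p : ℕ} (hp : p.Prime) : 0 < base q q' p := by
  have := one_sub_inv_pos hp
  unfold base
  split_ifs <;> positivity

lemma prod_base {q q' : ℕ} (hq : 0 < q) (hq' : 0 < q') :
    ∏ p ∈ (q * q').primeFactors, base q q' p = (Nat.totient q / q) * (Nat.totient q' / q') := by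
  classical
  have hq0 : (q : ℝ) ≠ 0 := by exact_mod_cast hq.ne'
  have hq0' : (q' : ℝ) ≠ 0 := by exact_mod_cast hq'.ne'
  have key : ∀ r : ℕ, 0 < r → r ∣ q * q' → ∏ p ∈ (q * q').primeFactors,
      (if p ∣ r then 1 - 1 / (p : ℝ) else 1) = Nat.totient r / r := by
    intro r hr hd
    have hr0 : (r : ℝ) ≠ 0 := by exact_mod_cast hr.ne'
    rw [totient_real, mul_div_cancel_left₀ _ hr0, ← Finset.prod_filter]
    refine Finset.prod_congr ?_ fun _ _ => rfl
    ext p
    rw [Finset.mem_filter, Nat.mem_primeFactors, Nat.mem_primeFactors]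
    constructor
    · rintro ⟨⟨h1, _, _⟩, h2⟩; exact ⟨h1, h2, hr.ne'⟩
    · rintro ⟨h1, h2, _⟩; exact ⟨⟨h1, h2.trans hd, by positivity⟩, h2⟩
  unfold base
  rw [Finset.prod_mul_distrib, key q hq (dvd_mul_right _ _), key q' hq' (dvd_mul_left _ _)]

/-- the prime `p` is *charged* at the offset `h`: it is not a coin-coin prime -/
def charged (lam : ℕ → ℕ → Option ℤ) (q q' s s' : ℕ) (h : ℤ) (p : ℕ) : Prop :=
  (p ∣ s' ∧ lam q p ≠ none) ∨ (p ∣ s ∧ lam q' p ≠ none) ∨
    (¬ p ∣ s ∧ ¬ p ∣ s' ∧ ∃ a b, lam q p = some a ∧ lam q' p = some b ∧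
      (p : ℤ) ∣ h - s * a + s' * b)

open Classical in
/-- pointwise bound: every charged prime costs `(1-1/p)⁻¹` -/
lemma fac_le {lam : ℕ → ℕ → Option ℤ} {g s s' : ℕ} (hcop : Nat.Coprime s s') (h : ℤ) {p : ℕ}
    (hp : p.Prime) (hpd : p ∣ g ∨ p ∣ s ∨ p ∣ s') :
    fac g s s' h p (lam (g * s') p) (lam (g * s) p) ≤ base (g * s') (g * s) p *
      (if charged lam (g * s') (g * s) s s' h p then (1 - 1 / (p : ℝ))⁻¹ else 1) := by
  have hpos := one_sub_inv_pos hp
  have hle1 : (1 - 1 / (p : ℝ)) ≤ 1 := by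
    have : (0 : ℝ) ≤ 1 / p := by positivity
    linarith
  have hnot : p ∣ s → ¬ p ∣ s' := by
    intro h1 h2
    have := Nat.dvd_gcd h1 h2
    rw [hcop.gcd_eq_one] at this
    exact hp.one_lt.ne' (Nat.dvd_one.1 this)
  have hd1 : p ∣ g * s' ↔ p ∣ g ∨ p ∣ s' := hp.dvd_mul
  have hd2 : p ∣ g * s ↔ p ∣ g ∨ p ∣ s := hp.dvd_mul
  unfold fac base charged
  by_cases h1 : p ∣ s'
  · have h2 : ¬ p ∣ s := fun hc => hnot hc h1
    simp only [h1, h2, hd1, hd2, if_true, or_true, or_false, true_and, false_and, not_true,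
      and_false]
    have hg0 : (0 : ℝ) ≤ (if p ∣ g then 1 - 1 / (p : ℝ) else 1) := by
      split_ifs
      · exact hpos.le
      · norm_num
    cases hl : lam (g * s') p with
    | none => simp [surv]
    | some a =>
      simp only [ne_eq, reduceCtorEq, not_false_eq_true, if_true, surv]
      rw [mul_comm (1 - 1 / (p : ℝ)), mul_assoc, mul_inv_cancel₀ hpos.ne', mul_one]
      split_ifs <;> linarith
  · by_cases h2 : p ∣ s
    · simp only [h1, h2, hd1, hd2, if_true, if_false, or_true, or_false, true_and, false_and, not_true,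
        false_or]
      have hg0 : (0 : ℝ) ≤ (if p ∣ g then 1 - 1 / (p : ℝ) else 1) := by
        split_ifs
        · exact hpos.le
        · norm_num
      cases hl : lam (g * s) p with
      | none => simp [surv]
      | some a =>
        simp only [ne_eq, reduceCtorEq, not_false_eq_true, if_true, surv]
        rw [mul_assoc, mul_inv_cancel₀ hpos.ne', mul_one]
        split_ifs <;> linarith
    · have hg : p ∣ g := by tauto
      simp only [h1, h2, hg, hd1, hd2, if_true, if_false, true_or, false_and, not_false_eq_true,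
        false_or, true_and]
      cases hl : lam (g * s') p with
      | none =>
        simp only [reduceCtorEq, false_and, exists_false, if_false, mul_one]
        cases lam (g * s) p <;> simp [comm, sq]
      | some a =>
        cases hl' : lam (g * s) p with
        | none =>
          simp [comm, sq]
        | some b =>
          simp only [Option.some.injEq, comm]
          by_cases h4 : (p : ℤ) ∣ h - s * a + s' * b
          · rw [if_pos h4, if_pos ⟨a, b, rfl, rfl, h4⟩, mul_assoc, mul_inv_cancel₀ hpos.ne', mul_one]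
          · rw [if_neg h4, if_neg]
            · have h5 : (1 - 1 / (p : ℝ)) * (1 - 1 / (p : ℝ)) * 1 = 1 - 2 / (p : ℝ) + (1 / (p : ℝ)) ^ 2 := by
                ring
              rw [h5]
              have : (0 : ℝ) ≤ (1 / (p : ℝ)) ^ 2 := by positivity
              linarith
            · rintro ⟨a', b', rfl, rfl, h6⟩
              exact h4 h6

/-- an offset killed by a label -/
def killedL (lam : ℕ → ℕ → Option ℤ) (q q' s s' : ℕ) (h : ℤ) : Prop :=
  (∃ p : ℕ, p.Prime ∧ p ∣ s' ∧ ∃ a, lam q p = some a ∧ (p : ℤ) ∣ h - s * a) ∨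
  (∃ p : ℕ, p.Prime ∧ p ∣ s ∧ ∃ b, lam q' p = some b ∧ (p : ℤ) ∣ h + s' * b)

open Classical in
/-- boost of an offset -/
noncomputable def boost (lam : ℕ → ℕ → Option ℤ) (q q' s s' : ℕ) (h : ℤ) : ℝ :=
  ∏ p ∈ (q * q').primeFactors, (if charged lam q q' s s' h p then (1 - 1 / (p : ℝ))⁻¹ else 1)

lemma boost_nonneg (lam : ℕ → ℕ → Option ℤ) (q q' s s' : ℕ) (h : ℤ) :
    0 ≤ boost lam q q' s s' h := by
  refine Finset.prod_nonneg fun p hp => ?_
  have := one_sub_inv_pos (Nat.prime_of_mem_primeFactors hp)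
  split_ifs <;> positivity

open Classical in
lemma term_le {lam : ℕ → ℕ → Option ℤ} {g s s' : ℕ} (hg : 0 < g) (hs : 0 < s) (hs' : 0 < s')
    (hcop : Nat.Coprime s s') (h : ℤ) :
    (g : ℝ) * ∏ p ∈ ((g * s') * (g * s)).primeFactors,
      fac g s s' h p (lam (g * s') p) (lam (g * s) p) ≤
    (if killedL lam (g * s') (g * s) s s' h then (0 : ℝ) else
      (g : ℝ) * (((Nat.totient (g * s') : ℝ) / ((g * s' : ℕ) : ℝ)) *
        ((Nat.totient (g * s) : ℝ) / ((g * s : ℕ) : ℝ))) *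
        boost lam (g * s') (g * s) s s' h) := by
  have hN : (g * s') * (g * s) ≠ 0 := by positivity
  have hnot : ∀ p, p.Prime → p ∣ s → ¬ p ∣ s' := by
    intro p hp h1 h2
    have := Nat.dvd_gcd h1 h2
    rw [hcop.gcd_eq_one] at this
    exact hp.one_lt.ne' (Nat.dvd_one.1 this)
  split_ifs with hk
  · refine le_of_eq ?_
    rw [mul_eq_zero]
    right
    rcases hk with ⟨p, hp, hd, a, ha, hda⟩ | ⟨p, hp, hd, b, hb, hdb⟩
    · refine Finset.prod_eq_zero (Nat.mem_primeFactors.2 ⟨hp,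
        dvd_mul_of_dvd_left (dvd_mul_of_dvd_right hd _) _, hN⟩) ?_
      unfold fac
      rw [if_pos hd, ha]
      simp only [surv, if_pos hda, zero_mul]
    · refine Finset.prod_eq_zero (Nat.mem_primeFactors.2 ⟨hp,
        dvd_mul_of_dvd_right (dvd_mul_of_dvd_right hd _) _, hN⟩) ?_
      unfold fac
      rw [if_neg (hnot p hp hd), if_pos hd, hb]
      have hd' : (p : ℤ) ∣ h - -(s' : ℤ) * b := by
        have e : h - -(s' : ℤ) * b = h + s' * b := by ring
        rw [e]; exact hdb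
      simp only [surv, if_pos hd', zero_mul]
  · rw [mul_assoc (g : ℝ)]
    refine mul_le_mul_of_nonneg_left ?_ (Nat.cast_nonneg g)
    have hpr : ∀ p ∈ ((g * s') * (g * s)).primeFactors, p ∣ g ∨ p ∣ s ∨ p ∣ s' := by
      intro p hp
      have h1 := Nat.prime_of_mem_primeFactors hp
      rcases (h1.dvd_mul).1 (Nat.dvd_of_mem_primeFactors hp) with h3 | h3 <;>
        rcases (h1.dvd_mul).1 h3 with h4 | h4 <;> tauto
    calc ∏ p ∈ ((g * s') * (g * s)).primeFactors,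
          fac g s s' h p (lam (g * s') p) (lam (g * s) p)
        ≤ ∏ p ∈ ((g * s') * (g * s)).primeFactors, (base (g * s') (g * s) p *
          (if charged lam (g * s') (g * s) s s' h p then (1 - 1 / (p : ℝ))⁻¹ else 1)) :=
          Finset.prod_le_prod (fun p hp => fac_nonneg (Nat.prime_of_mem_primeFactors hp) _ _ _)
            fun p hp => fac_le hcop h (Nat.prime_of_mem_primeFactors hp) (hpr p hp)
      _ = _ := by
          rw [Finset.prod_mul_distrib, prod_base (by positivity) (by positivity)]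
          rfl

open Classical in
/-- **bound of the averaged energy of a pair** -/
theorem EnA_le {γ ρ : ℝ} {lam : ℕ → ℕ → Option ℤ} {q q' : ℕ} (hq : 0 < q) (hq' : 0 < q') :
    EnA γ ρ lam q q' ≤ (Nat.totient q * Nat.totient q' / (Nat.lcm q q' : ℕ)) *
      ∑ h ∈ (Hf γ (2 * ρ * (Nat.lcm q q' : ℕ)) (q' / Nat.gcd q q') (q / Nat.gcd q q')).filter
        (fun h => ¬ killedL lam q q' (q' / Nat.gcd q q') (q / Nat.gcd q q') h),
        boost lam q q' (q' / Nat.gcd q q') (q / Nat.gcd q q') h := by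
  set g := Nat.gcd q q' with hg
  have hg0 : 0 < g := Nat.gcd_pos_of_pos_left _ hq
  have e1 : g * (q / g) = q := Nat.mul_div_cancel' (Nat.gcd_dvd_left _ _)
  have e2 : g * (q' / g) = q' := Nat.mul_div_cancel' (Nat.gcd_dvd_right _ _)
  have hs : 0 < q' / g := Nat.div_pos (Nat.le_of_dvd hq' (Nat.gcd_dvd_right _ _)) hg0
  have hs' : 0 < q / g := Nat.div_pos (Nat.le_of_dvd hq (Nat.gcd_dvd_left _ _)) hg0
  have hl : (g : ℝ) * (Nat.lcm q q' : ℕ) = q * q' := by
    have := Nat.gcd_mul_lcm q q'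
    rw [← hg] at this
    exact_mod_cast this
  have hq0 : (0 : ℝ) < q := by exact_mod_cast hq
  have hq0' : (0 : ℝ) < q' := by exact_mod_cast hq'
  have hlcm : (0 : ℝ) < (Nat.lcm q q' : ℕ) := by
    exact_mod_cast Nat.lcm_pos hq hq'
  unfold EnA
  rw [← hg, Finset.mul_sum, Finset.sum_filter]
  refine Finset.sum_le_sum fun h _ => ?_
  have := term_le (lam := lam) hg0 hs hs' (cop_div hq) h
  rw [e1, e2] at this
  refine this.trans (le_of_eq ?_)
  split_ifs with hk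
  · rfl
  · congr 1
    rw [eq_div_iff hlcm.ne']
    have e3 : (g : ℝ) * (Nat.totient q / q * (Nat.totient q' / q')) * (Nat.lcm q q' : ℕ) =
        (g * (Nat.lcm q q' : ℕ)) * (Nat.totient q * Nat.totient q') / (q * q') := by
      field_simp
    rw [e3, hl]
    field_simp

lemma card_Hf {γ Δ : ℝ} (hΔ : 0 ≤ Δ) (s s' : ℕ) : ((Hf γ Δ s s').card : ℝ) ≤ 2 * Δ + 1 := by
  set x := -(((s : ℝ) - s') * γ) with hx
  have hsub : Hf γ Δ s s' ⊆ Finset.Ico ⌈x - Δ⌉ (⌈x - Δ⌉ + (⌊2 * Δ⌋ + 1)) := by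
    intro h hh
    rw [mem_Hf, abs_lt] at hh
    rw [Finset.mem_Ico, Int.ceil_le]
    refine ⟨by linarith [hh.1], ?_⟩
    have h1 : (h : ℝ) < x + Δ := by linarith [hh.2]
    have h2 : (h : ℝ) - ⌈x - Δ⌉ < 2 * Δ := by
      have := Int.le_ceil (x - Δ)
      linarith
    have h3 : h - ⌈x - Δ⌉ ≤ ⌊2 * Δ⌋ := by
      rw [Int.le_floor]
      push_cast
      exact h2.le
    omega
  have h1 := Finset.card_le_card hsub
  rw [Int.card_Ico] at h1
  have h2 : 0 ≤ ⌊2 * Δ⌋ := Int.floor_nonneg.2 (by linarith)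
  have h3 : ((Hf γ Δ s s').card : ℤ) ≤ ⌊2 * Δ⌋ + 1 := by
    have : ((Hf γ Δ s s').card : ℤ) ≤ ((⌈x - Δ⌉ + (⌊2 * Δ⌋ + 1) - ⌈x - Δ⌉).toNat : ℤ) := by
      exact_mod_cast h1
    rw [Int.toNat_of_nonneg (by omega)] at this
    omega
  have h4 : ((Hf γ Δ s s').card : ℝ) ≤ (⌊2 * Δ⌋ : ℝ) + 1 := by exact_mod_cast h3
  have h5 := Int.floor_le (2 * Δ)
  linarith

/-- pure coins: no boost -/
lemma boost_none {lam : ℕ → ℕ → Option ℤ} {q q' s s' : ℕ} (h : ℤ)
    (h1 : ∀ p ∈ (q * q').primeFactors, ¬ charged lam q q' s s' h p) :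
    boost lam q q' s s' h = 1 := by
  unfold boost
  exact Finset.prod_eq_one fun p hp => by rw [if_neg (h1 p hp)]

/-- **near pairs cost `O(m²)`**: if the boosts are at most `K` -/
theorem near_pairs {γ ρ K : ℝ} (hρ : 0 < ρ) (hK0' : 0 ≤ K) {lam : ℕ → ℕ → Option ℤ} {Q : Finset ℕ}
    (hQ : ∀ q ∈ Q, 0 < q) (N : Finset (ℕ × ℕ)) (hN : N ⊆ Q ×ˢ Q)
    (hnear : ∀ v ∈ N, 1 ≤ 2 * ρ * (Nat.lcm v.1 v.2 : ℕ))
    (hK : ∀ v ∈ N, ∀ h, boost lam v.1 v.2 (v.2 / Nat.gcd v.1 v.2) (v.1 / Nat.gcd v.1 v.2) h ≤ K) :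
    ρ * ∑ v ∈ N, EnA γ ρ lam v.1 v.2 ≤ 6 * K * (ρ * ∑ q ∈ Q, (Nat.totient q : ℝ)) ^ 2 := by
  classical
  have key : ∀ v ∈ N, EnA γ ρ lam v.1 v.2 ≤ 6 * K * ρ * (Nat.totient v.1 * Nat.totient v.2) := by
    intro v hv
    have hv' := Finset.mem_product.1 (hN hv)
    have hq := hQ _ hv'.1
    have hq' := hQ _ hv'.2
    have hlcm : (0 : ℝ) < (Nat.lcm v.1 v.2 : ℕ) := by exact_mod_cast Nat.lcm_pos hq hq'
    have hK0 : 0 ≤ K := (boost_nonneg _ _ _ _ _ 0).trans (hK v hv 0)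
    refine (EnA_le hq hq').trans ?_
    have h1 : ∑ h ∈ (Hf γ (2 * ρ * (Nat.lcm v.1 v.2 : ℕ)) (v.2 / Nat.gcd v.1 v.2)
        (v.1 / Nat.gcd v.1 v.2)).filter
        (fun h => ¬ killedL lam v.1 v.2 (v.2 / Nat.gcd v.1 v.2) (v.1 / Nat.gcd v.1 v.2) h),
        boost lam v.1 v.2 (v.2 / Nat.gcd v.1 v.2) (v.1 / Nat.gcd v.1 v.2) h ≤
        (2 * (2 * ρ * (Nat.lcm v.1 v.2 : ℕ)) + 1) * K := by
      calc _ ≤ ∑ _h ∈ (Hf γ (2 * ρ * (Nat.lcm v.1 v.2 : ℕ)) (v.2 / Nat.gcd v.1 v.2)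
            (v.1 / Nat.gcd v.1 v.2)), K := by
            refine (Finset.sum_le_sum_of_subset_of_nonneg (Finset.filter_subset _ _)
              fun h _ _ => boost_nonneg _ _ _ _ _ h).trans ?_
            exact Finset.sum_le_sum fun h _ => hK v hv h
        _ = (Hf γ (2 * ρ * (Nat.lcm v.1 v.2 : ℕ)) (v.2 / Nat.gcd v.1 v.2)
            (v.1 / Nat.gcd v.1 v.2)).card * K := by rw [Finset.sum_const, nsmul_eq_mul]
        _ ≤ _ := mul_le_mul_of_nonneg_right (card_Hf (by positivity) _ _) hK0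
    have h2 : (2 * (2 * ρ * (Nat.lcm v.1 v.2 : ℕ)) + 1) * K ≤
        3 * (2 * ρ * (Nat.lcm v.1 v.2 : ℕ)) * K := by
      refine mul_le_mul_of_nonneg_right ?_ hK0
      have := hnear v hv
      linarith
    calc _ ≤ (Nat.totient v.1 * Nat.totient v.2 / (Nat.lcm v.1 v.2 : ℕ)) *
          (3 * (2 * ρ * (Nat.lcm v.1 v.2 : ℕ)) * K) :=
          mul_le_mul_of_nonneg_left (h1.trans h2) (by positivity)
      _ = _ := by field_simp; ring
  calc ρ * ∑ v ∈ N, EnA γ ρ lam v.1 v.2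
      ≤ ρ * ∑ v ∈ N, 6 * K * ρ * (Nat.totient v.1 * Nat.totient v.2) :=
        mul_le_mul_of_nonneg_left (Finset.sum_le_sum key) hρ.le
    _ ≤ ρ * ∑ v ∈ Q ×ˢ Q, 6 * K * ρ * (Nat.totient v.1 * Nat.totient v.2) := by
        refine mul_le_mul_of_nonneg_left ?_ hρ.le
        exact Finset.sum_le_sum_of_subset_of_nonneg hN fun _ _ _ => by positivity
    _ = _ := by
        rw [← Finset.mul_sum, Finset.sum_product]
        simp only [← Finset.mul_sum]
        rw [← Finset.sum_mul]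
        ring

end Crest.Agent.R4C.CrCoinx935
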