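import Crest.Agent.R4C.S4def_74
import Crest.Agent.R4C.CrCoin_935
import Crest.Agent.R4C.Base_935

/-!
# Row 4, BLOCK S4 (note 2774), items (2), (3), (5d), (6) + corollary (helper74)

Pair of items `b = g s`, `b' = g s'` (`s, s'` coprime), offset `h = s n - s' n'`,
`f` a centre of `b`, `tr s s' h f` the transferred centre of `b'`.
`explL s h f p` : the prime `p ∣ s'` is *explained* by the common point (`p ∣ W`, `v_p(N) > v_p(b)`).
-/

set_option autoImplicit false

namespace Crest.Agent.R4C.S4x74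

open Crest.Agent.R4C.CrCoinx935 Crest.Agent.R4C.Basex935

/-! ### (2) labels -/

/-- the class `-P/Q` modulo `p` -/
def lab (f : ℚ) (p : ℕ) : ℤ := ((-(f.num : ZMod p)) * ((f.den : ZMod p))⁻¹).val

lemma lab_dvd {p : ℕ} (hp : p.Prime) {f : ℚ} (hd : ¬ p ∣ f.den) :
    (p : ℤ) ∣ f.num + f.den * lab f p := by
  have hF : Fact p.Prime := ⟨hp⟩
  have hd' : ((f.den : ℕ) : ZMod p) ≠ 0 := fun hc => hd ((ZMod.natCast_eq_zero_iff _ _).1 hc)
  rw [← ZMod.intCast_zmod_eq_zero_iff_dvd]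
  unfold lab
  push_cast
  rw [ZMod.natCast_zmod_val]
  field_simp
  ring

/-- two classes of the same fraction agree modulo `p` -/
lemma class_unique {p : ℕ} (hp : p.Prime) {f : ℚ} (hd : ¬ p ∣ f.den) {a a' : ℤ}
    (ha : (p : ℤ) ∣ f.num + f.den * a) (ha' : (p : ℤ) ∣ f.num + f.den * a') : (p : ℤ) ∣ a - a' := by
  have hpi : Prime (p : ℤ) := Nat.prime_iff_prime_int.1 hp
  have h1 : (p : ℤ) ∣ f.den * (a - a') := by
    have := dvd_sub ha ha'
    have e : f.num + f.den * a - (f.num + f.den * a') = f.den * (a - a') := by ring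
    rwa [e] at this
  exact (hpi.dvd_or_dvd h1).resolve_left (fun hc => hd (by exact_mod_cast hc))

/-- the label kills the hit `n` iff `p ∣ W` -/
lemma label_kills_iff {p : ℕ} (hp : p.Prime) {f : ℚ} (hd : ¬ p ∣ f.den) {a : ℤ}
    (ha : (p : ℤ) ∣ f.num + f.den * a) (n : ℤ) : (p : ℤ) ∣ n - a ↔ (p : ℤ) ∣ WW f n := by
  have hpi : Prime (p : ℤ) := Nat.prime_iff_prime_int.1 hp
  have e : WW f n = (f.num + f.den * a) + f.den * (n - a) := by unfold WW; ring
  constructor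
  · intro h1
    rw [e]
    exact dvd_add ha (h1.mul_left _)
  · intro h1
    rw [e] at h1
    have h2 := (dvd_add_right ha).1 h1
    exact (hpi.dvd_or_dvd h2).resolve_left (fun hc => hd (by exact_mod_cast hc))

lemma not_dvd_den_of_WW {p : ℕ} (hp : p.Prime) {f : ℚ} {n : ℤ} (h : (p : ℤ) ∣ WW f n) :
    ¬ p ∣ f.den := by
  intro hd
  have hpi : Prime (p : ℤ) := Nat.prime_iff_prime_int.1 hp
  have h1 : (p : ℤ) ∣ (f.den : ℤ) := by exact_mod_cast hd
  exact hpi.not_isUnit ((isCoprime_WW f n).isUnit_of_dvd' h h1)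

/-- S4 (2): `p ∣ W` iff `v_p(N) > v_p(b)`, `N = num z` -/
theorem dvd_WW_iff {p : ℕ} (hp : p.Prime) {b : ℕ} (hb : 0 < b) (f : ℚ) (n : ℤ) :
    (p : ℤ) ∣ WW f n ↔ (p : ℤ) ^ (padicValNat p b + 1) ∣ (zz b f n).num := by
  have hF : Fact p.Prime := ⟨hp⟩
  have hpi : Prime (p : ℤ) := Nat.prime_iff_prime_int.1 hp
  have hp0 : (p : ℤ) ≠ 0 := hpi.ne_zero
  rw [zz_num]
  constructor
  · intro h1
    have hd := not_dvd_den_of_WW hp h1
    have hB : ¬ p ∣ bet b f := fun hc => hd (hc.trans (bet_dvd_den b f))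
    have h2 : p ^ padicValNat p b ∣ gg b f := by
      have h3 : p ^ padicValNat p b ∣ gg b f * bet b f := by
        rw [gg_mul_bet]; exact pow_padicValNat_dvd
      have h4 : Nat.Coprime (p ^ padicValNat p b) (bet b f) :=
        Nat.Coprime.pow_left _ ((Nat.Prime.coprime_iff_not_dvd hp).2 hB)
      exact h4.dvd_of_dvd_mul_right h3
    rw [pow_succ]
    have h5 : (p : ℤ) ^ padicValNat p b ∣ (gg b f : ℤ) := by exact_mod_cast h2
    exact mul_dvd_mul h5 h1
  · intro h1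
    -- `gg = p^w u`, `p ∤ u`, `w ≤ v`
    have hg0 : gg b f ≠ 0 := (gg_pos hb f).ne'
    obtain ⟨w, u, hu, he⟩ := Nat.exists_eq_pow_mul_and_not_dvd hg0 p hp.ne_one
    have hw : w ≤ padicValNat p b := by
      have h2 : p ^ w ∣ b := (Dvd.intro _ he.symm).trans (gg_dvd b f)
      exact (padicValNat_dvd_iff_le hb.ne').1 h2
    have h2 : (p : ℤ) ^ (w + 1) ∣ (gg b f : ℤ) * WW f n :=
      (pow_dvd_pow _ (by omega)).trans h1
    rw [he] at h2
    push_cast at h2
    rw [pow_succ, mul_assoc] at h2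
    have h3 := (mul_dvd_mul_iff_left (pow_ne_zero w hp0)).1 h2
    exact (hpi.dvd_or_dvd h3).resolve_left (fun hc => hu (by exact_mod_cast hc))

/-! ### (3) transfer -/

section transfer
variable {g s s' : ℕ} {h : ℤ} {f : ℚ}

/-- same denominator -/
theorem tr_kk (hs' : 0 < s') (hc : Nat.Coprime s s') :
    kk (g * s') (tr s s' h f) = kk (g * s) f := by
  obtain ⟨n, n', hn⟩ := exists_hits hc h
  rw [← zz_den (g * s') (tr s s' h f) n', tr_zz hs' hn, zz_den]

/-- the displacement grows by less than the window -/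
theorem tr_dd {γ Δ : ℝ} (hg : 0 < g) (hs' : 0 < s') (hl : |((s : ℝ) - s') * γ + h| < Δ) :
    dd γ (g * s') (tr s s' h f) < dd γ (g * s) f + g * Δ := by
  have hg0 : (0 : ℝ) < g := by exact_mod_cast hg
  have hs0 : (s' : ℝ) ≠ 0 := by exact_mod_cast hs'.ne'
  have e1 : ((g * s' : ℕ) : ℝ) * (γ - ((tr s s' h f : ℚ) : ℝ)) =
      ((g * s : ℕ) : ℝ) * (γ - (f : ℝ)) - g * (((s : ℝ) - s') * γ + h) := by
    unfold tr
    push_cast
    field_simp
    ring
  have e2 : dd γ (g * s') (tr s s' h f) =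
      |((g * s' : ℕ) : ℝ) * (γ - ((tr s s' h f : ℚ) : ℝ))| := by
    unfold dd
    rw [abs_mul, Nat.abs_cast]
  have e3 : dd γ (g * s) f = |((g * s : ℕ) : ℝ) * (γ - (f : ℝ))| := by
    unfold dd
    rw [abs_mul, Nat.abs_cast]
  rw [e2, e1, e3]
  have h1 := abs_sub (((g * s : ℕ) : ℝ) * (γ - (f : ℝ))) (g * (((s : ℝ) - s') * γ + h))
  have h2 : |(g : ℝ) * (((s : ℝ) - s') * γ + h)| < g * Δ := by
    rw [abs_mul, Nat.abs_cast]
    exact mul_lt_mul_of_pos_left hl hg0
  linarith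

/-- `g_{f'}(b') = gcd(b', N)` is a multiple of `gcd(g_f(b), g)` -/
theorem tr_gg_dvd (hs' : 0 < s') (hc : Nat.Coprime s s') :
    Nat.gcd (gg (g * s) f) g ∣ gg (g * s') (tr s s' h f) := by
  obtain ⟨n, n', hn⟩ := exists_hits hc h
  rw [← gcd_num (g * s') (tr s s' h f) n', tr_zz hs' hn]
  refine Nat.dvd_gcd ((Nat.gcd_dvd_right _ _).trans (dvd_mul_right _ _)) ?_
  refine (Nat.gcd_dvd_left _ _).trans ?_
  rw [← gcd_num (g * s) f n]
  exact Nat.gcd_dvd_right _ _

/-- a centre is transferred to a centre -/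
theorem tr_isCen {γ L K D : ℝ} (hg : 0 < g) (hs' : 0 < s') (hc : Nat.Coprime s s')
    (hl : (g : ℝ) * |((s : ℝ) - s') * γ + h| < L) (hf : IsCen γ L K D (g * s) f) :
    IsCen γ L K (D + 1) (g * s') (tr s s' h f) := by
  have hg0 : (0 : ℝ) < g := by exact_mod_cast hg
  refine ⟨by rw [tr_kk hs' hc]; exact hf.1, ?_⟩
  have h1 : |((s : ℝ) - s') * γ + h| < L / g := by
    rw [lt_div_iff₀ hg0]; linarith
  have h2 := tr_dd (f := f) hg hs' h1
  have h3 : (g : ℝ) * (L / g) = L := mul_div_cancel₀ L hg0.ne'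
  have := hf.2
  linarith

/-- S4 (5d): a used centre `f₁'` of `b'` with a large common divisor is the transferred centre -/
theorem used_eq {γ L K D : ℝ} (hg : 0 < g) (hs' : 0 < s') (hc : Nat.Coprime s s')
    (hK : 0 ≤ K) (hl : (g : ℝ) * |((s : ℝ) - s') * γ + h| < L)
    (hf : IsCen γ L K D (g * s) f) {f₁' : ℚ} (hf₁ : IsCen γ L K D (g * s') f₁')
    (hG : K ^ 2 * (2 * D + 1) * L <
      (Nat.gcd (gg (g * s') (tr s s' h f)) (gg (g * s') f₁') : ℕ)) : f₁' = tr s s' h f := by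
  by_contra hne
  have hb : 0 < g * s' := Nat.mul_pos hg hs'
  have h1 := uniq_le (γ := γ) hb (f₁ := tr s s' h f) (f₂ := f₁') (fun e => hne e.symm)
  have h2 := tr_isCen hg hs' hc hl hf
  have h3 : (kk (g * s') (tr s s' h f) : ℝ) * kk (g * s') f₁' *
      (dd γ (g * s') (tr s s' h f) + dd γ (g * s') f₁') ≤ K * K * ((D + 1) * L + D * L) := by
    have a1 := h2.1
    have a2 := h2.2
    have a3 := hf₁.1
    have a4 := hf₁.2
    have b1 : (0 : ℝ) ≤ kk (g * s') (tr s s' h f) := by positivity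
    have b2 : (0 : ℝ) ≤ kk (g * s') f₁' := by positivity
    have b3 := dd_nonneg γ (g * s') (tr s s' h f)
    have b4 := dd_nonneg γ (g * s') f₁'
    gcongr
  have e : K * K * ((D + 1) * L + D * L) = K ^ 2 * (2 * D + 1) * L := by ring
  rw [e] at h3
  linarith

end transfer

/-! ### (6) kill lemma -/

/-- the prime `p ∣ s'` is explained by the common point of `f` and `tr s s' h f` -/
def explL (s : ℕ) (h : ℤ) (f : ℚ) (p : ℕ) : Prop := (p : ℤ) ∣ s * f.num + h * f.den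

lemma not_dvd_of_coprime {p s s' : ℕ} (hp : p.Prime) (hc : Nat.Coprime s s') (hps' : p ∣ s') :
    ¬ p ∣ s := by
  intro hps
  have := Nat.dvd_gcd hps hps'
  rw [hc.gcd_eq_one] at this
  exact hp.one_lt.ne' (Nat.dvd_one.1 this)

lemma not_dvd_den_of_expl {p s s' : ℕ} (hp : p.Prime) (hc : Nat.Coprime s s') (hps' : p ∣ s')
    {h : ℤ} {f : ℚ} (hE : explL s h f p) : ¬ p ∣ f.den := by
  intro hd
  have hpi : Prime (p : ℤ) := Nat.prime_iff_prime_int.1 hp
  have hd' : (p : ℤ) ∣ (f.den : ℤ) := by exact_mod_cast hd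
  have h1 : (p : ℤ) ∣ s * f.num := (dvd_add_left (hd'.mul_left h)).1 hE
  have h2 : ¬ (p : ℤ) ∣ (s : ℤ) := fun h3 => not_dvd_of_coprime hp hc hps' (by exact_mod_cast h3)
  have h3 := (hpi.dvd_or_dvd h1).resolve_left h2
  have h4 : IsCoprime f.num (f.den : ℤ) := by
    rw [Int.isCoprime_iff_gcd_eq_one]; exact f.reduced
  exact hpi.not_isUnit (h4.isUnit_of_dvd' h3 hd')

/-- explained iff `p ∣ W` for the hit `n` of `b` -/
lemma expl_iff_WW {p s s' : ℕ} (hp : p.Prime) (hc : Nat.Coprime s s') (hps' : p ∣ s')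
    {h n n' : ℤ} (hn : h = s * n - s' * n') (f : ℚ) :
    explL s h f p ↔ (p : ℤ) ∣ WW f n := by
  have hpi : Prime (p : ℤ) := Nat.prime_iff_prime_int.1 hp
  have h2 : ¬ (p : ℤ) ∣ (s : ℤ) := fun h3 => not_dvd_of_coprime hp hc hps' (by exact_mod_cast h3)
  have hps : (p : ℤ) ∣ (s' : ℤ) := by exact_mod_cast hps'
  have e : (s : ℤ) * f.num + h * f.den = s * WW f n - s' * (n' * f.den) := by
    unfold WW; rw [hn]; ring
  unfold explL
  rw [e]
  constructor
  · intro h1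
    have h3 : (p : ℤ) ∣ s * WW f n := (dvd_sub_left (hps.mul_right _)).1 h1
    exact (hpi.dvd_or_dvd h3).resolve_left h2
  · intro h1
    exact dvd_sub (h1.mul_left _) (hps.mul_right _)

/-- explained iff `v_p(N) > v_p(b)` -/
theorem expl_iff_num {p g s s' : ℕ} (hp : p.Prime) (hg : 0 < g) (hs : 0 < s)
    (hc : Nat.Coprime s s') (hps' : p ∣ s') {h n n' : ℤ} (hn : h = s * n - s' * n') (f : ℚ) :
    explL s h f p ↔ (p : ℤ) ^ (padicValNat p (g * s) + 1) ∣ (zz (g * s) f n).num := by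
  rw [expl_iff_WW hp hc hps' hn, dvd_WW_iff hp (Nat.mul_pos hg hs)]

/-- **KILL LEMMA** (6), arithmetic form: an explained prime `p ∣ s'` does not divide `den f` and
the class of `f` at `p` kills the offset `h` -/
theorem kill_left {p s s' : ℕ} (hp : p.Prime) (hc : Nat.Coprime s s') (hps' : p ∣ s')
    {h : ℤ} {f : ℚ} (hE : explL s h f p) {a : ℤ} (ha : (p : ℤ) ∣ f.num + f.den * a) :
    (p : ℤ) ∣ h - s * a := by
  have hpi : Prime (p : ℤ) := Nat.prime_iff_prime_int.1 hp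
  have hd := not_dvd_den_of_expl hp hc hps' hE
  have h1 : (p : ℤ) ∣ f.den * (h - s * a) := by
    have e : (f.den : ℤ) * (h - s * a) = (s * f.num + h * f.den) - s * (f.num + f.den * a) := by
      ring
    rw [e]
    exact dvd_sub hE (ha.mul_left _)
  exact (hpi.dvd_or_dvd h1).resolve_left (fun hc => hd (by exact_mod_cast hc))

/-- the mirrored form: `p ∣ s`, `f'` the centre of `b'` -/
theorem kill_right {p s s' : ℕ} (hp : p.Prime) (hc : Nat.Coprime s s') (hps : p ∣ s)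
    {h : ℤ} {f' : ℚ} (hE : explL s' (-h) f' p) {a : ℤ} (ha : (p : ℤ) ∣ f'.num + f'.den * a) :
    (p : ℤ) ∣ h + s' * a := by
  have h1 := kill_left hp hc.symm hps hE ha
  have e : h + s' * a = -(-h - s' * a) := by ring
  rw [e]
  exact (dvd_neg).2 h1

/-- a member which uses its centre at an explained prime kills the pair -/
theorem killedL_of_left {lam : ℕ → ℕ → Option ℤ} {q q' p s s' : ℕ} (hp : p.Prime)
    (hc : Nat.Coprime s s') (hps' : p ∣ s') {h : ℤ} {f : ℚ} (hE : explL s h f p) {a : ℤ}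
    (hl : lam q p = some a) (ha : (p : ℤ) ∣ f.num + f.den * a) : killedL lam q q' s s' h :=
  Or.inl ⟨p, hp, hps', a, hl, kill_left hp hc hps' hE ha⟩

theorem killedL_of_right {lam : ℕ → ℕ → Option ℤ} {q q' p s s' : ℕ} (hp : p.Prime)
    (hc : Nat.Coprime s s') (hps : p ∣ s) {h : ℤ} {f' : ℚ} (hE : explL s' (-h) f' p) {a : ℤ}
    (hl : lam q' p = some a) (ha : (p : ℤ) ∣ f'.num + f'.den * a) : killedL lam q q' s s' h :=
  Or.inr ⟨p, hp, hps, a, hl, kill_right hp hc hps hE ha⟩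

/-- COROLLARY (6): unkilled pair, explained prime `p ∣ s'`: coin or another class -/
theorem coin_or_other {lam : ℕ → ℕ → Option ℤ} {q q' s s' : ℕ} {h : ℤ}
    (hnk : ¬ killedL lam q q' s s' h) {p : ℕ} (hp : p.Prime) (hc : Nat.Coprime s s')
    (hps' : p ∣ s') {f : ℚ} (hE : explL s h f p) {a : ℤ} (hl : lam q p = some a) :
    ¬ (p : ℤ) ∣ f.num + f.den * a := fun ha => hnk (killedL_of_left hp hc hps' hE hl ha)

theorem coin_or_other' {lam : ℕ → ℕ → Option ℤ} {q q' s s' : ℕ} {h : ℤ}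
    (hnk : ¬ killedL lam q q' s s' h) {p : ℕ} (hp : p.Prime) (hc : Nat.Coprime s s')
    (hps : p ∣ s) {f' : ℚ} (hE : explL s' (-h) f' p) {a : ℤ} (hl : lam q' p = some a) :
    ¬ (p : ℤ) ∣ f'.num + f'.den * a := fun ha => hnk (killedL_of_right hp hc hps hE hl ha)

/-- no explained prime in `s'` : `s' ∣ den f'` -/
theorem dvd_den_tr {s s' : ℕ} (hs' : 0 < s') {h : ℤ} {f : ℚ}
    (hE : ∀ p : ℕ, p.Prime → p ∣ s' → ¬ explL s h f p) : s' ∣ (tr s s' h f).den := by
  set f' := tr s s' h f with hf'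
  have hs0 : (s' : ℚ) ≠ 0 := by exact_mod_cast hs'.ne'
  have hd : (f.den : ℚ) ≠ 0 := by exact_mod_cast f.den_pos.ne'
  have hd' : (f'.den : ℚ) ≠ 0 := by exact_mod_cast f'.den_pos.ne'
  -- `f'.num * (Q s') = U * f'.den`
  have e : f'.num * (f.den * s') = (s * f.num + h * f.den) * f'.den := by
    have h1 : (f' : ℚ) * s' = s * f + h := by
      rw [mul_comm, hf']; exact mul_tr hs' h f
    have h2 : (f : ℚ) * f.den = f.num := Rat.mul_den_eq_num f
    have h3 : (f' : ℚ) * f'.den = f'.num := Rat.mul_den_eq_num f'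
    have h4 : ((f'.num * (f.den * s') : ℤ) : ℚ) = ((s * f.num + h * f.den) * f'.den : ℤ) := by
      push_cast
      rw [← h3, ← h2]
      linear_combination (f'.den : ℚ) * f.den * h1
    exact_mod_cast h4
  rw [Nat.dvd_iff_prime_pow_dvd_dvd]
  intro p k hp hpk
  rcases Nat.eq_zero_or_pos k with rfl | hk
  · simp
  have hps' : p ∣ s' := (dvd_pow_self p hk.ne').trans hpk
  have hU : ¬ (p : ℤ) ∣ s * f.num + h * f.den := hE p hp hps'
  have hpi : Prime (p : ℤ) := Nat.prime_iff_prime_int.1 hp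
  have h5 : ((p ^ k : ℕ) : ℤ) ∣ (s * f.num + h * f.den) * f'.den := by
    rw [← e]
    have : ((p ^ k : ℕ) : ℤ) ∣ (s' : ℤ) := by exact_mod_cast hpk
    exact (this.mul_left _).mul_left _
  have h6 : IsCoprime ((p ^ k : ℕ) : ℤ) (s * f.num + h * f.den) := by
    push_cast
    exact IsCoprime.pow_left ((Prime.coprime_iff_not_dvd hpi).2 hU)
  have h7 := h6.dvd_of_dvd_mul_left h5
  exact_mod_cast h7

/-- the mirrored form: no explained prime in `s` : `s ∣ den f` -/
theorem dvd_den_of {s s' : ℕ} (hs : 0 < s) (hs' : 0 < s') {h : ℤ} {f : ℚ}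
    (hE : ∀ p : ℕ, p.Prime → p ∣ s → ¬ explL s' (-h) (tr s s' h f) p) : s ∣ f.den := by
  have := dvd_den_tr (s := s') (s' := s) hs (h := -h) (f := tr s s' h f) hE
  rwa [tr_tr hs hs'] at this

lemma dvd_bet {g s : ℕ} {f : ℚ} (hd : s ∣ f.den) : s ∣ bet (g * s) f :=
  Nat.dvd_gcd (dvd_mul_left _ _) hd

/-- COROLLARY (6), second half: if both members use the common centre at every explained prime and
the pair is not killed, then no differing prime is explained: `s ∣ β`, `s' ∣ β'` -/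
theorem dvd_bet_of_not_killed {lam : ℕ → ℕ → Option ℤ} {q q' g s s' : ℕ} {h : ℤ} {f : ℚ}
    (hs : 0 < s) (hs' : 0 < s') (hc : Nat.Coprime s s') (hnk : ¬ killedL lam q q' s s' h)
    (hL : ∀ p : ℕ, p.Prime → p ∣ s' → explL s h f p →
      ∃ a, lam q p = some a ∧ (p : ℤ) ∣ f.num + f.den * a)
    (hR : ∀ p : ℕ, p.Prime → p ∣ s → explL s' (-h) (tr s s' h f) p →
      ∃ a, lam q' p = some a ∧ (p : ℤ) ∣ (tr s s' h f).num + (tr s s' h f).den * a) :
    s ∣ bet (g * s) f ∧ s' ∣ bet (g * s') (tr s s' h f) := by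
  refine ⟨dvd_bet (dvd_den_of (h := h) hs hs' fun p hp hps hE => ?_),
    dvd_bet (dvd_den_tr hs' fun p hp hps hE => ?_)⟩
  · obtain ⟨a, ha, hd⟩ := hR p hp hps hE
    exact hnk (killedL_of_right hp hc hps hE ha hd)
  · obtain ⟨a, ha, hd⟩ := hL p hp hps hE
    exact hnk (killedL_of_left hp hc hps hE ha hd)

/-- if `v_p(N) ≥ v_p(b')` (`p ∤ β'`) then the differing prime `p ∣ s'` is explained -/
theorem expl_of_not_dvd_bet {p s s' : ℕ} (hp : p.Prime) (hs' : 0 < s')
    (hps' : p ∣ s') {h : ℤ} {f : ℚ} (hB : ¬ p ∣ (tr s s' h f).den) :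
    explL s h f p := by
  by_contra hE
  -- `f'.num * (Q s') = U * f'.den` with `p ∤ U`, `p ∤ f'.den` : impossible since `p ∣ s'`
  set f' := tr s s' h f with hf'
  have hpi : Prime (p : ℤ) := Nat.prime_iff_prime_int.1 hp
  have e : f'.num * (f.den * s') = (s * f.num + h * f.den) * f'.den := by
    have h1 : (f' : ℚ) * s' = s * f + h := by
      rw [mul_comm, hf']; exact mul_tr hs' h f
    have h2 : (f : ℚ) * f.den = f.num := Rat.mul_den_eq_num f
    have h3 : (f' : ℚ) * f'.den = f'.num := Rat.mul_den_eq_num f'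
    have h4 : ((f'.num * (f.den * s') : ℤ) : ℚ) = ((s * f.num + h * f.den) * f'.den : ℤ) := by
      push_cast
      rw [← h3, ← h2]
      linear_combination (f'.den : ℚ) * f.den * h1
    exact_mod_cast h4
  have hps : (p : ℤ) ∣ (s' : ℤ) := by exact_mod_cast hps'
  have h5 : (p : ℤ) ∣ (s * f.num + h * f.den) * f'.den := by
    rw [← e]; exact (hps.mul_left _).mul_left _
  rcases hpi.dvd_or_dvd h5 with h6 | h6
  · exact hE h6
  · exact hB (by exact_mod_cast h6)

/-! ### dictionary `b = M / q` -/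

/-- `b = g s`, `b' = g s'` for `b = M/q`, `b' = M/q'`, `g = M / lcm`, `s = q'/gcd`, `s' = q/gcd` -/
lemma item_eq {M q q' : ℕ} (hM : 0 < M) (hq : q ∣ M) (hq' : q' ∣ M) :
    M / q = (M / Nat.lcm q q') * (q' / Nat.gcd q q') ∧
      M / q' = (M / Nat.lcm q q') * (q / Nat.gcd q q') := by
  have h1 := cof_div hM hq hq'
  have h2 := cof_div hM hq' hq
  have h3 := gcd_div_div hM hq hq'
  constructor
  · rw [← h1, ← h3, Nat.mul_div_cancel' (Nat.gcd_dvd_left _ _)]
  · rw [Nat.gcd_comm q q', ← h2, Nat.lcm_comm q q', ← gcd_div_div hM hq' hq,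
      Nat.mul_div_cancel' (Nat.gcd_dvd_left _ _)]

end Crest.Agent.R4C.S4x74
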