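import Crest.Agent.R4C.S7c_14
import Crest.Agent.R4C.S4a_74
import Crest.Agent.R4C.Bridge_882

/-!
# Row 4: the label rule (helper945)

Threshold rule (971's R0' 3226, 899's R1 3253, 264's (D3) 3211), with an arbitrary threshold
`thr : ℕ → ℕ → ℝ` (`thr b i` = admissible depth of the item `b` at the missing primes of the block
`i`, i.e. `Y (i-1) < p ≤ Y i`, `i = P.blk p`), arbitrary block ends `Y` and cuts `cut m`
(scale `T = 2^m`).  The block `i` is active for the scale `m` iff `Y i ≤ cut m`.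

* `k0 F x b f` : the minimal `k` with `IsC F x b k f`.
* `TC F P m b f` : `f` is THE tree centre of `b` at the scale `T = 2^m` (cut `x = P.cut m`).
* `dep F P m b f` : depth `k0 * max(1, D_f(b)/L)`.
* `elig`, `mst`, `Fc`, `lamR` : eligibility, largest eligible scale, centre used, label.
* `conflict`, `TC.unique`, `conflict_scale`, `conflict_uu`.
* `Th`, `ThS`, `thrS` : effective scale, its maximum over the lower cuts, threshold of the text.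
* `classify_left`, `classify_right` : a pair with the same point `f` at scale `2^m` and an
  explained differing prime `p` in an active block is killed, or the depth exceeds the threshold of the member
  missing `p`, or this member uses a centre of a larger scale.
-/

set_option autoImplicit false

namespace Crest.Agent.R4C.Rulex945

open Crest.Agent.R4C.FLDefx935 Crest.Agent.R4C.BoostCx972 Crest.Agent.R4C.CrCoinx935
  Crest.Agent.R4C.S7cx14 Crest.Agent.R4C.S4x74 Crest.Agent.R4C.Bridgex882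
  Crest.Agent.R4C.Cutx50

section k0

variable {M : ℕ} (F : FL M)

/-- minimal denominator of `f` at the cut `x` -/
def k0 (x b : ℕ) (f : ℚ) : ℕ := f.den / Nat.gcd f.den (F.lam x b)

variable {F}

lemma k0_mul (x b : ℕ) (f : ℚ) : k0 F x b f * Nat.gcd f.den (F.lam x b) = f.den :=
  Nat.div_mul_cancel (Nat.gcd_dvd_left _ _)

lemma k0_pos (x b : ℕ) (f : ℚ) : 0 < k0 F x b f := by
  rcases Nat.eq_zero_or_pos (k0 F x b f) with h | h
  · have h1 := k0_mul (F := F) x b f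
    rw [h, zero_mul] at h1
    exact absurd h1.symm f.den_pos.ne'
  · exact h

lemma isC_k0 (x b : ℕ) (f : ℚ) : IsC F x b (k0 F x b f) f := by
  refine ⟨k0_pos x b f, ?_⟩
  obtain ⟨r, hr⟩ := Nat.gcd_dvd_right f.den (F.lam x b)
  refine ⟨r, ?_⟩
  conv_lhs => rw [hr]
  rw [← mul_assoc, k0_mul]

lemma k0_dvd {x b k : ℕ} {f : ℚ} (h : IsC F x b k f) : k0 F x b f ∣ k := by
  obtain ⟨_, h2⟩ := h
  have hg : 0 < Nat.gcd f.den (F.lam x b) := Nat.gcd_pos_of_pos_left _ f.den_pos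
  have hc : Nat.Coprime (f.den / Nat.gcd f.den (F.lam x b))
      (F.lam x b / Nat.gcd f.den (F.lam x b)) := Nat.coprime_div_gcd_div_gcd hg
  refine hc.dvd_of_dvd_mul_right ?_
  have h3 : f.den / Nat.gcd f.den (F.lam x b) * Nat.gcd f.den (F.lam x b) ∣
      k * (F.lam x b / Nat.gcd f.den (F.lam x b)) * Nat.gcd f.den (F.lam x b) := by
    rw [Nat.div_mul_cancel (Nat.gcd_dvd_left _ _), mul_assoc,
      Nat.div_mul_cancel (Nat.gcd_dvd_right _ _)]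
    exact h2
  exact Nat.dvd_of_mul_dvd_mul_right hg h3

lemma k0_le {x b k : ℕ} {f : ℚ} (h : IsC F x b k f) : k0 F x b f ≤ k :=
  Nat.le_of_dvd h.1 (k0_dvd h)

/-- `k0` grows with the cut -/
lemma k0_mono {x y b : ℕ} (hxy : x ≤ y) (f : ℚ) : k0 F x b f ∣ k0 F y b f := by
  refine k0_dvd ⟨k0_pos y b f, ?_⟩
  exact (isC_k0 (F := F) y b f).2.trans (mul_dvd_mul_left _ (FL.lam_dvd_lam hxy))

/-- **conflict inequality**: two different centres of one item, cuts `x₁ ≤ x₂` -/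
theorem conflict {x₁ x₂ b k₁ k₂ : ℕ} {f₁ f₂ : ℚ} {γ : ℝ} (hM : 0 < M) (hb : b ∣ M)
    (h12 : x₁ ≤ x₂) (h₁ : IsC F x₁ b k₁ f₁) (h₂ : IsC F x₂ b k₂ f₂) (hne : f₁ ≠ f₂) :
    (F.uu x₁ b : ℝ) ≤ (k₁ : ℝ) * k₂ * ((b : ℝ) * |γ - f₁| + (b : ℝ) * |γ - f₂|) := by
  have hb0 : 0 < b := Nat.pos_of_dvd_of_pos hb hM
  have hu := uniq_le (γ := γ) hb0 hne
  have e1 : F.uu x₁ b ∣ gg b f₁ * kap F x₁ b k₁ := uu_dvd_gnum hM hb h₁
  have e2 : F.uu x₁ b ∣ gg b f₂ * kap F x₂ b k₂ :=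
    (FL.uu_dvd_uu h12).trans (uu_dvd_gnum hM hb h₂)
  have e3 : F.uu x₁ b ∣ Nat.gcd (gg b f₁) (gg b f₂) * (kap F x₁ b k₁ * kap F x₂ b k₂) := by
    rw [← Nat.gcd_mul_right]
    refine Nat.dvd_gcd ?_ ?_
    · rw [← mul_assoc]
      exact e1.mul_right _
    · rw [mul_comm (kap F x₁ b k₁), ← mul_assoc]
      exact e2.mul_right _
  have hpos : 0 < Nat.gcd (gg b f₁) (gg b f₂) * (kap F x₁ b k₁ * kap F x₂ b k₂) :=
    Nat.mul_pos (Nat.gcd_pos_of_pos_left _ (gg_pos hb0 _)) (Nat.mul_pos kap_pos kap_pos)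
  have e4 : (F.uu x₁ b : ℝ) ≤ (Nat.gcd (gg b f₁) (gg b f₂) : ℕ) *
      ((kap F x₁ b k₁ : ℝ) * kap F x₂ b k₂) := by
    exact_mod_cast Nat.le_of_dvd hpos e3
  have h3 : kk b f₁ * kap F x₁ b k₁ ≤ k₁ := Nat.le_of_dvd h₁.1 (kden_mul_dvd hM hb h₁)
  have h4 : kk b f₂ * kap F x₂ b k₂ ≤ k₂ := Nat.le_of_dvd h₂.1 (kden_mul_dvd hM hb h₂)
  have h3' : (kk b f₁ : ℝ) * kap F x₁ b k₁ ≤ k₁ := by exact_mod_cast h3
  have h4' : (kk b f₂ : ℝ) * kap F x₂ b k₂ ≤ k₂ := by exact_mod_cast h4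
  have hd : 0 ≤ dd γ b f₁ + dd γ b f₂ := add_nonneg (dd_nonneg _ _ _) (dd_nonneg _ _ _)
  calc (F.uu x₁ b : ℝ) ≤ (Nat.gcd (gg b f₁) (gg b f₂) : ℕ) *
      ((kap F x₁ b k₁ : ℝ) * kap F x₂ b k₂) := e4
    _ ≤ ((kk b f₁ : ℝ) * kk b f₂ * (dd γ b f₁ + dd γ b f₂)) *
      ((kap F x₁ b k₁ : ℝ) * kap F x₂ b k₂) :=
        mul_le_mul_of_nonneg_right hu (by positivity)
    _ = (((kk b f₁ : ℝ) * kap F x₁ b k₁) * ((kk b f₂ : ℝ) * kap F x₂ b k₂)) *
      (dd γ b f₁ + dd γ b f₂) := by ring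
    _ ≤ ((k₁ : ℝ) * k₂) * (dd γ b f₁ + dd γ b f₂) := by
        refine mul_le_mul_of_nonneg_right ?_ hd
        exact mul_le_mul h3' h4' (by positivity) (by positivity)
    _ = _ := rfl

end k0

/-- parameters of the rule -/
structure Par where
  /-- cut at the scale `T = 2^m` (for example `T^A = 2^(A m)`) -/
  cut : ℕ → ℕ
  /-- block ends: block `i` = primes in `(Y (i-1), Y i]` (for example `Y i = 2^i` or `2^(2^i)`) -/
  Y : ℕ → ℕ
  /-- the shift -/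
  γ : ℝ
  /-- the window -/
  L : ℝ
  /-- admissible denominators and displacements at scale `2^m` -/
  E : ℕ → ℝ
  /-- first scale -/
  m0 : ℕ
  /-- bound for the scales -/
  N : ℕ
  /-- threshold: admissible depth for the item `b` in the block `i` -/
  thr : ℕ → ℕ → ℝ

namespace Par

/-- block index of a prime -/
noncomputable def blk (P : Par) (p : ℕ) : ℕ := sInf {i | p ≤ P.Y i}

lemma le_blk {P : Par} (hY : StrictMono P.Y) (p : ℕ) : p ≤ P.Y (P.blk p) := by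
  have h : (({i | p ≤ P.Y i} : Set ℕ)).Nonempty := ⟨p, hY.id_le p⟩
  exact Nat.sInf_mem h

lemma lt_of_lt_blk {P : Par} {p i : ℕ} (h : i < P.blk p) : P.Y i < p := by
  by_contra hc
  exact absurd (Nat.sInf_le (s := {i | p ≤ P.Y i}) (not_lt.1 hc)) (not_le.2 h)

lemma blk_le {P : Par} {p i : ℕ} (h : p ≤ P.Y i) : P.blk p ≤ i := Nat.sInf_le h

lemma blk_mono {P : Par} (hY : StrictMono P.Y) {p q : ℕ} (h : p ≤ q) : P.blk p ≤ P.blk q :=
  blk_le (h.trans (le_blk hY q))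

/-- if the cut is a block end, every prime below the cut lies in an active block -/
lemma act_of_le {P : Par} (hY : StrictMono P.Y) {m i p : ℕ} (hc : P.cut m = P.Y i)
    (hp : p ≤ P.cut m) : P.Y (P.blk p) ≤ P.cut m := by
  rw [hc] at hp ⊢
  exact hY.monotone (blk_le hp)

end Par

section rule

variable {M : ℕ} (F : FL M) (P : Par)

/-- tree centre of `b` at the scale `2^m` (cut `P.cut m`) -/
structure TC (m b : ℕ) (f : ℚ) : Prop where
  den : (k0 F (P.cut m) b f : ℝ) ≤ P.E m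
  dis : (b : ℝ) * |P.γ - f| ≤ P.E m * P.L
  scl : (2 : ℝ) ^ m * P.L ≤ F.uu (P.cut m) b

/-- depth -/
noncomputable def dep (m b : ℕ) (f : ℚ) : ℝ :=
  (k0 F (P.cut m) b f : ℝ) * max 1 ((b : ℝ) * |P.γ - f| / P.L)

/-- eligibility of the scale `2^m` at `(b, p)` -/
def elig (b p m : ℕ) : Prop :=
  P.m0 ≤ m ∧ P.Y (P.blk p) ≤ P.cut m ∧ ∃ f : ℚ, TC F P m b f ∧ dep F P m b f ≤ P.thr b (P.blk p)

open Classical in
/-- the largest eligible scale -/
noncomputable def mst (b p : ℕ) : ℕ := Nat.findGreatest (elig F P b p) P.N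

open Classical in
/-- the centre used at `(b, p)` -/
noncomputable def Fc (b p : ℕ) : Option ℚ :=
  if h : elig F P b p (mst F P b p) then some (Classical.choose h.2.2) else none

/-- **the label rule** -/
noncomputable def lamR (b p : ℕ) : Option ℤ := labC (Fc F P b p) p

variable {F P}

lemma isLab : IsLab (Fc F P) (lamR F P) := isLab_labC _

lemma k0_pos' (m b : ℕ) (f : ℚ) : (1 : ℝ) ≤ k0 F (P.cut m) b f := by
  exact_mod_cast k0_pos (F := F) (P.cut m) b f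

lemma one_le_dep (m b : ℕ) (f : ℚ) : 1 ≤ dep F P m b f := by
  unfold dep
  have h1 := k0_pos' (F := F) (P := P) m b f
  have h2 : (1 : ℝ) ≤ max 1 ((b : ℝ) * |P.γ - f| / P.L) := le_max_left _ _
  nlinarith

lemma k0_le_dep (m b : ℕ) (f : ℚ) : (k0 F (P.cut m) b f : ℝ) ≤ dep F P m b f := by
  unfold dep
  have h1 := k0_pos' (F := F) (P := P) m b f
  have h2 : (1 : ℝ) ≤ max 1 ((b : ℝ) * |P.γ - f| / P.L) := le_max_left _ _
  nlinarith

lemma dis_le_dep (hL : 0 < P.L) (m b : ℕ) (f : ℚ) :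
    (b : ℝ) * |P.γ - f| ≤ dep F P m b f * P.L := by
  unfold dep
  have h1 := k0_pos' (F := F) (P := P) m b f
  have h2 : (b : ℝ) * |P.γ - f| / P.L ≤ max 1 ((b : ℝ) * |P.γ - f| / P.L) := le_max_right _ _
  have h3 : (1 : ℝ) ≤ max 1 ((b : ℝ) * |P.γ - f| / P.L) := le_max_left _ _
  have h4 : (b : ℝ) * |P.γ - f| = (b : ℝ) * |P.γ - f| / P.L * P.L := by
    field_simp
  calc (b : ℝ) * |P.γ - f| = (b : ℝ) * |P.γ - f| / P.L * P.L := h4
    _ ≤ max 1 ((b : ℝ) * |P.γ - f| / P.L) * P.L := mul_le_mul_of_nonneg_right h2 hL.le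
    _ ≤ (k0 F (P.cut m) b f : ℝ) * max 1 ((b : ℝ) * |P.γ - f| / P.L) * P.L := by
        refine mul_le_mul_of_nonneg_right ?_ hL.le
        nlinarith

lemma TC.dep_le (hL : 0 < P.L) {m b : ℕ} {f : ℚ} (h : TC F P m b f) :
    dep F P m b f ≤ P.E m ^ 2 := by
  have h1 := k0_pos' (F := F) (P := P) m b f
  have h2 : 1 ≤ P.E m := h1.trans h.den
  have h3 : (b : ℝ) * |P.γ - f| / P.L ≤ P.E m := by
    rw [div_le_iff₀ hL]; exact h.dis
  unfold dep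
  have h4 : max 1 ((b : ℝ) * |P.γ - f| / P.L) ≤ P.E m := max_le h2 h3
  have h5 : (0 : ℝ) ≤ max 1 ((b : ℝ) * |P.γ - f| / P.L) := zero_le_one.trans (le_max_left _ _)
  calc (k0 F (P.cut m) b f : ℝ) * max 1 ((b : ℝ) * |P.γ - f| / P.L) ≤ P.E m * P.E m :=
        mul_le_mul h.den h4 h5 (by linarith)
    _ = P.E m ^ 2 := by ring

/-- conflict inequality in terms of the depths -/
theorem conflict_uu (hL : 0 < P.L) (hM : 0 < M) (hcut : Monotone P.cut) {b : ℕ} (hb : b ∣ M)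
    {m₁ m₂ : ℕ} (h12 : m₁ ≤ m₂) {f₁ f₂ : ℚ} (hne : f₁ ≠ f₂) :
    (F.uu (P.cut m₁) b : ℝ) ≤ 2 * dep F P m₁ b f₁ * dep F P m₂ b f₂ * P.L := by
  have h := conflict (γ := P.γ) hM hb (hcut h12) (isC_k0 (F := F) (P.cut m₁) b f₁)
    (isC_k0 (F := F) (P.cut m₂) b f₂) hne
  refine h.trans ?_
  unfold dep
  set K₁ : ℝ := (k0 F (P.cut m₁) b f₁ : ℝ) with hK₁
  set K₂ : ℝ := (k0 F (P.cut m₂) b f₂ : ℝ) with hK₂
  set d₁ : ℝ := (b : ℝ) * |P.γ - f₁| with hd₁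
  set d₂ : ℝ := (b : ℝ) * |P.γ - f₂| with hd₂
  have a1 : 1 ≤ K₁ := k0_pos' m₁ b f₁
  have a2 : 1 ≤ K₂ := k0_pos' m₂ b f₂
  have e1 : d₁ ≤ max 1 (d₁ / P.L) * P.L := by
    calc d₁ = d₁ / P.L * P.L := by field_simp
      _ ≤ _ := mul_le_mul_of_nonneg_right (le_max_right _ _) hL.le
  have e2 : d₂ ≤ max 1 (d₂ / P.L) * P.L := by
    calc d₂ = d₂ / P.L * P.L := by field_simp
      _ ≤ _ := mul_le_mul_of_nonneg_right (le_max_right _ _) hL.le
  set x₁ := max 1 (d₁ / P.L) with hx₁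
  set x₂ := max 1 (d₂ / P.L) with hx₂
  have b1 : 1 ≤ x₁ := le_max_left _ _
  have b2 : 1 ≤ x₂ := le_max_left _ _
  have e3 : d₁ + d₂ ≤ 2 * (x₁ * x₂) * P.L := by
    have : x₁ + x₂ ≤ 2 * (x₁ * x₂) := by nlinarith
    calc d₁ + d₂ ≤ (x₁ + x₂) * P.L := by linarith
      _ ≤ _ := mul_le_mul_of_nonneg_right this hL.le
  calc K₁ * K₂ * (d₁ + d₂) ≤ K₁ * K₂ * (2 * (x₁ * x₂) * P.L) :=
        mul_le_mul_of_nonneg_left e3 (by positivity)
    _ = _ := by ring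

/-- conflict inequality for the scales -/
theorem conflict_scale (hL : 0 < P.L) (hM : 0 < M) (hcut : Monotone P.cut) {b : ℕ} (hb : b ∣ M)
    {m₁ m₂ : ℕ} (h12 : m₁ ≤ m₂) {f₁ f₂ : ℚ} (h₁ : TC F P m₁ b f₁) (hne : f₁ ≠ f₂) :
    (2 : ℝ) ^ m₁ ≤ 2 * dep F P m₁ b f₁ * dep F P m₂ b f₂ := by
  have h := h₁.scl.trans (conflict_uu (F := F) hL hM hcut hb h12 hne)
  exact le_of_mul_le_mul_right h hL

/-- uniqueness of the tree centre at one scale -/
theorem TC.unique (hL : 0 < P.L) (hM : 0 < M) {b : ℕ} (hb : b ∣ M) {m : ℕ}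
    (hE : 2 * P.E m ^ 3 < 2 ^ m) {f₁ f₂ : ℚ} (h₁ : TC F P m b f₁) (h₂ : TC F P m b f₂) :
    f₁ = f₂ := by
  by_contra hne
  have h := conflict (γ := P.γ) hM hb le_rfl (isC_k0 (F := F) (P.cut m) b f₁)
    (isC_k0 (F := F) (P.cut m) b f₂) hne
  have h1 : (1 : ℝ) ≤ P.E m := (k0_pos' (F := F) (P := P) m b f₁).trans h₁.den
  have h3 : (k0 F (P.cut m) b f₁ : ℝ) * k0 F (P.cut m) b f₂ *
      ((b : ℝ) * |P.γ - f₁| + (b : ℝ) * |P.γ - f₂|) ≤ P.E m * P.E m * (2 * (P.E m * P.L)) := by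
    refine mul_le_mul (mul_le_mul h₁.den h₂.den (Nat.cast_nonneg _) (by linarith)) ?_
      (by positivity) (by positivity)
    linarith [h₁.dis, h₂.dis]
  have h4 := h₁.scl.trans (h.trans h3)
  have h5 : P.E m * P.E m * (2 * (P.E m * P.L)) = 2 * P.E m ^ 3 * P.L := by ring
  rw [h5] at h4
  have h6 := le_of_mul_le_mul_right h4 hL
  linarith

/-- the scales are bounded -/
lemma TC.le_N (hL : 0 < P.L) (hN : (M : ℝ) / P.L ≤ P.N) (hM : 0 < M) {m b : ℕ} (hb : b ∣ M)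
    {f : ℚ} (h : TC F P m b f) : m ≤ P.N := by
  have h1 : (F.uu (P.cut m) b : ℝ) ≤ M := by
    have h2 : F.uu (P.cut m) b ∣ M := (FL.uu_dvd hM hb).trans hb
    exact_mod_cast Nat.le_of_dvd hM h2
  have h2 : (2 : ℝ) ^ m ≤ M / P.L := by
    rw [le_div_iff₀ hL]
    exact h.scl.trans h1
  have h3 : (m : ℝ) < 2 ^ m := by exact_mod_cast Nat.lt_two_pow_self
  have h4 : (m : ℝ) < P.N := lt_of_lt_of_le h3 (h2.trans hN)
  exact_mod_cast h4.le

/-- specification of the centre used -/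
lemma Fc_spec {b p : ℕ} {f : ℚ} (h : Fc F P b p = some f) :
    P.m0 ≤ mst F P b p ∧ P.Y (P.blk p) ≤ P.cut (mst F P b p) ∧ TC F P (mst F P b p) b f ∧
      dep F P (mst F P b p) b f ≤ P.thr b (P.blk p) := by
  unfold Fc at h
  split_ifs at h with h1
  rw [Option.some.injEq] at h
  have h2 := Classical.choose_spec h1.2.2
  rw [h] at h2
  exact ⟨h1.1, h1.2.1, h2.1, h2.2⟩

lemma exists_Fc {b p m : ℕ} (h : elig F P b p m) (hN : m ≤ P.N) :
    ∃ f, Fc F P b p = some f ∧ m ≤ mst F P b p := by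
  classical
  have h1 : elig F P b p (mst F P b p) := Nat.findGreatest_spec hN h
  refine ⟨Classical.choose h1.2.2, ?_, Nat.le_findGreatest hN h⟩
  unfold Fc
  rw [dif_pos h1]

/-- the three cases at an explained prime `p` missing in `b` -/
inductive Case (F : FL M) (P : Par) (m b : ℕ) (f : ℚ) (p : ℕ) : Prop
  | used (h : Fc F P b p = some f) : Case F P m b f p
  | deep (h : P.thr b (P.blk p) < dep F P m b f) : Case F P m b f p
  | conf (m₂ : ℕ) (f₂ : ℚ) (h1 : m < m₂) (h2 : f ≠ f₂) (h3 : TC F P m₂ b f₂)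
      (h4 : dep F P m₂ b f₂ ≤ P.thr b (P.blk p)) (h5 : Fc F P b p = some f₂)
      (h6 : P.Y (P.blk p) ≤ P.cut m₂) : Case F P m b f p

theorem case_of (hL : 0 < P.L) (hM : 0 < M) (hN : (M : ℝ) / P.L ≤ P.N)
    (hE : ∀ m, P.m0 ≤ m → 2 * P.E m ^ 3 < 2 ^ m) {b : ℕ} (hb : b ∣ M) {m p : ℕ} {f : ℚ}
    (hm : P.m0 ≤ m) (hT : TC F P m b f) (hp : P.Y (P.blk p) ≤ P.cut m) : Case F P m b f p := by
  by_cases hd : dep F P m b f ≤ P.thr b (P.blk p)
  · obtain ⟨f₂, h1, h2⟩ := exists_Fc (F := F) (P := P) (b := b) (p := p) (m := m)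
      ⟨hm, hp, f, hT, hd⟩ (hT.le_N hL hN hM hb)
    obtain ⟨_, h3, h4, h5⟩ := Fc_spec h1
    by_cases he : f = f₂
    · exact Case.used (he ▸ h1)
    · refine Case.conf (mst F P b p) f₂ (lt_of_le_of_ne h2 fun h => he ?_) he h4 h5 h1 h3
      rw [← h] at h4
      exact hT.unique hL hM hb (hE m hm) h4
  · exact Case.deep (not_le.1 hd)

/-- **classification at an explained differing prime `p ∣ s'`** (missing in `b = g s`) -/
theorem classify_left (hL : 0 < P.L) (hM : 0 < M) (hN : (M : ℝ) / P.L ≤ P.N)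
    (hE : ∀ m, P.m0 ≤ m → 2 * P.E m ^ 3 < 2 ^ m) {b c : ℕ} (hb : b ∣ M) {m p : ℕ} {f : ℚ}
    (hm : P.m0 ≤ m) (hT : TC F P m b f) (hp : P.Y (P.blk p) ≤ P.cut m) {s s' : ℕ} {h : ℤ}
    (hpp : p.Prime) (hcop : Nat.Coprime s s') (hps : p ∣ s') (hex : explL s h f p)
    (hk : ¬ killedL (lamR F P) b c s s' h) :
    P.thr b (P.blk p) < dep F P m b f ∨ ∃ (m₂ : ℕ) (f₂ : ℚ), m < m₂ ∧ f ≠ f₂ ∧
      TC F P m₂ b f₂ ∧ dep F P m₂ b f₂ ≤ P.thr b (P.blk p) ∧ Fc F P b p = some f₂ ∧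
        P.Y (P.blk p) ≤ P.cut m₂ := by
  rcases case_of hL hM hN hE hb hm hT hp with h1 | h1 | ⟨m₂, f₂, h1, h2, h3, h4, h5, h6⟩
  · exfalso
    have hd := not_dvd_den_of_expl hpp hcop hps hex
    obtain ⟨a, ha⟩ := (isLab (F := F) (P := P)).legal hpp h1 hd
    obtain ⟨f₁, g1, _, g3⟩ := (isLab (F := F) (P := P)).spec hpp ha
    rw [h1, Option.some.injEq] at g1
    subst g1
    exact hk (killedL_of_left hpp hcop hps hex ha g3)
  · exact Or.inl h1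
  · exact Or.inr ⟨m₂, f₂, h1, h2, h3, h4, h5, h6⟩

/-- **classification at an explained differing prime `p ∣ s`** (missing in `c = g s'`) -/
theorem classify_right (hL : 0 < P.L) (hM : 0 < M) (hN : (M : ℝ) / P.L ≤ P.N)
    (hE : ∀ m, P.m0 ≤ m → 2 * P.E m ^ 3 < 2 ^ m) {b c : ℕ} (hc : c ∣ M) {m p : ℕ} {f' : ℚ}
    (hm : P.m0 ≤ m) (hT : TC F P m c f') (hp : P.Y (P.blk p) ≤ P.cut m) {s s' : ℕ} {h : ℤ}
    (hpp : p.Prime) (hcop : Nat.Coprime s s') (hps : p ∣ s) (hex : explL s' (-h) f' p)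
    (hk : ¬ killedL (lamR F P) b c s s' h) :
    P.thr c (P.blk p) < dep F P m c f' ∨ ∃ (m₂ : ℕ) (f₂ : ℚ), m < m₂ ∧ f' ≠ f₂ ∧
      TC F P m₂ c f₂ ∧ dep F P m₂ c f₂ ≤ P.thr c (P.blk p) ∧ Fc F P c p = some f₂ ∧
        P.Y (P.blk p) ≤ P.cut m₂ := by
  rcases case_of hL hM hN hE hc hm hT hp with h1 | h1 | ⟨m₂, f₂, h1, h2, h3, h4, h5, h6⟩
  · exfalso
    have hd := not_dvd_den_of_expl hpp hcop.symm hps hex
    obtain ⟨a, ha⟩ := (isLab (F := F) (P := P)).legal hpp h1 hd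
    obtain ⟨f₁, g1, _, g3⟩ := (isLab (F := F) (P := P)).spec hpp ha
    rw [h1, Option.some.injEq] at g1
    subst g1
    exact hk (killedL_of_right hpp hcop hps hex ha g3)
  · exact Or.inl h1
  · exact Or.inr ⟨m₂, f₂, h1, h2, h3, h4, h5, h6⟩

/-! ### the threshold of the text -/

/-- effective scale of `b` at the cut `y` (free of `L`): `b_{≤y} ν_{≤y}(B_{b_{>y}})` -/
noncomputable def Th (M : ℕ) (f : ℕ → ℝ) (y b : ℕ) : ℝ := (low y b : ℝ) * mass M f y (upp y b)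

/-- maximum over the cuts `Y j`, `j ≤ i` -/
noncomputable def ThS (M : ℕ) (f : ℕ → ℝ) (Y : ℕ → ℕ) (b i : ℕ) : ℝ :=
  (Finset.range (i + 1)).sup' ⟨0, Finset.mem_range.2 (Nat.succ_pos i)⟩ fun j => Th M f (Y j) b

lemma Th_nonneg (M : ℕ) {f : ℕ → ℝ} (hf : ∀ b, 0 ≤ f b) (y b : ℕ) : 0 ≤ Th M f y b :=
  mul_nonneg (Nat.cast_nonneg _) (mass_nonneg M hf _ _)

lemma Th_le_ThS (M : ℕ) (f : ℕ → ℝ) (Y : ℕ → ℕ) (b : ℕ) {i j : ℕ} (h : j ≤ i) :
    Th M f (Y j) b ≤ ThS M f Y b i := by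
  unfold ThS
  exact Finset.le_sup' (fun j => Th M f (Y j) b) (Finset.mem_range.2 (Nat.lt_succ_of_le h))

lemma exists_Th (M : ℕ) (f : ℕ → ℝ) (Y : ℕ → ℕ) (b i : ℕ) :
    ∃ j ≤ i, ThS M f Y b i = Th M f (Y j) b := by
  unfold ThS
  obtain ⟨j, hj, h⟩ := Finset.exists_mem_eq_sup' (s := Finset.range (i + 1))
    ⟨0, Finset.mem_range.2 (Nat.succ_pos i)⟩ (fun j => Th M f (Y j) b)
  exact ⟨j, Nat.lt_succ_iff.1 (Finset.mem_range.1 hj), h⟩

lemma ThS_mono (M : ℕ) (f : ℕ → ℝ) (Y : ℕ → ℕ) (b : ℕ) {i j : ℕ} (h : i ≤ j) :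
    ThS M f Y b i ≤ ThS M f Y b j := by
  obtain ⟨k, hk, e⟩ := exists_Th M f Y b i
  rw [e]
  exact Th_le_ThS M f Y b (hk.trans h)

/-- the threshold: depth `≤ max (Y(i-1)^δ, Θ^ε)` and `≤ exp (Y(i-1)^{4/5})` -/
noncomputable def thrS (M : ℕ) (f : ℕ → ℝ) (Y : ℕ → ℕ) (δ ε : ℝ) (b i : ℕ) : ℝ :=
  min (max ((Y (i - 1) : ℝ) ^ δ) (ThS M f Y b i ^ ε)) (Real.exp ((Y (i - 1) : ℝ) ^ (4 / 5 : ℝ)))

/-- the same in the `b`-language of `KCb` -/
theorem killedB_iff {lam : ℕ → ℕ → Option ℤ} {b c : ℕ} {h : ℤ} :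
    killedB lam b c h ↔ killedL lam b c (b / Nat.gcd b c) (c / Nat.gcd b c) h := Iff.rfl

end rule

end Crest.Agent.R4C.Rulex945
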