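import Crest.Agent.R4C.Hcls_81
import Crest.Agent.R4C.Rule_945

/-!
# Row 4: class (H) for the label rule of `Rule_945` (helper81)

`Conf F P m B d` : the item `d` has the tree centre `f` at the scale `2^m`, and at some block
active for `m` it uses a centre `f₂ ≠ f` of a larger scale with `dep f₂ ≤ thr` (second alternative
of `classify_left`, `classify_right`).  With the threshold of the text (`thrS`):
* `hvK_of_conf` : `d` is heavy below the cut of `m` (`HvK`);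
* `class_conf` : all pairs good at the cut of `m`, with one member in `Conf`, pair scale `t`, any
  pointwise weight `≤ W` : cost `≤ C W t^(η-1) (2^m / (2 E_m²))^(-s) m`.
-/

set_option autoImplicit false

namespace Crest.Agent.R4C.GlueHx81

open Finset Crest.Agent.R4C.Basex935 Crest.Agent.R4C.Cutx50 Crest.Agent.R4C.FLDefx935
  Crest.Agent.R4C.HeavyLx50 Crest.Agent.R4C.Hclsx81 Crest.Agent.R4C.Rulex945

variable {M : ℕ} {F : FL M}

/-- indicator -/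
noncomputable def ind (B : Finset ℕ) (b : ℕ) : ℝ := if b ∈ B then 1 else 0

lemma ind_bd (B : Finset ℕ) (b : ℕ) : 0 ≤ ind B b ∧ ind B b ≤ 1 := by
  unfold ind
  by_cases hb : b ∈ B <;> simp [hb]

lemma Ex_ind {B : Finset ℕ} (hB : B ⊆ M.divisors) : Ex M (ind B) = ∑ b ∈ B, nu M b := by
  unfold Ex ind
  rw [← Finset.sum_subset hB]
  · exact Finset.sum_congr rfl fun b hb => by simp [hb]
  · intro b _ hb
    simp [hb]

open Classical in
/-- from the `frm` form to sets with a pointwise weight -/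
theorem set_wrap {B : Finset ℕ} (hB : B ⊆ M.divisors) {x : ℕ} {L t W R R' : ℝ} (hL : 0 ≤ L)
    (hW : 0 ≤ W) (Q Q' : ℕ → Prop)
    (h1 : L * frm M (fun b c => if F.good x b c ∧ Q b ∧
          t * L ≤ (Nat.gcd b c : ℝ) ∧ (Nat.gcd b c : ℝ) < 2 * (t * L)
          then ind B b * ind B c else 0) ≤ R)
    (h2 : L * frm M (fun b c => if F.good x b c ∧ Q' c ∧
          t * L ≤ (Nat.gcd b c : ℝ) ∧ (Nat.gcd b c : ℝ) < 2 * (t * L)
          then ind B b * ind B c else 0) ≤ R')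
    (w : ℕ → ℕ → ℝ) (hw : ∀ b ∈ B, ∀ c ∈ B, w b c ≤ W ∧ (w b c ≠ 0 → F.good x b c ∧
        (Q b ∨ Q' c) ∧ t * L ≤ (Nat.gcd b c : ℝ) ∧ (Nat.gcd b c : ℝ) < 2 * (t * L))) :
    L * ∑ b ∈ B, ∑ c ∈ B, (Nat.gcd b c : ℝ) * nu M b * nu M c * w b c ≤ W * (R + R') := by
  set S1 := frm M (fun b c => if F.good x b c ∧ Q b ∧
          t * L ≤ (Nat.gcd b c : ℝ) ∧ (Nat.gcd b c : ℝ) < 2 * (t * L)
          then ind B b * ind B c else 0) with hS1
  set S2 := frm M (fun b c => if F.good x b c ∧ Q' c ∧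
          t * L ≤ (Nat.gcd b c : ℝ) ∧ (Nat.gcd b c : ℝ) < 2 * (t * L)
          then ind B b * ind B c else 0) with hS2
  have hf := ind_bd B
  have hg0 : ∀ b c, 0 ≤ (Nat.gcd b c : ℝ) * nu M b * nu M c := fun b c =>
    mul_nonneg (mul_nonneg (Nat.cast_nonneg _) (nu_nonneg _ _)) (nu_nonneg _ _)
  have hi0 : ∀ (p : Prop) [Decidable p] (b c : ℕ), (0 : ℝ) ≤
      if p then ind B b * ind B c else 0 := by
    intro p _ b c
    split_ifs
    · exact mul_nonneg (hf b).1 (hf c).1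
    · exact le_rfl
  have h3 : ∑ b ∈ B, ∑ c ∈ B, (Nat.gcd b c : ℝ) * nu M b * nu M c * w b c ≤ W * (S1 + S2) := by
    have e1 : W * (S1 + S2) = ∑ b ∈ M.divisors, ∑ c ∈ M.divisors,
        (Nat.gcd b c : ℝ) * nu M b * nu M c * (W * ((if F.good x b c ∧ Q b ∧
          t * L ≤ (Nat.gcd b c : ℝ) ∧ (Nat.gcd b c : ℝ) < 2 * (t * L)
          then ind B b * ind B c else 0) + (if F.good x b c ∧ Q' c ∧
          t * L ≤ (Nat.gcd b c : ℝ) ∧ (Nat.gcd b c : ℝ) < 2 * (t * L)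
          then ind B b * ind B c else 0))) := by
      rw [hS1, hS2]
      unfold frm
      rw [← Finset.sum_add_distrib, Finset.mul_sum]
      refine Finset.sum_congr rfl fun b _ => ?_
      rw [← Finset.sum_add_distrib, Finset.mul_sum]
      refine Finset.sum_congr rfl fun c _ => ?_
      ring
    rw [e1]
    have h4 : ∀ b ∈ B, ∑ c ∈ B, (Nat.gcd b c : ℝ) * nu M b * nu M c * w b c ≤
        ∑ c ∈ M.divisors, (Nat.gcd b c : ℝ) * nu M b * nu M c * (W * ((if F.good x b c ∧ Q b ∧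
          t * L ≤ (Nat.gcd b c : ℝ) ∧ (Nat.gcd b c : ℝ) < 2 * (t * L)
          then ind B b * ind B c else 0) + (if F.good x b c ∧ Q' c ∧
          t * L ≤ (Nat.gcd b c : ℝ) ∧ (Nat.gcd b c : ℝ) < 2 * (t * L)
          then ind B b * ind B c else 0))) := by
      intro b hb
      refine le_trans (Finset.sum_le_sum fun c hc => ?_)
        (Finset.sum_le_sum_of_subset_of_nonneg hB fun c _ _ => mul_nonneg (hg0 b c)
          (mul_nonneg hW (add_nonneg (hi0 _ b c) (hi0 _ b c))))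
      refine mul_le_mul_of_nonneg_left ?_ (hg0 b c)
      obtain ⟨hw1, hw2⟩ := hw b hb c hc
      by_cases hw0 : w b c = 0
      · rw [hw0]
        exact mul_nonneg hW (add_nonneg (hi0 _ b c) (hi0 _ b c))
      · obtain ⟨hg, hor, h5, h6⟩ := hw2 hw0
        have hfb : ind B b * ind B c = 1 := by
          unfold ind
          simp [hb, hc]
        refine hw1.trans ?_
        have h7 : (1 : ℝ) ≤ (if F.good x b c ∧ Q b ∧
          t * L ≤ (Nat.gcd b c : ℝ) ∧ (Nat.gcd b c : ℝ) < 2 * (t * L)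
          then ind B b * ind B c else 0) + (if F.good x b c ∧ Q' c ∧
          t * L ≤ (Nat.gcd b c : ℝ) ∧ (Nat.gcd b c : ℝ) < 2 * (t * L)
          then ind B b * ind B c else 0) := by
          rcases hor with h8 | h8
          · have h9 : F.good x b c ∧ Q b ∧
              t * L ≤ (Nat.gcd b c : ℝ) ∧ (Nat.gcd b c : ℝ) < 2 * (t * L) := ⟨hg, h8, h5, h6⟩
            rw [if_pos h9]
            have := hi0 (F.good x b c ∧ Q' c ∧
              t * L ≤ (Nat.gcd b c : ℝ) ∧ (Nat.gcd b c : ℝ) < 2 * (t * L)) b c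
            rw [hfb] at this ⊢
            linarith
          · have h9 : F.good x b c ∧ Q' c ∧
              t * L ≤ (Nat.gcd b c : ℝ) ∧ (Nat.gcd b c : ℝ) < 2 * (t * L) := ⟨hg, h8, h5, h6⟩
            rw [if_pos h9]
            have := hi0 (F.good x b c ∧ Q b ∧
              t * L ≤ (Nat.gcd b c : ℝ) ∧ (Nat.gcd b c : ℝ) < 2 * (t * L)) b c
            rw [hfb] at this ⊢
            linarith
        calc W = W * 1 := (mul_one _).symm
          _ ≤ _ := mul_le_mul_of_nonneg_left h7 hW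
    refine (Finset.sum_le_sum h4).trans ?_
    exact Finset.sum_le_sum_of_subset_of_nonneg hB fun b _ _ => Finset.sum_nonneg fun c _ =>
      mul_nonneg (hg0 b c) (mul_nonneg hW (add_nonneg (hi0 _ b c) (hi0 _ b c)))
  calc L * ∑ b ∈ B, ∑ c ∈ B, (Nat.gcd b c : ℝ) * nu M b * nu M c * w b c
      ≤ L * (W * (S1 + S2)) := mul_le_mul_of_nonneg_left h3 hL
    _ = W * (L * S1 + L * S2) := by ring
    _ ≤ W * (R + R') := mul_le_mul_of_nonneg_left (add_le_add h1 h2) hW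

/-- **class (K) for a set**, `m ≤ 1`, either member `HvK` -/
theorem class_K_set {η P : ℝ} (hη0 : 0 < η) (hη1 : η < 1) (hP : 0 < P) (hs : 0 < sK η P) :
    ∃ C : ℝ, 0 < C ∧ ∀ (M : ℕ) (F : FL M) (B : Finset ℕ) (x : ℕ) (L t K₀ W : ℝ)
      (w : ℕ → ℕ → ℝ), 0 < M → B ⊆ M.divisors → 0 < L → 0 < t → 0 < K₀ →
      L * ∑ b ∈ B, nu M b ≤ 1 → 0 ≤ W →
      (∀ b ∈ B, ∀ c ∈ B, w b c ≤ W ∧ (w b c ≠ 0 → F.good x b c ∧
        (HvK F (ind B) L P K₀ x b ∨ HvK F (ind B) L P K₀ x c) ∧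
        t * L ≤ (Nat.gcd b c : ℝ) ∧ (Nat.gcd b c : ℝ) < 2 * (t * L))) →
      L * ∑ b ∈ B, ∑ c ∈ B, (Nat.gcd b c : ℝ) * nu M b * nu M c * w b c ≤
        C * W * t ^ (η - 1) * K₀ ^ (-(sK η P)) * (L * ∑ b ∈ B, nu M b) := by
  classical
  obtain ⟨C, hC, h⟩ := Crest.Agent.R4C.HeavyUx50.hvw hη0 hη1
  have h2s : (2 : ℝ) ^ (-(sK η P)) < 1 :=
    Real.rpow_lt_one_of_one_lt_of_neg (by norm_num) (by linarith)
  have h2s' : (0 : ℝ) < 1 - 2 ^ (-(sK η P)) := by linarith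
  set C₁ := C * (8 ^ (1 + (1 - η) / 2) / (1 - 2 ^ (-(sK η P)))) with hC₁
  have hC₁0 : 0 < C₁ := by positivity
  refine ⟨2 * C₁, by positivity, fun M F B x L t K₀ W w hM hB hL ht hK₀ hm hW hw => ?_⟩
  have hf := ind_bd B
  have h1 := class_K hM F x (η := η) (C := C) (t := t) (L := L) (P := P) (K₀ := K₀)
    hη0.le hη1.le hP hs hC.le ht hL hK₀ hf hf
    (fun M' hM' => h M' (Nat.pos_of_dvd_of_pos hM' hM))
  rw [Ex_ind hB, ← hC₁] at h1
  set m := L * ∑ b ∈ B, nu M b with hmd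
  have hm0 : 0 ≤ m := mul_nonneg hL.le (Finset.sum_nonneg fun b _ => nu_nonneg M b)
  have hmm : m * m ^ ((1 + η) / 2) ≤ m :=
    mul_le_of_le_one_right hm0 (Real.rpow_le_one hm0 hm (by linarith))
  have h1' : L * frm M (fun b c => if F.good x b c ∧ HvK F (ind B) L P K₀ x b ∧
        t * L ≤ (Nat.gcd b c : ℝ) ∧ (Nat.gcd b c : ℝ) < 2 * (t * L)
        then ind B b * ind B c else 0) ≤ C₁ * t ^ (η - 1) * K₀ ^ (-(sK η P)) * m := by
    refine h1.trans ?_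
    calc C₁ * t ^ (η - 1) * K₀ ^ (-(sK η P)) * m * m ^ ((1 + η) / 2)
        = (C₁ * t ^ (η - 1) * K₀ ^ (-(sK η P))) * (m * m ^ ((1 + η) / 2)) := by ring
      _ ≤ _ := mul_le_mul_of_nonneg_left hmm (by positivity)
  have h2' : L * frm M (fun b c => if F.good x b c ∧ HvK F (ind B) L P K₀ x c ∧
        t * L ≤ (Nat.gcd b c : ℝ) ∧ (Nat.gcd b c : ℝ) < 2 * (t * L)
        then ind B b * ind B c else 0) ≤ C₁ * t ^ (η - 1) * K₀ ^ (-(sK η P)) * m := by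
    refine le_trans (le_of_eq ?_) h1'
    rw [← frm_swap]
    congr 1
    refine frm_congr fun b c hb hc => ?_
    have e1 : F.good x c b ↔ F.good x b c := ⟨FL.good_symm hc hb, FL.good_symm hb hc⟩
    rw [Nat.gcd_comm c b, e1, mul_comm (ind B c)]
  refine (set_wrap hB hL.le hW (HvK F (ind B) L P K₀ x) (HvK F (ind B) L P K₀ x)
    h1' h2' w hw).trans (le_of_eq ?_)
  ring

/-! ### the rule -/

/-- `d` has a tree centre at scale `2^m` and uses another, larger one at a block active for `m` -/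
def Conf (F : FL M) (P : Par) (m d : ℕ) : Prop :=
  ∃ (f : ℚ) (i m₂ : ℕ) (f₂ : ℚ), TC F P m d f ∧ P.Y i ≤ P.cut m ∧ m < m₂ ∧ f ≠ f₂ ∧
    dep F P m₂ d f₂ ≤ P.thr d i

theorem conf_of_classify {P : Par} {m d p : ℕ} {f : ℚ} (hT : TC F P m d f)
    (hp : P.Y (P.blk p) ≤ P.cut m)
    (h : ∃ (m₂ : ℕ) (f₂ : ℚ), m < m₂ ∧ f ≠ f₂ ∧ TC F P m₂ d f₂ ∧
      dep F P m₂ d f₂ ≤ P.thr d (P.blk p) ∧ Fc F P d p = some f₂ ∧ P.Y (P.blk p) ≤ P.cut m₂) :
    Conf F P m d := by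
  obtain ⟨m₂, f₂, h1, h2, _, h4, _, _⟩ := h
  exact ⟨f, _, m₂, f₂, hT, hp, h1, h2, h4⟩

/-- **a conflict item is heavy** (threshold of the text) -/
theorem hvK_of_conf {P : Par} (hM : 0 < M) (hL : 0 < P.L) (hcut : Monotone P.cut)
    (hY : Monotone P.Y) {B : Finset ℕ} {δ ε : ℝ} (hδ : 0 ≤ δ) (hε : 0 < ε)
    (hthr : ∀ d i, P.thr d i ≤ max ((P.Y (i - 1) : ℝ) ^ δ) (ThS M (ind B) P.Y d i ^ ε))
    {m d : ℕ} (hd : d ∣ M) (hE : 2 * P.E m ^ 4 ≤ 2 ^ m)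
    (hE' : 2 * P.E m ^ 2 * (P.cut m : ℝ) ^ δ < 2 ^ m) (h : Conf F P m d) :
    HvK F (ind B) P.L (1 / ε) (2 ^ m / (2 * P.E m ^ 2)) (P.cut m) d := by
  obtain ⟨f, i, m₂, f₂, hT, hi, hm, hne, h4⟩ := h
  have h1 := conflict_uu (F := F) hL hM hcut hd hm.le hne
  have h2 := hT.scl.trans h1
  set K₁ := dep F P m d f with hK₁
  set K₂ := dep F P m₂ d f₂ with hK₂
  have hK₁1 : 1 ≤ K₁ := one_le_dep m d f
  have hK₂1 : 1 ≤ K₂ := one_le_dep m₂ d f₂
  have hK₁E : K₁ ≤ P.E m ^ 2 := hT.dep_le hL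
  have hEm : 0 < P.E m ^ 2 := lt_of_lt_of_le one_pos (hK₁1.trans hK₁E)
  have h3 : (2 : ℝ) ^ m ≤ K₂ * (2 * P.E m ^ 2) := by
    have h5 : (2 : ℝ) ^ m ≤ 2 * K₁ * K₂ := le_of_mul_le_mul_right h2 hL
    have h6 : 2 * K₁ * K₂ ≤ 2 * P.E m ^ 2 * K₂ :=
      mul_le_mul_of_nonneg_right (by linarith) (by linarith)
    linarith
  have hK₀ : 2 ^ m / (2 * P.E m ^ 2) ≤ K₂ := (div_le_iff₀ (by positivity)).2 h3
  have h12 : K₁ ≤ K₂ := by
    refine hK₁E.trans ?_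
    have h5 : P.E m ^ 2 * (2 * P.E m ^ 2) ≤ K₂ * (2 * P.E m ^ 2) := by
      calc P.E m ^ 2 * (2 * P.E m ^ 2) = 2 * P.E m ^ 4 := by ring
        _ ≤ 2 ^ m := hE
        _ ≤ _ := h3
    exact le_of_mul_le_mul_right h5 (by positivity)
  refine ⟨K₂, hK₀, ?_, ?_⟩
  · refine h1.trans (mul_le_mul_of_nonneg_right ?_ hL.le)
    have : K₁ * K₂ ≤ K₂ * K₂ := mul_le_mul_of_nonneg_right h12 (by linarith)
    nlinarith
  · obtain ⟨j, hj, hjT⟩ := exists_Th M (ind B) P.Y d i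
    have hΘ0 : 0 ≤ ThS M (ind B) P.Y d i := by
      rw [hjT]; exact Th_nonneg M (fun b => (ind_bd B b).1) _ _
    refine heavyAt_of_rule hε (by linarith) hΘ0 (h4.trans (hthr d i)) ?_
      ⟨P.Y j, (hY hj).trans hi, hjT.le⟩
    have h7 : (P.Y (i - 1) : ℝ) ^ δ ≤ (P.cut m : ℝ) ^ δ := by
      refine Real.rpow_le_rpow (Nat.cast_nonneg _) ?_ hδ
      exact_mod_cast (hY (Nat.sub_le i 1)).trans hi
    refine h7.trans_lt ?_
    have h8 : 2 * P.E m ^ 2 * (P.cut m : ℝ) ^ δ < K₂ * (2 * P.E m ^ 2) := lt_of_lt_of_le hE' h3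
    have h9 : (P.cut m : ℝ) ^ δ * (2 * P.E m ^ 2) < K₂ * (2 * P.E m ^ 2) := by
      rwa [mul_comm ((P.cut m : ℝ) ^ δ)]
    exact lt_of_mul_lt_mul_right h9 (by positivity)

lemma thrS_le (M : ℕ) (f : ℕ → ℝ) (Y : ℕ → ℕ) (δ ε : ℝ) (b i : ℕ) :
    thrS M f Y δ ε b i ≤ max ((Y (i - 1) : ℝ) ^ δ) (ThS M f Y b i ^ ε) := min_le_left _ _

/-- **CLASS (H) for the rule**: `B` with `m = L ν(B) ≤ 1`, scale index `m₀` of the centre, pair
scale `t`, pointwise weight `≤ W` -/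
theorem class_conf {η ε : ℝ} (hη0 : 0 < η) (hη1 : η < 1) (hε : 0 < ε)
    (hs : 0 < sK η (1 / ε)) :
    ∃ C : ℝ, 0 < C ∧ ∀ (M : ℕ) (F : FL M) (P : Par) (B : Finset ℕ) (m : ℕ) (t W δ : ℝ)
      (w : ℕ → ℕ → ℝ), 0 < M → B ⊆ M.divisors → 0 < P.L → Monotone P.cut → Monotone P.Y →
      0 ≤ δ → (∀ d i, P.thr d i ≤ max ((P.Y (i - 1) : ℝ) ^ δ) (ThS M (ind B) P.Y d i ^ ε)) →
      0 < P.E m → 2 * P.E m ^ 4 ≤ 2 ^ m → 2 * P.E m ^ 2 * (P.cut m : ℝ) ^ δ < 2 ^ m →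
      0 < t → P.L * ∑ b ∈ B, nu M b ≤ 1 → 0 ≤ W →
      (∀ b ∈ B, ∀ c ∈ B, w b c ≤ W ∧ (w b c ≠ 0 → F.good (P.cut m) b c ∧
        (Conf F P m b ∨ Conf F P m c) ∧
        t * P.L ≤ (Nat.gcd b c : ℝ) ∧ (Nat.gcd b c : ℝ) < 2 * (t * P.L))) →
      P.L * ∑ b ∈ B, ∑ c ∈ B, (Nat.gcd b c : ℝ) * nu M b * nu M c * w b c ≤
        C * W * t ^ (η - 1) * (2 ^ m / (2 * P.E m ^ 2)) ^ (-(sK η (1 / ε))) *
          (P.L * ∑ b ∈ B, nu M b) := by
  obtain ⟨C, hC, h⟩ := class_K_set hη0 hη1 (by positivity : 0 < 1 / ε) hs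
  refine ⟨C, hC, fun M F P B m t W δ w hM hB hL hcut hY hδ hthr hE0 hE hE' ht hm hW hw => ?_⟩
  refine h M F B (P.cut m) P.L t (2 ^ m / (2 * P.E m ^ 2)) W w hM hB hL ht (by positivity) hm hW
    fun b hb c hc => ?_
  obtain ⟨h1, h2⟩ := hw b hb c hc
  refine ⟨h1, fun h0 => ?_⟩
  obtain ⟨h3, h4, h5⟩ := h2 h0
  refine ⟨h3, ?_, h5⟩
  rcases h4 with h4 | h4
  · exact Or.inl (hvK_of_conf hM hL hcut hY hδ hε hthr (Nat.dvd_of_mem_divisors (hB hb)) hE hE' h4)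
  · exact Or.inr (hvK_of_conf hM hL hcut hY hδ hε hthr (Nat.dvd_of_mem_divisors (hB hc)) hE hE' h4)

end Crest.Agent.R4C.GlueHx81
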