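import Crest.Agent.R4C.MismA_100

/-!
# Row 4, block S6: the pair side of 22's lemma TW (big twist) (helper100)

Pair `b = g s`, `c = g s'`, good at the cut `x`, fractions `f`, `f'` with the same point
(`gap f f' s s' h = 0`), `x ≤ y`.

* **`k0_dvd_mul`** : `k0 y b f ∣ k0 x c f' * s`;
* `k0_le_twist` : `k0 y b f ≤ gcd (k0 y b f) s * k0 x c f'`;
* `disp_le` : `b |γ - f| ≤ c |γ - f'| + g |(s - s') γ + h|`;
* **`dep_le_twist`** : `dep m₂ b f ≤ 2 gcd (k0 (cut m₂) b f) s * dep m c f'` (`m ≤ m₂`);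
* `twist_big` : `dep m₂ b f ≥ (dep m c f')^2` and large depth give
  `gcd (k0 (cut m₂) b f) s ≥ sqrt (dep m₂ b f) / 2`;
* **`k0_stable`** : `k0 y b f ≤ x` implies `k0 x b f = k0 y b f`.
-/

set_option autoImplicit false

namespace Crest.Agent.R4C.TwPairx100

open Crest.Agent.R4C.FLDefx935 Crest.Agent.R4C.BoostCx972 Crest.Agent.R4C.Cutx50
  Crest.Agent.R4C.Rulex945 Crest.Agent.R4C.Basex935 Crest.Agent.R4C.MismAx100

variable {M : ℕ} {F : FL M} {g s s' : ℕ} {h : ℤ} {f f' : ℚ}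

/-- **denominators of a same-point pair at two cuts** -/
theorem k0_dvd_mul {x y : ℕ} (hM : 0 < M) (hb : g * s ∣ M) (hc : g * s' ∣ M)
    (hcop : Nat.Coprime s s') (hgood : F.good x (g * s) (g * s')) (_hxy : x ≤ y)
    (h0 : gap f f' s s' h = 0) :
    k0 F y (g * s) f ∣ k0 F x (g * s') f' * s := by
  have hb0 : g * s ≠ 0 := (Nat.pos_of_dvd_of_pos hb hM).ne'
  have hc0 : g * s' ≠ 0 := (Nat.pos_of_dvd_of_pos hc hM).ne'
  have hg : g ≠ 0 := fun hh => hb0 (by rw [hh, zero_mul])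
  have hs : s ≠ 0 := fun hh => hb0 (by rw [hh, mul_zero])
  have hs' : s' ≠ 0 := fun hh => hc0 (by rw [hh, mul_zero])
  rw [← Nat.factorization_le_iff_dvd (k0_pos _ _ _).ne' (mul_ne_zero (k0_pos _ _ _).ne' hs)]
  intro q
  rw [Nat.factorization_mul (k0_pos _ _ _).ne' hs, Finsupp.add_apply, fact_k0, fact_k0]
  by_cases hq : q.Prime
  swap
  · rw [Nat.factorization_eq_zero_of_not_prime _ hq]; omega
  have hden : f.den.factorization q ≤ s.factorization q + f'.den.factorization q := by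
    have h1 := (Nat.factorization_le_iff_dvd f.den_pos.ne'
      (mul_ne_zero hs f'.den_pos.ne')).2 (den_dvd h0) q
    rwa [Nat.factorization_mul hs f'.den_pos.ne', Finsupp.add_apply] at h1
  -- `v_q (lam x c) = 0` is enough
  by_cases hlc0 : (F.lam x (g * s')).factorization q = 0
  · omega
  have hqd : q ∣ F.lam x (g * s') := Nat.dvd_of_factorization_pos hlc0
  obtain ⟨hx, v, hv, hlt⟩ := FL.prime_dvd_lam hM hc hq hqd
  have hctr : F.ctr (g * s) q = some v := by
    rw [FL.ctr_eq hb hc hgood.1 hq hx.le, hv]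
  have hbv : (g * s).factorization q = v := by
    rcases hgood.2 q hq hx v hctr with h1 | h1
    · exact h1
    · omega
  have hpb : (g * s).factorization q = g.factorization q + s.factorization q := by
    rw [Nat.factorization_mul hg hs, Finsupp.add_apply]
  have hpc : (g * s').factorization q = g.factorization q + s'.factorization q := by
    rw [Nat.factorization_mul hg hs', Finsupp.add_apply]
  have hs'pos : 0 < s'.factorization q := by omega
  have hs0 : ¬ q ∣ s := fun hd => by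
    have h2 : q ∣ s' := Nat.dvd_of_factorization_pos (by omega)
    have h3 := Nat.dvd_gcd hd h2
    rw [hcop.gcd_eq_one] at h3
    exact hq.one_lt.ne' (Nat.dvd_one.1 h3)
  have hs00 : s.factorization q = 0 := Nat.factorization_eq_zero_of_not_dvd hs0
  have hqm : q ∈ M.primeFactors := by
    by_contra hc'
    have := FL.fact_zero hM hc hc'
    omega
  have hlc : (F.lam x (g * s')).factorization q = (g * s').factorization q - v := by
    rw [FL.fact_lam hM hc, if_pos hqm]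
    unfold FL.lamE
    rw [if_pos hx, hv]
  by_cases ha : f.den.factorization q = 0
  · omega
  have hqf : q ∣ f.den := Nat.dvd_of_factorization_pos ha
  have h1 := fact_den_ge hs' h0 hq hs0 hqf
  omega

lemma k0_le_twist {x y : ℕ} (hM : 0 < M) (hb : g * s ∣ M) (hc : g * s' ∣ M)
    (hcop : Nat.Coprime s s') (hgood : F.good x (g * s) (g * s')) (hxy : x ≤ y)
    (h0 : gap f f' s s' h = 0) :
    k0 F y (g * s) f ≤ Nat.gcd (k0 F y (g * s) f) s * k0 F x (g * s') f' := by
  have h1 := k0_dvd_mul hM hb hc hcop hgood hxy h0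
  set k := k0 F y (g * s) f with hk
  set k' := k0 F x (g * s') f' with hk'
  have hk0 : 0 < k := k0_pos _ _ _
  have hk0' : 0 < k' := k0_pos _ _ _
  have hg0 : 0 < Nat.gcd k s := Nat.gcd_pos_of_pos_left _ hk0
  have h2 : k ∣ Nat.gcd k s * k' := by
    have h3 : k ∣ Nat.gcd (k * k') (s * k') :=
      Nat.dvd_gcd (dvd_mul_right _ _) (by rw [mul_comm s k']; exact h1)
    rwa [Nat.gcd_mul_right] at h3
  exact Nat.le_of_dvd (Nat.mul_pos hg0 hk0') h2

/-- displacements of the two fractions of one point -/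
lemma disp_le (γ : ℝ) (h0 : gap f f' s s' h = 0) :
    ((g * s : ℕ) : ℝ) * |γ - f| ≤ ((g * s' : ℕ) : ℝ) * |γ - f'| +
      g * |((s : ℝ) - s') * γ + h| := by
  have h1 : (s : ℝ) * (f : ℝ) - s' * (f' : ℝ) + h = 0 := by
    have h2 : ((gap f f' s s' h : ℚ) : ℝ) = 0 := by rw [h0]; simp
    unfold gap at h2
    push_cast at h2
    exact h2
  have h3 : ((g * s : ℕ) : ℝ) * (γ - f) = ((g * s' : ℕ) : ℝ) * (γ - f') +
      g * (((s : ℝ) - s') * γ + h) := by
    push_cast
    linear_combination (-(g : ℝ)) * h1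
  calc ((g * s : ℕ) : ℝ) * |γ - f| = |((g * s : ℕ) : ℝ) * (γ - f)| := by
        rw [abs_mul, Nat.abs_cast]
    _ = |((g * s' : ℕ) : ℝ) * (γ - f') + g * (((s : ℝ) - s') * γ + h)| := by rw [h3]
    _ ≤ |((g * s' : ℕ) : ℝ) * (γ - f')| + |(g : ℝ) * (((s : ℝ) - s') * γ + h)| := abs_add_le _ _
    _ = _ := by rw [abs_mul, abs_mul, Nat.abs_cast, Nat.abs_cast]

/-- **depths of a same-point pair**: the difference is the twist -/
theorem dep_le_twist {P : Par} (hM : 0 < M) (hL : 0 < P.L) (hcut : Monotone P.cut)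
    (hb : g * s ∣ M) (hc : g * s' ∣ M) (hcop : Nat.Coprime s s') {m m₂ : ℕ} (hm : m ≤ m₂)
    (hgood : F.good (P.cut m) (g * s) (g * s')) (h0 : gap f f' s s' h = 0)
    (hlnk : (g : ℝ) * |((s : ℝ) - s') * P.γ + h| ≤ P.L) :
    dep F P m₂ (g * s) f ≤
      2 * (Nat.gcd (k0 F (P.cut m₂) (g * s) f) s : ℝ) * dep F P m (g * s') f' := by
  have h1 := k0_le_twist hM hb hc hcop hgood (hcut hm) h0
  have h1' : (k0 F (P.cut m₂) (g * s) f : ℝ) ≤
      (Nat.gcd (k0 F (P.cut m₂) (g * s) f) s : ℝ) * k0 F (P.cut m) (g * s') f' := by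
    exact_mod_cast h1
  have h2 := (disp_le (g := g) P.γ h0).trans (add_le_add_right hlnk _)
  unfold dep
  set kb : ℝ := (k0 F (P.cut m₂) (g * s) f : ℝ)
  set kc : ℝ := (k0 F (P.cut m) (g * s') f' : ℝ)
  set κ : ℝ := (Nat.gcd (k0 F (P.cut m₂) (g * s) f) s : ℝ)
  set db : ℝ := ((g * s : ℕ) : ℝ) * |P.γ - f|
  set dc : ℝ := ((g * s' : ℕ) : ℝ) * |P.γ - f'|
  have hx : max 1 (db / P.L) ≤ 2 * max 1 (dc / P.L) := by
    have e1 : (1 : ℝ) ≤ max 1 (dc / P.L) := le_max_left _ _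
    have e2 : dc / P.L ≤ max 1 (dc / P.L) := le_max_right _ _
    refine max_le (by linarith) ?_
    have e3 : db / P.L ≤ (dc + P.L) / P.L := div_le_div_of_nonneg_right h2 hL.le
    have e4 : (dc + P.L) / P.L = dc / P.L + 1 := by field_simp
    linarith
  have hkb : 0 ≤ kb := Nat.cast_nonneg _
  have hkc : 0 ≤ kc := Nat.cast_nonneg _
  have hκ : 0 ≤ κ := Nat.cast_nonneg _
  have hm0 : (0 : ℝ) ≤ max 1 (db / P.L) := zero_le_one.trans (le_max_left _ _)
  calc kb * max 1 (db / P.L) ≤ (κ * kc) * (2 * max 1 (dc / P.L)) :=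
        mul_le_mul h1' hx hm0 (mul_nonneg hκ hkc)
    _ = _ := by ring

/-- big twist -/
theorem twist_big {P : Par} (hM : 0 < M) (hL : 0 < P.L) (hcut : Monotone P.cut)
    (hb : g * s ∣ M) (hc : g * s' ∣ M) (hcop : Nat.Coprime s s') {m m₂ : ℕ} (hm : m ≤ m₂)
    (hgood : F.good (P.cut m) (g * s) (g * s')) (h0 : gap f f' s s' h = 0)
    (hlnk : (g : ℝ) * |((s : ℝ) - s') * P.γ + h| ≤ P.L)
    (hbig : dep F P m (g * s') f' ^ 2 ≤ dep F P m₂ (g * s) f) :
    dep F P m₂ (g * s) f ^ (1 / 2 : ℝ) / 2 ≤ (Nat.gcd (k0 F (P.cut m₂) (g * s) f) s : ℝ) := by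
  have h1 := dep_le_twist hM hL hcut hb hc hcop hm hgood h0 hlnk
  set K := dep F P m₂ (g * s) f
  set K' := dep F P m (g * s') f'
  set κ : ℝ := (Nat.gcd (k0 F (P.cut m₂) (g * s) f) s : ℝ)
  have hK1 : 1 ≤ K := one_le_dep _ _ _
  have hK1' : 1 ≤ K' := one_le_dep _ _ _
  have hκ : 0 ≤ κ := Nat.cast_nonneg _
  rw [← Real.sqrt_eq_rpow]
  have h2 : K' ≤ Real.sqrt K := Real.le_sqrt_of_sq_le hbig
  have h3 : Real.sqrt K * Real.sqrt K = K := Real.mul_self_sqrt (by linarith)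
  have h4 : 0 < Real.sqrt K := Real.sqrt_pos.2 (by linarith)
  have h5 : Real.sqrt K * Real.sqrt K ≤ 2 * κ * Real.sqrt K := by
    rw [h3]
    exact h1.trans (mul_le_mul_of_nonneg_left h2 (by positivity))
  have h6 : Real.sqrt K ≤ 2 * κ := le_of_mul_le_mul_right h5 h4
  linarith

/-- **small denominators are stable** -/
theorem k0_stable {x y b : ℕ} (hxy : x ≤ y) (h1 : k0 F y b f ≤ x) :
    k0 F x b f = k0 F y b f := by
  refine Nat.dvd_antisymm (k0_mono hxy f) ?_
  rw [← Nat.factorization_le_iff_dvd (k0_pos _ _ _).ne' (k0_pos _ _ _).ne']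
  intro q
  by_cases hq : q.Prime
  swap
  · rw [Nat.factorization_eq_zero_of_not_prime _ hq]; exact Nat.zero_le _
  by_cases hx : x < q
  · have h2 : ¬ q ∣ k0 F y b f := fun hd => by
      have := Nat.le_of_dvd (k0_pos y b f) hd
      omega
    rw [Nat.factorization_eq_zero_of_not_dvd h2]; exact Nat.zero_le _
  · rw [fact_k0, fact_k0]
    have h3 : (F.lam x b).factorization q = 0 := by
      unfold FL.lam
      rw [FL.fact_prod]
      split_ifs
      · unfold FL.lamE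
        rw [if_neg hx]
      · rfl
    omega

/-- the depth at the lower cut -/
theorem dep_stable {P : Par} (hcut : Monotone P.cut) {m m₂ b : ℕ} (hm : m ≤ m₂)
    (h1 : k0 F (P.cut m₂) b f ≤ P.cut m) : dep F P m b f = dep F P m₂ b f := by
  unfold dep
  rw [k0_stable (hcut hm) h1]

end Crest.Agent.R4C.TwPairx100
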