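import Crest.Agent.R4C.Shared_11
import Crest.Agent.R4C.TwPair_100
import Crest.Agent.R4C.GlueH_81

/-!
# Row 4: the exhaustive split of the unkilled pairs (spine of S6, notes 3463, 3495, 3645) (helper945)

All predicates are over `F : FL M`, the rule `Rule_945` (parameters `P`), the pair `b, c ∣ M` and the
offset `h`; `s = b / gcd b c`, `s' = c / gcd b c`.

* `AlLe F P b c h x` : all aligned (same point) common primes are `≤ x` (`Sharedx11.alSet`);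
* `Pure F x b c` : no deficits above `x`;  `X1 P b c = exp (max 1 (L/g) ^ (1/8))`;
* `BP F P t b c h f f'` : common point `(f, f')` of the level `t` (case B);
* `BS` : `BP` + both depths `≤ E t ^ 4` (measured at the cut `cut t`);
* `LP` : class (L) at the level `t`, `p` = largest explained differing prime;
* `FarA F P i b c h` : case A, own scale `2^i`, good at `cut i`, aligned primes `≤ cut (2 i)`.

Classes: `CNear`, `CBad`, `CHvy`, `CTw`, `CNP`, `CLow`, `CRareA`, `CUD`, `CDomP`, `CDomN`.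

* the exhaustive split itself is `Split_945.split_all`.
-/

set_option autoImplicit false

namespace Crest.Agent.R4C.Splitx945

open Crest.Agent.R4C.FLDefx935 Crest.Agent.R4C.BoostCx972 Crest.Agent.R4C.CrCoinx935
  Crest.Agent.R4C.CrCountx935 Crest.Agent.R4C.Bridgex882 Crest.Agent.R4C.PrefixMx882
  Crest.Agent.R4C.S7cx14 Crest.Agent.R4C.S7dx14 Crest.Agent.R4C.Cutx50
  Crest.Agent.R4C.S2bx284 Crest.Agent.R4C.S2x232
  Crest.Agent.R4C.PairRx14 Crest.Agent.R4C.Hclsx81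
  Crest.Agent.R4C.Rulex945 Crest.Agent.R4C.Sharedx11

section defs

variable {M : ℕ} (F : FL M) (P : Par)

/-- all aligned primes are `≤ x` -/
def AlLe (b c : ℕ) (h : ℤ) (x : ℕ) : Prop :=
  ∀ q ∈ alSet F P b c (b / Nat.gcd b c) (c / Nat.gcd b c) h, q ≤ x

/-- pure pair above `x`: no deficits -/
def Pure (x b c : ℕ) : Prop := F.ell x b = 1 ∧ F.ell x c = 1

/-- the near cut: `exp (max 1 (L/g) ^ (1/8))` -/
noncomputable def X1 (b c : ℕ) : ℝ := Real.exp ((max 1 (P.L / (Nat.gcd b c : ℕ))) ^ (1 / 8 : ℝ))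

/-- common point of the level `t` (case B; the pair's own scale is `≤ 2^((t+1)/2)`) -/
structure BP (t b c : ℕ) (h : ℤ) (f f' : ℚ) : Prop where
  good : F.good (P.cut t) b c
  pt : gap f f' (b / Nat.gcd b c) (c / Nat.gcd b c) h = 0
  al : AlLe F P b c h (P.cut t)
  m0 : 2 * P.m0 < t
  scl : (Nat.gcd b c : ℝ) ^ 2 ≤ 2 ^ (t + 1) * P.L ^ 2
  near : X1 P b c < P.cut t

/-- `f` is a tree centre of an index `≥ t`, with the denominator of the cut `cut t` -/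
def Ix (t d : ℕ) (f : ℚ) : Prop :=
  ∃ m, t ≤ m ∧ TC F P m d f ∧ k0 F (P.cut m) d f = k0 F (P.cut t) d f

/-- common point of the level `t`, both depths small -/
structure BS (t b c : ℕ) (h : ℤ) (f f' : ℚ) : Prop extends BP F P t b c h f f' where
  ib : Ix F P t b f
  ic : Ix F P t c f'
  tc : TC F P t b f ∨ TC F P t c f'
  db : dep F P t b f ≤ P.E t ^ 4
  dc : dep F P t c f' ≤ P.E t ^ 4

/-- the low word is large against the depths (`Π³ ≥ K/128`) -/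
def BigW (t b c : ℕ) (f f' : ℚ) : Prop :=
  dep F P t b f ≤ 128 * ((low (P.cut t) (b / Nat.gcd b c) : ℝ) *
    low (P.cut t) (c / Nat.gcd b c)) ^ 3 ∧
  dep F P t c f' ≤ 128 * ((low (P.cut t) (b / Nat.gcd b c) : ℝ) *
    low (P.cut t) (c / Nat.gcd b c)) ^ 3

/-- a pair of class (L): common point of the level `t`, `p` = largest explained differing prime
`≤ cut t`, the member missing it is ineligible there -/
structure LP (t b c : ℕ) (h : ℤ) (f f' : ℚ) (p : ℕ) : Prop where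
  good : F.good (P.cut t) b c
  pt : gap f f' (b / Nat.gcd b c) (c / Nat.gcd b c) h = 0
  db : dep F P t b f ≤ P.E t ^ 4
  dc : dep F P t c f' ≤ P.E t ^ 4
  ib : Ix F P t b f
  ic : Ix F P t c f'
  tc : TC F P t b f ∨ TC F P t c f'
  prime : p.Prime
  le : p ≤ P.cut t
  deep : (p ∣ c / Nat.gcd b c ∧ p ∣ alC c b f' f ∧ P.thr b (P.blk p) < dep F P t b f) ∨
    (p ∣ b / Nat.gcd b c ∧ p ∣ alC b c f f' ∧ P.thr c (P.blk p) < dep F P t c f')
  top : ∀ r : ℕ, r.Prime → p < r → r ≤ P.cut t → ¬ r ∣ alC b c f f' ∧ ¬ r ∣ alC c b f' f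
  topk : ∀ r : ℕ, r.Prime → p < r → r ≤ P.cut t →
    (r ∣ b / Nat.gcd b c → r ∣ k0 F (P.cut t) b f) ∧
    (r ∣ c / Nat.gcd b c → r ∣ k0 F (P.cut t) c f')
  big : BigW F P t b c f f'
  al : AlLe F P b c h (P.cut (2 * t))
  m0 : P.m0 ≤ t
  scl : (Nat.gcd b c : ℝ) < 2 ^ (t + 1) * P.L
  near : X1 P b c < P.cut t

/-! ### the classes -/

/-- near pairs -/
def CNear (b c : ℕ) (h : ℤ) : Prop :=
  (Nat.gcd b c : ℝ) < 2 ^ P.m0 * P.L ∧ ∃ l, F.good (P.cut l) b c ∧ AlLe F P b c h (P.cut l) ∧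
    (l ≤ 2 * P.m0 ∨ (P.cut l : ℝ) ≤ X1 P b c)

/-- not good at the cut `r`, level `l ≤ 2 r + 1` -/
def CBad (b c : ℕ) (h : ℤ) : Prop :=
  ∃ r l, P.m0 ≤ r ∧ r < l ∧ l ≤ 2 * r + 1 ∧ ¬ F.good (P.cut r) b c ∧ F.good (P.cut l) b c ∧
    AlLe F P b c h (P.cut l) ∧ (Nat.gcd b c : ℝ) < 2 ^ (r + 1) * P.L ∧ X1 P b c < P.cut (r + 1)

/-- a heavy member (`w = 1_B`) -/
def CHvy (w : ℕ → ℝ) (ε : ℝ) (b c : ℕ) (h : ℤ) : Prop :=
  ∃ t, P.m0 ≤ t ∧ F.good (P.cut t) b c ∧ AlLe F P b c h (P.cut (2 * t)) ∧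
    (Nat.gcd b c : ℝ) < 2 ^ (t + 1) * P.L ∧ X1 P b c < P.cut t ∧
    (HvK F w P.L (1 / ε) (2 ^ t / (2 * P.E t ^ 4)) (P.cut t) b ∨
      HvK F w P.L (1 / ε) (2 ^ t / (2 * P.E t ^ 4)) (P.cut t) c)

/-- big twist (22's TW): asymmetric depths -/
def CTw (b c : ℕ) (h : ℤ) : Prop :=
  ∃ t m f f', BP F P t b c h f f' ∧ t ≤ m ∧
    ((TC F P m b f ∧ TC F P t c f' ∧ P.E t ^ 4 < dep F P m b f) ∨
      (TC F P m c f' ∧ TC F P t b f ∧ P.E t ^ 4 < dep F P m c f'))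

/-- common point, shallow, non-pure: nothing explained differs (the low word is the quotient of the
two denominators, `Sharedx11.word_eq`), or the low word is short -/
def CNP (b c : ℕ) (h : ℤ) : Prop :=
  ∃ t f f', BS F P t b c h f f' ∧ ¬ Pure F (P.cut t) b c ∧
    (NoEx (P.cut t) b c f f' ∨ ¬ BigW F P t b c f f')

/-- class (L) -/
def CLow (b c : ℕ) (h : ℤ) : Prop := ∃ t f f' p, LP F P t b c h f f' p

/-- case A: own scale `2^i` -/
structure FarA (i b c : ℕ) (h : ℤ) : Prop where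
  m0 : P.m0 ≤ i
  lo : 2 ^ i * P.L ≤ (Nat.gcd b c : ℝ)
  hi : (Nat.gcd b c : ℝ) < 2 ^ (i + 1) * P.L
  good : F.good (P.cut i) b c
  al : AlLe F P b c h (P.cut (2 * i))

/-- rare box at the own scale -/
def CRareA (D : ℕ → ℝ) (b c : ℕ) (h : ℤ) : Prop := ∃ i, FarA F P i b c h ∧
  Rare (upp (P.cut i) (b / Nat.gcd b c) * P.γ) (upp (P.cut i) (c / Nat.gcd b c) * P.γ) (2 ^ i)
    (D i) (low (P.cut i) (b / Nat.gcd b c)) (low (P.cut i) (c / Nat.gcd b c))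

/-- unexplained deficit at the own scale -/
def CUD (D : ℕ → ℝ) (b c : ℕ) (h : ℤ) : Prop := ∃ i, FarA F P i b c h ∧
  (Pairx14.UD F P.γ (2 ^ i) (4 * D i ^ 8) (P.cut i) b c ∨
    Pairx14.UD F P.γ (2 ^ i) (4 * D i ^ 8) (P.cut i) c b)

/-- dominant word at the own scale, entries `≤ E i` -/
structure DomA (i b c : ℕ) : Prop where
  dom : Dom (upp (P.cut i) (b / Nat.gcd b c) * P.γ) (upp (P.cut i) (c / Nat.gcd b c) * P.γ) (2 ^ i)
    (low (P.cut i) (b / Nat.gcd b c)) (low (P.cut i) (c / Nat.gcd b c))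
  le_b : (low (P.cut i) (b / Nat.gcd b c) : ℝ) ≤ P.E i
  le_c : (low (P.cut i) (c / Nat.gcd b c) : ℝ) ≤ P.E i

/-- dominant word, pure (GW section) -/
def CDomP (b c : ℕ) (h : ℤ) : Prop :=
  ∃ i, FarA F P i b c h ∧ DomA P i b c ∧ Pure F (P.cut i) b c

/-- dominant word, non-pure -/
def CDomN (b c : ℕ) (h : ℤ) : Prop :=
  ∃ i, FarA F P i b c h ∧ DomA P i b c ∧ ¬ Pure F (P.cut i) b c

end defs

/-- hypotheses on the parameters (`w = 1_B`) -/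
structure Hy {M : ℕ} (_F : FL M) (P : Par) (w : ℕ → ℝ) (δ ε : ℝ) (D : ℕ → ℝ) : Prop where
  hM : 0 < M
  hL : 0 < P.L
  hN : (M : ℝ) / P.L ≤ P.N
  two : 2 ≤ P.m0
  cut_mono : Monotone P.cut
  Y_mono : StrictMono P.Y
  blkend : ∀ m, ∃ i, P.cut m = P.Y i
  cut_ge : ∀ m, 2 ^ m ≤ P.cut m
  E_one : ∀ m, 1 ≤ P.E m
  hE : ∀ m, P.m0 ≤ m → 2 * P.E m ^ 8 < 2 ^ m
  hEc : ∀ m, P.m0 ≤ m → 2 * P.E m ^ 4 * (P.cut m : ℝ) ^ δ < 2 ^ m
  hδ : 0 ≤ δ
  hε : 0 < ε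
  w0 : ∀ b, 0 ≤ w b
  thr_le : ∀ d i, P.thr d i ≤ max ((P.Y (i - 1) : ℝ) ^ δ) (ThS M w P.Y d i ^ ε)
  hD : ∀ m, P.m0 ≤ m → 4 ≤ D m
  hDT : ∀ m, P.m0 ≤ m → 8 * (4 * D m ^ 8) ^ 5 ≤ 2 ^ m
  hDE : ∀ m, P.m0 ≤ m → 2 * (4 * D m ^ 8) ≤ P.E m


end Crest.Agent.R4C.Splitx945
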