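import Crest.Agent.R4C.SpineDef_946
import Crest.Agent.R4C.SplitDef_945

/-!
# Row 4: the parameters of the spine satisfy the hypotheses of the split (helper281)

`hyOf` : for the constants in the order of `Ev`, the parameters `ParOf` of `SpineDef_946` satisfy
all fields of `Splitx945.Hy` with `δ = 1/(4A)`, `ε = 1/20`, `D i = 2^(cp i / 16)`.

Separately usable facts about `ParOf`: `cut_le_pow`, `E_pow`, `two_E8_lt`, `two_E4_cut_lt`,
`DD` (the parameter of the rare boxes) and its growth, `thr_le_max`, `thr_le_exp`.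
-/

set_option autoImplicit false

namespace Crest.Agent.R4C.HyOfx281

open Crest.Agent.R4C.Spinex946 Crest.Agent.R4C.Splitx945 Crest.Agent.R4C.Rulex945
  Crest.Agent.R4C.FLDefx935 Crest.Agent.R4C.Cutx50
open Crest.Agent.R4C.FLExx326 (ind)

/-- the two indicator functions agree -/
lemma ind_eq (B : Finset ℕ) : Crest.Agent.R4C.GlueHx81.ind B = ind B := rfl

/-- parameter of the rare boxes: `D i = 2^(cp i / 16)` -/
noncomputable def DD (cp : ℝ) (i : ℕ) : ℝ := (2 : ℝ) ^ (cp * i / 16)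

section pow

variable {cp : ℝ}

lemma DD_pow (cp : ℝ) (i k : ℕ) : DD cp i ^ k = (2 : ℝ) ^ (cp * i / 16 * k) := by
  unfold DD
  rw [← Real.rpow_natCast, ← Real.rpow_mul (by norm_num)]

lemma E_pow (cp : ℝ) (A m0 : ℕ) (γ L : ℝ) (M : ℕ) (B : Finset ℕ) (m k : ℕ) :
    (ParOf cp A m0 γ L M B).E m ^ k = (2 : ℝ) ^ (cp * m * k) := by
  change ((2 : ℝ) ^ (cp * m)) ^ k = _
  rw [← Real.rpow_natCast, ← Real.rpow_mul (by norm_num)]

lemma one_le_DD (h : 0 ≤ cp) (i : ℕ) : 1 ≤ DD cp i := by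
  unfold DD
  exact Real.one_le_rpow (by norm_num) (by positivity)

lemma four_le_DD {i : ℕ} (h : 32 ≤ cp * i) : 4 ≤ DD cp i := by
  unfold DD
  calc (4 : ℝ) = (2 : ℝ) ^ (2 : ℝ) := by norm_num
    _ ≤ (2 : ℝ) ^ (cp * i / 16) := Real.rpow_le_rpow_of_exponent_le (by norm_num) (by linarith)

/-- `2 · 4 D⁸ ≤ E` -/
lemma DD8_le {i : ℕ} (h : 6 ≤ cp * i) : 2 * (4 * DD cp i ^ 8) ≤ (2 : ℝ) ^ (cp * i) := by
  rw [DD_pow]
  calc 2 * (4 * (2 : ℝ) ^ (cp * i / 16 * (8 : ℕ))) =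
      (2 : ℝ) ^ (3 : ℝ) * (2 : ℝ) ^ (cp * i / 16 * (8 : ℕ)) := by norm_num; ring
    _ = (2 : ℝ) ^ (3 + cp * i / 16 * (8 : ℕ)) := by rw [Real.rpow_add (by norm_num)]
    _ ≤ (2 : ℝ) ^ (cp * i) := Real.rpow_le_rpow_of_exponent_le (by norm_num) (by
        push_cast; linarith)

/-- `8 · (4 D⁸)⁵ ≤ 2^i` -/
lemma DD40_le (hc : cp ≤ 1 / 200) {i : ℕ} (h : 14 ≤ i) :
    8 * (4 * DD cp i ^ 8) ^ 5 ≤ 2 ^ i := by
  have e : 8 * (4 * DD cp i ^ 8) ^ 5 = (2 : ℝ) ^ (13 : ℝ) * DD cp i ^ 40 := by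
    have : (2 : ℝ) ^ (13 : ℝ) = 8192 := by norm_num
    rw [this]; ring
  have hi : (14 : ℝ) ≤ i := by exact_mod_cast h
  rw [e, DD_pow, ← Real.rpow_add (by norm_num), ← Real.rpow_natCast 2 i]
  refine Real.rpow_le_rpow_of_exponent_le (by norm_num) ?_
  have h1 : cp * i ≤ 1 / 200 * i := mul_le_mul_of_nonneg_right hc (by linarith)
  push_cast
  linarith

end pow

section par

variable {cp : ℝ} {A m0 : ℕ} {γ L : ℝ} {M : ℕ} {B : Finset ℕ}

/-- `2 E⁸ < 2^m` -/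
lemma two_E8_lt (hc : cp ≤ 1 / 200) {m : ℕ} (hm : 2 ≤ m) :
    2 * (ParOf cp A m0 γ L M B).E m ^ 8 < 2 ^ m := by
  have hm' : (2 : ℝ) ≤ m := by exact_mod_cast hm
  rw [E_pow]
  calc 2 * (2 : ℝ) ^ (cp * m * (8 : ℕ)) = (2 : ℝ) ^ (1 + cp * m * (8 : ℕ)) := by
        rw [Real.rpow_add (by norm_num), Real.rpow_one]
    _ < (2 : ℝ) ^ (m : ℝ) := Real.rpow_lt_rpow_of_exponent_lt (by norm_num) (by
        have h1 : cp * m ≤ 1 / 200 * m := mul_le_mul_of_nonneg_right hc (by linarith)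
        push_cast; linarith)
    _ = 2 ^ m := Real.rpow_natCast 2 m

/-- `cut m ^ (1/(4A)) = 2^(m/4)` -/
lemma cut_pow (hA : 1 ≤ A) (m : ℕ) :
    ((ParOf cp A m0 γ L M B).cut m : ℝ) ^ (1 / (4 * A) : ℝ) = (2 : ℝ) ^ ((m : ℝ) / 4) := by
  have hA' : (0 : ℝ) < A := by exact_mod_cast hA
  change (((2 : ℕ) ^ (A * m) : ℕ) : ℝ) ^ (1 / (4 * A) : ℝ) = _
  push_cast
  rw [← Real.rpow_natCast, ← Real.rpow_mul (by norm_num)]
  congr 1
  push_cast
  field_simp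

/-- `2 E⁴ cut^δ < 2^m` -/
lemma two_E4_cut_lt (hc : cp ≤ 1 / 200) (hA : 1 ≤ A) {m : ℕ} (hm : 2 ≤ m) :
    2 * (ParOf cp A m0 γ L M B).E m ^ 4 *
      ((ParOf cp A m0 γ L M B).cut m : ℝ) ^ (1 / (4 * A) : ℝ) < 2 ^ m := by
  have hm' : (2 : ℝ) ≤ m := by exact_mod_cast hm
  rw [E_pow, cut_pow hA]
  calc 2 * (2 : ℝ) ^ (cp * m * (4 : ℕ)) * (2 : ℝ) ^ ((m : ℝ) / 4)
      = (2 : ℝ) ^ (1 + cp * m * (4 : ℕ) + (m : ℝ) / 4) := by
        rw [Real.rpow_add (by norm_num), Real.rpow_add (by norm_num), Real.rpow_one]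
    _ < (2 : ℝ) ^ (m : ℝ) := Real.rpow_lt_rpow_of_exponent_lt (by norm_num) (by
        have h1 : cp * m ≤ 1 / 200 * m := mul_le_mul_of_nonneg_right hc (by linarith)
        push_cast; linarith)
    _ = 2 ^ m := Real.rpow_natCast 2 m

lemma thr_le_max (d i : ℕ) : (ParOf cp A m0 γ L M B).thr d i ≤
    max (((ParOf cp A m0 γ L M B).Y (i - 1) : ℝ) ^ (1 / (4 * A) : ℝ))
      (ThS M (ind B) (ParOf cp A m0 γ L M B).Y d i ^ (1 / 20 : ℝ)) :=
  min_le_left _ _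

lemma thr_le_exp (d i : ℕ) : (ParOf cp A m0 γ L M B).thr d i ≤
    Real.exp (((ParOf cp A m0 γ L M B).Y (i - 1) : ℝ) ^ (4 / 5 : ℝ)) :=
  min_le_right _ _

end par

/-- numerical conditions on the constants -/
structure Num (cp η : ℝ) (A m0 : ℕ) : Prop where
  cp_pos : 0 < cp
  cp_le : cp ≤ 1 / 200
  η_pos : 0 < η
  η_le : η ≤ cp / 200
  η_lt : η < 1
  A_one : 1 ≤ A
  m0_ge : 32 / cp ≤ m0
  m0_14 : 14 ≤ m0

lemma evNum : Ev Num := by
  refine ((Ev.basic.and (Ev.le_m0 (fun cp _ _ => 32 / cp))).and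
    (Ev.le_m0 (fun _ _ _ => 14))).mono ?_
  rintro cp η A m0 ⟨⟨⟨h1, h2, h3, h4, h5, h6, h7⟩, h8⟩, h9⟩
  exact ⟨h1, h2, h3, h4, h5, h6, h8, by exact_mod_cast h9⟩

theorem hy_of_num {cp η : ℝ} {A m0 : ℕ} (h : Num cp η A m0) {γ L : ℝ} {M : ℕ} {B : Finset ℕ}
    (hM : 0 < M) (hL : 0 < L) (F : FL M) :
    Hy F (ParOf cp A m0 γ L M B) (ind B) (1 / (4 * A)) (1 / 20) (DD cp) where
  hM := hM
  hL := hL
  hN := Nat.le_ceil _
  two := by
    change 2 ≤ m0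
    have := h.m0_14
    omega
  cut_mono := fun a b hab => Nat.pow_le_pow_right (by norm_num) (Nat.mul_le_mul_left A hab)
  Y_mono := fun a b hab => Nat.pow_lt_pow_right (by norm_num) hab
  blkend := fun m => ⟨A * m, rfl⟩
  cut_ge := fun m => Nat.pow_le_pow_right (by norm_num) (Nat.le_mul_of_pos_left m h.A_one)
  E_one := fun m => Real.one_le_rpow (by norm_num) (mul_nonneg h.cp_pos.le (Nat.cast_nonneg m))
  hE := fun m hm => two_E8_lt h.cp_le (by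
    have h1 : m0 ≤ m := hm
    have := h.m0_14
    omega)
  hEc := fun m hm => two_E4_cut_lt h.cp_le h.A_one (by
    have h1 : m0 ≤ m := hm
    have := h.m0_14
    omega)
  hδ := by positivity
  hε := by norm_num
  w0 := Crest.Agent.R4C.FLExx326.ind_nonneg B
  thr_le := thr_le_max
  hD := fun m hm => four_le_DD (by
    have h1 : (m0 : ℝ) ≤ m := by exact_mod_cast (show m0 ≤ m from hm)
    have h2 := h.m0_ge
    have h3 : 32 / cp ≤ m := h2.trans h1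
    rw [div_le_iff₀ h.cp_pos] at h3
    linarith)
  hDT := fun m hm => DD40_le h.cp_le (h.m0_14.trans hm)
  hDE := fun m hm => DD8_le (by
    have h1 : (m0 : ℝ) ≤ m := by exact_mod_cast (show m0 ≤ m from hm)
    have h2 := h.m0_ge
    have h3 : 32 / cp ≤ m := h2.trans h1
    rw [div_le_iff₀ h.cp_pos] at h3
    linarith)

/-- **the parameters of the spine satisfy the hypotheses of the split** -/
theorem hyOf : Ev fun cp η A m0 => ∀ (γ L : ℝ) (M : ℕ) (B : Finset ℕ) (F : FL M),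
    Setup η L M B F →
      Hy F (ParOf cp A m0 γ L M B) (ind B) (1 / (4 * A)) (1 / 20) (DD cp) :=
  evNum.mono fun _ _ _ _ h _ _ _ _ F S => hy_of_num h S.hM S.hL F

end Crest.Agent.R4C.HyOfx281
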