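import Crest.Agent.R4C.NonPure_559

/-!
# Row 4: the non-pure part of Theorem C for SETS, all windows at once (helper52, note 3113 (B))

Same cell language as `NonPure_559` (`M` : passive primes, `H ∣ M` : the centre word,
`lvl M H b c` : at every prime one of the two letters is the centre).

Theorem `nonpure_set` : if every dyadic class `[2^i, 2^(i+1))`, `i ≥ 1`, contains at most `ρ 2^i`
divisors of `M` (`M` is `x`-rough, `ρ = C / log x`), then for all `f, g` with values in `[0, 1]`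

`Σ_{level, (l,l') ≠ (1,1)} gcd(b,c) ν(b) ν(c) f(b) g(c) ≤ (8 √ρ + 16 ρ) (Σ ν f)^{1/2} (Σ ν g)^{1/2}`

with NO restriction on `gcd (b,c)` (all scales together).
-/

set_option autoImplicit false

open Finset
open Crest.Agent.R4C.Basex935 Crest.Agent.R4C.NonPurex559

namespace Crest.Agent.R4C.NonPureSetx52

/-- `Σ_i min (a 2^i, b / 2^i) ≤ 4 √(a b)` -/
lemma sum_min_le (N : ℕ) {a b : ℝ} (ha : 0 ≤ a) (hb : 0 ≤ b) :
    ∑ i ∈ range N, min (a * 2 ^ i) (b / 2 ^ i) ≤ 4 * √(a * b) := by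
  rcases ha.eq_or_lt with ha0 | ha0
  · rw [← ha0]
    have : ∑ i ∈ range N, min ((0 : ℝ) * 2 ^ i) (b / 2 ^ i) ≤ ∑ i ∈ range N, (0 : ℝ) :=
      Finset.sum_le_sum fun i _ => by rw [zero_mul]; exact min_le_left _ _
    simpa using this
  set s := √(a * b) with hs
  have hs0 : 0 ≤ s := Real.sqrt_nonneg _
  have hss : s * s = a * b := Real.mul_self_sqrt (mul_nonneg ha hb)
  have hex : ∃ n : ℕ, s ≤ a * 2 ^ n := by
    obtain ⟨n, hn⟩ := pow_unbounded_of_one_lt (s / a) (by norm_num : (1 : ℝ) < 2)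
    exact ⟨n, by rw [div_lt_iff₀ ha0] at hn; linarith⟩
  set k := Nat.find hex with hk
  have hk1 : s ≤ a * 2 ^ k := Nat.find_spec hex
  have hk2 : ∀ i < k, a * 2 ^ i < s := fun i hi => by
    have := Nat.find_min hex hi
    push Not at this
    exact this
  -- geometric bound of each term
  have hterm : ∀ i, min (a * 2 ^ i) (b / 2 ^ i) ≤
      (if i < k then s * 2 * (2 ^ i / 2 ^ k) else s * (2 ^ k / 2 ^ i)) := by
    intro i
    split_ifs with hi
    · refine (min_le_left _ _).trans ?_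
      have hk0 : 0 < k := by omega
      have h1 := hk2 (k - 1) (by omega)
      have h2 : (2 : ℝ) ^ k = 2 * 2 ^ (k - 1) := by
        rw [← pow_succ']; congr 1; omega
      rw [h2]
      have h3 : s * 2 * (2 ^ i / (2 * 2 ^ (k - 1))) = s / 2 ^ (k - 1) * 2 ^ i := by field_simp
      rw [h3]
      refine mul_le_mul_of_nonneg_right ?_ (by positivity)
      rw [le_div_iff₀ (by positivity)]
      exact h1.le
    · refine (min_le_right _ _).trans ?_
      rw [div_le_iff₀ (by positivity)]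
      have h4 : s * (2 ^ k / 2 ^ i) * 2 ^ i = s * 2 ^ k := by field_simp
      rw [h4]
      have h5 : a * b ≤ a * (s * 2 ^ k) := by
        rw [← hss]
        calc s * s ≤ s * (a * 2 ^ k) := mul_le_mul_of_nonneg_left hk1 hs0
          _ = a * (s * 2 ^ k) := by ring
      exact le_of_mul_le_mul_left h5 ha0
  refine (Finset.sum_le_sum fun i _ => hterm i).trans ?_
  -- sum over i < k and i ≥ k
  have hsplit : ∑ i ∈ range N, (if i < k then s * 2 * ((2 : ℝ) ^ i / 2 ^ k) else s * (2 ^ k / 2 ^ i)) ≤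
      ∑ i ∈ range k, s * 2 * ((2 : ℝ) ^ i / 2 ^ k) + ∑ j ∈ range N, s * (1 / 2 ^ j) := by
    rw [Finset.sum_ite]
    refine add_le_add ?_ ?_
    · refine Finset.sum_le_sum_of_subset_of_nonneg ?_ fun i _ _ => by positivity
      intro i hi
      rw [Finset.mem_filter] at hi
      exact Finset.mem_range.2 hi.2
    · have h6 : ∑ i ∈ (range N).filter (fun i => ¬ i < k), s * ((2 : ℝ) ^ k / 2 ^ i) =
          ∑ j ∈ ((range N).filter (fun i => ¬ i < k)).image (fun i => i - k), s * (1 / 2 ^ j) := by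
        rw [Finset.sum_image]
        · refine Finset.sum_congr rfl fun i hi => ?_
          rw [Finset.mem_filter] at hi
          have : (2 : ℝ) ^ i = 2 ^ k * 2 ^ (i - k) := by
            rw [← pow_add]; congr 1; omega
          rw [this]
          field_simp
        · intro i hi j hj e
          rw [Finset.mem_coe, Finset.mem_filter] at hi hj
          simp only at e
          omega
      rw [h6]
      refine Finset.sum_le_sum_of_subset_of_nonneg ?_ fun i _ _ => by positivity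
      intro j hj
      rw [Finset.mem_image] at hj
      obtain ⟨i, hi, rfl⟩ := hj
      rw [Finset.mem_filter, Finset.mem_range] at hi
      exact Finset.mem_range.2 (by omega)
  refine hsplit.trans ?_
  have h7 : ∑ i ∈ range k, s * 2 * ((2 : ℝ) ^ i / 2 ^ k) ≤ s * 2 := by
    rw [← Finset.mul_sum, ← Finset.sum_div]
    refine mul_le_of_le_one_right (by positivity) ?_
    rw [div_le_one (by positivity), geom_sum_eq (by norm_num)]
    have : (0 : ℝ) < 2 ^ k := by positivity
    norm_num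
  have h8 : ∑ j ∈ range N, s * (1 / (2 : ℝ) ^ j) ≤ s * 2 := by
    rw [← Finset.mul_sum]
    refine mul_le_mul_of_nonneg_left ?_ hs0
    have h9 : ∀ j ∈ range N, (1 : ℝ) / 2 ^ j = (1 / 2) ^ j := fun j _ => by
      rw [one_div_pow]
    rw [Finset.sum_congr rfl h9, geom_sum_eq (by norm_num)]
    have : (0 : ℝ) < (1 / 2) ^ N := by positivity
    rw [div_le_iff_of_neg (by norm_num)]
    linarith
  linarith

lemma fib_le {M H : ℕ} (hM : 0 < M) (hH : H ∣ M) {f : ℕ → ℝ}
    (hf1 : ∀ b, f b ≤ 1) {l : ℕ} (hl : 0 < l) (S : Finset ℕ) (hS : S ⊆ M.divisors) :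
    ∑ b ∈ S.filter (fun b => cf H b = l), (Nat.gcd H b : ℝ) * nu M b * f b ≤ 1 := by
  classical
  have hH0 : 0 < H := Nat.pos_of_dvd_of_pos hH hM
  by_cases hlH : l ∣ H
  · have hg0 : 0 < H / l := Nat.div_pos (Nat.le_of_dvd hH0 hlH) hl
    have hgM : H / l ∣ M := (Nat.div_dvd_of_dvd hlH).trans hH
    have hg : ∀ b ∈ S.filter (fun b => cf H b = l), Nat.gcd H b = H / l := by
      intro b hb
      rw [Finset.mem_filter] at hb
      have h1 := cf_mul (H := H) (b := b)
      rw [hb.2] at h1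
      rw [← h1, Nat.mul_div_cancel_left _ hl, h1]
    calc ∑ b ∈ S.filter (fun b => cf H b = l), (Nat.gcd H b : ℝ) * nu M b * f b
        ≤ ∑ b ∈ S.filter (fun b => cf H b = l), ((H / l : ℕ) : ℝ) * nu M b := by
          refine Finset.sum_le_sum fun b hb => ?_
          rw [hg b hb]
          have h0 : 0 ≤ ((H / l : ℕ) : ℝ) * nu M b := mul_nonneg (by positivity) (nu_nonneg _ _)
          calc _ ≤ ((H / l : ℕ) : ℝ) * nu M b * 1 := mul_le_mul_of_nonneg_left (hf1 b) h0
            _ = _ := mul_one _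
      _ ≤ ∑ b ∈ M.divisors.filter (fun b => H / l ∣ b), ((H / l : ℕ) : ℝ) * nu M b := by
          refine Finset.sum_le_sum_of_subset_of_nonneg ?_ fun b _ _ =>
            mul_nonneg (by positivity) (nu_nonneg _ _)
          intro b hb
          rw [Finset.mem_filter]
          refine ⟨hS (Finset.mem_filter.1 hb).1, ?_⟩
          rw [← hg b hb]; exact Nat.gcd_dvd_right H b
      _ = 1 := by
          rw [← Finset.mul_sum, mass_mult hM hgM]
          have : ((H / l : ℕ) : ℝ) ≠ 0 := by exact_mod_cast hg0.ne'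
          field_simp
  · have : S.filter (fun b => cf H b = l) = ∅ := by
      rw [Finset.eq_empty_iff_forall_notMem]
      intro b hb
      rw [Finset.mem_filter] at hb
      exact hlH (hb.2 ▸ cf_dvd)
    rw [this, Finset.sum_empty]
    norm_num

/-- class sum `≤` number of cofactors -/
lemma class_le_card {M H : ℕ} (hM : 0 < M) (hH : H ∣ M) {f : ℕ → ℝ}
    (hf1 : ∀ b, f b ≤ 1) (i : ℕ) :
    ∑ b ∈ M.divisors.filter (fun b => cl H b = i), (Nat.gcd H b : ℝ) * nu M b * f b ≤
      ((M.divisors.filter (fun l => Nat.log 2 l = i)).card : ℝ) := by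
  classical
  set S := M.divisors.filter (fun b => cl H b = i) with hS
  set D := M.divisors.filter (fun l => Nat.log 2 l = i) with hD
  have hmap : ∀ b ∈ S, cf H b ∈ D := by
    intro b hb
    rw [hS, Finset.mem_filter] at hb
    rw [hD, Finset.mem_filter, Nat.mem_divisors]
    exact ⟨⟨cf_dvd.trans hH, hM.ne'⟩, hb.2⟩
  rw [← Finset.sum_fiberwise_of_maps_to hmap]
  calc ∑ l ∈ D, ∑ b ∈ S.filter (fun b => cf H b = l), (Nat.gcd H b : ℝ) * nu M b * f b
      ≤ ∑ l ∈ D, (1 : ℝ) := Finset.sum_le_sum fun l hl => by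
        rw [hD, Finset.mem_filter] at hl
        exact fib_le hM hH hf1 (Nat.pos_of_mem_divisors hl.1) S (Finset.filter_subset _ _)
    _ = _ := by rw [Finset.sum_const, nsmul_eq_mul, mul_one]

/-- class sum `≤ H m_i / 2^i` -/
lemma class_le_mass {M H : ℕ} (hM : 0 < M) (hH : H ∣ M) {f : ℕ → ℝ} (hf : ∀ b, 0 ≤ f b)
    (i : ℕ) :
    ∑ b ∈ M.divisors.filter (fun b => cl H b = i), (Nat.gcd H b : ℝ) * nu M b * f b ≤
      H / 2 ^ i * ∑ b ∈ M.divisors.filter (fun b => cl H b = i), nu M b * f b := by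
  have hH0 : 0 < H := Nat.pos_of_dvd_of_pos hH hM
  rw [Finset.mul_sum]
  refine Finset.sum_le_sum fun b hb => ?_
  rw [Finset.mem_filter] at hb
  rw [mul_assoc]
  refine mul_le_mul_of_nonneg_right ?_ (mul_nonneg (nu_nonneg _ _) (hf b))
  rw [le_div_iff₀ (by positivity)]
  have h1 : (cf H b : ℝ) * (Nat.gcd H b : ℝ) = H := by exact_mod_cast cf_mul (H := H) (b := b)
  have h2 : (2 : ℝ) ^ i ≤ cf H b := by
    have : 2 ^ i ≤ cf H b := by
      rw [← hb.2]; exact Nat.pow_log_le_self 2 (cf_pos hH0).ne'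
    exact_mod_cast this
  calc (Nat.gcd H b : ℝ) * 2 ^ i ≤ (Nat.gcd H b : ℝ) * cf H b :=
        mul_le_mul_of_nonneg_left h2 (by positivity)
    _ = H := by rw [mul_comm]; exact h1

/-- the `l > 1` classes together -/
lemma tail_le {M H : ℕ} (hM : 0 < M) (hH : H ∣ M) {ρ : ℝ} (hρ0 : 0 ≤ ρ)
    (hρ : ∀ i, 1 ≤ i → ((M.divisors.filter (fun l => Nat.log 2 l = i)).card : ℝ) ≤ ρ * 2 ^ i)
    {f : ℕ → ℝ} (hf : ∀ b, 0 ≤ f b) (hf1 : ∀ b, f b ≤ 1) :
    ∑ b ∈ M.divisors.filter (fun b => ¬ H ∣ b), (Nat.gcd H b : ℝ) * nu M b * f b ≤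
      4 * √ρ * (√(H : ℝ) * √(∑ b ∈ M.divisors, nu M b * f b)) := by
  classical
  have hH0 : 0 < H := Nat.pos_of_dvd_of_pos hH hM
  have hHR : (0 : ℝ) < H := by exact_mod_cast hH0
  set m := ∑ b ∈ M.divisors, nu M b * f b with hm
  have hm0 : 0 ≤ m := Finset.sum_nonneg fun b _ => mul_nonneg (nu_nonneg _ _) (hf b)
  have hcl : ∀ b, ¬ H ∣ b → 1 ≤ cl H b := by
    intro b hb
    by_contra hcon
    apply hb
    rw [← cf_eq_one hH0]
    have hp := cf_pos (b := b) hH0
    have h1 : Nat.log 2 (cf H b) = 0 := by unfold cl at hcon; omega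
    have h2 : cf H b < 2 ^ (Nat.log 2 (cf H b) + 1) := Nat.lt_pow_succ_log_self (by norm_num) _
    rw [h1] at h2
    omega
  have hmap : ∀ b ∈ M.divisors.filter (fun b => ¬ H ∣ b), cl H b ∈ range (H + 1) := by
    intro b _
    rw [Finset.mem_range]
    have h1 : Nat.log 2 (cf H b) ≤ cf H b := Nat.log_le_self _ _
    have h2 : cf H b ≤ H := Nat.le_of_dvd hH0 cf_dvd
    unfold cl; omega
  rw [← Finset.sum_fiberwise_of_maps_to hmap]
  have hterm : ∀ i ∈ range (H + 1),
      ∑ b ∈ (M.divisors.filter (fun b => ¬ H ∣ b)).filter (fun b => cl H b = i),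
        (Nat.gcd H b : ℝ) * nu M b * f b ≤ min (ρ * 2 ^ i) ((H * m) / 2 ^ i) := by
    intro i _
    by_cases hi : 1 ≤ i
    · have hsub : (M.divisors.filter (fun b => ¬ H ∣ b)).filter (fun b => cl H b = i) ⊆
          M.divisors.filter (fun b => cl H b = i) := by
        intro b hb
        rw [Finset.mem_filter, Finset.mem_filter] at hb
        exact Finset.mem_filter.2 ⟨hb.1.1, hb.2⟩
      have hle := Finset.sum_le_sum_of_subset_of_nonneg hsub
        (f := fun b => (Nat.gcd H b : ℝ) * nu M b * f b)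
        fun b _ _ => mul_nonneg (mul_nonneg (by positivity) (nu_nonneg _ _)) (hf b)
      refine le_min ?_ ?_
      · exact hle.trans ((class_le_card hM hH hf1 i).trans (hρ i hi))
      · refine hle.trans ((class_le_mass hM hH hf i).trans ?_)
        rw [mul_div_right_comm]
        refine mul_le_mul_of_nonneg_left ?_ (by positivity)
        exact Finset.sum_le_sum_of_subset_of_nonneg (Finset.filter_subset _ _)
          fun b _ _ => mul_nonneg (nu_nonneg _ _) (hf b)
    · have : (M.divisors.filter (fun b => ¬ H ∣ b)).filter (fun b => cl H b = i) = ∅ := by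
        rw [Finset.eq_empty_iff_forall_notMem]
        intro b hb
        rw [Finset.mem_filter, Finset.mem_filter] at hb
        have := hcl b hb.1.2
        omega
      rw [this, Finset.sum_empty]
      exact le_min (by positivity) (by positivity)
  refine (Finset.sum_le_sum hterm).trans ?_
  refine (sum_min_le (H + 1) hρ0 (mul_nonneg hHR.le hm0)).trans (le_of_eq ?_)
  rw [Real.sqrt_mul hρ0, Real.sqrt_mul hHR.le]
  ring

/-- the class `l = 1` -/
lemma head_le {M H : ℕ} (hM : 0 < M) (hH : H ∣ M)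
    {f : ℕ → ℝ} (hf : ∀ b, 0 ≤ f b) (hf1 : ∀ b, f b ≤ 1) :
    ∑ b ∈ M.divisors.filter (fun b => H ∣ b), (Nat.gcd H b : ℝ) * nu M b * f b ≤
      √(H : ℝ) * √(∑ b ∈ M.divisors, nu M b * f b) := by
  classical
  have hH0 : 0 < H := Nat.pos_of_dvd_of_pos hH hM
  have hHR : (0 : ℝ) < H := by exact_mod_cast hH0
  set A := ∑ b ∈ M.divisors.filter (fun b => H ∣ b), (Nat.gcd H b : ℝ) * nu M b * f b with hA
  set m := ∑ b ∈ M.divisors, nu M b * f b with hm
  have hA0 : 0 ≤ A := Finset.sum_nonneg fun b _ =>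
    mul_nonneg (mul_nonneg (by positivity) (nu_nonneg _ _)) (hf b)
  have h1 : A ≤ 1 := by
    have := fib_le hM hH hf1 (l := 1) one_pos M.divisors (Finset.Subset.refl _)
    have e : M.divisors.filter (fun b => H ∣ b) = M.divisors.filter (fun b => cf H b = 1) := by
      refine Finset.filter_congr fun b _ => ?_
      exact (cf_eq_one hH0).symm
    rw [hA, e]
    exact this
  have h2 : A ≤ H * m := by
    rw [hA, hm, Finset.mul_sum]
    calc ∑ b ∈ M.divisors.filter (fun b => H ∣ b), (Nat.gcd H b : ℝ) * nu M b * f b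
        ≤ ∑ b ∈ M.divisors.filter (fun b => H ∣ b), (H : ℝ) * (nu M b * f b) := by
          refine Finset.sum_le_sum fun b hb => ?_
          rw [Finset.mem_filter] at hb
          rw [Nat.gcd_eq_left hb.2, mul_assoc]
      _ ≤ _ := Finset.sum_le_sum_of_subset_of_nonneg (Finset.filter_subset _ _)
          fun b _ _ => mul_nonneg hHR.le (mul_nonneg (nu_nonneg _ _) (hf b))
  rw [← Real.sqrt_mul hHR.le]
  refine Real.le_sqrt_of_sq_le ?_
  nlinarith

open Classical in
/-- **non-pure part, sets / functions with values in `[0,1]`, all windows at once.** -/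
theorem nonpure_set {M H : ℕ} (hM : 0 < M) (hH : H ∣ M) {ρ : ℝ} (hρ0 : 0 ≤ ρ)
    (hρ : ∀ i, 1 ≤ i → ((M.divisors.filter (fun l => Nat.log 2 l = i)).card : ℝ) ≤ ρ * 2 ^ i)
    (f g : ℕ → ℝ) (hf : ∀ b, 0 ≤ f b) (hg : ∀ b, 0 ≤ g b) (hf1 : ∀ b, f b ≤ 1)
    (hg1 : ∀ b, g b ≤ 1) :
    ∑ b ∈ M.divisors, ∑ c ∈ M.divisors,
      (if lvl M H b c ∧ ¬ (H ∣ b ∧ H ∣ c) then
        (Nat.gcd b c : ℝ) * nu M b * nu M c * (f b * g c) else 0) ≤
      (8 * √ρ + 16 * ρ) *
        (√(∑ b ∈ M.divisors, nu M b * f b) * √(∑ b ∈ M.divisors, nu M b * g b)) := by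
  have hH0 : 0 < H := Nat.pos_of_dvd_of_pos hH hM
  have hHR : (0 : ℝ) < H := by exact_mod_cast hH0
  set G : ℕ → ℝ := fun b => (Nat.gcd H b : ℝ) * nu M b * f b with hGdef
  set G' : ℕ → ℝ := fun b => (Nat.gcd H b : ℝ) * nu M b * g b with hGdef'
  have hG0 : ∀ b, 0 ≤ G b := fun b =>
    mul_nonneg (mul_nonneg (by positivity) (nu_nonneg _ _)) (hf b)
  have hG0' : ∀ b, 0 ≤ G' b := fun b =>
    mul_nonneg (mul_nonneg (by positivity) (nu_nonneg _ _)) (hg b)
  have hterm : ∀ b ∈ M.divisors, ∀ c ∈ M.divisors,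
      (if lvl M H b c ∧ ¬ (H ∣ b ∧ H ∣ c) then
        (Nat.gcd b c : ℝ) * nu M b * nu M c * (f b * g c) else 0) ≤
      (1 / (H : ℝ)) * (if H ∣ b ∧ H ∣ c then 0 else G b * G' c) := by
    intro b hb c hc
    have hbM := Nat.dvd_of_mem_divisors hb
    have hcM := Nat.dvd_of_mem_divisors hc
    by_cases h : lvl M H b c ∧ ¬ (H ∣ b ∧ H ∣ c)
    · rw [if_pos h, if_neg h.2]
      have hid := gcd_lvl hM.ne' hH hbM hcM h.1
      have hidR : (Nat.gcd b c : ℝ) * H = (Nat.gcd H b : ℝ) * (Nat.gcd H c : ℝ) := by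
        exact_mod_cast hid
      refine le_of_eq ?_
      simp only [hGdef, hGdef']
      have e4 : (Nat.gcd b c : ℝ) = (1 / (H : ℝ)) * ((Nat.gcd H b : ℝ) * (Nat.gcd H c : ℝ)) := by
        rw [← hidR]; field_simp
      rw [e4]; ring
    · rw [if_neg h]
      refine mul_nonneg (by positivity) ?_
      split_ifs
      · exact le_rfl
      · exact mul_nonneg (hG0 _) (hG0' _)
  refine (Finset.sum_le_sum fun b hb => Finset.sum_le_sum fun c hc => hterm b hb c hc).trans ?_
  set m := ∑ b ∈ M.divisors, nu M b * f b with hm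
  set m' := ∑ b ∈ M.divisors, nu M b * g b with hm'
  set P := ∑ b ∈ M.divisors.filter (fun b => H ∣ b), G b with hP
  set T := ∑ b ∈ M.divisors.filter (fun b => ¬ H ∣ b), G b with hT
  set P' := ∑ b ∈ M.divisors.filter (fun b => H ∣ b), G' b with hP'
  set T' := ∑ b ∈ M.divisors.filter (fun b => ¬ H ∣ b), G' b with hT'
  have hPle : P ≤ √(H : ℝ) * √m := head_le hM hH hf hf1
  have hPle' : P' ≤ √(H : ℝ) * √m' := head_le hM hH hg hg1
  have hTle : T ≤ 4 * √ρ * (√(H : ℝ) * √m) := tail_le hM hH hρ0 hρ hf hf1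
  have hTle' : T' ≤ 4 * √ρ * (√(H : ℝ) * √m') := tail_le hM hH hρ0 hρ hg hg1
  have hP0 : 0 ≤ P := Finset.sum_nonneg fun b _ => hG0 b
  have hT0 : 0 ≤ T := Finset.sum_nonneg fun b _ => hG0 b
  have hP0' : 0 ≤ P' := Finset.sum_nonneg fun b _ => hG0' b
  have hT0' : 0 ≤ T' := Finset.sum_nonneg fun b _ => hG0' b
  have hsum : ∑ b ∈ M.divisors, ∑ c ∈ M.divisors,
      (1 / (H : ℝ)) * (if H ∣ b ∧ H ∣ c then 0 else G b * G' c) =
      (1 / (H : ℝ)) * (P * T' + T * P' + T * T') := by
    simp_rw [← Finset.mul_sum]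
    congr 1
    have e1 : ∀ b ∈ M.divisors, ∑ c ∈ M.divisors, (if H ∣ b ∧ H ∣ c then 0 else G b * G' c) =
        (if H ∣ b then G b * T' else G b * (P' + T')) := by
      intro b _
      by_cases hb : H ∣ b
      · simp only [hb, true_and, if_true]
        rw [hT', Finset.mul_sum, Finset.sum_filter]
        refine Finset.sum_congr rfl fun c _ => ?_
        by_cases hc : H ∣ c <;> simp [hc]
      · simp only [hb, false_and, if_false]
        rw [hP', hT', Finset.sum_filter_add_sum_filter_not, Finset.mul_sum]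
    rw [Finset.sum_congr rfl e1, ← Finset.sum_filter_add_sum_filter_not M.divisors (fun b => H ∣ b)]
    have e2 : ∑ b ∈ M.divisors.filter (fun b => H ∣ b),
        (if H ∣ b then G b * T' else G b * (P' + T')) = P * T' := by
      rw [hP, Finset.sum_mul]
      refine Finset.sum_congr rfl fun b hb => ?_
      rw [if_pos (Finset.mem_filter.1 hb).2]
    have e3 : ∑ b ∈ M.divisors.filter (fun b => ¬ H ∣ b),
        (if H ∣ b then G b * T' else G b * (P' + T')) = T * (P' + T') := by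
      rw [hT, Finset.sum_mul]
      refine Finset.sum_congr rfl fun b hb => ?_
      rw [if_neg (Finset.mem_filter.1 hb).2]
    rw [e2, e3]
    ring
  rw [hsum]
  set h := √(H : ℝ) with hh
  have hh2 : h * h = H := Real.mul_self_sqrt hHR.le
  have hh0 : 0 ≤ h := Real.sqrt_nonneg _
  set r := √ρ with hr
  have hr2 : r * r = ρ := Real.mul_self_sqrt hρ0
  have hr0 : 0 ≤ r := Real.sqrt_nonneg _
  have ha0 : 0 ≤ √m := Real.sqrt_nonneg _
  have hb0 : 0 ≤ √m' := Real.sqrt_nonneg _
  have k1 : P * T' ≤ (h * √m) * (4 * r * (h * √m')) :=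
    mul_le_mul hPle hTle' hT0' (by positivity)
  have k2 : T * P' ≤ (4 * r * (h * √m)) * (h * √m') :=
    mul_le_mul hTle hPle' hP0' (by positivity)
  have k3 : T * T' ≤ (4 * r * (h * √m)) * (4 * r * (h * √m')) :=
    mul_le_mul hTle hTle' hT0' (by positivity)
  have k4 : P * T' + T * P' + T * T' ≤ H * ((8 * r + 16 * ρ) * (√m * √m')) := by
    calc P * T' + T * P' + T * T' ≤ (h * √m) * (4 * r * (h * √m')) +
          (4 * r * (h * √m)) * (h * √m') + (4 * r * (h * √m)) * (4 * r * (h * √m')) := by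
          linarith
      _ = (h * h) * ((8 * r + 16 * (r * r)) * (√m * √m')) := by ring
      _ = _ := by rw [hh2, hr2]
  calc (1 / (H : ℝ)) * (P * T' + T * P' + T * T')
      ≤ (1 / (H : ℝ)) * (H * ((8 * r + 16 * ρ) * (√m * √m'))) :=
        mul_le_mul_of_nonneg_left k4 (by positivity)
    _ = _ := by field_simp

end Crest.Agent.R4C.NonPureSetx52
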