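import Crest.Agent.R4C.NonPure2_559
import Crest.Agent.R4C.NonPureSet_52

/-!
# Row 4: non-pure part for sets, over an F-Λ structure, all windows and all blocks (helper559)

52's (III') (`NonPureSet_52.nonpure_set`, note 3113 (B)) lifted to `F : FL M`:
* `nonpureS_fl` : one cut `X0` : equal parts `≤ X0`, good above `X0`, not pure; `f, g ∈ [0,1]`;
  extra factor `θ(low part)` with `θ(e) e ν(e) ≤ 1`; bound `(8 √ρ + 16 ρ) (ν f)^{1/2} (ν g)^{1/2}`.
* `nonpureS_fl_log` : `≤ C (log X0)^{-1/2} …`.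
* `nonpureS_blocks` : blocks `2^(2^j) ≤ x < 2^(2^(j+1))` of the smallest differing prime `x`,
  `j ≥ j0`, together: `≤ C 2^{-j0/2} …`.
-/

set_option autoImplicit false

open Finset
open Crest.Agent.R4C.Basex935 Crest.Agent.R4C.Cutx50 Crest.Agent.R4C.FLDefx935
open Crest.Agent.R4C.NonPurex559 Crest.Agent.R4C.NonPureFLx559 Crest.Agent.R4C.NonPure2x559

namespace Crest.Agent.R4C.NonPureBlkx559

open Classical

section FLpart

variable {M : ℕ} (F : FL M)

/-- one term: equal parts `≤ X0`, good above `X0`, not pure; extra factor `θ` of the low part -/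
noncomputable def tmS (X0 : ℕ) (θ : ℕ → ℝ) (f g : ℕ → ℝ) (b c : ℕ) : ℝ :=
  if low X0 b = low X0 c ∧ F.good X0 b c ∧ ¬ (F.ell X0 b = 1 ∧ F.ell X0 c = 1) then
    (Nat.gcd b c : ℝ) * nu M b * nu M c * (f b * g c) * θ (low X0 b) else 0

variable {F}

lemma class_energyS {x b0 : ℕ} (hM : 0 < M) (hb0 : b0 ∣ M) {ρ : ℝ} (hρ0 : 0 ≤ ρ)
    (hρ : ∀ i, 1 ≤ i → ((M.divisors.filter (fun l => Nat.log 2 l = i ∧ Rgh x l)).card : ℝ) ≤
      ρ * 2 ^ i)
    (θ : ℕ → ℝ) (hθ0 : ∀ e, 0 ≤ θ e)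
    (hθ : ∀ e, e ∣ low x M → θ e * ((e : ℝ) * nu (low x M) e) ≤ 1)
    (f g : ℕ → ℝ) (hf : ∀ b, 0 ≤ f b) (hg : ∀ b, 0 ≤ g b) (hf1 : ∀ b, f b ≤ 1)
    (hg1 : ∀ b, g b ≤ 1) :
    ∑ b ∈ M.divisors.filter (fun b => lab F x b = lab F x b0),
      ∑ c ∈ M.divisors.filter (fun b => lab F x b = lab F x b0), tmS F x θ f g b c ≤
      (8 * √ρ + 16 * ρ) * (√(∑ b ∈ M.divisors.filter (fun b => lab F x b = lab F x b0), nu M b * f b) *
        √(∑ b ∈ M.divisors.filter (fun b => lab F x b = lab F x b0), nu M b * g b)) := by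
  set S := Ps F x b0 with hS
  set M1 := part S M with hM1
  set w := wd F x b0 with hw
  set M2 := part (fun p => ¬ S p) M with hM2
  set e0 := low x b0 with he0
  have hM1p : 0 < M1 := part_pos _ _
  have hM2p : 0 < M2 := part_pos _ _
  have hwM : w ∣ M2 := wd_dvd hM.ne' hb0
  have hw0 : 0 < w := Nat.pos_of_dvd_of_pos hwM hM2p
  have hwR : (0 : ℝ) < w := by exact_mod_cast hw0
  have hnu : ∀ z, z ∣ M1 → nu M (z * w) = nu M1 z * nu M2 w := fun z hz => nu_cut S hM hz hwM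
  have hgcd : ∀ z z', z ∣ M1 → z' ∣ M1 → Nat.gcd (z * w) (z' * w) = Nat.gcd z z' * w := by
    intro z z' hz hz'
    rw [gcd_cut S hz hwM hz' hwM, Nat.gcd_self]
  have hν2 := nu_nonneg M2 w
  have hρ1 : ∀ i, 1 ≤ i → ((M1.divisors.filter (fun l => Nat.log 2 l = i)).card : ℝ) ≤
      ρ * 2 ^ i := by
    intro i hi
    refine le_trans ?_ (hρ i hi)
    have : M1.divisors.filter (fun l => Nat.log 2 l = i) ⊆
        M.divisors.filter (fun l => Nat.log 2 l = i ∧ Rgh x l) := by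
      intro l hl
      rw [Finset.mem_filter, Nat.mem_divisors] at hl ⊢
      refine ⟨⟨hl.1.1.trans (part_dvd_self _ _), hM.ne'⟩, hl.2, fun p hp hpl => ?_⟩
      exact (prime_dvd_part S hp (hpl.trans hl.1.1)).1
    exact_mod_cast Finset.card_le_card this
  have hmain := NonPureSetx52.nonpure_set hM1p (Hc_dvd (F := F) (x := x) hM.ne' hb0) hρ0 hρ1
    (fun z => f (z * w)) (fun z => g (z * w)) (fun z => hf _) (fun z => hg _)
    (fun z => hf1 _) (fun z => hg1 _)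
  -- right side
  have hR1 : ∑ b ∈ M.divisors.filter (fun b => lab F x b = lab F x b0), nu M b * f b =
      nu M2 w * ∑ z ∈ M1.divisors, nu M1 z * f (z * w) := by
    rw [class_sum hM.ne' hb0, Finset.mul_sum]
    refine Finset.sum_congr rfl fun z hz => ?_
    rw [hnu z (Nat.dvd_of_mem_divisors hz)]; ring
  have hR2 : ∑ b ∈ M.divisors.filter (fun b => lab F x b = lab F x b0), nu M b * g b =
      nu M2 w * ∑ z ∈ M1.divisors, nu M1 z * g (z * w) := by
    rw [class_sum hM.ne' hb0, Finset.mul_sum]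
    refine Finset.sum_congr rfl fun z hz => ?_
    rw [hnu z (Nat.dvd_of_mem_divisors hz)]; ring
  rw [hR1, hR2, class_sum hM.ne' hb0]
  have hL : ∀ z ∈ M1.divisors, ∑ c ∈ M.divisors.filter (fun b => lab F x b = lab F x b0),
      tmS F x θ f g (z * w) c ≤ (w * nu M2 w * nu M2 w * θ e0) * ∑ z' ∈ M1.divisors,
        (if lvl M1 (Hc F x b0) z z' ∧ ¬ (Hc F x b0 ∣ z ∧ Hc F x b0 ∣ z') then
          (Nat.gcd z z' : ℝ) * nu M1 z * nu M1 z' * (f (z * w) * g (z' * w)) else 0) := by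
    intro z hz
    rw [class_sum hM.ne' hb0, Finset.mul_sum]
    refine Finset.sum_le_sum fun z' hz' => ?_
    have hz := Nat.dvd_of_mem_divisors hz
    have hz' := Nat.dvd_of_mem_divisors hz'
    obtain ⟨hb1, hb2, hb3⟩ := class_mem (F := F) (x := x) hM.ne' hb0 hz
    obtain ⟨hc1, hc2, hc3⟩ := class_mem (F := F) (x := x) hM.ne' hb0 hz'
    have hell := cf_eq_ell (F := F) (x := x) hM.ne' hb0 hz
    have hell' := cf_eq_ell (F := F) (x := x) hM.ne' hb0 hz'
    change cf (Hc F x b0) z = F.ell x (z * w) at hell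
    change cf (Hc F x b0) z' = F.ell x (z' * w) at hell'
    change z * w ∣ M at hb1
    change z' * w ∣ M at hc1
    change e0 = low x (z * w) at hb2
    have hH0 : 0 < Hc F x b0 := part_pos _ _
    have hzz : (Nat.gcd (z * w) (z' * w) : ℝ) = (Nat.gcd z z' : ℝ) * w := by
      rw [hgcd z z' hz hz']; push_cast; ring
    have hfz : ∀ y p, y ∣ M1 → S p → (y * w).factorization p = y.factorization p := by
      intro y p hy hp
      have hy0 : y ≠ 0 := fun hc => hM1p.ne' (Nat.eq_zero_of_zero_dvd (hc ▸ hy))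
      rw [Nat.factorization_mul hy0 hw0.ne', Finsupp.add_apply,
        fact_zero_of_dvd_part (fun p => ¬ S p) hwM (not_not.2 hp), add_zero]
    unfold tmS
    split_ifs with h1 h2 h2
    · refine le_of_eq ?_
      rw [hzz, hnu z hz, hnu z' hz', ← hb2]
      ring
    · exfalso
      obtain ⟨_, g4, g5⟩ := h1
      apply h2
      refine ⟨?_, ?_⟩
      · intro p hp
        have hpp := Nat.prime_of_mem_primeFactors hp
        have hpd := Nat.dvd_of_mem_primeFactors hp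
        have hSp : S p := prime_dvd_part S hpp hpd
        have hpm : p ∈ M.primeFactors := by
          rw [Nat.mem_primeFactors]
          exact ⟨hpp, hpd.trans (part_dvd_self _ _), hM.ne'⟩
        obtain ⟨hx, v, hv⟩ := hSp
        have hSp : S p := ⟨hx, v, hv⟩
        rw [fact_Hc hpm hx hv]
        have h3 := g4.2 p hpp hx v (by rw [← FL.ctr_eq hb0 hb1 hb3 hpp hx.le]; exact hv)
        rw [hfz z p hz hSp, hfz z' p hz' hSp] at h3
        exact h3
      · rintro ⟨e1, e2⟩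
        refine g5 ⟨?_, ?_⟩
        · rw [← hell]; exact (cf_eq_one hH0).2 e1
        · rw [← hell']; exact (cf_eq_one hH0).2 e2
    · exact mul_nonneg (mul_nonneg (mul_nonneg (mul_nonneg hwR.le hν2) hν2) (hθ0 _))
        (mul_nonneg (mul_nonneg (mul_nonneg (by positivity) (nu_nonneg _ _)) (nu_nonneg _ _))
          (mul_nonneg (hf _) (hg _)))
    · rw [mul_zero]
  refine (Finset.sum_le_sum hL).trans ?_
  rw [← Finset.mul_sum]
  set A := ∑ z ∈ M1.divisors, nu M1 z * f (z * w) with hA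
  set B := ∑ z ∈ M1.divisors, nu M1 z * g (z * w) with hB
  have hA0 : 0 ≤ A := Finset.sum_nonneg fun z _ => mul_nonneg (nu_nonneg _ _) (hf _)
  have hB0 : 0 ≤ B := Finset.sum_nonneg fun z _ => mul_nonneg (nu_nonneg _ _) (hg _)
  have h3 : √(nu M2 w * A) * √(nu M2 w * B) = nu M2 w * (√A * √B) := by
    rw [Real.sqrt_mul hν2, Real.sqrt_mul hν2]
    have := Real.mul_self_sqrt hν2
    calc _ = (√(nu M2 w) * √(nu M2 w)) * (√A * √B) := by ring
      _ = _ := by rw [this]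
  rw [h3]
  have hkey : (w * nu M2 w * nu M2 w * θ e0) ≤ nu M2 w := by
    have h4 : (w : ℝ) * nu M2 w ≤ (e0 : ℝ) * nu (low x M) e0 := wd_weight hM hb0
    have h5 := hθ e0 (low_dvd x hM.ne' hb0)
    calc w * nu M2 w * nu M2 w * θ e0 = (θ e0 * (w * nu M2 w)) * nu M2 w := by ring
      _ ≤ (θ e0 * ((e0 : ℝ) * nu (low x M) e0)) * nu M2 w :=
          mul_le_mul_of_nonneg_right (mul_le_mul_of_nonneg_left h4 (hθ0 _)) hν2
      _ ≤ 1 * nu M2 w := mul_le_mul_of_nonneg_right h5 hν2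
      _ = nu M2 w := one_mul _
  have hE : 0 ≤ 8 * √ρ + 16 * ρ := by positivity
  have hAB : 0 ≤ (8 * √ρ + 16 * ρ) * (√A * √B) :=
    mul_nonneg hE (mul_nonneg (Real.sqrt_nonneg _) (Real.sqrt_nonneg _))
  calc _ ≤ (w * nu M2 w * nu M2 w * θ e0) * ((8 * √ρ + 16 * ρ) * (√A * √B)) := by
        refine mul_le_mul_of_nonneg_left ?_
          (mul_nonneg (mul_nonneg (mul_nonneg hwR.le hν2) hν2) (hθ0 _))
        convert hmain using 6
    _ ≤ nu M2 w * ((8 * √ρ + 16 * ρ) * (√A * √B)) := mul_le_mul_of_nonneg_right hkey hAB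
    _ = _ := by ring

/-- **(III')**: non-pure good pairs, one cut, all windows at once, functions with values in `[0,1]` -/
theorem nonpureS_fl (F : FL M) (hM : 0 < M) (X0 : ℕ) {ρ : ℝ} (hρ0 : 0 ≤ ρ)
    (hρ : ∀ i, 1 ≤ i → ((M.divisors.filter (fun l => Nat.log 2 l = i ∧ Rgh X0 l)).card : ℝ) ≤
      ρ * 2 ^ i)
    (θ : ℕ → ℝ) (hθ0 : ∀ e, 0 ≤ θ e)
    (hθ : ∀ e, e ∣ low X0 M → θ e * ((e : ℝ) * nu (low X0 M) e) ≤ 1)
    (f g : ℕ → ℝ) (hf : ∀ b, 0 ≤ f b) (hg : ∀ b, 0 ≤ g b) (hf1 : ∀ b, f b ≤ 1)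
    (hg1 : ∀ b, g b ≤ 1) :
    ∑ b ∈ M.divisors, ∑ c ∈ M.divisors, tmS F X0 θ f g b c ≤
      (8 * √ρ + 16 * ρ) * (√(∑ b ∈ M.divisors, nu M b * f b) *
        √(∑ b ∈ M.divisors, nu M b * g b)) := by
  set I := M.divisors.image (lab F X0) with hI
  have hmap : ∀ b ∈ M.divisors, lab F X0 b ∈ I := fun b hb => Finset.mem_image_of_mem _ hb
  have e1 : ∑ b ∈ M.divisors, ∑ c ∈ M.divisors, tmS F X0 θ f g b c =
      ∑ k ∈ I, ∑ b ∈ M.divisors.filter (fun b => lab F X0 b = k),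
        ∑ c ∈ M.divisors.filter (fun b => lab F X0 b = k), tmS F X0 θ f g b c := by
    rw [← Finset.sum_fiberwise_of_maps_to hmap]
    refine Finset.sum_congr rfl fun k _ => Finset.sum_congr rfl fun b hb => ?_
    rw [Finset.mem_filter] at hb
    rw [Finset.sum_filter]
    refine Finset.sum_congr rfl fun c hc => ?_
    by_cases h : lab F X0 c = k
    · rw [if_pos h]
    · rw [if_neg h]
      unfold tmS
      rw [if_neg]
      rintro ⟨h3, h4, _⟩
      apply h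
      rw [← hb.2]
      exact (lab_eq (Nat.dvd_of_mem_divisors hb.1) (Nat.dvd_of_mem_divisors hc) h3 h4.1).symm
  rw [e1]
  set A : ℕ × (ℕ → Option ℕ × ℕ) → ℝ := fun k =>
    ∑ b ∈ M.divisors.filter (fun b => lab F X0 b = k), nu M b * f b with hA
  set B : ℕ × (ℕ → Option ℕ × ℕ) → ℝ := fun k =>
    ∑ b ∈ M.divisors.filter (fun b => lab F X0 b = k), nu M b * g b with hB
  have hA0 : ∀ k, 0 ≤ A k := fun k =>
    Finset.sum_nonneg fun z _ => mul_nonneg (nu_nonneg _ _) (hf z)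
  have hB0 : ∀ k, 0 ≤ B k := fun k =>
    Finset.sum_nonneg fun z _ => mul_nonneg (nu_nonneg _ _) (hg z)
  have h1 : ∀ k ∈ I, ∑ b ∈ M.divisors.filter (fun b => lab F X0 b = k),
        ∑ c ∈ M.divisors.filter (fun b => lab F X0 b = k), tmS F X0 θ f g b c ≤
        (8 * √ρ + 16 * ρ) * (√(A k) * √(B k)) := by
    intro k hk
    rw [hI, Finset.mem_image] at hk
    obtain ⟨b0, hb0, rfl⟩ := hk
    exact class_energyS hM (Nat.dvd_of_mem_divisors hb0) hρ0 hρ θ hθ0 hθ f g hf hg hf1 hg1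
  refine (Finset.sum_le_sum h1).trans ?_
  rw [← Finset.mul_sum]
  refine mul_le_mul_of_nonneg_left ?_ (by positivity)
  have hsA : ∑ k ∈ I, A k = ∑ b ∈ M.divisors, nu M b * f b :=
    Finset.sum_fiberwise_of_maps_to hmap _
  have hsB : ∑ k ∈ I, B k = ∑ b ∈ M.divisors, nu M b * g b :=
    Finset.sum_fiberwise_of_maps_to hmap _
  refine (Real.sum_mul_le_sqrt_mul_sqrt _ _ _).trans (le_of_eq ?_)
  rw [← hsA, ← hsB]
  congr 1
  · congr 1
    exact Finset.sum_congr rfl fun k _ => Real.sq_sqrt (hA0 k)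
  · congr 1
    exact Finset.sum_congr rfl fun k _ => Real.sq_sqrt (hB0 k)

end FLpart

/-- (III') with the rough count inserted -/
theorem nonpureS_fl_log : ∃ C : ℝ, 0 < C ∧ ∀ (M : ℕ) (F : FL M), 0 < M → ∀ X0 : ℕ, 2 ≤ X0 →
    ∀ θ : ℕ → ℝ, (∀ e, 0 ≤ θ e) → (∀ e, e ∣ low X0 M → θ e * ((e : ℝ) * nu (low X0 M) e) ≤ 1) →
    ∀ (f g : ℕ → ℝ), (∀ b, 0 ≤ f b) → (∀ b, 0 ≤ g b) → (∀ b, f b ≤ 1) → (∀ b, g b ≤ 1) →
    ∑ b ∈ M.divisors, ∑ c ∈ M.divisors, tmS F X0 θ f g b c ≤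
      C * (Real.log X0) ^ (-(1 / 2 : ℝ)) * (√(∑ b ∈ M.divisors, nu M b * f b) *
        √(∑ b ∈ M.divisors, nu M b * g b)) := by
  obtain ⟨C, hC, h⟩ := rough_rho
  have hl2 : 0 < Real.log 2 := Real.log_pos (by norm_num)
  refine ⟨(8 + 16 * √(C / Real.log 2)) * √C, by positivity,
    fun M F hM X0 hx θ hθ0 hθ f g hf hg hf1 hg1 => ?_⟩
  have hx' : (2 : ℝ) ≤ (X0 : ℝ) := by exact_mod_cast hx
  have hlog : 0 < Real.log X0 := Real.log_pos (by linarith)
  have hll : Real.log 2 ≤ Real.log X0 := Real.log_le_log (by norm_num) hx'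
  have hρ0 : 0 ≤ C / Real.log X0 := by positivity
  refine (nonpureS_fl F hM X0 hρ0 (h M X0 hx) θ hθ0 hθ f g hf hg hf1 hg1).trans ?_
  refine mul_le_mul_of_nonneg_right ?_ (mul_nonneg (Real.sqrt_nonneg _) (Real.sqrt_nonneg _))
  have h2 : √(C / Real.log X0) = √C * (Real.log X0) ^ (-(1 / 2 : ℝ)) := by
    rw [Real.sqrt_div hC.le, Real.rpow_neg hlog.le, ← Real.sqrt_eq_rpow]
    rfl
  have h3 : C / Real.log X0 = √(C / Real.log X0) * √(C / Real.log X0) :=
    (Real.mul_self_sqrt hρ0).symm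
  have h4 : √(C / Real.log X0) ≤ √(C / Real.log 2) :=
    Real.sqrt_le_sqrt (div_le_div_of_nonneg_left hC.le hl2 hll)
  have h5 : 0 ≤ √(C / Real.log X0) := Real.sqrt_nonneg _
  calc 8 * √(C / Real.log X0) + 16 * (C / Real.log X0)
      = 8 * √(C / Real.log X0) + 16 * (√(C / Real.log X0) * √(C / Real.log X0)) := by
        rw [← h3]
    _ ≤ 8 * √(C / Real.log X0) + 16 * (√(C / Real.log 2) * √(C / Real.log X0)) := by
        have := mul_le_mul_of_nonneg_right h4 h5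
        linarith
    _ = (8 + 16 * √(C / Real.log 2)) * √(C / Real.log X0) := by ring
    _ = _ := by rw [h2]; ring

/-! ### all blocks together -/

/-- cut at the bottom of the block `j` -/
def Xj (j : ℕ) : ℕ := 2 ^ (2 ^ j) - 1

/-- the smallest prime with different letters is in the block `j`, i.e. in `(Xj j, Xj (j+1)]` -/
def Blk (j b c : ℕ) : Prop :=
  (∀ q, q.Prime → q ≤ Xj j → b.factorization q = c.factorization q) ∧
    ∃ q, q.Prime ∧ q ≤ Xj (j + 1) ∧ b.factorization q ≠ c.factorization q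

/-- non-pure good pair of the block `j` -/
def NP {M : ℕ} (F : FL M) (j b c : ℕ) : Prop :=
  Blk j b c ∧ F.good (Xj j) b c ∧ ¬ (F.ell (Xj j) b = 1 ∧ F.ell (Xj j) c = 1)

lemma two_pow_pos (j : ℕ) : 1 ≤ 2 ^ (2 ^ j) := Nat.one_le_two_pow

lemma Xj_ge {j : ℕ} : 2 ^ (2 ^ j - 1) ≤ Xj j := by
  unfold Xj
  have h1 : 1 ≤ 2 ^ j := Nat.one_le_two_pow
  obtain ⟨k, hk⟩ : ∃ k, 2 ^ j = k + 1 := ⟨2 ^ j - 1, by omega⟩
  rw [hk, Nat.add_sub_cancel, pow_succ]
  have : 1 ≤ 2 ^ k := Nat.one_le_two_pow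
  omega

lemma Xj_two {j : ℕ} (hj : 1 ≤ j) : 2 ≤ Xj j := by
  have h1 : 2 ≤ 2 ^ j := by
    calc 2 = 2 ^ 1 := by norm_num
      _ ≤ 2 ^ j := Nat.pow_le_pow_right (by norm_num) hj
  calc 2 = 2 ^ 1 := by norm_num
    _ ≤ 2 ^ (2 ^ j - 1) := Nat.pow_le_pow_right (by norm_num) (by omega)
    _ ≤ Xj j := Xj_ge

lemma log_Xj {j : ℕ} (hj : 1 ≤ j) : 2 ^ j * (Real.log 2 / 2) ≤ Real.log (Xj j) := by
  have h1 : 2 ≤ 2 ^ j := by
    calc 2 = 2 ^ 1 := by norm_num
      _ ≤ 2 ^ j := Nat.pow_le_pow_right (by norm_num) hj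
  have h2 : ((2 : ℝ) ^ (2 ^ j - 1)) ≤ (Xj j : ℝ) := by exact_mod_cast Xj_ge (j := j)
  have h3 : Real.log ((2 : ℝ) ^ (2 ^ j - 1)) ≤ Real.log (Xj j) :=
    Real.log_le_log (by positivity) h2
  rw [Real.log_pow] at h3
  refine le_trans ?_ h3
  have h4 : ((2 ^ j - 1 : ℕ) : ℝ) = 2 ^ j - 1 := by
    rw [Nat.cast_sub (by omega)]; push_cast; ring
  rw [h4]
  have h5 : (2 : ℝ) ≤ 2 ^ j := by exact_mod_cast h1
  have hl2 : 0 < Real.log 2 := Real.log_pos (by norm_num)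
  nlinarith

lemma low_eq_of {x b c : ℕ} (h : ∀ q, q.Prime → q ≤ x → b.factorization q = c.factorization q) :
    low x b = low x c := by
  refine Nat.eq_of_factorization_eq (low_pos _ _).ne' (low_pos _ _).ne' fun p => ?_
  rw [fact_low, fact_low]
  by_cases hp : p ≤ x
  · rw [if_pos hp, if_pos hp]
    by_cases hpp : p.Prime
    · exact h p hpp hp
    · rw [Nat.factorization_eq_zero_of_not_prime _ hpp, Nat.factorization_eq_zero_of_not_prime _ hpp]
  · rw [if_neg hp, if_neg hp]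

lemma blk_lt {M j b c : ℕ} (hM : 0 < M) (hb : b ∣ M) (hc : c ∣ M) (h : Blk j b c) : j < M + 1 := by
  obtain ⟨h1, q, hq, _, hne⟩ := h
  have hqx : Xj j < q := by
    by_contra hcon
    exact hne (h1 q hq (by omega))
  have hqM : q ≤ M := by
    by_contra hcon
    apply hne
    have e : ∀ n, n ∣ M → n.factorization q = 0 := fun n hn =>
      Nat.factorization_eq_zero_of_not_dvd fun hd =>
        hcon (Nat.le_of_dvd hM (hd.trans hn))
    rw [e b hb, e c hc]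
  have h3 : j < 2 ^ j := Nat.lt_two_pow_self
  have h4 : 2 ^ j < 2 ^ (2 ^ j) := Nat.lt_two_pow_self
  unfold Xj at hqx
  omega

/-- the extremal weight of the low part -/
noncomputable def thx (M x e : ℕ) : ℝ :=
  if e ∣ low x M then ((e : ℝ) * nu (low x M) e)⁻¹ else 0

lemma thx_nonneg (M x e : ℕ) : 0 ≤ thx M x e := by
  unfold thx
  split_ifs
  · exact inv_nonneg.2 (mul_nonneg (by positivity) (nu_nonneg _ _))
  · exact le_rfl

lemma thx_mul {M x e : ℕ} (he : e ∣ low x M) : thx M x e * ((e : ℝ) * nu (low x M) e) ≤ 1 := by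
  unfold thx
  rw [if_pos he]
  exact inv_mul_le_one

/-- **all non-pure good pairs of the blocks `j ≥ j0`**, arbitrary weight `W ≤ 1 / V_{low}` -/
theorem nonpureS_blocks : ∃ C : ℝ, 0 < C ∧ ∀ (M : ℕ) (F : FL M), 0 < M → ∀ j0 : ℕ, 1 ≤ j0 →
    ∀ W : ℕ → ℕ → ℝ,
    (∀ j, j0 ≤ j → ∀ b c, b ∣ M → c ∣ M → NP F j b c →
      W b c * ((low (Xj j) b : ℝ) * nu (low (Xj j) M) (low (Xj j) b)) ≤ 1) →
    ∀ (f g : ℕ → ℝ), (∀ b, 0 ≤ f b) → (∀ b, 0 ≤ g b) → (∀ b, f b ≤ 1) → (∀ b, g b ≤ 1) →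
    ∑ b ∈ M.divisors, ∑ c ∈ M.divisors, (if ∃ j, j0 ≤ j ∧ NP F j b c then
        (Nat.gcd b c : ℝ) * nu M b * nu M c * (f b * g c) * W b c else 0) ≤
      C * ((√2)⁻¹) ^ j0 * (√(∑ b ∈ M.divisors, nu M b * f b) *
        √(∑ b ∈ M.divisors, nu M b * g b)) := by
  obtain ⟨C, hC, h⟩ := nonpureS_fl_log
  have hl2 : 0 < Real.log 2 := Real.log_pos (by norm_num)
  set r : ℝ := (√2)⁻¹ with hr
  have hs2 : 1 < √2 := by
    rw [← Real.sqrt_one]; exact Real.sqrt_lt_sqrt (by norm_num) (by norm_num)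
  have hr0 : 0 < r := by positivity
  have hr1 : r < 1 := inv_lt_one_of_one_lt₀ hs2
  set K : ℝ := (√(Real.log 2 / 2))⁻¹ with hK
  have hK0 : 0 < K := by positivity
  refine ⟨C * K * (1 - r)⁻¹, by
    have : 0 < 1 - r := by linarith
    positivity, fun M F hM j0 hj0 W hW f g hf hg hf1 hg1 => ?_⟩
  set D := √(∑ b ∈ M.divisors, nu M b * f b) * √(∑ b ∈ M.divisors, nu M b * g b) with hD
  have hD0 : 0 ≤ D := mul_nonneg (Real.sqrt_nonneg _) (Real.sqrt_nonneg _)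
  have hterm : ∀ b ∈ M.divisors, ∀ c ∈ M.divisors, (if ∃ j, j0 ≤ j ∧ NP F j b c then
        (Nat.gcd b c : ℝ) * nu M b * nu M c * (f b * g c) * W b c else 0) ≤
      ∑ j ∈ Finset.Ico j0 (M + 1), tmS F (Xj j) (thx M (Xj j)) f g b c := by
    intro b hb c hc
    have hbM := Nat.dvd_of_mem_divisors hb
    have hcM := Nat.dvd_of_mem_divisors hc
    have hpos : ∀ j, 0 ≤ tmS F (Xj j) (thx M (Xj j)) f g b c := by
      intro j
      unfold tmS
      split_ifs
      · exact mul_nonneg (mul_nonneg (mul_nonneg (mul_nonneg (by positivity) (nu_nonneg _ _))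
          (nu_nonneg _ _)) (mul_nonneg (hf _) (hg _))) (thx_nonneg _ _ _)
      · exact le_rfl
    by_cases hex : ∃ j, j0 ≤ j ∧ NP F j b c
    · rw [if_pos hex]
      obtain ⟨j, hj, hNP⟩ := hex
      have hjm : j ∈ Finset.Ico j0 (M + 1) :=
        Finset.mem_Ico.2 ⟨hj, blk_lt hM hbM hcM hNP.1⟩
      refine le_trans ?_ (Finset.single_le_sum (fun j _ => hpos j) hjm)
      unfold tmS
      rw [if_pos ⟨low_eq_of hNP.1.1, hNP.2.1, hNP.2.2⟩]
      refine mul_le_mul_of_nonneg_left ?_ (mul_nonneg (mul_nonneg (mul_nonneg (by positivity)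
        (nu_nonneg _ _)) (nu_nonneg _ _)) (mul_nonneg (hf _) (hg _)))
      have hlM : low (Xj j) b ∣ low (Xj j) M := low_dvd _ hM.ne' hbM
      unfold thx
      rw [if_pos hlM]
      have hlow0 : 0 < low (Xj j) M := low_pos _ _
      have hv : 0 < (low (Xj j) b : ℝ) * nu (low (Xj j) M) (low (Xj j) b) :=
        mul_pos (by exact_mod_cast low_pos _ _) (nu_pos hlow0 hlM)
      have := hW j hj b c hbM hcM hNP
      rw [← one_div, le_div_iff₀ hv]
      exact this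
    · rw [if_neg hex]
      exact Finset.sum_nonneg fun j _ => hpos j
  refine (Finset.sum_le_sum fun b hb => Finset.sum_le_sum fun c hc => hterm b hb c hc).trans ?_
  have hswap : ∑ b ∈ M.divisors, ∑ c ∈ M.divisors,
      ∑ j ∈ Finset.Ico j0 (M + 1), tmS F (Xj j) (thx M (Xj j)) f g b c =
      ∑ j ∈ Finset.Ico j0 (M + 1), ∑ b ∈ M.divisors, ∑ c ∈ M.divisors,
        tmS F (Xj j) (thx M (Xj j)) f g b c := by
    rw [Finset.sum_congr rfl fun b _ => Finset.sum_comm, Finset.sum_comm]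
  rw [hswap]
  have hj : ∀ j ∈ Finset.Ico j0 (M + 1), ∑ b ∈ M.divisors, ∑ c ∈ M.divisors,
      tmS F (Xj j) (thx M (Xj j)) f g b c ≤ (C * K * D) * r ^ j := by
    intro j hj
    rw [Finset.mem_Ico] at hj
    have hj1 : 1 ≤ j := by omega
    refine (h M F hM (Xj j) (Xj_two hj1) (thx M (Xj j)) (fun e => thx_nonneg _ _ _)
      (fun e he => thx_mul he) f g hf hg hf1 hg1).trans ?_
    have hlX : 0 < Real.log (Xj j) := lt_of_lt_of_le (by positivity) (log_Xj hj1)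
    have h1 : (Real.log (Xj j)) ^ (-(1 / 2 : ℝ)) ≤ K * r ^ j := by
      rw [Real.rpow_neg hlX.le, ← Real.sqrt_eq_rpow]
      have h2 : √(2 ^ j * (Real.log 2 / 2)) ≤ √(Real.log (Xj j)) := Real.sqrt_le_sqrt (log_Xj hj1)
      have h3 : √((2 : ℝ) ^ j * (Real.log 2 / 2)) = (√2) ^ j * √(Real.log 2 / 2) := by
        rw [Real.sqrt_mul (by positivity)]
        congr 1
        have : ((2 : ℝ) ^ j) = ((√2) ^ j) ^ 2 := by
          rw [← pow_mul, mul_comm, pow_mul, Real.sq_sqrt (by norm_num)]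
        rw [this, Real.sqrt_sq (by positivity)]
      rw [h3] at h2
      have h4 : 0 < (√2) ^ j * √(Real.log 2 / 2) := by positivity
      calc (√(Real.log (Xj j)))⁻¹ ≤ ((√2) ^ j * √(Real.log 2 / 2))⁻¹ :=
            inv_anti₀ h4 h2
        _ = K * r ^ j := by rw [mul_inv, hr, hK, inv_pow]; ring
    calc C * (Real.log (Xj j)) ^ (-(1 / 2 : ℝ)) * D ≤ C * (K * r ^ j) * D :=
          mul_le_mul_of_nonneg_right (mul_le_mul_of_nonneg_left h1 hC.le) hD0
      _ = (C * K * D) * r ^ j := by ring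
  refine (Finset.sum_le_sum hj).trans ?_
  rw [← Finset.mul_sum]
  have hgeo : ∑ j ∈ Finset.Ico j0 (M + 1), r ^ j ≤ r ^ j0 * (1 - r)⁻¹ := by
    rw [Finset.sum_Ico_eq_sum_range]
    have : ∀ k ∈ Finset.range (M + 1 - j0), r ^ (j0 + k) = r ^ j0 * r ^ k := fun k _ => pow_add _ _ _
    rw [Finset.sum_congr rfl this, ← Finset.mul_sum]
    refine mul_le_mul_of_nonneg_left ?_ (by positivity)
    exact sum_le_hasSum _ (fun n _ => pow_nonneg hr0.le n) (hasSum_geometric_of_lt_one hr0.le hr1)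
  calc C * K * D * ∑ j ∈ Finset.Ico j0 (M + 1), r ^ j
      ≤ C * K * D * (r ^ j0 * (1 - r)⁻¹) :=
        mul_le_mul_of_nonneg_left hgeo (by positivity)
    _ = _ := by ring

end Crest.Agent.R4C.NonPureBlkx559
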