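import Crest.Agent.R4C.FLSh_326
import Crest.Agent.R4C.NonPureBlk_559

/-!
# Row 4: the factor `B1` for the non-pure part (helper52)

* `weight_sets` : a kernel `K ≥ 0` with a bilinear bound for SETS
  (`∑_{b ∈ S, c ∈ S'} K b c ≤ E √(ν S · ν S')` for `S ⊆ B`, `S' ⊆ B'`) keeps it, up to the
  constant `16 C1`, when multiplied by `W b * W' c`, if `∑_B ν W^4 ≤ C1 ν B` (and `W'` on `B'`).
* `offW F X b` : product of `(1-1/p)⁻¹` over the off-centre primes `> X` of `b`;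
  `offW_moment` : fourth moment on `B` by `FLSh_326.def_bound`;
  `prod_diff_le` : for `F.good X b c` the product of `(1-1/p)⁻¹` over the differing primes `> X`
  is `≤ offW F X b * offW F X c`.
* `good_B1` : both together.
-/

set_option autoImplicit false

open Finset
open Crest.Agent.R4C.Basex935 Crest.Agent.R4C.Cutx50 Crest.Agent.R4C.FLDefx935
open Crest.Agent.R4C.BoostCx972 (pf pf_pos one_le_pf prod_pf_pos prod_pf_mono)
open Crest.Agent.R4C.FLShx326 (W W_prime Shares def_bound)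

namespace Crest.Agent.R4C.B1Levx52

/-! ### levels of the weight -/

/-- dyadic level of a number `≥ 1` -/
noncomputable def lv (x : ℝ) : ℕ := Nat.log 2 ⌊x⌋₊

lemma lv_le {x : ℝ} (hx : 1 ≤ x) : (2 : ℝ) ^ lv x ≤ x := by
  have h1 : ⌊x⌋₊ ≠ 0 := by
    have : 1 ≤ ⌊x⌋₊ := Nat.le_floor (by exact_mod_cast hx)
    omega
  have h2 : 2 ^ lv x ≤ ⌊x⌋₊ := Nat.pow_log_le_self 2 h1
  have h3 : ((2 ^ lv x : ℕ) : ℝ) ≤ (⌊x⌋₊ : ℝ) := by exact_mod_cast h2
  push_cast at h3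
  exact h3.trans (Nat.floor_le (by linarith))

lemma le_lv (x : ℝ) : x ≤ (2 : ℝ) ^ (lv x + 1) := by
  have h2 : ⌊x⌋₊ < 2 ^ (lv x + 1) := Nat.lt_pow_succ_log_self (by norm_num) _
  have h3 : ⌊x⌋₊ + 1 ≤ 2 ^ (lv x + 1) := h2
  have h4 : ((⌊x⌋₊ + 1 : ℕ) : ℝ) ≤ ((2 ^ (lv x + 1) : ℕ) : ℝ) := by exact_mod_cast h3
  push_cast at h4
  exact (Nat.lt_floor_add_one x).le.trans h4

lemma sum_half_le (N : ℕ) : ∑ k ∈ range N, (1 / 2 : ℝ) ^ k ≤ 2 := by
  rw [geom_sum_eq (by norm_num)]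
  have : (0 : ℝ) < (1 / 2) ^ N := by positivity
  rw [div_le_iff_of_neg (by norm_num)]
  linarith

/-- mass of a level -/
lemma level_mass {B : Finset ℕ} {ν w : ℕ → ℝ} {C1 : ℝ} (hν : ∀ b, 0 ≤ ν b)
    (hw1 : ∀ b ∈ B, 1 ≤ w b) (hw : ∑ b ∈ B, ν b * w b ^ 4 ≤ C1 * ∑ b ∈ B, ν b) (k : ℕ) :
    ∑ b ∈ B.filter (fun b => lv (w b) = k), ν b ≤
      C1 * (∑ b ∈ B, ν b) * ((1 / 2 : ℝ) ^ k) ^ 4 := by
  have h2 : (0 : ℝ) < ((2 : ℝ) ^ k) ^ 4 := by positivity
  have h1 : (∑ b ∈ B.filter (fun b => lv (w b) = k), ν b) * ((2 : ℝ) ^ k) ^ 4 ≤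
      C1 * ∑ b ∈ B, ν b := by
    refine le_trans ?_ hw
    rw [Finset.sum_mul]
    calc ∑ b ∈ B.filter (fun b => lv (w b) = k), ν b * ((2 : ℝ) ^ k) ^ 4
        ≤ ∑ b ∈ B.filter (fun b => lv (w b) = k), ν b * w b ^ 4 := by
          refine Finset.sum_le_sum fun b hb => ?_
          rw [Finset.mem_filter] at hb
          refine mul_le_mul_of_nonneg_left ?_ (hν b)
          refine pow_le_pow_left₀ (by positivity) ?_ 4
          rw [← hb.2]
          exact lv_le (hw1 b hb.1)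
      _ ≤ ∑ b ∈ B, ν b * w b ^ 4 := by
          refine Finset.sum_le_sum_of_subset_of_nonneg (Finset.filter_subset _ _) fun b hb _ => ?_
          have h3 : 0 ≤ w b := by linarith [hw1 b hb]
          exact mul_nonneg (hν b) (by positivity)
  have h3 : ((1 / 2 : ℝ) ^ k) ^ 4 = (((2 : ℝ) ^ k) ^ 4)⁻¹ := by
    rw [one_div, inv_pow, inv_pow]
  rw [h3, ← div_eq_mul_inv, le_div_iff₀ h2]
  exact h1

/-- **product weights on bilinear set bounds** -/
theorem weight_sets {B B' : Finset ℕ} {ν w w' : ℕ → ℝ} {K : ℕ → ℕ → ℝ} {E C1 : ℝ}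
    (hν : ∀ b, 0 ≤ ν b) (hK : ∀ b ∈ B, ∀ c ∈ B', 0 ≤ K b c) (hE : 0 ≤ E) (hC1 : 0 ≤ C1)
    (hset : ∀ S S' : Finset ℕ, S ⊆ B → S' ⊆ B' →
      ∑ b ∈ S, ∑ c ∈ S', K b c ≤ E * √((∑ b ∈ S, ν b) * ∑ c ∈ S', ν c))
    (hw1 : ∀ b ∈ B, 1 ≤ w b) (hw1' : ∀ b ∈ B', 1 ≤ w' b)
    (hw : ∑ b ∈ B, ν b * w b ^ 4 ≤ C1 * ∑ b ∈ B, ν b)
    (hw' : ∑ b ∈ B', ν b * w' b ^ 4 ≤ C1 * ∑ b ∈ B', ν b) :
    ∑ b ∈ B, ∑ c ∈ B', K b c * (w b * w' c) ≤
      16 * C1 * E * √((∑ b ∈ B, ν b) * ∑ c ∈ B', ν c) := by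
  classical
  set m := ∑ b ∈ B, ν b with hm
  set m' := ∑ b ∈ B', ν b with hm'
  have hm0 : 0 ≤ m := Finset.sum_nonneg fun b _ => hν b
  have hm0' : 0 ≤ m' := Finset.sum_nonneg fun b _ => hν b
  set N : ℕ := B.sup (fun b => lv (w b)) + 1 with hN
  set N' : ℕ := B'.sup (fun b => lv (w' b)) + 1 with hN'
  set S : ℕ → Finset ℕ := fun k => B.filter (fun b => lv (w b) = k) with hS
  set S' : ℕ → Finset ℕ := fun k => B'.filter (fun b => lv (w' b) = k) with hS'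
  have hBN : ∀ b ∈ B, lv (w b) ∈ range N := fun b hb =>
    Finset.mem_range.2 (Nat.lt_succ_of_le (Finset.le_sup (f := fun b => lv (w b)) hb))
  have hBN' : ∀ b ∈ B', lv (w' b) ∈ range N' := fun b hb =>
    Finset.mem_range.2 (Nat.lt_succ_of_le (Finset.le_sup (f := fun b => lv (w' b)) hb))
  -- split in levels
  have e1 : ∑ b ∈ B, ∑ c ∈ B', K b c * (w b * w' c) =
      ∑ k ∈ range N, ∑ k' ∈ range N', ∑ b ∈ S k, ∑ c ∈ S' k', K b c * (w b * w' c) := by
    calc ∑ b ∈ B, ∑ c ∈ B', K b c * (w b * w' c)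
        = ∑ k ∈ range N, ∑ b ∈ S k, ∑ c ∈ B', K b c * (w b * w' c) :=
          (Finset.sum_fiberwise_of_maps_to hBN _).symm
      _ = ∑ k ∈ range N, ∑ b ∈ S k, ∑ k' ∈ range N', ∑ c ∈ S' k', K b c * (w b * w' c) := by
          refine Finset.sum_congr rfl fun k _ => Finset.sum_congr rfl fun b _ => ?_
          exact (Finset.sum_fiberwise_of_maps_to hBN' _).symm
      _ = _ := Finset.sum_congr rfl fun k _ => Finset.sum_comm
  rw [e1]
  have e2 : ∀ k ∈ range N, ∀ k' ∈ range N',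
      ∑ b ∈ S k, ∑ c ∈ S' k', K b c * (w b * w' c) ≤
        (4 * C1 * E * √(m * m')) * ((1 / 2 : ℝ) ^ k * (1 / 2 : ℝ) ^ k') := by
    intro k _ k' _
    have h1 : ∑ b ∈ S k, ∑ c ∈ S' k', K b c * (w b * w' c) ≤
        ((2 : ℝ) ^ (k + 1) * 2 ^ (k' + 1)) * ∑ b ∈ S k, ∑ c ∈ S' k', K b c := by
      rw [Finset.mul_sum]
      refine Finset.sum_le_sum fun b hb => ?_
      rw [Finset.mul_sum]
      refine Finset.sum_le_sum fun c hc => ?_
      rw [hS, Finset.mem_filter] at hb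
      rw [hS', Finset.mem_filter] at hc
      rw [mul_comm (K b c)]
      refine mul_le_mul_of_nonneg_right ?_ (hK b hb.1 c hc.1)
      have h2 : 0 ≤ w b := by linarith [hw1 b hb.1]
      have h3 : 0 ≤ w' c := by linarith [hw1' c hc.1]
      refine mul_le_mul ?_ ?_ h3 (by positivity)
      · rw [← hb.2]; exact le_lv _
      · rw [← hc.2]; exact le_lv _
    refine h1.trans ?_
    have h4 := hset (S k) (S' k') (Finset.filter_subset _ _) (Finset.filter_subset _ _)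
    have h5 := level_mass hν hw1 hw k
    have h6 := level_mass hν hw1' hw' k'
    have h7 : (∑ b ∈ S k, ν b) * ∑ c ∈ S' k', ν c ≤
        (C1 * (((1 / 2 : ℝ) ^ k) ^ 2 * ((1 / 2 : ℝ) ^ k') ^ 2)) ^ 2 * (m * m') := by
      calc (∑ b ∈ S k, ν b) * ∑ c ∈ S' k', ν c
          ≤ (C1 * m * ((1 / 2 : ℝ) ^ k) ^ 4) * (C1 * m' * ((1 / 2 : ℝ) ^ k') ^ 4) :=
            mul_le_mul h5 h6 (Finset.sum_nonneg fun b _ => hν b) (by positivity)
        _ = _ := by ring
    have h8 : √((∑ b ∈ S k, ν b) * ∑ c ∈ S' k', ν c) ≤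
        C1 * (((1 / 2 : ℝ) ^ k) ^ 2 * ((1 / 2 : ℝ) ^ k') ^ 2) * √(m * m') := by
      refine (Real.sqrt_le_sqrt h7).trans (le_of_eq ?_)
      rw [Real.sqrt_mul (by positivity), Real.sqrt_sq (by positivity)]
    calc ((2 : ℝ) ^ (k + 1) * 2 ^ (k' + 1)) * ∑ b ∈ S k, ∑ c ∈ S' k', K b c
        ≤ ((2 : ℝ) ^ (k + 1) * 2 ^ (k' + 1)) *
          (E * (C1 * (((1 / 2 : ℝ) ^ k) ^ 2 * ((1 / 2 : ℝ) ^ k') ^ 2) * √(m * m'))) :=
          mul_le_mul_of_nonneg_left (h4.trans (mul_le_mul_of_nonneg_left h8 hE)) (by positivity)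
      _ = (4 * C1 * E * √(m * m')) * (((2 : ℝ) ^ k * (1 / 2) ^ k) * ((2 : ℝ) ^ k' * (1 / 2) ^ k')
          * ((1 / 2 : ℝ) ^ k * (1 / 2 : ℝ) ^ k')) := by
          rw [pow_succ, pow_succ]; ring
      _ = _ := by
          rw [← mul_pow, ← mul_pow]; norm_num
  calc ∑ k ∈ range N, ∑ k' ∈ range N', ∑ b ∈ S k, ∑ c ∈ S' k', K b c * (w b * w' c)
      ≤ ∑ k ∈ range N, ∑ k' ∈ range N',
        (4 * C1 * E * √(m * m')) * ((1 / 2 : ℝ) ^ k * (1 / 2 : ℝ) ^ k') :=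
        Finset.sum_le_sum fun k hk => Finset.sum_le_sum fun k' hk' => e2 k hk k' hk'
    _ = (4 * C1 * E * √(m * m')) *
        ((∑ k ∈ range N, (1 / 2 : ℝ) ^ k) * ∑ k' ∈ range N', (1 / 2 : ℝ) ^ k') := by
        have e3 : (∑ k ∈ range N, (1 / 2 : ℝ) ^ k) * ∑ k' ∈ range N', (1 / 2 : ℝ) ^ k' =
            ∑ k ∈ range N, ∑ k' ∈ range N', (1 / 2 : ℝ) ^ k * (1 / 2 : ℝ) ^ k' :=
          Finset.sum_mul_sum _ _ _ _
        rw [e3]
        generalize 4 * C1 * E * √(m * m') = a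
        rw [Finset.mul_sum]
        simp only [Finset.mul_sum]
    _ ≤ (4 * C1 * E * √(m * m')) * (2 * 2) := by
        refine mul_le_mul_of_nonneg_left ?_ (by positivity)
        exact mul_le_mul (sum_half_le N) (sum_half_le N')
          (Finset.sum_nonneg fun _ _ => by positivity) (by norm_num)
    _ = _ := by ring

/-! ### off-centre weight -/

/-- product of `(1-1/p)⁻¹` over the off-centre primes `> X` of `b` -/
noncomputable def offW {M : ℕ} (F : FL M) (X b : ℕ) : ℝ := ∏ p ∈ W F X b, pf p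

variable {M : ℕ} {F : FL M}

lemma one_le_offW (X b : ℕ) : 1 ≤ offW F X b := by
  unfold offW
  exact Finset.prod_induction pf (fun x => 1 ≤ x)
    (fun a b ha hb => one_le_mul_of_one_le_of_one_le ha hb) le_rfl
    fun p hp => one_le_pf (W_prime hp)

lemma offW_anti {X Y : ℕ} (h : X ≤ Y) (b : ℕ) : offW F Y b ≤ offW F X b := by
  classical
  unfold offW
  refine prod_pf_mono ?_ fun p hp => W_prime hp
  intro p hp
  unfold W at hp ⊢
  rw [Finset.mem_filter] at hp ⊢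
  exact ⟨hp.1, lt_of_le_of_lt h hp.2.1, hp.2.2⟩

/-- fourth moment on `B` -/
theorem offW_moment : ∃ C : ℝ, 0 ≤ C ∧ ∀ (M : ℕ) (F : FL M) (B : Finset ℕ) (A s : ℝ),
    Shares F B A s → 0 ≤ A → 3 / 4 ≤ s → ∀ X : ℕ,
      ∑ b ∈ B, nu M b * offW F X b ^ 4 ≤ (1 + C * A) * ∑ b ∈ B, nu M b := by
  obtain ⟨C, hC, h⟩ := def_bound 4
  refine ⟨C, hC, fun M F B A s hS hA hs X => ?_⟩
  have h1 := h M F B A s hS hA hs X
  have e : ∀ b, offW F X b ^ 4 = ∏ p ∈ W F X b, pf p ^ 4 := fun b => by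
    unfold offW
    rw [← Finset.prod_pow]
  simp only [e]
  refine h1.trans ?_
  refine mul_le_mul_of_nonneg_right ?_ (Finset.sum_nonneg fun b _ => nu_nonneg M b)
  have h2 : ((X : ℝ) + 1) ^ (-(1 / 4) : ℝ) ≤ 1 :=
    Real.rpow_le_one_of_one_le_of_nonpos (by have : (0 : ℝ) ≤ X := Nat.cast_nonneg X; linarith)
      (by norm_num)
  have h3 : 0 ≤ C * A := mul_nonneg hC hA
  nlinarith

/-- a differing prime `> X` of a good pair is off-centre for one of the members -/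
lemma diff_mem {X b c p : ℕ} (hM : 0 < M) (hb : b ∣ M) (hc : c ∣ M) (h : F.good X b c)
    (hp : p.Prime) (hX : X < p) (hd : b.factorization p ≠ c.factorization p) :
    p ∈ W F X b ∪ W F X c := by
  classical
  have hpM : p ∈ M.primeFactors := by
    by_contra hn
    apply hd
    rw [FL.fact_zero hM hb hn, FL.fact_zero hM hc hn]
  have hctr : F.ctr b p = F.ctr c p := FL.ctr_eq hb hc h.1 hp hX.le
  cases hv : F.ctr b p with
  | none => exact absurd (h.1 p hp hX hv) hd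
  | some v =>
    have hv' : F.ctr c p = some v := by rw [← hctr]; exact hv
    rw [Finset.mem_union]
    unfold W
    rw [Finset.mem_filter, Finset.mem_filter]
    rcases h.2 p hp hX v hv with h1 | h1
    · right
      exact ⟨hpM, hX, v, hv', fun h2 => hd (h1.trans h2.symm)⟩
    · left
      exact ⟨hpM, hX, v, hv, fun h2 => hd (h2.trans h1.symm)⟩

/-- **pointwise bound of the boost of the differing primes `> X`** -/
lemma prod_diff_le {X b c : ℕ} (hM : 0 < M) (hb : b ∣ M) (hc : c ∣ M) (h : F.good X b c)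
    {P : Finset ℕ} (hP : ∀ p ∈ P, p.Prime ∧ X < p ∧ b.factorization p ≠ c.factorization p) :
    ∏ p ∈ P, pf p ≤ offW F X b * offW F X c := by
  classical
  have h1 : P ⊆ W F X b ∪ W F X c := fun p hp =>
    diff_mem hM hb hc h (hP p hp).1 (hP p hp).2.1 (hP p hp).2.2
  have hU : ∀ p ∈ W F X b ∪ W F X c, p.Prime := by
    intro p hp
    rcases Finset.mem_union.1 hp with h2 | h2 <;> exact W_prime h2
  refine (prod_pf_mono h1 hU).trans ?_
  unfold offW
  have h3 : W F X b ∪ W F X c = W F X b ∪ (W F X c \ W F X b) := by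
    rw [Finset.union_sdiff_self_eq_union]
  rw [h3, Finset.prod_union Finset.disjoint_sdiff]
  refine mul_le_mul_of_nonneg_left ?_ (prod_pf_pos fun p hp => W_prime hp).le
  exact prod_pf_mono Finset.sdiff_subset fun p hp => W_prime hp

/-- a prime of `(b/g)(c/g)` is a differing prime -/
lemma diff_of_dvd {b c p : ℕ} (hb : 0 < b) (hc : 0 < c) (hp : p.Prime)
    (h : p ∣ (b / Nat.gcd b c) * (c / Nat.gcd b c)) : b.factorization p ≠ c.factorization p := by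
  intro he
  have hg : 0 < Nat.gcd b c := Nat.gcd_pos_of_pos_left _ hb
  have hgf : (Nat.gcd b c).factorization p = b.factorization p := by
    rw [Nat.factorization_gcd hb.ne' hc.ne', Finsupp.inf_apply, he, min_self]
  rcases (Nat.Prime.dvd_mul hp).1 h with h1 | h1
  · have h2 := (hp.dvd_iff_one_le_factorization (Nat.div_pos (Nat.le_of_dvd hb
      (Nat.gcd_dvd_left b c)) hg).ne').1 h1
    rw [Nat.factorization_div (Nat.gcd_dvd_left b c), Finsupp.tsub_apply, hgf] at h2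
    omega
  · have h2 := (hp.dvd_iff_one_le_factorization (Nat.div_pos (Nat.le_of_dvd hc
      (Nat.gcd_dvd_right b c)) hg).ne').1 h1
    rw [Nat.factorization_div (Nat.gcd_dvd_right b c), Finsupp.tsub_apply, hgf, he] at h2
    omega

open Classical in
/-- the boost of the differing primes `> X` -/
noncomputable def B1 (X b c : ℕ) : ℝ :=
  ∏ p ∈ ((b / Nat.gcd b c) * (c / Nat.gcd b c)).primeFactors.filter (fun p => X < p), pf p

lemma B1_nonneg (X b c : ℕ) : 0 ≤ B1 X b c := by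
  classical
  unfold B1
  exact (prod_pf_pos fun p hp =>
    Nat.prime_of_mem_primeFactors (Finset.mem_filter.1 hp).1).le

lemma B1_le {X b c : ℕ} (hM : 0 < M) (hb : b ∣ M) (hc : c ∣ M) (h : F.good X b c) :
    B1 X b c ≤ offW F X b * offW F X c := by
  classical
  unfold B1
  refine prod_diff_le hM hb hc h fun p hp => ?_
  rw [Finset.mem_filter] at hp
  have hpp := Nat.prime_of_mem_primeFactors hp.1
  exact ⟨hpp, hp.2, diff_of_dvd (Nat.pos_of_dvd_of_pos hb hM) (Nat.pos_of_dvd_of_pos hc hM) hpp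
    (Nat.dvd_of_mem_primeFactors hp.1)⟩

/-- set bound from the bound for functions in `[0,1]` (50's form) -/
lemma set_of_fun {B B' : Finset ℕ} {K : ℕ → ℕ → ℝ} {E : ℝ} (hB : B ⊆ M.divisors)
    (hB' : B' ⊆ M.divisors)
    (h : ∀ f g : ℕ → ℝ, (∀ b, 0 ≤ f b) → (∀ b, 0 ≤ g b) → (∀ b, f b ≤ 1) → (∀ b, g b ≤ 1) →
      ∑ b ∈ M.divisors, ∑ c ∈ M.divisors, K b c * (f b * g c) ≤
        E * (√(∑ b ∈ M.divisors, nu M b * f b) * √(∑ b ∈ M.divisors, nu M b * g b))) :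
    ∀ S S' : Finset ℕ, S ⊆ B → S' ⊆ B' →
      ∑ b ∈ S, ∑ c ∈ S', K b c ≤ E * √((∑ b ∈ S, nu M b) * ∑ c ∈ S', nu M c) := by
  classical
  intro S S' hS hS'
  have h1 := h (fun b => if b ∈ S then 1 else 0) (fun c => if c ∈ S' then 1 else 0)
    (fun b => by split_ifs <;> norm_num) (fun b => by split_ifs <;> norm_num)
    (fun b => by split_ifs <;> norm_num) (fun b => by split_ifs <;> norm_num)
  have e0 : ∀ T : Finset ℕ, T ⊆ M.divisors →
      ∑ b ∈ M.divisors, nu M b * (if b ∈ T then (1 : ℝ) else 0) = ∑ b ∈ T, nu M b := by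
    intro T hT
    simp only [mul_ite, mul_one, mul_zero]
    rw [← Finset.sum_filter]
    congr 1
    ext b
    simp only [Finset.mem_filter]
    exact ⟨fun hb => hb.2, fun hb => ⟨hT hb, hb⟩⟩
  have e1 : ∑ b ∈ M.divisors, ∑ c ∈ M.divisors,
      K b c * ((if b ∈ S then (1 : ℝ) else 0) * (if c ∈ S' then (1 : ℝ) else 0)) =
      ∑ b ∈ S, ∑ c ∈ S', K b c := by
    rw [← Finset.sum_subset (hS.trans hB)]
    · refine Finset.sum_congr rfl fun b hb => ?_
      rw [← Finset.sum_subset (hS'.trans hB')]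
      · refine Finset.sum_congr rfl fun c hc => ?_
        rw [if_pos hb, if_pos hc]; ring
      · intro c _ hc
        rw [if_neg hc]; ring
    · intro b _ hb
      refine Finset.sum_eq_zero fun c _ => ?_
      rw [if_neg hb]; ring
  simp only [e0 S (hS.trans hB), e0 S' (hS'.trans hB')] at h1
  rw [e1] at h1
  rw [Real.sqrt_mul (Finset.sum_nonneg fun b _ => nu_nonneg M b)]
  exact h1

/-- **`B1` costs an absolute constant on every class of good pairs with a bilinear set bound.** -/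
theorem good_B1 : ∃ C : ℝ, 0 ≤ C ∧ ∀ (M : ℕ) (F : FL M) (B : Finset ℕ) (A s : ℝ), 0 < M →
    B ⊆ M.divisors → Shares F B A s → 0 ≤ A → 3 / 4 ≤ s →
    ∀ (X : ℕ) (K : ℕ → ℕ → ℝ) (E : ℝ), 0 ≤ E → (∀ b ∈ B, ∀ c ∈ B, 0 ≤ K b c) →
      (∀ b ∈ B, ∀ c ∈ B, K b c ≠ 0 → F.good X b c) →
      (∀ S S' : Finset ℕ, S ⊆ B → S' ⊆ B →
        ∑ b ∈ S, ∑ c ∈ S', K b c ≤ E * √((∑ b ∈ S, nu M b) * ∑ c ∈ S', nu M c)) →
      ∑ b ∈ B, ∑ c ∈ B, K b c * B1 X b c ≤ 16 * (1 + C * A) * E * ∑ b ∈ B, nu M b := by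
  obtain ⟨C, hC, hmom⟩ := offW_moment
  refine ⟨C, hC, fun M F B A s hM hB hS hA hs X K E hE hK hgood hset => ?_⟩
  have hm0 : 0 ≤ ∑ b ∈ B, nu M b := Finset.sum_nonneg fun b _ => nu_nonneg M b
  have h1 := weight_sets (B := B) (B' := B) (ν := nu M) (w := offW F X) (w' := offW F X)
    (C1 := 1 + C * A) (nu_nonneg M) hK hE (by positivity) hset (fun b _ => one_le_offW X b)
    (fun b _ => one_le_offW X b) (hmom M F B A s hS hA hs X) (hmom M F B A s hS hA hs X)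
  rw [Real.sqrt_mul_self hm0] at h1
  refine le_trans (Finset.sum_le_sum fun b hb => Finset.sum_le_sum fun c hc => ?_) h1
  rcases eq_or_ne (K b c) 0 with h0 | h0
  · rw [h0, zero_mul, zero_mul]
  · exact mul_le_mul_of_nonneg_left (B1_le hM (Nat.dvd_of_mem_divisors (hB hb))
      (Nat.dvd_of_mem_divisors (hB hc)) (hgood b hb c hc h0)) (hK b hb c hc)

end Crest.Agent.R4C.B1Levx52
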