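import Crest.Agent.R4C.Base_935

/-!
# MX: Theorem C with a low relation (row 4, note 2832 (A)), helper946

* `mx_core`  : abstract finite form (levels of the low mass, dyadic low gcd, Schur test)
* `mx`       : `M = M0 * M1`, sets `B`, `B'` of divisors of `M`, relation `Rel`;
  inputs: low HVW with relation (exponent `ρ`), high bilinear Theorem C (exponent `η < ρ - 1/2`).
-/

set_option autoImplicit false

namespace Crest.Agent.R4C.MXx946

open Finset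

/-! ### geometric sums over finite sets of integers -/

lemma geo_sum {r : ℝ} (hr0 : 0 ≤ r) (hr : r < 1) (T : Finset ℤ) (J : ℤ) (hT : ∀ j ∈ T, j ≤ J) :
    ∑ j ∈ T, r ^ (J - j).toNat ≤ (1 - r)⁻¹ := by
  classical
  have hinj : Set.InjOn (fun j : ℤ => (J - j).toNat) T := by
    intro a ha b hb hab
    have h1 := hT a ha
    have h2 := hT b hb
    simp only at hab
    omega
  have h1 : ∑ j ∈ T, r ^ (J - j).toNat = ∑ n ∈ T.image (fun j : ℤ => (J - j).toNat), r ^ n := by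
    rw [Finset.sum_image hinj]
  rw [h1]
  exact sum_le_hasSum _ (fun n _ => pow_nonneg hr0 n) (hasSum_geometric_of_lt_one hr0 hr)

/-- the level weight -/
noncomputable def g (α η : ℝ) (y : ℝ) : ℝ := y ^ α * (max 1 y⁻¹) ^ η

lemma g_nonneg {α η y : ℝ} (hy : 0 ≤ y) : 0 ≤ g α η y := by
  unfold g
  have : 0 ≤ max 1 y⁻¹ := le_max_of_le_left zero_le_one
  positivity

lemma g_neg {α η : ℝ} (j : ℤ) (hj : j < 0) :
    g α η ((2 : ℝ) ^ j) = ((2 : ℝ) ^ (-(α - η))) ^ (0 - j).toNat := by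
  have h2 : (0 : ℝ) < 2 := by norm_num
  have e1 : ((2 : ℝ) ^ j) = (2 : ℝ) ^ (j : ℝ) := (Real.rpow_intCast 2 j).symm
  have e2 : max 1 ((2 : ℝ) ^ j)⁻¹ = (2 : ℝ) ^ (-(j : ℝ)) := by
    rw [e1, ← Real.rpow_neg h2.le]
    apply max_eq_right
    rw [show (1 : ℝ) = (2 : ℝ) ^ (0 : ℝ) by simp]
    apply Real.rpow_le_rpow_of_exponent_le (by norm_num)
    have : (j : ℝ) < 0 := by exact_mod_cast hj
    linarith
  unfold g
  rw [e2, e1, ← Real.rpow_mul h2.le, ← Real.rpow_mul h2.le, ← Real.rpow_add h2, ← Real.rpow_natCast,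
    ← Real.rpow_mul h2.le]
  congr 1
  have h3 : (((0 - j).toNat : ℕ) : ℝ) = -(j : ℝ) := by
    have : (((0 - j).toNat : ℕ) : ℤ) = -j := by rw [Int.toNat_of_nonneg (by omega)]; ring
    have h4 : ((((0 - j).toNat : ℕ) : ℤ) : ℝ) = ((-j : ℤ) : ℝ) := by rw [this]
    push_cast at h4
    simpa using h4
  rw [h3]
  ring

lemma g_pos_le {α η K : ℝ} (hη : 0 ≤ η) (hαη : η < α) (hK : 1 ≤ K) (j : ℤ) (hj : 0 ≤ j)
    (hjK : (2 : ℝ) ^ j ≤ K) :
    g α η ((2 : ℝ) ^ j) ≤ K ^ α * ((2 : ℝ) ^ (-(α - η))) ^ (Int.log 2 K - j).toNat := by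
  have h2 : (0 : ℝ) < 2 := by norm_num
  have hα : 0 < α := lt_of_le_of_lt hη hαη
  have hK0 : 0 < K := lt_of_lt_of_le one_pos hK
  have hjJ : j ≤ Int.log 2 K := by
    have := (Int.zpow_le_iff_le_log (b := 2) (by norm_num) hK0 (x := j)).1 (by exact_mod_cast hjK)
    exact this
  have hJ : (2 : ℝ) ^ (Int.log 2 K) ≤ K := by
    have := Int.zpow_log_le_self (b := 2) (r := K) (by norm_num) hK0
    exact_mod_cast this
  have e1 : ((2 : ℝ) ^ j) = (2 : ℝ) ^ (j : ℝ) := (Real.rpow_intCast 2 j).symm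
  have e2 : max 1 ((2 : ℝ) ^ j)⁻¹ = 1 := by
    apply max_eq_left
    apply inv_le_one_of_one_le₀
    exact one_le_zpow₀ (by norm_num) hj
  unfold g
  rw [e2, Real.one_rpow, mul_one, e1, ← Real.rpow_mul h2.le, ← Real.rpow_natCast,
    ← Real.rpow_mul h2.le]
  have h3 : (((Int.log 2 K - j).toNat : ℕ) : ℝ) = (Int.log 2 K : ℝ) - j := by
    have : (((Int.log 2 K - j).toNat : ℕ) : ℤ) = Int.log 2 K - j := Int.toNat_of_nonneg (by omega)
    have h4 : ((((Int.log 2 K - j).toNat : ℕ) : ℤ) : ℝ) = ((Int.log 2 K - j : ℤ) : ℝ) := by rw [this]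
    push_cast at h4
    exact h4
  rw [h3]
  have h5 : (2 : ℝ) ^ ((Int.log 2 K : ℝ) * α) ≤ K ^ α := by
    rw [Real.rpow_mul h2.le, Real.rpow_intCast]
    exact Real.rpow_le_rpow (by positivity) hJ hα.le
  calc (2 : ℝ) ^ ((j : ℝ) * α)
      = (2 : ℝ) ^ ((Int.log 2 K : ℝ) * α) * (2 : ℝ) ^ (-(((Int.log 2 K : ℝ) - j) * α)) := by
        rw [← Real.rpow_add h2]; congr 1; ring
    _ ≤ K ^ α * (2 : ℝ) ^ (-(α - η) * ((Int.log 2 K : ℝ) - j)) := by
        apply mul_le_mul h5 _ (by positivity) (by positivity)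
        apply Real.rpow_le_rpow_of_exponent_le (by norm_num)
        have h6 : (0 : ℝ) ≤ (Int.log 2 K : ℝ) - j := by
          have : (j : ℝ) ≤ (Int.log 2 K : ℝ) := by exact_mod_cast hjJ
          linarith
        nlinarith [mul_nonneg hη h6]

/-- the truncated level weight -/
noncomputable def gK (α η K : ℝ) (j : ℤ) : ℝ := if (2 : ℝ) ^ j ≤ K then g α η ((2 : ℝ) ^ j) else 0

lemma gK_nonneg (α η K : ℝ) (j : ℤ) : 0 ≤ gK α η K j := by
  unfold gK
  split_ifs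
  · exact g_nonneg (by positivity)
  · exact le_rfl

/-- the constant of the Schur test -/
noncomputable def GK (α η K : ℝ) : ℝ := 2 * K ^ α / (1 - (2 : ℝ) ^ (-(α - η)))

lemma sum_gK {α η K : ℝ} (hη : 0 ≤ η) (hαη : η < α) (hK : 1 ≤ K) (T : Finset ℤ) :
    ∑ j ∈ T, gK α η K j ≤ GK α η K := by
  classical
  set r : ℝ := (2 : ℝ) ^ (-(α - η)) with hr
  have hr0 : 0 ≤ r := by positivity
  have hr1 : r < 1 := by
    rw [hr]
    apply Real.rpow_lt_one_of_one_lt_of_neg (by norm_num)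
    linarith
  have hK0 : 0 < K := lt_of_lt_of_le one_pos hK
  have hα : 0 < α := lt_of_le_of_lt hη hαη
  have hKα : 1 ≤ K ^ α := Real.one_le_rpow hK hα.le
  have h1r : 0 < (1 - r)⁻¹ := inv_pos.2 (by linarith)
  set T1 := T.filter (fun j => (2 : ℝ) ^ j ≤ K ∧ 0 ≤ j) with hT1
  set T2 := T.filter (fun j => j < 0) with hT2
  have hJ : ∀ j ∈ T1, j ≤ Int.log 2 K := by
    intro j hj
    rw [hT1, mem_filter] at hj
    exact (Int.zpow_le_iff_le_log (b := 2) (by norm_num) hK0 (x := j)).1 (by exact_mod_cast hj.2.1)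
  have hJ2 : ∀ j ∈ T2, j ≤ 0 := by
    intro j hj
    rw [hT2, mem_filter] at hj
    exact hj.2.le
  have s1 : ∑ j ∈ T, gK α η K j ≤ ∑ j ∈ T1, K ^ α * r ^ (Int.log 2 K - j).toNat
      + ∑ j ∈ T2, r ^ (0 - j).toNat := by
    rw [hT1, hT2, Finset.sum_filter, Finset.sum_filter, ← Finset.sum_add_distrib]
    refine Finset.sum_le_sum fun j _ => ?_
    unfold gK
    rcases lt_or_ge j 0 with hj | hj
    · have hn : ¬ ((2 : ℝ) ^ j ≤ K ∧ 0 ≤ j) := fun h => absurd h.2 (not_le.2 hj)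
      rw [if_pos hj, if_neg hn, zero_add]
      split_ifs
      · rw [g_neg j hj]
      · positivity
    · rw [if_neg (not_lt.2 hj), add_zero]
      by_cases hc : (2 : ℝ) ^ j ≤ K
      · rw [if_pos hc, if_pos ⟨hc, hj⟩]
        exact g_pos_le hη hαη hK j hj hc
      · rw [if_neg hc, if_neg (fun h => hc h.1)]
  calc ∑ j ∈ T, gK α η K j
      ≤ ∑ j ∈ T1, K ^ α * r ^ (Int.log 2 K - j).toNat + ∑ j ∈ T2, r ^ (0 - j).toNat := s1
    _ ≤ K ^ α * (1 - r)⁻¹ + (1 - r)⁻¹ := by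
        rw [← Finset.mul_sum]
        exact add_le_add (mul_le_mul_of_nonneg_left (geo_sum hr0 hr1 T1 _ hJ) (by positivity))
          (geo_sum hr0 hr1 T2 0 hJ2)
    _ ≤ K ^ α * (1 - r)⁻¹ + K ^ α * (1 - r)⁻¹ := by
        have := mul_le_mul_of_nonneg_right hKα h1r.le
        linarith
    _ = GK α η K := by
        unfold GK
        rw [← hr]
        field_simp
        ring

lemma GK_nonneg {α η K : ℝ} (hη : 0 ≤ η) (hαη : η < α) (hK : 1 ≤ K) : 0 ≤ GK α η K := by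
  have := sum_gK hη hαη hK ∅
  simpa using this


/-! ### Schur test -/

lemma sum_gK_shift {α η K : ℝ} (hη : 0 ≤ η) (hαη : η < α) (hK : 1 ≤ K) (T : Finset ℤ) (i : ℤ) :
    ∑ k ∈ T, gK α η K (i + k) ≤ GK α η K := by
  classical
  have h1 : ∑ k ∈ T, gK α η K (i + k) = ∑ j ∈ T.image (fun k => i + k), gK α η K j := by
    rw [Finset.sum_image]
    intro a _ b _ hab
    simpa using hab
  rw [h1]
  exact sum_gK hη hαη hK _

lemma schur_sq {α η K : ℝ} (hη : 0 ≤ η) (hαη : η < α) (hK : 1 ≤ K) (I : Finset ℕ) (T : Finset ℤ)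
    (m : ℤ → ℝ) (hm : ∀ k, 0 ≤ m k) :
    ∑ i ∈ I, (∑ k ∈ T, gK α η K ((i : ℤ) + k) * Real.sqrt (m k)) ^ 2 ≤
      GK α η K ^ 2 * ∑ k ∈ T, m k := by
  classical
  have hG := GK_nonneg hη hαη hK
  have h1 : ∀ i ∈ I, (∑ k ∈ T, gK α η K ((i : ℤ) + k) * Real.sqrt (m k)) ^ 2 ≤
      GK α η K * ∑ k ∈ T, gK α η K ((i : ℤ) + k) * m k := by
    intro i _
    have h2 := Finset.sum_sq_le_sum_mul_sum_of_sq_le_mul T
      (r := fun k => gK α η K ((i : ℤ) + k) * Real.sqrt (m k))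
      (f := fun k => gK α η K ((i : ℤ) + k)) (g := fun k => gK α η K ((i : ℤ) + k) * m k)
      (fun k _ => gK_nonneg _ _ _ _) (fun k _ => mul_nonneg (gK_nonneg _ _ _ _) (hm k))
      (fun k _ => by
        rw [mul_pow, Real.sq_sqrt (hm k)]
        exact le_of_eq (by ring))
    refine h2.trans ?_
    exact mul_le_mul_of_nonneg_right (sum_gK_shift hη hαη hK T i)
      (Finset.sum_nonneg fun k _ => mul_nonneg (gK_nonneg _ _ _ _) (hm k))
  have h3 : ∀ k ∈ T, ∑ i ∈ I, gK α η K ((i : ℤ) + k) ≤ GK α η K := by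
    intro k _
    have h4 : ∑ i ∈ I, gK α η K ((i : ℤ) + k) =
        ∑ j ∈ I.image (fun i : ℕ => (i : ℤ)), gK α η K (k + j) := by
      rw [Finset.sum_image]
      · exact Finset.sum_congr rfl fun i _ => by rw [add_comm]
      · intro a _ b _ hab
        simpa using hab
    rw [h4]
    exact sum_gK_shift hη hαη hK _ k
  calc ∑ i ∈ I, (∑ k ∈ T, gK α η K ((i : ℤ) + k) * Real.sqrt (m k)) ^ 2
      ≤ ∑ i ∈ I, GK α η K * ∑ k ∈ T, gK α η K ((i : ℤ) + k) * m k := Finset.sum_le_sum h1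
    _ = GK α η K * ∑ k ∈ T, (∑ i ∈ I, gK α η K ((i : ℤ) + k)) * m k := by
        rw [← Finset.mul_sum, Finset.sum_comm]
        congr 1
        exact Finset.sum_congr rfl fun k _ => by rw [Finset.sum_mul]
    _ ≤ GK α η K * ∑ k ∈ T, GK α η K * m k := by
        refine mul_le_mul_of_nonneg_left (Finset.sum_le_sum fun k hk => ?_) hG
        exact mul_le_mul_of_nonneg_right (h3 k hk) (hm k)
    _ = GK α η K ^ 2 * ∑ k ∈ T, m k := by
        rw [← Finset.mul_sum]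
        ring

lemma schur_bil {α η K : ℝ} (hη : 0 ≤ η) (hαη : η < α) (hK : 1 ≤ K) (I : Finset ℕ)
    (T T' : Finset ℤ) (m m' : ℤ → ℝ) (hm : ∀ k, 0 ≤ m k) (hm' : ∀ k, 0 ≤ m' k) {M M' : ℝ}
    (hM : ∑ k ∈ T, m k ≤ M) (hM' : ∑ k ∈ T', m' k ≤ M') :
    ∑ i ∈ I, (∑ k ∈ T, gK α η K ((i : ℤ) + k) * Real.sqrt (m k)) *
        (∑ k ∈ T', gK α η K ((i : ℤ) + k) * Real.sqrt (m' k)) ≤
      GK α η K ^ 2 * Real.sqrt (M * M') := by
  have hG := GK_nonneg hη hαη hK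
  have hM0 : 0 ≤ M := (Finset.sum_nonneg fun k _ => hm k).trans hM
  have hM0' : 0 ≤ M' := (Finset.sum_nonneg fun k _ => hm' k).trans hM'
  have h1 := (schur_sq hη hαη hK I T m hm).trans (mul_le_mul_of_nonneg_left hM (by positivity))
  have h2 := (schur_sq hη hαη hK I T' m' hm').trans (mul_le_mul_of_nonneg_left hM' (by positivity))
  have h3 := Finset.sum_mul_sq_le_sq_mul_sq I
    (fun i => ∑ k ∈ T, gK α η K ((i : ℤ) + k) * Real.sqrt (m k))
    (fun i => ∑ k ∈ T', gK α η K ((i : ℤ) + k) * Real.sqrt (m' k))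
  have h4 := h3.trans (mul_le_mul h1 h2 (Finset.sum_nonneg fun i _ => sq_nonneg _) (by positivity))
  have h5 : GK α η K ^ 2 * M * (GK α η K ^ 2 * M') = (GK α η K ^ 2 * Real.sqrt (M * M')) ^ 2 := by
    rw [mul_pow, Real.sq_sqrt (mul_nonneg hM0 hM0')]
    ring
  rw [h5] at h4
  exact abs_le_of_sq_le_sq' h4 (by positivity) |>.2

lemma half {y μ mk m ρ η : ℝ} (hy : 0 < y) (hμ : μ ≤ y⁻¹ * mk) (hmk0 : 0 ≤ mk)
    (hmk : mk ≤ m) (hη : 0 ≤ η) :
    y ^ ρ * (Real.sqrt μ * (max 1 μ) ^ η) ≤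
      g (ρ - 1 / 2) η y * Real.sqrt mk * (max 1 m) ^ η := by
  have hyi : 0 < y⁻¹ := inv_pos.2 hy
  have h1 : Real.sqrt μ ≤ Real.sqrt y⁻¹ * Real.sqrt mk := by
    rw [← Real.sqrt_mul hyi.le]
    exact Real.sqrt_le_sqrt hμ
  have h2 : max 1 μ ≤ max 1 y⁻¹ * max 1 m := by
    have a1 : 1 ≤ max 1 y⁻¹ := le_max_left _ _
    have a2 : 1 ≤ max 1 m := le_max_left _ _
    apply max_le
    · nlinarith
    · calc μ ≤ y⁻¹ * mk := hμ
        _ ≤ max 1 y⁻¹ * max 1 m := by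
          apply mul_le_mul (le_max_right _ _) (hmk.trans (le_max_right _ _)) hmk0 (by positivity)
  have h3 : (max 1 μ) ^ η ≤ (max 1 y⁻¹) ^ η * (max 1 m) ^ η := by
    rw [← Real.mul_rpow (by positivity) (by positivity)]
    exact Real.rpow_le_rpow (by positivity) h2 hη
  have h4 : y ^ ρ * Real.sqrt y⁻¹ = y ^ (ρ - 1 / 2) := by
    rw [Real.sqrt_eq_rpow, Real.inv_rpow hy.le, ← Real.rpow_neg hy.le, ← Real.rpow_add hy]
    congr 1
  calc y ^ ρ * (Real.sqrt μ * (max 1 μ) ^ η)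
      ≤ y ^ ρ * ((Real.sqrt y⁻¹ * Real.sqrt mk) * ((max 1 y⁻¹) ^ η * (max 1 m) ^ η)) := by
        apply mul_le_mul_of_nonneg_left _ (by positivity)
        apply mul_le_mul h1 h3 (by positivity) (by positivity)
    _ = (y ^ ρ * Real.sqrt y⁻¹) * (max 1 y⁻¹) ^ η * Real.sqrt mk * (max 1 m) ^ η := by ring
    _ = g (ρ - 1 / 2) η y * Real.sqrt mk * (max 1 m) ^ η := by rw [h4]; rfl


/-! ### the core -/

section core

variable {Z : Type*} {S S' : Finset Z} {I : Finset ℕ} {n V V' : Z → ℝ} {L : ℝ} {e : Z → Z → ℝ}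
  {gam : ℕ → Z → Z → Prop} {ell : ℕ → Z → Z → ℝ} {C1 C2 ρ η K : ℝ}

/-- the levels of positive mass -/
noncomputable def pos (S : Finset Z) (V : Z → ℝ) : Finset Z := by
  classical exact S.filter (fun z => 0 < V z)

/-- one level -/
noncomputable def lv (S : Finset Z) (V : Z → ℝ) (k : ℤ) : Finset Z := by
  classical exact (pos S V).filter (fun z => Int.log 2 (V z) = k)

lemma mem_pos {z : Z} : z ∈ pos S V ↔ z ∈ S ∧ 0 < V z := by
  unfold pos; rw [Finset.mem_filter]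

lemma mem_lv {z : Z} {k : ℤ} : z ∈ lv S V k ↔ z ∈ S ∧ 0 < V z ∧ Int.log 2 (V z) = k := by
  unfold lv; rw [Finset.mem_filter, mem_pos, and_assoc]

lemma lv_sub (k : ℤ) : lv S V k ⊆ S := fun _ hz => (mem_lv.1 hz).1

lemma lv_low {z : Z} {k : ℤ} (hz : z ∈ lv S V k) : (2 : ℝ) ^ k ≤ V z := by
  obtain ⟨_, h, rfl⟩ := mem_lv.1 hz
  have := Int.zpow_log_le_self (b := 2) (r := V z) (by norm_num) h
  exact_mod_cast this

lemma lv_up {z : Z} {k : ℤ} (hz : z ∈ lv S V k) : V z < (2 : ℝ) ^ (k + 1) := by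
  obtain ⟨_, _, rfl⟩ := mem_lv.1 hz
  have := Int.lt_zpow_succ_log_self (b := 2) (by norm_num) (V z)
  exact_mod_cast this

/-- level mass -/
noncomputable def mk (S : Finset Z) (n V : Z → ℝ) (L : ℝ) (k : ℤ) : ℝ :=
  L * ∑ z ∈ lv S V k, n z * V z

lemma sum_levels (F : Z → ℝ) : ∑ z ∈ pos S V, F z =
    ∑ k ∈ (pos S V).image (fun z => Int.log 2 (V z)), ∑ z ∈ lv S V k, F z := by
  classical
  unfold lv
  rw [Finset.sum_fiberwise_of_maps_to]
  intro z hz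
  exact Finset.mem_image_of_mem _ hz

lemma mk_nonneg (hn : ∀ z, 0 ≤ n z) (hV : ∀ z, 0 ≤ V z) (hL : 0 ≤ L) (k : ℤ) :
    0 ≤ mk S n V L k :=
  mul_nonneg hL (Finset.sum_nonneg fun z _ => mul_nonneg (hn z) (hV z))

lemma sum_mk_le (hn : ∀ z, 0 ≤ n z) (hV : ∀ z, 0 ≤ V z) (hL : 0 ≤ L) :
    ∑ k ∈ (pos S V).image (fun z => Int.log 2 (V z)), mk S n V L k ≤ L * ∑ z ∈ S, n z * V z := by
  classical
  unfold mk
  rw [← Finset.mul_sum, ← sum_levels (S := S) (V := V) (fun z => n z * V z)]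
  refine mul_le_mul_of_nonneg_left ?_ hL
  unfold pos
  exact Finset.sum_le_sum_of_subset_of_nonneg (Finset.filter_subset _ _)
    fun z _ _ => mul_nonneg (hn z) (hV z)

lemma mk_le (hn : ∀ z, 0 ≤ n z) (hV : ∀ z, 0 ≤ V z) (hL : 0 ≤ L) (k : ℤ) :
    mk S n V L k ≤ L * ∑ z ∈ S, n z * V z := by
  unfold mk
  exact mul_le_mul_of_nonneg_left (Finset.sum_le_sum_of_subset_of_nonneg (lv_sub k)
    fun z _ _ => mul_nonneg (hn z) (hV z)) hL

/-- the mass at window `L / 2 ^ i` of a level -/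
lemma mu_le (hn : ∀ z, 0 ≤ n z) (hL : 0 ≤ L) (i : ℕ) (k : ℤ) :
    L / 2 ^ i * ∑ z ∈ lv S V k, n z ≤ ((2 : ℝ) ^ ((i : ℤ) + k))⁻¹ * mk S n V L k := by
  unfold mk
  have h0 : (0 : ℝ) < (2 : ℝ) ^ k := by positivity
  have h1 : ∑ z ∈ lv S V k, n z ≤ ((2 : ℝ) ^ k)⁻¹ * ∑ z ∈ lv S V k, n z * V z := by
    rw [Finset.mul_sum]
    refine Finset.sum_le_sum fun z hz => ?_
    have h2 := lv_low hz
    rw [inv_mul_eq_div, le_div_iff₀ h0]
    exact mul_le_mul_of_nonneg_left h2 (hn z)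
  have h3 : (2 : ℝ) ^ ((i : ℤ) + k) = 2 ^ i * (2 : ℝ) ^ k := by
    rw [zpow_add₀ (by norm_num), zpow_natCast]
  rw [h3, mul_inv]
  calc L / 2 ^ i * ∑ z ∈ lv S V k, n z
      ≤ L / 2 ^ i * (((2 : ℝ) ^ k)⁻¹ * ∑ z ∈ lv S V k, n z * V z) :=
        mul_le_mul_of_nonneg_left h1 (by positivity)
    _ = _ := by ring

/-- **one block of levels** -/
lemma block (hn : ∀ z, 0 ≤ n z) (hV : ∀ z, 0 ≤ V z) (hV' : ∀ z, 0 ≤ V' z) (hL : 0 ≤ L)
    (he : ∀ z z', 0 ≤ e z z') (hC1 : 0 ≤ C1) (hC2 : 0 ≤ C2) (hη : 0 ≤ η) (hρ0 : 0 ≤ ρ)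
    (hρ1 : ρ ≤ 1) (i : ℕ) (k k' : ℤ)
    (hgam : ∀ z ∈ S, ∀ z' ∈ S', ¬ gam i z z' → ell i z z' = 0)
    (hβ : ∀ z ∈ S, ∀ z' ∈ S', ell i z z' ≠ 0 → 2 ^ i * V z ≤ K ∧ 2 ^ i * V' z' ≤ K)
    (hlow : ∀ z ∈ S, ∀ z' ∈ S', ell i z z' ≤ C1 * ((2 : ℝ) ^ i)⁻¹ *
      ((2 ^ i * V z) * (2 ^ i * V' z')) ^ ρ)
    (hhigh : ∀ A ⊆ S, ∀ A' ⊆ S', ∑ z ∈ A, ∑ z' ∈ A', (open Classical in
        if gam i z z' then (L / 2 ^ i) * e z z' * n z * n z' else 0) ≤
      C2 * Real.sqrt ((L / 2 ^ i * ∑ z ∈ A, n z) * (L / 2 ^ i * ∑ z ∈ A', n z)) *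
        (max 1 (L / 2 ^ i * ∑ z ∈ A, n z) * max 1 (L / 2 ^ i * ∑ z ∈ A', n z)) ^ η) :
    ∑ z ∈ lv S V k, ∑ z' ∈ lv S' V' k', L * e z z' * n z * n z' * ell i z z' ≤
      (4 * C1 * C2 * ((max 1 (L * ∑ z ∈ S, n z * V z)) ^ η *
        (max 1 (L * ∑ z ∈ S', n z * V' z)) ^ η)) *
      ((gK (ρ - 1 / 2) η K ((i : ℤ) + k) * Real.sqrt (mk S n V L k)) *
        (gK (ρ - 1 / 2) η K ((i : ℤ) + k') * Real.sqrt (mk S' n V' L k'))) := by
  classical
  set m := L * ∑ z ∈ S, n z * V z with hm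
  set m' := L * ∑ z ∈ S', n z * V' z with hm'
  have hRHS : 0 ≤ (4 * C1 * C2 * ((max 1 m) ^ η * (max 1 m') ^ η)) *
      ((gK (ρ - 1 / 2) η K ((i : ℤ) + k) * Real.sqrt (mk S n V L k)) *
        (gK (ρ - 1 / 2) η K ((i : ℤ) + k') * Real.sqrt (mk S' n V' L k'))) := by
    have := gK_nonneg (ρ - 1 / 2) η K ((i : ℤ) + k)
    have := gK_nonneg (ρ - 1 / 2) η K ((i : ℤ) + k')
    positivity
  have h2i : (0 : ℝ) < 2 ^ i := by positivity
  have hz1 : (2 : ℝ) ^ ((i : ℤ) + k) = 2 ^ i * (2 : ℝ) ^ k := by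
    rw [zpow_add₀ (by norm_num), zpow_natCast]
  have hz1' : (2 : ℝ) ^ ((i : ℤ) + k') = 2 ^ i * (2 : ℝ) ^ k' := by
    rw [zpow_add₀ (by norm_num), zpow_natCast]
  by_cases hK1 : (2 : ℝ) ^ ((i : ℤ) + k) ≤ K ∧ (2 : ℝ) ^ ((i : ℤ) + k') ≤ K
  · set y := (2 : ℝ) ^ ((i : ℤ) + k) with hy
    set y' := (2 : ℝ) ^ ((i : ℤ) + k') with hy'
    have hy0 : 0 < y := by positivity
    have hy0' : 0 < y' := by positivity
    have e1 : ∀ z ∈ lv S V k, ∀ z' ∈ lv S' V' k', L * e z z' * n z * n z' * ell i z z' ≤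
        (C1 * (4 * (y ^ ρ * y' ^ ρ))) * (if gam i z z' then (L / 2 ^ i) * e z z' * n z * n z' else 0) := by
      intro z hz z' hz'
      split_ifs with hg
      · have a1 := hlow z (lv_sub k hz) z' (lv_sub k' hz')
        have a2 : (2 ^ i * V z) * (2 ^ i * V' z') ≤ 4 * (y * y') := by
          have b1 : 2 ^ i * V z ≤ 2 * y := by
            have := (lv_up hz).le
            rw [zpow_add_one₀ (by norm_num)] at this
            calc (2 : ℝ) ^ i * V z ≤ 2 ^ i * ((2 : ℝ) ^ k * 2) := mul_le_mul_of_nonneg_left this h2i.le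
              _ = 2 * y := by rw [hz1]; ring
          have b2 : 2 ^ i * V' z' ≤ 2 * y' := by
            have := (lv_up hz').le
            rw [zpow_add_one₀ (by norm_num)] at this
            calc (2 : ℝ) ^ i * V' z' ≤ 2 ^ i * ((2 : ℝ) ^ k' * 2) := mul_le_mul_of_nonneg_left this h2i.le
              _ = 2 * y' := by rw [hz1']; ring
          calc (2 ^ i * V z) * (2 ^ i * V' z') ≤ (2 * y) * (2 * y') :=
                mul_le_mul b1 b2 (mul_nonneg h2i.le (hV' z')) (by positivity)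
            _ = 4 * (y * y') := by ring
        have a3 : ((2 ^ i * V z) * (2 ^ i * V' z')) ^ ρ ≤ 4 * (y ^ ρ * y' ^ ρ) := by
          calc ((2 ^ i * V z) * (2 ^ i * V' z')) ^ ρ ≤ (4 * (y * y')) ^ ρ := by
                apply Real.rpow_le_rpow _ a2 hρ0
                exact mul_nonneg (mul_nonneg h2i.le (hV z)) (mul_nonneg h2i.le (hV' z'))
            _ = (4 : ℝ) ^ ρ * (y ^ ρ * y' ^ ρ) := by
                rw [Real.mul_rpow (by norm_num) (by positivity), Real.mul_rpow hy0.le hy0'.le]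
            _ ≤ 4 * (y ^ ρ * y' ^ ρ) := by
                apply mul_le_mul_of_nonneg_right _ (by positivity)
                calc (4 : ℝ) ^ ρ ≤ (4 : ℝ) ^ (1 : ℝ) :=
                      Real.rpow_le_rpow_of_exponent_le (by norm_num) hρ1
                  _ = 4 := Real.rpow_one 4
        have a4 : 0 ≤ L * e z z' * n z * n z' :=
          mul_nonneg (mul_nonneg (mul_nonneg hL (he z z')) (hn z)) (hn z')
        calc L * e z z' * n z * n z' * ell i z z'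
            ≤ L * e z z' * n z * n z' * (C1 * ((2 : ℝ) ^ i)⁻¹ * (4 * (y ^ ρ * y' ^ ρ))) := by
              apply mul_le_mul_of_nonneg_left _ a4
              refine a1.trans (mul_le_mul_of_nonneg_left a3 ?_)
              positivity
          _ = _ := by field_simp
      · rw [hgam z (lv_sub k hz) z' (lv_sub k' hz') hg, mul_zero, mul_zero]
    have e2 := hhigh (lv S V k) (lv_sub k) (lv S' V' k') (lv_sub k')
    set μ := L / 2 ^ i * ∑ z ∈ lv S V k, n z with hμ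
    set μ' := L / 2 ^ i * ∑ z ∈ lv S' V' k', n z with hμ'
    have hμ0 : 0 ≤ μ := mul_nonneg (by positivity) (Finset.sum_nonneg fun z _ => hn z)
    have hμ0' : 0 ≤ μ' := mul_nonneg (by positivity) (Finset.sum_nonneg fun z _ => hn z)
    have f1 := half (ρ := ρ) hy0 (mu_le (S := S) (V := V) hn hL i k) (mk_nonneg hn hV hL k)
      (mk_le hn hV hL k) hη
    have f2 := half (ρ := ρ) hy0' (mu_le (S := S') (V := V') hn hL i k') (mk_nonneg hn hV' hL k')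
      (mk_le hn hV' hL k') hη
    rw [← hμ] at f1
    rw [← hμ'] at f2
    rw [← hm] at f1
    rw [← hm'] at f2
    have g1 : gK (ρ - 1 / 2) η K ((i : ℤ) + k) = g (ρ - 1 / 2) η y := by
      unfold gK; rw [if_pos hK1.1]
    have g2 : gK (ρ - 1 / 2) η K ((i : ℤ) + k') = g (ρ - 1 / 2) η y' := by
      unfold gK; rw [if_pos hK1.2]
    calc ∑ z ∈ lv S V k, ∑ z' ∈ lv S' V' k', L * e z z' * n z * n z' * ell i z z'
        ≤ ∑ z ∈ lv S V k, ∑ z' ∈ lv S' V' k', (C1 * (4 * (y ^ ρ * y' ^ ρ))) *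
          (if gam i z z' then (L / 2 ^ i) * e z z' * n z * n z' else 0) :=
          Finset.sum_le_sum fun z hz => Finset.sum_le_sum fun z' hz' => e1 z hz z' hz'
      _ = (C1 * (4 * (y ^ ρ * y' ^ ρ))) * ∑ z ∈ lv S V k, ∑ z' ∈ lv S' V' k',
          (if gam i z z' then (L / 2 ^ i) * e z z' * n z * n z' else 0) := by
          rw [Finset.mul_sum]
          refine Finset.sum_congr rfl fun z _ => ?_
          rw [Finset.mul_sum]
      _ ≤ (C1 * (4 * (y ^ ρ * y' ^ ρ))) * (C2 * Real.sqrt (μ * μ') * (max 1 μ * max 1 μ') ^ η) :=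
          mul_le_mul_of_nonneg_left e2 (by positivity)
      _ = (4 * C1 * C2) * ((y ^ ρ * (Real.sqrt μ * (max 1 μ) ^ η)) *
            (y' ^ ρ * (Real.sqrt μ' * (max 1 μ') ^ η))) := by
          rw [Real.sqrt_mul hμ0, Real.mul_rpow (by positivity) (by positivity)]
          ring
      _ ≤ (4 * C1 * C2) * ((g (ρ - 1 / 2) η y * Real.sqrt (mk S n V L k) * (max 1 m) ^ η) *
            (g (ρ - 1 / 2) η y' * Real.sqrt (mk S' n V' L k') * (max 1 m') ^ η)) := by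
          apply mul_le_mul_of_nonneg_left _ (by positivity)
          apply mul_le_mul f1 f2 (by positivity)
          have := g_nonneg (α := ρ - 1 / 2) (η := η) hy0.le
          positivity
      _ = _ := by
          rw [g1, g2]
          ring
  · refine le_trans (le_of_eq ?_) hRHS
    refine Finset.sum_eq_zero fun z hz => Finset.sum_eq_zero fun z' hz' => ?_
    by_cases h0 : ell i z z' = 0
    · rw [h0, mul_zero]
    · exfalso
      apply hK1
      have := hβ z (lv_sub k hz) z' (lv_sub k' hz') h0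
      constructor
      · rw [hz1]
        exact (mul_le_mul_of_nonneg_left (lv_low hz) h2i.le).trans this.1
      · rw [hz1']
        exact (mul_le_mul_of_nonneg_left (lv_low hz') h2i.le).trans this.2

/-- **MX, abstract form** -/
theorem mx_core (hn : ∀ z, 0 ≤ n z) (hV : ∀ z, 0 ≤ V z) (hV' : ∀ z, 0 ≤ V' z) (hL : 0 ≤ L)
    (he : ∀ z z', 0 ≤ e z z') (hell : ∀ i z z', 0 ≤ ell i z z')
    (hC1 : 0 ≤ C1) (hC2 : 0 ≤ C2) (hη : 0 ≤ η) (hρ : η < ρ - 1 / 2)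
    (hρ1 : ρ ≤ 1) (hK : 1 ≤ K)
    (hgam : ∀ i ∈ I, ∀ z ∈ S, ∀ z' ∈ S', ¬ gam i z z' → ell i z z' = 0)
    (hβ : ∀ i ∈ I, ∀ z ∈ S, ∀ z' ∈ S', ell i z z' ≠ 0 → 2 ^ i * V z ≤ K ∧ 2 ^ i * V' z' ≤ K)
    (hlow : ∀ i ∈ I, ∀ z ∈ S, ∀ z' ∈ S', ell i z z' ≤ C1 * ((2 : ℝ) ^ i)⁻¹ *
      ((2 ^ i * V z) * (2 ^ i * V' z')) ^ ρ)
    (hhigh : ∀ i ∈ I, ∀ A ⊆ S, ∀ A' ⊆ S', ∑ z ∈ A, ∑ z' ∈ A', (open Classical in
        if gam i z z' then (L / 2 ^ i) * e z z' * n z * n z' else 0) ≤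
      C2 * Real.sqrt ((L / 2 ^ i * ∑ z ∈ A, n z) * (L / 2 ^ i * ∑ z ∈ A', n z)) *
        (max 1 (L / 2 ^ i * ∑ z ∈ A, n z) * max 1 (L / 2 ^ i * ∑ z ∈ A', n z)) ^ η) :
    ∑ i ∈ I, ∑ z ∈ S, ∑ z' ∈ S', L * e z z' * n z * n z' * ell i z z' ≤
      4 * C1 * C2 * GK (ρ - 1 / 2) η K ^ 2 *
        ((max 1 (L * ∑ z ∈ S, n z * V z)) ^ η * (max 1 (L * ∑ z ∈ S', n z * V' z)) ^ η) *
        Real.sqrt ((L * ∑ z ∈ S, n z * V z) * (L * ∑ z ∈ S', n z * V' z)) := by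
  classical
  set m := L * ∑ z ∈ S, n z * V z with hm
  set m' := L * ∑ z ∈ S', n z * V' z with hm'
  have hρ0 : 0 < ρ := by linarith
  set c := 4 * C1 * C2 * ((max 1 m) ^ η * (max 1 m') ^ η) with hc
  have hc0 : 0 ≤ c := by positivity
  set T := (pos S V).image (fun z => Int.log 2 (V z)) with hT
  set T' := (pos S' V').image (fun z => Int.log 2 (V' z)) with hT'
  have key : ∀ i ∈ I, ∑ z ∈ S, ∑ z' ∈ S', L * e z z' * n z * n z' * ell i z z' ≤
      c * ((∑ k ∈ T, gK (ρ - 1 / 2) η K ((i : ℤ) + k) * Real.sqrt (mk S n V L k)) *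
        (∑ k ∈ T', gK (ρ - 1 / 2) η K ((i : ℤ) + k) * Real.sqrt (mk S' n V' L k))) := by
    intro i hi
    have hzero : ∀ z ∈ S, ∀ z' ∈ S', (V z = 0 ∨ V' z' = 0) → ell i z z' = 0 := by
      intro z hz z' hz' h
      have h1 := hlow i hi z hz z' hz'
      have h2 : (2 ^ i * V z) * (2 ^ i * V' z') = 0 := by
        rcases h with h | h <;> rw [h] <;> ring
      rw [h2, Real.zero_rpow hρ0.ne', mul_zero] at h1
      exact le_antisymm h1 (hell i z z')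
    have s1 : ∑ z ∈ S, ∑ z' ∈ S', L * e z z' * n z * n z' * ell i z z' =
        ∑ z ∈ pos S V, ∑ z' ∈ pos S' V', L * e z z' * n z * n z' * ell i z z' := by
      symm
      refine (Finset.sum_subset (fun z hz => (mem_pos.1 hz).1) ?_).trans ?_
      · intro z hz hz0
        have hV0 : V z = 0 := by
          by_contra hne
          exact hz0 (mem_pos.2 ⟨hz, lt_of_le_of_ne (hV z) (Ne.symm hne)⟩)
        refine Finset.sum_eq_zero fun z' hz' => ?_
        rw [hzero z hz z' (mem_pos.1 hz').1 (Or.inl hV0), mul_zero]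
      · refine Finset.sum_congr rfl fun z hz => ?_
        refine Finset.sum_subset (fun z' hz' => (mem_pos.1 hz').1) ?_
        intro z' hz' hz0
        have hV0 : V' z' = 0 := by
          by_contra hne
          exact hz0 (mem_pos.2 ⟨hz', lt_of_le_of_ne (hV' z') (Ne.symm hne)⟩)
        rw [hzero z hz z' hz' (Or.inr hV0), mul_zero]
    rw [s1, sum_levels (S := S) (V := V), ← hT]
    have s2 : ∀ k ∈ T, ∑ z ∈ lv S V k, ∑ z' ∈ pos S' V', L * e z z' * n z * n z' * ell i z z' =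
        ∑ k' ∈ T', ∑ z ∈ lv S V k, ∑ z' ∈ lv S' V' k', L * e z z' * n z * n z' * ell i z z' := by
      intro k _
      have h : ∀ z ∈ lv S V k, ∑ z' ∈ pos S' V', L * e z z' * n z * n z' * ell i z z' =
          ∑ k' ∈ T', ∑ z' ∈ lv S' V' k', L * e z z' * n z * n z' * ell i z z' := fun z _ =>
        sum_levels (S := S') (V := V') (fun z' => L * e z z' * n z * n z' * ell i z z')
      rw [Finset.sum_congr rfl h, Finset.sum_comm]
    rw [Finset.sum_congr rfl s2, Finset.sum_mul_sum, Finset.mul_sum]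
    refine Finset.sum_le_sum fun k _ => ?_
    rw [Finset.mul_sum]
    refine Finset.sum_le_sum fun k' _ => ?_
    exact block hn hV hV' hL he hC1 hC2 hη hρ0.le hρ1 i k k' (hgam i hi) (hβ i hi) (hlow i hi)
      (hhigh i hi)
  calc ∑ i ∈ I, ∑ z ∈ S, ∑ z' ∈ S', L * e z z' * n z * n z' * ell i z z'
      ≤ ∑ i ∈ I, c * ((∑ k ∈ T, gK (ρ - 1 / 2) η K ((i : ℤ) + k) * Real.sqrt (mk S n V L k)) *
        (∑ k ∈ T', gK (ρ - 1 / 2) η K ((i : ℤ) + k) * Real.sqrt (mk S' n V' L k))) :=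
        Finset.sum_le_sum key
    _ = c * ∑ i ∈ I, ((∑ k ∈ T, gK (ρ - 1 / 2) η K ((i : ℤ) + k) * Real.sqrt (mk S n V L k)) *
        (∑ k ∈ T', gK (ρ - 1 / 2) η K ((i : ℤ) + k) * Real.sqrt (mk S' n V' L k))) := by
        rw [Finset.mul_sum]
    _ ≤ c * (GK (ρ - 1 / 2) η K ^ 2 * Real.sqrt (m * m')) := by
        refine mul_le_mul_of_nonneg_left ?_ hc0
        exact schur_bil hη hρ hK I T T' _ _ (fun k => mk_nonneg hn hV hL k)
          (fun k => mk_nonneg hn hV' hL k) (sum_mk_le hn hV hL) (sum_mk_le hn hV' hL)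
    _ = _ := by rw [hc]; ring

end core

end Crest.Agent.R4C.MXx946
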