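import Crest.Agent.R4C.Cut_50

/-!
# Abstract F-Λ structure (helper935), interface for 514's decomposition (notes 2743, 2977)

`F : FL M` assigns to every divisor `b` of `M` and every prime `p` a status `F.ctr b p`:
* `some v` : `p` is PASSIVE at the node of `b`, with centre (dominant letter) `v`
  (`v = 0` : free, `v = v_p M` : forced);
* `none`   : `p` is BRANCHED at the node of `b`.
The status depends only on the letters of `b` at the branched primes above `p` (`coh`).

* `F.same x b c` : same node at the cut `x` (same letters at the branched primes `> x`).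
* `F.good x b c` : same node, and at every passive prime `> x` one of the two letters is the centre.
* `F.lam x b`, `F.ell x b`, `F.cen x b` : excess over the centre, deficit, centre word
  (`b * ell = low x b * cen * lam`), `F.uu x b = b / lam`.
* `good_gcd`, `good_coprime_lam`, `good_coprime_ell`.
-/

set_option autoImplicit false

namespace Crest.Agent.R4C.FLDefx935

open Finset Crest.Agent.R4C.Basex935 Crest.Agent.R4C.Cutx50

/-- abstract F-Λ structure -/
structure FL (M : ℕ) where
  /-- status: `some v` passive with centre `v`, `none` branched -/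
  ctr : ℕ → ℕ → Option ℕ
  coh : ∀ ⦃b c p : ℕ⦄, b ∣ M → c ∣ M → p.Prime →
    (∀ q, q.Prime → p < q → ctr b q = none → b.factorization q = c.factorization q) →
    ctr b p = ctr c p
  le : ∀ ⦃b p v : ℕ⦄, b ∣ M → p.Prime → ctr b p = some v → v ≤ M.factorization p

namespace FL

variable {M : ℕ} (F : FL M)

/-- same node at the cut `x` -/
def same (x b c : ℕ) : Prop :=
  ∀ q, q.Prime → x < q → F.ctr b q = none → b.factorization q = c.factorization q

/-- good pair at the cut `x` -/
def good (x b c : ℕ) : Prop :=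
  F.same x b c ∧ ∀ q, q.Prime → x < q → ∀ v, F.ctr b q = some v →
    b.factorization q = v ∨ c.factorization q = v

variable {F}

lemma same_refl (x b : ℕ) : F.same x b b := fun _ _ _ _ => rfl

lemma ctr_eq {x b c p : ℕ} (hb : b ∣ M) (hc : c ∣ M) (h : F.same x b c) (hp : p.Prime)
    (hx : x ≤ p) : F.ctr b p = F.ctr c p :=
  F.coh hb hc hp fun q hq hpq hn => h q hq (lt_of_le_of_lt hx hpq) hn

lemma same_symm {x b c : ℕ} (hb : b ∣ M) (hc : c ∣ M) (h : F.same x b c) : F.same x c b := by
  intro q hq hx hn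
  rw [← ctr_eq hb hc h hq hx.le] at hn
  exact (h q hq hx hn).symm

lemma same_trans {x b c d : ℕ} (hb : b ∣ M) (hc : c ∣ M) (h : F.same x b c)
    (h' : F.same x c d) : F.same x b d := by
  intro q hq hx hn
  have h1 := h q hq hx hn
  rw [ctr_eq hb hc h hq hx.le] at hn
  exact h1.trans (h' q hq hx hn)

lemma same_mono {x y b c : ℕ} (hxy : x ≤ y) (h : F.same x b c) : F.same y b c :=
  fun q hq hx hn => h q hq (lt_of_le_of_lt hxy hx) hn

lemma good_mono {x y b c : ℕ} (hxy : x ≤ y) (h : F.good x b c) : F.good y b c :=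
  ⟨same_mono hxy h.1, fun q hq hx v hv => h.2 q hq (lt_of_le_of_lt hxy hx) v hv⟩

lemma good_symm {x b c : ℕ} (hb : b ∣ M) (hc : c ∣ M) (h : F.good x b c) : F.good x c b :=
  ⟨same_symm hb hc h.1, fun q hq hx v hv =>
    (h.2 q hq hx v (by rw [ctr_eq hb hc h.1 hq hx.le]; exact hv)).symm⟩

variable (F)

/-- exponent of the excess word -/
def lamE (x b p : ℕ) : ℕ := if x < p then (match F.ctr b p with
  | some v => b.factorization p - v
  | none => 0) else 0

/-- exponent of the deficit word -/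
def ellE (x b p : ℕ) : ℕ := if x < p then (match F.ctr b p with
  | some v => v - b.factorization p
  | none => 0) else 0

/-- exponent of the centre word -/
def cenE (x b p : ℕ) : ℕ := if x < p then (match F.ctr b p with
  | some v => v
  | none => b.factorization p) else 0

/-- exponent of `uu` -/
def uuE (x b p : ℕ) : ℕ := if x < p then (match F.ctr b p with
  | some v => min v (b.factorization p)
  | none => b.factorization p) else b.factorization p

/-- excess word -/
def lam (x b : ℕ) : ℕ := ∏ p ∈ M.primeFactors, p ^ F.lamE x b p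
/-- deficit word -/
def ell (x b : ℕ) : ℕ := ∏ p ∈ M.primeFactors, p ^ F.ellE x b p
/-- centre word -/
def cen (x b : ℕ) : ℕ := ∏ p ∈ M.primeFactors, p ^ F.cenE x b p
/-- `b / lam` -/
def uu (x b : ℕ) : ℕ := ∏ p ∈ M.primeFactors, p ^ F.uuE x b p

variable {F}

lemma prod_pos' (e : ℕ → ℕ) : 0 < ∏ p ∈ M.primeFactors, p ^ e p :=
  Finset.prod_pos fun _ hp => pow_pos (Nat.prime_of_mem_primeFactors hp).pos _

lemma fact_prod (e : ℕ → ℕ) (p : ℕ) :
    (∏ p ∈ M.primeFactors, p ^ e p).factorization p = if p ∈ M.primeFactors then e p else 0 := by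
  rw [Nat.factorization_prod (fun q hq =>
    pow_ne_zero _ (Nat.prime_of_mem_primeFactors hq).ne_zero)]
  rw [Finset.sum_apply']
  have : ∀ q ∈ M.primeFactors, (q ^ e q).factorization p = if q = p then e p else 0 := by
    intro q hq
    rw [(Nat.prime_of_mem_primeFactors hq).factorization_pow, Finsupp.single_apply]
    by_cases h : q = p
    · subst h; simp
    · simp [h]
  rw [Finset.sum_congr rfl this, Finset.sum_ite_eq']

lemma lam_pos (x b : ℕ) : 0 < F.lam x b := prod_pos' _
lemma ell_pos (x b : ℕ) : 0 < F.ell x b := prod_pos' _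
lemma cen_pos (x b : ℕ) : 0 < F.cen x b := prod_pos' _
lemma uu_pos (x b : ℕ) : 0 < F.uu x b := prod_pos' _

lemma fact_zero {b p : ℕ} (hM : 0 < M) (hb : b ∣ M) (hp : p ∉ M.primeFactors) :
    b.factorization p = 0 := by
  by_contra h
  apply hp
  have h1 : p ∈ b.primeFactors := by
    rw [← Nat.support_factorization]
    exact Finsupp.mem_support_iff.2 h
  exact Nat.primeFactors_mono hb hM.ne' h1

lemma ctr_zero {b p v : ℕ} (hb : b ∣ M) (hpp : p.Prime) (hM : 0 < M) (hp : p ∉ M.primeFactors)
    (h : F.ctr b p = some v) : v = 0 := by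
  have h1 := F.le hb hpp h
  have h2 : M.factorization p = 0 := fact_zero hM dvd_rfl hp
  omega

lemma fact_lam {x b p : ℕ} (_hM : 0 < M) (_hb : b ∣ M) :
    (F.lam x b).factorization p = if p ∈ M.primeFactors then F.lamE x b p else 0 := fact_prod _ _
lemma fact_ell {x b p : ℕ} : (F.ell x b).factorization p =
    if p ∈ M.primeFactors then F.ellE x b p else 0 := fact_prod _ _
lemma fact_cen {x b p : ℕ} : (F.cen x b).factorization p =
    if p ∈ M.primeFactors then F.cenE x b p else 0 := fact_prod _ _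
lemma fact_uu {x b p : ℕ} : (F.uu x b).factorization p =
    if p ∈ M.primeFactors then F.uuE x b p else 0 := fact_prod _ _

/-- `b = uu * lam` -/
lemma uu_mul_lam {x b : ℕ} (hM : 0 < M) (hb : b ∣ M) : F.uu x b * F.lam x b = b := by
  have hb0 : b ≠ 0 := (Nat.pos_of_dvd_of_pos hb hM).ne'
  refine Nat.eq_of_factorization_eq (mul_ne_zero (uu_pos x b).ne' (lam_pos x b).ne') hb0 fun p => ?_
  rw [Nat.factorization_mul (uu_pos x b).ne' (lam_pos x b).ne', Finsupp.add_apply, fact_uu,
    fact_lam hM hb]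
  by_cases hp : p ∈ M.primeFactors
  · simp only [hp, if_true, uuE, lamE]
    by_cases hx : x < p
    · simp only [hx, if_true]
      cases F.ctr b p with
      | none => simp
      | some v => simp only; omega
    · simp [hx]
  · simp only [hp, if_false]
    exact (fact_zero hM hb hp).symm

/-- `b * ell = low x b * cen * lam` -/
lemma mul_ell {x b : ℕ} (hM : 0 < M) (hb : b ∣ M) :
    b * F.ell x b = low x b * F.cen x b * F.lam x b := by
  have hb0 : b ≠ 0 := (Nat.pos_of_dvd_of_pos hb hM).ne'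
  have hl0 : low x b ≠ 0 := (low_pos x b).ne'
  refine Nat.eq_of_factorization_eq (mul_ne_zero hb0 (ell_pos x b).ne')
    (mul_ne_zero (mul_ne_zero hl0 (cen_pos x b).ne') (lam_pos x b).ne') fun p => ?_
  rw [Nat.factorization_mul hb0 (ell_pos x b).ne',
    Nat.factorization_mul (mul_ne_zero hl0 (cen_pos x b).ne') (lam_pos x b).ne',
    Nat.factorization_mul hl0 (cen_pos x b).ne', Finsupp.add_apply, Finsupp.add_apply,
    Finsupp.add_apply, fact_ell, fact_cen, fact_lam hM hb, fact_low]
  by_cases hp : p ∈ M.primeFactors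
  · simp only [hp, if_true, ellE, lamE, cenE]
    by_cases hx : x < p
    · have hx' : ¬ p ≤ x := by omega
      simp only [hx, hx', if_true, if_false]
      cases F.ctr b p with
      | none => simp
      | some v => simp only; omega
    · have hx' : p ≤ x := by omega
      simp [hx, hx']
  · have h1 := fact_zero hM hb hp
    simp [hp, h1]

/-- `uu * ell = low * cen` -/
lemma uu_mul_ell {x b : ℕ} (hM : 0 < M) (hb : b ∣ M) :
    F.uu x b * F.ell x b = low x b * F.cen x b := by
  have h1 := mul_ell (F := F) (x := x) hM hb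
  have h2 := uu_mul_lam (F := F) (x := x) hM hb
  have h3 := lam_pos (F := F) x b
  have h4 : (F.uu x b * F.ell x b) * F.lam x b = (low x b * F.cen x b) * F.lam x b := by
    calc (F.uu x b * F.ell x b) * F.lam x b = (F.uu x b * F.lam x b) * F.ell x b := by ring
      _ = b * F.ell x b := by rw [h2]
      _ = _ := h1
  exact Nat.eq_of_mul_eq_mul_right h3 h4

lemma uu_dvd {x b : ℕ} (hM : 0 < M) (hb : b ∣ M) : F.uu x b ∣ b :=
  Dvd.intro _ (uu_mul_lam hM hb)

lemma lam_dvd {x b : ℕ} (hM : 0 < M) (hb : b ∣ M) : F.lam x b ∣ b :=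
  Dvd.intro_left _ (uu_mul_lam hM hb)

/-- the centre word is a function of the node -/
lemma cen_eq {x b c : ℕ} (hM : 0 < M) (hb : b ∣ M) (hc : c ∣ M) (h : F.same x b c) :
    F.cen x b = F.cen x c := by
  unfold cen
  refine Finset.prod_congr rfl fun p hp => ?_
  have hpp := Nat.prime_of_mem_primeFactors hp
  congr 1
  unfold cenE
  by_cases hx : x < p
  · simp only [hx, if_true]
    rw [← ctr_eq hb hc h hpp hx.le]
    cases h1 : F.ctr b p with
    | none => exact h p hpp hx h1
    | some v => rfl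
  · simp [hx]

/-- prime factors of the excess word -/
lemma prime_dvd_lam {x b p : ℕ} (hM : 0 < M) (hb : b ∣ M) (hp : p.Prime) (h : p ∣ F.lam x b) :
    x < p ∧ ∃ v, F.ctr b p = some v ∧ v < b.factorization p := by
  have h1 : 0 < (F.lam x b).factorization p :=
    hp.factorization_pos_of_dvd (lam_pos x b).ne' h
  rw [fact_lam hM hb] at h1
  by_cases hpm : p ∈ M.primeFactors
  · simp only [hpm, if_true, lamE] at h1
    by_cases hx : x < p
    · simp only [hx, if_true] at h1
      cases h2 : F.ctr b p with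
      | none => simp [h2] at h1
      | some v =>
        simp only [h2] at h1
        exact ⟨hx, v, rfl, by omega⟩
    · simp [hx] at h1
  · simp [hpm] at h1

/-- prime factors of the deficit word -/
lemma prime_dvd_ell {x b p : ℕ} (hp : p.Prime) (h : p ∣ F.ell x b) :
    x < p ∧ ∃ v, F.ctr b p = some v ∧ b.factorization p < v := by
  have h1 : 0 < (F.ell x b).factorization p :=
    hp.factorization_pos_of_dvd (ell_pos x b).ne' h
  rw [fact_ell] at h1
  by_cases hpm : p ∈ M.primeFactors
  · simp only [hpm, if_true, ellE] at h1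
    by_cases hx : x < p
    · simp only [hx, if_true] at h1
      cases h2 : F.ctr b p with
      | none => simp [h2] at h1
      | some v =>
        simp only [h2] at h1
        exact ⟨hx, v, rfl, by omega⟩
    · simp [hx] at h1
  · simp [hpm] at h1

lemma dvd_lam {x b p v : ℕ} (hM : 0 < M) (hb : b ∣ M) (hp : p.Prime) (hx : x < p)
    (h : F.ctr b p = some v) (hv : v < b.factorization p) : p ∣ F.lam x b := by
  have hpm : p ∈ M.primeFactors := by
    by_contra hc
    rw [fact_zero hM hb hc] at hv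
    omega
  have h1 : (F.lam x b).factorization p ≠ 0 := by
    rw [fact_lam hM hb]
    simp only [hpm, if_true, lamE, hx, h]
    omega
  exact Nat.dvd_of_factorization_pos h1

lemma dvd_ell {x b p v : ℕ} (hM : 0 < M) (hb : b ∣ M) (hp : p.Prime) (hx : x < p)
    (h : F.ctr b p = some v) (hv : b.factorization p < v) : p ∣ F.ell x b := by
  have hpm : p ∈ M.primeFactors := by
    by_contra hc
    have := ctr_zero hb hp hM hc h
    omega
  have h1 : (F.ell x b).factorization p ≠ 0 := by
    rw [fact_ell]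
    simp only [hpm, if_true, ellE, hx, h]
    omega
  exact Nat.dvd_of_factorization_pos h1

/-- excess and deficit of the same word are coprime -/
lemma coprime_lam_ell {x b : ℕ} (hM : 0 < M) (hb : b ∣ M) :
    Nat.Coprime (F.lam x b) (F.ell x b) := by
  refine Nat.Coprime.symm (Nat.coprime_of_dvd fun p hp h1 h2 => ?_)
  obtain ⟨_, v, hv, h3⟩ := prime_dvd_lam hM hb hp h2
  obtain ⟨_, w, hw, h4⟩ := prime_dvd_ell hp h1
  rw [hv] at hw
  cases hw
  omega

lemma good_coprime_lam {x b c : ℕ} (hM : 0 < M) (hb : b ∣ M) (hc : c ∣ M) (h : F.good x b c) :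
    Nat.Coprime (F.lam x b) (F.lam x c) := by
  refine Nat.coprime_of_dvd fun p hp h1 h2 => ?_
  obtain ⟨hx, v, hv, h3⟩ := prime_dvd_lam hM hb hp h1
  obtain ⟨_, w, hw, h4⟩ := prime_dvd_lam hM hc hp h2
  rw [← ctr_eq hb hc h.1 hp hx.le, hv] at hw
  cases hw
  rcases h.2 p hp hx v hv with h5 | h5 <;> omega

lemma good_coprime_ell {x b c : ℕ} (hb : b ∣ M) (hc : c ∣ M) (h : F.good x b c) :
    Nat.Coprime (F.ell x b) (F.ell x c) := by
  refine Nat.coprime_of_dvd fun p hp h1 h2 => ?_
  obtain ⟨hx, v, hv, h3⟩ := prime_dvd_ell hp h1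
  obtain ⟨_, w, hw, h4⟩ := prime_dvd_ell hp h2
  rw [← ctr_eq hb hc h.1 hp hx.le, hv] at hw
  cases hw
  rcases h.2 p hp hx v hv with h5 | h5 <;> omega

/-- excess of one word and deficit of the other are coprime -/
lemma good_coprime_lam_ell {x b c : ℕ} (hM : 0 < M) (hb : b ∣ M) (hc : c ∣ M)
    (h : F.good x b c) : Nat.Coprime (F.lam x b) (F.ell x c) := by
  refine Nat.coprime_of_dvd fun p hp h1 h2 => ?_
  obtain ⟨hx, v, hv, h3⟩ := prime_dvd_lam hM hb hp h1
  obtain ⟨_, w, hw, h4⟩ := prime_dvd_ell hp h2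
  rw [← ctr_eq hb hc h.1 hp hx.le, hv] at hw
  cases hw
  rcases h.2 p hp hx v hv with h5 | h5 <;> omega

/-- gcd of a good pair -/
lemma good_gcd {x b c : ℕ} (hM : 0 < M) (hb : b ∣ M) (hc : c ∣ M) (h : F.good x b c) :
    Nat.gcd b c * (F.ell x b * F.ell x c) = Nat.gcd (low x b) (low x c) * F.cen x b := by
  have hb0 : b ≠ 0 := (Nat.pos_of_dvd_of_pos hb hM).ne'
  have hc0 : c ≠ 0 := (Nat.pos_of_dvd_of_pos hc hM).ne'
  have hlb : low x b ≠ 0 := (low_pos x b).ne'
  have hlc : low x c ≠ 0 := (low_pos x c).ne'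
  have hg0 : Nat.gcd b c ≠ 0 := Nat.gcd_ne_zero_left hb0
  have hg1 : Nat.gcd (low x b) (low x c) ≠ 0 := Nat.gcd_ne_zero_left hlb
  have e1 := (ell_pos (F := F) x b).ne'
  have e2 := (ell_pos (F := F) x c).ne'
  refine Nat.eq_of_factorization_eq (mul_ne_zero hg0 (mul_ne_zero e1 e2))
    (mul_ne_zero hg1 (cen_pos x b).ne') fun p => ?_
  rw [Nat.factorization_mul hg0 (mul_ne_zero e1 e2), Nat.factorization_mul e1 e2,
    Nat.factorization_mul hg1 (cen_pos x b).ne', Nat.factorization_gcd hb0 hc0,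
    Nat.factorization_gcd hlb hlc]
  simp only [Finsupp.add_apply, Finsupp.inf_apply, fact_ell, fact_cen, fact_low]
  by_cases hp : p ∈ M.primeFactors
  · have hpp := Nat.prime_of_mem_primeFactors hp
    simp only [hp, if_true, ellE, cenE]
    by_cases hx : x < p
    · have hx' : ¬ p ≤ x := by omega
      simp only [hx, hx', if_true, if_false]
      rw [← ctr_eq hb hc h.1 hpp hx.le]
      cases h1 : F.ctr b p with
      | none =>
        have := h.1 p hpp hx h1
        simp [this]
      | some v =>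
        simp only
        rcases h.2 p hpp hx v h1 with h5 | h5 <;> omega
    · have hx' : p ≤ x := by omega
      simp [hx, hx']
  · have h1 := fact_zero hM hb hp
    have h2 := fact_zero hM hc hp
    simp [hp, h1, h2]

/-- monotonicity in the cut -/
lemma lam_dvd_lam {x y b : ℕ} (hxy : x ≤ y) : F.lam y b ∣ F.lam x b := by
  unfold lam
  refine Finset.prod_dvd_prod_of_dvd _ _ fun p _ => pow_dvd_pow p ?_
  unfold lamE
  by_cases hy : y < p
  · have hx : x < p := by omega
    simp [hx, hy]
  · simp [hy]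

lemma ell_dvd_ell {x y b : ℕ} (hxy : x ≤ y) : F.ell y b ∣ F.ell x b := by
  unfold ell
  refine Finset.prod_dvd_prod_of_dvd _ _ fun p _ => pow_dvd_pow p ?_
  unfold ellE
  by_cases hy : y < p
  · have hx : x < p := by omega
    simp [hx, hy]
  · simp [hy]

lemma cen_dvd_cen {x y b : ℕ} (hxy : x ≤ y) : F.cen y b ∣ F.cen x b := by
  unfold cen
  refine Finset.prod_dvd_prod_of_dvd _ _ fun p _ => pow_dvd_pow p ?_
  unfold cenE
  by_cases hy : y < p
  · have hx : x < p := by omega
    simp [hx, hy]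
  · simp [hy]

lemma uu_dvd_uu {x y b : ℕ} (hxy : x ≤ y) : F.uu x b ∣ F.uu y b := by
  unfold uu
  refine Finset.prod_dvd_prod_of_dvd _ _ fun p _ => pow_dvd_pow p ?_
  unfold uuE
  by_cases hy : y < p
  · have hx : x < p := by omega
    simp [hx, hy]
  · by_cases hx : x < p
    · simp only [hx, hy, if_true, if_false]
      cases F.ctr b p with
      | none => exact le_rfl
      | some v => exact min_le_right _ _
    · simp [hx, hy]

/-- the gcd of a good pair divides `uu x b` -/
lemma good_gcd_dvd_uu {x b c : ℕ} (hM : 0 < M) (hb : b ∣ M) (hc : c ∣ M) (h : F.good x b c) :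
    Nat.gcd b c ∣ F.uu x b := by
  have hb0 : b ≠ 0 := (Nat.pos_of_dvd_of_pos hb hM).ne'
  have hc0 : c ≠ 0 := (Nat.pos_of_dvd_of_pos hc hM).ne'
  have hg0 : Nat.gcd b c ≠ 0 := Nat.gcd_ne_zero_left hb0
  rw [← Nat.factorization_le_iff_dvd hg0 (uu_pos x b).ne']
  intro p
  rw [Nat.factorization_gcd hb0 hc0, fact_uu]
  simp only [Finsupp.inf_apply]
  by_cases hp : p ∈ M.primeFactors
  · have hpp := Nat.prime_of_mem_primeFactors hp
    simp only [hp, if_true, uuE]
    by_cases hx : x < p
    · simp only [hx, if_true]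
      cases h1 : F.ctr b p with
      | none => exact min_le_left _ _
      | some v =>
        simp only
        rcases h.2 p hpp hx v h1 with h5 | h5
        · omega
        · rw [h5]; omega
    · simp only [hx, if_false]
      exact min_le_left _ _
  · rw [fact_zero hM hb hp]
    simp

/-- a common prime of a good pair above the cut divides the centre word -/
lemma good_common {x b c p : ℕ} (hM : 0 < M) (hb : b ∣ M) (hc : c ∣ M) (h : F.good x b c)
    (hp : p.Prime) (hx : x < p) (h1 : p ∣ b) (h2 : p ∣ c) : p ∣ F.cen x b := by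
  have hb0 : b ≠ 0 := (Nat.pos_of_dvd_of_pos hb hM).ne'
  have hc0 : c ≠ 0 := (Nat.pos_of_dvd_of_pos hc hM).ne'
  have h3 : 0 < b.factorization p := hp.factorization_pos_of_dvd hb0 h1
  have h4 : 0 < c.factorization p := hp.factorization_pos_of_dvd hc0 h2
  have hpm : p ∈ M.primeFactors := by
    by_contra hh
    rw [fact_zero hM hb hh] at h3
    omega
  have h5 : (F.cen x b).factorization p ≠ 0 := by
    rw [fact_cen]
    simp only [hpm, if_true, cenE, hx]
    cases h6 : F.ctr b p with
    | none => simp only; omega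
    | some v =>
      simp only
      rcases h.2 p hp hx v h6 with h7 | h7 <;> omega
  exact Nat.dvd_of_factorization_pos h5

end FL

open Classical in
/-- energy of the bad pairs at scale `t` (window `L`), cut `x` -/
noncomputable def badEn {M : ℕ} (F : FL M) (B : Finset ℕ) (L t : ℝ) (x : ℕ) : ℝ :=
  L * ∑ b ∈ B, ∑ c ∈ B, if t * L ≤ (Nat.gcd b c : ℝ) ∧ (Nat.gcd b c : ℝ) < 2 * t * L ∧
    ¬ F.good x b c then (Nat.gcd b c : ℝ) * nu M b * nu M c else 0

/-- **Target for 326's FLam (Lemma 1 of 2743), strong form**, all `t > 0`, all cuts `x`. -/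
def FLamStrong (η : ℝ) : Prop := ∃ c : ℝ, 0 < c ∧ ∃ C : ℝ, 0 ≤ C ∧
  ∀ (M : ℕ) (B : Finset ℕ) (L : ℝ), 0 < M → B ⊆ M.divisors → 0 < L →
    ∃ F : FL M, ∀ (t : ℝ) (x : ℕ), 0 < t →
      badEn F B L t x ≤ C * t ^ η * ((x : ℝ) + 1) ^ (-c) * (L * ∑ b ∈ B, nu M b) ^ (1 + η)

/-- **Lemma 1 of 2743.** `A`: cut exponent, `C`: constant. -/
def FLamStatement (η : ℝ) : Prop := ∃ A : ℝ, 0 < A ∧ ∃ C : ℝ, 0 ≤ C ∧
  ∀ (M : ℕ) (B : Finset ℕ) (L : ℝ), 0 < M → B ⊆ M.divisors → 0 < L →
    ∃ F : FL M, ∀ (t : ℝ) (x : ℕ), 1 ≤ t → t ^ A ≤ x + 1 →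
      badEn F B L t x ≤ C * t⁻¹ * (L * ∑ b ∈ B, nu M b) ^ (1 + η)

theorem FLamStatement_of_strong {η : ℝ} (hη : 0 < η) (h : FLamStrong η) : FLamStatement η := by
  obtain ⟨c, hc, C, hC, h⟩ := h
  refine ⟨(1 + η) / c, by positivity, C, hC, fun M B L hM hB hL => ?_⟩
  obtain ⟨F, hF⟩ := h M B L hM hB hL
  refine ⟨F, fun t x ht hx => (hF t x (by linarith)).trans ?_⟩
  have ht0 : (0 : ℝ) < t := by linarith
  have hm : (0 : ℝ) ≤ (L * ∑ b ∈ B, nu M b) ^ (1 + η) := by
    refine Real.rpow_nonneg (mul_nonneg hL.le (Finset.sum_nonneg fun b _ => nu_nonneg M b)) _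
  refine mul_le_mul_of_nonneg_right ?_ hm
  rw [mul_assoc]
  refine mul_le_mul_of_nonneg_left ?_ hC
  have h1 : ((x : ℝ) + 1) ^ (-c) ≤ (t ^ ((1 + η) / c)) ^ (-c) :=
    Real.rpow_le_rpow_of_nonpos (Real.rpow_pos_of_pos ht0 _) hx (by linarith)
  have h2 : (t ^ ((1 + η) / c)) ^ (-c) = t ^ (-(1 + η)) := by
    rw [← Real.rpow_mul ht0.le]
    congr 1
    field_simp
  calc t ^ η * ((x : ℝ) + 1) ^ (-c) ≤ t ^ η * t ^ (-(1 + η)) := by
        rw [← h2]
        exact mul_le_mul_of_nonneg_left h1 (Real.rpow_nonneg ht0.le _)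
    _ = t ^ (η + -(1 + η)) := (Real.rpow_add ht0 _ _).symm
    _ = t⁻¹ := by
        rw [show η + -(1 + η) = (-1 : ℝ) by ring, Real.rpow_neg_one]

end Crest.Agent.R4C.FLDefx935
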