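import Crest.Agent.R4C.PureL2c_232
import Crest.Agent.R4C.FLDef_935

/-!
# Row 4: the pure good pairs of an F-Λ structure form a `PureRelC` (helper232)

`PureG F b c` : `b ≠ c` and at every prime `q` which is ≥ some differing prime: branched letters
equal, passive letters have minimum = centre.
-/

set_option autoImplicit false

open Finset
open Crest.Agent.R4C.Basex935 Crest.Agent.R4C.Cutx50 Crest.Agent.R4C.FLDefx935

namespace Crest.Agent.R4C.PureL2x232

/-- pure good pair, cut-free form -/
def PureG {M : ℕ} (F : FL M) (b c : ℕ) : Prop :=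
  b ≠ c ∧ ∀ q, q.Prime → (∃ r, r.Prime ∧ r ≤ q ∧ b.factorization r ≠ c.factorization r) →
    (F.ctr b q = none → b.factorization q = c.factorization q) ∧
    (∀ v, F.ctr b q = some v → min (b.factorization q) (c.factorization q) = v)

/-- a good pair at a cut `x` without deficits above `x` and with equal parts `≤ x` -/
lemma pureG_of_good {M : ℕ} (F : FL M) {x b c : ℕ} (hb : b ∣ M) (hc : c ∣ M) (hM : 0 < M)
    (hne : b ≠ c) (hg : F.good x b c) (hlow : low x b = low x c)
    (h1 : F.ell x b = 1) (h2 : F.ell x c = 1) : PureG F b c := by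
  refine ⟨hne, fun q hq hr => ?_⟩
  obtain ⟨r, hr, hrq, hrne⟩ := hr
  have hx : x < q := by
    by_contra hcon
    apply hrne
    have h3 := congrArg (fun n => n.factorization r) hlow
    simp only [fact_low] at h3
    rw [if_pos (by omega), if_pos (by omega)] at h3
    exact h3
  refine ⟨fun hn => hg.1 q hq hx hn, fun v hv => ?_⟩
  have hv' : F.ctr c q = some v := by rw [← FL.ctr_eq hb hc hg.1 hq hx.le]; exact hv
  have e1 : v ≤ b.factorization q := by
    by_contra hcon
    have := FL.dvd_ell (F := F) hM hb hq hx hv (by omega)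
    rw [h1] at this
    exact hq.one_lt.ne' (Nat.dvd_one.1 this)
  have e2 : v ≤ c.factorization q := by
    by_contra hcon
    have := FL.dvd_ell (F := F) hM hc hq hx hv' (by omega)
    rw [h2] at this
    exact hq.one_lt.ne' (Nat.dvd_one.1 this)
  rcases hg.2 q hq hx v hv with h3 | h3 <;> omega

/-- fixing the letter `v` of the prime `p` -/
def restr {p a M1 : ℕ} (hp : p.Prime) (hM1 : 0 < M1) (hnd : ¬ p ∣ M1) (v : ℕ) (hv : v ≤ a)
    (F : FL (p ^ a * M1)) : FL M1 where
  ctr b q := if q = p then some 0 else F.ctr (p ^ v * b) q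
  coh := by
    intro b c q hb hc hq h
    by_cases hqp : q = p
    · simp [hqp]
    · simp only [hqp, if_false]
      have hb' : p ^ v * b ∣ p ^ a * M1 := Nat.mul_dvd_mul (pow_dvd_pow p hv) hb
      have hc' : p ^ v * c ∣ p ^ a * M1 := Nat.mul_dvd_mul (pow_dvd_pow p hv) hc
      have hb0 : b ≠ 0 := (Nat.pos_of_dvd_of_pos hb hM1).ne'
      have hc0 : c ≠ 0 := (Nat.pos_of_dvd_of_pos hc hM1).ne'
      have hpv : p ^ v ≠ 0 := pow_ne_zero _ hp.ne_zero
      refine F.coh hb' hc' hq fun r hr hqr hn => ?_
      rw [Nat.factorization_mul hpv hb0, Nat.factorization_mul hpv hc0, Finsupp.add_apply,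
        Finsupp.add_apply]
      congr 1
      by_cases hrp : r = p
      · rw [hrp, Nat.factorization_eq_zero_of_not_dvd (fun hd => hnd (hd.trans hb)),
          Nat.factorization_eq_zero_of_not_dvd (fun hd => hnd (hd.trans hc))]
      · refine h r hr hqr ?_
        simp only [hrp, if_false]
        exact hn
  le := by
    intro b q w hb hq h
    by_cases hqp : q = p
    · simp only [hqp, if_true, Option.some.injEq] at h
      omega
    · simp only [hqp, if_false] at h
      have hb' : p ^ v * b ∣ p ^ a * M1 := Nat.mul_dvd_mul (pow_dvd_pow p hv) hb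
      have h1 := F.le hb' hq h
      rw [Nat.factorization_mul (pow_ne_zero _ hp.ne_zero) hM1.ne', Finsupp.add_apply,
        hp.factorization_pow, Finsupp.single_apply, if_neg (fun hc => hqp hc.symm), zero_add] at h1
      exact h1

lemma fact_pmul {p : ℕ} (hp : p.Prime) (v : ℕ) {b : ℕ} (hb0 : b ≠ 0) (hpb : ¬ p ∣ b) (q : ℕ) :
    (p ^ v * b).factorization q = if q = p then v else b.factorization q := by
  rw [Nat.factorization_mul (pow_ne_zero _ hp.ne_zero) hb0, Finsupp.add_apply,
    hp.factorization_pow, Finsupp.single_apply]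
  by_cases h : q = p
  · subst h
    rw [if_pos rfl, if_pos rfl, Nat.factorization_eq_zero_of_not_dvd hpb, add_zero]
  · rw [if_neg (fun hc => h hc.symm), if_neg h, zero_add]

/-- **bridge**: the pure good pairs of any F-Λ structure form a `PureRelC` -/
theorem pureRelC_of_FL : ∀ M : ℕ, 0 < M → ∀ F : FL M, PureRelC M (PureG F) := by
  refine ind_max ?_ ?_
  · intro F
    refine PureRelC.base fun b c hb hc h => ?_
    rw [Nat.dvd_one] at hb hc
    exact h.1 (hb.trans hc.symm)
  · intro p a M1 hp ha hM1 hnd hlt ih F
    have hMpos : 0 < p ^ a * M1 := Nat.mul_pos (pow_pos hp.pos a) hM1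
    have key : ∀ b, b ∣ M1 → b ≠ 0 ∧ ¬ p ∣ b := fun b hb =>
      ⟨(Nat.pos_of_dvd_of_pos hb hM1).ne', fun hd => hnd (hd.trans hb)⟩
    have hbig : ∀ v b, v ≤ a → b ∣ M1 → p ^ v * b ∣ p ^ a * M1 := fun v b hv hb =>
      Nat.mul_dvd_mul (pow_dvd_pow p hv) hb
    -- letters above p vanish
    have habove : ∀ b q, b ∣ p ^ a * M1 → q.Prime → p < q → b.factorization q = 0 := by
      intro b q hb hq hpq
      refine Nat.factorization_eq_zero_of_not_dvd fun hd => ?_
      have h1 : q ∣ p ^ a * M1 := hd.trans hb
      rcases (Nat.Prime.dvd_mul hq).1 h1 with h2 | h2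
      · have := (Nat.prime_dvd_prime_iff_eq hq hp).1 (hq.dvd_of_dvd_pow h2)
        omega
      · have := hlt q hq h2
        omega
    -- status of p is constant
    have hst : ∀ b, b ∣ p ^ a * M1 → F.ctr b p = F.ctr 1 p := fun b hb =>
      F.coh hb (one_dvd _) hp fun q hq hpq _ => by
        rw [habove b q hb hq hpq, habove 1 q (one_dvd _) hq hpq]
    -- differing primes
    have hdiff : ∀ v v' b c, v ≤ a → v' ≤ a → b ∣ M1 → c ∣ M1 → p ^ v * b ≠ p ^ v' * c →
        ∃ r, r.Prime ∧ r ≤ p ∧
          (p ^ v * b).factorization r ≠ (p ^ v' * c).factorization r := by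
      intro v v' b c hv hv' hb hc hne
      by_contra hcon
      push Not at hcon
      apply hne
      refine Nat.eq_of_factorization_eq (mul_ne_zero (pow_ne_zero _ hp.ne_zero) (key b hb).1)
        (mul_ne_zero (pow_ne_zero _ hp.ne_zero) (key c hc).1) fun q => ?_
      by_cases hq : q.Prime
      · by_cases hqp : q ≤ p
        · exact hcon q hq hqp
        · rw [habove _ q (hbig v b hv hb) hq (by omega), habove _ q (hbig v' c hv' hc) hq (by omega)]
      · rw [Nat.factorization_eq_zero_of_not_prime _ hq, Nat.factorization_eq_zero_of_not_prime _ hq]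
    cases hst1 : F.ctr 1 p with
    | none =>
      refine PureRelC.branch (R1 := fun v b c => if hv : v ≤ a then
        PureG (restr hp hM1 hnd v hv F) b c else False) hp hM1 hnd ?_ ?_
      · intro v hv
        have := ih (restr hp hM1 hnd v hv F)
        simpa only [hv, dif_pos] using this
      · intro v v' b c hv hv' hb hc hR
        have hb' := hbig v b hv hb
        have hc' := hbig v' c hv' hc
        have h1 := (hR.2 p hp (hdiff v v' b c hv hv' hb hc hR.1)).1 (by rw [hst _ hb', hst1])
        rw [fact_pmul hp v (key b hb).1 (key b hb).2, fact_pmul hp v' (key c hc).1 (key c hc).2,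
          if_pos rfl, if_pos rfl] at h1
        subst h1
        refine ⟨rfl, ?_⟩
        rw [dif_pos hv]
        refine ⟨fun hbc => hR.1 (by rw [hbc]), fun q hq hr => ?_⟩
        obtain ⟨r, hr, hrq, hrne⟩ := hr
        by_cases hqp : q = p
        · subst hqp
          have e1 := Nat.factorization_eq_zero_of_not_dvd (key b hb).2
          have e2 := Nat.factorization_eq_zero_of_not_dvd (key c hc).2
          refine ⟨fun _ => by rw [e1, e2], fun w hw => ?_⟩
          simp only [restr, if_true, Option.some.injEq] at hw
          rw [e1, e2, ← hw]; rfl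
        · have hrp : r ≠ p := by
            rintro rfl
            exact hrne (by rw [Nat.factorization_eq_zero_of_not_dvd (key b hb).2,
              Nat.factorization_eq_zero_of_not_dvd (key c hc).2])
          have h2 := hR.2 q hq ⟨r, hr, hrq, by
            rw [fact_pmul hp v (key b hb).1 (key b hb).2, fact_pmul hp v (key c hc).1 (key c hc).2,
              if_neg hrp, if_neg hrp]
            exact hrne⟩
          rw [fact_pmul hp v (key b hb).1 (key b hb).2, fact_pmul hp v (key c hc).1 (key c hc).2,
            if_neg hqp, if_neg hqp] at h2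
          refine ⟨fun hn => h2.1 ?_, fun w hw => h2.2 w ?_⟩
          · simpa only [restr, hqp, if_false] using hn
          · simpa only [restr, hqp, if_false] using hw
    | some v0 =>
      have hv0 : v0 ≤ a := by
        have h1 := F.le (one_dvd _) hp hst1
        rw [fact_pmul hp a hM1.ne' hnd, if_pos rfl] at h1
        exact h1
      -- the tree below does not depend on the letter of p
      have hind : ∀ v b q, v ≤ a → b ∣ M1 → q.Prime → q ≠ p →
          F.ctr (p ^ v * b) q = F.ctr (p ^ v0 * b) q := by
        intro v b q hv hb hq hqp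
        refine F.coh (hbig v b hv hb) (hbig v0 b hv0 hb) hq fun r hr hqr hn => ?_
        have hrp : r ≠ p := by
          rintro rfl
          rw [hst _ (hbig v b hv hb), hst1] at hn
          cases hn
        rw [fact_pmul hp v (key b hb).1 (key b hb).2, fact_pmul hp v0 (key b hb).1 (key b hb).2,
          if_neg hrp, if_neg hrp]
      refine PureRelC.cent (R1 := PureG (restr hp hM1 hnd v0 hv0 F)) v0 hp hM1 hnd hv0 (ih _) ?_
      intro v v' b c hv hv' hb hc hR
      have hb' := hbig v b hv hb
      have hc' := hbig v' c hv' hc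
      have h1 := (hR.2 p hp (hdiff v v' b c hv hv' hb hc hR.1)).2 v0 (by rw [hst _ hb', hst1])
      rw [fact_pmul hp v (key b hb).1 (key b hb).2, fact_pmul hp v' (key c hc).1 (key c hc).2,
        if_pos rfl, if_pos rfl] at h1
      refine ⟨h1, ?_⟩
      by_cases hbc : b = c
      · right
        refine ⟨hbc, fun hvv => hR.1 (by rw [hbc, hvv])⟩
      · left
        refine ⟨hbc, fun q hq hr => ?_⟩
        obtain ⟨r, hr, hrq, hrne⟩ := hr
        by_cases hqp : q = p
        · subst hqp
          have e1 := Nat.factorization_eq_zero_of_not_dvd (key b hb).2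
          have e2 := Nat.factorization_eq_zero_of_not_dvd (key c hc).2
          refine ⟨fun _ => by rw [e1, e2], fun w hw => ?_⟩
          simp only [restr, if_true, Option.some.injEq] at hw
          rw [e1, e2, ← hw]; rfl
        · have hrp : r ≠ p := by
            rintro rfl
            exact hrne (by rw [Nat.factorization_eq_zero_of_not_dvd (key b hb).2,
              Nat.factorization_eq_zero_of_not_dvd (key c hc).2])
          have h2 := hR.2 q hq ⟨r, hr, hrq, by
            rw [fact_pmul hp v (key b hb).1 (key b hb).2, fact_pmul hp v' (key c hc).1 (key c hc).2,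
              if_neg hrp, if_neg hrp]
            exact hrne⟩
          rw [fact_pmul hp v (key b hb).1 (key b hb).2, fact_pmul hp v' (key c hc).1 (key c hc).2,
            if_neg hqp, if_neg hqp, hind v b q hv hb hq hqp] at h2
          refine ⟨fun hn => h2.1 ?_, fun w hw => h2.2 w ?_⟩
          · simpa only [restr, hqp, if_false] using hn
          · simpa only [restr, hqp, if_false] using hw

/-! ### The structure induced on the words above a cut `x` -/

/-- the F-Λ structure induced on `Div (upp x M)` -/
def hiFL {M : ℕ} (hM : 0 < M) (x : ℕ) (F : FL M) : FL (upp x M) where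
  ctr b q := if x < q then F.ctr b q else some 0
  coh := by
    intro b c q hb hc hq h
    by_cases hxq : x < q
    · simp only [hxq, if_true]
      have hb' : b ∣ M := hb.trans (upp_dvd_self x M)
      have hc' : c ∣ M := hc.trans (upp_dvd_self x M)
      refine F.coh hb' hc' hq fun r hr hqr hn => h r hr hqr ?_
      rw [if_pos (by omega)]
      exact hn
    · simp only [hxq, if_false]
  le := by
    intro b q w hb hq h
    by_cases hxq : x < q
    · simp only [hxq, if_true] at h
      have h1 := F.le (hb.trans (upp_dvd_self x M)) hq h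
      rw [fact_upp, if_pos (by omega)]
      exact h1
    · simp only [hxq, if_false, Option.some.injEq] at h
      omega

/-- statuses above the cut are read off the upper part -/
lemma ctr_upp {M : ℕ} (F : FL M) {x b q : ℕ} (hb : b ∣ M) (hq : q.Prime) (hx : x < q) :
    F.ctr (upp x b) q = F.ctr b q := by
  refine F.coh ((upp_dvd_self x b).trans hb) hb hq fun r _ hqr _ => ?_
  rw [fact_upp, if_pos (by omega)]

/-- pairs `b, c ∣ M` with different parts above `x`, equal letters in `(x, y]`, good at the cut
`y ≥ x` and without deficits above `y`, have pure upper parts -/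
lemma pureG_upp {M : ℕ} (hM : 0 < M) (F : FL M) {x y b c : ℕ} (hxy : x ≤ y) (hb : b ∣ M)
    (hc : c ∣ M) (hne : upp x b ≠ upp x c) (hg : F.good y b c)
    (hmid : ∀ q, q.Prime → x < q → q ≤ y → b.factorization q = c.factorization q)
    (h1 : F.ell y b = 1) (h2 : F.ell y c = 1) :
    PureG (hiFL hM x F) (upp x b) (upp x c) := by
  refine ⟨hne, fun q hq hr => ?_⟩
  obtain ⟨r, hr, hrq, hrne⟩ := hr
  rw [fact_upp, fact_upp] at hrne
  have hxr : ¬ r ≤ x := by
    intro hcon
    rw [if_neg (by omega), if_neg (by omega)] at hrne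
    exact hrne rfl
  rw [if_pos hxr, if_pos hxr] at hrne
  have hyr : y < r := by
    by_contra hcon
    exact hrne (hmid r hr (by omega) (by omega))
  have hyq : y < q := by omega
  have hxq : x < q := by omega
  have hctr : (hiFL hM x F).ctr (upp x b) q = F.ctr b q := by
    show (if x < q then F.ctr (upp x b) q else some 0) = _
    rw [if_pos hxq, ctr_upp F hb hq hxq]
  rw [hctr, fact_upp, fact_upp, if_pos (by omega), if_pos (by omega)]
  refine ⟨fun hn => hg.1 q hq hyq hn, fun v hv => ?_⟩
  have hv' : F.ctr c q = some v := by rw [← FL.ctr_eq hb hc hg.1 hq hyq.le]; exact hv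
  have e1 : v ≤ b.factorization q := by
    by_contra hcon
    have := FL.dvd_ell (F := F) hM hb hq hyq hv (by omega)
    rw [h1] at this
    exact hq.one_lt.ne' (Nat.dvd_one.1 this)
  have e2 : v ≤ c.factorization q := by
    by_contra hcon
    have := FL.dvd_ell (F := F) hM hc hq hyq hv' (by omega)
    rw [h2] at this
    exact hq.one_lt.ne' (Nat.dvd_one.1 this)
  rcases hg.2 q hq hyq v hv with h3 | h3 <;> omega

open Classical in
/-- **Pure part of Theorem C / MX over an F-Λ structure** -/
theorem pureFL_energy {M : ℕ} (hM : 0 < M) (F : FL M) (f : ℕ → ℝ) (hf : ∀ b, 0 ≤ f b) :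
    frm M (fun b c => if PureG F b c then f b * f c else 0) ≤
      ∑ b ∈ M.divisors, nu M b * (f b ^ 2 * (4 - 3 * ((b:ℝ) * nu M b))) :=
  pure_energyC (pureRelC_of_FL M hM F) f hf

open Classical in
theorem pureFL_energy' {M : ℕ} (hM : 0 < M) (F : FL M) (f : ℕ → ℝ) (hf : ∀ b, 0 ≤ f b) :
    frm M (fun b c => if PureG F b c then f b * f c else 0) ≤
      4 * ∑ b ∈ M.divisors, nu M b * f b ^ 2 :=
  pure_energyC' (pureRelC_of_FL M hM F) f hf

end Crest.Agent.R4C.PureL2x232
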