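import Crest.Agent.R4C.Asm_946
import Crest.Agent.R4C.MX_946
import Crest.Agent.R4C.PureFL_232

/-!
# Assembly with level sets (BLOCK S3 v1.2, note 3174; 52's 3113), helper946

* `SetBd M R E` : `Σ_{z ∈ S, z' ∈ S', R z z'} gcd ν ν ≤ E (ν S ν S')^(1/2)` for all sets `S, S'`
  of divisors of `M`; closed under unions (`or`, `exists_mem`), `diag` (constant 1),
  `of_quad` (from a quadratic bound with constant `C`, constant `4 C`), `pureC` (constant 16),
  `pureFL` (constant 16)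
* `asm_levels` : general level functions, kernel `A i Ψ(k,k') (w k w' k')^(1/2)`
* `schur_a`, `schur_b` : the two Schur forms
* `mxA` : MX(A), light members, one theorem
-/

set_option autoImplicit false

namespace Crest.Agent.R4C.AsmLevx946

open Finset Crest.Agent.R4C.Basex935 Crest.Agent.R4C.Asmx946

open Classical in
/-- bilinear bound for sets -/
def SetBd (M : ℕ) (R : ℕ → ℕ → Prop) (E : ℝ) : Prop :=
  ∀ S S' : Finset ℕ, S ⊆ M.divisors → S' ⊆ M.divisors →
    ∑ z ∈ S, ∑ z' ∈ S', (if R z z' then (Nat.gcd z z' : ℝ) * nu M z * nu M z' else 0) ≤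
      E * √((∑ z ∈ S, nu M z) * ∑ z ∈ S', nu M z)

lemma term_nonneg (M z z' : ℕ) : 0 ≤ (Nat.gcd z z' : ℝ) * nu M z * nu M z' :=
  mul_nonneg (mul_nonneg (Nat.cast_nonneg _) (nu_nonneg _ _)) (nu_nonneg _ _)

lemma sum_nu_nonneg (M : ℕ) (S : Finset ℕ) : 0 ≤ ∑ z ∈ S, nu M z :=
  Finset.sum_nonneg fun z _ => nu_nonneg M z

namespace SetBd

variable {M : ℕ} {R R' : ℕ → ℕ → Prop} {E E' : ℝ}

lemma mono (h : SetBd M R E) (hR : ∀ z z', z ∣ M → z' ∣ M → R' z z' → R z z') (hE : E ≤ E') :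
    SetBd M R' E' := by
  classical
  intro S S' hS hS'
  refine le_trans ?_ ((h S S' hS hS').trans (mul_le_mul_of_nonneg_right hE (Real.sqrt_nonneg _)))
  refine Finset.sum_le_sum fun z hz => Finset.sum_le_sum fun z' hz' => ?_
  have h1 := (Nat.mem_divisors.1 (hS hz)).1
  have h2 := (Nat.mem_divisors.1 (hS' hz')).1
  by_cases h3 : R' z z'
  · rw [if_pos h3, if_pos (hR z z' h1 h2 h3)]
  · rw [if_neg h3]
    split_ifs
    · exact term_nonneg M z z'
    · exact le_rfl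

lemma or (h : SetBd M R E) (h' : SetBd M R' E') :
    SetBd M (fun z z' => R z z' ∨ R' z z') (E + E') := by
  classical
  intro S S' hS hS'
  rw [add_mul]
  refine le_trans ?_ (add_le_add (h S S' hS hS') (h' S S' hS hS'))
  rw [← Finset.sum_add_distrib]
  refine Finset.sum_le_sum fun z hz => ?_
  rw [← Finset.sum_add_distrib]
  refine Finset.sum_le_sum fun z' hz' => ?_
  have h0 := term_nonneg M z z'
  by_cases h1 : R z z' <;> by_cases h2 : R' z z' <;> (simp [h1, h2]; try linarith)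

lemma exists_mem {τ : Type*} {T : Finset τ} {N : τ → ℕ → ℕ → Prop} {ε : τ → ℝ}
    (h : ∀ t ∈ T, SetBd M (N t) (ε t)) :
    SetBd M (fun z z' => ∃ t ∈ T, N t z z') (∑ t ∈ T, ε t) := by
  classical
  intro S S' hS hS'
  rw [Finset.sum_mul]
  refine le_trans ?_ (Finset.sum_le_sum fun t ht => h t ht S S' hS hS')
  have e : ∑ t ∈ T, ∑ z ∈ S, ∑ z' ∈ S',
      (if N t z z' then (Nat.gcd z z' : ℝ) * nu M z * nu M z' else 0) =
      ∑ z ∈ S, ∑ z' ∈ S', ∑ t ∈ T,
        (if N t z z' then (Nat.gcd z z' : ℝ) * nu M z * nu M z' else 0) := by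
    rw [Finset.sum_comm]
    exact Finset.sum_congr rfl fun z _ => Finset.sum_comm
  rw [e]
  refine Finset.sum_le_sum fun z hz => Finset.sum_le_sum fun z' hz' => ?_
  have h0 := term_nonneg M z z'
  have hs : ∀ t ∈ T, 0 ≤ (if N t z z' then (Nat.gcd z z' : ℝ) * nu M z * nu M z' else 0) := by
    intro t _
    split_ifs
    · exact h0
    · exact le_rfl
  split_ifs with h1
  · obtain ⟨t, ht, h2⟩ := h1
    have h3 := Finset.single_le_sum hs ht
    rwa [if_pos h2] at h3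
  · exact Finset.sum_nonneg hs

lemma diag (M : ℕ) : SetBd M (fun z z' => z = z') 1 := by
  classical
  intro S S' hS hS'
  have h1 : ∑ z ∈ S, ∑ z' ∈ S', (if z = z' then (Nat.gcd z z' : ℝ) * nu M z * nu M z' else 0) ≤
      ∑ z ∈ S ∩ S', nu M z := by
    rw [← Finset.sum_filter_add_sum_filter_not S (fun z => z ∈ S')]
    have e1 : S.filter (fun z => z ∈ S') = S ∩ S' := by
      ext z; simp
    rw [e1]
    have e2 : ∑ z ∈ S with ¬ z ∈ S', ∑ z' ∈ S',
        (if z = z' then (Nat.gcd z z' : ℝ) * nu M z * nu M z' else 0) = 0 := by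
      refine Finset.sum_eq_zero fun z hz => Finset.sum_eq_zero fun z' hz' => ?_
      rw [Finset.mem_filter] at hz
      rw [if_neg (fun h : z = z' => hz.2 (by rw [h]; exact hz'))]
    rw [e2, add_zero]
    refine Finset.sum_le_sum fun z hz => ?_
    rw [Finset.mem_inter] at hz
    rw [Finset.sum_ite_eq, if_pos hz.2, Nat.gcd_self]
    have h3 := PureL2x232.V_le (Nat.mem_divisors.1 (hS hz.1)).1
    calc (z : ℝ) * nu M z * nu M z ≤ 1 * nu M z := mul_le_mul_of_nonneg_right h3 (nu_nonneg _ _)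
      _ = nu M z := one_mul _
  have h2 : ∑ z ∈ S ∩ S', nu M z ≤ ∑ z ∈ S, nu M z :=
    Finset.sum_le_sum_of_subset_of_nonneg Finset.inter_subset_left fun z _ _ => nu_nonneg _ _
  have h3 : ∑ z ∈ S ∩ S', nu M z ≤ ∑ z ∈ S', nu M z :=
    Finset.sum_le_sum_of_subset_of_nonneg Finset.inter_subset_right fun z _ _ => nu_nonneg _ _
  rw [one_mul]
  refine le_trans (le_of_eq ?_) (h1.trans (Real.le_sqrt_of_sq_le ?_))
  · refine Finset.sum_congr rfl fun z _ => Finset.sum_congr rfl fun z' _ => ?_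
    by_cases h5 : z = z' <;> simp [h5]
  rw [sq]
  exact mul_le_mul h2 h3 (sum_nu_nonneg _ _) (sum_nu_nonneg _ _)

open Classical in
/-- from a quadratic bound for functions -/
lemma of_quad {C : ℝ} (hC : 0 ≤ C)
    (h : ∀ f : ℕ → ℝ, (∀ z, 0 ≤ f z) → frm M (fun z z' => if R z z' then f z * f z' else 0) ≤
      C * ∑ z ∈ M.divisors, nu M z * f z ^ 2) : SetBd M R (4 * C) := by
  intro S S' hS hS'
  set a := ∑ z ∈ S, nu M z with ha
  set a' := ∑ z ∈ S', nu M z with ha'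
  have ha0 : 0 ≤ a := sum_nu_nonneg _ _
  have ha0' : 0 ≤ a' := sum_nu_nonneg _ _
  rcases ha0.eq_or_lt with h0 | h0
  · have h1 : ∀ z ∈ S, nu M z = 0 := (Finset.sum_eq_zero_iff_of_nonneg fun z _ => nu_nonneg M z).1
      h0.symm
    rw [← h0, zero_mul, Real.sqrt_zero, mul_zero]
    refine le_of_eq (Finset.sum_eq_zero fun z hz => Finset.sum_eq_zero fun z' _ => ?_)
    rw [h1 z hz]
    simp
  rcases ha0'.eq_or_lt with h0' | h0'
  · have h1 : ∀ z ∈ S', nu M z = 0 := (Finset.sum_eq_zero_iff_of_nonneg fun z _ => nu_nonneg M z).1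
      h0'.symm
    rw [← h0', mul_zero, Real.sqrt_zero, mul_zero]
    refine le_of_eq (Finset.sum_eq_zero fun z _ => Finset.sum_eq_zero fun z' hz' => ?_)
    rw [h1 z' hz']
    simp
  -- both masses positive
  set q := √(a' / a) with hq
  have hq0 : 0 < q := Real.sqrt_pos.2 (div_pos h0' h0)
  set x := √q with hx
  have hx0 : 0 < x := Real.sqrt_pos.2 hq0
  have hxx : x * x = q := Real.mul_self_sqrt hq0.le
  set f : ℕ → ℝ := fun z => (if z ∈ S then x else 0) + (if z ∈ S' then x⁻¹ else 0) with hf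
  have hf0 : ∀ z, 0 ≤ f z := by
    intro z
    simp only [hf]
    have := inv_pos.2 hx0
    split_ifs <;> positivity
  have h1 : ∑ z ∈ S, ∑ z' ∈ S', (if R z z' then (Nat.gcd z z' : ℝ) * nu M z * nu M z' else 0) ≤
      frm M (fun z z' => if R z z' then f z * f z' else 0) := by
    unfold frm
    have hnn : ∀ z z', 0 ≤ (Nat.gcd z z' : ℝ) * nu M z * nu M z' *
        (if R z z' then f z * f z' else 0) := by
      intro z z'
      refine mul_nonneg (term_nonneg M z z') ?_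
      split_ifs
      · exact mul_nonneg (hf0 z) (hf0 z')
      · exact le_rfl
    calc ∑ z ∈ S, ∑ z' ∈ S', (if R z z' then (Nat.gcd z z' : ℝ) * nu M z * nu M z' else 0)
        ≤ ∑ z ∈ S, ∑ z' ∈ S', (Nat.gcd z z' : ℝ) * nu M z * nu M z' *
            (if R z z' then f z * f z' else 0) := by
          refine Finset.sum_le_sum fun z hz => Finset.sum_le_sum fun z' hz' => ?_
          have h2 : 1 ≤ f z * f z' := by
            have e1 : x ≤ f z := by
              simp only [hf, if_pos hz]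
              have := inv_pos.2 hx0
              split_ifs <;> linarith
            have e2 : x⁻¹ ≤ f z' := by
              simp only [hf, if_pos hz']
              split_ifs <;> linarith
            calc (1 : ℝ) = x * x⁻¹ := (mul_inv_cancel₀ hx0.ne').symm
              _ ≤ f z * f z' := mul_le_mul e1 e2 (inv_pos.2 hx0).le (hf0 z)
          split_ifs
          · calc (Nat.gcd z z' : ℝ) * nu M z * nu M z' = (Nat.gcd z z' : ℝ) * nu M z * nu M z' * 1 := (mul_one _).symm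
              _ ≤ _ := mul_le_mul_of_nonneg_left h2 (term_nonneg M z z')
          · rw [mul_zero]
      _ ≤ ∑ z ∈ S, ∑ z' ∈ M.divisors, (Nat.gcd z z' : ℝ) * nu M z * nu M z' *
            (if R z z' then f z * f z' else 0) :=
          Finset.sum_le_sum fun z _ => Finset.sum_le_sum_of_subset_of_nonneg hS'
            fun z' _ _ => hnn z z'
      _ ≤ _ := Finset.sum_le_sum_of_subset_of_nonneg hS
            fun z _ _ => Finset.sum_nonneg fun z' _ => hnn z z'
  have h2 : ∑ z ∈ M.divisors, nu M z * f z ^ 2 ≤ 2 * (q * a + q⁻¹ * a') := by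
    have e1 : ∀ z, f z ^ 2 ≤ 2 * ((if z ∈ S then q else 0) + (if z ∈ S' then q⁻¹ else 0)) := by
      intro z
      have hqi : q⁻¹ = x⁻¹ * x⁻¹ := by rw [← hxx, mul_inv]
      simp only [hf]
      rw [hqi, ← hxx]
      have h3 : x * x⁻¹ = 1 := mul_inv_cancel₀ hx0.ne'
      have h4 := sq_nonneg (x - x⁻¹)
      have h5 := inv_pos.2 hx0
      split_ifs <;> nlinarith
    calc ∑ z ∈ M.divisors, nu M z * f z ^ 2
        ≤ ∑ z ∈ M.divisors, nu M z * (2 * ((if z ∈ S then q else 0) + (if z ∈ S' then q⁻¹ else 0))) :=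
          Finset.sum_le_sum fun z _ => mul_le_mul_of_nonneg_left (e1 z) (nu_nonneg _ _)
      _ = 2 * (q * (∑ z ∈ M.divisors, if z ∈ S then nu M z else 0) +
            q⁻¹ * (∑ z ∈ M.divisors, if z ∈ S' then nu M z else 0)) := by
          rw [Finset.mul_sum, Finset.mul_sum, ← Finset.sum_add_distrib, Finset.mul_sum]
          refine Finset.sum_congr rfl fun z _ => ?_
          split_ifs <;> ring
      _ = 2 * (q * a + q⁻¹ * a') := by
          have e2 : ∀ U : Finset ℕ, U ⊆ M.divisors →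
              (∑ z ∈ M.divisors, if z ∈ U then nu M z else 0) = ∑ z ∈ U, nu M z := by
            intro U hU
            rw [← Finset.sum_filter]
            congr 1
            ext z
            rw [Finset.mem_filter]
            exact ⟨fun h => h.2, fun h => ⟨hU h, h⟩⟩
          rw [e2 S hS, e2 S' hS']
  have h3 : q * a = √(a * a') := by
    rw [hq, Real.sqrt_div' _ h0.le, Real.sqrt_mul h0.le]
    have h4 : √a * √a = a := Real.mul_self_sqrt h0.le
    have h5 : 0 < √a := Real.sqrt_pos.2 h0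
    field_simp
    nlinarith [h4]
  have h4 : q⁻¹ * a' = √(a * a') := by
    rw [hq, Real.sqrt_div' _ h0.le, Real.sqrt_mul h0.le]
    have h4 : √a' * √a' = a' := Real.mul_self_sqrt h0'.le
    have h5 : 0 < √a' := Real.sqrt_pos.2 h0'
    have h6 : 0 < √a := Real.sqrt_pos.2 h0
    field_simp
    nlinarith [h4]
  calc _ ≤ C * ∑ z ∈ M.divisors, nu M z * f z ^ 2 := h1.trans (h f hf0)
    _ ≤ C * (2 * (q * a + q⁻¹ * a')) := mul_le_mul_of_nonneg_left h2 hC
    _ = 4 * C * √(a * a') := by rw [h3, h4]; ring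

lemma pure (h : PureL2x232.PureRel M R) : SetBd M R 16 := by
  have := of_quad (M := M) (R := R) (by norm_num : (0:ℝ) ≤ 4)
    (fun f hf => PureL2x232.pure_energy' h f hf)
  norm_num at this
  exact this

lemma pureC (h : PureL2x232.PureRelC M R) : SetBd M R 16 := by
  have := of_quad (M := M) (R := R) (by norm_num : (0:ℝ) ≤ 4)
    (fun f hf => PureL2x232.pure_energyC' h f hf)
  norm_num at this
  exact this

lemma pureFL (hM : 0 < M) (F : FLDefx935.FL M) : SetBd M (PureL2x232.PureG F) 16 :=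
  pureC (PureL2x232.pureRelC_of_FL M hM F)

/-- diagonal, pure pairs of an F-Λ structure, blocks of non-pure pairs -/
lemma total {τ : Type*} (hM : 0 < M) (F : FLDefx935.FL M) {T : Finset τ}
    {N : τ → ℕ → ℕ → Prop} {ε : τ → ℝ} (h : ∀ t ∈ T, SetBd M (N t) (ε t)) :
    SetBd M (fun z z' => z = z' ∨ PureL2x232.PureG F z z' ∨ ∃ t ∈ T, N t z z')
      (17 + ∑ t ∈ T, ε t) := by
  have h1 := (diag M).or ((pureFL hM F).or (exists_mem h))
  have e : (17 + ∑ t ∈ T, ε t : ℝ) = 1 + (16 + ∑ t ∈ T, ε t) := by ring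
  rw [e]
  exact h1

end SetBd


/-! ### General level functions -/

section levels

variable {κ κ' : Type*} [DecidableEq κ] [DecidableEq κ'] {M0 M1 : ℕ} {Φ : ℕ → ℕ → ℝ}
  {R : ℕ → ℕ → ℕ → Prop} {E : ℝ} {lev : ℕ → ℕ → κ} {lev' : ℕ → ℕ → κ'} {Lv : Finset κ}
  {Lv' : Finset κ'} {A : ℕ → ℝ} {w : κ → ℝ} {w' : κ' → ℝ} {Ψ : κ → κ' → ℝ}

/-- mass of a level -/
noncomputable def mm (M1 : ℕ) (lev : ℕ → ℕ → κ) (A : ℕ → ℝ) (w : κ → ℝ) (i : ℕ) (k : κ) : ℝ :=
  A i * w k * ∑ z ∈ M1.divisors with lev i z = k, nu M1 z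

lemma mm_nonneg (hA : ∀ i, 0 ≤ A i) (hw : ∀ k, 0 ≤ w k) (i : ℕ) (k : κ) :
    0 ≤ mm M1 lev A w i k :=
  mul_nonneg (mul_nonneg (hA i) (hw k)) (sum_nu_nonneg _ _)

/-- **assembly with levels** -/
theorem asm_levels (hco : Nat.Coprime M0 M1) (hM0 : 0 < M0)
    (hR : ∀ i, SetBd M1 (R i) E)
    (hA : ∀ i, 0 ≤ A i) (hw : ∀ k, 0 ≤ w k) (hw' : ∀ k, 0 ≤ w' k) (hΨ : ∀ k k', 0 ≤ Ψ k k')
    (hlow : ∀ i z z', z ∣ M1 → z' ∣ M1 → lowK M0 Φ i z z' ≠ 0 →
      R i z z' ∧ lev i z ∈ Lv ∧ lev' i z' ∈ Lv' ∧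
        lowK M0 Φ i z z' ≤ A i * (Ψ (lev i z) (lev' i z') * √(w (lev i z) * w' (lev' i z')))) :
    frm (M0 * M1) Φ ≤ E * ∑ i ∈ range (Nat.log 2 M0 + 1), ∑ k ∈ Lv, ∑ k' ∈ Lv',
      Ψ k k' * √(mm M1 lev A w i k * mm M1 lev' A w' i k') := by
  classical
  have key : ∀ i, frm M1 (fun z z' => lowK M0 Φ i z z') ≤
      E * ∑ k ∈ Lv, ∑ k' ∈ Lv', Ψ k k' * √(mm M1 lev A w i k * mm M1 lev' A w' i k') := by
    intro i
    set D := M1.divisors with hD
    set c : κ → κ' → ℝ := fun k k' => A i * (Ψ k k' * √(w k * w' k')) with hc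
    have hc0 : ∀ k k', 0 ≤ c k k' := fun k k' =>
      mul_nonneg (hA i) (mul_nonneg (hΨ k k') (Real.sqrt_nonneg _))
    set e : ℕ → ℕ → ℝ := fun z z' => (Nat.gcd z z' : ℝ) * nu M1 z * nu M1 z' with he
    have he0 : ∀ z z', 0 ≤ e z z' := fun z z' => term_nonneg M1 z z'
    -- pointwise bound
    have h1 : ∀ z ∈ D, ∀ z' ∈ D, e z z' * lowK M0 Φ i z z' ≤
        ∑ k ∈ Lv, ∑ k' ∈ Lv', (if lev i z = k ∧ lev' i z' = k' ∧ R i z z' then
          c k k' * e z z' else 0) := by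
      intro z hz z' hz'
      have hnn : ∀ k ∈ Lv, ∀ k' ∈ Lv', 0 ≤ (if lev i z = k ∧ lev' i z' = k' ∧ R i z z' then
          c k k' * e z z' else 0) := by
        intro k _ k' _
        split_ifs
        · exact mul_nonneg (hc0 k k') (he0 z z')
        · exact le_rfl
      by_cases h0 : lowK M0 Φ i z z' = 0
      · rw [h0, mul_zero]
        exact Finset.sum_nonneg fun k hk => Finset.sum_nonneg fun k' hk' => hnn k hk k' hk'
      · obtain ⟨hRz, hk, hk', hle⟩ := hlow i z z' (Nat.mem_divisors.1 hz).1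
          (Nat.mem_divisors.1 hz').1 h0
        calc e z z' * lowK M0 Φ i z z' ≤ e z z' * c (lev i z) (lev' i z') :=
              mul_le_mul_of_nonneg_left hle (he0 z z')
          _ = (if lev i z = lev i z ∧ lev' i z' = lev' i z' ∧ R i z z' then
                c (lev i z) (lev' i z') * e z z' else 0) := by
              rw [if_pos ⟨rfl, rfl, hRz⟩, mul_comm]
          _ ≤ ∑ k' ∈ Lv', (if lev i z = lev i z ∧ lev' i z' = k' ∧ R i z z' then
                c (lev i z) k' * e z z' else 0) :=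
              Finset.single_le_sum (f := fun k' => (if lev i z = lev i z ∧ lev' i z' = k' ∧ R i z z'
                then c (lev i z) k' * e z z' else 0)) (fun k' hk'' => hnn _ hk k' hk'') hk'
          _ ≤ _ := Finset.single_le_sum (f := fun k => ∑ k' ∈ Lv', (if lev i z = k ∧
                lev' i z' = k' ∧ R i z z' then c k k' * e z z' else 0))
                (fun k hk'' => Finset.sum_nonneg fun k' hk3 => hnn k hk'' k' hk3) hk
    have h2 : frm M1 (fun z z' => lowK M0 Φ i z z') ≤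
        ∑ k ∈ Lv, ∑ k' ∈ Lv', c k k' * ∑ z ∈ D with lev i z = k, ∑ z' ∈ D with lev' i z' = k',
          (if R i z z' then e z z' else 0) := by
      calc frm M1 (fun z z' => lowK M0 Φ i z z')
          = ∑ z ∈ D, ∑ z' ∈ D, e z z' * lowK M0 Φ i z z' := rfl
        _ ≤ ∑ z ∈ D, ∑ z' ∈ D, ∑ k ∈ Lv, ∑ k' ∈ Lv',
            (if lev i z = k ∧ lev' i z' = k' ∧ R i z z' then c k k' * e z z' else 0) :=
            Finset.sum_le_sum fun z hz => Finset.sum_le_sum fun z' hz' => h1 z hz z' hz'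
        _ = ∑ k ∈ Lv, ∑ k' ∈ Lv', ∑ z ∈ D, ∑ z' ∈ D,
            (if lev i z = k ∧ lev' i z' = k' ∧ R i z z' then c k k' * e z z' else 0) := by
            have s1 : ∀ z ∈ D, ∑ z' ∈ D, ∑ k ∈ Lv, ∑ k' ∈ Lv',
                (if lev i z = k ∧ lev' i z' = k' ∧ R i z z' then c k k' * e z z' else 0) =
                ∑ k ∈ Lv, ∑ k' ∈ Lv', ∑ z' ∈ D,
                (if lev i z = k ∧ lev' i z' = k' ∧ R i z z' then c k k' * e z z' else 0) := by
              intro z _
              rw [Finset.sum_comm]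
              exact Finset.sum_congr rfl fun k _ => Finset.sum_comm
            rw [Finset.sum_congr rfl s1, Finset.sum_comm]
            exact Finset.sum_congr rfl fun k _ => Finset.sum_comm
        _ = _ := by
            refine Finset.sum_congr rfl fun k _ => Finset.sum_congr rfl fun k' _ => ?_
            rw [Finset.mul_sum, Finset.sum_filter]
            refine Finset.sum_congr rfl fun z _ => ?_
            rw [Finset.mul_sum, Finset.sum_filter]
            by_cases hk : lev i z = k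
            · rw [if_pos hk]
              refine Finset.sum_congr rfl fun z' _ => ?_
              by_cases hk' : lev' i z' = k' <;> by_cases hr : R i z z' <;> simp [hk, hk', hr]
            · rw [if_neg hk]
              refine Finset.sum_eq_zero fun z' _ => ?_
              rw [if_neg (fun h => hk h.1)]
    refine h2.trans ?_
    rw [Finset.mul_sum]
    refine Finset.sum_le_sum fun k _ => ?_
    rw [Finset.mul_sum]
    refine Finset.sum_le_sum fun k' _ => ?_
    have h3 := hR i (D.filter (fun z => lev i z = k)) (D.filter (fun z => lev' i z = k'))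
      (Finset.filter_subset _ _) (Finset.filter_subset _ _)
    set a := ∑ z ∈ D with lev i z = k, nu M1 z with ha
    set a' := ∑ z ∈ D with lev' i z = k', nu M1 z with ha'
    have ha0 : 0 ≤ a := sum_nu_nonneg _ _
    have ha0' : 0 ≤ a' := sum_nu_nonneg _ _
    have h4 : √(mm M1 lev A w i k * mm M1 lev' A w' i k') = A i * (√(w k * w' k') * √(a * a')) := by
      have e1 : mm M1 lev A w i k * mm M1 lev' A w' i k' =
          A i ^ 2 * ((w k * w' k') * (a * a')) := by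
        unfold mm
        rw [← ha, ← ha']
        ring
      rw [e1, Real.sqrt_mul (sq_nonneg _), Real.sqrt_sq (hA i), Real.sqrt_mul
        (mul_nonneg (hw k) (hw' k'))]
    rw [h4]
    calc c k k' * ∑ z ∈ D with lev i z = k, ∑ z' ∈ D with lev' i z' = k',
          (if R i z z' then e z z' else 0)
        ≤ c k k' * (E * √(a * a')) := mul_le_mul_of_nonneg_left h3 (hc0 k k')
      _ = _ := by
        simp only [hc]
        ring
  calc frm (M0 * M1) Φ
      = frm M1 (fun z z' => ∑ i ∈ range (Nat.log 2 M0 + 1), lowK M0 Φ i z z') := by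
        rw [frm_mul hco]
        exact frm_congr fun z z' _ _ => frm_dy hM0 Φ z z'
    _ = ∑ i ∈ range (Nat.log 2 M0 + 1), frm M1 (fun z z' => lowK M0 Φ i z z') := frm_sum _ _
    _ ≤ ∑ i ∈ range (Nat.log 2 M0 + 1), E * ∑ k ∈ Lv, ∑ k' ∈ Lv',
          Ψ k k' * √(mm M1 lev A w i k * mm M1 lev' A w' i k') :=
        Finset.sum_le_sum fun i _ => key i
    _ = _ := by rw [Finset.mul_sum]

omit [DecidableEq κ] [DecidableEq κ'] in
/-- Schur test, rows and columns of `Ψ` bounded by `s` -/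
theorem schur_a {ι : Type*} (I : Finset ι) (Lv : Finset κ) (Lv' : Finset κ')
    {Ψ : κ → κ' → ℝ} (hΨ : ∀ k k', 0 ≤ Ψ k k') {s : ℝ}
    (h1 : ∀ k ∈ Lv, ∑ k' ∈ Lv', Ψ k k' ≤ s) (h2 : ∀ k' ∈ Lv', ∑ k ∈ Lv, Ψ k k' ≤ s)
    (hs : 0 ≤ s) {m : ι → κ → ℝ} {m' : ι → κ' → ℝ} (hm : ∀ i k, 0 ≤ m i k)
    (hm' : ∀ i k, 0 ≤ m' i k) {Q Q' : ℝ} (hQ : ∑ i ∈ I, ∑ k ∈ Lv, m i k ≤ Q)
    (hQ' : ∑ i ∈ I, ∑ k ∈ Lv', m' i k ≤ Q') :
    ∑ i ∈ I, ∑ k ∈ Lv, ∑ k' ∈ Lv', Ψ k k' * √(m i k * m' i k') ≤ s * √(Q * Q') := by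
  classical
  set P := (I ×ˢ (Lv ×ˢ Lv')) with hP
  have e0 : ∑ i ∈ I, ∑ k ∈ Lv, ∑ k' ∈ Lv', Ψ k k' * √(m i k * m' i k') =
      ∑ p ∈ P, Ψ p.2.1 p.2.2 * √(m p.1 p.2.1 * m' p.1 p.2.2) := by
    rw [hP, Finset.sum_product]
    refine Finset.sum_congr rfl fun i _ => ?_
    rw [Finset.sum_product]
  have h3 := Finset.sum_sq_le_sum_mul_sum_of_sq_le_mul P
    (r := fun p => Ψ p.2.1 p.2.2 * √(m p.1 p.2.1 * m' p.1 p.2.2))
    (f := fun p => Ψ p.2.1 p.2.2 * m p.1 p.2.1) (g := fun p => Ψ p.2.1 p.2.2 * m' p.1 p.2.2)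
    (fun p _ => mul_nonneg (hΨ _ _) (hm _ _)) (fun p _ => mul_nonneg (hΨ _ _) (hm' _ _))
    (fun p _ => by
      rw [mul_pow, Real.sq_sqrt (mul_nonneg (hm _ _) (hm' _ _))]
      exact le_of_eq (by ring))
  have hQ0 : 0 ≤ Q := (Finset.sum_nonneg fun i _ => Finset.sum_nonneg fun k _ => hm i k).trans hQ
  have hQ0' : 0 ≤ Q' :=
    (Finset.sum_nonneg fun i _ => Finset.sum_nonneg fun k _ => hm' i k).trans hQ'
  have h4 : ∑ p ∈ P, Ψ p.2.1 p.2.2 * m p.1 p.2.1 ≤ s * Q := by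
    rw [hP, Finset.sum_product]
    calc ∑ i ∈ I, ∑ y ∈ Lv ×ˢ Lv', Ψ y.1 y.2 * m i y.1
        = ∑ i ∈ I, ∑ k ∈ Lv, (∑ k' ∈ Lv', Ψ k k') * m i k := by
          refine Finset.sum_congr rfl fun i _ => ?_
          rw [Finset.sum_product]
          refine Finset.sum_congr rfl fun k _ => ?_
          rw [Finset.sum_mul]
      _ ≤ ∑ i ∈ I, ∑ k ∈ Lv, s * m i k := Finset.sum_le_sum fun i _ =>
          Finset.sum_le_sum fun k hk => mul_le_mul_of_nonneg_right (h1 k hk) (hm i k)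
      _ = s * ∑ i ∈ I, ∑ k ∈ Lv, m i k := by
          rw [Finset.mul_sum]
          exact Finset.sum_congr rfl fun i _ => by rw [Finset.mul_sum]
      _ ≤ s * Q := mul_le_mul_of_nonneg_left hQ hs
  have h5 : ∑ p ∈ P, Ψ p.2.1 p.2.2 * m' p.1 p.2.2 ≤ s * Q' := by
    rw [hP, Finset.sum_product]
    calc ∑ i ∈ I, ∑ y ∈ Lv ×ˢ Lv', Ψ y.1 y.2 * m' i y.2
        = ∑ i ∈ I, ∑ k' ∈ Lv', (∑ k ∈ Lv, Ψ k k') * m' i k' := by
          refine Finset.sum_congr rfl fun i _ => ?_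
          rw [Finset.sum_product, Finset.sum_comm]
          refine Finset.sum_congr rfl fun k _ => ?_
          rw [Finset.sum_mul]
      _ ≤ ∑ i ∈ I, ∑ k ∈ Lv', s * m' i k := Finset.sum_le_sum fun i _ =>
          Finset.sum_le_sum fun k hk => mul_le_mul_of_nonneg_right (h2 k hk) (hm' i k)
      _ = s * ∑ i ∈ I, ∑ k ∈ Lv', m' i k := by
          rw [Finset.mul_sum]
          exact Finset.sum_congr rfl fun i _ => by rw [Finset.mul_sum]
      _ ≤ s * Q' := mul_le_mul_of_nonneg_left hQ' hs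
  rw [e0]
  refine Real.le_sqrt_of_sq_le (h3.trans (mul_le_mul h4 h5 ?_ (mul_nonneg hs hQ0))) |>.trans ?_
  · exact Finset.sum_nonneg fun p _ => mul_nonneg (hΨ _ _) (hm' _ _)
  · apply le_of_eq
    rw [show s * Q * (s * Q') = s ^ 2 * (Q * Q') by ring, Real.sqrt_mul (sq_nonneg _),
      Real.sqrt_sq hs]

omit [DecidableEq κ] [DecidableEq κ'] in
/-- Schur test, masses summable over `i` at every level -/
theorem schur_b {ι : Type*} (I : Finset ι) (Lv : Finset κ) (Lv' : Finset κ')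
    {Ψ : κ → κ' → ℝ} (hΨ : ∀ k k', 0 ≤ Ψ k k')
    {m : ι → κ → ℝ} {m' : ι → κ' → ℝ} (hm : ∀ i k, 0 ≤ m i k)
    (hm' : ∀ i k, 0 ≤ m' i k) {Q Q' : ℝ} (hQ : ∀ k ∈ Lv, ∑ i ∈ I, m i k ≤ Q)
    (hQ' : ∀ k ∈ Lv', ∑ i ∈ I, m' i k ≤ Q') :
    ∑ i ∈ I, ∑ k ∈ Lv, ∑ k' ∈ Lv', Ψ k k' * √(m i k * m' i k') ≤
      (∑ k ∈ Lv, ∑ k' ∈ Lv', Ψ k k') * √(Q * Q') := by
  classical
  have e0 : ∑ i ∈ I, ∑ k ∈ Lv, ∑ k' ∈ Lv', Ψ k k' * √(m i k * m' i k') =
      ∑ k ∈ Lv, ∑ k' ∈ Lv', Ψ k k' * ∑ i ∈ I, √(m i k * m' i k') := by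
    rw [Finset.sum_comm]
    refine Finset.sum_congr rfl fun k _ => ?_
    rw [Finset.sum_comm]
    refine Finset.sum_congr rfl fun k' _ => ?_
    rw [Finset.mul_sum]
  rw [e0, Finset.sum_mul]
  refine Finset.sum_le_sum fun k hk => ?_
  rw [Finset.sum_mul]
  refine Finset.sum_le_sum fun k' hk' => ?_
  refine mul_le_mul_of_nonneg_left ?_ (hΨ k k')
  have h3 := Finset.sum_sq_le_sum_mul_sum_of_sq_le_mul I
    (r := fun i => √(m i k * m' i k')) (f := fun i => m i k) (g := fun i => m' i k')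
    (fun i _ => hm i k) (fun i _ => hm' i k')
    (fun i _ => by rw [Real.sq_sqrt (mul_nonneg (hm i k) (hm' i k'))])
  have hQ0 : 0 ≤ Q := (Finset.sum_nonneg fun i _ => hm i k).trans (hQ k hk)
  exact Real.le_sqrt_of_sq_le (h3.trans (mul_le_mul (hQ k hk) (hQ' k' hk')
    (Finset.sum_nonneg fun i _ => hm' i k') hQ0))

end levels

/-! ### MX(A) -/

open Classical in
/-- **MX(A)**: low HVW with relation (exponent `(1+η)/2`), both members light, high set bound. -/
theorem mxA {M0 M1 : ℕ} (hco : Nat.Coprime M0 M1) (hM0 : 0 < M0) {Φ : ℕ → ℕ → ℝ}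
    (hΦ : ∀ b c, 0 ≤ Φ b c) {V V' : ℕ → ℝ} (hV : ∀ z, 0 ≤ V z) (hV' : ∀ z, 0 ≤ V' z)
    {C1 Γ η E : ℝ} (hC1 : 0 ≤ C1) (hE : 0 ≤ E) (hη : 0 < η) (hη1 : η ≤ 1) (hΓ : 1 ≤ Γ)
    {R : ℕ → ℕ → ℕ → Prop} (hR : ∀ i, SetBd M1 (R i) E)
    (hlow : ∀ i z z', z ∣ M1 → z' ∣ M1 → lowK M0 Φ i z z' ≤
      C1 * ((2 : ℝ) ^ i)⁻¹ * ((2 ^ i * V z) * (2 ^ i * V' z')) ^ ((1 + η) / 2))
    (hcls : ∀ i z z', z ∣ M1 → z' ∣ M1 → lowK M0 Φ i z z' ≠ 0 →
      2 ^ i * V z ≤ Γ ∧ 2 ^ i * V' z' ≤ Γ ∧ R i z z') :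
    frm (M0 * M1) Φ ≤ 4 * C1 * E * MXx946.GK (η / 2) 0 Γ ^ 2 *
      √((∑ z ∈ M1.divisors, nu M1 z * V z) * ∑ z ∈ M1.divisors, nu M1 z * V' z) := by
  have h := MXx946.mx_core (S := M1.divisors) (S' := M1.divisors)
    (I := range (Nat.log 2 M0 + 1)) (n := nu M1) (V := V) (V' := V') (L := 1)
    (e := fun z z' => (Nat.gcd z z' : ℝ)) (gam := R) (ell := fun i z z' => lowK M0 Φ i z z')
    (C1 := C1) (C2 := E) (ρ := (1 + η) / 2) (η := 0) (K := Γ)
    (fun z => nu_nonneg _ _) hV hV' zero_le_one (fun _ _ => Nat.cast_nonneg _)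
    (fun i z z' => lowK_nonneg hΦ i z z') hC1 hE le_rfl (by linarith) (by linarith) hΓ
    (fun i _ z hz z' hz' hn => by
      by_contra h0
      exact hn (hcls i z z' (Nat.mem_divisors.1 hz).1 (Nat.mem_divisors.1 hz').1 h0).2.2)
    (fun i _ z hz z' hz' h0 => by
      have := hcls i z z' (Nat.mem_divisors.1 hz).1 (Nat.mem_divisors.1 hz').1 h0
      exact ⟨this.1, this.2.1⟩)
    (fun i _ z hz z' hz' => hlow i z z' (Nat.mem_divisors.1 hz).1 (Nat.mem_divisors.1 hz').1)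
    (fun i _ S hS S' hS' => by
      have h1 := hR i S S' hS hS'
      have h2 : (0 : ℝ) < 2 ^ i := by positivity
      rw [Real.rpow_zero, mul_one]
      have e1 : ∀ a a' : ℝ, √((1 / 2 ^ i * a) * (1 / 2 ^ i * a')) = 1 / 2 ^ i * √(a * a') := by
        intro a a'
        rw [show (1 / 2 ^ i * a) * (1 / 2 ^ i * a') = (1 / 2 ^ i : ℝ) ^ 2 * (a * a') by ring,
          Real.sqrt_mul (sq_nonneg _), Real.sqrt_sq (by positivity)]
      rw [e1]
      calc ∑ z ∈ S, ∑ z' ∈ S', (if R i z z' then 1 / 2 ^ i * (Nat.gcd z z' : ℝ) * nu M1 z * nu M1 z' else 0)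
          = 1 / 2 ^ i * ∑ z ∈ S, ∑ z' ∈ S', (if R i z z' then (Nat.gcd z z' : ℝ) * nu M1 z * nu M1 z' else 0) := by
            rw [Finset.mul_sum]
            refine Finset.sum_congr rfl fun z _ => ?_
            rw [Finset.mul_sum]
            refine Finset.sum_congr rfl fun z' _ => ?_
            split_ifs
            · ring
            · rw [mul_zero]
        _ ≤ 1 / 2 ^ i * (E * √((∑ z ∈ S, nu M1 z) * ∑ z ∈ S', nu M1 z)) :=
            mul_le_mul_of_nonneg_left h1 (by positivity)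
        _ = _ := by ring)
  have e2 : frm (M0 * M1) Φ = ∑ i ∈ range (Nat.log 2 M0 + 1), ∑ z ∈ M1.divisors,
      ∑ z' ∈ M1.divisors, 1 * (Nat.gcd z z' : ℝ) * nu M1 z * nu M1 z' * lowK M0 Φ i z z' := by
    calc frm (M0 * M1) Φ
        = frm M1 (fun z z' => ∑ i ∈ range (Nat.log 2 M0 + 1), lowK M0 Φ i z z') := by
          rw [frm_mul hco]
          exact frm_congr fun z z' _ _ => frm_dy hM0 Φ z z'
      _ = ∑ i ∈ range (Nat.log 2 M0 + 1), frm M1 (fun z z' => lowK M0 Φ i z z') := frm_sum _ _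
      _ = _ := by
          refine Finset.sum_congr rfl fun i _ => ?_
          unfold frm
          refine Finset.sum_congr rfl fun z _ => Finset.sum_congr rfl fun z' _ => ?_
          ring
  rw [e2]
  refine h.trans (le_of_eq ?_)
  rw [Real.rpow_zero, Real.rpow_zero, one_mul, one_mul, one_mul, mul_one,
    show (1 + η) / 2 - 1 / 2 = η / 2 by ring]

end Crest.Agent.R4C.AsmLevx946
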