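import Crest.Agent.R4C.NonPureBlk_559
import Crest.Agent.R4C.AsmLev_946

/-!
# Row 4: kept pairs above a cut (helper559)

* transport to `hiFL hM y F : FL (upp y M)` : `hi_same`, `hi_good`, `hi_ell`
* `np_SetBd`   : non-pure good pairs of all blocks `j ≥ j0` : `SetBd … (C ((√2)⁻¹)^j0)`
* `KZ G j0`    : `z = z'`, pure, or non-pure of a block `≥ j0`
* `kept_SetBd` : `SetBd (upp y M) (KZ (hiFL hM y F) j0) E`, `E` absolute
* `KeptAt F y j b c` : letters equal in `(y, Xj j]`, a differing prime in `(y, Xj (j+1)]`,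
  `F.good (max y (Xj j)) b c`
* `kept_cases` : `KeptAt` (or equal upper parts) implies `KZ` for the upper parts
-/

set_option autoImplicit false

open Finset
open Crest.Agent.R4C.Basex935 Crest.Agent.R4C.Cutx50 Crest.Agent.R4C.FLDefx935
open Crest.Agent.R4C.NonPurex559 Crest.Agent.R4C.NonPureFLx559 Crest.Agent.R4C.NonPure2x559
open Crest.Agent.R4C.NonPureBlkx559 Crest.Agent.R4C.PureL2x232 Crest.Agent.R4C.AsmLevx946

namespace Crest.Agent.R4C.Keptx559

/-! ### transport -/

section transport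

variable {M : ℕ} (hM : 0 < M) (F : FL M) {y x b c : ℕ}

lemma hi_ctr (z q : ℕ) : (hiFL hM y F).ctr z q = if y < q then F.ctr z q else some 0 := rfl

lemma hi_ctr_upp {q : ℕ} (hb : b ∣ M) (hq : q.Prime) (hy : y < q) :
    (hiFL hM y F).ctr (upp y b) q = F.ctr b q := by
  rw [hi_ctr, if_pos hy, ctr_upp F hb hq hy]

lemma hi_same (hb : b ∣ M) (h : F.same (max y x) b c) :
    (hiFL hM y F).same x (upp y b) (upp y c) := by
  intro q hq hx hn
  by_cases hy : y < q
  · rw [hi_ctr_upp hM F hb hq hy] at hn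
    rw [fact_upp, fact_upp, if_pos (by omega), if_pos (by omega)]
    exact h q hq (max_lt hy hx) hn
  · rw [hi_ctr, if_neg hy] at hn
    cases hn

lemma hi_good (hb : b ∣ M) (h : F.good (max y x) b c) :
    (hiFL hM y F).good x (upp y b) (upp y c) := by
  refine ⟨hi_same hM F hb h.1, fun q hq hx v hv => ?_⟩
  by_cases hy : y < q
  · rw [hi_ctr_upp hM F hb hq hy] at hv
    rw [fact_upp, fact_upp, if_pos (by omega), if_pos (by omega)]
    exact h.2 q hq (max_lt hy hx) v hv
  · rw [hi_ctr, if_neg hy] at hv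
    left
    rw [fact_upp, if_neg (by omega)]
    simpa using hv

lemma mem_pf_upp {p : ℕ} (hM : 0 < M) (hy : y < p) : p ∈ (upp y M).primeFactors ↔ p ∈ M.primeFactors := by
  rw [← Nat.support_factorization, ← Nat.support_factorization, Finsupp.mem_support_iff,
    Finsupp.mem_support_iff, fact_upp, if_pos (by omega)]

lemma hi_ell (hb : b ∣ M) :
    (hiFL hM y F).ell x (upp y b) = F.ell (max y x) b := by
  refine Nat.eq_of_factorization_eq (FL.ell_pos _ _).ne' (FL.ell_pos _ _).ne' fun p => ?_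
  rw [FL.fact_ell, FL.fact_ell]
  by_cases hpp : p.Prime
  · by_cases hy : y < p
    · by_cases hpm : p ∈ M.primeFactors
      · rw [if_pos ((mem_pf_upp hM hy).2 hpm), if_pos hpm]
        unfold FL.ellE
        have hf : (upp y b).factorization p = b.factorization p := by
          rw [fact_upp, if_pos (by omega)]
        rw [hi_ctr_upp hM F hb hpp hy, hf]
        by_cases hx : x < p
        · rw [if_pos hx, if_pos (max_lt hy hx)]
        · rw [if_neg hx, if_neg (fun h => hx (lt_of_le_of_lt (le_max_right _ _) h))]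
      · rw [if_neg (fun h => hpm ((mem_pf_upp hM hy).1 h)), if_neg hpm]
    · have h1 : p ∉ (upp y M).primeFactors := by
        rw [← Nat.support_factorization, Finsupp.mem_support_iff, fact_upp, if_neg (by omega)]
        simp
      rw [if_neg h1]
      unfold FL.ellE
      rw [if_neg (fun h => hy (lt_of_le_of_lt (le_max_left y x) h))]
      simp
  · rw [if_neg (fun h => hpp (Nat.prime_of_mem_primeFactors h)),
      if_neg (fun h => hpp (Nat.prime_of_mem_primeFactors h))]

lemma hi_lam (hb : b ∣ M) :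
    (hiFL hM y F).lam x (upp y b) = F.lam (max y x) b := by
  have hup : 0 < upp y M := upp_pos _ _
  refine Nat.eq_of_factorization_eq (FL.lam_pos _ _).ne' (FL.lam_pos _ _).ne' fun p => ?_
  rw [FL.fact_lam hup (upp_dvd y hM.ne' hb), FL.fact_lam hM hb]
  by_cases hpp : p.Prime
  · by_cases hy : y < p
    · by_cases hpm : p ∈ M.primeFactors
      · rw [if_pos ((mem_pf_upp hM hy).2 hpm), if_pos hpm]
        unfold FL.lamE
        have hf : (upp y b).factorization p = b.factorization p := by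
          rw [fact_upp, if_pos (by omega)]
        rw [hi_ctr_upp hM F hb hpp hy, hf]
        by_cases hx : x < p
        · rw [if_pos hx, if_pos (max_lt hy hx)]
        · rw [if_neg hx, if_neg (fun h => hx (lt_of_le_of_lt (le_max_right _ _) h))]
      · rw [if_neg (fun h => hpm ((mem_pf_upp hM hy).1 h)), if_neg hpm]
    · have h1 : p ∉ (upp y M).primeFactors := by
        rw [← Nat.support_factorization, Finsupp.mem_support_iff, fact_upp, if_neg (by omega)]
        simp
      rw [if_neg h1]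
      unfold FL.lamE
      rw [if_neg (fun h => hy (lt_of_le_of_lt (le_max_left y x) h))]
      simp
  · rw [if_neg (fun h => hpp (Nat.prime_of_mem_primeFactors h)),
      if_neg (fun h => hpp (Nat.prime_of_mem_primeFactors h))]

lemma hi_cen (hb : b ∣ M) :
    (hiFL hM y F).cen x (upp y b) = F.cen (max y x) b := by
  refine Nat.eq_of_factorization_eq (FL.cen_pos _ _).ne' (FL.cen_pos _ _).ne' fun p => ?_
  rw [FL.fact_cen, FL.fact_cen]
  by_cases hpp : p.Prime
  · by_cases hy : y < p
    · by_cases hpm : p ∈ M.primeFactors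
      · rw [if_pos ((mem_pf_upp hM hy).2 hpm), if_pos hpm]
        unfold FL.cenE
        have hf : (upp y b).factorization p = b.factorization p := by
          rw [fact_upp, if_pos (by omega)]
        rw [hi_ctr_upp hM F hb hpp hy, hf]
        by_cases hx : x < p
        · rw [if_pos hx, if_pos (max_lt hy hx)]
        · rw [if_neg hx, if_neg (fun h => hx (lt_of_le_of_lt (le_max_right _ _) h))]
      · rw [if_neg (fun h => hpm ((mem_pf_upp hM hy).1 h)), if_neg hpm]
    · have h1 : p ∉ (upp y M).primeFactors := by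
        rw [← Nat.support_factorization, Finsupp.mem_support_iff, fact_upp, if_neg (by omega)]
        simp
      rw [if_neg h1]
      unfold FL.cenE
      rw [if_neg (fun h => hy (lt_of_le_of_lt (le_max_left y x) h))]
      simp
  · rw [if_neg (fun h => hpp (Nat.prime_of_mem_primeFactors h)),
      if_neg (fun h => hpp (Nat.prime_of_mem_primeFactors h))]

end transport

/-! ### the set bound for the non-pure pairs -/

theorem np_SetBd : ∃ C : ℝ, 0 < C ∧ ∀ (M : ℕ) (F : FL M), 0 < M → ∀ j0 : ℕ, 1 ≤ j0 →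
    SetBd M (fun z z' => ∃ j, j0 ≤ j ∧ NP F j z z') (C * ((√2)⁻¹) ^ j0) := by
  classical
  obtain ⟨C, hC, h⟩ := nonpureS_blocks
  refine ⟨C, hC, fun M F hM j0 hj0 S S' hS hS' => ?_⟩
  have h1 := h M F hM j0 hj0 (fun _ _ => 1) (fun j _ b c hb _ _ => by
      rw [one_mul]
      exact V_le (low_dvd (Xj j) hM.ne' hb))
    (fun b => if b ∈ S then 1 else 0) (fun b => if b ∈ S' then 1 else 0)
    (fun b => by split_ifs <;> norm_num) (fun b => by split_ifs <;> norm_num)
    (fun b => by split_ifs <;> norm_num) (fun b => by split_ifs <;> norm_num)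
  have e : ∀ T : Finset ℕ, T ⊆ M.divisors →
      ∑ b ∈ M.divisors, nu M b * (if b ∈ T then (1 : ℝ) else 0) = ∑ b ∈ T, nu M b := by
    intro T hT
    simp only [mul_ite, mul_one, mul_zero]
    rw [← Finset.sum_filter]
    congr 1
    ext b
    simp only [Finset.mem_filter]
    exact ⟨fun h => h.2, fun h => ⟨hT h, h⟩⟩
  rw [e S hS, e S' hS', ← Real.sqrt_mul (sum_nu_nonneg _ _)] at h1
  refine le_trans (le_of_eq ?_) h1
  rw [← Finset.sum_subset hS (f := fun z => ∑ z' ∈ M.divisors, (if ∃ j, j0 ≤ j ∧ NP F j z z' then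
        (Nat.gcd z z' : ℝ) * nu M z * nu M z' *
          ((if z ∈ S then (1:ℝ) else 0) * (if z' ∈ S' then (1:ℝ) else 0)) * 1 else 0))]
  · refine Finset.sum_congr rfl fun z hz => ?_
    rw [← Finset.sum_subset hS' (f := fun z' => (if ∃ j, j0 ≤ j ∧ NP F j z z' then
        (Nat.gcd z z' : ℝ) * nu M z * nu M z' *
          ((if z ∈ S then (1:ℝ) else 0) * (if z' ∈ S' then (1:ℝ) else 0)) * 1 else 0))]
    · refine Finset.sum_congr rfl fun z' hz' => ?_
      simp [hz, hz']
    · intro z' _ hz'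
      simp [hz']
  · intro z _ hz
    refine Finset.sum_eq_zero fun z' _ => ?_
    simp [hz]

/-- diagonal, pure or non-pure in a block `≥ j0` -/
def KZ {M : ℕ} (F : FL M) (j0 z z' : ℕ) : Prop :=
  z = z' ∨ PureG F z z' ∨ ∃ j, j0 ≤ j ∧ NP F j z z'

/-- **kept pairs have the set bound** with an absolute constant -/
theorem KZ_SetBd : ∃ E : ℝ, 0 < E ∧ ∀ (M : ℕ) (F : FL M), 0 < M → ∀ j0 : ℕ, 1 ≤ j0 →
    SetBd M (KZ F j0) E := by
  obtain ⟨C, hC, h⟩ := np_SetBd
  refine ⟨17 + C, by positivity, fun M F hM j0 hj0 => ?_⟩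
  have h1 := (SetBd.diag M).or ((SetBd.pureFL hM F).or (h M F hM j0 hj0))
  refine h1.mono (fun z z' _ _ hz => hz) ?_
  have hs2 : 1 ≤ √2 := by
    rw [← Real.sqrt_one]; exact Real.sqrt_le_sqrt (by norm_num)
  have h2 : ((√2)⁻¹) ^ j0 ≤ 1 := pow_le_one₀ (by positivity) (inv_le_one_of_one_le₀ hs2)
  nlinarith [mul_le_mul_of_nonneg_left h2 hC.le]

theorem kept_SetBd : ∃ E : ℝ, 0 < E ∧ ∀ (M : ℕ) (hM : 0 < M) (F : FL M) (y j0 : ℕ), 1 ≤ j0 →
    SetBd (upp y M) (KZ (hiFL hM y F) j0) E := by
  obtain ⟨E, hE, h⟩ := KZ_SetBd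
  exact ⟨E, hE, fun M hM F y j0 hj0 => h (upp y M) (hiFL hM y F) (upp_pos _ _) j0 hj0⟩

/-! ### classification -/

/-- kept pair above the cut `y`, smallest differing prime `> y` in the block `j` -/
def KeptAt {M : ℕ} (F : FL M) (y j b c : ℕ) : Prop :=
  (∀ q, q.Prime → y < q → q ≤ Xj j → b.factorization q = c.factorization q) ∧
    (∃ q, q.Prime ∧ y < q ∧ q ≤ Xj (j + 1) ∧ b.factorization q ≠ c.factorization q) ∧
    F.good (max y (Xj j)) b c

lemma kept_KZ {M : ℕ} (hM : 0 < M) (F : FL M) {y j0 j b c : ℕ} (hj : j0 ≤ j) (hb : b ∣ M)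
    (hc : c ∣ M) (h : KeptAt F y j b c) : KZ (hiFL hM y F) j0 (upp y b) (upp y c) := by
  obtain ⟨h1, ⟨q, hq, hyq, hqX, hne⟩, hg⟩ := h
  have hup : 0 < upp y M := upp_pos _ _
  have hzb : upp y b ∣ upp y M := upp_dvd y hM.ne' hb
  have hzc : upp y c ∣ upp y M := upp_dvd y hM.ne' hc
  have hqne : (upp y b).factorization q ≠ (upp y c).factorization q := by
    rw [fact_upp, fact_upp, if_pos (by omega), if_pos (by omega)]
    exact hne
  have hzne : upp y b ≠ upp y c := fun h => hqne (by rw [h])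
  have heq : ∀ r, r.Prime → r ≤ Xj j →
      (upp y b).factorization r = (upp y c).factorization r := by
    intro r hr hrX
    rw [fact_upp, fact_upp]
    by_cases hyr : y < r
    · rw [if_pos (by omega), if_pos (by omega)]
      exact h1 r hr hyr hrX
    · rw [if_neg (by omega), if_neg (by omega)]
  have hgood := hi_good hM F (y := y) (x := Xj j) hb hg
  by_cases hell : (hiFL hM y F).ell (Xj j) (upp y b) = 1 ∧ (hiFL hM y F).ell (Xj j) (upp y c) = 1
  · right; left
    exact pureG_of_good _ hzb hzc hup hzne hgood (low_eq_of heq) hell.1 hell.2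
  · right; right
    exact ⟨j, hj, ⟨heq, q, hq, hqX, hqne⟩, hgood, hell⟩

lemma kept_cases {M : ℕ} (hM : 0 < M) (F : FL M) {y j0 b c : ℕ} (hb : b ∣ M)
    (hc : c ∣ M) (h : upp y b = upp y c ∨ ∃ j, j0 ≤ j ∧ KeptAt F y j b c) :
    KZ (hiFL hM y F) j0 (upp y b) (upp y c) := by
  rcases h with h | ⟨j, hj, h⟩
  · exact Or.inl h
  · exact kept_KZ hM F hj hb hc h

end Crest.Agent.R4C.Keptx559
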