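import Crest.Agent.R4C.RowB_899
import Crest.Agent.R4C.Kept_559
import Crest.Agent.Lib.Mertens

/-!
# Row 4, S6-4: the high kernel of class (L) WITH BOOST as one weighted set bound (helper899)

Text: note 3463, section (L)(2),(3).  `M` = modulus of the high words (`upp y M`), `F : FL M`.

* `bst Q = ∏_{q ∈ Q} (1 - 1/q)⁻¹` : boost of a set of (aligned, common missing) primes.
* `al M c0 c1 x b` : (alpha) weight `1[c0 < x] ∏_{c1 < q < x, q missing in b} (1 - 1/q)`; row sum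
  `≤ 1 + ∑_{c0 < p ≤ c1} 1/p` (`RR_al`).
* `WH F j0 cut TT XH TT' XH' z z'` : diagonal + non-pure blocks `≥ j0` + (alpha) of either member
  (`TT z` = candidate ends of the run, cuts `cut T < x`, aligned primes `≤ cut (T+1)`) + (beta) of
  either member (`XH z` = candidate first unexplained letters).
* `wbd_WH` : `WBd M (WH ...) (C (1 + N))` if `#TT, #XH, #TT', #XH' ≤ N`.
* `bst_le_WH` : the boost of the pair is `≤ C * WH z z'`.
-/

set_option autoImplicit false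

namespace Crest.Agent.R4C.HighWx899

open Finset Crest.Agent.R4C.Basex935 Crest.Agent.R4C.FLDefx935 Crest.Agent.R4C.PureL2x232
  Crest.Agent.R4C.RowL2x423 Crest.Agent.R4C.RowBx899 Crest.Agent.R4C.LTwx662
  Crest.Agent.R4C.Cutx50 Crest.Agent.R4C.RowPx823 Crest.Agent.R4C.NonPureBlkx559
  Crest.Agent.R4C.Keptx559

/-! ### Boost of a set of primes -/

/-- boost -/
noncomputable def bst (Q : Finset ℕ) : ℝ := ∏ q ∈ Q, (1 - 1 / (q : ℝ))⁻¹

lemma one_le_fac {q : ℕ} (hq : q.Prime) : 1 ≤ (1 - 1 / (q : ℝ))⁻¹ := by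
  have h1 := one_sub_pos hq
  have h2 : (0 : ℝ) ≤ 1 / (q : ℝ) := by positivity
  exact (one_le_inv₀ h1).2 (by linarith)

lemma one_le_bst {Q : Finset ℕ} (hQ : ∀ q ∈ Q, q.Prime) : 1 ≤ bst Q := by
  unfold bst
  exact Finset.prod_induction _ (fun x : ℝ => 1 ≤ x)
    (fun a b ha hb => one_le_mul_of_one_le_of_one_le ha hb) le_rfl fun q hq => one_le_fac (hQ q hq)

lemma bst_pos {Q : Finset ℕ} (hQ : ∀ q ∈ Q, q.Prime) : 0 < bst Q :=
  lt_of_lt_of_le one_pos (one_le_bst hQ)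

lemma bst_mono {S T : Finset ℕ} (hT : ∀ p ∈ T, p.Prime) (h : S ⊆ T) : bst S ≤ bst T := by
  have h1 : bst (T \ S) * bst S = bst T := Finset.prod_sdiff h
  have h2 : 1 ≤ bst (T \ S) := one_le_bst fun p hp => hT p (Finset.mem_sdiff.1 hp).1
  have h3 : 1 ≤ bst S := one_le_bst fun p hp => hT p (h hp)
  nlinarith

lemma bst_split (Q : Finset ℕ) (p : ℕ → Prop) [DecidablePred p] :
    bst Q = bst (Q.filter p) * bst (Q.filter fun q => ¬ p q) := by
  unfold bst
  exact (Finset.prod_filter_mul_prod_filter_not Q p _).symm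

lemma bst_mul (Q : Finset ℕ) (hQ : ∀ q ∈ Q, q.Prime) :
    bst Q * ∏ q ∈ Q, (1 - 1 / (q : ℝ)) = 1 := by
  unfold bst
  rw [← Finset.prod_mul_distrib]
  exact Finset.prod_eq_one fun q hq => inv_mul_cancel₀ (one_sub_pos (hQ q hq)).ne'

/-- if `Q ⊆ D` then `bst Q ∏_D (1 - 1/q) ≤ ∏_{D \ Q} (1 - 1/q)` -/
lemma bst_mul_prod {Q D : Finset ℕ} (hD : ∀ q ∈ D, q.Prime) (h : Q ⊆ D) :
    bst Q * ∏ q ∈ D, (1 - 1 / (q : ℝ)) = ∏ q ∈ D \ Q, (1 - 1 / (q : ℝ)) := by
  rw [← Finset.prod_sdiff h, mul_comm (∏ q ∈ D \ Q, _), ← mul_assoc,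
    bst_mul Q (fun q hq => hD q (h hq)), one_mul]

/-- Mertens on a window -/
lemma bst_window {a b : ℕ} (ha : 2 ≤ a) (hab : a ≤ b) {Q : Finset ℕ} (hQ : ∀ q ∈ Q, q.Prime)
    (h1 : ∀ q ∈ Q, a < q) (h2 : ∀ q ∈ Q, q ≤ b) :
    bst Q ≤ Real.exp (22 / Real.log 2) * (Real.log b / Real.log a) := by
  have ha' : (2 : ℝ) ≤ a := by exact_mod_cast ha
  have hab' : (a : ℝ) ≤ b := by exact_mod_cast hab
  have h3 := (Crest.Agent.Lib.Mertens.mertens_three a b ha' hab').1
  have hla : 0 < Real.log a := Real.log_pos (by linarith)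
  have hlb : 0 < Real.log b := Real.log_pos (by linarith)
  have hl2 : 0 < Real.log 2 := Real.log_pos (by norm_num)
  have hpr : ∀ p ∈ Crest.Agent.Lib.Mertens.pr a b, p.Prime := fun p hp =>
    ((Crest.Agent.Lib.Mertens.mem_pr (by linarith) (by linarith)).1 hp).2
  have hsub : Q ⊆ Crest.Agent.Lib.Mertens.pr a b := by
    intro q hq
    rw [Crest.Agent.Lib.Mertens.mem_pr (by linarith) (by linarith)]
    exact ⟨⟨by exact_mod_cast h1 q hq, by exact_mod_cast h2 q hq⟩, hQ q hq⟩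
  refine (bst_mono hpr hsub).trans ?_
  have e : bst (Crest.Agent.Lib.Mertens.pr a b) =
      (∏ p ∈ Crest.Agent.Lib.Mertens.pr a b, (1 - 1 / (p : ℝ)))⁻¹ := by
    unfold bst
    exact Finset.prod_inv_distrib _
  rw [e]
  have h4 : 0 < Real.exp (-(22 / Real.log a)) * (Real.log a / Real.log b) := by positivity
  refine (inv_anti₀ h4 h3).trans ?_
  have e2 : (Real.exp (-(22 / Real.log a)) * (Real.log a / Real.log b))⁻¹ =
      Real.exp (22 / Real.log a) * (Real.log b / Real.log a) := by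
    rw [Real.exp_neg]
    field_simp
  rw [e2]
  refine mul_le_mul_of_nonneg_right (Real.exp_le_exp.2 ?_) (by positivity)
  exact div_le_div_of_nonneg_left (by norm_num) hl2 (Real.log_le_log (by norm_num) ha')

/-- sums of `1/p` on a window -/
lemma sum_window {a b : ℕ} (ha : 2 ≤ a) (hab : a ≤ b) {Q : Finset ℕ} (hQ : ∀ q ∈ Q, q.Prime)
    (h1 : ∀ q ∈ Q, a < q) (h2 : ∀ q ∈ Q, q ≤ b) :
    ∑ q ∈ Q, 1 / (q : ℝ) ≤ Real.exp (22 / Real.log 2) * (Real.log b / Real.log a) := by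
  refine le_trans ?_ (bst_window ha hab hQ h1 h2)
  -- `1 + ∑ 1/q ≤ ∏ (1 + 1/q) ≤ ∏ (1 - 1/q)⁻¹`
  have h3 : ∀ q ∈ Q, 1 + 1 / (q : ℝ) ≤ (1 - 1 / (q : ℝ))⁻¹ := by
    intro q hq
    have h4 := one_sub_pos (hQ q hq)
    rw [le_inv_comm₀ (by positivity) h4, ← one_div, le_div_iff₀ (by positivity)]
    have : 0 ≤ (1 / (q : ℝ)) ^ 2 := sq_nonneg _
    nlinarith
  have h4 : ∏ q ∈ Q, (1 + 1 / (q : ℝ)) ≤ bst Q :=
    Finset.prod_le_prod (fun q _ => by positivity) h3
  have h5 : ∀ T : Finset ℕ, 1 + ∑ q ∈ T, 1 / (q : ℝ) ≤ ∏ q ∈ T, (1 + 1 / (q : ℝ)) := by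
    classical
    intro T
    induction T using Finset.induction_on with
    | empty => simp
    | insert a T ha ih =>
      rw [Finset.sum_insert ha, Finset.prod_insert ha]
      have h6 : (0 : ℝ) ≤ 1 / (a : ℝ) := by positivity
      have h7 : (0 : ℝ) ≤ ∑ q ∈ T, 1 / (q : ℝ) := Finset.sum_nonneg fun _ _ => by positivity
      nlinarith
  have h6 := h5 Q
  linarith

/-! ### (alpha) weights -/

/-- (alpha) weight -/
noncomputable def al (M c0 c1 x b : ℕ) : ℝ :=
  if c0 < x then ∏ q ∈ M.primeFactors.filter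
    (fun q => c1 < q ∧ q < x ∧ b.factorization q < M.factorization q), (1 - 1 / (q : ℝ)) else 0

lemma prod_nonneg' {M : ℕ} (p : ℕ → Prop) [DecidablePred p] :
    0 ≤ ∏ q ∈ M.primeFactors.filter p, (1 - 1 / (q : ℝ)) :=
  Finset.prod_nonneg fun _ hq =>
    (one_sub_pos (Nat.prime_of_mem_primeFactors (Finset.mem_filter.1 hq).1)).le

lemma prod_le_one' {M : ℕ} (p : ℕ → Prop) [DecidablePred p] :
    ∏ q ∈ M.primeFactors.filter p, (1 - 1 / (q : ℝ)) ≤ 1 :=
  Finset.prod_le_one (fun _ hq =>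
    (one_sub_pos (Nat.prime_of_mem_primeFactors (Finset.mem_filter.1 hq).1)).le) fun q _ => by
      have : (0 : ℝ) ≤ 1 / (q : ℝ) := by positivity
      linarith

lemma al_nonneg (M c0 c1 x b : ℕ) : 0 ≤ al M c0 c1 x b := by
  unfold al
  split_ifs
  · exact prod_nonneg' _
  · exact le_rfl

lemma al_le_one (M c0 c1 x b : ℕ) : al M c0 c1 x b ≤ 1 := by
  unfold al
  split_ifs
  · exact prod_le_one' _
  · exact zero_le_one

/-- row sum of the (alpha) weight -/
lemma RR_al {M : ℕ} (F : FL M) (c0 c1 b : ℕ) {C0 : ℝ}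
    (h : ∑ p ∈ M.primeFactors.filter (fun p => c0 < p ∧ p ≤ c1), 1 / (p : ℝ) ≤ C0) :
    RR F (fun x b => al M c0 c1 x b) b ≤ C0 + 1 := by
  classical
  set D := M.primeFactors.filter (fun q => c1 < q ∧ b.factorization q < M.factorization q) with hD
  have h1 := tele_le D fun x hx => (Nat.prime_of_mem_primeFactors (Finset.mem_filter.1 hx).1).one_le
  refine le_trans ?_ (add_le_add h h1)
  unfold RR
  rw [Finset.sum_filter, hD, Finset.sum_filter, ← hD, ← Finset.sum_add_distrib]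
  refine Finset.sum_le_sum fun x hx => ?_
  have hp : 0 ≤ ∏ q ∈ D.filter (· < x), (1 - 1 / (q : ℝ)) := by
    refine Finset.prod_nonneg fun q hq => ?_
    exact (one_sub_pos (Nat.prime_of_mem_primeFactors
      (Finset.mem_filter.1 (Finset.mem_filter.1 hq).1).1)).le
  have n1 : (0 : ℝ) ≤ if c0 < x ∧ x ≤ c1 then 1 / (x : ℝ) else 0 := by
    split_ifs <;> positivity
  have n2 : (0 : ℝ) ≤ if c1 < x ∧ b.factorization x < M.factorization x then
      1 / (x : ℝ) * ∏ q ∈ D.filter (· < x), (1 - 1 / (q : ℝ)) else 0 := by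
    split_ifs
    · exact mul_nonneg (by positivity) hp
    · exact le_rfl
  by_cases hm : F.ctr b x = some (b.factorization x) ∧ b.factorization x < M.factorization x
  · rw [if_pos hm]
    by_cases h0 : c0 < x
    · by_cases h2 : x ≤ c1
      · rw [if_pos ⟨h0, h2⟩]
        have h3 := al_le_one M c0 c1 x b
        have h4 : 1 / (x : ℝ) * al M c0 c1 x b ≤ 1 / (x : ℝ) := by
          have : (0 : ℝ) ≤ 1 / (x : ℝ) := by positivity
          nlinarith
        linarith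
      · rw [if_pos (show c1 < x ∧ _ from ⟨by omega, hm.2⟩)]
        have e : al M c0 c1 x b = ∏ q ∈ D.filter (· < x), (1 - 1 / (q : ℝ)) := by
          unfold al
          rw [if_pos h0]
          congr 1
          ext q
          simp only [hD, Finset.mem_filter]
          tauto
        dsimp only
        rw [e]
        linarith
    · have e : al M c0 c1 x b = 0 := by
        unfold al
        rw [if_neg h0]
      dsimp only
      rw [e, mul_zero]
      linarith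
  · rw [if_neg hm]
    linarith

/-- sum of (alpha) weights over candidate scales -/
noncomputable def alS (M : ℕ) (cut : ℕ → ℕ) (TT : ℕ → Finset ℕ) (x b : ℕ) : ℝ :=
  ∑ T ∈ TT b, al M (cut T) (cut (T + 1)) x b

lemma alS_nonneg (M : ℕ) (cut : ℕ → ℕ) (TT : ℕ → Finset ℕ) (x b : ℕ) : 0 ≤ alS M cut TT x b :=
  Finset.sum_nonneg fun _ _ => al_nonneg _ _ _ _ _

lemma alS_le {M : ℕ} {cut : ℕ → ℕ} {TT : ℕ → Finset ℕ} {N : ℝ} (hN : ∀ b, ((TT b).card : ℝ) ≤ N)
    (x b : ℕ) : alS M cut TT x b ≤ N := by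
  refine le_trans ?_ (hN b)
  unfold alS
  calc _ ≤ ∑ T ∈ TT b, (1 : ℝ) := Finset.sum_le_sum fun _ _ => al_le_one _ _ _ _ _
    _ = _ := by simp

lemma RR_alS {M : ℕ} (F : FL M) {cut : ℕ → ℕ} {TT : ℕ → Finset ℕ} {N C0 : ℝ} (hC0 : 0 ≤ C0)
    (h : ∀ T, ∑ p ∈ M.primeFactors.filter (fun p => cut T < p ∧ p ≤ cut (T + 1)), 1 / (p : ℝ) ≤ C0)
    (hN : ∀ b, ((TT b).card : ℝ) ≤ N) (b : ℕ) : RR F (alS M cut TT) b ≤ N * (C0 + 1) := by
  have e : RR F (alS M cut TT) b =
      ∑ T ∈ TT b, RR F (fun x b => al M (cut T) (cut (T + 1)) x b) b := by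
    unfold RR
    rw [Finset.sum_comm]
    refine Finset.sum_congr rfl fun x _ => ?_
    split_ifs with h1
    · unfold alS
      rw [Finset.mul_sum]
    · simp
  rw [e]
  calc ∑ T ∈ TT b, RR F (fun x b => al M (cut T) (cut (T + 1)) x b) b
      ≤ ∑ T ∈ TT b, (C0 + 1) := Finset.sum_le_sum fun T _ => RR_al F _ _ b (h T)
    _ = (TT b).card * (C0 + 1) := by rw [Finset.sum_const, nsmul_eq_mul]
    _ ≤ _ := mul_le_mul_of_nonneg_right (hN b) (by linarith)

/-! ### The kernel -/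

open Classical in
/-- indicator of `XH` -/
noncomputable def hX (XH : ℕ → Finset ℕ) (x b : ℕ) : ℝ := if x ∈ XH b then 1 else 0

lemma hX_nonneg (XH : ℕ → Finset ℕ) (x b : ℕ) : 0 ≤ hX XH x b := by
  unfold hX
  split_ifs <;> norm_num

lemma sum_hX {XH : ℕ → Finset ℕ} {N : ℝ} (hN : ∀ b, ((XH b).card : ℝ) ≤ N) (s : Finset ℕ) (b : ℕ) :
    ∑ x ∈ s, hX XH x b ≤ N := by
  classical
  refine le_trans ?_ (hN b)
  unfold hX
  rw [← Finset.sum_filter, Finset.sum_const, nsmul_eq_mul, mul_one]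
  exact_mod_cast Finset.card_le_card fun x hx => (Finset.mem_filter.1 hx).2

open Classical in
/-- full boost at the block of the pair -/
noncomputable def BN {M : ℕ} (F : FL M) (j0 z z' : ℕ) : ℝ :=
  if h : ∃ j, j0 ≤ j ∧ NP F j z z' then
    ((low (Xj h.choose) z : ℝ) * nu (low (Xj h.choose) M) (low (Xj h.choose) z))⁻¹ else 0

lemma NP_unique {M : ℕ} {F : FL M} {i j z z' : ℕ} (hi : NP F i z z') (hj : NP F j z z') :
    i = j := by
  have key : ∀ {i j : ℕ}, Blk i z z' → Blk j z z' → ¬ i < j := by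
    intro i j h h' hlt
    obtain ⟨q, hq, hqx, hne⟩ := h.2
    refine hne (h'.1 q hq (hqx.trans ?_))
    unfold Xj
    have : 2 ^ (2 ^ (i + 1)) ≤ 2 ^ (2 ^ j) :=
      Nat.pow_le_pow_right (by norm_num) (Nat.pow_le_pow_right (by norm_num) hlt)
    omega
  have h1 := key hi.1 hj.1
  have h2 := key hj.1 hi.1
  omega

lemma BN_eq {M : ℕ} {F : FL M} {j0 j z z' : ℕ} (hj : j0 ≤ j) (h : NP F j z z') :
    BN F j0 z z' = ((low (Xj j) z : ℝ) * nu (low (Xj j) M) (low (Xj j) z))⁻¹ := by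
  have hex : ∃ j, j0 ≤ j ∧ NP F j z z' := ⟨j, hj, h⟩
  unfold BN
  rw [dif_pos hex]
  have e := NP_unique hex.choose_spec.2 h
  rw [e]

open Classical in
/-- the high kernel with boost -/
noncomputable def WH {M : ℕ} (F : FL M) (j0 : ℕ) (cut : ℕ → ℕ) (TT XH TT' XH' : ℕ → Finset ℕ)
    (z z' : ℕ) : ℝ :=
  (if z = z' then ((z : ℝ) * nu M z)⁻¹ else 0) +
  (if ∃ j, j0 ≤ j ∧ NP F j z z' then BN F j0 z z' else 0) +
  (∑ x ∈ M.primeFactors, if pd F x z z' then alS M cut TT x z / Vx M x z else 0) +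
  (∑ x ∈ M.primeFactors, if pd F x z' z then alS M cut TT' x z' / Vx M x z' else 0) +
  (∑ x ∈ M.primeFactors, if PureFrom F x z z' then hX XH' x z' / Vx M x z else 0) +
  (∑ x ∈ M.primeFactors, if PureFrom F x z' z then hX XH x z / Vx M x z' else 0)

lemma WH_nonneg {M : ℕ} (F : FL M) (j0 : ℕ) (cut : ℕ → ℕ) (TT XH TT' XH' : ℕ → Finset ℕ)
    (z z' : ℕ) : 0 ≤ WH F j0 cut TT XH TT' XH' z z' := by
  classical
  unfold WH
  have h1 : ∀ M z : ℕ, (0 : ℝ) ≤ ((z : ℝ) * nu M z)⁻¹ := fun M z =>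
    inv_nonneg.2 (mul_nonneg (Nat.cast_nonneg _) (nu_nonneg _ _))
  have h2 : 0 ≤ BN F j0 z z' := by
    unfold BN
    split_ifs
    · exact h1 _ _
    · exact le_rfl
  have i1 : (0 : ℝ) ≤ (if z = z' then ((z : ℝ) * nu M z)⁻¹ else 0) := by
    split_ifs
    · exact h1 _ _
    · exact le_rfl
  have i2 : (0 : ℝ) ≤ (if ∃ j, j0 ≤ j ∧ NP F j z z' then BN F j0 z z' else 0) := by
    split_ifs
    · exact h2
    · exact le_rfl
  have key : ∀ (R : ℕ → Prop) (g : ℕ → ℝ), (∀ x, 0 ≤ g x) →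
      0 ≤ ∑ x ∈ M.primeFactors, if R x then g x else 0 := by
    intro R g hg
    refine Finset.sum_nonneg fun x _ => ?_
    split_ifs
    · exact hg x
    · exact le_rfl
  have i3 := key (fun x => pd F x z z') (fun x => alS M cut TT x z / Vx M x z)
    fun x => div_nonneg (alS_nonneg _ _ _ _ _) (Vx_nonneg _ _ _)
  have i4 := key (fun x => pd F x z' z) (fun x => alS M cut TT' x z' / Vx M x z')
    fun x => div_nonneg (alS_nonneg _ _ _ _ _) (Vx_nonneg _ _ _)
  have i5 := key (fun x => PureFrom F x z z') (fun x => hX XH' x z' / Vx M x z)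
    fun x => div_nonneg (hX_nonneg _ _ _) (Vx_nonneg _ _ _)
  have i6 := key (fun x => PureFrom F x z' z) (fun x => hX XH x z / Vx M x z')
    fun x => div_nonneg (hX_nonneg _ _ _) (Vx_nonneg _ _ _)
  linarith

open Classical in
/-- non-pure part with the full boost -/
theorem wbd_np : ∃ C : ℝ, 0 < C ∧ ∀ (M : ℕ) (F : FL M), 0 < M → ∀ j0 : ℕ, 1 ≤ j0 →
    WBd M (fun z z' => if ∃ j, j0 ≤ j ∧ NP F j z z' then BN F j0 z z' else 0)
      (C * ((√2)⁻¹) ^ j0) := by
  obtain ⟨C, hC, h⟩ := nonpureS_blocks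
  refine ⟨C, hC, fun M F hM j0 hj0 => wbd_of_ind fun S S' hS hS' => ?_⟩
  have h1 := h M F hM j0 hj0 (BN F j0) (fun j hj b c hb _ hn => by
      rw [BN_eq hj hn]
      have h2 : (0 : ℝ) < low (Xj j) b := by exact_mod_cast low_pos _ _
      have h3 : 0 < nu (low (Xj j) M) (low (Xj j) b) :=
        nu_pos (low_pos _ _) (low_dvd (Xj j) hM.ne' hb)
      rw [inv_mul_cancel₀ (mul_pos h2 h3).ne'])
    (fun b => if b ∈ S then 1 else 0) (fun b => if b ∈ S' then 1 else 0)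
    (fun b => by split_ifs <;> norm_num) (fun b => by split_ifs <;> norm_num)
    (fun b => by split_ifs <;> norm_num) (fun b => by split_ifs <;> norm_num)
  have e : ∀ T : Finset ℕ, T ⊆ M.divisors →
      ∑ b ∈ M.divisors, nu M b * (if b ∈ T then (1 : ℝ) else 0) = ∑ b ∈ T, nu M b := by
    intro T hT
    simp only [mul_ite, mul_one, mul_zero]
    rw [← Finset.sum_filter]
    congr 1
    ext b
    simp only [Finset.mem_filter]
    exact ⟨fun h => h.2, fun h => ⟨hT h, h⟩⟩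
  rw [e S hS, e S' hS', ← Real.sqrt_mul (AsmLevx946.sum_nu_nonneg _ _)] at h1
  refine le_trans (le_of_eq ?_) h1
  unfold frm
  refine Finset.sum_congr rfl fun b _ => Finset.sum_congr rfl fun c _ => ?_
  dsimp only
  by_cases h2 : ∃ j, j0 ≤ j ∧ NP F j b c
  · rw [if_pos h2, if_pos h2]; ring
  · rw [if_neg h2, if_neg h2, mul_zero, mul_zero]

/-- **THE HIGH KERNEL WITH BOOST HAS THE SET BOUND** -/
theorem wbd_WH : ∃ C : ℝ, 0 < C ∧ ∀ (M : ℕ) (F : FL M), 0 < M → ∀ j0 : ℕ, 1 ≤ j0 →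
    ∀ (cut : ℕ → ℕ) (TT XH TT' XH' : ℕ → Finset ℕ) (N C0 : ℝ), 0 < N → 0 ≤ C0 →
    (∀ T, ∑ p ∈ M.primeFactors.filter (fun p => cut T < p ∧ p ≤ cut (T + 1)), 1 / (p : ℝ) ≤ C0) →
    (∀ b, ((TT b).card : ℝ) ≤ N) → (∀ b, ((XH b).card : ℝ) ≤ N) →
    (∀ b, ((TT' b).card : ℝ) ≤ N) → (∀ b, ((XH' b).card : ℝ) ≤ N) →
    WBd M (WH F j0 cut TT XH TT' XH') (C * (1 + C0) * (1 + N)) := by
  classical
  obtain ⟨C, hC, h⟩ := wbd_np
  refine ⟨C + 40, by positivity, fun M F hM j0 hj0 cut TT XH TT' XH' N C0 hN hC0 hcut hTT hXH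
    hTT' hXH' => ?_⟩
  have hρ : 0 < N * (C0 + 1) := by positivity
  have hle : ∀ {TT : ℕ → Finset ℕ}, (∀ b, ((TT b).card : ℝ) ≤ N) → ∀ x b,
      alS M cut TT x b ≤ N * (C0 + 1) := fun hT x b => (alS_le hT x b).trans (by nlinarith)
  have a1 := wbd_diag hM
  have a2 := h M F hM j0 hj0
  have a3 := wbd_alpha hM F (alS M cut TT) hρ (fun x b => alS_nonneg _ _ _ _ _) (hle hTT)
    fun b _ => RR_alS F hC0 hcut hTT b
  have a4 := wbd_swap (wbd_alpha hM F (alS M cut TT') hρ (fun x b => alS_nonneg _ _ _ _ _)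
    (hle hTT') fun b _ => RR_alS F hC0 hcut hTT' b)
  have a5 := wbd_beta hM F M.primeFactors (hX XH') hN.le (fun x b => hX_nonneg _ _ _)
    fun b _ => sum_hX hXH' _ b
  have a6 := wbd_swap (wbd_beta hM F M.primeFactors (hX XH) hN.le (fun x b => hX_nonneg _ _ _)
    fun b _ => sum_hX hXH _ b)
  refine (((((a1.add a2).add a3).add a4).add a5).add a6).mono (fun z z' _ _ => le_of_eq rfl) ?_
  have hs2 : 1 ≤ √2 := by
    rw [← Real.sqrt_one]; exact Real.sqrt_le_sqrt (by norm_num)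
  have h2 : ((√2)⁻¹) ^ j0 ≤ 1 := pow_le_one₀ (by positivity) (inv_le_one_of_one_le₀ hs2)
  have h3 : C * ((√2)⁻¹) ^ j0 ≤ C := by nlinarith
  have h4 : 0 ≤ C0 * N := mul_nonneg hC0 hN.le
  have h5 : C ≤ C * (1 + C0) * (1 + N) := by
    have : 1 ≤ (1 + C0) * (1 + N) := by nlinarith
    nlinarith
  nlinarith

/-! ### The boost of a pair is below the kernel -/

/-- first differing prime -/
def Fst (x z z' : ℕ) : Prop :=
  x.Prime ∧ (∀ q, q.Prime → q < x → z.factorization q = z'.factorization q) ∧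
    z.factorization x ≠ z'.factorization x

lemma exists_fst {z z' : ℕ} (hz : z ≠ 0) (hz' : z' ≠ 0) (h : z ≠ z') : ∃ x, Fst x z z' := by
  classical
  have hex : ∃ r, r.Prime ∧ z.factorization r ≠ z'.factorization r := by
    by_contra hcon
    push Not at hcon
    refine h (Nat.eq_of_factorization_eq hz hz' fun q => ?_)
    by_cases hq : q.Prime
    · exact hcon q hq
    · rw [Nat.factorization_eq_zero_of_not_prime _ hq, Nat.factorization_eq_zero_of_not_prime _ hq]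
  refine ⟨Nat.find hex, (Nat.find_spec hex).1, fun q hq hlt => ?_, (Nat.find_spec hex).2⟩
  by_contra hcon
  exact Nat.find_min hex hlt ⟨hq, hcon⟩

lemma Fst.symm {x z z' : ℕ} (h : Fst x z z') : Fst x z' z :=
  ⟨h.1, fun q hq hlt => (h.2.1 q hq hlt).symm, h.2.2.symm⟩

/-- data of one pair of high words; `Q` = aligned primes -/
structure PairW {M : ℕ} (F : FL M) (j0 : ℕ) (cut : ℕ → ℕ) (TT XH TT' XH' : ℕ → Finset ℕ)
    (z z' : ℕ) (Q : Finset ℕ) : Prop where
  sub : Q ⊆ M.primeFactors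
  /-- the primes of `Q` are missing in `z` -/
  mis : ∀ q ∈ Q, z.factorization q < M.factorization q
  /-- the primes of `Q` lie below the first difference -/
  below : ∀ x, Fst x z z' → ∀ q ∈ Q, q < x
  kz : KZ F j0 z z'
  left : PureG F z z' → ∀ x, Fst x z z' → z.factorization x < z'.factorization x →
    (∃ T ∈ TT z, cut T < x ∧ ∀ q ∈ Q, q ≤ cut (T + 1)) ∨ x ∈ XH' z'
  right : PureG F z z' → ∀ x, Fst x z z' → z'.factorization x < z.factorization x →
    (∃ T ∈ TT' z', cut T < x ∧ ∀ q ∈ Q, q ≤ cut (T + 1)) ∨ x ∈ XH z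

lemma le_inv_of_mul_le {a b : ℝ} (hb : 0 < b) (h : a * b ≤ 1) : a ≤ b⁻¹ := by
  rw [← one_div, le_div_iff₀ hb]
  exact h

/-- products over larger sets are smaller -/
lemma prod_anti {S T : Finset ℕ} (hT : ∀ q ∈ T, q.Prime) (h : S ⊆ T) :
    ∏ q ∈ T, (1 - 1 / (q : ℝ)) ≤ ∏ q ∈ S, (1 - 1 / (q : ℝ)) := by
  rw [← Finset.prod_sdiff h]
  have h1 : ∏ q ∈ T \ S, (1 - 1 / (q : ℝ)) ≤ 1 :=
    Finset.prod_le_one (fun q hq => (one_sub_pos (hT q (Finset.mem_sdiff.1 hq).1)).le)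
      fun q _ => by
        have : (0 : ℝ) ≤ 1 / (q : ℝ) := by positivity
        linarith
  have h2 : 0 ≤ ∏ q ∈ S, (1 - 1 / (q : ℝ)) :=
    Finset.prod_nonneg fun q hq => (one_sub_pos (hT q (h hq))).le
  exact mul_le_of_le_one_left h2 h1

/-- `bst Q * (z ν z) ≤ 1` -/
lemma bst_diag {M z : ℕ} (hM : 0 < M) (hz : z ∣ M) {Q : Finset ℕ} (h1 : Q ⊆ M.primeFactors)
    (h2 : ∀ q ∈ Q, z.factorization q < M.factorization q) : bst Q * ((z : ℝ) * nu M z) ≤ 1 := by
  have hpr : ∀ q ∈ PrefixMx882.free M z, q.Prime := fun q hq =>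
    Nat.prime_of_mem_primeFactors (Finset.mem_filter.1 hq).1
  have hsub : Q ⊆ PrefixMx882.free M z := fun q hq =>
    Finset.mem_filter.2 ⟨h1 hq, h2 q hq⟩
  rw [PrefixMx882.diag hM hz, bst_mul_prod hpr hsub]
  exact Finset.prod_le_one
    (fun q hq => (one_sub_pos (hpr q (Finset.mem_sdiff.1 hq).1)).le) fun q _ => by
      have : (0 : ℝ) ≤ 1 / (q : ℝ) := by positivity
      linarith

/-- `bst Q * Vx ≤ ∏ over the missing primes not in Q` -/
lemma bst_Vx {M x z : ℕ} {Q : Finset ℕ} (h1 : Q ⊆ M.primeFactors)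
    (h2 : ∀ q ∈ Q, z.factorization q < M.factorization q) (h3 : ∀ q ∈ Q, q < x)
    {c : ℕ} (hc : ∀ q ∈ Q, q ≤ c) :
    bst Q * Vx M x z ≤ ∏ q ∈ M.primeFactors.filter
      (fun q => c < q ∧ q < x ∧ z.factorization q < M.factorization q), (1 - 1 / (q : ℝ)) := by
  classical
  set D := M.primeFactors.filter (fun q => q < x ∧ z.factorization q < M.factorization q) with hD
  have hpr : ∀ q ∈ D, q.Prime := fun q hq =>
    Nat.prime_of_mem_primeFactors (Finset.mem_filter.1 hq).1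
  have hsub : Q ⊆ D := fun q hq => Finset.mem_filter.2 ⟨h1 hq, h3 q hq, h2 q hq⟩
  have e : Vx M x z = ∏ q ∈ D, (1 - 1 / (q : ℝ)) := rfl
  rw [e, bst_mul_prod hpr hsub]
  refine prod_anti (fun q hq => hpr q (Finset.mem_sdiff.1 hq).1) fun q hq => ?_
  obtain ⟨h4, h5, h6, h7⟩ := Finset.mem_filter.1 hq
  refine Finset.mem_sdiff.2 ⟨Finset.mem_filter.2 ⟨h4, h6, h7⟩, fun h8 => ?_⟩
  have := hc q h8
  omega

lemma log_Xj {j : ℕ} (hj : 1 ≤ j) : Real.log (Xj (j + 1)) / Real.log (Xj j) ≤ 4 := by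
  have hl2 : 0 < Real.log 2 := Real.log_pos (by norm_num)
  obtain ⟨k, hk⟩ : ∃ k, j = k + 1 := ⟨j - 1, by omega⟩
  subst hk
  set a : ℕ := 2 ^ (k + 1) with ha
  have ha2 : 2 ≤ a := by
    calc 2 = 2 ^ 1 := by norm_num
      _ ≤ 2 ^ (k + 1) := Nat.pow_le_pow_right (by norm_num) (by omega)
  have h1 : 2 ^ (a - 1) ≤ Xj (k + 1) := Xj_ge
  have h2 : Xj (k + 1 + 1) ≤ 2 ^ (2 * a) := by
    unfold Xj
    have : 2 ^ (k + 1 + 1) = 2 * a := by rw [ha, pow_succ 2 (k + 1)]; ring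
    rw [this]
    exact Nat.sub_le _ _
  have h3 : ((a : ℝ) - 1) * Real.log 2 ≤ Real.log (Xj (k + 1)) := by
    have h4 : (((2 : ℕ) ^ (a - 1) : ℕ) : ℝ) ≤ Xj (k + 1) := by exact_mod_cast h1
    have h5 := Real.log_le_log (by positivity) h4
    rw [Nat.cast_pow, Real.log_pow] at h5
    have h6 : ((a - 1 : ℕ) : ℝ) = (a : ℝ) - 1 := by
      rw [Nat.cast_sub (by omega)]; simp
    rw [h6] at h5
    exact_mod_cast h5
  have hX1 : (0 : ℝ) < Xj (k + 1 + 1) := by
    have := Xj_two (j := k + 1 + 1) (by omega)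
    exact_mod_cast (by omega : 0 < Xj (k + 1 + 1))
  have h4 : Real.log (Xj (k + 1 + 1)) ≤ (2 * a : ℝ) * Real.log 2 := by
    have h5 : (Xj (k + 1 + 1) : ℝ) ≤ ((2 : ℕ) ^ (2 * a) : ℕ) := by exact_mod_cast h2
    have h6 := Real.log_le_log hX1 h5
    rw [Nat.cast_pow, Real.log_pow] at h6
    push_cast at h6
    exact h6
  have ha2' : (2 : ℝ) ≤ a := by exact_mod_cast ha2
  have h5 : 0 < Real.log (Xj (k + 1)) := lt_of_lt_of_le (by
    apply mul_pos _ hl2
    linarith) h3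
  rw [div_le_iff₀ h5]
  calc Real.log (Xj (k + 1 + 1)) ≤ (2 * a : ℝ) * Real.log 2 := h4
    _ ≤ 4 * (((a : ℝ) - 1) * Real.log 2) := by nlinarith
    _ ≤ _ := by linarith

/-- equal statuses at the primes above a differing one -/
lemma pureG_ctr {M : ℕ} {F : FL M} {b c : ℕ} (hb : b ∣ M) (hc : c ∣ M) (h : PureG F b c) {q : ℕ}
    (hq : q.Prime) (hr : ∃ r, r.Prime ∧ r ≤ q ∧ b.factorization r ≠ c.factorization r) :
    F.ctr b q = F.ctr c q := by
  obtain ⟨r, hr, hrq, hrne⟩ := hr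
  exact F.coh hb hc hq fun q' hq' hlt hn => (h.2 q' hq' ⟨r, hr, by omega, hrne⟩).1 hn

lemma pureG_symm {M : ℕ} {F : FL M} {b c : ℕ} (hb : b ∣ M) (hc : c ∣ M) (h : PureG F b c) :
    PureG F c b := by
  refine ⟨h.1.symm, fun q hq hr => ?_⟩
  obtain ⟨r, hr, hrq, hrne⟩ := hr
  have h1 : ∃ r, r.Prime ∧ r ≤ q ∧ b.factorization r ≠ c.factorization r := ⟨r, hr, hrq, hrne.symm⟩
  have h2 := h.2 q hq h1
  rw [← pureG_ctr hb hc h hq h1]
  refine ⟨fun hn => (h2.1 hn).symm, fun v hv => ?_⟩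
  rw [min_comm]
  exact h2.2 v hv

open Classical in
/-- pure pair, `z` has the centre letter at the first difference -/
lemma pure_side {M : ℕ} {F : FL M} (hM : 0 < M) {cut : ℕ → ℕ} {TT XH' : ℕ → Finset ℕ} {z z' : ℕ}
    (hz : z ∣ M) (hz' : z' ∣ M) (h1 : PureG F z z') {x : ℕ} (hx : Fst x z z')
    (hlt : z.factorization x < z'.factorization x) {Q : Finset ℕ} (hQ : Q ⊆ M.primeFactors)
    (hmis : ∀ q ∈ Q, z.factorization q < M.factorization q) (hbel : ∀ q ∈ Q, q < x)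
    (h : (∃ T ∈ TT z, cut T < x ∧ ∀ q ∈ Q, q ≤ cut (T + 1)) ∨ x ∈ XH' z') :
    bst Q ≤ (∑ x ∈ M.primeFactors, if pd F x z z' then alS M cut TT x z / Vx M x z else 0) +
      (∑ x ∈ M.primeFactors, if PureFrom F x z z' then hX XH' x z' / Vx M x z else 0) := by
  have hxM : x ∈ M.primeFactors := by
    refine Nat.mem_primeFactors.2 ⟨hx.1, ?_, hM.ne'⟩
    refine Dvd.dvd.trans ?_ hz'
    by_contra hh
    rw [Nat.factorization_eq_zero_of_not_dvd hh] at hlt
    omega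
  have hdiff : ∀ q, q.Prime → x ≤ q → ∃ r, r.Prime ∧ r ≤ q ∧
      z.factorization r ≠ z'.factorization r := fun q _ hxq => ⟨x, hx.1, hxq, hx.2.2⟩
  have hpf : PureFrom F x z z' := fun q hq => ⟨fun hlt => hx.2.1 q hq hlt,
    fun hle => h1.2 q hq (hdiff q hq hle)⟩
  have hpd : pd F x z z' := by
    rcases pd_or hz hz' hx.1 hx.2.1 hx.2.2
      (fun q hq hle hn => (h1.2 q hq (hdiff q hq hle)).1 hn)
      (fun q hq hle v hv => (h1.2 q hq (hdiff q hq hle)).2 v hv) with h2 | h2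
    · exact h2
    · exact absurd h2.2.2.1 (by omega)
  have hV := Vx_pos M x z
  have n3 : ∀ y, 0 ≤ alS M cut TT y z / Vx M y z :=
    fun x => div_nonneg (alS_nonneg _ _ _ _ _) (Vx_nonneg _ _ _)
  have n5 : ∀ y, 0 ≤ hX XH' y z' / Vx M y z :=
    fun x => div_nonneg (hX_nonneg _ _ _) (Vx_nonneg _ _ _)
  have t3 : alS M cut TT x z / Vx M x z ≤
      ∑ x ∈ M.primeFactors, if pd F x z z' then alS M cut TT x z / Vx M x z else 0 := by
    refine le_trans (le_of_eq (by rw [if_pos hpd])) (Finset.single_le_sum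
      (f := fun x => if pd F x z z' then alS M cut TT x z / Vx M x z else 0)
      (fun y _ => ?_) hxM)
    split_ifs
    · exact n3 y
    · exact le_rfl
  have t5 : hX XH' x z' / Vx M x z ≤
      ∑ x ∈ M.primeFactors, if PureFrom F x z z' then hX XH' x z' / Vx M x z else 0 := by
    refine le_trans (le_of_eq (by rw [if_pos hpf])) (Finset.single_le_sum
      (f := fun x => if PureFrom F x z z' then hX XH' x z' / Vx M x z else 0)
      (fun y _ => ?_) hxM)
    split_ifs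
    · exact n5 y
    · exact le_rfl
  rcases h with ⟨T, hT, hcT, hcQ⟩ | h
  · -- (alpha)
    have h2 := bst_Vx hQ hmis hbel hcQ
    have h3 : bst Q * Vx M x z ≤ alS M cut TT x z := by
      refine h2.trans ?_
      have h4 : ∏ q ∈ M.primeFactors.filter
          (fun q => cut (T + 1) < q ∧ q < x ∧ z.factorization q < M.factorization q),
          (1 - 1 / (q : ℝ)) = al M (cut T) (cut (T + 1)) x z := by
        unfold al
        rw [if_pos hcT]
      rw [h4]
      exact Finset.single_le_sum (f := fun T => al M (cut T) (cut (T + 1)) x z)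
        (fun _ _ => al_nonneg _ _ _ _ _) hT
    have h4 : bst Q ≤ alS M cut TT x z / Vx M x z := by
      rw [le_div_iff₀ hV]; exact h3
    have h5 := (n5 x).trans t5
    linarith
  · -- (beta)
    have h2 := bst_Vx (c := x) hQ hmis hbel (fun q hq => (hbel q hq).le)
    have h3 : bst Q * Vx M x z ≤ 1 := h2.trans (prod_le_one' _)
    have h4 : bst Q ≤ hX XH' x z' / Vx M x z := by
      unfold hX
      rw [if_pos h, le_div_iff₀ hV]
      exact h3
    have h5 := (n3 x).trans t3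
    linarith

open Classical in
/-- **the boost is below the kernel** -/
theorem bst_le_WH {M : ℕ} {F : FL M} (hM : 0 < M) {j0 : ℕ} (hj0 : 1 ≤ j0) {cut : ℕ → ℕ}
    {TT XH TT' XH' : ℕ → Finset ℕ} {z z' : ℕ} (hz : z ∣ M) (hz' : z' ∣ M) {Q : Finset ℕ}
    (h : PairW F j0 cut TT XH TT' XH' z z' Q) :
    bst Q ≤ 4 * Real.exp (22 / Real.log 2) * WH F j0 cut TT XH TT' XH' z z' := by
  have hl2 : 0 < Real.log 2 := Real.log_pos (by norm_num)
  set CB : ℝ := 4 * Real.exp (22 / Real.log 2) with hCB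
  have hCB1 : 1 ≤ CB := by
    have : 1 ≤ Real.exp (22 / Real.log 2) := Real.one_le_exp (by positivity)
    rw [hCB]; linarith
  have hz0 : z ≠ 0 := mem_ne_zero hM hz
  have hz0' : z' ≠ 0 := mem_ne_zero hM hz'
  have hpr : ∀ q ∈ Q, q.Prime := fun q hq => Nat.prime_of_mem_primeFactors (h.sub hq)
  -- nonnegativity of the six terms
  have hinv : ∀ M z : ℕ, (0 : ℝ) ≤ ((z : ℝ) * nu M z)⁻¹ := fun M z =>
    inv_nonneg.2 (mul_nonneg (Nat.cast_nonneg _) (nu_nonneg _ _))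
  have i1 : (0 : ℝ) ≤ (if z = z' then ((z : ℝ) * nu M z)⁻¹ else 0) := by
    split_ifs
    · exact hinv _ _
    · exact le_rfl
  have i2 : (0 : ℝ) ≤ (if ∃ j, j0 ≤ j ∧ NP F j z z' then BN F j0 z z' else 0) := by
    split_ifs with h1
    · unfold BN
      rw [dif_pos h1]
      exact hinv _ _
    · exact le_rfl
  have tnn : ∀ (R : ℕ → Prop) (g : ℕ → ℝ), (∀ x, 0 ≤ g x) → ∀ x ∈ M.primeFactors,
      0 ≤ (if R x then g x else 0) := by
    intro R g hg x _
    split_ifs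
    · exact hg x
    · exact le_rfl
  have key : ∀ (R : ℕ → Prop) (g : ℕ → ℝ), (∀ x, 0 ≤ g x) →
      0 ≤ ∑ x ∈ M.primeFactors, if R x then g x else 0 := fun R g hg =>
    Finset.sum_nonneg (tnn R g hg)
  have n3 : ∀ x, 0 ≤ alS M cut TT x z / Vx M x z :=
    fun x => div_nonneg (alS_nonneg _ _ _ _ _) (Vx_nonneg _ _ _)
  have n4 : ∀ x, 0 ≤ alS M cut TT' x z' / Vx M x z' :=
    fun x => div_nonneg (alS_nonneg _ _ _ _ _) (Vx_nonneg _ _ _)
  have n5 : ∀ x, 0 ≤ hX XH' x z' / Vx M x z :=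
    fun x => div_nonneg (hX_nonneg _ _ _) (Vx_nonneg _ _ _)
  have n6 : ∀ x, 0 ≤ hX XH x z / Vx M x z' :=
    fun x => div_nonneg (hX_nonneg _ _ _) (Vx_nonneg _ _ _)
  have i3 := key (fun x => pd F x z z') _ n3
  have i4 := key (fun x => pd F x z' z) _ n4
  have i5 := key (fun x => PureFrom F x z z') _ n5
  have i6 := key (fun x => PureFrom F x z' z) _ n6
  have hWH := WH_nonneg F j0 cut TT XH TT' XH' z z'
  have hone : WH F j0 cut TT XH TT' XH' z z' ≤ CB * WH F j0 cut TT XH TT' XH' z z' := by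
    nlinarith
  rcases h.kz with h1 | h1 | ⟨j, hj, h1⟩
  · -- diagonal
    refine le_trans ?_ hone
    have h2 : bst Q ≤ ((z : ℝ) * nu M z)⁻¹ := le_inv_of_mul_le
      (mul_pos (by exact_mod_cast Nat.pos_of_dvd_of_pos hz hM) (nu_pos hM hz))
      (bst_diag hM hz h.sub h.mis)
    unfold WH
    rw [if_pos h1] at i1 ⊢
    linarith
  · -- pure
    refine le_trans ?_ hone
    obtain ⟨x, hx⟩ := exists_fst hz0 hz0' h1.1
    rcases lt_or_gt_of_ne hx.2.2 with hlt | hlt
    · have h2 := pure_side hM hz hz' h1 hx hlt h.sub h.mis (h.below x hx) (h.left h1 x hx hlt)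
      unfold WH
      linarith
    · have h2 := pure_side hM hz' hz (pureG_symm hz hz' h1) hx.symm hlt h.sub
        (fun q hq => by
          rw [← hx.2.1 q (hpr q hq) (h.below x hx q hq)]
          exact h.mis q hq) (h.below x hx) (h.right h1 x hx hlt)
      unfold WH
      linarith
  · -- non-pure
    have hj1 : 1 ≤ j := hj0.trans hj
    obtain ⟨x0, hx0p, hx0, hx0ne⟩ := h1.1.2
    have hne : z ≠ z' := fun e => hx0ne (by rw [e])
    obtain ⟨x, hx⟩ := exists_fst hz0 hz0' hne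
    have hxle : x ≤ Xj (j + 1) := by
      by_contra hcon
      exact hx0ne (hx.2.1 x0 hx0p (by omega))
    have hlow0 : (0 : ℝ) < low (Xj j) z := by exact_mod_cast low_pos _ _
    have hlowd := low_dvd (Xj j) hM.ne' hz
    have hnu0 : 0 < nu (low (Xj j) M) (low (Xj j) z) := nu_pos (low_pos _ _) hlowd
    have e := bst_split Q (fun q => q ≤ Xj j)
    have b1 : bst (Q.filter fun q => q ≤ Xj j) ≤ BN F j0 z z' := by
      rw [BN_eq hj h1]
      refine le_inv_of_mul_le (mul_pos hlow0 hnu0) (bst_diag (low_pos _ _) hlowd ?_ ?_)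
      · intro q hq
        obtain ⟨hq1, hq2⟩ := Finset.mem_filter.1 hq
        have h3 := h.mis q hq1
        rw [← Nat.support_factorization, Finsupp.mem_support_iff, fact_low, if_pos hq2]
        omega
      · intro q hq
        obtain ⟨hq1, hq2⟩ := Finset.mem_filter.1 hq
        rw [fact_low, fact_low, if_pos hq2, if_pos hq2]
        exact h.mis q hq1
    have b2 : bst (Q.filter fun q => ¬ q ≤ Xj j) ≤ CB := by
      refine (bst_window (Xj_two hj1) (a := Xj j) (b := Xj (j + 1)) ?_ ?_ ?_ ?_).trans ?_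
      · unfold Xj
        have : 2 ^ (2 ^ j) ≤ 2 ^ (2 ^ (j + 1)) :=
          Nat.pow_le_pow_right (by norm_num) (Nat.pow_le_pow_right (by norm_num) (by omega))
        omega
      · exact fun q hq => hpr q (Finset.mem_filter.1 hq).1
      · intro q hq
        have := (Finset.mem_filter.1 hq).2
        omega
      · intro q hq
        have := h.below x hx q (Finset.mem_filter.1 hq).1
        omega
      · rw [hCB, mul_comm (4 : ℝ)]
        exact mul_le_mul_of_nonneg_left (log_Xj hj1) (Real.exp_pos _).le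
    have b3 : 1 ≤ bst (Q.filter fun q => ¬ q ≤ Xj j) :=
      one_le_bst fun q hq => hpr q (Finset.mem_filter.1 hq).1
    have b4 : 0 ≤ BN F j0 z z' := by
      rw [BN_eq hj h1]
      exact hinv _ _
    rw [e]
    have hex : ∃ j, j0 ≤ j ∧ NP F j z z' := ⟨j, hj, h1⟩
    have b5 : BN F j0 z z' ≤ WH F j0 cut TT XH TT' XH' z z' := by
      unfold WH
      rw [if_pos hex]
      linarith
    calc bst (Q.filter fun q => q ≤ Xj j) * bst (Q.filter fun q => ¬ q ≤ Xj j)
        ≤ BN F j0 z z' * CB := mul_le_mul b1 b2 (by linarith) b4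
      _ = CB * BN F j0 z z' := mul_comm _ _
      _ ≤ _ := mul_le_mul_of_nonneg_left b5 (by linarith)

/-! ### The cuts `2^(A m)` -/

/-- constant of the window sums -/
noncomputable def CW (A : ℕ) : ℝ := Real.exp (22 / Real.log 2) * ((A : ℝ) + 2) + 1

lemma CW_nonneg (A : ℕ) : 0 ≤ CW A := by unfold CW; positivity

/-- window sums for the cuts `2^(A m)` of the rule -/
lemma cut_window (M A T : ℕ) :
    ∑ p ∈ M.primeFactors.filter (fun p => 2 ^ (A * T) < p ∧ p ≤ 2 ^ (A * (T + 1))), 1 / (p : ℝ) ≤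
      CW A := by
  classical
  have hl2 : 0 < Real.log 2 := Real.log_pos (by norm_num)
  set E := Real.exp (22 / Real.log 2) with hE
  have hE0 : 0 < E := Real.exp_pos _
  rcases Nat.eq_zero_or_pos A with hA | hA
  · subst hA
    have e : M.primeFactors.filter (fun p => 2 ^ (0 * T) < p ∧ p ≤ 2 ^ (0 * (T + 1))) = ∅ := by
      refine Finset.filter_eq_empty_iff.2 fun p _ => ?_
      simp only [Nat.zero_mul, pow_zero]
      omega
    rw [e, Finset.sum_empty]
    exact CW_nonneg _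
  have hA' : (1 : ℝ) ≤ A := by exact_mod_cast hA
  rcases Nat.eq_zero_or_pos T with hT | hT
  · subst hT
    set S := M.primeFactors.filter (fun p => 2 ^ (A * 0) < p ∧ p ≤ 2 ^ (A * (0 + 1))) with hS
    have hsub : S ⊆ insert 2 (S.filter fun p => 2 < p) := by
      intro p hp
      have hpp := Nat.prime_of_mem_primeFactors (Finset.mem_filter.1 hp).1
      rcases hpp.two_le.lt_or_eq with h | h
      · exact Finset.mem_insert_of_mem (Finset.mem_filter.2 ⟨hp, h⟩)
      · rw [← h]; exact Finset.mem_insert_self _ _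
    have hA2 : 2 ≤ 2 ^ A := by
      calc 2 = 2 ^ 1 := by norm_num
        _ ≤ 2 ^ A := Nat.pow_le_pow_right (by norm_num) hA
    have h1 := sum_window (a := 2) (b := 2 ^ A) le_rfl hA2 (Q := S.filter fun p => 2 < p)
      (fun q hq => Nat.prime_of_mem_primeFactors
        (Finset.mem_filter.1 (Finset.mem_filter.1 hq).1).1)
      (fun q hq => (Finset.mem_filter.1 hq).2)
      (fun q hq => by
        have := (Finset.mem_filter.1 (Finset.mem_filter.1 hq).1).2.2
        rwa [Nat.zero_add, Nat.mul_one] at this)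
    have h2 : Real.log ((2 ^ A : ℕ) : ℝ) / Real.log ((2 : ℕ) : ℝ) = A := by
      rw [Nat.cast_pow, Real.log_pow, mul_div_assoc]
      have : Real.log ((2 : ℕ) : ℝ) ≠ 0 := by exact_mod_cast hl2.ne'
      rw [div_self this, mul_one]
    rw [h2] at h1
    calc ∑ p ∈ S, 1 / (p : ℝ) ≤ ∑ p ∈ insert 2 (S.filter fun p => 2 < p), 1 / (p : ℝ) :=
          Finset.sum_le_sum_of_subset_of_nonneg hsub fun _ _ _ => by positivity
      _ = 1 / ((2 : ℕ) : ℝ) + ∑ p ∈ S.filter (fun p => 2 < p), 1 / (p : ℝ) :=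
          Finset.sum_insert (by simp)
      _ ≤ 1 + E * A := by
          have : 1 / ((2 : ℕ) : ℝ) ≤ 1 := by norm_num
          linarith
      _ ≤ CW A := by
          unfold CW
          nlinarith
  · have hAT : 1 ≤ A * T := Nat.mul_pos hA hT
    have h2 : 2 ≤ 2 ^ (A * T) := by
      calc 2 = 2 ^ 1 := by norm_num
        _ ≤ 2 ^ (A * T) := Nat.pow_le_pow_right (by norm_num) hAT
    have h1 := sum_window (a := 2 ^ (A * T)) (b := 2 ^ (A * (T + 1))) h2
      (Nat.pow_le_pow_right (by norm_num) (Nat.mul_le_mul_left _ (by omega)))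
      (Q := M.primeFactors.filter (fun p => 2 ^ (A * T) < p ∧ p ≤ 2 ^ (A * (T + 1))))
      (fun q hq => Nat.prime_of_mem_primeFactors (Finset.mem_filter.1 hq).1)
      (fun q hq => (Finset.mem_filter.1 hq).2.1) (fun q hq => (Finset.mem_filter.1 hq).2.2)
    refine h1.trans ?_
    have hT' : (1 : ℝ) ≤ T := by exact_mod_cast hT
    have h3 : Real.log ((2 ^ (A * (T + 1)) : ℕ) : ℝ) / Real.log ((2 ^ (A * T) : ℕ) : ℝ) ≤ 2 := by
      rw [Nat.cast_pow, Nat.cast_pow, Real.log_pow, Real.log_pow]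
      have hl2' : 0 < Real.log ((2 : ℕ) : ℝ) := by exact_mod_cast hl2
      have hAT' : (0 : ℝ) < ((A * T : ℕ) : ℝ) := by exact_mod_cast hAT
      rw [div_le_iff₀ (mul_pos hAT' hl2')]
      push_cast
      have : (A : ℝ) * (T + 1) ≤ 2 * (A * T) := by nlinarith
      nlinarith
    calc E * (Real.log ((2 ^ (A * (T + 1)) : ℕ) : ℝ) / Real.log ((2 ^ (A * T) : ℕ) : ℝ))
        ≤ E * 2 := mul_le_mul_of_nonneg_left h3 hE0.le
      _ ≤ CW A := by
          unfold CW
          nlinarith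

/-- **final form for the rule** (`cut m = 2^(A m)`), constant depending on `A` only -/
theorem wbd_WH_pow (A : ℕ) : ∃ C : ℝ, 0 < C ∧ ∀ (M : ℕ) (F : FL M), 0 < M → ∀ j0 : ℕ, 1 ≤ j0 →
    ∀ (TT XH TT' XH' : ℕ → Finset ℕ) (N : ℝ), 1 ≤ N →
    (∀ b, ((TT b).card : ℝ) ≤ N) → (∀ b, ((XH b).card : ℝ) ≤ N) →
    (∀ b, ((TT' b).card : ℝ) ≤ N) → (∀ b, ((XH' b).card : ℝ) ≤ N) →
    WBd M (WH F j0 (fun m => 2 ^ (A * m)) TT XH TT' XH') (C * N) := by
  obtain ⟨C, hC, h⟩ := wbd_WH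
  have h1 := CW_nonneg A
  refine ⟨C * (1 + CW A) * 2, by positivity, fun M F hM j0 hj0 TT XH TT' XH' N hN a1 a2 a3 a4 => ?_⟩
  refine (h M F hM j0 hj0 _ TT XH TT' XH' N (CW A) (by linarith) h1
    (fun T => cut_window M A T) a1 a2 a3 a4).mono (fun _ _ _ _ => le_rfl) ?_
  have h2 : 0 ≤ C * (1 + CW A) := by positivity
  nlinarith

end Crest.Agent.R4C.HighWx899
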