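import Crest.Agent.R4C.FLDef_935

/-!
# Twists over one high word (helper863), counting part of the twisted MX (notes 3027, 3121, 3168)

For a fixed word `z` (and a fixed low gcd size `X`) the denominators `k_T(z)` of the labels of
`F.lam x_T z * γ` which occur at the dyadic scales `T = 2^i` take at most
`log₂ (4 R N²) + log₂ N + 2` values (`card_LS`): all but `O(log N)` scales see the same point
`a / (k * lam)`, and then `k_T` increases by divisibility.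
Hence the set `KK z` of the twists `κ ∣ k_T(z)` has `≤ C_ε N^ε` elements (`card_KK`), and so has
`{κ ∣ z : κ ∈ KK (z / κ)}` (`card_TT`).
-/

set_option autoImplicit false

namespace Crest.Agent.R4C.TwistKKx863

open Finset Crest.Agent.R4C.Basex935 Crest.Agent.R4C.Cutx50 Crest.Agent.R4C.FLDefx935

/-! ### Divisor bound -/

/-- a set of positive integers `≤ N` which is a chain for divisibility is small -/
lemma card_chain {S : Finset ℕ} {N : ℕ} (h0 : ∀ k ∈ S, 0 < k) (hN : ∀ k ∈ S, k ≤ N)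
    (hc : ∀ k ∈ S, ∀ k' ∈ S, k ∣ k' ∨ k' ∣ k) : S.card ≤ Nat.log 2 N + 1 := by
  classical
  have key : ∀ k ∈ S, ∀ k' ∈ S, k ∣ k' → Nat.log 2 k = Nat.log 2 k' → k = k' := by
    intro k hk k' hk' hd he
    by_contra hne
    obtain ⟨m, hm⟩ := hd
    have hk0 := h0 k hk
    have hk0' := h0 k' hk'
    have hm2 : 2 ≤ m := by
      rcases m with _ | _ | m
      · omega
      · omega
      · omega
    have h1 : 2 * k ≤ k' := by rw [hm, Nat.mul_comm]; exact Nat.mul_le_mul_left k hm2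
    have h2 : Nat.log 2 (2 * k) ≤ Nat.log 2 k' := Nat.log_mono_right h1
    have h3 : Nat.log 2 (2 * k) = Nat.log 2 k + 1 := by
      rw [Nat.mul_comm]
      exact Nat.log_mul_base (by norm_num) hk0.ne'
    omega
  have h1 : S.card = (S.image (Nat.log 2)).card := by
    rw [Finset.card_image_of_injOn]
    intro k hk k' hk' he
    rcases hc k hk k' hk' with h | h
    · exact key k hk k' hk' h he
    · exact (key k' hk' k hk h he.symm).symm
  rw [h1]
  calc (S.image (Nat.log 2)).card ≤ (range (Nat.log 2 N + 1)).card := by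
        refine Finset.card_le_card fun j hj => ?_
        rw [Finset.mem_image] at hj
        obtain ⟨k, hk, rfl⟩ := hj
        rw [Finset.mem_range]
        have := Nat.log_mono_right (b := 2) (hN k hk)
        omega
    _ = _ := Finset.card_range _

/-- one prime of the divisor bound -/
lemma succ_le_small {ε : ℝ} (hε : 0 < ε) (p e : ℕ) (hp : 2 ≤ p) :
    ((e : ℝ) + 1) ≤ max 1 (1 / (ε * Real.log 2)) * (((p : ℝ) ^ e) ^ ε) := by
  have hl : 0 < Real.log 2 := Real.log_pos (by norm_num)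
  have hp' : (2 : ℝ) ≤ p := by exact_mod_cast hp
  set B := max 1 (1 / (ε * Real.log 2)) with hB
  have hB1 : 1 ≤ B := le_max_left _ _
  have hB2 : 1 ≤ B * (ε * Real.log 2) := by
    have h1 : 1 / (ε * Real.log 2) ≤ B := le_max_right _ _
    have h2 : 0 < ε * Real.log 2 := by positivity
    rw [div_le_iff₀ h2] at h1
    exact h1
  have h1 : (2 : ℝ) ^ ((e : ℝ) * ε) ≤ ((p : ℝ) ^ e) ^ ε := by
    rw [Real.rpow_mul (by norm_num), Real.rpow_natCast]
    exact Real.rpow_le_rpow (by positivity) (pow_le_pow_left₀ (by norm_num) hp' e) hε.le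
  have h2 : 1 + (e : ℝ) * ε * Real.log 2 ≤ (2 : ℝ) ^ ((e : ℝ) * ε) := by
    rw [Real.rpow_def_of_pos (by norm_num)]
    have := Real.add_one_le_exp (Real.log 2 * ((e : ℝ) * ε))
    linarith
  have he : (0 : ℝ) ≤ e := Nat.cast_nonneg e
  calc (e : ℝ) + 1 ≤ B * (1 + (e : ℝ) * ε * Real.log 2) := by nlinarith
    _ ≤ B * (((p : ℝ) ^ e) ^ ε) := by
        refine mul_le_mul_of_nonneg_left (h2.trans h1) (by linarith)

lemma succ_le_big {ε : ℝ} (hε : 0 < ε) (p e : ℕ) (hp : (2 : ℝ) ^ (1 / ε) ≤ p) :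
    ((e : ℝ) + 1) ≤ ((p : ℝ) ^ e) ^ ε := by
  have h1 : (2 : ℝ) ≤ (p : ℝ) ^ ε := by
    have := Real.rpow_le_rpow (by positivity) hp hε.le
    rwa [← Real.rpow_mul (by norm_num), one_div_mul_cancel hε.ne', Real.rpow_one] at this
  have h2 : ((p : ℝ) ^ e) ^ ε = ((p : ℝ) ^ ε) ^ e := by
    rw [← Real.rpow_natCast, ← Real.rpow_natCast, ← Real.rpow_mul (by positivity),
      ← Real.rpow_mul (by positivity), mul_comm]
  rw [h2]
  calc (e : ℝ) + 1 ≤ (2 : ℝ) ^ e := by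
        have : e + 1 ≤ 2 ^ e := Nat.lt_two_pow_self
        exact_mod_cast this
    _ ≤ _ := pow_le_pow_left₀ (by norm_num) h1 e

/-- **divisor bound** -/
theorem divisor_bound {ε : ℝ} (hε : 0 < ε) :
    ∃ C : ℝ, 1 ≤ C ∧ ∀ n : ℕ, 0 < n → (n.divisors.card : ℝ) ≤ C * (n : ℝ) ^ ε := by
  classical
  set B := max 1 (1 / (ε * Real.log 2)) with hB
  have hB1 : (1 : ℝ) ≤ B := le_max_left _ _
  set P := ⌈(2 : ℝ) ^ (1 / ε)⌉₊ with hP
  refine ⟨B ^ P, one_le_pow₀ hB1, fun n hn => ?_⟩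
  have h1 : (n.divisors.card : ℝ) = ∏ p ∈ n.primeFactors, ((n.factorization p : ℝ) + 1) := by
    rw [Nat.card_divisors hn.ne']
    push_cast
    rfl
  have h2 : (n : ℝ) ^ ε = ∏ p ∈ n.primeFactors, (((p : ℝ) ^ (n.factorization p)) ^ ε) := by
    rw [Real.finsetProd_rpow _ _ (fun p _ => by positivity)]
    congr 1
    have h3 := Nat.prod_factorization_pow_eq_self hn.ne'
    rw [Finsupp.prod, Nat.support_factorization] at h3
    calc (n : ℝ) = ((∏ p ∈ n.primeFactors, p ^ n.factorization p : ℕ) : ℝ) := by rw [h3]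
      _ = _ := by push_cast; rfl
  have h3 : ∀ p ∈ n.primeFactors, ((n.factorization p : ℝ) + 1) ≤
      (if p < P then B else 1) * (((p : ℝ) ^ (n.factorization p)) ^ ε) := by
    intro p hp
    by_cases h : p < P
    · rw [if_pos h]
      exact succ_le_small hε p _ (Nat.prime_of_mem_primeFactors hp).two_le
    · rw [if_neg h, one_mul]
      refine succ_le_big hε p _ ?_
      push Not at h
      exact (Nat.le_ceil _).trans (by exact_mod_cast h)
  rw [h1, h2]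
  calc ∏ p ∈ n.primeFactors, ((n.factorization p : ℝ) + 1)
      ≤ ∏ p ∈ n.primeFactors, ((if p < P then B else 1) * (((p : ℝ) ^ (n.factorization p)) ^ ε)) :=
        Finset.prod_le_prod (fun p _ => by positivity) h3
    _ = (∏ p ∈ n.primeFactors, (if p < P then B else 1)) *
        ∏ p ∈ n.primeFactors, (((p : ℝ) ^ (n.factorization p)) ^ ε) := Finset.prod_mul_distrib
    _ ≤ B ^ P * ∏ p ∈ n.primeFactors, (((p : ℝ) ^ (n.factorization p)) ^ ε) := by
        refine mul_le_mul_of_nonneg_right ?_ (Finset.prod_nonneg fun p _ => by positivity)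
        rw [Finset.prod_ite, Finset.prod_const, Finset.prod_const_one, mul_one]
        refine pow_le_pow_right₀ hB1 ?_
        calc (n.primeFactors.filter (fun p => p < P)).card ≤ (range P).card := by
              refine Finset.card_le_card fun p hp => ?_
              rw [Finset.mem_filter] at hp
              exact Finset.mem_range.2 hp.2
          _ = P := Finset.card_range P

/-! ### Same point -/

/-- two labels of nested words with small errors are the same point -/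
lemma same_pt {γ : ℝ} {Λ1 q Λ2 : ℕ} {a1 a2 : ℤ} {k1 k2 : ℕ} {e1 e2 : ℝ} (hΛ : Λ1 = q * Λ2)
    (hk1 : 0 < k1) (hk2 : 0 < k2) (h1 : |(Λ1 : ℝ) * γ - a1 / k1| ≤ e1)
    (h2 : |(Λ2 : ℝ) * γ - a2 / k2| ≤ e2) (hlt : (e1 + q * e2) * (k1 * k2) < 1) :
    a1 * k2 = q * a2 * k1 := by
  have hk1' : (0 : ℝ) < k1 := by exact_mod_cast hk1
  have hk2' : (0 : ℝ) < k2 := by exact_mod_cast hk2
  have hq : (0 : ℝ) ≤ q := Nat.cast_nonneg q
  have h3 : |(a1 : ℝ) / k1 - q * (a2 / k2)| ≤ e1 + q * e2 := by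
    have e : (a1 : ℝ) / k1 - q * (a2 / k2) =
        -((Λ1 : ℝ) * γ - a1 / k1) + q * ((Λ2 : ℝ) * γ - a2 / k2) := by
      rw [hΛ]; push_cast; ring
    rw [e]
    calc |-((Λ1 : ℝ) * γ - a1 / k1) + q * ((Λ2 : ℝ) * γ - a2 / k2)|
        ≤ |-((Λ1 : ℝ) * γ - a1 / k1)| + |q * ((Λ2 : ℝ) * γ - a2 / k2)| := abs_add_le _ _
      _ ≤ e1 + q * e2 := by
          rw [abs_neg, abs_mul, abs_of_nonneg hq]
          exact add_le_add h1 (mul_le_mul_of_nonneg_left h2 hq)
  have h4 : |((a1 * k2 - q * a2 * k1 : ℤ) : ℝ)| < 1 := by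
    have e : ((a1 * k2 - q * a2 * k1 : ℤ) : ℝ) = ((a1 : ℝ) / k1 - q * (a2 / k2)) * (k1 * k2) := by
      push_cast
      field_simp
    rw [e, abs_mul, abs_of_pos (by positivity : (0 : ℝ) < (k1 : ℝ) * k2)]
    calc |(a1 : ℝ) / k1 - q * (a2 / k2)| * (k1 * k2) ≤ (e1 + q * e2) * (k1 * k2) :=
          mul_le_mul_of_nonneg_right h3 (by positivity)
      _ < 1 := hlt
  have h5 : |a1 * k2 - q * a2 * k1| < 1 := by exact_mod_cast h4
  have h6 : a1 * k2 - q * a2 * k1 = 0 := Int.abs_lt_one_iff.1 h5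
  linarith

lemma dvd_of_same {q : ℕ} {a1 a2 : ℤ} {k1 k2 : ℕ} (hc : IsCoprime a1 (k1 : ℤ))
    (h : a1 * k2 = q * a2 * k1) : k1 ∣ k2 := by
  have h1 : (k1 : ℤ) ∣ a1 * k2 := by rw [h]; exact Dvd.intro_left _ rfl
  have h2 : (k1 : ℤ) ∣ k2 := hc.symm.dvd_of_dvd_mul_left h1
  exact_mod_cast h2

/-- **few denominators along the scales** (abstract form) -/
theorem card_labels {γ R c0 : ℝ} {N : ℕ} {S : Finset ℕ} {k : ℕ → ℕ} {a : ℕ → ℤ} {Λ : ℕ → ℕ}
    {σ : ℕ → ℝ} (hR : 0 ≤ R) (hk0 : ∀ i ∈ S, 0 < k i) (hkN : ∀ i ∈ S, k i ≤ N)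
    (hco : ∀ i ∈ S, IsCoprime (a i) (k i : ℤ)) (hΛ0 : ∀ i ∈ S, 0 < Λ i)
    (hlab : ∀ i ∈ S, |(Λ i : ℝ) * γ - a i / k i| ≤ R / σ i) (hσ : ∀ i ∈ S, (2 : ℝ) ^ i ≤ 2 * σ i)
    (hc0 : ∀ i ∈ S, σ i * Λ i = c0) (hdvd : ∀ i ∈ S, ∀ j ∈ S, i ≤ j → Λ j ∣ Λ i) :
    (S.image k).card ≤ Nat.log 2 ⌊4 * R * N ^ 2⌋₊ + Nat.log 2 N + 2 := by
  classical
  set P := Nat.log 2 ⌊4 * R * N ^ 2⌋₊ with hP
  have hσ0 : ∀ i ∈ S, 0 < σ i := fun i hi => by
    have h1 := hσ i hi
    have h2 : (0 : ℝ) < 2 ^ i := by positivity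
    linarith
  -- large scales: divisibility
  have key : ∀ i ∈ S, ∀ j ∈ S, i ≤ j → P < i → k i ∣ k j := by
    intro i hi j hj hij hPi
    obtain ⟨q, hq⟩ := hdvd i hi j hj hij
    have hq' : Λ i = q * Λ j := by rw [hq, Nat.mul_comm]
    have hi0 := hσ0 i hi
    have hj0 := hσ0 j hj
    have hΛj : (0 : ℝ) < Λ j := by exact_mod_cast hΛ0 j hj
    have hN1 : (1 : ℝ) ≤ N := by
      have := (hk0 i hi).trans_le (hkN i hi)
      exact_mod_cast this
    have hqσ : (q : ℝ) * (R / σ j) = R / σ i := by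
      have h1 := hc0 i hi
      have h2 := hc0 j hj
      rw [← h2, hq'] at h1
      push_cast at h1
      have h3 : σ i * q = σ j := by
        have h4 : (σ i * q) * Λ j = σ j * Λ j := by linarith
        exact mul_right_cancel₀ hΛj.ne' h4
      rw [← h3]
      by_cases hq0 : (q : ℝ) = 0
      · rw [hq0, mul_zero] at h3
        rw [← h3] at hj0
        exact absurd hj0 (lt_irrefl _)
      · field_simp
    refine dvd_of_same (q := q) (hco i hi) (same_pt hq' (hk0 i hi) (hk0 j hj) (hlab i hi)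
      (hlab j hj) ?_)
    rw [hqσ]
    -- size of the scale
    have h5 : 4 * R * (N : ℝ) ^ 2 < 2 ^ i := by
      have h6 : ⌊4 * R * (N : ℝ) ^ 2⌋₊ < 2 ^ i := by
        rcases Nat.eq_zero_or_pos ⌊4 * R * (N : ℝ) ^ 2⌋₊ with h0 | h0
        · rw [h0]; positivity
        · exact Nat.lt_pow_of_log_lt (by norm_num) hPi
      have h7 := Nat.lt_floor_add_one (4 * R * (N : ℝ) ^ 2)
      have h8 : ((⌊4 * R * (N : ℝ) ^ 2⌋₊ : ℝ) + 1) ≤ 2 ^ i := by exact_mod_cast h6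
      linarith
    have h6 : 2 * R * (N : ℝ) ^ 2 < σ i := by
      have := hσ i hi
      linarith
    have h7 : (k i : ℝ) * k j ≤ (N : ℝ) ^ 2 := by
      have h8 : (k i : ℝ) ≤ N := by exact_mod_cast hkN i hi
      have h9 : (k j : ℝ) ≤ N := by exact_mod_cast hkN j hj
      have h10 : (0 : ℝ) ≤ k i := Nat.cast_nonneg _
      have h11 : (0 : ℝ) ≤ k j := Nat.cast_nonneg _
      nlinarith
    calc (R / σ i + R / σ i) * (k i * k j) ≤ (R / σ i + R / σ i) * (N : ℝ) ^ 2 := by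
          refine mul_le_mul_of_nonneg_left h7 (by positivity)
      _ = (2 * R * (N : ℝ) ^ 2) / σ i := by ring
      _ < 1 := by rw [div_lt_one hi0]; exact h6
  -- split
  have hsplit : S.image k ⊆ ((S.filter (fun i => i ≤ P)).image k) ∪
      ((S.filter (fun i => P < i)).image k) := by
    intro n hn
    rw [Finset.mem_image] at hn
    obtain ⟨i, hi, rfl⟩ := hn
    rw [Finset.mem_union]
    rcases le_or_gt i P with h | h
    · exact Or.inl (Finset.mem_image_of_mem _ (Finset.mem_filter.2 ⟨hi, h⟩))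
    · exact Or.inr (Finset.mem_image_of_mem _ (Finset.mem_filter.2 ⟨hi, h⟩))
  have hA : ((S.filter (fun i => i ≤ P)).image k).card ≤ P + 1 := by
    refine Finset.card_image_le.trans ?_
    calc (S.filter (fun i => i ≤ P)).card ≤ (range (P + 1)).card := by
          refine Finset.card_le_card fun i hi => ?_
          rw [Finset.mem_filter] at hi
          rw [Finset.mem_range]
          omega
      _ = P + 1 := Finset.card_range _
  have hB : ((S.filter (fun i => P < i)).image k).card ≤ Nat.log 2 N + 1 := by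
    refine card_chain ?_ ?_ ?_
    · intro n hn
      rw [Finset.mem_image] at hn
      obtain ⟨i, hi, rfl⟩ := hn
      exact hk0 i (Finset.mem_filter.1 hi).1
    · intro n hn
      rw [Finset.mem_image] at hn
      obtain ⟨i, hi, rfl⟩ := hn
      exact hkN i (Finset.mem_filter.1 hi).1
    · intro n hn n' hn'
      rw [Finset.mem_image] at hn hn'
      obtain ⟨i, hi, rfl⟩ := hn
      obtain ⟨j, hj, rfl⟩ := hn'
      rw [Finset.mem_filter] at hi hj
      rcases le_total i j with h | h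
      · exact Or.inl (key i hi.1 j hj.1 h hi.2)
      · exact Or.inr (key j hj.1 i hi.1 h hj.2)
  calc (S.image k).card ≤ _ := Finset.card_le_card hsplit
    _ ≤ _ := Finset.card_union_le _ _
    _ ≤ (P + 1) + (Nat.log 2 N + 1) := Nat.add_le_add hA hB
    _ = _ := by ring

/-! ### Instantiation over `FL` -/

variable {M : ℕ} {F : FL M}

/-- the status depends only on the letters above -/
lemma ctr_congr {x b z : ℕ} (hb : b ∣ M) (hz : z ∣ M)
    (h : ∀ p, p.Prime → x < p → b.factorization p = z.factorization p) {p : ℕ} (hp : p.Prime)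
    (hx : x < p) : F.ctr b p = F.ctr z p :=
  F.coh hb hz hp fun q hq hpq _ => h q hq (hx.trans hpq)

lemma lam_congr {x b z : ℕ} (hb : b ∣ M) (hz : z ∣ M)
    (h : ∀ p, p.Prime → x < p → b.factorization p = z.factorization p) :
    F.lam x b = F.lam x z := by
  unfold FL.lam
  refine Finset.prod_congr rfl fun p hp => ?_
  have hpp := Nat.prime_of_mem_primeFactors hp
  congr 1
  unfold FL.lamE
  by_cases hx : x < p
  · simp only [hx, if_true]
    rw [ctr_congr hb hz h hpp hx, h p hpp hx]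
  · simp [hx]

lemma good_congr {x b z c z' : ℕ} (hb : b ∣ M) (hz : z ∣ M)
    (h : ∀ p, p.Prime → x < p → b.factorization p = z.factorization p)
    (h' : ∀ p, p.Prime → x < p → c.factorization p = z'.factorization p)
    (hg : F.good x b c) : F.good x z z' := by
  constructor
  · intro q hq hx hn
    rw [← ctr_congr hb hz h hq hx] at hn
    rw [← h q hq hx, ← h' q hq hx]
    exact hg.1 q hq hx hn
  · intro q hq hx v hv
    rw [← ctr_congr hb hz h hq hx] at hv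
    rw [← h q hq hx, ← h' q hq hx]
    exact hg.2 q hq hx v hv

lemma fact_mul_low {w z x : ℕ} (hw : w ≠ 0) (hz : z ≠ 0) (hwx : ∀ p, p.Prime → p ∣ w → p ≤ x) :
    ∀ p, p.Prime → x < p → (w * z).factorization p = z.factorization p := by
  intro p hp hx
  rw [Nat.factorization_mul hw hz, Finsupp.add_apply]
  have : w.factorization p = 0 := by
    refine Nat.factorization_eq_zero_of_not_dvd fun hd => ?_
    have := hwx p hp hd
    omega
  omega

lemma uu_mul {x w z : ℕ} (hM : 0 < M) (hb : w * z ∣ M) (hwx : ∀ p, p.Prime → p ∣ w → p ≤ x) :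
    F.uu x (w * z) = w * F.uu x z := by
  have hz : z ∣ M := (Dvd.intro_left _ rfl).trans hb
  have h0 : w * z ≠ 0 := (Nat.pos_of_dvd_of_pos hb hM).ne'
  have hw0 : w ≠ 0 := left_ne_zero_of_mul h0
  have hz0 : z ≠ 0 := right_ne_zero_of_mul h0
  have h1 := FL.uu_mul_lam (F := F) (x := x) hM hb
  have h2 := FL.uu_mul_lam (F := F) (x := x) hM hz
  rw [lam_congr (F := F) hb hz (fact_mul_low hw0 hz0 hwx)] at h1
  have h3 : F.uu x (w * z) * F.lam x z = (w * F.uu x z) * F.lam x z := by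
    rw [h1, mul_assoc, h2]
  exact Nat.eq_of_mul_eq_mul_right (FL.lam_pos x z) h3

/-- `σ_T(z) = X * uu / L`, lower bound for the scale of the members over `z` at the cut `x_T` -/
noncomputable def sg (F : FL M) (L X : ℝ) (x : ℕ → ℕ) (z i : ℕ) : ℝ := X * F.uu (x i) z / L

/-- the scale `2^i` occurs over the word `z` (label `lab i (lam z)` of the local target) -/
def Occ (F : FL M) (γ L X R : ℝ) (N : ℕ) (x : ℕ → ℕ) (lab : ℕ → ℕ → ℕ) (z i : ℕ) : Prop :=
  0 < lab i (F.lam (x i) z) ∧ lab i (F.lam (x i) z) ≤ N ∧ lab i (F.lam (x i) z) ≤ x i ∧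
    (2 : ℝ) ^ i ≤ 2 * sg F L X x z i ∧
    ∃ a : ℤ, IsCoprime a (lab i (F.lam (x i) z) : ℤ) ∧
      |(F.lam (x i) z : ℝ) * γ - a / (lab i (F.lam (x i) z) : ℕ)| ≤ R / sg F L X x z i

open Classical in
/-- the denominators over `z` -/
noncomputable def LS (F : FL M) (γ L X R : ℝ) (N : ℕ) (x : ℕ → ℕ) (lab : ℕ → ℕ → ℕ)
    (I : Finset ℕ) (z : ℕ) : Finset ℕ :=
  (I.filter (Occ F γ L X R N x lab z)).image (fun i => lab i (F.lam (x i) z))

/-- the twists over `z` -/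
noncomputable def KK (F : FL M) (γ L X R : ℝ) (N : ℕ) (x : ℕ → ℕ) (lab : ℕ → ℕ → ℕ)
    (I : Finset ℕ) (z : ℕ) : Finset ℕ :=
  (LS F γ L X R N x lab I z).biUnion Nat.divisors

lemma mem_KK {γ L X R : ℝ} {N : ℕ} {x : ℕ → ℕ} {lab : ℕ → ℕ → ℕ} {I : Finset ℕ} {z κ : ℕ} :
    κ ∈ KK F γ L X R N x lab I z ↔
      ∃ i ∈ I, Occ F γ L X R N x lab z i ∧ κ ∣ lab i (F.lam (x i) z) := by
  classical
  unfold KK LS
  rw [Finset.mem_biUnion]
  constructor
  · rintro ⟨k, hk, hd⟩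
    rw [Finset.mem_image] at hk
    obtain ⟨i, hi, rfl⟩ := hk
    rw [Finset.mem_filter] at hi
    exact ⟨i, hi.1, hi.2, (Nat.mem_divisors.1 hd).1⟩
  · rintro ⟨i, hi, ho, hd⟩
    exact ⟨_, Finset.mem_image.2 ⟨i, Finset.mem_filter.2 ⟨hi, ho⟩, rfl⟩,
      Nat.mem_divisors.2 ⟨hd, ho.1.ne'⟩⟩

lemma KK_le {γ L X R : ℝ} {N : ℕ} {x : ℕ → ℕ} {lab : ℕ → ℕ → ℕ} {I : Finset ℕ} {z κ : ℕ}
    (h : κ ∈ KK F γ L X R N x lab I z) : 0 < κ ∧ κ ≤ N := by
  obtain ⟨i, _, ho, hd⟩ := mem_KK.1 h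
  exact ⟨Nat.pos_of_dvd_of_pos hd ho.1, (Nat.le_of_dvd ho.1 hd).trans ho.2.1⟩

/-- **few denominators over one word** -/
theorem card_LS {γ L X R : ℝ} {N : ℕ} {x : ℕ → ℕ} {lab : ℕ → ℕ → ℕ} {I : Finset ℕ} {z : ℕ}
    (hM : 0 < M) (hz : z ∣ M) (hR : 0 ≤ R) (hx : Monotone x) :
    (LS F γ L X R N x lab I z).card ≤ Nat.log 2 ⌊4 * R * N ^ 2⌋₊ + Nat.log 2 N + 2 := by
  classical
  unfold LS
  have hch : ∀ i ∈ I.filter (Occ F γ L X R N x lab z), Occ F γ L X R N x lab z i :=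
    fun i hi => (Finset.mem_filter.1 hi).2
  have hex : ∀ i, ∃ a : ℤ, i ∈ I.filter (Occ F γ L X R N x lab z) →
      IsCoprime a (lab i (F.lam (x i) z) : ℤ) ∧
      |(F.lam (x i) z : ℝ) * γ - a / (lab i (F.lam (x i) z) : ℕ)| ≤ R / sg F L X x z i := by
    intro i
    by_cases hi : i ∈ I.filter (Occ F γ L X R N x lab z)
    · obtain ⟨a, ha⟩ := (hch i hi).2.2.2.2
      exact ⟨a, fun _ => ha⟩
    · exact ⟨0, fun h => absurd h hi⟩
  choose a ha using hex
  refine card_labels (γ := γ) (R := R) (c0 := X * z / L) (a := a) (Λ := fun i => F.lam (x i) z)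
    (σ := fun i => sg F L X x z i) hR (fun i hi => (hch i hi).1) (fun i hi => (hch i hi).2.1)
    (fun i hi => (ha i hi).1) (fun i _ => FL.lam_pos _ _) (fun i hi => (ha i hi).2)
    (fun i hi => (hch i hi).2.2.2.1) (fun i _ => ?_) (fun i _ j _ hij => ?_)
  · unfold sg
    have h1 := FL.uu_mul_lam (F := F) (x := x i) hM hz
    have h2 : (F.uu (x i) z : ℝ) * F.lam (x i) z = z := by exact_mod_cast h1
    calc X * (F.uu (x i) z : ℝ) / L * F.lam (x i) z
        = X * ((F.uu (x i) z : ℝ) * F.lam (x i) z) / L := by ring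
      _ = X * z / L := by rw [h2]
  · exact FL.lam_dvd_lam (hx hij)

theorem card_KK_le {γ L X R D : ℝ} {N : ℕ} {x : ℕ → ℕ} {lab : ℕ → ℕ → ℕ} {I : Finset ℕ} {z : ℕ}
    (hM : 0 < M) (hz : z ∣ M) (hR : 0 ≤ R) (hx : Monotone x) (hD0 : 0 ≤ D)
    (hD : ∀ k : ℕ, 0 < k → k ≤ N → (k.divisors.card : ℝ) ≤ D) :
    ((KK F γ L X R N x lab I z).card : ℝ) ≤
      ((Nat.log 2 ⌊4 * R * N ^ 2⌋₊ + Nat.log 2 N + 2 : ℕ) : ℝ) * D := by
  classical
  unfold KK
  have h1 : (((LS F γ L X R N x lab I z).biUnion Nat.divisors).card : ℝ) ≤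
      ∑ k ∈ LS F γ L X R N x lab I z, (k.divisors.card : ℝ) := by
    exact_mod_cast Finset.card_biUnion_le
  have h2 : ∀ k ∈ LS F γ L X R N x lab I z, (k.divisors.card : ℝ) ≤ D := by
    intro k hk
    unfold LS at hk
    rw [Finset.mem_image] at hk
    obtain ⟨i, hi, rfl⟩ := hk
    have ho := (Finset.mem_filter.1 hi).2
    exact hD _ ho.1 ho.2.1
  calc _ ≤ ∑ k ∈ LS F γ L X R N x lab I z, (k.divisors.card : ℝ) := h1
    _ ≤ ∑ _k ∈ LS F γ L X R N x lab I z, D := Finset.sum_le_sum h2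
    _ = ((LS F γ L X R N x lab I z).card : ℝ) * D := by rw [Finset.sum_const, nsmul_eq_mul]
    _ ≤ _ := by
        refine mul_le_mul_of_nonneg_right ?_ hD0
        exact_mod_cast card_LS hM hz hR hx

/-- size of the logarithmic factor -/
lemma log_factor {ε : ℝ} (hε : 0 < ε) (A : ℕ) : ∃ C : ℝ, 0 < C ∧ ∀ (R : ℝ) (N : ℕ), 1 ≤ N →
    R ≤ (N : ℝ) ^ A →
    ((Nat.log 2 ⌊4 * R * N ^ 2⌋₊ + Nat.log 2 N + 2 : ℕ) : ℝ) ≤ C * (N : ℝ) ^ ε := by
  set B := max 1 (1 / (ε * Real.log 2)) with hB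
  have hB1 : (1 : ℝ) ≤ B := le_max_left _ _
  refine ⟨((A : ℝ) + 7) * B, by positivity, fun R N hN hR => ?_⟩
  set l := Nat.log 2 N with hl
  have hN1 : (1 : ℝ) ≤ N := by exact_mod_cast hN
  have h1 : Nat.log 2 ⌊4 * R * (N : ℝ) ^ 2⌋₊ ≤ (A + 2) * (l + 1) + 2 := by
    have h2 : ⌊4 * R * (N : ℝ) ^ 2⌋₊ ≤ 4 * N ^ (A + 2) := by
      have h3 : 4 * R * (N : ℝ) ^ 2 ≤ ((4 * N ^ (A + 2) : ℕ) : ℝ) := by
        push_cast
        rw [pow_add]
        have h4 : (0 : ℝ) ≤ (N : ℝ) ^ 2 := by positivity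
        nlinarith [mul_le_mul_of_nonneg_right hR h4]
      exact (Nat.floor_le_floor h3).trans (by rw [Nat.floor_natCast])
    have h3 : 4 * N ^ (A + 2) < 2 ^ ((A + 2) * (l + 1) + 2 + 1) := by
      have h4 : N < 2 ^ (l + 1) := Nat.lt_pow_succ_log_self (by norm_num) N
      have h5 : N ^ (A + 2) ≤ (2 ^ (l + 1)) ^ (A + 2) := Nat.pow_le_pow_left h4.le _
      have h6 : (2 ^ (l + 1)) ^ (A + 2) = 2 ^ ((A + 2) * (l + 1)) := by
        rw [← pow_mul, Nat.mul_comm]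
      rw [h6] at h5
      have h7 : 2 ^ ((A + 2) * (l + 1) + 2 + 1) = 8 * 2 ^ ((A + 2) * (l + 1)) := by
        rw [pow_add, pow_add]; ring
      rw [h7]
      have h8 : 0 < 2 ^ ((A + 2) * (l + 1)) := by positivity
      omega
    have h4 : ⌊4 * R * (N : ℝ) ^ 2⌋₊ < 2 ^ ((A + 2) * (l + 1) + 2 + 1) := h2.trans_lt h3
    rcases Nat.eq_zero_or_pos ⌊4 * R * (N : ℝ) ^ 2⌋₊ with h0 | h0
    · rw [h0]; simp
    · have := Nat.log_lt_of_lt_pow h0.ne' h4
      omega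
  have h2 : ((Nat.log 2 ⌊4 * R * N ^ 2⌋₊ + l + 2 : ℕ) : ℝ) ≤ ((A : ℝ) + 7) * (l + 1) := by
    have h3 : Nat.log 2 ⌊4 * R * (N : ℝ) ^ 2⌋₊ + l + 2 ≤ (A + 7) * (l + 1) := by nlinarith
    exact_mod_cast h3
  have h3 : (l : ℝ) + 1 ≤ B * (N : ℝ) ^ ε := by
    refine (succ_le_small hε 2 l le_rfl).trans ?_
    refine mul_le_mul_of_nonneg_left ?_ (by linarith)
    refine Real.rpow_le_rpow (by positivity) ?_ hε.le
    have := Nat.pow_log_le_self 2 (show N ≠ 0 by omega)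
    exact_mod_cast this
  calc _ ≤ ((A : ℝ) + 7) * (l + 1) := h2
    _ ≤ ((A : ℝ) + 7) * (B * (N : ℝ) ^ ε) := mul_le_mul_of_nonneg_left h3 (by positivity)
    _ = _ := by ring

/-- **`#KK(z) ≤ C N^ε`** -/
theorem card_KK {ε : ℝ} (hε : 0 < ε) (A : ℕ) : ∃ C : ℝ, 0 < C ∧
    ∀ (M : ℕ) (F : FL M) (γ L X R : ℝ) (N : ℕ) (x : ℕ → ℕ) (lab : ℕ → ℕ → ℕ) (I : Finset ℕ)
      (z : ℕ), 0 < M → z ∣ M → 0 ≤ R → R ≤ (N : ℝ) ^ A → 1 ≤ N → Monotone x →
      ((KK F γ L X R N x lab I z).card : ℝ) ≤ C * (N : ℝ) ^ ε := by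
  obtain ⟨C1, hC1, h1⟩ := log_factor (half_pos hε) A
  obtain ⟨C2, hC2, h2⟩ := divisor_bound (half_pos hε)
  refine ⟨C1 * C2, by positivity, fun M F γ L X R N x lab I z hM hz hR hRN hN hx => ?_⟩
  have hN0 : (0 : ℝ) < N := by exact_mod_cast hN
  refine (card_KK_le (D := C2 * (N : ℝ) ^ (ε / 2)) hM hz hR hx (by positivity) ?_).trans ?_
  · intro k hk0 hkN
    refine (h2 k hk0).trans ?_
    refine mul_le_mul_of_nonneg_left ?_ (by linarith)
    exact Real.rpow_le_rpow (by positivity) (by exact_mod_cast hkN) (by positivity)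
  · calc _ ≤ (C1 * (N : ℝ) ^ (ε / 2)) * (C2 * (N : ℝ) ^ (ε / 2)) :=
          mul_le_mul_of_nonneg_right (h1 R N hN hRN) (by positivity)
      _ = C1 * C2 * ((N : ℝ) ^ (ε / 2) * (N : ℝ) ^ (ε / 2)) := by ring
      _ = C1 * C2 * (N : ℝ) ^ ε := by rw [← Real.rpow_add hN0, add_halves]

/-- twists of one word: transfer to the word itself, `R` replaced by `R * N` -/
lemma KK_div {γ L X R : ℝ} {N : ℕ} {x : ℕ → ℕ} {lab : ℕ → ℕ → ℕ} {I : Finset ℕ} {z κ : ℕ}
    (hM : 0 < M) (hz : z ∣ M) (hR : 0 ≤ R) (hκ : κ ∣ z)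
    (h : κ ∈ KK F γ L X R N x lab I (z / κ)) : κ ∈ KK F γ L X (R * N) N x lab I z := by
  obtain ⟨hκ0, hκN⟩ := KK_le h
  obtain ⟨i, hi, ⟨h1, h2, h3, h4, a, h5, h6⟩, hd⟩ := mem_KK.1 h
  obtain ⟨z', rfl⟩ := hκ
  rw [Nat.mul_div_cancel_left _ hκ0] at h1 h2 h3 h4 h5 h6 hd
  have hz' : z' ∣ M := (Dvd.intro_left _ rfl).trans hz
  have h0 : κ * z' ≠ 0 := (Nat.pos_of_dvd_of_pos hz hM).ne'
  have hz0 : z' ≠ 0 := right_ne_zero_of_mul h0
  have hpx : ∀ p, p.Prime → p ∣ κ → p ≤ x i := fun p _ hp =>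
    (Nat.le_of_dvd hκ0 hp).trans ((Nat.le_of_dvd h1 hd).trans h3)
  have hlam : F.lam (x i) (κ * z') = F.lam (x i) z' :=
    lam_congr hz hz' (fact_mul_low hκ0.ne' hz0 hpx)
  have hsg : sg F L X x (κ * z') i = κ * sg F L X x z' i := by
    unfold sg
    rw [uu_mul hM hz hpx]
    push_cast
    ring
  have hsg0 : 0 < sg F L X x z' i := by
    have : (0 : ℝ) < 2 ^ i := by positivity
    linarith
  have hκ1 : (1 : ℝ) ≤ κ := by exact_mod_cast hκ0
  have hκN' : (κ : ℝ) ≤ N := by exact_mod_cast hκN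
  refine mem_KK.2 ⟨i, hi, ⟨?_, ?_, ?_, ?_, a, ?_, ?_⟩, ?_⟩
  · rw [hlam]; exact h1
  · rw [hlam]; exact h2
  · rw [hlam]; exact h3
  · rw [hsg]
    nlinarith
  · rw [hlam]; exact h5
  · rw [hlam, hsg]
    refine h6.trans ?_
    rw [div_le_div_iff₀ hsg0 (by positivity)]
    have : R * κ ≤ R * N := mul_le_mul_of_nonneg_left hκN' hR
    nlinarith
  · rw [hlam]; exact hd

open Classical in
/-- the twists `κ ∣ z` which occur over `z / κ` -/
noncomputable def TT (F : FL M) (γ L X R : ℝ) (N : ℕ) (x : ℕ → ℕ) (lab : ℕ → ℕ → ℕ)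
    (I : Finset ℕ) (z : ℕ) : Finset ℕ :=
  z.divisors.filter (fun κ => κ ∈ KK F γ L X R N x lab I (z / κ))

/-- **`#{κ ∣ z : κ ∈ KK (z/κ)} ≤ C N^ε`** -/
theorem card_TT {ε : ℝ} (hε : 0 < ε) (A : ℕ) : ∃ C : ℝ, 0 < C ∧
    ∀ (M : ℕ) (F : FL M) (γ L X R : ℝ) (N : ℕ) (x : ℕ → ℕ) (lab : ℕ → ℕ → ℕ) (I : Finset ℕ)
      (z : ℕ), 0 < M → z ∣ M → 0 ≤ R → R ≤ (N : ℝ) ^ A → 1 ≤ N → Monotone x →
      ((TT F γ L X R N x lab I z).card : ℝ) ≤ C * (N : ℝ) ^ ε := by
  classical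
  obtain ⟨C, hC, h⟩ := card_KK hε (A + 1)
  refine ⟨C, hC, fun M F γ L X R N x lab I z hM hz hR hRN hN hx => ?_⟩
  have hsub : TT F γ L X R N x lab I z ⊆ KK F γ L X (R * N) N x lab I z := by
    intro κ hκ
    unfold TT at hκ
    rw [Finset.mem_filter, Nat.mem_divisors] at hκ
    exact KK_div hM hz hR hκ.1.1 hκ.2
  refine le_trans ?_ (h M F γ L X (R * N) N x lab I z hM hz (by positivity) ?_ hN hx)
  · exact_mod_cast Finset.card_le_card hsub
  · rw [pow_succ]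
    exact mul_le_mul_of_nonneg_right hRN (Nat.cast_nonneg _)

/-! ### Occurrence of a scale from an actual pair -/

/-- the scale of a good pair over `z`, low gcd of size `X` -/
lemma scale_of_pair {L X : ℝ} {x : ℕ → ℕ} {i w w' z z' : ℕ} (hM : 0 < M) (hL : 0 < L)
    (hb : w * z ∣ M) (hc : w' * z' ∣ M) (hw : ∀ p, p.Prime → p ∣ w → p ≤ x i)
    (hw' : ∀ p, p.Prime → p ∣ w' → p ≤ x i) (hg : F.good (x i) (w * z) (w' * z'))
    (hs : (2 : ℝ) ^ i * L ≤ (Nat.gcd (w * z) (w' * z') : ℝ))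
    (hX : (Nat.gcd (w * z) (w' * z') : ℝ) ≤ 2 * X * (Nat.gcd z z' : ℝ)) (hX0 : 0 ≤ X) :
    (2 : ℝ) ^ i ≤ 2 * sg F L X x z i := by
  have hz : z ∣ M := (Dvd.intro_left _ rfl).trans hb
  have hz' : z' ∣ M := (Dvd.intro_left _ rfl).trans hc
  have h0 : w * z ≠ 0 := (Nat.pos_of_dvd_of_pos hb hM).ne'
  have h0' : w' * z' ≠ 0 := (Nat.pos_of_dvd_of_pos hc hM).ne'
  have hgz : F.good (x i) z z' := good_congr hb hz
    (fact_mul_low (left_ne_zero_of_mul h0) (right_ne_zero_of_mul h0) hw)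
    (fact_mul_low (left_ne_zero_of_mul h0') (right_ne_zero_of_mul h0') hw') hg
  have h1 := FL.good_gcd_dvd_uu hM hz hz' hgz
  have h2 : (Nat.gcd z z' : ℝ) ≤ F.uu (x i) z := by
    exact_mod_cast Nat.le_of_dvd (FL.uu_pos _ _) h1
  unfold sg
  rw [← mul_div_assoc, le_div_iff₀ hL]
  have h3 : 2 * X * (Nat.gcd z z' : ℝ) ≤ 2 * X * F.uu (x i) z :=
    mul_le_mul_of_nonneg_left h2 (by positivity)
  linarith

/-- the label of a member `b = w * z`, error measured by `uu b / L`, gives the label over `z` -/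
lemma label_of_member {γ L X R : ℝ} {x : ℕ → ℕ} {i w z k : ℕ} {a : ℤ} (hM : 0 < M) (hL : 0 < L)
    (hR : 0 ≤ R) (hX0 : 0 < X) (hb : w * z ∣ M) (hw : ∀ p, p.Prime → p ∣ w → p ≤ x i)
    (hX : X ≤ w) (h : |(F.lam (x i) (w * z) : ℝ) * γ - a / k| ≤ R / (F.uu (x i) (w * z) / L)) :
    |(F.lam (x i) z : ℝ) * γ - a / k| ≤ R / sg F L X x z i := by
  have hz : z ∣ M := (Dvd.intro_left _ rfl).trans hb
  have h0 : w * z ≠ 0 := (Nat.pos_of_dvd_of_pos hb hM).ne'
  rw [lam_congr (F := F) hb hz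
    (fact_mul_low (left_ne_zero_of_mul h0) (right_ne_zero_of_mul h0) hw), uu_mul hM hb hw] at h
  refine h.trans ?_
  unfold sg
  have hu : (0 : ℝ) < F.uu (x i) z := by exact_mod_cast FL.uu_pos (F := F) (x i) z
  refine div_le_div_of_nonneg_left hR (by positivity) ?_
  refine div_le_div_of_nonneg_right ?_ hL.le
  push_cast
  exact mul_le_mul_of_nonneg_right hX hu.le

end Crest.Agent.R4C.TwistKKx863
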