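import Crest.Agent.R4C.Rule_945
import Crest.Agent.R4C.TwistKK_863

/-!
# Row 4: uniqueness of the centre in a box (helper60), leaf S6-2 of BLOCK S6 v1.1 (note 3463)

`SameUp X b c` : `b` and `c` have the same letters above `X`.  For cuts `x ≥ X` everything of the
tree (`lam`, `k0`, `IsC`) is the same for `b` and `c`, and `uu x b : uu x c = b : c`.

* `conflict_box` : centres `f₁ ≠ f₂` of two words `b₁, b₂` of one box (same letters above `X`,
  `b₁ ≤ R b₂`), cuts `X ≤ x₁ ≤ x₂`:  `uu x₁ b₁ ≤ 2 R K₁ K₂ L`, `K_i` the depths `depx`.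
* `box_unique` : rule language, tree centres at the scales `m₁ ≤ m₂`, depths `≤ K`,
  `2 R K ^ 2 < 2 ^ m₁`: `f₁ = f₂`.
* `k0_jump` : `k0` is constant between two cuts, or a free letter `q > x` of `b` enters `k0`.
* `end_stable` : `(1d)` of 3330 / `t(.)` of 3463: the end of the run of `(f, k)` (tree centre `f`
  with `k0 = k`) is the same for all words of a box up to one dyadic scale.
-/

set_option autoImplicit false

namespace Crest.Agent.R4C.BoxUniqx60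

open Crest.Agent.R4C.FLDefx935 Crest.Agent.R4C.BoostCx972 Crest.Agent.R4C.CrCoinx935
  Crest.Agent.R4C.S7cx14 Crest.Agent.R4C.S4x74 Crest.Agent.R4C.Cutx50
  Crest.Agent.R4C.Rulex945 Crest.Agent.R4C.TwistKKx863

variable {M : ℕ} {F : FL M}

/-- the same letters above `X` -/
def SameUp (X b c : ℕ) : Prop :=
  ∀ p, p.Prime → X < p → b.factorization p = c.factorization p

lemma SameUp.symm {X b c : ℕ} (h : SameUp X b c) : SameUp X c b := fun p hp hx => (h p hp hx).symm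

lemma SameUp.refl (X b : ℕ) : SameUp X b b := fun _ _ _ => rfl

lemma SameUp.mono {X x b c : ℕ} (hx : X ≤ x) (h : SameUp X b c) : SameUp x b c :=
  fun p hp hxp => h p hp (lt_of_le_of_lt hx hxp)

lemma SameUp.of_upp {X b c : ℕ} (h : upp X b = upp X c) : SameUp X b c := by
  intro p _ hx
  have h1 := fact_upp X b p
  have h2 := fact_upp X c p
  rw [h, h2] at h1
  have hx' : ¬ p ≤ X := by omega
  simpa [hx'] using h1.symm

lemma upp_of_sameUp {X b c : ℕ} (h : SameUp X b c) : upp X b = upp X c := by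
  refine Nat.eq_of_factorization_eq (upp_pos _ _).ne' (upp_pos _ _).ne' fun p => ?_
  rw [fact_upp, fact_upp]
  by_cases hp : p.Prime
  · by_cases hx : p ≤ X
    · simp [hx]
    · simp only [hx, not_false_eq_true, if_true]
      exact h p hp (by omega)
  · rw [Nat.factorization_eq_zero_of_not_prime _ hp, Nat.factorization_eq_zero_of_not_prime _ hp]

lemma lam_eq {X x b c : ℕ} (hb : b ∣ M) (hc : c ∣ M) (hx : X ≤ x) (h : SameUp X b c) :
    F.lam x b = F.lam x c := lam_congr hb hc (h.mono hx)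

lemma uu_cross {X x b c : ℕ} (hM : 0 < M) (hb : b ∣ M) (hc : c ∣ M) (hx : X ≤ x)
    (h : SameUp X b c) : F.uu x b * c = F.uu x c * b := by
  have h1 := FL.uu_mul_lam (F := F) (x := x) hM hb
  have h2 := FL.uu_mul_lam (F := F) (x := x) hM hc
  have h3 := lam_eq (F := F) hb hc hx h
  calc F.uu x b * c = F.uu x b * (F.uu x c * F.lam x c) := by rw [h2]
    _ = F.uu x c * (F.uu x b * F.lam x b) := by rw [h3]; ring
    _ = F.uu x c * b := by rw [h1]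

/-- `uu x b ≤ R uu x c` if `b ≤ R c` -/
lemma uu_le {X x b c : ℕ} {R : ℝ} (hM : 0 < M) (hb : b ∣ M) (hc : c ∣ M) (hx : X ≤ x)
    (h : SameUp X b c) (hR : (b : ℝ) ≤ R * c) : (F.uu x b : ℝ) ≤ R * F.uu x c := by
  have hc0 : (0 : ℝ) < c := by exact_mod_cast Nat.pos_of_dvd_of_pos hc hM
  have h1 : (F.uu x b : ℝ) * c = F.uu x c * b := by exact_mod_cast uu_cross (F := F) hM hb hc hx h
  have h2 : (0 : ℝ) < F.uu x c := by exact_mod_cast FL.uu_pos (F := F) x c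
  have h3 : (F.uu x b : ℝ) * c ≤ (R * F.uu x c) * c := by
    rw [h1]
    nlinarith
  exact le_of_mul_le_mul_right h3 hc0

lemma k0_eq {X x b c : ℕ} (hb : b ∣ M) (hc : c ∣ M) (hx : X ≤ x) (h : SameUp X b c) (f : ℚ) :
    k0 F x b f = k0 F x c f := by
  unfold k0
  rw [lam_eq (F := F) hb hc hx h]

lemma isC_iff {X x b c k : ℕ} (hb : b ∣ M) (hc : c ∣ M) (hx : X ≤ x) (h : SameUp X b c) (f : ℚ) :
    IsC F x b k f ↔ IsC F x c k f := by
  unfold IsC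
  rw [lam_eq (F := F) hb hc hx h]

/-! ### depth at an arbitrary cut -/

/-- depth of `f` for `b` at the cut `x` -/
noncomputable def depx (F : FL M) (γ L : ℝ) (x b : ℕ) (f : ℚ) : ℝ :=
  (k0 F x b f : ℝ) * max 1 ((b : ℝ) * |γ - f| / L)

lemma dep_eq (P : Par) (m b : ℕ) (f : ℚ) : dep F P m b f = depx F P.γ P.L (P.cut m) b f := rfl

lemma k0_one_le (x b : ℕ) (f : ℚ) : (1 : ℝ) ≤ k0 F x b f := by
  exact_mod_cast k0_pos (F := F) x b f

lemma one_le_depx {γ L : ℝ} (x b : ℕ) (f : ℚ) : 1 ≤ depx F γ L x b f := by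
  unfold depx
  have h1 := k0_one_le (F := F) x b f
  have h2 : (1 : ℝ) ≤ max 1 ((b : ℝ) * |γ - f| / L) := le_max_left _ _
  nlinarith

lemma k0_le_depx {γ L : ℝ} (x b : ℕ) (f : ℚ) : (k0 F x b f : ℝ) ≤ depx F γ L x b f := by
  unfold depx
  have h1 := k0_one_le (F := F) x b f
  have h2 : (1 : ℝ) ≤ max 1 ((b : ℝ) * |γ - f| / L) := le_max_left _ _
  nlinarith

/-- the depth grows with the cut -/
lemma depx_mono {γ L : ℝ} {x y b : ℕ} (hxy : x ≤ y) (f : ℚ) :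
    depx F γ L x b f ≤ depx F γ L y b f := by
  unfold depx
  have h1 : (k0 F x b f : ℝ) ≤ k0 F y b f := by
    exact_mod_cast Nat.le_of_dvd (k0_pos y b f) (k0_mono hxy f)
  have h2 : (0 : ℝ) ≤ max 1 ((b : ℝ) * |γ - f| / L) := zero_le_one.trans (le_max_left _ _)
  exact mul_le_mul_of_nonneg_right h1 h2

/-- depths of two words of a box -/
lemma depx_le {γ L : ℝ} {X x b c : ℕ} {R : ℝ} (hL : 0 < L) (hb : b ∣ M) (hc : c ∣ M)
    (hx : X ≤ x) (h : SameUp X b c) (hR1 : 1 ≤ R) (hR : (b : ℝ) ≤ R * c) (f : ℚ) :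
    depx F γ L x b f ≤ R * depx F γ L x c f := by
  unfold depx
  rw [k0_eq (F := F) hb hc hx h f]
  have h1 : (0 : ℝ) ≤ k0 F x c f := Nat.cast_nonneg _
  have h2 : (b : ℝ) * |γ - f| / L ≤ R * ((c : ℝ) * |γ - f| / L) := by
    rw [← mul_div_assoc]
    refine div_le_div_of_nonneg_right ?_ hL.le
    calc (b : ℝ) * |γ - f| ≤ R * c * |γ - f| := mul_le_mul_of_nonneg_right hR (abs_nonneg _)
      _ = R * (c * |γ - f|) := by ring
  have h3 : max 1 ((b : ℝ) * |γ - f| / L) ≤ R * max 1 ((c : ℝ) * |γ - f| / L) := by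
    refine max_le ?_ (h2.trans (mul_le_mul_of_nonneg_left (le_max_right _ _) (by linarith)))
    have : (1 : ℝ) ≤ max 1 ((c : ℝ) * |γ - f| / L) := le_max_left _ _
    nlinarith
  calc (k0 F x c f : ℝ) * max 1 ((b : ℝ) * |γ - f| / L) ≤
      k0 F x c f * (R * max 1 ((c : ℝ) * |γ - f| / L)) := mul_le_mul_of_nonneg_left h3 h1
    _ = _ := by ring

/-! ### the conflict inequality in a box -/

/-- **conflict in a box**: `b₁, b₂` with the same letters above `X`, `b₁ ≤ R b₂`, cuts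
`X ≤ x₁ ≤ x₂`, `f₁ ≠ f₂` arbitrary rationals (`f₁` measured for `b₁` at `x₁`, `f₂` for `b₂` at
`x₂`) -/
theorem conflict_box {γ L : ℝ} {X x₁ x₂ b₁ b₂ : ℕ} {f₁ f₂ : ℚ} {R : ℝ} (hL : 0 < L) (hM : 0 < M)
    (hb₁ : b₁ ∣ M) (hb₂ : b₂ ∣ M) (hX : X ≤ x₁) (h12 : x₁ ≤ x₂) (h : SameUp X b₁ b₂)
    (hR1 : 1 ≤ R) (hR : (b₁ : ℝ) ≤ R * b₂) (hne : f₁ ≠ f₂) :
    (F.uu x₁ b₁ : ℝ) ≤ 2 * R * depx F γ L x₁ b₁ f₁ * depx F γ L x₂ b₂ f₂ * L := by
  have h0 := conflict (γ := γ) hM hb₁ h12 (isC_k0 (F := F) x₁ b₁ f₁)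
    (isC_k0 (F := F) x₂ b₁ f₂) hne
  refine h0.trans ?_
  have hd := depx_le (F := F) (γ := γ) hL hb₁ hb₂ (hX.trans h12) h hR1 hR f₂
  have a0 : 1 ≤ depx F γ L x₁ b₁ f₁ := one_le_depx _ _ _
  have key : (k0 F x₁ b₁ f₁ : ℝ) * k0 F x₂ b₁ f₂ *
      ((b₁ : ℝ) * |γ - f₁| + (b₁ : ℝ) * |γ - f₂|) ≤
      2 * depx F γ L x₁ b₁ f₁ * depx F γ L x₂ b₁ f₂ * L := by
    unfold depx
    set K₁ : ℝ := (k0 F x₁ b₁ f₁ : ℝ) with hK₁
    set K₂ : ℝ := (k0 F x₂ b₁ f₂ : ℝ) with hK₂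
    set d₁ : ℝ := (b₁ : ℝ) * |γ - f₁| with hd₁
    set d₂ : ℝ := (b₁ : ℝ) * |γ - f₂| with hd₂
    have a1 : 1 ≤ K₁ := k0_one_le _ _ _
    have a2 : 1 ≤ K₂ := k0_one_le _ _ _
    have e1 : d₁ ≤ max 1 (d₁ / L) * L := by
      calc d₁ = d₁ / L * L := by field_simp
        _ ≤ _ := mul_le_mul_of_nonneg_right (le_max_right _ _) hL.le
    have e2 : d₂ ≤ max 1 (d₂ / L) * L := by
      calc d₂ = d₂ / L * L := by field_simp
        _ ≤ _ := mul_le_mul_of_nonneg_right (le_max_right _ _) hL.le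
    set y₁ := max 1 (d₁ / L) with hy₁
    set y₂ := max 1 (d₂ / L) with hy₂
    have b1 : 1 ≤ y₁ := le_max_left _ _
    have b2 : 1 ≤ y₂ := le_max_left _ _
    have e3 : d₁ + d₂ ≤ 2 * (y₁ * y₂) * L := by
      have : y₁ + y₂ ≤ 2 * (y₁ * y₂) := by nlinarith
      calc d₁ + d₂ ≤ (y₁ + y₂) * L := by linarith
        _ ≤ _ := mul_le_mul_of_nonneg_right this hL.le
    calc K₁ * K₂ * (d₁ + d₂) ≤ K₁ * K₂ * (2 * (y₁ * y₂) * L) :=
          mul_le_mul_of_nonneg_left e3 (by positivity)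
      _ = _ := by ring
  refine key.trans ?_
  refine mul_le_mul_of_nonneg_right ?_ hL.le
  calc 2 * depx F γ L x₁ b₁ f₁ * depx F γ L x₂ b₁ f₂
      ≤ 2 * depx F γ L x₁ b₁ f₁ * (R * depx F γ L x₂ b₂ f₂) :=
        mul_le_mul_of_nonneg_left hd (by linarith)
    _ = _ := by ring

/-- two candidates measured at the same cut `X` -/
theorem conflict_box_same {γ L : ℝ} {X b₁ b₂ : ℕ} {f₁ f₂ : ℚ} {R K : ℝ} (hL : 0 < L) (hM : 0 < M)
    (hb₁ : b₁ ∣ M) (hb₂ : b₂ ∣ M) (h : SameUp X b₁ b₂) (hR1 : 1 ≤ R) (hR : (b₁ : ℝ) ≤ R * b₂)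
    (hne : f₁ ≠ f₂) (h₁ : depx F γ L X b₁ f₁ ≤ K) (h₂ : depx F γ L X b₂ f₂ ≤ K) :
    (F.uu X b₁ : ℝ) ≤ 2 * R * K ^ 2 * L := by
  refine (conflict_box (F := F) (γ := γ) hL hM hb₁ hb₂ le_rfl le_rfl h hR1 hR hne).trans ?_
  refine mul_le_mul_of_nonneg_right ?_ hL.le
  have a1 : 1 ≤ depx F γ L X b₁ f₁ := one_le_depx _ _ _
  have a2 : 1 ≤ depx F γ L X b₂ f₂ := one_le_depx _ _ _
  calc 2 * R * depx F γ L X b₁ f₁ * depx F γ L X b₂ f₂
      = 2 * R * (depx F γ L X b₁ f₁ * depx F γ L X b₂ f₂) := by ring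
    _ ≤ 2 * R * (K * K) := by
        refine mul_le_mul_of_nonneg_left ?_ (by linarith)
        exact mul_le_mul h₁ h₂ (by linarith) (by linarith)
    _ = _ := by ring

section rule

variable {P : Par}

/-- **uniqueness per box** in the language of the rule: tree centres at scales `m₁ ≤ m₂` (cuts
`≥ X`), depths `≤ K`, `2 R K² < 2^{m₁}` -/
theorem box_unique (hL : 0 < P.L) (hM : 0 < M) (hcut : Monotone P.cut) {X b₁ b₂ m₁ m₂ : ℕ}
    {f₁ f₂ : ℚ} {R K₁ K₂ : ℝ} (hb₁ : b₁ ∣ M) (hb₂ : b₂ ∣ M) (hX : X ≤ P.cut m₁) (h12 : m₁ ≤ m₂)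
    (h : SameUp X b₁ b₂) (hR1 : 1 ≤ R) (hR : (b₁ : ℝ) ≤ R * b₂)
    (hs : (2 : ℝ) ^ m₁ * P.L ≤ F.uu (P.cut m₁) b₁)
    (h₁ : dep F P m₁ b₁ f₁ ≤ K₁) (h₂ : dep F P m₂ b₂ f₂ ≤ K₂)
    (hK : 2 * R * K₁ * K₂ < 2 ^ m₁) : f₁ = f₂ := by
  by_contra hne
  have h0 := conflict_box (F := F) (γ := P.γ) hL hM hb₁ hb₂ hX (hcut h12) h hR1 hR hne
  rw [← dep_eq, ← dep_eq] at h0
  have h1 := le_of_mul_le_mul_right (hs.trans h0) hL
  have a1 : 1 ≤ dep F P m₁ b₁ f₁ := one_le_dep _ _ _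
  have a2 : 1 ≤ dep F P m₂ b₂ f₂ := one_le_dep _ _ _
  have h2 : 2 * R * dep F P m₁ b₁ f₁ * dep F P m₂ b₂ f₂ ≤ 2 * R * K₁ * K₂ := by
    calc 2 * R * dep F P m₁ b₁ f₁ * dep F P m₂ b₂ f₂
        = 2 * R * (dep F P m₁ b₁ f₁ * dep F P m₂ b₂ f₂) := by ring
      _ ≤ 2 * R * (K₁ * K₂) := by
          refine mul_le_mul_of_nonneg_left ?_ (by linarith)
          exact mul_le_mul h₁ h₂ (by linarith) (by linarith)
      _ = _ := by ring
  linarith

/-- box uniqueness for tree centres, symmetric form (sizes within a factor `R`) -/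
theorem box_unique' (hL : 0 < P.L) (hM : 0 < M) (hcut : Monotone P.cut) {X b₁ b₂ m₁ m₂ : ℕ}
    {f₁ f₂ : ℚ} {R K : ℝ} (hb₁ : b₁ ∣ M) (hb₂ : b₂ ∣ M) (hX₁ : X ≤ P.cut m₁) (hX₂ : X ≤ P.cut m₂)
    (h : SameUp X b₁ b₂) (hR1 : 1 ≤ R) (hR : (b₁ : ℝ) ≤ R * b₂) (hR' : (b₂ : ℝ) ≤ R * b₁)
    (hT₁ : TC F P m₁ b₁ f₁) (hT₂ : TC F P m₂ b₂ f₂)
    (h₁ : dep F P m₁ b₁ f₁ ≤ K) (h₂ : dep F P m₂ b₂ f₂ ≤ K)
    (hK₁ : 2 * R * K ^ 2 < 2 ^ m₁) (hK₂ : 2 * R * K ^ 2 < 2 ^ m₂) : f₁ = f₂ := by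
  rcases le_total m₁ m₂ with h12 | h12
  · exact box_unique hL hM hcut hb₁ hb₂ hX₁ h12 h hR1 hR hT₁.scl h₁ h₂
      (by calc 2 * R * K * K = 2 * R * K ^ 2 := by ring
            _ < _ := hK₁)
  · exact (box_unique hL hM hcut hb₂ hb₁ hX₂ h12 h.symm hR1 hR' hT₂.scl h₂ h₁
      (by calc 2 * R * K * K = 2 * R * K ^ 2 := by ring
            _ < _ := hK₂)).symm

end rule

/-! ### jumps of `k0` -/

/-- either `k0` is the same at the cuts `x ≤ y`, or a prime `q > x` of `lam x b` enters -/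
theorem k0_jump {x y b : ℕ} (hxy : x ≤ y) (f : ℚ) : k0 F x b f = k0 F y b f ∨
    ∃ q, q.Prime ∧ q ∣ F.lam x b ∧ q * k0 F x b f ∣ k0 F y b f := by
  obtain ⟨r, hr⟩ := k0_mono (F := F) (b := b) hxy f
  by_cases h1 : r = 1
  · left
    rw [hr, h1, mul_one]
  · right
    obtain ⟨q, hq, hqr⟩ := Nat.exists_prime_and_dvd h1
    refine ⟨q, hq, ?_, ?_⟩
    · -- `r ∣ lam x / lam y`
      obtain ⟨s, hs⟩ := FL.lam_dvd_lam (F := F) (b := b) hxy
      have e1 := k0_mul (F := F) x b f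
      have e2 := k0_mul (F := F) y b f
      have hg : Nat.gcd f.den (F.lam x b) = r * Nat.gcd f.den (F.lam y b) := by
        have h3 : k0 F x b f * Nat.gcd f.den (F.lam x b) =
            k0 F x b f * (r * Nat.gcd f.den (F.lam y b)) := by
          rw [e1, ← mul_assoc, ← hr, e2]
        exact Nat.eq_of_mul_eq_mul_left (k0_pos x b f) h3
      have h4 : r ∣ Nat.gcd f.den (F.lam x b) := Dvd.intro _ hg.symm
      exact (hqr.trans h4).trans (Nat.gcd_dvd_right _ _)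
    · rw [hr, mul_comm]
      exact Nat.mul_dvd_mul_left _ hqr

/-- a prime of `lam x b` is `> x` -/
lemma lt_of_dvd_lam {x b q : ℕ} (hM : 0 < M) (hb : b ∣ M) (hq : q.Prime) (h : q ∣ F.lam x b) :
    x < q := (FL.prime_dvd_lam hM hb hq h).1

/-- quantitative form: `k0` is constant or grows by a factor `> x` -/
theorem k0_jump' {x y b : ℕ} (hM : 0 < M) (hb : b ∣ M) (hxy : x ≤ y) (f : ℚ) :
    k0 F x b f = k0 F y b f ∨ (x + 1) * k0 F x b f ≤ k0 F y b f := by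
  rcases k0_jump (F := F) (b := b) hxy f with h | ⟨q, hq, h1, h2⟩
  · exact Or.inl h
  · right
    have h3 := lt_of_dvd_lam hM hb hq h1
    calc (x + 1) * k0 F x b f ≤ q * k0 F x b f := Nat.mul_le_mul_right _ h3
      _ ≤ _ := Nat.le_of_dvd (k0_pos y b f) h2

/-- if `k0 F y b f ≤ x` nothing has changed between the cuts `x ≤ y` -/
lemma k0_const {x y b : ℕ} (hM : 0 < M) (hb : b ∣ M) (hxy : x ≤ y) {f : ℚ}
    (h : k0 F y b f ≤ x) : k0 F x b f = k0 F y b f := by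
  rcases k0_jump' (F := F) hM hb hxy f with h1 | h1
  · exact h1
  · have h2 := k0_pos (F := F) x b f
    have h3 : x + 1 ≤ (x + 1) * k0 F x b f := Nat.le_mul_of_pos_right _ h2
    omega

/-! ### the end of a run -/

section run

variable {P : Par}

/-- the scale `m` is valid for the run `(f, k)` of `b` -/
structure Valid (F : FL M) (P : Par) (k : ℕ) (f : ℚ) (m b : ℕ) : Prop where
  tc : TC F P m b f
  kk : k0 F (P.cut m) b f = k

/-- a free letter above `x` entering: `uu` jumps by more than `x` -/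
lemma uu_jump {x y b : ℕ} (hM : 0 < M) (hb : b ∣ M) (hxy : x ≤ y) :
    F.uu x b = F.uu y b ∨ (x + 1) * F.uu x b ≤ F.uu y b := by
  obtain ⟨r, hr⟩ := FL.uu_dvd_uu (F := F) (b := b) hxy
  by_cases h1 : r = 1
  · left
    rw [hr, h1, mul_one]
  · right
    obtain ⟨q, hq, hqr⟩ := Nat.exists_prime_and_dvd h1
    have h2 : r ∣ F.lam x b := by
      have e1 := FL.uu_mul_lam (F := F) (x := x) hM hb
      have e2 := FL.uu_mul_lam (F := F) (x := y) hM hb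
      have h3 : F.uu x b * F.lam x b = F.uu x b * (r * F.lam y b) := by
        rw [e1, ← mul_assoc, ← hr, e2]
      have h4 := Nat.eq_of_mul_eq_mul_left (FL.uu_pos x b) h3
      exact Dvd.intro _ h4.symm
    have h3 := lt_of_dvd_lam hM hb hq (hqr.trans h2)
    have hr0 : 0 < r := by
      rcases Nat.eq_zero_or_pos r with h | h
      · subst h
        have := FL.uu_pos (F := F) y b
        rw [hr] at this
        simp at this
      · exact h
    have h4 : x + 1 ≤ r := h3.trans_le (Nat.le_of_dvd hr0 hqr)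
    rw [hr, mul_comm]
    exact Nat.mul_le_mul_left _ h4

/-- **stability of the end of a run in a box**: if `T` is valid for `b₁` and `T₂ ≤ T - 2` for
`b₂`, then a scale `m` in `(T₂, T]` is valid for `b₂`. -/
theorem end_stable (hL : 0 < P.L) (hM : 0 < M) (hcut : Monotone P.cut) (hE : Monotone P.E)
    {X b₁ b₂ T T₂ k : ℕ} {f : ℚ} (hb₁ : b₁ ∣ M) (hb₂ : b₂ ∣ M) (hX : X ≤ P.cut T₂)
    (h : SameUp X b₁ b₂) (hR : (b₁ : ℝ) ≤ 2 * b₂) (h1 : Valid F P k f T b₁)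
    (h2 : Valid F P k f T₂ b₂) (hT : T₂ + 2 ≤ T)
    (hA : (2 : ℝ) ^ T ≤ ((P.cut (T - 1) : ℝ) + 1) * 2 ^ T₂) :
    ∃ m, T₂ < m ∧ m ≤ T ∧ Valid F P k f m b₂ := by
  have hT1 : T₂ ≤ T - 1 := by omega
  have hXT : X ≤ P.cut T := hX.trans (hcut (by omega))
  have hXT1 : X ≤ P.cut (T - 1) := hX.trans (hcut hT1)
  -- `k0` is constant
  have kT : k0 F (P.cut T) b₂ f = k := by
    rw [← k0_eq (F := F) hb₁ hb₂ hXT h f]; exact h1.kk
  have kT1 : k0 F (P.cut (T - 1)) b₂ f = k := by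
    have e1 : k ∣ k0 F (P.cut (T - 1)) b₂ f := by
      have := k0_mono (F := F) (b := b₂) (hcut hT1) f
      rwa [h2.kk] at this
    have e2 : k0 F (P.cut (T - 1)) b₂ f ∣ k := by
      have := k0_mono (F := F) (b := b₂) (hcut (show T - 1 ≤ T by omega)) f
      rwa [kT] at this
    exact Nat.dvd_antisymm e2 e1
  have hden : ∀ m, T₂ ≤ m → (k : ℝ) ≤ P.E m := fun m hm => by
    have := h2.tc.den
    rw [h2.kk] at this
    exact this.trans (hE hm)
  have hdis : ∀ m, T₂ ≤ m → (b₂ : ℝ) * |P.γ - f| ≤ P.E m * P.L := fun m hm =>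
    h2.tc.dis.trans (mul_le_mul_of_nonneg_right (hE hm) hL.le)
  have hsc : (2 : ℝ) ^ (T - 1) * P.L ≤ F.uu (P.cut T) b₂ := by
    have e1 := uu_le (F := F) hM hb₁ hb₂ hXT h hR
    have e2 := h1.tc.scl.trans e1
    have e3 : (2 : ℝ) ^ T = 2 * 2 ^ (T - 1) := by
      rw [← pow_succ']
      congr 1
      omega
    rw [e3] at e2
    linarith
  rcases uu_jump (F := F) hM hb₂ (hcut (show T - 1 ≤ T by omega)) with hu | hu
  · -- no letter enters: `T - 1` is valid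
    refine ⟨T - 1, by omega, by omega, ⟨?_, ?_, ?_⟩, kT1⟩
    · rw [kT1]; exact hden _ hT1
    · exact hdis _ hT1
    · rw [hu]; exact hsc
  · -- a letter enters: `T` is valid
    refine ⟨T, by omega, le_rfl, ⟨?_, ?_, ?_⟩, kT⟩
    · rw [kT]; exact hden _ (by omega)
    · exact hdis _ (by omega)
    · have e1 : ((P.cut (T - 1) : ℝ) + 1) * F.uu (P.cut (T - 1)) b₂ ≤ F.uu (P.cut T) b₂ := by
        exact_mod_cast hu
      have e2 : (2 : ℝ) ^ T₂ * P.L ≤ F.uu (P.cut (T - 1)) b₂ := by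
        refine h2.tc.scl.trans ?_
        have : F.uu (P.cut T₂) b₂ ≤ F.uu (P.cut (T - 1)) b₂ :=
          Nat.le_of_dvd (FL.uu_pos _ _) (FL.uu_dvd_uu (hcut hT1))
        exact_mod_cast this
      calc (2 : ℝ) ^ T * P.L ≤ ((P.cut (T - 1) : ℝ) + 1) * 2 ^ T₂ * P.L :=
            mul_le_mul_of_nonneg_right hA hL.le
        _ = ((P.cut (T - 1) : ℝ) + 1) * (2 ^ T₂ * P.L) := by ring
        _ ≤ ((P.cut (T - 1) : ℝ) + 1) * F.uu (P.cut (T - 1)) b₂ :=
            mul_le_mul_of_nonneg_left e2 (by positivity)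
        _ ≤ _ := e1

/-- the run of `(f, k)` is an interval up to the scales at which `b` is not live: between two
valid scales every live scale is valid -/
theorem Valid.between (hL : 0 < P.L) (hcut : Monotone P.cut) (hE : Monotone P.E)
    {b k m₁ m m₂ : ℕ} {f : ℚ} (h1 : Valid F P k f m₁ b) (h2 : Valid F P k f m₂ b)
    (h1m : m₁ ≤ m) (hm2 : m ≤ m₂) (hs : (2 : ℝ) ^ m * P.L ≤ F.uu (P.cut m) b) :
    Valid F P k f m b := by
  have hk : k0 F (P.cut m) b f = k := by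
    have e1 : k ∣ k0 F (P.cut m) b f := by
      have := k0_mono (F := F) (b := b) (hcut h1m) f
      rwa [h1.kk] at this
    have e2 : k0 F (P.cut m) b f ∣ k := by
      have := k0_mono (F := F) (b := b) (hcut hm2) f
      rwa [h2.kk] at this
    exact Nat.dvd_antisymm e2 e1
  refine ⟨⟨?_, ?_, hs⟩, hk⟩
  · rw [hk]
    have := h1.tc.den
    rw [h1.kk] at this
    exact this.trans (hE h1m)
  · exact h1.tc.dis.trans (mul_le_mul_of_nonneg_right (hE h1m) hL.le)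

/-- two runs of one item (`k₁ ≠ k₂`, same `f`, or `f₁ ≠ f₂`) : the later one is deep -/
theorem run_conflict (hL : 0 < P.L) (hM : 0 < M) (hcut : Monotone P.cut) {b m₁ m₂ k₁ k₂ : ℕ}
    {f₁ f₂ : ℚ} (hb : b ∣ M) (h1 : Valid F P k₁ f₁ m₁ b) (h2 : Valid F P k₂ f₂ m₂ b)
    (h12 : m₁ ≤ m₂) (hne : (f₁, k₁) ≠ (f₂, k₂)) (hc2 : (2 : ℝ) ^ m₁ ≤ P.cut m₁) :
    (2 : ℝ) ^ m₁ ≤ 2 * dep F P m₁ b f₁ * dep F P m₂ b f₂ := by
  by_cases hf : f₁ = f₂
  · subst hf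
    have hk : k₁ ≠ k₂ := fun h => hne (by rw [h])
    have a1 : 1 ≤ dep F P m₁ b f₁ := one_le_dep _ _ _
    have a2 : (k0 F (P.cut m₂) b f₁ : ℝ) ≤ dep F P m₂ b f₁ := k0_le_dep _ _ _
    rcases k0_jump' (F := F) hM hb (hcut h12) f₁ with h | h
    · exact absurd (h1.kk.symm.trans (h.trans h2.kk)) hk
    · have h3 : P.cut m₁ ≤ k0 F (P.cut m₂) b f₁ := by
        have := k0_pos (F := F) (P.cut m₁) b f₁
        have h4 : P.cut m₁ + 1 ≤ (P.cut m₁ + 1) * k0 F (P.cut m₁) b f₁ :=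
          Nat.le_mul_of_pos_right _ this
        omega
      have h5 : (P.cut m₁ : ℝ) ≤ k0 F (P.cut m₂) b f₁ := by exact_mod_cast h3
      have h6 : (2 : ℝ) ^ m₁ ≤ dep F P m₂ b f₁ := hc2.trans (h5.trans a2)
      have h7 : 0 < (2 : ℝ) ^ m₁ := by positivity
      nlinarith
  · exact conflict_scale hL hM hcut hb h12 h1.tc hf

end run

end Crest.Agent.R4C.BoxUniqx60
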