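import Crest.Agent.R4C.Base_935

/-!
# Crossing active pivots are naturally rare (helper171, after note 2645 (2), (3) of helper16)

Natural model: `b = F * lam`, `F` fixed, `lam` a random divisor of `M` with the exact-type law
`nu M` (all prime powers allowed).  A *pivot* `i` has an integer `h i` (a node `(h, kappa)` may be
used as index, several nodes may have the same `h`), scale `h i / L`.

* `sum_nu_dvd`, `prob_pivot` : `P (h ∣ F * lam) ≤ 1 / (h / gcd h F)`.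
* `moment_abs` : abstract moment bound `E X^k ≤ C t^(2k-A)` from counts `≤ C0 4^j` at scale `2^j`.
* `moment_cross` : the same in the natural model (2645 (2)).
* `closure`   : the least `T`-closed divisor of `b` containing `h0` (`sigma = b / h` is `T h`-rough),
  its primes outside `h0` are `≤ T h`.
* `cross_mem` : two closed divisors `h1`, `h2` of `b` with `h1 ∤ h2`, `F ∣ h2`, are crossing:
  `h1 / gcd h1 F > R` as soon as `b / h2` is `R`-rough (2645 (3)).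
* `nonnested_le` : `∑ min (W z1) (W z2)` over non-nested pairs `≤ ∑ X (z2) W (z2)`.
-/

namespace Crest.Agent.R4C.Crossx171

open Finset Crest.Agent.R4C.Basex935

/-! ### 1. Probability of a pivot in the natural model -/

/-- the multiples of `d` have natural mass `1/d` -/
lemma sum_nu_dvd {M d : ℕ} (hM : 0 < M) (hd : d ∣ M) :
    ∑ b ∈ M.divisors with d ∣ b, nu M b = 1 / (d : ℝ) := by
  obtain ⟨K, rfl⟩ := hd
  have hd0 : 0 < d := Nat.pos_of_mul_pos_right hM |> fun h => by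
    rcases Nat.eq_zero_or_pos d with h0 | h0
    · subst h0; simp at hM
    · exact h0
  have hK0 : 0 < K := by
    rcases Nat.eq_zero_or_pos K with h0 | h0
    · subst h0; simp at hM
    · exact h0
  have h1 : ∑ b ∈ (d * K).divisors with d ∣ b, nu (d * K) b =
      ∑ c ∈ K.divisors, nu (d * K) (d * c) := by
    symm
    refine Finset.sum_bij (fun c _ => d * c) ?_ ?_ ?_ ?_
    · intro c hc
      rw [Nat.mem_divisors] at hc
      rw [Finset.mem_filter, Nat.mem_divisors]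
      exact ⟨⟨Nat.mul_dvd_mul_left d hc.1, by positivity⟩, Dvd.intro _ rfl⟩
    · intro c _ c' _ he
      exact Nat.eq_of_mul_eq_mul_left hd0 he
    · intro b hb
      rw [Finset.mem_filter, Nat.mem_divisors] at hb
      obtain ⟨c, rfl⟩ := hb.2
      refine ⟨c, ?_, rfl⟩
      rw [Nat.mem_divisors]
      exact ⟨Nat.dvd_of_mul_dvd_mul_left hd0 hb.1.1, hK0.ne'⟩
    · intro c _
      rfl
  rw [h1]
  have h2 : ∀ c ∈ K.divisors, nu (d * K) (d * c) = nu K c / d := by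
    intro c _
    unfold nu
    rw [Nat.mul_div_mul_left _ _ hd0]
    push_cast
    have : (d : ℝ) ≠ 0 := by exact_mod_cast hd0.ne'
    have : (K : ℝ) ≠ 0 := by exact_mod_cast hK0.ne'
    field_simp
  rw [Finset.sum_congr rfl h2, ← Finset.sum_div, sum_nu hK0]

lemma sum_nu_dvd_le {M : ℕ} (hM : 0 < M) (d : ℕ) :
    ∑ b ∈ M.divisors with d ∣ b, nu M b ≤ 1 / (d : ℝ) := by
  by_cases hd : d ∣ M
  · exact (sum_nu_dvd hM hd).le
  · rw [Finset.sum_eq_zero_iff_of_nonneg (fun b _ => nu_nonneg M b) |>.2]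
    · positivity
    · intro b hb
      rw [Finset.mem_filter, Nat.mem_divisors] at hb
      exact absurd (hb.2.trans hb.1.1) hd

/-- `h ∣ F * lam` forces the part `h / gcd h F` of `h` to divide `lam` -/
lemma part_dvd {h F lam : ℕ} (hh : 0 < h) (hd : h ∣ F * lam) : h / Nat.gcd h F ∣ lam := by
  have hg : 0 < Nat.gcd h F := Nat.gcd_pos_of_pos_left _ hh
  have hc : Nat.Coprime (h / Nat.gcd h F) (F / Nat.gcd h F) := Nat.coprime_div_gcd_div_gcd hg
  have h1 : h / Nat.gcd h F ∣ (F / Nat.gcd h F) * lam := by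
    have e1 : h = Nat.gcd h F * (h / Nat.gcd h F) := (Nat.mul_div_cancel' (Nat.gcd_dvd_left h F)).symm
    have e2 : F * lam = Nat.gcd h F * ((F / Nat.gcd h F) * lam) := by
      rw [← Nat.mul_assoc, Nat.mul_div_cancel' (Nat.gcd_dvd_right h F)]
    rw [e2] at hd
    exact Nat.dvd_of_mul_dvd_mul_left hg (by rw [← e1]; exact hd)
  exact hc.dvd_of_dvd_mul_left h1

/-- **(2645 (2), first line)**: `P (h ∣ b) ≤ 1 / Pi`, `Pi = h / gcd h F` -/
lemma prob_pivot {M : ℕ} (hM : 0 < M) {h : ℕ} (hh : 0 < h) (F : ℕ) :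
    ∑ lam ∈ M.divisors with h ∣ F * lam, nu M lam ≤ 1 / ((h / Nat.gcd h F : ℕ) : ℝ) := by
  refine le_trans (Finset.sum_le_sum_of_subset_of_nonneg ?_ fun b _ _ => nu_nonneg M b)
    (sum_nu_dvd_le hM (h / Nat.gcd h F))
  intro lam hl
  rw [Finset.mem_filter] at hl ⊢
  exact ⟨hl.1, part_dvd hh hl.2⟩

/-! ### 2. Abstract moment bound -/

lemma pow_add_le (a x : ℝ) (ha : 0 ≤ a) (hx : 0 ≤ x) (k : ℕ) :
    (a + x) ^ (k + 1) ≤ a ^ (k + 1) + (k + 1) * x * (a + x) ^ k := by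
  induction k with
  | zero => simp
  | succ k ih =>
    have h1 : (a + x) ^ (k + 1 + 1) = a * (a + x) ^ (k + 1) + x * (a + x) ^ (k + 1) := by ring
    have h2 : a * (a + x) ^ (k + 1) ≤ a * (a ^ (k + 1) + (k + 1) * x * (a + x) ^ k) :=
      mul_le_mul_of_nonneg_left ih ha
    have h3 : a * ((k + 1) * x * (a + x) ^ k) ≤ (k + 1) * x * (a + x) ^ (k + 1) := by
      have h4 : a * (a + x) ^ k ≤ (a + x) ^ (k + 1) := by
        rw [pow_succ, mul_comm]
        exact mul_le_mul_of_nonneg_left (by linarith) (by positivity)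
      calc a * ((k + 1) * x * (a + x) ^ k) = (k + 1) * x * (a * (a + x) ^ k) := by ring
        _ ≤ (k + 1) * x * (a + x) ^ (k + 1) :=
          mul_le_mul_of_nonneg_left h4 (by positivity)
    have h5 : a * (a ^ (k + 1) + (k + 1) * x * (a + x) ^ k) =
        a ^ (k + 1 + 1) + a * ((k + 1) * x * (a + x) ^ k) := by ring
    rw [h5] at h2
    have h6 : (((k + 1 : ℕ) : ℝ) + 1) * x * (a + x) ^ (k + 1) =
        (k + 1) * x * (a + x) ^ (k + 1) + x * (a + x) ^ (k + 1) := by push_cast; ring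
    rw [h6, h1]
    linarith

/-- telescoping: `S_J^(k+1) ≤ ∑_{j<J} (k+1) x_j K_j^k` when the partial sums up to `j` are `≤ K_j` -/
lemma pow_sum_le (k : ℕ) (x K : ℕ → ℝ) (hx : ∀ j, 0 ≤ x j)
    (hK : ∀ j, ∑ i ∈ range (j + 1), x i ≤ K j) (J : ℕ) :
    (∑ j ∈ range J, x j) ^ (k + 1) ≤ ∑ j ∈ range J, (k + 1) * x j * K j ^ k := by
  induction J with
  | zero => simp
  | succ J ih =>
    rw [Finset.sum_range_succ, Finset.sum_range_succ]
    have h0 : 0 ≤ ∑ j ∈ range J, x j := Finset.sum_nonneg fun j _ => hx j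
    refine (pow_add_le _ _ h0 (hx J) k).trans (add_le_add ih ?_)
    have h1 : (∑ j ∈ range J, x j + x J) ^ k ≤ K J ^ k := by
      refine pow_le_pow_left₀ (by have := hx J; positivity) ?_ k
      rw [← Finset.sum_range_succ]
      exact hK J
    exact mul_le_mul_of_nonneg_left h1 (by have := hx J; positivity)

/-- geometric sum with the two regimes `2^j ≤ t`, `2^j > t` -/
lemma geo_le (k A : ℕ) (hA : 2 * (k + 1) + 1 ≤ A) (t : ℝ) (ht : 1 ≤ t) (J : ℕ) :
    ∑ j ∈ range J, ((4 : ℝ) ^ j) ^ (k + 1) / (max t (2 ^ j)) ^ A ≤ 4 * t ^ (2 * (k + 1)) / t ^ A := by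
  obtain ⟨B, hB⟩ := Nat.exists_eq_add_of_le hA
  have ht0 : 0 < t := by linarith
  -- pointwise bound: the term is `≤ t^(2(k+1)) / t^A * min ((2^j/t)) (t/2^j)`
  set R : ℝ := t ^ (2 * (k + 1)) / t ^ A with hR
  have hRpos : 0 < R := by positivity
  have hterm : ∀ j : ℕ, ((4 : ℝ) ^ j) ^ (k + 1) / (max t (2 ^ j)) ^ A ≤
      R * (if (2 : ℝ) ^ j ≤ t then 2 ^ j / t else t / 2 ^ j) := by
    intro j
    have h2 : (0 : ℝ) < 2 ^ j := by positivity
    have h4 : ((4 : ℝ) ^ j) ^ (k + 1) = ((2 : ℝ) ^ j) ^ (2 * (k + 1)) := by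
      have : (4 : ℝ) = 2 ^ 2 := by norm_num
      rw [this, ← pow_mul, ← pow_mul, ← pow_mul]
      congr 1
      ring
    rw [h4]
    split_ifs with hc
    · rw [max_eq_left hc, hR, div_mul_div_comm, div_le_div_iff₀ (by positivity) (by positivity)]
      have h5 : ((2 : ℝ) ^ j) ^ (2 * (k + 1)) * t ≤ t ^ (2 * (k + 1)) * 2 ^ j := by
        have h6 : ((2 : ℝ) ^ j) ^ (2 * k + 1) ≤ t ^ (2 * k + 1) := pow_le_pow_left₀ h2.le hc _
        calc ((2 : ℝ) ^ j) ^ (2 * (k + 1)) * t = ((2 : ℝ) ^ j) ^ (2 * k + 1) * (2 ^ j * t) := by ring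
          _ ≤ t ^ (2 * k + 1) * (2 ^ j * t) := mul_le_mul_of_nonneg_right h6 (by positivity)
          _ = t ^ (2 * (k + 1)) * 2 ^ j := by ring
      calc ((2 : ℝ) ^ j) ^ (2 * (k + 1)) * (t ^ A * t) = (((2 : ℝ) ^ j) ^ (2 * (k + 1)) * t) * t ^ A := by ring
        _ ≤ (t ^ (2 * (k + 1)) * 2 ^ j) * t ^ A := mul_le_mul_of_nonneg_right h5 (by positivity)
        _ = _ := by ring
    · push Not at hc
      rw [max_eq_right hc.le, hR, div_mul_div_comm, div_le_div_iff₀ (by positivity) (by positivity)]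
      have h5 : t ^ B ≤ ((2 : ℝ) ^ j) ^ B := pow_le_pow_left₀ ht0.le hc.le _
      have e1 : t ^ A = t ^ (2 * (k + 1)) * t * t ^ B := by rw [hB]; ring
      have e2 : ((2 : ℝ) ^ j) ^ A = ((2 : ℝ) ^ j) ^ (2 * (k + 1)) * 2 ^ j * (2 ^ j) ^ B := by
        rw [hB]; ring
      rw [e1, e2]
      calc ((2 : ℝ) ^ j) ^ (2 * (k + 1)) * (t ^ (2 * (k + 1)) * t * t ^ B * 2 ^ j)
          = (((2 : ℝ) ^ j) ^ (2 * (k + 1)) * t ^ (2 * (k + 1)) * t * 2 ^ j) * t ^ B := by ring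
        _ ≤ (((2 : ℝ) ^ j) ^ (2 * (k + 1)) * t ^ (2 * (k + 1)) * t * 2 ^ j) * (2 ^ j) ^ B :=
          mul_le_mul_of_nonneg_left h5 (by positivity)
        _ = _ := by ring
  refine (Finset.sum_le_sum fun j _ => hterm j).trans ?_
  rw [← Finset.mul_sum]
  have hsum : ∑ j ∈ range J, (if (2 : ℝ) ^ j ≤ t then 2 ^ j / t else t / 2 ^ j) ≤ 4 := by
    -- stronger: the sum over `j < J` is `≤ min (2 * 2^J / t) 4`-like; do it by induction
    have key : ∀ J : ℕ, (∑ j ∈ range J, (if (2 : ℝ) ^ j ≤ t then 2 ^ j / t else t / 2 ^ j) ≤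
        if (2 : ℝ) ^ J ≤ t then 2 ^ J / t else 4 - 2 * t / 2 ^ J) := by
      intro J
      induction J with
      | zero =>
        simp only [range_zero, sum_empty, pow_zero]
        rw [if_pos ht]
        positivity
      | succ J ih =>
        rw [Finset.sum_range_succ]
        have h2 : (0 : ℝ) < 2 ^ J := by positivity
        by_cases h1 : (2 : ℝ) ^ (J + 1) ≤ t
        · have h0 : (2 : ℝ) ^ J ≤ t := le_trans (by rw [pow_succ]; linarith) h1
          rw [if_pos h0] at ih ⊢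
          rw [if_pos h1]
          have : (2 : ℝ) ^ (J + 1) / t = 2 ^ J / t + 2 ^ J / t := by rw [pow_succ]; ring
          rw [this]
          linarith
        · rw [if_neg h1]
          by_cases h0 : (2 : ℝ) ^ J ≤ t
          · rw [if_pos h0] at ih ⊢
            push Not at h1
            have ha : (2 : ℝ) ^ J / t ≤ 1 := by rw [div_le_one ht0]; exact h0
            have hb : 2 * t / 2 ^ (J + 1) ≤ 2 := by
              rw [div_le_iff₀ (by positivity)]
              linarith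
            linarith
          · rw [if_neg h0] at ih ⊢
            have : 2 * t / 2 ^ (J + 1) = t / 2 ^ J := by rw [pow_succ]; field_simp
            rw [this]
            have h3 : 2 * t / 2 ^ J = t / 2 ^ J + t / 2 ^ J := by ring
            linarith
    refine (key J).trans ?_
    split_ifs with h
    · have : (2 : ℝ) ^ J / t ≤ 1 := by rw [div_le_one ht0]; exact h
      linarith
    · have : 0 ≤ 2 * t / (2 : ℝ) ^ J := by positivity
      linarith
  calc R * ∑ j ∈ range J, (if (2 : ℝ) ^ j ≤ t then 2 ^ j / t else t / 2 ^ j) ≤ R * 4 :=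
        mul_le_mul_of_nonneg_left hsum hRpos.le
    _ = 4 * t ^ (2 * (k + 1)) / t ^ A := by rw [hR]; ring

/-- **Abstract moment bound** (2645 (2)).  Events `E i` of probability `≤ 1/Pi i`,
`Pi i ≥ max(t, tau i)^A`, at most `C0 * 4^j` indices with scale `tau i ∈ [2^j, 2^(j+1))`.
Then the `k+1`-st moment of the number `X` of events is `≤ 4 (k+1) (4/3)^k C0^(k+1) t^(2(k+1)-A)`. -/
theorem moment_abs {Ω ι : Type*} [DecidableEq ι] (S : Finset Ω) (μ : Ω → ℝ) (hμ : ∀ ω ∈ S, 0 ≤ μ ω)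
    (H : Finset ι) (E : ι → Ω → Prop) [∀ i ω, Decidable (E i ω)] (τ Pi : ι → ℝ)
    (t : ℝ) (ht : 1 ≤ t) (A k : ℕ) (hA : 2 * (k + 1) + 1 ≤ A) (C0 : ℝ)
    (hτ : ∀ i ∈ H, 1 ≤ τ i) (hP : ∀ i ∈ H, (max t (τ i)) ^ A ≤ Pi i)
    (hE : ∀ i ∈ H, ∑ ω ∈ S with E i ω, μ ω ≤ 1 / Pi i)
    (hN : ∀ j : ℕ, ((#{i ∈ H | (2 : ℝ) ^ j ≤ τ i ∧ τ i < 2 ^ (j + 1)} : ℕ) : ℝ) ≤ C0 * 4 ^ j) :
    ∑ ω ∈ S, μ ω * ((#{i ∈ H | E i ω} : ℕ) : ℝ) ^ (k + 1) ≤
      4 * (k + 1) * (4 / 3) ^ k * C0 ^ (k + 1) * t ^ (2 * (k + 1)) / t ^ A := by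
  classical
  have ht0 : 0 < t := by linarith
  have hC0 : 0 ≤ C0 := by
    have := hN 0
    simp only [pow_zero, mul_one] at this
    exact le_trans (by positivity) this
  -- dyadic index of a pivot
  set idx : ι → ℕ := fun i => Nat.log 2 ⌊τ i⌋₊ with hidx
  have hmem : ∀ i ∈ H, (2 : ℝ) ^ (idx i) ≤ τ i ∧ τ i < 2 ^ (idx i + 1) := by
    intro i hi
    have h1 := hτ i hi
    have hf : 1 ≤ ⌊τ i⌋₊ := Nat.one_le_floor_iff _ |>.2 h1
    constructor
    · have h2 : 2 ^ (idx i) ≤ ⌊τ i⌋₊ := Nat.pow_log_le_self 2 (by omega)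
      calc (2 : ℝ) ^ (idx i) = ((2 ^ (idx i) : ℕ) : ℝ) := by push_cast; ring
        _ ≤ ((⌊τ i⌋₊ : ℕ) : ℝ) := by exact_mod_cast h2
        _ ≤ τ i := Nat.floor_le (by linarith)
    · have h2 : ⌊τ i⌋₊ < 2 ^ (idx i + 1) := Nat.lt_pow_succ_log_self (by norm_num) _
      have h3 : ⌊τ i⌋₊ + 1 ≤ 2 ^ (idx i + 1) := h2
      calc τ i < ⌊τ i⌋₊ + 1 := Nat.lt_floor_add_one _
        _ ≤ (2 : ℝ) ^ (idx i + 1) := by exact_mod_cast h3
  have hcount : ∀ j : ℕ, ((#{i ∈ H | idx i = j} : ℕ) : ℝ) ≤ C0 * 4 ^ j := by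
    intro j
    refine le_trans ?_ (hN j)
    have : #{i ∈ H | idx i = j} ≤ #{i ∈ H | (2 : ℝ) ^ j ≤ τ i ∧ τ i < 2 ^ (j + 1)} := by
      refine Finset.card_le_card ?_
      intro i hi
      rw [Finset.mem_filter] at hi ⊢
      have := hmem i hi.1
      rw [hi.2] at this
      exact ⟨hi.1, this⟩
    exact_mod_cast this
  -- a common bound of the indices
  obtain ⟨J, hJ⟩ : ∃ J : ℕ, ∀ i ∈ H, idx i < J := by
    refine ⟨H.sup idx + 1, fun i hi => Nat.lt_succ_of_le (Finset.le_sup (f := idx) hi)⟩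
  -- the number of events with index `j`
  set x : Ω → ℕ → ℝ := fun ω j => ((#{i ∈ H | E i ω ∧ idx i = j} : ℕ) : ℝ) with hx
  have hX : ∀ ω, ((#{i ∈ H | E i ω} : ℕ) : ℝ) = ∑ j ∈ range J, x ω j := by
    intro ω
    have h1 := Finset.card_eq_sum_card_fiberwise (s := {i ∈ H | E i ω}) (t := range J) (f := idx)
      (by
        intro i hi
        rw [Finset.mem_coe, Finset.mem_filter] at hi
        rw [Finset.mem_coe, Finset.mem_range]
        exact hJ i hi.1)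
    rw [h1]
    push_cast
    refine Finset.sum_congr rfl fun j _ => ?_
    rw [Finset.filter_filter]
  have hK : ∀ ω j, ∑ i ∈ range (j + 1), x ω i ≤ 4 / 3 * C0 * 4 ^ j := by
    intro ω j
    have h1 : ∀ i, x ω i ≤ C0 * 4 ^ i := by
      intro i
      refine le_trans ?_ (hcount i)
      have : #{a ∈ H | E a ω ∧ idx a = i} ≤ #{a ∈ H | idx a = i} := by
        refine Finset.card_le_card ?_
        intro a ha
        rw [Finset.mem_filter] at ha ⊢
        exact ⟨ha.1, ha.2.2⟩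
      simp only [hx]
      exact_mod_cast this
    have h2 : ∀ n : ℕ, ∑ i ∈ range (n + 1), C0 * (4 : ℝ) ^ i ≤ 4 / 3 * C0 * 4 ^ n := by
      intro n
      induction n with
      | zero =>
        simp only [zero_add, range_one, sum_singleton, pow_zero, mul_one]
        linarith
      | succ n ih =>
        rw [Finset.sum_range_succ]
        have : (4 : ℝ) ^ (n + 1) = 4 * 4 ^ n := by ring
        rw [this] 
        have h4 : 0 ≤ C0 * 4 ^ n := by positivity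
        nlinarith
    exact (Finset.sum_le_sum fun i _ => h1 i).trans (h2 j)
  have hx0 : ∀ ω j, 0 ≤ x ω j := fun ω j => by rw [hx]; positivity
  -- first moment of `x_j`
  have hEx : ∀ j : ℕ, ∑ ω ∈ S, μ ω * x ω j ≤ C0 * 4 ^ j / (max t (2 ^ j)) ^ A := by
    intro j
    have h1 : ∀ ω ∈ S, μ ω * x ω j = ∑ i ∈ H with idx i = j, (if E i ω then μ ω else 0) := by
      intro ω _
      rw [hx]
      simp only
      rw [← Finset.sum_filter, Finset.filter_filter, Finset.sum_const, nsmul_eq_mul, mul_comm]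
      congr 3
      ext i
      simp only [Finset.mem_filter]
      tauto
    rw [Finset.sum_congr rfl h1, Finset.sum_comm]
    have h2 : ∀ i ∈ H.filter (fun i => idx i = j), ∑ ω ∈ S, (if E i ω then μ ω else 0) ≤
        1 / (max t (2 ^ j)) ^ A := by
      intro i hi
      rw [Finset.mem_filter] at hi
      rw [← Finset.sum_filter]
      refine (hE i hi.1).trans ?_
      have h3 := (hmem i hi.1).1
      rw [hi.2] at h3
      have h4 : (max t (2 ^ j)) ^ A ≤ Pi i := by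
        refine le_trans ?_ (hP i hi.1)
        exact pow_le_pow_left₀ (by positivity) (max_le_max le_rfl h3) A
      exact one_div_le_one_div_of_le (by positivity) h4
    refine (Finset.sum_le_sum h2).trans ?_
    rw [Finset.sum_const, nsmul_eq_mul]
    calc ((#{i ∈ H | idx i = j} : ℕ) : ℝ) * (1 / (max t (2 ^ j)) ^ A)
        ≤ (C0 * 4 ^ j) * (1 / (max t (2 ^ j)) ^ A) :=
          mul_le_mul_of_nonneg_right (hcount j) (by positivity)
      _ = _ := by ring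
  -- assemble
  calc ∑ ω ∈ S, μ ω * ((#{i ∈ H | E i ω} : ℕ) : ℝ) ^ (k + 1)
      ≤ ∑ ω ∈ S, μ ω * ∑ j ∈ range J, (k + 1) * x ω j * (4 / 3 * C0 * 4 ^ j) ^ k := by
        refine Finset.sum_le_sum fun ω hω => mul_le_mul_of_nonneg_left ?_ (hμ ω hω)
        rw [hX ω]
        exact pow_sum_le k (x ω) _ (hx0 ω) (hK ω) J
    _ = ∑ j ∈ range J, (k + 1) * (4 / 3 * C0 * 4 ^ j) ^ k * ∑ ω ∈ S, μ ω * x ω j := by
        simp_rw [Finset.mul_sum]
        rw [Finset.sum_comm]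
        refine Finset.sum_congr rfl fun j _ => Finset.sum_congr rfl fun ω _ => by ring
    _ ≤ ∑ j ∈ range J, (k + 1) * (4 / 3 * C0 * 4 ^ j) ^ k * (C0 * 4 ^ j / (max t (2 ^ j)) ^ A) := by
        refine Finset.sum_le_sum fun j _ => mul_le_mul_of_nonneg_left (hEx j) (by positivity)
    _ = (k + 1) * (4 / 3) ^ k * C0 ^ (k + 1) *
          ∑ j ∈ range J, ((4 : ℝ) ^ j) ^ (k + 1) / (max t (2 ^ j)) ^ A := by
        rw [Finset.mul_sum]
        refine Finset.sum_congr rfl fun j _ => ?_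
        rw [mul_pow, mul_pow]
        ring
    _ ≤ (k + 1) * (4 / 3) ^ k * C0 ^ (k + 1) * (4 * t ^ (2 * (k + 1)) / t ^ A) :=
        mul_le_mul_of_nonneg_left (geo_le k A hA t ht J) (by positivity)
    _ = _ := by ring

/-- **(2645 (2))** crossing pivots in the natural model `b = F * lam`, all moments.
`H` = the active nodes (index type `ι`, integer `h i`, scale `h i / L`), at most `C0 * 4^j` of them
at scale `[2^j, 2^(j+1))`; `X lam` = number of nodes with `h i ∣ F * lam` whose part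
`Pi = h i / gcd (h i) F` taken from `lam` is `≥ max(t, h i / L)^A`. -/
theorem moment_cross {ι : Type*} [DecidableEq ι] {M : ℕ} (hM : 0 < M) (F : ℕ)
    (H : Finset ι) (h : ι → ℕ) (hpos : ∀ i ∈ H, 0 < h i) (L : ℝ) (hL : 0 < L)
    (t : ℝ) (ht : 1 ≤ t) (A k : ℕ) (hA : 2 * (k + 1) + 1 ≤ A) (C0 : ℝ)
    (hτ : ∀ i ∈ H, L ≤ h i)
    (hN : ∀ j : ℕ, ((#{i ∈ H | (2 : ℝ) ^ j ≤ h i / L ∧ (h i : ℝ) / L < 2 ^ (j + 1)} : ℕ) : ℝ) ≤
      C0 * 4 ^ j) :
    ∑ lam ∈ M.divisors, nu M lam *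
      ((#{i ∈ H | h i ∣ F * lam ∧ (max t ((h i : ℝ) / L)) ^ A ≤ ((h i / Nat.gcd (h i) F : ℕ) : ℝ)} :
        ℕ) : ℝ) ^ (k + 1) ≤
      4 * (k + 1) * (4 / 3) ^ k * C0 ^ (k + 1) * t ^ (2 * (k + 1)) / t ^ A := by
  classical
  set H' : Finset ι := {i ∈ H | (max t ((h i : ℝ) / L)) ^ A ≤ ((h i / Nat.gcd (h i) F : ℕ) : ℝ)}
    with hH'
  have hsub : ∀ i ∈ H', i ∈ H := fun i hi => (Finset.mem_filter.1 hi).1
  have key := moment_abs (S := M.divisors) (μ := nu M) (fun ω _ => nu_nonneg M ω) H'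
    (fun i lam => h i ∣ F * lam) (fun i => (h i : ℝ) / L)
    (fun i => ((h i / Nat.gcd (h i) F : ℕ) : ℝ)) t ht A k hA C0
    (fun i hi => by rw [le_div_iff₀ hL, one_mul]; exact hτ i (hsub i hi))
    (fun i hi => (Finset.mem_filter.1 hi).2)
    (fun i hi => prob_pivot hM (hpos i (hsub i hi)) F)
    (fun j => by
      refine le_trans ?_ (hN j)
      have : #{i ∈ H' | (2 : ℝ) ^ j ≤ h i / L ∧ (h i : ℝ) / L < 2 ^ (j + 1)} ≤
          #{i ∈ H | (2 : ℝ) ^ j ≤ h i / L ∧ (h i : ℝ) / L < 2 ^ (j + 1)} := by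
        refine Finset.card_le_card ?_
        intro i hi
        rw [Finset.mem_filter] at hi ⊢
        exact ⟨hsub i hi.1, hi.2⟩
      exact_mod_cast this)
  refine le_trans (le_of_eq ?_) key
  refine Finset.sum_congr rfl fun lam _ => ?_
  congr 3
  rw [hH', Finset.filter_filter]
  congr 1
  ext i
  simp only [Finset.mem_filter]
  tauto

/-- Markov: `P (X ≥ m) ≤ m^(-(k+1)) E X^(k+1)` -/
lemma markov {Ω : Type*} (S : Finset Ω) (μ : Ω → ℝ) (hμ : ∀ ω ∈ S, 0 ≤ μ ω) (X : Ω → ℝ)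
    (hX : ∀ ω ∈ S, 0 ≤ X ω) (m : ℝ) (hm : 0 < m) (k : ℕ) (Bd : ℝ)
    (hB : ∑ ω ∈ S, μ ω * X ω ^ k ≤ Bd) :
    ∑ ω ∈ S with m ≤ X ω, μ ω ≤ Bd / m ^ k := by
  rw [le_div_iff₀ (by positivity), Finset.sum_mul]
  refine le_trans ?_ hB
  refine le_trans (Finset.sum_le_sum (f := fun ω => μ ω * m ^ k) (g := fun ω => μ ω * X ω ^ k) ?_)
    (Finset.sum_le_sum_of_subset_of_nonneg (Finset.filter_subset _ _) ?_)
  · intro ω hω
    rw [Finset.mem_filter] at hω
    exact mul_le_mul_of_nonneg_left (pow_le_pow_left₀ hm.le hω.2 k) (hμ ω hω.1)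
  · intro ω hω _
    have h1 := hμ ω hω
    have h2 := hX ω hω
    positivity

/-! ### 3. Closure and crossing -/

/-- `h` is `T`-closed in `b`: `b / h` is `T h`-rough -/
def Closed (T : ℕ → ℝ) (b h : ℕ) : Prop := ∀ p : ℕ, p.Prime → p ∣ b / h → T h < p

lemma closed_self (T : ℕ → ℝ) {b : ℕ} (hb : 0 < b) : Closed T b b := by
  intro p hp hd
  rw [Nat.div_self hb] at hd
  exact absurd (Nat.dvd_one.1 hd) hp.ne_one

/-- closed divisors are stable under `gcd` -/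
lemma closed_gcd {T : ℕ → ℝ} (hT : Monotone T) {b h h' : ℕ} (hb : 0 < b) (hh : h ∣ b) (hh' : h' ∣ b)
    (hc : Closed T b h) (hc' : Closed T b h') : Closed T b (Nat.gcd h h') := by
  intro p hp hd
  have h0 : 0 < h := Nat.pos_of_dvd_of_pos hh hb
  have h0' : 0 < h' := Nat.pos_of_dvd_of_pos hh' hb
  have hg0 : 0 < Nat.gcd h h' := Nat.gcd_pos_of_pos_left _ h0
  have hle : (Nat.gcd h h') ≤ h := Nat.le_of_dvd h0 (Nat.gcd_dvd_left h h')
  have hle' : (Nat.gcd h h') ≤ h' := Nat.le_of_dvd h0' (Nat.gcd_dvd_right h h')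
  by_cases h1 : p ∣ b / h
  · exact lt_of_le_of_lt (hT hle) (hc p hp h1)
  by_cases h2 : p ∣ b / h'
  · exact lt_of_le_of_lt (hT hle') (hc' p hp h2)
  exfalso
  -- `p ∤ b/h`, `p ∤ b/h'` give `v_p h = v_p b = v_p h'`
  obtain ⟨u, hu⟩ := hh
  obtain ⟨u', hu'⟩ := hh'
  have eu : b / h = u := by rw [hu]; exact Nat.mul_div_cancel_left u h0
  have eu' : b / h' = u' := by rw [hu']; exact Nat.mul_div_cancel_left u' h0'
  rw [eu] at h1
  rw [eu'] at h2
  have hgd : Nat.gcd h h' ∣ b := (Nat.gcd_dvd_left h h').trans (Dvd.intro u hu.symm)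
  obtain ⟨w, hw⟩ := hgd
  have ew : b / Nat.gcd h h' = w := by rw [hw]; exact Nat.mul_div_cancel_left w hg0
  rw [ew] at hd
  -- `b ∣ gcd h h' * u * u'`  : `b = h u` and `b = h' u'` divide `h u u'`, `h' u u'`
  have hd1 : b ∣ h * (u * u') := by rw [hu]; exact ⟨u', by ring⟩
  have hd2 : b ∣ h' * (u * u') := by
    have : b ∣ h' * u' * u := Dvd.intro u (by rw [← hu'])
    simpa [mul_comm, mul_left_comm, mul_assoc] using this
  have hd3 : b ∣ Nat.gcd h h' * (u * u') := by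
    rw [← Nat.gcd_mul_right]
    exact Nat.dvd_gcd hd1 hd2
  rw [hw] at hd3
  have hd4 : w ∣ u * u' := Nat.dvd_of_mul_dvd_mul_left hg0 hd3
  rcases (Nat.Prime.dvd_mul hp).1 (hd.trans hd4) with h | h
  · exact h1 h
  · exact h2 h

/-- **closure**: there is a least (for divisibility) closed divisor of `b` containing `h0`, and the
primes added to `h0` are `≤ T h`. -/
theorem closure {T : ℕ → ℝ} (hT : Monotone T) {b h0 : ℕ} (hb : 0 < b) (h0b : h0 ∣ b) :
    ∃ h, h0 ∣ h ∧ h ∣ b ∧ Closed T b h ∧ (∀ h', h0 ∣ h' → h' ∣ b → Closed T b h' → h ∣ h') ∧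
      ∀ p : ℕ, p.Prime → p ∣ h / h0 → (p : ℝ) ≤ T h := by
  classical
  -- the least closed divisor for `≤`
  have hex : ∃ h, h0 ∣ h ∧ h ∣ b ∧ Closed T b h := ⟨b, h0b, dvd_rfl, closed_self T hb⟩
  obtain ⟨h1, h2, h3⟩ := Nat.find_spec hex
  set h := Nat.find hex with hh
  have h00 : 0 < h0 := Nat.pos_of_dvd_of_pos h0b hb
  have hpos : 0 < h := Nat.pos_of_dvd_of_pos h2 hb
  refine ⟨h, h1, h2, h3, ?_, ?_⟩
  · intro h' ha hb' hc
    have hg : Closed T b (Nat.gcd h h') := closed_gcd hT hb h2 hb' h3 hc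
    have hmin : h ≤ Nat.gcd h h' := Nat.find_min' hex
      ⟨Nat.dvd_gcd h1 ha, (Nat.gcd_dvd_left h h').trans h2, hg⟩
    have : Nat.gcd h h' = h := le_antisymm (Nat.le_of_dvd hpos (Nat.gcd_dvd_left h h')) hmin
    exact Nat.gcd_eq_left_iff_dvd.1 this
  · intro p hp hd
    by_contra hcon
    push Not at hcon
    -- remove one factor `p`... from `h`; all primes of `b / (h/p)` are primes of `b/h` or `p`
    have hph : p ∣ h := hd.trans (Nat.div_dvd_of_dvd h1)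
    obtain ⟨g, hg⟩ := hph
    have hg0 : 0 < g := Nat.pos_of_mul_pos_left (hg ▸ hpos) |> fun h => by
      rcases Nat.eq_zero_or_pos g with h' | h'
      · rw [h', mul_zero] at hg; omega
      · exact h'
    have hglt : g < h := by
      rw [hg]
      have := hp.one_lt
      nlinarith
    have hgh : g ∣ h := Dvd.intro_left p hg.symm
    have hh0g : h0 ∣ g := by
      obtain ⟨e, he⟩ := h1
      have he' : h / h0 = e := by rw [he]; exact Nat.mul_div_cancel_left e h00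
      rw [he'] at hd
      obtain ⟨f, hf⟩ := hd
      refine ⟨f, ?_⟩
      have : p * g = p * (h0 * f) := by rw [← hg, he, hf]; ring
      exact Nat.eq_of_mul_eq_mul_left hp.pos this
    have hclosed : Closed T b g := by
      intro r hr hrd
      have e1 : b / g = p * (b / h) := by
        obtain ⟨u, hu⟩ := h2
        have hu1 : b / h = u := by rw [hu]; exact Nat.mul_div_cancel_left u hpos
        rw [hu1, hu, hg, Nat.mul_comm p g, Nat.mul_assoc]
        exact Nat.mul_div_cancel_left _ hg0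
      rw [e1] at hrd
      rcases (Nat.Prime.dvd_mul hr).1 hrd with h' | h'
      · rw [(Nat.prime_dvd_prime_iff_eq hr hp).1 h']
        exact lt_of_le_of_lt (hT hglt.le) hcon
      · exact lt_of_le_of_lt (hT hglt.le) (h3 r hr h')
    have := Nat.find_min' hex ⟨hh0g, hgh.trans h2, hclosed⟩
    omega

/-- nested or crossing: if `h1 ∤ h2`, both divide `b`, then some prime of `b / h2` divides
`h1 / gcd h1 h2`; with `F ∣ h2` this part lies in `h1 / gcd h1 F` -/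
lemma cross_mem {b F h1 h2 : ℕ} (hb : 0 < b) (h1b : h1 ∣ b) (h2b : h2 ∣ b) (hF : F ∣ h2)
    (hn : ¬ h1 ∣ h2) {R : ℝ} (hr : ∀ p : ℕ, p.Prime → p ∣ b / h2 → R < p) :
    R < ((h1 / Nat.gcd h1 F : ℕ) : ℝ) := by
  have h10 : 0 < h1 := Nat.pos_of_dvd_of_pos h1b hb
  have h20 : 0 < h2 := Nat.pos_of_dvd_of_pos h2b hb
  have hg0 : 0 < Nat.gcd h1 h2 := Nat.gcd_pos_of_pos_left _ h10
  have hgF : 0 < Nat.gcd h1 F := Nat.gcd_pos_of_pos_left _ h10
  set α := h1 / Nat.gcd h1 h2 with hα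
  have hα1 : α ≠ 1 := by
    intro h
    apply hn
    have : h1 = Nat.gcd h1 h2 := by
      have := Nat.mul_div_cancel' (Nat.gcd_dvd_left h1 h2)
      rw [← hα, h, mul_one] at this
      exact this.symm
    rw [this]
    exact Nat.gcd_dvd_right h1 h2
  obtain ⟨p, hp, hpα⟩ := Nat.exists_prime_and_dvd hα1
  -- `α ∣ b / h2`
  have hαb : α ∣ b / h2 := by
    have hl : Nat.lcm h1 h2 ∣ b := Nat.lcm_dvd h1b h2b
    have e : Nat.lcm h1 h2 = h2 * α := by
      rw [Nat.lcm, hα, Nat.mul_comm h1 h2, Nat.mul_div_assoc _ (Nat.gcd_dvd_left h1 h2)]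
    rw [e] at hl
    obtain ⟨w, hw⟩ := hl
    rw [hw, Nat.mul_assoc, Nat.mul_div_cancel_left _ h20]
    exact Dvd.intro w rfl
  have hRp := hr p hp (hpα.trans hαb)
  -- `α ∣ h1 / gcd h1 F`
  have hdiv : α ∣ h1 / Nat.gcd h1 F := by
    have hgg : Nat.gcd h1 F ∣ Nat.gcd h1 h2 := Nat.gcd_dvd_gcd_of_dvd_right h1 hF
    obtain ⟨e, he⟩ := hgg
    refine ⟨e, ?_⟩
    have h3 : h1 = Nat.gcd h1 h2 * α := (Nat.mul_div_cancel' (Nat.gcd_dvd_left h1 h2)).symm
    have h4 : h1 = Nat.gcd h1 F * (α * e) := by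
      calc h1 = Nat.gcd h1 h2 * α := h3
        _ = (Nat.gcd h1 F * e) * α := by rw [← he]
        _ = _ := by ring
    exact Nat.div_eq_of_eq_mul_right hgF h4
  have hpos : 0 < h1 / Nat.gcd h1 F := Nat.div_pos (Nat.le_of_dvd h10 (Nat.gcd_dvd_left h1 F)) hgF
  have hle : p ≤ h1 / Nat.gcd h1 F := Nat.le_of_dvd hpos (hpα.trans hdiv)
  calc R < p := hRp
    _ ≤ _ := by exact_mod_cast hle

/-- **(2645 (3))**: for a closed node `h2` of `b = F * lam` with `F ∣ h2`, at scale `≥ t`, every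
node `h1 ∣ b` with `h1 ≤ h2`, `h1 ∤ h2` is counted by the crossing number `X lam`
(threshold function `T h = (h / L)^A`). -/
theorem cross_counted {b F h1 h2 : ℕ} (hb : 0 < b) (h1b : h1 ∣ b) (h2b : h2 ∣ b) (hF : F ∣ h2)
    (hn : ¬ h1 ∣ h2) (hle : h1 ≤ h2) {L t : ℝ} (hL : 0 < L) (ht : 0 ≤ t) (hts : t ≤ (h2 : ℝ) / L)
    (A : ℕ) (hc : Closed (fun h => ((h : ℝ) / L) ^ A) b h2) :
    (max t ((h1 : ℝ) / L)) ^ A ≤ ((h1 / Nat.gcd h1 F : ℕ) : ℝ) := by
  have h := cross_mem hb h1b h2b hF hn (R := ((h2 : ℝ) / L) ^ A) hc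
  refine le_trans ?_ h.le
  have h3 : (h1 : ℝ) / L ≤ (h2 : ℝ) / L := by
    have : (h1 : ℝ) ≤ h2 := by exact_mod_cast hle
    gcongr
  exact pow_le_pow_left₀ (le_trans ht (le_max_left _ _)) (max_le hts h3) A

/-- the chain of closed nodes is far apart: `h1 ∣ h2` closed, `h1 ≠ h2` gives `h1 * T h1 < h2` -/
lemma chain_gap {T : ℕ → ℝ} {b h1 h2 : ℕ} (hb : 0 < b) (h12 : h1 ∣ h2) (hne : h1 ≠ h2)
    (h2b : h2 ∣ b) (hc : Closed T b h1) : h1 * T h1 < h2 := by
  have h20 : 0 < h2 := Nat.pos_of_dvd_of_pos h2b hb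
  have h10 : 0 < h1 := Nat.pos_of_dvd_of_pos h12 h20
  obtain ⟨e, he⟩ := h12
  have he1 : e ≠ 1 := by
    rintro rfl
    exact hne (by rw [he, mul_one])
  have he0 : 0 < e := by
    rcases Nat.eq_zero_or_pos e with h | h
    · rw [h, mul_zero] at he; omega
    · exact h
  obtain ⟨p, hp, hpe⟩ := Nat.exists_prime_and_dvd he1
  have hd : p ∣ b / h1 := by
    obtain ⟨w, hw⟩ := h2b
    have : b / h1 = e * w := by
      rw [hw, he, Nat.mul_assoc]
      exact Nat.mul_div_cancel_left _ h10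
    rw [this]
    exact hpe.mul_right w
  have hx := hc p hp hd
  have hy : (p : ℝ) ≤ e := by exact_mod_cast Nat.le_of_dvd he0 hpe
  have hz : (0 : ℝ) < h1 := by exact_mod_cast h10
  rw [he]
  push_cast
  exact mul_lt_mul_of_pos_left (hx.trans_le hy) hz

/-- **the larger scale gives way**: the sum of `min (W z1) (W z2)` over the non-nested pairs of
nodes of `b` is at most `∑ X (z2) W (z2)`, `X z2` = number of `z1` with `h z1 ≤ h z2`,
`h z1 ∤ h z2`. -/
theorem nonnested_le {ι : Type*} [DecidableEq ι] (Z : Finset ι) (h : ι → ℕ) (W : ι → ℝ)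
    (hW : ∀ z ∈ Z, 0 ≤ W z) :
    ∑ z1 ∈ Z, ∑ z2 ∈ Z with ¬ h z1 ∣ h z2 ∧ ¬ h z2 ∣ h z1, min (W z1) (W z2) ≤
      2 * ∑ z2 ∈ Z, ((#{z1 ∈ Z | ¬ h z1 ∣ h z2 ∧ h z1 ≤ h z2} : ℕ) : ℝ) * W z2 := by
  have hswap : ∑ z1 ∈ Z, ∑ z2 ∈ Z with ¬ h z1 ∣ h z2 ∧ h z1 ≤ h z2, W z2 =
      ∑ z2 ∈ Z, ((#{z1 ∈ Z | ¬ h z1 ∣ h z2 ∧ h z1 ≤ h z2} : ℕ) : ℝ) * W z2 := by
    simp_rw [Finset.sum_filter]
    rw [Finset.sum_comm]
    refine Finset.sum_congr rfl fun z2 _ => ?_
    rw [← Finset.sum_filter, Finset.sum_const, nsmul_eq_mul]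
  have hswap2 : ∑ z1 ∈ Z, ∑ z2 ∈ Z with ¬ h z2 ∣ h z1 ∧ h z2 ≤ h z1, W z1 =
      ∑ z2 ∈ Z, ((#{z1 ∈ Z | ¬ h z1 ∣ h z2 ∧ h z1 ≤ h z2} : ℕ) : ℝ) * W z2 := by
    refine Finset.sum_congr rfl fun z2 _ => ?_
    rw [Finset.sum_const, nsmul_eq_mul]
  have hmain : ∑ z1 ∈ Z, ∑ z2 ∈ Z with ¬ h z1 ∣ h z2 ∧ ¬ h z2 ∣ h z1, min (W z1) (W z2) ≤
      ∑ z1 ∈ Z, ∑ z2 ∈ Z with ¬ h z1 ∣ h z2 ∧ h z1 ≤ h z2, W z2 +
      ∑ z1 ∈ Z, ∑ z2 ∈ Z with ¬ h z2 ∣ h z1 ∧ h z2 ≤ h z1, W z1 := by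
    rw [← Finset.sum_add_distrib]
    refine Finset.sum_le_sum fun z1 hz1 => ?_
    rw [Finset.sum_filter, Finset.sum_filter, Finset.sum_filter, ← Finset.sum_add_distrib]
    refine Finset.sum_le_sum fun z2 hz2 => ?_
    have hw1 := hW z1 hz1
    have hw2 := hW z2 hz2
    by_cases hc : ¬ h z1 ∣ h z2 ∧ ¬ h z2 ∣ h z1
    · rw [if_pos hc]
      rcases le_total (h z1) (h z2) with hl | hl
      · rw [if_pos ⟨hc.1, hl⟩]
        split_ifs
        · linarith [min_le_right (W z1) (W z2)]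
        · linarith [min_le_right (W z1) (W z2)]
      · rw [if_pos (⟨hc.2, hl⟩ : ¬ h z2 ∣ h z1 ∧ h z2 ≤ h z1)]
        split_ifs
        · linarith [min_le_left (W z1) (W z2)]
        · linarith [min_le_left (W z1) (W z2)]
    · rw [if_neg hc]
      split_ifs <;> linarith
  rw [hswap, hswap2] at hmain
  linarith

end Crest.Agent.R4C.Crossx171
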