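import Crest.Agent.R4C.Dyad_281
import Crest.Agent.R4C.Cross_171

/-!
# MX with ONE light member (note 3253 (III), 3271) (helper899)

Low modulus `M` (primes `≤ y`), `f, f' : ℕ → [0,1]` on the divisors of `M` (the fibres of `B` over
`z`, `z'`), `D = ∑ ν f`, `D' = ∑ ν f'`.  Class `(g, a)`: `2^g ≤ gcd (u,u') < 2^(g+1)` and
`2^a ≤ u / gcd (u,u') < 2^(a+1)`.

* `row_bound`  : the class `a` costs at most `2^a D` (for any kernel `≤ 1`, no relation needed).
* `Phi η T a i j = min (2 2^a 2^((i-j)/2)) (4 T 2^((i+j) η/2))`;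
  `kernel_Phi` : if `E ≤ 2^a D` and `E ≤ T G^η (D D')^((1+η)/2)`, `2^i ≤ G D < 2^(i+1)`,
  `2^j ≤ G D' < 2^(j+1)`, then `E ≤ G⁻¹ (2^i 2^j)^(1/2) Phi η T a i j`.
* `sum_Phi`    : `∑_{i ∈ S, 2^i 2^a ≤ Θ} ∑_{j ∈ S'} Phi η T a i j ≤ C_η T^(1/(1+η)) Θ^(η/(1+η))`
  (absolute double sum, no condition on `j`: the partner may be heavy).
* `sum_Phi_all`: the same summed over a finite set of `a` with `T = T a`.
-/

set_option autoImplicit false

namespace Crest.Agent.R4C.MX1x899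

open Finset Crest.Agent.R4C.Basex935 Crest.Agent.R4C.Dyadx281

/-! ### the row bound -/

/-- divisors `d` of `u` with `2^a ≤ u / d < 2^(a+1)` : at most `2^a` of them -/
lemma card_div_le {u : ℕ} (hu : 0 < u) (a : ℕ) :
    (u.divisors.filter (fun d => Nat.log 2 (u / d) = a)).card ≤ 2 ^ a := by
  classical
  have h1 : (u.divisors.filter (fun d => Nat.log 2 (u / d) = a)).card ≤
      (Finset.Ico (2 ^ a) (2 ^ (a + 1))).card := by
    refine Finset.card_le_card_of_injOn (fun d => u / d) ?_ ?_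
    · intro d hd
      rw [Finset.mem_coe, Finset.mem_filter, Nat.mem_divisors] at hd
      have hpos : u / d ≠ 0 := (Nat.div_pos (Nat.le_of_dvd hu hd.1.1)
        (Nat.pos_of_dvd_of_pos hd.1.1 hu)).ne'
      rw [Finset.mem_coe, Finset.mem_Ico, ← hd.2]
      exact ⟨Nat.pow_log_le_self 2 hpos, Nat.lt_pow_succ_log_self (by norm_num) _⟩
    · intro d hd d' hd' he
      rw [Finset.mem_coe, Finset.mem_filter, Nat.mem_divisors] at hd hd'
      simp only at he
      have e1 := Nat.div_div_self hd.1.1 hu.ne'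
      have e2 := Nat.div_div_self hd'.1.1 hu.ne'
      rw [← e1, ← e2, he]
  refine h1.trans ?_
  rw [Nat.card_Ico, pow_succ]
  omega

/-- row sum of the class `a` for fixed `u` -/
lemma row_fixed {M : ℕ} (hM : 0 < M) {u : ℕ} (hu : 0 < u) (a : ℕ) :
    ∑ c ∈ M.divisors, (if Nat.log 2 (u / Nat.gcd u c) = a then
      (Nat.gcd u c : ℝ) * nu M c else 0) ≤ 2 ^ a := by
  classical
  set Dv := u.divisors.filter (fun d => Nat.log 2 (u / d) = a) with hDv
  have h1 : ∑ c ∈ M.divisors, (if Nat.log 2 (u / Nat.gcd u c) = a then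
      (Nat.gcd u c : ℝ) * nu M c else 0) =
      ∑ c ∈ M.divisors.filter (fun c => Nat.log 2 (u / Nat.gcd u c) = a),
        (Nat.gcd u c : ℝ) * nu M c := by
    rw [Finset.sum_filter]
  have h2 : ∑ c ∈ M.divisors.filter (fun c => Nat.log 2 (u / Nat.gcd u c) = a),
        (Nat.gcd u c : ℝ) * nu M c =
      ∑ d ∈ Dv, ∑ c ∈ (M.divisors.filter (fun c => Nat.log 2 (u / Nat.gcd u c) = a)).filter
        (fun c => Nat.gcd u c = d), (Nat.gcd u c : ℝ) * nu M c := by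
    rw [Finset.sum_fiberwise_of_maps_to]
    intro c hc
    rw [Finset.mem_filter] at hc
    rw [hDv, Finset.mem_filter, Nat.mem_divisors]
    exact ⟨⟨Nat.gcd_dvd_left u c, hu.ne'⟩, hc.2⟩
  rw [h1, h2]
  have h3 : ∀ d ∈ Dv, ∑ c ∈ (M.divisors.filter
      (fun c => Nat.log 2 (u / Nat.gcd u c) = a)).filter (fun c => Nat.gcd u c = d),
        (Nat.gcd u c : ℝ) * nu M c ≤ 1 := by
    intro d hd
    rw [hDv, Finset.mem_filter, Nat.mem_divisors] at hd
    have hd0 : (0 : ℝ) < d := by exact_mod_cast Nat.pos_of_dvd_of_pos hd.1.1 hu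
    calc ∑ c ∈ (M.divisors.filter (fun c => Nat.log 2 (u / Nat.gcd u c) = a)).filter
          (fun c => Nat.gcd u c = d), (Nat.gcd u c : ℝ) * nu M c
        = ∑ c ∈ (M.divisors.filter (fun c => Nat.log 2 (u / Nat.gcd u c) = a)).filter
          (fun c => Nat.gcd u c = d), (d : ℝ) * nu M c := by
          refine Finset.sum_congr rfl fun c hc => ?_
          rw [(Finset.mem_filter.1 hc).2]
      _ = (d : ℝ) * ∑ c ∈ (M.divisors.filter
          (fun c => Nat.log 2 (u / Nat.gcd u c) = a)).filter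
          (fun c => Nat.gcd u c = d), nu M c := by rw [Finset.mul_sum]
      _ ≤ (d : ℝ) * ∑ c ∈ M.divisors with d ∣ c, nu M c := by
          refine mul_le_mul_of_nonneg_left ?_ hd0.le
          refine Finset.sum_le_sum_of_subset_of_nonneg ?_ fun c _ _ => nu_nonneg M c
          intro c hc
          rw [Finset.mem_filter, Finset.mem_filter] at hc
          rw [Finset.mem_filter]
          exact ⟨hc.1.1, hc.2 ▸ Nat.gcd_dvd_right u c⟩
      _ ≤ (d : ℝ) * (1 / d) :=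
          mul_le_mul_of_nonneg_left (Crossx171.sum_nu_dvd_le hM d) hd0.le
      _ = 1 := by field_simp
  calc ∑ d ∈ Dv, ∑ c ∈ (M.divisors.filter
        (fun c => Nat.log 2 (u / Nat.gcd u c) = a)).filter
        (fun c => Nat.gcd u c = d), (Nat.gcd u c : ℝ) * nu M c
      ≤ ∑ _d ∈ Dv, (1 : ℝ) := Finset.sum_le_sum h3
    _ = (Dv.card : ℝ) := by simp
    _ ≤ 2 ^ a := by
        have := card_div_le hu a
        rw [← hDv] at this
        exact_mod_cast this

/-- **row bound**: pairs `(u,u')` with `2^a ≤ u / gcd (u,u') < 2^(a+1)` cost at most `2^a ∑ ν f`,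
whatever the partner (kernel `F u u' ≤ f u`). -/
theorem row_bound {M : ℕ} (hM : 0 < M) {f : ℕ → ℝ} (hf : ∀ u, 0 ≤ f u) (a : ℕ)
    {F : ℕ → ℕ → ℝ} (hF : ∀ u c, u ∣ M → c ∣ M → F u c ≤ f u) :
    frm M (fun u c => if Nat.log 2 (u / Nat.gcd u c) = a then F u c else 0) ≤
      2 ^ a * ∑ u ∈ M.divisors, nu M u * f u := by
  unfold frm
  rw [Finset.mul_sum]
  refine Finset.sum_le_sum fun u hu => ?_
  rw [Nat.mem_divisors] at hu
  have hu0 : 0 < u := Nat.pos_of_dvd_of_pos hu.1 hM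
  have h1 : ∀ c ∈ M.divisors, (Nat.gcd u c : ℝ) * nu M u * nu M c *
      (if Nat.log 2 (u / Nat.gcd u c) = a then F u c else 0) ≤
      (nu M u * f u) * (if Nat.log 2 (u / Nat.gcd u c) = a then
        (Nat.gcd u c : ℝ) * nu M c else 0) := by
    intro c hc
    rw [Nat.mem_divisors] at hc
    split_ifs
    · have h2 := hF u c hu.1 hc.1
      have h3 : 0 ≤ (Nat.gcd u c : ℝ) * nu M u * nu M c :=
        mul_nonneg (mul_nonneg (Nat.cast_nonneg _) (nu_nonneg _ _)) (nu_nonneg _ _)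
      calc (Nat.gcd u c : ℝ) * nu M u * nu M c * F u c
          ≤ (Nat.gcd u c : ℝ) * nu M u * nu M c * f u := mul_le_mul_of_nonneg_left h2 h3
        _ = _ := by ring
    · rw [mul_zero, mul_zero]
  calc ∑ c ∈ M.divisors, (Nat.gcd u c : ℝ) * nu M u * nu M c *
        (if Nat.log 2 (u / Nat.gcd u c) = a then F u c else 0)
      ≤ ∑ c ∈ M.divisors, (nu M u * f u) * (if Nat.log 2 (u / Nat.gcd u c) = a then
        (Nat.gcd u c : ℝ) * nu M c else 0) := Finset.sum_le_sum h1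
    _ = (nu M u * f u) * ∑ c ∈ M.divisors, (if Nat.log 2 (u / Nat.gcd u c) = a then
        (Nat.gcd u c : ℝ) * nu M c else 0) := by rw [Finset.mul_sum]
    _ ≤ (nu M u * f u) * 2 ^ a :=
        mul_le_mul_of_nonneg_left (row_fixed hM hu0 a) (mul_nonneg (nu_nonneg _ _) (hf u))
    _ = _ := by ring

/-! ### the level kernel -/

/-- level kernel of one class `a`; `i` = level of the LIGHT member, `j` = level of the partner -/
noncomputable def Phi (η T : ℝ) (a : ℕ) (i j : ℤ) : ℝ :=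
  min (2 * (2 : ℝ) ^ a * (2 : ℝ) ^ (((i : ℝ) - j) / 2)) (4 * T * (2 : ℝ) ^ (((i : ℝ) + j) * η / 2))

lemma Phi_nonneg {η T : ℝ} (hT : 0 ≤ T) (a : ℕ) (i j : ℤ) : 0 ≤ Phi η T a i j := by
  unfold Phi
  refine le_min (by positivity) (by positivity)

/-- **kernel bound on the levels** -/
theorem kernel_Phi {η T G D D' E : ℝ} (hη0 : 0 ≤ η) (hη1 : η ≤ 1) (hT : 0 ≤ T) (hG : 0 < G)
    (a : ℕ) (i j : ℤ)
    (hi : (2 : ℝ) ^ (i : ℝ) ≤ G * D) (hi' : G * D ≤ (2 : ℝ) ^ ((i : ℝ) + 1))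
    (hj : (2 : ℝ) ^ (j : ℝ) ≤ G * D') (hj' : G * D' ≤ (2 : ℝ) ^ ((j : ℝ) + 1))
    (h1 : E ≤ 2 ^ a * D) (h2 : E ≤ T * G ^ η * (D * D') ^ ((1 + η) / 2)) :
    E ≤ G⁻¹ * ((2 : ℝ) ^ (i : ℝ) * (2 : ℝ) ^ (j : ℝ)) ^ ((1 : ℝ) / 2) * Phi η T a i j := by
  have h20 : (0 : ℝ) < 2 := by norm_num
  have hi0 : 0 < (2 : ℝ) ^ (i : ℝ) := Real.rpow_pos_of_pos h20 _
  have hj0 : 0 < (2 : ℝ) ^ (j : ℝ) := Real.rpow_pos_of_pos h20 _
  have hGD : 0 < G * D := lt_of_lt_of_le hi0 hi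
  have hGD' : 0 < G * D' := lt_of_lt_of_le hj0 hj
  have hD : 0 < D := (mul_pos_iff_of_pos_left hG).1 hGD
  have hD' : 0 < D' := (mul_pos_iff_of_pos_left hG).1 hGD'
  have hGi : 0 < G⁻¹ := inv_pos.2 hG
  set q : ℝ := ((2 : ℝ) ^ (i : ℝ) * (2 : ℝ) ^ (j : ℝ)) ^ ((1 : ℝ) / 2) with hq
  have eq1 : q = (2 : ℝ) ^ (((i : ℝ) + j) / 2) := by
    rw [hq, ← Real.rpow_add h20, ← Real.rpow_mul h20.le]
    congr 1
    ring
  have hq0 : 0 < q := by rw [eq1]; exact Real.rpow_pos_of_pos h20 _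
  have hGq : 0 ≤ G⁻¹ * q := (mul_pos hGi hq0).le
  unfold Phi
  rw [mul_min_of_nonneg _ _ hGq]
  refine le_min ?_ ?_
  · -- row bound
    calc E ≤ 2 ^ a * D := h1
      _ = G⁻¹ * (2 ^ a * (G * D)) := by field_simp
      _ ≤ G⁻¹ * (2 ^ a * (2 : ℝ) ^ ((i : ℝ) + 1)) :=
          mul_le_mul_of_nonneg_left (mul_le_mul_of_nonneg_left hi' (by positivity)) hGi.le
      _ = G⁻¹ * q * (2 * (2 : ℝ) ^ a * (2 : ℝ) ^ (((i : ℝ) - j) / 2)) := by
          have e : (2 : ℝ) ^ ((i : ℝ) + 1) = q * (2 * (2 : ℝ) ^ (((i : ℝ) - j) / 2)) := by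
            have e2 : q * (2 : ℝ) ^ (((i : ℝ) - j) / 2) = (2 : ℝ) ^ (i : ℝ) := by
              rw [eq1, ← Real.rpow_add h20]
              congr 1
              ring
            rw [Real.rpow_add h20, Real.rpow_one, ← e2]
            ring
          rw [e]
          ring
  · -- HVW with relation
    have e1 : T * G ^ η * (D * D') ^ ((1 + η) / 2) =
        G⁻¹ * (T * ((G * D) * (G * D')) ^ ((1 + η) / 2)) := by
      have e2 : (G * D) * (G * D') = (G * G) * (D * D') := by ring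
      have e3 : (G * G) ^ ((1 + η) / 2) = G * G ^ η := by
        rw [← pow_two, ← Real.rpow_natCast, ← Real.rpow_mul hG.le]
        have : ((2 : ℕ) : ℝ) * ((1 + η) / 2) = 1 + η := by push_cast; ring
        rw [this, Real.rpow_add hG, Real.rpow_one]
      rw [e2, Real.mul_rpow (x := G * G) (by positivity) (by positivity), e3]
      field_simp
    have e4 : ((G * D) * (G * D')) ^ ((1 + η) / 2) ≤
        4 * (q * (2 : ℝ) ^ (((i : ℝ) + j) * η / 2)) := by
      have e5 : (G * D) * (G * D') ≤ (2 : ℝ) ^ ((i : ℝ) + j + 2) := by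
        calc (G * D) * (G * D') ≤ (2 : ℝ) ^ ((i : ℝ) + 1) * (2 : ℝ) ^ ((j : ℝ) + 1) :=
              mul_le_mul hi' hj' hGD'.le (by positivity)
          _ = _ := by
              rw [← Real.rpow_add h20]
              congr 1
              ring
      calc ((G * D) * (G * D')) ^ ((1 + η) / 2)
          ≤ ((2 : ℝ) ^ ((i : ℝ) + j + 2)) ^ ((1 + η) / 2) :=
            Real.rpow_le_rpow (by positivity) e5 (by linarith)
        _ = (2 : ℝ) ^ (1 + η) * (q * (2 : ℝ) ^ (((i : ℝ) + j) * η / 2)) := by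
            rw [← Real.rpow_mul h20.le, eq1, ← Real.rpow_add h20, ← Real.rpow_add h20]
            congr 1
            ring
        _ ≤ 4 * (q * (2 : ℝ) ^ (((i : ℝ) + j) * η / 2)) := by
            refine mul_le_mul_of_nonneg_right ?_ (by positivity)
            calc (2 : ℝ) ^ (1 + η) ≤ (2 : ℝ) ^ (2 : ℝ) :=
                  Real.rpow_le_rpow_of_exponent_le (by norm_num) (by linarith)
              _ = 4 := by norm_num
    calc E ≤ T * G ^ η * (D * D') ^ ((1 + η) / 2) := h2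
      _ = G⁻¹ * (T * ((G * D) * (G * D')) ^ ((1 + η) / 2)) := e1
      _ ≤ G⁻¹ * (T * (4 * (q * (2 : ℝ) ^ (((i : ℝ) + j) * η / 2)))) :=
          mul_le_mul_of_nonneg_left (mul_le_mul_of_nonneg_left e4 hT) hGi.le
      _ = _ := by ring

/-- the constant of the double sum -/
noncomputable def CPhi (η : ℝ) : ℝ := (gC (η / 2) + gC (1 / 2)) * gC (η / (1 + η)) * 8

lemma CPhi_pos {η : ℝ} (hη : 0 < η) : 0 < CPhi η := by
  have h1 := gC_pos (a := η / 2) (by positivity)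
  have h2 := gC_pos (a := (1 : ℝ) / 2) (by norm_num)
  have h3 := gC_pos (a := η / (1 + η)) (by positivity)
  unfold CPhi
  positivity

/-- sum over the levels of the partner -/
lemma sum_j {η T : ℝ} (hη : 0 < η) (hT : 0 ≤ T) (a : ℕ) (i : ℤ) (S' : Finset ℤ) :
    ∑ j ∈ S', Phi η T a i j ≤ (gC (η / 2) + gC (1 / 2)) *
      ((4 * T) ^ (1 / (1 + η)) * (2 * (2 : ℝ) ^ a) ^ (η / (1 + η))) *
        (2 : ℝ) ^ (η / (1 + η) * (i : ℝ)) := by
  have h20 : (0 : ℝ) < 2 := by norm_num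
  have h := sum_min_le (a := 4 * T * (2 : ℝ) ^ ((i : ℝ) * η / 2))
    (b := 2 * (2 : ℝ) ^ a * (2 : ℝ) ^ ((i : ℝ) / 2)) (α := η / 2) (β := 1 / 2)
    (by positivity) (by positivity) (by positivity) (by norm_num) S' (fun j => Phi η T a i j)
    (fun j _ => by
      unfold Phi
      refine (min_le_right _ _).trans (le_of_eq ?_)
      rw [mul_assoc (4 * T), ← Real.rpow_add h20]
      congr 2
      ring)
    (fun j _ => by
      unfold Phi
      refine (min_le_left _ _).trans (le_of_eq ?_)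
      rw [mul_assoc (2 * (2 : ℝ) ^ a), ← Real.rpow_add h20]
      congr 2
      ring)
  refine h.trans (le_of_eq ?_)
  have e1 : 1 / 2 / (η / 2 + 1 / 2) = 1 / (1 + η) := by
    field_simp
    ring
  have e2 : η / 2 / (η / 2 + 1 / 2) = η / (1 + η) := by
    field_simp
    ring
  rw [e1, e2, Real.mul_rpow (by positivity) (by positivity),
    Real.mul_rpow (x := 2 * (2 : ℝ) ^ a) (by positivity) (by positivity),
    ← Real.rpow_mul h20.le, ← Real.rpow_mul h20.le]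
  have e3 : (2 : ℝ) ^ ((i : ℝ) * η / 2 * (1 / (1 + η))) *
      (2 : ℝ) ^ ((i : ℝ) / 2 * (η / (1 + η))) = (2 : ℝ) ^ (η / (1 + η) * (i : ℝ)) := by
    rw [← Real.rpow_add h20]
    congr 1
    field_simp
    ring
  rw [← e3]
  ring

/-- **absolute double sum**: no condition on the level `j` of the partner -/
theorem sum_Phi {η T Θ : ℝ} (hη : 0 < η) (hT : 0 ≤ T) (hΘ : 0 < Θ) (a : ℕ)
    (S S' : Finset ℤ) (hS : ∀ i ∈ S, (2 : ℝ) ^ (i : ℝ) * 2 ^ a ≤ Θ) :
    ∑ i ∈ S, ∑ j ∈ S', Phi η T a i j ≤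
      CPhi η * (T ^ (1 / (1 + η)) * Θ ^ (η / (1 + η))) := by
  have h20 : (0 : ℝ) < 2 := by norm_num
  set κ : ℝ := η / (1 + η) with hκ
  have hκ0 : 0 < κ := by rw [hκ]; positivity
  have hκ1 : κ ≤ 1 := by
    rw [hκ, div_le_one (by linarith)]
    linarith
  set A : ℝ := (gC (η / 2) + gC (1 / 2)) *
      ((4 * T) ^ (1 / (1 + η)) * (2 * (2 : ℝ) ^ a) ^ κ) with hA
  have hg1 := gC_pos (a := η / 2) (by positivity)
  have hg2 := gC_pos (a := (1 : ℝ) / 2) (by norm_num)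
  have hg3 := gC_pos hκ0
  have hA0 : 0 ≤ A := by
    rw [hA]
    positivity
  set x0 : ℝ := Real.logb 2 (Θ / 2 ^ a) with hx0
  have hΘa : 0 < Θ / 2 ^ a := by positivity
  have hx : (2 : ℝ) ^ x0 = Θ / 2 ^ a := Real.rpow_logb h20 (by norm_num) hΘa
  have h := sum_le_left (a := κ) (A := A) (x0 := x0) hκ0 hA0 S
    (fun i hi => by
      have h1 := hS i hi
      rw [hx0, Real.le_logb_iff_rpow_le (by norm_num) hΘa, le_div_iff₀ (by positivity)]
      exact h1)
    (fun i => ∑ j ∈ S', Phi η T a i j) (fun i _ => sum_j hη hT a i S')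
  refine h.trans ?_
  have e1 : (2 : ℝ) ^ (κ * x0) = (Θ / 2 ^ a) ^ κ := by
    rw [mul_comm, Real.rpow_mul h20.le, hx]
  have e2 : (2 * (2 : ℝ) ^ a) ^ κ * (Θ / 2 ^ a) ^ κ = (2 * Θ) ^ κ := by
    rw [← Real.mul_rpow (by positivity) hΘa.le]
    congr 1
    field_simp
  have e3 : (2 * Θ) ^ κ ≤ 2 * Θ ^ κ := by
    rw [Real.mul_rpow h20.le hΘ.le]
    refine mul_le_mul_of_nonneg_right ?_ (by positivity)
    calc (2 : ℝ) ^ κ ≤ (2 : ℝ) ^ (1 : ℝ) :=
          Real.rpow_le_rpow_of_exponent_le (by norm_num) hκ1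
      _ = 2 := Real.rpow_one _
  have e4 : (4 * T) ^ (1 / (1 + η)) ≤ 4 * T ^ (1 / (1 + η)) := by
    rw [Real.mul_rpow (by norm_num) hT]
    refine mul_le_mul_of_nonneg_right ?_ (by positivity)
    calc (4 : ℝ) ^ (1 / (1 + η)) ≤ (4 : ℝ) ^ (1 : ℝ) := by
          refine Real.rpow_le_rpow_of_exponent_le (by norm_num) ?_
          rw [div_le_one (by linarith)]
          linarith
      _ = 4 := Real.rpow_one _
  calc gC κ * (A * (2 : ℝ) ^ (κ * x0))
      = gC κ * ((gC (η / 2) + gC (1 / 2)) * ((4 * T) ^ (1 / (1 + η)) *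
          ((2 * (2 : ℝ) ^ a) ^ κ * (Θ / 2 ^ a) ^ κ))) := by
        rw [hA, e1]
        ring
    _ = gC κ * ((gC (η / 2) + gC (1 / 2)) * ((4 * T) ^ (1 / (1 + η)) * (2 * Θ) ^ κ)) := by
        rw [e2]
    _ ≤ gC κ * ((gC (η / 2) + gC (1 / 2)) * ((4 * T ^ (1 / (1 + η))) * (2 * Θ ^ κ))) := by
        refine mul_le_mul_of_nonneg_left (mul_le_mul_of_nonneg_left ?_ (by positivity)) hg3.le
        exact mul_le_mul e4 e3 (by positivity) (by positivity)
    _ = _ := by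
        unfold CPhi
        rw [← hκ]
        ring

/-- all classes `a` together -/
theorem sum_Phi_all {η Θ : ℝ} (hη : 0 < η) (hΘ : 0 < Θ) (A : Finset ℕ)
    (T : ℕ → ℝ) (hT : ∀ a ∈ A, 0 ≤ T a) (S : ℕ → Finset ℤ) (S' : Finset ℤ)
    (hS : ∀ a ∈ A, ∀ i ∈ S a, (2 : ℝ) ^ (i : ℝ) * 2 ^ a ≤ Θ) :
    ∑ a ∈ A, ∑ i ∈ S a, ∑ j ∈ S', Phi η (T a) a i j ≤
      CPhi η * Θ ^ (η / (1 + η)) * ∑ a ∈ A, (T a) ^ (1 / (1 + η)) := by
  rw [Finset.mul_sum]
  refine Finset.sum_le_sum fun a ha => ?_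
  refine (sum_Phi hη (hT a ha) hΘ a (S a) S' (hS a ha)).trans (le_of_eq ?_)
  ring

end Crest.Agent.R4C.MX1x899
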