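import Crest.Agent.R4C.AsmLev_946
import Crest.Agent.R4C.MX1_899

/-!
# Class (L): assembly with levels and weights, ONE light member (notes 3253 (III), 3351) (helper899)

* `SetW M W E` : `∑_{z ∈ S, z' ∈ S'} gcd ν ν W z z' ≤ E (ν S ν S')^(1/2)` for all sets `S, S'` of
  divisors of `M` (weights `W ≥ 0` instead of a relation; 946's `SetBd` is `W = 1_R`).
* `asm_levelsW` : 946's `asm_levels` with weights.
* `mx1` : **MX with one light member**: kernel `lowK ≤ W * k`, row bound `k ≤ 2^a V z`,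
  HVW with relation `k ≤ T (2^i)^η (V z V' z')^((1+η)/2)`, light: `k ≠ 0 → 2^i 2^a V z ≤ Θ`;
  conclusion `≤ E CPhi(η) T^(1/(1+η)) Θ^(η/(1+η)) √(m m')`.
* `mx1_all` : the same summed over the classes `a` (dyadic size of `u / gcd (u, u')`).
-/

set_option autoImplicit false

namespace Crest.Agent.R4C.LowLx899

open Finset Crest.Agent.R4C.Basex935 Crest.Agent.R4C.Asmx946 Crest.Agent.R4C.AsmLevx946
  Crest.Agent.R4C.MX1x899 Crest.Agent.R4C.Dyadx281

/-- bilinear bound for sets, with weights -/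
def SetW (M : ℕ) (W : ℕ → ℕ → ℝ) (E : ℝ) : Prop :=
  ∀ S S' : Finset ℕ, S ⊆ M.divisors → S' ⊆ M.divisors →
    ∑ z ∈ S, ∑ z' ∈ S', W z z' * ((Nat.gcd z z' : ℝ) * nu M z * nu M z') ≤
      E * √((∑ z ∈ S, nu M z) * ∑ z ∈ S', nu M z)

open Classical in
lemma SetW.of_setBd {M : ℕ} {R : ℕ → ℕ → Prop} {E : ℝ} (h : SetBd M R E) :
    SetW M (fun z z' => if R z z' then 1 else 0) E := by
  intro S S' hS hS'
  refine le_trans (le_of_eq ?_) (h S S' hS hS')
  refine Finset.sum_congr rfl fun z _ => Finset.sum_congr rfl fun z' _ => ?_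
  by_cases hr : R z z' <;> simp [hr]

lemma SetW.mono {M : ℕ} {W W' : ℕ → ℕ → ℝ} {E E' : ℝ} (h : SetW M W E)
    (hW : ∀ z z', z ∣ M → z' ∣ M → W' z z' ≤ W z z') (hE : E ≤ E') : SetW M W' E' := by
  intro S S' hS hS'
  refine le_trans ?_ ((h S S' hS hS').trans (mul_le_mul_of_nonneg_right hE (Real.sqrt_nonneg _)))
  exact Finset.sum_le_sum fun z hz => Finset.sum_le_sum fun z' hz' =>
    mul_le_mul_of_nonneg_right
      (hW z z' (Nat.mem_divisors.1 (hS hz)).1 (Nat.mem_divisors.1 (hS' hz')).1)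
      (term_nonneg M z z')

lemma SetW.add {M : ℕ} {W W' : ℕ → ℕ → ℝ} {E E' : ℝ} (h : SetW M W E) (h' : SetW M W' E') :
    SetW M (fun z z' => W z z' + W' z z') (E + E') := by
  intro S S' hS hS'
  rw [add_mul]
  refine le_trans (le_of_eq ?_) (add_le_add (h S S' hS hS') (h' S S' hS hS'))
  rw [← Finset.sum_add_distrib]
  refine Finset.sum_congr rfl fun z _ => ?_
  rw [← Finset.sum_add_distrib]
  exact Finset.sum_congr rfl fun z' _ => by ring

lemma SetW.sum {M : ℕ} {τ : Type*} (T : Finset τ) {W : τ → ℕ → ℕ → ℝ} {ε : τ → ℝ}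
    (h : ∀ t ∈ T, SetW M (W t) (ε t)) :
    SetW M (fun z z' => ∑ t ∈ T, W t z z') (∑ t ∈ T, ε t) := by
  classical
  induction T using Finset.induction_on with
  | empty =>
    intro S S' _ _
    simp
  | insert t T ht ih =>
    have h1 := (h t (Finset.mem_insert_self t T)).add
      (ih fun s hs => h s (Finset.mem_insert_of_mem hs))
    intro S S' hS hS'
    have h2 := h1 S S' hS hS'
    simp only [Finset.sum_insert ht]
    exact h2

/-- symmetric weights from a quadratic bound -/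
lemma SetW.of_quad {M : ℕ} {W : ℕ → ℕ → ℝ} (hW : ∀ z z', 0 ≤ W z z') {C : ℝ} (hC : 0 ≤ C)
    (h : ∀ f : ℕ → ℝ, (∀ b, 0 ≤ f b) →
      frm M (fun z z' => W z z' * (f z * f z')) ≤ C * ∑ z ∈ M.divisors, nu M z * f z ^ 2) :
    SetW M W (4 * C) := by
  classical
  intro S S' hS hS'
  set a := ∑ z ∈ S, nu M z with ha
  set a' := ∑ z ∈ S', nu M z with ha'
  have ha0 : 0 ≤ a := sum_nu_nonneg _ _
  have ha0' : 0 ≤ a' := sum_nu_nonneg _ _
  -- zero cases
  have hz : ∀ (U : Finset ℕ), U ⊆ M.divisors → ∑ z ∈ U, nu M z = 0 → ∀ z ∈ U, nu M z = 0 := by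
    intro U _ h0
    exact (Finset.sum_eq_zero_iff_of_nonneg fun z _ => nu_nonneg M z).1 h0
  rcases ha0.eq_or_lt with h0 | h0
  · have h1 := hz S hS h0.symm
    rw [← h0, zero_mul, Real.sqrt_zero, mul_zero]
    refine le_of_eq (Finset.sum_eq_zero fun z hz' => Finset.sum_eq_zero fun z' _ => ?_)
    rw [h1 z hz']
    ring
  rcases ha0'.eq_or_lt with h0' | h0'
  · have h1 := hz S' hS' h0'.symm
    rw [← h0', mul_zero, Real.sqrt_zero, mul_zero]
    refine le_of_eq (Finset.sum_eq_zero fun z _ => Finset.sum_eq_zero fun z' hz' => ?_)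
    rw [h1 z' hz']
    ring
  -- f = p 1_S + p⁻¹ 1_S', p² = √(a'/a)
  set q : ℝ := √(a' / a) with hq
  have hq0 : 0 < q := Real.sqrt_pos.2 (div_pos h0' h0)
  set p : ℝ := √q with hp
  have hp0 : 0 < p := Real.sqrt_pos.2 hq0
  have hpp : p * p = q := Real.mul_self_sqrt hq0.le
  set f : ℕ → ℝ := fun z => (if z ∈ S then p else 0) + (if z ∈ S' then p⁻¹ else 0) with hf
  have hf0 : ∀ z, 0 ≤ f z := by
    intro z
    simp only [hf]
    split_ifs <;> positivity
  have h1 : ∑ z ∈ S, ∑ z' ∈ S', W z z' * ((Nat.gcd z z' : ℝ) * nu M z * nu M z') ≤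
      frm M (fun z z' => W z z' * (f z * f z')) := by
    have e1 : ∑ z ∈ S, ∑ z' ∈ S', W z z' * ((Nat.gcd z z' : ℝ) * nu M z * nu M z') ≤
        ∑ z ∈ S, ∑ z' ∈ S', (Nat.gcd z z' : ℝ) * nu M z * nu M z' * (W z z' * (f z * f z')) := by
      refine Finset.sum_le_sum fun z hz => Finset.sum_le_sum fun z' hz' => ?_
      have h2 : 1 ≤ f z * f z' := by
        have a1 : p ≤ f z := by
          simp only [hf]
          rw [if_pos hz]
          have : 0 ≤ (if z ∈ S' then p⁻¹ else 0) := by split_ifs <;> positivity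
          linarith
        have a2 : p⁻¹ ≤ f z' := by
          simp only [hf]
          rw [if_pos hz']
          have : 0 ≤ (if z' ∈ S then p else 0) := by split_ifs <;> positivity
          linarith
        calc (1 : ℝ) = p * p⁻¹ := (mul_inv_cancel₀ hp0.ne').symm
          _ ≤ f z * f z' := mul_le_mul a1 a2 (by positivity) (hf0 z)
      have h3 := mul_nonneg (hW z z') (term_nonneg M z z')
      calc W z z' * ((Nat.gcd z z' : ℝ) * nu M z * nu M z')
          ≤ (W z z' * ((Nat.gcd z z' : ℝ) * nu M z * nu M z')) * (f z * f z') :=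
            le_mul_of_one_le_right h3 h2
        _ = _ := by ring
    refine e1.trans ?_
    unfold frm
    refine (Finset.sum_le_sum fun z hz => Finset.sum_le_sum_of_subset_of_nonneg hS'
      fun z' _ _ => ?_).trans (Finset.sum_le_sum_of_subset_of_nonneg hS fun z _ _ => ?_)
    · exact mul_nonneg (term_nonneg M z z') (mul_nonneg (hW z z') (mul_nonneg (hf0 z) (hf0 z')))
    · exact Finset.sum_nonneg fun z' _ =>
        mul_nonneg (term_nonneg M z z') (mul_nonneg (hW z z') (mul_nonneg (hf0 z) (hf0 z')))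
  have h2 : ∑ z ∈ M.divisors, nu M z * f z ^ 2 ≤ 2 * (q * a + q⁻¹ * a') := by
    have e2 : ∀ z, nu M z * f z ^ 2 ≤ 2 * ((if z ∈ S then q * nu M z else 0) +
        (if z ∈ S' then q⁻¹ * nu M z else 0)) := by
      intro z
      have hn := nu_nonneg M z
      have hpq : p⁻¹ * p⁻¹ = q⁻¹ := by rw [← mul_inv, hpp]
      have hfz : f z ^ 2 ≤ 2 * ((if z ∈ S then q else 0) + (if z ∈ S' then q⁻¹ else 0)) := by
        have b1 : f z ^ 2 ≤ 2 * ((if z ∈ S then p else 0) ^ 2 +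
            (if z ∈ S' then p⁻¹ else 0) ^ 2) := by
          simp only [hf]
          nlinarith [sq_nonneg ((if z ∈ S then p else 0) - (if z ∈ S' then p⁻¹ else 0))]
        refine b1.trans (le_of_eq ?_)
        congr 1
        by_cases c1 : z ∈ S <;> by_cases c2 : z ∈ S' <;>
          simp only [c1, c2, if_true, if_false] <;> nlinarith [hpp, hpq]
      calc nu M z * f z ^ 2 ≤ nu M z * (2 * ((if z ∈ S then q else 0) +
            (if z ∈ S' then q⁻¹ else 0))) := mul_le_mul_of_nonneg_left hfz hn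
        _ = _ := by
            by_cases c1 : z ∈ S <;> by_cases c2 : z ∈ S' <;>
              simp only [c1, c2, if_true, if_false] <;> ring
    refine (Finset.sum_le_sum fun z _ => e2 z).trans ?_
    rw [← Finset.mul_sum, Finset.sum_add_distrib]
    refine mul_le_mul_of_nonneg_left (le_of_eq ?_) (by norm_num)
    rw [← Finset.sum_filter, ← Finset.sum_filter, ha, ha', Finset.mul_sum, Finset.mul_sum]
    congr 1
    · refine Finset.sum_congr ?_ fun _ _ => rfl
      ext z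
      rw [Finset.mem_filter]
      exact ⟨fun h => h.2, fun h => ⟨hS h, h⟩⟩
    · refine Finset.sum_congr ?_ fun _ _ => rfl
      ext z
      rw [Finset.mem_filter]
      exact ⟨fun h => h.2, fun h => ⟨hS' h, h⟩⟩
  have h3 : q * a = √(a * a') := by
    rw [hq, Real.sqrt_div' _ h0.le, Real.sqrt_mul h0.le]
    have h4 : √a * √a = a := Real.mul_self_sqrt h0.le
    have h5 : 0 < √a := Real.sqrt_pos.2 h0
    field_simp
    nlinarith [h4]
  have h4 : q⁻¹ * a' = √(a * a') := by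
    rw [hq, Real.sqrt_div' _ h0.le, Real.sqrt_mul h0.le]
    have h4 : √a' * √a' = a' := Real.mul_self_sqrt h0'.le
    have h5 : 0 < √a' := Real.sqrt_pos.2 h0'
    have h6 : 0 < √a := Real.sqrt_pos.2 h0
    field_simp
    nlinarith [h4]
  calc _ ≤ C * ∑ z ∈ M.divisors, nu M z * f z ^ 2 := h1.trans (h f hf0)
    _ ≤ C * (2 * (q * a + q⁻¹ * a')) := mul_le_mul_of_nonneg_left h2 hC
    _ = 4 * C * √(a * a') := by rw [h3, h4]; ring

section levels

variable {κ κ' : Type*} [DecidableEq κ] [DecidableEq κ'] {M0 M1 : ℕ} {Φ : ℕ → ℕ → ℝ}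
  {W : ℕ → ℕ → ℕ → ℝ} {E : ℝ} {lev : ℕ → ℕ → κ} {lev' : ℕ → ℕ → κ'} {Lv : Finset κ}
  {Lv' : Finset κ'} {A : ℕ → ℝ} {w : κ → ℝ} {w' : κ' → ℝ} {Ψ : κ → κ' → ℝ}

/-- **assembly with levels and weights** -/
theorem asm_levelsW (hco : Nat.Coprime M0 M1) (hM0 : 0 < M0)
    (hW0 : ∀ i z z', 0 ≤ W i z z') (hWE : ∀ i, SetW M1 (W i) E)
    (hA : ∀ i, 0 ≤ A i) (hw : ∀ k, 0 ≤ w k) (hw' : ∀ k, 0 ≤ w' k) (hΨ : ∀ k k', 0 ≤ Ψ k k')
    (hlow : ∀ i z z', z ∣ M1 → z' ∣ M1 → lowK M0 Φ i z z' ≠ 0 →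
      lev i z ∈ Lv ∧ lev' i z' ∈ Lv' ∧
        lowK M0 Φ i z z' ≤ A i * (Ψ (lev i z) (lev' i z') * √(w (lev i z) * w' (lev' i z'))) *
          W i z z') :
    frm (M0 * M1) Φ ≤ E * ∑ i ∈ range (Nat.log 2 M0 + 1), ∑ k ∈ Lv, ∑ k' ∈ Lv',
      Ψ k k' * √(mm M1 lev A w i k * mm M1 lev' A w' i k') := by
  classical
  have key : ∀ i, frm M1 (fun z z' => lowK M0 Φ i z z') ≤
      E * ∑ k ∈ Lv, ∑ k' ∈ Lv', Ψ k k' * √(mm M1 lev A w i k * mm M1 lev' A w' i k') := by
    intro i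
    set D := M1.divisors with hD
    set c : κ → κ' → ℝ := fun k k' => A i * (Ψ k k' * √(w k * w' k')) with hc
    have hc0 : ∀ k k', 0 ≤ c k k' := fun k k' =>
      mul_nonneg (hA i) (mul_nonneg (hΨ k k') (Real.sqrt_nonneg _))
    set e : ℕ → ℕ → ℝ := fun z z' => W i z z' * ((Nat.gcd z z' : ℝ) * nu M1 z * nu M1 z') with he
    have he0 : ∀ z z', 0 ≤ e z z' := fun z z' => mul_nonneg (hW0 i z z') (term_nonneg M1 z z')
    -- pointwise bound
    have h1 : ∀ z ∈ D, ∀ z' ∈ D,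
        ((Nat.gcd z z' : ℝ) * nu M1 z * nu M1 z') * lowK M0 Φ i z z' ≤
        ∑ k ∈ Lv, ∑ k' ∈ Lv', (if lev i z = k ∧ lev' i z' = k' then c k k' * e z z' else 0) := by
      intro z hz z' hz'
      have hnn : ∀ k ∈ Lv, ∀ k' ∈ Lv', 0 ≤ (if lev i z = k ∧ lev' i z' = k' then
          c k k' * e z z' else 0) := by
        intro k _ k' _
        split_ifs
        · exact mul_nonneg (hc0 k k') (he0 z z')
        · exact le_rfl
      by_cases h0 : lowK M0 Φ i z z' = 0
      · rw [h0, mul_zero]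
        exact Finset.sum_nonneg fun k hk => Finset.sum_nonneg fun k' hk' => hnn k hk k' hk'
      · obtain ⟨hk, hk', hle⟩ := hlow i z z' (Nat.mem_divisors.1 hz).1
          (Nat.mem_divisors.1 hz').1 h0
        calc ((Nat.gcd z z' : ℝ) * nu M1 z * nu M1 z') * lowK M0 Φ i z z'
            ≤ ((Nat.gcd z z' : ℝ) * nu M1 z * nu M1 z') *
                (c (lev i z) (lev' i z') * W i z z') :=
              mul_le_mul_of_nonneg_left hle (term_nonneg M1 z z')
          _ = (if lev i z = lev i z ∧ lev' i z' = lev' i z' then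
                c (lev i z) (lev' i z') * e z z' else 0) := by
              rw [if_pos ⟨rfl, rfl⟩]
              simp only [he]
              ring
          _ ≤ ∑ k' ∈ Lv', (if lev i z = lev i z ∧ lev' i z' = k' then
                c (lev i z) k' * e z z' else 0) :=
              Finset.single_le_sum (f := fun k' => (if lev i z = lev i z ∧ lev' i z' = k'
                then c (lev i z) k' * e z z' else 0)) (fun k' hk'' => hnn _ hk k' hk'') hk'
          _ ≤ _ := Finset.single_le_sum (f := fun k => ∑ k' ∈ Lv', (if lev i z = k ∧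
                lev' i z' = k' then c k k' * e z z' else 0))
                (fun k hk'' => Finset.sum_nonneg fun k' hk3 => hnn k hk'' k' hk3) hk
    have h2 : frm M1 (fun z z' => lowK M0 Φ i z z') ≤
        ∑ k ∈ Lv, ∑ k' ∈ Lv', c k k' * ∑ z ∈ D with lev i z = k, ∑ z' ∈ D with lev' i z' = k',
          e z z' := by
      calc frm M1 (fun z z' => lowK M0 Φ i z z')
          = ∑ z ∈ D, ∑ z' ∈ D, ((Nat.gcd z z' : ℝ) * nu M1 z * nu M1 z') *
              lowK M0 Φ i z z' := rfl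
        _ ≤ ∑ z ∈ D, ∑ z' ∈ D, ∑ k ∈ Lv, ∑ k' ∈ Lv',
            (if lev i z = k ∧ lev' i z' = k' then c k k' * e z z' else 0) :=
            Finset.sum_le_sum fun z hz => Finset.sum_le_sum fun z' hz' => h1 z hz z' hz'
        _ = ∑ k ∈ Lv, ∑ k' ∈ Lv', ∑ z ∈ D, ∑ z' ∈ D,
            (if lev i z = k ∧ lev' i z' = k' then c k k' * e z z' else 0) := by
            have s1 : ∀ z ∈ D, ∑ z' ∈ D, ∑ k ∈ Lv, ∑ k' ∈ Lv',
                (if lev i z = k ∧ lev' i z' = k' then c k k' * e z z' else 0) =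
                ∑ k ∈ Lv, ∑ k' ∈ Lv', ∑ z' ∈ D,
                (if lev i z = k ∧ lev' i z' = k' then c k k' * e z z' else 0) := by
              intro z _
              rw [Finset.sum_comm]
              exact Finset.sum_congr rfl fun k _ => Finset.sum_comm
            rw [Finset.sum_congr rfl s1, Finset.sum_comm]
            exact Finset.sum_congr rfl fun k _ => Finset.sum_comm
        _ = _ := by
            refine Finset.sum_congr rfl fun k _ => Finset.sum_congr rfl fun k' _ => ?_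
            rw [Finset.mul_sum, Finset.sum_filter]
            refine Finset.sum_congr rfl fun z _ => ?_
            rw [Finset.mul_sum, Finset.sum_filter]
            by_cases hk : lev i z = k
            · rw [if_pos hk]
              refine Finset.sum_congr rfl fun z' _ => ?_
              by_cases hk' : lev' i z' = k' <;> simp [hk, hk']
            · rw [if_neg hk]
              refine Finset.sum_eq_zero fun z' _ => ?_
              rw [if_neg (fun h => hk h.1)]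
    refine h2.trans ?_
    rw [Finset.mul_sum]
    refine Finset.sum_le_sum fun k _ => ?_
    rw [Finset.mul_sum]
    refine Finset.sum_le_sum fun k' _ => ?_
    have h3 := hWE i (D.filter (fun z => lev i z = k)) (D.filter (fun z => lev' i z = k'))
      (Finset.filter_subset _ _) (Finset.filter_subset _ _)
    set a := ∑ z ∈ D with lev i z = k, nu M1 z with ha
    set a' := ∑ z ∈ D with lev' i z = k', nu M1 z with ha'
    have ha0 : 0 ≤ a := sum_nu_nonneg _ _
    have ha0' : 0 ≤ a' := sum_nu_nonneg _ _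
    have h4 : √(mm M1 lev A w i k * mm M1 lev' A w' i k') = A i * (√(w k * w' k') * √(a * a')) := by
      have e1 : mm M1 lev A w i k * mm M1 lev' A w' i k' =
          A i ^ 2 * ((w k * w' k') * (a * a')) := by
        unfold mm
        rw [← ha, ← ha']
        ring
      rw [e1, Real.sqrt_mul (sq_nonneg _), Real.sqrt_sq (hA i), Real.sqrt_mul
        (mul_nonneg (hw k) (hw' k'))]
    rw [h4]
    calc c k k' * ∑ z ∈ D with lev i z = k, ∑ z' ∈ D with lev' i z' = k', e z z'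
        ≤ c k k' * (E * √(a * a')) := mul_le_mul_of_nonneg_left h3 (hc0 k k')
      _ = _ := by
        simp only [hc]
        ring
  calc frm (M0 * M1) Φ
      = frm M1 (fun z z' => ∑ i ∈ range (Nat.log 2 M0 + 1), lowK M0 Φ i z z') := by
        rw [frm_mul hco]
        exact frm_congr fun z z' _ _ => frm_dy hM0 Φ z z'
    _ = ∑ i ∈ range (Nat.log 2 M0 + 1), frm M1 (fun z z' => lowK M0 Φ i z z') := frm_sum _ _
    _ ≤ ∑ i ∈ range (Nat.log 2 M0 + 1), E * ∑ k ∈ Lv, ∑ k' ∈ Lv',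
          Ψ k k' * √(mm M1 lev A w i k * mm M1 lev' A w' i k') :=
        Finset.sum_le_sum fun i _ => key i
    _ = _ := by rw [Finset.mul_sum]

end levels

/-! ### the levels `2^i V z ~ 2^k` -/

/-- level of `z` at the low scale `2^i` (`none` if the mass is zero) -/
noncomputable def lv (V : ℕ → ℝ) (i z : ℕ) : Option ℤ :=
  if 0 < V z then some (Int.log 2 ((2 : ℝ) ^ i * V z)) else none

/-- weight of a level -/
noncomputable def wt : Option ℤ → ℝ
  | none => 0
  | some k => (2 : ℝ) ^ (k : ℝ)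

lemma wt_nonneg (k : Option ℤ) : 0 ≤ wt k := by
  cases k with
  | none => exact le_rfl
  | some k => exact (Real.rpow_pos_of_pos (by norm_num) _).le

lemma lv_eq_some {V : ℕ → ℝ} {i z : ℕ} {k : ℤ} (h : lv V i z = some k) :
    0 < V z ∧ Int.log 2 ((2 : ℝ) ^ i * V z) = k := by
  unfold lv at h
  split_ifs at h with h0
  exact ⟨h0, by simpa using h⟩

lemma lv_low {V : ℕ → ℝ} {i z : ℕ} (h0 : 0 < V z) :
    (2 : ℝ) ^ ((Int.log 2 ((2 : ℝ) ^ i * V z) : ℤ) : ℝ) ≤ (2 : ℝ) ^ i * V z := by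
  have := Int.zpow_log_le_self (b := 2) (r := (2 : ℝ) ^ i * V z) (by norm_num) (by positivity)
  rw [Real.rpow_intCast]
  exact_mod_cast this

lemma lv_up {V : ℕ → ℝ} {i z : ℕ} :
    (2 : ℝ) ^ i * V z ≤ (2 : ℝ) ^ (((Int.log 2 ((2 : ℝ) ^ i * V z) : ℤ) : ℝ) + 1) := by
  have := Int.lt_zpow_succ_log_self (b := 2) (by norm_num) ((2 : ℝ) ^ i * V z)
  have e : ((Int.log 2 ((2 : ℝ) ^ i * V z) : ℤ) : ℝ) + 1 =
      ((Int.log 2 ((2 : ℝ) ^ i * V z) + 1 : ℤ) : ℝ) := by push_cast; ring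
  rw [e, Real.rpow_intCast]
  exact_mod_cast this.le

/-- the levels shift with `i` -/
lemma lv_shift {V : ℕ → ℝ} {i z : ℕ} (h0 : 0 < V z) :
    Int.log 2 ((2 : ℝ) ^ i * V z) = i + Int.log 2 (V z) := by
  have h1 := Int.zpow_log_le_self (b := 2) (r := V z) (by norm_num) h0
  have h2 := Int.lt_zpow_succ_log_self (b := 2) (by norm_num) (V z)
  have hp : (0 : ℝ) < (2 : ℝ) ^ i * V z := by positivity
  have a1 : (i : ℤ) + Int.log 2 (V z) ≤ Int.log 2 ((2 : ℝ) ^ i * V z) := by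
    rw [← Int.zpow_le_iff_le_log (by norm_num) hp]
    push_cast
    rw [zpow_add₀ (by norm_num), zpow_natCast]
    have h1' : (2 : ℝ) ^ Int.log 2 (V z) ≤ V z := by exact_mod_cast h1
    exact mul_le_mul_of_nonneg_left h1' (by positivity)
  have a2 : Int.log 2 ((2 : ℝ) ^ i * V z) < (i : ℤ) + Int.log 2 (V z) + 1 := by
    rw [← Int.lt_zpow_iff_log_lt (by norm_num) hp]
    push_cast
    rw [add_assoc, zpow_add₀ (by norm_num), zpow_natCast]
    have h2' : V z < (2 : ℝ) ^ (Int.log 2 (V z) + 1) := by exact_mod_cast h2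
    exact mul_lt_mul_of_pos_left h2' (by positivity)
  omega

/-- masses of one level, all low scales together -/
lemma sum_mm_le {M1 : ℕ} {V : ℕ → ℝ} (hV : ∀ z, 0 ≤ V z) (n : ℕ) (k : Option ℤ) :
    ∑ i ∈ range n, mm M1 (lv V) (fun i => ((2 : ℝ) ^ i)⁻¹) wt i k ≤
      ∑ z ∈ M1.divisors, nu M1 z * V z := by
  classical
  have hpos : 0 ≤ ∑ z ∈ M1.divisors, nu M1 z * V z :=
    Finset.sum_nonneg fun z _ => mul_nonneg (nu_nonneg _ _) (hV z)
  cases k with
  | none =>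
    refine le_trans (le_of_eq ?_) hpos
    refine Finset.sum_eq_zero fun i _ => ?_
    unfold mm wt
    ring
  | some k =>
    have h1 : ∀ i ∈ range n, mm M1 (lv V) (fun i => ((2 : ℝ) ^ i)⁻¹) wt i (some k) ≤
        ∑ z ∈ M1.divisors, (if lv V i z = some k then nu M1 z * V z else 0) := by
      intro i _
      unfold mm
      rw [Finset.mul_sum, Finset.sum_filter]
      refine Finset.sum_le_sum fun z _ => ?_
      by_cases hz : lv V i z = some k
      · rw [if_pos hz, if_pos hz]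
        obtain ⟨h0, h2⟩ := lv_eq_some hz
        have h3 := lv_low (V := V) (i := i) (z := z) h0
        rw [h2] at h3
        have hi : (0 : ℝ) < (2 : ℝ) ^ i := by positivity
        have h4 : ((2 : ℝ) ^ i)⁻¹ * wt (some k) ≤ V z := by
          show ((2 : ℝ) ^ i)⁻¹ * (2 : ℝ) ^ (k : ℝ) ≤ V z
          rw [inv_mul_le_iff₀ hi]
          exact h3
        calc ((2 : ℝ) ^ i)⁻¹ * wt (some k) * nu M1 z ≤ V z * nu M1 z :=
              mul_le_mul_of_nonneg_right h4 (nu_nonneg _ _)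
          _ = _ := by ring
      · rw [if_neg hz, if_neg hz]
    refine (Finset.sum_le_sum h1).trans ?_
    rw [Finset.sum_comm]
    refine Finset.sum_le_sum fun z _ => ?_
    -- at most one `i`
    rw [← Finset.sum_filter]
    have h2 : ((range n).filter (fun i => lv V i z = some k)).card ≤ 1 := by
      rw [Finset.card_le_one]
      intro i hi j hj
      rw [Finset.mem_filter] at hi hj
      obtain ⟨h0, hi2⟩ := lv_eq_some hi.2
      obtain ⟨_, hj2⟩ := lv_eq_some hj.2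
      rw [lv_shift h0] at hi2 hj2
      omega
    rw [Finset.sum_const, nsmul_eq_mul]
    have h3 : 0 ≤ nu M1 z * V z := mul_nonneg (nu_nonneg _ _) (hV z)
    calc (((range n).filter (fun i => lv V i z = some k)).card : ℝ) * (nu M1 z * V z)
        ≤ 1 * (nu M1 z * V z) := mul_le_mul_of_nonneg_right (by exact_mod_cast h2) h3
      _ = _ := one_mul _

/-- kernel between levels -/
noncomputable def Psi (η T : ℝ) (a : ℕ) : Option ℤ → Option ℤ → ℝ
  | some i, some j => Phi η T a i j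
  | _, _ => 0

lemma Psi_nonneg {η T : ℝ} (hT : 0 ≤ T) (a : ℕ) (k k' : Option ℤ) : 0 ≤ Psi η T a k k' := by
  cases k with
  | none => cases k' <;> exact le_rfl
  | some i =>
    cases k' with
    | none => exact le_rfl
    | some j => exact Phi_nonneg hT a i j

/-- **MX WITH ONE LIGHT MEMBER**, one class `a` of the dyadic size of `u / gcd (u, u')`.
`k i z z'` = low kernel without the high weights `W i z z'` (boost, relation between `z, z'`). -/
theorem mx1 {M0 M1 : ℕ} (hco : Nat.Coprime M0 M1) (hM0 : 0 < M0) (hM1 : 0 < M1)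
    {Φ : ℕ → ℕ → ℝ}
    {V V' : ℕ → ℝ} (hV : ∀ z, 0 ≤ V z) (hV' : ∀ z, 0 ≤ V' z)
    {η T Θ E : ℝ} (hη : 0 < η) (hη1 : η ≤ 1) (hT : 0 ≤ T) (hΘ : 0 < Θ) (hE : 0 ≤ E) (a : ℕ)
    {W : ℕ → ℕ → ℕ → ℝ} (hW0 : ∀ i z z', 0 ≤ W i z z') (hWE : ∀ i, SetW M1 (W i) E)
    {k : ℕ → ℕ → ℕ → ℝ}
    (hfac : ∀ i z z', z ∣ M1 → z' ∣ M1 → lowK M0 Φ i z z' ≤ k i z z' * W i z z')
    (hΦ : ∀ b c, 0 ≤ Φ b c)
    (hrow : ∀ i z z', z ∣ M1 → z' ∣ M1 → k i z z' ≤ 2 ^ a * V z)
    (hlow : ∀ i z z', z ∣ M1 → z' ∣ M1 →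
      k i z z' ≤ T * ((2 : ℝ) ^ i) ^ η * (V z * V' z') ^ ((1 + η) / 2))
    (hlight : ∀ i z z', z ∣ M1 → z' ∣ M1 → k i z z' ≠ 0 → (2 : ℝ) ^ i * V z * 2 ^ a ≤ Θ) :
    frm (M0 * M1) Φ ≤ E * (CPhi η * (T ^ (1 / (1 + η)) * Θ ^ (η / (1 + η)))) *
      √((∑ z ∈ M1.divisors, nu M1 z * V z) * ∑ z ∈ M1.divisors, nu M1 z * V' z) := by
  classical
  set n := Nat.log 2 M0 + 1 with hn
  -- the finite sets of levels
  set S0 : Finset ℤ := ((range n) ×ˢ M1.divisors).image
    (fun p => Int.log 2 ((2 : ℝ) ^ p.1 * V p.2)) with hS0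
  set S : Finset ℤ := S0.filter (fun i => (2 : ℝ) ^ (i : ℝ) * 2 ^ a ≤ Θ) with hS
  set S' : Finset ℤ := ((range n) ×ˢ M1.divisors).image
    (fun p => Int.log 2 ((2 : ℝ) ^ p.1 * V' p.2)) with hS'
  set Lv : Finset (Option ℤ) := S.map Function.Embedding.some with hLv
  set Lv' : Finset (Option ℤ) := S'.map Function.Embedding.some with hLv'
  have h1 := asm_levelsW (M0 := M0) (M1 := M1) (Φ := fun b c => Φ b c) (W := W) (E := E)
    (lev := lv V) (lev' := lv V') (Lv := Lv) (Lv' := Lv') (A := fun i => ((2 : ℝ) ^ i)⁻¹)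
    (w := wt) (w' := wt) (Ψ := Psi η T a) hco hM0 hW0 hWE
    (fun i => by positivity) wt_nonneg wt_nonneg (Psi_nonneg hT a)
    (by
      intro i z z' hz hz' h0
      -- `i < n`
      have hin : i ∈ range n := by
        by_contra hc
        refine h0 ?_
        unfold lowK
        have e : frm M0 (fun u u' => if Nat.log 2 (Nat.gcd u u') = i then
            Φ (u * z) (u' * z') else 0) = frm M0 (fun _ _ => 0) := by
          refine frm_congr fun u u' hu hu' => ?_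
          rw [if_neg]
          intro hi
          refine hc ?_
          rw [Finset.mem_range, hn, ← hi]
          exact Nat.lt_succ_of_le (Nat.log_mono_right (Nat.le_of_dvd hM0
            ((Nat.gcd_dvd_left u u').trans hu)))
        rw [e]
        unfold frm
        simp
      have hlow0 : 0 ≤ lowK M0 Φ i z z' := lowK_nonneg hΦ i z z'
      have hkW := hfac i z z' hz hz'
      have hkW0 : 0 < k i z z' * W i z z' :=
        lt_of_lt_of_le (lt_of_le_of_ne hlow0 (Ne.symm h0)) hkW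
      have hWp : 0 < W i z z' := by
        rcases (hW0 i z z').eq_or_lt with h | h
        · rw [← h, mul_zero] at hkW0
          exact absurd hkW0 (lt_irrefl _)
        · exact h
      have hkp : 0 < k i z z' := by
        by_contra hc
        exact absurd hkW0 (not_lt.2 (mul_nonpos_of_nonpos_of_nonneg (not_lt.1 hc) hWp.le))
      have hrowi := hrow i z z' hz hz'
      have hlowi := hlow i z z' hz hz'
      have hVp : 0 < V z := by
        rcases (hV z).eq_or_lt with h | h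
        · rw [← h, mul_zero] at hrowi
          exact absurd hkp (not_lt.2 hrowi)
        · exact h
      have hVp' : 0 < V' z' := by
        rcases (hV' z').eq_or_lt with h | h
        · rw [← h, mul_zero, Real.zero_rpow (by positivity), mul_zero] at hlowi
          exact absurd hkp (not_lt.2 hlowi)
        · exact h
      have hl : lv V i z = some (Int.log 2 ((2 : ℝ) ^ i * V z)) := if_pos hVp
      have hl' : lv V' i z' = some (Int.log 2 ((2 : ℝ) ^ i * V' z')) := if_pos hVp'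
      refine ⟨?_, ?_, ?_⟩
      · rw [hl, hLv, Finset.mem_map]
        refine ⟨_, ?_, rfl⟩
        rw [hS, Finset.mem_filter]
        refine ⟨?_, ?_⟩
        · rw [hS0, Finset.mem_image]
          exact ⟨(i, z), Finset.mem_product.2 ⟨hin, Nat.mem_divisors.2 ⟨hz, hM1.ne'⟩⟩, rfl⟩
        · have h5 := hlight i z z' hz hz' hkp.ne'
          exact (mul_le_mul_of_nonneg_right (lv_low hVp) (by positivity)).trans h5
      · rw [hl', hLv', Finset.mem_map]
        refine ⟨_, ?_, rfl⟩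
        rw [hS', Finset.mem_image]
        exact ⟨(i, z'), Finset.mem_product.2 ⟨hin, Nat.mem_divisors.2 ⟨hz', hM1.ne'⟩⟩, rfl⟩
      · refine hkW.trans (mul_le_mul_of_nonneg_right ?_ hWp.le)
        rw [hl, hl']
        have h6 := kernel_Phi (η := η) (T := T) (G := (2 : ℝ) ^ i) (D := V z) (D' := V' z')
          (E := k i z z') hη.le hη1 hT (by positivity) a _ _ (lv_low hVp) lv_up (lv_low hVp')
          lv_up hrowi hlowi
        refine h6.trans (le_of_eq ?_)
        show _ = ((2 : ℝ) ^ i)⁻¹ * (Phi η T a _ _ * √((2 : ℝ) ^ _ * (2 : ℝ) ^ _))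
        rw [Real.sqrt_eq_rpow]
        ring)
  set Q := ∑ z ∈ M1.divisors, nu M1 z * V z with hQ
  set Q' := ∑ z ∈ M1.divisors, nu M1 z * V' z with hQ'
  have h2 := schur_b (range n) Lv Lv' (Ψ := Psi η T a) (Psi_nonneg hT a)
    (m := fun i k => mm M1 (lv V) (fun i => ((2 : ℝ) ^ i)⁻¹) wt i k)
    (m' := fun i k => mm M1 (lv V') (fun i => ((2 : ℝ) ^ i)⁻¹) wt i k)
    (fun i k => mm_nonneg (fun i => by positivity) wt_nonneg i k)
    (fun i k => mm_nonneg (fun i => by positivity) wt_nonneg i k)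
    (Q := Q) (Q' := Q') (fun k _ => sum_mm_le hV n k) (fun k _ => sum_mm_le hV' n k)
  have h3 : ∑ k ∈ Lv, ∑ k' ∈ Lv', Psi η T a k k' ≤
      CPhi η * (T ^ (1 / (1 + η)) * Θ ^ (η / (1 + η))) := by
    rw [hLv, hLv', Finset.sum_map]
    simp only [Finset.sum_map]
    exact sum_Phi hη hT hΘ a S S' fun i hi => (Finset.mem_filter.1 hi).2
  calc frm (M0 * M1) Φ ≤ _ := h1
    _ ≤ E * ((∑ k ∈ Lv, ∑ k' ∈ Lv', Psi η T a k k') * √(Q * Q')) :=
        mul_le_mul_of_nonneg_left h2 hE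
    _ ≤ E * ((CPhi η * (T ^ (1 / (1 + η)) * Θ ^ (η / (1 + η)))) * √(Q * Q')) :=
        mul_le_mul_of_nonneg_left (mul_le_mul_of_nonneg_right h3 (Real.sqrt_nonneg _)) hE
    _ = _ := by ring

/-- the class `a` of a pair kernel -/
noncomputable def cl (M0 : ℕ) (a : ℕ) (Φ : ℕ → ℕ → ℝ) (b c : ℕ) : ℝ :=
  if Nat.log 2 (Nat.gcd b M0 / Nat.gcd (Nat.gcd b M0) (Nat.gcd c M0)) = a then Φ b c else 0

lemma cl_nonneg {M0 a : ℕ} {Φ : ℕ → ℕ → ℝ} (hΦ : ∀ b c, 0 ≤ Φ b c) (b c : ℕ) :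
    0 ≤ cl M0 a Φ b c := by
  unfold cl
  split_ifs
  · exact hΦ b c
  · exact le_rfl

/-- all classes: `frm Φ = ∑_{a ≤ log₂ M0} frm (cl a Φ)` -/
lemma frm_cl {M0 M : ℕ} (hM0 : 0 < M0) (Φ : ℕ → ℕ → ℝ) :
    frm M Φ = ∑ a ∈ range (Nat.log 2 M0 + 1), frm M (cl M0 a Φ) := by
  rw [← Asmx946.frm_sum]
  refine Asmx946.frm_congr fun b c _ _ => ?_
  unfold cl
  rw [Finset.sum_ite_eq]
  rw [if_pos]
  rw [Finset.mem_range]
  refine Nat.lt_succ_of_le (Nat.log_mono_right ?_)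
  exact (Nat.div_le_self _ _).trans (Nat.le_of_dvd hM0 (Nat.gcd_dvd_right b M0))

/-- the class kernel at a cut: `u = gcd b M0` -/
lemma cl_mul {M0 M1 a u u' z z' : ℕ} {Φ : ℕ → ℕ → ℝ} (hco : Nat.Coprime M0 M1)
    (hu : u ∣ M0) (hu' : u' ∣ M0) (hz : z ∣ M1) (hz' : z' ∣ M1) :
    cl M0 a Φ (u * z) (u' * z') =
      if Nat.log 2 (u / Nat.gcd u u') = a then Φ (u * z) (u' * z') else 0 := by
  have e : ∀ v y, v ∣ M0 → y ∣ M1 → Nat.gcd (v * y) M0 = v := by
    intro v y hv hy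
    have h1 : Nat.Coprime y M0 := Nat.Coprime.coprime_dvd_left hy hco.symm
    rw [Nat.Coprime.gcd_mul_right_cancel v h1]
    exact Nat.gcd_eq_left hv
  unfold cl
  rw [e u z hu hz, e u' z' hu' hz']

/-- **MX with one light member, all classes**.  `T a` = relation/Rankin gain of the class `a`. -/
theorem mx1_all {M0 M1 : ℕ} (hco : Nat.Coprime M0 M1) (hM0 : 0 < M0) (hM1 : 0 < M1)
    {Φ : ℕ → ℕ → ℝ} {V V' : ℕ → ℝ} (hV : ∀ z, 0 ≤ V z) (hV' : ∀ z, 0 ≤ V' z)
    {η Θ E : ℝ} {T : ℕ → ℝ} (hη : 0 < η) (hη1 : η ≤ 1) (hT : ∀ a, 0 ≤ T a) (hΘ : 0 < Θ)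
    (hE : 0 ≤ E)
    {W : ℕ → ℕ → ℕ → ℝ} (hW0 : ∀ i z z', 0 ≤ W i z z') (hWE : ∀ i, SetW M1 (W i) E)
    {k : ℕ → ℕ → ℕ → ℕ → ℝ}
    (hfac : ∀ a i z z', z ∣ M1 → z' ∣ M1 →
      lowK M0 (cl M0 a Φ) i z z' ≤ k a i z z' * W i z z')
    (hΦ : ∀ b c, 0 ≤ Φ b c)
    (hrow : ∀ a i z z', z ∣ M1 → z' ∣ M1 → k a i z z' ≤ 2 ^ a * V z)
    (hlow : ∀ a i z z', z ∣ M1 → z' ∣ M1 →
      k a i z z' ≤ T a * ((2 : ℝ) ^ i) ^ η * (V z * V' z') ^ ((1 + η) / 2))
    (hlight : ∀ a i z z', z ∣ M1 → z' ∣ M1 → k a i z z' ≠ 0 →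
      (2 : ℝ) ^ i * V z * 2 ^ a ≤ Θ) :
    frm (M0 * M1) Φ ≤ E * (CPhi η * Θ ^ (η / (1 + η)) *
        ∑ a ∈ range (Nat.log 2 M0 + 1), (T a) ^ (1 / (1 + η))) *
      √((∑ z ∈ M1.divisors, nu M1 z * V z) * ∑ z ∈ M1.divisors, nu M1 z * V' z) := by
  rw [frm_cl hM0]
  set q := √((∑ z ∈ M1.divisors, nu M1 z * V z) * ∑ z ∈ M1.divisors, nu M1 z * V' z) with hq
  have h1 : ∀ a ∈ range (Nat.log 2 M0 + 1), frm (M0 * M1) (cl M0 a Φ) ≤
      E * (CPhi η * ((T a) ^ (1 / (1 + η)) * Θ ^ (η / (1 + η)))) * q := fun a _ =>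
    mx1 hco hM0 hM1 hV hV' hη hη1 (hT a) hΘ hE a hW0 hWE (k := k a) (hfac a)
      (cl_nonneg hΦ) (hrow a) (hlow a) (hlight a)
  refine (Finset.sum_le_sum h1).trans (le_of_eq ?_)
  rw [← Finset.sum_mul, ← Finset.mul_sum]
  congr 2
  rw [Finset.mul_sum]
  refine Finset.sum_congr rfl fun a _ => ?_
  ring

/-- the row bound for the class kernel: `hrow` of `mx1` -/
theorem row_cl {M0 M1 : ℕ} (hM0 : 0 < M0) (hco : Nat.Coprime M0 M1) {Φ : ℕ → ℕ → ℝ}
    (hΦ : ∀ b c, 0 ≤ Φ b c) {f : ℕ → ℝ} (hf : ∀ b, 0 ≤ f b) (a i : ℕ) {z z' : ℕ}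
    (hz : z ∣ M1) (hz' : z' ∣ M1)
    (hle : ∀ u u', u ∣ M0 → u' ∣ M0 → Φ (u * z) (u' * z') ≤ f (u * z)) :
    lowK M0 (cl M0 a Φ) i z z' ≤ 2 ^ a * ∑ u ∈ M0.divisors, nu M0 u * f (u * z) := by
  refine le_trans ?_ (row_bound hM0 (f := fun u => f (u * z)) (fun u => hf _) a
    (F := fun u u' => Φ (u * z) (u' * z')) (fun u c hu hc => hle u c hu hc))
  unfold lowK
  refine Asmx946.frm_le fun u u' hu hu' => ?_
  rw [cl_mul hco hu hu' hz hz']
  by_cases h1 : Nat.log 2 (Nat.gcd u u') = i <;> by_cases h2 : Nat.log 2 (u / Nat.gcd u u') = a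
  · simp [h1, h2]
  · simp [h1, h2]
  · simp only [h1, h2, if_true, if_false]
    exact hΦ _ _
  · simp [h1, h2]

/-- the light condition: `hlight` of `mx1` from `u V z ≤ Θ` for the words that occur -/
theorem light_cl {M0 M1 : ℕ} (hM0 : 0 < M0) (hco : Nat.Coprime M0 M1) {Φ : ℕ → ℕ → ℝ}
    {V : ℕ → ℝ} (hV : ∀ z, 0 ≤ V z) {Θ : ℝ} (a i : ℕ) {z z' : ℕ} (hz : z ∣ M1) (hz' : z' ∣ M1)
    (hle : ∀ u u', u ∣ M0 → u' ∣ M0 → Φ (u * z) (u' * z') ≠ 0 → (u : ℝ) * V z ≤ Θ)
    (h0 : lowK M0 (cl M0 a Φ) i z z' ≠ 0) : (2 : ℝ) ^ i * V z * 2 ^ a ≤ Θ := by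
  by_contra hc
  refine h0 ?_
  unfold lowK
  have e : frm M0 (fun u u' => if Nat.log 2 (Nat.gcd u u') = i then
      cl M0 a Φ (u * z) (u' * z') else 0) = frm M0 (fun _ _ => 0) := by
    refine Asmx946.frm_congr fun u u' hu hu' => ?_
    split_ifs with h1
    · rw [cl_mul hco hu hu' hz hz']
      split_ifs with h2
      · by_contra h3
        refine hc ?_
        have h4 := hle u u' hu hu' h3
        have hu0 : 0 < u := Nat.pos_of_dvd_of_pos hu hM0
        have hg0 : Nat.gcd u u' ≠ 0 := (Nat.gcd_pos_of_pos_left _ hu0).ne'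
        have hd0 : u / Nat.gcd u u' ≠ 0 :=
          (Nat.div_pos (Nat.le_of_dvd hu0 (Nat.gcd_dvd_left u u'))
            (Nat.pos_of_ne_zero hg0)).ne'
        have h5 : 2 ^ i * 2 ^ a ≤ u := by
          have h6 : 2 ^ i ≤ Nat.gcd u u' := by
            rw [← h1]
            exact Nat.pow_log_le_self 2 hg0
          have h7 : 2 ^ a ≤ u / Nat.gcd u u' := by
            rw [← h2]
            exact Nat.pow_log_le_self 2 hd0
          calc 2 ^ i * 2 ^ a ≤ Nat.gcd u u' * (u / Nat.gcd u u') := Nat.mul_le_mul h6 h7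
            _ = u := Nat.mul_div_cancel' (Nat.gcd_dvd_left u u')
        have h8 : (2 : ℝ) ^ i * 2 ^ a ≤ (u : ℝ) := by exact_mod_cast h5
        calc (2 : ℝ) ^ i * V z * 2 ^ a = ((2 : ℝ) ^ i * 2 ^ a) * V z := by ring
          _ ≤ (u : ℝ) * V z := mul_le_mul_of_nonneg_right h8 (hV z)
          _ ≤ Θ := h4
      · rfl
    · rfl
  rw [e]
  unfold frm
  simp

end Crest.Agent.R4C.LowLx899
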