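import Crest.Agent.R4C.LowTauB_808
import Crest.Agent.R4C.LowL_899

/-!
# Row 4, BLOCK S5 v1 (6.2): kernel of class (L) (helper808)

* `KT ξ ξ' t E K P` : labelled words `(u,v)` of depth `≥ K`, which are not short or have
  `P ≤ u v` (the twisted relation of (6.1); targets `ξ = upp y s γ`, `ξ' = upp y s' γ`).
* `dens_KT` : natural density `≤ C (1 + 2 log y log K)² K^(-1/3) + 1/P`;
  `RT_anti` : the relation at `t₁ ∈ [t, c t]` implies the relation at `t` with depth `K/c`.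
* `low_class` : fixed high words `z, z'`, class `(i, a)` (`log₂ gcd = i`, `log₂ (u/gcd) = a`):
  `≤ C (log y)^B min(τ, e^14 2^(-a/log y))^(1/r) (2^i)^κ (V_z V'_z')^((1+κ)/2)` = `hlow` of `mx1`.
* `sum_Ta` : the sum over the classes `a` (Rankin beyond), any exponent `< 1/(r(1+κ))` of `τ`.
-/

set_option autoImplicit false

open Finset

namespace Crest.Agent.R4C.LPhix808

open Basex935 Cutx50 MXlowx808 MXlowBx808 RelTailx808 RelRarex808 LowTaux808 LowTauBx808 S2x232
open Asmx946 (lowK)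

/-! ### the twisted relation -/

open Classical in
/-- labelled, depth `≥ K`, not short or `P ≤ u v` -/
noncomputable def KT (ξ ξ' t E K P : ℝ) (u v : ℕ) : ℝ :=
  if NN ξ ξ' t u v ∧ ∃ (a : ℤ) (k : ℕ) (a' : ℤ) (k' : ℕ), S2bx284.Labd ξ ξ' t E a k a' k' u v ∧
      (¬ S2bx284.IsShort k k' t (ξ - a / k) (ξ' - a' / k') u v ∨ P ≤ (u : ℝ) * v) ∧
      K ≤ S2bx284.dep k k' t (ξ - a / k) (ξ' - a' / k') u v then 1 else 0

lemma KT_nonneg (ξ ξ' t E K P : ℝ) (u v : ℕ) : 0 ≤ KT ξ ξ' t E K P u v := by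
  unfold KT; split_ifs <;> norm_num

lemma KT_le_one (ξ ξ' t E K P : ℝ) (u v : ℕ) : KT ξ ξ' t E K P u v ≤ 1 := by
  unfold KT; split_ifs <;> norm_num

/-- the relation as a predicate -/
def RT (ξ ξ' t E K P : ℝ) (u v : ℕ) : Prop :=
  NN ξ ξ' t u v ∧ ∃ (a : ℤ) (k : ℕ) (a' : ℤ) (k' : ℕ), S2bx284.Labd ξ ξ' t E a k a' k' u v ∧
      (¬ S2bx284.IsShort k k' t (ξ - a / k) (ξ' - a' / k') u v ∨ P ≤ (u : ℝ) * v) ∧
      K ≤ S2bx284.dep k k' t (ξ - a / k) (ξ' - a' / k') u v

lemma KT_of {ξ ξ' t E K P : ℝ} {u v : ℕ} (h : RT ξ ξ' t E K P u v) : KT ξ ξ' t E K P u v = 1 := by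
  unfold KT; exact if_pos h

/-- the pair's own scale `t₁ ∈ [t, c t]` against the scale `t` of the kernel -/
lemma RT_anti {ξ ξ' t t₁ c E K P : ℝ} (ht : 0 < t) (h1 : t ≤ t₁) (h2 : t₁ ≤ c * t) (hE : 0 ≤ E)
    (hK : 64 ≤ K) (hP : P ^ 3 ≤ K)
    {u v : ℕ} (h : RT ξ ξ' t₁ E K P u v) : RT ξ ξ' t E (K / c) P u v := by
  obtain ⟨hN, a, k, a', k', hL, hsh, hd⟩ := h
  have hu : (1 : ℝ) ≤ u := by exact_mod_cast hN.1
  have hv : (1 : ℝ) ≤ v := by exact_mod_cast hN.2.1
  have ht1 : 0 < t₁ := lt_of_lt_of_le ht h1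
  have hc1 : 1 ≤ c := by
    by_contra hc
    push Not at hc
    nlinarith
  have hc0 : 0 < c := by linarith
  set δ := ξ - a / k with hδ
  set δ' := ξ' - a' / k' with hδ'
  have hdep : S2bx284.dep k k' t₁ δ δ' u v ≤ c * S2bx284.dep k k' t δ δ' u v := by
    unfold S2bx284.dep
    have e1 : max 1 (max (t₁ * u * |δ|) (t₁ * v * |δ'|)) ≤
        c * max 1 (max (t * u * |δ|) (t * v * |δ'|)) := by
      have p1 : 0 ≤ (u : ℝ) * |δ| := by positivity
      have p2 : 0 ≤ (v : ℝ) * |δ'| := by positivity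
      have q1 : t * u * |δ| ≤ max 1 (max (t * u * |δ|) (t * v * |δ'|)) :=
        (le_max_left _ _).trans (le_max_right _ _)
      have q2 : t * v * |δ'| ≤ max 1 (max (t * u * |δ|) (t * v * |δ'|)) :=
        (le_max_right _ _).trans (le_max_right _ _)
      have q0 : (1 : ℝ) ≤ max 1 (max (t * u * |δ|) (t * v * |δ'|)) := le_max_left _ _
      refine max_le (by nlinarith) (max_le ?_ ?_)
      · calc t₁ * u * |δ| = t₁ * (u * |δ|) := by ring
          _ ≤ (c * t) * (u * |δ|) := mul_le_mul_of_nonneg_right h2 p1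
          _ = c * (t * u * |δ|) := by ring
          _ ≤ _ := mul_le_mul_of_nonneg_left q1 hc0.le
      · calc t₁ * v * |δ'| = t₁ * (v * |δ'|) := by ring
          _ ≤ (c * t) * (v * |δ'|) := mul_le_mul_of_nonneg_right h2 p2
          _ = c * (t * v * |δ'|) := by ring
          _ ≤ _ := mul_le_mul_of_nonneg_left q2 hc0.le
    have : (0 : ℝ) ≤ Nat.lcm k k' := by positivity
    calc (Nat.lcm k k' : ℝ) * max 1 (max (t₁ * u * |δ|) (t₁ * v * |δ'|))
        ≤ (Nat.lcm k k' : ℝ) * (c * max 1 (max (t * u * |δ|) (t * v * |δ'|))) :=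
          mul_le_mul_of_nonneg_left e1 this
      _ = _ := by ring
  have hLab : S2bx284.Labd ξ ξ' t E a k a' k' u v := by
    refine ⟨S2bx284.Lab.mono hL.1 le_rfl ?_, S2bx284.Lab.mono hL.2 le_rfl ?_⟩
    · exact div_le_div_of_nonneg_left hE (by positivity)
        (mul_le_mul_of_nonneg_right h1 (by positivity))
    · exact div_le_div_of_nonneg_left hE (by positivity)
        (mul_le_mul_of_nonneg_right h1 (by positivity))
  refine ⟨S2bx284.NN.anti ht h1 hN, a, k, a', k', hLab, Or.inr ?_, ?_⟩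
  · rcases hsh with hsh | hsh
    · by_contra hc
      push Not at hc
      apply hsh
      have huv0 : 0 ≤ (u : ℝ) * v := by positivity
      have h3 : ((u : ℝ) * v) ^ 3 ≤ P ^ 3 := pow_le_pow_left₀ huv0 hc.le 3
      exact ⟨hK.trans hd, (h3.trans hP).trans hd⟩
    · exact hsh
  · rw [div_le_iff₀ hc0, mul_comm]
    exact hd.trans hdep

/-- **density of the twisted relation** -/
theorem dens_KT (M : ℕ) {y : ℕ} (hy : 8 ≤ y) {ξ ξ' t E K P : ℝ} (hE : 1 ≤ E) (ht : 8 * E ^ 5 ≤ t)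
    (hK : 64 ≤ K) (hP : 0 < P) :
    MXlowx808.dens (low y M) (KT ξ ξ' t E K P) ≤
      (2 * Real.exp 14 + 5) * ((1 + 2 * Real.log y * Real.log K) ^ 2 * K ^ (-(1 : ℝ) / 3)) +
        1 / P := by
  classical
  set N := low y M with hN
  have hN0 : 0 < N := low_pos y M
  have ht0 : 0 < t := lt_of_lt_of_le (by positivity) ht
  -- the short words of the relation
  set S : Finset (ℕ × ℕ) := (N.divisors ×ˢ N.divisors).filter (fun w =>
    Nat.Coprime w.1 w.2 ∧ NN ξ ξ' t w.1 w.2 ∧ P ≤ (w.1 : ℝ) * w.2 ∧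
      ∃ (a : ℤ) (k : ℕ) (a' : ℤ) (k' : ℕ), S2bx284.Labd ξ ξ' t E a k a' k' w.1 w.2 ∧
        S2bx284.IsShort k k' t (ξ - a / k) (ξ' - a' / k') w.1 w.2) with hS
  have hS1 : S.card ≤ 1 := by
    rw [Finset.card_le_one]
    intro w hw w' hw'
    rw [hS, mem_filter] at hw hw'
    obtain ⟨_, hco, hn, _, a, k, a', k', hL, hs⟩ := hw
    obtain ⟨_, hco2, hn2, _, a2, k2, a2', k2', hL2, hs2⟩ := hw'
    have d1 := S2bx284.dom_of_short hE ht hco hn hL hs
    have d2 := S2bx284.dom_of_short hE ht hco2 hn2 hL2 hs2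
    have := S2bx284.dom_unique ht0 d1 d2
    exact Prod.ext (congrArg Prod.fst this).symm (congrArg Prod.snd this).symm
  have hsplit : MXlowx808.dens N (KT ξ ξ' t E K P) ≤
      MXlowx808.dens N (KD ξ ξ' t E K) + ∑ w ∈ S, nu N w.1 * nu N w.2 := by
    have e1 : ∑ w ∈ S, nu N w.1 * nu N w.2 = ∑ s ∈ N.divisors, ∑ u ∈ N.divisors,
        (if (s, u) ∈ S then nu N s * nu N u else 0) := by
      have hsub : S ⊆ N.divisors ×ˢ N.divisors := by rw [hS]; exact filter_subset _ _
      calc ∑ w ∈ S, nu N w.1 * nu N w.2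
          = ∑ w ∈ N.divisors ×ˢ N.divisors, (if w ∈ S then nu N w.1 * nu N w.2 else 0) := by
            rw [← sum_filter]
            congr 1
            rw [Finset.filter_mem_eq_inter, Finset.inter_eq_right.2 hsub]
        _ = _ := by rw [Finset.sum_product]
    rw [e1]
    unfold MXlowx808.dens
    rw [← sum_add_distrib]
    refine sum_le_sum fun s hs => ?_
    rw [← sum_add_distrib]
    refine sum_le_sum fun u hu => ?_
    have hν : 0 ≤ nu N s * nu N u := mul_nonneg (nu_nonneg _ _) (nu_nonneg _ _)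
    have hterm : 0 ≤ (if (s, u) ∈ S then nu N s * nu N u else 0) := by
      split_ifs
      · exact hν
      · exact le_rfl
    by_cases hco : Nat.Coprime s u
    · rw [if_pos hco, if_pos hco]
      by_cases hKT : KT ξ ξ' t E K P s u = 0
      · rw [hKT, mul_zero]
        exact add_nonneg (mul_nonneg hν (KD_nonneg _ _ _ _ _ _ _)) hterm
      · have hR : RT ξ ξ' t E K P s u := by
          by_contra hc
          apply hKT
          unfold KT
          exact if_neg hc
        rw [KT_of hR, mul_one]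
        obtain ⟨hn, a, k, a', k', hL, hsh, hd⟩ := hR
        by_cases hsh' : S2bx284.IsShort k k' t (ξ - a / k) (ξ' - a' / k') s u
        · have hPs : P ≤ (s : ℝ) * u := hsh.resolve_left (fun h => h hsh')
          have hm : (s, u) ∈ S := by
            rw [hS, mem_filter, mem_product]
            exact ⟨⟨hs, hu⟩, hco, hn, hPs, a, k, a', k', hL, hsh'⟩
          rw [if_pos hm]
          have := mul_nonneg hν (KD_nonneg ξ ξ' t E K s u)
          linarith
        · have hKD : KD ξ ξ' t E K s u = 1 := by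
            unfold KD
            exact if_pos ⟨hn, a, k, a', k', hL, hsh', hd⟩
          rw [hKD, mul_one]
          linarith
    · rw [if_neg hco, if_neg hco, zero_add]
      exact hterm
  have hshort : ∑ w ∈ S, nu N w.1 * nu N w.2 ≤ 1 / P := by
    calc ∑ w ∈ S, nu N w.1 * nu N w.2 ≤ ∑ _w ∈ S, 1 / P := by
          refine sum_le_sum fun w hw => ?_
          rw [hS, mem_filter, mem_product, Nat.mem_divisors, Nat.mem_divisors] at hw
          obtain ⟨⟨⟨h1, _⟩, ⟨h2, _⟩⟩, _, hn, hPw, _⟩ := hw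
          have b1 := Lawx69.nu_le_inv hN0 h1
          have b2 := Lawx69.nu_le_inv hN0 h2
          have hu : (0 : ℝ) < w.1 := by exact_mod_cast hn.1
          have hv : (0 : ℝ) < w.2 := by exact_mod_cast hn.2.1
          calc nu N w.1 * nu N w.2 ≤ (1 / (w.1 : ℝ)) * (1 / (w.2 : ℝ)) :=
                mul_le_mul b1 b2 (nu_nonneg _ _) (by positivity)
            _ = 1 / ((w.1 : ℝ) * w.2) := by field_simp
            _ ≤ 1 / P := one_div_le_one_div_of_le hP hPw
      _ = (S.card : ℝ) * (1 / P) := by rw [sum_const, nsmul_eq_mul]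
      _ ≤ 1 * (1 / P) := mul_le_mul_of_nonneg_right (by exact_mod_cast hS1) (by positivity)
      _ = _ := one_mul _
  have := dens_KD M hy (ξ := ξ) (ξ' := ξ') (E := E) (K := K) ht ht0.le hK
  linarith

/-! ### the class kernel -/

lemma dens_min_left {N : ℕ} (K K' : ℕ → ℕ → ℝ) :
    MXlowx808.dens N (fun s t => min (K s t) (K' s t)) ≤ MXlowx808.dens N K :=
  dens_mono fun _ _ => min_le_left _ _

lemma dens_min_right {N : ℕ} (K K' : ℕ → ℕ → ℝ) :
    MXlowx808.dens N (fun s t => min (K s t) (K' s t)) ≤ MXlowx808.dens N K' :=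
  dens_mono fun _ _ => min_le_right _ _

/-- gain of the class `a` -/
noncomputable def Ta (r B C y τ : ℝ) (a : ℕ) : ℝ :=
  C * Real.log y ^ B * (min τ (Real.exp 14 * ((2 : ℝ) ^ a) ^ (-(1 / Real.log y)))) ^ (1 / r)

lemma Ta_nonneg {r B C y τ : ℝ} (hC : 0 ≤ C) (hy : 1 ≤ y) (hτ : 0 ≤ τ) (a : ℕ) :
    0 ≤ Ta r B C y τ a := by
  unfold Ta
  have h1 : 0 ≤ Real.log y := Real.log_nonneg hy
  have h2 : 0 ≤ min τ (Real.exp 14 * ((2 : ℝ) ^ a) ^ (-(1 / Real.log y))) :=
    le_min hτ (by positivity)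
  positivity

/-- **hlow of `mx1`**: fixed high words `z, z'`, class `log₂ gcd = i`, `log₂ (u/gcd) = a`,
any relation of natural density `≤ τ` -/
theorem low_class {κ r : ℝ} (hκ : 0 < κ) (hκ1 : κ < 1) (hr : 2 / (1 - κ) < r) :
    ∃ B C : ℝ, 0 ≤ B ∧ 1 ≤ C ∧ ∀ (y M z z' : ℕ) (f f' : ℕ → ℝ) (k K : ℕ → ℕ → ℝ) (τ : ℝ)
      (i a : ℕ), 8 ≤ y →
      (∀ b, 0 ≤ f b) → (∀ b, f b ≤ 1) → (∀ b, 0 ≤ f' b) → (∀ b, f' b ≤ 1) →
      (∀ s t, 0 ≤ K s t) → (∀ s t, K s t ≤ 1) →
      (∀ u u', 0 ≤ k u u') →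
      (∀ u u', u ∣ low y M → u' ∣ low y M → Nat.log 2 (Nat.gcd u u') = i →
        Nat.log 2 (u / Nat.gcd u u') = a → k u u' ≤ K (u / Nat.gcd u u') (u' / Nat.gcd u u')) →
      MXlowx808.dens (low y M) K ≤ τ →
      frm (low y M) (fun u u' => if Nat.log 2 (Nat.gcd u u') = i then
          (if Nat.log 2 (u / Nat.gcd u u') = a then f (u * z) * f' (u' * z') * k u u' else 0)
          else 0) ≤
        Ta r B C y τ a * ((2 : ℝ) ^ i) ^ κ *
          (Cutx50.mass M f y z * Cutx50.mass M f' y z') ^ ((1 + κ) / 2) := by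
  obtain ⟨B, C, hB, hC, h⟩ := low_kernel_cut hκ hκ1 hr
  have h1κ : 0 < 1 - κ := by linarith
  have hr0 : 0 < r := lt_trans (by positivity) hr
  refine ⟨B, C, hB, hC, ?_⟩
  intro y M z z' f f' k K τ i a hy hf hf1 hf' hf1' hK hK1 hk hkK hτ
  have hy8 : (8 : ℝ) ≤ y := by exact_mod_cast hy
  have hly2 : 2 ≤ Real.log y := log_eight.trans (Real.log_le_log (by norm_num) hy8)
  set N := low y M with hN
  have hN0 : 0 < N := low_pos y M
  set K' : ℕ → ℕ → ℝ := fun s t => min (K s t) (KS ((2 : ℝ) ^ a) s t) with hK'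
  set k' : ℕ → ℕ → ℝ := fun u u' => if 0 < u ∧ 0 < u' ∧ u ∣ N ∧ u' ∣ N ∧
    Nat.log 2 (Nat.gcd u u') = i ∧
    Nat.log 2 (u / Nat.gcd u u') = a then k u u' else 0 with hk'
  have hk'0 : ∀ u u', 0 ≤ k' u u' := by
    intro u u'
    rw [hk']
    show 0 ≤ ite _ _ _
    split_ifs
    · exact hk u u'
    · exact le_rfl
  have hτ' : MXlowx808.dens N K' ≤ min τ (Real.exp 14 * ((2 : ℝ) ^ a) ^ (-(1 / Real.log y))) :=
    le_min ((dens_min_left K _).trans hτ)
      ((dens_min_right K _).trans (dens_KS M hy (by positivity)))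
  have hG : (0 : ℝ) < 2 ^ i := by positivity
  have h1 := h y M z z' f f' k' K' _ ((2 : ℝ) ^ i) hy hf hf1 hf' hf1'
    (fun s t => le_min (hK s t) (KS_nonneg _ _ _))
    (fun s t => (min_le_left _ _).trans (hK1 s t)) hk'0
    (fun u u' hu hu' => by
      rw [hk']
      show ite _ _ _ ≤ _
      split_ifs with hc
      · obtain ⟨hu0, hu0', _, _, hi, ha⟩ := hc
        refine le_min (hkK u u' hu hu' hi ha) ?_
        unfold KS
        have hg0 : 0 < Nat.gcd u u' := Nat.gcd_pos_of_pos_left _ hu0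
        have hd0 : u / Nat.gcd u u' ≠ 0 :=
          (Nat.div_pos (Nat.le_of_dvd hu0 (Nat.gcd_dvd_left u u')) hg0).ne'
        have h7 : 2 ^ a ≤ u / Nat.gcd u u' := by
          rw [← ha]
          exact Nat.pow_log_le_self 2 hd0
        have h8 : (2 : ℝ) ^ a ≤ ((u / Nat.gcd u u' : ℕ) : ℝ) := by exact_mod_cast h7
        rw [if_pos h8]
        exact (hkK u u' hu hu' hi ha).trans (hK1 _ _)
      · exact le_min (hK _ _) (KS_nonneg _ _ _))
    (fun u u' hu hu' h0 => by
      rw [hk'] at h0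
      have hc : 0 < u ∧ 0 < u' ∧ u ∣ N ∧ u' ∣ N ∧ Nat.log 2 (Nat.gcd u u') = i ∧
          Nat.log 2 (u / Nat.gcd u u') = a := by
        by_contra hc
        exact h0 (if_neg hc)
      have h2 : Nat.gcd u u' < 2 ^ (i + 1) := by
        rw [← hc.2.2.2.2.1]
        exact Nat.lt_pow_succ_log_self (by norm_num) _
      have h3 : (Nat.gcd u u' : ℝ) < 2 ^ (i + 1) := by exact_mod_cast h2
      rw [pow_succ] at h3
      linarith)
    hτ' hG
  have h2 : frm N (fun u u' => if Nat.log 2 (Nat.gcd u u') = i then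
          (if Nat.log 2 (u / Nat.gcd u u') = a then f (u * z) * f' (u' * z') * k u u' else 0)
          else 0) = frm N (fun u u' => f (u * z) * f' (u' * z') * k' u u') := by
    unfold frm
    refine sum_congr rfl fun u hu => sum_congr rfl fun u' hu' => ?_
    have hu0 : 0 < u := Nat.pos_of_mem_divisors hu
    have hu0' : 0 < u' := Nat.pos_of_mem_divisors hu'
    have hud := (Nat.mem_divisors.1 hu).1
    have hud' := (Nat.mem_divisors.1 hu').1
    congr 1
    rw [hk']
    beta_reduce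
    by_cases c1 : Nat.log 2 (Nat.gcd u u') = i <;> by_cases c2 : Nat.log 2 (u / Nat.gcd u u') = a
    · rw [if_pos c1, if_pos c2, if_pos ⟨hu0, hu0', hud, hud', c1, c2⟩]
    · rw [if_pos c1, if_neg c2, if_neg (fun hc => c2 hc.2.2.2.2.2), mul_zero]
    · rw [if_neg c1, if_neg (fun hc => c1 hc.2.2.2.2.1), mul_zero]
    · rw [if_neg c1, if_neg (fun hc => c1 hc.2.2.2.2.1), mul_zero]
  rw [h2]
  refine h1.trans (le_of_eq ?_)
  unfold Ta
  have hm := mass_nonneg M hf y z
  have hm' := mass_nonneg M hf' y z'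
  have e : (((2 : ℝ) ^ i * Cutx50.mass M f y z) * ((2 : ℝ) ^ i * Cutx50.mass M f' y z')) ^
      ((1 + κ) / 2) = (2 : ℝ) ^ i * ((2 : ℝ) ^ i) ^ κ *
        (Cutx50.mass M f y z * Cutx50.mass M f' y z') ^ ((1 + κ) / 2) := by
    have e1 : ((2 : ℝ) ^ i * Cutx50.mass M f y z) * ((2 : ℝ) ^ i * Cutx50.mass M f' y z') =
        ((2 : ℝ) ^ i * (2 : ℝ) ^ i) * (Cutx50.mass M f y z * Cutx50.mass M f' y z') := by ring
    have e2 : ((2 : ℝ) ^ i * (2 : ℝ) ^ i) ^ ((1 + κ) / 2) = (2 : ℝ) ^ i * ((2 : ℝ) ^ i) ^ κ := by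
      rw [Real.mul_rpow hG.le hG.le, ← Real.rpow_add hG,
        show (1 + κ) / 2 + (1 + κ) / 2 = 1 + κ by ring, Real.rpow_add hG, Real.rpow_one]
    rw [e1, Real.mul_rpow (mul_nonneg hG.le hG.le) (mul_nonneg hm hm'), e2]
  rw [e]
  field_simp

/-! ### the sum over the classes -/

/-- **the sum over the classes `a`**: any exponent below `1 / (r (1 + κ))` -/
theorem sum_Ta {κ r B C θ : ℝ} (hκ : 0 < κ) (hr : 1 ≤ r) (hB : 0 ≤ B) (hC : 1 ≤ C)
    (hθ : 0 < θ) (hθ1 : θ < 1) (n y : ℕ) (hy : 8 ≤ y) {τ : ℝ} (hτ : 0 ≤ τ) :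
    ∑ a ∈ range n, (Ta r B C y τ a) ^ (1 / (1 + κ)) ≤
      (2 * (1 + κ) * r / θ) * (C * Real.exp 14) * Real.log y ^ (B + 1) *
        τ ^ ((1 - θ) / (r * (1 + κ))) := by
  have hy8 : (8 : ℝ) ≤ y := by exact_mod_cast hy
  have hly2 : 2 ≤ Real.log y := log_eight.trans (Real.log_le_log (by norm_num) hy8)
  have hly0 : 0 < Real.log y := by linarith
  have hr0 : 0 < r := by linarith
  set q : ℝ := 1 / (1 + κ) with hq
  have hq0 : 0 < q := by positivity
  have hq1 : q ≤ 1 := by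
    rw [hq, div_le_one (by linarith)]
    linarith
  set α : ℝ := q / r with hα
  have hα0 : 0 < α := by positivity
  have hα1 : α ≤ 1 := by
    rw [hα, div_le_one hr0]
    linarith
  -- one term
  have hterm : ∀ a ∈ range n, (Ta r B C y τ a) ^ q ≤
      (C * Real.log y ^ B) * (τ ^ ((1 - θ) * α) * (Real.exp 14 *
        ((2 : ℝ) ^ (-(θ * α / Real.log y))) ^ a)) := by
    intro a _
    set x : ℝ := Real.exp 14 * ((2 : ℝ) ^ a) ^ (-(1 / Real.log y)) with hx
    have hx0 : 0 < x := by positivity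
    have hm0 : 0 ≤ min τ x := le_min hτ hx0.le
    have h1 : (min τ x) ^ α ≤ τ ^ ((1 - θ) * α) * x ^ (θ * α) := by
      rcases eq_or_lt_of_le hτ with h0 | h0
      · rw [← h0, min_eq_left hx0.le, Real.zero_rpow hα0.ne', Real.zero_rpow (by
          have : 0 < (1 - θ) * α := mul_pos (by linarith) hα0
          exact this.ne'), zero_mul]
      · have hmp : 0 < min τ x := lt_min h0 hx0
        calc (min τ x) ^ α = (min τ x) ^ ((1 - θ) * α) * (min τ x) ^ (θ * α) := by
              rw [← Real.rpow_add hmp]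
              congr 1
              ring
          _ ≤ τ ^ ((1 - θ) * α) * x ^ (θ * α) := by
              refine mul_le_mul (Real.rpow_le_rpow hm0 (min_le_left _ _) ?_)
                (Real.rpow_le_rpow hm0 (min_le_right _ _) (by positivity)) (by positivity)
                (by positivity)
              exact mul_nonneg (by linarith) hα0.le
    have h2 : x ^ (θ * α) ≤ Real.exp 14 * ((2 : ℝ) ^ (-(θ * α / Real.log y))) ^ a := by
      rw [hx, Real.mul_rpow (Real.exp_pos _).le (by positivity)]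
      have e1 : (((2 : ℝ) ^ a) ^ (-(1 / Real.log y))) ^ (θ * α) =
          ((2 : ℝ) ^ (-(θ * α / Real.log y))) ^ a := by
        rw [← Real.rpow_mul (by positivity), ← Real.rpow_natCast 2 a,
          ← Real.rpow_mul (by norm_num), ← Real.rpow_natCast _ a, ← Real.rpow_mul (by norm_num)]
        congr 1
        ring
      rw [e1]
      refine mul_le_mul_of_nonneg_right ?_ (by positivity)
      calc Real.exp 14 ^ (θ * α) ≤ Real.exp 14 ^ (1 : ℝ) := by
            refine Real.rpow_le_rpow_of_exponent_le (Real.one_le_exp (by norm_num)) ?_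
            nlinarith
        _ = _ := Real.rpow_one _
    have hlB : 1 ≤ Real.log y ^ B := Real.one_le_rpow (by linarith) hB
    have hCl : 1 ≤ C * Real.log y ^ B := one_le_mul_of_one_le_of_one_le hC hlB
    have hT : Ta r B C y τ a = (C * Real.log y ^ B) * (min τ x) ^ (1 / r) := rfl
    rw [hT, Real.mul_rpow (by linarith) (by positivity), ← Real.rpow_mul hm0,
      show 1 / r * q = α by rw [hα]; ring]
    refine mul_le_mul ?_ (h1.trans (mul_le_mul_of_nonneg_left h2 (by positivity)))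
      (by positivity) (by linarith)
    calc (C * Real.log y ^ B) ^ q ≤ (C * Real.log y ^ B) ^ (1 : ℝ) :=
          Real.rpow_le_rpow_of_exponent_le hCl hq1
      _ = _ := Real.rpow_one _
  -- the geometric series
  set σ : ℝ := θ * α / Real.log y with hσ
  have hσ0 : 0 < σ := by positivity
  have hσ1 : σ ≤ 1 := by
    rw [hσ, div_le_one hly0]
    nlinarith
  set ρ : ℝ := (2 : ℝ) ^ (-σ) with hρ
  have hρ0 : 0 < ρ := by positivity
  have hρ1 : ρ ≤ 1 - σ / 2 := by
    -- convexity: `2^(-σ) ≤ 1 - σ/2` on `[0,1]`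
    have h2 : (2 : ℝ) ^ (-σ) = Real.exp (-(Real.log 2 * σ)) := by
      rw [Real.rpow_def_of_pos (by norm_num)]
      congr 1
      ring
    have hconv := convexOn_exp.2 (Set.mem_univ (0 : ℝ)) (Set.mem_univ (-Real.log 2))
      (by linarith : 0 ≤ 1 - σ) hσ0.le (by ring)
    simp only [smul_eq_mul, mul_zero, zero_add, Real.exp_zero, mul_one] at hconv
    have h3 : Real.exp (-Real.log 2) = 1 / 2 := by
      rw [Real.exp_neg, Real.exp_log (by norm_num)]
      norm_num
    rw [h3] at hconv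
    rw [hρ, h2]
    have e : -(Real.log 2 * σ) = σ * -Real.log 2 := by ring
    rw [e]
    linarith
  have hgeo : ∑ a ∈ range n, ρ ^ a ≤ 2 / σ := by
    have hρlt : ρ < 1 := by linarith
    have h1 : ∑ a ∈ range n, ρ ^ a ≤ (1 - ρ)⁻¹ := by
      rw [geom_sum_eq hρlt.ne]
      rw [← neg_div_neg_eq, neg_sub, neg_sub, div_eq_mul_inv]
      have hp : 0 ≤ ρ ^ n := by positivity
      have hi : 0 ≤ (1 - ρ)⁻¹ := inv_nonneg.2 (by linarith)
      nlinarith
    refine h1.trans ?_
    rw [inv_eq_one_div, div_le_div_iff₀ (by linarith) hσ0]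
    linarith
  calc ∑ a ∈ range n, (Ta r B C y τ a) ^ q
      ≤ ∑ a ∈ range n, (C * Real.log y ^ B) * (τ ^ ((1 - θ) * α) * (Real.exp 14 * ρ ^ a)) :=
        sum_le_sum hterm
    _ = (C * Real.log y ^ B) * (τ ^ ((1 - θ) * α) * (Real.exp 14 * ∑ a ∈ range n, ρ ^ a)) := by
        rw [mul_sum, mul_sum, mul_sum]
    _ ≤ (C * Real.log y ^ B) * (τ ^ ((1 - θ) * α) * (Real.exp 14 * (2 / σ))) := by
        have : 0 ≤ C * Real.log y ^ B := by positivity
        refine mul_le_mul_of_nonneg_left (mul_le_mul_of_nonneg_left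
          (mul_le_mul_of_nonneg_left hgeo (Real.exp_pos _).le) (by positivity)) this
    _ = _ := by
        have e1 : 2 / σ = (2 * (1 + κ) * r / θ) * Real.log y := by
          rw [hσ, hα, hq]
          field_simp
        have e2 : (1 - θ) * α = (1 - θ) / (r * (1 + κ)) := by
          rw [hα, hq]
          field_simp
        rw [e1, e2, Real.rpow_add hly0, Real.rpow_one]
        ring

end Crest.Agent.R4C.LPhix808
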