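import Crest.Agent.R4C.PairR_14
import Crest.Agent.R4C.Kept_559
import Crest.Agent.R4C.TwistKK_863
import Crest.Agent.R4C.LPhi_808

/-!
# Row 4, BLOCK S5 v1 (6.1): decomposition of a labelled pair at the cut `y` (helper500, note 3383)

`b = g s`, `c = g s'`, `s, s'` coprime, good at the cut `x` (`= P0(T)`), tree labels `a/k`, `a'/k'`,
same point (`gap = 0`), all explained differing primes `≤ y ≤ x` (`Top`).

* `lab_of_TC`, `inLat` : labels and lattice relation of the low words `low x s`, `low x s'`;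
* `expl_of_r` : the primes of `r` (`low x s = k₁ r`) are explained;
* `upp_low_x` : `upp y (low x s) = upp y k₁` : in `(y, x]` only the primes of the denominators differ;
* **`kt_of`** (A) : the low words below `y` satisfy the twisted relation `LPhix808.RT`;
* **`kk_of`** (B) : the twist is in `TwistKKx863.KK` of `z0 = upp y g · upp x s`;
* **`kz_of`** (C) : `z0, z0'` is a kept pair (`Keptx559.KZ`);
* `cover_rich` : `PairRx14.cover_good` with all data (`LPair`: labels, not short, `Top`);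
* `CL` = class (L) at the cut `y`, depth in `[K, 2K]`; **`ldec`** : all conclusions (`Dec`);
* `light_of` (D) : deep for `thrS` ⇒ light at the end of the block, or the block base is tiny.
-/

set_option autoImplicit false

namespace Crest.Agent.R4C.LDecx500

open Crest.Agent.R4C.FLDefx935 Crest.Agent.R4C.BoostCx972 Crest.Agent.R4C.CrCoinx935
  Crest.Agent.R4C.S7cx14 Crest.Agent.R4C.S7dx14 Crest.Agent.R4C.Chainx81
  Crest.Agent.R4C.Cutx50 Crest.Agent.R4C.S2bx284 Crest.Agent.R4C.S2x232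
  Crest.Agent.R4C.Centx949 Crest.Agent.R4C.Pairx14

variable {M : ℕ} {F : FL M}

/-! ### multiplicativity of the cuts -/

lemma low_mul (x : ℕ) {a b : ℕ} (ha : a ≠ 0) (hb : b ≠ 0) : low x (a * b) = low x a * low x b := by
  refine Nat.eq_of_factorization_eq (low_pos _ _).ne' (mul_ne_zero (low_pos _ _).ne'
    (low_pos _ _).ne') fun p => ?_
  rw [Nat.factorization_mul (low_pos _ _).ne' (low_pos _ _).ne', Finsupp.add_apply, fact_low,
    fact_low, fact_low, Nat.factorization_mul ha hb, Finsupp.add_apply]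
  split_ifs <;> rfl

lemma upp_mul (x : ℕ) {a b : ℕ} (ha : a ≠ 0) (hb : b ≠ 0) : upp x (a * b) = upp x a * upp x b := by
  refine Nat.eq_of_factorization_eq (upp_pos _ _).ne' (mul_ne_zero (upp_pos _ _).ne'
    (upp_pos _ _).ne') fun p => ?_
  rw [Nat.factorization_mul (upp_pos _ _).ne' (upp_pos _ _).ne', Finsupp.add_apply, fact_upp,
    fact_upp, fact_upp, Nat.factorization_mul ha hb, Finsupp.add_apply]
  split_ifs <;> rfl

lemma upp_one_of {y n : ℕ} (h : ∀ p, p.Prime → p ∣ n → p ≤ y) : upp y n = 1 := by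
  refine Nat.eq_of_factorization_eq (upp_pos _ _).ne' one_ne_zero fun p => ?_
  rw [fact_upp, Nat.factorization_one, Finsupp.zero_apply]
  by_cases hp : p ≤ y
  · simp [hp]
  · rw [if_pos hp]
    by_cases hpp : p.Prime
    · exact Nat.factorization_eq_zero_of_not_dvd fun hd => hp (h p hpp hd)
    · exact Nat.factorization_eq_zero_of_not_prime _ hpp

lemma low_one_of {y n : ℕ} (h : ∀ p, p.Prime → p ∣ n → y < p) : low y n = 1 := by
  refine Nat.eq_of_factorization_eq (low_pos _ _).ne' one_ne_zero fun p => ?_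
  rw [fact_low, Nat.factorization_one, Finsupp.zero_apply]
  by_cases hp : p ≤ y
  · rw [if_pos hp]
    by_cases hpp : p.Prime
    · exact Nat.factorization_eq_zero_of_not_dvd fun hd => absurd (h p hpp hd) (by omega)
    · exact Nat.factorization_eq_zero_of_not_prime _ hpp
  · rw [if_neg hp]

/-- `low x s = low y s * upp y (low x s)` for `y ≤ x` -/
lemma low_split {x y : ℕ} (hyx : y ≤ x) (s : ℕ) : low y s * upp y (low x s) = low x s := by
  have h1 := low_mul_upp y (low_pos x s).ne'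
  rwa [low_low hyx] at h1

/-- `upp y s = upp y (low x s) * upp x s` for `y ≤ x` -/
lemma upp_split {x y s : ℕ} (hyx : y ≤ x) (hs : s ≠ 0) :
    upp y s = upp y (low x s) * upp x s := by
  have h1 := upp_mul y (low_pos x s).ne' (upp_pos x s).ne'
  rw [low_mul_upp x hs] at h1
  rw [h1]
  congr 1
  refine Nat.eq_of_factorization_eq (upp_pos _ _).ne' (upp_pos _ _).ne' fun p => ?_
  rw [fact_upp, fact_upp]
  by_cases hp : p ≤ y
  · have : p ≤ x := by omega
    simp [hp, this]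
  · simp [hp]

/-! ### labels -/

/-- coprimality of a deficit word with a small number -/
lemma coprime_ell {x k : ℕ} {c : ℕ} (hk : 0 < k) (hkx : k ≤ x) :
    Nat.Coprime (F.ell x c) k := by
  refine Nat.Coprime.symm (Nat.coprime_of_dvd fun p hp h1 h2 => ?_)
  obtain ⟨h3, _⟩ := FL.prime_dvd_ell hp h2
  have := Nat.le_of_dvd hk h1
  omega

lemma lab_of_TC {γ T E L : ℝ} {x g s s' : ℕ} (hM : 0 < M) (hb : g * s ∣ M) (hc : g * s' ∣ M)
    (hcop : Nat.Coprime s s') (hx : F.good x (g * s) (g * s')) (hT : 0 < T) (hL : 0 < L)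
    (hgT : T * L ≤ (g : ℝ)) {a : ℤ} {k : ℕ} (hkx : k ≤ x)
    (h : Pairx14.TC F γ L E x (g * s) a k) :
    Lab (upp x s * γ) E (E / (T * low x s)) ((F.ell x (g * s') : ℕ) * a) k := by
  have hg0 : g * s ≠ 0 := (Nat.pos_of_dvd_of_pos hb hM).ne'
  have hs : 0 < s := Nat.pos_of_ne_zero fun h => hg0 (by rw [h, mul_zero])
  have hg : 0 < g := Nat.pos_of_ne_zero fun h => hg0 (by rw [h, zero_mul])
  have hup := upp_cof hM hb hc hcop hx
  set lam := F.lam x (g * s) with hlam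
  set ell := F.ell x (g * s') with hell
  have hl : 0 < lam := FL.lam_pos x _
  have he : 0 < ell := FL.ell_pos x _
  have hlR : (0 : ℝ) < lam := by exact_mod_cast hl
  have heR : (0 : ℝ) < ell := by exact_mod_cast he
  have hkR : (0 : ℝ) < k := by exact_mod_cast h.pos
  have hgR : (0 : ℝ) < g := by exact_mod_cast hg
  have hS0 : 0 < low x s := low_pos x s
  have hS0R : (0 : ℝ) < low x s := by exact_mod_cast hS0
  have hupR : (upp x s : ℝ) = lam * ell := by exact_mod_cast hup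
  have hE : 0 < E := hkR.trans_le h.le
  refine ⟨h.pos, ?_, h.le, ?_⟩
  · have h1 : IsCoprime ((ell : ℕ) : ℤ) (k : ℤ) :=
      (Nat.isCoprime_iff_coprime).2 (coprime_ell h.pos hkx)
    exact h1.mul_left h.cop
  · have h2 : F.uu x (g * s) * lam = g * s := FL.uu_mul_lam hM hb
    have h3 : low x s * upp x s = s := low_mul_upp x hs.ne'
    have h4 : F.uu x (g * s) = g * (low x s * ell) := by
      refine Nat.eq_of_mul_eq_mul_right hl ?_
      rw [h2]
      nth_rewrite 1 [← h3]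
      rw [hup]; ring
    have h4R : (F.uu x (g * s) : ℝ) = g * (low x s * ell) := by exact_mod_cast h4
    have h5 := h.near
    rw [h4R] at h5
    have e : (upp x s : ℝ) * γ - (((ell : ℕ) * a : ℤ) : ℝ) / k = ell * ((lam : ℝ) * γ - a / k) := by
      rw [hupR]; push_cast; ring
    rw [e, abs_mul, abs_of_pos heR, le_div_iff₀ (by positivity)]
    have h6 : (T * L) * (ell * |(lam : ℝ) * γ - a / k| * low x s) ≤ E * L := by
      calc (T * L) * (ell * |(lam : ℝ) * γ - a / k| * low x s)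
          ≤ (g : ℝ) * (ell * |(lam : ℝ) * γ - a / k| * low x s) :=
            mul_le_mul_of_nonneg_right hgT (by positivity)
        _ = g * (low x s * ell) * |(lam : ℝ) * γ - a / k| := by ring
        _ ≤ E * L := h5
    have h7 : (ell * |(lam : ℝ) * γ - a / k| * (T * low x s)) * L ≤ E * L := by
      calc _ = (T * L) * (ell * |(lam : ℝ) * γ - a / k| * low x s) := by ring
        _ ≤ E * L := h6
    exact le_of_mul_le_mul_right h7 hL

/-- `s * f` in terms of the low word -/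
lemma s_mul_fr {x g s s' : ℕ} (hM : 0 < M) (hb : g * s ∣ M) (hc : g * s' ∣ M)
    (hcop : Nat.Coprime s s') (hx : F.good x (g * s) (g * s')) {a : ℤ} {k : ℕ} (hk : 0 < k) :
    (s : ℚ) * fr F x (g * s) a k = (low x s : ℚ) * (((F.ell x (g * s') : ℕ) * a : ℤ) : ℚ) / k := by
  have hg0 : g * s ≠ 0 := (Nat.pos_of_dvd_of_pos hb hM).ne'
  have hs : 0 < s := Nat.pos_of_ne_zero fun h => hg0 (by rw [h, mul_zero])
  have hup := upp_cof hM hb hc hcop hx
  have hl : 0 < F.lam x (g * s) := FL.lam_pos x _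
  have h3 : (low x s : ℚ) * upp x s = s := by exact_mod_cast low_mul_upp x hs.ne'
  have hupQ : (upp x s : ℚ) = F.lam x (g * s) * F.ell x (g * s') := by exact_mod_cast hup
  have hlQ : (F.lam x (g * s) : ℚ) ≠ 0 := by exact_mod_cast hl.ne'
  have hkQ : (k : ℚ) ≠ 0 := by
    have : k ≠ 0 := by omega
    exact_mod_cast this
  rw [← h3, hupQ]
  unfold fr
  push_cast
  field_simp

/-- the lattice relation of the low words -/
lemma inLat {x g s s' : ℕ} {h : ℤ} (hM : 0 < M) (hb : g * s ∣ M) (hc : g * s' ∣ M)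
    (hcop : Nat.Coprime s s') (hx : F.good x (g * s) (g * s')) {a a' : ℤ} {k k' : ℕ}
    (hk : 0 < k) (hk' : 0 < k')
    (h0 : gap (fr F x (g * s) a k) (fr F x (g * s') a' k') s s' h = 0) :
    (low x s : ℤ) * ((F.ell x (g * s') : ℕ) * a) * k' -
      (low x s' : ℤ) * ((F.ell x (g * s) : ℕ) * a') * k + h * (k * k') = 0 := by
  have e1 := s_mul_fr (F := F) hM hb hc hcop hx (a := a) hk
  have e2 := s_mul_fr (F := F) hM hc hb hcop.symm (FL.good_symm hb hc hx) (a := a') hk'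
  have hkQ : (k : ℚ) ≠ 0 := by
    have : k ≠ 0 := by omega
    exact_mod_cast this
  have hkQ' : (k' : ℚ) ≠ 0 := by
    have : k' ≠ 0 := by omega
    exact_mod_cast this
  unfold BoostCx972.gap at h0
  rw [e1, e2] at h0
  have h1 : (low x s : ℚ) * (((F.ell x (g * s') : ℕ) * a : ℤ) : ℚ) * k' -
      (low x s' : ℚ) * (((F.ell x (g * s) : ℕ) * a' : ℤ) : ℚ) * k + h * (k * k') = 0 := by
    field_simp at h0
    linear_combination h0
  exact_mod_cast h1

/-- **the primes of `r` are explained** -/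
lemma expl_of_r {x g s s' : ℕ} {h : ℤ} (hM : 0 < M) (hb : g * s ∣ M) (hc : g * s' ∣ M)
    (hcop : Nat.Coprime s s') (hx : F.good x (g * s) (g * s')) {a a' : ℤ} {k k' : ℕ}
    (hk : 0 < k) (ha' : IsCoprime a' (k' : ℤ))
    (h0 : gap (fr F x (g * s) a k) (fr F x (g * s') a' k') s s' h = 0)
    {κ k₁ k₁' r r' : ℕ} (ek : k = κ * k₁) (ek' : k' = κ * k₁') (eS : low x s = k₁ * r)
    (eS' : low x s' = k₁' * r')
    (rel : (r : ℤ) * ((F.ell x (g * s') : ℕ) * a) - r' * ((F.ell x (g * s) : ℕ) * a') + h * κ = 0)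
    {p : ℕ} (hp : p.Prime) (hpr : p ∣ r) :
    p ∣ alC (g * s) (g * s') (fr F x (g * s) a k) (fr F x (g * s') a' k') := by
  have hg0 : g * s ≠ 0 := (Nat.pos_of_dvd_of_pos hb hM).ne'
  have hg0' : g * s' ≠ 0 := (Nat.pos_of_dvd_of_pos hc hM).ne'
  have hs : 0 < s := Nat.pos_of_ne_zero fun h => hg0 (by rw [h, mul_zero])
  have hs' : 0 < s' := Nat.pos_of_ne_zero fun h => hg0' (by rw [h, mul_zero])
  have hg : 0 < g := Nat.pos_of_ne_zero fun h => hg0 (by rw [h, zero_mul])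
  have hpz : Prime (p : ℤ) := Nat.prime_iff_prime_int.1 hp
  have hpS : p ∣ low x s := by rw [eS]; exact hpr.mul_left _
  have hps : p ∣ s := hpS.trans (low_dvd_self x s)
  have hpx : p ≤ x := prime_dvd_part (fun p => p ≤ x) hp hpS
  have hps' : ¬ p ∣ s' := fun hd => by
    have := Nat.dvd_gcd hps hd
    rw [hcop.gcd_eq_one] at this
    exact hp.one_lt.ne' (Nat.dvd_one.1 this)
  have hpk : ¬ p ∣ k' := by
    intro hd
    rw [ek'] at hd
    rcases (hp.dvd_mul).1 hd with h1 | h1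
    · have h2 : (p : ℤ) ∣ r' * ((F.ell x (g * s) : ℕ) * a') := by
        have e : (r' : ℤ) * ((F.ell x (g * s) : ℕ) * a') =
            r * ((F.ell x (g * s') : ℕ) * a) + h * κ := by linear_combination -rel
        rw [e]
        exact dvd_add ((Int.natCast_dvd_natCast.2 hpr).mul_right _)
          ((Int.natCast_dvd_natCast.2 h1).mul_left _)
      rcases hpz.dvd_or_dvd h2 with h3 | h3
      · have h4 : p ∣ low x s' := by rw [eS']; exact (Int.natCast_dvd_natCast.1 h3).mul_left _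
        exact hps' (h4.trans (low_dvd_self x s'))
      · rcases hpz.dvd_or_dvd h3 with h4 | h4
        · have := (FL.prime_dvd_ell hp (Int.natCast_dvd_natCast.1 h4)).1
          omega
        · have h5 : (p : ℤ) ∣ k' := by
            rw [ek']; push_cast
            exact (Int.natCast_dvd_natCast.2 h1).mul_right _
          exact hpz.not_isUnit (ha'.isUnit_of_dvd' h4 h5)
    · have h4 : p ∣ low x s' := by rw [eS']; exact h1.mul_right _
      exact hps' (h4.trans (low_dvd_self x s'))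
  set f := fr F x (g * s) a k with hf
  set f' := fr F x (g * s') a' k' with hf'
  have hden : ¬ p ∣ f'.den := by
    intro hd
    have h1 : f'.den ∣ k' * F.lam x (g * s') := fr_den_dvd a' k'
    rcases (hp.dvd_mul).1 (hd.trans h1) with h2 | h2
    · exact hpk h2
    · have := (FL.prime_dvd_lam hM hc hp h2).1
      omega
  refine dvd_al_of_kill' hg hs hs' hcop h0 hp hps hps' hden fun c hc' => ?_
  have hκk : ¬ p ∣ κ := fun hd => hpk (by rw [ek']; exact hd.mul_right _)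
  -- integer relation
  have e1 : (s : ℚ) * f = (low x s : ℚ) * (((F.ell x (g * s') : ℕ) * a : ℤ) : ℚ) / k := by
    rw [hf]; exact s_mul_fr hM hb hc hcop hx hk
  have hκ0 : (κ : ℚ) ≠ 0 := by
    have : κ ≠ 0 := fun h => hk.ne' (by rw [ek, h, zero_mul])
    exact_mod_cast this
  have hk₁0 : (k₁ : ℚ) ≠ 0 := by
    have : k₁ ≠ 0 := fun h => hk.ne' (by rw [ek, h, mul_zero])
    exact_mod_cast this
  have hD0 : (f'.den : ℚ) ≠ 0 := by exact_mod_cast f'.den_pos.ne'
  have e2 : (r : ℤ) * ((F.ell x (g * s') : ℕ) * a) * f'.den - s' * f'.num * κ + h * κ * f'.den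
      = 0 := by
    have h1 : (s : ℚ) * f - s' * f' + h = 0 := h0
    rw [e1, eS] at h1
    have h2 : f' = (f'.num : ℚ) / f'.den := (Rat.num_div_den f').symm
    have h3 : (r : ℚ) * ((F.ell x (g * s') : ℕ) * a) * f'.den - s' * f'.num * κ +
        h * κ * f'.den = 0 := by
      have h4 : ((k₁ * r : ℕ) : ℚ) * (((F.ell x (g * s') : ℕ) * a : ℤ) : ℚ) / (k : ℚ) =
          r * ((F.ell x (g * s') : ℕ) * a) / κ := by
        rw [ek]
        push_cast
        field_simp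
      rw [h4] at h1
      have h5 : (r : ℚ) * ((F.ell x (g * s') : ℕ) * a) / κ - s' * ((f'.num : ℚ) / f'.den) + h = 0 := by
        rw [← h2]; exact h1
      field_simp at h5
      linear_combination h5
    exact_mod_cast h3
  have h6 : (p : ℤ) ∣ κ * (f'.den * (h + s' * c)) := by
    have e : (κ : ℤ) * (f'.den * (h + s' * c)) = κ * s' * (f'.num + f'.den * c) -
        r * ((F.ell x (g * s') : ℕ) * a) * f'.den := by linear_combination e2
    rw [e]
    refine dvd_sub (hc'.mul_left _) ?_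
    exact ((Int.natCast_dvd_natCast.2 hpr).mul_right _).mul_right _
  rcases hpz.dvd_or_dvd h6 with h7 | h7
  · exact absurd (Int.natCast_dvd_natCast.1 h7) hκk
  · rcases hpz.dvd_or_dvd h7 with h8 | h8
    · exact absurd (Int.natCast_dvd_natCast.1 h8) hden
    · exact h8

/-- all explained differing primes are `≤ y` -/
def Top (x y g s s' : ℕ) (f f' : ℚ) : Prop :=
  ∀ p : ℕ, p.Prime → y < p → p ≤ x → ¬ p ∣ alC (g * s) (g * s') f f' ∧
    ¬ p ∣ alC (g * s') (g * s) f' f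

/-- **in `(y, x]` only the primes of the denominators differ** -/
theorem upp_low_x {x y g s s' : ℕ} {h : ℤ} (hM : 0 < M) (hb : g * s ∣ M) (hc : g * s' ∣ M)
    (hcop : Nat.Coprime s s') (hx : F.good x (g * s) (g * s')) {a a' : ℤ} {k k' : ℕ}
    (hk : 0 < k) (hk' : 0 < k') (ha : IsCoprime a (k : ℤ)) (ha' : IsCoprime a' (k' : ℤ))
    (hkx : k ≤ x) (hkx' : k' ≤ x)
    (h0 : gap (fr F x (g * s) a k) (fr F x (g * s') a' k') s s' h = 0)
    (htop : Top x y g s s' (fr F x (g * s) a k) (fr F x (g * s') a' k')) :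
    upp y (low x s) = upp y (k / Nat.gcd k k') ∧ upp y (low x s') = upp y (k' / Nat.gcd k k') ∧
      k / Nat.gcd k k' ∣ low x s ∧ k' / Nat.gcd k k' ∣ low x s' := by
  have hz := inLat hM hb hc hcop hx hk hk' h0
  have hce : IsCoprime ((F.ell x (g * s') : ℕ) * a : ℤ) (k : ℤ) :=
    ((Nat.isCoprime_iff_coprime).2 (coprime_ell hk hkx)).mul_left ha
  have hce' : IsCoprime ((F.ell x (g * s) : ℕ) * a' : ℤ) (k' : ℤ) :=
    ((Nat.isCoprime_iff_coprime).2 (coprime_ell hk' hkx')).mul_left ha'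
  obtain ⟨κ, k₁, k₁', r, r', hκ, ek, ek', hc1, eS, eS', rel⟩ :=
    KillS2x949.structure_ hk hk' hce hce' hz
  have hκ0 : 0 < κ := by rw [hκ]; exact Nat.gcd_pos_of_pos_left _ hk
  have hd : k / Nat.gcd k k' = k₁ := by
    rw [← hκ, ek]; exact Nat.mul_div_cancel_left _ hκ0
  have hd' : k' / Nat.gcd k k' = k₁' := by
    rw [← hκ, ek']; exact Nat.mul_div_cancel_left _ hκ0
  have hS := (low_pos x s).ne'
  have hS' := (low_pos x s').ne'
  rw [eS] at hS
  rw [eS'] at hS'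
  have key : ∀ p : ℕ, p.Prime → p ∣ r → p ≤ y := by
    intro p hp hpr
    by_contra hc
    have hpx : p ≤ x := prime_dvd_part (fun p => p ≤ x) hp
      (show p ∣ low x s by rw [eS]; exact hpr.mul_left _)
    exact (htop p hp (by omega) hpx).1
      (expl_of_r hM hb ‹_› hcop hx hk ha' h0 ek ek' eS eS' rel hp hpr)
  have key' : ∀ p : ℕ, p.Prime → p ∣ r' → p ≤ y := by
    intro p hp hpr
    by_contra hc
    have hpx : p ≤ x := prime_dvd_part (fun p => p ≤ x) hp
      (show p ∣ low x s' by rw [eS']; exact hpr.mul_left _)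
    refine (htop p hp (by omega) hpx).2 ?_
    exact expl_of_r ‹0 < M› ‹g * s' ∣ M› hb hcop.symm (FL.good_symm hb ‹_› hx) hk' ha
      (gap_symm h0) ek' ek eS' eS (h := -h) (by linear_combination -rel) hp hpr
  refine ⟨?_, ?_, ?_, ?_⟩
  · rw [hd, eS, upp_mul y (left_ne_zero_of_mul hS) (right_ne_zero_of_mul hS),
      upp_one_of key, mul_one]
  · rw [hd', eS', upp_mul y (left_ne_zero_of_mul hS') (right_ne_zero_of_mul hS'),
      upp_one_of key', mul_one]
  · rw [hd, eS]; exact dvd_mul_right _ _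
  · rw [hd', eS']; exact dvd_mul_right _ _

/-! ### the twisted relation of the words below `y` -/

/-- depth of a twisted word -/
lemma dep_twist {κ₀ w w' κ κ' u v : ℕ} {T δ δ' : ℝ} (hc : Nat.Coprime (w * κ) (w' * κ')) :
    S2bx284.dep (κ₀ * (w * κ)) (κ₀ * (w' * κ')) T δ δ' (u * κ) (v * κ') =
      (κ : ℝ) * κ' * S2bx284.dep (κ₀ * w) (κ₀ * w') T (κ * δ) (κ' * δ') u v := by
  have hcw : Nat.Coprime w w' :=
    (hc.coprime_dvd_left (dvd_mul_right _ _)).coprime_dvd_right (dvd_mul_right _ _)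
  unfold S2bx284.dep
  rw [Nat.lcm_mul_left, Nat.lcm_mul_left, hc.lcm_eq_mul, hcw.lcm_eq_mul]
  have e1 : T * ((u * κ : ℕ) : ℝ) * |δ| = T * u * |κ * δ| := by
    rw [abs_mul, Nat.abs_cast]; push_cast; ring
  have e2 : T * ((v * κ' : ℕ) : ℝ) * |δ'| = T * v * |κ' * δ'| := by
    rw [abs_mul, Nat.abs_cast]; push_cast; ring
  rw [e1, e2]
  push_cast
  ring

/-- **(6.1)(A)** -/
theorem kt_of {γ T E K P : ℝ} {x y s s' k k' : ℕ} {A A' h : ℤ} (hyx : y ≤ x)
    (hs : 0 < s) (hs' : 0 < s') (hl : |((s : ℝ) - s') * γ + h| < 1 / T)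
    (l1 : Lab (upp x s * γ) E (E / (T * low x s)) A k)
    (l2 : Lab (upp x s' * γ) E (E / (T * low x s')) A' k')
    (e1 : upp y (low x s) = upp y (k / Nat.gcd k k'))
    (e2 : upp y (low x s') = upp y (k' / Nat.gcd k k'))
    (hns : ¬ S2bx284.IsShort k k' T (upp x s * γ - A / k) (upp x s' * γ - A' / k')
      (low x s) (low x s'))
    (h64 : 64 ≤ S2bx284.dep k k' T (upp x s * γ - A / k) (upp x s' * γ - A' / k')
      (low x s) (low x s'))
    (hK : (upp y (k / Nat.gcd k k') : ℝ) * upp y (k' / Nat.gcd k k') * K ≤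
      S2bx284.dep k k' T (upp x s * γ - A / k) (upp x s' * γ - A' / k') (low x s) (low x s'))
    (hP : ((upp y (k / Nat.gcd k k') : ℝ) * upp y (k' / Nat.gcd k k') * P) ^ 3 ≤
      S2bx284.dep k k' T (upp x s * γ - A / k) (upp x s' * γ - A' / k') (low x s) (low x s')) :
    LPhix808.RT (upp y s * γ) (upp y s' * γ) T E K P (low y s) (low y s') := by
  have hk := l1.1
  have hk' := l2.1
  set κ₀ := Nat.gcd k k' with hκ₀
  have hκ₀0 : 0 < κ₀ := Nat.gcd_pos_of_pos_left _ hk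
  set k₁ := k / κ₀ with hk₁
  set k₁' := k' / κ₀ with hk₁'
  have ek : κ₀ * k₁ = k := Nat.mul_div_cancel' (Nat.gcd_dvd_left _ _)
  have ek' : κ₀ * k₁' = k' := Nat.mul_div_cancel' (Nat.gcd_dvd_right _ _)
  have hc1 : Nat.Coprime k₁ k₁' := Nat.coprime_div_gcd_div_gcd hκ₀0
  have hk₁0 : k₁ ≠ 0 := fun h => by rw [h, mul_zero] at ek; omega
  have hk₁0' : k₁' ≠ 0 := fun h => by rw [h, mul_zero] at ek'; omega
  set κ := upp y k₁ with hκ
  set κ' := upp y k₁' with hκ'
  have hκ0 : 0 < κ := upp_pos _ _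
  have hκ0' : 0 < κ' := upp_pos _ _
  have hκR : (0 : ℝ) < κ := by exact_mod_cast hκ0
  have hκR' : (0 : ℝ) < κ' := by exact_mod_cast hκ0'
  set w := low y k₁ with hw
  set w' := low y k₁' with hw'
  have ew : w * κ = k₁ := low_mul_upp y hk₁0
  have ew' : w' * κ' = k₁' := low_mul_upp y hk₁0'
  have hw0 : 0 < w := low_pos _ _
  have hw0' : 0 < w' := low_pos _ _
  set u := low y s with hu
  set v := low y s' with hv
  have hu0 : 0 < u := low_pos _ _
  have hv0 : 0 < v := low_pos _ _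
  have hS : low x s = u * κ := by rw [← e1]; exact (low_split hyx s).symm
  have hS' : low x s' = v * κ' := by rw [← e2]; exact (low_split hyx s').symm
  have hU : upp y s = κ * upp x s := by rw [upp_split hyx hs.ne', e1]
  have hU' : upp y s' = κ' * upp x s' := by rw [upp_split hyx hs'.ne', e2]
  have ekk : k = κ₀ * (w * κ) := by rw [ew, ek]
  have ekk' : k' = κ₀ * (w' * κ') := by rw [ew', ek']
  set δ : ℝ := upp x s * γ - A / k with hδ
  set δ' : ℝ := upp x s' * γ - A' / k' with hδ'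
  have hκ₀R : (0 : ℝ) < κ₀ := by exact_mod_cast hκ₀0
  have hwR : (0 : ℝ) < w := by exact_mod_cast hw0
  have hwR' : (0 : ℝ) < w' := by exact_mod_cast hw0'
  have hδn : (upp y s : ℝ) * γ - A / ((κ₀ * w : ℕ) : ℝ) = κ * δ := by
    rw [hδ, hU, ekk]; push_cast; field_simp
  have hδn' : (upp y s' : ℝ) * γ - A' / ((κ₀ * w' : ℕ) : ℝ) = κ' * δ' := by
    rw [hδ', hU', ekk']; push_cast; field_simp
  have hcww : Nat.Coprime (w * κ) (w' * κ') := by rw [ew, ew']; exact hc1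
  have hdep : S2bx284.dep k k' T δ δ' (low x s) (low x s') =
      (κ : ℝ) * κ' * S2bx284.dep (κ₀ * w) (κ₀ * w') T (κ * δ) (κ' * δ') u v := by
    rw [hS, hS', ← dep_twist hcww, ← ekk, ← ekk']
  set dn := S2bx284.dep (κ₀ * w) (κ₀ * w') T (κ * δ) (κ' * δ') u v with hdn
  have hκκ : (0 : ℝ) < (κ : ℝ) * κ' := mul_pos hκR hκR'
  refine ⟨⟨hu0, hv0, -h, ?_⟩, A, κ₀ * w, A', κ₀ * w', ⟨⟨?_, ?_, ?_, ?_⟩, ⟨?_, ?_, ?_, ?_⟩⟩, ?_, ?_⟩
  · have h1 : (u : ℝ) * (upp y s * γ) - v * (upp y s' * γ) - ((-h : ℤ) : ℝ) =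
        ((s : ℝ) - s') * γ + h := by
      have h2 : (u : ℝ) * upp y s = s := by exact_mod_cast low_mul_upp y hs.ne'
      have h3 : (v : ℝ) * upp y s' = s' := by exact_mod_cast low_mul_upp y hs'.ne'
      push_cast
      linear_combination γ * h2 - γ * h3
    rw [h1]; exact hl
  · exact Nat.mul_pos hκ₀0 hw0
  · have h1 := l1.2.1
    rw [ekk] at h1
    have e : ((κ₀ * (w * κ) : ℕ) : ℤ) = ((κ₀ * w : ℕ) : ℤ) * κ := by push_cast; ring
    rw [e] at h1
    exact h1.of_mul_right_left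
  · refine le_trans ?_ l1.2.2.1
    have h1 : κ₀ * w ≤ k := by
      rw [ekk, ← mul_assoc]; exact Nat.le_mul_of_pos_right _ hκ0
    exact_mod_cast h1
  · rw [hδn, abs_mul, abs_of_pos hκR]
    have h1 := l1.2.2.2
    rw [hS] at h1
    calc (κ : ℝ) * |δ| ≤ κ * (E / (T * ((u * κ : ℕ) : ℝ))) := mul_le_mul_of_nonneg_left h1 hκR.le
      _ = E / (T * u) := by push_cast; field_simp
  · exact Nat.mul_pos hκ₀0 hw0'
  · have h1 := l2.2.1
    rw [ekk'] at h1
    have e : ((κ₀ * (w' * κ') : ℕ) : ℤ) = ((κ₀ * w' : ℕ) : ℤ) * κ' := by push_cast; ring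
    rw [e] at h1
    exact h1.of_mul_right_left
  · refine le_trans ?_ l2.2.2.1
    have h1 : κ₀ * w' ≤ k' := by
      rw [ekk', ← mul_assoc]; exact Nat.le_mul_of_pos_right _ hκ0'
    exact_mod_cast h1
  · rw [hδn', abs_mul, abs_of_pos hκR']
    have h1 := l2.2.2.2
    rw [hS'] at h1
    calc (κ' : ℝ) * |δ'| ≤ κ' * (E / (T * ((v * κ' : ℕ) : ℝ))) :=
          mul_le_mul_of_nonneg_left h1 hκR'.le
      _ = E / (T * v) := by push_cast; field_simp
  · rw [hδn, hδn']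
    by_cases hsh : S2bx284.IsShort (κ₀ * w) (κ₀ * w') T (κ * δ) (κ' * δ') u v
    · right
      have h1 : ¬ (((low x s : ℕ) : ℝ) * (low x s' : ℕ)) ^ 3 ≤
          S2bx284.dep k k' T δ δ' (low x s) (low x s') := fun hc => hns ⟨h64, hc⟩
      push Not at h1
      have h2 := hP.trans_lt h1
      have h3 : (κ : ℝ) * κ' * P < ((low x s : ℕ) : ℝ) * (low x s' : ℕ) :=
        lt_of_pow_lt_pow_left₀ 3 (by positivity) h2
      rw [hS, hS'] at h3
      push_cast at h3
      have h4 : (κ : ℝ) * κ' * P < (κ : ℝ) * κ' * (u * v) := by linarith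
      exact (lt_of_mul_lt_mul_left h4 hκκ.le).le
    · exact Or.inl hsh
  · rw [hδn, hδn']
    rw [hdep] at hK
    exact le_of_mul_le_mul_left hK hκκ

/-! ### the high words -/

/-- **(6.1)** `upp y (g s) = κ z0` -/
lemma upp_gs {x y g s : ℕ} (hyx : y ≤ x) (hg : g ≠ 0) (hs : s ≠ 0) :
    upp y (g * s) = upp y (low x s) * (upp y g * upp x s) := by
  rw [upp_mul y hg hs, upp_split hyx hs]
  ring

lemma low_gs (y : ℕ) {g s : ℕ} (hg : g ≠ 0) (hs : s ≠ 0) : low y (g * s) = low y g * low y s :=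
  low_mul y hg hs

lemma coprime_low (y : ℕ) {s s' : ℕ} (h : Nat.Coprime s s') : Nat.Coprime (low y s) (low y s') :=
  (h.coprime_dvd_left (low_dvd_self _ _)).coprime_dvd_right (low_dvd_self _ _)

lemma coprime_upp (y : ℕ) {s s' : ℕ} (h : Nat.Coprime s s') : Nat.Coprime (upp y s) (upp y s') :=
  (h.coprime_dvd_left (upp_dvd_self _ _)).coprime_dvd_right (upp_dvd_self _ _)

/-- `gcd` of the low words -/
lemma gcd_low {y g s s' : ℕ} (hg : g ≠ 0) (hs : s ≠ 0) (hs' : s' ≠ 0) (hcop : Nat.Coprime s s') :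
    Nat.gcd (low y (g * s)) (low y (g * s')) = low y g := by
  rw [low_gs y hg hs, low_gs y hg hs', Nat.gcd_mul_left, (coprime_low y hcop).gcd_eq_one, mul_one]

/-- `gcd` of the high words -/
lemma gcd_upp {y g s s' : ℕ} (hg : g ≠ 0) (hs : s ≠ 0) (hs' : s' ≠ 0) (hcop : Nat.Coprime s s') :
    Nat.gcd (upp y (g * s)) (upp y (g * s')) = upp y g := by
  rw [upp_mul y hg hs, upp_mul y hg hs', Nat.gcd_mul_left, (coprime_upp y hcop).gcd_eq_one,
    mul_one]

/-- `gcd` of the untwisted high words -/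
lemma gcd_z0 {x y g s s' : ℕ} (hcop : Nat.Coprime s s') :
    Nat.gcd (upp y g * upp x s) (upp y g * upp x s') = upp y g := by
  rw [Nat.gcd_mul_left, (coprime_upp x hcop).gcd_eq_one, mul_one]

/-- the letters of `z0` above `x` are those of `g s` -/
lemma fact_z0 {x y g s p : ℕ} (hyx : y ≤ x) (hg : g ≠ 0) (hs : s ≠ 0) (hp : x < p) :
    (upp y g * upp x s).factorization p = (g * s).factorization p := by
  rw [Nat.factorization_mul (upp_pos _ _).ne' (upp_pos _ _).ne', Finsupp.add_apply, fact_upp,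
    fact_upp, if_pos (by omega), if_pos (by omega), Nat.factorization_mul hg hs,
    Finsupp.add_apply]

/-- the letters of `z0` at or below `x` are those of `upp y g` -/
lemma fact_z0' {x y g s p : ℕ} (hp : p ≤ x) :
    (upp y g * upp x s).factorization p = (upp y g).factorization p := by
  rw [Nat.factorization_mul (upp_pos _ _).ne' (upp_pos _ _).ne', Finsupp.add_apply, fact_upp x s,
    if_neg (by omega), add_zero]

lemma z0_dvd {x y g s : ℕ} (hM : 0 < M) (hyx : y ≤ x) (hb : g * s ∣ M) :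
    upp y g * upp x s ∣ upp y M := by
  have hg0 : g * s ≠ 0 := (Nat.pos_of_dvd_of_pos hb hM).ne'
  have h1 := upp_dvd y hM.ne' hb
  rw [upp_gs hyx (left_ne_zero_of_mul hg0) (right_ne_zero_of_mul hg0)] at h1
  exact (Dvd.intro_left _ rfl).trans h1

lemma upp_upp_z0 {x y g s : ℕ} (hyx : y ≤ x) : upp y (upp y g * upp x s) = upp y g * upp x s := by
  rw [upp_mul y (upp_pos _ _).ne' (upp_pos _ _).ne', upp_upp le_rfl]
  congr 1
  refine Nat.eq_of_factorization_eq (upp_pos _ _).ne' (upp_pos _ _).ne' fun p => ?_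
  rw [fact_upp, fact_upp]
  by_cases hp : p ≤ x
  · simp [hp]
  · have : ¬ p ≤ y := by omega
    simp [this]

/-! ### kept pairs -/

open Crest.Agent.R4C.NonPurex559 Crest.Agent.R4C.NonPureBlkx559 Crest.Agent.R4C.Keptx559 in
/-- **(6.1)(C)** the untwisted high words are a kept pair -/
theorem kz_of {x y g s s' j0 jB : ℕ} (hM : 0 < M) (hb : g * s ∣ M) (hc : g * s' ∣ M)
    (hyx : y ≤ x) (hj : j0 ≤ jB) (hX : Xj jB ≤ x)
    (hgood : F.good (Xj jB) (g * s) (g * s')) (hκ : upp y (low x s) ≤ Xj jB)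
    (hκ' : upp y (low x s') ≤ Xj jB) :
    KZ (PureL2x232.hiFL hM y F) j0 (upp y g * upp x s) (upp y g * upp x s') := by
  classical
  have hg0 : g * s ≠ 0 := (Nat.pos_of_dvd_of_pos hb hM).ne'
  have hg0' : g * s' ≠ 0 := (Nat.pos_of_dvd_of_pos hc hM).ne'
  have hg := left_ne_zero_of_mul hg0
  have hs := right_ne_zero_of_mul hg0
  have hs' := right_ne_zero_of_mul hg0'
  set z0 := upp y g * upp x s with hz0
  set z0' := upp y g * upp x s' with hz0'
  have hd : z0 ∣ M := (z0_dvd hM hyx hb).trans (upp_dvd_self _ _)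
  have hd' : z0' ∣ M := (z0_dvd hM hyx hc).trans (upp_dvd_self _ _)
  have hzp : 0 < z0 := Nat.mul_pos (upp_pos _ _) (upp_pos _ _)
  have hzp' : 0 < z0' := Nat.mul_pos (upp_pos _ _) (upp_pos _ _)
  by_cases hne : z0 = z0'
  · exact Or.inl hne
  have hex : ∃ q, z0.factorization q ≠ z0'.factorization q := by
    by_contra hcon
    push Not at hcon
    exact hne (Nat.eq_of_factorization_eq hzp.ne' hzp'.ne' hcon)
  set q := Nat.find hex with hq
  have hqne : z0.factorization q ≠ z0'.factorization q := Nat.find_spec hex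
  have hqmin : ∀ r, r < q → z0.factorization r = z0'.factorization r := fun r hr => by
    by_contra hcon
    exact Nat.find_min hex hr hcon
  have hqp : q.Prime := by
    by_contra hnp
    apply hqne
    rw [Nat.factorization_eq_zero_of_not_prime _ hnp, Nat.factorization_eq_zero_of_not_prime _ hnp]
  have hxq : x < q := by
    by_contra hcon
    apply hqne
    rw [hz0, hz0', fact_z0' (not_lt.1 hcon), fact_z0' (not_lt.1 hcon)]
  set l := Nat.log 2 q with hl
  have hq0 : q ≠ 0 := hqp.ne_zero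
  have hl1 : 1 ≤ l := by
    have := Nat.log_mono_right (b := 2) hqp.two_le
    have h2 : Nat.log 2 2 = 1 := by norm_num
    omega
  have hql : 2 ^ l ≤ q := Nat.pow_log_le_self 2 hq0
  have hqu : q < 2 ^ (l + 1) := Nat.lt_pow_succ_log_self (by norm_num) q
  set j := Nat.log 2 l with hjdef
  have hjl : 2 ^ j ≤ l := Nat.pow_log_le_self 2 (by omega)
  have hju : l < 2 ^ (j + 1) := Nat.lt_pow_succ_log_self (by norm_num) l
  have hq1 : Xj j < q := by
    have h1 : 2 ^ (2 ^ j) ≤ q := (Nat.pow_le_pow_right (by norm_num) hjl).trans hql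
    have h2 : 0 < 2 ^ (2 ^ j) := by positivity
    unfold Xj
    omega
  have hq2 : q ≤ Xj (j + 1) := by
    have h1 : 2 ^ (l + 1) ≤ 2 ^ (2 ^ (j + 1)) := Nat.pow_le_pow_right (by norm_num) (by omega)
    unfold Xj
    omega
  have hjB : jB ≤ j := by
    have h1 : Xj jB < q := lt_of_le_of_lt hX hxq
    have h2 : 2 ^ (2 ^ jB) ≤ q := by
      unfold Xj at h1
      omega
    have h3 : 2 ^ jB ≤ l := Nat.le_log_of_pow_le (by norm_num) h2
    exact Nat.le_log_of_pow_le (by norm_num) h3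
  have hXX : Xj jB ≤ Xj j := by
    unfold Xj
    have h1 : 2 ^ (2 ^ jB) ≤ 2 ^ (2 ^ j) :=
      Nat.pow_le_pow_right (by norm_num) (Nat.pow_le_pow_right (by norm_num) hjB)
    omega
  have hkept : KeptAt F y j z0 z0' := by
    refine ⟨fun r _ _ hr => hqmin r (lt_of_le_of_lt hr hq1), ⟨q, hqp, by omega, hq2, hqne⟩, ?_⟩
    have hfac : ∀ {s : ℕ}, g * s ≠ 0 → upp y (low x s) ≤ Xj jB → ∀ p : ℕ, p.Prime →
        max y (Xj j) < p → (g * s).factorization p = (upp y g * upp x s).factorization p := by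
      intro s h0 hle p hp hmax
      have hs0 := right_ne_zero_of_mul h0
      have hg0 := left_ne_zero_of_mul h0
      have hy : y < p := lt_of_le_of_lt (le_max_left _ _) hmax
      have hXp : Xj j < p := lt_of_le_of_lt (le_max_right _ _) hmax
      have h1 : (g * s).factorization p = (upp y (g * s)).factorization p := by
        rw [fact_upp, if_pos (by omega)]
      have h2 : (upp y (low x s)).factorization p = 0 := by
        refine Nat.factorization_eq_zero_of_not_dvd fun hd => ?_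
        have := Nat.le_of_dvd (upp_pos _ _) hd
        omega
      rw [h1, upp_gs hyx hg0 hs0, Nat.factorization_mul (upp_pos _ _).ne'
        (mul_ne_zero (upp_pos _ _).ne' (upp_pos _ _).ne'), Finsupp.add_apply, h2, zero_add]
    exact TwistKKx863.good_congr hb hd (hfac hg0 hκ) (hfac hg0' hκ')
      (FL.good_mono (hXX.trans (le_max_right _ _)) hgood)
  have h1 := kept_KZ hM F (hj.trans hjB) hd hd' hkept
  rwa [hz0, hz0', upp_upp_z0 hyx, upp_upp_z0 hyx] at h1

/-! ### displacement and depth -/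

/-- the displacement in terms of the target of the low word -/
lemma uu_mul_abs {γ : ℝ} {x g s s' : ℕ} (hM : 0 < M) (hb : g * s ∣ M) (hc : g * s' ∣ M)
    (hcop : Nat.Coprime s s') (hx : F.good x (g * s) (g * s')) (a : ℤ) (k : ℕ) :
    (F.uu x (g * s) : ℝ) * |(F.lam x (g * s) : ℝ) * γ - a / k| =
      g * (low x s * |(upp x s : ℝ) * γ - (((F.ell x (g * s') : ℕ) * a : ℤ) : ℝ) / k|) := by
  have hg0 : g * s ≠ 0 := (Nat.pos_of_dvd_of_pos hb hM).ne'
  have hs : 0 < s := Nat.pos_of_ne_zero fun h => hg0 (by rw [h, mul_zero])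
  have hup := upp_cof hM hb hc hcop hx
  set lam := F.lam x (g * s) with hlam
  set ell := F.ell x (g * s') with hell
  have hl : 0 < lam := FL.lam_pos x _
  have he : 0 < ell := FL.ell_pos x _
  have heR : (0 : ℝ) < ell := by exact_mod_cast he
  have hupR : (upp x s : ℝ) = lam * ell := by exact_mod_cast hup
  have h2 : F.uu x (g * s) * lam = g * s := FL.uu_mul_lam hM hb
  have h3 : low x s * upp x s = s := low_mul_upp x hs.ne'
  have h4 : F.uu x (g * s) = g * (low x s * ell) := by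
    refine Nat.eq_of_mul_eq_mul_right hl ?_
    rw [h2]
    nth_rewrite 1 [← h3]
    rw [hup]; ring
  have h4R : (F.uu x (g * s) : ℝ) = g * (low x s * ell) := by exact_mod_cast h4
  have e : (upp x s : ℝ) * γ - (((ell : ℕ) * a : ℤ) : ℝ) / k = ell * ((lam : ℝ) * γ - a / k) := by
    rw [hupR]; push_cast; ring
  rw [e, abs_mul, abs_of_pos heR, h4R]
  ring

lemma le_dep_left {k k' : ℕ} {t δ δ' : ℝ} {u v : ℕ} (hk : 0 < k) (hk' : 0 < k') :
    (k : ℝ) * max 1 (t * u * |δ|) ≤ S2bx284.dep k k' t δ δ' u v := by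
  unfold S2bx284.dep
  have h1 : (k : ℝ) ≤ Nat.lcm k k' := by
    exact_mod_cast Nat.le_of_dvd (Nat.lcm_pos hk hk') (Nat.dvd_lcm_left k k')
  refine mul_le_mul h1 (max_le_max le_rfl (le_max_left _ _)) ?_ (Nat.cast_nonneg _)
  exact zero_le_one.trans (le_max_left _ _)

lemma dep_swap {k k' : ℕ} {t δ δ' : ℝ} {u v : ℕ} :
    S2bx284.dep k' k t δ' δ v u = S2bx284.dep k k' t δ δ' u v := by
  unfold S2bx284.dep
  rw [Nat.lcm_comm, max_comm (t * v * |δ'|)]

/-- displacement `≤ 2 dep L` -/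
lemma disp_le_dep {γ T L : ℝ} {x g s s' : ℕ} (hM : 0 < M) (hb : g * s ∣ M) (hc : g * s' ∣ M)
    (hcop : Nat.Coprime s s') (hx : F.good x (g * s) (g * s')) (hL : 0 < L)
    (hg2 : (g : ℝ) ≤ 2 * (T * L)) {a : ℤ} {k : ℕ} {k' : ℕ} (hk : 0 < k) (hk' : 0 < k') (δ' : ℝ)
    (v : ℕ) :
    (k : ℝ) * ((F.uu x (g * s) : ℝ) * |(F.lam x (g * s) : ℝ) * γ - a / k|) ≤
      2 * S2bx284.dep k k' T (upp x s * γ - (((F.ell x (g * s') : ℕ) * a : ℤ) : ℝ) / k) δ'
        (low x s) v * L := by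
  rw [uu_mul_abs hM hb hc hcop hx]
  set δ : ℝ := upp x s * γ - (((F.ell x (g * s') : ℕ) * a : ℤ) : ℝ) / k with hδ
  have h1 := le_dep_left (t := T) (δ := δ) (δ' := δ') (u := low x s) (v := v) hk hk'
  have h2 : T * (low x s : ℝ) * |δ| ≤ max 1 (T * (low x s : ℝ) * |δ|) := le_max_right _ _
  have hk0 : (0 : ℝ) ≤ k := Nat.cast_nonneg _
  have h3 : (0 : ℝ) ≤ (low x s : ℝ) * |δ| := by positivity
  calc (k : ℝ) * (g * (low x s * |δ|)) ≤ k * ((2 * (T * L)) * (low x s * |δ|)) :=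
        mul_le_mul_of_nonneg_left (mul_le_mul_of_nonneg_right hg2 h3) hk0
    _ = 2 * (k * (T * (low x s : ℝ) * |δ|)) * L := by ring
    _ ≤ 2 * (k * max 1 (T * (low x s : ℝ) * |δ|)) * L := by
        refine mul_le_mul_of_nonneg_right ?_ hL.le
        exact mul_le_mul_of_nonneg_left (mul_le_mul_of_nonneg_left h2 hk0) (by norm_num)
    _ ≤ _ := by
        refine mul_le_mul_of_nonneg_right ?_ hL.le
        exact mul_le_mul_of_nonneg_left h1 (by norm_num)

/-- the depth of the rule is `≤ 2 dep` -/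
lemma rdep_le {P : Rulex945.Par} {m : ℕ} {g s s' : ℕ} (hM : 0 < M) (hb : g * s ∣ M)
    (hc : g * s' ∣ M) (hcop : Nat.Coprime s s') (hx : F.good (P.cut m) (g * s) (g * s'))
    (hL : 0 < P.L) (hg2 : (g : ℝ) ≤ 2 * ((2 : ℝ) ^ m * P.L)) {a : ℤ} {k : ℕ} {k' : ℕ}
    (hk : 0 < k) (hk' : 0 < k') (δ' : ℝ) (v : ℕ) :
    Rulex945.dep F P m (g * s) (fr F (P.cut m) (g * s) a k) ≤
      2 * S2bx284.dep k k' ((2 : ℝ) ^ m) (upp (P.cut m) s * P.γ -
        (((F.ell (P.cut m) (g * s') : ℕ) * a : ℤ) : ℝ) / k) δ' (low (P.cut m) s) v := by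
  have hD := disp_le_dep (γ := P.γ) (T := (2 : ℝ) ^ m) (L := P.L) hM hb hc hcop hx
    hL hg2 (a := a) hk hk' δ' v
  set dp := S2bx284.dep k k' ((2 : ℝ) ^ m) (upp (P.cut m) s * P.γ -
        (((F.ell (P.cut m) (g * s') : ℕ) * a : ℤ) : ℝ) / k) δ' (low (P.cut m) s) v with hdp
  have hkR : (1 : ℝ) ≤ k := by exact_mod_cast hk
  have hkd : (k : ℝ) ≤ dp := by
    refine le_trans ?_ (le_dep_left hk hk')
    nlinarith [le_max_left (1 : ℝ) ((2 : ℝ) ^ m * (low (P.cut m) s : ℕ) *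
      |upp (P.cut m) s * P.γ - (((F.ell (P.cut m) (g * s') : ℕ) * a : ℤ) : ℝ) / k|)]
  have hk0 : Rulex945.k0 F (P.cut m) (g * s) (fr F (P.cut m) (g * s) a k) ≤ k := by
    refine Rulex945.k0_le (F := F) ⟨hk, ?_⟩
    exact fr_den_dvd a k
  have hk0R : (Rulex945.k0 F (P.cut m) (g * s) (fr F (P.cut m) (g * s) a k) : ℝ) ≤ k := by
    exact_mod_cast hk0
  have hdf := disp_fr (F := F) (x := P.cut m) hM hb a hk P.γ
  unfold Centx949.disp at hdf
  unfold Rulex945.dep
  rw [hdf]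
  set X : ℝ := (F.uu (P.cut m) (g * s) : ℝ) * |(F.lam (P.cut m) (g * s) : ℝ) * P.γ - a / k| with hX
  have hX0 : 0 ≤ X := by positivity
  have h1 : (k : ℝ) * max 1 (X / P.L) ≤ 2 * dp := by
    rw [mul_max_of_nonneg _ _ (by linarith)]
    refine max_le (by linarith) ?_
    rw [← mul_div_assoc, div_le_iff₀ hL]
    exact hD
  refine le_trans ?_ h1
  exact mul_le_mul_of_nonneg_right hk0R (zero_le_one.trans (le_max_left _ _))

/-! ### the twists -/

/-- the denominator of the label at the scale `2^m`, a function of `lam` -/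
noncomputable def lb (P : Rulex945.Par) (m l : ℕ) : ℕ := by
  classical
  exact if h : ∃ (k : ℕ), ∃ a : ℤ, 0 < k ∧ IsCoprime a (k : ℤ) ∧ (k : ℝ) ≤ P.E m ∧
    |(l : ℝ) * P.γ - a / k| ≤ P.E m / 2 ^ m then Classical.choose h else 0

lemma lb_eq {P : Rulex945.Par} {m l k : ℕ} {a : ℤ} (hE : 2 * P.E m ^ 3 < 2 ^ m) (hk : 0 < k)
    (hc : IsCoprime a (k : ℤ)) (hkE : (k : ℝ) ≤ P.E m)
    (hd : |(l : ℝ) * P.γ - a / k| ≤ P.E m / 2 ^ m) : lb P m l = k := by
  classical
  have h : ∃ (k : ℕ), ∃ a : ℤ, 0 < k ∧ IsCoprime a (k : ℤ) ∧ (k : ℝ) ≤ P.E m ∧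
    |(l : ℝ) * P.γ - a / k| ≤ P.E m / 2 ^ m := ⟨k, a, hk, hc, hkE, hd⟩
  have e : lb P m l = Classical.choose h := by
    unfold lb
    rw [dif_pos h]
  obtain ⟨a', hk', hc', hkE', hd'⟩ := Classical.choose_spec h
  rw [e]
  set k' := Classical.choose h with hk'def
  have hkR : (0 : ℝ) < k := by exact_mod_cast hk
  have hkR' : (0 : ℝ) < k' := by exact_mod_cast hk'
  have hE0 : 0 < P.E m := hkR.trans_le hkE
  have h2m : (0 : ℝ) < 2 ^ m := by positivity
  set X : ℤ := a * k' - a' * k with hX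
  have e1 : (X : ℝ) = (k * k') * (((l : ℝ) * P.γ - a' / k') - ((l : ℝ) * P.γ - a / k)) := by
    rw [hX]; push_cast; field_simp; ring
  have h1 : |(X : ℝ)| < 1 := by
    rw [e1, abs_mul, abs_of_pos (mul_pos hkR hkR')]
    have h2 := abs_sub ((l : ℝ) * P.γ - a' / k') ((l : ℝ) * P.γ - a / k)
    calc (k * k' : ℝ) * |((l : ℝ) * P.γ - a' / k') - ((l : ℝ) * P.γ - a / k)|
        ≤ (P.E m * P.E m) * (P.E m / 2 ^ m + P.E m / 2 ^ m) := by
          refine mul_le_mul (mul_le_mul hkE hkE' hkR'.le hE0.le) ?_ (abs_nonneg _) (by positivity)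
          linarith
      _ = (2 * P.E m ^ 3) / 2 ^ m := by ring
      _ < 1 := by rw [div_lt_one h2m]; exact hE
  have hX0 : X = 0 := by
    have : |X| < 1 := by exact_mod_cast h1
    exact Int.abs_lt_one_iff.1 this
  have e2 : a * (k' : ℤ) = a' * k := by rw [hX] at hX0; linarith
  have d1 : (k : ℤ) ∣ k' := hc.symm.dvd_of_dvd_mul_left ⟨a', by rw [e2]; ring⟩
  have d2 : (k' : ℤ) ∣ k := hc'.symm.dvd_of_dvd_mul_left ⟨a, by rw [← e2]; ring⟩
  exact Nat.dvd_antisymm (Int.natCast_dvd_natCast.1 d2) (Int.natCast_dvd_natCast.1 d1)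

/-- **(6.1)(B)** the twist belongs to the set of twists of `z0` -/
theorem kk_of {P : Rulex945.Par} {m y g s s' N : ℕ} {R : ℝ} {I : Finset ℕ} (hM : 0 < M)
    (hb : g * s ∣ M) (hc : g * s' ∣ M) (hcop : Nat.Coprime s s') (hL : 0 < P.L)
    (hx : F.good (P.cut m) (g * s) (g * s')) (hyx : y ≤ P.cut m)
    (hg1 : (2 : ℝ) ^ m * P.L ≤ g) {a : ℤ} {k k' : ℕ}
    (htc : Pairx14.TC F P.γ P.L (P.E m) (P.cut m) (g * s) a k)
    (hkx : k ≤ P.cut m) (hk' : 0 < k') (hkx' : k' ≤ P.cut m) (hkN : k ≤ N)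
    (hE : 2 * P.E m ^ 3 < 2 ^ m) (hmI : m ∈ I)
    (hκ : upp y (low (P.cut m) s) ∣ k) (hκ' : upp y (low (P.cut m) s') ∣ k') (hR : 0 ≤ R)
    (hD : (F.uu (P.cut m) (g * s) : ℝ) * |(F.lam (P.cut m) (g * s) : ℝ) * P.γ - a / k| ≤
      R * P.L) :
    upp y (low (P.cut m) s) ∈ TwistKKx863.KK F P.γ P.L ((2 : ℝ) ^ (Nat.log 2 (low y g))) R N
      P.cut (lb P) I (upp y g * upp (P.cut m) s) := by
  have hg0 : g * s ≠ 0 := (Nat.pos_of_dvd_of_pos hb hM).ne'
  have hg0' : g * s' ≠ 0 := (Nat.pos_of_dvd_of_pos hc hM).ne'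
  have hg := left_ne_zero_of_mul hg0
  have hs := right_ne_zero_of_mul hg0
  have hs' := right_ne_zero_of_mul hg0'
  set x := P.cut m with hxdef
  set X : ℝ := (2 : ℝ) ^ (Nat.log 2 (low y g)) with hX
  have hX0 : 0 < X := by positivity
  have hlg : 0 < low y g := low_pos _ _
  have hX1 : X ≤ low y g := by
    have := Nat.pow_log_le_self 2 hlg.ne'
    rw [hX]
    exact_mod_cast this
  have hX2 : (low y g : ℝ) ≤ 2 * X := by
    have := (Nat.lt_pow_succ_log_self (b := 2) (by norm_num) (low y g)).le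
    rw [pow_succ] at this
    have h1 : (low y g : ℝ) ≤ (2 : ℝ) ^ (Nat.log 2 (low y g)) * 2 := by exact_mod_cast this
    rw [hX]; linarith
  -- the two words
  have hw : ∀ s : ℕ, s ≠ 0 → (low y (g * s) * upp y (low x s)) * (upp y g * upp x s) = g * s := by
    intro s hs
    rw [mul_assoc, ← upp_gs hyx hg hs, low_mul_upp y (mul_ne_zero hg hs)]
  have hpw : ∀ (s k : ℕ), 0 < k → k ≤ x → upp y (low x s) ∣ k → ∀ p, p.Prime →
      p ∣ low y (g * s) * upp y (low x s) → p ≤ x := by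
    intro s k hk0 hkx hd p hp hpd
    rcases (hp.dvd_mul).1 hpd with h1 | h1
    · exact (prime_dvd_part (fun p => p ≤ y) hp h1).trans hyx
    · exact (Nat.le_of_dvd hk0 (h1.trans hd)).trans hkx
  have hz0 : upp y g * upp x s ∣ M := (z0_dvd hM hyx hb).trans (upp_dvd_self _ _)
  have hlam : F.lam x (upp y g * upp x s) = F.lam x (g * s) := by
    refine (TwistKKx863.lam_congr hb hz0 fun p _ hp => ?_).symm
    exact (fact_z0 hyx hg hs hp).symm
  have hsmall : |(F.lam x (g * s) : ℝ) * P.γ - a / k| ≤ P.E m / 2 ^ m := by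
    have h1 := htc.near
    have huu : (2 : ℝ) ^ m * P.L ≤ F.uu x (g * s) :=
      hg1.trans (by exact_mod_cast uu_ge hM hb hc hcop hx)
    rw [le_div_iff₀ (by positivity)]
    have h2 : (|(F.lam x (g * s) : ℝ) * P.γ - a / k| * 2 ^ m) * P.L ≤ P.E m * P.L := by
      calc _ = (2 ^ m * P.L) * |(F.lam x (g * s) : ℝ) * P.γ - a / k| := by ring
        _ ≤ F.uu x (g * s) * |(F.lam x (g * s) : ℝ) * P.γ - a / k| :=
            mul_le_mul_of_nonneg_right huu (abs_nonneg _)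
        _ ≤ _ := h1
    exact le_of_mul_le_mul_right h2 hL
  have hlb : lb P m (F.lam x (upp y g * upp x s)) = k := by
    rw [hlam]
    exact lb_eq hE htc.pos htc.cop htc.le hsmall
  have hb' : (low y (g * s) * upp y (low x s)) * (upp y g * upp x s) ∣ M := by
    rw [hw s hs]; exact hb
  have hc' : (low y (g * s') * upp y (low x s')) * (upp y g * upp x s') ∣ M := by
    rw [hw s' hs']; exact hc
  refine TwistKKx863.mem_KK.2 ⟨m, hmI, ⟨?_, ?_, ?_, ?_, a, ?_, ?_⟩, ?_⟩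
  · rw [hlb]; exact htc.pos
  · rw [hlb]; exact hkN
  · rw [hlb]; exact hkx
  · refine TwistKKx863.scale_of_pair (x := P.cut) (i := m) hM hL hb' hc'
      (hpw s k htc.pos hkx hκ) (hpw s' k' hk' hkx' hκ') ?_ ?_ ?_ hX0.le
    · rw [hw s hs, hw s' hs']; exact hx
    · rw [hw s hs, hw s' hs', Nat.gcd_mul_left, hcop.gcd_eq_one, mul_one]
      exact hg1
    · rw [hw s hs, hw s' hs', gcd_z0 hcop, Nat.gcd_mul_left, hcop.gcd_eq_one, mul_one]
      have h1 : (g : ℝ) = low y g * upp y g := by exact_mod_cast (low_mul_upp y hg).symm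
      rw [h1]
      exact mul_le_mul_of_nonneg_right hX2 (Nat.cast_nonneg _)
  · rw [hlb]; exact htc.cop
  · rw [hlb]
    refine TwistKKx863.label_of_member (x := P.cut) (i := m) hM hL hR hX0 hb'
      (hpw s k htc.pos hkx hκ) ?_ ?_
    · have h1 : low y g ≤ low y (g * s) * upp y (low x s) := by
        rw [low_gs y hg hs]
        calc low y g = low y g * 1 * 1 := by ring
          _ ≤ low y g * low y s * upp y (low x s) :=
            Nat.mul_le_mul (Nat.mul_le_mul_left _ (low_pos _ _)) (upp_pos _ _)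
      exact hX1.trans (by exact_mod_cast h1)
    · rw [hw s hs]
      have huu : (0 : ℝ) < F.uu x (g * s) := by exact_mod_cast FL.uu_pos (F := F) x (g * s)
      rw [le_div_iff₀ (by positivity), ← mul_div_assoc, div_le_iff₀ hL, mul_comm _ (F.uu x (g * s) : ℝ)]
      exact hD
  · rw [hlb]; exact hκ

/-! ### the pairs of class (L) -/

/-- labelled pair of the scale `2^m`: tree labels of both members, same point, not short,
explained primes `≤ y` -/
structure LPair (F : FL M) (P : Rulex945.Par) (m y g s s' : ℕ) (h : ℤ) (a : ℤ) (k : ℕ) (a' : ℤ)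
    (k' : ℕ) : Prop where
  tb : Pairx14.TC F P.γ P.L (P.E m) (P.cut m) (g * s) a k
  tc : Pairx14.TC F P.γ P.L (P.E m) (P.cut m) (g * s') a' k'
  pt : BoostCx972.gap (fr F (P.cut m) (g * s) a k) (fr F (P.cut m) (g * s') a' k') s s' h = 0
  ns : ¬ S2bx284.IsShort k k' ((2 : ℝ) ^ m)
    (upp (P.cut m) s * P.γ - (((F.ell (P.cut m) (g * s') : ℕ) * a : ℤ) : ℝ) / k)
    (upp (P.cut m) s' * P.γ - (((F.ell (P.cut m) (g * s) : ℕ) * a' : ℤ) : ℝ) / k')
    (low (P.cut m) s) (low (P.cut m) s')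
  top : Top (P.cut m) y g s s' (fr F (P.cut m) (g * s) a k) (fr F (P.cut m) (g * s') a' k')

/-- depth of the low word of the pair (scale `2^m`) -/
noncomputable def dw (F : FL M) (P : Rulex945.Par) (m g s s' : ℕ) (a : ℤ) (k : ℕ) (a' : ℤ)
    (k' : ℕ) : ℝ :=
  S2bx284.dep k k' ((2 : ℝ) ^ m)
    (upp (P.cut m) s * P.γ - (((F.ell (P.cut m) (g * s') : ℕ) * a : ℤ) : ℝ) / k)
    (upp (P.cut m) s' * P.γ - (((F.ell (P.cut m) (g * s) : ℕ) * a' : ℤ) : ℝ) / k')
    (low (P.cut m) s) (low (P.cut m) s')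

lemma dw_swap (F : FL M) (P : Rulex945.Par) (m g s s' : ℕ) (a : ℤ) (k : ℕ) (a' : ℤ) (k' : ℕ) :
    dw F P m g s' s a' k' a k = dw F P m g s s' a k a' k' := by
  unfold dw
  exact dep_swap

lemma isShort_swap {k k' : ℕ} {t δ δ' : ℝ} {u v : ℕ} (h : S2bx284.IsShort k' k t δ' δ v u) :
    S2bx284.IsShort k k' t δ δ' u v := by
  unfold S2bx284.IsShort at h ⊢
  rw [dep_swap, mul_comm (v : ℝ)] at h
  exact h

namespace LPair

variable {P : Rulex945.Par} {m y y' g s s' : ℕ} {h : ℤ} {a a' : ℤ} {k k' : ℕ}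

lemma mono (hp : LPair F P m y g s s' h a k a' k') (hy : y ≤ y') :
    LPair F P m y' g s s' h a k a' k' :=
  ⟨hp.tb, hp.tc, hp.pt, hp.ns, fun p hpp h1 h2 => hp.top p hpp (by omega) h2⟩

lemma swap (hp : LPair F P m y g s s' h a k a' k') : LPair F P m y g s' s (-h) a' k' a k :=
  ⟨hp.tc, hp.tb, gap_symm hp.pt, fun h => hp.ns (isShort_swap h),
    fun p hpp h1 h2 => ⟨(hp.top p hpp h1 h2).2, (hp.top p hpp h1 h2).1⟩⟩

end LPair

/-- **cover of the good linked pairs of one scale, all data** -/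
theorem cover_rich {P : Rulex945.Par} {D : ℝ} {m g s s' : ℕ} {h : ℤ} (hL : 0 < P.L) (hM : 0 < M)
    (hN : (M : ℝ) / P.L ≤ P.N) (hE : ∀ m, P.m0 ≤ m → 2 * P.E m ^ 3 < 2 ^ m) (hm : P.m0 ≤ m)
    (hact : ∀ p, p ≤ P.cut m → P.Y (P.blk p) ≤ P.cut m)
    (hb : g * s ∣ M) (hc : g * s' ∣ M) (hcop : Nat.Coprime s s')
    (hx : F.good (P.cut m) (g * s) (g * s')) (hD : 4 ≤ D) (hT : 8 * (4 * D ^ 8) ^ 5 ≤ (2 : ℝ) ^ m)
    (hDE : 2 * (4 * D ^ 8) ≤ P.E m)
    (hg1 : (2 : ℝ) ^ m * P.L ≤ g) (hg2 : (g : ℝ) ≤ 2 * ((2 : ℝ) ^ m * P.L))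
    (hl : |((s : ℝ) - s') * P.γ + h| < P.L / g)
    (hk : ¬ killedL (Rulex945.lamR F P) (g * s) (g * s') s s' h) :
    Rare (upp (P.cut m) s * P.γ) (upp (P.cut m) s' * P.γ) (2 ^ m) D (low (P.cut m) s)
      (low (P.cut m) s') ∨
    Dom (upp (P.cut m) s * P.γ) (upp (P.cut m) s' * P.γ) (2 ^ m) (low (P.cut m) s)
      (low (P.cut m) s') ∨
    UD F P.γ (2 ^ m) (4 * D ^ 8) (P.cut m) (g * s) (g * s') ∨
    UD F P.γ (2 ^ m) (4 * D ^ 8) (P.cut m) (g * s') (g * s) ∨
    ∃ (a : ℤ) (k : ℕ) (a' : ℤ) (k' : ℕ) (p : ℕ), LPair F P m p g s s' h a k a' k' ∧ p.Prime ∧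
      p ≤ P.cut m ∧
      ((p ∣ s' ∧ p ∣ alC (g * s') (g * s) (fr F (P.cut m) (g * s') a' k')
          (fr F (P.cut m) (g * s) a k) ∧
        PairRx14.Alt F P m (g * s) (fr F (P.cut m) (g * s) a k) p) ∨
       (p ∣ s ∧ p ∣ alC (g * s) (g * s') (fr F (P.cut m) (g * s) a k)
          (fr F (P.cut m) (g * s') a' k') ∧
        PairRx14.Alt F P m (g * s') (fr F (P.cut m) (g * s') a' k') p)) := by
  classical
  have hg0 : g * s ≠ 0 := (Nat.pos_of_dvd_of_pos hb hM).ne'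
  have hg0' : g * s' ≠ 0 := (Nat.pos_of_dvd_of_pos hc hM).ne'
  have hg : 0 < g := Nat.pos_of_ne_zero fun h => hg0 (by rw [h, zero_mul])
  have hs : 0 < s := Nat.pos_of_ne_zero fun h => hg0 (by rw [h, mul_zero])
  have hs' : 0 < s' := Nat.pos_of_ne_zero fun h => hg0' (by rw [h, mul_zero])
  have hgR : (0 : ℝ) < g := by exact_mod_cast hg
  have h2m : (0 : ℝ) < 2 ^ m := by positivity
  have hl' : |((s : ℝ) - s') * P.γ + h| < 1 / (2 : ℝ) ^ m := by
    refine hl.trans_le ?_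
    rw [div_le_div_iff₀ hgR h2m]
    linarith
  rcases pair_glue hM hb hc hcop hx hD hT hg2 hl' with h1 | h1 | h1 | h1 |
    ⟨a, k, a', k', htc, htc', hgap, hns, p₀, hp₀, hp₀x, hp₀e⟩
  · exact Or.inl h1
  · exact Or.inr (Or.inl h1)
  · exact Or.inr (Or.inr (Or.inl h1))
  · exact Or.inr (Or.inr (Or.inr (Or.inl h1)))
  right; right; right; right
  have hu : (2 : ℝ) ^ m * P.L ≤ F.uu (P.cut m) (g * s) :=
    hg1.trans (by exact_mod_cast uu_ge hM hb hc hcop hx)
  have hu' : (2 : ℝ) ^ m * P.L ≤ F.uu (P.cut m) (g * s') :=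
    hg1.trans (by exact_mod_cast uu_ge hM hc hb hcop.symm (FL.good_symm hb hc hx))
  set f := fr F (P.cut m) (g * s) a k with hf
  set f' := fr F (P.cut m) (g * s') a' k' with hf'
  have tb : Rulex945.TC F P m (g * s) f := PairRx14.TC_of_TC hM hb hL.le hDE htc hu
  have tc : Rulex945.TC F P m (g * s') f' := PairRx14.TC_of_TC hM hc hL.le hDE htc' hu'
  set S := (Finset.range (P.cut m + 1)).filter (fun p => p.Prime ∧
    (p ∣ alC (g * s) (g * s') f f' ∨ p ∣ alC (g * s') (g * s) f' f)) with hS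
  have hmem : ∀ p, p ∈ S ↔ p ≤ P.cut m ∧ p.Prime ∧
      (p ∣ alC (g * s) (g * s') f f' ∨ p ∣ alC (g * s') (g * s) f' f) := by
    intro p
    rw [hS, Finset.mem_filter, Finset.mem_range, Nat.lt_succ_iff]
  have hne : S.Nonempty := by
    refine ⟨p₀, (hmem p₀).2 ⟨hp₀x, hp₀, ?_⟩⟩
    rcases hp₀e with ⟨_, h2⟩ | ⟨_, h2⟩
    · exact Or.inl h2
    · exact Or.inr h2
  set p := S.max' hne with hp
  obtain ⟨hpx, hpp, hpe⟩ := (hmem p).1 (S.max'_mem hne)
  have htop : Top (P.cut m) p g s s' f f' := by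
    intro r hr hpr hrx
    have hrS : r ∉ S := fun hc => by
      have := S.le_max' r hc
      omega
    constructor
    · intro hc; exact hrS ((hmem r).2 ⟨hrx, hr, Or.inl hc⟩)
    · intro hc; exact hrS ((hmem r).2 ⟨hrx, hr, Or.inr hc⟩)
  refine ⟨a, k, a', k', p, ⟨htc.mono hL.le hDE, htc'.mono hL.le hDE, hgap, hns, htop⟩, hpp, hpx, ?_⟩
  rcases hpe with h1 | h1
  · right
    exact ⟨h1.trans (al_dvd_s hg hs hs' hcop hgap), h1,
      PairRx14.alt_right hL hM hN hE hc hm tc (hact p hpx) hpp hg hs hs' hcop hgap hk h1⟩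
  · left
    exact ⟨h1.trans (PairRx14.al'_dvd hg hs hs' hcop hgap), h1,
      PairRx14.alt_left hL hM hN hE hb hm tb (hact p hpx) hpp hg hs hs' hcop hgap hk h1⟩

open Crest.Agent.R4C.NonPureBlkx559 in
/-- **class (L)**, cut `y`, depth in `[K, 2K]` (the item of the missing prime plays no role here) -/
def CL (F : FL M) (P : Rulex945.Par) (jB : ℕ → ℕ) (y : ℕ) (K : ℝ) (b c : ℕ) : Prop :=
  ∃ (m : ℕ) (h : ℤ) (a : ℤ) (k : ℕ) (a' : ℤ) (k' : ℕ), P.m0 ≤ m ∧
    (2 : ℝ) ^ m * P.L ≤ (Nat.gcd b c : ℝ) ∧ (Nat.gcd b c : ℝ) ≤ 2 * ((2 : ℝ) ^ m * P.L) ∧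
    y ≤ P.cut m ∧ F.good (Xj (jB m)) b c ∧
    |((b / Nat.gcd b c : ℕ) - ((c / Nat.gcd b c : ℕ) : ℝ)) * P.γ + h| < P.L / Nat.gcd b c ∧
    LPair F P m y (Nat.gcd b c) (b / Nat.gcd b c) (c / Nat.gcd b c) h a k a' k' ∧
    K ≤ dw F P m (Nat.gcd b c) (b / Nat.gcd b c) (c / Nat.gcd b c) a k a' k' ∧
    dw F P m (Nat.gcd b c) (b / Nat.gcd b c) (c / Nat.gcd b c) a k a' k' ≤ 2 * K

open Crest.Agent.R4C.Keptx559 in
/-- the conclusions of (6.1) for a pair `b, c` of class (L) at the cut `y` -/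
structure Dec (hM : 0 < M) (F : FL M) (P : Rulex945.Par) (y j0 N : ℕ) (R K : ℝ) (b c : ℕ)
    (m κ κ' z0 z0' : ℕ) : Prop where
  hm : P.m0 ≤ m
  ez : upp y b = κ * z0
  ez' : upp y c = κ' * z0'
  dz : z0 ∣ upp y M
  dz' : z0' ∣ upp y M
  pos : 0 < κ
  pos' : 0 < κ'
  kk : κ ∈ TwistKKx863.KK F P.γ P.L ((2 : ℝ) ^ (Nat.log 2 (Nat.gcd (low y b) (low y c)))) R N
    P.cut (lb P) (Finset.range (P.N + 1)) z0
  kk' : κ' ∈ TwistKKx863.KK F P.γ P.L ((2 : ℝ) ^ (Nat.log 2 (Nat.gcd (low y b) (low y c)))) R N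
    P.cut (lb P) (Finset.range (P.N + 1)) z0'
  gz : Nat.gcd (upp y b) (upp y c) = Nat.gcd z0 z0'
  kz : KZ (PureL2x232.hiFL hM y F) j0 z0 z0'
  size : (κ : ℝ) * κ' ≤ 2 * K
  /-- `t0 / 2 ≤ 2^m ≤ 2 t0`, `t0 = 2^i gcd(z,z') / L` -/
  sc1 : (2 : ℝ) ^ (Nat.log 2 (Nat.gcd (low y b) (low y c))) * Nat.gcd (upp y b) (upp y c) / P.L ≤
    2 * 2 ^ m
  sc2 : (2 : ℝ) ^ m ≤
    2 * ((2 : ℝ) ^ (Nat.log 2 (Nat.gcd (low y b) (low y c))) * Nat.gcd (upp y b) (upp y c) / P.L)
  rt : 64 ≤ K → ∀ U : ℝ, (κ : ℝ) * κ' ≤ U →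
    LPhix808.RT ((upp y b / Nat.gcd (upp y b) (upp y c) : ℕ) * P.γ)
      ((upp y c / Nat.gcd (upp y b) (upp y c) : ℕ) * P.γ) (2 ^ m) (P.E m) (K / U)
      (K ^ ((1 : ℝ) / 3) / U) (low y b / Nat.gcd (low y b) (low y c))
      (low y c / Nat.gcd (low y b) (low y c))

open Crest.Agent.R4C.NonPureBlkx559 in
/-- **(6.1)** for the pairs of class (L) -/
theorem ldec {P : Rulex945.Par} {jB : ℕ → ℕ} {y j0 N : ℕ} {R K : ℝ} (hM : 0 < M) (hL : 0 < P.L)
    (hN : (M : ℝ) / P.L ≤ P.N) (hE : ∀ m, P.m0 ≤ m → 2 * P.E m ^ 3 < 2 ^ m)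
    (hXc : ∀ m, P.m0 ≤ m → Xj (jB m) ≤ P.cut m) (hEX : ∀ m, P.m0 ≤ m → P.E m ≤ Xj (jB m))
    (hj0 : ∀ m, P.m0 ≤ m → j0 ≤ jB m) (hK : 0 < K) (hR : 4 * K ≤ R) (hNK : 2 * K ≤ N)
    {b c : ℕ} (hb : b ∣ M) (hc : c ∣ M) (h : CL F P jB y K b c) :
    ∃ m κ κ' z0 z0' : ℕ, Dec hM F P y j0 N R K b c m κ κ' z0 z0' := by
  classical
  obtain ⟨m, h, a, k, a', k', hm, hg1, hg2, hyx, hgood, hl, hp, hd1, hd2⟩ := h
  have hb0 : 0 < b := Nat.pos_of_dvd_of_pos hb hM
  have hc0 : 0 < c := Nat.pos_of_dvd_of_pos hc hM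
  set g := Nat.gcd b c with hgdef
  have hg : 0 < g := Nat.gcd_pos_of_pos_left _ hb0
  set s := b / g with hsdef
  set s' := c / g with hsdef'
  have eb : g * s = b := Nat.mul_div_cancel' (Nat.gcd_dvd_left _ _)
  have ec : g * s' = c := Nat.mul_div_cancel' (Nat.gcd_dvd_right _ _)
  have hcop : Nat.Coprime s s' := Nat.coprime_div_gcd_div_gcd hg
  have hs : 0 < s := Nat.pos_of_ne_zero fun h => by rw [h, mul_zero] at eb; omega
  have hs' : 0 < s' := Nat.pos_of_ne_zero fun h => by rw [h, mul_zero] at ec; omega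
  have hb1 : g * s ∣ M := by rw [eb]; exact hb
  have hc1 : g * s' ∣ M := by rw [ec]; exact hc
  set x := P.cut m with hxdef
  have hgX : F.good (Xj (jB m)) (g * s) (g * s') := by rw [eb, ec]; exact hgood
  have hx : F.good x (g * s) (g * s') := FL.good_mono (hXc m hm) hgX
  have hkE : (k : ℝ) ≤ P.E m := hp.tb.le
  have hkE' : (k' : ℝ) ≤ P.E m := hp.tc.le
  have hkX : k ≤ Xj (jB m) := by exact_mod_cast hkE.trans (hEX m hm)
  have hkX' : k' ≤ Xj (jB m) := by exact_mod_cast hkE'.trans (hEX m hm)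
  have hkx : k ≤ x := hkX.trans (hXc m hm)
  have hkx' : k' ≤ x := hkX'.trans (hXc m hm)
  have hk := hp.tb.pos
  have hk' := hp.tc.pos
  have h2m : (0 : ℝ) < 2 ^ m := by positivity
  have hgR : (0 : ℝ) < g := by exact_mod_cast hg
  obtain ⟨e1, e2, hd1k, hd2k⟩ := upp_low_x hM hb1 hc1 hcop hx hk hk' hp.tb.cop hp.tc.cop hkx hkx'
    hp.pt hp.top
  set κ := upp y (low x s) with hκ
  set κ' := upp y (low x s') with hκ'
  have hκk : κ ∣ k := by
    rw [e1]
    exact (upp_dvd_self _ _).trans (Nat.div_dvd_of_dvd (Nat.gcd_dvd_left _ _))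
  have hκk' : κ' ∣ k' := by
    rw [e2]
    exact (upp_dvd_self _ _).trans (Nat.div_dvd_of_dvd (Nat.gcd_dvd_right _ _))
  have hκp : 0 < κ := upp_pos _ _
  have hκp' : 0 < κ' := upp_pos _ _
  -- the words
  have egl : Nat.gcd (low y b) (low y c) = low y g := by
    rw [← eb, ← ec]; exact gcd_low hg.ne' hs.ne' hs'.ne' hcop
  have egu : Nat.gcd (upp y b) (upp y c) = upp y g := by
    rw [← eb, ← ec]; exact gcd_upp hg.ne' hs.ne' hs'.ne' hcop
  have elb : low y b / low y g = low y s := by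
    rw [← eb, low_gs y hg.ne' hs.ne']; exact Nat.mul_div_cancel_left _ (low_pos _ _)
  have elc : low y c / low y g = low y s' := by
    rw [← ec, low_gs y hg.ne' hs'.ne']; exact Nat.mul_div_cancel_left _ (low_pos _ _)
  have eub : upp y b / upp y g = upp y s := by
    rw [← eb, upp_mul y hg.ne' hs.ne']; exact Nat.mul_div_cancel_left _ (upp_pos _ _)
  have euc : upp y c / upp y g = upp y s' := by
    rw [← ec, upp_mul y hg.ne' hs'.ne']; exact Nat.mul_div_cancel_left _ (upp_pos _ _)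
  -- depth
  set dp := dw F P m g s s' a k a' k' with hdp
  have hkd : (k : ℝ) ≤ dp := by
    refine le_trans ?_ (le_dep_left hk hk')
    exact le_mul_of_one_le_right (Nat.cast_nonneg _) (le_max_left _ _)
  have hkd' : (k' : ℝ) ≤ dp := by
    rw [hdp, ← dw_swap]
    refine le_trans ?_ (le_dep_left hk' hk)
    exact le_mul_of_one_le_right (Nat.cast_nonneg _) (le_max_left _ _)
  have hL0 := hL.le
  have hR0 : 0 ≤ R := by linarith
  have hkN : k ≤ N := by
    have : (k : ℝ) ≤ N := by linarith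
    exact_mod_cast this
  have hkN' : k' ≤ N := by
    have : (k' : ℝ) ≤ N := by linarith
    exact_mod_cast this
  have hkR : (1 : ℝ) ≤ k := by exact_mod_cast hk
  have hkR' : (1 : ℝ) ≤ k' := by exact_mod_cast hk'
  have hmI : m ∈ Finset.range (P.N + 1) := by
    rw [Finset.mem_range, Nat.lt_succ_iff]
    have h1 : (g : ℝ) ≤ M := by
      exact_mod_cast (Nat.le_of_dvd hb0 (Nat.gcd_dvd_left b c)).trans (Nat.le_of_dvd hM hb)
    have h2 : (2 : ℝ) ^ m ≤ M / P.L := by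
      rw [le_div_iff₀ hL]
      exact hg1.trans h1
    have h3 : (m : ℝ) < 2 ^ m := by exact_mod_cast Nat.lt_two_pow_self
    have h4 : (m : ℝ) < P.N := lt_of_lt_of_le h3 (h2.trans hN)
    exact_mod_cast h4.le
  have hD1 : (F.uu x (g * s) : ℝ) * |(F.lam x (g * s) : ℝ) * P.γ - a / k| ≤ R * P.L := by
    have h1 := disp_le_dep (γ := P.γ) (T := (2 : ℝ) ^ m) (L := P.L) hM hb1 hc1 hcop hx hL hg2
      (a := a) hk hk' (upp x s' * P.γ - (((F.ell x (g * s) : ℕ) * a' : ℤ) : ℝ) / k') (low x s')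
    have h2 : (F.uu x (g * s) : ℝ) * |(F.lam x (g * s) : ℝ) * P.γ - a / k| ≤
        k * ((F.uu x (g * s) : ℝ) * |(F.lam x (g * s) : ℝ) * P.γ - a / k|) :=
      le_mul_of_one_le_left (by positivity) hkR
    refine (h2.trans h1).trans ?_
    refine mul_le_mul_of_nonneg_right ?_ hL0
    have h3 : dp ≤ 2 * K := hd2
    have h4 : 2 * dp ≤ R := by linarith
    exact h4
  have hD2 : (F.uu x (g * s') : ℝ) * |(F.lam x (g * s') : ℝ) * P.γ - a' / k'| ≤ R * P.L := by
    have h1 := disp_le_dep (γ := P.γ) (T := (2 : ℝ) ^ m) (L := P.L) hM hc1 hb1 hcop.symm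
      (FL.good_symm hb1 hc1 hx) hL hg2
      (a := a') hk' hk (upp x s * P.γ - (((F.ell x (g * s') : ℕ) * a : ℤ) : ℝ) / k) (low x s)
    have h2 : (F.uu x (g * s') : ℝ) * |(F.lam x (g * s') : ℝ) * P.γ - a' / k'| ≤
        k' * ((F.uu x (g * s') : ℝ) * |(F.lam x (g * s') : ℝ) * P.γ - a' / k'|) :=
      le_mul_of_one_le_left (by positivity) hkR'
    refine (h2.trans h1).trans ?_
    refine mul_le_mul_of_nonneg_right ?_ hL0
    rw [dep_swap]
    have h3 : dp ≤ 2 * K := hd2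
    have h4 : 2 * dp ≤ R := by linarith
    exact h4
  have hkk := kk_of (F := F) (N := N) (R := R) (I := Finset.range (P.N + 1)) hM hb1 hc1 hcop hL hx
    hyx hg1 hp.tb hkx hk' hkx' hkN (hE m hm) hmI hκk hκk' hR0 hD1
  have hkk' := kk_of (F := F) (N := N) (R := R) (I := Finset.range (P.N + 1)) hM hc1 hb1 hcop.symm
    hL (FL.good_symm hb1 hc1 hx) hyx hg1 hp.tc hkx' hk hkx hkN' (hE m hm) hmI hκk' hκk hR0 hD2
  have hkz := kz_of (F := F) (j0 := j0) hM hb1 hc1 hyx (hj0 m hm) (hXc m hm) hgX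
    ((Nat.le_of_dvd hk hκk).trans hkX) ((Nat.le_of_dvd hk' hκk').trans hkX')
  -- the relation
  have lab1 := lab_of_TC hM hb1 hc1 hcop hx h2m hL hg1 hkx hp.tb
  have lab2 := lab_of_TC hM hc1 hb1 hcop.symm (FL.good_symm hb1 hc1 hx) h2m hL hg1 hkx' hp.tc
  have hl' : |((s : ℝ) - s') * P.γ + h| < 1 / (2 : ℝ) ^ m := by
    refine hl.trans_le ?_
    rw [div_le_div_iff₀ hgR h2m]
    linarith
  have hK0 : 0 < K := hK
  have hdK : K ≤ dp := hd1
  have hκκ0 : (0 : ℝ) < (κ : ℝ) * κ' := by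
    have h1 : (0 : ℝ) < κ := by exact_mod_cast hκp
    have h2 : (0 : ℝ) < κ' := by exact_mod_cast hκp'
    exact mul_pos h1 h2
  have hsize : (κ : ℝ) * κ' ≤ dp := by
    have h1 : κ * κ' ≤ Nat.lcm k k' := by
      have hkd1 : κ ∣ k / Nat.gcd k k' := by rw [e1]; exact upp_dvd_self _ _
      have hkd2 : κ' ∣ k' / Nat.gcd k k' := by rw [e2]; exact upp_dvd_self _ _
      have h2 : κ * κ' ∣ Nat.lcm k k' := by
        have h3 : κ * κ' ∣ (k / Nat.gcd k k') * (k' / Nat.gcd k k') := mul_dvd_mul hkd1 hkd2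
        refine h3.trans ?_
        have h4 : Nat.lcm k k' = k * (k' / Nat.gcd k k') := by
          rw [Nat.lcm, Nat.mul_div_assoc _ (Nat.gcd_dvd_right _ _)]
        rw [h4]
        exact mul_dvd_mul_right (Nat.div_dvd_of_dvd (Nat.gcd_dvd_left _ _)) _
      exact Nat.le_of_dvd (Nat.lcm_pos hk hk') h2
    have h2 : (κ : ℝ) * κ' ≤ Nat.lcm k k' := by exact_mod_cast h1
    exact h2.trans lcm_le_dep
  refine ⟨m, κ, κ', upp y g * upp x s, upp y g * upp x s', hm, ?_, ?_, z0_dvd hM hyx hb1,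
    z0_dvd hM hyx hc1, hκp, hκp', ?_, ?_, ?_, hkz, hsize.trans hd2, ?_, ?_, ?_⟩
  · rw [← eb]; exact upp_gs hyx hg.ne' hs.ne'
  · rw [← ec]; exact upp_gs hyx hg.ne' hs'.ne'
  · rw [egl]; exact hkk
  · rw [egl]; exact hkk'
  · rw [egu, gcd_z0 hcop]
  · -- window 1
    rw [egl, egu]
    have h1 : (2 : ℝ) ^ (Nat.log 2 (low y g)) ≤ low y g := by
      exact_mod_cast Nat.pow_log_le_self 2 (low_pos y g).ne'
    have h2 : (g : ℝ) = low y g * upp y g := by exact_mod_cast (low_mul_upp y hg.ne').symm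
    rw [div_le_iff₀ hL]
    calc (2 : ℝ) ^ (Nat.log 2 (low y g)) * (upp y g : ℝ) ≤ low y g * upp y g :=
          mul_le_mul_of_nonneg_right h1 (Nat.cast_nonneg _)
      _ = g := h2.symm
      _ ≤ _ := by linarith
  · rw [egl, egu]
    have h1 : (low y g : ℝ) ≤ 2 * (2 : ℝ) ^ (Nat.log 2 (low y g)) := by
      have := (Nat.lt_pow_succ_log_self (b := 2) (by norm_num) (low y g)).le
      rw [pow_succ] at this
      have h1 : (low y g : ℝ) ≤ (2 : ℝ) ^ (Nat.log 2 (low y g)) * 2 := by exact_mod_cast this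
      linarith
    have h2 : (g : ℝ) = low y g * upp y g := by exact_mod_cast (low_mul_upp y hg.ne').symm
    rw [← mul_div_assoc, le_div_iff₀ hL]
    calc (2 : ℝ) ^ m * P.L ≤ g := hg1
      _ = low y g * upp y g := h2
      _ ≤ (2 * (2 : ℝ) ^ (Nat.log 2 (low y g))) * upp y g :=
          mul_le_mul_of_nonneg_right h1 (Nat.cast_nonneg _)
      _ = _ := by ring
  · intro hK64 U hU
    have hU0 : 0 < U := lt_of_lt_of_le hκκ0 hU
    rw [egl, egu, elb, elc, eub, euc]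
    have hK1 : ((upp y (k / Nat.gcd k k') : ℕ) : ℝ) * (upp y (k' / Nat.gcd k k') : ℕ) * (K / U) ≤
        dp := by
      rw [← e1, ← e2]
      calc (κ : ℝ) * κ' * (K / U) ≤ U * (K / U) :=
            mul_le_mul_of_nonneg_right hU (by positivity)
        _ = K := by field_simp
        _ ≤ dp := hdK
    have hP1 : (((upp y (k / Nat.gcd k k') : ℕ) : ℝ) * (upp y (k' / Nat.gcd k k') : ℕ) *
        (K ^ ((1 : ℝ) / 3) / U)) ^ 3 ≤ dp := by
      rw [← e1, ← e2]
      have h1 : (κ : ℝ) * κ' * (K ^ ((1 : ℝ) / 3) / U) ≤ K ^ ((1 : ℝ) / 3) := by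
        calc (κ : ℝ) * κ' * (K ^ ((1 : ℝ) / 3) / U) ≤ U * (K ^ ((1 : ℝ) / 3) / U) :=
              mul_le_mul_of_nonneg_right hU (by positivity)
          _ = K ^ ((1 : ℝ) / 3) := by field_simp
      calc ((κ : ℝ) * κ' * (K ^ ((1 : ℝ) / 3) / U)) ^ 3 ≤ (K ^ ((1 : ℝ) / 3)) ^ 3 :=
            pow_le_pow_left₀ (by positivity) h1 3
        _ = K := by
            rw [← Real.rpow_natCast, ← Real.rpow_mul hK0.le]
            norm_num
        _ ≤ dp := hdK
    exact kt_of hyx hs hs' hl' lab1 lab2 e1 e2 hp.ns (hK64.trans hdK) hK1 hP1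

/-! ### lightness -/

/-- **(6.1)(D)** depth above the threshold: the block is low, and either its base is small
(`exp (Y^(4/5))` below the depth) or the item is light at the end of its block -/
theorem light_of {P : Rulex945.Par} {f : ℕ → ℝ} {δ ε : ℝ} (hε : 0 < ε)
    (hf : ∀ b, 0 ≤ f b) (hthr : P.thr = Rulex945.thrS M f P.Y δ ε) {b i : ℕ} {d : ℝ}
    (hdeep : P.thr b i < d) :
    Real.exp ((P.Y (i - 1) : ℝ) ^ (4 / 5 : ℝ)) < d ∨
      ((P.Y (i - 1) : ℝ) ^ δ < d ∧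
        (low (P.Y i) b : ℝ) * mass M f (P.Y i) (upp (P.Y i) b) ≤ d ^ (1 / ε)) := by
  rw [hthr] at hdeep
  unfold Rulex945.thrS at hdeep
  rcases min_lt_iff.1 hdeep with h1 | h1
  · right
    obtain ⟨h2, h3⟩ := max_lt_iff.1 h1
    refine ⟨h2, ?_⟩
    have h4 : Rulex945.Th M f (P.Y i) b ≤ Rulex945.ThS M f P.Y b i :=
      Rulex945.Th_le_ThS M f P.Y b le_rfl
    have h5 : 0 ≤ Rulex945.Th M f (P.Y i) b := Rulex945.Th_nonneg M hf _ _
    have h6 : Rulex945.Th M f (P.Y i) b ^ ε < d :=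
      (Real.rpow_le_rpow h5 h4 hε.le).trans_lt h3
    have h7 : Rulex945.Th M f (P.Y i) b ≤ d ^ (1 / ε) := by
      have h8 := Real.rpow_le_rpow (Real.rpow_nonneg h5 _) h6.le (by positivity : 0 ≤ 1 / ε)
      rwa [← Real.rpow_mul h5, mul_one_div_cancel hε.ne', Real.rpow_one] at h8
    exact h7
  · exact Or.inl h1

end Crest.Agent.R4C.LDecx500
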