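import Crest.Agent.R4C.SplitDef_945
import Crest.Agent.R4C.LDec_500
import Crest.Agent.R4C.BoxUniq_60

/-!
# Row 4, class (L): the literal box class (helper500), definitions

One box of class (L) of `SplitDef_945` (deep side = `b`): block `v` (`y = P.Y v`), depths
`∈ [K, 2K)`, `∈ [K', 2K')`, twists `∈ [U, 2U)`, `∈ [U', 2U')`, block `jB t` of the level `t`.

* `tw` : the twist `κ = upp y (k / gcd(k, k'))`;
* `zz` : the untwisted high word `z0 = upp y g * upp x s`;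
* `BxL` : the box class, `HyB` : hypotheses on the parameters.
-/

set_option autoImplicit false

namespace Crest.Agent.R4C.LBxx500

open Crest.Agent.R4C.FLDefx935 Crest.Agent.R4C.BoostCx972 Crest.Agent.R4C.CrCoinx935
  Crest.Agent.R4C.S7cx14 Crest.Agent.R4C.S7dx14 Crest.Agent.R4C.Cutx50
  Crest.Agent.R4C.S2bx284 Crest.Agent.R4C.S2x232 Crest.Agent.R4C.Rulex945
  Crest.Agent.R4C.Splitx945 Crest.Agent.R4C.NonPureBlkx559

section defs

variable {M : ℕ} (F : FL M) (P : Par)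

/-- the twist of `b` at the cut `y` -/
def tw (y t b c : ℕ) (f f' : ℚ) : ℕ :=
  upp y (k0 F (P.cut t) b f / Nat.gcd (k0 F (P.cut t) b f) (k0 F (P.cut t) c f'))

/-- the untwisted high word of `b` -/
def zz (x y b c : ℕ) : ℕ := upp y (Nat.gcd b c) * upp x (b / Nat.gcd b c)

/-- **one box of class (L)** (deep side: `b`), data `t, h, f, f'` of the pair `b, c` -/
structure BxL (w : ℕ → ℝ) (ε : ℝ) (jB : ℕ → ℕ) (v : ℕ) (K K' : ℝ) (U U' t b c : ℕ) (h : ℤ)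
    (f f' : ℚ) : Prop where
  m0 : P.m0 ≤ t
  good : F.good (P.cut t) b c
  goodj : F.good (Xj (jB t)) b c
  pt : gap f f' (b / Nat.gcd b c) (c / Nat.gcd b c) h = 0
  lnk : |(((b / Nat.gcd b c : ℕ) : ℝ) - ((c / Nat.gcd b c : ℕ) : ℝ)) * P.γ + h| <
    P.L / (Nat.gcd b c : ℕ)
  ib : Ix F P t b f
  ic : Ix F P t c f'
  act : P.Y v ≤ P.cut t
  top : ∀ r : ℕ, r.Prime → P.Y v < r → r ≤ P.cut t → ¬ r ∣ alC b c f f' ∧ ¬ r ∣ alC c b f' f
  db : K ≤ dep F P t b f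
  db' : dep F P t b f < 2 * K
  dc : K' ≤ dep F P t c f'
  dc' : dep F P t c f' < 2 * K'
  eb : dep F P t b f ≤ P.E t ^ 4
  ec : dep F P t c f' ≤ P.E t ^ 4
  big : BigW F P t b c f f'
  light : ThS M w P.Y b v ^ ε < dep F P t b f
  tb : U ≤ tw F P (P.Y v) t b c f f'
  tb' : tw F P (P.Y v) t b c f f' < 2 * U
  tc : U' ≤ tw F P (P.Y v) t c b f' f
  tc' : tw F P (P.Y v) t c b f' f < 2 * U'

end defs

/-- hypotheses on the parameters -/
structure HyB (M : ℕ) (P : Par) (jB : ℕ → ℕ) (j0 : ℕ) : Prop where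
  hM : 0 < M
  hL : 0 < P.L
  hN : (M : ℝ) / P.L ≤ P.N
  cut_mono : Monotone P.cut
  E_one : ∀ m, 1 ≤ P.E m
  hE : ∀ m, P.m0 ≤ m → 64 * P.E m ^ 8 < 2 ^ m
  jB0 : ∀ t, P.m0 ≤ t → j0 ≤ jB t
  jB1 : ∀ t, P.m0 ≤ t → Xj (jB t) ≤ P.cut t
  jBE : ∀ t, P.m0 ≤ t → P.E t ^ 4 ≤ Xj (jB t)

end Crest.Agent.R4C.LBxx500
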