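import Crest.Agent.R4C.Counts_952

/-!
# Row 4: two prime number inputs of Theorem C (helper882, for helper817)

* `rough_count` : `#{Y ≤ l < 2Y, l > 1, x`-rough`} ≤ C Y / log x`.
* `sum_prime_log` : `∑_{p ∈ U} 1 / (p (log p)^c) ≤ K (log x)^{-c}` for a finite set `U` of primes `≥ x`.
-/

set_option autoImplicit false

open Finset

namespace Crest.Agent.R4C.Roughx882

open Crest.Agent.R4C.Countsx952

open Classical in
lemma rough_count : ∃ C : ℝ, 0 < C ∧ ∀ x : ℝ, 2 ≤ x → ∀ Y : ℕ, 1 ≤ Y →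
    (((Finset.Ico Y (2 * Y)).filter
      (fun l => 1 < l ∧ ∀ p : ℕ, p.Prime → p ∣ l → x < p)).card : ℝ) ≤ C * Y / Real.log x := by
  refine ⟨2 * C2, by have := C2_pos; positivity, fun x hx Y hY => ?_⟩
  have hlx : 0 < Real.log x := Real.log_pos (by linarith)
  have hC := C2_pos
  have hY0 : (0 : ℝ) < Y := by exact_mod_cast hY
  set F := (Finset.Ico Y (2 * Y)).filter (fun l => 1 < l ∧ ∀ p : ℕ, p.Prime → p ∣ l → x < p) with hF
  by_cases h : x ≤ ((2 * Y : ℕ) : ℝ)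
  · have h1 := card_rough_le hx h
    have h2 : F ⊆ RF x ⌊((2 * Y : ℕ) : ℝ)⌋₊ := by
      intro l hl
      rw [hF, mem_filter, mem_Ico] at hl
      rw [mem_RF, Nat.floor_natCast]
      exact ⟨⟨by omega, by omega⟩, hl.2.2⟩
    have h3 : ((F.card : ℕ) : ℝ) ≤ ((RF x ⌊((2 * Y : ℕ) : ℝ)⌋₊).card : ℝ) := by
      exact_mod_cast card_le_card h2
    refine h3.trans (h1.trans (le_of_eq ?_))
    push_cast
    ring
  · push Not at h
    have h1 : F = ∅ := by
      rw [eq_empty_iff_forall_notMem]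
      intro l hl
      rw [hF, mem_filter, mem_Ico] at hl
      have h2 : (l : ℝ) ≤ x := by
        have : (l : ℝ) < ((2 * Y : ℕ) : ℝ) := by exact_mod_cast hl.1.2
        linarith
      have h3 : l = 1 := Rough.eq_one hx hl.2.2 h2
      omega
    rw [h1, card_empty, Nat.cast_zero]
    positivity

/-- the same for an arbitrary finite set of such integers -/
lemma rough_count' : ∃ C : ℝ, 0 < C ∧ ∀ x : ℝ, 2 ≤ x → ∀ Y : ℕ, 1 ≤ Y → ∀ S : Finset ℕ,
    (∀ l ∈ S, Y ≤ l ∧ l < 2 * Y ∧ 1 < l ∧ ∀ p : ℕ, p.Prime → p ∣ l → x < p) →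
    (S.card : ℝ) ≤ C * Y / Real.log x := by
  classical
  obtain ⟨C, hC, h⟩ := rough_count
  refine ⟨C, hC, fun x hx Y hY S hS => ?_⟩
  refine le_trans ?_ (h x hx Y hY)
  have : S ⊆ (Finset.Ico Y (2 * Y)).filter (fun l => 1 < l ∧ ∀ p : ℕ, p.Prime → p ∣ l → x < p) := by
    intro l hl
    rw [mem_filter, mem_Ico]
    obtain ⟨h1, h2, h3⟩ := hS l hl
    exact ⟨⟨h1, h2⟩, h3⟩
  exact_mod_cast card_le_card this

/-- `∑ 1/p` over a finite set of primes in `[X, X ^ 2]` -/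
lemma sum_block {X : ℝ} (hX : 2 ≤ X) (U : Finset ℕ)
    (hU : ∀ p ∈ U, p.Prime ∧ X ≤ (p : ℝ) ∧ (p : ℝ) ≤ X * X) :
    ∑ p ∈ U, 1 / (p : ℝ) ≤ 1 + 19 / Real.log 2 := by
  have h2 : 0 < Real.log 2 := Real.log_pos (by norm_num)
  have hlX : Real.log 2 ≤ Real.log X := Real.log_le_log (by norm_num) hX
  have hlX0 : 0 < Real.log X := h2.trans_le hlX
  have h1 := sum_inv_primes_window hX (T := X) (by linarith)
  have hsub : U ⊆ (Icc ⌈X⌉₊ ⌊X * X⌋₊).filter Nat.Prime := by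
    intro p hp
    obtain ⟨h3, h4, h5⟩ := hU p hp
    rw [mem_filter, mem_Icc]
    exact ⟨⟨Nat.ceil_le.2 h4, Nat.le_floor h5⟩, h3⟩
  calc ∑ p ∈ U, 1 / (p : ℝ) ≤ ∑ p ∈ (Icc ⌈X⌉₊ ⌊X * X⌋₊).filter Nat.Prime, 1 / (p : ℝ) :=
        sum_le_sum_of_subset_of_nonneg hsub fun p _ _ => by positivity
    _ ≤ (Real.log X + 19) / Real.log X := h1
    _ = 1 + 19 / Real.log X := by field_simp
    _ ≤ 1 + 19 / Real.log 2 := by
        have := div_le_div_of_nonneg_left (show (0 : ℝ) ≤ 19 by norm_num) h2 hlX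
        linarith

lemma sum_prime_log : ∀ c : ℝ, 0 < c → ∃ K : ℝ, 0 < K ∧ ∀ x : ℝ, 2 ≤ x → ∀ U : Finset ℕ,
    (∀ p ∈ U, p.Prime ∧ x ≤ (p : ℝ)) →
    ∑ p ∈ U, 1 / ((p : ℝ) * Real.log p ^ c) ≤ K * Real.log x ^ (-c) := by
  classical
  intro c hc
  have h2 : 0 < Real.log 2 := Real.log_pos (by norm_num)
  set A : ℝ := 1 + 19 / Real.log 2 with hA
  have hA0 : 0 < A := by positivity
  set r : ℝ := (2 : ℝ) ^ (-c) with hr
  have hr0 : 0 < r := Real.rpow_pos_of_pos (by norm_num) _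
  have hr1 : r < 1 := Real.rpow_lt_one_of_one_lt_of_neg (by norm_num) (by linarith)
  refine ⟨A * (1 - r)⁻¹, mul_pos hA0 (inv_pos.2 (by linarith)), fun x hx U hU => ?_⟩
  have hx0 : 0 < x := by linarith
  have hlx2 : Real.log 2 ≤ Real.log x := Real.log_le_log (by norm_num) hx
  have hlx : 0 < Real.log x := h2.trans_le hlx2
  -- the index of the block
  set J : ℕ → ℕ := fun p => Nat.log 2 ⌊Real.log p / Real.log x⌋₊ with hJ
  have hJ1 : ∀ p ∈ U, (2 : ℝ) ^ (J p) * Real.log x ≤ Real.log p ∧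
      Real.log p ≤ (2 : ℝ) ^ (J p + 1) * Real.log x := by
    intro p hp
    obtain ⟨_, h4⟩ := hU p hp
    have h5 : Real.log x ≤ Real.log p := Real.log_le_log hx0 h4
    have h6 : 1 ≤ Real.log p / Real.log x := by rwa [le_div_iff₀ hlx, one_mul]
    have h7 : ⌊Real.log p / Real.log x⌋₊ ≠ 0 := by
      have : 1 ≤ ⌊Real.log p / Real.log x⌋₊ := Nat.le_floor (by exact_mod_cast h6)
      omega
    have h8 := Nat.pow_log_le_self 2 h7
    have h9 := Nat.lt_pow_succ_log_self (b := 2) (by norm_num) ⌊Real.log p / Real.log x⌋₊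
    constructor
    · rw [← le_div_iff₀ hlx]
      calc (2 : ℝ) ^ (J p) = ((2 ^ (J p) : ℕ) : ℝ) := by push_cast; rfl
        _ ≤ (⌊Real.log p / Real.log x⌋₊ : ℝ) := by exact_mod_cast h8
        _ ≤ _ := Nat.floor_le (by linarith)
    · rw [← div_le_iff₀ hlx]
      have h10 := Nat.lt_floor_add_one (Real.log p / Real.log x)
      have h11 : ((⌊Real.log p / Real.log x⌋₊ + 1 : ℕ) : ℝ) ≤ ((2 ^ (J p + 1) : ℕ) : ℝ) := by
        exact_mod_cast h9
      push_cast at h11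
      linarith
  have hblock : ∀ j : ℕ, ∑ p ∈ U.filter (fun p => J p = j), 1 / ((p : ℝ) * Real.log p ^ c) ≤
      A * Real.log x ^ (-c) * r ^ j := by
    intro j
    set X : ℝ := Real.exp ((2 : ℝ) ^ j * Real.log x) with hX
    have h2j : (1 : ℝ) ≤ (2 : ℝ) ^ j := one_le_pow₀ (by norm_num)
    have hlX : Real.log X = (2 : ℝ) ^ j * Real.log x := Real.log_exp _
    have hX0 : 0 < X := Real.exp_pos _
    have hX2 : 2 ≤ X := by
      rw [← Real.exp_log (show (0 : ℝ) < 2 by norm_num), hX, Real.exp_le_exp]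
      nlinarith
    have hXX : X * X = Real.exp ((2 : ℝ) ^ (j + 1) * Real.log x) := by
      rw [hX, ← Real.exp_add]
      congr 1
      ring
    have h3 : ∀ p ∈ U.filter (fun p => J p = j), p.Prime ∧ X ≤ (p : ℝ) ∧ (p : ℝ) ≤ X * X := by
      intro p hp
      rw [mem_filter] at hp
      obtain ⟨h4, h5⟩ := hU p hp.1
      obtain ⟨h6, h7⟩ := hJ1 p hp.1
      rw [hp.2] at h6 h7
      have hp0 : (0 : ℝ) < p := by exact_mod_cast h4.pos
      refine ⟨h4, ?_, ?_⟩
      · rw [← Real.exp_log hp0, hX, Real.exp_le_exp]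
        exact h6
      · rw [hXX, ← Real.exp_log hp0, Real.exp_le_exp]
        exact h7
    have h4 := sum_block hX2 _ h3
    have e : Real.log x ^ (-c) * r ^ j = ((2 : ℝ) ^ j * Real.log x) ^ (-c) := by
      rw [Real.mul_rpow (by positivity) hlx.le, hr, ← Real.rpow_natCast, ← Real.rpow_natCast,
        ← Real.rpow_mul (by norm_num), ← Real.rpow_mul (by norm_num), mul_comm (-c) (j : ℝ)]
      ring
    calc ∑ p ∈ U.filter (fun p => J p = j), 1 / ((p : ℝ) * Real.log p ^ c)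
        ≤ ∑ p ∈ U.filter (fun p => J p = j), 1 / (p : ℝ) * ((2 : ℝ) ^ j * Real.log x) ^ (-c) := by
          refine sum_le_sum fun p hp => ?_
          have hp' := hp
          rw [mem_filter] at hp'
          obtain ⟨h6, _⟩ := hJ1 p hp'.1
          rw [hp'.2] at h6
          have hp0 : (0 : ℝ) < p := by exact_mod_cast (h3 p hp).1.pos
          have h7 : 0 < (2 : ℝ) ^ j * Real.log x := by positivity
          have h8 : 0 < Real.log (p : ℝ) := h7.trans_le h6
          rw [← one_div_mul_one_div]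
          refine mul_le_mul_of_nonneg_left ?_ (by positivity)
          rw [one_div, ← Real.rpow_neg h8.le]
          exact Real.rpow_le_rpow_of_nonpos h7 h6 (by linarith)
      _ = (∑ p ∈ U.filter (fun p => J p = j), 1 / (p : ℝ)) * ((2 : ℝ) ^ j * Real.log x) ^ (-c) := by
          rw [sum_mul]
      _ ≤ A * ((2 : ℝ) ^ j * Real.log x) ^ (-c) :=
          mul_le_mul_of_nonneg_right h4 (Real.rpow_nonneg (by positivity) _)
      _ = _ := by rw [← e]; ring
  calc ∑ p ∈ U, 1 / ((p : ℝ) * Real.log p ^ c)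
      = ∑ j ∈ U.image J, ∑ p ∈ U.filter (fun p => J p = j), 1 / ((p : ℝ) * Real.log p ^ c) :=
        (sum_fiberwise_of_maps_to (fun p hp => mem_image_of_mem J hp) _).symm
    _ ≤ ∑ j ∈ U.image J, A * Real.log x ^ (-c) * r ^ j := sum_le_sum fun j _ => hblock j
    _ = A * Real.log x ^ (-c) * ∑ j ∈ U.image J, r ^ j := by rw [mul_sum]
    _ ≤ A * Real.log x ^ (-c) * (1 - r)⁻¹ := by
        refine mul_le_mul_of_nonneg_left ?_ (mul_nonneg hA0.le (Real.rpow_nonneg hlx.le _))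
        rw [← tsum_geometric_of_lt_one hr0.le hr1]
        exact (summable_geometric_of_lt_one hr0.le hr1).sum_le_tsum _ fun j _ => by positivity
    _ = _ := by ring

end Crest.Agent.R4C.Roughx882
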