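import Crest.Agent.R4C.NonPure_559
import Crest.Agent.R4C.FLDef_935
import Crest.Agent.R4C.Rough_882

/-!
# Row 4: non-pure good pairs of an F-Λ structure (helper559, note 2977 (3))

`F : FL M`, cut `x`.  Pairs `b, c ∣ M` with the same letters at all primes `≤ x`, good at `x`, not pure
(`ell x b ≠ 1` or `ell x c ≠ 1`), `X < gcd(b,c) ≤ 2X`:
`Σ gcd ν ν f g ≤ 3 √ρ (Σ ν f²)^{1/2} (Σ ν g²)^{1/2}` whenever every dyadic class `[2^i,2^(i+1))`,
`i ≥ 1`, contains at most `ρ 2^i` `x`-rough integers (`nonpure_fl`), in particular with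
`ρ = C / log x` (`nonpure_fl_log`).  No loss in the scale `X`.
-/

set_option autoImplicit false

open Finset
open Crest.Agent.R4C.Basex935 Crest.Agent.R4C.Cutx50 Crest.Agent.R4C.FLDefx935

namespace Crest.Agent.R4C.NonPureFLx559

open Classical

variable {M : ℕ} (F : FL M)

/-- passive primes above the cut at the node of `b` -/
def Ps (x b p : ℕ) : Prop := x < p ∧ ∃ v, F.ctr b p = some v

/-- word outside the passive primes above the cut -/
noncomputable def wd (x b : ℕ) : ℕ := part (fun p => ¬ Ps F x b p) b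

/-- class label -/
noncomputable def lab (x b : ℕ) : ℕ × (ℕ → Option ℕ × ℕ) :=
  (low x b, fun p => if p ∈ M.primeFactors ∧ x < p then
    (F.ctr b p, if F.ctr b p = none then b.factorization p else 0) else (none, 0))

variable {F}

lemma fact_zero' {b p : ℕ} (hM : M ≠ 0) (hb : b ∣ M) (hp : p ∉ M.primeFactors) :
    b.factorization p = 0 := FL.fact_zero (Nat.pos_of_ne_zero hM) hb hp

lemma lab_eq {x b c : ℕ} (hb : b ∣ M) (hc : c ∣ M) (h1 : low x b = low x c)
    (h2 : F.same x b c) : lab F x b = lab F x c := by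
  unfold lab
  refine Prod.ext h1 (funext fun p => ?_)
  simp only
  by_cases h : p ∈ M.primeFactors ∧ x < p
  · rw [if_pos h, if_pos h]
    have hpp := Nat.prime_of_mem_primeFactors h.1
    have e1 := FL.ctr_eq hb hc h2 hpp h.2.le
    rw [← e1]
    by_cases h3 : F.ctr b p = none
    · rw [if_pos h3, if_pos h3, h2 p hpp h.2 h3]
    · rw [if_neg h3, if_neg h3]
  · rw [if_neg h, if_neg h]

lemma of_lab_eq {x b c : ℕ} (hM : M ≠ 0) (hb : b ∣ M) (hc : c ∣ M) (h : lab F x b = lab F x c) :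
    low x b = low x c ∧ F.same x b c := by
  have h1 := congrArg Prod.fst h
  have h2 := congrArg Prod.snd h
  refine ⟨h1, fun q hq hx hn => ?_⟩
  by_cases hqm : q ∈ M.primeFactors
  · have h3 := congrFun h2 q
    simp only [lab, hqm, hx, and_self, if_true] at h3
    have h4 := congrArg Prod.fst h3
    have h5 := congrArg Prod.snd h3
    simp only at h4 h5
    rw [hn] at h4
    rw [if_pos hn, if_pos h4.symm] at h5
    exact h5
  · rw [fact_zero' hM hb hqm, fact_zero' hM hc hqm]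

lemma not_ps {x b p : ℕ} : ¬ Ps F x b p ↔ (p ≤ x ∨ (x < p ∧ F.ctr b p = none)) := by
  unfold Ps
  constructor
  · intro h
    by_cases hx : x < p
    · right
      refine ⟨hx, ?_⟩
      cases h1 : F.ctr b p with
      | none => rfl
      | some v => exact absurd ⟨hx, v, h1⟩ h
    · left; omega
  · rintro (h | h) ⟨h1, v, hv⟩
    · omega
    · rw [h.2] at hv; cases hv

lemma fact_eq_of_low {x b c p : ℕ} (h : low x b = low x c) (hp : p ≤ x) :
    b.factorization p = c.factorization p := by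
  have h1 := fact_low x b p
  have h2 := fact_low x c p
  rw [if_pos hp] at h1 h2
  rw [← h1, ← h2, h]

/-- the letters outside the passive primes agree -/
lemma fact_np {x b c p : ℕ} (h1 : low x b = low x c) (h2 : F.same x b c)
    (hp : ¬ Ps F x b p) : b.factorization p = c.factorization p := by
  rcases not_ps.1 hp with h | h
  · exact fact_eq_of_low h1 h
  · by_cases hpp : p.Prime
    · exact h2 p hpp h.1 h.2
    · rw [Nat.factorization_eq_zero_of_not_prime _ hpp, Nat.factorization_eq_zero_of_not_prime _ hpp]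

lemma wd_dvd {x b : ℕ} (hM : M ≠ 0) (hb : b ∣ M) : wd F x b ∣ part (fun p => ¬ Ps F x b p) M :=
  part_dvd _ hM hb

/-- the class of `b0` is parametrised by the divisors of the passive part -/
lemma class_mem {x b0 z : ℕ} (hM : M ≠ 0) (hb0 : b0 ∣ M)
    (hz : z ∣ part (Ps F x b0) M) :
    z * wd F x b0 ∣ M ∧ low x b0 = low x (z * wd F x b0) ∧ F.same x b0 (z * wd F x b0) := by
  have hw := wd_dvd (F := F) (x := x) hM hb0
  have hz0 : z ≠ 0 := fun hc => part_ne (Ps F x b0) M (Nat.eq_zero_of_zero_dvd (hc ▸ hz))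
  have hw0 : wd F x b0 ≠ 0 := part_ne _ _
  have hfac : ∀ p, ¬ Ps F x b0 p → (z * wd F x b0).factorization p = b0.factorization p := by
    intro p hp
    rw [Nat.factorization_mul hz0 hw0, Finsupp.add_apply, fact_zero_of_dvd_part _ hz hp]
    unfold wd
    rw [fact_part, if_pos hp, zero_add]
  refine ⟨?_, ?_, ?_⟩
  · calc z * wd F x b0 ∣ part (Ps F x b0) M * part (fun p => ¬ Ps F x b0 p) M :=
          Nat.mul_dvd_mul hz hw
      _ = M := part_mul _ hM
  · refine Nat.eq_of_factorization_eq (low_pos _ _).ne' (low_pos _ _).ne' fun p => ?_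
    rw [fact_low, fact_low]
    by_cases hp : p ≤ x
    · rw [if_pos hp, if_pos hp]
      exact (hfac p (not_ps.2 (Or.inl hp))).symm
    · rw [if_neg hp, if_neg hp]
  · intro q hq hx hn
    exact (hfac q (not_ps.2 (Or.inr ⟨hx, hn⟩))).symm

lemma class_sum {x b0 : ℕ} (hM : M ≠ 0) (hb0 : b0 ∣ M) (G : ℕ → ℝ) :
    ∑ b ∈ M.divisors.filter (fun b => lab F x b = lab F x b0), G b =
      ∑ z ∈ (part (Ps F x b0) M).divisors, G (z * wd F x b0) := by
  refine Finset.sum_bij' (fun b _ => part (Ps F x b0) b) (fun z _ => z * wd F x b0) ?_ ?_ ?_ ?_ ?_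
  · intro b hb
    rw [Finset.mem_filter, Nat.mem_divisors] at hb
    rw [Nat.mem_divisors]
    exact ⟨part_dvd _ hM hb.1.1, part_ne _ _⟩
  · intro z hz
    rw [Nat.mem_divisors] at hz
    obtain ⟨h1, h2, h3⟩ := class_mem (x := x) hM hb0 hz.1
    rw [Finset.mem_filter, Nat.mem_divisors]
    exact ⟨⟨h1, hM⟩, (lab_eq hb0 h1 h2 h3).symm⟩
  · intro b hb
    rw [Finset.mem_filter, Nat.mem_divisors] at hb
    obtain ⟨h1, h2⟩ := of_lab_eq hM hb0 hb.1.1 hb.2.symm
    have hb00 : b ≠ 0 := fun hc => hM (Nat.eq_zero_of_zero_dvd (hc ▸ hb.1.1))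
    have e1 : wd F x b0 = part (fun p => ¬ Ps F x b0 p) b := by
      refine Nat.eq_of_factorization_eq (part_ne _ _) (part_ne _ _) fun p => ?_
      unfold wd
      rw [fact_part, fact_part]
      by_cases hp : Ps F x b0 p
      · rw [if_neg (not_not.2 hp), if_neg (not_not.2 hp)]
      · rw [if_pos hp, if_pos hp]
        exact fact_np h1 h2 hp
    rw [e1]
    exact part_mul _ hb00
  · intro z hz
    rw [Nat.mem_divisors] at hz
    exact part_of_mul _ hz.1 (wd_dvd hM hb0)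
  · intro b hb
    rw [Finset.mem_filter, Nat.mem_divisors] at hb
    obtain ⟨h1, h2⟩ := of_lab_eq hM hb0 hb.1.1 hb.2.symm
    have hb00 : b ≠ 0 := fun hc => hM (Nat.eq_zero_of_zero_dvd (hc ▸ hb.1.1))
    have e1 : wd F x b0 = part (fun p => ¬ Ps F x b0 p) b := by
      refine Nat.eq_of_factorization_eq (part_ne _ _) (part_ne _ _) fun p => ?_
      unfold wd
      rw [fact_part, fact_part]
      by_cases hp : Ps F x b0 p
      · rw [if_neg (not_not.2 hp), if_neg (not_not.2 hp)]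
      · rw [if_pos hp, if_pos hp]
        exact fact_np h1 h2 hp
    rw [e1, part_mul _ hb00]

/-- centre word of the passive part -/
noncomputable def Hc (F : FL M) (x b0 : ℕ) : ℕ := part (Ps F x b0) (F.cen x b0)

lemma fact_Hc {x b0 p v : ℕ} (hp : p ∈ M.primeFactors) (hx : x < p) (hv : F.ctr b0 p = some v) :
    (Hc F x b0).factorization p = v := by
  unfold Hc
  rw [fact_part, if_pos ⟨hx, v, hv⟩, FL.fact_cen, if_pos hp]
  simp only [FL.cenE, hx, if_true, hv]

lemma Hc_dvd {x b0 : ℕ} (hM : M ≠ 0) (hb0 : b0 ∣ M) : Hc F x b0 ∣ part (Ps F x b0) M := by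
  have hH0 : Hc F x b0 ≠ 0 := part_ne _ _
  rw [← Nat.factorization_le_iff_dvd hH0 (part_ne _ _)]
  intro p
  by_cases hp : Ps F x b0 p
  · rw [fact_part (Ps F x b0) M p, if_pos hp]
    by_cases hpm : p ∈ M.primeFactors
    · obtain ⟨hx, v, hv⟩ := hp
      rw [fact_Hc hpm hx hv]
      exact F.le hb0 (Nat.prime_of_mem_primeFactors hpm) hv
    · unfold Hc
      rw [fact_part, if_pos hp, FL.fact_cen, if_neg hpm]
      exact Nat.zero_le _
  · unfold Hc
    rw [fact_part, if_neg hp]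
    exact Nat.zero_le _

/-- `b ν(b) ≤ 1` -/
lemma mul_nu_le {M b : ℕ} (hM : 0 < M) (hb : b ∣ M) : (b : ℝ) * nu M b ≤ 1 := by
  unfold nu
  have h1 : ((M / b).totient : ℝ) ≤ ((M / b : ℕ) : ℝ) := by exact_mod_cast Nat.totient_le _
  have h2 : (b : ℝ) * ((M / b : ℕ) : ℝ) = M := by
    exact_mod_cast Nat.mul_div_cancel' hb
  have hMR : (0:ℝ) < M := by exact_mod_cast hM
  rw [mul_div_assoc', div_le_one hMR]
  calc (b:ℝ) * ((M / b).totient : ℝ) ≤ b * ((M / b : ℕ) : ℝ) :=
        mul_le_mul_of_nonneg_left h1 (by positivity)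
    _ = M := h2

/-- one term of the non-pure energy -/
noncomputable def tm (F : FL M) (x : ℕ) (X : ℝ) (f g : ℕ → ℝ) (b c : ℕ) : ℝ :=
  if X < (Nat.gcd b c : ℝ) ∧ (Nat.gcd b c : ℝ) ≤ 2 * X ∧ low x b = low x c ∧ F.good x b c ∧
      ¬ (F.ell x b = 1 ∧ F.ell x c = 1) then
    (Nat.gcd b c : ℝ) * nu M b * nu M c * (f b * g c) else 0

lemma class_energy {x b0 : ℕ} (hM : 0 < M) (hb0 : b0 ∣ M) {ρ : ℝ}
    (hρ : ∀ i, 1 ≤ i → ((M.divisors.filter (fun l => Nat.log 2 l = i ∧
      ∀ p : ℕ, p.Prime → p ∣ l → x < p)).card : ℝ) ≤ ρ * 2 ^ i)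
    (f g : ℕ → ℝ) (hf : ∀ b, 0 ≤ f b) (hg : ∀ b, 0 ≤ g b) {X : ℝ} (hX : 0 < X) :
    ∑ b ∈ M.divisors.filter (fun b => lab F x b = lab F x b0),
      ∑ c ∈ M.divisors.filter (fun b => lab F x b = lab F x b0), tm F x X f g b c ≤
      3 * √ρ * (√(∑ b ∈ M.divisors.filter (fun b => lab F x b = lab F x b0), nu M b * f b ^ 2) *
        √(∑ b ∈ M.divisors.filter (fun b => lab F x b = lab F x b0), nu M b * g b ^ 2)) := by
  set S := Ps F x b0 with hS
  set M1 := part S M with hM1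
  set w := wd F x b0 with hw
  set M2 := part (fun p => ¬ S p) M with hM2
  have hM1p : 0 < M1 := part_pos _ _
  have hM2p : 0 < M2 := part_pos _ _
  have hwM : w ∣ M2 := wd_dvd hM.ne' hb0
  have hw0 : 0 < w := Nat.pos_of_dvd_of_pos hwM hM2p
  have hwR : (0 : ℝ) < w := by exact_mod_cast hw0
  have hnu : ∀ z, z ∣ M1 → nu M (z * w) = nu M1 z * nu M2 w := fun z hz => nu_cut S hM hz hwM
  have hgcd : ∀ z z', z ∣ M1 → z' ∣ M1 → Nat.gcd (z * w) (z' * w) = Nat.gcd z z' * w := by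
    intro z z' hz hz'
    rw [gcd_cut S hz hwM hz' hwM, Nat.gcd_self]
  have hν2 := nu_nonneg M2 w
  have hρ1 : ∀ i, 1 ≤ i → ((M1.divisors.filter (fun l => Nat.log 2 l = i)).card : ℝ) ≤ ρ * 2 ^ i := by
    intro i hi
    refine le_trans ?_ (hρ i hi)
    have : M1.divisors.filter (fun l => Nat.log 2 l = i) ⊆
        M.divisors.filter (fun l => Nat.log 2 l = i ∧ ∀ p : ℕ, p.Prime → p ∣ l → x < p) := by
      intro l hl
      rw [Finset.mem_filter, Nat.mem_divisors] at hl ⊢
      refine ⟨⟨hl.1.1.trans (part_dvd_self _ _), hM.ne'⟩, hl.2, fun p hp hpl => ?_⟩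
      exact (prime_dvd_part S hp (hpl.trans hl.1.1)).1
    exact_mod_cast Finset.card_le_card this
  have hmain := NonPurex559.nonpure hM1p (Hc_dvd (F := F) (x := x) hM.ne' hb0) hρ1
    (fun z => f (z * w)) (fun z => g (z * w)) (fun z => hf _) (fun z => hg _)
    (X := X / w) (by positivity)
  -- right side
  have hR1 : ∑ b ∈ M.divisors.filter (fun b => lab F x b = lab F x b0), nu M b * f b ^ 2 =
      nu M2 w * ∑ z ∈ M1.divisors, nu M1 z * f (z * w) ^ 2 := by
    rw [class_sum hM.ne' hb0, Finset.mul_sum]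
    refine Finset.sum_congr rfl fun z hz => ?_
    rw [hnu z (Nat.dvd_of_mem_divisors hz)]; ring
  have hR2 : ∑ b ∈ M.divisors.filter (fun b => lab F x b = lab F x b0), nu M b * g b ^ 2 =
      nu M2 w * ∑ z ∈ M1.divisors, nu M1 z * g (z * w) ^ 2 := by
    rw [class_sum hM.ne' hb0, Finset.mul_sum]
    refine Finset.sum_congr rfl fun z hz => ?_
    rw [hnu z (Nat.dvd_of_mem_divisors hz)]; ring
  rw [hR1, hR2, class_sum hM.ne' hb0]
  have hL : ∀ z ∈ M1.divisors, ∑ c ∈ M.divisors.filter (fun b => lab F x b = lab F x b0),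
      tm F x X f g (z * w) c ≤ (w * nu M2 w * nu M2 w) * ∑ z' ∈ M1.divisors,
        (if X / w < (Nat.gcd z z' : ℝ) ∧ (Nat.gcd z z' : ℝ) ≤ 2 * (X / w) ∧
            NonPurex559.lvl M1 (Hc F x b0) z z' ∧ ¬ (Hc F x b0 ∣ z ∧ Hc F x b0 ∣ z') then
          (Nat.gcd z z' : ℝ) * nu M1 z * nu M1 z' * (f (z * w) * g (z' * w)) else 0) := by
    intro z hz
    rw [class_sum hM.ne' hb0, Finset.mul_sum]
    refine Finset.sum_le_sum fun z' hz' => ?_
    have hz := Nat.dvd_of_mem_divisors hz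
    have hz' := Nat.dvd_of_mem_divisors hz'
    obtain ⟨hb1, hb2, hb3⟩ := class_mem (F := F) (x := x) hM.ne' hb0 hz
    obtain ⟨hc1, hc2, hc3⟩ := class_mem (F := F) (x := x) hM.ne' hb0 hz'
    change z * w ∣ M at hb1
    change z' * w ∣ M at hc1
    have hzz : (Nat.gcd (z * w) (z' * w) : ℝ) = (Nat.gcd z z' : ℝ) * w := by
      rw [hgcd z z' hz hz']; push_cast; ring
    have hfz : ∀ y p, y ∣ M1 → S p → (y * w).factorization p = y.factorization p := by
      intro y p hy hp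
      have hy0 : y ≠ 0 := fun hc => hM1p.ne' (Nat.eq_zero_of_zero_dvd (hc ▸ hy))
      rw [Nat.factorization_mul hy0 hw0.ne', Finsupp.add_apply,
        fact_zero_of_dvd_part (fun p => ¬ S p) hwM (not_not.2 hp), add_zero]
    have hell : ∀ y, y ∣ M1 → y * w ∣ M → F.same x b0 (y * w) → Hc F x b0 ∣ y →
        F.ell x (y * w) = 1 := by
      intro y hy hyM hsame hH
      unfold FL.ell
      refine Finset.prod_eq_one fun p hp => ?_
      have hpp := Nat.prime_of_mem_primeFactors hp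
      have : F.ellE x (y * w) p = 0 := by
        unfold FL.ellE
        by_cases hx : x < p
        · rw [if_pos hx, ← FL.ctr_eq hb0 hyM hsame hpp hx.le]
          cases hv : F.ctr b0 p with
          | none => rfl
          | some v =>
            simp only
            have hSp : S p := ⟨hx, v, hv⟩
            rw [hfz y p hy hSp]
            have hy0 : y ≠ 0 := fun hc => hM1p.ne' (Nat.eq_zero_of_zero_dvd (hc ▸ hy))
            have hH0 : Hc F x b0 ≠ 0 := part_ne _ _
            have h1 := (Nat.factorization_le_iff_dvd hH0 hy0).2 hH p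
            rw [fact_Hc hp hx hv] at h1
            omega
        · rw [if_neg hx]
      rw [this, pow_zero]
    unfold tm
    split_ifs with h1 h2 h2
    · refine le_of_eq ?_
      rw [hzz, hnu z hz, hnu z' hz']
      ring
    · exfalso
      obtain ⟨g1, g2, _, g4, g5⟩ := h1
      apply h2
      rw [hzz] at g1 g2
      refine ⟨?_, ?_, ?_, ?_⟩
      · rw [div_lt_iff₀ hwR]; exact g1
      · rw [show 2 * (X / (w : ℝ)) = 2 * X / w by ring, le_div_iff₀ hwR]; exact g2
      · intro p hp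
        have hpp := Nat.prime_of_mem_primeFactors hp
        have hpd := Nat.dvd_of_mem_primeFactors hp
        have hSp : S p := prime_dvd_part S hpp hpd
        have hpm : p ∈ M.primeFactors := by
          rw [Nat.mem_primeFactors]
          exact ⟨hpp, hpd.trans (part_dvd_self _ _), hM.ne'⟩
        obtain ⟨hx, v, hv⟩ := hSp
        have hSp : S p := ⟨hx, v, hv⟩
        rw [fact_Hc hpm hx hv]
        have h3 := g4.2 p hpp hx v (by rw [← FL.ctr_eq hb0 hb1 hb3 hpp hx.le]; exact hv)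
        rw [hfz z p hz hSp, hfz z' p hz' hSp] at h3
        exact h3
      · rintro ⟨e1, e2⟩
        exact g5 ⟨hell z hz hb1 hb3 e1, hell z' hz' hc1 hc3 e2⟩
    · exact mul_nonneg (mul_nonneg (mul_nonneg hwR.le hν2) hν2)
        (mul_nonneg (mul_nonneg (mul_nonneg (by positivity) (nu_nonneg _ _)) (nu_nonneg _ _))
          (mul_nonneg (hf _) (hg _)))
    · rw [mul_zero]
  refine (Finset.sum_le_sum hL).trans ?_
  rw [← Finset.mul_sum]
  set A := ∑ z ∈ M1.divisors, nu M1 z * f (z * w) ^ 2 with hA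
  set B := ∑ z ∈ M1.divisors, nu M1 z * g (z * w) ^ 2 with hB
  have hA0 : 0 ≤ A := Finset.sum_nonneg fun z _ => mul_nonneg (nu_nonneg _ _) (by positivity)
  have hB0 : 0 ≤ B := Finset.sum_nonneg fun z _ => mul_nonneg (nu_nonneg _ _) (by positivity)
  have h3 : √(nu M2 w * A) * √(nu M2 w * B) = nu M2 w * (√A * √B) := by
    rw [Real.sqrt_mul hν2, Real.sqrt_mul hν2]
    have := Real.mul_self_sqrt hν2
    calc _ = (√(nu M2 w) * √(nu M2 w)) * (√A * √B) := by ring
      _ = _ := by rw [this]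
  rw [h3]
  have hkey : (w * nu M2 w * nu M2 w) ≤ nu M2 w := by
    calc w * nu M2 w * nu M2 w ≤ 1 * nu M2 w :=
          mul_le_mul_of_nonneg_right (mul_nu_le hM2p hwM) hν2
      _ = nu M2 w := one_mul _
  have hAB : 0 ≤ 3 * √ρ * (√A * √B) :=
    mul_nonneg (mul_nonneg (by norm_num) (Real.sqrt_nonneg _))
      (mul_nonneg (Real.sqrt_nonneg _) (Real.sqrt_nonneg _))
  calc _ ≤ (w * nu M2 w * nu M2 w) * (3 * √ρ * (√A * √B)) := by
        refine mul_le_mul_of_nonneg_left ?_ (mul_nonneg (mul_nonneg hwR.le hν2) hν2)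
        convert hmain using 6
    _ ≤ nu M2 w * (3 * √ρ * (√A * √B)) := mul_le_mul_of_nonneg_right hkey hAB
    _ = _ := by ring

/-- **non-pure good pairs, fixed dyadic gcd** -/
theorem nonpure_fl (F : FL M) (hM : 0 < M) (x : ℕ) {ρ : ℝ}
    (hρ : ∀ i, 1 ≤ i → ((M.divisors.filter (fun l => Nat.log 2 l = i ∧
      ∀ p : ℕ, p.Prime → p ∣ l → x < p)).card : ℝ) ≤ ρ * 2 ^ i)
    (f g : ℕ → ℝ) (hf : ∀ b, 0 ≤ f b) (hg : ∀ b, 0 ≤ g b) {X : ℝ} (hX : 0 < X) :
    ∑ b ∈ M.divisors, ∑ c ∈ M.divisors, tm F x X f g b c ≤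
      3 * √ρ * (√(∑ b ∈ M.divisors, nu M b * f b ^ 2) *
        √(∑ b ∈ M.divisors, nu M b * g b ^ 2)) := by
  set I := M.divisors.image (lab F x) with hI
  have hmap : ∀ b ∈ M.divisors, lab F x b ∈ I := fun b hb => Finset.mem_image_of_mem _ hb
  have e1 : ∑ b ∈ M.divisors, ∑ c ∈ M.divisors, tm F x X f g b c =
      ∑ k ∈ I, ∑ b ∈ M.divisors.filter (fun b => lab F x b = k),
        ∑ c ∈ M.divisors.filter (fun b => lab F x b = k), tm F x X f g b c := by
    rw [← Finset.sum_fiberwise_of_maps_to hmap]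
    refine Finset.sum_congr rfl fun k _ => Finset.sum_congr rfl fun b hb => ?_
    rw [Finset.mem_filter] at hb
    rw [Finset.sum_filter]
    refine Finset.sum_congr rfl fun c hc => ?_
    by_cases h : lab F x c = k
    · rw [if_pos h]
    · rw [if_neg h]
      unfold tm
      rw [if_neg]
      rintro ⟨_, _, h3, h4, _⟩
      apply h
      rw [← hb.2]
      exact (lab_eq (Nat.dvd_of_mem_divisors hb.1) (Nat.dvd_of_mem_divisors hc) h3 h4.1).symm
  rw [e1]
  set A : ℕ × (ℕ → Option ℕ × ℕ) → ℝ := fun k =>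
    ∑ b ∈ M.divisors.filter (fun b => lab F x b = k), nu M b * f b ^ 2 with hA
  set B : ℕ × (ℕ → Option ℕ × ℕ) → ℝ := fun k =>
    ∑ b ∈ M.divisors.filter (fun b => lab F x b = k), nu M b * g b ^ 2 with hB
  have hA0 : ∀ k, 0 ≤ A k := fun k =>
    Finset.sum_nonneg fun z _ => mul_nonneg (nu_nonneg _ _) (by positivity)
  have hB0 : ∀ k, 0 ≤ B k := fun k =>
    Finset.sum_nonneg fun z _ => mul_nonneg (nu_nonneg _ _) (by positivity)
  have h1 : ∀ k ∈ I, ∑ b ∈ M.divisors.filter (fun b => lab F x b = k),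
        ∑ c ∈ M.divisors.filter (fun b => lab F x b = k), tm F x X f g b c ≤
        3 * √ρ * (√(A k) * √(B k)) := by
    intro k hk
    rw [hI, Finset.mem_image] at hk
    obtain ⟨b0, hb0, rfl⟩ := hk
    exact class_energy hM (Nat.dvd_of_mem_divisors hb0) hρ f g hf hg hX
  refine (Finset.sum_le_sum h1).trans ?_
  rw [← Finset.mul_sum]
  refine mul_le_mul_of_nonneg_left ?_ (mul_nonneg (by norm_num) (Real.sqrt_nonneg _))
  have hsA : ∑ k ∈ I, A k = ∑ b ∈ M.divisors, nu M b * f b ^ 2 :=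
    Finset.sum_fiberwise_of_maps_to hmap _
  have hsB : ∑ k ∈ I, B k = ∑ b ∈ M.divisors, nu M b * g b ^ 2 :=
    Finset.sum_fiberwise_of_maps_to hmap _
  refine (Real.sum_mul_le_sqrt_mul_sqrt _ _ _).trans (le_of_eq ?_)
  rw [← hsA, ← hsB]
  congr 1
  · congr 1
    exact Finset.sum_congr rfl fun k _ => Real.sq_sqrt (hA0 k)
  · congr 1
    exact Finset.sum_congr rfl fun k _ => Real.sq_sqrt (hB0 k)

/-- the same with `ρ = C / log x` -/
theorem nonpure_fl_log : ∃ C : ℝ, 0 < C ∧ ∀ (M : ℕ) (F : FL M), 0 < M → ∀ x : ℕ, 2 ≤ x →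
    ∀ (f g : ℕ → ℝ), (∀ b, 0 ≤ f b) → (∀ b, 0 ≤ g b) → ∀ X : ℝ, 0 < X →
    ∑ b ∈ M.divisors, ∑ c ∈ M.divisors, tm F x X f g b c ≤
      C * (Real.log x) ^ (-(1 / 2 : ℝ)) * (√(∑ b ∈ M.divisors, nu M b * f b ^ 2) *
        √(∑ b ∈ M.divisors, nu M b * g b ^ 2)) := by
  obtain ⟨C, hC, h⟩ := Roughx882.rough_count'
  refine ⟨3 * √C, by positivity, fun M F hM x hx f g hf hg X hX => ?_⟩
  have hx' : (2 : ℝ) ≤ (x : ℝ) := by exact_mod_cast hx
  have hlog : 0 < Real.log x := Real.log_pos (by linarith)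
  have hρ : ∀ i, 1 ≤ i → ((M.divisors.filter (fun l => Nat.log 2 l = i ∧
      ∀ p : ℕ, p.Prime → p ∣ l → x < p)).card : ℝ) ≤ (C / Real.log x) * 2 ^ i := by
    intro i hi
    have h1 := h x hx' (2 ^ i) (Nat.one_le_two_pow) (M.divisors.filter (fun l => Nat.log 2 l = i ∧
      ∀ p : ℕ, p.Prime → p ∣ l → x < p)) (fun l hl => by
        rw [Finset.mem_filter] at hl
        have hl0 : l ≠ 0 := (Nat.pos_of_mem_divisors hl.1).ne'
        have e1 : 2 ^ i ≤ l := by rw [← hl.2.1]; exact Nat.pow_log_le_self 2 hl0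
        have e2 : l < 2 ^ (i + 1) := by
          rw [← hl.2.1]; exact Nat.lt_pow_succ_log_self (by norm_num) l
        have e3 : 2 ≤ 2 ^ i := by
          calc 2 = 2 ^ 1 := by norm_num
            _ ≤ 2 ^ i := Nat.pow_le_pow_right (by norm_num) hi
        refine ⟨e1, ?_, by omega, fun p hp hpl => ?_⟩
        · rw [pow_succ] at e2; omega
        · exact_mod_cast hl.2.2 p hp hpl)
    refine h1.trans (le_of_eq ?_)
    push_cast
    ring
  refine (nonpure_fl F hM x hρ f g hf hg hX).trans (le_of_eq ?_)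
  have h2 : √(C / Real.log x) = √C * (Real.log x) ^ (-(1 / 2 : ℝ)) := by
    rw [Real.sqrt_div hC.le, Real.rpow_neg hlog.le, ← Real.sqrt_eq_rpow]
    rfl
  rw [h2]; ring

end Crest.Agent.R4C.NonPureFLx559
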