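import Crest.Agent.R4C.NonPureSet_52
import Crest.Agent.R4C.NonPureFL_559

/-!
# Row 4: non-pure good pairs of an F-Λ structure, SETS, all windows at once (helper52, 3113 (B))

`tms F x f g b c` : the term of a pair with equal parts `≤ x`, good at `x`, not pure; no restriction
on `gcd`.  `nonpure_set_fl`, `nonpure_set_fl_log` : for `f, g` with values in `[0,1]`
`Σ tms ≤ (8 √ρ + 16 ρ) (Σ ν f)^{1/2} (Σ ν g)^{1/2}`, `ρ = C / log x`.
-/

set_option autoImplicit false

open Finset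
open Crest.Agent.R4C.Basex935 Crest.Agent.R4C.Cutx50 Crest.Agent.R4C.FLDefx935
open Crest.Agent.R4C.NonPureFLx559

namespace Crest.Agent.R4C.NonPureSetFLx52

open Classical

variable {M : ℕ}

/-- one term of the non-pure energy, no window -/
noncomputable def tms (F : FL M) (x : ℕ) (f g : ℕ → ℝ) (b c : ℕ) : ℝ :=
  if low x b = low x c ∧ F.good x b c ∧ ¬ (F.ell x b = 1 ∧ F.ell x c = 1) then
    (Nat.gcd b c : ℝ) * nu M b * nu M c * (f b * g c) else 0

variable {F : FL M}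

set_option maxHeartbeats 1000000 in
lemma class_energy_set {x b0 : ℕ} (hM : 0 < M) (hb0 : b0 ∣ M) {ρ : ℝ} (hρ0 : 0 ≤ ρ)
    (hρ : ∀ i, 1 ≤ i → ((M.divisors.filter (fun l => Nat.log 2 l = i ∧
      ∀ p : ℕ, p.Prime → p ∣ l → x < p)).card : ℝ) ≤ ρ * 2 ^ i)
    (f g : ℕ → ℝ) (hf : ∀ b, 0 ≤ f b) (hg : ∀ b, 0 ≤ g b) (hf1 : ∀ b, f b ≤ 1)
    (hg1 : ∀ b, g b ≤ 1) :
    ∑ b ∈ M.divisors.filter (fun b => lab F x b = lab F x b0),
      ∑ c ∈ M.divisors.filter (fun b => lab F x b = lab F x b0), tms F x f g b c ≤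
      (8 * √ρ + 16 * ρ) *
        (√(∑ b ∈ M.divisors.filter (fun b => lab F x b = lab F x b0), nu M b * f b) *
        √(∑ b ∈ M.divisors.filter (fun b => lab F x b = lab F x b0), nu M b * g b)) := by
  set S := Ps F x b0 with hS
  set M1 := part S M with hM1
  set w := wd F x b0 with hw
  set M2 := part (fun p => ¬ S p) M with hM2
  have hM1p : 0 < M1 := part_pos _ _
  have hM2p : 0 < M2 := part_pos _ _
  have hwM : w ∣ M2 := wd_dvd hM.ne' hb0
  have hw0 : 0 < w := Nat.pos_of_dvd_of_pos hwM hM2p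
  have hwR : (0 : ℝ) < w := by exact_mod_cast hw0
  have hnu : ∀ z, z ∣ M1 → nu M (z * w) = nu M1 z * nu M2 w := fun z hz => nu_cut S hM hz hwM
  have hgcd : ∀ z z', z ∣ M1 → z' ∣ M1 → Nat.gcd (z * w) (z' * w) = Nat.gcd z z' * w := by
    intro z z' hz hz'
    rw [gcd_cut S hz hwM hz' hwM, Nat.gcd_self]
  have hν2 := nu_nonneg M2 w
  have hρ1 : ∀ i, 1 ≤ i → ((M1.divisors.filter (fun l => Nat.log 2 l = i)).card : ℝ) ≤ ρ * 2 ^ i := by
    intro i hi
    refine le_trans ?_ (hρ i hi)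
    have : M1.divisors.filter (fun l => Nat.log 2 l = i) ⊆
        M.divisors.filter (fun l => Nat.log 2 l = i ∧ ∀ p : ℕ, p.Prime → p ∣ l → x < p) := by
      intro l hl
      rw [Finset.mem_filter, Nat.mem_divisors] at hl ⊢
      refine ⟨⟨hl.1.1.trans (part_dvd_self _ _), hM.ne'⟩, hl.2, fun p hp hpl => ?_⟩
      exact (prime_dvd_part S hp (hpl.trans hl.1.1)).1
    exact_mod_cast Finset.card_le_card this
  have hmain := NonPureSetx52.nonpure_set hM1p (Hc_dvd (F := F) (x := x) hM.ne' hb0) hρ0 hρ1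
    (fun z => f (z * w)) (fun z => g (z * w)) (fun z => hf _) (fun z => hg _)
    (fun z => hf1 _) (fun z => hg1 _)
  have hR1 : ∑ b ∈ M.divisors.filter (fun b => lab F x b = lab F x b0), nu M b * f b =
      nu M2 w * ∑ z ∈ M1.divisors, nu M1 z * f (z * w) := by
    rw [class_sum hM.ne' hb0, Finset.mul_sum]
    refine Finset.sum_congr rfl fun z hz => ?_
    rw [hnu z (Nat.dvd_of_mem_divisors hz)]; ring
  have hR2 : ∑ b ∈ M.divisors.filter (fun b => lab F x b = lab F x b0), nu M b * g b =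
      nu M2 w * ∑ z ∈ M1.divisors, nu M1 z * g (z * w) := by
    rw [class_sum hM.ne' hb0, Finset.mul_sum]
    refine Finset.sum_congr rfl fun z hz => ?_
    rw [hnu z (Nat.dvd_of_mem_divisors hz)]; ring
  rw [hR1, hR2, class_sum hM.ne' hb0]
  have hL : ∀ z ∈ M1.divisors, ∑ c ∈ M.divisors.filter (fun b => lab F x b = lab F x b0),
      tms F x f g (z * w) c ≤ (w * nu M2 w * nu M2 w) * ∑ z' ∈ M1.divisors,
        (if NonPurex559.lvl M1 (Hc F x b0) z z' ∧ ¬ (Hc F x b0 ∣ z ∧ Hc F x b0 ∣ z') then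
          (Nat.gcd z z' : ℝ) * nu M1 z * nu M1 z' * (f (z * w) * g (z' * w)) else 0) := by
    intro z hz
    rw [class_sum hM.ne' hb0, Finset.mul_sum]
    refine Finset.sum_le_sum fun z' hz' => ?_
    have hz := Nat.dvd_of_mem_divisors hz
    have hz' := Nat.dvd_of_mem_divisors hz'
    obtain ⟨hb1, hb2, hb3⟩ := class_mem (F := F) (x := x) hM.ne' hb0 hz
    obtain ⟨hc1, hc2, hc3⟩ := class_mem (F := F) (x := x) hM.ne' hb0 hz'
    change z * w ∣ M at hb1
    change z' * w ∣ M at hc1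
    have hzz : (Nat.gcd (z * w) (z' * w) : ℝ) = (Nat.gcd z z' : ℝ) * w := by
      rw [hgcd z z' hz hz']; push_cast; ring
    have hfz : ∀ y p, y ∣ M1 → S p → (y * w).factorization p = y.factorization p := by
      intro y p hy hp
      have hy0 : y ≠ 0 := fun hc => hM1p.ne' (Nat.eq_zero_of_zero_dvd (hc ▸ hy))
      rw [Nat.factorization_mul hy0 hw0.ne', Finsupp.add_apply,
        fact_zero_of_dvd_part (fun p => ¬ S p) hwM (not_not.2 hp), add_zero]
    have hell : ∀ y, y ∣ M1 → y * w ∣ M → F.same x b0 (y * w) → Hc F x b0 ∣ y →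
        F.ell x (y * w) = 1 := by
      intro y hy hyM hsame hH
      unfold FL.ell
      refine Finset.prod_eq_one fun p hp => ?_
      have hpp := Nat.prime_of_mem_primeFactors hp
      have : F.ellE x (y * w) p = 0 := by
        unfold FL.ellE
        by_cases hx : x < p
        · rw [if_pos hx, ← FL.ctr_eq hb0 hyM hsame hpp hx.le]
          cases hv : F.ctr b0 p with
          | none => rfl
          | some v =>
            simp only
            have hSp : S p := ⟨hx, v, hv⟩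
            rw [hfz y p hy hSp]
            have hy0 : y ≠ 0 := fun hc => hM1p.ne' (Nat.eq_zero_of_zero_dvd (hc ▸ hy))
            have hH0 : Hc F x b0 ≠ 0 := part_ne _ _
            have h1 := (Nat.factorization_le_iff_dvd hH0 hy0).2 hH p
            rw [fact_Hc hp hx hv] at h1
            omega
        · rw [if_neg hx]
      rw [this, pow_zero]
    unfold tms
    split_ifs with h1 h2 h2
    · refine le_of_eq ?_
      rw [hzz, hnu z hz, hnu z' hz']
      ring
    · exfalso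
      obtain ⟨_, g4, g5⟩ := h1
      apply h2
      refine ⟨?_, ?_⟩
      · intro p hp
        have hpp := Nat.prime_of_mem_primeFactors hp
        have hpd := Nat.dvd_of_mem_primeFactors hp
        have hSp : S p := prime_dvd_part S hpp hpd
        have hpm : p ∈ M.primeFactors := by
          rw [Nat.mem_primeFactors]
          exact ⟨hpp, hpd.trans (part_dvd_self _ _), hM.ne'⟩
        obtain ⟨hx, v, hv⟩ := hSp
        have hSp : S p := ⟨hx, v, hv⟩
        rw [fact_Hc hpm hx hv]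
        have h3 := g4.2 p hpp hx v (by rw [← FL.ctr_eq hb0 hb1 hb3 hpp hx.le]; exact hv)
        rw [hfz z p hz hSp, hfz z' p hz' hSp] at h3
        exact h3
      · rintro ⟨e1, e2⟩
        exact g5 ⟨hell z hz hb1 hb3 e1, hell z' hz' hc1 hc3 e2⟩
    · exact mul_nonneg (mul_nonneg (mul_nonneg hwR.le hν2) hν2)
        (mul_nonneg (mul_nonneg (mul_nonneg (by positivity) (nu_nonneg _ _)) (nu_nonneg _ _))
          (mul_nonneg (hf _) (hg _)))
    · rw [mul_zero]
  refine (Finset.sum_le_sum hL).trans ?_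
  rw [← Finset.mul_sum]
  set A := ∑ z ∈ M1.divisors, nu M1 z * f (z * w) with hA
  set B := ∑ z ∈ M1.divisors, nu M1 z * g (z * w) with hB
  have hA0 : 0 ≤ A := Finset.sum_nonneg fun z _ => mul_nonneg (nu_nonneg _ _) (hf _)
  have hB0 : 0 ≤ B := Finset.sum_nonneg fun z _ => mul_nonneg (nu_nonneg _ _) (hg _)
  have h3 : √(nu M2 w * A) * √(nu M2 w * B) = nu M2 w * (√A * √B) := by
    rw [Real.sqrt_mul hν2, Real.sqrt_mul hν2]
    have := Real.mul_self_sqrt hν2
    calc _ = (√(nu M2 w) * √(nu M2 w)) * (√A * √B) := by ring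
      _ = _ := by rw [this]
  rw [h3]
  have hkey : (w * nu M2 w * nu M2 w) ≤ nu M2 w := by
    calc w * nu M2 w * nu M2 w ≤ 1 * nu M2 w :=
          mul_le_mul_of_nonneg_right (mul_nu_le hM2p hwM) hν2
      _ = nu M2 w := one_mul _
  have hAB : 0 ≤ (8 * √ρ + 16 * ρ) * (√A * √B) :=
    mul_nonneg (add_nonneg (mul_nonneg (by norm_num) (Real.sqrt_nonneg _))
      (mul_nonneg (by norm_num) hρ0)) (mul_nonneg (Real.sqrt_nonneg _) (Real.sqrt_nonneg _))
  refine le_trans ?_ ((mul_le_mul_of_nonneg_right hkey hAB).trans (le_of_eq (by ring)))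
  refine mul_le_mul_of_nonneg_left ?_ (mul_nonneg (mul_nonneg hwR.le hν2) hν2)
  refine le_trans (le_of_eq ?_) hmain
  refine Finset.sum_congr rfl fun z _ => Finset.sum_congr rfl fun z' _ => ?_
  congr 1

/-- **non-pure good pairs, sets, all windows at once** -/
theorem nonpure_set_fl (F : FL M) (hM : 0 < M) (x : ℕ) {ρ : ℝ} (hρ0 : 0 ≤ ρ)
    (hρ : ∀ i, 1 ≤ i → ((M.divisors.filter (fun l => Nat.log 2 l = i ∧
      ∀ p : ℕ, p.Prime → p ∣ l → x < p)).card : ℝ) ≤ ρ * 2 ^ i)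
    (f g : ℕ → ℝ) (hf : ∀ b, 0 ≤ f b) (hg : ∀ b, 0 ≤ g b) (hf1 : ∀ b, f b ≤ 1)
    (hg1 : ∀ b, g b ≤ 1) :
    ∑ b ∈ M.divisors, ∑ c ∈ M.divisors, tms F x f g b c ≤
      (8 * √ρ + 16 * ρ) * (√(∑ b ∈ M.divisors, nu M b * f b) *
        √(∑ b ∈ M.divisors, nu M b * g b)) := by
  set I := M.divisors.image (lab F x) with hI
  have hmap : ∀ b ∈ M.divisors, lab F x b ∈ I := fun b hb => Finset.mem_image_of_mem _ hb
  have e1 : ∑ b ∈ M.divisors, ∑ c ∈ M.divisors, tms F x f g b c =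
      ∑ k ∈ I, ∑ b ∈ M.divisors.filter (fun b => lab F x b = k),
        ∑ c ∈ M.divisors.filter (fun b => lab F x b = k), tms F x f g b c := by
    rw [← Finset.sum_fiberwise_of_maps_to hmap]
    refine Finset.sum_congr rfl fun k _ => Finset.sum_congr rfl fun b hb => ?_
    rw [Finset.mem_filter] at hb
    rw [Finset.sum_filter]
    refine Finset.sum_congr rfl fun c hc => ?_
    by_cases h : lab F x c = k
    · rw [if_pos h]
    · rw [if_neg h]
      unfold tms
      rw [if_neg]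
      rintro ⟨h3, h4, _⟩
      apply h
      rw [← hb.2]
      exact (lab_eq (Nat.dvd_of_mem_divisors hb.1) (Nat.dvd_of_mem_divisors hc) h3 h4.1).symm
  rw [e1]
  set A : ℕ × (ℕ → Option ℕ × ℕ) → ℝ := fun k =>
    ∑ b ∈ M.divisors.filter (fun b => lab F x b = k), nu M b * f b with hA
  set B : ℕ × (ℕ → Option ℕ × ℕ) → ℝ := fun k =>
    ∑ b ∈ M.divisors.filter (fun b => lab F x b = k), nu M b * g b with hB
  have hA0 : ∀ k, 0 ≤ A k := fun k =>
    Finset.sum_nonneg fun z _ => mul_nonneg (nu_nonneg _ _) (hf _)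
  have hB0 : ∀ k, 0 ≤ B k := fun k =>
    Finset.sum_nonneg fun z _ => mul_nonneg (nu_nonneg _ _) (hg _)
  have h1 : ∀ k ∈ I, ∑ b ∈ M.divisors.filter (fun b => lab F x b = k),
        ∑ c ∈ M.divisors.filter (fun b => lab F x b = k), tms F x f g b c ≤
        (8 * √ρ + 16 * ρ) * (√(A k) * √(B k)) := by
    intro k hk
    rw [hI, Finset.mem_image] at hk
    obtain ⟨b0, hb0, rfl⟩ := hk
    exact class_energy_set hM (Nat.dvd_of_mem_divisors hb0) hρ0 hρ f g hf hg hf1 hg1
  refine (Finset.sum_le_sum h1).trans ?_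
  rw [← Finset.mul_sum]
  refine mul_le_mul_of_nonneg_left ?_ (by positivity)
  have hsA : ∑ k ∈ I, A k = ∑ b ∈ M.divisors, nu M b * f b :=
    Finset.sum_fiberwise_of_maps_to hmap _
  have hsB : ∑ k ∈ I, B k = ∑ b ∈ M.divisors, nu M b * g b :=
    Finset.sum_fiberwise_of_maps_to hmap _
  refine (Real.sum_mul_le_sqrt_mul_sqrt _ _ _).trans (le_of_eq ?_)
  rw [← hsA, ← hsB]
  congr 1
  · congr 1
    exact Finset.sum_congr rfl fun k _ => Real.sq_sqrt (hA0 k)
  · congr 1
    exact Finset.sum_congr rfl fun k _ => Real.sq_sqrt (hB0 k)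

/-- rough counts: `ρ = C / log x`, and `ρ = 1` always -/
lemma rough_card : ∃ C : ℝ, 0 < C ∧ ∀ (M x : ℕ), 2 ≤ x → ∀ i, 1 ≤ i →
    ((M.divisors.filter (fun l => Nat.log 2 l = i ∧
      ∀ p : ℕ, p.Prime → p ∣ l → x < p)).card : ℝ) ≤ (C / Real.log x) * 2 ^ i := by
  obtain ⟨C, hC, h⟩ := Roughx882.rough_count'
  refine ⟨C, hC, fun M x hx i hi => ?_⟩
  have hx' : (2 : ℝ) ≤ (x : ℝ) := by exact_mod_cast hx
  have h1 := h x hx' (2 ^ i) (Nat.one_le_two_pow) (M.divisors.filter (fun l => Nat.log 2 l = i ∧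
      ∀ p : ℕ, p.Prime → p ∣ l → x < p)) (fun l hl => by
        rw [Finset.mem_filter] at hl
        have hl0 : l ≠ 0 := (Nat.pos_of_mem_divisors hl.1).ne'
        have e1 : 2 ^ i ≤ l := by rw [← hl.2.1]; exact Nat.pow_log_le_self 2 hl0
        have e2 : l < 2 ^ (i + 1) := by
          rw [← hl.2.1]; exact Nat.lt_pow_succ_log_self (by norm_num) l
        have e3 : 2 ≤ 2 ^ i := by
          calc 2 = 2 ^ 1 := by norm_num
            _ ≤ 2 ^ i := Nat.pow_le_pow_right (by norm_num) hi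
        refine ⟨e1, ?_, by omega, fun p hp hpl => ?_⟩
        · rw [pow_succ] at e2; omega
        · exact_mod_cast hl.2.2 p hp hpl)
  refine h1.trans (le_of_eq ?_)
  push_cast
  ring

lemma card_le_pow (M x i : ℕ) :
    ((M.divisors.filter (fun l => Nat.log 2 l = i ∧
      ∀ p : ℕ, p.Prime → p ∣ l → x < p)).card : ℝ) ≤ 2 ^ i := by
  have h1 : M.divisors.filter (fun l => Nat.log 2 l = i ∧ ∀ p : ℕ, p.Prime → p ∣ l → x < p) ⊆
      Finset.Ico (2 ^ i) (2 ^ (i + 1)) := by
    intro l hl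
    rw [Finset.mem_filter] at hl
    have hl0 : l ≠ 0 := (Nat.pos_of_mem_divisors hl.1).ne'
    rw [Finset.mem_Ico]
    constructor
    · rw [← hl.2.1]; exact Nat.pow_log_le_self 2 hl0
    · rw [← hl.2.1]; exact Nat.lt_pow_succ_log_self (by norm_num) l
  have h2 := Finset.card_le_card h1
  rw [Nat.card_Ico] at h2
  have h3 : 2 ^ (i + 1) - 2 ^ i = 2 ^ i := by rw [pow_succ]; omega
  rw [h3] at h2
  exact_mod_cast h2

end Crest.Agent.R4C.NonPureSetFLx52
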