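import Crest.Agent.R4C.AsmLev_946
import Crest.Agent.R4C.NonPureSetFL_52

/-!
# The level-set assembly over an F-Λ structure (BLOCK S3 v1.2, 3174), helper946

`F : FL M`, cut `y`, `M = low y M * upp y M`, `J` a finite set of cuts `x` (block ends `X_j`).

* `Nj F x z z'`   : equal parts `≤ x`, good above `x`, deficits not both trivial
* `Kept F y J b c`: equal above `y`, or for some `x ∈ J`, `y ≤ x`: equal letters at the primes in
                    `(y, x]` and good above `x`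
* `setBd_RK`      : the parts above `y` of kept pairs satisfy the set bound with the constant
                    `17 + Σ_{x ∈ J} (8 (C / log x)^(1/2) + 16 C / log x)`
* `levelsFL`, `mxFL` : `asm_levels` and `mxA` for a kernel supported on kept pairs
-/

set_option autoImplicit false

namespace Crest.Agent.R4C.AsmFLx946

open Finset Crest.Agent.R4C.Basex935 Crest.Agent.R4C.Asmx946 Crest.Agent.R4C.AsmLevx946
open Crest.Agent.R4C.Cutx50 Crest.Agent.R4C.FLDefx935 Crest.Agent.R4C.PureL2x232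

/-- non-pure pair at the cut `x` -/
def Nj {M : ℕ} (F : FL M) (x z z' : ℕ) : Prop :=
  low x z = low x z' ∧ F.good x z z' ∧ ¬ (F.ell x z = 1 ∧ F.ell x z' = 1)

/-- **52's III' as a set bound** -/
theorem setBd_Nj : ∃ C : ℝ, 0 < C ∧ ∀ (M : ℕ) (F : FL M) (x : ℕ), 0 < M → 2 ≤ x →
    SetBd M (Nj F x) (8 * √(C / Real.log x) + 16 * (C / Real.log x)) := by
  classical
  obtain ⟨C, hC, h⟩ := NonPureSetFLx52.rough_card
  refine ⟨C, hC, fun M F x hM hx S S' hS hS' => ?_⟩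
  have hlog : 0 < Real.log x := Real.log_pos (by exact_mod_cast (by omega : 1 < x))
  have h1 := NonPureSetFLx52.nonpure_set_fl F hM x (ρ := C / Real.log x) (by positivity)
    (h M x hx) (fun b => if b ∈ S then 1 else 0) (fun b => if b ∈ S' then 1 else 0)
    (fun b => by split_ifs <;> norm_num) (fun b => by split_ifs <;> norm_num)
    (fun b => by split_ifs <;> norm_num) (fun b => by split_ifs <;> norm_num)
  have e1 : ∀ U : Finset ℕ, U ⊆ M.divisors →
      ∑ b ∈ M.divisors, nu M b * (if b ∈ U then 1 else 0) = ∑ b ∈ U, nu M b := by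
    intro U hU
    have : ∀ b ∈ M.divisors, nu M b * (if b ∈ U then (1:ℝ) else 0) =
        if b ∈ U then nu M b else 0 := by
      intro b _
      split_ifs <;> simp
    rw [Finset.sum_congr rfl this, ← Finset.sum_filter]
    congr 1
    ext b
    rw [Finset.mem_filter]
    exact ⟨fun h => h.2, fun h => ⟨hU h, h⟩⟩
  rw [e1 S hS, e1 S' hS', ← Real.sqrt_mul (sum_nu_nonneg _ _)] at h1
  refine le_trans (le_of_eq ?_) h1
  have e2 : ∀ b ∈ M.divisors, b ∉ S → ∑ c ∈ M.divisors,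
      NonPureSetFLx52.tms F x (fun b => if b ∈ S then (1:ℝ) else 0)
        (fun b => if b ∈ S' then (1:ℝ) else 0) b c = 0 := by
    intro b _ hb
    refine Finset.sum_eq_zero fun c _ => ?_
    unfold NonPureSetFLx52.tms
    simp [hb]
  rw [← Finset.sum_subset hS e2]
  refine Finset.sum_congr rfl fun b hb => ?_
  have e3 : ∀ c ∈ M.divisors, c ∉ S' →
      NonPureSetFLx52.tms F x (fun b => if b ∈ S then (1:ℝ) else 0)
        (fun b => if b ∈ S' then (1:ℝ) else 0) b c = 0 := by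
    intro c _ hc
    unfold NonPureSetFLx52.tms
    simp [hc]
  rw [← Finset.sum_subset hS' e3]
  refine Finset.sum_congr rfl fun c hc => ?_
  unfold NonPureSetFLx52.tms Nj
  simp only [hb, hc, if_true, mul_one]
  split_ifs <;> rfl

/-- kept pairs -/
def Kept {M : ℕ} (F : FL M) (y : ℕ) (J : Finset ℕ) (b c : ℕ) : Prop :=
  upp y b = upp y c ∨ ∃ x ∈ J, y ≤ x ∧
    (∀ q, q.Prime → y < q → q ≤ x → b.factorization q = c.factorization q) ∧ F.good x b c

/-- relation of the parts above `y` -/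
def RK {M : ℕ} (hM : 0 < M) (F : FL M) (y : ℕ) (J : Finset ℕ) (z z' : ℕ) : Prop :=
  z = z' ∨ PureG (hiFL hM y F) z z' ∨ ∃ x ∈ J, Nj (hiFL hM y F) x z z'

lemma hi_good {M : ℕ} (hM : 0 < M) (F : FL M) {x y b c : ℕ} (hxy : y ≤ x) (hb : b ∣ M)
    (h : F.good x b c) : (hiFL hM y F).good x (upp y b) (upp y c) := by
  have hctr : ∀ q, q.Prime → x < q → (hiFL hM y F).ctr (upp y b) q = F.ctr b q := by
    intro q hq hx
    have hyq : y < q := by omega
    show (if y < q then F.ctr (upp y b) q else some 0) = _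
    rw [if_pos hyq, ctr_upp F hb hq hyq]
  refine ⟨fun q hq hx hn => ?_, fun q hq hx v hv => ?_⟩
  · rw [hctr q hq hx] at hn
    rw [fact_upp, fact_upp, if_pos (by omega), if_pos (by omega)]
    exact h.1 q hq hx hn
  · rw [hctr q hq hx] at hv
    rw [fact_upp, fact_upp, if_pos (by omega), if_pos (by omega)]
    exact h.2 q hq hx v hv

lemma kept_RK {M : ℕ} (hM : 0 < M) (F : FL M) {y : ℕ} {J : Finset ℕ} {b c : ℕ} (hb : b ∣ M)
    (hc : c ∣ M) (h : Kept F y J b c) : RK hM F y J (upp y b) (upp y c) := by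
  by_cases hne : upp y b = upp y c
  · exact Or.inl hne
  rcases h with h | ⟨x, hxJ, hyx, hmid, hg⟩
  · exact absurd h hne
  have hg' := hi_good hM F hyx hb hg
  have hlow : low x (upp y b) = low x (upp y c) := by
    refine Nat.eq_of_factorization_eq (low_pos _ _).ne' (low_pos _ _).ne' fun q => ?_
    rw [fact_low, fact_low, fact_upp, fact_upp]
    by_cases h1 : q ≤ x
    · rw [if_pos h1, if_pos h1]
      by_cases h2 : q ≤ y
      · simp [h2]
      · rw [if_pos h2, if_pos h2]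
        by_cases hq : q.Prime
        · exact hmid q hq (by omega) h1
        · rw [Nat.factorization_eq_zero_of_not_prime _ hq,
            Nat.factorization_eq_zero_of_not_prime _ hq]
    · rw [if_neg h1, if_neg h1]
  have hMy : 0 < upp y M := upp_pos y M
  have hbu : upp y b ∣ upp y M := upp_dvd y hM.ne' hb
  have hcu : upp y c ∣ upp y M := upp_dvd y hM.ne' hc
  by_cases hl : (hiFL hM y F).ell x (upp y b) = 1 ∧ (hiFL hM y F).ell x (upp y c) = 1
  · exact Or.inr (Or.inl (pureG_of_good (hiFL hM y F) hbu hcu hMy hne hg' hlow hl.1 hl.2))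
  · exact Or.inr (Or.inr ⟨x, hxJ, hlow, hg', hl⟩)

/-- the constant of the high part -/
noncomputable def EJ (C : ℝ) (J : Finset ℕ) : ℝ :=
  17 + ∑ x ∈ J, (8 * √(C / Real.log x) + 16 * (C / Real.log x))

lemma EJ_nonneg {C : ℝ} (hC : 0 < C) {J : Finset ℕ} (hJ : ∀ x ∈ J, 2 ≤ x) : 0 ≤ EJ C J := by
  unfold EJ
  have : 0 ≤ ∑ x ∈ J, (8 * √(C / Real.log x) + 16 * (C / Real.log x)) := by
    refine Finset.sum_nonneg fun x hx => ?_
    have hlog : 0 < Real.log x := Real.log_pos (by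
      have := hJ x hx
      exact_mod_cast (by omega : 1 < x))
    positivity
  linarith

/-- **the set bound of the high parts of kept pairs** -/
theorem setBd_RK : ∃ C : ℝ, 0 < C ∧ ∀ (M : ℕ) (hM : 0 < M) (F : FL M) (y : ℕ) (J : Finset ℕ),
    (∀ x ∈ J, 2 ≤ x) → SetBd (upp y M) (RK hM F y J) (EJ C J) := by
  obtain ⟨C, hC, h⟩ := setBd_Nj
  refine ⟨C, hC, fun M hM F y J hJ => ?_⟩
  exact SetBd.total (upp_pos y M) (hiFL hM y F) (T := J) (N := fun x => Nj (hiFL hM y F) x)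
    (fun x hx => h (upp y M) (hiFL hM y F) x (upp_pos y M) (hJ x hx))

lemma coprime_low_upp {M : ℕ} (y : ℕ) : Nat.Coprime (low y M) (upp y M) := by
  refine Nat.coprime_of_dvd fun p hp h1 h2 => ?_
  have h3 : 0 < (low y M).factorization p := hp.factorization_pos_of_dvd (low_pos _ _).ne' h1
  have h4 : 0 < (upp y M).factorization p := hp.factorization_pos_of_dvd (upp_pos _ _).ne' h2
  rw [fact_low] at h3
  rw [fact_upp] at h4
  by_cases h : p ≤ y
  · simp [h] at h4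
  · simp [h] at h3

/-- a non-vanishing low kernel has a witness -/
lemma lowK_ne {M0 : ℕ} {Φ : ℕ → ℕ → ℝ} {i z z' : ℕ} (h : lowK M0 Φ i z z' ≠ 0) :
    ∃ u u', u ∣ M0 ∧ u' ∣ M0 ∧ Nat.log 2 (Nat.gcd u u') = i ∧ Φ (u * z) (u' * z') ≠ 0 := by
  by_contra hcon
  push Not at hcon
  apply h
  unfold lowK frm
  refine Finset.sum_eq_zero fun u hu => Finset.sum_eq_zero fun u' hu' => ?_
  rw [Nat.mem_divisors] at hu hu'
  by_cases h1 : Nat.log 2 (Nat.gcd u u') = i
  · simp only [if_pos h1, hcon u u' hu.1 hu'.1 h1, mul_zero]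
  · simp only [if_neg h1, mul_zero]

/-- kept kernels: high relation of a non-vanishing low kernel -/
lemma RK_of_lowK {M : ℕ} (hM : 0 < M) (F : FL M) {y : ℕ} {J : Finset ℕ} {Φ : ℕ → ℕ → ℝ}
    (hkept : ∀ b c, b ∣ M → c ∣ M → Φ b c ≠ 0 → Kept F y J b c) {i z z' : ℕ}
    (hz : z ∣ upp y M) (hz' : z' ∣ upp y M) (h : lowK (low y M) Φ i z z' ≠ 0) :
    RK hM F y J z z' := by
  obtain ⟨u, u', hu, hu', _, h1⟩ := lowK_ne h
  have hb : u * z ∣ M := by
    have := Nat.mul_dvd_mul hu hz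
    rwa [low_mul_upp y hM.ne'] at this
  have hc : u' * z' ∣ M := by
    have := Nat.mul_dvd_mul hu' hz'
    rwa [low_mul_upp y hM.ne'] at this
  have h2 := kept_RK hM F hb hc (hkept _ _ hb hc h1)
  rwa [upp_of_mul hu hz, upp_of_mul hu' hz'] at h2

open Classical in
/-- **assembly with levels over an F-Λ structure** -/
theorem levelsFL : ∃ C : ℝ, 0 < C ∧ ∀ {κ κ' : Type} [DecidableEq κ] [DecidableEq κ'] (M : ℕ)
    (_ : 0 < M) (F : FL M) (y : ℕ) (J : Finset ℕ), (∀ x ∈ J, 2 ≤ x) →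
    ∀ (Φ : ℕ → ℕ → ℝ) (lev : ℕ → ℕ → κ) (lev' : ℕ → ℕ → κ') (Lv : Finset κ) (Lv' : Finset κ')
      (A : ℕ → ℝ) (w : κ → ℝ) (w' : κ' → ℝ) (Ψ : κ → κ' → ℝ),
    (∀ i, 0 ≤ A i) → (∀ k, 0 ≤ w k) → (∀ k, 0 ≤ w' k) → (∀ k k', 0 ≤ Ψ k k') →
    (∀ b c, b ∣ M → c ∣ M → Φ b c ≠ 0 → Kept F y J b c) →
    (∀ i z z', z ∣ upp y M → z' ∣ upp y M → lowK (low y M) Φ i z z' ≠ 0 →
      lev i z ∈ Lv ∧ lev' i z' ∈ Lv' ∧
        lowK (low y M) Φ i z z' ≤ A i * (Ψ (lev i z) (lev' i z') * √(w (lev i z) * w' (lev' i z')))) →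
    frm M Φ ≤ EJ C J * ∑ i ∈ range (Nat.log 2 (low y M) + 1), ∑ k ∈ Lv, ∑ k' ∈ Lv',
      Ψ k k' * √(mm (upp y M) lev A w i k * mm (upp y M) lev' A w' i k') := by
  obtain ⟨C, hC, h⟩ := setBd_RK
  refine ⟨C, hC, ?_⟩
  intro κ κ' _ _ M hM F y J hJ Φ lev lev' Lv Lv' A w w' Ψ hA hw hw' hΨ hkept hlow
  have h1 := asm_levels (M0 := low y M) (M1 := upp y M) (Φ := Φ) (R := fun _ => RK hM F y J)
    (coprime_low_upp y) (low_pos y M) (fun _ => h M hM F y J hJ) hA hw hw' hΨ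
    (fun i z z' hz hz' h0 => ⟨RK_of_lowK hM F hkept hz hz' h0, hlow i z z' hz hz' h0⟩)
  rwa [low_mul_upp y hM.ne'] at h1

open Classical in
/-- **MX(A) over an F-Λ structure** (both members light) -/
theorem mxFL : ∃ C : ℝ, 0 < C ∧ ∀ (M : ℕ) (_ : 0 < M) (F : FL M) (y : ℕ) (J : Finset ℕ),
    (∀ x ∈ J, 2 ≤ x) → ∀ (Φ : ℕ → ℕ → ℝ) (V V' : ℕ → ℝ) (C1 Γ η : ℝ),
    (∀ b c, 0 ≤ Φ b c) → (∀ z, 0 ≤ V z) → (∀ z, 0 ≤ V' z) → 0 ≤ C1 → 0 < η → η ≤ 1 → 1 ≤ Γ →
    (∀ b c, b ∣ M → c ∣ M → Φ b c ≠ 0 → Kept F y J b c) →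
    (∀ b c, b ∣ M → c ∣ M → Φ b c ≠ 0 →
      2 ^ (Nat.log 2 (Nat.gcd (low y b) (low y c))) * V (upp y b) ≤ Γ ∧
      2 ^ (Nat.log 2 (Nat.gcd (low y b) (low y c))) * V' (upp y c) ≤ Γ) →
    (∀ i z z', z ∣ upp y M → z' ∣ upp y M → lowK (low y M) Φ i z z' ≤
      C1 * ((2 : ℝ) ^ i)⁻¹ * ((2 ^ i * V z) * (2 ^ i * V' z')) ^ ((1 + η) / 2)) →
    frm M Φ ≤ 4 * C1 * EJ C J * MXx946.GK (η / 2) 0 Γ ^ 2 *
      √((∑ z ∈ (upp y M).divisors, nu (upp y M) z * V z) *
        ∑ z ∈ (upp y M).divisors, nu (upp y M) z * V' z) := by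
  obtain ⟨C, hC, h⟩ := setBd_RK
  refine ⟨C, hC, ?_⟩
  intro M hM F y J hJ Φ V V' C1 Γ η hΦ hV hV' hC1 hη hη1 hΓ hkept hlight hlow
  have h1 := mxA (M0 := low y M) (M1 := upp y M) (Φ := Φ) (V := V) (V' := V')
    (coprime_low_upp y) (low_pos y M) hΦ hV hV' hC1 (EJ_nonneg hC hJ) hη hη1 hΓ
    (R := fun _ => RK hM F y J) (fun _ => h M hM F y J hJ) hlow
    (fun i z z' hz hz' h0 => by
      have hR := RK_of_lowK hM F hkept hz hz' h0
      obtain ⟨u, u', hu, hu', hi, h2⟩ := lowK_ne h0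
      have hb : u * z ∣ M := by
        have := Nat.mul_dvd_mul hu hz
        rwa [low_mul_upp y hM.ne'] at this
      have hc : u' * z' ∣ M := by
        have := Nat.mul_dvd_mul hu' hz'
        rwa [low_mul_upp y hM.ne'] at this
      have h3 := hlight _ _ hb hc h2
      rw [low_of_mul hu hz, low_of_mul hu' hz', upp_of_mul hu hz, upp_of_mul hu' hz', hi] at h3
      exact ⟨h3.1, h3.2, hR⟩)
  rwa [low_mul_upp y hM.ne'] at h1

/-- mass identity: `V z = ν_{≤y}(B_z)` -/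
lemma sum_Vz_FL {M : ℕ} (hM : 0 < M) (y : ℕ) {B : Finset ℕ} (hB : B ⊆ M.divisors) :
    ∑ z ∈ (upp y M).divisors, nu (upp y M) z * Vz (low y M) B z = ∑ b ∈ B, nu M b := by
  have hB' : B ⊆ (low y M * upp y M).divisors := by rwa [low_mul_upp y hM.ne']
  have h := sum_Vz (coprime_low_upp (M := M) y) hB'
  rwa [low_mul_upp y hM.ne'] at h

end Crest.Agent.R4C.AsmFLx946
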