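import Crest.Agent.R4C.LTw_662
import Crest.Agent.R4C.LowL_899
import Crest.Agent.R4C.Kept_559
import Crest.Agent.R4C.TwistKK_863
import Crest.Agent.R4C.AsmFL_946
import Crest.Agent.R4C.LPhi_808

/-!
# Row 4, class (L): the twisted kept relation and the box bound (helper662)

Note 3383 (6.3), (6.4), note 3351.

* `setW_iff` : 899's `SetW` = `WBd`.
* `setW_tw`  : set bound for a kernel on twisted words (`z = κ z0`, `z' = κ' z0'`, `κ ~ U`,
  `κ' ~ U'`, twists in `TwistKK_863.KK`): constant `C N^ε / √(U U')` times the constant of the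
  kernel on `(z0, z0')`.
* `setW_kept` : the same for 559's kept relation.
* `boxW`  : 899's `mx1` for one class `a` with arbitrary weights, masses `Cutx50.mass`.
* `boxTau` : all classes `a`, low relation of density `≤ τ` (808's `low_class`, `sum_Ta`).
* `boxTau2` : the same with the classes `(a, a')` of both cofactors (structure `BoxD`).
* `boxTw` : **CLASS (L), ONE BOX** (structure `BoxT`): twisted words, weights `W0` on `(z0, z0')`:
  `frm M Φ ≤ C E0 N^ε (U U')^(-1/2) Θ^(κ/(1+κ)) (log y)^B τ^s √(ν f · ν g)`.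
-/

set_option autoImplicit false

open Finset
open Crest.Agent.R4C.Basex935 Crest.Agent.R4C.Cutx50 Crest.Agent.R4C.FLDefx935
  Crest.Agent.R4C.TwistKKx863 Crest.Agent.R4C.Twistx662 Crest.Agent.R4C.LTwx662
  Crest.Agent.R4C.LowLx899 Crest.Agent.R4C.Keptx559 Crest.Agent.R4C.AsmLevx946
  Crest.Agent.R4C.Asmx946 Crest.Agent.R4C.MX1x899 Crest.Agent.R4C.PureL2x232
  Crest.Agent.R4C.AsmFLx946

namespace Crest.Agent.R4C.LClassx662

/-- 899's `SetW` and `WBd` are the same statement -/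
lemma setW_iff {M : ℕ} {W : ℕ → ℕ → ℝ} {E : ℝ} : SetW M W E ↔ WBd M W E := by
  have e : ∀ S S' : Finset ℕ,
      ∑ z ∈ S, ∑ z' ∈ S', W z z' * ((Nat.gcd z z' : ℝ) * nu M z * nu M z') =
      ∑ z ∈ S, ∑ z' ∈ S', (Nat.gcd z z' : ℝ) * nu M z * nu M z' * W z z' := fun S S' =>
    Finset.sum_congr rfl fun z _ => Finset.sum_congr rfl fun z' _ => by ring
  constructor
  · intro h S S' hS hS'
    rw [← e]
    exact h S S' hS hS'
  · intro h S S' hS hS'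
    rw [e]
    exact h S S' hS hS'

/-- the twists `~ U` over `z` -/
noncomputable def KD {M : ℕ} (F : FL M) (γ L X R : ℝ) (N : ℕ) (x : ℕ → ℕ) (lab : ℕ → ℕ → ℕ)
    (I : Finset ℕ) (U z : ℕ) : Finset ℕ :=
  (KK F γ L X R N x lab I z).filter (fun κ => U ≤ κ ∧ κ < 2 * U)

/-- twisted pairs: `z = κ z0`, `z' = κ' z0'` with `R0 z0 z0'` (`X`, `X'` = sizes of the low words
of the two members) -/
def Tw {M : ℕ} (F : FL M) (γ L X X' R : ℝ) (N : ℕ) (x : ℕ → ℕ) (lab : ℕ → ℕ → ℕ)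
    (I : Finset ℕ) (U U' : ℕ) (R0 : ℕ → ℕ → Prop) (z z' : ℕ) : Prop :=
  ∃ κ κ' z0 z0' : ℕ, z = κ * z0 ∧ z' = κ' * z0' ∧ κ ∈ KD F γ L X R N x lab I U z0 ∧
    κ' ∈ KD F γ L X' R N x lab I U' z0' ∧ Nat.gcd z z' ≤ Nat.gcd z0 z0' ∧ R0 z0 z0'

lemma logN_le {ε : ℝ} (hε : 0 < ε) : ∃ C : ℝ, 0 < C ∧ ∀ N U : ℕ, 1 ≤ N → U ≤ N →
    ((Nat.log 2 (2 * U) : ℝ) + 1) ≤ C * (N : ℝ) ^ ε := by
  set B := max 1 (1 / (ε * Real.log 2)) with hB
  have hB1 : (1 : ℝ) ≤ B := le_max_left _ _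
  refine ⟨2 * B, by positivity, fun N U hN hU => ?_⟩
  set l := Nat.log 2 N with hl
  have h0 : Nat.log 2 (2 * U) ≤ l + 1 := by
    rcases Nat.eq_zero_or_pos U with h | h
    · rw [h]; simp
    · rw [Nat.mul_comm, Nat.log_mul_base (by norm_num) h.ne']
      have := Nat.log_mono_right (b := 2) hU
      omega
  have h0' : (Nat.log 2 (2 * U) : ℝ) ≤ l + 1 := by exact_mod_cast h0
  have h3 : (l : ℝ) + 1 ≤ B * (N : ℝ) ^ ε := by
    refine (succ_le_small hε 2 l le_rfl).trans ?_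
    refine mul_le_mul_of_nonneg_left ?_ (by linarith)
    refine Real.rpow_le_rpow (by positivity) ?_ hε.le
    have := Nat.pow_log_le_self 2 (show N ≠ 0 by omega)
    exact_mod_cast this
  have h4 : (0 : ℝ) ≤ l := Nat.cast_nonneg _
  nlinarith

/-- **set bound on twisted words** -/
theorem setW_tw {ε : ℝ} (hε : 0 < ε) (A : ℕ) : ∃ C : ℝ, 0 < C ∧
    ∀ (M : ℕ) (F : FL M) (γ L X X' R : ℝ) (N : ℕ) (x : ℕ → ℕ) (lab : ℕ → ℕ → ℕ) (I : Finset ℕ)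
      (y : ℕ), 0 < M → 0 ≤ R → R ≤ (N : ℝ) ^ A → 1 ≤ N → Monotone x →
    ∀ (W W0 : ℕ → ℕ → ℝ) (E : ℝ), 0 ≤ E → (∀ z z', 0 ≤ W0 z z') → SetW (upp y M) W0 E →
    ∀ U U' : ℕ, 1 ≤ U → 1 ≤ U' → U ≤ N → U' ≤ N →
    (∀ z z', z ∣ upp y M → z' ∣ upp y M → W z z' ≤ 0 ∨ ∃ κ κ' z0 z0' : ℕ,
      z = κ * z0 ∧ z' = κ' * z0' ∧ κ ∈ KD F γ L X R N x lab I U z0 ∧
      κ' ∈ KD F γ L X' R N x lab I U' z0' ∧ Nat.gcd z z' ≤ Nat.gcd z0 z0' ∧
      W z z' ≤ W0 z0 z0') →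
    SetW (upp y M) W (C * (N : ℝ) ^ ε / √((U : ℝ) * U') * E) := by
  classical
  have hε5 : 0 < ε / 5 := by positivity
  obtain ⟨C1, hC1, h1⟩ := card_KK hε5 A
  obtain ⟨C2, hC2, h2⟩ := card_TT hε5 A
  obtain ⟨C3, hC3, h3⟩ := logN_le hε5
  refine ⟨2 * C1 ^ 2 * C3 ^ 2 * C2, by positivity, ?_⟩
  intro M F γ L X X' R N x lab I y hM hR hRN hN hx W W0 E hE hW0 h U U' hU hU' hUN hUN' hW
  rw [setW_iff] at h ⊢
  have hup : 0 < upp y M := upp_pos _ _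
  have hdM : ∀ z, z ∣ upp y M → z ∣ M := fun z hz => hz.trans (upp_dvd_self y M)
  set q := (N : ℝ) ^ (ε / 5) with hq
  have hN1 : (1 : ℝ) ≤ N := by exact_mod_cast hN
  have hq1 : 1 ≤ q := Real.one_le_rpow hN1 hε5.le
  set n1 := ⌊C1 * q⌋₊ with hn1
  set n2 := ⌊C2 * q⌋₊ with hn2
  have hn1' : (n1 : ℝ) ≤ C1 * q := Nat.floor_le (by positivity)
  have hn2' : (n2 : ℝ) ≤ C2 * q := Nat.floor_le (by positivity)
  have hcard : ∀ (X : ℝ) (V : ℕ) (z : ℕ), z ∣ upp y M →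
      (KD F γ L X R N x lab I V z).card ≤ n1 := by
    intro X V z hz
    refine Nat.le_floor ?_
    refine le_trans ?_ (h1 M F γ L X R N x lab I z hM (hdM z hz) hR hRN hN hx)
    exact_mod_cast Finset.card_le_card (Finset.filter_subset _ _)
  have hcard' : ∀ (X : ℝ) (V : ℕ) (z : ℕ), z ∣ upp y M →
      (z.divisors.filter (fun κ => κ ∈ KD F γ L X R N x lab I V (z / κ))).card ≤ n2 := by
    intro X V z hz
    refine Nat.le_floor ?_
    refine le_trans ?_ (h2 M F γ L X R N x lab I z hM (hdM z hz) hR hRN hN hx)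
    unfold TT
    refine Nat.cast_le.2 (Finset.card_le_card fun κ hκ => ?_)
    rw [Finset.mem_filter] at hκ ⊢
    exact ⟨hκ.1, (Finset.mem_filter.1 hκ.2).1⟩
  have hsz : ∀ (X : ℝ) (V : ℕ) (z : ℕ), z ∣ upp y M → ∀ κ ∈ KD F γ L X R N x lab I V z,
      ((V : ℕ) : ℝ) ≤ κ ∧ κ ≤ 2 * V := by
    intro X V z _ κ hκ
    have := (Finset.mem_filter.1 hκ).2
    exact ⟨by exact_mod_cast this.1, by omega⟩
  have hUR : (0 : ℝ) < U := by exact_mod_cast hU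
  have hUR' : (0 : ℝ) < U' := by exact_mod_cast hU'
  have key := WBd.twist hup (KK := KD F γ L X R N x lab I U) (KK' := KD F γ L X' R N x lab I U')
    (W := W) hE h hW0 hW (N := n1) (N1 := n2) (K1 := 2 * U) (K1' := 2 * U') (K0 := U) (K0' := U')
    hUR hUR' (hcard X U) (hcard X' U') (hcard' X U) (hcard' X' U') (hsz X U) (hsz X' U')
  refine key.mono (fun z z' _ _ => le_rfl) ?_
  refine mul_le_mul_of_nonneg_right ?_ hE
  have hl1 := h3 N U hN hUN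
  have hl2 := h3 N U' hN hUN'
  have a1 : (n1 : ℝ) * (((Nat.log 2 (2 * U) : ℝ) + 1) / U) ≤ (C1 * q) * ((C3 * q) / U) := by
    refine mul_le_mul hn1' ?_ (by positivity) (by positivity)
    exact div_le_div_of_nonneg_right hl1 hUR.le
  have a2 : (n1 : ℝ) * (((Nat.log 2 (2 * U') : ℝ) + 1) / U') ≤ (C1 * q) * ((C3 * q) / U') := by
    refine mul_le_mul hn1' ?_ (by positivity) (by positivity)
    exact div_le_div_of_nonneg_right hl2 hUR'.le
  have a3 : √(((2 * U : ℕ) : ℝ) * ((2 * U' : ℕ) : ℝ)) = 2 * √((U : ℝ) * U') := by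
    rw [show (((2 * U : ℕ) : ℝ) * ((2 * U' : ℕ) : ℝ)) = 2 ^ 2 * ((U : ℝ) * U') by push_cast; ring,
      Real.sqrt_mul (by norm_num), Real.sqrt_sq (by norm_num)]
  rw [a3]
  have hs0 : 0 < √((U : ℝ) * U') := Real.sqrt_pos.2 (by positivity)
  have hss : √((U : ℝ) * U') * √((U : ℝ) * U') = U * U' := Real.mul_self_sqrt (by positivity)
  have hq5 : q ^ 5 = (N : ℝ) ^ ε := by
    rw [hq, ← Real.rpow_natCast, ← Real.rpow_mul (by positivity)]
    congr 1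
    push_cast
    ring
  calc (n1 : ℝ) * (((Nat.log 2 (2 * U) : ℝ) + 1) / U) *
        ((n1 : ℝ) * (((Nat.log 2 (2 * U') : ℝ) + 1) / U')) * (n2 * (2 * √((U : ℝ) * U')))
      ≤ ((C1 * q) * ((C3 * q) / U)) * ((C1 * q) * ((C3 * q) / U')) *
        ((C2 * q) * (2 * √((U : ℝ) * U'))) := by
        refine mul_le_mul (mul_le_mul a1 a2 (by positivity) (by positivity)) ?_ (by positivity)
          (by positivity)
        exact mul_le_mul_of_nonneg_right hn2' (by positivity)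
    _ = 2 * C1 ^ 2 * C3 ^ 2 * C2 * q ^ 5 * (√((U : ℝ) * U') / (U * U')) := by
        field_simp
    _ = 2 * C1 ^ 2 * C3 ^ 2 * C2 * q ^ 5 * (1 / √((U : ℝ) * U')) := by
        congr 1
        rw [div_eq_div_iff (by positivity) hs0.ne', hss, one_mul]
    _ = 2 * C1 ^ 2 * C3 ^ 2 * C2 * (N : ℝ) ^ ε / √((U : ℝ) * U') := by
        rw [hq5, mul_one_div]

open Classical in
/-- **the twisted kept relation** -/
theorem setW_kept {ε : ℝ} (hε : 0 < ε) (A : ℕ) : ∃ C : ℝ, 0 < C ∧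
    ∀ (M : ℕ) (hM : 0 < M) (F : FL M) (γ L X X' R : ℝ) (N : ℕ) (x : ℕ → ℕ) (lab : ℕ → ℕ → ℕ)
      (I : Finset ℕ) (y j0 : ℕ), 0 ≤ R → R ≤ (N : ℝ) ^ A → 1 ≤ N → Monotone x → 1 ≤ j0 →
    ∀ U U' : ℕ, 1 ≤ U → 1 ≤ U' → U ≤ N → U' ≤ N →
    SetW (upp y M) (fun z z' => if Tw F γ L X X' R N x lab I U U' (KZ (hiFL hM y F) j0) z z'
      then 1 else 0) (C * (N : ℝ) ^ ε / √((U : ℝ) * U')) := by
  obtain ⟨C1, hC1, h1⟩ := setW_tw hε A
  obtain ⟨E, hE, h2⟩ := kept_SetBd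
  refine ⟨C1 * E, by positivity, ?_⟩
  intro M hM F γ L X X' R N x lab I y j0 hR hRN hN hx hj0 U U' hU hU' hUN hUN'
  have h3 := h1 M F γ L X X' R N x lab I y hM hR hRN hN hx
    (fun z z' => if Tw F γ L X X' R N x lab I U U' (KZ (hiFL hM y F) j0) z z' then 1 else 0)
    (fun z z' => if KZ (hiFL hM y F) j0 z z' then 1 else 0) E hE.le
    (fun z z' => by split_ifs <;> norm_num) (SetW.of_setBd (h2 M hM F y j0 hj0))
    U U' hU hU' hUN hUN' (fun z z' _ _ => ?_)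
  · refine h3.mono (fun z z' _ _ => le_rfl) (le_of_eq ?_)
    ring
  · by_cases ht : Tw F γ L X X' R N x lab I U U' (KZ (hiFL hM y F) j0) z z'
    · right
      obtain ⟨κ, κ', z0, z0', e1, e2, m1, m2, hg, hr⟩ := ht
      refine ⟨κ, κ', z0, z0', e1, e2, m1, m2, hg, ?_⟩
      rw [if_pos hr]
      split_ifs <;> norm_num
    · left
      rw [if_neg ht]

/-! ### The box bound -/

/-- **one class `a`, arbitrary weights.**  `φ` = the kernel of the low words (weight free),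
`Φ ≤ φ * W`; member `b` light. -/
theorem boxW {M : ℕ} (hM : 0 < M) {y a : ℕ} {η T Θ E : ℝ} (hη : 0 < η) (hη1 : η ≤ 1)
    (hT : 0 ≤ T) (hΘ : 0 < Θ) (hE : 0 ≤ E) {W : ℕ → ℕ → ℕ → ℝ} (hW0 : ∀ i z z', 0 ≤ W i z z')
    (hW : ∀ i, SetW (upp y M) (W i) E) {Φ φ : ℕ → ℕ → ℝ} {f g : ℕ → ℝ}
    (hΦ : ∀ b c, 0 ≤ Φ b c) (hφ : ∀ b c, 0 ≤ φ b c) (hf : ∀ b, 0 ≤ f b) (hg : ∀ b, 0 ≤ g b)
    (hfac : ∀ b c, b ∣ M → c ∣ M → cl (low y M) a Φ b c ≤
      cl (low y M) a φ b c * W (Nat.log 2 (Nat.gcd (low y b) (low y c))) (upp y b) (upp y c))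
    (hdom : ∀ b c, b ∣ M → c ∣ M → φ b c ≤ f b)
    (hlight : ∀ b c, b ∣ M → c ∣ M → φ b c ≠ 0 → (low y b : ℝ) * mass M f y (upp y b) ≤ Θ)
    (hlow : ∀ i z z', z ∣ upp y M → z' ∣ upp y M → lowK (low y M) (cl (low y M) a φ) i z z' ≤
      T * ((2 : ℝ) ^ i) ^ η * (mass M f y z * mass M g y z') ^ ((1 + η) / 2)) :
    frm M (cl (low y M) a Φ) ≤ E * (CPhi η * (T ^ (1 / (1 + η)) * Θ ^ (η / (1 + η)))) *
      √((∑ b ∈ M.divisors, nu M b * f b) * ∑ b ∈ M.divisors, nu M b * g b) := by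
  have hco := coprime_low_upp (M := M) y
  have hlu := low_mul_upp y hM.ne'
  have hmul : ∀ u z, u ∣ low y M → z ∣ upp y M → u * z ∣ M := fun u z hu hz => by
    have := Nat.mul_dvd_mul hu hz
    rwa [hlu] at this
  have h1 := mx1 (M0 := low y M) (M1 := upp y M) hco (low_pos y M) (upp_pos y M)
    (Φ := cl (low y M) a Φ) (V := mass M f y) (V' := mass M g y)
    (fun z => mass_nonneg M hf y z) (fun z => mass_nonneg M hg y z) hη hη1 hT hΘ hE a hW0 hW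
    (k := fun i z z' => lowK (low y M) (cl (low y M) a φ) i z z')
    (fun i z z' hz hz' => ?_) (cl_nonneg hΦ) (fun i z z' hz hz' => ?_) hlow
    (fun i z z' hz hz' h0 => ?_)
  · rw [hlu] at h1
    have e : ∀ h : ℕ → ℝ, ∑ z ∈ (upp y M).divisors, nu (upp y M) z * mass M h y z =
        ∑ b ∈ M.divisors, nu M b * h b := fun h => (Ex_cut hM y h).symm
    rwa [e, e] at h1
  · -- factorisation
    unfold lowK
    rw [mul_comm, ← Asmx946.frm_smul]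
    refine frm_le fun u u' hu hu' => ?_
    split_ifs with hi
    · have h2 := hfac (u * z) (u' * z') (hmul u z hu hz) (hmul u' z' hu' hz')
      rw [low_of_mul hu hz, low_of_mul hu' hz', upp_of_mul hu hz, upp_of_mul hu' hz', hi] at h2
      linarith
    · simp
  · have h2 := row_cl (low_pos y M) hco hφ hf a i hz hz'
      (fun u u' hu hu' => hdom _ _ (hmul u z hu hz) (hmul u' z' hu' hz'))
    exact h2
  · refine light_cl (low_pos y M) hco (V := mass M f y) (fun z => mass_nonneg M hf y z) a i hz hz'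
      (fun u u' hu hu' h2 => ?_) h0
    have h3 := hlight (u * z) (u' * z') (hmul u z hu hz) (hmul u' z' hu' hz') h2
    rwa [low_of_mul hu hz, upp_of_mul hu hz] at h3

/-- primes of `low y M` are `≤ y ≤ y'` -/
lemma low_low_max {M y y' : ℕ} (_hM : 0 < M) (h : y ≤ y') : low y' (low y M) = low y M := by
  refine Nat.eq_of_factorization_eq (low_pos _ _).ne' (low_pos _ _).ne' fun p => ?_
  rw [fact_low, fact_low]
  by_cases h1 : p ≤ y'
  · rw [if_pos h1]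
  · rw [if_neg h1, if_neg (by omega)]

/-- **all classes `a`, relation of density `≤ τ`** -/
theorem boxTau {κ r θ : ℝ} (hκ : 0 < κ) (hκ1 : κ < 1) (hr : 2 / (1 - κ) < r) (hθ : 0 < θ)
    (hθ1 : θ < 1) : ∃ B C : ℝ, 0 ≤ B ∧ 1 ≤ C ∧
    ∀ (M y : ℕ) (Θ E τ : ℝ) (W : ℕ → ℕ → ℕ → ℕ → ℝ) (Φ φ : ℕ → ℕ → ℝ) (f g : ℕ → ℝ)
      (K : ℕ → ℕ → ℕ → ℕ → ℕ → ℕ → ℝ), 0 < M → 0 < Θ → 0 ≤ E →
    (∀ a i z z', 0 ≤ W a i z z') → (∀ a i, SetW (upp y M) (W a i) E) →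
    (∀ b c, 0 ≤ Φ b c) → (∀ b c, 0 ≤ φ b c) →
    (∀ b, 0 ≤ f b) → (∀ b, f b ≤ 1) → (∀ b, 0 ≤ g b) → (∀ b, g b ≤ 1) →
    (∀ a i z z' s t, 0 ≤ K a i z z' s t) → (∀ a i z z' s t, K a i z z' s t ≤ 1) →
    (∀ a i z z', z ∣ upp y M → z' ∣ upp y M → MXlowx808.dens (low y M) (K a i z z') ≤ τ) →
    (∀ a b c, b ∣ M → c ∣ M → cl (low y M) a Φ b c ≤ cl (low y M) a φ b c *
      W a (Nat.log 2 (Nat.gcd (low y b) (low y c))) (upp y b) (upp y c)) →
    (∀ b c, b ∣ M → c ∣ M → φ b c ≤ f b * g c *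
      K (Nat.log 2 (low y b / Nat.gcd (low y b) (low y c)))
        (Nat.log 2 (Nat.gcd (low y b) (low y c))) (upp y b) (upp y c)
        (low y b / Nat.gcd (low y b) (low y c)) (low y c / Nat.gcd (low y b) (low y c))) →
    (∀ b c, b ∣ M → c ∣ M → φ b c ≠ 0 → (low y b : ℝ) * mass M f y (upp y b) ≤ Θ) →
    frm M Φ ≤ C * E * Θ ^ (κ / (1 + κ)) * Real.log (max 8 y : ℕ) ^ (B + 1) *
      τ ^ ((1 - θ) / (r * (1 + κ))) *
      √((∑ b ∈ M.divisors, nu M b * f b) * ∑ b ∈ M.divisors, nu M b * g b) := by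
  obtain ⟨B, C, hB, hC, h⟩ := LPhix808.low_class hκ hκ1 hr
  have h1κ : 0 < 1 - κ := by linarith
  have hr1 : 1 ≤ r := by
    have h2 : (2 : ℝ) ≤ 2 / (1 - κ) := by
      rw [le_div_iff₀ h1κ]; linarith
    linarith
  have hr0 : 0 < r := by linarith
  set C2 := CPhi κ * ((2 * (1 + κ) * r / θ) * (C * Real.exp 14)) with hC2
  refine ⟨B, max 1 C2, hB, le_max_left _ _, ?_⟩
  intro M y Θ E τ W Φ φ f g K hM hΘ hE hW0 hW hΦ hφ hf hf1 hg hg1 hK0 hK1 hdens hfac hrel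
    hlight
  set y8 : ℕ := max 8 y with hy8d
  have hy : 8 ≤ y8 := le_max_left _ _
  have hll : low y8 (low y M) = low y M := low_low_max hM (le_max_right _ _)
  have hlu := low_mul_upp y hM.ne'
  have hmul : ∀ u z, u ∣ low y M → z ∣ upp y M → u * z ∣ M := fun u z hu hz => by
    have := Nat.mul_dvd_mul hu hz
    rwa [hlu] at this
  have hτ0 : 0 ≤ τ := by
    have h1 := hdens 0 0 1 1 (one_dvd _) (one_dvd _)
    refine le_trans ?_ h1
    exact MXlowx808.dens_nonneg _ (fun s t => hK0 _ _ _ _ s t)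
  have hy8 : (8 : ℝ) ≤ (y8 : ℝ) := by exact_mod_cast hy
  set q := √((∑ b ∈ M.divisors, nu M b * f b) * ∑ b ∈ M.divisors, nu M b * g b) with hq
  have hq0 : 0 ≤ q := Real.sqrt_nonneg _
  have hCP : 0 ≤ CPhi κ := (CPhi_pos hκ).le
  have key : ∀ a, frm M (cl (low y M) a Φ) ≤
      E * (CPhi κ * ((LPhix808.Ta r B C y8 τ a) ^ (1 / (1 + κ)) * Θ ^ (κ / (1 + κ)))) * q := by
    intro a
    refine boxW hM hκ hκ1.le (LPhix808.Ta_nonneg (by linarith) (by linarith) hτ0 a) hΘ hE (hW0 a)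
      (hW a) hΦ hφ hf hg (hfac a) (fun b c hb hc => ?_) hlight (fun i z z' hz hz' => ?_)
    · refine (hrel b c hb hc).trans ?_
      have h2 := hg1 c
      have h3 := hK1 (Nat.log 2 (low y b / Nat.gcd (low y b) (low y c)))
        (Nat.log 2 (Nat.gcd (low y b) (low y c))) (upp y b) (upp y c)
        (low y b / Nat.gcd (low y b) (low y c)) (low y c / Nat.gcd (low y b) (low y c))
      have h4 := hK0 (Nat.log 2 (low y b / Nat.gcd (low y b) (low y c)))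
        (Nat.log 2 (Nat.gcd (low y b) (low y c))) (upp y b) (upp y c)
        (low y b / Nat.gcd (low y b) (low y c)) (low y c / Nat.gcd (low y b) (low y c))
      have h5 : f b * g c ≤ f b * 1 := mul_le_mul_of_nonneg_left h2 (hf b)
      have h6 : f b * g c * (K (Nat.log 2 (low y b / Nat.gcd (low y b) (low y c)))
        (Nat.log 2 (Nat.gcd (low y b) (low y c))) (upp y b) (upp y c)
        (low y b / Nat.gcd (low y b) (low y c)) (low y c / Nat.gcd (low y b) (low y c))) ≤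
        f b * g c * 1 := mul_le_mul_of_nonneg_left h3 (mul_nonneg (hf b) (hg c))
      linarith
    · have h2 := h y8 (low y M) z z' f g
        (fun u u' => K a i z z' (u / Nat.gcd u u') (u' / Nat.gcd u u')) (K a i z z') τ i a hy
        hf hf1 hg hg1 (hK0 a i z z') (hK1 a i z z') (fun u u' => hK0 _ _ _ _ _ _)
        (fun u u' _ _ _ _ => le_rfl) (by rw [hll]; exact hdens a i z z' hz hz')
      have hmass : ∀ (φ : ℕ → ℝ) (w : ℕ), mass (low y M) φ y8 w = mass M φ y w := by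
        intro φ w
        unfold mass
        rw [hll]
      rw [hmass, hmass, hll] at h2
      refine le_trans ?_ h2
      unfold lowK
      refine frm_le fun u u' hu hu' => ?_
      split_ifs with hi ha
      · rw [cl_mul (coprime_low_upp y) hu hu' hz hz', if_pos ha]
        have h3 := hrel (u * z) (u' * z') (hmul u z hu hz) (hmul u' z' hu' hz')
        rwa [low_of_mul hu hz, low_of_mul hu' hz', upp_of_mul hu hz, upp_of_mul hu' hz', hi,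
          ha] at h3
      · rw [cl_mul (coprime_low_upp y) hu hu' hz hz', if_neg ha]
      · exact le_rfl
  have hTa := LPhix808.sum_Ta hκ hr1 hB hC hθ hθ1 (Nat.log 2 (low y M) + 1) y8 hy hτ0
  rw [frm_cl (low_pos y M) Φ]
  calc ∑ a ∈ range (Nat.log 2 (low y M) + 1), frm M (cl (low y M) a Φ)
      ≤ ∑ a ∈ range (Nat.log 2 (low y M) + 1),
        E * (CPhi κ * ((LPhix808.Ta r B C y8 τ a) ^ (1 / (1 + κ)) * Θ ^ (κ / (1 + κ)))) * q :=
        Finset.sum_le_sum fun a _ => key a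
    _ = (E * CPhi κ * Θ ^ (κ / (1 + κ)) * q) *
        ∑ a ∈ range (Nat.log 2 (low y M) + 1), (LPhix808.Ta r B C y8 τ a) ^ (1 / (1 + κ)) := by
        rw [Finset.mul_sum]
        exact Finset.sum_congr rfl fun a _ => by ring
    _ ≤ (E * CPhi κ * Θ ^ (κ / (1 + κ)) * q) * ((2 * (1 + κ) * r / θ) * (C * Real.exp 14) *
        Real.log (max 8 y : ℕ) ^ (B + 1) * τ ^ ((1 - θ) / (r * (1 + κ)))) :=
        mul_le_mul_of_nonneg_left hTa (by positivity)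
    _ = C2 * (E * Θ ^ (κ / (1 + κ)) * Real.log (max 8 y : ℕ) ^ (B + 1) * τ ^ ((1 - θ) / (r * (1 + κ))) * q) := by
        rw [hC2]; ring
    _ ≤ max 1 C2 * (E * Θ ^ (κ / (1 + κ)) * Real.log (max 8 y : ℕ) ^ (B + 1) *
        τ ^ ((1 - θ) / (r * (1 + κ))) * q) := by
        refine mul_le_mul_of_nonneg_right (le_max_right _ _) ?_
        have : 0 ≤ Real.log (y8 : ℕ) := Real.log_nonneg (by linarith)
        positivity
    _ = _ := by ring

/-! ### The size of the second cofactor -/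

/-- the class `a'` of the second cofactor -/
noncomputable def cl' (M0 : ℕ) (a' : ℕ) (Φ : ℕ → ℕ → ℝ) (b c : ℕ) : ℝ :=
  if Nat.log 2 (Nat.gcd c M0 / Nat.gcd (Nat.gcd b M0) (Nat.gcd c M0)) = a' then Φ b c else 0

lemma cl'_nonneg {M0 a' : ℕ} {Φ : ℕ → ℕ → ℝ} (hΦ : ∀ b c, 0 ≤ Φ b c) (b c : ℕ) :
    0 ≤ cl' M0 a' Φ b c := by
  unfold cl'
  split_ifs
  · exact hΦ b c
  · exact le_rfl

lemma frm_cl' {M0 M : ℕ} (hM0 : 0 < M0) (Φ : ℕ → ℕ → ℝ) :
    frm M Φ = ∑ a' ∈ range (Nat.log 2 M0 + 1), frm M (cl' M0 a' Φ) := by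
  rw [← Asmx946.frm_sum]
  refine Asmx946.frm_congr fun b c _ _ => ?_
  unfold cl'
  rw [Finset.sum_ite_eq]
  rw [if_pos]
  rw [Finset.mem_range]
  refine Nat.lt_succ_of_le (Nat.log_mono_right ?_)
  exact (Nat.div_le_self _ _).trans (Nat.le_of_dvd hM0 (Nat.gcd_dvd_right c M0))

lemma gcd_low_eq {M b y : ℕ} (hM : 0 < M) (hb : b ∣ M) : Nat.gcd b (low y M) = low y b := by
  have h1 : low y b ∣ low y M := low_dvd y hM.ne' hb
  have h2 : upp y b ∣ upp y M := upp_dvd y hM.ne' hb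
  have h3 : Nat.Coprime (upp y b) (low y M) :=
    Nat.Coprime.coprime_dvd_left h2 (coprime_low_upp (M := M) y).symm
  have hb0 : b ≠ 0 := (Nat.pos_of_dvd_of_pos hb hM).ne'
  conv_lhs => rw [← low_mul_upp y hb0]
  rw [Nat.Coprime.gcd_mul_right_cancel _ h3]
  exact Nat.gcd_eq_left h1

lemma cl'_eq {M a' b c y : ℕ} {Φ : ℕ → ℕ → ℝ} (hM : 0 < M) (hb : b ∣ M) (hc : c ∣ M) :
    cl' (low y M) a' Φ b c =
      if Nat.log 2 (low y c / Nat.gcd (low y b) (low y c)) = a' then Φ b c else 0 := by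
  unfold cl'
  rw [gcd_low_eq hM hb, gcd_low_eq hM hc]

lemma cl_eq {M a b c y : ℕ} {Φ : ℕ → ℕ → ℝ} (hM : 0 < M) (hb : b ∣ M) (hc : c ∣ M) :
    cl (low y M) a Φ b c =
      if Nat.log 2 (low y b / Nat.gcd (low y b) (low y c)) = a then Φ b c else 0 := by
  unfold cl
  rw [gcd_low_eq hM hb, gcd_low_eq hM hc]

/-- density of `2^a' ≤` second cofactor -/
lemma dens_KS' (M : ℕ) {y : ℕ} (hy : 8 ≤ y) {A : ℝ} (hA : 0 < A) :
    MXlowx808.dens (low y M) (fun s t => LowTaux808.KS A t s) ≤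
      Real.exp 14 * A ^ (-(1 / Real.log y)) := by
  refine le_trans (le_of_eq ?_) (LowTaux808.dens_KS M hy hA)
  unfold MXlowx808.dens
  rw [Finset.sum_comm]
  refine Finset.sum_congr rfl fun s _ => Finset.sum_congr rfl fun t _ => ?_
  by_cases h : Nat.Coprime s t
  · rw [if_pos h, if_pos h.symm]; ring
  · rw [if_neg h, if_neg (fun h' => h h'.symm)]

/-- the data of one box: kernel `Φ ≤ φ W`, `φ ≤ f g K`, member `b` light, all classes
`(a, a')` of the cofactors, windows `i` -/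
structure BoxD (M y : ℕ) (Θ E τ : ℝ) (W : ℕ → ℕ → ℕ → ℕ → ℕ → ℝ) (Φ φ : ℕ → ℕ → ℝ)
    (f g : ℕ → ℝ) (K : ℕ → ℕ → ℕ → ℕ → ℕ → ℕ → ℕ → ℝ) : Prop where
  W0 : ∀ a a' i z z', 0 ≤ W a a' i z z'
  WE : ∀ a a' i, SetW (upp y M) (W a a' i) E
  Φ0 : ∀ b c, 0 ≤ Φ b c
  φ0 : ∀ b c, 0 ≤ φ b c
  f0 : ∀ b, 0 ≤ f b
  f1 : ∀ b, f b ≤ 1
  g0 : ∀ b, 0 ≤ g b
  g1 : ∀ b, g b ≤ 1
  K0 : ∀ a a' i z z' s t, 0 ≤ K a a' i z z' s t
  K1 : ∀ a a' i z z' s t, K a a' i z z' s t ≤ 1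
  dens : ∀ a a' i z z', z ∣ upp y M → z' ∣ upp y M →
    MXlowx808.dens (low y M) (K a a' i z z') ≤ τ
  fac : ∀ b c, b ∣ M → c ∣ M → Φ b c ≤ φ b c *
    W (Nat.log 2 (low y b / Nat.gcd (low y b) (low y c)))
      (Nat.log 2 (low y c / Nat.gcd (low y b) (low y c)))
      (Nat.log 2 (Nat.gcd (low y b) (low y c))) (upp y b) (upp y c)
  rel : ∀ b c, b ∣ M → c ∣ M → φ b c ≤ f b * g c *
    K (Nat.log 2 (low y b / Nat.gcd (low y b) (low y c)))
      (Nat.log 2 (low y c / Nat.gcd (low y b) (low y c)))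
      (Nat.log 2 (Nat.gcd (low y b) (low y c))) (upp y b) (upp y c)
      (low y b / Nat.gcd (low y b) (low y c)) (low y c / Nat.gcd (low y b) (low y c))
  light : ∀ b c, b ∣ M → c ∣ M → φ b c ≠ 0 → (low y b : ℝ) * mass M f y (upp y b) ≤ Θ

/-- **one box, all classes `(a, a')`** -/
theorem boxTau2 {κ r θ : ℝ} (hκ : 0 < κ) (hκ1 : κ < 1) (hr : 2 / (1 - κ) < r) (hθ : 0 < θ)
    (hθ1 : θ < 1) : ∃ B C : ℝ, 0 ≤ B ∧ 1 ≤ C ∧
    ∀ (M y : ℕ) (Θ E τ : ℝ) (W : ℕ → ℕ → ℕ → ℕ → ℕ → ℝ) (Φ φ : ℕ → ℕ → ℝ) (f g : ℕ → ℝ)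
      (K : ℕ → ℕ → ℕ → ℕ → ℕ → ℕ → ℕ → ℝ), 0 < M → 0 < Θ → 0 ≤ E →
    BoxD M y Θ E τ W Φ φ f g K →
    frm M Φ ≤ C * E * Θ ^ (κ / (1 + κ)) * Real.log (max 8 y : ℕ) ^ B *
      τ ^ ((1 - θ) ^ 2 / (r * (1 + κ))) *
      √((∑ b ∈ M.divisors, nu M b * f b) * ∑ b ∈ M.divisors, nu M b * g b) := by
  classical
  obtain ⟨B, C, hB, hC, h⟩ := boxTau hκ hκ1 hr hθ hθ1
  have h1κ : 0 < 1 - κ := by linarith
  have hr2 : (2 : ℝ) < r := by
    have h2 : (2 : ℝ) ≤ 2 / (1 - κ) := by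
      rw [le_div_iff₀ h1κ]; linarith
    linarith
  have hr0 : 0 < r := by linarith
  have h1θ : 0 < 1 - θ := by linarith
  set r' := r / (1 - θ) with hr'
  have hr'1 : 1 ≤ r' := by
    rw [hr', le_div_iff₀ h1θ]; linarith
  set C3 := (2 * (1 + κ) * r' / θ) * (1 * Real.exp 14) with hC3
  have hC30 : 0 ≤ C3 := by positivity
  refine ⟨B + 2, max 1 (C * C3), by linarith, le_max_left _ _, ?_⟩
  intro M y Θ E τ W Φ φ f g K hM hΘ hE D
  set y8 : ℕ := max 8 y with hy8d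
  have hy : 8 ≤ y8 := le_max_left _ _
  have hll : low y8 (low y M) = low y M := low_low_max hM (le_max_right _ _)
  have hy8 : (8 : ℝ) ≤ (y8 : ℝ) := by exact_mod_cast hy
  have hly2 : 1 ≤ Real.log (y8 : ℕ) := by
    rw [Real.le_log_iff_exp_le (by linarith)]
    have := Real.exp_one_lt_d9
    linarith
  have hly0 : 0 < Real.log (y8 : ℕ) := by linarith
  set q := √((∑ b ∈ M.divisors, nu M b * f b) * ∑ b ∈ M.divisors, nu M b * g b) with hq
  have hq0 : 0 ≤ q := Real.sqrt_nonneg _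
  have hτ0 : 0 ≤ τ := (MXlowx808.dens_nonneg _ (fun s t => D.K0 0 0 0 1 1 s t)).trans
    (D.dens 0 0 0 1 1 (one_dvd _) (one_dvd _))
  set τa : ℕ → ℝ := fun a' => min τ (Real.exp 14 * ((2 : ℝ) ^ a') ^ (-(1 / Real.log (y8 : ℕ))))
    with hτa
  have key : ∀ a', frm M (cl' (low y M) a' Φ) ≤ C * E * Θ ^ (κ / (1 + κ)) *
      Real.log (max 8 y : ℕ) ^ (B + 1) * (τa a') ^ ((1 - θ) / (r * (1 + κ))) * q := by
    intro a'
    refine h M y Θ E (τa a') (fun a i z z' => W a a' i z z') (cl' (low y M) a' Φ)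
      (cl' (low y M) a' φ) f g
      (fun a i z z' s t => min (K a a' i z z' s t) (LowTaux808.KS ((2 : ℝ) ^ a') t s)) hM hΘ hE
      (fun a i z z' => D.W0 a a' i z z') (fun a i => D.WE a a' i)
      (cl'_nonneg D.Φ0) (cl'_nonneg D.φ0) D.f0 D.f1 D.g0 D.g1
      (fun a i z z' s t => le_min (D.K0 _ _ _ _ _ _ _) (LowTaux808.KS_nonneg _ _ _))
      (fun a i z z' s t => (min_le_left _ _).trans (D.K1 _ _ _ _ _ _ _))
      (fun a i z z' hz hz' => le_min ?_ ?_) (fun a b c hb hc => ?_) (fun b c hb hc => ?_)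
      (fun b c hb hc h0 => D.light b c hb hc ?_)
    · exact (LPhix808.dens_min_left _ _).trans (D.dens a a' i z z' hz hz')
    · have h9 := dens_KS' (low y M) hy (A := (2 : ℝ) ^ a') (by positivity)
      rw [hll] at h9
      exact (LPhix808.dens_min_right _ _).trans h9
    · rw [cl_eq hM hb hc, cl_eq hM hb hc, cl'_eq hM hb hc, cl'_eq hM hb hc]
      by_cases h1 : Nat.log 2 (low y b / Nat.gcd (low y b) (low y c)) = a
      · by_cases h2 : Nat.log 2 (low y c / Nat.gcd (low y b) (low y c)) = a'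
        · have h3 := D.fac b c hb hc
          rw [h1, h2] at h3
          simpa only [h1, h2, if_true] using h3
        · simp [h2]
      · simp [h1]
    · rw [cl'_eq hM hb hc]
      split_ifs with h2
      · have h3 := D.rel b c hb hc
        have hlt : (2 : ℝ) ^ a' ≤ ((low y c / Nat.gcd (low y b) (low y c) : ℕ) : ℝ) := by
          have h4 : low y c / Nat.gcd (low y b) (low y c) ≠ 0 :=
            (Nat.div_pos (Nat.le_of_dvd (low_pos y c) (Nat.gcd_dvd_right _ _))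
              (Nat.gcd_pos_of_pos_left _ (low_pos y b))).ne'
          have h5 := Nat.pow_log_le_self 2 h4
          rw [h2] at h5
          exact_mod_cast h5
        have h6 : LowTaux808.KS ((2 : ℝ) ^ a') (low y c / Nat.gcd (low y b) (low y c))
            (low y b / Nat.gcd (low y b) (low y c)) = 1 := by
          unfold LowTaux808.KS
          rw [if_pos hlt]
        rw [h6, min_eq_left (D.K1 _ _ _ _ _ _ _)]
        rwa [h2] at h3
      · exact mul_nonneg (mul_nonneg (D.f0 b) (D.g0 c))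
          (le_min (D.K0 _ _ _ _ _ _ _) (LowTaux808.KS_nonneg _ _ _))
    · rw [cl'_eq hM hb hc] at h0
      split_ifs at h0 with h2
      · exact h0
      · exact absurd rfl h0
  have hTa := LPhix808.sum_Ta (B := 0) (C := 1) (r := r') hκ hr'1 le_rfl le_rfl hθ hθ1
    (Nat.log 2 (low y M) + 1) y8 hy hτ0
  have e1 : ∀ a', (LPhix808.Ta r' 0 1 y8 τ a') ^ (1 / (1 + κ)) =
      (τa a') ^ ((1 - θ) / (r * (1 + κ))) := by
    intro a'
    have h0 : 0 ≤ τa a' := le_min hτ0 (by positivity)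
    unfold LPhix808.Ta
    rw [Real.rpow_zero, one_mul, one_mul, ← Real.rpow_mul h0]
    congr 1
    rw [hr']
    field_simp
  rw [Finset.sum_congr rfl (fun a' _ => e1 a')] at hTa
  rw [frm_cl' (low_pos y M) Φ]
  have e2 : (1 - θ) / (r' * (1 + κ)) = (1 - θ) ^ 2 / (r * (1 + κ)) := by
    rw [hr']; field_simp
  rw [e2] at hTa
  calc ∑ a' ∈ range (Nat.log 2 (low y M) + 1), frm M (cl' (low y M) a' Φ)
      ≤ ∑ a' ∈ range (Nat.log 2 (low y M) + 1), C * E * Θ ^ (κ / (1 + κ)) *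
        Real.log (max 8 y : ℕ) ^ (B + 1) * (τa a') ^ ((1 - θ) / (r * (1 + κ))) * q :=
        Finset.sum_le_sum fun a' _ => key a'
    _ = (C * E * Θ ^ (κ / (1 + κ)) * Real.log (max 8 y : ℕ) ^ (B + 1) * q) *
        ∑ a' ∈ range (Nat.log 2 (low y M) + 1), (τa a') ^ ((1 - θ) / (r * (1 + κ))) := by
        rw [Finset.mul_sum]
        exact Finset.sum_congr rfl fun a' _ => by ring
    _ ≤ (C * E * Θ ^ (κ / (1 + κ)) * Real.log (max 8 y : ℕ) ^ (B + 1) * q) *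
        (C3 * Real.log (max 8 y : ℕ) ^ ((0 : ℝ) + 1) * τ ^ ((1 - θ) ^ 2 / (r * (1 + κ)))) :=
        mul_le_mul_of_nonneg_left hTa (by positivity)
    _ = (C * C3) * (E * Θ ^ (κ / (1 + κ)) * (Real.log (max 8 y : ℕ) ^ (B + 1) * Real.log (max 8 y : ℕ) ^ ((0 : ℝ) + 1)) *
        τ ^ ((1 - θ) ^ 2 / (r * (1 + κ))) * q) := by ring
    _ = (C * C3) * (E * Θ ^ (κ / (1 + κ)) * Real.log (max 8 y : ℕ) ^ (B + 2) *
        τ ^ ((1 - θ) ^ 2 / (r * (1 + κ))) * q) := by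
        rw [← Real.rpow_add hly0, show B + 1 + ((0 : ℝ) + 1) = B + 2 by ring]
    _ ≤ max 1 (C * C3) * (E * Θ ^ (κ / (1 + κ)) * Real.log (max 8 y : ℕ) ^ (B + 2) *
        τ ^ ((1 - θ) ^ 2 / (r * (1 + κ))) * q) :=
        mul_le_mul_of_nonneg_right (le_max_right _ _) (by positivity)
    _ = _ := by ring

/-! ### Twisted words with weights -/

section wtw

variable {M : ℕ} (F : FL M) (γ L X X' R : ℝ) (N : ℕ) (x : ℕ → ℕ) (lab : ℕ → ℕ → ℕ)
  (I : Finset ℕ) (U U' : ℕ) (W0 : ℕ → ℕ → ℝ)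

/-- the twist representations of `(z, z')` -/
noncomputable def TS (z z' : ℕ) : Finset (ℕ × ℕ) := by
  classical
  exact (z.divisors ×ˢ z'.divisors).filter (fun p => p.1 ∈ KD F γ L X R N x lab I U (z / p.1) ∧
    p.2 ∈ KD F γ L X' R N x lab I U' (z' / p.2) ∧
    Nat.gcd z z' ≤ Nat.gcd (z / p.1) (z' / p.2))

/-- the weight of the twisted words: maximum over the representations -/
noncomputable def Wtw (z z' : ℕ) : ℝ := by
  classical
  exact if h : (TS F γ L X X' R N x lab I U U' z z').Nonempty then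
    (TS F γ L X X' R N x lab I U U' z z').sup' h (fun p => W0 (z / p.1) (z' / p.2)) else 0

variable {F γ L X X' R N x lab I U U' W0}

lemma Wtw_nonneg (h0 : ∀ z z', 0 ≤ W0 z z') (z z' : ℕ) :
    0 ≤ Wtw F γ L X X' R N x lab I U U' W0 z z' := by
  unfold Wtw
  split_ifs with h
  · obtain ⟨p, hp, he⟩ := Finset.exists_mem_eq_sup' h (fun p => W0 (z / p.1) (z' / p.2))
    rw [he]
    exact h0 _ _
  · exact le_rfl

lemma KD_pos {U κ z : ℕ} (h : κ ∈ KD F γ L X R N x lab I U z) : 0 < κ :=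
  (KK_le (Finset.mem_filter.1 h).1).1

lemma Wtw_spec {z z' : ℕ} :
    Wtw F γ L X X' R N x lab I U U' W0 z z' ≤ 0 ∨ ∃ κ κ' z0 z0' : ℕ,
      z = κ * z0 ∧ z' = κ' * z0' ∧ κ ∈ KD F γ L X R N x lab I U z0 ∧
      κ' ∈ KD F γ L X' R N x lab I U' z0' ∧ Nat.gcd z z' ≤ Nat.gcd z0 z0' ∧
      Wtw F γ L X X' R N x lab I U U' W0 z z' ≤ W0 z0 z0' := by
  classical
  by_cases h : (TS F γ L X X' R N x lab I U U' z z').Nonempty
  · right
    obtain ⟨p, hp, he⟩ := Finset.exists_mem_eq_sup' h (fun p => W0 (z / p.1) (z' / p.2))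
    have hp' := hp
    unfold TS at hp'
    rw [Finset.mem_filter, Finset.mem_product, Nat.mem_divisors, Nat.mem_divisors] at hp'
    obtain ⟨⟨⟨h1, _⟩, ⟨h2, _⟩⟩, h3, h4, h5⟩ := hp'
    refine ⟨p.1, p.2, z / p.1, z' / p.2, (Nat.mul_div_cancel' h1).symm,
      (Nat.mul_div_cancel' h2).symm, h3, h4, h5, ?_⟩
    unfold Wtw
    rw [dif_pos h, he]
  · left
    unfold Wtw
    rw [dif_neg h]

lemma le_Wtw {κ κ' z0 z0' : ℕ} (hz0 : z0 ≠ 0) (hz0' : z0' ≠ 0)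
    (h1 : κ ∈ KD F γ L X R N x lab I U z0) (h2 : κ' ∈ KD F γ L X' R N x lab I U' z0')
    (hg : Nat.gcd (κ * z0) (κ' * z0') ≤ Nat.gcd z0 z0') :
    W0 z0 z0' ≤ Wtw F γ L X X' R N x lab I U U' W0 (κ * z0) (κ' * z0') := by
  classical
  have hκ := KD_pos h1
  have hκ' := KD_pos h2
  have e1 : κ * z0 / κ = z0 := Nat.mul_div_cancel_left _ hκ
  have e2 : κ' * z0' / κ' = z0' := Nat.mul_div_cancel_left _ hκ'
  have hm : (κ, κ') ∈ TS F γ L X X' R N x lab I U U' (κ * z0) (κ' * z0') := by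
    unfold TS
    rw [Finset.mem_filter, Finset.mem_product, Nat.mem_divisors, Nat.mem_divisors]
    refine ⟨⟨⟨Dvd.intro _ rfl, mul_ne_zero hκ.ne' hz0⟩, ⟨Dvd.intro _ rfl,
      mul_ne_zero hκ'.ne' hz0'⟩⟩, ?_, ?_, ?_⟩
    · rw [e1]; exact h1
    · rw [e2]; exact h2
    · rw [e1, e2]; exact hg
  unfold Wtw
  rw [dif_pos ⟨_, hm⟩]
  have h3 := Finset.le_sup' (fun p : ℕ × ℕ => W0 (κ * z0 / p.1) (κ' * z0' / p.2)) hm
  rw [e1, e2] at h3
  exact h3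

end wtw

/-- the data of one box with twists: for a pair of the kernel, `z = κ z0`, `z' = κ' z0'` and
`Φ ≤ φ W0 (z0, z0')` -/
structure BoxT {M : ℕ} (F : FL M) (γ L R : ℝ) (N : ℕ) (x : ℕ → ℕ) (lab : ℕ → ℕ → ℕ)
    (I : Finset ℕ) (X X' : ℕ → ℕ → ℕ → ℝ) (U U' y : ℕ) (Θ E0 τ : ℝ)
    (W0 : ℕ → ℕ → ℕ → ℕ → ℕ → ℝ) (Φ φ : ℕ → ℕ → ℝ)
    (f g : ℕ → ℝ) (K : ℕ → ℕ → ℕ → ℕ → ℕ → ℕ → ℕ → ℝ) : Prop where
  Wn : ∀ a a' i z z', 0 ≤ W0 a a' i z z'
  WE : ∀ a a' i, SetW (upp y M) (W0 a a' i) E0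
  Φ0 : ∀ b c, 0 ≤ Φ b c
  φ0 : ∀ b c, 0 ≤ φ b c
  f0 : ∀ b, 0 ≤ f b
  f1 : ∀ b, f b ≤ 1
  g0 : ∀ b, 0 ≤ g b
  g1 : ∀ b, g b ≤ 1
  K0 : ∀ a a' i z z' s t, 0 ≤ K a a' i z z' s t
  K1 : ∀ a a' i z z' s t, K a a' i z z' s t ≤ 1
  dens : ∀ a a' i z z', z ∣ upp y M → z' ∣ upp y M →
    MXlowx808.dens (low y M) (K a a' i z z') ≤ τ
  fac : ∀ b c, b ∣ M → c ∣ M → Φ b c ≤ 0 ∨ ∃ κ κ' z0 z0' : ℕ,
    upp y b = κ * z0 ∧ upp y c = κ' * z0' ∧
    κ ∈ KD F γ L (X (Nat.log 2 (low y b / Nat.gcd (low y b) (low y c)))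
      (Nat.log 2 (low y c / Nat.gcd (low y b) (low y c)))
      (Nat.log 2 (Nat.gcd (low y b) (low y c)))) R N x lab I U z0 ∧
    κ' ∈ KD F γ L (X' (Nat.log 2 (low y b / Nat.gcd (low y b) (low y c)))
      (Nat.log 2 (low y c / Nat.gcd (low y b) (low y c)))
      (Nat.log 2 (Nat.gcd (low y b) (low y c)))) R N x lab I U' z0' ∧
    Nat.gcd (upp y b) (upp y c) ≤ Nat.gcd z0 z0' ∧
    Φ b c ≤ φ b c * W0 (Nat.log 2 (low y b / Nat.gcd (low y b) (low y c)))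
      (Nat.log 2 (low y c / Nat.gcd (low y b) (low y c)))
      (Nat.log 2 (Nat.gcd (low y b) (low y c))) z0 z0'
  rel : ∀ b c, b ∣ M → c ∣ M → φ b c ≤ f b * g c *
    K (Nat.log 2 (low y b / Nat.gcd (low y b) (low y c)))
      (Nat.log 2 (low y c / Nat.gcd (low y b) (low y c)))
      (Nat.log 2 (Nat.gcd (low y b) (low y c))) (upp y b) (upp y c)
      (low y b / Nat.gcd (low y b) (low y c)) (low y c / Nat.gcd (low y b) (low y c))
  light : ∀ b c, b ∣ M → c ∣ M → φ b c ≠ 0 → (low y b : ℝ) * mass M f y (upp y b) ≤ Θ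

/-- **CLASS (L), ONE BOX**: twists `~ U, U'`, weights `W0` on the words `(z0, z0')`. -/
theorem boxTw {κ r θ ε : ℝ} (hκ : 0 < κ) (hκ1 : κ < 1) (hr : 2 / (1 - κ) < r) (hθ : 0 < θ)
    (hθ1 : θ < 1) (hε : 0 < ε) (A : ℕ) : ∃ B C : ℝ, 0 ≤ B ∧ 1 ≤ C ∧
    ∀ (M : ℕ) (F : FL M) (γ L R : ℝ) (N : ℕ) (x : ℕ → ℕ) (lab : ℕ → ℕ → ℕ)
      (I : Finset ℕ) (X X' : ℕ → ℕ → ℕ → ℝ) (U U' y : ℕ) (Θ E0 τ : ℝ)
      (W0 : ℕ → ℕ → ℕ → ℕ → ℕ → ℝ) (Φ φ : ℕ → ℕ → ℝ)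
      (f g : ℕ → ℝ) (K : ℕ → ℕ → ℕ → ℕ → ℕ → ℕ → ℕ → ℝ), 0 < M → 0 < Θ → 0 ≤ E0 →
      0 ≤ R → R ≤ (N : ℝ) ^ A → 1 ≤ N → Monotone x → 1 ≤ U → 1 ≤ U' → U ≤ N → U' ≤ N →
    BoxT F γ L R N x lab I X X' U U' y Θ E0 τ W0 Φ φ f g K →
    frm M Φ ≤ C * (E0 * (N : ℝ) ^ ε / √((U : ℝ) * U')) * Θ ^ (κ / (1 + κ)) * Real.log (max 8 y : ℕ) ^ B *
      τ ^ ((1 - θ) ^ 2 / (r * (1 + κ))) *
      √((∑ b ∈ M.divisors, nu M b * f b) * ∑ b ∈ M.divisors, nu M b * g b) := by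
  classical
  obtain ⟨B, C, hB, hC, h⟩ := boxTau2 hκ hκ1 hr hθ hθ1
  obtain ⟨C1, hC1, h1⟩ := setW_tw hε A
  refine ⟨B, max 1 (C * C1), hB, le_max_left _ _, ?_⟩
  intro M F γ L R N x lab I X X' U U' y Θ E0 τ W0 Φ φ f g K hM hΘ hE0 hR hRN hN hx hU hU' hUN
    hUN' D
  have hN0 : (0 : ℝ) < N := by exact_mod_cast hN
  have hUU : (0 : ℝ) < (U : ℝ) * U' := by
    have a1 : (0 : ℝ) < U := by exact_mod_cast hU
    have a2 : (0 : ℝ) < U' := by exact_mod_cast hU'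
    positivity
  have h2 := h M y Θ (C1 * (N : ℝ) ^ ε / √((U : ℝ) * U') * E0) τ
    (fun a a' i => Wtw F γ L (X a a' i) (X' a a' i) R N x lab I U U' (W0 a a' i)) Φ φ f g K hM
    hΘ (by positivity)
    { W0 := fun a a' i z z' => Wtw_nonneg (D.Wn a a' i) z z'
      WE := fun a a' i => h1 M F γ L (X a a' i) (X' a a' i) R N x lab I y hM hR hRN hN hx _
        (W0 a a' i) E0 hE0 (D.Wn a a' i) (D.WE a a' i) U U' hU hU' hUN hUN'
        (fun _ _ _ _ => Wtw_spec)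
      Φ0 := D.Φ0
      φ0 := D.φ0
      f0 := D.f0
      f1 := D.f1
      g0 := D.g0
      g1 := D.g1
      K0 := D.K0
      K1 := D.K1
      dens := D.dens
      fac := ?_
      rel := D.rel
      light := D.light }
  · have hτ0 : 0 ≤ τ := (MXlowx808.dens_nonneg _ (fun s t => D.K0 0 0 0 1 1 s t)).trans
      (D.dens 0 0 0 1 1 (one_dvd _) (one_dvd _))
    have hy8 : (8 : ℝ) ≤ ((max 8 y : ℕ) : ℝ) := by exact_mod_cast le_max_left 8 y
    have hly : 0 ≤ Real.log (max 8 y : ℕ) := Real.log_nonneg (by linarith)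
    calc frm M Φ ≤ C * (C1 * (N : ℝ) ^ ε / √((U : ℝ) * U') * E0) * Θ ^ (κ / (1 + κ)) *
          Real.log (max 8 y : ℕ) ^ B * τ ^ ((1 - θ) ^ 2 / (r * (1 + κ))) *
          √((∑ b ∈ M.divisors, nu M b * f b) * ∑ b ∈ M.divisors, nu M b * g b) := h2
      _ = (C * C1) * ((E0 * (N : ℝ) ^ ε / √((U : ℝ) * U')) * Θ ^ (κ / (1 + κ)) *
          Real.log (max 8 y : ℕ) ^ B * τ ^ ((1 - θ) ^ 2 / (r * (1 + κ))) *
          √((∑ b ∈ M.divisors, nu M b * f b) * ∑ b ∈ M.divisors, nu M b * g b)) := by ring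
      _ ≤ max 1 (C * C1) * ((E0 * (N : ℝ) ^ ε / √((U : ℝ) * U')) * Θ ^ (κ / (1 + κ)) *
          Real.log (max 8 y : ℕ) ^ B * τ ^ ((1 - θ) ^ 2 / (r * (1 + κ))) *
          √((∑ b ∈ M.divisors, nu M b * f b) * ∑ b ∈ M.divisors, nu M b * g b)) :=
          mul_le_mul_of_nonneg_right (le_max_right _ _) (by positivity)
      _ = _ := by ring
  · intro b c hb hc
    have hb0 : upp y b ≠ 0 := (upp_pos y b).ne'
    have hc0 : upp y c ≠ 0 := (upp_pos y c).ne'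
    rcases D.fac b c hb hc with h3 | ⟨κ, κ', z0, z0', e1, e2, m1, m2, hg, h3⟩
    · refine h3.trans (mul_nonneg (D.φ0 b c) (Wtw_nonneg (D.Wn _ _ _) _ _))
    · refine h3.trans (mul_le_mul_of_nonneg_left ?_ (D.φ0 b c))
      rw [e1, e2] at hg ⊢
      refine le_Wtw (fun h => hb0 (by rw [e1, h, mul_zero])) (fun h => hc0 (by rw [e2, h, mul_zero]))
        m1 m2 hg

end Crest.Agent.R4C.LClassx662
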