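import Mathlib

/-! Row 4, BLOCK S2 v1 (note 2736, helper284), Lemmas 1-3 (typed by helper232). -/

set_option autoImplicit false

open Finset

namespace Crest.Agent.R4C.S2x232

/-- `x` is within `δ` of an integer -/
def near (x δ : ℝ) : Prop := ∃ m : ℤ, |x - m| < δ

/-- the set `N_t(ξ,ξ')` of note 2736 -/
def NN (ξ ξ' t : ℝ) (u v : ℕ) : Prop := 1 ≤ u ∧ 1 ≤ v ∧ near (u * ξ - v * ξ') (1 / t)

/-- `ξ` has the label `a/k` with `k ≤ K` and error `≤ e` -/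
def Lab (ξ K e : ℝ) (a : ℤ) (k : ℕ) : Prop :=
  1 ≤ k ∧ IsCoprime a (k:ℤ) ∧ (k:ℝ) ≤ K ∧ |ξ - a / k| ≤ e

open Classical in
/-- the part of `N_t` in the box `[U,2U) × [V,2V)` -/
noncomputable def boxN (ξ ξ' t : ℝ) (U V : ℕ) : Finset (ℕ × ℕ) :=
  ((Finset.Ico U (2*U)) ×ˢ (Finset.Ico V (2*V))).filter
    (fun w => near (w.1 * ξ - w.2 * ξ') (1/t))

lemma near_mono {x δ δ' : ℝ} (h : near x δ) (hd : δ ≤ δ') : near x δ' := by
  obtain ⟨m, hm⟩ := h; exact ⟨m, lt_of_lt_of_le hm hd⟩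

lemma near_neg {x δ : ℝ} (h : near x δ) : near (-x) δ := by
  obtain ⟨m, hm⟩ := h
  refine ⟨-m, ?_⟩
  push_cast
  rw [show -x - -(m:ℝ) = -(x - m) by ring, abs_neg]
  exact hm

lemma near_sub {x y δ ε : ℝ} (hx : near x δ) (hy : near y ε) : near (x - y) (δ + ε) := by
  obtain ⟨m, hm⟩ := hx; obtain ⟨l, hl⟩ := hy
  refine ⟨m - l, ?_⟩
  push_cast
  rw [show x - y - ((m:ℝ) - l) = (x - m) - (y - l) by ring]
  exact lt_of_le_of_lt (abs_sub _ _) (add_lt_add hm hl)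

lemma near_add {x y δ ε : ℝ} (hx : near x δ) (hy : near y ε) : near (x + y) (δ + ε) := by
  have := near_sub hx (near_neg hy)
  simpa using this

lemma near_mul_int {x δ : ℝ} (h : near x δ) (c : ℤ) (hc : c ≠ 0) :
    near (c * x) (|(c:ℝ)| * δ) := by
  obtain ⟨m, hm⟩ := h
  refine ⟨c * m, ?_⟩
  push_cast
  rw [← mul_sub, abs_mul]
  exact mul_lt_mul_of_pos_left hm (by positivity)

/-- a finite set of integers with pairwise distances `< ℓ` has at most `ℓ+1` elements -/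
lemma card_int_le (S : Finset ℤ) {ℓ : ℝ} (hℓ : 0 ≤ ℓ)
    (h : ∀ x ∈ S, ∀ y ∈ S, |(x:ℝ) - y| ≤ ℓ) : (S.card : ℝ) ≤ ℓ + 1 := by
  rcases S.eq_empty_or_nonempty with he | hne
  · rw [he]; simp; linarith
  · have ha : S.min' hne ∈ S := S.min'_mem hne
    have hb : S.max' hne ∈ S := S.max'_mem hne
    set a := S.min' hne with hadef
    set b := S.max' hne with hbdef
    have hsub : S ⊆ Finset.Icc a b := fun x hx =>
      Finset.mem_Icc.2 ⟨S.min'_le x hx, S.le_max' x hx⟩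
    have hc := Finset.card_le_card hsub
    rw [Int.card_Icc] at hc
    have hab : a ≤ b := S.min'_le b hb
    have hc' : (S.card : ℤ) ≤ b + 1 - a := by
      have e : (((b + 1 - a).toNat : ℤ)) = b + 1 - a := Int.toNat_of_nonneg (by omega)
      rw [← e]; exact_mod_cast hc
    have hc2 : (S.card : ℝ) ≤ (b:ℝ) + 1 - a := by exact_mod_cast hc'
    have := (abs_le.1 (h b hb a ha)).2
    linarith

/-- two points of a large subset of `[U,2U)` are close -/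
lemma exists_close {U : ℕ} {S : Finset ℕ} (hS : S ⊆ Finset.Ico U (2*U)) {W : ℝ} (hW : 0 < W)
    (hc : (U:ℝ) / W + 2 < S.card) : ∃ u ∈ S, ∃ v ∈ S, v < u ∧ (u:ℝ) - v < W := by
  classical
  by_contra hcon
  push Not at hcon
  have hinj : Set.InjOn (fun u : ℕ => ⌊(u:ℝ) / W⌋) (S : Set ℕ) := by
    intro u hu v hv huv
    simp only at huv
    by_contra hne
    rcases lt_or_gt_of_ne hne with hlt | hlt
    · have h1 := hcon v hv u hu hlt
      have h2 : (⌊(u:ℝ)/W⌋ : ℝ) ≤ u / W := Int.floor_le _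
      have h3 : (v:ℝ) / W < ⌊(v:ℝ)/W⌋ + 1 := Int.lt_floor_add_one _
      rw [← huv] at h3
      have h4 : (v:ℝ) / W - u / W < 1 := by linarith
      rw [← sub_div, div_lt_one hW] at h4
      linarith
    · have h1 := hcon u hu v hv hlt
      have h2 : (⌊(v:ℝ)/W⌋ : ℝ) ≤ v / W := Int.floor_le _
      have h3 : (u:ℝ) / W < ⌊(u:ℝ)/W⌋ + 1 := Int.lt_floor_add_one _
      rw [huv] at h3
      have h4 : (u:ℝ) / W - v / W < 1 := by linarith
      rw [← sub_div, div_lt_one hW] at h4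
      linarith
  have hcard := Finset.card_image_of_injOn hinj
  have hb : ((S.image (fun u : ℕ => ⌊(u:ℝ) / W⌋)).card : ℝ) ≤ ((U:ℝ)/W + 1) + 1 := by
    apply card_int_le
    · positivity
    · intro x hx y hy
      obtain ⟨u, hu, rfl⟩ := Finset.mem_image.1 hx
      obtain ⟨v, hv, rfl⟩ := Finset.mem_image.1 hy
      have hu1 := Finset.mem_Ico.1 (hS hu)
      have hv1 := Finset.mem_Ico.1 (hS hv)
      have h2 : (⌊(v:ℝ)/W⌋ : ℝ) ≤ v / W := Int.floor_le _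
      have h3 : (u:ℝ) / W < ⌊(u:ℝ)/W⌋ + 1 := Int.lt_floor_add_one _
      have h4 : (⌊(u:ℝ)/W⌋ : ℝ) ≤ u / W := Int.floor_le _
      have h5 : (v:ℝ) / W < ⌊(v:ℝ)/W⌋ + 1 := Int.lt_floor_add_one _
      have hU1 : (u:ℝ) / W - v / W ≤ U / W := by
        rw [← sub_div]
        apply div_le_div_of_nonneg_right _ hW.le
        have a1 : (u:ℝ) ≤ 2 * U := by exact_mod_cast hu1.2.le
        have a2 : (U:ℝ) ≤ v := by exact_mod_cast hv1.1
        linarith
      have hU2 : (v:ℝ) / W - u / W ≤ U / W := by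
        rw [← sub_div]
        apply div_le_div_of_nonneg_right _ hW.le
        have a1 : (v:ℝ) ≤ 2 * U := by exact_mod_cast hv1.2.le
        have a2 : (U:ℝ) ≤ u := by exact_mod_cast hu1.1
        linarith
      rw [abs_le]
      constructor <;> linarith
  rw [hcard] at hb
  linarith

/-- a set of naturals in one class mod `k` with pairwise distances `≤ L` -/
lemma card_class_le (F : Finset ℕ) {k : ℕ} (hk : 1 ≤ k) {L : ℝ} (hL : 0 ≤ L)
    (hcong : ∀ u ∈ F, ∀ v ∈ F, (k:ℤ) ∣ (u:ℤ) - v)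
    (hd : ∀ u ∈ F, ∀ v ∈ F, |(u:ℝ) - v| ≤ L) : (F.card : ℝ) ≤ L / k + 1 := by
  classical
  rcases F.eq_empty_or_nonempty with he | ⟨w, hw⟩
  · rw [he]; simp; positivity
  · have hk0 : (k:ℤ) ≠ 0 := by omega
    have hkR : (0:ℝ) < k := by exact_mod_cast hk
    have key : ∀ u ∈ F, ((u:ℤ) - w) / k * k = (u:ℤ) - w := fun u hu =>
      Int.ediv_mul_cancel (hcong u hu w hw)
    have hinj : Set.InjOn (fun u : ℕ => ((u:ℤ) - w) / k) (F : Set ℕ) := by
      intro u hu v hv huv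
      simp only at huv
      have h1 := key u hu
      have h2 := key v hv
      rw [huv, h2] at h1
      omega
    rw [← Finset.card_image_of_injOn hinj]
    apply card_int_le
    · positivity
    · intro x hx y hy
      obtain ⟨u, hu, rfl⟩ := Finset.mem_image.1 hx
      obtain ⟨v, hv, rfl⟩ := Finset.mem_image.1 hy
      have h1 : ((((u:ℤ) - w) / k : ℤ) : ℝ) * k = (u:ℝ) - w := by exact_mod_cast key u hu
      have h2 : ((((v:ℤ) - w) / k : ℤ) : ℝ) * k = (v:ℝ) - w := by exact_mod_cast key v hv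
      rw [le_div_iff₀ hkR]
      have h3 : |(((((u:ℤ) - w) / k : ℤ) : ℝ) - ((((v:ℤ) - w) / k : ℤ) : ℝ))| * k
          = |(u:ℝ) - v| := by
        have e : |(k:ℝ)| = k := abs_of_pos hkR
        calc |(((((u:ℤ) - w) / k : ℤ) : ℝ) - ((((v:ℤ) - w) / k : ℤ) : ℝ))| * k
            = |(((((u:ℤ) - w) / k : ℤ) : ℝ) - ((((v:ℤ) - w) / k : ℤ) : ℝ))| * |(k:ℝ)| := by
              rw [e]
          _ = |((((((u:ℤ) - w) / k : ℤ) : ℝ) - ((((v:ℤ) - w) / k : ℤ) : ℝ))) * (k:ℝ)| :=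
              (abs_mul _ _).symm
          _ = |(u:ℝ) - v| := by
              rw [sub_mul, h1, h2]
              congr 1; ring
      rw [h3]
      exact hd u hu v hv

/-- reduce a fraction -/
lemma reduce_frac (m : ℤ) {d : ℕ} (hd : 1 ≤ d) :
    ∃ (a : ℤ) (k : ℕ), 1 ≤ k ∧ IsCoprime a (k:ℤ) ∧ k ≤ d ∧ k ∣ d ∧ (a:ℝ) / k = (m:ℝ) / d := by
  have hd0 : 0 < d := hd
  set g := Nat.gcd m.natAbs d with hg
  have hgpos : 0 < g := Nat.gcd_pos_of_pos_right _ hd0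
  have hgm : (g:ℤ) ∣ m := Int.natCast_dvd.2 (Nat.gcd_dvd_left _ _)
  have hgd : g ∣ d := Nat.gcd_dvd_right _ _
  obtain ⟨a, ha⟩ := hgm
  obtain ⟨k, hk⟩ := hgd
  have hkpos : 0 < k := by
    rcases Nat.eq_zero_or_pos k with h | h
    · rw [h] at hk; omega
    · exact h
  refine ⟨a, k, hkpos, ?_, ?_, Dvd.intro_left g hk.symm, ?_⟩
  · rw [Int.isCoprime_iff_gcd_eq_one]
    have h1 : Nat.gcd m.natAbs d = g * Nat.gcd a.natAbs k := by
      rw [ha, hk, Int.natAbs_mul, Int.natAbs_natCast, Nat.gcd_mul_left]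
    have h2 : g * Nat.gcd a.natAbs k = g * 1 := by rw [← h1, mul_one]
    have h3 := Nat.eq_of_mul_eq_mul_left hgpos h2
    simpa [Int.gcd] using h3
  · rw [hk]; exact Nat.le_mul_of_pos_left _ hgpos
  · have hgR : (g:ℝ) ≠ 0 := by exact_mod_cast hgpos.ne'
    have hkR : (k:ℝ) ≠ 0 := by exact_mod_cast hkpos.ne'
    have e1 : (m:ℝ) = g * a := by rw [ha]; push_cast; ring
    have e2 : (d:ℝ) = g * k := by rw [hk]; push_cast; ring
    rw [e1, e2, mul_div_mul_left _ _ hgR]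

/-- from `near (d ξ) (c/t)` to a reduced label -/
lemma label_of_near {ξ ε : ℝ} {d : ℕ} (hd : 1 ≤ d) (h : near (d * ξ) ε) :
    ∃ (a : ℤ) (k : ℕ), 1 ≤ k ∧ IsCoprime a (k:ℤ) ∧ k ≤ d ∧ k ∣ d ∧ |ξ - a / k| < ε / d := by
  obtain ⟨m, hm⟩ := h
  obtain ⟨a, k, hk, hco, hkd, hkdvd, he⟩ := reduce_frac m hd
  refine ⟨a, k, hk, hco, hkd, hkdvd, ?_⟩
  have hdR : (0:ℝ) < d := by exact_mod_cast hd
  rw [he, lt_div_iff₀ hdR, ← abs_of_pos hdR, ← abs_mul, abs_of_pos hdR, sub_mul,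
    div_mul_cancel₀ _ hdR.ne', mul_comm]
  exact hm

/-- LEMMA 1 of note 2736 (one variable) -/
theorem lemma1 {U : ℕ} {D t ξ η : ℝ} (hD : 4 ≤ D) (hU : D^2 ≤ U) (ht : 2*D ≤ t)
    {S : Finset ℕ} (hS : S ⊆ Finset.Ico U (2*U)) (hn : ∀ u ∈ S, near (u*ξ - η) (1/t))
    (hc : 8 * U / D < (S.card : ℝ)) :
    ∃ (a : ℤ) (k : ℕ), 1 ≤ k ∧ IsCoprime a (k:ℤ) ∧ (k:ℝ) < D/4 ∧ |ξ - a/k| < D/(t*U) := by
  classical
  have hD0 : 0 < D := by linarith
  have ht0 : 0 < t := by linarith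
  have hUR : (0:ℝ) < U := lt_of_lt_of_le (by positivity) hU
  have hUD : D ≤ U / D := by
    rw [le_div_iff₀ hD0]; nlinarith
  have hUD4 : 4 ≤ (U:ℝ) / D := by linarith
  -- two close points
  have hclose : (U:ℝ) / (D/4) + 2 < S.card := by
    have e1 : (U:ℝ) / (D/4) = 4 * (U / D) := by field_simp
    have e2 : 8 * (U:ℝ) / D = 8 * (U / D) := by ring
    rw [e1]; rw [e2] at hc; linarith
  obtain ⟨u₀, hu₀, v₀, hv₀, hlt, hdist⟩ := exists_close hS (by positivity) hclose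
  have hd1 : 1 ≤ u₀ - v₀ := by omega
  have hdR : ((u₀ - v₀ : ℕ) : ℝ) = (u₀:ℝ) - v₀ := by
    rw [Nat.cast_sub hlt.le]
  have hnear : near (((u₀ - v₀ : ℕ) : ℝ) * ξ) (2/t) := by
    have h1 := near_sub (hn u₀ hu₀) (hn v₀ hv₀)
    rw [hdR]
    have e : (u₀:ℝ) * ξ - η - ((v₀:ℝ) * ξ - η) = ((u₀:ℝ) - v₀) * ξ := by ring
    rw [e] at h1
    exact near_mono h1 (by rw [← two_mul]; apply le_of_eq; ring)
  obtain ⟨a, k, hk, hco, hkd, -, hδ⟩ := label_of_near hd1 hnear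
  have hkR : (0:ℝ) < k := by exact_mod_cast hk
  have hkdR : (k:ℝ) ≤ ((u₀ - v₀ : ℕ) : ℝ) := by exact_mod_cast hkd
  have hkD : (k:ℝ) < D / 4 := by
    rw [hdR] at hkdR; linarith
  refine ⟨a, k, hk, hco, hkD, ?_⟩
  set δ := ξ - a / k with hδdef
  by_cases hδ0 : δ = 0
  · rw [hδ0, abs_zero]; positivity
  have hδpos : 0 < |δ| := abs_pos.2 hδ0
  have hkδ : k * |δ| < 2 / t := by
    have h1 : |δ| < 2 / t / k := lt_of_lt_of_le hδ
      (div_le_div_of_nonneg_left (by positivity) hkR hkdR)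
    rw [lt_div_iff₀ hkR] at h1
    linarith
  -- count
  choose! m hm using hn
  set f : ℕ → ℤ := fun u => k * m u - u * a with hf
  have hfu : ∀ u ∈ S, |k * (u * δ) - k * η - f u| < k / t := by
    intro u hu
    have h1 := hm u hu
    have e : (k:ℝ) * (u * δ) - k * η - (f u : ℝ) = k * ((u:ℝ) * ξ - η - m u) := by
      simp only [hf, hδdef]; push_cast; field_simp; ring
    rw [e, abs_mul, abs_of_pos hkR]
    calc (k:ℝ) * |(u:ℝ) * ξ - η - m u| < k * (1 / t) := mul_lt_mul_of_pos_left h1 hkR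
      _ = k / t := by ring
  -- the difference formula
  have hdiff : ∀ u ∈ S, ∀ v ∈ S, |(k * δ) * ((u:ℝ) - v) - ((f u : ℝ) - f v)| < 2 * (k / t) := by
    intro u hu v hv
    have h1 := hfu u hu
    have h2 := hfu v hv
    rw [abs_lt] at h1 h2 ⊢
    constructor <;> linarith [h1.1, h1.2, h2.1, h2.2]
  -- image size
  have himg : ((S.image f).card : ℝ) ≤ (U * (k * |δ|) + 2 * (k / t)) + 1 := by
    apply card_int_le
    · positivity
    · intro x hx y hy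
      obtain ⟨u, hu, rfl⟩ := Finset.mem_image.1 hx
      obtain ⟨v, hv, rfl⟩ := Finset.mem_image.1 hy
      have h1 := hdiff u hu v hv
      have hu1 := Finset.mem_Ico.1 (hS hu)
      have hv1 := Finset.mem_Ico.1 (hS hv)
      have huv : |(u:ℝ) - v| ≤ U := by
        have a1 : (u:ℝ) < 2 * U := by exact_mod_cast hu1.2
        have a2 : (U:ℝ) ≤ v := by exact_mod_cast hv1.1
        have a3 : (v:ℝ) < 2 * U := by exact_mod_cast hv1.2
        have a4 : (U:ℝ) ≤ u := by exact_mod_cast hu1.1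
        rw [abs_le]; constructor <;> linarith
      have h2 : |(k * δ) * ((u:ℝ) - v)| ≤ U * (k * |δ|) := by
        rw [abs_mul, abs_mul, abs_of_pos hkR, mul_comm]
        exact mul_le_mul_of_nonneg_right huv (by positivity)
      have h3 : |(f u : ℝ) - f v| ≤ |(k * δ) * ((u:ℝ) - v)| +
          |(k * δ) * ((u:ℝ) - v) - ((f u : ℝ) - f v)| := by
        have := abs_sub ((k * δ) * ((u:ℝ) - v)) ((k * δ) * ((u:ℝ) - v) - ((f u : ℝ) - f v))
        rw [sub_sub_cancel] at this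
        exact this
      linarith
  -- fibres
  have hfib : ∀ b ∈ S.image f, ((S.filter (fun u => f u = b)).card : ℝ) ≤
      (2 / (t * |δ|)) / k + 1 := by
    intro b hb
    apply card_class_le _ hk (by positivity)
    · intro u hu v hv
      obtain ⟨hu, hu'⟩ := Finset.mem_filter.1 hu
      obtain ⟨hv, hv'⟩ := Finset.mem_filter.1 hv
      have h1 : (k:ℤ) * m u - u * a = k * m v - v * a := by rw [← hv'] at hu'; exact hu'
      have h2 : (k:ℤ) ∣ ((u:ℤ) - v) * a := ⟨m u - m v, by linarith⟩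
      exact (hco.symm).dvd_of_dvd_mul_right h2
    · intro u hu v hv
      obtain ⟨hu, hu'⟩ := Finset.mem_filter.1 hu
      obtain ⟨hv, hv'⟩ := Finset.mem_filter.1 hv
      have h1 := hdiff u hu v hv
      rw [hu', hv', sub_self, sub_zero, abs_mul, abs_mul, abs_of_pos hkR] at h1
      have h2 : |(u:ℝ) - v| < 2 / (t * |δ|) := by
        rw [lt_div_iff₀ (by positivity)]
        have h3 : (k:ℝ) * (|(u:ℝ) - v| * (t * |δ|)) < k * 2 := by
          have h4 : k * |δ| * |(u:ℝ) - v| * t < 2 * (k / t) * t :=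
            mul_lt_mul_of_pos_right h1 ht0
          have h5 : 2 * ((k:ℝ) / t) * t = k * 2 := by field_simp
          rw [h5] at h4
          linarith [h4]
        exact lt_of_mul_lt_mul_left h3 hkR.le
      exact h2.le
  have hcard : S.card ≤ ⌊(2 / (t * |δ|)) / k + 1⌋₊ * (S.image f).card := by
    apply Finset.card_le_mul_card_image
    intro b hb
    exact Nat.le_floor (hfib b hb)
  have hcardR : (S.card : ℝ) ≤ ((2 / (t * |δ|)) / k + 1) *
      ((U * (k * |δ|) + 2 * (k / t)) + 1) := by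
    have h1 : (S.card : ℝ) ≤ (⌊(2 / (t * |δ|)) / k + 1⌋₊ : ℝ) * ((S.image f).card : ℝ) := by
      exact_mod_cast hcard
    refine h1.trans ?_
    apply mul_le_mul (Nat.floor_le (by positivity)) himg (by positivity) (by positivity)
  -- arithmetic
  set y := 1 / (t * |δ|) with hy
  have hypos : 0 < y := by positivity
  have hexp : ((2 / (t * |δ|)) / k + 1) * ((U * (k * |δ|) + 2 * (k / t)) + 1)
      = 2 * U / t + 4 * y / t + 2 * y / k + U * (k * |δ|) + 2 * (k / t) + 1 := by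
    rw [hy]; field_simp; ring
  rw [hexp] at hcardR
  have hk1 : (1:ℝ) ≤ k := by exact_mod_cast hk
  have ht8 : 8 ≤ t := by linarith
  have b1 : 2 * (U:ℝ) / t ≤ U / D := by
    rw [div_le_div_iff₀ ht0 hD0]; nlinarith
  have b2 : 4 * y / t ≤ y / 2 := by
    rw [div_le_div_iff₀ ht0 (by norm_num)]; nlinarith
  have b3 : 2 * y / k ≤ 2 * y := div_le_self (by positivity) hk1
  have b4 : (U:ℝ) * (k * |δ|) ≤ U / D := by
    have h1 : (U:ℝ) * (k * |δ|) ≤ U * (2 / t) := mul_le_mul_of_nonneg_left hkδ.le hUR.le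
    have h2 : (U:ℝ) * (2 / t) = 2 * U / t := by ring
    linarith
  have b5 : 2 * ((k:ℝ) / t) ≤ 1 / 4 := by
    have h1 : (k:ℝ) / t ≤ 1 / 8 := by
      rw [div_le_div_iff₀ ht0 (by norm_num)]; linarith
    linarith
  have e2 : 8 * (U:ℝ) / D = 8 * (U / D) := by ring
  rw [e2] at hc
  have hfin : (U:ℝ) / D < y := by linarith
  rw [hy] at hfin
  rw [div_lt_div_iff₀ hD0 (by positivity)] at hfin
  rw [lt_div_iff₀ (by positivity)]
  linarith

lemma mem_boxN {ξ ξ' t : ℝ} {U V : ℕ} {w : ℕ × ℕ} :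
    w ∈ boxN ξ ξ' t U V ↔ (U ≤ w.1 ∧ w.1 < 2*U) ∧ (V ≤ w.2 ∧ w.2 < 2*V) ∧
      near (w.1 * ξ - w.2 * ξ') (1/t) := by
  classical
  unfold boxN
  rw [Finset.mem_filter, Finset.mem_product, Finset.mem_Ico, Finset.mem_Ico, and_assoc]

lemma boxN_swap (ξ ξ' t : ℝ) (U V : ℕ) :
    (boxN ξ' ξ t V U).card = (boxN ξ ξ' t U V).card := by
  classical
  apply Finset.card_bij (fun w _ => (w.2, w.1))
  · intro w hw
    rw [mem_boxN] at hw ⊢
    refine ⟨hw.2.1, hw.1, ?_⟩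
    have := near_neg hw.2.2
    rw [neg_sub] at this
    exact this
  · intro w _ w' _ h
    simp only [Prod.mk.injEq] at h
    exact Prod.ext h.2 h.1
  · intro w hw
    refine ⟨(w.2, w.1), ?_, rfl⟩
    rw [mem_boxN] at hw ⊢
    refine ⟨hw.2.1, hw.1, ?_⟩
    have := near_neg hw.2.2
    rw [neg_sub] at this
    exact this

lemma box_first {U V : ℕ} {D t ξ ξ' : ℝ} (hD : 4 ≤ D) (ht : 2*D ≤ t) (hU : D^2 ≤ U)
    (hc : 8*U*V/D < ((boxN ξ ξ' t U V).card : ℝ)) :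
    ∃ (a : ℤ) (k : ℕ), 1 ≤ k ∧ IsCoprime a (k:ℤ) ∧ (k:ℝ) < D/4 ∧ |ξ - a/k| < D/(t*U) := by
  classical
  have hD0 : 0 < D := by linarith
  set F : ℕ → Finset ℕ := fun v =>
    (Finset.Ico U (2*U)).filter (fun u : ℕ => near (u * ξ - v * ξ') (1/t)) with hF
  by_contra hcon
  have hsmall : ∀ v : ℕ, ((F v).card : ℝ) ≤ 8 * U / D := by
    intro v
    by_contra hv
    push Not at hv
    exact hcon (lemma1 (η := v * ξ') hD hU ht (Finset.filter_subset _ _)
      (fun u hu => (Finset.mem_filter.1 hu).2) hv)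
  have hcard : (boxN ξ ξ' t U V).card = ∑ v ∈ Finset.Ico V (2*V), (F v).card := by
    rw [Finset.card_eq_sum_card_fiberwise (f := Prod.snd) (t := Finset.Ico V (2*V))]
    · apply Finset.sum_congr rfl
      intro v hv
      apply Finset.card_bij (fun w _ => w.1)
      · intro w hw
        obtain ⟨h1, h2⟩ := Finset.mem_filter.1 hw
        rw [mem_boxN] at h1
        simp only [hF, Finset.mem_filter, Finset.mem_Ico]
        refine ⟨h1.1, ?_⟩
        rw [← h2]; exact h1.2.2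
      · intro w hw w' hw' h
        obtain ⟨_, h2⟩ := Finset.mem_filter.1 hw
        obtain ⟨_, h4⟩ := Finset.mem_filter.1 hw'
        exact Prod.ext h (h2.trans h4.symm)
      · intro u hu
        simp only [hF, Finset.mem_filter, Finset.mem_Ico] at hu
        refine ⟨(u, v), ?_, rfl⟩
        rw [Finset.mem_filter, mem_boxN]
        exact ⟨⟨hu.1, Finset.mem_Ico.1 hv, hu.2⟩, rfl⟩
    · intro w hw
      have hw' := (mem_boxN.1 (Finset.mem_coe.1 hw))
      exact Finset.mem_coe.2 (Finset.mem_Ico.2 hw'.2.1)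
  have hsum : ((boxN ξ ξ' t U V).card : ℝ) ≤ V * (8 * U / D) := by
    rw [hcard]
    push_cast
    calc ∑ v ∈ Finset.Ico V (2*V), ((F v).card : ℝ)
        ≤ ∑ v ∈ Finset.Ico V (2*V), (8 * U / D : ℝ) := Finset.sum_le_sum (fun v _ => hsmall v)
      _ = V * (8 * U / D) := by
        rw [Finset.sum_const, Nat.card_Ico, nsmul_eq_mul]
        congr 2
        omega
  have e : 8 * (U:ℝ) * V / D = V * (8 * U / D) := by ring
  rw [e] at hc
  linarith

lemma box_second {U V u v : ℕ} {D t ξ ξ' : ℝ} (hD : 4 ≤ D) (ht : 2*D ≤ t)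
    (hU1 : 1 ≤ U) (hV1 : 1 ≤ V)
    (hV : (V:ℝ) < D^2) (hu : u < 2*U) (hv : V ≤ v) (hv2 : v < 2*V)
    (hn : near (u * ξ - v * ξ') (1/t)) {a : ℤ} {k : ℕ} (hk : 1 ≤ k) (hkD : (k:ℝ) < D/4)
    (hδ : |ξ - a/k| < D/(t*U)) :
    ∃ (a' : ℤ) (k' : ℕ), Lab ξ' (D^3/2) (3*D/(t*V)) a' k' := by
  have hD0 : 0 < D := by linarith
  have ht0 : 0 < t := by linarith
  have hkR : (0:ℝ) < k := by exact_mod_cast hk
  have hUR : (0:ℝ) < U := by exact_mod_cast hU1
  have hVR : (0:ℝ) < V := by exact_mod_cast hV1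
  have hvR : (0:ℝ) < v := lt_of_lt_of_le hVR (by exact_mod_cast hv)
  have hVv : (V:ℝ) ≤ v := by exact_mod_cast hv
  have hv2R : (v:ℝ) < 2 * V := by exact_mod_cast hv2
  have huR : (u:ℝ) ≤ 2 * U := by exact_mod_cast hu.le
  have hkv : 1 ≤ k * v := Nat.mul_pos hk (lt_of_lt_of_le hV1 hv)
  have hnear : near (((k * v : ℕ) : ℝ) * ξ') (k * ((2*D+1)/t)) := by
    obtain ⟨m, hm⟩ := hn
    refine ⟨u * a - k * m, ?_⟩
    have e : (((k * v : ℕ) : ℝ) * ξ') - (((u:ℤ) * a - k * m : ℤ) : ℝ)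
        = k * (u * (ξ - a/k)) - k * (u * ξ - v * ξ' - m) := by
      push_cast; field_simp; ring
    rw [e]
    have h1 : |(k:ℝ) * (u * (ξ - a/k))| ≤ k * (2 * D / t) := by
      rw [abs_mul, abs_of_pos hkR]
      apply mul_le_mul_of_nonneg_left _ hkR.le
      rw [abs_mul, abs_of_nonneg (by positivity : (0:ℝ) ≤ u)]
      calc (u:ℝ) * |ξ - a/k| ≤ (2*U) * (D/(t*U)) :=
            mul_le_mul huR hδ.le (abs_nonneg _) (by positivity)
        _ = 2 * D / t := by field_simp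
    have h2 : |(k:ℝ) * (u * ξ - v * ξ' - m)| < k * (1/t) := by
      rw [abs_mul, abs_of_pos hkR]
      exact mul_lt_mul_of_pos_left hm hkR
    calc |(k:ℝ) * (u * (ξ - a/k)) - k * (u * ξ - v * ξ' - m)|
        ≤ |(k:ℝ) * (u * (ξ - a/k))| + |(k:ℝ) * (u * ξ - v * ξ' - m)| := abs_sub _ _
      _ < k * (2 * D / t) + k * (1/t) := by linarith
      _ = k * ((2*D+1)/t) := by ring
  obtain ⟨a', k', hk', hco', hkd', -, hδ'⟩ := label_of_near hkv hnear
  refine ⟨a', k', hk', hco', ?_, ?_⟩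
  · have h1 : (k':ℝ) ≤ k * v := by exact_mod_cast hkd'
    have h2 : (k:ℝ) * v ≤ (D/4) * (2 * D^2) :=
      mul_le_mul hkD.le (by nlinarith) hvR.le (by positivity)
    calc (k':ℝ) ≤ k * v := h1
      _ ≤ (D/4) * (2 * D^2) := h2
      _ = D^3/2 := by ring
  · refine hδ'.le.trans ?_
    push_cast
    rw [mul_div_mul_left _ _ hkR.ne', div_div, div_le_div_iff₀ (by positivity) (by positivity)]
    have h3 : 2 * D + 1 ≤ 3 * D := by linarith
    calc (2*D+1) * (t * V) ≤ (3*D) * (t * v) :=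
          mul_le_mul h3 (mul_le_mul_of_nonneg_left hVv ht0.le) (by positivity) (by positivity)
      _ = 3 * D * (t * v) := by ring

/-- LEMMA 2 of note 2736 -/
theorem lemma2 {U V : ℕ} (hU1 : 1 ≤ U) (hV1 : 1 ≤ V) {D t ξ ξ' : ℝ} (hD : 4 ≤ D)
    (ht : 2*D ≤ t) (hbig : D^2 ≤ U ∨ D^2 ≤ V)
    (hc : 8*U*V/D < ((boxN ξ ξ' t U V).card : ℝ)) :
    ∃ (a : ℤ) (k : ℕ) (a' : ℤ) (k' : ℕ),
      Lab ξ (D^3/2) (3*D/(t*U)) a k ∧ Lab ξ' (D^3/2) (3*D/(t*V)) a' k' := by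
  have hD0 : 0 < D := by linarith
  have ht0 : 0 < t := by linarith
  have hUR : (0:ℝ) < U := by exact_mod_cast hU1
  have hVR : (0:ℝ) < V := by exact_mod_cast hV1
  have hD3 : D / 4 ≤ D^3 / 2 := by nlinarith [sq_nonneg D, mul_pos hD0 hD0]
  have hc' : 8*V*U/D < ((boxN ξ' ξ t V U).card : ℝ) := by
    rw [boxN_swap]
    have e : 8 * (V:ℝ) * U / D = 8 * U * V / D := by ring
    rw [e]; exact hc
  have hpos : 0 < (boxN ξ ξ' t U V).card := by
    have h1 : (0:ℝ) < ((boxN ξ ξ' t U V).card : ℝ) := lt_of_le_of_lt (by positivity) hc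
    exact_mod_cast h1
  obtain ⟨w, hw⟩ := Finset.card_pos.1 hpos
  rw [mem_boxN] at hw
  obtain ⟨⟨hw1, hw2⟩, ⟨hw3, hw4⟩, hwn⟩ := hw
  have mk : ∀ {x : ℝ} {W : ℕ}, (0:ℝ) < W → ∀ {a : ℤ} {k : ℕ}, 1 ≤ k → IsCoprime a (k:ℤ) →
      (k:ℝ) < D/4 → |x - a/k| < D/(t*W) → Lab x (D^3/2) (3*D/(t*W)) a k := by
    intro x W hW a k h1 h2 h3 h4
    refine ⟨h1, h2, h3.le.trans hD3, h4.le.trans ?_⟩
    apply div_le_div_of_nonneg_right _ (by positivity)
    linarith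
  by_cases hUb : D^2 ≤ (U:ℝ)
  · obtain ⟨a, k, h1, h2, h3, h4⟩ := box_first hD ht hUb hc
    by_cases hVb : D^2 ≤ (V:ℝ)
    · obtain ⟨a', k', h1', h2', h3', h4'⟩ := box_first hD ht hVb hc'
      exact ⟨a, k, a', k', mk hUR h1 h2 h3 h4, mk hVR h1' h2' h3' h4'⟩
    · push Not at hVb
      obtain ⟨a', k', hl⟩ := box_second hD ht hU1 hV1 hVb hw2 hw3 hw4 hwn h1 h3 h4
      exact ⟨a, k, a', k', mk hUR h1 h2 h3 h4, hl⟩
  · have hVb : D^2 ≤ (V:ℝ) := hbig.resolve_left hUb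
    push Not at hUb
    obtain ⟨a', k', h1', h2', h3', h4'⟩ := box_first hD ht hVb hc'
    have hwn' : near (w.2 * ξ' - w.1 * ξ) (1/t) := by
      have := near_neg hwn
      rw [neg_sub] at this
      exact this
    obtain ⟨a, k, hl⟩ := box_second hD ht hV1 hU1 hUb hw4 hw1 hw2 hwn' h1' h3' h4'
    exact ⟨a, k, a', k', hl, mk hVR h1' h2' h3' h4'⟩

/-- LEMMA 3 of note 2736 -/
theorem lemma3 {u v u1 v1 : ℕ} {D t ξ ξ' : ℝ} (hD : 4 ≤ D) (ht : 0 < t)
    (hne : (u,v) ≠ (u1,v1)) (hco : Nat.Coprime u v) (hco1 : Nat.Coprime u1 v1)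
    (hN : NN ξ ξ' t u v) (hN1 : NN ξ ξ' t u1 v1)
    (hu : (u:ℝ) < 2*D^2) (hv : (v:ℝ) < 2*D^2) (hu1 : (u1:ℝ) < D^6) (hv1 : (v1:ℝ) < D^6) :
    ∃ (a : ℤ) (k : ℕ) (a' : ℤ) (k' : ℕ),
      Lab ξ (4*D^8) (4*D^8/(t*u)) a k ∧ Lab ξ' (4*D^8) (4*D^8/(t*v)) a' k' := by
  have hD0 : 0 < D := by linarith
  obtain ⟨hu0, hv0, hn⟩ := hN
  obtain ⟨hu10, hv10, hn1⟩ := hN1
  have huR : (1:ℝ) ≤ u := by exact_mod_cast hu0
  have hvR : (1:ℝ) ≤ v := by exact_mod_cast hv0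
  have hu1R : (1:ℝ) ≤ u1 := by exact_mod_cast hu10
  have hv1R : (1:ℝ) ≤ v1 := by exact_mod_cast hv10
  -- the determinant
  set κ : ℤ := (u:ℤ) * v1 - u1 * v with hκ
  have hκ0 : κ ≠ 0 := by
    intro h0
    have h1 : u * v1 = u1 * v := by
      have : (u:ℤ) * v1 = u1 * v := by linarith
      exact_mod_cast this
    have h2 : u ∣ u1 := by
      have : u ∣ u1 * v := ⟨v1, h1.symm⟩
      exact hco.dvd_of_dvd_mul_right this
    have h3 : u1 ∣ u := by
      have : u1 ∣ u * v1 := ⟨v, h1⟩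
      exact hco1.dvd_of_dvd_mul_right this
    have h4 : u = u1 := Nat.dvd_antisymm h2 h3
    have h5 : v1 = v := by
      rw [← h4] at h1
      exact Nat.eq_of_mul_eq_mul_left hu0 h1
    exact hne (by rw [h4, h5])
  have hk0 : 1 ≤ κ.natAbs := Int.natAbs_pos.2 hκ0
  have hκabs : ((κ.natAbs : ℕ) : ℝ) = |(κ:ℝ)| := by
    rw [Nat.cast_natAbs]; push_cast; rfl
  have hκR : (κ:ℝ) = u * v1 - u1 * v := by rw [hκ]; push_cast; ring
  have hk0R : (1:ℝ) ≤ ((κ.natAbs : ℕ) : ℝ) := by exact_mod_cast hk0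
  have hD26 : 2 * D^2 ≤ D^6 := by
    have h4 : (4:ℝ)^4 ≤ D^4 := pow_le_pow_left₀ (by norm_num) hD 4
    have h2 : 0 < D^2 := by positivity
    have e : D^6 = D^4 * D^2 := by ring
    rw [e]
    apply mul_le_mul_of_nonneg_right _ h2.le
    linarith
  have hκle : ((κ.natAbs : ℕ) : ℝ) ≤ 4 * D^8 := by
    rw [hκabs, hκR]
    have h1 : (u:ℝ) * v1 ≤ 2 * D^2 * D^6 :=
      mul_le_mul hu.le hv1.le (by positivity) (by positivity)
    have h2 : (u1:ℝ) * v ≤ D^6 * (2 * D^2) :=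
      mul_le_mul hu1.le hv.le (by positivity) (by positivity)
    have h3 : 0 ≤ (u:ℝ) * v1 := by positivity
    have h4 : 0 ≤ (u1:ℝ) * v := by positivity
    have e1 : 2 * D^2 * D^6 = 2 * D^8 := by ring
    have e2 : D^6 * (2 * D^2) = 2 * D^8 := by ring
    rw [abs_le]
    have h8 : 0 < D^8 := by positivity
    constructor <;> linarith
  -- nearness of κ ξ up to sign
  have sgn : ∀ {x ε : ℝ}, near ((κ:ℝ) * x) ε → near (((κ.natAbs : ℕ) : ℝ) * x) ε := by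
    intro x ε h
    rw [hκabs]
    rcases abs_choice (κ:ℝ) with h1 | h1
    · rw [h1]; exact h
    · rw [h1, neg_mul]; exact near_neg h
  have hnξ : near ((κ:ℝ) * ξ) (2 * D^6 / t) := by
    have h1 := near_mul_int hn v1 (by exact_mod_cast (by omega : v1 ≠ 0))
    have h2 := near_mul_int hn1 v (by exact_mod_cast (by omega : v ≠ 0))
    have h3 := near_sub h1 h2
    have e : (((v1:ℤ):ℝ) * (u * ξ - v * ξ') - ((v:ℤ):ℝ) * (u1 * ξ - v1 * ξ')) = κ * ξ := by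
      rw [hκR]; push_cast; ring
    rw [e] at h3
    apply near_mono h3
    push_cast
    rw [abs_of_nonneg (by positivity : (0:ℝ) ≤ v1), abs_of_nonneg (by positivity : (0:ℝ) ≤ v)]
    rw [← add_mul, mul_one_div]
    apply div_le_div_of_nonneg_right _ ht.le
    linarith
  have hnξ' : near ((κ:ℝ) * ξ') (2 * D^6 / t) := by
    have h1 := near_mul_int hn u1 (by exact_mod_cast (by omega : u1 ≠ 0))
    have h2 := near_mul_int hn1 u (by exact_mod_cast (by omega : u ≠ 0))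
    have h3 := near_sub h1 h2
    have e : (((u1:ℤ):ℝ) * (u * ξ - v * ξ') - ((u:ℤ):ℝ) * (u1 * ξ - v1 * ξ')) = κ * ξ' := by
      rw [hκR]; push_cast; ring
    rw [e] at h3
    apply near_mono h3
    push_cast
    rw [abs_of_nonneg (by positivity : (0:ℝ) ≤ u1), abs_of_nonneg (by positivity : (0:ℝ) ≤ u)]
    rw [← add_mul, mul_one_div]
    apply div_le_div_of_nonneg_right _ ht.le
    linarith
  obtain ⟨a, k, h1, h2, h3, -, h5⟩ := label_of_near hk0 (sgn hnξ)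
  obtain ⟨a', k', h1', h2', h3', -, h5'⟩ := label_of_near hk0 (sgn hnξ')
  have fin : ∀ {w : ℕ}, (1:ℝ) ≤ w → (w:ℝ) < 2 * D^2 →
      2 * D^6 / t / ((κ.natAbs : ℕ) : ℝ) ≤ 4 * D^8 / (t * w) := by
    intro w hw hw2
    have hA : 2 * D^6 / t / ((κ.natAbs : ℕ) : ℝ) ≤ 2 * D^6 / t :=
      div_le_self (by positivity) hk0R
    refine hA.trans ?_
    rw [div_le_div_iff₀ ht (by positivity)]
    have h6 : 0 < D^6 := by positivity
    calc 2 * D^6 * (t * w) ≤ 2 * D^6 * (t * (2 * D^2)) := by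
          apply mul_le_mul_of_nonneg_left _ (by positivity)
          exact mul_le_mul_of_nonneg_left hw2.le ht.le
      _ = 4 * D^8 * t := by ring
  refine ⟨a, k, a', k', ⟨h1, h2, ?_, h5.le.trans (fin huR hu)⟩,
    ⟨h1', h2', ?_, h5'.le.trans (fin hvR hv)⟩⟩
  · have : (k:ℝ) ≤ ((κ.natAbs : ℕ) : ℝ) := by exact_mod_cast h3
    linarith
  · have : (k':ℝ) ≤ ((κ.natAbs : ℕ) : ℝ) := by exact_mod_cast h3'
    linarith

/-- the label with `k ≤ E` and error `≤ E/t` is unique -/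
theorem lab_unique {ξ E t : ℝ} (hE : 1 ≤ E) (ht : 8*E^5 ≤ t) {a a2 : ℤ} {k k2 : ℕ}
    (h : Lab ξ E (E/t) a k) (h2 : Lab ξ E (E/t) a2 k2) : a = a2 ∧ k = k2 := by
  obtain ⟨hk, hco, hkE, hδ⟩ := h
  obtain ⟨hk2, hco2, hkE2, hδ2⟩ := h2
  have hE0 : 0 < E := by linarith
  have ht0 : 0 < t := lt_of_lt_of_le (by positivity) ht
  have hkR : (0:ℝ) < k := by exact_mod_cast hk
  have hk2R : (0:ℝ) < k2 := by exact_mod_cast hk2
  have hcross : a * (k2:ℤ) = a2 * k := by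
    by_contra hne
    have h1 : (1:ℝ) ≤ |(a:ℝ) * k2 - a2 * k| := by
      have : (1:ℤ) ≤ |a * k2 - a2 * k| := Int.one_le_abs (sub_ne_zero.2 hne)
      exact_mod_cast this
    have h2 : |(a:ℝ)/k - a2/k2| ≤ 2 * (E/t) := by
      have : (a:ℝ)/k - a2/k2 = (ξ - a2/k2) - (ξ - a/k) := by ring
      rw [this]
      refine (abs_sub _ _).trans ?_
      linarith
    have h3 : |(a:ℝ) * k2 - a2 * k| = |(a:ℝ)/k - a2/k2| * (k * k2) := by
      have e : (a:ℝ) * k2 - a2 * k = ((a:ℝ)/k - a2/k2) * (k * k2) := by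
        field_simp
      rw [e, abs_mul, abs_of_pos (by positivity : (0:ℝ) < k * k2)]
    have h4 : |(a:ℝ)/k - a2/k2| * (k * k2) ≤ 2 * (E/t) * (E * E) :=
      mul_le_mul h2 (mul_le_mul hkE hkE2 hk2R.le hE0.le) (by positivity) (by positivity)
    have h5 : 2 * (E/t) * (E * E) < 1 := by
      have e : 2 * (E/t) * (E * E) = 2 * E^3 / t := by ring
      rw [e, div_lt_one ht0]
      have h6 : E^3 ≤ E^5 := pow_le_pow_right₀ hE (by norm_num)
      have h7 : 0 < E^3 := by positivity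
      linarith
    linarith
  have hkk2 : (k:ℤ) ∣ k2 := by
    have : (k:ℤ) ∣ a * k2 := ⟨a2, by rw [hcross]; ring⟩
    exact (hco.symm).dvd_of_dvd_mul_left this
  have hk2k : (k2:ℤ) ∣ k := by
    have : (k2:ℤ) ∣ a2 * k := ⟨a, by rw [← hcross]; ring⟩
    exact (hco2.symm).dvd_of_dvd_mul_left this
  have hkeq : k = k2 := Nat.dvd_antisymm (by exact_mod_cast hkk2) (by exact_mod_cast hk2k)
  refine ⟨?_, hkeq⟩
  rw [← hkeq] at hcross
  exact mul_right_cancel₀ (by exact_mod_cast (by omega : k ≠ 0)) hcross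

end Crest.Agent.R4C.S2x232
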