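import Mathlib
import Crest.Agent.R4C.S2a_232

/-!
# Row 4, BLOCK S2 (note 2736): Theorem S2, mass of the rare words, density of labelled words

* `classification` : a linked coprime word is in a rare box, or special, or labelled;
* `rare_mass` : `∑ 1/(uv)` over the linked words `u,v ≤ Z` in rare boxes is `≤ 8(1+log₂Z)²/D`;
* `lab_det` : two words with the same two labels have determinant divisible by `lcm(k,k')`;
* `label_count` : number of labelled coprime words of a box.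
-/

set_option autoImplicit false

namespace Crest.Agent.R4C.Class2x992

open Crest.Agent.R4C.S2x232

/-- lower end of the dyadic box of `u` -/
def lo (u : ℕ) : ℕ := 2 ^ Nat.log 2 u

lemma lo_pos (u : ℕ) : 1 ≤ lo u := Nat.one_le_two_pow

lemma lo_le {u : ℕ} (hu : 1 ≤ u) : lo u ≤ u := Nat.pow_log_le_self 2 (by omega)

lemma lt_lo (u : ℕ) : u < 2 * lo u := by
  have := Nat.lt_pow_succ_log_self (b := 2) (by norm_num) u
  unfold lo
  rw [pow_succ] at this
  omega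

/-- the dyadic box of the word `(u,v)` is rare -/
def Rare (ξ ξ' t D : ℝ) (u v : ℕ) : Prop :=
  ((boxN ξ ξ' t (lo u) (lo v)).card : ℝ) ≤ 8 * (lo u) * (lo v) / D

/-- `(u,v)` is short and is the only linked coprime word with entries `< D⁶` -/
def Special (ξ ξ' t D : ℝ) (u v : ℕ) : Prop :=
  (u : ℝ) < 2 * D ^ 2 ∧ (v : ℝ) < 2 * D ^ 2 ∧
    ∀ u1 v1 : ℕ, Nat.Coprime u1 v1 → NN ξ ξ' t u1 v1 → (u1 : ℝ) < D ^ 6 → (v1 : ℝ) < D ^ 6 →
      (u, v) = (u1, v1)

/-- both frequencies have labels at the precision of the word -/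
def Labelled (ξ ξ' t E : ℝ) (u v : ℕ) : Prop :=
  ∃ (a : ℤ) (k : ℕ) (a' : ℤ) (k' : ℕ), Lab ξ E (E / (t * u)) a k ∧ Lab ξ' E (E / (t * v)) a' k'

lemma Lab.mono {ξ K K' e e' : ℝ} {a : ℤ} {k : ℕ} (h : Lab ξ K e a k) (hK : K ≤ K') (he : e ≤ e') :
    Lab ξ K' e' a k := ⟨h.1, h.2.1, h.2.2.1.trans hK, h.2.2.2.trans he⟩

/-- **Theorem S2** (classification of the linked coprime words) -/
theorem classification {D t ξ ξ' : ℝ} (hD : 4 ≤ D) (ht : 2 * D ≤ t) {u v : ℕ}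
    (hco : Nat.Coprime u v) (hN : NN ξ ξ' t u v) :
    Rare ξ ξ' t D u v ∨ Special ξ ξ' t D u v ∨ Labelled ξ ξ' t (4 * D ^ 8) u v := by
  have hD0 : 0 < D := by linarith
  have ht0 : 0 < t := by linarith
  by_cases hR : Rare ξ ξ' t D u v
  · exact Or.inl hR
  right
  unfold Rare at hR
  push Not at hR
  have hu1 := hN.1
  have hv1 := hN.2.1
  have hu2 : (u : ℝ) < 2 * lo u := by exact_mod_cast lt_lo u
  have hv2 : (v : ℝ) < 2 * lo v := by exact_mod_cast lt_lo v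
  have hu0 : (0 : ℝ) < u := by exact_mod_cast hu1
  have hv0 : (0 : ℝ) < v := by exact_mod_cast hv1
  have hU0 : (0 : ℝ) < lo u := by exact_mod_cast lo_pos u
  have hV0 : (0 : ℝ) < lo v := by exact_mod_cast lo_pos v
  have hDp : (1 : ℝ) ≤ D ^ 5 := one_le_pow₀ (by linarith)
  have hDp' : D ^ 8 = D ^ 3 * D ^ 5 := by ring
  have hDp3 : 0 < D ^ 3 := by positivity
  by_cases hbig : D ^ 2 ≤ (lo u : ℝ) ∨ D ^ 2 ≤ (lo v : ℝ)
  · right
    obtain ⟨a, k, a', k', h1, h2⟩ := lemma2 (lo_pos u) (lo_pos v) hD ht hbig hR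
    have hE : D ^ 3 / 2 ≤ 4 * D ^ 8 := by rw [hDp']; nlinarith
    have hE2 : 6 * D ≤ 4 * D ^ 8 := by
      have h3 : (1 : ℝ) ≤ D ^ 6 := one_le_pow₀ (by linarith)
      have h4 : D ^ 8 = D * (D * D ^ 6) := by ring
      have h5 : (4 : ℝ) * 1 ≤ D * D ^ 6 := mul_le_mul hD h3 (by norm_num) hD0.le
      have h6 : D * (4 * 1) ≤ D * (D * D ^ 6) := mul_le_mul_of_nonneg_left h5 hD0.le
      rw [h4]
      linarith
    refine ⟨a, k, a', k', Lab.mono h1 hE ?_, Lab.mono h2 hE ?_⟩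
    · rw [div_le_div_iff₀ (by positivity) (by positivity)]
      have e1 : 3 * D * (t * u) ≤ 6 * D * (t * lo u) := by
        have : t * u ≤ t * (2 * lo u) := mul_le_mul_of_nonneg_left hu2.le ht0.le
        nlinarith
      have e2 : 6 * D * (t * lo u) ≤ 4 * D ^ 8 * (t * lo u) :=
        mul_le_mul_of_nonneg_right hE2 (by positivity)
      linarith
    · rw [div_le_div_iff₀ (by positivity) (by positivity)]
      have e1 : 3 * D * (t * v) ≤ 6 * D * (t * lo v) := by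
        have : t * v ≤ t * (2 * lo v) := mul_le_mul_of_nonneg_left hv2.le ht0.le
        nlinarith
      have e2 : 6 * D * (t * lo v) ≤ 4 * D ^ 8 * (t * lo v) :=
        mul_le_mul_of_nonneg_right hE2 (by positivity)
      linarith
  · push Not at hbig
    have hu3 : (u : ℝ) < 2 * D ^ 2 := by linarith [hbig.1]
    have hv3 : (v : ℝ) < 2 * D ^ 2 := by linarith [hbig.2]
    by_cases hS : Special ξ ξ' t D u v
    · exact Or.inl hS
    right
    have hS' : ∃ u1 v1 : ℕ, Nat.Coprime u1 v1 ∧ NN ξ ξ' t u1 v1 ∧ (u1 : ℝ) < D ^ 6 ∧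
        (v1 : ℝ) < D ^ 6 ∧ (u, v) ≠ (u1, v1) := by
      by_contra hc
      apply hS
      refine ⟨hu3, hv3, fun u1 v1 h1 h2 h3 h4 => ?_⟩
      by_contra h5
      exact hc ⟨u1, v1, h1, h2, h3, h4, h5⟩
    obtain ⟨u1, v1, h1, h2, h3, h4, h5⟩ := hS'
    obtain ⟨a, k, a', k', h6, h7⟩ := lemma3 hD ht0 h5 hco h1 hN h2 hu3 hv3 h3 h4
    exact ⟨a, k, a', k', h6, h7⟩

lemma sum_biUnion_le {ι α : Type*} [DecidableEq α] (s : Finset ι) (t : ι → Finset α) (f : α → ℝ)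
    (hf : ∀ x, 0 ≤ f x) : ∑ x ∈ s.biUnion t, f x ≤ ∑ i ∈ s, ∑ x ∈ t i, f x := by
  classical
  induction s using Finset.induction_on with
  | empty => simp
  | insert a s ha ih =>
    rw [Finset.biUnion_insert, Finset.sum_insert ha]
    have h1 := Finset.sum_union_inter (s₁ := t a) (s₂ := s.biUnion t) (f := f)
    have h2 : 0 ≤ ∑ x ∈ t a ∩ s.biUnion t, f x := Finset.sum_nonneg fun x _ => hf x
    linarith

/-- **mass of the rare words** -/
theorem rare_mass {D t ξ ξ' : ℝ} (hD : 0 < D) (Z : ℕ) (P : ℕ → ℕ → Prop)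
    [∀ u v, Decidable (P u v)] (hP : ∀ u v, P u v → near (u * ξ - v * ξ') (1 / t) ∧ Rare ξ ξ' t D u v) :
    ∑ u ∈ Finset.Icc 1 Z, ∑ v ∈ Finset.Icc 1 Z, (if P u v then 1 / ((u : ℝ) * v) else 0) ≤
      8 * (1 + (Nat.log 2 Z : ℝ)) ^ 2 / D := by
  classical
  set n := Nat.log 2 Z with hn
  have hbox : ∀ i j : ℕ, ∑ w ∈ (Finset.Ico (2 ^ i) (2 * 2 ^ i)) ×ˢ (Finset.Ico (2 ^ j) (2 * 2 ^ j)),
      (if P w.1 w.2 then 1 / ((w.1 : ℝ) * w.2) else 0) ≤ 8 / D := by
    intro i j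
    by_cases hne : ∃ w ∈ (Finset.Ico (2 ^ i) (2 * 2 ^ i)) ×ˢ (Finset.Ico (2 ^ j) (2 * 2 ^ j)),
        P w.1 w.2
    · obtain ⟨w0, hw0, hPw0⟩ := hne
      rw [Finset.mem_product, Finset.mem_Ico, Finset.mem_Ico] at hw0
      have e1 : lo w0.1 = 2 ^ i := by
        unfold lo
        rw [(Nat.log_eq_iff (Or.inr ⟨by norm_num, by have := hw0.1.1; have := Nat.one_le_two_pow (n := i); omega⟩)).2
          ⟨hw0.1.1, by rw [pow_succ]; omega⟩]
      have e2 : lo w0.2 = 2 ^ j := by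
        unfold lo
        rw [(Nat.log_eq_iff (Or.inr ⟨by norm_num, by have := hw0.2.1; have := Nat.one_le_two_pow (n := j); omega⟩)).2
          ⟨hw0.2.1, by rw [pow_succ]; omega⟩]
      have hR := (hP _ _ hPw0).2
      unfold Rare at hR
      rw [e1, e2] at hR
      rw [← Finset.sum_filter]
      set F := ((Finset.Ico (2 ^ i) (2 * 2 ^ i)) ×ˢ (Finset.Ico (2 ^ j) (2 * 2 ^ j))).filter
          (fun w : ℕ × ℕ => P w.1 w.2) with hF
      have hsub : F ⊆ boxN ξ ξ' t (2 ^ i) (2 ^ j) := by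
        intro w hw
        rw [hF, Finset.mem_filter] at hw
        unfold boxN
        rw [Finset.mem_filter]
        exact ⟨hw.1, (hP _ _ hw.2).1⟩
      have hUV : (0 : ℝ) < ((2 ^ i : ℕ) : ℝ) * (2 ^ j : ℕ) := by positivity
      calc ∑ w ∈ F, 1 / ((w.1 : ℝ) * w.2)
          ≤ ∑ w ∈ F, 1 / (((2 ^ i : ℕ) : ℝ) * (2 ^ j : ℕ)) := by
            refine Finset.sum_le_sum fun w hw => ?_
            rw [hF, Finset.mem_filter, Finset.mem_product, Finset.mem_Ico, Finset.mem_Ico] at hw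
            apply one_div_le_one_div_of_le hUV
            have h1 : ((2 ^ i : ℕ) : ℝ) ≤ w.1 := by exact_mod_cast hw.1.1.1
            have h2 : ((2 ^ j : ℕ) : ℝ) ≤ w.2 := by exact_mod_cast hw.1.2.1
            exact mul_le_mul h1 h2 (by positivity) (by positivity)
        _ = (F.card : ℝ) * (1 / (((2 ^ i : ℕ) : ℝ) * (2 ^ j : ℕ))) := by
            rw [Finset.sum_const, nsmul_eq_mul]
        _ ≤ (8 * ((2 ^ i : ℕ) : ℝ) * (2 ^ j : ℕ) / D) * (1 / (((2 ^ i : ℕ) : ℝ) * (2 ^ j : ℕ))) := by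
            apply mul_le_mul_of_nonneg_right _ (by positivity)
            refine le_trans ?_ hR
            exact_mod_cast Finset.card_le_card hsub
        _ = 8 / D := by field_simp
    · push Not at hne
      rw [Finset.sum_eq_zero]
      · positivity
      · intro w hw
        rw [if_neg (hne w hw)]
  -- cover the square by boxes
  have hcover : (Finset.Icc 1 Z) ×ˢ (Finset.Icc 1 Z) ⊆
      (Finset.range (n + 1) ×ˢ Finset.range (n + 1)).biUnion
        (fun ij => (Finset.Ico (2 ^ ij.1) (2 * 2 ^ ij.1)) ×ˢ (Finset.Ico (2 ^ ij.2) (2 * 2 ^ ij.2))) := by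
    intro w hw
    rw [Finset.mem_product, Finset.mem_Icc, Finset.mem_Icc] at hw
    rw [Finset.mem_biUnion]
    refine ⟨(Nat.log 2 w.1, Nat.log 2 w.2), ?_, ?_⟩
    · rw [Finset.mem_product, Finset.mem_range, Finset.mem_range]
      have h1 := Nat.log_mono_right (b := 2) hw.1.2
      have h2 := Nat.log_mono_right (b := 2) hw.2.2
      simp only
      omega
    · rw [Finset.mem_product, Finset.mem_Ico, Finset.mem_Ico]
      exact ⟨⟨lo_le hw.1.1, lt_lo _⟩, ⟨lo_le hw.2.1, lt_lo _⟩⟩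
  have hnn : ∀ w : ℕ × ℕ, 0 ≤ (if P w.1 w.2 then 1 / ((w.1 : ℝ) * w.2) else 0) := by
    intro w
    split_ifs
    · positivity
    · exact le_rfl
  calc ∑ u ∈ Finset.Icc 1 Z, ∑ v ∈ Finset.Icc 1 Z, (if P u v then 1 / ((u : ℝ) * v) else 0)
      = ∑ w ∈ (Finset.Icc 1 Z) ×ˢ (Finset.Icc 1 Z), (if P w.1 w.2 then 1 / ((w.1 : ℝ) * w.2) else 0) := by
        rw [Finset.sum_product]
    _ ≤ ∑ w ∈ (Finset.range (n + 1) ×ˢ Finset.range (n + 1)).biUnion
        (fun ij => (Finset.Ico (2 ^ ij.1) (2 * 2 ^ ij.1)) ×ˢ (Finset.Ico (2 ^ ij.2) (2 * 2 ^ ij.2))),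
        (if P w.1 w.2 then 1 / ((w.1 : ℝ) * w.2) else 0) :=
        Finset.sum_le_sum_of_subset_of_nonneg hcover (fun w _ _ => hnn w)
    _ ≤ ∑ ij ∈ Finset.range (n + 1) ×ˢ Finset.range (n + 1),
        ∑ w ∈ (Finset.Ico (2 ^ ij.1) (2 * 2 ^ ij.1)) ×ˢ (Finset.Ico (2 ^ ij.2) (2 * 2 ^ ij.2)),
        (if P w.1 w.2 then 1 / ((w.1 : ℝ) * w.2) else 0) :=
        sum_biUnion_le _ _ _ hnn
    _ ≤ ∑ ij ∈ Finset.range (n + 1) ×ˢ Finset.range (n + 1), 8 / D :=
        Finset.sum_le_sum fun ij _ => hbox ij.1 ij.2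
    _ = 8 * (1 + (n : ℝ)) ^ 2 / D := by
        rw [Finset.sum_const, Finset.card_product, Finset.card_range, nsmul_eq_mul]
        push_cast
        ring

end Crest.Agent.R4C.Class2x992
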