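import Mathlib
import Crest.Agent.R4C.Class2_992

/-!
# Row 4, BLOCK S2 (note 2736): density of the labelled words, special words along `t`

* `lab_eq` : a linked word with labels satisfies `u a k' - v a' k = m k k'`;
* `lab_det` : two words with the same two labels have determinant divisible by `lcm(k,k')`;
* `label_count` : number of labelled coprime words of a box;
* `special_double` : a special word and any other coprime word of a later scale: the product doubles;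
* `special_unique`, `special_sum`.
-/

set_option autoImplicit false

namespace Crest.Agent.R4C.Class3x992

open Crest.Agent.R4C.S2x232 Crest.Agent.R4C.Class2x992

/-! ## A. Arithmetic of the labels -/

/-- in lowest terms: `k ∣ u (k'/κ)`-type consequences of the label equation -/
lemma lab_div {a a' : ℤ} {k k' u v : ℕ} {m : ℤ} (hk : 1 ≤ k) (hk' : 1 ≤ k')
    (ha : IsCoprime a (k : ℤ)) (ha' : IsCoprime a' (k' : ℤ))
    (h : (u : ℤ) * a * k' - v * a' * k = m * k * k') :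
    ∃ (κ k1 k1' r s : ℕ), k = κ * k1 ∧ k' = κ * k1' ∧ Nat.Coprime k1 k1' ∧ u = k1 * r ∧
      v = k1' * s ∧ (r : ℤ) * a - s * a' = m * κ ∧ κ = Nat.gcd k k' := by
  obtain ⟨κ, k1, k1', hκ, hc, h1, h2⟩ : ∃ (κ k1 k1' : ℕ), κ = Nat.gcd k k' ∧ Nat.Coprime k1 k1' ∧
      k = κ * k1 ∧ k' = κ * k1' := by
    have hg : 0 < Nat.gcd k k' := Nat.gcd_pos_of_pos_left _ hk
    refine ⟨Nat.gcd k k', k / Nat.gcd k k', k' / Nat.gcd k k', rfl,
      Nat.coprime_div_gcd_div_gcd hg, (Nat.mul_div_cancel' (Nat.gcd_dvd_left k k')).symm,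
      (Nat.mul_div_cancel' (Nat.gcd_dvd_right k k')).symm⟩
  have hκ0 : 0 < κ := by rw [hκ]; exact Nat.gcd_pos_of_pos_left _ hk
  have hκz : (κ : ℤ) ≠ 0 := by exact_mod_cast hκ0.ne'
  have hk1 : 0 < k1 := by
    rcases Nat.eq_zero_or_pos k1 with h0 | h0
    · rw [h0, mul_zero] at h1; omega
    · exact h0
  have hk1' : 0 < k1' := by
    rcases Nat.eq_zero_or_pos k1' with h0 | h0
    · rw [h0, mul_zero] at h2; omega
    · exact h0
  have hk1z : (k1 : ℤ) ≠ 0 := by exact_mod_cast hk1.ne'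
  have hk1z' : (k1' : ℤ) ≠ 0 := by exact_mod_cast hk1'.ne'
  -- divide the equation by κ
  have e1 : (u : ℤ) * a * k1' - v * a' * k1 = m * κ * k1 * k1' := by
    have : (κ : ℤ) * ((u : ℤ) * a * k1' - v * a' * k1) = κ * (m * κ * k1 * k1') := by
      have h' := h
      rw [h1, h2] at h'
      push_cast at h'
      linear_combination h'
    exact mul_left_cancel₀ hκz this
  have hcz : IsCoprime (k1 : ℤ) (k1' : ℤ) := Nat.isCoprime_iff_coprime.2 hc
  have ha1 : IsCoprime a (k1 : ℤ) := by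
    have : (k1 : ℤ) ∣ (k : ℤ) := by rw [h1]; push_cast; exact Dvd.intro_left _ rfl
    exact ha.of_isCoprime_of_dvd_right this
  have ha1' : IsCoprime a' (k1' : ℤ) := by
    have : (k1' : ℤ) ∣ (k' : ℤ) := by rw [h2]; push_cast; exact Dvd.intro_left _ rfl
    exact ha'.of_isCoprime_of_dvd_right this
  have d1 : (k1 : ℤ) ∣ u := by
    have : (k1 : ℤ) ∣ (u * a) * k1' := ⟨v * a' + m * κ * k1', by linear_combination e1⟩
    have := hcz.dvd_of_dvd_mul_right this
    exact ha1.symm.dvd_of_dvd_mul_right this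
  have d2 : (k1' : ℤ) ∣ v := by
    have : (k1' : ℤ) ∣ (v * a') * k1 := ⟨u * a - m * κ * k1, by linear_combination -e1⟩
    have := hcz.symm.dvd_of_dvd_mul_right this
    exact ha1'.symm.dvd_of_dvd_mul_right this
  obtain ⟨r, hr⟩ := Int.natCast_dvd_natCast.1 d1
  obtain ⟨s, hs⟩ := Int.natCast_dvd_natCast.1 d2
  refine ⟨κ, k1, k1', r, s, h1, h2, hc, hr, hs, ?_, hκ⟩
  have : (k1 : ℤ) * (k1' * ((r : ℤ) * a - s * a')) = k1 * (k1' * (m * κ)) := by
    rw [hr, hs] at e1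
    push_cast at e1
    linear_combination e1
  exact mul_left_cancel₀ hk1z' (mul_left_cancel₀ hk1z this)

/-- two words with the same labels: the determinant is divisible by `lcm(k,k')` -/
theorem lab_det {a a' : ℤ} {k k' u v u1 v1 : ℕ} {m m1 : ℤ} (hk : 1 ≤ k) (hk' : 1 ≤ k')
    (ha : IsCoprime a (k : ℤ)) (ha' : IsCoprime a' (k' : ℤ))
    (h : (u : ℤ) * a * k' - v * a' * k = m * k * k')
    (h1 : (u1 : ℤ) * a * k' - v1 * a' * k = m1 * k * k') :
    ((Nat.lcm k k' : ℕ) : ℤ) ∣ (u : ℤ) * v1 - u1 * v := by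
  obtain ⟨κ, k1, k1', r, s, e1, e2, e3, e4, e5, e6, e7⟩ := lab_div hk hk' ha ha' h
  obtain ⟨κ', l1, l1', r1, s1, f1, f2, f3, f4, f5, f6, f7⟩ := lab_div hk hk' ha ha' h1
  have hκ0 : 0 < κ := by rw [e7]; exact Nat.gcd_pos_of_pos_left _ hk
  obtain rfl : κ' = κ := by rw [e7, f7]
  have g1 : l1 = k1 := Nat.eq_of_mul_eq_mul_left hκ0 (f1.symm.trans e1)
  have g2 : l1' = k1' := Nat.eq_of_mul_eq_mul_left hκ0 (f2.symm.trans e2)
  subst g1 g2
  have haκ : IsCoprime a (κ' : ℤ) := by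
    have : (κ' : ℤ) ∣ (k : ℤ) := by rw [e1]; push_cast; exact Dvd.intro _ rfl
    exact ha.of_isCoprime_of_dvd_right this
  have d1 : (κ' : ℤ) ∣ (r : ℤ) * s1 - r1 * s := by
    have : (κ' : ℤ) ∣ a * ((r : ℤ) * s1 - r1 * s) :=
      ⟨m * s1 - m1 * s, by linear_combination (s1 : ℤ) * e6 - (s : ℤ) * f6⟩
    exact haκ.symm.dvd_of_dvd_mul_left this
  obtain ⟨c, hc⟩ := d1
  have hlcm : Nat.lcm k k' = κ' * l1 * l1' := by
    rw [e1, e2, Nat.lcm_mul_left, Nat.Coprime.lcm_eq_mul e3]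
    ring
  refine ⟨c, ?_⟩
  rw [hlcm, e4, e5, f4, f5]
  push_cast
  linear_combination (l1 : ℤ) * l1' * hc

/-- **label equation** -/
theorem lab_eq {E t ξ ξ' : ℝ} {u v : ℕ} {a a' : ℤ} {k k' : ℕ} {m : ℤ}
    (ht : E ^ 2 * (1 + 2 * E) < t) (hu : 1 ≤ u) (hv : 1 ≤ v)
    (hm : |(u * ξ - v * ξ') - m| < 1 / t) (h : Lab ξ E (E / (t * u)) a k)
    (h' : Lab ξ' E (E / (t * v)) a' k') :
    (u : ℤ) * a * k' - v * a' * k = m * k * k' := by
  obtain ⟨hk1, -, hkE, hd⟩ := h
  obtain ⟨hk1', -, hkE', hd'⟩ := h'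
  have hk0 : (1 : ℝ) ≤ k := by exact_mod_cast hk1
  have hk0' : (1 : ℝ) ≤ k' := by exact_mod_cast hk1'
  have hE1 : 1 ≤ E := hk0.trans hkE
  have ht0 : 0 < t := lt_of_le_of_lt (by positivity) ht
  have hu0 : (0 : ℝ) < u := by exact_mod_cast hu
  have hv0 : (0 : ℝ) < v := by exact_mod_cast hv
  have g1 : |u * (ξ - a / k)| ≤ E / t := by
    rw [abs_mul, abs_of_pos hu0]
    calc (u : ℝ) * |ξ - a / k| ≤ u * (E / (t * u)) := mul_le_mul_of_nonneg_left hd hu0.le
      _ = E / t := by field_simp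
  have g2 : |v * (ξ' - a' / k')| ≤ E / t := by
    rw [abs_mul, abs_of_pos hv0]
    calc (v : ℝ) * |ξ' - a' / k'| ≤ v * (E / (t * v)) := mul_le_mul_of_nonneg_left hd' hv0.le
      _ = E / t := by field_simp
  have g3 : |(u : ℝ) * (a / k) - v * (a' / k') - m| < (1 + 2 * E) / t := by
    have e0 : (u : ℝ) * (a / k) - v * (a' / k') - m =
        ((u * ξ - v * ξ') - m) - u * (ξ - a / k) + v * (ξ' - a' / k') := by ring
    rw [e0]
    calc |((u * ξ - v * ξ') - m) - u * (ξ - a / k) + v * (ξ' - a' / k')|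
        ≤ |((u * ξ - v * ξ') - m) - u * (ξ - a / k)| + |v * (ξ' - a' / k')| := abs_add_le _ _
      _ ≤ |(u * ξ - v * ξ') - m| + |u * (ξ - a / k)| + |v * (ξ' - a' / k')| := by
          gcongr; exact abs_sub _ _
      _ < 1 / t + E / t + E / t := by linarith
      _ = (1 + 2 * E) / t := by ring
  have hkk : (0 : ℝ) < k * k' := by positivity
  have g4 : |((u : ℝ) * (a / k) - v * (a' / k') - m) * (k * k')| < 1 := by
    rw [abs_mul, abs_of_pos hkk]
    calc |(u : ℝ) * (a / k) - v * (a' / k') - m| * (k * k')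
        < (1 + 2 * E) / t * (k * k') := mul_lt_mul_of_pos_right g3 hkk
      _ ≤ (1 + 2 * E) / t * (E * E) := by
          apply mul_le_mul_of_nonneg_left _ (by positivity)
          exact mul_le_mul hkE hkE' (by positivity) (by positivity)
      _ < 1 := by
          rw [div_mul_eq_mul_div, div_lt_one ht0]
          nlinarith
  have g5 : ((u : ℝ) * (a / k) - v * (a' / k') - m) * (k * k') =
      (((u : ℤ) * a * k' - v * a' * k - m * k * k' : ℤ) : ℝ) := by
    push_cast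
    field_simp
  rw [g5] at g4
  have g6 : |(u : ℤ) * a * k' - v * a' * k - m * k * k'| < 1 := by exact_mod_cast g4
  have g7 := Int.abs_lt_one_iff.1 g6
  linarith

/-! ## B. Counting spaced reals -/

lemma spaced_card {ι : Type*} (S : Finset ι) (f : ι → ℝ) {x l s : ℝ} (hs : 0 < s) (hl : 0 ≤ l)
    (h1 : ∀ i ∈ S, x ≤ f i ∧ f i ≤ x + l) (h2 : ∀ i ∈ S, ∀ j ∈ S, i ≠ j → s ≤ |f i - f j|) :
    (S.card : ℝ) ≤ 1 + l / s := by
  classical
  have hinj : Set.InjOn (fun i => ⌊(f i - x) / s⌋₊) (S : Set ι) := by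
    intro i hi j hj hij
    by_contra hne
    have h3 := h2 i hi j hj hne
    simp only at hij
    have p1 : 0 ≤ (f i - x) / s := div_nonneg (by linarith [(h1 i hi).1]) hs.le
    have p2 : 0 ≤ (f j - x) / s := div_nonneg (by linarith [(h1 j hj).1]) hs.le
    have q1 := Nat.floor_le p1
    have q2 := Nat.floor_le p2
    have q3 := Nat.lt_floor_add_one ((f i - x) / s)
    have q4 := Nat.lt_floor_add_one ((f j - x) / s)
    rw [hij] at q1 q3
    have q5 : |(f i - x) / s - (f j - x) / s| < 1 := by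
      rw [abs_lt]; constructor <;> linarith
    have q6 : (f i - x) / s - (f j - x) / s = (f i - f j) / s := by ring
    rw [q6, abs_div, abs_of_pos hs, div_lt_one hs] at q5
    linarith
  have hmap : S.image (fun i => ⌊(f i - x) / s⌋₊) ⊆ Finset.range (⌊l / s⌋₊ + 1) := by
    intro n hn
    obtain ⟨i, hi, rfl⟩ := Finset.mem_image.1 hn
    rw [Finset.mem_range, Nat.lt_succ_iff]
    apply Nat.floor_le_floor
    apply div_le_div_of_nonneg_right _ hs.le
    linarith [(h1 i hi).2]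
  have hc : S.card ≤ ⌊l / s⌋₊ + 1 := by
    rw [← Finset.card_image_of_injOn hinj]
    exact (Finset.card_le_card hmap).trans (by rw [Finset.card_range])
  have : (S.card : ℝ) ≤ (⌊l / s⌋₊ : ℝ) + 1 := by exact_mod_cast hc
  have h3 := Nat.floor_le (div_nonneg hl hs.le)
  linarith

/-! ## C. Density of the labelled words -/

/-- the slope inequality behind the count, in the variable `u/v` -/
theorem det_count (S : Finset (ℕ × ℕ)) {U V : ℕ} (hV : 1 ≤ V) {K0 x l : ℝ} (hK : 0 < K0)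
    (hl : 0 ≤ l)
    (hb : ∀ w ∈ S, U ≤ w.1 ∧ w.1 < 2 * U ∧ V ≤ w.2 ∧ w.2 < 2 * V)
    (hx : ∀ w ∈ S, x ≤ (w.1 : ℝ) / w.2 ∧ (w.1 : ℝ) / w.2 ≤ x + l)
    (hd : ∀ w ∈ S, ∀ w' ∈ S, w ≠ w' → K0 ≤ |(w.1 : ℝ) * w'.2 - w'.1 * w.2|) :
    (S.card : ℝ) ≤ 1 + l * (4 * V ^ 2) / K0 := by
  have hV0 : (0 : ℝ) < V := by exact_mod_cast hV
  have h := spaced_card S (fun w => (w.1 : ℝ) / w.2) (x := x) (l := l) (s := K0 / (4 * V ^ 2))
    (by positivity) hl hx ?_
  · calc (S.card : ℝ) ≤ 1 + l / (K0 / (4 * V ^ 2)) := h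
      _ = 1 + l * (4 * V ^ 2) / K0 := by rw [div_div_eq_mul_div]
  · intro w hw w' hw' hne
    have h1 := hd w hw w' hw' hne
    have b1 := hb w hw
    have b2 := hb w' hw'
    have v1 : (0 : ℝ) < w.2 := by
      have : 1 ≤ w.2 := hV.trans b1.2.2.1
      exact_mod_cast this
    have v2 : (0 : ℝ) < w'.2 := by
      have : 1 ≤ w'.2 := hV.trans b2.2.2.1
      exact_mod_cast this
    have e1 : (w.1 : ℝ) / w.2 - (w'.1 : ℝ) / w'.2 = (w.1 * w'.2 - w'.1 * w.2) / (w.2 * w'.2) := by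
      field_simp
    rw [e1, abs_div, abs_of_pos (mul_pos v1 v2)]
    apply div_le_div₀ (abs_nonneg _) h1 (mul_pos v1 v2)
    have c1 : (w.2 : ℝ) ≤ 2 * V := by exact_mod_cast b1.2.2.2.le
    have c2 : (w'.2 : ℝ) ≤ 2 * V := by exact_mod_cast b2.2.2.2.le
    calc (w.2 : ℝ) * w'.2 ≤ (2 * V) * (2 * V) := mul_le_mul c1 c2 v2.le (by positivity)
      _ = 4 * V ^ 2 := by ring

lemma cop_det_ne {u v u1 v1 : ℕ} (h : Nat.Coprime u v)
    (h1 : Nat.Coprime u1 v1) (hne : (u, v) ≠ (u1, v1)) : (u : ℤ) * v1 - u1 * v ≠ 0 := by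
  intro h0
  have e : u * v1 = u1 * v := by
    have : ((u * v1 : ℕ) : ℤ) = ((u1 * v : ℕ) : ℤ) := by push_cast; linarith
    exact_mod_cast this
  have d1 : u ∣ u1 := h.dvd_of_dvd_mul_right (Dvd.intro _ e)
  have d2 : v ∣ v1 := h.symm.dvd_of_dvd_mul_left (Dvd.intro_left _ e.symm)
  have d3 : u1 ∣ u := h1.dvd_of_dvd_mul_right (Dvd.intro _ e.symm)
  have d4 : v1 ∣ v := h1.symm.dvd_of_dvd_mul_left (Dvd.intro_left _ e)
  exact hne (by rw [Nat.dvd_antisymm d1 d3, Nat.dvd_antisymm d2 d4])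

/-- **density of the labelled words** -/
theorem label_count (S : Finset (ℕ × ℕ)) {U V : ℕ} (hU : 1 ≤ U) (hV : 1 ≤ V) {E t ξ ξ' : ℝ}
    {a a' : ℤ} {k k' : ℕ} (ht : E ^ 2 * (1 + 2 * E) < t)
    (hb : ∀ w ∈ S, U ≤ w.1 ∧ w.1 < 2 * U ∧ V ≤ w.2 ∧ w.2 < 2 * V)
    (hc : ∀ w ∈ S, Nat.Coprime w.1 w.2)
    (hn : ∀ w ∈ S, near (w.1 * ξ - w.2 * ξ') (1 / t))
    (hL : ∀ w ∈ S, Lab ξ E (E / (t * w.1)) a k ∧ Lab ξ' E (E / (t * w.2)) a' k') :
    (S.card : ℝ) ≤ 1 + 8 * U * V /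
      (Nat.lcm k k' * max 1 (t * max (U * |ξ - a / k|) (V * |ξ' - a' / k'|))) := by
  rcases S.eq_empty_or_nonempty with rfl | ⟨w0, hw0⟩
  · simp only [Finset.card_empty, Nat.cast_zero]
    positivity
  have hk1 := (hL w0 hw0).1.1
  have hk1' := (hL w0 hw0).2.1
  have hkc := (hL w0 hw0).1.2.1
  have hkc' := (hL w0 hw0).2.2.1
  have hE1 : 1 ≤ E := le_trans (by exact_mod_cast hk1) (hL w0 hw0).1.2.2.1
  have ht0 : 0 < t := lt_of_le_of_lt (by positivity) ht
  have hU0 : (0 : ℝ) < U := by exact_mod_cast hU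
  have hV0 : (0 : ℝ) < V := by exact_mod_cast hV
  have hlcm : 0 < Nat.lcm k k' := Nat.lcm_pos hk1 hk1'
  have hK : (0 : ℝ) < (Nat.lcm k k' : ℝ) := by exact_mod_cast hlcm
  have hkR : (0 : ℝ) < k := by exact_mod_cast hk1
  have hkR' : (0 : ℝ) < k' := by exact_mod_cast hk1'
  set δ := ξ - a / k with hδ
  set δ' := ξ' - a' / k' with hδ'
  have hw1 : ∀ w ∈ S, (0 : ℝ) < w.1 := fun w hw => by
    have : 1 ≤ w.1 := hU.trans (hb w hw).1
    exact_mod_cast this
  have hw2 : ∀ w ∈ S, (0 : ℝ) < w.2 := fun w hw => by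
    have : 1 ≤ w.2 := hV.trans (hb w hw).2.2.1
    exact_mod_cast this
  -- the label equations and |uδ - vδ'| < 1/t
  have heq : ∀ w ∈ S, ∃ m : ℤ, (w.1 : ℤ) * a * k' - w.2 * a' * k = m * k * k' ∧
      |w.1 * δ - w.2 * δ'| < 1 / t := by
    intro w hw
    obtain ⟨m, hm⟩ := hn w hw
    have h1 := lab_eq ht (hU.trans (hb w hw).1) (hV.trans (hb w hw).2.2.1) hm (hL w hw).1 (hL w hw).2
    refine ⟨m, h1, ?_⟩
    have h2 : (w.1 : ℝ) * a * k' - w.2 * a' * k = m * k * k' := by exact_mod_cast h1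
    have h3 : (w.1 : ℝ) * δ - w.2 * δ' = (w.1 * ξ - w.2 * ξ') - m := by
      have : (w.1 : ℝ) * (a / k) - w.2 * (a' / k') = m := by
        field_simp
        linarith
      rw [hδ, hδ']
      linear_combination -this
    rw [h3]
    exact hm
  have hdet : ∀ w ∈ S, ∀ w' ∈ S, w ≠ w' →
      (Nat.lcm k k' : ℝ) ≤ |(w.1 : ℝ) * w'.2 - w'.1 * w.2| := by
    intro w hw w' hw' hne
    obtain ⟨m, h1, -⟩ := heq w hw
    obtain ⟨m', h2, -⟩ := heq w' hw'
    have h3 := lab_det hk1 hk1' hkc hkc' h1 h2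
    have h4 := cop_det_ne (hc w hw) (hc w' hw')
      (by simpa using hne)
    have h5 := Int.le_of_dvd (abs_pos.2 h4) ((dvd_abs _ _).2 h3)
    have h6 : ((Nat.lcm k k' : ℕ) : ℝ) ≤ ((|(w.1 : ℤ) * w'.2 - w'.1 * w.2| : ℤ) : ℝ) := by
      exact_mod_cast h5
    push_cast at h6
    exact h6
  -- three counts
  have c0 : (S.card : ℝ) ≤ 1 + 8 * U * V / (Nat.lcm k k' * 1) := by
    have h := det_count S hV (x := U / (2 * V)) (l := 2 * U / V) hK (by positivity) hb ?_ hdet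
    · refine h.trans (le_of_eq ?_)
      field_simp
      ring
    · intro w hw
      have hbw := hb w hw
      have b1 : (U : ℝ) ≤ w.1 := by exact_mod_cast hbw.1
      have b2 : (w.1 : ℝ) ≤ 2 * U := by exact_mod_cast hbw.2.1.le
      have b3 : (V : ℝ) ≤ w.2 := by exact_mod_cast hbw.2.2.1
      have b4 : (w.2 : ℝ) ≤ 2 * V := by exact_mod_cast hbw.2.2.2.le
      constructor
      · exact div_le_div₀ (hw1 w hw).le b1 (hw2 w hw) b4
      · have : (w.1 : ℝ) / w.2 ≤ 2 * U / V := div_le_div₀ (by positivity) b2 hV0 b3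
        have h0 : (0 : ℝ) ≤ U / (2 * V) := by positivity
        linarith
  have c1 : 0 < |δ| → (S.card : ℝ) ≤ 1 + 8 * U * V / (Nat.lcm k k' * (t * (U * |δ|))) := by
    intro hδ0
    have h := det_count S hV (x := δ' / δ - 1 / (t * V * |δ|)) (l := 2 / (t * V * |δ|)) hK
      (by positivity) hb ?_ hdet
    · refine h.trans (le_of_eq ?_)
      field_simp
      ring
    · intro w hw
      obtain ⟨m, -, h2⟩ := heq w hw
      have hδne : δ ≠ 0 := abs_pos.1 hδ0
      have b3 : (V : ℝ) ≤ w.2 := by exact_mod_cast (hb w hw).2.2.1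
      have h3 : |(w.1 : ℝ) / w.2 - δ' / δ| ≤ 1 / (t * V * |δ|) := by
        have e1 : (w.1 : ℝ) / w.2 - δ' / δ = (w.1 * δ - w.2 * δ') / (w.2 * δ) := by
          have := (hw2 w hw).ne'
          field_simp
        rw [e1, abs_div, abs_mul, abs_of_pos (hw2 w hw), div_le_div_iff₀
          (mul_pos (hw2 w hw) hδ0) (by positivity)]
        have e2 : |(w.1 : ℝ) * δ - w.2 * δ'| * t ≤ 1 := by
          rw [← le_div_iff₀ ht0]; exact h2.le
        calc |(w.1 : ℝ) * δ - w.2 * δ'| * (t * V * |δ|)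
            = (|(w.1 : ℝ) * δ - w.2 * δ'| * t) * (V * |δ|) := by ring
          _ ≤ 1 * (V * |δ|) := mul_le_mul_of_nonneg_right e2 (by positivity)
          _ ≤ 1 * (w.2 * |δ|) := by gcongr
      have h4 := abs_le.1 h3
      constructor
      · linarith [h4.1]
      · have e3 : 2 / (t * V * |δ|) = 1 / (t * V * |δ|) + 1 / (t * V * |δ|) := by ring
        rw [e3]
        linarith [h4.2]
  have c2 : 0 < |δ'| → (S.card : ℝ) ≤ 1 + 8 * U * V / (Nat.lcm k k' * (t * (V * |δ'|))) := by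
    intro hδ0
    set T := S.image (fun w : ℕ × ℕ => (w.2, w.1)) with hT
    have hcard : T.card = S.card := Finset.card_image_of_injective _ (by
      intro w w' h; simp only [Prod.mk.injEq] at h; exact Prod.ext h.2 h.1)
    have hT' : ∀ w ∈ T, (w.2, w.1) ∈ S := by
      intro w hw
      rw [hT, Finset.mem_image] at hw
      obtain ⟨w', hw', rfl⟩ := hw
      exact hw'
    have h := det_count T (U := V) hU (x := δ / δ' - 1 / (t * U * |δ'|)) (l := 2 / (t * U * |δ'|)) hK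
      (by positivity) ?_ ?_ ?_
    · rw [hcard] at h
      refine h.trans (le_of_eq ?_)
      field_simp
      ring
    · intro w hw
      have := hb _ (hT' w hw)
      exact ⟨this.2.2.1, this.2.2.2, this.1, this.2.1⟩
    · intro w hw
      obtain ⟨m, -, h2⟩ := heq _ (hT' w hw)
      simp only at h2
      have hδne : δ' ≠ 0 := abs_pos.1 hδ0
      have b3 : (U : ℝ) ≤ w.2 := by exact_mod_cast (hb _ (hT' w hw)).1
      have hw20 : (0 : ℝ) < w.2 := hw1 _ (hT' w hw)
      have h3 : |(w.1 : ℝ) / w.2 - δ / δ'| ≤ 1 / (t * U * |δ'|) := by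
        have e1 : (w.1 : ℝ) / w.2 - δ / δ' = -(w.2 * δ - w.1 * δ') / (w.2 * δ') := by
          have := hw20.ne'
          field_simp
          ring
        rw [e1, abs_div, abs_neg, abs_mul, abs_of_pos hw20, div_le_div_iff₀
          (mul_pos hw20 hδ0) (by positivity)]
        have e2 : |(w.2 : ℝ) * δ - w.1 * δ'| * t ≤ 1 := by
          rw [← le_div_iff₀ ht0]; exact h2.le
        calc |(w.2 : ℝ) * δ - w.1 * δ'| * (t * U * |δ'|)
            = (|(w.2 : ℝ) * δ - w.1 * δ'| * t) * (U * |δ'|) := by ring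
          _ ≤ 1 * (U * |δ'|) := mul_le_mul_of_nonneg_right e2 (by positivity)
          _ ≤ 1 * (w.2 * |δ'|) := by gcongr
      have h4 := abs_le.1 h3
      constructor
      · linarith [h4.1]
      · have e3 : 2 / (t * U * |δ'|) = 1 / (t * U * |δ'|) + 1 / (t * U * |δ'|) := by ring
        rw [e3]
        linarith [h4.2]
    · intro w hw w' hw' hne
      have h5 := hdet _ (hT' w hw) _ (hT' w' hw') (by
        intro h; simp only [Prod.mk.injEq] at h; exact hne (Prod.ext h.2 h.1))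
      simp only at h5
      have e : |(w.1 : ℝ) * w'.2 - w'.1 * w.2| = |(w.2 : ℝ) * w'.1 - w'.2 * w.1| := by
        rw [← abs_neg]; congr 1; ring
      rw [e]
      exact h5
  -- combine
  rw [mul_max_of_nonneg _ _ ht0.le]
  rcases le_total (1 : ℝ) (max (t * (U * |δ|)) (t * (V * |δ'|))) with hm | hm
  · rw [max_eq_right hm]
    rcases le_total (t * (U * |δ|)) (t * (V * |δ'|)) with h | h
    · rw [max_eq_right h] at hm ⊢
      apply c2
      by_contra h0
      have : |δ'| = 0 := le_antisymm (not_lt.1 h0) (abs_nonneg _)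
      rw [this, mul_zero, mul_zero] at hm
      linarith
    · rw [max_eq_left h] at hm ⊢
      apply c1
      by_contra h0
      have : |δ| = 0 := le_antisymm (not_lt.1 h0) (abs_nonneg _)
      rw [this, mul_zero, mul_zero] at hm
      linarith
  · rw [max_eq_left hm]
    exact c0

/-! ## D. Special words along `t` -/

/-- kind (ii-a): both frequencies have labels `a/k`, `a'/k'` at the precision of the word and
`(u,v) = (k,k')/gcd(k,k')` -/
def LabWord (ξ ξ' t E : ℝ) (u v : ℕ) : Prop :=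
  ∃ (a : ℤ) (k : ℕ) (a' : ℤ) (k' : ℕ), Lab ξ E (E / (t * u)) a k ∧ Lab ξ' E (E / (t * v)) a' k' ∧
    k = Nat.gcd k k' * u ∧ k' = Nat.gcd k k' * v

/-- the special words of the scale `t` : kinds (iii) and (ii-a) -/
def SpW (ξ ξ' t D : ℝ) (u v : ℕ) : Prop :=
  Nat.Coprime u v ∧ NN ξ ξ' t u v ∧ (Special ξ ξ' t D u v ∨ LabWord ξ ξ' t (4 * D ^ 8) u v)

lemma NN.mono {ξ ξ' t t' : ℝ} {u v : ℕ} (ht : 0 < t) (htt : t ≤ t') (h : NN ξ ξ' t' u v) :
    NN ξ ξ' t u v := by
  obtain ⟨h1, h2, m, hm⟩ := h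
  exact ⟨h1, h2, m, lt_of_lt_of_le hm (one_div_le_one_div_of_le ht htt)⟩

/-- **doubling** : a special word `w` of the scale `t`, another coprime word `w'` linked at a scale
`t' ≥ t`: the product of the entries at least doubles. -/
theorem special_double {ξ ξ' t t' D : ℝ} (hD : 4 ≤ D) (ht : 8 * (4 * D ^ 8) ^ 5 ≤ t) (htt : t ≤ t')
    {u v u' v' : ℕ} (hw : SpW ξ ξ' t D u v) (hc' : Nat.Coprime u' v') (hN' : NN ξ ξ' t' u' v')
    (hne : (u, v) ≠ (u', v')) : 2 * (u * v) ≤ u' * v' := by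
  obtain ⟨hc, hN, hw⟩ := hw
  set E := 4 * D ^ 8 with hE
  have hD0 : 0 < D := by linarith
  have hD8 : (1 : ℝ) ≤ D ^ 8 := one_le_pow₀ (by linarith)
  have hE4 : 4 ≤ E := by rw [hE]; linarith
  have hE0 : 0 < E := by linarith
  have ht0 : 0 < t := lt_of_lt_of_le (by positivity) ht
  have hN1 := NN.mono ht0 htt hN'
  have hu' := hN'.1
  have hv' := hN'.2.1
  have hu'0 : (0 : ℝ) < u' := by exact_mod_cast hu'
  have hv'0 : (0 : ℝ) < v' := by exact_mod_cast hv'
  have hu'1 : (1 : ℝ) ≤ u' := by exact_mod_cast hu'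
  have hv'1 : (1 : ℝ) ≤ v' := by exact_mod_cast hv'
  have hu0 : (0 : ℝ) < u := by exact_mod_cast hN.1
  have hv0 : (0 : ℝ) < v := by exact_mod_cast hN.2.1
  suffices h : 2 * ((u : ℝ) * v) ≤ u' * v' by exact_mod_cast h
  rcases hw with ⟨h1, h2, h3⟩ | ⟨a, k, a', k', hL, hL', hk, hk'⟩
  · -- kind (iii)
    have hbig : D ^ 6 ≤ (u' : ℝ) ∨ D ^ 6 ≤ (v' : ℝ) := by
      by_contra hcon
      push Not at hcon
      exact hne (h3 u' v' hc' hN1 hcon.1 hcon.2)
    have p1 : (u : ℝ) * v ≤ (2 * D ^ 2) * (2 * D ^ 2) :=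
      mul_le_mul h1.le h2.le hv0.le (by positivity)
    have p2 : 2 * ((2 * D ^ 2) * (2 * D ^ 2)) ≤ D ^ 6 := by
      have : D ^ 6 = (D * D) * (D ^ 2 * D ^ 2) := by ring
      rw [this]
      have q : (16 : ℝ) ≤ D * D := by nlinarith
      nlinarith [mul_le_mul_of_nonneg_right q (by positivity : (0 : ℝ) ≤ D ^ 2 * D ^ 2)]
    rcases hbig with hb | hb
    · nlinarith [mul_le_mul hb hv'1 (by norm_num) hu'0.le]
    · nlinarith [mul_le_mul hu'1 hb (by positivity) hu'0.le]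
  · -- label word
    have hk1 := hL.1
    have hk1' := hL'.1
    have hkR : (0 : ℝ) < k := by exact_mod_cast hk1
    have hkR' : (0 : ℝ) < k' := by exact_mod_cast hk1'
    have hkE := hL.2.2.1
    have hkE' := hL'.2.2.1
    have hg0 : 0 < Nat.gcd k k' := Nat.gcd_pos_of_pos_left _ hk1
    have hu1 : (1 : ℝ) ≤ u := by exact_mod_cast hN.1
    have hv1 : (1 : ℝ) ≤ v := by exact_mod_cast hN.2.1
    have hd : |ξ - a / k| ≤ E / t := by
      refine hL.2.2.2.trans ?_
      apply div_le_div_of_nonneg_left hE0.le ht0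
      nlinarith
    have hd' : |ξ' - a' / k'| ≤ E / t := by
      refine hL'.2.2.2.trans ?_
      apply div_le_div_of_nonneg_left hE0.le ht0
      nlinarith
    have huk : (u : ℝ) ≤ k := by
      have : u ≤ k := by
        calc u = 1 * u := (one_mul u).symm
          _ ≤ Nat.gcd k k' * u := Nat.mul_le_mul_right _ hg0
          _ = k := hk.symm
      exact_mod_cast this
    have hvk : (v : ℝ) ≤ k' := by
      have : v ≤ k' := by
        calc v = 1 * v := (one_mul v).symm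
          _ ≤ Nat.gcd k k' * v := Nat.mul_le_mul_right _ hg0
          _ = k' := hk'.symm
      exact_mod_cast this
    have hPi : (u : ℝ) * v ≤ E ^ 2 := by
      calc (u : ℝ) * v ≤ E * E := mul_le_mul (huk.trans hkE) (hvk.trans hkE') hv0.le hE0.le
        _ = E ^ 2 := by ring
    have ht3 : 8 * E ^ 5 ≤ t := ht
    have key : t / (4 * E ^ 3) ≥ 2 * E ^ 2 := by
      rw [ge_iff_le, le_div_iff₀ (by positivity)]
      calc 2 * E ^ 2 * (4 * E ^ 3) = 8 * E ^ 5 := by ring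
        _ ≤ t := ht3
    by_cases hsm : (u' : ℝ) * |ξ - a / k| ≤ 1 / (4 * E ^ 2) ∧ (v' : ℝ) * |ξ' - a' / k'| ≤ 1 / (4 * E ^ 2)
    · -- w' is an entrywise multiple
      obtain ⟨-, -, m, hm⟩ := hN1
      have g3 : |(u' : ℝ) * (a / k) - v' * (a' / k') - m| < 1 / E ^ 2 := by
        have e0 : (u' : ℝ) * (a / k) - v' * (a' / k') - m =
            ((u' * ξ - v' * ξ') - m) - u' * (ξ - a / k) + v' * (ξ' - a' / k') := by ring
        rw [e0]
        have g1 : |(u' : ℝ) * (ξ - a / k)| ≤ 1 / (4 * E ^ 2) := by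
          rw [abs_mul, abs_of_pos hu'0]; exact hsm.1
        have g2 : |(v' : ℝ) * (ξ' - a' / k')| ≤ 1 / (4 * E ^ 2) := by
          rw [abs_mul, abs_of_pos hv'0]; exact hsm.2
        have g4 : 1 / t ≤ 1 / (2 * E ^ 2) := by
          apply one_div_le_one_div_of_le (by positivity)
          have : (1 : ℝ) ≤ E ^ 3 := one_le_pow₀ (by linarith)
          have h5 : E ^ 5 = E ^ 2 * E ^ 3 := by ring
          nlinarith [mul_le_mul_of_nonneg_left this (by positivity : (0 : ℝ) ≤ E ^ 2)]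
        calc |((u' * ξ - v' * ξ') - m) - u' * (ξ - a / k) + v' * (ξ' - a' / k')|
            ≤ |((u' * ξ - v' * ξ') - m) - u' * (ξ - a / k)| + |v' * (ξ' - a' / k')| := abs_add_le _ _
          _ ≤ |(u' * ξ - v' * ξ') - m| + |u' * (ξ - a / k)| + |v' * (ξ' - a' / k')| := by
              gcongr; exact abs_sub _ _
          _ < 1 / (2 * E ^ 2) + 1 / (4 * E ^ 2) + 1 / (4 * E ^ 2) := by linarith
          _ = 1 / E ^ 2 := by field_simp; norm_num
      have hkk : (0 : ℝ) < k * k' := by positivity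
      have g4 : |((u' : ℝ) * (a / k) - v' * (a' / k') - m) * (k * k')| < 1 := by
        rw [abs_mul, abs_of_pos hkk]
        calc |(u' : ℝ) * (a / k) - v' * (a' / k') - m| * (k * k')
            < 1 / E ^ 2 * (k * k') := mul_lt_mul_of_pos_right g3 hkk
          _ ≤ 1 / E ^ 2 * (E * E) := by
              apply mul_le_mul_of_nonneg_left _ (by positivity)
              exact mul_le_mul hkE hkE' (by positivity) (by positivity)
          _ = 1 := by field_simp
      have g5 : ((u' : ℝ) * (a / k) - v' * (a' / k') - m) * (k * k') =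
          (((u' : ℤ) * a * k' - v' * a' * k - m * k * k' : ℤ) : ℝ) := by
        push_cast
        field_simp
      rw [g5] at g4
      have g6 : |(u' : ℤ) * a * k' - v' * a' * k - m * k * k'| < 1 := by exact_mod_cast g4
      have g7 := Int.abs_lt_one_iff.1 g6
      have g8 : (u' : ℤ) * a * k' - v' * a' * k = m * k * k' := by linarith
      obtain ⟨κ, k1, k1', r, s, e1, e2, e3, e4, e5, e6, e7⟩ := lab_div hk1 hk1' hL.2.1 hL'.2.1 g8
      have hκ0 : 0 < κ := by rw [e7]; exact hg0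
      have f1 : k1 = u := Nat.eq_of_mul_eq_mul_left hκ0 (by rw [← e1, e7]; exact hk)
      have f2 : k1' = v := Nat.eq_of_mul_eq_mul_left hκ0 (by rw [← e2, e7]; exact hk')
      subst f1 f2
      have hr1 : 1 ≤ r := by
        rcases Nat.eq_zero_or_pos r with h0 | h0
        · rw [h0, mul_zero] at e4; omega
        · exact h0
      have hs1 : 1 ≤ s := by
        rcases Nat.eq_zero_or_pos s with h0 | h0
        · rw [h0, mul_zero] at e5; omega
        · exact h0
      have hrs : 2 ≤ r * s := by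
        by_contra hlt
        have h6 : r * s = 1 := by
          have : 1 ≤ r * s := Nat.mul_le_mul hr1 hs1
          omega
        have h7 := Nat.eq_one_of_mul_eq_one_right h6
        have h8 := Nat.eq_one_of_mul_eq_one_left h6
        rw [h7, mul_one] at e4
        rw [h8, mul_one] at e5
        exact hne (by rw [e4, e5])
      have h9 : 2 * (k1 * k1') ≤ u' * v' := by
        rw [e4, e5]
        calc 2 * (k1 * k1') ≤ (r * s) * (k1 * k1') := Nat.mul_le_mul_right _ hrs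
          _ = k1 * r * (k1' * s) := by ring
      exact_mod_cast h9
    · -- one entry is large
      have hbig : 2 * E ^ 2 ≤ (u' : ℝ) ∨ 2 * E ^ 2 ≤ (v' : ℝ) := by
        by_contra hcon
        push Not at hcon
        apply hsm
        have aux : ∀ x y : ℝ, 0 ≤ x → x < 2 * E ^ 2 → 0 ≤ y → y ≤ E / t → x * y ≤ 1 / (4 * E ^ 2) := by
          intro x y hx0 hx hy0 hy
          calc x * y ≤ (t / (4 * E ^ 3)) * (E / t) :=
                mul_le_mul (hx.le.trans key) hy hy0 (by positivity)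
            _ = 1 / (4 * E ^ 2) := by field_simp
        exact ⟨aux _ _ hu'0.le hcon.1 (abs_nonneg _) hd, aux _ _ hv'0.le hcon.2 (abs_nonneg _) hd'⟩
      rcases hbig with hb | hb
      · nlinarith [mul_le_mul hb hv'1 (by norm_num) hu'0.le]
      · nlinarith [mul_le_mul hu'1 hb (by positivity) hu'0.le]

/-- there is at most one special word per scale -/
theorem special_unique {ξ ξ' t D : ℝ} (hD : 4 ≤ D) (ht : 8 * (4 * D ^ 8) ^ 5 ≤ t)
    {u v u' v' : ℕ} (hw : SpW ξ ξ' t D u v) (hw' : SpW ξ ξ' t D u' v') : (u, v) = (u', v') := by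
  by_contra hne
  have h1 := special_double hD ht le_rfl hw hw'.1 hw'.2.1 hne
  have h2 := special_double hD ht le_rfl hw' hw.1 hw.2.1 (fun h => hne h.symm)
  have h3 := hw.2.1.1
  have h4 := hw.2.1.2.1
  have h5 : 1 ≤ u * v := Nat.mul_le_mul h3 h4
  omega

/-- **the special words of all scales**: `∑ Π(w)^{-c} ≤ 1/(1-2^{-c})` -/
theorem special_sum {ξ ξ' : ℝ} (W : Finset (ℕ × ℕ))
    (hW : ∀ w ∈ W, ∃ t D : ℝ, 4 ≤ D ∧ 8 * (4 * D ^ 8) ^ 5 ≤ t ∧ SpW ξ ξ' t D w.1 w.2) {c : ℝ}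
    (hc : 0 < c) :
    ∑ w ∈ W, ((w.1 * w.2 : ℕ) : ℝ) ^ (-c) ≤ 1 / (1 - (2 : ℝ) ^ (-c)) := by
  classical
  have hpos : ∀ w ∈ W, 1 ≤ w.1 * w.2 := by
    intro w hw
    obtain ⟨t, D, -, -, h⟩ := hW w hw
    exact Nat.mul_le_mul h.2.1.1 h.2.1.2.1
  have hdbl : ∀ w ∈ W, ∀ w' ∈ W, w ≠ w' → 2 * (w.1 * w.2) ≤ w'.1 * w'.2 ∨
      2 * (w'.1 * w'.2) ≤ w.1 * w.2 := by
    intro w hw w' hw' hne
    obtain ⟨t, D, hD, ht, h⟩ := hW w hw
    obtain ⟨t', D', hD', ht', h'⟩ := hW w' hw'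
    rcases le_total t t' with htt | htt
    · left
      exact special_double hD ht htt h h'.1 h'.2.1 (by simpa using hne)
    · right
      exact special_double hD' ht' htt h' h.1 h.2.1 (by simpa using hne.symm)
  have hinj : Set.InjOn (fun w : ℕ × ℕ => Nat.log 2 (w.1 * w.2)) (W : Set (ℕ × ℕ)) := by
    intro w hw w' hw' h
    by_contra hne
    simp only at h
    have aux : ∀ x y : ℕ, 1 ≤ x → 2 * x ≤ y → Nat.log 2 x < Nat.log 2 y := by
      intro x y hx hxy
      have h1 : Nat.log 2 (x * 2) = Nat.log 2 x + 1 := Nat.log_mul_base (by norm_num) (by omega)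
      have h2 : Nat.log 2 (x * 2) ≤ Nat.log 2 y := Nat.log_mono_right (by omega)
      omega
    rcases hdbl w hw w' hw' hne with h1 | h1
    · exact absurd h (aux _ _ (hpos w hw) h1).ne
    · exact absurd h (aux _ _ (hpos w' hw') h1).ne'
  have h2c : (0 : ℝ) < 2 ^ (-c) := by positivity
  have h2c1 : (2 : ℝ) ^ (-c) < 1 := Real.rpow_lt_one_of_one_lt_of_neg (by norm_num) (by linarith)
  have hterm : ∀ w ∈ W, ((w.1 * w.2 : ℕ) : ℝ) ^ (-c) ≤ ((2 : ℝ) ^ (-c)) ^ (Nat.log 2 (w.1 * w.2)) := by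
    intro w hw
    have h1 : 2 ^ (Nat.log 2 (w.1 * w.2)) ≤ w.1 * w.2 :=
      Nat.pow_log_le_self 2 (by have := hpos w hw; omega)
    have h2 : ((2 : ℝ) ^ (Nat.log 2 (w.1 * w.2))) ≤ ((w.1 * w.2 : ℕ) : ℝ) := by exact_mod_cast h1
    calc ((w.1 * w.2 : ℕ) : ℝ) ^ (-c) ≤ ((2 : ℝ) ^ (Nat.log 2 (w.1 * w.2))) ^ (-c) :=
          Real.rpow_le_rpow_of_nonpos (by positivity) h2 (by linarith)
      _ = ((2 : ℝ) ^ (-c)) ^ (Nat.log 2 (w.1 * w.2)) := by
          rw [← Real.rpow_natCast, ← Real.rpow_mul (by norm_num), ← Real.rpow_natCast,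
            ← Real.rpow_mul (by norm_num), mul_comm]
  calc ∑ w ∈ W, ((w.1 * w.2 : ℕ) : ℝ) ^ (-c)
      ≤ ∑ w ∈ W, ((2 : ℝ) ^ (-c)) ^ (Nat.log 2 (w.1 * w.2)) := Finset.sum_le_sum hterm
    _ = ∑ n ∈ W.image (fun w : ℕ × ℕ => Nat.log 2 (w.1 * w.2)), ((2 : ℝ) ^ (-c)) ^ n := by
        rw [Finset.sum_image hinj]
    _ ≤ ∑' n : ℕ, ((2 : ℝ) ^ (-c)) ^ n :=
        (summable_geometric_of_lt_one h2c.le h2c1).sum_le_tsum _ (fun n _ => by positivity)
    _ = 1 / (1 - (2 : ℝ) ^ (-c)) := by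
        rw [tsum_geometric_of_lt_one h2c.le h2c1, one_div]

end Crest.Agent.R4C.Class3x992
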