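import Mathlib
import Crest.Agent.R4C.Class3_992

/-!
# Row 4, BLOCK S2 v1.1 (note 2896 (3)): natural mass of the labelled words that are not short

`depth` of a word `(u,v)` with labels `a/k`, `a'/k'`:
`K(w) = lcm(k,k') · max(1, t u |ξ - a/k|, t v |ξ' - a'/k'|)`.

* `dyadic_mass` : a bound `β` per dyadic box gives `β (1+log₂ Z)²`;
* `box_label_mass` : coprime labelled words of a box with `depth ≥ K` which are not short:
  mass `≤ 5 K^{-1/3}`;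
* `label_mass` : `∑ 1/(uv) ≤ 5 (1+log₂Z)² K^{-1/3}`.
-/

set_option autoImplicit false

namespace Crest.Agent.R4C.Class4x992

open Crest.Agent.R4C.S2x232 Crest.Agent.R4C.Class2x992 Crest.Agent.R4C.Class3x992

/-- the depth of a word with given labels -/
noncomputable def depth (ξ ξ' t : ℝ) (a : ℤ) (k : ℕ) (a' : ℤ) (k' : ℕ) (u v : ℝ) : ℝ :=
  Nat.lcm k k' * max 1 (t * max (u * |ξ - a / k|) (v * |ξ' - a' / k'|))

/-- `(u,v)` is a labelled word of depth `≥ K` which is not short -/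
def NotShort (ξ ξ' t E K : ℝ) (u v : ℕ) : Prop :=
  ∃ (a : ℤ) (k : ℕ) (a' : ℤ) (k' : ℕ), Lab ξ E (E / (t * u)) a k ∧ Lab ξ' E (E / (t * v)) a' k' ∧
    K ≤ depth ξ ξ' t a k a' k' u v ∧ (depth ξ ξ' t a k a' k' u v) ^ ((1 : ℝ) / 3) < (u : ℝ) * v

lemma depth_mono {ξ ξ' t : ℝ} (ht : 0 ≤ t) {a : ℤ} {k : ℕ} {a' : ℤ} {k' : ℕ} {u v u1 v1 : ℝ}
    (h1 : u ≤ u1) (h2 : v ≤ v1) :
    depth ξ ξ' t a k a' k' u v ≤ depth ξ ξ' t a k a' k' u1 v1 := by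
  unfold depth
  gcongr

lemma depth_double {ξ ξ' t : ℝ} {a : ℤ} {k : ℕ} {a' : ℤ} {k' : ℕ} {u v : ℝ} :
    depth ξ ξ' t a k a' k' (2 * u) (2 * v) ≤ 2 * depth ξ ξ' t a k a' k' u v := by
  unfold depth
  have e : t * max (2 * u * |ξ - a / k|) (2 * v * |ξ' - a' / k'|) =
      2 * (t * max (u * |ξ - a / k|) (v * |ξ' - a' / k'|)) := by
    rw [mul_assoc 2 u, mul_assoc 2 v, ← mul_max_of_nonneg _ _ (by norm_num : (0 : ℝ) ≤ 2)]
    ring
  rw [e]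
  have h : max 1 (2 * (t * max (u * |ξ - a / k|) (v * |ξ' - a' / k'|))) ≤
      2 * max 1 (t * max (u * |ξ - a / k|) (v * |ξ' - a' / k'|)) := by
    rw [mul_max_of_nonneg _ _ (by norm_num : (0 : ℝ) ≤ 2)]
    exact max_le_max (by norm_num) le_rfl
  calc (Nat.lcm k k' : ℝ) * max 1 (2 * (t * max (u * |ξ - a / k|) (v * |ξ' - a' / k'|)))
      ≤ Nat.lcm k k' * (2 * max 1 (t * max (u * |ξ - a / k|) (v * |ξ' - a' / k'|))) :=
        mul_le_mul_of_nonneg_left h (by positivity)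
    _ = _ := by ring

/-- a bound per dyadic box -/
theorem dyadic_mass (Z : ℕ) (f : ℕ × ℕ → ℝ) (hf : ∀ w, 0 ≤ f w) {β : ℝ}
    (hbox : ∀ i j : ℕ, ∑ w ∈ (Finset.Ico (2 ^ i) (2 * 2 ^ i)) ×ˢ (Finset.Ico (2 ^ j) (2 * 2 ^ j)),
      f w ≤ β) :
    ∑ u ∈ Finset.Icc 1 Z, ∑ v ∈ Finset.Icc 1 Z, f (u, v) ≤ β * (1 + (Nat.log 2 Z : ℝ)) ^ 2 := by
  classical
  set n := Nat.log 2 Z with hn
  have hcover : (Finset.Icc 1 Z) ×ˢ (Finset.Icc 1 Z) ⊆
      (Finset.range (n + 1) ×ˢ Finset.range (n + 1)).biUnion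
        (fun ij => (Finset.Ico (2 ^ ij.1) (2 * 2 ^ ij.1)) ×ˢ (Finset.Ico (2 ^ ij.2) (2 * 2 ^ ij.2))) := by
    intro w hw
    rw [Finset.mem_product, Finset.mem_Icc, Finset.mem_Icc] at hw
    rw [Finset.mem_biUnion]
    refine ⟨(Nat.log 2 w.1, Nat.log 2 w.2), ?_, ?_⟩
    · rw [Finset.mem_product, Finset.mem_range, Finset.mem_range]
      have h1 := Nat.log_mono_right (b := 2) hw.1.2
      have h2 := Nat.log_mono_right (b := 2) hw.2.2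
      simp only
      omega
    · rw [Finset.mem_product, Finset.mem_Ico, Finset.mem_Ico]
      exact ⟨⟨lo_le hw.1.1, lt_lo _⟩, ⟨lo_le hw.2.1, lt_lo _⟩⟩
  calc ∑ u ∈ Finset.Icc 1 Z, ∑ v ∈ Finset.Icc 1 Z, f (u, v)
      = ∑ w ∈ (Finset.Icc 1 Z) ×ˢ (Finset.Icc 1 Z), f w := by
        rw [Finset.sum_product]
    _ ≤ ∑ w ∈ (Finset.range (n + 1) ×ˢ Finset.range (n + 1)).biUnion
        (fun ij => (Finset.Ico (2 ^ ij.1) (2 * 2 ^ ij.1)) ×ˢ (Finset.Ico (2 ^ ij.2) (2 * 2 ^ ij.2))),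
        f w := Finset.sum_le_sum_of_subset_of_nonneg hcover (fun w _ _ => hf w)
    _ ≤ ∑ ij ∈ Finset.range (n + 1) ×ˢ Finset.range (n + 1),
        ∑ w ∈ (Finset.Ico (2 ^ ij.1) (2 * 2 ^ ij.1)) ×ˢ (Finset.Ico (2 ^ ij.2) (2 * 2 ^ ij.2)),
        f w := sum_biUnion_le _ _ _ hf
    _ ≤ ∑ ij ∈ Finset.range (n + 1) ×ˢ Finset.range (n + 1), β :=
        Finset.sum_le_sum fun ij _ => hbox ij.1 ij.2
    _ = β * (1 + (n : ℝ)) ^ 2 := by
        rw [Finset.sum_const, Finset.card_product, Finset.card_range, nsmul_eq_mul]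
        push_cast
        ring

/-- **one box** : coprime labelled words of depth `≥ K` that are not short -/
theorem box_label_mass {E t K ξ ξ' : ℝ} (ht : 8 * E ^ 5 ≤ t) (hK : 64 ≤ K) (S : Finset (ℕ × ℕ))
    {U V : ℕ} (hU : 1 ≤ U) (hV : 1 ≤ V)
    (hb : ∀ w ∈ S, U ≤ w.1 ∧ w.1 < 2 * U ∧ V ≤ w.2 ∧ w.2 < 2 * V)
    (hc : ∀ w ∈ S, Nat.Coprime w.1 w.2)
    (hn : ∀ w ∈ S, near (w.1 * ξ - w.2 * ξ') (1 / t))
    (hL : ∀ w ∈ S, NotShort ξ ξ' t E K w.1 w.2) :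
    ∑ w ∈ S, 1 / ((w.1 : ℝ) * w.2) ≤ 5 * K ^ (-(1 : ℝ) / 3) := by
  have hK0 : 0 < K := by linarith
  rcases S.eq_empty_or_nonempty with rfl | ⟨w0, hw0⟩
  · simp only [Finset.sum_empty]
    positivity
  obtain ⟨a, k, a', k', hl, hl', hKd, hsh⟩ := hL w0 hw0
  have hE1 : 1 ≤ E := le_trans (by exact_mod_cast hl.1) hl.2.2.1
  have hE5 : E ^ 5 = E ^ 3 * E ^ 2 := by ring
  have hE2 : (1 : ℝ) ≤ E ^ 2 := one_le_pow₀ hE1
  have hE3 : (1 : ℝ) ≤ E ^ 3 := one_le_pow₀ hE1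
  have hE35 : E ^ 3 ≤ E ^ 5 := by rw [hE5]; nlinarith
  have ht' : E ^ 2 * (1 + 2 * E) < t := by
    have h1 : E ^ 2 ≤ E ^ 3 := by
      have : E ^ 3 = E ^ 2 * E := by ring
      rw [this]; nlinarith
    have h2 : E ^ 2 * (1 + 2 * E) = E ^ 2 + 2 * E ^ 3 := by ring
    rw [h2]
    nlinarith
  have ht0 : 0 < t := lt_of_le_of_lt (by positivity) ht'
  have hU0 : (0 : ℝ) < U := by exact_mod_cast hU
  have hV0 : (0 : ℝ) < V := by exact_mod_cast hV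
  have hlab : ∀ {x : ℝ} {n : ℕ} {b : ℤ} {l : ℕ}, 1 ≤ n → Lab x E (E / (t * n)) b l →
      Lab x E (E / t) b l := by
    intro x n b l hn1 h
    refine Lab.mono h le_rfl ?_
    have : (1 : ℝ) ≤ n := by exact_mod_cast hn1
    apply div_le_div_of_nonneg_left (by linarith) ht0
    nlinarith
  have hall : ∀ w ∈ S, Lab ξ E (E / (t * w.1)) a k ∧ Lab ξ' E (E / (t * w.2)) a' k' := by
    intro w hw
    obtain ⟨b, l, b', l', h1, h2, -, -⟩ := hL w hw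
    have c1 := lab_unique hE1 ht (hlab (hU.trans (hb w hw).1) h1)
      (hlab (hU.trans (hb w0 hw0).1) hl)
    have c2 := lab_unique hE1 ht (hlab (hV.trans (hb w hw).2.2.1) h2)
      (hlab (hV.trans (hb w0 hw0).2.2.1) hl')
    rw [c1.1, c1.2] at h1
    rw [c2.1, c2.2] at h2
    exact ⟨h1, h2⟩
  have hcount := label_count S hU hV ht' hb hc hn hall
  set Kb := depth ξ ξ' t a k a' k' U V with hKb
  have hcount' : (S.card : ℝ) ≤ 1 + 8 * U * V / Kb := hcount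
  have hb0 := hb w0 hw0
  have u1 : (U : ℝ) ≤ w0.1 := by exact_mod_cast hb0.1
  have u2 : (w0.1 : ℝ) ≤ 2 * U := by exact_mod_cast hb0.2.1.le
  have v1 : (V : ℝ) ≤ w0.2 := by exact_mod_cast hb0.2.2.1
  have v2 : (w0.2 : ℝ) ≤ 2 * V := by exact_mod_cast hb0.2.2.2.le
  have hKb2 : K / 2 ≤ Kb := by
    have h1 := depth_mono (ξ := ξ) (ξ' := ξ') (a := a) (k := k) (a' := a') (k' := k') ht0.le u2 v2
    have h2 := depth_double (ξ := ξ) (ξ' := ξ') (t := t) (a := a) (k := k) (a' := a') (k' := k')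
      (u := U) (v := V)
    linarith
  have hKb0 : 0 < Kb := by linarith
  have hUV4 : K ^ ((1 : ℝ) / 3) ≤ 4 * (U * V) := by
    calc K ^ ((1 : ℝ) / 3) ≤ (depth ξ ξ' t a k a' k' w0.1 w0.2) ^ ((1 : ℝ) / 3) :=
          Real.rpow_le_rpow hK0.le hKd (by norm_num)
      _ ≤ (w0.1 : ℝ) * w0.2 := hsh.le
      _ ≤ (2 * U) * (2 * V) := mul_le_mul u2 v2 (by positivity) (by positivity)
      _ = 4 * (U * V) := by ring
  have hUV0 : (0 : ℝ) < U * V := by positivity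
  have hKn : K ^ (-(1 : ℝ) / 3) = 1 / K ^ ((1 : ℝ) / 3) := by
    rw [show (-(1 : ℝ) / 3) = -((1 : ℝ) / 3) by ring, Real.rpow_neg hK0.le]
    exact (one_div _).symm
  have hK3 : 0 < K ^ ((1 : ℝ) / 3) := Real.rpow_pos_of_pos hK0 _
  have hm1 : 1 / ((U : ℝ) * V) ≤ 4 * K ^ (-(1 : ℝ) / 3) := by
    rw [hKn, mul_one_div, div_le_div_iff₀ hUV0 hK3]
    linarith
  have hm2 : 16 / K ≤ K ^ (-(1 : ℝ) / 3) := by
    rw [hKn, div_le_div_iff₀ hK0 hK3, one_mul]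
    have e1 : K = K ^ ((1 : ℝ) / 3) * K ^ ((2 : ℝ) / 3) := by
      rw [← Real.rpow_add hK0]; norm_num
    have e2 : (16 : ℝ) ≤ K ^ ((2 : ℝ) / 3) := by
      have : (16 : ℝ) = (64 : ℝ) ^ ((2 : ℝ) / 3) := by
        rw [show (64 : ℝ) = (4 : ℝ) ^ (3 : ℝ) by norm_num, ← Real.rpow_mul (by norm_num)]
        norm_num
      rw [this]
      exact Real.rpow_le_rpow (by norm_num) hK (by norm_num)
    calc 16 * K ^ ((1 : ℝ) / 3) = K ^ ((1 : ℝ) / 3) * 16 := by ring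
      _ ≤ K ^ ((1 : ℝ) / 3) * K ^ ((2 : ℝ) / 3) := mul_le_mul_of_nonneg_left e2 hK3.le
      _ = K := e1.symm
  calc ∑ w ∈ S, 1 / ((w.1 : ℝ) * w.2) ≤ ∑ w ∈ S, 1 / ((U : ℝ) * V) := by
        refine Finset.sum_le_sum fun w hw => ?_
        apply one_div_le_one_div_of_le hUV0
        have h1 : (U : ℝ) ≤ w.1 := by exact_mod_cast (hb w hw).1
        have h2 : (V : ℝ) ≤ w.2 := by exact_mod_cast (hb w hw).2.2.1
        exact mul_le_mul h1 h2 hV0.le (by positivity)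
    _ = (S.card : ℝ) * (1 / ((U : ℝ) * V)) := by rw [Finset.sum_const, nsmul_eq_mul]
    _ ≤ (1 + 8 * U * V / Kb) * (1 / ((U : ℝ) * V)) :=
        mul_le_mul_of_nonneg_right hcount' (by positivity)
    _ = 1 / ((U : ℝ) * V) + 8 / Kb := by field_simp
    _ ≤ 4 * K ^ (-(1 : ℝ) / 3) + 16 / K := by
        have : 8 / Kb ≤ 16 / K := by
          rw [div_le_div_iff₀ hKb0 hK0]
          linarith
        linarith
    _ ≤ 5 * K ^ (-(1 : ℝ) / 3) := by linarith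

/-- **natural mass of the labelled words of depth `≥ K` that are not short** -/
theorem label_mass {E t K ξ ξ' : ℝ} (ht : 8 * E ^ 5 ≤ t) (hK : 64 ≤ K) (Z : ℕ)
    (P : ℕ → ℕ → Prop) [∀ u v, Decidable (P u v)]
    (hP : ∀ u v, P u v → Nat.Coprime u v ∧ NN ξ ξ' t u v ∧ NotShort ξ ξ' t E K u v) :
    ∑ u ∈ Finset.Icc 1 Z, ∑ v ∈ Finset.Icc 1 Z, (if P u v then 1 / ((u : ℝ) * v) else 0) ≤
      5 * K ^ (-(1 : ℝ) / 3) * (1 + (Nat.log 2 Z : ℝ)) ^ 2 := by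
  classical
  refine dyadic_mass Z (fun w => if P w.1 w.2 then 1 / ((w.1 : ℝ) * w.2) else 0) ?_ ?_
  · intro w
    split_ifs
    · positivity
    · exact le_rfl
  · intro i j
    rw [← Finset.sum_filter]
    refine box_label_mass (ξ := ξ) (ξ' := ξ') ht hK _ (U := 2 ^ i) (V := 2 ^ j) Nat.one_le_two_pow Nat.one_le_two_pow
      ?_ ?_ ?_ ?_
    · intro w hw
      rw [Finset.mem_filter, Finset.mem_product, Finset.mem_Ico, Finset.mem_Ico] at hw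
      exact ⟨hw.1.1.1, hw.1.1.2, hw.1.2.1, hw.1.2.2⟩
    · intro w hw
      exact (hP _ _ (Finset.mem_filter.1 hw).2).1
    · intro w hw
      exact (hP _ _ (Finset.mem_filter.1 hw).2).2.1.2.2
    · intro w hw
      exact (hP _ _ (Finset.mem_filter.1 hw).2).2.2

/-- laws `ν₀(n) ≤ 1/n` on the low words -/
theorem mass_of_laws (Z : ℕ) (P : ℕ → ℕ → Prop) [∀ u v, Decidable (P u v)] {μ μ' : ℕ → ℝ} {β : ℝ}
    (h0' : ∀ n, 0 ≤ μ' n) (h1 : ∀ n, 1 ≤ n → μ n ≤ 1 / n)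
    (h1' : ∀ n, 1 ≤ n → μ' n ≤ 1 / n)
    (h : ∑ u ∈ Finset.Icc 1 Z, ∑ v ∈ Finset.Icc 1 Z, (if P u v then 1 / ((u : ℝ) * v) else 0) ≤ β) :
    ∑ u ∈ Finset.Icc 1 Z, ∑ v ∈ Finset.Icc 1 Z, (if P u v then μ u * μ' v else 0) ≤ β := by
  refine le_trans ?_ h
  refine Finset.sum_le_sum fun u hu => Finset.sum_le_sum fun v hv => ?_
  rw [Finset.mem_Icc] at hu hv
  split_ifs
  · have e : 1 / ((u : ℝ) * v) = (1 / u) * (1 / v) := by ring
    rw [e]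
    exact mul_le_mul (h1 u hu.1) (h1' v hv.1) (h0' v) (by positivity)
  · exact le_rfl

end Crest.Agent.R4C.Class4x992
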