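import Crest.Agent.R4C.MStTb_590

/-!
# Row 4: THEOREM (T) / (REL*) for ARBITRARY M (helper590; notes 2368 (helper124), 2740 (B1))

Words = divisors of `M`, exact law `nu M b = φ(M/b)/M` (`Base_935`), anatomy weight
`an Λ b = ∏_{p ∣ b} (1 + Λ/p)` (one factor per prime, whatever the exponent).

* `thmT_gen`   : exact-gcd bilinear inequality with an `L^r` relation weight.
* `relstar_gen`: COROLLARY (REL*): all pairs with `gcd ≤ Y`, weight `gcd`.
* `relset_gen` : the same for sets `B, B'` and a relation `R`.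
-/

set_option autoImplicit false

open Finset

namespace Crest.Agent.R4C.TGenx590

open Basex935 MStTx590

variable {κ r : ℝ}

/-- anatomy weight -/
noncomputable def an (Λ : ℝ) (b : ℕ) : ℝ := ∏ p ∈ b.primeFactors, (1 + Λ / p)

/-- the bilinear form of THEOREM (T) -/
noncomputable def tform (κ : ℝ) (M : ℕ) (f g : ℕ → ℝ) (K : ℕ → ℕ → ℝ) : ℝ :=
  ∑ b ∈ M.divisors, ∑ c ∈ M.divisors, nu M b * nu M c * ((Nat.gcd b c : ℕ) : ℝ) ^ (1 - κ) *
    (f b * g c * K (b / Nat.gcd b c) (c / Nat.gcd b c))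

/-- `‖f‖^q` -/
noncomputable def nf (κ Λ : ℝ) (M : ℕ) (f : ℕ → ℝ) : ℝ :=
  ∑ b ∈ M.divisors, nu M b * an Λ b * f b ^ (2 / (1 + κ))

/-- `‖K‖^r` -/
noncomputable def nK (r : ℝ) (M : ℕ) (K : ℕ → ℕ → ℝ) : ℝ :=
  ∑ s ∈ M.divisors, ∑ t ∈ M.divisors, nu M s * nu M t * K s t ^ r

lemma an_nonneg {Λ : ℝ} (hΛ : 0 ≤ Λ) (b : ℕ) : 0 ≤ an Λ b :=
  prod_nonneg fun p _ => by positivity

lemma one_le_an {Λ : ℝ} (hΛ : 0 ≤ Λ) (b : ℕ) : 1 ≤ an Λ b := by
  unfold an
  calc (1:ℝ) = ∏ p ∈ b.primeFactors, 1 := by simp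
    _ ≤ _ := prod_le_prod (fun _ _ => zero_le_one) fun p _ => by
      have : 0 ≤ Λ / p := by positivity
      linarith

lemma an_split {Λ : ℝ} {p : ℕ} (hp : p.Prime) (v : ℕ) {b : ℕ} (hb : ¬ p ∣ b) :
    an Λ (p ^ v * b) = lam1 Λ (1 / (p:ℝ)) v * an Λ b := by
  have hb0 : b ≠ 0 := fun h => hb (h ▸ dvd_zero p)
  unfold an lam1
  by_cases hv : v = 0
  · subst hv; simp
  · rw [if_neg hv, Nat.primeFactors_mul (pow_ne_zero _ hp.ne_zero) hb0,
      Nat.primeFactors_prime_pow hv hp, ← insert_eq, prod_insert]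
    · ring
    · intro h
      exact hb (Nat.dvd_of_mem_primeFactors h)

lemma nf_nonneg {Λ : ℝ} (hΛ : 0 ≤ Λ) (M : ℕ) {f : ℕ → ℝ} (hf : ∀ b, 0 ≤ f b) :
    0 ≤ nf κ Λ M f :=
  sum_nonneg fun b _ => mul_nonneg (mul_nonneg (nu_nonneg _ _) (an_nonneg hΛ _))
    (Real.rpow_nonneg (hf b) _)

lemma nK_nonneg (M : ℕ) {K : ℕ → ℕ → ℝ} (hK : ∀ s t, 0 ≤ K s t) : 0 ≤ nK r M K :=
  sum_nonneg fun s _ => sum_nonneg fun t _ => mul_nonneg (mul_nonneg (nu_nonneg _ _)
    (nu_nonneg _ _)) (Real.rpow_nonneg (hK s t) _)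

lemma nf_split {Λ : ℝ} {p : ℕ} (hp : p.Prime) (a : ℕ) {M1 : ℕ} (hM : 0 < M1) (h : ¬ p ∣ M1)
    (f : ℕ → ℝ) :
    nf κ Λ (p ^ a * M1) f = ∑ v ∈ range (a + 1), nup p a v * lam1 Λ (1 / p) v *
      nf κ Λ M1 (fun b => f (p ^ v * b)) := by
  have hcop : Nat.Coprime (p ^ a) M1 :=
    Nat.Coprime.pow_left a ((Nat.Prime.coprime_iff_not_dvd hp).2 h)
  unfold nf
  rw [sum_split hp a hM h]
  refine sum_congr rfl fun v hv => ?_
  rw [mem_range] at hv
  rw [mul_sum]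
  refine sum_congr rfl fun b hb => ?_
  rw [Nat.mem_divisors] at hb
  rw [nu_mul hcop (pow_dvd_pow p (by omega)) hb.1, nu_prime_pow hp (by omega),
    an_split hp v (fun hc => h (hc.trans hb.1))]
  ring

lemma nK_split {p : ℕ} (hp : p.Prime) (a : ℕ) {M1 : ℕ} (hM : 0 < M1) (h : ¬ p ∣ M1)
    (K : ℕ → ℕ → ℝ) :
    nK r (p ^ a * M1) K = ∑ i ∈ range (a + 1), ∑ j ∈ range (a + 1), nup p a i * nup p a j *
      nK r M1 (fun s t => K (p ^ i * s) (p ^ j * t)) := by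
  have hcop : Nat.Coprime (p ^ a) M1 :=
    Nat.Coprime.pow_left a ((Nat.Prime.coprime_iff_not_dvd hp).2 h)
  unfold nK
  rw [sum_split hp a hM h]
  refine sum_congr rfl fun i hi => ?_
  rw [mem_range] at hi
  rw [sum_congr rfl fun s _ => sum_split hp a hM h _, sum_comm]
  refine sum_congr rfl fun j hj => ?_
  rw [mem_range] at hj
  rw [mul_sum]
  refine sum_congr rfl fun s hs => ?_
  rw [mul_sum]
  refine sum_congr rfl fun t ht => ?_
  rw [Nat.mem_divisors] at hs ht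
  rw [nu_mul hcop (pow_dvd_pow p (by omega)) hs.1, nu_prime_pow hp (by omega),
    nu_mul hcop (pow_dvd_pow p (by omega)) ht.1, nu_prime_pow hp (by omega)]
  ring

lemma cof_split {p : ℕ} (hp : p.Prime) (v v' : ℕ) {b g : ℕ} (hg : g ∣ b) :
    (p ^ v * b) / (p ^ (min v v') * g) = p ^ (v - v') * (b / g) := by
  rw [Nat.mul_div_mul_comm (pow_dvd_pow p (min_le_left _ _)) hg, Nat.pow_div (min_le_left _ _) hp.pos]
  congr 2
  omega

lemma tform_split {p : ℕ} (hp : p.Prime) (a : ℕ) {M1 : ℕ} (hM : 0 < M1) (h : ¬ p ∣ M1)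
    (f g : ℕ → ℝ) (K : ℕ → ℕ → ℝ) :
    tform κ (p ^ a * M1) f g K = ∑ v ∈ range (a + 1), ∑ v' ∈ range (a + 1),
      nup p a v * nup p a v' * ((p : ℝ) ^ (min v v')) ^ (1 - κ) *
        tform κ M1 (fun b => f (p ^ v * b)) (fun c => g (p ^ v' * c))
          (fun s t => K (p ^ (v - v') * s) (p ^ (v' - v) * t)) := by
  have hcop : Nat.Coprime (p ^ a) M1 :=
    Nat.Coprime.pow_left a ((Nat.Prime.coprime_iff_not_dvd hp).2 h)
  have hp0 : (0:ℝ) ≤ p := Nat.cast_nonneg _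
  unfold tform
  rw [sum_split hp a hM h]
  refine sum_congr rfl fun v hv => ?_
  rw [mem_range] at hv
  rw [sum_congr rfl fun s _ => sum_split hp a hM h _, sum_comm]
  refine sum_congr rfl fun v' hv' => ?_
  rw [mem_range] at hv'
  rw [mul_sum]
  refine sum_congr rfl fun b hb => ?_
  rw [mul_sum]
  refine sum_congr rfl fun c hc => ?_
  rw [Nat.mem_divisors] at hb hc
  have hnb : ¬ p ∣ b := fun hc' => h (hc'.trans hb.1)
  have hnc : ¬ p ∣ c := fun hc' => h (hc'.trans hc.1)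
  rw [nu_mul hcop (pow_dvd_pow p (by omega)) hb.1, nu_prime_pow hp (by omega),
    nu_mul hcop (pow_dvd_pow p (by omega)) hc.1, nu_prime_pow hp (by omega),
    gcd_split hp v v' hnb hnc, cof_split hp v v' (Nat.gcd_dvd_left b c)]
  have e2 : (p ^ v' * c) / (p ^ (min v v') * Nat.gcd b c) = p ^ (v' - v) * (c / Nat.gcd b c) := by
    rw [min_comm]
    exact cof_split hp v' v (Nat.gcd_dvd_right b c)
  rw [e2]
  have e3 : (((p ^ (min v v') * Nat.gcd b c : ℕ)) : ℝ) ^ (1 - κ) =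
      ((p : ℝ) ^ (min v v')) ^ (1 - κ) * ((Nat.gcd b c : ℕ) : ℝ) ^ (1 - κ) := by
    push_cast
    rw [Real.mul_rpow (by positivity) (Nat.cast_nonneg _)]
  rw [e3]
  ring

/-- one induction step, the one-prime inequality being a hypothesis -/
theorem thmT_prod (hκ : 0 < κ) (hr : 0 < r) {Λ : ℝ} (hΛ : 0 ≤ Λ) {C : ℕ → ℝ} (hC0 : ∀ p, 0 ≤ C p)
    (hC : ∀ p a : ℕ, p.Prime → 0 < a → MT κ r Λ p a (C p)) :
    ∀ M : ℕ, 0 < M → ∀ (f g : ℕ → ℝ) (K : ℕ → ℕ → ℝ), (∀ b, 0 ≤ f b) → (∀ b, 0 ≤ g b) →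
      (∀ s t, 0 ≤ K s t) →
      tform κ M f g K ≤ (∏ p ∈ M.primeFactors, C p) *
        ((nf κ Λ M f) ^ ((1 + κ) / 2) * (nf κ Λ M g) ^ ((1 + κ) / 2) * (nK r M K) ^ (1 / r)) := by
  refine ind_min ?_ ?_
  · intro f g K hf hg hK
    have hq : (2 / (1 + κ)) * ((1 + κ) / 2) = 1 := by field_simp
    have hn : nu 1 1 = 1 := by unfold nu; simp
    simp only [tform, nf, nK, Nat.divisors_one, sum_singleton, hn, an, Nat.primeFactors_one,
      prod_empty, Nat.gcd_self, Nat.cast_one, Real.one_rpow, one_mul, Nat.div_one]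
    rw [← Real.rpow_mul (hf _), hq, Real.rpow_one, ← Real.rpow_mul (hg _), hq, Real.rpow_one,
      ← Real.rpow_mul (hK _ _), show r * (1 / r) = 1 by field_simp, Real.rpow_one]
  · intro p a M1 hp ha hM h _ ih f g K hf hg hK
    set Q := ∏ q ∈ M1.primeFactors, C q with hQ
    have hQ0 : 0 ≤ Q := prod_nonneg fun x _ => hC0 x
    have hprod : ∏ q ∈ (p ^ a * M1).primeFactors, C q = C p * Q := by
      rw [Nat.primeFactors_mul (pow_ne_zero _ hp.ne_zero) hM.ne',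
        Nat.primeFactors_prime_pow ha.ne' hp, ← insert_eq, prod_insert]
      intro hc
      exact h (Nat.dvd_of_mem_primeFactors hc)
    have hqq : ((1 + κ) / 2) * (2 / (1 + κ)) = 1 := by field_simp
    have hrr : (1 / r) * r = 1 := by field_simp
    have nF : ∀ v, 0 ≤ nf κ Λ M1 (fun b => f (p ^ v * b)) := fun v => nf_nonneg hΛ _ fun b => hf _
    have nG : ∀ v, 0 ≤ nf κ Λ M1 (fun b => g (p ^ v * b)) := fun v => nf_nonneg hΛ _ fun b => hg _
    have nKK : ∀ i j, 0 ≤ nK r M1 (fun s t => K (p ^ i * s) (p ^ j * t)) := fun i j =>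
      nK_nonneg _ fun s t => hK _ _
    set F : ℕ → ℝ := fun v => (nf κ Λ M1 (fun b => f (p ^ v * b))) ^ ((1 + κ) / 2) with hF
    set G : ℕ → ℝ := fun v => (nf κ Λ M1 (fun b => g (p ^ v * b))) ^ ((1 + κ) / 2) with hG
    set KK : ℕ → ℕ → ℝ := fun i j => (nK r M1 (fun s t => K (p ^ i * s) (p ^ j * t))) ^ (1 / r)
      with hKK
    have pF : ∀ v, 0 ≤ F v := fun v => Real.rpow_nonneg (nF v) _
    have pG : ∀ v, 0 ≤ G v := fun v => Real.rpow_nonneg (nG v) _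
    have pK : ∀ i j, 0 ≤ KK i j := fun i j => Real.rpow_nonneg (nKK i j) _
    have eF : ∀ v, F v ^ (2 / (1 + κ)) = nf κ Λ M1 (fun b => f (p ^ v * b)) := fun v => by
      rw [hF]; simp only; rw [← Real.rpow_mul (nF v), hqq, Real.rpow_one]
    have eG : ∀ v, G v ^ (2 / (1 + κ)) = nf κ Λ M1 (fun b => g (p ^ v * b)) := fun v => by
      rw [hG]; simp only; rw [← Real.rpow_mul (nG v), hqq, Real.rpow_one]
    have eK : ∀ i j, KK i j ^ r = nK r M1 (fun s t => K (p ^ i * s) (p ^ j * t)) := fun i j => by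
      rw [hKK]; simp only; rw [← Real.rpow_mul (nKK i j), hrr, Real.rpow_one]
    have hT := hC p a hp ha F G KK pF pG pK
    simp only [eF, eG, eK] at hT
    rw [← nf_split hp a hM h, ← nf_split hp a hM h, ← nK_split hp a hM h] at hT
    rw [tform_split hp a hM h, hprod]
    have step : ∀ v ∈ range (a + 1), ∀ v' ∈ range (a + 1),
        nup p a v * nup p a v' * ((p : ℝ) ^ (min v v')) ^ (1 - κ) *
        tform κ M1 (fun b => f (p ^ v * b)) (fun c => g (p ^ v' * c))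
          (fun s t => K (p ^ (v - v') * s) (p ^ (v' - v) * t)) ≤
        Q * (nup p a v * nup p a v' * ((p : ℝ) ^ (min v v')) ^ (1 - κ) *
          (F v * G v' * KK (v - v') (v' - v))) := by
      intro v _ v' _
      have hc : 0 ≤ nup p a v * nup p a v' * ((p : ℝ) ^ (min v v')) ^ (1 - κ) :=
        mul_nonneg (mul_nonneg (nup_nonneg hp.pos a v) (nup_nonneg hp.pos a v'))
          (Real.rpow_nonneg (by positivity) _)
      have := mul_le_mul_of_nonneg_left (ih (fun b => f (p ^ v * b)) (fun c => g (p ^ v' * c))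
          (fun s t => K (p ^ (v - v') * s) (p ^ (v' - v) * t)) (fun b => hf _) (fun b => hg _)
          (fun s t => hK _ _)) hc
      refine this.trans (le_of_eq ?_)
      ring
    calc ∑ v ∈ range (a + 1), ∑ v' ∈ range (a + 1),
          nup p a v * nup p a v' * ((p : ℝ) ^ (min v v')) ^ (1 - κ) *
          tform κ M1 (fun b => f (p ^ v * b)) (fun c => g (p ^ v' * c))
            (fun s t => K (p ^ (v - v') * s) (p ^ (v' - v) * t))
        ≤ ∑ v ∈ range (a + 1), ∑ v' ∈ range (a + 1),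
          Q * (nup p a v * nup p a v' * ((p : ℝ) ^ (min v v')) ^ (1 - κ) *
            (F v * G v' * KK (v - v') (v' - v))) :=
          sum_le_sum fun v hv => sum_le_sum fun v' hv' => step v hv v' hv'
      _ = Q * ∑ v ∈ range (a + 1), ∑ v' ∈ range (a + 1),
          (nup p a v * nup p a v' * ((p : ℝ) ^ (min v v')) ^ (1 - κ) *
            (F v * G v' * KK (v - v') (v' - v))) := by
          simp_rw [mul_sum]
      _ ≤ Q * (C p * ((nf κ Λ (p ^ a * M1) f) ^ ((1 + κ) / 2) *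
            (nf κ Λ (p ^ a * M1) g) ^ ((1 + κ) / 2) * (nK r (p ^ a * M1) K) ^ (1 / r))) :=
          mul_le_mul_of_nonneg_left hT hQ0
      _ = _ := by ring

/-- the product over the primes of the one-prime constants is bounded -/
theorem prod_bound (hκ : 0 < κ) {C0 w0 C1 : ℝ} (hC0 : 0 ≤ C0) (hw0 : 0 < w0) (hC1 : 1 ≤ C1) :
    ∃ C : ℝ, 1 ≤ C ∧ ∀ P : Finset ℕ, (∀ p ∈ P, 2 ≤ p) →
      ∏ p ∈ P, (if 1 / (p:ℝ) ≤ w0 then 1 + C0 * (1 / (p:ℝ)) ^ (1 + κ) else C1) ≤ C := by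
  have hs : Summable (fun n : ℕ => ((n : ℝ) ^ (1 + κ))⁻¹) :=
    Real.summable_nat_rpow_inv.mpr (by linarith)
  set S := ∑' n : ℕ, ((n : ℝ) ^ (1 + κ))⁻¹ with hS
  set N := ⌈1 / w0⌉₊ with hN
  refine ⟨C1 ^ N * Real.exp (C0 * S), ?_, ?_⟩
  · have h1 : (1 : ℝ) ≤ C1 ^ N := one_le_pow₀ hC1
    have hS0 : 0 ≤ S := tsum_nonneg fun n => by positivity
    have h2 : 1 ≤ Real.exp (C0 * S) := Real.one_le_exp (by positivity)
    nlinarith
  intro P hP
  have hterm : ∀ p ∈ P, (if 1 / (p:ℝ) ≤ w0 then 1 + C0 * (1 / (p:ℝ)) ^ (1 + κ) else C1)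
      ≤ (if p < N then C1 else 1) * Real.exp (C0 * ((p : ℝ) ^ (1 + κ))⁻¹) := by
    intro p hp
    have h2 := hP p hp
    have h2' : (2 : ℝ) ≤ p := by exact_mod_cast h2
    have hexp : 1 ≤ Real.exp (C0 * ((p : ℝ) ^ (1 + κ))⁻¹) := Real.one_le_exp (by positivity)
    have e : (1 / (p:ℝ)) ^ (1 + κ) = ((p : ℝ) ^ (1 + κ))⁻¹ := by
      rw [one_div, Real.inv_rpow (by positivity)]
    split_ifs with h h' h'
    · have := Real.add_one_le_exp (C0 * ((p : ℝ) ^ (1 + κ))⁻¹)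
      rw [e]
      nlinarith
    · have := Real.add_one_le_exp (C0 * ((p : ℝ) ^ (1 + κ))⁻¹)
      rw [e, one_mul]
      linarith
    · nlinarith
    · exfalso
      apply h
      rw [div_le_iff₀ (by linarith)]
      have h3 : 1 / w0 ≤ (N : ℝ) := Nat.le_ceil _
      have h4 : (N : ℝ) ≤ p := by exact_mod_cast (not_lt.mp h')
      rw [div_le_iff₀ hw0] at h3
      nlinarith
  calc ∏ p ∈ P, (if 1 / (p:ℝ) ≤ w0 then 1 + C0 * (1 / (p:ℝ)) ^ (1 + κ) else C1)
      ≤ ∏ p ∈ P, ((if p < N then C1 else 1) * Real.exp (C0 * ((p : ℝ) ^ (1 + κ))⁻¹)) := by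
        refine prod_le_prod (fun p hp => ?_) hterm
        split_ifs
        · positivity
        · linarith
    _ = (∏ p ∈ P, (if p < N then C1 else 1)) *
        Real.exp (∑ p ∈ P, C0 * ((p : ℝ) ^ (1 + κ))⁻¹) := by
        rw [prod_mul_distrib, Real.exp_sum]
    _ ≤ C1 ^ N * Real.exp (C0 * S) := by
        have h1 : (∏ p ∈ P, (if p < N then C1 else 1)) ≤ C1 ^ N := by
          rw [prod_ite, prod_const_one, mul_one, prod_const]
          refine pow_le_pow_right₀ hC1 ?_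
          calc (P.filter (· < N)).card ≤ (range N).card :=
                card_le_card fun x hx => mem_range.mpr (mem_filter.mp hx).2
            _ = N := card_range N
        have h2 : ∑ p ∈ P, C0 * ((p : ℝ) ^ (1 + κ))⁻¹ ≤ C0 * S := by
          rw [← mul_sum]
          exact mul_le_mul_of_nonneg_left
            (hs.sum_le_tsum P fun i _ => by positivity) hC0
        exact mul_le_mul h1 (Real.exp_le_exp.mpr h2) (Real.exp_pos _).le (by positivity)

/-- **THEOREM (T), arbitrary `M`**: absolute constants `Λ, C` depending only on `κ, r` -/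
theorem thmT_gen (hκ : 0 < κ) (hκ1 : κ < 1) (hr : 2 / (1 - κ) < r) :
    ∃ Λ C : ℝ, 0 ≤ Λ ∧ 1 ≤ C ∧ ∀ M : ℕ, 0 < M → ∀ (f g : ℕ → ℝ) (K : ℕ → ℕ → ℝ),
      (∀ b, 0 ≤ f b) → (∀ b, 0 ≤ g b) → (∀ s t, 0 ≤ K s t) →
      tform κ M f g K ≤ C *
        ((nf κ Λ M f) ^ ((1 + κ) / 2) * (nf κ Λ M g) ^ ((1 + κ) / 2) * (nK r M K) ^ (1 / r)) := by
  have h1 : 0 < 1 - κ := by linarith
  have hr2 : 2 < r := by
    have h2 : (2:ℝ) ≤ 2 / (1 - κ) := by
      rw [le_div_iff₀ h1]; linarith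
    linarith
  have hθ : 0 < th κ r := by
    have h2 : 1 / r < (1 - κ) / 2 := by
      have := one_div_lt_one_div_of_lt (by positivity) hr
      rw [one_div_div] at this
      exact this
    unfold th; linarith
  have hhalf : (1/2 : ℝ) ^ (th κ r) < 1 := Real.rpow_lt_one (by norm_num) (by norm_num) hθ
  have hhalf0 : 0 < (1/2 : ℝ) ^ (th κ r) := Real.rpow_pos_of_pos (by norm_num) _
  obtain ⟨Λ, C0, w0, hΛ, hC0, hw0, hsmall⟩ := mt_small hκ hκ1 hr
  set C1 := 4 / (1 - (1/2 : ℝ) ^ (th κ r)) with hC1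
  have hC11 : 1 ≤ C1 := by
    rw [hC1, le_div_iff₀ (by linarith)]
    linarith
  obtain ⟨C, hC1', hC⟩ := prod_bound hκ hC0 hw0 hC11
  refine ⟨Λ, C, hΛ, hC1', fun M hM f g K hf hg hK => ?_⟩
  have h := thmT_prod (κ := κ) (r := r) hκ (by linarith) hΛ
    (C := fun p => if 1 / (p:ℝ) ≤ w0 then 1 + C0 * (1 / (p:ℝ)) ^ (1 + κ) else C1)
    (fun p => by
      split_ifs
      · positivity
      · linarith)
    (fun p a hp ha => by
      split_ifs with h
      · exact hsmall p a hp.two_le ha h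
      · exact mt_large hκ hκ1 hr hΛ hp.two_le) M hM f g K hf hg hK
  refine h.trans (mul_le_mul_of_nonneg_right
    (hC M.primeFactors fun p hp => (Nat.prime_of_mem_primeFactors hp).two_le) ?_)
  exact mul_nonneg (mul_nonneg (Real.rpow_nonneg (nf_nonneg hΛ M hf) _)
    (Real.rpow_nonneg (nf_nonneg hΛ M hg) _)) (Real.rpow_nonneg (nK_nonneg M hK) _)

/-- from the weight `gcd` to the weight `gcd^(1-κ)` -/
lemma gcd_le (hκ : 0 < κ) {Y : ℝ} {b c : ℕ} (hb : 0 < b) (h : ((Nat.gcd b c : ℕ) : ℝ) ≤ Y) :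
    ((Nat.gcd b c : ℕ) : ℝ) ≤ Y ^ κ * ((Nat.gcd b c : ℕ) : ℝ) ^ (1 - κ) := by
  have h0 : (0:ℝ) < ((Nat.gcd b c : ℕ) : ℝ) := by exact_mod_cast Nat.gcd_pos_of_pos_left c hb
  calc ((Nat.gcd b c : ℕ) : ℝ) = ((Nat.gcd b c : ℕ) : ℝ) ^ κ * ((Nat.gcd b c : ℕ) : ℝ) ^ (1 - κ) := by
        rw [← Real.rpow_add h0]; simp
    _ ≤ _ := mul_le_mul_of_nonneg_right (Real.rpow_le_rpow h0.le h hκ.le)
        (Real.rpow_nonneg h0.le _)

open Classical in
/-- **COROLLARY (REL*)**: all pairs with `gcd ≤ Y`, weight `gcd`, any kernel of the cofactors -/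
theorem relstar_gen (hκ : 0 < κ) (hκ1 : κ < 1) (hr : 2 / (1 - κ) < r) :
    ∃ Λ C : ℝ, 0 ≤ Λ ∧ 1 ≤ C ∧ ∀ M : ℕ, 0 < M → ∀ (f g : ℕ → ℝ) (K : ℕ → ℕ → ℝ),
      (∀ b, 0 ≤ f b) → (∀ b, 0 ≤ g b) → (∀ s t, 0 ≤ K s t) → ∀ Y : ℝ, 0 ≤ Y →
      frm M (fun b c => if ((Nat.gcd b c : ℕ) : ℝ) ≤ Y then
        f b * g c * K (b / Nat.gcd b c) (c / Nat.gcd b c) else 0) ≤ C * Y ^ κ *
        ((nf κ Λ M f) ^ ((1 + κ) / 2) * (nf κ Λ M g) ^ ((1 + κ) / 2) * (nK r M K) ^ (1 / r)) := by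
  obtain ⟨Λ, C, hΛ, hC1, hC⟩ := thmT_gen hκ hκ1 hr
  refine ⟨Λ, C, hΛ, hC1, fun M hM f g K hf hg hK Y hY => ?_⟩
  have h := hC M hM f g K hf hg hK
  calc _ ≤ ∑ b ∈ M.divisors, ∑ c ∈ M.divisors, Y ^ κ *
        (nu M b * nu M c * ((Nat.gcd b c : ℕ) : ℝ) ^ (1 - κ) *
          (f b * g c * K (b / Nat.gcd b c) (c / Nat.gcd b c))) := by
        unfold frm
        refine sum_le_sum fun b hb => sum_le_sum fun c _ => ?_
        have hb0 : 0 < b := Nat.pos_of_mem_divisors hb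
        have hn : 0 ≤ nu M b * nu M c * (f b * g c * K (b / Nat.gcd b c) (c / Nat.gcd b c)) :=
          mul_nonneg (mul_nonneg (nu_nonneg _ _) (nu_nonneg _ _))
            (mul_nonneg (mul_nonneg (hf _) (hg _)) (hK _ _))
        beta_reduce
        split_ifs with hy
        · have := mul_le_mul_of_nonneg_left (gcd_le hκ hb0 hy) hn
          calc _ = nu M b * nu M c * (f b * g c * K (b / Nat.gcd b c) (c / Nat.gcd b c)) *
                ((Nat.gcd b c : ℕ) : ℝ) := by ring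
            _ ≤ _ := this
            _ = _ := by ring
        · rw [mul_zero]
          have : 0 ≤ Y ^ κ * ((Nat.gcd b c : ℕ) : ℝ) ^ (1 - κ) := by positivity
          have := mul_nonneg this hn
          calc (0:ℝ) ≤ _ := this
            _ = _ := by ring
    _ = Y ^ κ * tform κ M f g K := by
        unfold tform
        simp only [mul_sum]
    _ ≤ Y ^ κ * (C * ((nf κ Λ M f) ^ ((1 + κ) / 2) * (nf κ Λ M g) ^ ((1 + κ) / 2)
            * (nK r M K) ^ (1 / r))) :=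
        mul_le_mul_of_nonneg_left h (Real.rpow_nonneg hY κ)
    _ = _ := by ring

open Classical in
/-- (REL*) for sets and a relation `R` between the cofactors (`R` is only tested on coprime
cofactors; its density is the plain natural density) -/
theorem relset_gen (hκ : 0 < κ) (hκ1 : κ < 1) (hr : 2 / (1 - κ) < r) :
    ∃ Λ C : ℝ, 0 ≤ Λ ∧ 1 ≤ C ∧ ∀ M : ℕ, 0 < M → ∀ (B B' : Finset ℕ) (R : ℕ → ℕ → Prop),
      ∀ Y : ℝ, 0 ≤ Y →
      frm M (fun b c => if b ∈ B ∧ c ∈ B' ∧ ((Nat.gcd b c : ℕ) : ℝ) ≤ Y ∧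
        R (b / Nat.gcd b c) (c / Nat.gcd b c) then 1 else 0) ≤ C * Y ^ κ *
        ((∑ b ∈ M.divisors, if b ∈ B then nu M b * an Λ b else 0) ^ ((1 + κ) / 2) *
         (∑ b ∈ M.divisors, if b ∈ B' then nu M b * an Λ b else 0) ^ ((1 + κ) / 2) *
         (∑ s ∈ M.divisors, ∑ t ∈ M.divisors, if Nat.Coprime s t ∧ R s t then nu M s * nu M t else 0)
          ^ (1 / r)) := by
  obtain ⟨Λ, C, hΛ, hC1, hC⟩ := relstar_gen hκ hκ1 hr
  have h1 : 0 < 1 - κ := by linarith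
  have hr2 : 2 < r := by
    have h2 : (2:ℝ) ≤ 2 / (1 - κ) := by
      rw [le_div_iff₀ h1]; linarith
    linarith
  refine ⟨Λ, C, hΛ, hC1, fun M hM B B' R Y hY => ?_⟩
  have h := hC M hM (fun b => if b ∈ B then 1 else 0) (fun b => if b ∈ B' then 1 else 0)
    (fun s t => if Nat.Coprime s t ∧ R s t then 1 else 0)
    (fun b => by split_ifs <;> norm_num) (fun b => by split_ifs <;> norm_num)
    (fun s t => by split_ifs <;> norm_num) Y hY
  have hq : (2 / (1 + κ)) ≠ 0 := by positivity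
  have e1 : ∀ B : Finset ℕ, nf κ Λ M (fun b => if b ∈ B then 1 else 0) =
      ∑ b ∈ M.divisors, if b ∈ B then nu M b * an Λ b else 0 := by
    intro B
    unfold nf
    refine sum_congr rfl fun b _ => ?_
    beta_reduce
    split_ifs
    · rw [Real.one_rpow, mul_one]
    · rw [Real.zero_rpow hq, mul_zero]
  have e2 : nK r M (fun s t => if Nat.Coprime s t ∧ R s t then 1 else 0) =
      ∑ s ∈ M.divisors, ∑ t ∈ M.divisors, if Nat.Coprime s t ∧ R s t then nu M s * nu M t else 0 := by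
    unfold nK
    refine sum_congr rfl fun s _ => sum_congr rfl fun t _ => ?_
    beta_reduce
    split_ifs
    · rw [Real.one_rpow, mul_one]
    · rw [Real.zero_rpow (by linarith), mul_zero]
  rw [e1, e1, e2] at h
  refine le_trans (le_of_eq ?_) h
  unfold frm
  refine sum_congr rfl fun b hb => sum_congr rfl fun c _ => ?_
  have hb0 : 0 < b := Nat.pos_of_mem_divisors hb
  have hcop : Nat.Coprime (b / Nat.gcd b c) (c / Nat.gcd b c) :=
    Nat.coprime_div_gcd_div_gcd (Nat.gcd_pos_of_pos_left c hb0)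
  congr 1
  by_cases c1 : b ∈ B <;> by_cases c2 : c ∈ B' <;> by_cases c3 : ((Nat.gcd b c : ℕ) : ℝ) ≤ Y <;>
    by_cases c4 : R (b / Nat.gcd b c) (c / Nat.gcd b c) <;> simp [c1, c2, c3, c4, hcop]

end Crest.Agent.R4C.TGenx590
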