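import Crest.Agent.R4C.MXlow_808
import Crest.Agent.R4C.TGen_590

/-!
# Row 4: the low half of MX, unconditional (helper808, from 590's `thmT_gen`)

`tgen`  : `0 < κ < 1`, `2/(1-κ) < r` : there are `Λ ≥ 0`, `C ≥ 1` with `TGen κ r Λ C`
(all `M ≠ 0`).  Then `mxlow`, `mxlow_v`, `mxlow_two`, `mxlow_plain` of `MXlow_808` hold without
hypothesis; for convenience:

* `mxlowU`    : `Σ_{G < gcd ≤ 2G} gcd ν ν f f' K ≤ C τ^(1/r) G^κ (D f)^((1+κ)/2) (D f')^((1+κ)/2)`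
* `mxlowU_two`: the minimum of the two exponents `η < η'` with common constants `Λ, C`.
-/

set_option autoImplicit false

open Finset

namespace Crest.Agent.R4C.MXlowBx808

open Basex935 MXlowx808 TGenx590

lemma an_eq (Λ : ℝ) (b : ℕ) : an Λ b = aw Λ b := rfl

/-- THEOREM (T) for general `M` in the form used by `MXlow_808` -/
theorem tgen {κ r : ℝ} (hκ : 0 < κ) (hκ1 : κ < 1) (hr : 2 / (1 - κ) < r) :
    ∃ Λ C : ℝ, 0 ≤ Λ ∧ 1 ≤ C ∧ TGen κ r Λ C := by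
  obtain ⟨Λ, C, hΛ, hC1, hC⟩ := thmT_gen hκ hκ1 hr
  have h1 : 0 < 1 - κ := by linarith
  have hr0 : 0 < r := lt_trans (by positivity) hr
  refine ⟨Λ, C, hΛ, hC1, ?_⟩
  intro M f f' K hM hf hf' hK
  have hM0 : 0 < M := Nat.pos_of_ne_zero hM
  have h := hC M hM0 f f' (fun s t => if Nat.Coprime s t then K s t else 0) hf hf'
    (fun s t => by
      show 0 ≤ (if Nat.Coprime s t then K s t else 0)
      split_ifs
      · exact hK s t
      · exact le_rfl)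
  have e1 : tform κ M f f' (fun s t => if Nat.Coprime s t then K s t else 0) =
      ∑ b ∈ M.divisors, ∑ c ∈ M.divisors, nu M b * nu M c * (Nat.gcd b c : ℝ) ^ (1 - κ) *
        (f b * f' c * K (b / Nat.gcd b c) (c / Nat.gcd b c)) := by
    unfold tform
    refine sum_congr rfl fun b hb => sum_congr rfl fun c _ => ?_
    have hb0 : 0 < b := Nat.pos_of_mem_divisors hb
    have hco : Nat.Coprime (b / Nat.gcd b c) (c / Nat.gcd b c) :=
      Nat.coprime_div_gcd_div_gcd (Nat.gcd_pos_of_pos_left c hb0)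
    show nu M b * nu M c * (Nat.gcd b c : ℝ) ^ (1 - κ) * (f b * f' c *
      (if Nat.Coprime (b / Nat.gcd b c) (c / Nat.gcd b c) then
        K (b / Nat.gcd b c) (c / Nat.gcd b c) else 0)) = _
    rw [if_pos hco]
  have e2 : nK r M (fun s t => if Nat.Coprime s t then K s t else 0) =
      dens M fun s t => K s t ^ r := by
    unfold nK MXlowx808.dens
    refine sum_congr rfl fun s _ => sum_congr rfl fun t _ => ?_
    show nu M s * nu M t * (if Nat.Coprime s t then K s t else 0) ^ r =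
      if Nat.Coprime s t then nu M s * nu M t * K s t ^ r else 0
    split_ifs
    · rfl
    · rw [Real.zero_rpow hr0.ne', mul_zero]
  rw [e1, e2] at h
  refine h.trans (le_of_eq ?_)
  show C * ((DD Λ M fun b => f b ^ (2 / (1 + κ))) ^ ((1 + κ) / 2) *
      (DD Λ M fun b => f' b ^ (2 / (1 + κ))) ^ ((1 + κ) / 2) *
        (dens M fun s t => K s t ^ r) ^ (1 / r)) = _
  ring

/-- `TGen` is monotone in `Λ` and `C` -/
lemma TGen.mono {κ r Λ Λ' C C' : ℝ} (hκ : 0 < κ) (hΛ : 0 ≤ Λ) (hΛ' : Λ ≤ Λ') (hC : 0 ≤ C)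
    (hC' : C ≤ C') (h : TGen κ r Λ C) : TGen κ r Λ' C' := by
  intro M f f' K hM hf hf' hK
  refine (h M f f' K hM hf hf' hK).trans ?_
  have hdens0 : 0 ≤ dens M fun s t => K s t ^ r :=
    dens_nonneg M fun s t => Real.rpow_nonneg (hK s t) _
  have hρ : 0 ≤ (1 + κ) / 2 := by positivity
  have haw : ∀ b, aw Λ b ≤ aw Λ' b := by
    intro b
    unfold aw
    refine Finset.prod_le_prod (fun p _ => by positivity) fun p _ => ?_
    have : Λ / (p : ℝ) ≤ Λ' / p := div_le_div_of_nonneg_right hΛ' (Nat.cast_nonneg p)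
    linarith
  have hDD : ∀ g : ℕ → ℝ, (∀ b, 0 ≤ g b) → DD Λ M g ≤ DD Λ' M g := by
    intro g hg
    unfold DD
    refine Finset.sum_le_sum fun b _ => ?_
    exact mul_le_mul_of_nonneg_right (mul_le_mul_of_nonneg_left (haw b) (nu_nonneg M b)) (hg b)
  have hq : ∀ b, 0 ≤ f b ^ (2 / (1 + κ)) := fun b => Real.rpow_nonneg (hf b) _
  have hq' : ∀ b, 0 ≤ f' b ^ (2 / (1 + κ)) := fun b => Real.rpow_nonneg (hf' b) _
  have a1 : (DD Λ M fun b => f b ^ (2 / (1 + κ))) ^ ((1 + κ) / 2) ≤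
      (DD Λ' M fun b => f b ^ (2 / (1 + κ))) ^ ((1 + κ) / 2) :=
    Real.rpow_le_rpow (DD_nonneg hΛ M hq) (hDD _ hq) hρ
  have a2 : (DD Λ M fun b => f' b ^ (2 / (1 + κ))) ^ ((1 + κ) / 2) ≤
      (DD Λ' M fun b => f' b ^ (2 / (1 + κ))) ^ ((1 + κ) / 2) :=
    Real.rpow_le_rpow (DD_nonneg hΛ M hq') (hDD _ hq') hρ
  have b1 : 0 ≤ (DD Λ M fun b => f b ^ (2 / (1 + κ))) ^ ((1 + κ) / 2) :=
    Real.rpow_nonneg (DD_nonneg hΛ M hq) _
  have b2 : 0 ≤ (DD Λ M fun b => f' b ^ (2 / (1 + κ))) ^ ((1 + κ) / 2) :=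
    Real.rpow_nonneg (DD_nonneg hΛ M hq') _
  refine mul_le_mul_of_nonneg_right ?_ (Real.rpow_nonneg hdens0 _)
  refine mul_le_mul hC' (mul_le_mul a1 a2 b2 (b1.trans a1)) (mul_nonneg b1 b2) (hC.trans hC')

/-- unconditional `mxlow` (constants `Λ, C` depend only on `κ, r`) -/
theorem mxlowU {κ r : ℝ} (hκ : 0 < κ) (hκ1 : κ < 1) (hr : 2 / (1 - κ) < r) :
    ∃ Λ C : ℝ, 0 ≤ Λ ∧ 1 ≤ C ∧ ∀ (M : ℕ) (f f' : ℕ → ℝ) (K : ℕ → ℕ → ℝ) (τ G : ℝ), M ≠ 0 →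
      (∀ b, 0 ≤ f b) → (∀ b, f b ≤ 1) → (∀ b, 0 ≤ f' b) → (∀ b, f' b ≤ 1) →
      (∀ s t, 0 ≤ K s t) → (∀ s t, K s t ≤ 1) → dens M K ≤ τ → 0 < G →
      ER M G f f' K ≤ C * τ ^ (1 / r) * G ^ κ *
        ((DD Λ M f) ^ ((1 + κ) / 2) * (DD Λ M f') ^ ((1 + κ) / 2)) := by
  obtain ⟨Λ, C, hΛ, hC, hT⟩ := tgen hκ hκ1 hr
  have h1 : 0 < 1 - κ := by linarith
  have hr2 : 2 < r := by
    have h2 : (2:ℝ) ≤ 2 / (1 - κ) := by
      rw [le_div_iff₀ h1]; linarith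
    linarith
  refine ⟨Λ, 2 * C, hΛ, by linarith, ?_⟩
  intro M f f' K τ G hM hf hf1 hf' hf1' hK hK1 hτ hG
  exact mxlow hκ hκ1 (by linarith) hΛ (by linarith) hT hM hf hf1 hf' hf1' hK hK1 (by linarith)
    hτ hG

/-- unconditional two-exponent form, common constants -/
theorem mxlowU_two {η η' r : ℝ} (hη : 0 < η) (hη1 : η < 1) (hη' : 0 < η') (hη1' : η' < 1)
    (hr : 2 / (1 - η) < r) (hr' : 2 / (1 - η') < r) :
    ∃ Λ C : ℝ, 0 ≤ Λ ∧ 1 ≤ C ∧ ∀ (M : ℕ) (f f' : ℕ → ℝ) (K : ℕ → ℕ → ℝ) (τ G : ℝ), M ≠ 0 →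
      (∀ b, 0 ≤ f b) → (∀ b, f b ≤ 1) → (∀ b, 0 ≤ f' b) → (∀ b, f' b ≤ 1) →
      (∀ s t, 0 ≤ K s t) → (∀ s t, K s t ≤ 1) → dens M K ≤ τ → 0 < G →
      ER M G f f' K ≤ C * τ ^ (1 / r) * G⁻¹ *
        min (((G * DD Λ M f) * (G * DD Λ M f')) ^ ((1 + η) / 2))
          (((G * DD Λ M f) * (G * DD Λ M f')) ^ ((1 + η') / 2)) := by
  obtain ⟨Λ1, C1, hΛ1, hC1, hT1⟩ := tgen hη hη1 hr
  obtain ⟨Λ2, C2, hΛ2, hC2, hT2⟩ := tgen hη' hη1' hr'
  have h1 : 0 < 1 - η := by linarith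
  have hr2 : 2 < r := by
    have h2 : (2:ℝ) ≤ 2 / (1 - η) := by
      rw [le_div_iff₀ h1]; linarith
    linarith
  have hmC : 1 ≤ max C1 C2 := le_max_of_le_left hC1
  refine ⟨max Λ1 Λ2, 2 * max C1 C2, le_max_of_le_left hΛ1, by linarith, ?_⟩
  intro M f f' K τ G hM hf hf1 hf' hf1' hK hK1 hτ hG
  exact mxlow_two hη hη1 hη' hη1' (by linarith) (le_max_of_le_left hΛ1) (by linarith)
    (TGen.mono hη hΛ1 (le_max_left _ _) (by linarith) (le_max_left _ _) hT1)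
    (TGen.mono hη' hΛ2 (le_max_right _ _) (by linarith) (le_max_right _ _) hT2)
    hM hf hf1 hf' hf1' hK hK1 hτ hG

end Crest.Agent.R4C.MXlowBx808
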