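import Mathlib

/-!
# Row 4, BLOCK S2 (note 2736): the KILL LEMMA (helper949)

`q = G s'`, `q' = G s`, `s = s₀ x`, `s' = s₀' x'` coprime, offset `h`, `|(s - s') γ + h| < 1/t`.
Labels `a/k` of `x γ` and `a'/k'` of `x' γ` in lowest terms.
-/

set_option autoImplicit false

namespace Crest.Agent.R4C.KillS2x949

/-- the two labels are the same point -/
theorem same_pt {γ t E : ℝ} {s₀ x s₀' x' : ℕ} {a a' h : ℤ} {k k' : ℕ} (hs : 0 < s₀) (hs' : 0 < s₀')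
    (hk : 0 < k) (hk' : 0 < k') (hE : 0 < E) (ht : E ^ 2 * (1 + 2 * E) ≤ t)
    (hkE : (k : ℝ) ≤ E) (hkE' : (k' : ℝ) ≤ E)
    (hl : |((s₀ : ℝ) * x - s₀' * x') * γ + h| < 1 / t)
    (h1 : |(x : ℝ) * γ - a / k| ≤ E / (t * s₀)) (h2 : |(x' : ℝ) * γ - a' / k'| ≤ E / (t * s₀')) :
    s₀ * a * k' - s₀' * a' * k + h * (k * k') = 0 := by
  have hs0 : (0 : ℝ) < s₀ := by exact_mod_cast hs
  have hs0' : (0 : ℝ) < s₀' := by exact_mod_cast hs'
  have hk0 : (0 : ℝ) < k := by exact_mod_cast hk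
  have hk0' : (0 : ℝ) < k' := by exact_mod_cast hk'
  have ht0 : 0 < t := lt_of_lt_of_le (by positivity) ht
  set X : ℤ := s₀ * a * k' - s₀' * a' * k + h * (k * k') with hX
  have e : (X : ℝ) = (k * k') * ((((s₀ : ℝ) * x - s₀' * x') * γ + h) - s₀ * ((x : ℝ) * γ - a / k)
      + s₀' * ((x' : ℝ) * γ - a' / k')) := by
    rw [hX]
    push_cast
    field_simp
    ring
  have b1 : |(s₀ : ℝ) * ((x : ℝ) * γ - a / k)| ≤ E / t := by
    rw [abs_mul, abs_of_pos hs0]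
    calc (s₀ : ℝ) * |(x : ℝ) * γ - a / k| ≤ s₀ * (E / (t * s₀)) :=
          mul_le_mul_of_nonneg_left h1 hs0.le
      _ = E / t := by field_simp
  have b2 : |(s₀' : ℝ) * ((x' : ℝ) * γ - a' / k')| ≤ E / t := by
    rw [abs_mul, abs_of_pos hs0']
    calc (s₀' : ℝ) * |(x' : ℝ) * γ - a' / k'| ≤ s₀' * (E / (t * s₀')) :=
          mul_le_mul_of_nonneg_left h2 hs0'.le
      _ = E / t := by field_simp
  have b3 : |((((s₀ : ℝ) * x - s₀' * x') * γ + h) - s₀ * ((x : ℝ) * γ - a / k)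
      + s₀' * ((x' : ℝ) * γ - a' / k'))| < (1 + 2 * E) / t := by
    have h3 := abs_add_le ((((s₀ : ℝ) * x - s₀' * x') * γ + h) - s₀ * ((x : ℝ) * γ - a / k))
      (s₀' * ((x' : ℝ) * γ - a' / k'))
    have h4 := abs_sub ((((s₀ : ℝ) * x - s₀' * x') * γ + h)) (s₀ * ((x : ℝ) * γ - a / k))
    have h5 : (1 + 2 * E) / t = 1 / t + E / t + E / t := by ring
    rw [h5]
    linarith
  have b4 : |(X : ℝ)| < 1 := by
    rw [e, abs_mul, abs_of_pos (mul_pos hk0 hk0')]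
    calc (k * k' : ℝ) * _ < (k * k') * ((1 + 2 * E) / t) :=
          mul_lt_mul_of_pos_left b3 (mul_pos hk0 hk0')
      _ ≤ (E * E) * ((1 + 2 * E) / t) := by
          refine mul_le_mul_of_nonneg_right ?_ (by positivity)
          exact mul_le_mul hkE hkE' hk0'.le hE.le
      _ = (E ^ 2 * (1 + 2 * E)) / t := by ring
      _ ≤ 1 := by rw [div_le_one ht0]; exact ht
  have b5 : |X| < 1 := by exact_mod_cast b4
  exact Int.abs_lt_one_iff.1 b5

/-- **structure of a common centre** -/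
theorem structure_ {s₀ s₀' : ℕ} {a a' h : ℤ} {k k' : ℕ}
    (hk : 0 < k) (hk' : 0 < k') (hc : IsCoprime a (k : ℤ)) (hc' : IsCoprime a' (k' : ℤ))
    (hz : s₀ * a * k' - s₀' * a' * k + h * (k * k') = 0) :
    ∃ κ k₁ k₁' r r' : ℕ, κ = Nat.gcd k k' ∧ k = κ * k₁ ∧ k' = κ * k₁' ∧ Nat.Coprime k₁ k₁' ∧
      s₀ = k₁ * r ∧ s₀' = k₁' * r' ∧ (r : ℤ) * a - r' * a' + h * κ = 0 := by
  obtain ⟨k₁, hk₁⟩ := Nat.gcd_dvd_left k k'
  obtain ⟨k₁', hk₁'⟩ := Nat.gcd_dvd_right k k'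
  set κ := Nat.gcd k k' with hκ
  have hκ0 : 0 < κ := Nat.gcd_pos_of_pos_left _ hk
  have hcop : Nat.Coprime k₁ k₁' := by
    have := Nat.gcd_mul_left κ k₁ k₁'
    rw [← hk₁, ← hk₁', ← hκ] at this
    exact Nat.eq_of_mul_eq_mul_left hκ0 (by rw [← this, mul_one])
  have hκz : (κ : ℤ) ≠ 0 := by exact_mod_cast hκ0.ne'
  have ek : (k : ℤ) = κ * k₁ := by exact_mod_cast hk₁
  have ek' : (k' : ℤ) = κ * k₁' := by exact_mod_cast hk₁'
  have e1 : s₀ * a * k₁' - s₀' * a' * k₁ + h * (κ * k₁ * k₁') = 0 := by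
    have : (κ : ℤ) * (s₀ * a * k₁' - s₀' * a' * k₁ + h * (κ * k₁ * k₁')) = 0 := by
      rw [ek, ek'] at hz
      linear_combination hz
    exact (mul_eq_zero.1 this).resolve_left hκz
  have c1 : IsCoprime (k₁ : ℤ) (k₁' : ℤ) := Nat.isCoprime_iff_coprime.2 hcop
  have c2 : IsCoprime (k₁ : ℤ) a := by
    rw [ek] at hc
    exact hc.symm.of_mul_left_right
  have c3 : IsCoprime (k₁' : ℤ) a' := by
    rw [ek'] at hc'
    exact hc'.symm.of_mul_left_right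
  have d1 : (k₁ : ℤ) ∣ s₀ := by
    have : (k₁ : ℤ) ∣ s₀ * (a * k₁') := ⟨s₀' * a' - h * (κ * k₁'), by linear_combination e1⟩
    exact (c2.mul_right c1).dvd_of_dvd_mul_right this
  have d2 : (k₁' : ℤ) ∣ s₀' := by
    have : (k₁' : ℤ) ∣ s₀' * (a' * k₁) := ⟨s₀ * a + h * (κ * k₁), by linear_combination -e1⟩
    exact (c3.mul_right c1.symm).dvd_of_dvd_mul_right this
  obtain ⟨r, hr⟩ := Int.natCast_dvd_natCast.1 d1
  obtain ⟨r', hr'⟩ := Int.natCast_dvd_natCast.1 d2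
  refine ⟨κ, k₁, k₁', r, r', rfl, hk₁, hk₁', hcop, hr, hr', ?_⟩
  have hk10 : (k₁ : ℤ) ≠ 0 := by
    have : k₁ ≠ 0 := by rintro rfl; rw [mul_zero] at hk₁; omega
    exact_mod_cast this
  have hk10' : (k₁' : ℤ) ≠ 0 := by
    have : k₁' ≠ 0 := by rintro rfl; rw [mul_zero] at hk₁'; omega
    exact_mod_cast this
  have es : (s₀ : ℤ) = k₁ * r := by exact_mod_cast hr
  have es' : (s₀' : ℤ) = k₁' * r' := by exact_mod_cast hr'
  have : ((k₁ : ℤ) * k₁') * (r * a - r' * a' + h * κ) = 0 := by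
    rw [es, es'] at e1
    linear_combination e1
  exact (mul_eq_zero.1 this).resolve_left (mul_ne_zero hk10 hk10')

/-- **the prime `p ∣ r'` kills** -/
theorem kills {x s s₀ k k₁ κ r r' : ℕ} {a a' h : ℤ} {p : ℕ} (hp : p.Prime)
    (hsx : s = s₀ * x) (hs0 : s₀ = k₁ * r) (hk : k = κ * k₁)
    (hc : IsCoprime a (k : ℤ)) (hps : ¬ p ∣ s) (hpr : p ∣ r')
    (hz : (r : ℤ) * a - r' * a' + h * κ = 0) :
    ¬ p ∣ k * x ∧ ∀ c : ℤ, (p : ℤ) ∣ a + k * x * c → (p : ℤ) ∣ h - s * c := by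
  have hpZ : Prime (p : ℤ) := Nat.prime_iff_prime_int.1 hp
  have hpr' : (p : ℤ) ∣ (r' : ℤ) := by exact_mod_cast hpr
  have hpx : ¬ p ∣ x := fun hd => hps (by rw [hsx]; exact hd.mul_left _)
  have hpk₁ : ¬ p ∣ k₁ := fun hd => hps (by rw [hsx, hs0]; exact (hd.mul_right _).mul_right _)
  have hprr : ¬ p ∣ r := fun hd => hps (by rw [hsx, hs0]; exact (hd.mul_left _).mul_right _)
  have hpk : ¬ p ∣ k := by
    intro hd
    rw [hk] at hd
    have hκ : p ∣ κ := ((hp.dvd_mul).1 hd).resolve_right hpk₁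
    have hκ' : (p : ℤ) ∣ (κ : ℤ) := by exact_mod_cast hκ
    have h1 : (p : ℤ) ∣ r * a := by
      have e : (r : ℤ) * a = r' * a' - h * κ := by linear_combination hz
      rw [e]
      exact dvd_sub (hpr'.mul_right _) (hκ'.mul_left _)
    have h2 : (p : ℤ) ∣ a := by
      rcases hpZ.dvd_or_dvd h1 with h3 | h3
      · exact absurd (by exact_mod_cast h3) hprr
      · exact h3
    have h4 : (p : ℤ) ∣ k := by rw [hk]; push_cast; exact hκ'.mul_right _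
    exact hpZ.not_isUnit (hc.isUnit_of_dvd' h2 h4)
  refine ⟨fun hd => ?_, fun c hcc => ?_⟩
  · rcases (hp.dvd_mul).1 hd with h1 | h1
    · exact hpk h1
    · exact hpx h1
  · -- `s a + k x h = k₁ x r' a'`
    have e1 : (s : ℤ) * a + k * x * h = k₁ * x * (r' * a') := by
      have h1 : (s : ℤ) = k₁ * r * x := by rw [hsx, hs0]; push_cast; ring
      have h2 : (k : ℤ) = κ * k₁ := by exact_mod_cast hk
      rw [h1, h2]
      linear_combination (k₁ : ℤ) * x * hz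
    have h1 : (p : ℤ) ∣ (k * x) * (h - s * c) := by
      have e2 : ((k : ℤ) * x) * (h - s * c) = k₁ * x * (r' * a') - s * (a + k * x * c) := by
        linear_combination e1
      rw [e2]
      exact dvd_sub ((hpr'.mul_right _).mul_left _) (hcc.mul_left _)
    rcases hpZ.dvd_or_dvd h1 with h2 | h2
    · exfalso
      have h3 : p ∣ k * x := by exact_mod_cast h2
      rcases (hp.dvd_mul).1 h3 with h4 | h4
      · exact hpk h4
      · exact hpx h4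
    · exact h2

/-- **KILL LEMMA** (2736).  With `κ = gcd(k,k')`, `k = κ k₁`, `k' = κ k₁'`: `s₀ = k₁ r`,
`s₀' = k₁' r'`, `gcd(r,r') = 1` and every prime `p ∣ r'` (resp. `p ∣ r`) kills. -/
theorem kill_lemma {γ t E : ℝ} {s s' s₀ x s₀' x' : ℕ} {a a' h : ℤ} {k k' : ℕ}
    (hsx : s = s₀ * x) (hsx' : s' = s₀' * x') (hs0 : 0 < s) (hs0' : 0 < s')
    (hcop : Nat.Coprime s s')
    (hk : 0 < k) (hk' : 0 < k') (hc : IsCoprime a (k : ℤ)) (hc' : IsCoprime a' (k' : ℤ))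
    (hE : 0 < E) (ht : E ^ 2 * (1 + 2 * E) ≤ t) (hkE : (k : ℝ) ≤ E) (hkE' : (k' : ℝ) ≤ E)
    (hl : |((s : ℝ) - s') * γ + h| < 1 / t)
    (h1 : |(x : ℝ) * γ - a / k| ≤ E / (t * s₀)) (h2 : |(x' : ℝ) * γ - a' / k'| ≤ E / (t * s₀')) :
    ∃ r r' : ℕ, s₀ = (k / Nat.gcd k k') * r ∧ s₀' = (k' / Nat.gcd k k') * r' ∧
      Nat.Coprime r r' ∧ (r : ℤ) * a - r' * a' + h * (Nat.gcd k k' : ℕ) = 0 ∧
      (∀ p : ℕ, p.Prime → p ∣ r' → p ∣ s' ∧ ¬ p ∣ s ∧ ¬ p ∣ k * x ∧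
        ∀ c : ℤ, (p : ℤ) ∣ a + k * x * c → (p : ℤ) ∣ h - s * c) ∧
      (∀ p : ℕ, p.Prime → p ∣ r → p ∣ s ∧ ¬ p ∣ s' ∧ ¬ p ∣ k' * x' ∧
        ∀ c : ℤ, (p : ℤ) ∣ a' + k' * x' * c → (p : ℤ) ∣ h + s' * c) := by
  have hs : 0 < s₀ := Nat.pos_of_ne_zero (by rintro rfl; simp at hsx; omega)
  have hs' : 0 < s₀' := Nat.pos_of_ne_zero (by rintro rfl; simp at hsx'; omega)
  have hl' : |((s₀ : ℝ) * x - s₀' * x') * γ + h| < 1 / t := by
    have e : ((s₀ : ℝ) * x - s₀' * x') = (s : ℝ) - s' := by rw [hsx, hsx']; push_cast; ring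
    rw [e]; exact hl
  have hz := same_pt hs hs' hk hk' hE ht hkE hkE' hl' h1 h2
  obtain ⟨κ, k₁, k₁', r, r', hκ, ek, ek', ck, es, es', hz'⟩ := structure_ hk hk' hc hc' hz
  have hκ0 : 0 < κ := by rw [hκ]; exact Nat.gcd_pos_of_pos_left _ hk
  have dk : k / Nat.gcd k k' = k₁ := by
    rw [← hκ]; exact Nat.div_eq_of_eq_mul_right hκ0 ek
  have dk' : k' / Nat.gcd k k' = k₁' := by
    rw [← hκ]; exact Nat.div_eq_of_eq_mul_right hκ0 ek'
  have hrs : r ∣ s := by rw [hsx, es]; exact (Dvd.intro_left _ rfl).mul_right _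
  have hrs' : r' ∣ s' := by rw [hsx', es']; exact (Dvd.intro_left _ rfl).mul_right _
  refine ⟨r, r', by rw [dk]; exact es, by rw [dk']; exact es',
    Nat.Coprime.coprime_dvd_left hrs (Nat.Coprime.coprime_dvd_right hrs' hcop), by rw [← hκ]; exact hz',
    fun p hp hpr => ?_, fun p hp hpr => ?_⟩
  · have hps' : p ∣ s' := hpr.trans hrs'
    have hps : ¬ p ∣ s := fun hd => by
      have := Nat.dvd_gcd hd hps'
      rw [hcop.gcd_eq_one] at this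
      exact hp.one_lt.ne' (Nat.dvd_one.1 this)
    obtain ⟨q1, q2⟩ := kills hp hsx es ek hc hps hpr hz'
    exact ⟨hps', hps, q1, q2⟩
  · have hps : p ∣ s := hpr.trans hrs
    have hps' : ¬ p ∣ s' := fun hd => by
      have := Nat.dvd_gcd hps hd
      rw [hcop.gcd_eq_one] at this
      exact hp.one_lt.ne' (Nat.dvd_one.1 this)
    have hz'' : (r' : ℤ) * a' - r * a + (-h) * κ = 0 := by linear_combination -hz'
    obtain ⟨q1, q2⟩ := kills hp hsx' es' ek' hc' hps' hpr hz''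
    refine ⟨hps, hps', q1, fun c hcc => ?_⟩
    have := q2 c hcc
    have e : h + s' * c = -(-h - s' * c) := by ring
    rw [e]
    exact (dvd_neg).2 this

/-- kind (ii-a) or some killing prime -/
theorem special_or_kill {r r' : ℕ} :
    (r = 1 ∧ r' = 1) ∨ (∃ p : ℕ, p.Prime ∧ p ∣ r') ∨ (∃ p : ℕ, p.Prime ∧ p ∣ r) := by
  rcases eq_or_ne r' 1 with h' | h'
  · rcases eq_or_ne r 1 with h | h
    · exact Or.inl ⟨h, h'⟩
    · exact Or.inr (Or.inr (Nat.exists_prime_and_dvd h))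
  · exact Or.inr (Or.inl (Nat.exists_prime_and_dvd h'))

end Crest.Agent.R4C.KillS2x949
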