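import Crest.Agent.R4C.S2a_232
import Crest.Agent.R4C.KillS2_949

/-! Row 4, BLOCK S2 v1.1 (notes 2736, 2896): classification theorem, two words, short word,
doubling along `t`. -/

set_option autoImplicit false

open Finset

namespace Crest.Agent.R4C.S2bx284

open Crest.Agent.R4C.S2x232

/-- dyadic floor -/
def dy (u : ℕ) : ℕ := 2 ^ Nat.log 2 u

lemma dy_pos (u : ℕ) : 1 ≤ dy u := Nat.one_le_two_pow

lemma dy_le {u : ℕ} (hu : 1 ≤ u) : dy u ≤ u := Nat.pow_log_le_self 2 (by omega)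

lemma lt_dy (u : ℕ) : u < 2 * dy u := by
  have := Nat.lt_pow_succ_log_self (b := 2) (by norm_num) u
  unfold dy
  rw [Nat.pow_succ] at this
  omega

/-- kind (i) -/
def Rare (ξ ξ' t D : ℝ) (u v : ℕ) : Prop :=
  ((boxN ξ ξ' t (dy u) (dy v)).card : ℝ) ≤ 8 * dy u * dy v / D

/-- kind (iii) -/
def Uniq (ξ ξ' t D : ℝ) (u v : ℕ) : Prop :=
  Nat.Coprime u v ∧ NN ξ ξ' t u v ∧ (u:ℝ) < 2*D^2 ∧ (v:ℝ) < 2*D^2 ∧
  ∀ u1 v1 : ℕ, Nat.Coprime u1 v1 → NN ξ ξ' t u1 v1 → (u1:ℝ) < D^6 → (v1:ℝ) < D^6 →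
    (u1, v1) = (u, v)

/-- kind (ii) with explicit labels -/
def Labd (ξ ξ' t E : ℝ) (a : ℤ) (k : ℕ) (a' : ℤ) (k' : ℕ) (u v : ℕ) : Prop :=
  Lab ξ E (E/(t*u)) a k ∧ Lab ξ' E (E/(t*v)) a' k'

lemma Lab.mono {ξ K e K2 e2 : ℝ} {a : ℤ} {k : ℕ} (h : Lab ξ K e a k) (hK : K ≤ K2) (he : e ≤ e2) :
    Lab ξ K2 e2 a k := ⟨h.1, h.2.1, h.2.2.1.trans hK, h.2.2.2.trans he⟩

/-- THEOREM S2 (classification), note 2736. -/
theorem classify {ξ ξ' t D : ℝ} (hD : 4 ≤ D) (ht : 2*D ≤ t) {u v : ℕ}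
    (hco : Nat.Coprime u v) (hN : NN ξ ξ' t u v) :
    Rare ξ ξ' t D u v ∨ Uniq ξ ξ' t D u v ∨
      ∃ (a : ℤ) (k : ℕ) (a' : ℤ) (k' : ℕ), Labd ξ ξ' t (4*D^8) a k a' k' u v := by
  classical
  by_cases hr : Rare ξ ξ' t D u v
  · exact Or.inl hr
  right
  unfold Rare at hr
  push Not at hr
  have hD0 : 0 < D := by linarith
  have ht0 : 0 < t := by linarith
  obtain ⟨hu, hv, hn⟩ := hN
  have hu1 := dy_pos u
  have hv1 := dy_pos v
  have hu2 := lt_dy u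
  have hv2 := lt_dy v
  have key : ∀ w : ℕ, 1 ≤ w → 3*D/(t*(dy w : ℕ)) ≤ 4*D^8/(t*w) := by
    intro w hw
    have hwR : (0:ℝ) < w := by exact_mod_cast hw
    have hdR : (0:ℝ) < (dy w : ℕ) := by exact_mod_cast (dy_pos w)
    have hlt : (w:ℝ) ≤ 2 * (dy w : ℕ) := by exact_mod_cast (lt_dy w).le
    rw [div_le_div_iff₀ (by positivity) (by positivity)]
    have h1 : 3 * D * (t * w) ≤ 3 * D * (t * (2 * (dy w : ℕ))) := by gcongr
    have h2 : 6 * D ≤ 4 * D^8 := by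
      have h7 : (4:ℝ)^7 ≤ D^7 := pow_le_pow_left₀ (by norm_num) hD 7
      have e : D^8 = D^7 * D := by ring
      rw [e]
      nlinarith
    have h3 : 6 * D * (t * (dy w : ℕ)) ≤ 4 * D^8 * (t * (dy w : ℕ)) := by gcongr
    nlinarith
  by_cases hbig : D^2 ≤ (dy u : ℝ) ∨ D^2 ≤ (dy v : ℝ)
  · right
    obtain ⟨a, k, a', k', h1, h2⟩ := lemma2 hu1 hv1 hD ht hbig hr
    have h38 : D^3/2 ≤ 4*D^8 := by
      have h5 : (1:ℝ) ≤ D^5 := one_le_pow₀ (by linarith)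
      have e : D^8 = D^3 * D^5 := by ring
      have h3 : 0 < D^3 := by positivity
      nlinarith
    exact ⟨a, k, a', k', Lab.mono h1 h38 (key u hu), Lab.mono h2 h38 (key v hv)⟩
  · push Not at hbig
    have huD : (u:ℝ) < 2 * D^2 := by
      have : (u:ℝ) < 2 * (dy u : ℕ) := by exact_mod_cast hu2
      linarith [hbig.1]
    have hvD : (v:ℝ) < 2 * D^2 := by
      have : (v:ℝ) < 2 * (dy v : ℕ) := by exact_mod_cast hv2
      linarith [hbig.2]
    by_cases huq : ∀ u1 v1 : ℕ, Nat.Coprime u1 v1 → NN ξ ξ' t u1 v1 → (u1:ℝ) < D^6 →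
        (v1:ℝ) < D^6 → (u1, v1) = (u, v)
    · exact Or.inl ⟨hco, ⟨hu, hv, hn⟩, huD, hvD, huq⟩
    · right
      push Not at huq
      obtain ⟨u1, v1, hco1, hN1, hu6, hv6, hne⟩ := huq
      obtain ⟨a, k, a', k', h1, h2⟩ :=
        lemma3 hD ht0 (Ne.symm hne) hco hco1 ⟨hu, hv, hn⟩ hN1 huD hvD hu6 hv6
      exact ⟨a, k, a', k', h1, h2⟩

/-! ### lattice and strip -/

/-- the lattice of common centres -/
def InLat (a : ℤ) (k : ℕ) (a' : ℤ) (k' u v : ℕ) : Prop :=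
  ∃ h : ℤ, (u:ℤ) * a * k' - v * a' * k + h * (k * k') = 0

/-- depth of a word -/
noncomputable def dep (k k' : ℕ) (t δ δ' : ℝ) (u v : ℕ) : ℝ :=
  (Nat.lcm k k' : ℝ) * max 1 (max (t * u * |δ|) (t * v * |δ'|))

lemma dep_mono {k k' : ℕ} {t δ δ' : ℝ} (ht : 0 ≤ t) {u v U V : ℕ} (hu : u ≤ U) (hv : v ≤ V) :
    dep k k' t δ δ' u v ≤ dep k k' t δ δ' U V := by
  unfold dep
  have hu' : (u:ℝ) ≤ U := by exact_mod_cast hu
  have hv' : (v:ℝ) ≤ V := by exact_mod_cast hv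
  gcongr

lemma lcm_le_dep {k k' : ℕ} {t δ δ' : ℝ} {u v : ℕ} :
    (Nat.lcm k k' : ℝ) ≤ dep k k' t δ δ' u v := by
  unfold dep
  have : (0:ℝ) ≤ Nat.lcm k k' := by positivity
  nlinarith [le_max_left (1:ℝ) (max (t * u * |δ|) (t * v * |δ'|))]

/-- two different coprime lattice words have determinant `≥ lcm(k,k')` -/
theorem lcm_le_det {a a' : ℤ} {k k' u1 v1 u2 v2 : ℕ} (hk : 0 < k) (hk' : 0 < k')
    (hc : IsCoprime a (k:ℤ)) (hc' : IsCoprime a' (k':ℤ))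
    (h1 : InLat a k a' k' u1 v1) (h2 : InLat a k a' k' u2 v2)
    (hco1 : Nat.Coprime u1 v1) (hco2 : Nat.Coprime u2 v2)
    (hu1 : 1 ≤ u1) (hne : (u1, v1) ≠ (u2, v2)) :
    (Nat.lcm k k' : ℤ) ≤ |(u1:ℤ) * v2 - u2 * v1| := by
  obtain ⟨h, hh⟩ := h1
  obtain ⟨g, hg⟩ := h2
  obtain ⟨κ, k₁, k₁', r, r', hκ, ek, ek', ck, es, es', hz⟩ :=
    KillS2x949.structure_ hk hk' hc hc' hh
  obtain ⟨κ2, k₂, k₂', q, q', hκ2, ek2, ek2', ck2, es2, es2', hz2⟩ :=
    KillS2x949.structure_ hk hk' hc hc' hg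
  have hκκ : κ2 = κ := by rw [hκ, hκ2]
  subst hκκ
  have hκ0 : 0 < κ2 := by rw [hκ2]; exact Nat.gcd_pos_of_pos_left _ hk
  have e1 : k₂ = k₁ := Nat.eq_of_mul_eq_mul_left hκ0 (by rw [← ek2, ← ek])
  have e2 : k₂' = k₁' := Nat.eq_of_mul_eq_mul_left hκ0 (by rw [← ek2', ← ek'])
  subst e1 e2
  -- the determinant is a multiple of the lcm
  have hlcm : Nat.lcm k k' = κ2 * (k₂ * k₂') := by
    have h3 : Nat.gcd k k' * Nat.lcm k k' = k * k' := Nat.gcd_mul_lcm k k'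
    rw [← hκ2, ek, ek'] at h3
    apply Nat.eq_of_mul_eq_mul_left hκ0
    rw [ek, ek', h3]
    ring
  have hca' : IsCoprime a' (κ2:ℤ) := by
    rw [ek'] at hc'
    push_cast at hc'
    exact hc'.of_mul_right_left
  have hdvd : (κ2:ℤ) ∣ (r:ℤ) * q' - q * r' := by
    have h4 : (κ2:ℤ) ∣ ((r:ℤ) * q' - q * r') * a' := by
      refine ⟨(r:ℤ) * g - q * h, ?_⟩
      linear_combination (q:ℤ) * hz - (r:ℤ) * hz2
    exact hca'.symm.dvd_of_dvd_mul_right h4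
  have hdet : ((u1:ℤ) * v2 - u2 * v1) = (k₂ * k₂') * ((r:ℤ) * q' - q * r') := by
    rw [es, es', es2, es2']
    push_cast
    ring
  have hdvd2 : (Nat.lcm k k' : ℤ) ∣ (u1:ℤ) * v2 - u2 * v1 := by
    rw [hdet, hlcm]
    push_cast
    rw [mul_comm (κ2:ℤ)]
    exact mul_dvd_mul_left _ hdvd
  have hne0 : (u1:ℤ) * v2 - u2 * v1 ≠ 0 := by
    intro h0
    have h5 : u1 * v2 = u2 * v1 := by
      have : (u1:ℤ) * v2 = u2 * v1 := by linarith
      exact_mod_cast this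
    have h6 : u1 ∣ u2 := hco1.dvd_of_dvd_mul_right ⟨v2, h5.symm⟩
    have h7 : u2 ∣ u1 := hco2.dvd_of_dvd_mul_right ⟨v1, h5⟩
    have h8 : u1 = u2 := Nat.dvd_antisymm h6 h7
    have h9 : v2 = v1 := by
      rw [← h8] at h5
      exact Nat.eq_of_mul_eq_mul_left hu1 h5
    exact hne (by rw [h8, h9])
  exact Int.le_of_dvd (abs_pos.2 hne0) ((dvd_abs _ _).2 hdvd2)

/-- **(1) TWO WORDS** of 2896 -/
theorem two_words {a a' : ℤ} {k k' u1 v1 u2 v2 : ℕ} {t δ δ' : ℝ} (ht : 0 < t)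
    (hk : 0 < k) (hk' : 0 < k')
    (hc : IsCoprime a (k:ℤ)) (hc' : IsCoprime a' (k':ℤ))
    (h1 : InLat a k a' k' u1 v1) (h2 : InLat a k a' k' u2 v2)
    (s1 : |u1 * δ - v1 * δ'| < 1 / t) (s2 : |u2 * δ - v2 * δ'| < 1 / t)
    (hco1 : Nat.Coprime u1 v1) (hco2 : Nat.Coprime u2 v2)
    (hu1 : 1 ≤ u1) (hv1 : 1 ≤ v1) (hu2 : 1 ≤ u2) (hv2 : 1 ≤ v2) (hne : (u1, v1) ≠ (u2, v2)) :
    dep k k' t δ δ' (max u1 u2) (max v1 v2) ≤ 2 * ((max u1 u2 : ℕ) * (max v1 v2 : ℕ)) := by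
  have hdet := lcm_le_det hk hk' hc hc' h1 h2 hco1 hco2 hu1 hne
  set Δ : ℝ := (u1:ℝ) * v2 - u2 * v1 with hΔ
  have hdetR : (Nat.lcm k k' : ℝ) ≤ |Δ| := by
    have : ((Nat.lcm k k' : ℤ) : ℝ) ≤ ((|(u1:ℤ) * v2 - u2 * v1| : ℤ) : ℝ) := by exact_mod_cast hdet
    push_cast at this
    exact this
  set U : ℕ := max u1 u2 with hU
  set V : ℕ := max v1 v2 with hV
  have hu1U : (u1:ℝ) ≤ U := by exact_mod_cast le_max_left _ _
  have hu2U : (u2:ℝ) ≤ U := by exact_mod_cast le_max_right _ _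
  have hv1V : (v1:ℝ) ≤ V := by exact_mod_cast le_max_left _ _
  have hv2V : (v2:ℝ) ≤ V := by exact_mod_cast le_max_right _ _
  have hu1R : (0:ℝ) < u1 := by exact_mod_cast hu1
  have hu2R : (0:ℝ) < u2 := by exact_mod_cast hu2
  have hv1R : (0:ℝ) < v1 := by exact_mod_cast hv1
  have hv2R : (0:ℝ) < v2 := by exact_mod_cast hv2
  have hUR : (0:ℝ) < U := lt_of_lt_of_le hu1R hu1U
  have hVR : (0:ℝ) < V := lt_of_lt_of_le hv1R hv1V
  have hΔUV : |Δ| ≤ U * V := by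
    have a1 : (u1:ℝ) * v2 ≤ U * V := mul_le_mul hu1U hv2V hv2R.le hUR.le
    have a2 : (u2:ℝ) * v1 ≤ U * V := mul_le_mul hu2U hv1V hv1R.le hUR.le
    have a3 : 0 < (u1:ℝ) * v2 := by positivity
    have a4 : 0 < (u2:ℝ) * v1 := by positivity
    rw [abs_le]; constructor <;> rw [hΔ] <;> linarith
  have hl0 : (0:ℝ) ≤ Nat.lcm k k' := by positivity
  -- `t |δ| |Δ| ≤ 2 V`
  have b1 : t * (|δ| * |Δ|) ≤ 2 * V := by
    have e : δ * Δ = (u1 * δ - v1 * δ') * v2 - (u2 * δ - v2 * δ') * v1 := by rw [hΔ]; ring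
    rw [← abs_mul, e]
    have c1 : |(u1 * δ - v1 * δ') * v2 - (u2 * δ - v2 * δ') * v1| ≤ 1/t * V + 1/t * V := by
      refine (abs_sub _ _).trans ?_
      rw [abs_mul, abs_mul, abs_of_pos hv2R, abs_of_pos hv1R]
      exact add_le_add (mul_le_mul s1.le hv2V hv2R.le (by positivity))
        (mul_le_mul s2.le hv1V hv1R.le (by positivity))
    calc t * |(u1 * δ - v1 * δ') * v2 - (u2 * δ - v2 * δ') * v1|
        ≤ t * (1/t * V + 1/t * V) := mul_le_mul_of_nonneg_left c1 ht.le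
      _ = 2 * V := by field_simp; ring
  have b2 : t * (|δ'| * |Δ|) ≤ 2 * U := by
    have e : δ' * Δ = (u1 * δ - v1 * δ') * u2 - (u2 * δ - v2 * δ') * u1 := by rw [hΔ]; ring
    rw [← abs_mul, e]
    have c1 : |(u1 * δ - v1 * δ') * u2 - (u2 * δ - v2 * δ') * u1| ≤ 1/t * U + 1/t * U := by
      refine (abs_sub _ _).trans ?_
      rw [abs_mul, abs_mul, abs_of_pos hu2R, abs_of_pos hu1R]
      exact add_le_add (mul_le_mul s1.le hu2U hu2R.le (by positivity))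
        (mul_le_mul s2.le hu1U hu1R.le (by positivity))
    calc t * |(u1 * δ - v1 * δ') * u2 - (u2 * δ - v2 * δ') * u1|
        ≤ t * (1/t * U + 1/t * U) := mul_le_mul_of_nonneg_left c1 ht.le
      _ = 2 * U := by field_simp; ring
  unfold dep
  rw [mul_max_of_nonneg _ _ hl0, mul_max_of_nonneg _ _ hl0]
  refine max_le ?_ (max_le ?_ ?_)
  · rw [mul_one]; nlinarith [mul_pos hUR hVR]
  · have c1 : (Nat.lcm k k' : ℝ) * |δ| ≤ |Δ| * |δ| := mul_le_mul_of_nonneg_right hdetR (abs_nonneg _)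
    calc (Nat.lcm k k' : ℝ) * (t * U * |δ|) = (t * U) * ((Nat.lcm k k' : ℝ) * |δ|) := by ring
      _ ≤ (t * U) * (|Δ| * |δ|) := mul_le_mul_of_nonneg_left c1 (by positivity)
      _ = U * (t * (|δ| * |Δ|)) := by ring
      _ ≤ U * (2 * V) := mul_le_mul_of_nonneg_left b1 hUR.le
      _ = 2 * (U * V) := by ring
  · have c1 : (Nat.lcm k k' : ℝ) * |δ'| ≤ |Δ| * |δ'| :=
      mul_le_mul_of_nonneg_right hdetR (abs_nonneg _)
    calc (Nat.lcm k k' : ℝ) * (t * V * |δ'|) = (t * V) * ((Nat.lcm k k' : ℝ) * |δ'|) := by ring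
      _ ≤ (t * V) * (|Δ| * |δ'|) := mul_le_mul_of_nonneg_left c1 (by positivity)
      _ = V * (t * (|δ'| * |Δ|)) := by ring
      _ ≤ V * (2 * U) := mul_le_mul_of_nonneg_left b2 hVR.le
      _ = 2 * (U * V) := by ring

/-- a SHORT word: depth `≥ 64` and `Π³ ≤` depth -/
def IsShort (k k' : ℕ) (t δ δ' : ℝ) (u v : ℕ) : Prop :=
  64 ≤ dep k k' t δ δ' u v ∧ ((u:ℝ) * v)^3 ≤ dep k k' t δ δ' u v

/-- **(2)** at most one short word -/
theorem short_unique {a a' : ℤ} {k k' u1 v1 u2 v2 : ℕ} {t δ δ' : ℝ} (ht : 0 < t)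
    (hk : 0 < k) (hk' : 0 < k')
    (hc : IsCoprime a (k:ℤ)) (hc' : IsCoprime a' (k':ℤ))
    (h1 : InLat a k a' k' u1 v1) (h2 : InLat a k a' k' u2 v2)
    (s1 : |u1 * δ - v1 * δ'| < 1 / t) (s2 : |u2 * δ - v2 * δ'| < 1 / t)
    (hco1 : Nat.Coprime u1 v1) (hco2 : Nat.Coprime u2 v2)
    (hu1 : 1 ≤ u1) (hv1 : 1 ≤ v1) (hu2 : 1 ≤ u2) (hv2 : 1 ≤ v2)
    (hs1 : IsShort k k' t δ δ' u1 v1) (hs2 : IsShort k k' t δ δ' u2 v2) :
    (u1, v1) = (u2, v2) := by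
  by_contra hne
  have hK := two_words ht hk hk' hc hc' h1 h2 s1 s2 hco1 hco2 hu1 hv1 hu2 hv2 hne
  set K := dep k k' t δ δ' (max u1 u2) (max v1 v2) with hKdef
  have hK1 : dep k k' t δ δ' u1 v1 ≤ K := dep_mono ht.le (le_max_left _ _) (le_max_left _ _)
  have hK2 : dep k k' t δ δ' u2 v2 ≤ K := dep_mono ht.le (le_max_right _ _) (le_max_right _ _)
  have hmu : max u1 u2 ≤ u1 * u2 :=
    max_le (Nat.le_mul_of_pos_right _ (by omega)) (Nat.le_mul_of_pos_left _ (by omega))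
  have hmv : max v1 v2 ≤ v1 * v2 :=
    max_le (Nat.le_mul_of_pos_right _ (by omega)) (Nat.le_mul_of_pos_left _ (by omega))
  have hUV : ((max u1 u2 : ℕ):ℝ) * (max v1 v2 : ℕ) ≤ ((u1:ℝ) * v1) * ((u2:ℝ) * v2) := by
    have a1 : ((max u1 u2 : ℕ):ℝ) ≤ u1 * u2 := by exact_mod_cast hmu
    have a2 : ((max v1 v2 : ℕ):ℝ) ≤ v1 * v2 := by exact_mod_cast hmv
    calc ((max u1 u2 : ℕ):ℝ) * (max v1 v2 : ℕ) ≤ (u1 * u2) * (v1 * v2) :=
          mul_le_mul a1 a2 (by positivity) (by positivity)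
      _ = _ := by ring
  set W : ℝ := ((max u1 u2 : ℕ):ℝ) * (max v1 v2 : ℕ) with hW
  have hW0 : 0 ≤ W := by positivity
  have hK64 : 64 ≤ K := hs1.1.trans hK1
  have hW3 : W^3 ≤ K * K := by
    calc W^3 ≤ (((u1:ℝ) * v1) * ((u2:ℝ) * v2))^3 := pow_le_pow_left₀ hW0 hUV 3
      _ = ((u1:ℝ) * v1)^3 * ((u2:ℝ) * v2)^3 := by ring
      _ ≤ K * K := mul_le_mul (hs1.2.trans hK1) (hs2.2.trans hK2) (by positivity) (by linarith)
  -- `K ≤ 2 W`, `W^3 ≤ K^2 ≤ 4 W^2`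
  have hWpos : 0 < W := by linarith
  have h5 : W^3 ≤ 4 * W^2 := by nlinarith
  have h6 : W ≤ 4 := by
    have e : W^3 = W * W^2 := by ring
    rw [e] at h5
    exact le_of_mul_le_mul_right h5 (by positivity)
  linarith

/-! ### words of `N_t` near the labels lie in the lattice and in the strip -/

lemma inLat_of_near {ξ ξ' t E : ℝ} {a a' : ℤ} {k k' u v : ℕ} (hE : 1 ≤ E) (ht : 8*E^5 ≤ t)
    (hk : 0 < k) (hk' : 0 < k') (hkE : (k:ℝ) ≤ E) (hkE' : (k':ℝ) ≤ E)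
    (hn : near (u * ξ - v * ξ') (1/t))
    (hu : u * |ξ - a/k| ≤ 1/(4*E^2)) (hv : v * |ξ' - a'/k'| ≤ 1/(4*E^2)) :
    InLat a k a' k' u v ∧ |u * (ξ - a/k) - v * (ξ' - a'/k')| < 1/t := by
  obtain ⟨m, hm⟩ := hn
  have hE0 : 0 < E := by linarith
  have ht0 : 0 < t := lt_of_lt_of_le (by positivity) ht
  have hkR : (0:ℝ) < k := by exact_mod_cast hk
  have hkR' : (0:ℝ) < k' := by exact_mod_cast hk'
  have hE2 : 1 ≤ E^2 := one_le_pow₀ hE
  have h1t : 1/t ≤ 1/(8*E^2) := by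
    apply one_div_le_one_div_of_le (by positivity)
    have : E^2 ≤ E^5 := pow_le_pow_right₀ hE (by norm_num)
    linarith
  set X : ℤ := u * a * k' - v * a' * k + (-m) * (k * k') with hX
  have eX : (X:ℝ) = (k * k') * ((u * ξ - v * ξ' - m) - u * (ξ - a/k) + v * (ξ' - a'/k')) := by
    rw [hX]; push_cast; field_simp; ring
  have hu' : |(u:ℝ) * (ξ - a/k)| ≤ 1/(4*E^2) := by
    rw [abs_mul, abs_of_nonneg (by positivity : (0:ℝ) ≤ u)]; exact hu
  have hv' : |(v:ℝ) * (ξ' - a'/k')| ≤ 1/(4*E^2) := by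
    rw [abs_mul, abs_of_nonneg (by positivity : (0:ℝ) ≤ v)]; exact hv
  have hb : |(u * ξ - v * ξ' - m) - u * (ξ - a/k) + v * (ξ' - a'/k')| <
      1/(8*E^2) + 1/(4*E^2) + 1/(4*E^2) := by
    have c1 := abs_add_le ((u * ξ - v * ξ' - m) - u * (ξ - a/k)) (v * (ξ' - a'/k'))
    have c2 := abs_sub (u * ξ - v * ξ' - m) (u * (ξ - a/k))
    linarith
  have hX1 : |(X:ℝ)| < 1 := by
    rw [eX, abs_mul, abs_of_pos (mul_pos hkR hkR')]
    calc (k * k' : ℝ) * _ < (k * k') * (1/(8*E^2) + 1/(4*E^2) + 1/(4*E^2)) :=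
          mul_lt_mul_of_pos_left hb (mul_pos hkR hkR')
      _ ≤ (E * E) * (1/(8*E^2) + 1/(4*E^2) + 1/(4*E^2)) := by
          refine mul_le_mul_of_nonneg_right ?_ (by positivity)
          exact mul_le_mul hkE hkE' hkR'.le hE0.le
      _ = 5/8 := by field_simp; norm_num
      _ < 1 := by norm_num
  have hX0 : X = 0 := Int.abs_lt_one_iff.1 (by exact_mod_cast hX1)
  refine ⟨⟨-m, hX0⟩, ?_⟩
  have e0 : u * (ξ - a/k) - v * (ξ' - a'/k') = u * ξ - v * ξ' - m := by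
    rw [hX0] at eX
    have h7 : ((k:ℝ) * k') ≠ 0 := by positivity
    have h8 : (u * ξ - v * ξ' - m) - u * (ξ - a/k) + v * (ξ' - a'/k') = 0 := by
      push_cast at eX
      exact (mul_eq_zero.1 eX.symm).resolve_left h7
    linarith
  rw [e0]; exact hm

/-- kind (ii) words lie in lattice and strip -/
lemma inLat_of_labd {ξ ξ' t E : ℝ} {a a' : ℤ} {k k' u v : ℕ} (hE : 1 ≤ E) (ht : 8*E^5 ≤ t)
    (hN : NN ξ ξ' t u v) (hL : Labd ξ ξ' t E a k a' k' u v) :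
    InLat a k a' k' u v ∧ |u * (ξ - a/k) - v * (ξ' - a'/k')| < 1/t := by
  obtain ⟨hu, hv, hn⟩ := hN
  obtain ⟨⟨hk, hc, hkE, hd⟩, ⟨hk', hc', hkE', hd'⟩⟩ := hL
  have hE0 : 0 < E := by linarith
  have ht0 : 0 < t := lt_of_lt_of_le (by positivity) ht
  have hb : E/t ≤ 1/(4*E^2) := by
    rw [div_le_div_iff₀ ht0 (by positivity)]
    have : E^3 ≤ E^5 := pow_le_pow_right₀ hE (by norm_num)
    have h3 : 0 < E^3 := by positivity
    nlinarith
  have huR : (0:ℝ) < u := by exact_mod_cast hu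
  have hvR : (0:ℝ) < v := by exact_mod_cast hv
  refine inLat_of_near hE ht hk hk' hkE hkE' hn ?_ ?_
  · refine (mul_le_mul_of_nonneg_left hd huR.le).trans ?_
    have e : (u:ℝ) * (E/(t*u)) = E/t := by field_simp
    rw [e]; exact hb
  · refine (mul_le_mul_of_nonneg_left hd' hvR.le).trans ?_
    have e : (v:ℝ) * (E/(t*v)) = E/t := by field_simp
    rw [e]; exact hb

/-- depth of a kind (ii) word is `≤ E³` -/
lemma dep_le {ξ ξ' t E : ℝ} {a a' : ℤ} {k k' u v : ℕ} (hE : 1 ≤ E) (ht : 0 < t)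
    (hu : 1 ≤ u) (hv : 1 ≤ v) (hL : Labd ξ ξ' t E a k a' k' u v) :
    dep k k' t (ξ - a/k) (ξ' - a'/k') u v ≤ E^3 := by
  obtain ⟨⟨hk, hc, hkE, hd⟩, ⟨hk', hc', hkE', hd'⟩⟩ := hL
  have hE0 : 0 < E := by linarith
  have huR : (0:ℝ) < u := by exact_mod_cast hu
  have hvR : (0:ℝ) < v := by exact_mod_cast hv
  have hl : (Nat.lcm k k' : ℝ) ≤ E * E := by
    have h1 : Nat.lcm k k' ≤ k * k' := Nat.le_of_dvd (by positivity) (Nat.lcm_dvd_mul k k')
    have h2 : (Nat.lcm k k' : ℝ) ≤ k * k' := by exact_mod_cast h1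
    exact h2.trans (mul_le_mul hkE hkE' (by positivity) hE0.le)
  have h1 : t * u * |ξ - a/k| ≤ E := by
    have h2 : t * u * |ξ - a/k| ≤ t * u * (E/(t*u)) := mul_le_mul_of_nonneg_left hd (by positivity)
    have e : t * u * (E/(t*u)) = E := by field_simp
    linarith
  have h2 : t * v * |ξ' - a'/k'| ≤ E := by
    have h2 : t * v * |ξ' - a'/k'| ≤ t * v * (E/(t*v)) := mul_le_mul_of_nonneg_left hd' (by positivity)
    have e : t * v * (E/(t*v)) = E := by field_simp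
    linarith
  unfold dep
  calc (Nat.lcm k k' : ℝ) * max 1 (max (t * u * |ξ - a/k|) (t * v * |ξ' - a'/k'|))
      ≤ (E * E) * E := mul_le_mul hl (max_le hE (max_le h1 h2))
        (le_trans zero_le_one (le_max_left _ _)) (by positivity)
    _ = E^3 := by ring

/-! ### dominant words -/

/-- a DOMINANT word: every other coprime word of `N_t` has at least twice its product -/
def Dom (ξ ξ' t : ℝ) (u v : ℕ) : Prop :=
  Nat.Coprime u v ∧ NN ξ ξ' t u v ∧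
    ∀ u' v' : ℕ, Nat.Coprime u' v' → NN ξ ξ' t u' v' → (u', v') ≠ (u, v) → 2 * (u * v) ≤ u' * v'

lemma NN.anti {ξ ξ' t t' : ℝ} (ht : 0 < t) (h : t ≤ t') {u v : ℕ} (hN : NN ξ ξ' t' u v) :
    NN ξ ξ' t u v :=
  ⟨hN.1, hN.2.1, near_mono hN.2.2 (one_div_le_one_div_of_le ht h)⟩

/-- two dominant words at scales `t ≤ t'` are equal or the later one has twice the product -/
theorem dom_double {ξ ξ' t t' : ℝ} (ht : 0 < t) (h : t ≤ t') {u v u' v' : ℕ}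
    (hw : Dom ξ ξ' t u v) (hw' : Dom ξ ξ' t' u' v') (hne : (u', v') ≠ (u, v)) :
    2 * (u * v) ≤ u' * v' :=
  hw.2.2 u' v' hw'.1 (NN.anti ht h hw'.2.1) hne

/-- at most one dominant word per scale -/
theorem dom_unique {ξ ξ' t : ℝ} (ht : 0 < t) {u v u' v' : ℕ}
    (hw : Dom ξ ξ' t u v) (hw' : Dom ξ ξ' t u' v') : (u', v') = (u, v) := by
  by_contra hne
  have h1 := dom_double ht le_rfl hw hw' hne
  have h2 := dom_double ht le_rfl hw' hw (Ne.symm hne)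
  have h3 : 1 ≤ u * v := Nat.mul_pos hw.2.1.1 hw.2.1.2.1
  omega

/-- kind (iii) is dominant -/
theorem dom_of_uniq {ξ ξ' t D : ℝ} (hD : 4 ≤ D) {u v : ℕ} (h : Uniq ξ ξ' t D u v) :
    Dom ξ ξ' t u v := by
  obtain ⟨hco, hN, hu, hv, huq⟩ := h
  refine ⟨hco, hN, fun u' v' hco' hN' hne => ?_⟩
  have huR : (1:ℝ) ≤ u := by exact_mod_cast hN.1
  have hvR : (1:ℝ) ≤ v := by exact_mod_cast hN.2.1
  have huR' : (1:ℝ) ≤ u' := by exact_mod_cast hN'.1
  have hvR' : (1:ℝ) ≤ v' := by exact_mod_cast hN'.2.1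
  have h6 : D^6 ≤ (u':ℝ) * v' := by
    by_contra hcon
    push Not at hcon
    have h1 : (u':ℝ) < D^6 := by nlinarith
    have h2 : (v':ℝ) < D^6 := by nlinarith
    exact hne (huq u' v' hco' hN' h1 h2)
  have h7 : (2:ℝ) * (u * v) ≤ D^6 := by
    have a1 : (u:ℝ) * v ≤ (2*D^2) * (2*D^2) := mul_le_mul hu.le hv.le (by positivity) (by positivity)
    have a2 : 2 * ((2*D^2) * (2*D^2)) ≤ D^6 := by
      have e1 : 2 * ((2*D^2) * (2*D^2)) = 8 * D^4 := by ring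
      have e2 : D^6 = D^2 * D^4 := by ring
      rw [e1, e2]
      have h8 : 8 ≤ D^2 := by nlinarith
      have h4 : 0 < D^4 := by positivity
      nlinarith
    linarith
  have h8 : (2:ℝ) * (u * v) ≤ u' * v' := h7.trans h6
  exact_mod_cast h8

/-- either near the labels, or one entry is `≥ 2E²` -/
lemma near_or_big {ξ t E : ℝ} {a : ℤ} {k u : ℕ} (hE : 1 ≤ E) (ht : 8*E^5 ≤ t)
    (hd : |ξ - a/k| ≤ E/t) : u * |ξ - a/k| ≤ 1/(4*E^2) ∨ 2 * E^2 ≤ (u:ℝ) := by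
  by_cases h : u * |ξ - a/k| ≤ 1/(4*E^2)
  · exact Or.inl h
  right
  push Not at h
  have hE0 : 0 < E := by linarith
  have ht0 : 0 < t := lt_of_lt_of_le (by positivity) ht
  have h1 : 1/(4*E^2) < u * (E/t) := lt_of_lt_of_le h (mul_le_mul_of_nonneg_left hd (by positivity))
  rw [div_lt_iff₀ (by positivity)] at h1
  have e : (u:ℝ) * (E/t) * (4*E^2) = u * (4*E^3) / t := by field_simp
  rw [e, lt_div_iff₀ ht0, one_mul] at h1
  have h2 : 8*E^5 < u * (4*E^3) := lt_of_le_of_lt ht h1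
  have h3 : 0 < 4*E^3 := by positivity
  have h4 : (2 * E^2) * (4*E^3) < u * (4*E^3) := by
    have e2 : (2 * E^2) * (4*E^3) = 8*E^5 := by ring
    rw [e2]; exact h2
  exact (lt_of_mul_lt_mul_right h4 h3.le).le

lemma labd_le {ξ t E : ℝ} {a : ℤ} {k u : ℕ} (hE : 0 < E) (ht : 0 < t) (hu : 1 ≤ u)
    (h : Lab ξ E (E/(t*u)) a k) : |ξ - a/k| ≤ E/t := by
  refine h.2.2.2.trans ?_
  have huR : (1:ℝ) ≤ u := by exact_mod_cast hu
  apply div_le_div_of_nonneg_left hE.le ht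
  nlinarith

/-- the label word (ii-a) is dominant -/
theorem dom_of_label {ξ ξ' t E : ℝ} {a a' : ℤ} {k k' u v : ℕ} (hE : 1 ≤ E) (ht : 8*E^5 ≤ t)
    (hco : Nat.Coprime u v) (hN : NN ξ ξ' t u v) (hL : Labd ξ ξ' t E a k a' k' u v)
    (hu : u = k / Nat.gcd k k') (hv : v = k' / Nat.gcd k k') : Dom ξ ξ' t u v := by
  refine ⟨hco, hN, fun u' v' hco' hN' hne => ?_⟩
  have hE0 : 0 < E := by linarith
  have ht0 : 0 < t := lt_of_lt_of_le (by positivity) ht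
  obtain ⟨hL1, hL2⟩ := hL
  have hd := labd_le hE0 ht0 hN.1 hL1
  have hd' := labd_le hE0 ht0 hN.2.1 hL2
  obtain ⟨hk, hc, hkE, -⟩ := hL1
  obtain ⟨hk', hc', hkE', -⟩ := hL2
  have huk : u ≤ k := hu ▸ Nat.div_le_self _ _
  have hvk : v ≤ k' := hv ▸ Nat.div_le_self _ _
  have hE2 : (u:ℝ) * v ≤ E^2 := by
    have a1 : (u:ℝ) ≤ E := le_trans (by exact_mod_cast huk) hkE
    have a2 : (v:ℝ) ≤ E := le_trans (by exact_mod_cast hvk) hkE'
    rw [pow_two]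
    exact mul_le_mul a1 a2 (by positivity) hE0.le
  have huR' : (1:ℝ) ≤ u' := by exact_mod_cast hN'.1
  have hvR' : (1:ℝ) ≤ v' := by exact_mod_cast hN'.2.1
  have fin : (2:ℝ) * E^2 ≤ u' * v' → 2 * (u * v) ≤ u' * v' := by
    intro h
    have : (2:ℝ) * (u * v) ≤ u' * v' := by linarith
    exact_mod_cast this
  rcases near_or_big (u := u') hE ht hd with h1 | h1
  · rcases near_or_big (u := v') hE ht hd' with h2 | h2
    · obtain ⟨⟨h, hh⟩, -⟩ := inLat_of_near hE ht hk hk' hkE hkE' hN'.2.2 h1 h2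
      obtain ⟨κ, k₁, k₁', r, r', hκ, ek, ek', ck, es, es', hz⟩ :=
        KillS2x949.structure_ hk hk' hc hc' hh
      have hκ0 : 0 < κ := by rw [hκ]; exact Nat.gcd_pos_of_pos_left _ hk
      have eu : u = k₁ := by
        rw [hu, ← hκ]; exact Nat.div_eq_of_eq_mul_right hκ0 ek
      have ev : v = k₁' := by
        rw [hv, ← hκ]; exact Nat.div_eq_of_eq_mul_right hκ0 ek'
      have hr : 1 ≤ r := by
        rcases Nat.eq_zero_or_pos r with h0 | h0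
        · exfalso; rw [h0, mul_zero] at es; have := hN'.1; omega
        · exact h0
      have hr' : 1 ≤ r' := by
        rcases Nat.eq_zero_or_pos r' with h0 | h0
        · exfalso; rw [h0, mul_zero] at es'; have := hN'.2.1; omega
        · exact h0
      have hrr : 2 ≤ r * r' := by
        by_contra hlt
        have h1 : r * r' = 1 := by
          have := Nat.mul_pos hr hr'
          omega
        have h2 : r = 1 := Nat.eq_one_of_mul_eq_one_right h1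
        have h3 : r' = 1 := Nat.eq_one_of_mul_eq_one_left h1
        apply hne
        rw [es, es', h2, h3, mul_one, mul_one, eu, ev]
      calc 2 * (u * v) ≤ (r * r') * (u * v) := Nat.mul_le_mul_right _ hrr
        _ = u' * v' := by rw [es, es', eu, ev]; ring
    · exact fin (by nlinarith)
  · exact fin (by nlinarith)

/-- a short word is dominant -/
theorem dom_of_short {ξ ξ' t E : ℝ} {a a' : ℤ} {k k' u v : ℕ} (hE : 1 ≤ E) (ht : 8*E^5 ≤ t)
    (hco : Nat.Coprime u v) (hN : NN ξ ξ' t u v) (hL : Labd ξ ξ' t E a k a' k' u v)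
    (hS : IsShort k k' t (ξ - a/k) (ξ' - a'/k') u v) : Dom ξ ξ' t u v := by
  refine ⟨hco, hN, fun u' v' hco' hN' hne => ?_⟩
  have hE0 : 0 < E := by linarith
  have ht0 : 0 < t := lt_of_lt_of_le (by positivity) ht
  obtain ⟨hIn, hSt⟩ := inLat_of_labd hE ht hN hL
  have hdep := dep_le hE ht0 hN.1 hN.2.1 hL
  obtain ⟨hL1, hL2⟩ := hL
  have hd := labd_le hE0 ht0 hN.1 hL1
  have hd' := labd_le hE0 ht0 hN.2.1 hL2
  obtain ⟨hk, hc, hkE, -⟩ := hL1
  obtain ⟨hk', hc', hkE', -⟩ := hL2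
  have huR : (1:ℝ) ≤ u := by exact_mod_cast hN.1
  have hvR : (1:ℝ) ≤ v := by exact_mod_cast hN.2.1
  have huR' : (1:ℝ) ≤ u' := by exact_mod_cast hN'.1
  have hvR' : (1:ℝ) ≤ v' := by exact_mod_cast hN'.2.1
  have hPE : (u:ℝ) * v ≤ E := by
    have h1 : ((u:ℝ) * v)^3 ≤ E^3 := hS.2.trans hdep
    exact le_of_pow_le_pow_left₀ (by norm_num) hE0.le h1
  have fin : (2:ℝ) * E^2 ≤ u' * v' → 2 * (u * v) ≤ u' * v' := by
    intro h
    have h3 : E ≤ E^2 := by nlinarith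
    have : (2:ℝ) * (u * v) ≤ u' * v' := by linarith
    exact_mod_cast this
  rcases near_or_big (u := u') hE ht hd with h1 | h1
  · rcases near_or_big (u := v') hE ht hd' with h2 | h2
    · obtain ⟨hIn', hSt'⟩ := inLat_of_near hE ht hk hk' hkE hkE' hN'.2.2 h1 h2
      have hK := two_words ht0 hk hk' hc hc' hIn hIn' hSt hSt' hco hco' hN.1 hN.2.1 hN'.1 hN'.2.1
        (Ne.symm hne)
      have hmono : dep k k' t (ξ - a/k) (ξ' - a'/k') u v ≤
          dep k k' t (ξ - a/k) (ξ' - a'/k') (max u u') (max v v') :=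
        dep_mono ht0.le (le_max_left _ _) (le_max_left _ _)
      obtain ⟨hS1, hS2⟩ := hS
      -- W = max u u' * max v v' ≥ max(32, Π³/2)
      set W : ℝ := ((max u u' : ℕ):ℝ) * (max v v' : ℕ) with hW
      have hW1 : 32 ≤ W := by linarith
      have hW2 : ((u:ℝ) * v)^3 ≤ 2 * W := by linarith
      -- reduce to natural numbers
      set P : ℝ := (u:ℝ) * v with hP
      set P' : ℝ := (u':ℝ) * v' with hP'
      have hP1 : 1 ≤ P := by nlinarith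
      have hP1' : 1 ≤ P' := by nlinarith
      -- W ≤ P * P'
      have hWPP : W ≤ P * P' := by
        have hmu : max u u' ≤ u * u' :=
          max_le (Nat.le_mul_of_pos_right _ (by have := hN'.1; omega))
            (Nat.le_mul_of_pos_left _ (by have := hN.1; omega))
        have hmv : max v v' ≤ v * v' :=
          max_le (Nat.le_mul_of_pos_right _ (by have := hN'.2.1; omega))
            (Nat.le_mul_of_pos_left _ (by have := hN.2.1; omega))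
        have a1 : ((max u u' : ℕ):ℝ) ≤ u * u' := by exact_mod_cast hmu
        have a2 : ((max v v' : ℕ):ℝ) ≤ v * v' := by exact_mod_cast hmv
        calc W ≤ (u * u') * (v * v') := mul_le_mul a1 a2 (by positivity) (by positivity)
          _ = P * P' := by rw [hP, hP']; ring
      have hres : 2 * P ≤ P' := by
        by_cases hP4 : P ≤ 4
        · -- P * P' ≥ 32
          have h3 : 32 ≤ P * P' := hW1.trans hWPP
          by_contra hcon
          push Not at hcon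
          nlinarith
        · push Not at hP4
          have h3 : P^3 ≤ 2 * (P * P') := hW2.trans (by linarith)
          have h4 : P * P^2 ≤ P * (2 * P') := by nlinarith
          have h5 : P^2 ≤ 2 * P' := le_of_mul_le_mul_left h4 (by linarith)
          nlinarith
      rw [hP, hP'] at hres
      exact_mod_cast hres
    · exact fin (by nlinarith)
  · exact fin (by nlinarith)

/-- **THEOREM S2, final form**: rare box, dominant word, or labelled word which is neither the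
label word nor short. -/
theorem classify_dom {ξ ξ' t D : ℝ} (hD : 4 ≤ D) (ht : 8*(4*D^8)^5 ≤ t) {u v : ℕ}
    (hco : Nat.Coprime u v) (hN : NN ξ ξ' t u v) :
    Rare ξ ξ' t D u v ∨ Dom ξ ξ' t u v ∨
      ∃ (a : ℤ) (k : ℕ) (a' : ℤ) (k' : ℕ), Labd ξ ξ' t (4*D^8) a k a' k' u v ∧
        (u, v) ≠ (k / Nat.gcd k k', k' / Nat.gcd k k') ∧
        ¬ IsShort k k' t (ξ - a/k) (ξ' - a'/k') u v := by
  have hD8 : D ≤ 4 * D^8 := by
    have h7 : (1:ℝ) ≤ D^7 := one_le_pow₀ (by linarith)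
    have e : D^8 = D^7 * D := by ring
    rw [e]; nlinarith
  have hE : 1 ≤ 4 * D^8 := by linarith
  have h2D : 2 * D ≤ t := by
    have h1 : 4 * D^8 ≤ (4*D^8)^5 := le_self_pow₀ hE (by norm_num)
    linarith
  rcases classify hD h2D hco hN with h | h | ⟨a, k, a', k', hL⟩
  · exact Or.inl h
  · exact Or.inr (Or.inl (dom_of_uniq hD h))
  · right
    by_cases h1 : (u, v) = (k / Nat.gcd k k', k' / Nat.gcd k k')
    · left
      exact dom_of_label hE ht hco hN hL (congrArg Prod.fst h1) (congrArg Prod.snd h1)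
    by_cases h2 : IsShort k k' t (ξ - a/k) (ξ' - a'/k') u v
    · left
      exact dom_of_short hE ht hco hN hL h2
    right
    exact ⟨a, k, a', k', hL, h1, h2⟩

/-- **sum over all dominant words of all scales** -/
theorem dom_sum {ξ ξ' c : ℝ} (hc : 0 < c) (W : Finset (ℕ × ℕ))
    (hW : ∀ w ∈ W, ∃ t : ℝ, 0 < t ∧ Dom ξ ξ' t w.1 w.2) :
    ∑ w ∈ W, (((w.1 * w.2 : ℕ) : ℝ)) ^ (-c) ≤ 1 / (1 - 2 ^ (-c)) := by
  classical
  set ρ : ℝ := 2 ^ (-c) with hρ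
  have hρ0 : 0 < ρ := by positivity
  have hρ1 : ρ < 1 := Real.rpow_lt_one_of_one_lt_of_neg (by norm_num) (by linarith)
  have hinj : Set.InjOn (fun w : ℕ × ℕ => Nat.log 2 (w.1 * w.2)) (W : Set (ℕ × ℕ)) := by
    intro w hw w' hw' heq
    simp only at heq
    by_contra hne
    obtain ⟨t, ht, hd⟩ := hW w hw
    obtain ⟨t', ht', hd'⟩ := hW w' hw'
    have hp : 1 ≤ w.1 * w.2 := Nat.mul_pos hd.2.1.1 hd.2.1.2.1
    have hp' : 1 ≤ w'.1 * w'.2 := Nat.mul_pos hd'.2.1.1 hd'.2.1.2.1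
    have key : ∀ x y : ℕ, 1 ≤ x → 2 * x ≤ y → Nat.log 2 x < Nat.log 2 y := by
      intro x y hx hxy
      have h1 : 2 ^ (Nat.log 2 x + 1) ≤ y := by
        have := Nat.pow_log_le_self 2 (x := x) (by omega)
        rw [pow_succ]; omega
      exact Nat.lt_of_succ_le (Nat.le_log_of_pow_le (by norm_num) h1)
    rcases le_total t t' with h | h
    · have h1 := dom_double ht h hd hd' (fun h0 => hne (Prod.ext_iff.2 ⟨(congrArg Prod.fst h0).symm,
        (congrArg Prod.snd h0).symm⟩))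
      have := key _ _ hp h1
      omega
    · have h1 := dom_double ht' h hd' hd (fun h0 => hne (Prod.ext_iff.2 ⟨congrArg Prod.fst h0,
        congrArg Prod.snd h0⟩))
      have := key _ _ hp' h1
      omega
  calc ∑ w ∈ W, (((w.1 * w.2 : ℕ) : ℝ)) ^ (-c)
      ≤ ∑ w ∈ W, ρ ^ (Nat.log 2 (w.1 * w.2)) := by
        apply Finset.sum_le_sum
        intro w hw
        obtain ⟨t, ht, hd⟩ := hW w hw
        have hp : 1 ≤ w.1 * w.2 := Nat.mul_pos hd.2.1.1 hd.2.1.2.1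
        have h1 : (2:ℝ) ^ (Nat.log 2 (w.1 * w.2)) ≤ ((w.1 * w.2 : ℕ) : ℝ) := by
          exact_mod_cast Nat.pow_log_le_self 2 (x := w.1 * w.2) (by omega)
        have e : ρ ^ (Nat.log 2 (w.1 * w.2)) = ((2:ℝ) ^ (Nat.log 2 (w.1 * w.2))) ^ (-c) := by
          rw [hρ, ← Real.rpow_natCast, ← Real.rpow_natCast,
            ← Real.rpow_mul (by norm_num : (0:ℝ) ≤ 2), ← Real.rpow_mul (by norm_num : (0:ℝ) ≤ 2),
            mul_comm]
        rw [e]
        exact Real.rpow_le_rpow_of_nonpos (by positivity) h1 (by linarith)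
    _ = ∑ j ∈ W.image (fun w : ℕ × ℕ => Nat.log 2 (w.1 * w.2)), ρ ^ j := by
        rw [Finset.sum_image hinj]
    _ ≤ ∑' j : ℕ, ρ ^ j :=
        (summable_geometric_of_lt_one hρ0.le hρ1).sum_le_tsum _ (fun j _ => by positivity)
    _ = 1 / (1 - ρ) := by rw [tsum_geometric_of_lt_one hρ0.le hρ1, one_div]

/-- **S2 for a linked pair** `s = s₀ x`, `s' = s₀' x'`, offset `h`: rare box, dominant word, or
labelled (not short) with a killing prime. -/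
theorem pair_class {γ t D : ℝ} (hD : 4 ≤ D) (ht : 8*(4*D^8)^5 ≤ t) {s s' s₀ x s₀' x' : ℕ}
    {h : ℤ} (hsx : s = s₀ * x) (hsx' : s' = s₀' * x') (hs : 0 < s) (hs' : 0 < s')
    (hcop : Nat.Coprime s s') (hl : |((s : ℝ) - s') * γ + h| < 1 / t) :
    Rare (x * γ) (x' * γ) t D s₀ s₀' ∨ Dom (x * γ) (x' * γ) t s₀ s₀' ∨
      ∃ (a : ℤ) (k : ℕ) (a' : ℤ) (k' : ℕ), Labd (x * γ) (x' * γ) t (4*D^8) a k a' k' s₀ s₀' ∧
        ¬ IsShort k k' t (x * γ - a/k) (x' * γ - a'/k') s₀ s₀' ∧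
        ((∃ p : ℕ, p.Prime ∧ p ∣ s₀' ∧ ¬ p ∣ s ∧ ¬ p ∣ k * x ∧
            ∀ c : ℤ, (p : ℤ) ∣ a + k * x * c → (p : ℤ) ∣ h - s * c) ∨
          (∃ p : ℕ, p.Prime ∧ p ∣ s₀ ∧ ¬ p ∣ s' ∧ ¬ p ∣ k' * x' ∧
            ∀ c : ℤ, (p : ℤ) ∣ a' + k' * x' * c → (p : ℤ) ∣ h + s' * c)) := by
  have hs0 : 0 < s₀ := Nat.pos_of_ne_zero (by rintro rfl; simp at hsx; omega)
  have hs0' : 0 < s₀' := Nat.pos_of_ne_zero (by rintro rfl; simp at hsx'; omega)
  have hco : Nat.Coprime s₀ s₀' :=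
    Nat.Coprime.coprime_dvd_left (Dvd.intro _ hsx.symm)
      (Nat.Coprime.coprime_dvd_right (Dvd.intro _ hsx'.symm) hcop)
  have hN : NN (x * γ) (x' * γ) t s₀ s₀' := by
    refine ⟨hs0, hs0', -h, ?_⟩
    have e : (s₀:ℝ) * (x * γ) - s₀' * (x' * γ) - ((-h : ℤ) : ℝ) = ((s : ℝ) - s') * γ + h := by
      rw [hsx, hsx']; push_cast; ring
    rw [e]; exact hl
  rcases classify_dom hD ht hco hN with h1 | h1 | ⟨a, k, a', k', hL, hne, hsh⟩
  · exact Or.inl h1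
  · exact Or.inr (Or.inl h1)
  right; right
  refine ⟨a, k, a', k', hL, hsh, ?_⟩
  have hD8 : (1:ℝ) ≤ 4 * D^8 := by
    have h7 : (1:ℝ) ≤ D^8 := one_le_pow₀ (by linarith)
    linarith
  have hE0 : 0 < 4 * D^8 := by linarith
  have htE : (4*D^8)^2 * (1 + 2 * (4*D^8)) ≤ t := by
    have h2 : (4*D^8)^2 * (1 + 2 * (4*D^8)) ≤ 3 * (4*D^8)^3 := by
      have : 0 < (4*D^8)^2 := by positivity
      nlinarith
    have h3 : (4*D^8)^3 ≤ (4*D^8)^5 := pow_le_pow_right₀ hD8 (by norm_num)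
    have h4 : 0 < (4*D^8)^5 := by positivity
    linarith
  obtain ⟨⟨hk, hc, hkE, hd⟩, ⟨hk', hc', hkE', hd'⟩⟩ := hL
  obtain ⟨r, r', e1, e2, -, -, K1, K2⟩ := KillS2x949.kill_lemma hsx hsx' hs hs' hcop hk hk' hc hc'
    hE0 htE hkE hkE' hl hd hd'
  rcases KillS2x949.special_or_kill (r := r) (r' := r') with ⟨q1, q2⟩ | ⟨p, hp, hpr⟩ | ⟨p, hp, hpr⟩
  · exfalso
    apply hne
    rw [e1, e2, q1, q2, mul_one, mul_one]
  · left
    obtain ⟨-, b2, b3, b4⟩ := K1 p hp hpr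
    exact ⟨p, hp, by rw [e2]; exact hpr.mul_left _, b2, b3, b4⟩
  · right
    obtain ⟨-, b2, b3, b4⟩ := K2 p hp hpr
    exact ⟨p, hp, by rw [e1]; exact hpr.mul_left _, b2, b3, b4⟩

end Crest.Agent.R4C.S2bx284
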