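import Crest.Agent.R4C.RelTail_808
import Crest.Agent.R4C.MXlowB_808
import Crest.Agent.R4C.Class4_992
import Crest.Agent.R4C.S2b_284

/-!
# Row 4: energy of the rare pairs and of the deep labelled pairs, anatomy weights (helper808)

Relations of the coprime cofactors `s = b/g`, `s' = c/g`, cut at a height `y ≥ 8`
(`low y s`, `upp y s` = smooth and rough part):

* `KRare γ t D y s s'` : linked at scale `t` and the box of the smooth word is rare;
* `KDeep γ t E K y s s'` : linked, the smooth word has labels (`≤ E`), is not short and has depth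
  `≥ K` (`S2b_284`).

* `dens_cut`    : natural density of a relation given by the smooth word, general `M`;
* `dens_rare`   : `≤ C (1 + 2 log y log D)² / D`;
* `dens_deep`   : `≤ C (1 + 2 log y log K)² K^(-1/3)`;
* `rare_energy`, `deep_energy` : energies at the dyadic scale `G < gcd ≤ 2G`;
* `rare_energy_t` : with `D = t^c`, `log y ≤ C₁ t^(c/8)`, window `L`:
  `L · energy ≤ C t^(-(c/(2r) - κ)) ((L D f)(L D f'))^((1+κ)/2)`.
-/

set_option autoImplicit false

open Finset

namespace Crest.Agent.R4C.RelRarex808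

open Basex935 Cutx50 MXlowx808 MXlowBx808 RelTailx808 S2x232

/-! ### natural density of a relation between smooth words -/

lemma sum_div_le (N Z : ℕ) {z : ℝ} (hZ : z ≤ (Z : ℝ) + 1) {h : ℕ → ℝ} (h0 : ∀ n, 0 ≤ h n) :
    ∑ n ∈ N.divisors, (if (n : ℝ) < z then h n else 0) ≤
      ∑ n ∈ Icc 1 Z, (if n ∣ N then h n else 0) := by
  rw [← Finset.sum_filter]
  calc ∑ n ∈ N.divisors.filter (fun n : ℕ => (n : ℝ) < z), h n
      = ∑ n ∈ N.divisors.filter (fun n : ℕ => (n : ℝ) < z), (if n ∣ N then h n else 0) := by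
        refine sum_congr rfl fun n hn => ?_
        rw [Finset.mem_filter, Nat.mem_divisors] at hn
        rw [if_pos hn.1.1]
    _ ≤ ∑ n ∈ Icc 1 Z, (if n ∣ N then h n else 0) := by
        refine sum_le_sum_of_subset_of_nonneg ?_ ?_
        · intro n hn
          rw [Finset.mem_filter] at hn
          rw [Finset.mem_Icc]
          refine ⟨Nat.pos_of_mem_divisors hn.1, ?_⟩
          have h1 : (n : ℝ) < (Z : ℝ) + 1 := lt_of_lt_of_le hn.2 hZ
          have h2 : n < Z + 1 := by exact_mod_cast h1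
          omega
        · intro n _ _
          split_ifs
          · exact h0 n
          · exact le_rfl

open Classical in
lemma inner_le {M y Z : ℕ} (hy : 8 ≤ y) {z β : ℝ} (hz : 0 < z)
    (hZ : z ≤ (Z : ℝ) + 1) (P : ℕ → ℕ → Prop)
    (hP : ∑ u ∈ Icc 1 Z, ∑ v ∈ Icc 1 Z, (if P u v then 1 / ((u : ℝ) * v) else 0) ≤ β) :
    ∑ n ∈ (low y M).divisors, ∑ n' ∈ (low y M).divisors,
        nu (low y M) n * nu (low y M) n' * (if P n n' then 1 else 0) ≤
      2 * (Real.exp 14 * z ^ (-(1 / Real.log y))) + β := by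
  set N := low y M with hN
  have hN0 : 0 < N := low_pos y M
  set τ := Real.exp 14 * z ^ (-(1 / Real.log y)) with hτ
  have htail : ∑ n ∈ N.divisors, (if z ≤ (n : ℝ) then nu N n else 0) ≤ τ := by
    rw [← Finset.sum_filter]
    exact low_tail' (M := M) hy hz
  have hν : ∀ n, 0 ≤ nu N n := nu_nonneg N
  have hpt : ∀ n n' : ℕ, nu N n * nu N n' * (if P n n' then (1 : ℝ) else 0) ≤
      (if z ≤ (n : ℝ) then nu N n else 0) * nu N n' +
      nu N n * (if z ≤ (n' : ℝ) then nu N n' else 0) +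
      (if (n : ℝ) < z then (if (n' : ℝ) < z then (if P n n' then nu N n * nu N n' else 0) else 0)
        else 0) := by
    intro n n'
    have h1 := hν n
    have h2 := hν n'
    have h3 : 0 ≤ nu N n * nu N n' := mul_nonneg h1 h2
    by_cases c1 : z ≤ (n : ℝ)
    · have c1' : ¬ (n : ℝ) < z := not_lt.2 c1
      rw [if_pos c1, if_neg c1']
      by_cases c2 : z ≤ (n' : ℝ)
      · rw [if_pos c2]
        split_ifs <;> nlinarith
      · rw [if_neg c2]
        split_ifs <;> nlinarith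
    · have c1' : (n : ℝ) < z := not_le.1 c1
      rw [if_neg c1, if_pos c1']
      by_cases c2 : z ≤ (n' : ℝ)
      · rw [if_pos c2, if_neg (not_lt.2 c2)]
        split_ifs <;> nlinarith
      · rw [if_neg c2, if_pos (not_le.1 c2)]
        split_ifs <;> nlinarith
  have hsum1 : ∑ n ∈ N.divisors, nu N n = 1 := sum_nu hN0
  calc ∑ n ∈ N.divisors, ∑ n' ∈ N.divisors, nu N n * nu N n' * (if P n n' then 1 else 0)
      ≤ ∑ n ∈ N.divisors, ∑ n' ∈ N.divisors,
        ((if z ≤ (n : ℝ) then nu N n else 0) * nu N n' +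
        nu N n * (if z ≤ (n' : ℝ) then nu N n' else 0) +
        (if (n : ℝ) < z then (if (n' : ℝ) < z then (if P n n' then nu N n * nu N n' else 0) else 0)
          else 0)) := sum_le_sum fun n _ => sum_le_sum fun n' _ => hpt n n'
    _ = (∑ n ∈ N.divisors, (if z ≤ (n : ℝ) then nu N n else 0)) * (∑ n' ∈ N.divisors, nu N n') +
        (∑ n ∈ N.divisors, nu N n) * (∑ n' ∈ N.divisors, (if z ≤ (n' : ℝ) then nu N n' else 0)) +
        ∑ n ∈ N.divisors, ∑ n' ∈ N.divisors,
        (if (n : ℝ) < z then (if (n' : ℝ) < z then (if P n n' then nu N n * nu N n' else 0) else 0)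
          else 0) := by
        rw [sum_mul_sum, sum_mul_sum]
        simp only [sum_add_distrib]
    _ ≤ τ + τ + β := by
        rw [hsum1, mul_one, one_mul]
        refine add_le_add (add_le_add htail htail) ?_
        calc ∑ n ∈ N.divisors, ∑ n' ∈ N.divisors,
            (if (n : ℝ) < z then (if (n' : ℝ) < z then (if P n n' then nu N n * nu N n' else 0) else 0)
              else 0)
            = ∑ n ∈ N.divisors, (if (n : ℝ) < z then (∑ n' ∈ N.divisors,
              (if (n' : ℝ) < z then (if P n n' then nu N n * nu N n' else 0) else 0)) else 0) := by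
              refine sum_congr rfl fun n _ => ?_
              split_ifs
              · rfl
              · exact sum_const_zero
          _ ≤ ∑ n ∈ Icc 1 Z, (if n ∣ N then (∑ n' ∈ N.divisors,
              (if (n' : ℝ) < z then (if P n n' then nu N n * nu N n' else 0) else 0)) else 0) := by
              refine sum_div_le N Z hZ fun n => sum_nonneg fun n' _ => ?_
              split_ifs
              · exact mul_nonneg (hν _) (hν _)
              · exact le_rfl
              · exact le_rfl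
          _ ≤ ∑ n ∈ Icc 1 Z, ∑ n' ∈ Icc 1 Z,
              (if P n n' then (if n ∣ N then nu N n else 0) * (if n' ∣ N then nu N n' else 0)
                else 0) := by
              refine sum_le_sum fun n _ => ?_
              split_ifs with hn
              · refine (sum_div_le N Z hZ (h := fun n' => if P n n' then nu N n * nu N n' else 0)
                  fun n' => ?_).trans (le_of_eq ?_)
                · show 0 ≤ (if P n n' then nu N n * nu N n' else 0)
                  split_ifs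
                  · exact mul_nonneg (hν _) (hν _)
                  · exact le_rfl
                · refine sum_congr rfl fun n' _ => ?_
                  show (if n' ∣ N then (if P n n' then nu N n * nu N n' else 0) else 0) = _
                  split_ifs <;> simp
              · refine sum_nonneg fun n' _ => ?_
                split_ifs <;> simp
          _ ≤ β := by
              refine Class4x992.mass_of_laws Z P (μ := fun n => if n ∣ N then nu N n else 0)
                (μ' := fun n => if n ∣ N then nu N n else 0) ?_ ?_ ?_ hP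
              · intro n
                show 0 ≤ (if n ∣ N then nu N n else 0)
                split_ifs
                · exact hν _
                · exact le_rfl
              · intro n _
                show (if n ∣ N then nu N n else 0) ≤ _
                split_ifs with hd
                · exact Lawx69.nu_le_inv hN0 hd
                · positivity
              · intro n _
                show (if n ∣ N then nu N n else 0) ≤ _
                split_ifs with hd
                · exact Lawx69.nu_le_inv hN0 hd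
                · positivity
    _ = 2 * τ + β := by ring

lemma coprime_low {y s t : ℕ} (h : Nat.Coprime s t) : Nat.Coprime (low y s) (low y t) :=
  Nat.Coprime.coprime_dvd_left (low_dvd_self y s)
    (Nat.Coprime.coprime_dvd_right (low_dvd_self y t) h)

open Classical in
/-- **density of a relation between the smooth words** -/
theorem dens_cut {M y Z : ℕ} (hM : 0 < M) (hy : 8 ≤ y) {z β : ℝ} (hz : 0 < z)
    (hZ : z ≤ (Z : ℝ) + 1) (Q : ℕ → ℕ → ℕ → ℕ → Prop)
    (hQ : ∀ x x', ∑ u ∈ Icc 1 Z, ∑ v ∈ Icc 1 Z, (if Q x x' u v then 1 / ((u : ℝ) * v) else 0) ≤ β)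
    (K : ℕ → ℕ → ℝ)
    (hK : ∀ s t, s ∣ M → t ∣ M → Nat.Coprime s t →
      K s t ≤ if Q (upp y s) (upp y t) (low y s) (low y t) then 1 else 0) :
    MXlowx808.dens M K ≤ 2 * (Real.exp 14 * z ^ (-(1 / Real.log y))) + β := by
  have h1 : MXlowx808.dens M K ≤ ∑ s ∈ M.divisors, ∑ t ∈ M.divisors, nu M s * nu M t *
      (if Q (upp y s) (upp y t) (low y s) (low y t) then 1 else 0) := by
    unfold MXlowx808.dens
    refine sum_le_sum fun s hs => sum_le_sum fun t ht => ?_
    rw [Nat.mem_divisors] at hs ht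
    have hn : 0 ≤ nu M s * nu M t := mul_nonneg (nu_nonneg _ _) (nu_nonneg _ _)
    by_cases hc : Nat.Coprime s t
    · rw [if_pos hc]
      exact mul_le_mul_of_nonneg_left (hK s t hs.1 ht.1 hc) hn
    · rw [if_neg hc]
      refine mul_nonneg hn ?_
      split_ifs <;> norm_num
  refine h1.trans ?_
  rw [sum_low_upp hM y]
  have h2 : ∀ T ∈ (upp y M).divisors, ∀ n ∈ (low y M).divisors,
      ∑ t ∈ M.divisors, nu M (n * T) * nu M t *
        (if Q (upp y (n * T)) (upp y t) (low y (n * T)) (low y t) then (1 : ℝ) else 0) =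
      ∑ T' ∈ (upp y M).divisors, ∑ n' ∈ (low y M).divisors,
        (nu (upp y M) T * nu (upp y M) T') * (nu (low y M) n * nu (low y M) n' *
          (if Q T T' n n' then 1 else 0)) := by
    intro T hT n hn
    rw [Nat.mem_divisors] at hT hn
    rw [sum_low_upp hM y]
    refine sum_congr rfl fun T' hT' => sum_congr rfl fun n' hn' => ?_
    rw [Nat.mem_divisors] at hT' hn'
    rw [nu_low_upp hM hn.1 hT.1, nu_low_upp hM hn'.1 hT'.1, upp_of_mul hn.1 hT.1,
      upp_of_mul hn'.1 hT'.1, low_of_mul hn.1 hT.1, low_of_mul hn'.1 hT'.1]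
    ring
  calc ∑ T ∈ (upp y M).divisors, ∑ n ∈ (low y M).divisors,
        ∑ t ∈ M.divisors, nu M (n * T) * nu M t *
        (if Q (upp y (n * T)) (upp y t) (low y (n * T)) (low y t) then (1 : ℝ) else 0)
      = ∑ T ∈ (upp y M).divisors, ∑ n ∈ (low y M).divisors,
        ∑ T' ∈ (upp y M).divisors, ∑ n' ∈ (low y M).divisors,
        (nu (upp y M) T * nu (upp y M) T') * (nu (low y M) n * nu (low y M) n' *
          (if Q T T' n n' then 1 else 0)) :=
        sum_congr rfl fun T hT => sum_congr rfl fun n hn => h2 T hT n hn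
    _ = ∑ T ∈ (upp y M).divisors, ∑ T' ∈ (upp y M).divisors,
        (nu (upp y M) T * nu (upp y M) T') * ∑ n ∈ (low y M).divisors, ∑ n' ∈ (low y M).divisors,
          (nu (low y M) n * nu (low y M) n' * (if Q T T' n n' then 1 else 0)) := by
        refine sum_congr rfl fun T _ => ?_
        rw [sum_comm]
        refine sum_congr rfl fun T' _ => ?_
        rw [mul_sum]
        refine sum_congr rfl fun n _ => ?_
        rw [mul_sum]
    _ ≤ ∑ T ∈ (upp y M).divisors, ∑ T' ∈ (upp y M).divisors,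
        (nu (upp y M) T * nu (upp y M) T') *
          (2 * (Real.exp 14 * z ^ (-(1 / Real.log y))) + β) := by
        refine sum_le_sum fun T _ => sum_le_sum fun T' _ => ?_
        exact mul_le_mul_of_nonneg_left (inner_le hy hz hZ (Q T T') (hQ T T'))
          (mul_nonneg (nu_nonneg _ _) (nu_nonneg _ _))
    _ = _ := by
        have h3 : ∑ T ∈ (upp y M).divisors, nu (upp y M) T = 1 := sum_nu (upp_pos y M)
        calc ∑ T ∈ (upp y M).divisors, ∑ T' ∈ (upp y M).divisors,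
              (nu (upp y M) T * nu (upp y M) T') *
              (2 * (Real.exp 14 * z ^ (-(1 / Real.log y))) + β)
            = (∑ T ∈ (upp y M).divisors, nu (upp y M) T) *
              (∑ T' ∈ (upp y M).divisors, nu (upp y M) T') *
              (2 * (Real.exp 14 * z ^ (-(1 / Real.log y))) + β) := by
              rw [sum_mul_sum, sum_mul]
              refine sum_congr rfl fun T _ => ?_
              rw [sum_mul]
          _ = _ := by rw [h3]; ring

/-! ### the choice of `z` -/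

/-- `z = exp(log y · l)`, `Z = ⌊z⌋`: the tail is `e^14 e^{-l}` and `1 + log₂ Z ≤ 1 + 2 log y · l` -/
lemma choice {y : ℕ} (hy : 8 ≤ y) {l : ℝ} (hl : 0 ≤ l) :
    let z := Real.exp (Real.log y * l)
    0 < z ∧ z ≤ (⌊z⌋₊ : ℝ) + 1 ∧ z ^ (-(1 / Real.log y)) = Real.exp (-l) ∧
      (1 + (Nat.log 2 ⌊z⌋₊ : ℝ)) ^ 2 ≤ (1 + 2 * Real.log y * l) ^ 2 := by
  intro z
  have hy8 : (8 : ℝ) ≤ y := by exact_mod_cast hy
  have hly : 2 ≤ Real.log y := log_eight.trans (Real.log_le_log (by norm_num) hy8)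
  have hz : 0 < z := Real.exp_pos _
  have hz1 : 1 ≤ z := Real.one_le_exp (by positivity)
  refine ⟨hz, (Nat.lt_floor_add_one z).le, ?_, ?_⟩
  · rw [Real.rpow_def_of_pos hz, Real.log_exp]
    congr 1
    field_simp
  · have h1 : 1 ≤ ⌊z⌋₊ := Nat.le_floor (by exact_mod_cast hz1)
    have h2 : ((2 ^ Nat.log 2 ⌊z⌋₊ : ℕ) : ℝ) ≤ z :=
      le_trans (by exact_mod_cast Nat.pow_log_le_self 2 (by omega)) (Nat.floor_le hz.le)
    have h3 : (Nat.log 2 ⌊z⌋₊ : ℝ) * Real.log 2 ≤ Real.log y * l := by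
      have h4 := Real.log_le_log (by positivity) h2
      push_cast at h4
      rw [Real.log_pow, Real.log_exp] at h4
      exact h4
    have h5 := Real.log_two_gt_d9
    have h6 : (0 : ℝ) ≤ (Nat.log 2 ⌊z⌋₊ : ℝ) := Nat.cast_nonneg _
    have h7 : (Nat.log 2 ⌊z⌋₊ : ℝ) ≤ 2 * Real.log y * l := by nlinarith
    exact pow_le_pow_left₀ (by positivity) (by linarith) 2

/-! ### rare pairs -/

open Classical in
/-- linked at scale `t`, the box of the smooth word is rare -/
noncomputable def KRare (γ t D : ℝ) (y s s' : ℕ) : ℝ :=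
  if near (((s : ℝ) - s') * γ) (1 / t) ∧
    S2bx284.Rare ((upp y s : ℕ) * γ) ((upp y s' : ℕ) * γ) t D (low y s) (low y s') then 1 else 0

lemma KRare_nonneg (γ t D : ℝ) (y s s' : ℕ) : 0 ≤ KRare γ t D y s s' := by
  unfold KRare; split_ifs <;> norm_num

lemma KRare_le_one (γ t D : ℝ) (y s s' : ℕ) : KRare γ t D y s s' ≤ 1 := by
  unfold KRare; split_ifs <;> norm_num

lemma near_split {γ δ : ℝ} {y s s' : ℕ} (hs : s ≠ 0) (hs' : s' ≠ 0)
    (h : near (((s : ℝ) - s') * γ) δ) :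
    near (((low y s : ℕ) : ℝ) * ((upp y s : ℕ) * γ) - ((low y s' : ℕ) : ℝ) * ((upp y s' : ℕ) * γ))
      δ := by
  have e1 : ((low y s : ℕ) : ℝ) * (upp y s : ℕ) = s := by exact_mod_cast low_mul_upp y hs
  have e2 : ((low y s' : ℕ) : ℝ) * (upp y s' : ℕ) = s' := by exact_mod_cast low_mul_upp y hs'
  have e : ((low y s : ℕ) : ℝ) * ((upp y s : ℕ) * γ) -
      ((low y s' : ℕ) : ℝ) * ((upp y s' : ℕ) * γ) = ((s : ℝ) - s') * γ := by
    rw [← e1, ← e2]
    ring
  rwa [e]

theorem dens_rare {M y : ℕ} (hM : 0 < M) (hy : 8 ≤ y) {γ t D : ℝ} (hD : 1 ≤ D) :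
    MXlowx808.dens M (KRare γ t D y) ≤
      (2 * Real.exp 14 + 8) * ((1 + 2 * Real.log y * Real.log D) ^ 2 / D) := by
  classical
  have hD0 : 0 < D := by linarith
  have hl : 0 ≤ Real.log D := Real.log_nonneg hD
  obtain ⟨hz, hZ, htail, hlog⟩ := choice hy hl
  set z := Real.exp (Real.log y * Real.log D) with hzdef
  set W := (1 + 2 * Real.log y * Real.log D) ^ 2 with hW
  have hy8 : (8 : ℝ) ≤ y := by exact_mod_cast hy
  have hly : 2 ≤ Real.log y := log_eight.trans (Real.log_le_log (by norm_num) hy8)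
  have hW1 : 1 ≤ W := by
    rw [hW]
    apply one_le_pow₀
    have : 0 ≤ 2 * Real.log y * Real.log D := by positivity
    linarith
  have h := dens_cut (Z := ⌊z⌋₊) hM hy hz hZ
    (fun x x' u v => near ((u : ℝ) * ((x : ℕ) * γ) - v * ((x' : ℕ) * γ)) (1 / t) ∧
      S2bx284.Rare ((x : ℕ) * γ) ((x' : ℕ) * γ) t D u v) (β := 8 * W / D)
    (fun x x' => by
      refine (@Class2x992.rare_mass D t ((x : ℕ) * γ) ((x' : ℕ) * γ) hD0 ⌊z⌋₊ _
        (fun _ _ => Classical.propDecidable _) fun u v huv => huv).trans ?_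
      exact div_le_div_of_nonneg_right (mul_le_mul_of_nonneg_left hlog (by norm_num)) hD0.le)
    (KRare γ t D y)
    (fun s s' hs hs' _ => by
      unfold KRare
      have hs0 : s ≠ 0 := (Nat.pos_of_dvd_of_pos hs hM).ne'
      have hs0' : s' ≠ 0 := (Nat.pos_of_dvd_of_pos hs' hM).ne'
      split_ifs with h1 h2 h2
      · exact le_rfl
      · exact absurd ⟨near_split hs0 hs0' h1.1, h1.2⟩ h2
      · norm_num
      · exact le_rfl)
  refine h.trans ?_
  rw [htail, Real.exp_neg, Real.exp_log hD0]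
  have h1 : D⁻¹ ≤ W / D := by
    rw [div_eq_mul_inv]
    exact le_mul_of_one_le_left (by positivity) hW1
  have h2 : 0 < Real.exp 14 := Real.exp_pos _
  calc 2 * (Real.exp 14 * D⁻¹) + 8 * W / D = 2 * Real.exp 14 * D⁻¹ + 8 * (W / D) := by ring
    _ ≤ 2 * Real.exp 14 * (W / D) + 8 * (W / D) := by
        have := mul_le_mul_of_nonneg_left h1 (by positivity : 0 ≤ 2 * Real.exp 14)
        linarith
    _ = _ := by ring

/-! ### deep labelled pairs -/

open Classical in
/-- linked at scale `t`, labelled smooth word, not short, of depth `≥ K` -/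
noncomputable def KDeep (γ t E K : ℝ) (y s s' : ℕ) : ℝ :=
  if near (((s : ℝ) - s') * γ) (1 / t) ∧
    ∃ (a : ℤ) (k : ℕ) (a' : ℤ) (k' : ℕ),
      S2bx284.Labd ((upp y s : ℕ) * γ) ((upp y s' : ℕ) * γ) t E a k a' k' (low y s) (low y s') ∧
      ¬ S2bx284.IsShort k k' t ((upp y s : ℕ) * γ - a / k) ((upp y s' : ℕ) * γ - a' / k')
        (low y s) (low y s') ∧
      K ≤ S2bx284.dep k k' t ((upp y s : ℕ) * γ - a / k) ((upp y s' : ℕ) * γ - a' / k')
        (low y s) (low y s')
  then 1 else 0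

lemma KDeep_nonneg (γ t E K : ℝ) (y s s' : ℕ) : 0 ≤ KDeep γ t E K y s s' := by
  unfold KDeep; split_ifs <;> norm_num

lemma KDeep_le_one (γ t E K : ℝ) (y s s' : ℕ) : KDeep γ t E K y s s' ≤ 1 := by
  unfold KDeep; split_ifs <;> norm_num

lemma dep_eq {ξ ξ' t : ℝ} (ht : 0 ≤ t) {a : ℤ} {k : ℕ} {a' : ℤ} {k' u v : ℕ} :
    S2bx284.dep k k' t (ξ - a / k) (ξ' - a' / k') u v =
      Class4x992.depth ξ ξ' t a k a' k' u v := by
  unfold S2bx284.dep Class4x992.depth
  rw [mul_max_of_nonneg _ _ ht, ← mul_assoc t (u : ℝ), ← mul_assoc t (v : ℝ)]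

lemma notShort_of {ξ ξ' t E K : ℝ} (ht : 0 ≤ t) (hK : 64 ≤ K) {a : ℤ} {k : ℕ} {a' : ℤ}
    {k' u v : ℕ} (hL : S2bx284.Labd ξ ξ' t E a k a' k' u v)
    (hs : ¬ S2bx284.IsShort k k' t (ξ - a / k) (ξ' - a' / k') u v)
    (hd : K ≤ S2bx284.dep k k' t (ξ - a / k) (ξ' - a' / k') u v) :
    Class4x992.NotShort ξ ξ' t E K u v := by
  refine ⟨a, k, a', k', hL.1, hL.2, ?_, ?_⟩
  · rw [← dep_eq ht]; exact hd
  · rw [← dep_eq ht]
    unfold S2bx284.IsShort at hs
    push Not at hs
    have h1 := hs (hK.trans hd)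
    set d := S2bx284.dep k k' t (ξ - a / k) (ξ' - a' / k') u v with hdd
    have hd0 : 0 ≤ d := by linarith
    have huv : 0 ≤ (u : ℝ) * v := by positivity
    calc d ^ ((1 : ℝ) / 3) < (((u : ℝ) * v) ^ (3 : ℕ)) ^ ((1 : ℝ) / 3) :=
          Real.rpow_lt_rpow hd0 h1 (by norm_num)
      _ = (u : ℝ) * v := by
          rw [← Real.rpow_natCast, ← Real.rpow_mul huv]
          norm_num

theorem dens_deep {M y : ℕ} (hM : 0 < M) (hy : 8 ≤ y) {γ t E K : ℝ} (ht : 8 * E ^ 5 ≤ t)
    (ht0 : 0 ≤ t) (hK : 64 ≤ K) :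
    MXlowx808.dens M (KDeep γ t E K y) ≤
      (2 * Real.exp 14 + 5) * ((1 + 2 * Real.log y * Real.log K) ^ 2 * K ^ (-(1 : ℝ) / 3)) := by
  classical
  have hK0 : 0 < K := by linarith
  have hlK : 0 ≤ Real.log K := Real.log_nonneg (by linarith)
  have hl : 0 ≤ Real.log K / 3 := by positivity
  obtain ⟨hz, hZ, htail, hlog⟩ := choice hy hl
  set z := Real.exp (Real.log y * (Real.log K / 3)) with hzdef
  set W := (1 + 2 * Real.log y * Real.log K) ^ 2 with hW
  have hy8 : (8 : ℝ) ≤ y := by exact_mod_cast hy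
  have hly : 2 ≤ Real.log y := log_eight.trans (Real.log_le_log (by norm_num) hy8)
  have hlog' : (1 + (Nat.log 2 ⌊z⌋₊ : ℝ)) ^ 2 ≤ W := by
    refine hlog.trans (pow_le_pow_left₀ (by positivity) ?_ 2)
    have : 0 ≤ Real.log y * Real.log K := by positivity
    nlinarith
  have hW1 : 1 ≤ W := by
    rw [hW]
    apply one_le_pow₀
    have : 0 ≤ 2 * Real.log y * Real.log K := by positivity
    linarith
  set k3 := K ^ (-(1 : ℝ) / 3) with hk3
  have hk30 : 0 < k3 := Real.rpow_pos_of_pos hK0 _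
  have h := dens_cut (Z := ⌊z⌋₊) hM hy hz hZ
    (fun x x' u v => Nat.Coprime u v ∧ NN ((x : ℕ) * γ) ((x' : ℕ) * γ) t u v ∧
      Class4x992.NotShort ((x : ℕ) * γ) ((x' : ℕ) * γ) t E K u v) (β := 5 * k3 * W)
    (fun x x' => by
      refine (@Class4x992.label_mass E t K ((x : ℕ) * γ) ((x' : ℕ) * γ) ht hK ⌊z⌋₊ _
        (fun _ _ => Classical.propDecidable _) fun u v huv => huv).trans ?_
      exact mul_le_mul_of_nonneg_left hlog' (by positivity))
    (KDeep γ t E K y)
    (fun s s' hs hs' hco => by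
      unfold KDeep
      have hs0 : s ≠ 0 := (Nat.pos_of_dvd_of_pos hs hM).ne'
      have hs0' : s' ≠ 0 := (Nat.pos_of_dvd_of_pos hs' hM).ne'
      split_ifs with h1 h2 h2
      · exact le_rfl
      · exfalso
        apply h2
        obtain ⟨hn, a, k, a', k', hL, hsh, hd⟩ := h1
        exact ⟨coprime_low hco, ⟨low_pos y s, low_pos y s', near_split hs0 hs0' hn⟩,
          notShort_of ht0 hK hL hsh hd⟩
      · norm_num
      · exact le_rfl)
  refine h.trans ?_
  have e3 : z ^ (-(1 / Real.log y)) = k3 := by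
    rw [htail, hk3, Real.rpow_def_of_pos hK0]
    congr 1
    ring
  rw [e3]
  have h2 : 0 < Real.exp 14 := Real.exp_pos _
  have h4 : k3 ≤ W * k3 := le_mul_of_one_le_left hk30.le hW1
  calc 2 * (Real.exp 14 * k3) + 5 * k3 * W = 2 * Real.exp 14 * k3 + 5 * (W * k3) := by ring
    _ ≤ 2 * Real.exp 14 * (W * k3) + 5 * (W * k3) := by
        have := mul_le_mul_of_nonneg_left h4 (by positivity : 0 ≤ 2 * Real.exp 14)
        linarith
    _ = _ := by ring

/-! ### energies -/

/-- **rare pairs at the dyadic scale `G`** -/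
theorem rare_energy {κ r : ℝ} (hκ : 0 < κ) (hκ1 : κ < 1) (hr : 2 / (1 - κ) < r) :
    ∃ Λ C : ℝ, 0 ≤ Λ ∧ 1 ≤ C ∧ ∀ (M y : ℕ) (f f' : ℕ → ℝ) (γ t D G : ℝ), 0 < M → 8 ≤ y → 1 ≤ D →
      (∀ b, 0 ≤ f b) → (∀ b, f b ≤ 1) → (∀ b, 0 ≤ f' b) → (∀ b, f' b ≤ 1) → 0 < G →
      ER M G f f' (KRare γ t D y) ≤
        C * ((1 + 2 * Real.log y * Real.log D) ^ 2 / D) ^ (1 / r) * G ^ κ *
          ((DD Λ M f) ^ ((1 + κ) / 2) * (DD Λ M f') ^ ((1 + κ) / 2)) := by
  obtain ⟨Λ, C, hΛ, hC, h⟩ := mxlowU hκ hκ1 hr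
  have h1κ : 0 < 1 - κ := by linarith
  have hr0 : 0 < r := lt_trans (by positivity) hr
  have hCr : 0 < 2 * Real.exp 14 + 8 := by positivity
  have hCr1 : 1 ≤ (2 * Real.exp 14 + 8) ^ (1 / r) :=
    Real.one_le_rpow (by have := Real.exp_pos 14; linarith) (by positivity)
  refine ⟨Λ, C * (2 * Real.exp 14 + 8) ^ (1 / r), hΛ, one_le_mul_of_one_le_of_one_le hC hCr1, ?_⟩
  intro M y f f' γ t D G hM hy hD hf hf1 hf' hf1' hG
  have hD0 : 0 < D := by linarith
  have := h M f f' (KRare γ t D y) _ G hM.ne' hf hf1 hf' hf1' (KRare_nonneg γ t D y)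
    (KRare_le_one γ t D y) (dens_rare hM hy hD) hG
  refine this.trans (le_of_eq ?_)
  rw [Real.mul_rpow hCr.le (by positivity)]
  ring

/-- **deep labelled pairs at the dyadic scale `G`** -/
theorem deep_energy {κ r : ℝ} (hκ : 0 < κ) (hκ1 : κ < 1) (hr : 2 / (1 - κ) < r) :
    ∃ Λ C : ℝ, 0 ≤ Λ ∧ 1 ≤ C ∧ ∀ (M y : ℕ) (f f' : ℕ → ℝ) (γ t E K G : ℝ), 0 < M → 8 ≤ y →
      8 * E ^ 5 ≤ t → 0 ≤ t → 64 ≤ K →
      (∀ b, 0 ≤ f b) → (∀ b, f b ≤ 1) → (∀ b, 0 ≤ f' b) → (∀ b, f' b ≤ 1) → 0 < G →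
      ER M G f f' (KDeep γ t E K y) ≤
        C * ((1 + 2 * Real.log y * Real.log K) ^ 2 * K ^ (-(1 : ℝ) / 3)) ^ (1 / r) * G ^ κ *
          ((DD Λ M f) ^ ((1 + κ) / 2) * (DD Λ M f') ^ ((1 + κ) / 2)) := by
  obtain ⟨Λ, C, hΛ, hC, h⟩ := mxlowU hκ hκ1 hr
  have h1κ : 0 < 1 - κ := by linarith
  have hr0 : 0 < r := lt_trans (by positivity) hr
  have hCr : 0 < 2 * Real.exp 14 + 5 := by positivity
  have hCr1 : 1 ≤ (2 * Real.exp 14 + 5) ^ (1 / r) :=
    Real.one_le_rpow (by have := Real.exp_pos 14; linarith) (by positivity)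
  refine ⟨Λ, C * (2 * Real.exp 14 + 5) ^ (1 / r), hΛ, one_le_mul_of_one_le_of_one_le hC hCr1, ?_⟩
  intro M y f f' γ t E K G hM hy ht ht0 hK hf hf1 hf' hf1' hG
  have hK0 : 0 < K := by linarith
  have := h M f f' (KDeep γ t E K y) _ G hM.ne' hf hf1 hf' hf1' (KDeep_nonneg γ t E K y)
    (KDeep_le_one γ t E K y) (dens_deep hM hy ht ht0 hK) hG
  refine this.trans (le_of_eq ?_)
  rw [Real.mul_rpow hCr.le (by positivity)]
  ring

/-! ### in terms of the scale `t = G/L` -/

lemma window {κ L t a b A : ℝ} (hL : 0 < L) (ht : 0 < t) (ha : 0 ≤ a) (hb : 0 ≤ b) :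
    L * (A * (t * L) ^ κ * (a ^ ((1 + κ) / 2) * b ^ ((1 + κ) / 2))) =
      A * t ^ κ * ((L * a) * (L * b)) ^ ((1 + κ) / 2) := by
  have e1 : ((L * a) * (L * b)) ^ ((1 + κ) / 2) =
      (L * L ^ κ) * (a ^ ((1 + κ) / 2) * b ^ ((1 + κ) / 2)) := by
    rw [Real.mul_rpow (by positivity) (by positivity), Real.mul_rpow hL.le ha,
      Real.mul_rpow hL.le hb]
    have e2 : L ^ ((1 + κ) / 2) * L ^ ((1 + κ) / 2) = L * L ^ κ := by
      rw [← Real.rpow_add hL]
      have : (1 + κ) / 2 + (1 + κ) / 2 = 1 + κ := by ring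
      rw [this, Real.rpow_add hL, Real.rpow_one]
    calc L ^ ((1 + κ) / 2) * a ^ ((1 + κ) / 2) * (L ^ ((1 + κ) / 2) * b ^ ((1 + κ) / 2))
        = (L ^ ((1 + κ) / 2) * L ^ ((1 + κ) / 2)) * (a ^ ((1 + κ) / 2) * b ^ ((1 + κ) / 2)) := by
          ring
      _ = _ := by rw [e2]
  rw [e1, Real.mul_rpow ht.le hL.le]
  ring

/-- **rare pairs, window `L`, scale `t`**, `D = t^c`, `log y ≤ C₁ t^(c/8)` -/
theorem rare_energy_t {κ r c C1 : ℝ} (hκ : 0 < κ) (hκ1 : κ < 1) (hr : 2 / (1 - κ) < r)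
    (hc : 0 < c) (hC1 : 0 ≤ C1) :
    ∃ Λ C : ℝ, 0 ≤ Λ ∧ 1 ≤ C ∧ ∀ (M y : ℕ) (f f' : ℕ → ℝ) (γ t L : ℝ), 0 < M → 8 ≤ y →
      Real.log y ≤ C1 * t ^ (c / 8) → 1 ≤ t → 0 < L →
      (∀ b, 0 ≤ f b) → (∀ b, f b ≤ 1) → (∀ b, 0 ≤ f' b) → (∀ b, f' b ≤ 1) →
      L * ER M (t * L) f f' (KRare γ t (t ^ c) y) ≤
        C * t ^ (-(c / (2 * r) - κ)) * ((L * DD Λ M f) * (L * DD Λ M f')) ^ ((1 + κ) / 2) := by
  obtain ⟨Λ, C, hΛ, hC, h⟩ := rare_energy hκ hκ1 hr
  have h1κ : 0 < 1 - κ := by linarith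
  have hr0 : 0 < r := lt_trans (by positivity) hr
  set C2 := (1 + 16 * C1) ^ 2 with hC2
  have hC21 : 1 ≤ C2 := one_le_pow₀ (by linarith)
  have hC2r : 1 ≤ C2 ^ (1 / r) := Real.one_le_rpow hC21 (by positivity)
  refine ⟨Λ, C * C2 ^ (1 / r), hΛ, one_le_mul_of_one_le_of_one_le hC hC2r, ?_⟩
  intro M y f f' γ t L hM hy hly ht hL hf hf1 hf' hf1'
  have ht0 : 0 < t := by linarith
  have hy8 : (8 : ℝ) ≤ y := by exact_mod_cast hy
  have hly2 : 2 ≤ Real.log y := log_eight.trans (Real.log_le_log (by norm_num) hy8)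
  have hD : 1 ≤ t ^ c := Real.one_le_rpow ht hc.le
  have hlt : 0 ≤ Real.log t := Real.log_nonneg ht
  have hlogt : Real.log t ≤ t ^ (c / 8) / (c / 8) := Real.log_le_rpow_div ht0.le (by positivity)
  have hlD : Real.log (t ^ c) = c * Real.log t := Real.log_rpow ht0 c
  have e0 := h M y f f' γ t (t ^ c) (t * L) hM hy hD hf hf1 hf' hf1' (by positivity)
  have hDf := DD_nonneg (Λ := Λ) hΛ M hf
  have hDf' := DD_nonneg (Λ := Λ) hΛ M hf'
  have hW : (1 + 2 * Real.log y * Real.log (t ^ c)) ^ 2 / t ^ c ≤ C2 * t ^ (-(c / 2)) := by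
    have a1 : 2 * Real.log y * Real.log (t ^ c) ≤ 16 * C1 * t ^ (c / 4) := by
      rw [hlD]
      have b1 : c * Real.log t ≤ 8 * t ^ (c / 8) := by
        have := mul_le_mul_of_nonneg_left hlogt hc.le
        calc c * Real.log t ≤ c * (t ^ (c / 8) / (c / 8)) := this
          _ = 8 * t ^ (c / 8) := by field_simp
      have b2 : t ^ (c / 4) = t ^ (c / 8) * t ^ (c / 8) := by
        rw [← Real.rpow_add ht0]; congr 1; ring
      have b3 : 0 ≤ t ^ (c / 8) := by positivity
      calc 2 * Real.log y * (c * Real.log t) ≤ 2 * (C1 * t ^ (c / 8)) * (8 * t ^ (c / 8)) := by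
            refine mul_le_mul (by linarith) b1 (by positivity) (by positivity)
        _ = 16 * C1 * t ^ (c / 4) := by rw [b2]; ring
    have a2 : 1 + 2 * Real.log y * Real.log (t ^ c) ≤ (1 + 16 * C1) * t ^ (c / 4) := by
      have : 1 ≤ t ^ (c / 4) := Real.one_le_rpow ht (by positivity)
      linarith
    have a3 : 0 ≤ 1 + 2 * Real.log y * Real.log (t ^ c) := by
      rw [hlD]; positivity
    have a4 := pow_le_pow_left₀ a3 a2 2
    have a5 : ((1 + 16 * C1) * t ^ (c / 4)) ^ 2 = C2 * t ^ (c / 2) := by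
      rw [mul_pow, ← hC2, ← Real.rpow_natCast, ← Real.rpow_mul ht0.le]
      congr 2
      push_cast
      ring
    rw [a5] at a4
    calc (1 + 2 * Real.log y * Real.log (t ^ c)) ^ 2 / t ^ c ≤ (C2 * t ^ (c / 2)) / t ^ c :=
          div_le_div_of_nonneg_right a4 (by positivity)
      _ = C2 * t ^ (-(c / 2)) := by
          rw [mul_div_assoc, ← Real.rpow_sub ht0]
          congr 2
          ring
  have hWr : ((1 + 2 * Real.log y * Real.log (t ^ c)) ^ 2 / t ^ c) ^ (1 / r) ≤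
      C2 ^ (1 / r) * t ^ (-(c / (2 * r))) := by
    calc ((1 + 2 * Real.log y * Real.log (t ^ c)) ^ 2 / t ^ c) ^ (1 / r)
        ≤ (C2 * t ^ (-(c / 2))) ^ (1 / r) := by
          refine Real.rpow_le_rpow ?_ hW (by positivity)
          have : 0 < t ^ c := Real.rpow_pos_of_pos ht0 _
          positivity
      _ = C2 ^ (1 / r) * t ^ (-(c / (2 * r))) := by
          rw [Real.mul_rpow (by positivity) (by positivity), ← Real.rpow_mul ht0.le]
          congr 2
          field_simp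
  calc L * ER M (t * L) f f' (KRare γ t (t ^ c) y)
      ≤ L * (C * ((1 + 2 * Real.log y * Real.log (t ^ c)) ^ 2 / t ^ c) ^ (1 / r) * (t * L) ^ κ *
          ((DD Λ M f) ^ ((1 + κ) / 2) * (DD Λ M f') ^ ((1 + κ) / 2))) :=
        mul_le_mul_of_nonneg_left e0 hL.le
    _ = C * ((1 + 2 * Real.log y * Real.log (t ^ c)) ^ 2 / t ^ c) ^ (1 / r) * t ^ κ *
          ((L * DD Λ M f) * (L * DD Λ M f')) ^ ((1 + κ) / 2) := window hL ht0 hDf hDf'
    _ ≤ C * (C2 ^ (1 / r) * t ^ (-(c / (2 * r)))) * t ^ κ *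
          ((L * DD Λ M f) * (L * DD Λ M f')) ^ ((1 + κ) / 2) := by
        refine mul_le_mul_of_nonneg_right ?_ (by positivity)
        refine mul_le_mul_of_nonneg_right ?_ (by positivity)
        exact mul_le_mul_of_nonneg_left hWr (by linarith)
    _ = C * C2 ^ (1 / r) * t ^ (-(c / (2 * r) - κ)) *
          ((L * DD Λ M f) * (L * DD Λ M f')) ^ ((1 + κ) / 2) := by
        have : t ^ (-(c / (2 * r) - κ)) = t ^ (-(c / (2 * r))) * t ^ κ := by
          rw [← Real.rpow_add ht0]; congr 1; ring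
        rw [this]
        ring

/-- **deep pairs, window `L`, scale `t`** -/
theorem deep_energy_t {κ r : ℝ} (hκ : 0 < κ) (hκ1 : κ < 1) (hr : 2 / (1 - κ) < r) :
    ∃ Λ C : ℝ, 0 ≤ Λ ∧ 1 ≤ C ∧ ∀ (M y : ℕ) (f f' : ℕ → ℝ) (γ t E K L : ℝ), 0 < M → 8 ≤ y →
      8 * E ^ 5 ≤ t → 0 < t → 64 ≤ K → 0 < L →
      (∀ b, 0 ≤ f b) → (∀ b, f b ≤ 1) → (∀ b, 0 ≤ f' b) → (∀ b, f' b ≤ 1) →
      L * ER M (t * L) f f' (KDeep γ t E K y) ≤
        C * ((1 + 2 * Real.log y * Real.log K) ^ 2 * K ^ (-(1 : ℝ) / 3)) ^ (1 / r) * t ^ κ *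
          ((L * DD Λ M f) * (L * DD Λ M f')) ^ ((1 + κ) / 2) := by
  obtain ⟨Λ, C, hΛ, hC, h⟩ := deep_energy hκ hκ1 hr
  refine ⟨Λ, C, hΛ, hC, ?_⟩
  intro M y f f' γ t E K L hM hy ht ht0 hK hL hf hf1 hf' hf1'
  have e0 := h M y f f' γ t E K (t * L) hM hy ht ht0.le hK hf hf1 hf' hf1' (by positivity)
  have hDf := DD_nonneg (Λ := Λ) hΛ M hf
  have hDf' := DD_nonneg (Λ := Λ) hΛ M hf'
  rw [← window hL ht0 hDf hDf']
  exact mul_le_mul_of_nonneg_left e0 hL.le

end Crest.Agent.R4C.RelRarex808
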