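import Crest.Agent.R4C.S2b_284
import Crest.Agent.R4C.Class4_992
import Crest.Agent.R4C.RelRare_808

/-!
# Row 4, leaf S6-3 of note 3463: density of the "same point" words (helper217)

Words `(u,v)` (coprime) such that `(r u, r' v)` lies in one lattice
`(r u) a / k - (r' v) a' / k' ∈ ℤ` (`S2b_284.InLat`) and in one strip
`|r u δ - r' v δ'| < 1/t`.  No condition relates `t`, `k`, `k'`, `δ`, `δ'`.

* `same_count` : `#S ≤ 1 + 8 U V / dep`;
* `same_mass`  : words of a box of depth `≥ K` with product `≥ P` : mass `≤ r r' (4/P + 16/K)`;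
* `Dat`, `Dat.rel`, `Cov` : relation covered by `≤ N` such data in every dyadic box;
* `cov_mass`   : `∑ 1/(uv) ≤ N R (4/P + 16/K) (1 + log₂ Z)²`;
* `dens_same`  : natural density for a `y`-smooth modulus;
* `same_energy`: energy of the pairs whose cofactors satisfy the relation (input `mxlowU`);
* `inLat_of_point`, `strip_of_link`, `dep_of_point` : glue with centres.
-/

set_option autoImplicit false

open Finset

namespace Crest.Agent.R4C.SamePtx217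

open Basex935 Cutx50 MXlowx808 MXlowBx808 RelRarex808 S2bx284

/-! ### A. count in a box -/

/-- number of coprime words of a box in one lattice and one strip -/
theorem same_count (S : Finset (ℕ × ℕ)) {U V : ℕ} (hU : 1 ≤ U) (hV : 1 ≤ V) {t δ δ' : ℝ}
    {a a' : ℤ} {k k' : ℕ} (ht : 0 < t) (hk : 0 < k) (hk' : 0 < k')
    (hkc : IsCoprime a (k : ℤ)) (hkc' : IsCoprime a' (k' : ℤ))
    (hb : ∀ w ∈ S, U ≤ w.1 ∧ w.1 < 2 * U ∧ V ≤ w.2 ∧ w.2 < 2 * V)
    (hc : ∀ w ∈ S, Nat.Coprime w.1 w.2)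
    (hl : ∀ w ∈ S, InLat a k a' k' w.1 w.2)
    (hs : ∀ w ∈ S, |(w.1 : ℝ) * δ - w.2 * δ'| < 1 / t) :
    (S.card : ℝ) ≤ 1 + 8 * U * V / dep k k' t δ δ' U V := by
  have hU0 : (0 : ℝ) < U := by exact_mod_cast hU
  have hV0 : (0 : ℝ) < V := by exact_mod_cast hV
  have hlcm : 0 < Nat.lcm k k' := Nat.lcm_pos hk hk'
  have hK : (0 : ℝ) < (Nat.lcm k k' : ℝ) := by exact_mod_cast hlcm
  have hw1 : ∀ w ∈ S, (0 : ℝ) < w.1 := fun w hw => by
    have : 1 ≤ w.1 := hU.trans (hb w hw).1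
    exact_mod_cast this
  have hw2 : ∀ w ∈ S, (0 : ℝ) < w.2 := fun w hw => by
    have : 1 ≤ w.2 := hV.trans (hb w hw).2.2.1
    exact_mod_cast this
  have hdet : ∀ w ∈ S, ∀ w' ∈ S, w ≠ w' →
      (Nat.lcm k k' : ℝ) ≤ |(w.1 : ℝ) * w'.2 - w'.1 * w.2| := by
    intro w hw w' hw' hne
    have h5 := lcm_le_det hk hk' hkc hkc' (hl w hw) (hl w' hw') (hc w hw) (hc w' hw')
      (hU.trans (hb w hw).1) (by simpa using hne)
    have h6 : ((Nat.lcm k k' : ℕ) : ℝ) ≤ ((|(w.1 : ℤ) * w'.2 - w'.1 * w.2| : ℤ) : ℝ) := by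
      exact_mod_cast h5
    push_cast at h6
    exact h6
  -- three counts
  have c0 : (S.card : ℝ) ≤ 1 + 8 * U * V / (Nat.lcm k k' * 1) := by
    have h := Class3x992.det_count S hV (x := U / (2 * V)) (l := 2 * U / V) hK (by positivity)
      hb ?_ hdet
    · refine h.trans (le_of_eq ?_)
      field_simp
      ring
    · intro w hw
      have hbw := hb w hw
      have b1 : (U : ℝ) ≤ w.1 := by exact_mod_cast hbw.1
      have b2 : (w.1 : ℝ) ≤ 2 * U := by exact_mod_cast hbw.2.1.le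
      have b3 : (V : ℝ) ≤ w.2 := by exact_mod_cast hbw.2.2.1
      have b4 : (w.2 : ℝ) ≤ 2 * V := by exact_mod_cast hbw.2.2.2.le
      constructor
      · exact div_le_div₀ (hw1 w hw).le b1 (hw2 w hw) b4
      · have : (w.1 : ℝ) / w.2 ≤ 2 * U / V := div_le_div₀ (by positivity) b2 hV0 b3
        have h0 : (0 : ℝ) ≤ U / (2 * V) := by positivity
        linarith
  have c1 : 0 < |δ| → (S.card : ℝ) ≤ 1 + 8 * U * V / (Nat.lcm k k' * (t * U * |δ|)) := by
    intro hδ0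
    have h := Class3x992.det_count S hV (x := δ' / δ - 1 / (t * V * |δ|))
      (l := 2 / (t * V * |δ|)) hK (by positivity) hb ?_ hdet
    · refine h.trans (le_of_eq ?_)
      field_simp
      ring
    · intro w hw
      have h2 := hs w hw
      have hδne : δ ≠ 0 := abs_pos.1 hδ0
      have b3 : (V : ℝ) ≤ w.2 := by exact_mod_cast (hb w hw).2.2.1
      have h3 : |(w.1 : ℝ) / w.2 - δ' / δ| ≤ 1 / (t * V * |δ|) := by
        have e1 : (w.1 : ℝ) / w.2 - δ' / δ = (w.1 * δ - w.2 * δ') / (w.2 * δ) := by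
          have := (hw2 w hw).ne'
          field_simp
        rw [e1, abs_div, abs_mul, abs_of_pos (hw2 w hw), div_le_div_iff₀
          (mul_pos (hw2 w hw) hδ0) (by positivity)]
        have e2 : |(w.1 : ℝ) * δ - w.2 * δ'| * t ≤ 1 := by
          rw [← le_div_iff₀ ht]; exact h2.le
        calc |(w.1 : ℝ) * δ - w.2 * δ'| * (t * V * |δ|)
            = (|(w.1 : ℝ) * δ - w.2 * δ'| * t) * (V * |δ|) := by ring
          _ ≤ 1 * (V * |δ|) := mul_le_mul_of_nonneg_right e2 (by positivity)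
          _ ≤ 1 * (w.2 * |δ|) := by gcongr
      have h4 := abs_le.1 h3
      constructor
      · linarith [h4.1]
      · have e3 : 2 / (t * V * |δ|) = 1 / (t * V * |δ|) + 1 / (t * V * |δ|) := by ring
        rw [e3]
        linarith [h4.2]
  have c2 : 0 < |δ'| → (S.card : ℝ) ≤ 1 + 8 * U * V / (Nat.lcm k k' * (t * V * |δ'|)) := by
    intro hδ0
    set T := S.image (fun w : ℕ × ℕ => (w.2, w.1)) with hT
    have hcard : T.card = S.card := Finset.card_image_of_injective _ (by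
      intro w w' h; simp only [Prod.mk.injEq] at h; exact Prod.ext h.2 h.1)
    have hT' : ∀ w ∈ T, (w.2, w.1) ∈ S := by
      intro w hw
      rw [hT, Finset.mem_image] at hw
      obtain ⟨w', hw', rfl⟩ := hw
      exact hw'
    have h := Class3x992.det_count T (U := V) hU (x := δ / δ' - 1 / (t * U * |δ'|))
      (l := 2 / (t * U * |δ'|)) hK (by positivity) ?_ ?_ ?_
    · rw [hcard] at h
      refine h.trans (le_of_eq ?_)
      field_simp
      ring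
    · intro w hw
      have := hb _ (hT' w hw)
      exact ⟨this.2.2.1, this.2.2.2, this.1, this.2.1⟩
    · intro w hw
      have h2 := hs _ (hT' w hw)
      simp only at h2
      have hδne : δ' ≠ 0 := abs_pos.1 hδ0
      have b3 : (U : ℝ) ≤ w.2 := by exact_mod_cast (hb _ (hT' w hw)).1
      have hw20 : (0 : ℝ) < w.2 := hw1 _ (hT' w hw)
      have h3 : |(w.1 : ℝ) / w.2 - δ / δ'| ≤ 1 / (t * U * |δ'|) := by
        have e1 : (w.1 : ℝ) / w.2 - δ / δ' = -(w.2 * δ - w.1 * δ') / (w.2 * δ') := by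
          have := hw20.ne'
          field_simp
          ring
        rw [e1, abs_div, abs_neg, abs_mul, abs_of_pos hw20, div_le_div_iff₀
          (mul_pos hw20 hδ0) (by positivity)]
        have e2 : |(w.2 : ℝ) * δ - w.1 * δ'| * t ≤ 1 := by
          rw [← le_div_iff₀ ht]; exact h2.le
        calc |(w.2 : ℝ) * δ - w.1 * δ'| * (t * U * |δ'|)
            = (|(w.2 : ℝ) * δ - w.1 * δ'| * t) * (U * |δ'|) := by ring
          _ ≤ 1 * (U * |δ'|) := mul_le_mul_of_nonneg_right e2 (by positivity)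
          _ ≤ 1 * (w.2 * |δ'|) := by gcongr
      have h4 := abs_le.1 h3
      constructor
      · linarith [h4.1]
      · have e3 : 2 / (t * U * |δ'|) = 1 / (t * U * |δ'|) + 1 / (t * U * |δ'|) := by ring
        rw [e3]
        linarith [h4.2]
    · intro w hw w' hw' hne
      have h5 := hdet _ (hT' w hw) _ (hT' w' hw') (by
        intro h; simp only [Prod.mk.injEq] at h; exact hne (Prod.ext h.2 h.1))
      simp only at h5
      have e : |(w.1 : ℝ) * w'.2 - w'.1 * w.2| = |(w.2 : ℝ) * w'.1 - w'.2 * w.1| := by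
        rw [← abs_neg]; congr 1; ring
      rw [e]
      exact h5
  -- combine
  unfold dep
  rcases le_total (1 : ℝ) (max (t * U * |δ|) (t * V * |δ'|)) with hm | hm
  · rw [max_eq_right hm]
    rcases le_total (t * U * |δ|) (t * V * |δ'|) with h | h
    · rw [max_eq_right h] at hm ⊢
      apply c2
      by_contra h0
      have : |δ'| = 0 := le_antisymm (not_lt.1 h0) (abs_nonneg _)
      rw [this, mul_zero] at hm
      linarith
    · rw [max_eq_left h] at hm ⊢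
      apply c1
      by_contra h0
      have : |δ| = 0 := le_antisymm (not_lt.1 h0) (abs_nonneg _)
      rw [this, mul_zero] at hm
      linarith
  · rw [max_eq_left hm]
    exact c0

/-! ### B. reduction of the twist -/

/-- `dep` in a doubled box -/
lemma dep_double {k k' : ℕ} {t δ δ' : ℝ} {u v : ℕ} :
    dep k k' t δ δ' (2 * u) (2 * v) ≤ 2 * dep k k' t δ δ' u v := by
  unfold dep
  push_cast
  have e : max (t * (2 * (u : ℝ)) * |δ|) (t * (2 * (v : ℝ)) * |δ'|) =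
      2 * max (t * u * |δ|) (t * v * |δ'|) := by
    rw [mul_max_of_nonneg _ _ (by norm_num : (0 : ℝ) ≤ 2)]
    congr 1 <;> ring
  rw [e]
  have h : max 1 (2 * max (t * u * |δ|) (t * v * |δ'|)) ≤
      2 * max 1 (max (t * u * |δ|) (t * v * |δ'|)) := by
    rw [mul_max_of_nonneg 1 (max (t * (u : ℝ) * |δ|) (t * v * |δ'|)) (by norm_num : (0 : ℝ) ≤ 2)]
    exact max_le_max (by norm_num) le_rfl
  calc (Nat.lcm k k' : ℝ) * max 1 (2 * max (t * u * |δ|) (t * v * |δ'|))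
      ≤ Nat.lcm k k' * (2 * max 1 (max (t * u * |δ|) (t * v * |δ'|))) :=
        mul_le_mul_of_nonneg_left h (by positivity)
    _ = _ := by ring

/-- `dep` for two comparable windows -/
lemma dep_window {k k' : ℕ} {t t0 δ δ' : ℝ} (h : t ≤ 2 * t0) {u v : ℕ} :
    dep k k' t δ δ' u v ≤ 2 * dep k k' t0 δ δ' u v := by
  unfold dep
  have h1 : max 1 (max (t * u * |δ|) (t * v * |δ'|)) ≤
      2 * max 1 (max (t0 * u * |δ|) (t0 * v * |δ'|)) := by
    rw [mul_max_of_nonneg _ _ (by norm_num : (0 : ℝ) ≤ 2),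
      mul_max_of_nonneg _ _ (by norm_num : (0 : ℝ) ≤ 2)]
    refine max_le_max (by norm_num) (max_le_max ?_ ?_)
    · calc t * u * |δ| = t * (u * |δ|) := by ring
        _ ≤ 2 * t0 * (u * |δ|) := mul_le_mul_of_nonneg_right h (by positivity)
        _ = 2 * (t0 * u * |δ|) := by ring
    · calc t * v * |δ'| = t * (v * |δ'|) := by ring
        _ ≤ 2 * t0 * (v * |δ'|) := mul_le_mul_of_nonneg_right h (by positivity)
        _ = 2 * (t0 * v * |δ'|) := by ring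
  calc (Nat.lcm k k' : ℝ) * max 1 (max (t * u * |δ|) (t * v * |δ'|))
      ≤ Nat.lcm k k' * (2 * max 1 (max (t0 * u * |δ|) (t0 * v * |δ'|))) :=
        mul_le_mul_of_nonneg_left h1 (by positivity)
    _ = _ := by ring

/-- reduction of one twisted label -/
lemma red_one {a : ℤ} {k r : ℕ} (hk : 0 < k) (hr : 0 < r) (hc : IsCoprime a (k : ℤ)) :
    ∃ (g k1 r1 : ℕ), 0 < g ∧ 0 < k1 ∧ 0 < r1 ∧ k = g * k1 ∧ r = g * r1 ∧
      IsCoprime ((r1 : ℤ) * a) (k1 : ℤ) := by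
  have hg : 0 < Nat.gcd k r := Nat.gcd_pos_of_pos_left _ hk
  have hco : Nat.Coprime (k / Nat.gcd k r) (r / Nat.gcd k r) := Nat.coprime_div_gcd_div_gcd hg
  have e1 : k = Nat.gcd k r * (k / Nat.gcd k r) := (Nat.mul_div_cancel' (Nat.gcd_dvd_left k r)).symm
  have e2 : r = Nat.gcd k r * (r / Nat.gcd k r) := (Nat.mul_div_cancel' (Nat.gcd_dvd_right k r)).symm
  refine ⟨Nat.gcd k r, k / Nat.gcd k r, r / Nat.gcd k r, hg,
    Nat.div_pos (Nat.le_of_dvd hk (Nat.gcd_dvd_left k r)) hg,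
    Nat.div_pos (Nat.le_of_dvd hr (Nat.gcd_dvd_right k r)) hg, e1, e2, ?_⟩
  have h1 : IsCoprime ((r / Nat.gcd k r : ℕ) : ℤ) ((k / Nat.gcd k r : ℕ) : ℤ) :=
    Nat.isCoprime_iff_coprime.2 hco.symm
  have h2 : IsCoprime a ((k / Nat.gcd k r : ℕ) : ℤ) := by
    have : ((k / Nat.gcd k r : ℕ) : ℤ) ∣ (k : ℤ) := by
      exact_mod_cast (Dvd.intro_left _ e1.symm)
    exact hc.of_isCoprime_of_dvd_right this
  exact h1.mul_left h2

/-- **reduction of the twist** -/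
lemma red {a a' : ℤ} {k k' r r' : ℕ} (hk : 0 < k) (hk' : 0 < k') (hr : 0 < r) (hr' : 0 < r')
    (hc : IsCoprime a (k : ℤ)) (hc' : IsCoprime a' (k' : ℤ)) :
    ∃ (b b' : ℤ) (l l' : ℕ), 0 < l ∧ 0 < l' ∧ IsCoprime b (l : ℤ) ∧ IsCoprime b' (l' : ℤ) ∧
      (∀ u v, InLat a k a' k' (r * u) (r' * v) → InLat b l b' l' u v) ∧
      ∀ (t δ δ' : ℝ) (u v : ℕ), dep k k' t δ δ' (r * u) (r' * v) ≤
        (r * r' : ℝ) * dep l l' t (r * δ) (r' * δ') u v := by
  obtain ⟨g, k1, r1, hg, hk1, hr1, ek, er, hcop⟩ := red_one (r := r) hk hr hc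
  obtain ⟨g', k1', r1', hg', hk1', hr1', ek', er', hcop'⟩ := red_one (r := r') hk' hr' hc'
  refine ⟨(r1 : ℤ) * a, (r1' : ℤ) * a', k1, k1', hk1, hk1', hcop, hcop', ?_, ?_⟩
  · rintro u v ⟨h, hh⟩
    refine ⟨h, ?_⟩
    have hgz : (g : ℤ) * g' ≠ 0 := by positivity
    apply mul_left_cancel₀ hgz
    rw [mul_zero, ← hh, ek, ek', er, er']
    push_cast
    ring
  · intro t δ δ' u v
    have hlcm : (Nat.lcm k k' : ℝ) ≤ (r * r' : ℝ) * Nat.lcm k1 k1' := by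
      have h1 : Nat.lcm k k' ∣ (g * g') * Nat.lcm k1 k1' := by
        apply Nat.lcm_dvd
        · rw [ek]
          have : k1 ∣ Nat.lcm k1 k1' := Nat.dvd_lcm_left _ _
          calc g * k1 ∣ g * Nat.lcm k1 k1' := Nat.mul_dvd_mul_left _ this
            _ ∣ g * g' * Nat.lcm k1 k1' := ⟨g', by ring⟩
        · rw [ek']
          have : k1' ∣ Nat.lcm k1 k1' := Nat.dvd_lcm_right _ _
          calc g' * k1' ∣ g' * Nat.lcm k1 k1' := Nat.mul_dvd_mul_left _ this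
            _ ∣ g * g' * Nat.lcm k1 k1' := ⟨g, by ring⟩
      have h2 : Nat.lcm k k' ≤ (g * g') * Nat.lcm k1 k1' :=
        Nat.le_of_dvd (by have := Nat.lcm_pos hk1 hk1'; positivity) h1
      have h3 : g * g' ≤ r * r' := by
        rw [er, er']
        exact Nat.mul_le_mul (Nat.le_mul_of_pos_right _ hr1) (Nat.le_mul_of_pos_right _ hr1')
      have h4 : Nat.lcm k k' ≤ (r * r') * Nat.lcm k1 k1' :=
        h2.trans (Nat.mul_le_mul_right _ h3)
      exact_mod_cast h4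
    unfold dep
    have e : max (1 : ℝ) (max (t * ((r * u : ℕ) : ℝ) * |δ|) (t * ((r' * v : ℕ) : ℝ) * |δ'|)) =
        max 1 (max (t * u * |r * δ|) (t * v * |r' * δ'|)) := by
      congr 2
      · push_cast
        rw [abs_mul, abs_of_nonneg (by positivity : (0 : ℝ) ≤ r)]
        ring
      · push_cast
        rw [abs_mul, abs_of_nonneg (by positivity : (0 : ℝ) ≤ r')]
        ring
    rw [e]
    calc (Nat.lcm k k' : ℝ) * max 1 (max (t * u * |r * δ|) (t * v * |r' * δ'|))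
        ≤ ((r * r' : ℝ) * Nat.lcm k1 k1') * max 1 (max (t * u * |r * δ|) (t * v * |r' * δ'|)) :=
          mul_le_mul_of_nonneg_right hlcm (by positivity)
      _ = _ := by ring

/-! ### C. mass of a box -/

/-- **one box**: words of depth `≥ K` and product `≥ P` -/
theorem same_mass (S : Finset (ℕ × ℕ)) {U V : ℕ} (hU : 1 ≤ U) (hV : 1 ≤ V) {t δ δ' : ℝ}
    {a a' : ℤ} {k k' r r' : ℕ} (ht : 0 < t) (hk : 0 < k) (hk' : 0 < k') (hr : 0 < r)
    (hr' : 0 < r') (hkc : IsCoprime a (k : ℤ)) (hkc' : IsCoprime a' (k' : ℤ))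
    (hb : ∀ w ∈ S, U ≤ w.1 ∧ w.1 < 2 * U ∧ V ≤ w.2 ∧ w.2 < 2 * V)
    (hc : ∀ w ∈ S, Nat.Coprime w.1 w.2)
    (hl : ∀ w ∈ S, InLat a k a' k' (r * w.1) (r' * w.2))
    (hs : ∀ w ∈ S, |((r * w.1 : ℕ) : ℝ) * δ - (r' * w.2 : ℕ) * δ'| < 1 / t)
    {K P : ℝ} (hK : 0 < K) (hP : 0 < P)
    (hd : ∀ w ∈ S, K ≤ dep k k' t δ δ' (r * w.1) (r' * w.2))
    (hp : ∀ w ∈ S, P ≤ ((r * w.1 : ℕ) : ℝ) * (r' * w.2 : ℕ)) :
    ∑ w ∈ S, 1 / ((w.1 : ℝ) * w.2) ≤ (r * r' : ℝ) * (4 / P + 16 / K) := by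
  rcases S.eq_empty_or_nonempty with rfl | ⟨w0, hw0⟩
  · simp only [Finset.sum_empty]
    positivity
  obtain ⟨b, b', l, l', hl0, hl0', hbc, hbc', hlat, hdep⟩ := red hk hk' hr hr' hkc hkc'
  have hU0 : (0 : ℝ) < U := by exact_mod_cast hU
  have hV0 : (0 : ℝ) < V := by exact_mod_cast hV
  have hR0 : (0 : ℝ) < r := by exact_mod_cast hr
  have hR0' : (0 : ℝ) < r' := by exact_mod_cast hr'
  have hcount := same_count S hU hV (t := t) (δ := r * δ) (δ' := r' * δ') ht hl0 hl0' hbc hbc' hb hc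
    (fun w hw => hlat _ _ (hl w hw)) (fun w hw => by
      have h1 := hs w hw
      push_cast at h1
      have e : (w.1 : ℝ) * (r * δ) - w.2 * (r' * δ') = r * w.1 * δ - r' * w.2 * δ' := by ring
      rw [e]; exact h1)
  set Kb := dep l l' t (r * δ) (r' * δ') U V with hKb
  have hb0 := hb w0 hw0
  have u2 : (w0.1 : ℝ) ≤ 2 * U := by exact_mod_cast hb0.2.1.le
  have v2 : (w0.2 : ℝ) ≤ 2 * V := by exact_mod_cast hb0.2.2.2.le
  have hKb2 : K ≤ (r * r' : ℝ) * (2 * Kb) := by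
    calc K ≤ _ := hd w0 hw0
      _ ≤ _ := hdep t δ δ' w0.1 w0.2
      _ ≤ (r * r' : ℝ) * dep l l' t (r * δ) (r' * δ') (2 * U) (2 * V) :=
          mul_le_mul_of_nonneg_left (dep_mono ht.le hb0.2.1.le hb0.2.2.2.le) (by positivity)
      _ ≤ _ := mul_le_mul_of_nonneg_left dep_double (by positivity)
  have hKb0 : 0 < Kb := by
    by_contra h
    push Not at h
    have : (r * r' : ℝ) * (2 * Kb) ≤ 0 := mul_nonpos_of_nonneg_of_nonpos (by positivity)
      (by linarith)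
    linarith
  have hUV4 : P ≤ (r * r' : ℝ) * (4 * (U * V)) := by
    calc P ≤ _ := hp w0 hw0
      _ = (r * r' : ℝ) * (w0.1 * w0.2) := by push_cast; ring
      _ ≤ (r * r' : ℝ) * ((2 * U) * (2 * V)) := by gcongr
      _ = _ := by ring
  have hUV0 : (0 : ℝ) < U * V := by positivity
  have hm1 : 1 / ((U : ℝ) * V) ≤ (r * r' : ℝ) * (4 / P) := by
    rw [mul_div_assoc', div_le_div_iff₀ hUV0 hP]
    linarith
  have hm2 : 8 / Kb ≤ (r * r' : ℝ) * (16 / K) := by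
    rw [mul_div_assoc', div_le_div_iff₀ hKb0 hK]
    linarith
  calc ∑ w ∈ S, 1 / ((w.1 : ℝ) * w.2) ≤ ∑ w ∈ S, 1 / ((U : ℝ) * V) := by
        refine Finset.sum_le_sum fun w hw => ?_
        apply one_div_le_one_div_of_le hUV0
        have h1 : (U : ℝ) ≤ w.1 := by exact_mod_cast (hb w hw).1
        have h2 : (V : ℝ) ≤ w.2 := by exact_mod_cast (hb w hw).2.2.1
        exact mul_le_mul h1 h2 hV0.le (by positivity)
    _ = (S.card : ℝ) * (1 / ((U : ℝ) * V)) := by rw [Finset.sum_const, nsmul_eq_mul]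
    _ ≤ (1 + 8 * U * V / Kb) * (1 / ((U : ℝ) * V)) :=
        mul_le_mul_of_nonneg_right hcount (by positivity)
    _ = 1 / ((U : ℝ) * V) + 8 / Kb := by field_simp
    _ ≤ (r * r' : ℝ) * (4 / P + 16 / K) := by
        rw [mul_add]; linarith

/-! ### D. data and covers -/

/-- a same-point datum: two labels, two displacements, two twists, a window -/
structure Dat where
  a : ℤ
  k : ℕ
  a' : ℤ
  k' : ℕ
  δ : ℝ
  δ' : ℝ
  r : ℕ
  r' : ℕ
  t : ℝ

/-- admissible datum, twist `≤ R` -/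
def Dat.ok (d : Dat) (R : ℝ) : Prop :=
  0 < d.k ∧ 0 < d.k' ∧ IsCoprime d.a (d.k : ℤ) ∧ IsCoprime d.a' (d.k' : ℤ) ∧ 0 < d.r ∧ 0 < d.r' ∧
    0 < d.t ∧ (d.r * d.r' : ℝ) ≤ R

/-- the word `(u,v)` lies in the lattice and in the strip of `d`, depth `≥ K`, product `≥ P` -/
def Dat.rel (d : Dat) (K P : ℝ) (u v : ℕ) : Prop :=
  InLat d.a d.k d.a' d.k' (d.r * u) (d.r' * v) ∧
    |((d.r * u : ℕ) : ℝ) * d.δ - (d.r' * v : ℕ) * d.δ'| < 1 / d.t ∧
    K ≤ dep d.k d.k' d.t d.δ d.δ' (d.r * u) (d.r' * v) ∧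
    P ≤ ((d.r * u : ℕ) : ℝ) * (d.r' * v : ℕ)

/-- in every dyadic box the coprime words of `Q` are covered by `≤ N` data -/
def Cov (N : ℕ) (R K P : ℝ) (Q : ℕ → ℕ → Prop) : Prop :=
  ∀ i j : ℕ, ∃ l : List Dat, l.length ≤ N ∧ (∀ d ∈ l, d.ok R) ∧
    ∀ u v, 2 ^ i ≤ u → u < 2 * 2 ^ i → 2 ^ j ≤ v → v < 2 * 2 ^ j → Nat.Coprime u v → Q u v →
      ∃ d ∈ l, d.rel K P u v

lemma Cov.mono {N N' : ℕ} {R K P : ℝ} {Q Q' : ℕ → ℕ → Prop} (hN : N ≤ N')
    (h : Cov N R K P Q) (hQ : ∀ u v, Nat.Coprime u v → Q' u v → Q u v) : Cov N' R K P Q' := by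
  intro i j
  obtain ⟨l, h1, h2, h3⟩ := h i j
  exact ⟨l, h1.trans hN, h2, fun u v a b c d e f => h3 u v a b c d e (hQ u v e f)⟩

/-- union of two covers -/
lemma Cov.or {N N' : ℕ} {R K P : ℝ} {Q Q' : ℕ → ℕ → Prop}
    (h : Cov N R K P Q) (h' : Cov N' R K P Q') : Cov (N + N') R K P (fun u v => Q u v ∨ Q' u v) := by
  intro i j
  obtain ⟨l, h1, h2, h3⟩ := h i j
  obtain ⟨l', h1', h2', h3'⟩ := h' i j
  refine ⟨l ++ l', ?_, ?_, ?_⟩
  · rw [List.length_append]; omega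
  · intro d hd
    rcases List.mem_append.1 hd with h | h
    · exact h2 d h
    · exact h2' d h
  · intro u v a b c d e f
    rcases f with f | f
    · obtain ⟨x, hx, hy⟩ := h3 u v a b c d e f
      exact ⟨x, List.mem_append.2 (Or.inl hx), hy⟩
    · obtain ⟨x, hx, hy⟩ := h3' u v a b c d e f
      exact ⟨x, List.mem_append.2 (Or.inr hx), hy⟩

/-- a list of data covers at most `length × β` -/
lemma sum_list_le (S : Finset (ℕ × ℕ)) (f : ℕ × ℕ → ℝ) {β : ℝ}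
    (A : Dat → ℕ × ℕ → Prop) (l : List Dat)
    (h : ∀ d ∈ l, ∀ T ⊆ S, (∀ w ∈ T, A d w) → ∑ w ∈ T, f w ≤ β)
    (hc : ∀ w ∈ S, ∃ d ∈ l, A d w) : ∑ w ∈ S, f w ≤ l.length * β := by
  classical
  induction l generalizing S with
  | nil =>
    have : S = ∅ := by
      rw [Finset.eq_empty_iff_forall_notMem]
      intro w hw
      obtain ⟨d, hd, -⟩ := hc w hw
      simp at hd
    rw [this]; simp
  | cons d l ih =>
    rw [← Finset.sum_filter_add_sum_filter_not S (fun w => A d w)]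
    have h1 : ∑ w ∈ S.filter (fun w => A d w), f w ≤ β :=
      h d (List.mem_cons_self ..) _ (Finset.filter_subset _ _)
        (fun w hw => (Finset.mem_filter.1 hw).2)
    have h2 : ∑ w ∈ S.filter (fun w => ¬ A d w), f w ≤ l.length * β := by
      apply ih
      · intro e he T hT hA
        exact h e (List.mem_cons_of_mem _ he) T (hT.trans (Finset.filter_subset _ _)) hA
      · intro w hw
        rw [Finset.mem_filter] at hw
        obtain ⟨e, he, hA⟩ := hc w hw.1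
        rcases List.mem_cons.1 he with rfl | he
        · exact absurd hA hw.2
        · exact ⟨e, he, hA⟩
    rw [List.length_cons]
    push_cast
    linarith

/-- the natural density bound of one box -/
noncomputable def tau (N : ℕ) (R K P : ℝ) : ℝ := N * R * (4 / P + 16 / K)

lemma tau_nonneg {N : ℕ} {R K P : ℝ} (hR : 0 ≤ R) (hK : 0 < K) (hP : 0 < P) :
    0 ≤ tau N R K P := by
  unfold tau; positivity

/-- **mass of a covered relation** -/
theorem cov_mass {N : ℕ} {R K P : ℝ} {Q : ℕ → ℕ → Prop} (hR : 0 ≤ R) (hK : 0 < K) (hP : 0 < P)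
    (h : Cov N R K P Q) (Z : ℕ) (W : ℕ → ℕ → Prop) [∀ u v, Decidable (W u v)]
    (hW : ∀ u v, W u v → Nat.Coprime u v ∧ Q u v) :
    ∑ u ∈ Finset.Icc 1 Z, ∑ v ∈ Finset.Icc 1 Z, (if W u v then 1 / ((u : ℝ) * v) else 0) ≤
      tau N R K P * (1 + (Nat.log 2 Z : ℝ)) ^ 2 := by
  classical
  refine Class4x992.dyadic_mass Z (fun w => if W w.1 w.2 then 1 / ((w.1 : ℝ) * w.2) else 0) ?_ ?_
  · intro w
    split_ifs
    · positivity
    · exact le_rfl
  · intro i j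
    rw [← Finset.sum_filter]
    obtain ⟨l, h1, h2, h3⟩ := h i j
    have hβ : 0 ≤ R * (4 / P + 16 / K) := by positivity
    refine (sum_list_le _ (fun w => 1 / ((w.1 : ℝ) * w.2)) (β := R * (4 / P + 16 / K))
      (fun d w => d.rel K P w.1 w.2) l ?_ ?_).trans ?_
    · intro d hd T hT hA
      obtain ⟨o1, o2, o3, o4, o5, o6, o7, o8⟩ := h2 d hd
      have hb : ∀ w ∈ T, 2 ^ i ≤ w.1 ∧ w.1 < 2 * 2 ^ i ∧ 2 ^ j ≤ w.2 ∧ w.2 < 2 * 2 ^ j := by
        intro w hw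
        have := hT hw
        rw [Finset.mem_filter, Finset.mem_product, Finset.mem_Ico, Finset.mem_Ico] at this
        exact ⟨this.1.1.1, this.1.1.2, this.1.2.1, this.1.2.2⟩
      refine (same_mass T (U := 2 ^ i) (V := 2 ^ j) Nat.one_le_two_pow Nat.one_le_two_pow o7 o1 o2
        o5 o6 o3 o4 hb (fun w hw => (hW _ _ (Finset.mem_filter.1 (hT hw)).2).1)
        (fun w hw => (hA w hw).1) (fun w hw => (hA w hw).2.1) hK hP
        (fun w hw => (hA w hw).2.2.1) (fun w hw => (hA w hw).2.2.2)).trans ?_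
      exact mul_le_mul_of_nonneg_right o8 (by positivity)
    · intro w hw
      rw [Finset.mem_filter, Finset.mem_product, Finset.mem_Ico, Finset.mem_Ico] at hw
      obtain ⟨q1, q2⟩ := hW _ _ hw.2
      exact h3 w.1 w.2 hw.1.1.1 hw.1.1.2 hw.1.2.1 hw.1.2.2 q1 q2
    · unfold tau
      have : (l.length : ℝ) ≤ N := by exact_mod_cast h1
      calc (l.length : ℝ) * (R * (4 / P + 16 / K)) ≤ N * (R * (4 / P + 16 / K)) :=
            mul_le_mul_of_nonneg_right this hβ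
        _ = _ := by ring

/-! ### E. density and energy -/

lemma low_eq_self {y M s : ℕ} (hM : 0 < M) (hsm : upp y M = 1) (hs : s ∣ M) : low y s = s := by
  have hs0 : s ≠ 0 := (Nat.pos_of_dvd_of_pos hs hM).ne'
  have h1 : upp y s ∣ upp y M := upp_dvd y hM.ne' hs
  rw [hsm, Nat.dvd_one] at h1
  have h2 := low_mul_upp y hs0
  rw [h1, mul_one] at h2
  exact h2

open Classical in
/-- kernel of a relation -/
noncomputable def KQ (Q : ℕ → ℕ → Prop) (s s' : ℕ) : ℝ := if Q s s' then 1 else 0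

lemma KQ_nonneg (Q : ℕ → ℕ → Prop) (s s' : ℕ) : 0 ≤ KQ Q s s' := by
  unfold KQ; split_ifs <;> norm_num

lemma KQ_le_one (Q : ℕ → ℕ → Prop) (s s' : ℕ) : KQ Q s s' ≤ 1 := by
  unfold KQ; split_ifs <;> norm_num

/-- relation of the smooth words given the rough words -/
def cutQ (y : ℕ) (Q : ℕ → ℕ → ℕ → ℕ → Prop) (s s' : ℕ) : Prop :=
  Q (upp y s) (upp y s') (low y s) (low y s')

/-- the constant `2 e^14 + 1` -/
noncomputable def c14 : ℝ := 2 * Real.exp 14 + 1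

lemma c14_ge : 1 ≤ c14 := by
  unfold c14
  have := Real.exp_pos 14
  linarith

/-- **natural density, smooth words in same-point relations** -/
theorem dens_same_cut {M y N : ℕ} {R K P τ : ℝ} {Q : ℕ → ℕ → ℕ → ℕ → Prop} (hM : 0 < M)
    (hy : 8 ≤ y) (hR : 0 ≤ R) (hK : 0 < K) (hP : 0 < P)
    (h : ∀ x x', Cov N R K P (Q x x')) (hτ0 : 0 < τ) (hτ1 : τ ≤ 1) (hτ : tau N R K P ≤ τ) :
    MXlowx808.dens M (KQ (cutQ y Q)) ≤
      c14 * ((1 + 2 * Real.log y * Real.log (1 / τ)) ^ 2 * τ) := by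
  classical
  have hl : 0 ≤ Real.log (1 / τ) := Real.log_nonneg (by rw [le_div_iff₀ hτ0]; linarith)
  obtain ⟨hz, hZ, htail, hlog⟩ := choice hy hl
  set z := Real.exp (Real.log y * Real.log (1 / τ)) with hzdef
  set W := (1 + 2 * Real.log y * Real.log (1 / τ)) ^ 2 with hW
  have hy8 : (8 : ℝ) ≤ y := by exact_mod_cast hy
  have hly : 0 ≤ Real.log y := Real.log_nonneg (by linarith)
  have hW1 : 1 ≤ W := by
    rw [hW]
    apply one_le_pow₀
    have : 0 ≤ 2 * Real.log y * Real.log (1 / τ) := by positivity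
    linarith
  have h' := dens_cut (Z := ⌊z⌋₊) hM hy hz hZ
    (fun x x' u v => Nat.Coprime u v ∧ Q x x' u v) (β := τ * W)
    (fun x x' => by
      refine (@cov_mass N R K P (Q x x') hR hK hP (h x x') ⌊z⌋₊ _
        (fun _ _ => Classical.propDecidable _) fun u v huv => huv).trans ?_
      exact mul_le_mul hτ hlog (by positivity) hτ0.le)
    (KQ (cutQ y Q))
    (fun s s' hs hs' hco => by
      unfold KQ cutQ
      split_ifs with h1 h2 h2
      · exact le_rfl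
      · exact absurd ⟨coprime_low hco, h1⟩ h2
      · norm_num
      · exact le_rfl)
  refine h'.trans ?_
  rw [htail, Real.exp_neg, Real.exp_log (by positivity), one_div, inv_inv]
  have h2 : 0 < Real.exp 14 := Real.exp_pos _
  have h3 : τ ≤ W * τ := le_mul_of_one_le_left hτ0.le hW1
  unfold c14
  calc 2 * (Real.exp 14 * τ) + τ * W = 2 * Real.exp 14 * τ + (W * τ) := by ring
    _ ≤ 2 * Real.exp 14 * (W * τ) + (W * τ) := by
        have := mul_le_mul_of_nonneg_left h3 (by positivity : 0 ≤ 2 * Real.exp 14)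
        linarith
    _ = _ := by ring

/-- **natural density for a `y`-smooth modulus** -/
theorem dens_same {M y N : ℕ} {R K P τ : ℝ} {Q : ℕ → ℕ → Prop} (hM : 0 < M)
    (hy : 8 ≤ y) (hsm : upp y M = 1) (hR : 0 ≤ R) (hK : 0 < K) (hP : 0 < P)
    (h : Cov N R K P Q) (hτ0 : 0 < τ) (hτ1 : τ ≤ 1) (hτ : tau N R K P ≤ τ) :
    MXlowx808.dens M (KQ Q) ≤ c14 * ((1 + 2 * Real.log y * Real.log (1 / τ)) ^ 2 * τ) := by
  refine le_trans (le_of_eq ?_) (dens_same_cut (Q := fun _ _ => Q) hM hy hR hK hP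
    (fun _ _ => h) hτ0 hτ1 hτ)
  unfold MXlowx808.dens
  refine sum_congr rfl fun s hs => sum_congr rfl fun t ht => ?_
  rw [Nat.mem_divisors] at hs ht
  have e1 := low_eq_self hM hsm hs.1
  have e2 := low_eq_self hM hsm ht.1
  unfold KQ cutQ
  rw [e1, e2]

lemma upp_low (y M : ℕ) : upp y (low y M) = 1 := by
  refine Nat.eq_of_factorization_eq (upp_pos _ _).ne' one_ne_zero fun p => ?_
  rw [fact_upp, fact_low, Nat.factorization_one, Finsupp.zero_apply]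
  by_cases h1 : p ≤ y <;> simp [h1]

/-- **natural density for the modulus `low y M`** (input `dens (low y M) K ≤ τ` of
`LPhix808.low_class`) -/
theorem dens_same_low {y N : ℕ} (M : ℕ) {R K P τ : ℝ} {Q : ℕ → ℕ → Prop}
    (hy : 8 ≤ y) (hR : 0 ≤ R) (hK : 0 < K) (hP : 0 < P)
    (h : Cov N R K P Q) (hτ0 : 0 < τ) (hτ1 : τ ≤ 1) (hτ : tau N R K P ≤ τ) :
    MXlowx808.dens (low y M) (KQ Q) ≤
      c14 * ((1 + 2 * Real.log y * Real.log (1 / τ)) ^ 2 * τ) :=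
  dens_same (low_pos y M) hy (upp_low y M) hR hK hP h hτ0 hτ1 hτ

/-- **energy of the same-point words** (dyadic scale `G < gcd ≤ 2G`), `y`-smooth modulus -/
theorem same_energy {κ r : ℝ} (hκ : 0 < κ) (hκ1 : κ < 1) (hr : 2 / (1 - κ) < r) :
    ∃ Λ C : ℝ, 0 ≤ Λ ∧ 1 ≤ C ∧ ∀ (M y N : ℕ) (f f' : ℕ → ℝ) (R K P τ G : ℝ) (Q : ℕ → ℕ → Prop),
      0 < M → 8 ≤ y → upp y M = 1 → 0 ≤ R → 0 < K → 0 < P → Cov N R K P Q →
      0 < τ → τ ≤ 1 → tau N R K P ≤ τ →
      (∀ b, 0 ≤ f b) → (∀ b, f b ≤ 1) → (∀ b, 0 ≤ f' b) → (∀ b, f' b ≤ 1) → 0 < G →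
      ER M G f f' (KQ Q) ≤
        C * ((1 + 2 * Real.log y * Real.log (1 / τ)) ^ 2 * τ) ^ (1 / r) * G ^ κ *
          ((DD Λ M f) ^ ((1 + κ) / 2) * (DD Λ M f') ^ ((1 + κ) / 2)) := by
  obtain ⟨Λ, C, hΛ, hC, h⟩ := mxlowU hκ hκ1 hr
  have h1κ : 0 < 1 - κ := by linarith
  have hr0 : 0 < r := lt_trans (by positivity) hr
  have hCr : 0 ≤ c14 := by linarith [c14_ge]
  have hCr1 : 1 ≤ c14 ^ (1 / r) := Real.one_le_rpow c14_ge (by positivity)
  refine ⟨Λ, C * c14 ^ (1 / r), hΛ, one_le_mul_of_one_le_of_one_le hC hCr1, ?_⟩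
  intro M y N f f' R K P τ G Q hM hy hsm hR hK hP hQ hτ0 hτ1 hτ hf hf1 hf' hf1' hG
  have := h M f f' (KQ Q) _ G hM.ne' hf hf1 hf' hf1' (KQ_nonneg Q)
    (KQ_le_one Q) (dens_same hM hy hsm hR hK hP hQ hτ0 hτ1 hτ) hG
  refine this.trans (le_of_eq ?_)
  rw [Real.mul_rpow hCr (by positivity)]
  ring

/-- two-exponent form, common constants -/
theorem same_energy_two {η η' r : ℝ} (hη : 0 < η) (hη1 : η < 1) (hη' : 0 < η') (hη1' : η' < 1)
    (hr : 2 / (1 - η) < r) (hr' : 2 / (1 - η') < r) :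
    ∃ Λ C : ℝ, 0 ≤ Λ ∧ 1 ≤ C ∧ ∀ (M y N : ℕ) (f f' : ℕ → ℝ) (R K P τ G : ℝ) (Q : ℕ → ℕ → Prop),
      0 < M → 8 ≤ y → upp y M = 1 → 0 ≤ R → 0 < K → 0 < P → Cov N R K P Q →
      0 < τ → τ ≤ 1 → tau N R K P ≤ τ →
      (∀ b, 0 ≤ f b) → (∀ b, f b ≤ 1) → (∀ b, 0 ≤ f' b) → (∀ b, f' b ≤ 1) → 0 < G →
      ER M G f f' (KQ Q) ≤
        C * ((1 + 2 * Real.log y * Real.log (1 / τ)) ^ 2 * τ) ^ (1 / r) * G⁻¹ *
          min (((G * DD Λ M f) * (G * DD Λ M f')) ^ ((1 + η) / 2))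
            (((G * DD Λ M f) * (G * DD Λ M f')) ^ ((1 + η') / 2)) := by
  obtain ⟨Λ, C, hΛ, hC, h⟩ := mxlowU_two hη hη1 hη' hη1' hr hr'
  have h1κ : 0 < 1 - η := by linarith
  have hr0 : 0 < r := lt_trans (by positivity) hr
  have hCr : 0 ≤ c14 := by linarith [c14_ge]
  have hCr1 : 1 ≤ c14 ^ (1 / r) := Real.one_le_rpow c14_ge (by positivity)
  refine ⟨Λ, C * c14 ^ (1 / r), hΛ, one_le_mul_of_one_le_of_one_le hC hCr1, ?_⟩
  intro M y N f f' R K P τ G Q hM hy hsm hR hK hP hQ hτ0 hτ1 hτ hf hf1 hf' hf1' hG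
  have := h M f f' (KQ Q) _ G hM.ne' hf hf1 hf' hf1' (KQ_nonneg Q)
    (KQ_le_one Q) (dens_same hM hy hsm hR hK hP hQ hτ0 hτ1 hτ) hG
  refine this.trans (le_of_eq ?_)
  rw [Real.mul_rpow hCr (by positivity)]
  ring

/-! ### F. short words: doubling -/

/-- **same-point form of the doubling**: `w₁` short, `w₂ ≠ w₁` coprime in the same lattice and
strip: the product at least doubles -/
theorem same_double {a a' : ℤ} {k k' u1 v1 u2 v2 : ℕ} {t δ δ' : ℝ} (ht : 0 < t)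
    (hk : 0 < k) (hk' : 0 < k')
    (hc : IsCoprime a (k : ℤ)) (hc' : IsCoprime a' (k' : ℤ))
    (h1 : InLat a k a' k' u1 v1) (h2 : InLat a k a' k' u2 v2)
    (s1 : |u1 * δ - v1 * δ'| < 1 / t) (s2 : |u2 * δ - v2 * δ'| < 1 / t)
    (hco1 : Nat.Coprime u1 v1) (hco2 : Nat.Coprime u2 v2)
    (hu1 : 1 ≤ u1) (hv1 : 1 ≤ v1) (hu2 : 1 ≤ u2) (hv2 : 1 ≤ v2) (hne : (u1, v1) ≠ (u2, v2))
    (hs1 : IsShort k k' t δ δ' u1 v1) : 2 * (u1 * v1) ≤ u2 * v2 := by
  have hK := two_words ht hk hk' hc hc' h1 h2 s1 s2 hco1 hco2 hu1 hv1 hu2 hv2 hne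
  have hK1 : dep k k' t δ δ' u1 v1 ≤ dep k k' t δ δ' (max u1 u2) (max v1 v2) :=
    dep_mono ht.le (le_max_left _ _) (le_max_left _ _)
  have h64 : (64 : ℝ) ≤ 2 * ((max u1 u2 : ℕ) * (max v1 v2 : ℕ)) := hs1.1.trans (hK1.trans hK)
  have h3 : ((u1 : ℝ) * v1) ^ 3 ≤ 2 * ((max u1 u2 : ℕ) * (max v1 v2 : ℕ)) :=
    hs1.2.trans (hK1.trans hK)
  have h64' : 32 ≤ max u1 u2 * max v1 v2 := by
    have : (32 : ℝ) ≤ ((max u1 u2 * max v1 v2 : ℕ) : ℝ) := by push_cast at h64 ⊢; linarith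
    exact_mod_cast this
  have h3' : (u1 * v1) ^ 3 ≤ 2 * (max u1 u2 * max v1 v2) := by
    have : (((u1 * v1) ^ 3 : ℕ) : ℝ) ≤ ((2 * (max u1 u2 * max v1 v2) : ℕ) : ℝ) := by
      push_cast at h3 ⊢; linarith
    exact_mod_cast this
  clear hK hK1 h64 h3
  have hp1 : 1 ≤ u1 * v1 := Nat.mul_pos hu1 hv1
  -- a bound `X ≤ c u1 v1` with `c ≥ ..`
  have key : ∀ q : ℕ, max u1 u2 * max v1 v2 ≤ (u1 * v1) * q → 2 * (u1 * v1) ≤ q := by
    intro q hq
    by_contra hlt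
    push Not at hlt
    have a1 : (u1 * v1) ^ 3 ≤ 2 * ((u1 * v1) * q) := h3'.trans (Nat.mul_le_mul_left _ hq)
    have a2 : (u1 * v1) ^ 2 ≤ 2 * q := by
      have : (u1 * v1) * (u1 * v1) ^ 2 ≤ (u1 * v1) * (2 * q) := by
        calc (u1 * v1) * (u1 * v1) ^ 2 = (u1 * v1) ^ 3 := by ring
          _ ≤ 2 * ((u1 * v1) * q) := a1
          _ = _ := by ring
      exact Nat.le_of_mul_le_mul_left this (by omega)
    have a3 : u1 * v1 < 4 := by
      by_contra h4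
      push Not at h4
      nlinarith
    have a4 : 32 ≤ (u1 * v1) * q := h64'.trans hq
    nlinarith
  rcases le_total u1 u2 with hu | hu <;> rcases le_total v1 v2 with hv | hv
  · -- `w₂` dominates
    rw [max_eq_right hu, max_eq_right hv] at h64' h3' key
    by_contra hlt
    push Not at hlt
    have a1 : (u1 * v1) ^ 3 < 4 * (u1 * v1) := by omega
    have a2 : (u1 * v1) ^ 2 < 4 := by
      by_contra h4
      push Not at h4
      nlinarith [Nat.mul_le_mul_left (u1 * v1) h4]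
    have a3 : u1 * v1 < 2 := by
      by_contra h4
      push Not at h4
      nlinarith
    omega
  · rw [max_eq_right hu, max_eq_left hv] at key
    refine (key u2 ?_).trans (Nat.le_mul_of_pos_right _ hv2)
    calc u2 * v1 = 1 * (u2 * v1) := (one_mul _).symm
      _ ≤ u1 * (u2 * v1) := Nat.mul_le_mul_right _ hu1
      _ = u1 * v1 * u2 := by ring
  · rw [max_eq_left hu, max_eq_right hv] at key
    refine (key v2 ?_).trans (Nat.le_mul_of_pos_left _ hu2)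
    calc u1 * v2 = 1 * (u1 * v2) := (one_mul _).symm
      _ ≤ v1 * (u1 * v2) := Nat.mul_le_mul_right _ hv1
      _ = u1 * v1 * v2 := by ring
  · -- `w₁` dominates
    exfalso
    rw [max_eq_left hu, max_eq_left hv] at h64' h3'
    have a2 : (u1 * v1) ^ 2 ≤ 2 := by
      have : (u1 * v1) * (u1 * v1) ^ 2 ≤ (u1 * v1) * 2 := by
        calc (u1 * v1) * (u1 * v1) ^ 2 = (u1 * v1) ^ 3 := by ring
          _ ≤ 2 * (u1 * v1) := h3'
          _ = _ := by ring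
      exact Nat.le_of_mul_le_mul_left this (by omega)
    nlinarith

/-- a word in the lattice which is not short has product `≥ K^{1/3}` -/
lemma prod_of_not_short {k k' u v : ℕ} {t δ δ' K : ℝ} (hK : 64 ≤ K)
    (hd : K ≤ dep k k' t δ δ' u v) (hs : ¬ IsShort k k' t δ δ' u v) :
    K ^ ((1 : ℝ) / 3) ≤ (u : ℝ) * v := by
  unfold IsShort at hs
  push Not at hs
  have h1 := hs (hK.trans hd)
  have huv : 0 ≤ (u : ℝ) * v := by positivity
  calc K ^ ((1 : ℝ) / 3) ≤ (((u : ℝ) * v) ^ (3 : ℕ)) ^ ((1 : ℝ) / 3) :=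
        Real.rpow_le_rpow (by linarith) (hd.trans h1.le) (by norm_num)
    _ = (u : ℝ) * v := by
        rw [← Real.rpow_natCast, ← Real.rpow_mul huv]
        norm_num

/-! ### G. glue with centres `f : ℚ` -/

/-- denominator of `Λ f` -/
def kd (f : ℚ) (Λ : ℕ) : ℕ := f.den / Nat.gcd f.den Λ

/-- numerator of `Λ f` -/
def an (f : ℚ) (Λ : ℕ) : ℤ := f.num * ((Λ / Nat.gcd f.den Λ : ℕ) : ℤ)

lemma gcd_pos' (f : ℚ) (Λ : ℕ) : 0 < Nat.gcd f.den Λ := Nat.gcd_pos_of_pos_left _ f.den_pos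

lemma kd_pos (f : ℚ) (Λ : ℕ) : 0 < kd f Λ :=
  Nat.div_pos (Nat.le_of_dvd f.den_pos (Nat.gcd_dvd_left _ _)) (gcd_pos' f Λ)

lemma kd_mul (f : ℚ) (Λ : ℕ) : Nat.gcd f.den Λ * kd f Λ = f.den :=
  Nat.mul_div_cancel' (Nat.gcd_dvd_left _ _)

lemma an_coprime (f : ℚ) (Λ : ℕ) : IsCoprime (an f Λ) (kd f Λ : ℤ) := by
  have h1 : IsCoprime ((Λ / Nat.gcd f.den Λ : ℕ) : ℤ) ((kd f Λ : ℕ) : ℤ) :=
    Nat.isCoprime_iff_coprime.2 (Nat.coprime_div_gcd_div_gcd (gcd_pos' f Λ)).symm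
  have h2 : IsCoprime f.num ((kd f Λ : ℕ) : ℤ) := by
    have h3 : IsCoprime f.num (f.den : ℤ) := by
      rw [Int.isCoprime_iff_gcd_eq_one]
      exact f.reduced
    refine h3.of_isCoprime_of_dvd_right ?_
    exact_mod_cast Dvd.intro_left _ (kd_mul f Λ)
  exact h2.mul_left h1

/-- `Λ f = an / kd` -/
lemma an_eq (f : ℚ) (Λ : ℕ) : (Λ : ℚ) * f * kd f Λ = an f Λ := by
  have h1 : ((Nat.gcd f.den Λ : ℕ) : ℚ) * (kd f Λ : ℕ) = f.den := by exact_mod_cast kd_mul f Λ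
  have h2 : ((Nat.gcd f.den Λ : ℕ) : ℚ) * ((Λ / Nat.gcd f.den Λ : ℕ) : ℚ) = Λ := by
    exact_mod_cast Nat.mul_div_cancel' (Nat.gcd_dvd_right _ _)
  have h3 : (f : ℚ) * f.den = f.num := Rat.mul_den_eq_num f
  have h4 : ((Nat.gcd f.den Λ : ℕ) : ℚ) ≠ 0 := by exact_mod_cast (gcd_pos' f Λ).ne'
  unfold an
  rw [Int.cast_mul, Int.cast_natCast]
  apply mul_left_cancel₀ h4
  calc ((Nat.gcd f.den Λ : ℕ) : ℚ) * ((Λ : ℚ) * f * kd f Λ)
      = (Λ : ℚ) * (f * (((Nat.gcd f.den Λ : ℕ) : ℚ) * (kd f Λ : ℕ))) := by ring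
    _ = (Λ : ℚ) * f.num := by rw [h1, h3]
    _ = (((Nat.gcd f.den Λ : ℕ) : ℚ) * ((Λ / Nat.gcd f.den Λ : ℕ) : ℚ)) * f.num := by rw [h2]
    _ = _ := by ring

/-- the datum of a pair of centres: `upp s = Λ l`, `upp s' = Λ' l'` -/
noncomputable def datOf (γ t : ℝ) (f f' : ℚ) (Λ Λ' l l' : ℕ) : Dat where
  a := an f Λ
  k := kd f Λ
  a' := an f' Λ'
  k' := kd f' Λ'
  δ := Λ * (γ - f)
  δ' := Λ' * (γ - f')
  r := l
  r' := l'
  t := t

lemma ok_datOf {γ t R : ℝ} (f f' : ℚ) {Λ Λ' l l' : ℕ} (ht : 0 < t) (hl : 0 < l) (hl' : 0 < l')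
    (hR : (l * l' : ℝ) ≤ R) : (datOf γ t f f' Λ Λ' l l').ok R :=
  ⟨kd_pos f Λ, kd_pos f' Λ', an_coprime f Λ, an_coprime f' Λ', hl, hl', ht, hR⟩

/-- the label equation of a common point -/
lemma inLat_of_point {f f' : ℚ} {Λ Λ' l l' σ σ' : ℕ} {h : ℤ}
    (hz : ((σ * (Λ * l) : ℕ) : ℚ) * f - ((σ' * (Λ' * l') : ℕ) : ℚ) * f' + h = 0) :
    InLat (an f Λ) (kd f Λ) (an f' Λ') (kd f' Λ') (l * σ) (l' * σ') := by
  refine ⟨h, ?_⟩
  have e1 := an_eq f Λ
  have e2 := an_eq f' Λ'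
  have : (((l * σ : ℕ) : ℤ) * an f Λ * kd f' Λ' - ((l' * σ' : ℕ) : ℤ) * an f' Λ' * kd f Λ +
      h * (kd f Λ * kd f' Λ') : ℚ) = 0 := by
    push_cast
    push_cast at hz
    rw [← e1, ← e2]
    linear_combination (kd f Λ : ℚ) * (kd f' Λ' : ℚ) * hz
  exact_mod_cast this

/-- **a linked pair with a common point**: `s = σ Λ l`, `s' = σ' Λ' l'` are the cofactors of a pair
with gcd `g`; `K` is half of the depth `lcm · max(1, D_b/L, D_c/L)` -/
theorem rel_datOf {γ L t K P : ℝ} {f f' : ℚ} {g Λ Λ' l l' σ σ' : ℕ} {h : ℤ} (hL : 0 < L)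
    (ht : 0 < t) (ht1 : t ≤ g / L) (ht2 : (g : ℝ) / L ≤ 2 * t)
    (hz : ((σ * (Λ * l) : ℕ) : ℚ) * f - ((σ' * (Λ' * l') : ℕ) : ℚ) * f' + h = 0)
    (hlink : |(((σ * (Λ * l) : ℕ) : ℝ) - ((σ' * (Λ' * l') : ℕ) : ℝ)) * γ + h| < L / g)
    (hK : 2 * K ≤ (Nat.lcm (kd f Λ) (kd f' Λ') : ℝ) *
      max 1 (max ((g * (σ * (Λ * l)) : ℕ) * |γ - f| / L) ((g * (σ' * (Λ' * l')) : ℕ) * |γ - f'| / L)))
    (hP : P ≤ ((l * σ : ℕ) : ℝ) * (l' * σ' : ℕ)) :
    (datOf γ t f f' Λ Λ' l l').rel K P σ σ' := by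
  have hgL : 0 < (g : ℝ) / L := lt_of_lt_of_le ht ht1
  have hg : (0 : ℝ) < g := by
    by_contra h0
    push Not at h0
    have : (g : ℝ) / L ≤ 0 := div_nonpos_of_nonpos_of_nonneg h0 hL.le
    linarith
  refine ⟨inLat_of_point hz, ?_, ?_, hP⟩
  · -- strip
    have e : ((l * σ : ℕ) : ℝ) * (Λ * (γ - f)) - ((l' * σ' : ℕ) : ℝ) * (Λ' * (γ - f')) =
        (((σ * (Λ * l) : ℕ) : ℝ) - ((σ' * (Λ' * l') : ℕ) : ℝ)) * γ + h := by
      have hz' : ((σ * (Λ * l) : ℕ) : ℝ) * f - ((σ' * (Λ' * l') : ℕ) : ℝ) * f' + h = 0 := by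
        exact_mod_cast hz
      push_cast at hz' ⊢
      linear_combination (-1 : ℝ) * hz'
    change |((l * σ : ℕ) : ℝ) * (Λ * (γ - f)) - ((l' * σ' : ℕ) : ℝ) * (Λ' * (γ - f'))| < 1 / t
    rw [e]
    refine hlink.trans_le ?_
    rw [div_le_div_iff₀ hg ht, one_mul, mul_comm]
    rwa [le_div_iff₀ hL] at ht1
  · -- depth
    have h1 := dep_window (k := kd f Λ) (k' := kd f' Λ') (t := g / L) (t0 := t)
      (δ := Λ * (γ - f)) (δ' := Λ' * (γ - f')) ht2 (u := l * σ) (v := l' * σ')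
    have h2 : dep (kd f Λ) (kd f' Λ') (g / L) (Λ * (γ - f)) (Λ' * (γ - f')) (l * σ) (l' * σ') =
        (Nat.lcm (kd f Λ) (kd f' Λ') : ℝ) *
      max 1 (max ((g * (σ * (Λ * l)) : ℕ) * |γ - f| / L)
        ((g * (σ' * (Λ' * l')) : ℕ) * |γ - f'| / L)) := by
      unfold dep
      congr 2
      rw [abs_mul, abs_mul, Nat.abs_cast, Nat.abs_cast]
      push_cast
      congr 1 <;> ring
    change K ≤ dep (kd f Λ) (kd f' Λ') t (Λ * (γ - f)) (Λ' * (γ - f')) (l * σ) (l' * σ')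
    rw [h2] at h1
    linarith

/-- **cover from candidate lists**: in the box `(i,j)` the two centres belong to the lists `A i`,
`A' j` of length `≤ n` -/
theorem cov_of_lists {Q : ℕ → ℕ → Prop} {γ t R K P : ℝ} {Λ Λ' l l' n : ℕ} (A A' : ℕ → List ℚ)
    (hA : ∀ i, (A i).length ≤ n) (hA' : ∀ j, (A' j).length ≤ n) (ht : 0 < t) (hl : 0 < l)
    (hl' : 0 < l') (hR : (l * l' : ℝ) ≤ R)
    (h : ∀ i j u v, 2 ^ i ≤ u → u < 2 * 2 ^ i → 2 ^ j ≤ v → v < 2 * 2 ^ j → Nat.Coprime u v →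
      Q u v → ∃ f ∈ A i, ∃ f' ∈ A' j, (datOf γ t f f' Λ Λ' l l').rel K P u v) :
    Cov (n * n) R K P Q := by
  intro i j
  refine ⟨(A i ×ˢ A' j).map (fun q => datOf γ t q.1 q.2 Λ Λ' l l'), ?_, ?_, ?_⟩
  · rw [List.length_map, List.length_product]
    exact Nat.mul_le_mul (hA i) (hA' j)
  · intro d hd
    obtain ⟨q, -, rfl⟩ := List.mem_map.1 hd
    exact ok_datOf _ _ ht hl hl' hR
  · intro u v h1 h2 h3 h4 h5 h6
    obtain ⟨f, hf, f', hf', hr⟩ := h i j u v h1 h2 h3 h4 h5 h6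
    exact ⟨_, List.mem_map.2 ⟨(f, f'), List.mem_product.2 ⟨hf, hf'⟩, rfl⟩, hr⟩

end Crest.Agent.R4C.SamePtx217
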