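import Crest.Agent.R4C.CrCoin_935
import Crest.Agent.Lib.Mertens

/-!
# Row 4: boost bookkeeping for labels given by centres (helper972)

Labels given by centres: `F q p : Option ℚ` is the (reduced) fraction `f = P/Q` used at `(q,p)`,
legal iff `p ∤ Q`; the label `lam q p` is an integer `a ≡ -P/Q (mod p)`, i.e. `p ∣ P + Q a`
(`IsLab F lam`; the canonical one is `labC`).

Pair `q = G s'`, `q' = G s`, `s, s'` coprime, `M = b q = b' q'`, `b = g s`, `b' = g s'`,
offset `h` (`= s n - s' n'`); `gap = s f - s' f' + h`, `g · gap = z - z'`.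

* `charged_iff_gap`  : a common prime, both labels `f, f'` : charged iff `p ∣ num gap`;
* `D0`               : the integer `k k' (z - z') / gcd(g_f(b), g_{f'}(b'))`
  (`k = Q/gcd(b,Q)`, `g_f(b) = b/gcd(b,Q)`), `D0_cast`, `D0_eq_zero`;
* `charged_iff_D0`   : ... charged iff `p ∣ D0`;
* `D0_abs_le`        : `|D0| · gcd(g_f(b), g_{f'}(b')) ≤ k k' (D_f(b) + D_{f'}(b') + L)`;
* `same_point_b`     : S4 (4);
* `killed_iff_left`, `killedL_of_common_left` : S4 (6) for `killedL`;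
* `dvd_den_trL/trR`  : unkilled pair: the transferred centre is unexplained at `p`;
* `boost_eq`         : exact product formula; `boost_le`, `prod_setN_le`, `boost_le_num`.
-/

set_option autoImplicit false

namespace Crest.Agent.R4C.BoostCx972

open Crest.Agent.R4C.CrCoinx935

/-! ### the label of a centre -/

/-- integer representing the class of `-P/Q` modulo `p`, `f = P/Q` (meaningful if `p ∤ Q`) -/
def cls (f : ℚ) (p : ℕ) : ℤ := -f.num * Nat.gcdA f.den p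

lemma cls_spec {f : ℚ} {p : ℕ} (hp : p.Prime) (h : ¬ p ∣ f.den) :
    (p : ℤ) ∣ f.num + f.den * cls f p := by
  have hc : Nat.gcd f.den p = 1 := ((Nat.Prime.coprime_iff_not_dvd hp).2 h).symm
  have hb := Nat.gcd_eq_gcd_ab f.den p
  rw [hc] at hb
  push_cast at hb
  refine ⟨f.num * Nat.gcdB f.den p, ?_⟩
  unfold cls
  linear_combination f.num * hb

/-- label of a centre -/
def labC (f : Option ℚ) (p : ℕ) : Option ℤ :=
  f.bind fun f => if p ∣ f.den then none else some (cls f p)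

/-- `lam` is the label given by the centres `F` -/
structure IsLab (F : ℕ → ℕ → Option ℚ) (lam : ℕ → ℕ → Option ℤ) : Prop where
  spec : ∀ {q p : ℕ} {a : ℤ}, p.Prime → lam q p = some a →
    ∃ f, F q p = some f ∧ ¬ p ∣ f.den ∧ (p : ℤ) ∣ f.num + f.den * a
  legal : ∀ {q p : ℕ} {f : ℚ}, p.Prime → F q p = some f → ¬ p ∣ f.den → ∃ a, lam q p = some a

lemma isLab_labC (F : ℕ → ℕ → Option ℚ) : IsLab F (fun q p => labC (F q p) p) := by
  constructor
  · intro q p a hp h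
    unfold labC at h
    cases hF : F q p with
    | none => rw [hF] at h; simp at h
    | some f =>
      rw [hF] at h
      simp only [Option.bind_some] at h
      split_ifs at h with h1
      rw [Option.some.injEq] at h
      exact ⟨f, rfl, h1, h ▸ cls_spec hp h1⟩
  · intro q p f hp h h1
    refine ⟨cls f p, ?_⟩
    unfold labC
    simp only [h, Option.bind_some, if_neg h1]

/-! ### the gap of two centres -/

/-- the gap of two centres: `(z - z')/g` -/
def gap (f f' : ℚ) (s s' : ℕ) (h : ℤ) : ℚ := s * f - s' * f' + h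

lemma dvd_num_iff {x : ℚ} {D : ℕ} {m : ℤ} {p : ℕ} (hp : p.Prime) (hD : ¬ p ∣ D)
    (hx : x * D = m) : (p : ℤ) ∣ x.num ↔ (p : ℤ) ∣ m := by
  have hpz : Prime (p : ℤ) := Nat.prime_iff_prime_int.1 hp
  have e1 : x.num * D = m * x.den := by
    have h1 : (x.num : ℚ) = x * x.den := (Rat.mul_den_eq_num x).symm
    have h2 : ((x.num * D : ℤ) : ℚ) = ((m * x.den : ℤ) : ℚ) := by
      push_cast
      rw [h1, ← hx]
      ring
    exact_mod_cast h2
  have hco : IsCoprime x.num (x.den : ℤ) := by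
    rw [Int.isCoprime_iff_gcd_eq_one]
    exact x.reduced
  have hden : (x.den : ℤ) ∣ D := hco.symm.dvd_of_dvd_mul_left ⟨m, by rw [e1]; ring⟩
  have hpden : ¬ (p : ℤ) ∣ x.den := fun hc => hD (Int.natCast_dvd_natCast.1 (hc.trans hden))
  constructor
  · intro h1
    have h2 : (p : ℤ) ∣ m * x.den := e1 ▸ h1.mul_right _
    exact (hpz.dvd_or_dvd h2).resolve_right hpden
  · intro h1
    have h2 : (p : ℤ) ∣ x.num * D := e1 ▸ h1.mul_right _
    exact (hpz.dvd_or_dvd h2).resolve_right fun hc => hD (Int.natCast_dvd_natCast.1 hc)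

/-- a common prime with both labels: the class condition is `p ∣ num gap` -/
lemma class_iff_gap {f f' : ℚ} {s s' p : ℕ} {h a b : ℤ} (hp : p.Prime) (hf : ¬ p ∣ f.den)
    (hf' : ¬ p ∣ f'.den) (ha : (p : ℤ) ∣ f.num + f.den * a) (hb : (p : ℤ) ∣ f'.num + f'.den * b) :
    (p : ℤ) ∣ h - s * a + s' * b ↔ (p : ℤ) ∣ (gap f f' s s' h).num := by
  have hpz : Prime (p : ℤ) := Nat.prime_iff_prime_int.1 hp
  have hDD : ¬ p ∣ f.den * f'.den := fun hc => ((hp.dvd_mul).1 hc).elim hf hf'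
  have hx : gap f f' s s' h * ((f.den * f'.den : ℕ) : ℚ) =
      ((s * f.num * f'.den - s' * f'.num * f.den + h * f.den * f'.den : ℤ) : ℚ) := by
    have h1 : (f.num : ℚ) = f * f.den := (Rat.mul_den_eq_num f).symm
    have h2 : (f'.num : ℚ) = f' * f'.den := (Rat.mul_den_eq_num f').symm
    unfold gap
    push_cast
    rw [h1, h2]
    ring
  rw [dvd_num_iff hp hDD hx]
  have e : (s * f.num * f'.den - s' * f'.num * f.den + h * f.den * f'.den : ℤ) =
      (f.den * f'.den : ℤ) * (h - s * a + s' * b) + (s * f'.den) * (f.num + f.den * a) -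
        (s' * f.den) * (f'.num + f'.den * b) := by ring
  have hd : (p : ℤ) ∣ (s * f'.den) * (f.num + f.den * a) - (s' * f.den) * (f'.num + f'.den * b) :=
    dvd_sub (ha.mul_left _) (hb.mul_left _)
  rw [e, add_sub_assoc, dvd_add_left hd]
  constructor
  · intro h1; exact h1.mul_left _
  · intro h1
    refine (hpz.dvd_or_dvd h1).resolve_left fun hc => hDD ?_
    exact_mod_cast hc

/-- **(1)** a common prime with labels `f`, `f'` is charged iff `p ∣ num (s f - s' f' + h)` -/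
theorem charged_iff_gap {lam : ℕ → ℕ → Option ℤ} {q q' s s' p : ℕ} {h : ℤ} {f f' : ℚ} {a b : ℤ}
    (hp : p.Prime) (hs : ¬ p ∣ s) (hs' : ¬ p ∣ s') (hla : lam q p = some a)
    (hlb : lam q' p = some b) (hf : ¬ p ∣ f.den) (hf' : ¬ p ∣ f'.den)
    (ha : (p : ℤ) ∣ f.num + f.den * a) (hb : (p : ℤ) ∣ f'.num + f'.den * b) :
    charged lam q q' s s' h p ↔ (p : ℤ) ∣ (gap f f' s s' h).num := by
  rw [← class_iff_gap hp hf hf' ha hb]
  unfold charged
  constructor
  · rintro (⟨h1, _⟩ | ⟨h1, _⟩ | ⟨_, _, a', b', h1, h2, h3⟩)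
    · exact absurd h1 hs'
    · exact absurd h1 hs
    · rw [hla, Option.some.injEq] at h1
      rw [hlb, Option.some.injEq] at h2
      rw [h1, h2]
      exact h3
  · intro h1
    exact Or.inr (Or.inr ⟨hs, hs', a, b, hla, hlb, h1⟩)

/-! ### the integer `D0` -/

/-- denominator of the point: `k = Q / gcd(b, Q)` -/
def kden (b : ℕ) (f : ℚ) : ℕ := f.den / Nat.gcd b f.den

/-- `g_f(b) = b / gcd(b, Q)` -/
def gnum (b : ℕ) (f : ℚ) : ℕ := b / Nat.gcd b f.den

lemma beta_pos (b : ℕ) (f : ℚ) : 0 < Nat.gcd b f.den := Nat.gcd_pos_of_pos_right _ f.den_pos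

lemma kden_mul (b : ℕ) (f : ℚ) : Nat.gcd b f.den * kden b f = f.den :=
  Nat.mul_div_cancel' (Nat.gcd_dvd_right _ _)

lemma gnum_mul (b : ℕ) (f : ℚ) : Nat.gcd b f.den * gnum b f = b :=
  Nat.mul_div_cancel' (Nat.gcd_dvd_left _ _)

lemma kden_pos (b : ℕ) (f : ℚ) : 0 < kden b f := by
  have h := kden_mul b f
  have h1 := f.den_pos
  by_contra hc
  rw [not_lt, Nat.le_zero] at hc
  rw [hc] at h
  simp at h
  omega

lemma gnum_pos {b : ℕ} (hb : 0 < b) (f : ℚ) : 0 < gnum b f := by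
  have h := gnum_mul b f
  by_contra hc
  rw [not_lt, Nat.le_zero] at hc
  rw [hc] at h
  simp at h
  omega

lemma gnum_dvd (b : ℕ) (f : ℚ) : gnum b f ∣ b := ⟨Nat.gcd b f.den, by
  rw [mul_comm]; exact (gnum_mul b f).symm⟩

lemma kden_dvd (b : ℕ) (f : ℚ) : kden b f ∣ f.den := ⟨Nat.gcd b f.den, by
  rw [mul_comm]; exact (kden_mul b f).symm⟩

/-- `k (b f) = g_f(b) P` -/
lemma kden_b_f (b : ℕ) (f : ℚ) : (kden b f : ℚ) * (b * f) = gnum b f * f.num := by
  have h1 : (f.num : ℚ) = f * f.den := (Rat.mul_den_eq_num f).symm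
  have h2 : (f.den : ℚ) = Nat.gcd b f.den * kden b f := by exact_mod_cast (kden_mul b f).symm
  have h3 : (b : ℚ) = Nat.gcd b f.den * gnum b f := by exact_mod_cast (gnum_mul b f).symm
  linear_combination ((kden b f : ℚ) * f) * h3 - (gnum b f : ℚ) * h1 - (gnum b f : ℚ) * f * h2

/-- `e = gcd(g_f(b), g_{f'}(b'))` -/
def eC (b b' : ℕ) (f f' : ℚ) : ℕ := Nat.gcd (gnum b f) (gnum b' f')

lemma eC_pos {b : ℕ} (hb : 0 < b) (b' : ℕ) (f f' : ℚ) : 0 < eC b b' f f' :=
  Nat.gcd_pos_of_pos_left _ (gnum_pos hb f)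

lemma eC_dvd_g {g s s' : ℕ} (hcop : Nat.Coprime s s') (f f' : ℚ) :
    eC (g * s) (g * s') f f' ∣ g := by
  have h1 : eC (g * s) (g * s') f f' ∣ g * s := (Nat.gcd_dvd_left _ _).trans (gnum_dvd _ _)
  have h2 : eC (g * s) (g * s') f f' ∣ g * s' := (Nat.gcd_dvd_right _ _).trans (gnum_dvd _ _)
  have h3 := Nat.dvd_gcd h1 h2
  rwa [Nat.gcd_mul_left, hcop.gcd_eq_one, mul_one] at h3

/-- `g / e` divides `β β'` -/
lemma g_dvd {g s s' : ℕ} (hcop : Nat.Coprime s s') (f f' : ℚ) :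
    g ∣ eC (g * s) (g * s') f f' * (Nat.gcd (g * s) f.den * Nat.gcd (g * s') f'.den) := by
  have h0 : g = Nat.gcd (g * s) (g * s') := by
    rw [Nat.gcd_mul_left, hcop.gcd_eq_one, mul_one]
  have h1 : g ∣ gnum (g * s) f * (Nat.gcd (g * s) f.den * Nat.gcd (g * s') f'.den) := by
    refine (dvd_mul_right g s).trans ⟨Nat.gcd (g * s') f'.den, ?_⟩
    nth_rewrite 3 [← gnum_mul (g * s) f]
    ring
  have h2 : g ∣ gnum (g * s') f' * (Nat.gcd (g * s) f.den * Nat.gcd (g * s') f'.den) := by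
    refine (dvd_mul_right g s').trans ⟨Nat.gcd (g * s) f.den, ?_⟩
    nth_rewrite 3 [← gnum_mul (g * s') f']
    ring
  have h3 := Nat.dvd_gcd h1 h2
  rwa [Nat.gcd_mul_right] at h3

/-- the cofactor `u = g / e` -/
def uC (g s s' : ℕ) (f f' : ℚ) : ℕ := g / eC (g * s) (g * s') f f'

lemma eC_mul_uC {g s s' : ℕ} (hcop : Nat.Coprime s s') (f f' : ℚ) :
    eC (g * s) (g * s') f f' * uC g s s' f f' = g :=
  Nat.mul_div_cancel' (eC_dvd_g hcop f f')

lemma uC_pos {g s s' : ℕ} (hg : 0 < g) (hcop : Nat.Coprime s s') (f f' : ℚ) :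
    0 < uC g s s' f f' := by
  have h := eC_mul_uC (g := g) hcop f f'
  by_contra hc
  rw [not_lt, Nat.le_zero] at hc
  rw [hc, mul_zero] at h
  omega

lemma uC_dvd {g s s' : ℕ} (hg : 0 < g) (hs : 0 < s) (hcop : Nat.Coprime s s') (f f' : ℚ) :
    uC g s s' f f' ∣ Nat.gcd (g * s) f.den * Nat.gcd (g * s') f'.den := by
  have h := g_dvd (g := g) hcop f f'
  nth_rewrite 1 [← eC_mul_uC (g := g) hcop f f'] at h
  exact Nat.dvd_of_mul_dvd_mul_left (eC_pos (by positivity) _ _ _) h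

/-- the multiplier of the gap -/
def mulC (g s s' : ℕ) (f f' : ℚ) : ℕ := kden (g * s) f * kden (g * s') f' * uC g s s' f f'

lemma mulC_pos {g s s' : ℕ} (hg : 0 < g) (hcop : Nat.Coprime s s') (f f' : ℚ) :
    0 < mulC g s s' f f' :=
  Nat.mul_pos (Nat.mul_pos (kden_pos _ _) (kden_pos _ _)) (uC_pos hg hcop f f')

lemma mulC_not_dvd {g s s' p : ℕ} (hg : 0 < g) (hs : 0 < s) (hcop : Nat.Coprime s s') {f f' : ℚ}
    (hp : p.Prime) (hf : ¬ p ∣ f.den) (hf' : ¬ p ∣ f'.den) : ¬ p ∣ mulC g s s' f f' := by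
  intro hc
  unfold mulC at hc
  rcases (hp.dvd_mul).1 hc with h1 | h1
  · rcases (hp.dvd_mul).1 h1 with h2 | h2
    · exact hf (h2.trans (kden_dvd _ _))
    · exact hf' (h2.trans (kden_dvd _ _))
  · rcases (hp.dvd_mul).1 (h1.trans (uC_dvd hg hs hcop f f')) with h2 | h2
    · exact hf (h2.trans (Nat.gcd_dvd_right _ _))
    · exact hf' (h2.trans (Nat.gcd_dvd_right _ _))

/-- **the integer `D0 = k k' (z - z') / gcd(g_f(b), g_{f'}(b'))`** -/
def D0 (g s s' : ℕ) (h : ℤ) (f f' : ℚ) : ℤ := (gap f f' s s' h * mulC g s s' f f').num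

/-- `k k' (z - z')` is an integer multiple of `e` -/
lemma exists_D0 {g s s' : ℕ} (hg : 0 < g) (hs : 0 < s) (hcop : Nat.Coprime s s') (h : ℤ)
    (f f' : ℚ) : ∃ m : ℤ, gap f f' s s' h * mulC g s s' f f' = m := by
  -- `h = s n - s' n'`
  obtain ⟨n, n', hn⟩ : ∃ n n' : ℤ, h = s * n - s' * n' := by
    have hb := Nat.gcd_eq_gcd_ab s s'
    rw [hcop.gcd_eq_one] at hb
    push_cast at hb
    exact ⟨h * Nat.gcdA s s', -(h * Nat.gcdB s s'), by linear_combination h * hb⟩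
  set b := g * s with hb
  set b' := g * s' with hb'
  set e := eC b b' f f' with he
  have he0 : 0 < e := eC_pos (by positivity) _ _ _
  obtain ⟨c, hc⟩ : e ∣ gnum b f := Nat.gcd_dvd_left _ _
  obtain ⟨c', hc'⟩ : e ∣ gnum b' f' := Nat.gcd_dvd_right _ _
  have e1 := kden_b_f b f
  have e2 := kden_b_f b' f'
  have e3 : (b : ℚ) = Nat.gcd b f.den * gnum b f := by exact_mod_cast (gnum_mul b f).symm
  have e4 : (b' : ℚ) = Nat.gcd b' f'.den * gnum b' f' := by exact_mod_cast (gnum_mul b' f').symm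
  have e5 : (e : ℚ) * uC g s s' f f' = g := by exact_mod_cast eC_mul_uC hcop f f'
  have hcq : (gnum b f : ℚ) = e * c := by exact_mod_cast hc
  have hcq' : (gnum b' f' : ℚ) = e * c' := by exact_mod_cast hc'
  have hbq : (b : ℚ) = g * s := by rw [hb]; push_cast; ring
  have hbq' : (b' : ℚ) = g * s' := by rw [hb']; push_cast; ring
  refine ⟨kden b' f' * (c * f.num) - kden b f * (c' * f'.num) +
    kden b f * kden b' f' * (Nat.gcd b f.den * c * n - Nat.gcd b' f'.den * c' * n'), ?_⟩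
  have heq : (e : ℚ) ≠ 0 := by exact_mod_cast he0.ne'
  apply mul_left_cancel₀ heq
  have e6 : (e : ℚ) * (gap f f' s s' h * mulC g s s' f f') =
      kden b' f' * (kden b f * (b * f)) - kden b f * (kden b' f' * (b' * f')) +
        kden b f * kden b' f' * (b * n - b' * n') := by
    have e7 : (e : ℚ) * (gap f f' s s' h * mulC g s s' f f') =
        kden b f * kden b' f' * ((e : ℚ) * uC g s s' f f') * gap f f' s s' h := by
      unfold mulC
      rw [← hb, ← hb']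
      push_cast
      ring
    rw [e7, e5, hbq, hbq']
    unfold gap
    rw [hn]
    push_cast
    ring
  rw [e6, e1, e2]
  push_cast
  linear_combination ((kden b f : ℚ) * kden b' f' * n) * e3 -
    ((kden b f : ℚ) * kden b' f' * n') * e4 +
    ((kden b' f' : ℚ) * f.num + (kden b f : ℚ) * kden b' f' * Nat.gcd b f.den * n) * hcq -
    ((kden b f : ℚ) * f'.num + (kden b f : ℚ) * kden b' f' * Nat.gcd b' f'.den * n') * hcq'

lemma D0_cast {g s s' : ℕ} (hg : 0 < g) (hs : 0 < s) (hcop : Nat.Coprime s s') (h : ℤ)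
    (f f' : ℚ) : (D0 g s s' h f f' : ℚ) = gap f f' s s' h * mulC g s s' f f' := by
  obtain ⟨m, hm⟩ := exists_D0 hg hs hcop h f f'
  unfold D0
  rw [hm]
  simp

lemma D0_eq_zero {g s s' : ℕ} (hg : 0 < g) (hs : 0 < s) (hcop : Nat.Coprime s s') {h : ℤ}
    {f f' : ℚ} : D0 g s s' h f f' = 0 ↔ gap f f' s s' h = 0 := by
  have h1 := D0_cast hg hs hcop h f f'
  have h2 : (mulC g s s' f f' : ℚ) ≠ 0 := by exact_mod_cast (mulC_pos hg hcop f f').ne'
  constructor
  · intro h3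
    rw [h3] at h1
    push_cast at h1
    rcases mul_eq_zero.1 h1.symm with h4 | h4
    · exact h4
    · exact absurd h4 h2
  · intro h3
    rw [h3, zero_mul] at h1
    exact_mod_cast h1

/-- `D0 e = k k' (z - z')` -/
lemma D0_mul_e {g s s' : ℕ} (hg : 0 < g) (hs : 0 < s) (hcop : Nat.Coprime s s') (h : ℤ)
    (f f' : ℚ) : (D0 g s s' h f f' : ℚ) * eC (g * s) (g * s') f f' =
      kden (g * s) f * kden (g * s') f' * (g * gap f f' s s' h) := by
  rw [D0_cast hg hs hcop]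
  have e5 : (eC (g * s) (g * s') f f' : ℚ) * uC g s s' f f' = g := by
    exact_mod_cast eC_mul_uC hcop f f'
  unfold mulC
  push_cast
  linear_combination (gap f f' s s' h * kden (g * s) f * kden (g * s') f') * e5

/-- **(1')** charged iff `p ∣ D0` -/
theorem dvd_gap_iff_D0 {g s s' p : ℕ} {h : ℤ} {f f' : ℚ} (hg : 0 < g) (hs : 0 < s)
    (hcop : Nat.Coprime s s') (hp : p.Prime) (hf : ¬ p ∣ f.den) (hf' : ¬ p ∣ f'.den) :
    (p : ℤ) ∣ (gap f f' s s' h).num ↔ (p : ℤ) ∣ D0 g s s' h f f' :=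
  dvd_num_iff hp (mulC_not_dvd hg hs hcop hp hf hf') (D0_cast hg hs hcop h f f').symm

theorem charged_iff_D0 {lam : ℕ → ℕ → Option ℤ} {q q' g s s' p : ℕ} {h : ℤ} {f f' : ℚ} {a b : ℤ}
    (hg : 0 < g) (hs0 : 0 < s) (hcop : Nat.Coprime s s')
    (hp : p.Prime) (hs : ¬ p ∣ s) (hs' : ¬ p ∣ s') (hla : lam q p = some a)
    (hlb : lam q' p = some b) (hf : ¬ p ∣ f.den) (hf' : ¬ p ∣ f'.den)
    (ha : (p : ℤ) ∣ f.num + f.den * a) (hb : (p : ℤ) ∣ f'.num + f'.den * b) :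
    charged lam q q' s s' h p ↔ (p : ℤ) ∣ D0 g s s' h f f' := by
  rw [charged_iff_gap hp hs hs' hla hlb hf hf' ha hb, dvd_gap_iff_D0 hg hs0 hcop hp hf hf']

/-- **size of `D0`** -/
theorem D0_abs_eq {g s s' : ℕ} (hg : 0 < g) (hs : 0 < s) (hcop : Nat.Coprime s s') (h : ℤ)
    (f f' : ℚ) : |(D0 g s s' h f f' : ℝ)| * eC (g * s) (g * s') f f' =
      kden (g * s) f * kden (g * s') f' * |(g : ℝ) * (gap f f' s s' h : ℚ)| := by
  have h1 := D0_mul_e hg hs hcop h f f'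
  have h2 : ((D0 g s s' h f f' : ℤ) : ℝ) * (eC (g * s) (g * s') f f' : ℕ) =
      (kden (g * s) f : ℕ) * (kden (g * s') f' : ℕ) * ((g : ℝ) * (gap f f' s s' h : ℚ)) := by
    exact_mod_cast congrArg (fun x : ℚ => (x : ℝ)) h1
  have h3 := congrArg abs h2
  rw [abs_mul, abs_mul, Nat.abs_cast, abs_of_nonneg (by positivity :
    (0 : ℝ) ≤ (kden (g * s) f : ℕ) * (kden (g * s') f' : ℕ))] at h3
  exact h3

/-- the two points are close: `|z - z'| ≤ D_f(b) + D_{f'}(b') + g|(s-s')γ+h|` -/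
lemma gap_abs_le {γ : ℝ} (g s s' : ℕ) (h : ℤ) (f f' : ℚ) :
    |(g : ℝ) * (gap f f' s s' h : ℚ)| ≤ ((g * s : ℕ) : ℝ) * |γ - f| + ((g * s' : ℕ) : ℝ) * |γ - f'| +
      g * |((s : ℝ) - s') * γ + h| := by
  have e : (g : ℝ) * (gap f f' s s' h : ℚ) = (-(((g * s : ℕ) : ℝ) * (γ - f)) +
      ((g * s' : ℕ) : ℝ) * (γ - f')) + g * (((s : ℝ) - s') * γ + h) := by
    unfold gap
    push_cast
    ring
  rw [e]
  refine (abs_add_le _ _).trans (add_le_add ((abs_add_le _ _).trans (add_le_add ?_ ?_)) ?_)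
  · rw [abs_neg, abs_mul, Nat.abs_cast]
  · rw [abs_mul, Nat.abs_cast]
  · rw [abs_mul, Nat.abs_cast]

theorem D0_abs_le {γ : ℝ} {g s s' : ℕ} (hg : 0 < g) (hs : 0 < s) (hcop : Nat.Coprime s s') (h : ℤ)
    (f f' : ℚ) : |(D0 g s s' h f f' : ℝ)| * eC (g * s) (g * s') f f' ≤
      kden (g * s) f * kden (g * s') f' * (((g * s : ℕ) : ℝ) * |γ - f| +
        ((g * s' : ℕ) : ℝ) * |γ - f'| + g * |((s : ℝ) - s') * γ + h|) := by
  rw [D0_abs_eq hg hs hcop]
  exact mul_le_mul_of_nonneg_left (gap_abs_le g s s' h f f') (by positivity)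

/-- **S4 (4)**: same point -/
theorem same_point_b {γ : ℝ} {g s s' : ℕ} (hg : 0 < g) (hs : 0 < s) (hcop : Nat.Coprime s s')
    {h : ℤ} {f f' : ℚ}
    (hlt : (kden (g * s) f : ℝ) * kden (g * s') f' * (((g * s : ℕ) : ℝ) * |γ - f| +
        ((g * s' : ℕ) : ℝ) * |γ - f'| + g * |((s : ℝ) - s') * γ + h|) <
        eC (g * s) (g * s') f f') : gap f f' s s' h = 0 := by
  rw [← D0_eq_zero hg hs hcop]
  by_contra hne
  have h1 := (D0_abs_le (γ := γ) hg hs hcop h f f').trans_lt hlt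
  have h2 : (1 : ℝ) ≤ |(D0 g s s' h f f' : ℝ)| := by
    exact_mod_cast Int.one_le_abs hne
  have h3 : (0 : ℝ) ≤ eC (g * s) (g * s') f f' := Nat.cast_nonneg _
  nlinarith

/-! ### killing -/

/-- at a differing prime `p ∣ s'` the label `f` of `q` kills iff `p ∣ num (s f + h)` -/
lemma killed_iff_left {f : ℚ} {s p : ℕ} {h a : ℤ} (hp : p.Prime) (hf : ¬ p ∣ f.den)
    (ha : (p : ℤ) ∣ f.num + f.den * a) :
    (p : ℤ) ∣ h - s * a ↔ (p : ℤ) ∣ (gap f 0 s 0 h).num := by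
  have := class_iff_gap (f := f) (f' := 0) (s := s) (s' := 0) (h := h) (a := a) (b := 0) hp hf
    (by simpa using hp.one_lt.ne') ha (by simp)
  rw [← this]
  simp

/-- gap modulo a differing prime: `p ∣ s'`, `p ∤ den f'` -/
lemma gap_left {f f' : ℚ} {s s' p : ℕ} {h a : ℤ} (hp : p.Prime) (hf : ¬ p ∣ f.den)
    (hf' : ¬ p ∣ f'.den) (hs' : p ∣ s') (ha : (p : ℤ) ∣ f.num + f.den * a) :
    (p : ℤ) ∣ h - s * a ↔ (p : ℤ) ∣ (gap f f' s s' h).num := by
  have hb := cls_spec hp hf'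
  rw [← class_iff_gap hp hf hf' ha hb]
  have h1 : (p : ℤ) ∣ s' * cls f' p := (Int.natCast_dvd_natCast.2 hs').mul_right _
  rw [dvd_add_left h1]

lemma gap_right {f f' : ℚ} {s s' p : ℕ} {h b : ℤ} (hp : p.Prime) (hf : ¬ p ∣ f.den)
    (hf' : ¬ p ∣ f'.den) (hs : p ∣ s) (hb : (p : ℤ) ∣ f'.num + f'.den * b) :
    (p : ℤ) ∣ h + s' * b ↔ (p : ℤ) ∣ (gap f f' s s' h).num := by
  have ha := cls_spec hp hf
  rw [← class_iff_gap hp hf hf' ha hb]
  have h1 : (p : ℤ) ∣ s * cls f p := (Int.natCast_dvd_natCast.2 hs).mul_right _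
  have e : h - s * cls f p + s' * b = (h + s' * b) - s * cls f p := by ring
  rw [e, dvd_sub_left h1]

/-- **S4 (6)**: `q` uses `f` at the differing prime `p ∣ s'`, and the same point is a centre of
`q'` legal at `p`: killed -/
theorem killedL_of_common_left {F : ℕ → ℕ → Option ℚ} {lam : ℕ → ℕ → Option ℤ} (hF : IsLab F lam)
    {q q' s s' p : ℕ} {h : ℤ} {f f' : ℚ} (hp : p.Prime) (hs' : p ∣ s') (hFq : F q p = some f)
    (hf : ¬ p ∣ f.den) (hf' : ¬ p ∣ f'.den) (h0 : gap f f' s s' h = 0) :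
    killedL lam q q' s s' h := by
  obtain ⟨a, ha⟩ := hF.legal hp hFq hf
  obtain ⟨f₁, h1, _, h3⟩ := hF.spec hp ha
  rw [hFq, Option.some.injEq] at h1
  subst h1
  refine Or.inl ⟨p, hp, hs', a, ha, ?_⟩
  rw [gap_left hp hf hf' hs' h3, h0]
  simp

theorem killedL_of_common_right {F : ℕ → ℕ → Option ℚ} {lam : ℕ → ℕ → Option ℤ} (hF : IsLab F lam)
    {q q' s s' p : ℕ} {h : ℤ} {f f' : ℚ} (hp : p.Prime) (hs : p ∣ s) (hFq : F q' p = some f')
    (hf : ¬ p ∣ f.den) (hf' : ¬ p ∣ f'.den) (h0 : gap f f' s s' h = 0) :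
    killedL lam q q' s s' h := by
  obtain ⟨b, hb⟩ := hF.legal hp hFq hf'
  obtain ⟨f₁, h1, _, h3⟩ := hF.spec hp hb
  rw [hFq, Option.some.injEq] at h1
  subst h1
  refine Or.inr ⟨p, hp, hs, b, hb, ?_⟩
  rw [gap_right hp hf hf' hs h3, h0]
  simp

/-- the transferred centre of `q'`: `f' = (s f + h)/s'` -/
def trL (f : ℚ) (s s' : ℕ) (h : ℤ) : ℚ := (s * f + h) / s'

/-- the transferred centre of `q`: `f = (s' f' - h)/s` -/
def trR (f' : ℚ) (s s' : ℕ) (h : ℤ) : ℚ := (s' * f' - h) / s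

lemma gap_trL {f : ℚ} {s s' : ℕ} {h : ℤ} (hs' : 0 < s') : gap f (trL f s s' h) s s' h = 0 := by
  have h1 : (s' : ℚ) ≠ 0 := by exact_mod_cast hs'.ne'
  unfold gap trL
  field_simp
  ring

lemma gap_trR {f' : ℚ} {s s' : ℕ} {h : ℤ} (hs : 0 < s) : gap (trR f' s s' h) f' s s' h = 0 := by
  have h1 : (s : ℚ) ≠ 0 := by exact_mod_cast hs.ne'
  unfold gap trR
  field_simp
  ring

/-- unkilled pair: at a differing prime `p ∣ s'` where `q` uses `f`, the transferred centre is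
unexplained (`p` divides its denominator) -/
theorem dvd_den_trL {F : ℕ → ℕ → Option ℚ} {lam : ℕ → ℕ → Option ℤ} (hF : IsLab F lam)
    {q q' s s' p : ℕ} {h : ℤ} {f : ℚ} (hk : ¬ killedL lam q q' s s' h) (hp : p.Prime)
    (hs'0 : 0 < s') (hs' : p ∣ s') (hFq : F q p = some f) (hf : ¬ p ∣ f.den) :
    p ∣ (trL f s s' h).den := by
  by_contra hc
  exact hk (killedL_of_common_left hF hp hs' hFq hf hc (gap_trL hs'0))

theorem dvd_den_trR {F : ℕ → ℕ → Option ℚ} {lam : ℕ → ℕ → Option ℤ} (hF : IsLab F lam)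
    {q q' s s' p : ℕ} {h : ℤ} {f' : ℚ} (hk : ¬ killedL lam q q' s s' h) (hp : p.Prime)
    (hs0 : 0 < s) (hs : p ∣ s) (hFq : F q' p = some f') (hf' : ¬ p ∣ f'.den) :
    p ∣ (trR f' s s' h).den := by
  by_contra hc
  exact hk (killedL_of_common_right hF hp hs hFq hc hf' (gap_trR hs0))

/-! ### products of `(1-1/p)⁻¹` -/

/-- `(1-1/p)⁻¹` -/
noncomputable def pf (p : ℕ) : ℝ := (1 - 1 / (p : ℝ))⁻¹

lemma pf_pos {p : ℕ} (hp : p.Prime) : 0 < pf p := inv_pos.2 (one_sub_inv_pos hp)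

lemma one_le_pf {p : ℕ} (hp : p.Prime) : 1 ≤ pf p := by
  unfold pf
  have h1 := one_sub_inv_pos hp
  have h2 : (0 : ℝ) ≤ 1 / (p : ℝ) := by positivity
  exact (one_le_inv₀ h1).2 (by linarith)

lemma prod_pf_pos {A : Finset ℕ} (hA : ∀ p ∈ A, p.Prime) : 0 < ∏ p ∈ A, pf p :=
  Finset.prod_pos fun p hp => pf_pos (hA p hp)

lemma one_le_prod_pf {A : Finset ℕ} (hA : ∀ p ∈ A, p.Prime) : 1 ≤ ∏ p ∈ A, pf p := by
  calc (1 : ℝ) = ∏ _p ∈ A, (1 : ℝ) := by simp
    _ ≤ _ := Finset.prod_le_prod (fun _ _ => zero_le_one) fun p hp => one_le_pf (hA p hp)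

lemma prod_pf_mono {A B : Finset ℕ} (h : A ⊆ B) (hB : ∀ p ∈ B, p.Prime) :
    ∏ p ∈ A, pf p ≤ ∏ p ∈ B, pf p := by
  classical
  rw [← Finset.prod_sdiff h]
  have h1 := one_le_prod_pf (A := B \ A) fun p hp => hB p (Finset.mem_sdiff.1 hp).1
  have h2 := prod_pf_pos (A := A) fun p hp => hB p (h hp)
  nlinarith

lemma prod_pf_union {A B : Finset ℕ} (hA : ∀ p ∈ A, p.Prime) (hB : ∀ p ∈ B, p.Prime) :
    ∏ p ∈ A ∪ B, pf p ≤ (∏ p ∈ A, pf p) * ∏ p ∈ B, pf p := by
  classical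
  rw [← Finset.prod_union_inter]
  have h1 := one_le_prod_pf (A := A ∩ B) fun p hp => hA p (Finset.mem_inter.1 hp).1
  have h2 := prod_pf_pos (A := A ∪ B) fun p hp => (Finset.mem_union.1 hp).elim (hA p) (hB p)
  nlinarith

lemma prod_pf_biUnion {ι : Type*} (T : Finset ι) (W : ι → Finset ℕ)
    (hW : ∀ i ∈ T, ∀ p ∈ W i, p.Prime) :
    (open Classical in ∏ p ∈ T.biUnion W, pf p) ≤ ∏ i ∈ T, ∏ p ∈ W i, pf p := by
  classical
  induction T using Finset.induction_on with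
  | empty => simp
  | insert i T hi ih =>
    have h1 := ih fun j hj => hW j (Finset.mem_insert_of_mem hj)
    rw [Finset.biUnion_insert, Finset.prod_insert hi]
    refine (prod_pf_union (hW i (Finset.mem_insert_self _ _)) ?_).trans ?_
    · intro p hp
      obtain ⟨j, hj, hpj⟩ := Finset.mem_biUnion.1 hp
      exact hW j (Finset.mem_insert_of_mem hj) p hpj
    · exact mul_le_mul_of_nonneg_left h1 (prod_pf_pos (hW i (Finset.mem_insert_self _ _))).le

/-- a set of `c` primes: `∏ (1-1/p)⁻¹ ≤ c + 1` -/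
lemma prod_pf_le_card : ∀ (n : ℕ) (S : Finset ℕ), S.card = n → (∀ p ∈ S, p.Prime) →
    ∏ p ∈ S, pf p ≤ n + 1 := by
  intro n
  induction n with
  | zero =>
    intro S hS _
    rw [Finset.card_eq_zero.1 hS]
    simp
  | succ n ih =>
    intro S hS hp
    have hne : S.Nonempty := Finset.card_pos.1 (by omega)
    set P := S.max' hne with hP
    have hPm : P ∈ S := S.max'_mem hne
    have hsub : S ⊆ Finset.Ico 2 (P + 1) := by
      intro r hr
      rw [Finset.mem_Ico]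
      exact ⟨(hp r hr).two_le, Nat.lt_succ_of_le (S.le_max' r hr)⟩
    have hcard := Finset.card_le_card hsub
    rw [hS, Nat.card_Ico] at hcard
    have hP2 : (n : ℝ) + 2 ≤ P := by
      have : n + 2 ≤ P := by omega
      exact_mod_cast this
    rw [← Finset.mul_prod_erase _ _ hPm]
    have h1 := ih (S.erase P) (by rw [Finset.card_erase_of_mem hPm, hS]; rfl)
      fun r hr => hp r (Finset.mem_of_mem_erase hr)
    have h2 : pf P ≤ (n + 2) / (n + 1) := by
      unfold pf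
      have h3 : (1 : ℝ) / P ≤ 1 / (n + 2) := one_div_le_one_div_of_le (by positivity) hP2
      have h4 : ((n : ℝ) + 1) / (n + 2) ≤ 1 - 1 / (P : ℝ) := by
        have h5 : ((n : ℝ) + 1) / (n + 2) = 1 - 1 / (n + 2) := by field_simp; ring
        rw [h5]; linarith
      calc (1 - 1 / (P : ℝ))⁻¹ ≤ (((n : ℝ) + 1) / (n + 2))⁻¹ :=
            inv_anti₀ (by positivity) h4
        _ = _ := inv_div _ _
    have h3 := (pf_pos (hp P hPm)).le
    calc pf P * ∏ r ∈ S.erase P, pf r ≤ ((n + 2) / (n + 1)) * (n + 1) :=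
          mul_le_mul h2 h1 (prod_pf_pos fun r hr => hp r (Finset.mem_of_mem_erase hr)).le
            (by positivity)
      _ = ((n + 1 : ℕ) : ℝ) + 1 := by
          push_cast
          field_simp
          ring

/-- `∏_{p ∣ n} (1-1/p)⁻¹ ≤ 1 + log₂ n` -/
lemma prod_pf_le_log {n : ℕ} (hn : n ≠ 0) :
    ∏ p ∈ n.primeFactors, pf p ≤ 1 + Real.logb 2 n := by
  have h1 := prod_pf_le_card _ n.primeFactors rfl fun p hp => Nat.prime_of_mem_primeFactors hp
  have h2 : 2 ^ n.primeFactors.card ≤ n := by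
    calc 2 ^ n.primeFactors.card ≤ ∏ p ∈ n.primeFactors, p :=
          Finset.pow_card_le_prod _ _ _ fun p hp => (Nat.prime_of_mem_primeFactors hp).two_le
      _ ≤ n := Nat.le_of_dvd (Nat.pos_of_ne_zero hn) (Nat.prod_primeFactors_dvd n)
  have h3 : (n.primeFactors.card : ℝ) ≤ Real.logb 2 n := by
    rw [Real.le_logb_iff_rpow_le (by norm_num) (by exact_mod_cast Nat.pos_of_ne_zero hn),
      Real.rpow_natCast]
    exact_mod_cast h2
  linarith

/-- `∏_{p ∣ D} (1-1/p)⁻¹ ≤ 1 + log₂ Z` for a nonzero integer `|D| ≤ Z` -/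
lemma prod_pf_int {D : ℤ} (hD : D ≠ 0) {Z : ℝ} (hZ : |(D : ℝ)| ≤ Z) :
    ∏ p ∈ D.natAbs.primeFactors, pf p ≤ 1 + Real.logb 2 Z := by
  have h0 : D.natAbs ≠ 0 := Int.natAbs_ne_zero.2 hD
  refine (prod_pf_le_log h0).trans ?_
  have h1 : ((D.natAbs : ℕ) : ℝ) ≤ Z := by
    rw [Nat.cast_natAbs]
    push_cast
    exact hZ
  have h2 : Real.logb 2 (D.natAbs : ℕ) ≤ Real.logb 2 Z :=
    Real.logb_le_logb_of_le (by norm_num) (by exact_mod_cast Nat.pos_of_ne_zero h0) h1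
  linarith

/-- constant of Mertens' bound -/
noncomputable def CM : ℝ := 2 * (Real.exp (22 / Real.log 2) / Real.log 2)

lemma CM_pos : 0 < CM := by
  have : 0 < Real.log 2 := Real.log_pos (by norm_num)
  unfold CM
  positivity

/-- primes at most `y`: `∏ (1-1/p)⁻¹ ≤ C log y` -/
lemma prod_pf_le_mertens {y : ℝ} (hy : 2 ≤ y) {S : Finset ℕ} (hS : ∀ p ∈ S, p.Prime ∧ (p : ℝ) ≤ y) :
    ∏ p ∈ S, pf p ≤ CM * Real.log y := by
  classical
  have hl2 : 0 < Real.log 2 := Real.log_pos (by norm_num)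
  have hly : 0 < Real.log y := Real.log_pos (by linarith)
  have hsub : S ⊆ {2} ∪ Lib.Mertens.pr 2 y := by
    intro p hp
    obtain ⟨h1, h2⟩ := hS p hp
    rw [Finset.mem_union, Finset.mem_singleton, Lib.Mertens.mem_pr (by norm_num) (by linarith)]
    rcases h1.eq_one_or_self_of_dvd 1 (one_dvd _) with _ | _
    all_goals
      by_cases h3 : p = 2
      · exact Or.inl h3
      · right
        have h4 := h1.two_le
        have h5 : 2 < p := by omega
        exact ⟨⟨by exact_mod_cast h5, h2⟩, h1⟩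
  have hpr : ∀ p ∈ Lib.Mertens.pr 2 y, p.Prime := fun p hp =>
    ((Lib.Mertens.mem_pr (by norm_num) (by linarith)).1 hp).2
  have h2p : ∀ p ∈ ({2} : Finset ℕ), p.Prime := fun p hp => by
    rw [Finset.mem_singleton] at hp
    rw [hp]; exact Nat.prime_two
  refine (prod_pf_mono hsub ?_).trans ((prod_pf_union h2p hpr).trans ?_)
  · intro p hp
    exact (Finset.mem_union.1 hp).elim (h2p p) (hpr p)
  have hm := (Lib.Mertens.mertens_three 2 y le_rfl hy).1
  have hprod : 0 < Real.exp (-(22 / Real.log 2)) * (Real.log 2 / Real.log y) := by positivity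
  have h1 : ∏ p ∈ Lib.Mertens.pr 2 y, pf p ≤ (Real.exp (-(22 / Real.log 2)) *
      (Real.log 2 / Real.log y))⁻¹ := by
    unfold pf
    rw [Finset.prod_inv_distrib]
    exact inv_anti₀ hprod hm
  have h2 : ∏ p ∈ ({2} : Finset ℕ), pf p = 2 := by
    rw [Finset.prod_singleton]
    unfold pf
    norm_num
  rw [h2]
  refine (mul_le_mul_of_nonneg_left h1 (by norm_num)).trans (le_of_eq ?_)
  rw [mul_inv, inv_div, Real.exp_neg, inv_inv]
  unfold CM
  ring

/-! ### the exact formula for the boost -/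

/-- differing prime labelled on the side which misses it -/
def IsD (F : ℕ → ℕ → Option ℚ) (q q' s s' p : ℕ) : Prop :=
  (p ∣ s' ∧ ∃ f, F q p = some f ∧ ¬ p ∣ f.den) ∨ (p ∣ s ∧ ∃ f', F q' p = some f' ∧ ¬ p ∣ f'.den)

/-- common prime whose two centres are the same point -/
def IsE (F : ℕ → ℕ → Option ℚ) (q q' s s' : ℕ) (h : ℤ) (p : ℕ) : Prop :=
  ¬ p ∣ s ∧ ¬ p ∣ s' ∧ ∃ f f', F q p = some f ∧ F q' p = some f' ∧ ¬ p ∣ f.den ∧ ¬ p ∣ f'.den ∧
    gap f f' s s' h = 0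

/-- common prime with two different points, dividing `D0` -/
def IsN (F : ℕ → ℕ → Option ℚ) (g q q' s s' : ℕ) (h : ℤ) (p : ℕ) : Prop :=
  ¬ p ∣ s ∧ ¬ p ∣ s' ∧ ∃ f f', F q p = some f ∧ F q' p = some f' ∧ ¬ p ∣ f.den ∧ ¬ p ∣ f'.den ∧
    gap f f' s s' h ≠ 0 ∧ (p : ℤ) ∣ D0 g s s' h f f'

open Classical in
/-- differing primes labelled on the side which misses them -/
noncomputable def setD (F : ℕ → ℕ → Option ℚ) (q q' s s' : ℕ) : Finset ℕ :=
  (q * q').primeFactors.filter (IsD F q q' s s')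

open Classical in
/-- common primes whose two centres are the same point -/
noncomputable def setE (F : ℕ → ℕ → Option ℚ) (q q' s s' : ℕ) (h : ℤ) : Finset ℕ :=
  (q * q').primeFactors.filter (IsE F q q' s s' h)

open Classical in
/-- common primes with two different points, dividing `D0` -/
noncomputable def setN (F : ℕ → ℕ → Option ℚ) (g q q' s s' : ℕ) (h : ℤ) : Finset ℕ :=
  (q * q').primeFactors.filter (IsN F g q q' s s' h)

open Classical in
lemma prime_setD {F : ℕ → ℕ → Option ℚ} {q q' s s' p : ℕ} (hp : p ∈ setD F q q' s s') : p.Prime :=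
  Nat.prime_of_mem_primeFactors (Finset.mem_filter.1 hp).1

open Classical in
lemma prime_setE {F : ℕ → ℕ → Option ℚ} {q q' s s' p : ℕ} {h : ℤ}
    (hp : p ∈ setE F q q' s s' h) : p.Prime :=
  Nat.prime_of_mem_primeFactors (Finset.mem_filter.1 hp).1

open Classical in
lemma prime_setN {F : ℕ → ℕ → Option ℚ} {g q q' s s' p : ℕ} {h : ℤ}
    (hp : p ∈ setN F g q q' s s' h) : p.Prime :=
  Nat.prime_of_mem_primeFactors (Finset.mem_filter.1 hp).1

lemma ne_none_iff {F : ℕ → ℕ → Option ℚ} {lam : ℕ → ℕ → Option ℤ} (hF : IsLab F lam) {q p : ℕ}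
    (hp : p.Prime) : lam q p ≠ none ↔ ∃ f, F q p = some f ∧ ¬ p ∣ f.den := by
  constructor
  · intro h1
    obtain ⟨a, ha⟩ := Option.ne_none_iff_exists'.1 h1
    obtain ⟨f, h2, h3, _⟩ := hF.spec hp ha
    exact ⟨f, h2, h3⟩
  · rintro ⟨f, h1, h2⟩
    obtain ⟨a, ha⟩ := hF.legal hp h1 h2
    rw [ha]
    simp

open Classical in
/-- the charged primes -/
theorem charged_set_eq {F : ℕ → ℕ → Option ℚ} {lam : ℕ → ℕ → Option ℤ} (hF : IsLab F lam)
    {g q q' s s' : ℕ} (hg : 0 < g) (hs : 0 < s) (hcop : Nat.Coprime s s') (h : ℤ) :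
    (q * q').primeFactors.filter (charged lam q q' s s' h) =
      (setD F q q' s s' ∪ setE F q q' s s' h) ∪ setN F g q q' s s' h := by
  ext p
  rw [Finset.mem_union, Finset.mem_union]
  unfold setD setE setN
  rw [Finset.mem_filter, Finset.mem_filter, Finset.mem_filter, Finset.mem_filter]
  unfold IsD IsE IsN
  constructor
  · rintro ⟨h0, h1⟩
    have hp := Nat.prime_of_mem_primeFactors h0
    have h1' := h1
    rcases h1 with ⟨h2, h3⟩ | ⟨h2, h3⟩ | ⟨h2, h3, a, b, ha, hb, _⟩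
    · exact Or.inl (Or.inl ⟨h0, Or.inl ⟨h2, (ne_none_iff hF hp).1 h3⟩⟩)
    · exact Or.inl (Or.inl ⟨h0, Or.inr ⟨h2, (ne_none_iff hF hp).1 h3⟩⟩)
    · obtain ⟨f, hf1, hf2, hf3⟩ := hF.spec hp ha
      obtain ⟨f', hf1', hf2', hf3'⟩ := hF.spec hp hb
      by_cases hgap : gap f f' s s' h = 0
      · exact Or.inl (Or.inr ⟨h0, h2, h3, f, f', hf1, hf1', hf2, hf2', hgap⟩)
      · rw [charged_iff_D0 hg hs hcop hp h2 h3 ha hb hf2 hf2' hf3 hf3'] at h1'
        exact Or.inr ⟨h0, h2, h3, f, f', hf1, hf1', hf2, hf2', hgap, h1'⟩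
  · rintro ((⟨h0, h1⟩ | ⟨h0, h2, h3, f, f', hf1, hf1', hf2, hf2', hgap⟩) |
      ⟨h0, h2, h3, f, f', hf1, hf1', hf2, hf2', hgap, hD⟩)
    · have hp := Nat.prime_of_mem_primeFactors h0
      refine ⟨h0, ?_⟩
      rcases h1 with ⟨h2, h3⟩ | ⟨h2, h3⟩
      · exact Or.inl ⟨h2, (ne_none_iff hF hp).2 h3⟩
      · exact Or.inr (Or.inl ⟨h2, (ne_none_iff hF hp).2 h3⟩)
    all_goals
      have hp := Nat.prime_of_mem_primeFactors h0
      refine ⟨h0, ?_⟩
      obtain ⟨a, ha⟩ := hF.legal hp hf1 hf2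
      obtain ⟨b, hb⟩ := hF.legal hp hf1' hf2'
      obtain ⟨f₁, e1, _, e3⟩ := hF.spec hp ha
      obtain ⟨f₂, e4, _, e6⟩ := hF.spec hp hb
      rw [hf1, Option.some.injEq] at e1
      rw [hf1', Option.some.injEq] at e4
      subst e1
      subst e4
      rw [charged_iff_D0 hg hs hcop hp h2 h3 ha hb hf2 hf2' e3 e6]
    · rw [(D0_eq_zero hg hs hcop).2 hgap]
      exact dvd_zero _
    · exact hD

/-- **exact formula for the boost** -/
theorem boost_eq {F : ℕ → ℕ → Option ℚ} {lam : ℕ → ℕ → Option ℤ} (hF : IsLab F lam)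
    {g q q' s s' : ℕ} (hg : 0 < g) (hs : 0 < s) (hcop : Nat.Coprime s s') (h : ℤ) :
    boost lam q q' s s' h = (∏ p ∈ setD F q q' s s', pf p) * (∏ p ∈ setE F q q' s s' h, pf p) *
      ∏ p ∈ setN F g q q' s s' h, pf p := by
  classical
  have e1 : boost lam q q' s s' h =
      ∏ p ∈ (q * q').primeFactors.filter (charged lam q q' s s' h), pf p := by
    rw [Finset.prod_filter]
    unfold boost pf
    rfl
  rw [e1, charged_set_eq hF hg hs hcop h, Finset.prod_union, Finset.prod_union]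
  · rw [Finset.disjoint_left]
    intro p hp1 hp2
    unfold setD at hp1
    unfold setE at hp2
    rw [Finset.mem_filter] at hp1 hp2
    obtain ⟨_, h1⟩ := hp1
    obtain ⟨_, h2, h3, _⟩ := hp2
    rcases h1 with ⟨h4, _⟩ | ⟨h4, _⟩
    · exact h3 h4
    · exact h2 h4
  · rw [Finset.disjoint_left]
    intro p hp1 hp2
    rw [Finset.mem_union] at hp1
    unfold setN at hp2
    rw [Finset.mem_filter] at hp2
    obtain ⟨_, h2, h3, f, f', hf1, hf1', _, _, hgap, _⟩ := hp2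
    rcases hp1 with hp1 | hp1
    · unfold setD at hp1
      rw [Finset.mem_filter] at hp1
      rcases hp1.2 with ⟨h4, _⟩ | ⟨h4, _⟩
      · exact h3 h4
      · exact h2 h4
    · unfold setE at hp1
      rw [Finset.mem_filter] at hp1
      obtain ⟨_, _, _, f₁, f₁', e1, e2, _, _, h0⟩ := hp1
      rw [hf1, Option.some.injEq] at e1
      rw [hf1', Option.some.injEq] at e2
      subst e1
      subst e2
      exact hgap h0

lemma setD_subset {F : ℕ → ℕ → Option ℚ} {q q' s s' : ℕ} (hs : 0 < s) (hs' : 0 < s') :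
    setD F q q' s s' ⊆ (s * s').primeFactors := by
  classical
  intro p hp
  unfold setD at hp
  rw [Finset.mem_filter] at hp
  obtain ⟨h0, h1⟩ := hp
  rw [Nat.mem_primeFactors]
  refine ⟨Nat.prime_of_mem_primeFactors h0, ?_, by positivity⟩
  rcases h1 with ⟨h2, _⟩ | ⟨h2, _⟩
  · exact h2.mul_left _
  · exact h2.mul_right _

/-- **(3)** the boost inequality -/
theorem boost_le {F : ℕ → ℕ → Option ℚ} {lam : ℕ → ℕ → Option ℤ} (hF : IsLab F lam)
    {g q q' s s' : ℕ} (hg : 0 < g) (hs : 0 < s) (hs' : 0 < s') (hcop : Nat.Coprime s s') (h : ℤ) :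
    boost lam q q' s s' h ≤ (∏ p ∈ (s * s').primeFactors, pf p) *
      (∏ p ∈ setE F q q' s s' h, pf p) * ∏ p ∈ setN F g q q' s s' h, pf p := by
  rw [boost_eq hF hg hs hcop h]
  refine mul_le_mul_of_nonneg_right (mul_le_mul_of_nonneg_right
    (prod_pf_mono (setD_subset hs hs') fun p hp => Nat.prime_of_mem_primeFactors hp) ?_) ?_
  · exact (prod_pf_pos fun p hp => prime_setE hp).le
  · exact (prod_pf_pos fun p hp => prime_setN hp).le

/-- the non-coincident part, when the pairs of centres used at the common primes lie in `T` -/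
theorem prod_setN_le {F : ℕ → ℕ → Option ℚ} {g q q' s s' : ℕ} (hg : 0 < g) (hs : 0 < s)
    (hcop : Nat.Coprime s s') (h : ℤ) (T : Finset (ℚ × ℚ))
    (hT : ∀ p ∈ (q * q').primeFactors, ¬ p ∣ s → ¬ p ∣ s' → ∀ f f', F q p = some f →
      F q' p = some f' → gap f f' s s' h ≠ 0 → (f, f') ∈ T) :
    ∏ p ∈ setN F g q q' s s' h, pf p ≤
      ∏ v ∈ T.filter (fun v => gap v.1 v.2 s s' h ≠ 0),
        ∏ p ∈ (D0 g s s' h v.1 v.2).natAbs.primeFactors, pf p := by
  classical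
  refine le_trans ?_ (prod_pf_biUnion (T.filter fun v => gap v.1 v.2 s s' h ≠ 0)
    (fun v => (D0 g s s' h v.1 v.2).natAbs.primeFactors)
    fun v _ p hp => Nat.prime_of_mem_primeFactors hp)
  refine prod_pf_mono ?_ ?_
  · intro p hp
    have hpp := prime_setN hp
    unfold setN at hp
    rw [Finset.mem_filter] at hp
    obtain ⟨h0, h2, h3, f, f', hf1, hf1', _, _, hgap, hD⟩ := hp
    rw [Finset.mem_biUnion]
    refine ⟨(f, f'), Finset.mem_filter.2 ⟨hT p h0 h2 h3 f f' hf1 hf1' hgap, hgap⟩, ?_⟩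
    rw [Nat.mem_primeFactors]
    refine ⟨hpp, Int.natCast_dvd.1 hD, Int.natAbs_ne_zero.2 fun hc => hgap ?_⟩
    exact (D0_eq_zero hg hs hcop).1 hc
  · intro p hp
    obtain ⟨v, _, hv⟩ := Finset.mem_biUnion.1 hp
    exact Nat.prime_of_mem_primeFactors hv

/-- **numeric form**: coincident primes `≤ y`, at most `#T` pairs of centres, `|D0| ≤ Z` -/
theorem boost_le_num {F : ℕ → ℕ → Option ℚ} {lam : ℕ → ℕ → Option ℤ} (hF : IsLab F lam)
    {g q q' s s' : ℕ} (hg : 0 < g) (hs : 0 < s) (hcop : Nat.Coprime s s') (h : ℤ)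
    {y Z : ℝ} (hy : 2 ≤ y) (hZ : 1 ≤ Z) (hE : ∀ p ∈ setE F q q' s s' h, (p : ℝ) ≤ y)
    (T : Finset (ℚ × ℚ))
    (hT : ∀ p ∈ (q * q').primeFactors, ¬ p ∣ s → ¬ p ∣ s' → ∀ f f', F q p = some f →
      F q' p = some f' → gap f f' s s' h ≠ 0 → (f, f') ∈ T)
    (hTZ : ∀ v ∈ T, gap v.1 v.2 s s' h ≠ 0 → |(D0 g s s' h v.1 v.2 : ℝ)| ≤ Z) :
    boost lam q q' s s' h ≤ (∏ p ∈ setD F q q' s s', pf p) * (CM * Real.log y) *
      (1 + Real.logb 2 Z) ^ T.card := by
  classical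
  have hlZ : 0 ≤ Real.logb 2 Z := Real.logb_nonneg (by norm_num) hZ
  rw [boost_eq hF hg hs hcop h]
  have hD0 := (prod_pf_pos (A := setD F q q' s s') fun p hp => prime_setD hp).le
  have h1 : ∏ p ∈ setE F q q' s s' h, pf p ≤ CM * Real.log y :=
    prod_pf_le_mertens hy fun p hp => ⟨prime_setE hp, hE p hp⟩
  have h2 : ∏ p ∈ setN F g q q' s s' h, pf p ≤ (1 + Real.logb 2 Z) ^ T.card := by
    refine (prod_setN_le hg hs hcop h T hT).trans ?_
    calc ∏ v ∈ T.filter (fun v => gap v.1 v.2 s s' h ≠ 0),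
          ∏ p ∈ (D0 g s s' h v.1 v.2).natAbs.primeFactors, pf p
        ≤ ∏ _v ∈ T.filter (fun v => gap v.1 v.2 s s' h ≠ 0), (1 + Real.logb 2 Z) := by
          refine Finset.prod_le_prod (fun v _ => (prod_pf_pos fun p hp =>
            Nat.prime_of_mem_primeFactors hp).le) fun v hv => ?_
          rw [Finset.mem_filter] at hv
          exact prod_pf_int (fun hc => hv.2 ((D0_eq_zero hg hs hcop).1 hc)) (hTZ v hv.1 hv.2)
      _ = (1 + Real.logb 2 Z) ^ (T.filter (fun v => gap v.1 v.2 s s' h ≠ 0)).card := by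
          rw [Finset.prod_const]
      _ ≤ _ := pow_le_pow_right₀ (by linarith) (Finset.card_filter_le _ _)
  have hCM : 0 ≤ CM * Real.log y := mul_nonneg CM_pos.le (Real.log_nonneg (by linarith))
  refine mul_le_mul (mul_le_mul_of_nonneg_left h1 hD0) h2
    (prod_pf_pos fun p hp => prime_setN hp).le (mul_nonneg hD0 hCM)

end Crest.Agent.R4C.BoostCx972
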