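import Crest.Agent.R4C.FLEx_326
import Crest.Agent.R4C.BoostC_972

/-!
# Row 4: shares at the passive primes of the F-Λ tree (leaf (d) of note 3138)

`flam_full` : one `F : FL M` per `(M, B)` with
* the bad energy bound of `FLamStrong`, for every window `L`, scale `t` and cut `z`;
* `NodeShares` : at a passive prime the letters `≠` centre have share `≤ A p^(-s)` of the node,
  at a branched prime no letter has co-share `≤ A p^(-s)`;
* `Shares` : `ν{b ∈ B : b has an off-centre letter at p} ≤ A p^(-s) ν(B)`;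
* `def_bound`: `∑_{b ∈ B} ν(b) ∏_{p > z off-centre} (1-1/p)^(-r) ≤ (1 + C (z+1)^(-1/4)) ν(B)`.
-/

set_option autoImplicit false

open Finset

namespace Crest.Agent.R4C.FLShx326

open Crest.Agent.R4C.Basex935 Crest.Agent.R4C.Multix251 Crest.Agent.R4C.FLamx326
  Crest.Agent.R4C.FLDefx935 Crest.Agent.R4C.FLExx326 Crest.Agent.R4C.BoostCx972

/-- off-centre letter at `p` -/
def offc {M : ℕ} (F : FL M) (b p : ℕ) : Prop := ∃ v, F.ctr b p = some v ∧ b.factorization p ≠ v

/-- off-centre letter, tree form -/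
def offt (M : ℕ) (x : ℕ → ℝ) (ps : List ℕ) (f : ℕ → ℝ) (p b : ℕ) : Prop :=
  ∃ v, st M x ps f b p = some v ∧ b.factorization p ≠ v

open Classical in
/-- `f` restricted to the off-centre letters at `p` -/
noncomputable def offf (M : ℕ) (x : ℕ → ℝ) (ps : List ℕ) (f : ℕ → ℝ) (p b : ℕ) : ℝ :=
  if offt M x ps f p b then f b else 0

lemma Ex_zero {M : ℕ} {f : ℕ → ℝ} (h : ∀ b, f b = 0) : Ex M f = 0 := by
  unfold Ex
  refine sum_eq_zero fun b _ => ?_
  rw [h b, mul_zero]

/-- global share bound in the tree -/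
theorem share_tree {M : ℕ} (hM : 0 < M) {x : ℕ → ℝ} (hx : ∀ p, 0 ≤ x p) (p : ℕ) (ps : List ℕ) :
    ∀ {f : ℕ → ℝ}, (∀ b, 0 ≤ f b) → Ex M (offf M x ps f p) ≤ x p * Ex M f := by
  classical
  induction ps with
  | nil =>
    intro f hf
    rw [Ex_zero]
    · exact mul_nonneg (hx p) (Ex_nonneg hf)
    · intro b
      unfold offf offt
      rw [if_neg]
      rintro ⟨v, h, _⟩
      simp [st] at h
  | cons q qs ih =>
    intro f hf
    by_cases hpq : p = q
    · subst hpq
      cases hc : cen M x f p with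
      | some v0 =>
        have e : Ex M (offf M x (p :: qs) f p) = Ex M (off f p v0) := by
          congr 1
          funext b
          unfold offf offt off
          rw [st_self, hc]
          by_cases h : b.factorization p = v0
          · rw [if_pos h, if_neg]
            rintro ⟨v, h1, h2⟩
            rw [Option.some.injEq] at h1
            exact h2 (h.trans h1)
          · rw [if_neg h, if_pos ⟨v0, rfl, h⟩]
        rw [e]
        exact cen_some hc
      | none =>
        rw [Ex_zero]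
        · exact mul_nonneg (hx p) (Ex_nonneg hf)
        · intro b
          unfold offf offt
          rw [st_self, hc, if_neg]
          rintro ⟨v, h1, _⟩
          simp at h1
    · cases hc : cen M x f q with
      | some v0 =>
        have e : offf M x (q :: qs) f p = offf M x qs f p := by
          funext b
          unfold offf offt
          rw [st_some hc b hpq]
        rw [e]
        exact ih hf
      | none =>
        rw [Ex_split hM _ q, Ex_split hM f q, mul_sum]
        refine sum_le_sum fun v _ => ?_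
        have e : res (offf M x (q :: qs) f p) q v = offf M x qs (res f q v) p := by
          funext b
          by_cases h : b.factorization q = v
          · have h1 : res (offf M x (q :: qs) f p) q v b = offf M x (q :: qs) f p b := by
              unfold res; rw [if_pos h]
            have h2 : res f q v b = f b := by unfold res; rw [if_pos h]
            rw [h1]
            unfold offf offt
            rw [st_none hc b hpq, h, h2]
          · have h1 : res (offf M x (q :: qs) f p) q v b = 0 := by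
              unfold res; rw [if_neg h]
            have h2 : res f q v b = 0 := by unfold res; rw [if_neg h]
            rw [h1]
            unfold offf
            rw [h2, ite_self]
        rw [e]
        exact ih (res_nonneg hf q v)

/-- the node of `b` is `f` restricted to the words with the same branched letters -/
theorem node_eq {M : ℕ} {x : ℕ → ℝ} (ps : List ℕ) : ps.Nodup → ∀ (f : ℕ → ℝ) (b c : ℕ),
    ((∀ q ∈ ps, st M x ps f b q = none → b.factorization q = c.factorization q) →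
      node M x ps f b c = f c) ∧
    (¬ (∀ q ∈ ps, st M x ps f b q = none → b.factorization q = c.factorization q) →
      node M x ps f b c = 0) := by
  induction ps with
  | nil =>
    intro _ f b c
    exact ⟨fun _ => rfl, fun h => absurd (fun q hq => absurd hq List.not_mem_nil) h⟩
  | cons p ps ih =>
    intro hnd f b c
    rw [List.nodup_cons] at hnd
    have hne : ∀ q ∈ ps, q ≠ p := fun q hq h => hnd.1 (h ▸ hq)
    cases hc : cen M x f p with
    | some v0 =>
      rw [node_some hc]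
      have e : (∀ q ∈ p :: ps, st M x (p :: ps) f b q = none →
          b.factorization q = c.factorization q) ↔
          (∀ q ∈ ps, st M x ps f b q = none → b.factorization q = c.factorization q) := by
        constructor
        · intro h q hq hst
          exact h q (List.mem_cons_of_mem _ hq) (by rw [st_some hc b (hne q hq)]; exact hst)
        · intro h q hq hst
          rcases List.mem_cons.1 hq with h1 | h1
          · rw [h1, st_self, hc] at hst
            simp at hst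
          · rw [st_some hc b (hne q h1)] at hst
            exact h q h1 hst
      rw [e]
      exact ih hnd.2 f b c
    | none =>
      rw [node_none hc]
      obtain ⟨i1, i2⟩ := ih hnd.2 (res f p (b.factorization p)) b c
      have e : (∀ q ∈ p :: ps, st M x (p :: ps) f b q = none →
          b.factorization q = c.factorization q) ↔ (b.factorization p = c.factorization p ∧
          (∀ q ∈ ps, st M x ps (res f p (b.factorization p)) b q = none →
            b.factorization q = c.factorization q)) := by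
        constructor
        · intro h
          refine ⟨h p List.mem_cons_self (by rw [st_self]; exact hc), fun q hq hst => ?_⟩
          exact h q (List.mem_cons_of_mem _ hq) (by rw [st_none hc b (hne q hq)]; exact hst)
        · rintro ⟨h0, h⟩ q hq hst
          rcases List.mem_cons.1 hq with h1 | h1
          · rw [h1]; exact h0
          · rw [st_none hc b (hne q h1)] at hst
            exact h q h1 hst
      rw [e]
      constructor
      · rintro ⟨h0, h⟩
        rw [i1 h]
        unfold res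
        rw [if_pos h0.symm]
      · intro h
        by_cases h1 : ∀ q ∈ ps, st M x ps (res f p (b.factorization p)) b q = none →
            b.factorization q = c.factorization q
        · rw [i1 h1]
          unfold res
          rw [if_neg]
          intro h2
          exact h ⟨h2.symm, h1⟩
        · exact i2 h1

/-! ### The structure `mkFL` -/

lemma ctr_mk {M : ℕ} (hM : 0 < M) (x : ℕ → ℝ) (f : ℕ → ℝ) (hf : ∀ b, 0 ≤ f b) {p : ℕ}
    (hp : p ∈ M.primeFactors) (b : ℕ) : (mkFL hM x f hf).ctr b p = st M x (PL M) f b p := by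
  change stat M x f b p = _
  unfold stat
  rw [if_pos hp]

lemma ctr_mk' {M : ℕ} (hM : 0 < M) (x : ℕ → ℝ) (f : ℕ → ℝ) (hf : ∀ b, 0 ≤ f b) {p : ℕ}
    (hp : p ∉ M.primeFactors) (b : ℕ) : (mkFL hM x f hf).ctr b p = some 0 := by
  change stat M x f b p = _
  unfold stat
  rw [if_neg hp]

/-- status along the list cut at `z` -/
lemma st_cut {M : ℕ} {x : ℕ → ℝ} {f : ℕ → ℝ} {z q : ℕ} (hq : q ∈ M.primeFactors) (hz : z < q)
    (b : ℕ) : q ∈ (PL M).filter (fun p => z < p) ∧
      st M x (PL M) f b q = st M x ((PL M).filter (fun p => z < p)) f b q := by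
  have hsp := split_list z (PL M) (PL_pairwise M)
  have h1 : q ∈ (PL M).filter (fun p => z < p) := by
    rw [List.mem_filter]
    exact ⟨mem_PL.2 hq, by simpa using hz⟩
  refine ⟨h1, ?_⟩
  conv_lhs => rw [hsp]
  exact st_append_left _ _ f b q h1

lemma same_iff {M : ℕ} (hM : 0 < M) (x : ℕ → ℝ) (f : ℕ → ℝ) (hf : ∀ b, 0 ≤ f b) (z b c : ℕ) :
    (mkFL hM x f hf).same z b c ↔ (∀ q ∈ (PL M).filter (fun p => z < p),
      st M x ((PL M).filter (fun p => z < p)) f b q = none →
        b.factorization q = c.factorization q) := by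
  constructor
  · intro h q hq hst
    rw [List.mem_filter] at hq
    have hq1 := mem_PL.1 hq.1
    have hq2 : z < q := by simpa using hq.2
    refine h q (Nat.prime_of_mem_primeFactors hq1) hq2 ?_
    rw [ctr_mk hM x f hf hq1, (st_cut hq1 hq2 b).2]
    exact hst
  · intro h q _ hz hst
    by_cases hq : q ∈ M.primeFactors
    · rw [ctr_mk hM x f hf hq, (st_cut hq hz b).2] at hst
      exact h q (st_cut (x := x) (f := f) hq hz b).1 hst
    · rw [ctr_mk' hM x f hf hq] at hst
      simp at hst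

open Classical in
/-- the node above `z` -/
lemma node_mk {M : ℕ} (hM : 0 < M) (x : ℕ → ℝ) (f : ℕ → ℝ) (hf : ∀ b, 0 ≤ f b) (z b c : ℕ) :
    node M x ((PL M).filter (fun p => z < p)) f b c =
      if (mkFL hM x f hf).same z b c then f c else 0 := by
  obtain ⟨h1, h2⟩ := node_eq (M := M) (x := x) ((PL M).filter (fun p => z < p))
    ((PL_nodup M).filter _) f b c
  split_ifs with h
  · exact h1 ((same_iff hM x f hf z b c).1 h)
  · exact h2 fun h3 => h ((same_iff hM x f hf z b c).2 h3)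

/-- the status of `p` is read at the node above `p` -/
lemma ctr_cen {M : ℕ} (hM : 0 < M) (x : ℕ → ℝ) (f : ℕ → ℝ) (hf : ∀ b, 0 ≤ f b) {p : ℕ}
    (hp : p ∈ M.primeFactors) (b : ℕ) : (mkFL hM x f hf).ctr b p =
      cen M x (node M x ((PL M).filter (fun q => p < q)) f b) p := by
  rw [ctr_mk hM x f hf hp]
  have hsp := split_list p (PL M) (PL_pairwise M)
  conv_lhs => rw [hsp]
  have hnot : p ∉ (PL M).filter (fun q => p < q) := by
    rw [List.mem_filter]
    rintro ⟨_, h⟩
    simp at h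
  rw [st_append_right _ _ f b p hnot]
  have hin : p ∈ (PL M).filter (fun q => ¬ p < q) := by
    rw [List.mem_filter]
    exact ⟨mem_PL.2 hp, by simp⟩
  have hpw : ((PL M).filter (fun q => ¬ p < q)).Pairwise (fun a b => b < a) :=
    (PL_pairwise M).filter _
  cases hl : (PL M).filter (fun q => ¬ p < q) with
  | nil => rw [hl] at hin; exact absurd hin List.not_mem_nil
  | cons a l =>
    rw [hl] at hin hpw
    have hpa : p = a := by
      rcases List.mem_cons.1 hin with h | h
      · exact h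
      · rw [List.pairwise_cons] at hpw
        have h1 := hpw.1 p h
        have h2 : a ∈ (PL M).filter (fun q => ¬ p < q) := by rw [hl]; exact List.mem_cons_self
        rw [List.mem_filter] at h2
        have := h2.2
        simp only [decide_eq_true_eq] at this
        omega
    rw [← hpa, st_self]

open Classical in
/-- share statements at the nodes -/
def NodeShares {M : ℕ} (F : FL M) (B : Finset ℕ) (A s : ℝ) : Prop :=
  ∀ b p : ℕ, p.Prime →
    (∀ v, F.ctr b p = some v →
      ∑ c ∈ B, (if F.same p b c ∧ c.factorization p ≠ v then nu M c else 0) ≤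
        A * (p : ℝ) ^ (-s) * ∑ c ∈ B, if F.same p b c then nu M c else 0) ∧
    (F.ctr b p = none → ∀ v,
      A * (p : ℝ) ^ (-s) * (∑ c ∈ B, if F.same p b c then nu M c else 0) <
        ∑ c ∈ B, (if F.same p b c ∧ c.factorization p ≠ v then nu M c else 0))

open Classical in
/-- global shares -/
def Shares {M : ℕ} (F : FL M) (B : Finset ℕ) (A s : ℝ) : Prop :=
  ∀ p : ℕ, p.Prime → ∑ b ∈ B, (if offc F b p then nu M b else 0) ≤
    A * (p : ℝ) ^ (-s) * ∑ b ∈ B, nu M b

/-- the share exponent -/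
noncomputable def se (κ : ℝ) : ℝ := 1 - dl κ / (1 - κ)

lemma se_gt {κ : ℝ} (hκ : 1 / 2 < κ) (hκ1 : κ < 1) : 3 / 4 < se κ := by
  unfold se dl
  have h1 : 0 < 1 - κ := by linarith
  have h2 : (1 - κ) * (2 * κ - 1) / (4 * κ) / (1 - κ) = (2 * κ - 1) / (4 * κ) := by
    field_simp
  rw [h2]
  have h3 : (2 * κ - 1) / (4 * κ) < 1 / 4 := by
    rw [div_lt_div_iff₀ (by linarith) (by norm_num)]
    linarith
  linarith

lemma se_lt {κ : ℝ} (hκ : 1 / 2 < κ) (hκ1 : κ < 1) : se κ < 1 := by
  unfold se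
  have := div_pos (dl_pos hκ hκ1) (by linarith : 0 < 1 - κ)
  linarith

lemma xth_eq {κ : ℝ} {p : ℕ} : xth κ p = A0 κ * (p : ℝ) ^ (-(se κ)) := by
  unfold xth x1 se
  rw [one_div, Real.inv_rpow (Nat.cast_nonneg p), ← Real.rpow_neg (Nat.cast_nonneg p)]

open Classical in
lemma Ex_if {M : ℕ} {B : Finset ℕ} (hB : B ⊆ M.divisors) (P : ℕ → Prop) :
    Ex M (fun b => if P b then ind B b else 0) = ∑ b ∈ B, if P b then nu M b else 0 := by
  unfold Ex
  rw [← sum_subset hB]
  · refine sum_congr rfl fun b hb => ?_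
    have h1 : ind B b = 1 := by unfold ind; rw [if_pos hb]
    dsimp only
    rw [h1]
    split_ifs <;> simp
  · intro b _ hb
    have h1 : ind B b = 0 := by unfold ind; rw [if_neg hb]
    dsimp only
    rw [h1, ite_self, mul_zero]

lemma fact_off {M : ℕ} (hM : 0 < M) {B : Finset ℕ} (hB : B ⊆ M.divisors) {b p : ℕ} (hb : b ∈ B)
    (hp : p ∉ M.primeFactors) : b.factorization p = 0 :=
  FL.fact_zero hM (Nat.dvd_of_mem_divisors (hB hb)) hp

theorem shares_mk {κ : ℝ} (hκ : 1 / 2 < κ) (hκ1 : κ < 1) {M : ℕ} (hM : 0 < M) {B : Finset ℕ}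
    (hB : B ⊆ M.divisors) :
    Shares (mkFL hM (xth κ) (ind B) (ind_nonneg B)) B (A0 κ) (se κ) := by
  classical
  intro p _
  by_cases hp : p ∈ M.primeFactors
  · have h1 := share_tree hM (xth_nonneg hκ) p (PL M) (ind_nonneg B)
    rw [Ex_ind hB, xth_eq] at h1
    refine le_trans (le_of_eq ?_) h1
    have e : offf M (xth κ) (PL M) (ind B) p = fun b =>
        if offc (mkFL hM (xth κ) (ind B) (ind_nonneg B)) b p then ind B b else 0 := by
      funext b
      unfold offf offt offc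
      rw [ctr_mk hM _ _ _ hp]
    rw [e, Ex_if hB]
  · rw [sum_eq_zero]
    · have h1 := A0_pos (κ := κ) (by linarith)
      have h2 : 0 ≤ ∑ b ∈ B, nu M b := sum_nonneg fun b _ => nu_nonneg M b
      positivity
    · intro b hb
      rw [if_neg]
      rintro ⟨v, h1, h2⟩
      rw [ctr_mk' hM _ _ _ hp, Option.some.injEq] at h1
      rw [fact_off hM hB hb hp] at h2
      exact h2 h1

theorem nodeShares_mk {κ : ℝ} (hκ : 1 / 2 < κ) {M : ℕ} (hM : 0 < M) {B : Finset ℕ}
    (hB : B ⊆ M.divisors) :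
    NodeShares (mkFL hM (xth κ) (ind B) (ind_nonneg B)) B (A0 κ) (se κ) := by
  classical
  intro b p _
  have hA := A0_pos (κ := κ) (by linarith)
  set F := mkFL hM (xth κ) (ind B) (ind_nonneg B) with hF
  have hnode : ∀ g : ℕ → ℝ, g = node M (xth κ) ((PL M).filter (fun q => p < q)) (ind B) b →
      (Ex M g = ∑ c ∈ B, if F.same p b c then nu M c else 0) ∧
      (∀ v, Ex M (off g p v) = ∑ c ∈ B, if F.same p b c ∧ c.factorization p ≠ v
        then nu M c else 0) := by
    intro g hg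
    have e1 : g = fun c => if F.same p b c then ind B c else 0 := by
      rw [hg]
      funext c
      rw [node_mk hM (xth κ) (ind B) (ind_nonneg B)]
    refine ⟨by rw [e1, Ex_if hB], fun v => ?_⟩
    refine Eq.trans ?_ ((Ex_if hB (fun c => F.same p b c ∧ c.factorization p ≠ v)).trans
      (sum_congr rfl fun c _ => by congr))
    congr 1
    funext c
    rw [e1]
    unfold off
    by_cases h1 : c.factorization p = v
    · rw [if_pos h1, if_neg (fun h => h.2 h1)]
    · rw [if_neg h1]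
      dsimp only
      by_cases h2 : F.same p b c
      · rw [if_pos h2, if_pos ⟨h2, h1⟩]
      · rw [if_neg h2, if_neg (fun h => h2 h.1)]
  by_cases hp : p ∈ M.primeFactors
  · obtain ⟨n1, n2⟩ := hnode _ rfl
    rw [hF, ctr_cen hM (xth κ) (ind B) (ind_nonneg B) hp b, ← hF]
    constructor
    · intro v hv
      have h1 := cen_some hv
      rw [n1, n2 v, xth_eq] at h1
      exact h1
    · intro hn v
      have h1 := cen_none hn v
      rw [n1, n2 v, xth_eq] at h1
      exact h1
  · constructor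
    · intro v hv
      rw [hF, ctr_mk' hM _ _ _ hp, Option.some.injEq] at hv
      rw [sum_eq_zero]
      · have h2 : 0 ≤ ∑ c ∈ B, (if F.same p b c then nu M c else 0) :=
          sum_nonneg fun c _ => by
            split_ifs
            · exact nu_nonneg M c
            · exact le_rfl
        positivity
      · intro c hc
        rw [if_neg]
        rintro ⟨_, h2⟩
        rw [fact_off hM hB hc hp] at h2
        exact h2 hv
    · intro hn
      rw [hF, ctr_mk' hM _ _ _ hp] at hn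
      simp at hn

/-! ### The Def bound -/

open Classical in
/-- a linear functional of the off-centre primes -/
theorem lin_share {M : ℕ} {F : FL M} {B : Finset ℕ} {A s : ℝ} (hS : Shares F B A s)
    (T : Finset ℕ) (hT : ∀ p ∈ T, p.Prime) (g : ℕ → ℝ) (hg : ∀ p ∈ T, 0 ≤ g p) :
    ∑ b ∈ B, nu M b * (∑ p ∈ T.filter (fun p => offc F b p), g p) ≤
      A * (∑ p ∈ T, g p * (p : ℝ) ^ (-s)) * ∑ b ∈ B, nu M b := by
  have e : ∑ b ∈ B, nu M b * (∑ p ∈ T.filter (fun p => offc F b p), g p) =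
      ∑ p ∈ T, g p * ∑ b ∈ B, (if offc F b p then nu M b else 0) := by
    have e1 : ∀ b ∈ B, nu M b * (∑ p ∈ T.filter (fun p => offc F b p), g p) =
        ∑ p ∈ T, g p * (if offc F b p then nu M b else 0) := by
      intro b _
      rw [sum_filter, mul_sum]
      refine sum_congr rfl fun p _ => ?_
      split_ifs <;> ring
    rw [sum_congr rfl e1, sum_comm]
    refine sum_congr rfl fun p _ => ?_
    rw [mul_sum]
  have e2 : ∀ N : ℝ, A * (∑ p ∈ T, g p * (p : ℝ) ^ (-s)) * N =
      ∑ p ∈ T, g p * (A * (p : ℝ) ^ (-s) * N) := fun N => by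
    rw [mul_sum, sum_mul]
    exact sum_congr rfl fun p _ => by ring
  rw [e, e2]
  exact sum_le_sum fun p hp => mul_le_mul_of_nonneg_left (hS p (hT p hp)) (hg p hp)

lemma pow_sub_one_le {y : ℝ} (hy : 1 ≤ y) (r : ℕ) : y ^ r - 1 ≤ r * (y - 1) * y ^ r := by
  induction r with
  | zero => simp
  | succ r ih =>
    have h1 : 1 ≤ y ^ r := one_le_pow₀ hy
    have h2 : y ^ r ≤ y ^ (r + 1) := pow_le_pow_right₀ hy (Nat.le_succ r)
    have h3 : 0 ≤ (r : ℝ) := Nat.cast_nonneg r
    have h4 : 0 ≤ y - 1 := by linarith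
    have h5 : (r : ℝ) * (y - 1) * y ^ r ≤ (r : ℝ) * (y - 1) * y ^ (r + 1) :=
      mul_le_mul_of_nonneg_left h2 (mul_nonneg h3 h4)
    have h6 : (y - 1) * y ^ r ≤ (y - 1) * y ^ (r + 1) := mul_le_mul_of_nonneg_left h2 h4
    push_cast
    have h7 : y ^ (r + 1) - 1 = (y - 1) * y ^ r + (y ^ r - 1) := by ring
    nlinarith

lemma pf_le_two {p : ℕ} (hp : p.Prime) : pf p ≤ 2 ∧ pf p - 1 ≤ 2 / (p : ℝ) := by
  have h2 : (2 : ℝ) ≤ p := by exact_mod_cast hp.two_le
  have h0 : (0 : ℝ) < p := by linarith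
  have h1 : (0 : ℝ) < p - 1 := by linarith
  have e : pf p = (p : ℝ) / (p - 1) := by
    unfold pf
    field_simp
  rw [e]
  constructor
  · rw [div_le_iff₀ h1]; linarith
  · have e2 : (p : ℝ) / (p - 1) - 1 = 1 / (p - 1) := by
      field_simp
      ring
    rw [e2, div_le_div_iff₀ h1 h0]
    linarith

/-- product over a set of primes against a sum -/
lemma prod_pow_le (r : ℕ) : ∃ D : ℝ, 0 ≤ D ∧ ∀ S : Finset ℕ, (∀ p ∈ S, p.Prime) →
    ∏ p ∈ S, pf p ^ r ≤ 1 + ∑ p ∈ S, D * (p : ℝ) ^ (-(3 / 4) : ℝ) := by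
  set ε : ℝ := 1 / (4 * ((r : ℝ) + 1)) with hε
  have hr0 : (0 : ℝ) ≤ r := Nat.cast_nonneg r
  have hε0 : 0 < ε := by positivity
  have hεr : ε * r ≤ 1 / 4 := by
    rw [hε, div_mul_eq_mul_div, one_mul, div_le_div_iff₀ (by positivity) (by norm_num)]
    linarith
  have hCM := CM_pos
  refine ⟨(r : ℝ) * 2 * 2 ^ r * (CM / ε) ^ r, by positivity, fun S hS => ?_⟩
  have e1 : ∏ p ∈ S, pf p ^ r = ∏ p ∈ S, (1 + (pf p ^ r - 1)) :=
    prod_congr rfl fun p _ => by ring
  rw [e1, prod_add_ordered]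
  simp only [prod_const_one, mul_one]
  refine add_le_add le_rfl (sum_le_sum fun p hp => ?_)
  have hpp := hS p hp
  have h2 : (2 : ℝ) ≤ p := by exact_mod_cast hpp.two_le
  have hp0 : (0 : ℝ) < p := by linarith
  obtain ⟨g1, g2⟩ := pf_le_two hpp
  have g3 := one_le_pf hpp
  have h3 : pf p ^ r - 1 ≤ r * (2 / (p : ℝ)) * 2 ^ r := by
    refine (pow_sub_one_le g3 r).trans ?_
    have h4 : pf p ^ r ≤ 2 ^ r := pow_le_pow_left₀ (by linarith) g1 r
    have h5 : (r : ℝ) * (pf p - 1) ≤ r * (2 / (p : ℝ)) := mul_le_mul_of_nonneg_left g2 hr0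
    have h6 : 0 ≤ (r : ℝ) * (2 / (p : ℝ)) := by positivity
    exact mul_le_mul h5 h4 (by positivity) h6
  have h4 : ∏ j ∈ S with j < p, (1 + (pf j ^ r - 1)) ≤ (CM / ε) ^ r * (p : ℝ) ^ (1 / 4 : ℝ) := by
    have e2 : ∏ j ∈ S with j < p, (1 + (pf j ^ r - 1)) = (∏ j ∈ S with j < p, pf j) ^ r := by
      rw [← prod_pow]
      exact prod_congr rfl fun j _ => by ring
    rw [e2]
    have h5 := prod_pf_le_mertens (y := (p : ℝ)) h2 (S := S.filter (fun j => j < p)) (by
      intro j hj
      rw [mem_filter] at hj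
      exact ⟨hS j hj.1, by exact_mod_cast hj.2.le⟩)
    have h6 : 0 ≤ ∏ j ∈ S with j < p, pf j := (prod_pf_pos (by
      intro j hj
      rw [mem_filter] at hj
      exact hS j hj.1)).le
    have h7 : Real.log p ≤ (p : ℝ) ^ ε / ε := Real.log_le_rpow_div hp0.le hε0
    have h8 : ∏ j ∈ S with j < p, pf j ≤ CM / ε * (p : ℝ) ^ ε := by
      refine h5.trans ?_
      calc CM * Real.log p ≤ CM * ((p : ℝ) ^ ε / ε) := mul_le_mul_of_nonneg_left h7 hCM.le
        _ = _ := by ring
    refine (pow_le_pow_left₀ h6 h8 r).trans ?_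
    rw [mul_pow, ← Real.rpow_natCast ((p : ℝ) ^ ε) r, ← Real.rpow_mul hp0.le]
    refine mul_le_mul_of_nonneg_left ?_ (by positivity)
    exact Real.rpow_le_rpow_of_exponent_le (by linarith) hεr
  have h5 : 0 ≤ ∏ j ∈ S with j < p, (1 + (pf j ^ r - 1)) := by
    refine prod_nonneg fun j hj => ?_
    rw [mem_filter] at hj
    have := pf_pos (hS j hj.1)
    have e3 : 1 + (pf j ^ r - 1) = pf j ^ r := by ring
    rw [e3]
    positivity
  calc (pf p ^ r - 1) * ∏ j ∈ S with j < p, (1 + (pf j ^ r - 1))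
      ≤ (r * (2 / (p : ℝ)) * 2 ^ r) * ((CM / ε) ^ r * (p : ℝ) ^ (1 / 4 : ℝ)) :=
        mul_le_mul h3 h4 h5 (by positivity)
    _ = (r : ℝ) * 2 * 2 ^ r * (CM / ε) ^ r * ((p : ℝ) ^ (1 / 4 : ℝ) / p) := by ring
    _ = (r : ℝ) * 2 * 2 ^ r * (CM / ε) ^ r * (p : ℝ) ^ (-(3 / 4) : ℝ) := by
        congr 1
        rw [← Real.rpow_sub_one hp0.ne']
        norm_num

open Classical in
/-- the primes `> z` of `M` with an off-centre letter of `b` -/
noncomputable def W {M : ℕ} (F : FL M) (z b : ℕ) : Finset ℕ :=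
  M.primeFactors.filter (fun p => z < p ∧ offc F b p)

lemma W_prime {M : ℕ} {F : FL M} {z b p : ℕ} (hp : p ∈ W F z b) : p.Prime := by
  classical
  unfold W at hp
  rw [mem_filter] at hp
  exact Nat.prime_of_mem_primeFactors hp.1

lemma ell_W {M : ℕ} {F : FL M} (hM : 0 < M) {z b : ℕ} (hb : b ∣ M) :
    (F.ell z b).primeFactors ⊆ W F z b := by
  classical
  intro p hp
  have hpp := Nat.prime_of_mem_primeFactors hp
  obtain ⟨h1, v, h2, h3⟩ := FL.prime_dvd_ell hpp (Nat.dvd_of_mem_primeFactors hp)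
  unfold W
  rw [mem_filter]
  refine ⟨?_, h1, v, h2, h3.ne⟩
  by_contra hn
  have h4 := FL.fact_zero hM dvd_rfl hn
  have h5 := F.le hb hpp h2
  omega

lemma lam_W {M : ℕ} {F : FL M} (hM : 0 < M) {z b : ℕ} (hb : b ∣ M) :
    (F.lam z b).primeFactors ⊆ W F z b := by
  classical
  intro p hp
  have hpp := Nat.prime_of_mem_primeFactors hp
  obtain ⟨h1, v, h2, h3⟩ := FL.prime_dvd_lam hM hb hpp (Nat.dvd_of_mem_primeFactors hp)
  unfold W
  rw [mem_filter]
  refine ⟨?_, h1, v, h2, h3.ne'⟩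
  by_contra hn
  have h4 := FL.fact_zero hM hb hn
  omega

/-- **the Def bound** -/
theorem def_bound (r : ℕ) : ∃ C : ℝ, 0 ≤ C ∧ ∀ (M : ℕ) (F : FL M) (B : Finset ℕ) (A s : ℝ),
    Shares F B A s → 0 ≤ A → 3 / 4 ≤ s → ∀ z : ℕ,
      ∑ b ∈ B, nu M b * ∏ p ∈ W F z b, pf p ^ r ≤
        (1 + C * A * ((z : ℝ) + 1) ^ (-(1 / 4) : ℝ)) * ∑ b ∈ B, nu M b := by
  classical
  obtain ⟨D, hD, hprod⟩ := prod_pow_le r
  obtain ⟨Z, hZ, hsum⟩ := sum_list_rpow (s := 3 / 2) (by norm_num)
  refine ⟨D * Z * 2 ^ (1 / 4 : ℝ), by positivity, ?_⟩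
  intro M F B A s hS hA hs z
  set T := M.primeFactors.filter (fun p => z < p) with hT
  have hTp : ∀ p ∈ T, p.Prime := fun p hp => by
    rw [hT, mem_filter] at hp
    exact Nat.prime_of_mem_primeFactors hp.1
  have hW : ∀ b, W F z b = T.filter (fun p => offc F b p) := by
    intro b
    unfold W
    rw [hT, filter_filter]
  have hnu : 0 ≤ ∑ b ∈ B, nu M b := sum_nonneg fun b _ => nu_nonneg M b
  have h1 : ∑ b ∈ B, nu M b * ∏ p ∈ W F z b, pf p ^ r ≤
      ∑ b ∈ B, (nu M b + nu M b * ∑ p ∈ T.filter (fun p => offc F b p),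
        D * (p : ℝ) ^ (-(3 / 4) : ℝ)) := by
    refine sum_le_sum fun b _ => ?_
    have h2 := hprod (W F z b) fun p hp => W_prime hp
    rw [hW b] at h2 ⊢
    calc nu M b * ∏ p ∈ T.filter (fun p => offc F b p), pf p ^ r
        ≤ nu M b * (1 + ∑ p ∈ T.filter (fun p => offc F b p), D * (p : ℝ) ^ (-(3 / 4) : ℝ)) :=
          mul_le_mul_of_nonneg_left h2 (nu_nonneg M b)
      _ = _ := by ring
  refine h1.trans ?_
  rw [sum_add_distrib]
  have h2 := lin_share hS T hTp (fun p => D * (p : ℝ) ^ (-(3 / 4) : ℝ))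
    (fun p _ => mul_nonneg hD (Real.rpow_nonneg (Nat.cast_nonneg p) _))
  have h3 : ∑ p ∈ T, D * (p : ℝ) ^ (-(3 / 4) : ℝ) * (p : ℝ) ^ (-s) ≤
      D * (Z * (2 ^ (1 / 4 : ℝ) * ((z : ℝ) + 1) ^ (-(1 / 4) : ℝ))) := by
    have h4 : ∑ p ∈ T, D * (p : ℝ) ^ (-(3 / 4) : ℝ) * (p : ℝ) ^ (-s) ≤
        D * ∑ p ∈ T, (p : ℝ) ^ (-(3 / 2) : ℝ) := by
      rw [mul_sum]
      refine sum_le_sum fun p hp => ?_
      have hp1 : (1 : ℝ) ≤ p := by exact_mod_cast (hTp p hp).one_lt.le
      rw [mul_assoc, ← Real.rpow_add (by linarith)]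
      refine mul_le_mul_of_nonneg_left ?_ hD
      exact Real.rpow_le_rpow_of_exponent_le hp1 (by linarith)
    refine h4.trans (mul_le_mul_of_nonneg_left ?_ hD)
    have hz0 : (0 : ℝ) ≤ z := Nat.cast_nonneg z
    have h5 := hsum (max 1 (z : ℝ)) (le_max_left _ _) T.toList (nodup_toList T) (by
      intro p hp
      rw [mem_toList] at hp
      have hp1 := (hTp p hp).one_lt
      rw [hT, mem_filter] at hp
      exact max_lt (by exact_mod_cast hp1) (by exact_mod_cast hp.2))
    rw [sum_map_toList] at h5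
    refine h5.trans ?_
    refine mul_le_mul_of_nonneg_left ?_ hZ.le
    have h6 : ((z : ℝ) + 1) / 2 ≤ max 1 (z : ℝ) := by
      have := le_max_left (1 : ℝ) z
      have := le_max_right (1 : ℝ) z
      linarith
    have e5 : (-((3 / 2 - 1) / 2) : ℝ) = -(1 / 4) := by norm_num
    rw [e5]
    calc (max 1 (z : ℝ)) ^ (-(1 / 4) : ℝ) ≤ (((z : ℝ) + 1) / 2) ^ (-(1 / 4) : ℝ) :=
          Real.rpow_le_rpow_of_nonpos (by positivity) h6 (by norm_num)
      _ = 2 ^ (1 / 4 : ℝ) * ((z : ℝ) + 1) ^ (-(1 / 4) : ℝ) := by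
          rw [Real.div_rpow (by positivity) (by norm_num),
            Real.rpow_neg (by norm_num : (0 : ℝ) ≤ 2), div_inv_eq_mul, mul_comm]
  have h4 : A * (∑ p ∈ T, D * (p : ℝ) ^ (-(3 / 4) : ℝ) * (p : ℝ) ^ (-s)) * ∑ b ∈ B, nu M b ≤
      A * (D * (Z * (2 ^ (1 / 4 : ℝ) * ((z : ℝ) + 1) ^ (-(1 / 4) : ℝ)))) * ∑ b ∈ B, nu M b :=
    mul_le_mul_of_nonneg_right (mul_le_mul_of_nonneg_left h3 hA) hnu
  calc ∑ b ∈ B, nu M b + ∑ b ∈ B, nu M b * ∑ p ∈ T.filter (fun p => offc F b p),
        D * (p : ℝ) ^ (-(3 / 4) : ℝ)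
      ≤ ∑ b ∈ B, nu M b + A * (D * (Z * (2 ^ (1 / 4 : ℝ) *
          ((z : ℝ) + 1) ^ (-(1 / 4) : ℝ)))) * ∑ b ∈ B, nu M b :=
        add_le_add le_rfl (h2.trans h4)
    _ = _ := by ring

/-- Def bound for the words `ell`, `lam` -/
theorem def_bound_words (r : ℕ) : ∃ C : ℝ, 0 ≤ C ∧ ∀ (M : ℕ) (F : FL M) (B : Finset ℕ) (A s : ℝ),
    0 < M → B ⊆ M.divisors → Shares F B A s → 0 ≤ A → 3 / 4 ≤ s → ∀ z : ℕ,
      ∑ b ∈ B, nu M b * ((∏ p ∈ (F.ell z b).primeFactors, pf p) ^ r *
          (∏ p ∈ (F.lam z b).primeFactors, pf p) ^ r) ≤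
        (1 + C * A * ((z : ℝ) + 1) ^ (-(1 / 4) : ℝ)) * ∑ b ∈ B, nu M b := by
  classical
  obtain ⟨C, hC, h⟩ := def_bound (r + r)
  refine ⟨C, hC, fun M F B A s hM hB hS hA hs z => ?_⟩
  refine (sum_le_sum fun b hb => ?_).trans (h M F B A s hS hA hs z)
  have hbM := Nat.dvd_of_mem_divisors (hB hb)
  refine mul_le_mul_of_nonneg_left ?_ (nu_nonneg M b)
  have h1 := prod_pf_mono (ell_W (F := F) (z := z) hM hbM) fun p hp => W_prime hp
  have h2 := prod_pf_mono (lam_W (F := F) (z := z) hM hbM) fun p hp => W_prime hp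
  have h3 : 0 ≤ ∏ p ∈ (F.ell z b).primeFactors, pf p :=
    (prod_pf_pos fun p hp => Nat.prime_of_mem_primeFactors hp).le
  have h4 : 0 ≤ ∏ p ∈ (F.lam z b).primeFactors, pf p :=
    (prod_pf_pos fun p hp => Nat.prime_of_mem_primeFactors hp).le
  rw [prod_pow, pow_add]
  exact mul_le_mul (pow_le_pow_left₀ h3 h1 r) (pow_le_pow_left₀ h4 h2 r) (pow_nonneg h4 r)
    (pow_nonneg (h3.trans h1) r)

/-! ### Everything together -/

/-- bad energy of the explicit structure -/
theorem bad_mk {η : ℝ} (hη : 0 < η) (hη1 : η < 1) : ∃ c : ℝ, 0 < c ∧ ∃ C : ℝ, 0 ≤ C ∧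
    ∀ (M : ℕ) (B : Finset ℕ) (hM : 0 < M), B ⊆ M.divisors →
      ∀ (L t : ℝ) (z : ℕ), 0 < L → 0 < t →
      badEn (mkFL hM (xth ((1 + η) / 2)) (ind B) (ind_nonneg B)) B L t z ≤
        C * t ^ η * ((z : ℝ) + 1) ^ (-c) * (L * ∑ b ∈ B, nu M b) ^ (1 + η) := by
  have hκ : 1 / 2 < (1 + η) / 2 := by linarith
  have hκ1 : (1 + η) / 2 < 1 := by linarith
  obtain ⟨C0, c, y0, hC0, hc, hy0, h⟩ := bad_energy hκ hκ1
  obtain ⟨C1, hC1, hH⟩ := hvw_ex hκ hκ1
  have e1 : 2 * ((1 + η) / 2) - 1 = η := by ring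
  have e2 : 2 * ((1 + η) / 2) = 1 + η := by ring
  refine ⟨c, hc, C0 * 2 ^ c + C1 * (y0 + 1) ^ c, by positivity,
    fun M B hM hB L t z hL ht => ?_⟩
  refine (badEn_le hM hB (xth ((1 + η) / 2)) hL z).trans ?_
  set ps := (PL M).filter (fun p => z < p) with hps
  set E := Ex M (ind B) with hE
  have hE0 : 0 ≤ E := Ex_nonneg (ind_nonneg B)
  rw [← Ex_ind hB, ← hE]
  have hz0 : (0 : ℝ) ≤ z := Nat.cast_nonneg z
  have hz1 : (0 : ℝ) < (z : ℝ) + 1 := by positivity
  have hpos : 0 ≤ ((z : ℝ) + 1) ^ (-c) := Real.rpow_nonneg hz1.le _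
  have key : En M (t * L) (bad M (xth ((1 + η) / 2)) ps (ind B)) ≤
      (C0 * 2 ^ c + C1 * (y0 + 1) ^ c) * ((t * L) ^ η * ((z : ℝ) + 1) ^ (-c) * E ^ (1 + η)) := by
    have hX0 : 0 ≤ (t * L) ^ η := Real.rpow_nonneg (by positivity) _
    have hE1 : 0 ≤ E ^ (1 + η) := Real.rpow_nonneg hE0 _
    rcases le_or_gt y0 (z : ℝ) with hz | hz
    · have h1 := h M (t * L) z ps (ind B) hM (by positivity) hz
        ((PL_nodup M).filter _)
        (fun p hp => by
          rw [hps, List.mem_filter] at hp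
          exact Nat.prime_of_mem_primeFactors (mem_PL.1 hp.1))
        (fun p hp => by
          rw [hps, List.mem_filter] at hp
          have := hp.2
          simp only [decide_eq_true_eq] at this
          exact_mod_cast this)
        (ind_nonneg B) (ind_le_one B)
      rw [e1, e2, ← hE] at h1
      have h2 : (z : ℝ) ^ (-c) ≤ 2 ^ c * ((z : ℝ) + 1) ^ (-c) := by
        have h3 : ((z : ℝ) + 1) / 2 ≤ z := by linarith
        calc (z : ℝ) ^ (-c) ≤ (((z : ℝ) + 1) / 2) ^ (-c) :=
              Real.rpow_le_rpow_of_nonpos (by positivity) h3 (by linarith)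
          _ = 2 ^ c * ((z : ℝ) + 1) ^ (-c) := by
              rw [Real.div_rpow hz1.le (by norm_num), Real.rpow_neg (by norm_num : (0 : ℝ) ≤ 2),
                div_inv_eq_mul, mul_comm]
      have h4 : 0 ≤ C1 * (y0 + 1) ^ c := by positivity
      calc En M (t * L) (bad M (xth ((1 + η) / 2)) ps (ind B))
          ≤ C0 * (t * L) ^ η * (z : ℝ) ^ (-c) * E ^ (1 + η) := h1
        _ ≤ C0 * (t * L) ^ η * (2 ^ c * ((z : ℝ) + 1) ^ (-c)) * E ^ (1 + η) := by gcongr
        _ = (C0 * 2 ^ c) * ((t * L) ^ η * ((z : ℝ) + 1) ^ (-c) * E ^ (1 + η)) := by ring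
        _ ≤ _ := by
            refine mul_le_mul_of_nonneg_right (by linarith) (by positivity)
    · have h1 := hH M hM (t * L) (by positivity) (ind B) (ind B) (ind_nonneg B) (ind_le_one B)
        (ind_nonneg B) (ind_le_one B)
      have h2 : En M (t * L) (bad M (xth ((1 + η) / 2)) ps (ind B)) ≤
          En M (t * L) (fun b c => ind B b * ind B c) :=
        En_mono fun b c _ _ => bad_le (ind_nonneg B) b c
      have h3 : (E * E) ^ ((1 + η) / 2) = E ^ (1 + η) := by
        have e4 : ((2 : ℕ) : ℝ) * ((1 + η) / 2) = 1 + η := by push_cast; ring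
        rw [← pow_two, ← Real.rpow_natCast E 2, ← Real.rpow_mul hE0, e4]
      rw [e1, ← hE, h3] at h1
      have h4 : 1 ≤ (y0 + 1) ^ c * ((z : ℝ) + 1) ^ (-c) := by
        have h5 : (y0 + 1) ^ (-c) ≤ ((z : ℝ) + 1) ^ (-c) :=
          Real.rpow_le_rpow_of_nonpos hz1 (by linarith) (by linarith)
        have h6 : (y0 + 1) ^ c * (y0 + 1) ^ (-c) = 1 := by
          rw [← Real.rpow_add (by linarith)]
          simp
        calc (1 : ℝ) = (y0 + 1) ^ c * (y0 + 1) ^ (-c) := h6.symm
          _ ≤ _ := mul_le_mul_of_nonneg_left h5 (by positivity)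
      have h5 : 0 ≤ C0 * 2 ^ c := by positivity
      calc En M (t * L) (bad M (xth ((1 + η) / 2)) ps (ind B))
          ≤ C1 * (t * L) ^ η * E ^ (1 + η) := h2.trans h1
        _ = C1 * ((t * L) ^ η * E ^ (1 + η)) * 1 := by ring
        _ ≤ C1 * ((t * L) ^ η * E ^ (1 + η)) * ((y0 + 1) ^ c * ((z : ℝ) + 1) ^ (-c)) := by
            refine mul_le_mul_of_nonneg_left h4 (by positivity)
        _ = (C1 * (y0 + 1) ^ c) * ((t * L) ^ η * ((z : ℝ) + 1) ^ (-c) * E ^ (1 + η)) := by ring
        _ ≤ _ := by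
            refine mul_le_mul_of_nonneg_right (by linarith) (by positivity)
  have e3 : L * (L ^ η * E ^ (1 + η)) = (L * E) ^ (1 + η) := by
    rw [Real.mul_rpow hL.le hE0, Real.rpow_add hL, Real.rpow_one]
    ring
  calc L * En M (t * L) (bad M (xth ((1 + η) / 2)) ps (ind B))
      ≤ L * ((C0 * 2 ^ c + C1 * (y0 + 1) ^ c) *
          ((t * L) ^ η * ((z : ℝ) + 1) ^ (-c) * E ^ (1 + η))) :=
        mul_le_mul_of_nonneg_left key hL.le
    _ = (C0 * 2 ^ c + C1 * (y0 + 1) ^ c) * t ^ η * ((z : ℝ) + 1) ^ (-c) *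
          (L * (L ^ η * E ^ (1 + η))) := by
        rw [Real.mul_rpow ht.le hL.le]
        ring
    _ = _ := by rw [e3]

/-- **The F-Λ structure with everything**: one `F` per `(M, B)`; `A, s` depend on `η` only,
`(1 + η) s = 1 + η / 2`. -/
theorem flam_full {η : ℝ} (hη : 0 < η) (hη1 : η < 1) :
    ∃ c : ℝ, 0 < c ∧ ∃ C : ℝ, 0 ≤ C ∧ ∃ A : ℝ, 0 < A ∧ ∃ s : ℝ, 3 / 4 < s ∧ s < 1 ∧
      (1 + η) * s = 1 + η / 2 ∧
      ∀ (M : ℕ) (B : Finset ℕ), 0 < M → B ⊆ M.divisors → ∃ F : FL M,
        (∀ (L t : ℝ) (z : ℕ), 0 < L → 0 < t → badEn F B L t z ≤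
          C * t ^ η * ((z : ℝ) + 1) ^ (-c) * (L * ∑ b ∈ B, nu M b) ^ (1 + η)) ∧
        NodeShares F B A s ∧ Shares F B A s := by
  have hκ : 1 / 2 < (1 + η) / 2 := by linarith
  have hκ1 : (1 + η) / 2 < 1 := by linarith
  obtain ⟨c, hc, C, hC, h⟩ := bad_mk hη hη1
  refine ⟨c, hc, C, hC, A0 ((1 + η) / 2), A0_pos (by linarith), se ((1 + η) / 2), se_gt hκ hκ1,
    se_lt hκ hκ1, ?_, fun M B hM hB => ?_⟩
  · unfold se dl
    have h1 : 1 - (1 + η) / 2 ≠ 0 := by intro h0; linarith
    have h2 : (1 + η) / 2 ≠ 0 := by intro h0; linarith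
    have h3 : (1 - (1 + η) / 2) * (2 * ((1 + η) / 2) - 1) / (4 * ((1 + η) / 2)) /
        (1 - (1 + η) / 2) = (2 * ((1 + η) / 2) - 1) / (4 * ((1 + η) / 2)) := by
      rw [mul_div_assoc, mul_div_cancel_left₀ _ h1]
    rw [h3]
    have h4 : 1 + η ≠ 0 := by intro h0; linarith
    field_simp
    ring
  · exact ⟨mkFL hM (xth ((1 + η) / 2)) (ind B) (ind_nonneg B), h M B hM hB,
      nodeShares_mk hκ hM hB, shares_mk hκ hκ1 hM hB⟩

end Crest.Agent.R4C.FLShx326
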