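import Crest.Agent.R4C.Rule_945
import Crest.Agent.R4C.FLSh_326

/-!
# Row 4: THE SPINE, definitions and `KCb` from the class bounds (helper946)

* `Ev Q` : "`Q cp η A m0` for all small `cp`, then all small `η`, then all large `A`, then all
  large `m0`" (nested; closed under `and`, `mono`; `Ev.exists`).
  `E m = 2^(cp m)`, `cut m = 2^(A m)`, `δ = 1/(4A)`, `ε = 1/20`, first scale `2^m0`.
* `ParOf` : the parameters of the rule of `Rule_945`; `lamOf` : the labels.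
* `Setup` : everything we know about `M, B, L` and the structure `F : FL M` of `B`.
* `EnR` : energy (with boost) of a class of unkilled linked offsets.
* `ClsOK γ R` : the class `R` has bounded energy; `CoverOK γ Rs` : the classes `Rs` cover.
* **`KCb_of`** : `CoverOK` and `ClsOK` for all classes imply `KCb γ`.
-/

set_option autoImplicit false

open Finset

namespace Crest.Agent.R4C.Spinex946

open Crest.Agent.R4C.Basex935 Crest.Agent.R4C.CrCoinx935 Crest.Agent.R4C.Bridgex882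
  Crest.Agent.R4C.FLDefx935 Crest.Agent.R4C.Rulex945 Crest.Agent.R4C.FLShx326
open Crest.Agent.R4C.FLExx326 (ind)
open Crest.Agent.R4C.PrefixMx882 (mem_free)

/-! ### nested eventual constants -/

/-- for all small `cp`, all small `η`, all large `A`, all large `m0` (in this order) -/
def Ev (Q : ℝ → ℝ → ℕ → ℕ → Prop) : Prop :=
  ∃ c0 : ℝ, 0 < c0 ∧ ∀ cp : ℝ, 0 < cp → cp ≤ c0 →
    ∃ η0 : ℝ, 0 < η0 ∧ ∀ η : ℝ, 0 < η → η ≤ η0 →
      ∃ A0 : ℕ, ∀ A : ℕ, A0 ≤ A → ∃ m1 : ℕ, ∀ m0 : ℕ, m1 ≤ m0 → Q cp η A m0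

namespace Ev

variable {Q R : ℝ → ℝ → ℕ → ℕ → Prop}

lemma mono (h : Ev Q) (hQ : ∀ cp η A m0, Q cp η A m0 → R cp η A m0) : Ev R := by
  obtain ⟨c0, hc0, h⟩ := h
  refine ⟨c0, hc0, fun cp h1 h2 => ?_⟩
  obtain ⟨η0, hη0, h⟩ := h cp h1 h2
  refine ⟨η0, hη0, fun η h3 h4 => ?_⟩
  obtain ⟨A0, h⟩ := h η h3 h4
  refine ⟨A0, fun A h5 => ?_⟩
  obtain ⟨m1, h⟩ := h A h5
  exact ⟨m1, fun m0 h6 => hQ _ _ _ _ (h m0 h6)⟩

lemma and (h : Ev Q) (h' : Ev R) : Ev (fun cp η A m0 => Q cp η A m0 ∧ R cp η A m0) := by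
  obtain ⟨c0, hc0, h⟩ := h
  obtain ⟨c0', hc0', h'⟩ := h'
  refine ⟨min c0 c0', lt_min hc0 hc0', fun cp h1 h2 => ?_⟩
  obtain ⟨η0, hη0, h⟩ := h cp h1 (h2.trans (min_le_left _ _))
  obtain ⟨η0', hη0', h'⟩ := h' cp h1 (h2.trans (min_le_right _ _))
  refine ⟨min η0 η0', lt_min hη0 hη0', fun η h3 h4 => ?_⟩
  obtain ⟨A0, h⟩ := h η h3 (h4.trans (min_le_left _ _))
  obtain ⟨A0', h'⟩ := h' η h3 (h4.trans (min_le_right _ _))
  refine ⟨max A0 A0', fun A h5 => ?_⟩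
  obtain ⟨m1, h⟩ := h A ((le_max_left _ _).trans h5)
  obtain ⟨m1', h'⟩ := h' A ((le_max_right _ _).trans h5)
  exact ⟨max m1 m1', fun m0 h6 =>
    ⟨h m0 ((le_max_left _ _).trans h6), h' m0 ((le_max_right _ _).trans h6)⟩⟩

lemma of_forall (h : ∀ cp η A m0, Q cp η A m0) : Ev Q :=
  ⟨1, one_pos, fun cp _ _ => ⟨1, one_pos, fun η _ _ => ⟨0, fun A _ => ⟨0, fun m0 _ =>
    h cp η A m0⟩⟩⟩⟩

/-- conditions on the constants themselves -/
lemma basic : Ev (fun cp η A m0 => 0 < cp ∧ cp ≤ 1 / 200 ∧ 0 < η ∧ η ≤ cp / 200 ∧ η < 1 ∧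
    1 ≤ A ∧ 1 ≤ m0) := by
  refine ⟨1 / 200, by norm_num, fun cp h1 h2 => ⟨cp / 200, by positivity, fun η h3 h4 =>
    ⟨1, fun A h5 => ⟨1, fun m0 h6 => ⟨h1, h2, h3, h4, ?_, h5, h6⟩⟩⟩⟩⟩
  have : cp / 200 < 1 := by linarith
  linarith

/-- smallness of `cp` -/
lemma cp_le {c : ℝ} (hc : 0 < c) : Ev (fun cp _ _ _ => cp ≤ c) :=
  ⟨c, hc, fun cp _ h => ⟨1, one_pos, fun _ _ _ => ⟨0, fun _ _ => ⟨0, fun _ _ => h⟩⟩⟩⟩

/-- smallness of `η` in terms of `cp` -/
lemma eta_le {f : ℝ → ℝ} (hf : ∀ cp, 0 < cp → 0 < f cp) : Ev (fun cp η _ _ => η ≤ f cp) :=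
  ⟨1, one_pos, fun cp h _ => ⟨f cp, hf cp h, fun _ _ h => ⟨0, fun _ _ => ⟨0, fun _ _ => h⟩⟩⟩⟩

/-- largeness of `A` in terms of `cp, η` -/
lemma le_A (f : ℝ → ℝ → ℝ) : Ev (fun cp η A _ => f cp η ≤ A) :=
  ⟨1, one_pos, fun cp _ _ => ⟨1, one_pos, fun η _ _ => ⟨⌈f cp η⌉₊, fun A h => ⟨0, fun _ _ =>
    (Nat.le_ceil _).trans (by exact_mod_cast h)⟩⟩⟩⟩

/-- largeness of `m0` in terms of `cp, η, A` -/
lemma le_m0 (f : ℝ → ℝ → ℕ → ℝ) : Ev (fun cp η A m0 => f cp η A ≤ m0) :=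
  ⟨1, one_pos, fun cp _ _ => ⟨1, one_pos, fun η _ _ => ⟨0, fun A _ => ⟨⌈f cp η A⌉₊, fun m0 h =>
    (Nat.le_ceil _).trans (by exact_mod_cast h)⟩⟩⟩⟩

/-- conditions eventually true in `m0` -/
lemma of_m0 {P : ℝ → ℝ → ℕ → ℕ → Prop}
    (h : ∀ cp η A, 0 < cp → 0 < η → ∃ m1 : ℕ, ∀ m0 : ℕ, m1 ≤ m0 → P cp η A m0) : Ev P :=
  ⟨1, one_pos, fun cp h1 _ => ⟨1, one_pos, fun η h2 _ => ⟨0, fun A _ => h cp η A h1 h2⟩⟩⟩

lemma «exists» (h : Ev Q) : ∃ cp η A m0, 0 < cp ∧ 0 < η ∧ η < 1 ∧ Q cp η A m0 := by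
  obtain ⟨c0, hc0, h⟩ := h.and basic
  obtain ⟨η0, hη0, h⟩ := h c0 hc0 le_rfl
  obtain ⟨A0, h⟩ := h η0 hη0 le_rfl
  obtain ⟨m1, h⟩ := h A0 le_rfl
  obtain ⟨h1, h2⟩ := h m1 le_rfl
  exact ⟨c0, η0, A0, m1, h2.1, h2.2.2.1, h2.2.2.2.2.1, h1⟩

/-- finitely many conditions -/
lemma forall_mem {ι : Type*} (s : List ι) {Q : ι → ℝ → ℝ → ℕ → ℕ → Prop}
    (h : ∀ i ∈ s, Ev (Q i)) : Ev (fun cp η A m0 => ∀ i ∈ s, Q i cp η A m0) := by
  induction s with
  | nil => exact of_forall fun cp η A m0 i hi => absurd hi (by simp)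
  | cons a s ih =>
    refine ((h a (by simp)).and (ih fun i hi => h i (by simp [hi]))).mono ?_
    rintro cp η A m0 ⟨h1, h2⟩ i hi
    rcases List.mem_cons.1 hi with rfl | hi
    · exact h1
    · exact h2 i hi

end Ev

/-! ### the rule -/

/-- the parameters of the rule -/
noncomputable def ParOf (cp : ℝ) (A m0 : ℕ) (γ L : ℝ) (M : ℕ) (B : Finset ℕ) : Par where
  cut := fun m => 2 ^ (A * m)
  Y := fun i => 2 ^ i
  γ := γ
  L := L
  E := fun m => (2 : ℝ) ^ (cp * m)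
  m0 := m0
  N := ⌈(M : ℝ) / L⌉₊
  thr := thrS M (ind B) (fun i => 2 ^ i) (1 / (4 * A)) (1 / 20)

/-- the labels -/
noncomputable def lamOf (cp : ℝ) (A m0 : ℕ) (γ L : ℝ) (M : ℕ) (B : Finset ℕ) (F : FL M) :
    ℕ → ℕ → Option ℤ := lamR F (ParOf cp A m0 γ L M B)

/-! ### the tree -/

/-- the constants of `flam_full` for the exponent `η` -/
structure TreeC (η c C A s : ℝ) : Prop where
  c_pos : 0 < c
  C_nonneg : 0 ≤ C
  A_pos : 0 < A
  s_gt : 3 / 4 < s
  s_lt : s < 1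
  eq : (1 + η) * s = 1 + η / 2

theorem exists_tree (η : ℝ) : ∃ c C A s : ℝ, 0 < η → η < 1 → TreeC η c C A s ∧
    ∀ (M : ℕ) (B : Finset ℕ), 0 < M → B ⊆ M.divisors → ∃ F : FL M,
      (∀ (L t : ℝ) (z : ℕ), 0 < L → 0 < t → badEn F B L t z ≤
        C * t ^ η * ((z : ℝ) + 1) ^ (-c) * (L * ∑ b ∈ B, nu M b) ^ (1 + η)) ∧
      NodeShares F B A s ∧ Shares F B A s := by
  by_cases h : 0 < η ∧ η < 1
  · obtain ⟨c, hc, C, hC, A, hA, s, h1, h2, h3, h4⟩ := flam_full h.1 h.2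
    exact ⟨c, C, A, s, fun _ _ => ⟨⟨hc, hC, hA, h1, h2, h3⟩, h4⟩⟩
  · exact ⟨0, 0, 0, 0, fun h1 h2 => absurd ⟨h1, h2⟩ h⟩

/-- `badEn ≤ bC η t^η (x+1)^(-bc η) m^(1+η)` -/
noncomputable def bc (η : ℝ) : ℝ := (exists_tree η).choose
/-- see `bc` -/
noncomputable def bC (η : ℝ) : ℝ := (exists_tree η).choose_spec.choose
/-- share constant -/
noncomputable def sA (η : ℝ) : ℝ := (exists_tree η).choose_spec.choose_spec.choose
/-- share exponent -/
noncomputable def sE (η : ℝ) : ℝ := (exists_tree η).choose_spec.choose_spec.choose_spec.choose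

theorem tree_spec {η : ℝ} (h1 : 0 < η) (h2 : η < 1) : TreeC η (bc η) (bC η) (sA η) (sE η) ∧
    ∀ (M : ℕ) (B : Finset ℕ), 0 < M → B ⊆ M.divisors → ∃ F : FL M,
      (∀ (L t : ℝ) (z : ℕ), 0 < L → 0 < t → badEn F B L t z ≤
        bC η * t ^ η * ((z : ℝ) + 1) ^ (-bc η) * (L * ∑ b ∈ B, nu M b) ^ (1 + η)) ∧
      NodeShares F B (sA η) (sE η) ∧ Shares F B (sA η) (sE η) :=
  (exists_tree η).choose_spec.choose_spec.choose_spec.choose_spec h1 h2

/-! ### the set-up -/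

/-- everything known about `M, B, L` and the structure `F` of `B` -/
structure Setup (η : ℝ) (L : ℝ) (M : ℕ) (B : Finset ℕ) (F : FL M) : Prop where
  hM : 0 < M
  hB : B ⊆ M.divisors
  hL : 0 < L
  mass : L * ∑ b ∈ B, nu M b ≤ 1
  small : ∀ b ∈ B, L ≤ b
  bad : ∀ (t : ℝ) (x : ℕ), 0 < t → badEn F B L t x ≤
    bC η * t ^ η * ((x : ℝ) + 1) ^ (-bc η) * (L * ∑ b ∈ B, nu M b) ^ (1 + η)
  node : NodeShares F B (sA η) (sE η)
  shares : Shares F B (sA η) (sE η)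

namespace Setup

variable {η L : ℝ} {M : ℕ} {B : Finset ℕ} {F : FL M}

lemma mass_nonneg (S : Setup η L M B F) : 0 ≤ L * ∑ b ∈ B, nu M b :=
  mul_nonneg S.hL.le (Finset.sum_nonneg fun b _ => nu_nonneg M b)

lemma dvd (S : Setup η L M B F) {b : ℕ} (hb : b ∈ B) : b ∣ M :=
  Nat.dvd_of_mem_divisors (S.hB hb)

lemma pos (S : Setup η L M B F) {b : ℕ} (hb : b ∈ B) : 0 < b :=
  Nat.pos_of_dvd_of_pos (S.dvd hb) S.hM

/-- `m^(1+η) ≤ m` -/
lemma mass_pow (S : Setup η L M B F) (hη : 0 ≤ η) :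
    (L * ∑ b ∈ B, nu M b) ^ (1 + η) ≤ L * ∑ b ∈ B, nu M b := by
  have h0 := S.mass_nonneg
  rcases h0.eq_or_lt with h | h
  · rw [← h, Real.zero_rpow (by linarith)]
  · calc (L * ∑ b ∈ B, nu M b) ^ (1 + η) ≤ (L * ∑ b ∈ B, nu M b) ^ (1 : ℝ) :=
        Real.rpow_le_rpow_of_exponent_ge h S.mass (by linarith)
      _ = _ := Real.rpow_one _

/-- the bad energy, linear form -/
lemma bad_lin (S : Setup η L M B F) (hη : 0 < η) (hη1 : η < 1) (t : ℝ) (x : ℕ) (ht : 0 < t) :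
    badEn F B L t x ≤ bC η * t ^ η * ((x : ℝ) + 1) ^ (-bc η) * (L * ∑ b ∈ B, nu M b) := by
  refine (S.bad t x ht).trans (mul_le_mul_of_nonneg_left (S.mass_pow hη.le) ?_)
  have := (tree_spec hη hη1).1.C_nonneg
  positivity

end Setup

/-! ### classes -/

open Classical in
/-- energy, with the boost, of the unkilled linked offsets of the class `R` -/
noncomputable def EnR (γ L : ℝ) (M : ℕ) (B : Finset ℕ) (lam : ℕ → ℕ → Option ℤ)
    (R : ℕ → ℕ → ℤ → Prop) : ℝ :=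
  L * ∑ b ∈ B, ∑ c ∈ B.erase b, (Nat.gcd b c : ℝ) * nu M b * nu M c *
    ∑ h ∈ (Lnk γ L b c).filter (fun h => ¬ killedB lam b c h ∧ R b c h), boostB M lam b c h

/-- a class of offsets of pairs, for all values of the constants and all data -/
abbrev Cls := ℝ → ℝ → ℕ → ℕ → ℝ → ∀ M : ℕ, Finset ℕ → FL M → ℕ → ℕ → ℤ → Prop

/-- the class has bounded energy -/
def ClsOK (γ : ℝ) (R : Cls) : Prop := Ev fun cp η A m0 => ∃ C : ℝ,
  ∀ (L : ℝ) (M : ℕ) (B : Finset ℕ) (F : FL M), Setup η L M B F →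
    EnR γ L M B (lamOf cp A m0 γ L M B F) (R cp η A m0 L M B F) ≤ C

/-- the classes cover all unkilled linked offsets of different elements of `B` -/
def CoverOK (γ : ℝ) (Rs : List Cls) : Prop := Ev fun cp η A m0 =>
  ∀ (L : ℝ) (M : ℕ) (B : Finset ℕ) (F : FL M), Setup η L M B F →
    ∀ b ∈ B, ∀ c ∈ B, b ≠ c → ∀ h ∈ Lnk γ L b c,
      ¬ killedB (lamOf cp A m0 γ L M B F) b c h → ∃ R ∈ Rs, R cp η A m0 L M B F b c h

lemma boostB_nonneg (M : ℕ) (lam : ℕ → ℕ → Option ℤ) (b c : ℕ) (h : ℤ) :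
    0 ≤ boostB M lam b c h := by
  classical
  unfold boostB
  refine Finset.prod_nonneg fun p hp => ?_
  split_ifs
  · have hpp : p.Prime := by
      rcases Finset.mem_union.1 hp with hp | hp
      · exact Nat.prime_of_mem_primeFactors (mem_free.1 hp).1
      · exact Nat.prime_of_mem_primeFactors (mem_free.1 hp).1
    have h2 : (2 : ℝ) ≤ p := by exact_mod_cast hpp.two_le
    have h3 : 1 / (p : ℝ) ≤ 1 / 2 := one_div_le_one_div_of_le (by norm_num) h2
    exact inv_nonneg.2 (by linarith)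
  · exact zero_le_one

lemma EnR_nonneg {γ L : ℝ} (hL : 0 ≤ L) (M : ℕ) (B : Finset ℕ) (lam : ℕ → ℕ → Option ℤ)
    (R : ℕ → ℕ → ℤ → Prop) : 0 ≤ EnR γ L M B lam R := by
  classical
  unfold EnR
  refine mul_nonneg hL (Finset.sum_nonneg fun b _ => Finset.sum_nonneg fun c _ =>
    mul_nonneg (mul_nonneg (mul_nonneg (by positivity) (nu_nonneg _ _)) (nu_nonneg _ _))
      (Finset.sum_nonneg fun h _ => boostB_nonneg _ _ _ _ _))

/-- **cover**: the total energy is at most the sum of the energies of the classes -/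
theorem total_le {γ L : ℝ} (hL : 0 ≤ L) {M : ℕ} {B : Finset ℕ} {lam : ℕ → ℕ → Option ℤ}
    (Rs : List (ℕ → ℕ → ℤ → Prop))
    (hc : ∀ b ∈ B, ∀ c ∈ B, b ≠ c → ∀ h ∈ Lnk γ L b c, ¬ killedB lam b c h →
      ∃ R ∈ Rs, R b c h) :
    L * ∑ b ∈ B, ∑ c ∈ B.erase b, EnB γ L M lam b c ≤ (Rs.map (EnR γ L M B lam)).sum := by
  classical
  -- the weighted sum over a pair
  have key : ∀ (Rs : List (ℕ → ℕ → ℤ → Prop)) (b c : ℕ) (T : Finset ℤ),
      (∀ h ∈ T, ¬ killedB lam b c h → ∃ R ∈ Rs, R b c h) →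
      ∑ h ∈ T.filter (fun h => ¬ killedB lam b c h), boostB M lam b c h ≤
        (Rs.map (fun R => ∑ h ∈ T.filter (fun h => ¬ killedB lam b c h ∧ R b c h),
          boostB M lam b c h)).sum := by
    intro Rs
    induction Rs with
    | nil =>
      intro b c T hT
      have : T.filter (fun h => ¬ killedB lam b c h) = ∅ := by
        rw [Finset.filter_eq_empty_iff]
        intro h hh hk
        obtain ⟨R, hR, _⟩ := hT h hh hk
        simp at hR
      rw [this]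
      simp
    | cons R Rs ih =>
      intro b c T hT
      rw [List.map_cons, List.sum_cons]
      have h1 := ih b c (T.filter (fun h => ¬ R b c h)) (fun h hh hk => by
        rw [Finset.mem_filter] at hh
        obtain ⟨R', hR', h2⟩ := hT h hh.1 hk
        rcases List.mem_cons.1 hR' with rfl | h3
        · exact absurd h2 hh.2
        · exact ⟨R', h3, h2⟩)
      have h2 : ∑ h ∈ T.filter (fun h => ¬ killedB lam b c h), boostB M lam b c h =
          ∑ h ∈ T.filter (fun h => ¬ killedB lam b c h ∧ R b c h), boostB M lam b c h +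
          ∑ h ∈ (T.filter (fun h => ¬ R b c h)).filter (fun h => ¬ killedB lam b c h),
            boostB M lam b c h := by
        rw [← Finset.sum_filter_add_sum_filter_not (T.filter (fun h => ¬ killedB lam b c h))
          (fun h => R b c h)]
        congr 1
        · rw [Finset.filter_filter]
        · refine Finset.sum_congr ?_ fun _ _ => rfl
          ext h
          simp only [Finset.mem_filter]
          tauto
      rw [h2]
      have h3 : (Rs.map (fun R' => ∑ h ∈ (T.filter (fun h => ¬ R b c h)).filter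
            (fun h => ¬ killedB lam b c h ∧ R' b c h), boostB M lam b c h)).sum ≤
          (Rs.map (fun R' => ∑ h ∈ T.filter (fun h => ¬ killedB lam b c h ∧ R' b c h),
            boostB M lam b c h)).sum := by
        refine List.sum_le_sum fun R' _ => ?_
        refine Finset.sum_le_sum_of_subset_of_nonneg ?_ fun h _ _ => boostB_nonneg _ _ _ _ _
        intro h hh
        simp only [Finset.mem_filter] at hh ⊢
        exact ⟨hh.1.1, hh.2⟩
      linarith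
  have h1 : ∀ b ∈ B, ∀ c ∈ B.erase b, EnB γ L M lam b c ≤
      (Rs.map (fun R => (Nat.gcd b c : ℝ) * nu M b * nu M c *
        ∑ h ∈ (Lnk γ L b c).filter (fun h => ¬ killedB lam b c h ∧ R b c h),
          boostB M lam b c h)).sum := by
    intro b hb c hc'
    have hcB := Finset.mem_of_mem_erase hc'
    have hne : b ≠ c := fun h => (Finset.ne_of_mem_erase hc') h.symm
    unfold EnB
    have h2 := key Rs b c (Lnk γ L b c) (fun h hh hk => hc b hb c hcB hne h hh hk)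
    have h3 : 0 ≤ (Nat.gcd b c : ℝ) * nu M b * nu M c :=
      mul_nonneg (mul_nonneg (by positivity) (nu_nonneg _ _)) (nu_nonneg _ _)
    refine (mul_le_mul_of_nonneg_left h2 h3).trans (le_of_eq ?_)
    rw [List.sum_map_mul_left]
  have h4 : ∀ (Rs : List (ℕ → ℕ → ℤ → Prop)),
      L * ∑ b ∈ B, ∑ c ∈ B.erase b, (Rs.map (fun R => (Nat.gcd b c : ℝ) * nu M b * nu M c *
        ∑ h ∈ (Lnk γ L b c).filter (fun h => ¬ killedB lam b c h ∧ R b c h),
          boostB M lam b c h)).sum = (Rs.map (EnR γ L M B lam)).sum := by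
    intro Rs
    induction Rs with
    | nil => simp
    | cons R Rs ih =>
      simp only [List.map_cons, List.sum_cons]
      rw [← ih]
      unfold EnR
      simp only [Finset.sum_add_distrib, mul_add]
  rw [← h4]
  exact mul_le_mul_of_nonneg_left (Finset.sum_le_sum fun b hb =>
    Finset.sum_le_sum fun c hc' => h1 b hb c hc') hL

/-- **THE SPINE** -/
theorem KCb_of {γ : ℝ} (Rs : List Cls) (hcov : CoverOK γ Rs) (hcls : ∀ R ∈ Rs, ClsOK γ R) :
    KCb γ := by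
  classical
  obtain ⟨cp, η, A, m0, _, hη, hη1, h1, h2⟩ := (hcov.and (Ev.forall_mem Rs hcls)).exists
  -- a common constant
  have h3 : ∃ C : ℝ, ∀ (L : ℝ) (M : ℕ) (B : Finset ℕ) (F : FL M), Setup η L M B F →
      ((Rs.map (fun R => R cp η A m0 L M B F)).map
        (EnR γ L M B (lamOf cp A m0 γ L M B F))).sum ≤ C := by
    clear h1 hcov hcls
    induction Rs with
    | nil => exact ⟨0, fun L M B F _ => by simp⟩
    | cons R Rs ih =>
      obtain ⟨C1, hC1⟩ := h2 R (by simp)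
      obtain ⟨C2, hC2⟩ := ih (fun R' hR' => h2 R' (by simp [hR']))
      refine ⟨C1 + C2, fun L M B F S => ?_⟩
      simp only [List.map_cons, List.sum_cons]
      exact add_le_add (hC1 L M B F S) (hC2 L M B F S)
  obtain ⟨C, hC⟩ := h3
  refine ⟨1 / 2, by norm_num, C, 1, one_pos, 0, fun M B L hM hB hL _ hs hm1 hm2 => ?_⟩
  obtain ⟨F, hbad, hnode, hsh⟩ := (tree_spec hη hη1).2 M B hM hB
  have S : Setup η L M B F :=
    ⟨hM, hB, hL, hm2, fun b hb => by have := hs b hb; linarith,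
      fun t x ht => hbad L t x hL ht, hnode, hsh⟩
  refine ⟨B, subset_rfl, lamOf cp A m0 γ L M B F, hm1, ?_⟩
  refine (total_le hL.le (Rs.map (fun R => R cp η A m0 L M B F))
    (fun b hb c hc hne h hh hk => ?_)).trans (hC L M B F S)
  obtain ⟨R, hR, hR'⟩ := h1 L M B F S b hb c hc hne h hh hk
  exact ⟨_, List.mem_map.2 ⟨R, hR, rfl⟩, hR'⟩

end Crest.Agent.R4C.Spinex946
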