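import Crest.Agent.R4C.SplitDef_945
import Crest.Agent.R4C.SpineDef_946
import Crest.Agent.R4C.LClass_662
import Crest.Agent.R4C.HighW_899
import Crest.Agent.R4C.SamePt_217
import Crest.Agent.R4C.LDec_500
import Crest.Agent.R4C.B1Lev_52
import Crest.Agent.R4C.LBx_500

/-!
# Row 4, CLASS (L) TOTAL: the boxes (helper662)

Literal objects of the note "CLow: list of arrows".

* `Bx` : box `(n, n', v, j, j')` (depths, block, twists);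
* `ca`, `ca'`, `ci` : classes of the cofactors below the cut and window of the low gcd;
* `LB F P w ε jB x t b c h f f' p` : a pair of class (L) at the level `t`, light member `b`
  (it misses `p`), good at the block start `Xj (jB t)`, in the box `x`;
* `Arr…` : the arrows, as `Prop`s (hypotheses of the final composition).
-/

set_option autoImplicit false

open Finset

namespace Crest.Agent.R4C.LBoxDefx662

open Crest.Agent.R4C.Basex935 Crest.Agent.R4C.Cutx50 Crest.Agent.R4C.FLDefx935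
  Crest.Agent.R4C.Rulex945 Crest.Agent.R4C.Splitx945 Crest.Agent.R4C.Bridgex882
  Crest.Agent.R4C.S7dx14 Crest.Agent.R4C.BoostCx972 Crest.Agent.R4C.PureL2x232
  Crest.Agent.R4C.Keptx559 Crest.Agent.R4C.LClassx662 Crest.Agent.R4C.LowLx899
  Crest.Agent.R4C.NonPureBlkx559
open Crest.Agent.R4C.LBxx500 (tw)

/-- a box: `2^n ≤ dep b < 2^(n+1)`, `2^n' ≤ dep c < 2^(n'+1)`, cut `y = P.Y v`, twists
`2^j ≤ κ < 2^(j+1)`, `2^j' ≤ κ' < 2^(j'+1)` -/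
structure Bx where
  n : ℕ
  n' : ℕ
  v : ℕ
  j : ℕ
  j' : ℕ

/-- the larger depth exponent -/
def Bx.mx (x : Bx) : ℕ := max x.n x.n'

/-- class of the cofactor of `b` below the cut `y` -/
def ca (y b c : ℕ) : ℕ := Nat.log 2 (low y b / Nat.gcd (low y b) (low y c))

/-- class of the cofactor of `c` below the cut `y` -/
def ca' (y b c : ℕ) : ℕ := Nat.log 2 (low y c / Nat.gcd (low y b) (low y c))

/-- window of the low gcd -/
def ci (y b c : ℕ) : ℕ := Nat.log 2 (Nat.gcd (low y b) (low y c))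

section defs

variable {M : ℕ} (F : FL M) (P : Par)

/-- **a pair of class (L), light member `b`** -/
structure LB (w : ℕ → ℝ) (δ : ℝ) (jB : ℕ → ℕ) (x : Bx) (t b c : ℕ) (h : ℤ) (f f' : ℚ)
    (p : ℕ) : Prop where
  lp : LP F P t b c h f f' p
  gd : F.good (Xj (jB t)) b c
  left : p ∣ c / Nat.gcd b c ∧ p ∣ alC c b f' f ∧ P.thr b (P.blk p) < dep F P t b f
  blk : P.blk p = x.v
  dn : (2 : ℝ) ^ x.n ≤ dep F P t b f
  dn1 : dep F P t b f < 2 ^ (x.n + 1)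
  dn' : (2 : ℝ) ^ x.n' ≤ dep F P t c f'
  dn1' : dep F P t c f' < 2 ^ (x.n' + 1)
  tj : 2 ^ x.j ≤ tw F P (P.Y x.v) t b c f f'
  tj1 : tw F P (P.Y x.v) t b c f f' < 2 ^ (x.j + 1)
  tj' : 2 ^ x.j' ≤ tw F P (P.Y x.v) t c b f' f
  tj1' : tw F P (P.Y x.v) t c b f' f < 2 ^ (x.j' + 1)
  /-- the block is small -/
  vle : (P.Y (x.v - 1) : ℝ) ^ δ < 2 ^ (x.n + 1)
  /-- `b` is light at its block and below (`ε = 1/20`) -/
  ths : ThS M w P.Y b x.v ^ ((1 : ℝ) / 20) < dep F P t b f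
  /-- consequence of `ths` -/
  light : (low (P.Y x.v) b : ℝ) * mass M w (P.Y x.v) (upp (P.Y x.v) b) ≤ (2 ^ (x.n + 1)) ^ 20

/-- number of the box -/
def Bx.N (x : Bx) : ℕ := 2 ^ (x.mx + 1)

/-- **ARROW A (words)** : `R = N ^ 3`, `X = 2^(i+a+1) N` -/
def ArrA (hM : 0 < M) (w : ℕ → ℝ) (δ : ℝ) (jB : ℕ → ℕ) (j0 : ℕ) : Prop :=
  ∀ (x : Bx) (t b c : ℕ) (h : ℤ) (f f' : ℚ) (p : ℕ), b ∣ M → c ∣ M → h ∈ Lnk P.γ P.L b c →
    LB F P w δ jB x t b c h f f' p →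
    ∃ z0 z0' : ℕ,
      upp (P.Y x.v) b = tw F P (P.Y x.v) t b c f f' * z0 ∧
      upp (P.Y x.v) c = tw F P (P.Y x.v) t c b f' f * z0' ∧
      tw F P (P.Y x.v) t b c f f' ∈ KD F P.γ P.L
        (2 ^ (ci (P.Y x.v) b c + ca (P.Y x.v) b c + 1) * x.N) (x.N ^ 3) x.N P.cut
        (LDecx500.lb P) (range (P.N + 1)) (2 ^ x.j) z0 ∧
      tw F P (P.Y x.v) t c b f' f ∈ KD F P.γ P.L
        (2 ^ (ci (P.Y x.v) b c + ca' (P.Y x.v) b c + 1) * x.N) (x.N ^ 3) x.N P.cut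
        (LDecx500.lb P) (range (P.N + 1)) (2 ^ x.j') z0' ∧
      Nat.gcd (upp (P.Y x.v) b) (upp (P.Y x.v) c) ≤ Nat.gcd z0 z0' ∧
      (∀ q, q.Prime → P.Y x.v < q → q ≤ P.cut t → z0.factorization q = z0'.factorization q) ∧
      KZ (hiFL hM (P.Y x.v) F) j0 z0 z0'

/-- the low relation of a box over the words `z, z'`, classes `a, a'`, window `i`; `R b c h` = the
class of offsets (unkilled, ...) -/
def QL (w : ℕ → ℝ) (δ : ℝ) (jB : ℕ → ℕ) (x : Bx) (a a' i z z' u u' : ℕ) : Prop :=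
  ∃ (b c : ℕ) (h : ℤ) (t : ℕ) (f f' : ℚ) (p : ℕ), b ∣ M ∧ c ∣ M ∧ h ∈ Lnk P.γ P.L b c ∧
    LB F P w δ jB x t b c h f f' p ∧ upp (P.Y x.v) b = z ∧ upp (P.Y x.v) c = z' ∧
    ca (P.Y x.v) b c = a ∧ ca' (P.Y x.v) b c = a' ∧ ci (P.Y x.v) b c = i ∧
    u = low (P.Y x.v) b / Nat.gcd (low (P.Y x.v) b) (low (P.Y x.v) c) ∧
    u' = low (P.Y x.v) c / Nat.gcd (low (P.Y x.v) b) (low (P.Y x.v) c)

/-- the density of a box -/
noncomputable def tauB (x : Bx) : ℝ :=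
  min 1 ((1 + ((x.v : ℝ) + 1) * ((x.mx : ℝ) + 1)) ^ 2 *
    ((2 : ℝ) ^ (x.j + x.j') * ((2 : ℝ) ^ x.mx) ^ (-(1 : ℝ) / 3)))

/-- **ARROW B (density)** -/
def ArrB (w : ℕ → ℝ) (δ : ℝ) (jB : ℕ → ℕ) (C : ℝ) : Prop :=
  ∀ (x : Bx) (a a' i z z' : ℕ), z ∣ upp (P.Y x.v) M → z' ∣ upp (P.Y x.v) M →
    MXlowx808.dens (low (P.Y x.v) M) (SamePtx217.KQ (QL F P w δ jB x a a' i z z')) ≤
      C * tauB x

/-- the aligned primes seen by the high words -/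
noncomputable def Qt (y t z z' : ℕ) : Finset ℕ :=
  (upp y M).primeFactors.filter (fun q => q ≤ P.cut t ∧
    z.factorization q < (upp y M).factorization q ∧
    z'.factorization q < (upp y M).factorization q)

/-- **ARROW C (high weights)**: for one box and one class there are candidate sets with `≤ Nw`
elements such that every unkilled pair of the box which is not in `Hv` has `PairW` -/
def ArrC (hM : 0 < M) (w : ℕ → ℝ) (δ : ℝ) (jB : ℕ → ℕ) (j0 : ℕ) (Hv : ℕ → ℕ → ℤ → Prop)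
    (Nw : Bx → ℝ) : Prop :=
  ∀ (x : Bx) (a a' i : ℕ), ∃ TT XH TT' XH' : ℕ → Finset ℕ,
    (∀ z, ((TT z).card : ℝ) ≤ Nw x) ∧ (∀ z, ((XH z).card : ℝ) ≤ Nw x) ∧
    (∀ z, ((TT' z).card : ℝ) ≤ Nw x) ∧ (∀ z, ((XH' z).card : ℝ) ≤ Nw x) ∧
    ∀ (t b c : ℕ) (h : ℤ) (f f' : ℚ) (p : ℕ), b ∣ M → c ∣ M → h ∈ Lnk P.γ P.L b c →
      ¬ killedB (lamR F P) b c h → ¬ Hv b c h → LB F P w δ jB x t b c h f f' p →
      ca (P.Y x.v) b c = a → ca' (P.Y x.v) b c = a' → ci (P.Y x.v) b c = i →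
      ∀ z0 z0' : ℕ, upp (P.Y x.v) b = tw F P (P.Y x.v) t b c f f' * z0 →
        upp (P.Y x.v) c = tw F P (P.Y x.v) t c b f' f * z0' →
        (∀ q, q.Prime → P.Y x.v < q → q ≤ P.cut t → z0.factorization q = z0'.factorization q) →
        KZ (hiFL hM (P.Y x.v) F) j0 z0 z0' →
        HighWx899.PairW (hiFL hM (P.Y x.v) F) j0 P.cut TT XH TT' XH' z0 z0'
          (Qt (M := M) P (P.Y x.v) t z0 z0')

/-- **ARROW D (boost)** -/
def ArrD (w : ℕ → ℝ) (δ : ℝ) (jB : ℕ → ℕ) (X0 : ℕ) (C : ℝ) : Prop :=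
  ∀ (x : Bx) (t b c : ℕ) (h : ℤ) (f f' : ℚ) (p : ℕ), b ∣ M → c ∣ M → h ∈ Lnk P.γ P.L b c →
    LB F P w δ jB x t b c h f f' p →
    ∀ z0 z0' : ℕ, upp (P.Y x.v) b = tw F P (P.Y x.v) t b c f f' * z0 →
      upp (P.Y x.v) c = tw F P (P.Y x.v) t c b f' f * z0' →
      (∀ q, q.Prime → P.Y x.v < q → q ≤ P.cut t → z0.factorization q = z0'.factorization q) →
      boostB M (lamR F P) b c h ≤ C * ((x.v : ℝ) + 1) ^ 2 * ((x.mx : ℝ) + 1) ^ 4 *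
        (B1Levx52.offW F X0 b * B1Levx52.offW F X0 c) *
        HighWx899.bst (Qt (M := M) P (P.Y x.v) t z0 z0')

/-- **ARROW U (uniqueness)** : one point and one offset per pair and box -/
def ArrU (w : ℕ → ℝ) (δ : ℝ) (jB : ℕ → ℕ) : Prop :=
  ∀ (x : Bx) (b c t₁ t₂ : ℕ) (h₁ h₂ : ℤ) (f₁ f₁' f₂ f₂' : ℚ) (p₁ p₂ : ℕ), b ∣ M → c ∣ M →
    LB F P w δ jB x t₁ b c h₁ f₁ f₁' p₁ → LB F P w δ jB x t₂ b c h₂ f₂ f₂' p₂ →
    f₁ = f₂ ∧ f₁' = f₂' ∧ h₁ = h₂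

/-- not good at the block start of the level (500's `CBadX` with `r = t`, `l = 2 t`) -/
def BadS (jB : ℕ → ℕ) (b c : ℕ) (h : ℤ) : Prop :=
  ∃ t, P.m0 ≤ t ∧ ¬ F.good (Xj (jB t)) b c ∧ F.good (P.cut t) b c ∧
    AlLe F P b c h (P.cut (2 * t)) ∧ (Nat.gcd b c : ℝ) < 2 ^ (t + 1) * P.L ∧
    X1 P b c < P.cut t

/-- the smooth case (6.0): the member missing `p` is too deep for `exp (Y^(4/5))` -/
def LSm (jB : ℕ → ℕ) (b c : ℕ) (h : ℤ) : Prop :=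
  ∃ (t : ℕ) (f f' : ℚ) (p : ℕ), LP F P t b c h f f' p ∧ F.good (Xj (jB t)) b c ∧
    ((p ∣ c / Nat.gcd b c ∧ p ∣ alC c b f' f ∧
      Real.exp ((P.Y (P.blk p - 1) : ℝ) ^ (4 / 5 : ℝ)) < dep F P t b f) ∨
     (p ∣ b / Nat.gcd b c ∧ p ∣ alC b c f f' ∧
      Real.exp ((P.Y (P.blk p - 1) : ℝ) ^ (4 / 5 : ℝ)) < dep F P t c f'))

/-- **ARROW K (cover of class (L))** -/
def ArrK (w : ℕ → ℝ) (δ : ℝ) (jB : ℕ → ℕ) : Prop :=
  ∀ (b c : ℕ) (h : ℤ), b ∣ M → c ∣ M → h ∈ Lnk P.γ P.L b c → CLow F P b c h →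
    BadS F P jB b c h ∨ LSm F P jB b c h ∨
    (∃ (x : Bx) (t : ℕ) (f f' : ℚ) (p : ℕ), LB F P w δ jB x t b c h f f' p) ∨
    (∃ (x : Bx) (t : ℕ) (f f' : ℚ) (p : ℕ), LB F P w δ jB x t c b (-h) f' f p)

end defs

/-! ### The arrows in `Ev` form, at `ParOf` -/

open Crest.Agent.R4C.Spinex946

/-- block start below the cut `2^(A t)` -/
def jBA (A t : ℕ) : ℕ := Nat.log 2 (A * t)

/-- `R` holds at `ParOf` for all data (no constant) -/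
def EvAll (_γ : ℝ) (R : ∀ (_cp _η : ℝ) (_A _m0 : ℕ) (_L : ℝ) (M : ℕ) (_hM : 0 < M) (_B : Finset ℕ)
    (_F : FL M), Prop) : Prop :=
  Ev fun cp η A m0 => ∀ (L : ℝ) (M : ℕ) (B : Finset ℕ) (F : FL M) (S : Setup η L M B F),
    R cp η A m0 L M S.hM B F

/-- `R C` holds at `ParOf` for all data, for some constant `C` -/
def EvC (_γ : ℝ) (R : ∀ (_cp _η : ℝ) (_A _m0 : ℕ) (_L : ℝ) (M : ℕ) (_hM : 0 < M) (_B : Finset ℕ)
    (_F : FL M) (_C : ℝ), Prop) : Prop :=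
  Ev fun cp η A m0 => ∃ C : ℝ, 0 < C ∧ ∀ (L : ℝ) (M : ℕ) (B : Finset ℕ) (F : FL M)
    (S : Setup η L M B F), R cp η A m0 L M S.hM B F C

open Crest.Agent.R4C.FLExx326 (ind)

/-- target A -/
def TgtA (γ : ℝ) : Prop := EvAll γ fun cp _ A m0 L M hM B F =>
  ArrA F (ParOf cp A m0 γ L M B) hM (ind B) (1 / (4 * A)) (jBA A) 1

/-- target B -/
def TgtB (γ : ℝ) : Prop := EvC γ fun cp _ A m0 L M _ B F C =>
  ArrB F (ParOf cp A m0 γ L M B) (ind B) (1 / (4 * A)) (jBA A) C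

/-- target C: for every `ε > 0` -/
def TgtC (γ : ℝ) : Prop := ∀ ε : ℝ, 0 < ε → EvC γ fun cp _ A m0 L M hM B F C =>
  ArrC F (ParOf cp A m0 γ L M B) hM (ind B) (1 / (4 * A)) (jBA A) 1
    (CHvy F (ParOf cp A m0 γ L M B) (ind B) (1 / 20)) (fun x => C * (x.N : ℝ) ^ ε)

/-- target D -/
def TgtD (γ : ℝ) : Prop := EvC γ fun cp _ A m0 L M _ B F C =>
  ArrD F (ParOf cp A m0 γ L M B) (ind B) (1 / (4 * A)) (jBA A) 1 C

/-- target U -/
def TgtU (γ : ℝ) : Prop := EvAll γ fun cp _ A m0 L M _ B F =>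
  ArrU F (ParOf cp A m0 γ L M B) (ind B) (1 / (4 * A)) (jBA A)

/-- target K -/
def TgtK (γ : ℝ) : Prop := EvAll γ fun cp _ A m0 L M _ B F =>
  ArrK F (ParOf cp A m0 γ L M B) (ind B) (1 / (4 * A)) (jBA A)

/-- target S (smooth case), 808 -/
def TgtS (γ : ℝ) : Prop := ClsOK γ fun cp _ A m0 L M B F =>
  LSm F (ParOf cp A m0 γ L M B) (jBA A)

/-- target X (not good at the block start), 250 -/
def TgtX (γ : ℝ) : Prop := ClsOK γ fun cp _ A m0 L M B F =>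
  BadS F (ParOf cp A m0 γ L M B) (jBA A)

end Crest.Agent.R4C.LBoxDefx662
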