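import Crest.Agent.R4C.BoxW_899
import Crest.Agent.R4C.LBoxDef_662
import Crest.Agent.R4C.HyOf_281

/-!
# Row 4, class (L): ARROW C of `LBoxDef_662` (high weights with boost) (helper7, second of 899)

`tgtC (hA : TgtA γ) : TgtC γ`: for one box `x` and classes `a, a', i` the candidate sets are
`BoxW_899.TTs`, `XHs` with `K = x.N`, `Yc = 2^(4A(mx+1)+1)`, `Rs = {a+i, a+i+1}` and
`KK z = KD ..` (the twists of `TgtA`); their cardinality is `≤ 2 #KK ≤ C N^ε`.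
-/

set_option autoImplicit false

namespace Crest.Agent.R4C.ArrCx7

open Finset Crest.Agent.R4C.Basex935 Crest.Agent.R4C.FLDefx935 Crest.Agent.R4C.Rulex945
  Crest.Agent.R4C.BoxUniqx60 Crest.Agent.R4C.TEndx129 Crest.Agent.R4C.Betax7
  Crest.Agent.R4C.HighWx899 Crest.Agent.R4C.Cutx50 Crest.Agent.R4C.BoostCx972
  Crest.Agent.R4C.Bridgex882 Crest.Agent.R4C.Splitx945 Crest.Agent.R4C.Sharedx11
  Crest.Agent.R4C.S7dx14 Crest.Agent.R4C.BoxWx899 Crest.Agent.R4C.LBoxDefx662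
  Crest.Agent.R4C.NonPureBlkx559 Crest.Agent.R4C.Keptx559 Crest.Agent.R4C.PureL2x232
  Crest.Agent.R4C.LClassx662 Crest.Agent.R4C.Spinex946 Crest.Agent.R4C.HyOfx281
  Crest.Agent.R4C.TwistKKx863
open Crest.Agent.R4C.FLExx326 (ind)
open Crest.Agent.R4C.LBxx500 (tw)

/-! ### small facts -/

/-- size class of the low word -/
lemma log_low_mem {y b c a i : ℕ} (ha : ca y b c = a) (hi : ci y b c = i) :
    Nat.log 2 (low y b) ∈ ({a + i, a + i + 1} : Finset ℕ) := by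
  set g := Nat.gcd (low y b) (low y c) with hg
  set q := low y b / g with hq
  have hb0 : 0 < low y b := low_pos y b
  have hg0 : 0 < g := Nat.gcd_pos_of_pos_left _ hb0
  have e : g * q = low y b := Nat.mul_div_cancel' (Nat.gcd_dvd_left _ _)
  have hq0 : q ≠ 0 := by
    intro h
    rw [h, mul_zero] at e
    omega
  have ha' : Nat.log 2 q = a := ha
  have hi' : Nat.log 2 g = i := hi
  have h1 : 2 ^ i ≤ g := by rw [← hi']; exact Nat.pow_log_le_self 2 hg0.ne'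
  have h2 : g < 2 ^ (i + 1) := by rw [← hi']; exact Nat.lt_pow_succ_log_self (by norm_num) _
  have h3 : 2 ^ a ≤ q := by rw [← ha']; exact Nat.pow_log_le_self 2 hq0
  have h4 : q < 2 ^ (a + 1) := by rw [← ha']; exact Nat.lt_pow_succ_log_self (by norm_num) _
  have h5 : 2 ^ (a + i) ≤ low y b := by
    rw [← e, pow_add, mul_comm (2 ^ a)]
    exact Nat.mul_le_mul h1 h3
  have h6 : low y b < 2 ^ (a + i + 2) := by
    rw [← e]
    calc g * q < 2 ^ (i + 1) * 2 ^ (a + 1) := Nat.mul_lt_mul'' h2 h4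
      _ = 2 ^ (a + i + 2) := by rw [← pow_add]; congr 1; ring
  have h7 : a + i ≤ Nat.log 2 (low y b) := Nat.le_log_of_pow_le (by norm_num) h5
  have h8 : Nat.log 2 (low y b) < a + i + 2 := Nat.log_lt_of_lt_pow hb0.ne' h6
  rw [mem_insert, mem_singleton]
  omega

lemma ca'_eq (y b c : ℕ) : ca' y b c = ca y c b := by
  unfold ca' ca
  rw [Nat.gcd_comm (low y c)]

lemma ci_eq (y b c : ℕ) : ci y b c = ci y c b := by
  unfold ci
  rw [Nat.gcd_comm (low y c)]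

section gen

variable {M : ℕ} {F : FL M} {P : Par}

lemma tw_pos (y t b c : ℕ) (f f' : ℚ) : 0 < tw F P y t b c f f' := upp_pos _ _

/-- the twist is at most the depth -/
lemma tw_le (y t b c : ℕ) (f f' : ℚ) : (tw F P y t b c f f' : ℝ) ≤ dep F P t b f := by
  have h1 : tw F P y t b c f f' ≤ k0 F (P.cut t) b f := by
    unfold tw
    set k := k0 F (P.cut t) b f with hk
    have hk0 : 0 < k := k0_pos _ _ _
    set g := Nat.gcd k (k0 F (P.cut t) c f') with hg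
    have hg0 : 0 < g := Nat.gcd_pos_of_pos_left _ hk0
    have h2 : 0 < k / g := Nat.div_pos (Nat.le_of_dvd hk0 (Nat.gcd_dvd_left _ _)) hg0
    exact (Nat.le_of_dvd h2 (upp_dvd_self y _)).trans (Nat.div_le_self _ _)
  have h2 : (tw F P y t b c f f' : ℝ) ≤ k0 F (P.cut t) b f := by exact_mod_cast h1
  exact h2.trans (k0_le_dep t b f)

/-- letters of the untwisted word above the twist -/
lemma fact_z0 {y b κ z0 q Yc : ℕ} (hκ0 : 0 < κ) (hup : upp y b = κ * z0) (hκ : κ ≤ Yc)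
    (hy : y ≤ Yc) (hq : Yc < q) : z0.factorization q = b.factorization q := by
  have h0 : z0 ≠ 0 := by
    intro h
    rw [h, mul_zero] at hup
    exact (upp_pos y b).ne' hup
  have h1 := fact_upp y b q
  rw [if_pos (by omega), hup, Nat.factorization_mul hκ0.ne' h0, Finsupp.add_apply] at h1
  have h2 : κ.factorization q = 0 := by
    apply Nat.factorization_eq_zero_of_not_dvd
    intro hd
    have := Nat.le_of_dvd hκ0 hd
    omega
  omega

/-- the untwisted word has no letter `≤ y` -/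
lemma fact_z0_low {y b κ z0 q : ℕ} (hκ0 : 0 < κ) (hup : upp y b = κ * z0) (hq : q ≤ y) :
    z0.factorization q = 0 := by
  have h0 : z0 ≠ 0 := by
    intro h
    rw [h, mul_zero] at hup
    exact (upp_pos y b).ne' hup
  have h1 := fact_upp y b q
  rw [if_neg (by omega), hup, Nat.factorization_mul hκ0.ne' h0, Finsupp.add_apply] at h1
  omega

open Classical in
/-- the twists over `z`, empty if `z` does not divide `M` -/
noncomputable def KM (F : FL M) (γ L X R : ℝ) (N : ℕ) (x : ℕ → ℕ) (lab : ℕ → ℕ → ℕ)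
    (I : Finset ℕ) (U z : ℕ) : Finset ℕ :=
  if z ∣ M then KD F γ L X R N x lab I U z else ∅

/-- **ARROW C**, general form: `K x`, `Yc x` functions of the box -/
theorem arrC_of {w : ℕ → ℝ} {δ δ' ε : ℝ} {D : ℕ → ℝ} {jB : ℕ → ℕ} {j0 : ℕ} {Nw : Bx → ℝ}
    (H : Hy F P w δ ε D) (hE : Monotone P.E) (hG : CutGrow P)
    (hA : ArrA F P H.hM w δ' jB j0) (Yc : Bx → ℕ)
    (hnum : ∀ (x : Bx) (t b c : ℕ) (h : ℤ) (f f' : ℚ) (p : ℕ), b ∣ M → c ∣ M →
      LB F P w δ' jB x t b c h f f' p → 4 * (x.N : ℝ) ^ 2 < 2 ^ t ∧ Yc x ≤ P.cut t ∧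
        P.Y x.v ≤ Yc x)
    (hNY : ∀ x : Bx, x.N ≤ Yc x)
    (hthr : ∀ (x : Bx) (d i : ℕ), Yc x < P.Y i → (x.N : ℝ) ≤ P.thr d i)
    (hcard : ∀ (x : Bx) (X : ℝ) (j z : ℕ), ((KM F P.γ P.L X ((x.N : ℝ) ^ 3) x.N P.cut
      (LDecx500.lb P) (range (P.N + 1)) (2 ^ j) z).card : ℝ) * 2 ≤ Nw x) :
    ArrC F P H.hM w δ' jB j0 (CHvy F P w ε) Nw := by
  classical
  have hM := H.hM
  intro x a a' i
  set y := P.Y x.v with hy
  set K : ℝ := (x.N : ℝ) with hK
  set K1 : ℕ → Finset ℕ := fun z => KM F P.γ P.L (2 ^ (i + a + 1) * (x.N : ℝ)) ((x.N : ℝ) ^ 3)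
    x.N P.cut (LDecx500.lb P) (range (P.N + 1)) (2 ^ x.j) z with hK1
  set K2 : ℕ → Finset ℕ := fun z => KM F P.γ P.L (2 ^ (i + a' + 1) * (x.N : ℝ)) ((x.N : ℝ) ^ 3)
    x.N P.cut (LDecx500.lb P) (range (P.N + 1)) (2 ^ x.j') z with hK2
  set R1 : Finset ℕ := {a + i, a + i + 1} with hR1
  set R2 : Finset ℕ := {a' + i, a' + i + 1} with hR2
  have hR1c : R1.card ≤ 2 := card_le_two
  have hR2c : R2.card ≤ 2 := card_le_two
  have hc1 : ∀ z n, n ≤ (K1 z).card * R1.card → (n : ℝ) ≤ Nw x := by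
    intro z n hn
    have h1 : n ≤ (K1 z).card * 2 := hn.trans (Nat.mul_le_mul_left _ hR1c)
    have h2 : (n : ℝ) ≤ ((K1 z).card : ℝ) * 2 := by exact_mod_cast h1
    exact h2.trans (hcard x (2 ^ (i + a + 1) * (x.N : ℝ)) x.j z)
  have hc2 : ∀ z n, n ≤ (K2 z).card * R2.card → (n : ℝ) ≤ Nw x := by
    intro z n hn
    have h1 : n ≤ (K2 z).card * 2 := hn.trans (Nat.mul_le_mul_left _ hR2c)
    have h2 : (n : ℝ) ≤ ((K2 z).card : ℝ) * 2 := by exact_mod_cast h1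
    exact h2.trans (hcard x (2 ^ (i + a' + 1) * (x.N : ℝ)) x.j' z)
  refine ⟨TTs F P y K R1 K1, XHs F P y K R1 K1 (Yc x), TTs F P y K R2 K2,
    XHs F P y K R2 K2 (Yc x), fun z => hc1 z _ (card_TTs z), fun z => hc1 z _ (card_XHs _ z),
    fun z => hc2 z _ (card_TTs z), fun z => hc2 z _ (card_XHs _ z), ?_⟩
  intro t b c h f f' p hb hc hh hu hn hL ha ha' hi z0 z0' hup hup' heqw hkz
  obtain ⟨w0, w0', e1, e2, m1, m2, _, _, _⟩ := hA x t b c h f f' p hb hc hh hL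
  have hκ0 := tw_pos (F := F) (P := P) y t b c f f'
  have hκ0' := tw_pos (F := F) (P := P) y t c b f' f
  have ew : w0 = z0 := Nat.eq_of_mul_eq_mul_left hκ0 (e1.symm.trans hup)
  have ew' : w0' = z0' := Nat.eq_of_mul_eq_mul_left hκ0' (e2.symm.trans hup')
  subst ew
  subst ew'
  set κ := tw F P y t b c f f' with hκ
  set κ' := tw F P y t c b f' f with hκ'
  have hb0 : b ≠ 0 := (Nat.pos_of_dvd_of_pos hb hM).ne'
  have hc0 : c ≠ 0 := (Nat.pos_of_dvd_of_pos hc hM).ne'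
  obtain ⟨hKt, hYt, hyY⟩ := hnum x t b c h f f' p hb hc hL
  have hyt : y ≤ P.cut t := hyY.trans hYt
  have hz1 : w0 ∣ M := (Dvd.intro_left κ hup.symm).trans
    ((upp_dvd y hM.ne' hb).trans (upp_dvd_self y M))
  have hz2 : w0' ∣ M := (Dvd.intro_left κ' hup'.symm).trans
    ((upp_dvd y hM.ne' hc).trans (upp_dvd_self y M))
  rw [hi, ha] at m1
  rw [hi, ha'] at m2
  have mem1 : κ ∈ K1 w0 := by
    simp only [hK1, KM, if_pos hz1]
    exact m1
  have mem2 : κ' ∈ K2 w0' := by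
    simp only [hK2, KM, if_pos hz2]
    exact m2
  -- depths
  have hNn : (2 : ℝ) ^ (x.n + 1) ≤ K := by
    rw [hK]
    unfold Bx.N Bx.mx
    push_cast
    exact pow_le_pow_right₀ (by norm_num) (by have := le_max_left x.n x.n'; omega)
  have hNn' : (2 : ℝ) ^ (x.n' + 1) ≤ K := by
    rw [hK]
    unfold Bx.N Bx.mx
    push_cast
    exact pow_le_pow_right₀ (by norm_num) (by have := le_max_right x.n x.n'; omega)
  have hdb : dep F P t b f ≤ K := hL.dn1.le.trans hNn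
  have hdc : dep F P t c f' ≤ K := hL.dn1'.le.trans hNn'
  have hK1' : (1 : ℝ) ≤ K := (one_le_dep t b f).trans hdb
  have hKY : K ≤ (Yc x : ℝ) := by rw [hK]; exact_mod_cast hNY x
  have hκY : κ ≤ Yc x := by
    have h1 : (κ : ℝ) ≤ Yc x := ((tw_le y t b c f f').trans hdb).trans hKY
    exact_mod_cast h1
  have hκY' : κ' ≤ Yc x := by
    have h1 : (κ' : ℝ) ≤ Yc x := ((tw_le y t c b f' f).trans hdc).trans hKY
    exact_mod_cast h1
  have hv1 : ∀ q, Yc x < q → w0.factorization q = b.factorization q := fun q hq =>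
    fact_z0 hκ0 hup hκY hyY hq
  have hv2 : ∀ q, Yc x < q → w0'.factorization q = c.factorization q := fun q hq =>
    fact_z0 hκ0' hup' hκY' hyY hq
  have hfst : ∀ r, Fst r w0 w0' → P.cut t < r := by
    intro r hr
    by_contra hcon
    refine hr.2.2 ?_
    by_cases h1 : r ≤ y
    · rw [fact_z0_low hκ0 hup h1, fact_z0_low hκ0' hup' h1]
    · exact heqw r hr.1 (not_le.1 h1) (not_lt.1 hcon)
  have heq : ∀ r, Fst r w0 w0' → ∀ q, q.Prime → Yc x < q → q < r →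
      b.factorization q = c.factorization q := by
    intro r hr q hq hYq hqr
    rw [← hv1 q hYq, ← hv2 q hYq]
    exact hr.2.1 q hq hqr
  have hQc : ∀ q ∈ Qt (M := M) P y t w0 w0', q ≤ P.cut t := fun q hq =>
    (mem_filter.1 hq).2.1
  have hlp := hL.lp
  have hhv : ∀ e, t ≤ e → _ := fun e he =>
    not_hvK (w := w) (ε := ε) H.cut_mono H.hL hlp.m0 hlp.good hlp.al hlp.scl hlp.near hn he
  have hr1 : Nat.log 2 (low y b) ∈ R1 := log_low_mem ha hi
  have hr2 : Nat.log 2 (low y c) ∈ R2 := by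
    refine log_low_mem (y := y) (b := c) (c := b) ?_ ?_
    · rw [← ca'_eq]; exact ha'
    · rw [← ci_eq]; exact hi
  refine ⟨?_, ?_, ?_, hkz, ?_, ?_⟩
  · intro q hq
    exact (mem_filter.1 hq).1
  · intro q hq
    exact (mem_filter.1 hq).2.2.1
  · intro r hr q hq
    exact (hQc q hq).trans_lt (hfst r hr)
  · intro _ r hr hlt
    have h1 := hfst r hr
    rw [hv1 r (hYt.trans_lt h1), hv2 r (hYt.trans_lt h1)] at hlt
    exact side H hE hG hK1' hb hc hlp.pt hu hlp.m0 hyt hyY hKt hKY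
      (fun i hi => hthr x b i (hYt.trans_lt hi)) hlp.ib hlp.ic hdb hdc hlp.db
      (fun e he => (hhv e he).1) hup hup' mem1 mem2 hr1 hr2 hr.1 hlt (heq r hr)
      (hYt.trans_lt h1) h1 hQc
  · intro _ r hr hlt
    have h1 := hfst r hr
    rw [hv1 r (hYt.trans_lt h1), hv2 r (hYt.trans_lt h1)] at hlt
    exact side H hE hG hK1' hc hb (gap_swap hlp.pt) (killedB_symm hu) hlp.m0 hyt hyY hKt hKY
      (fun i hi => hthr x c i (hYt.trans_lt hi)) hlp.ic hlp.ib hdc hdb hlp.dc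
      (fun e he => (hhv e he).2) hup' hup mem2 mem1 hr2 hr1 hr.1 hlt
      (fun q hq h3 h4 => (heq r hr q hq h3 h4).symm) (hYt.trans_lt h1) h1 hQc

end gen

/-! ### numerics at `ParOf` -/

/-- the low cut of a box -/
def YcA (A : ℕ) (x : Bx) : ℕ := 2 ^ (4 * A * (x.mx + 1) + 1)

section par

variable {cp : ℝ} {A m0 : ℕ} {γ L : ℝ} {M : ℕ} {B : Finset ℕ} {F : FL M} {w : ℕ → ℝ} {δ' : ℝ}
  {jB : ℕ → ℕ} {x : Bx} {t b c : ℕ} {h : ℤ} {f f' : ℚ} {p : ℕ}

lemma exp_le (hc : cp ≤ 1 / 200) {n : ℕ} {d : ℝ} (h1 : (2 : ℝ) ^ n ≤ d)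
    (h2 : d ≤ (ParOf cp A m0 γ L M B).E t ^ 4) : 50 * n ≤ t := by
  rw [E_pow] at h2
  have h3 : (2 : ℝ) ^ (n : ℝ) ≤ (2 : ℝ) ^ (cp * t * (4 : ℕ)) := by
    rw [Real.rpow_natCast]
    exact h1.trans h2
  have h4 : (n : ℝ) ≤ cp * t * (4 : ℕ) :=
    (Real.rpow_le_rpow_left_iff (by norm_num : (1 : ℝ) < 2)).1 h3
  have ht : (0 : ℝ) ≤ t := Nat.cast_nonneg t
  have h5 : cp * t ≤ 1 / 200 * t := mul_le_mul_of_nonneg_right hc ht
  push_cast at h4
  have h6 : (50 : ℝ) * n ≤ t := by linarith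
  exact_mod_cast h6

lemma mx_le (hc : cp ≤ 1 / 200)
    (hL : LB F (ParOf cp A m0 γ L M B) w δ' jB x t b c h f f' p) : 50 * x.mx ≤ t := by
  have h1 := exp_le hc hL.dn hL.lp.db
  have h2 := exp_le hc hL.dn' hL.lp.dc
  unfold Bx.mx
  rcases le_total x.n x.n' with h | h
  · rw [max_eq_right h]; exact h2
  · rw [max_eq_left h]; exact h1

lemma pow_delta {A : ℕ} (_hA : 1 ≤ A) (i : ℕ) :
    (((2 ^ i : ℕ) : ℝ)) ^ (1 / (4 * A) : ℝ) = (2 : ℝ) ^ ((i : ℝ) / (4 * A)) := by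
  push_cast
  rw [← Real.rpow_natCast, ← Real.rpow_mul (by norm_num)]
  congr 1
  ring

lemma v_le (hA : 1 ≤ A) {n v : ℕ}
    (hv : (((2 ^ (v - 1) : ℕ) : ℝ)) ^ (1 / (4 * A) : ℝ) < 2 ^ (n + 1)) : v ≤ 4 * A * (n + 1) := by
  rw [pow_delta hA, ← Real.rpow_natCast] at hv
  have h1 := (Real.rpow_lt_rpow_left_iff (by norm_num : (1 : ℝ) < 2)).1 hv
  have hA' : (0 : ℝ) < 4 * A := by
    have : (1 : ℝ) ≤ A := by exact_mod_cast hA
    linarith
  rw [div_lt_iff₀ hA'] at h1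
  have h2 : v - 1 < (n + 1) * (4 * A) := by
    have h3 : ((v - 1 : ℕ) : ℝ) < (((n + 1) * (4 * A) : ℕ) : ℝ) := by
      push_cast at h1 ⊢
      exact h1
    exact_mod_cast h3
  have h3 : (n + 1) * (4 * A) = 4 * A * (n + 1) := by ring
  omega

lemma N_le_Yc (hA : 1 ≤ A) (x : Bx) : x.N ≤ YcA A x := by
  unfold Bx.N YcA
  refine Nat.pow_le_pow_right (by norm_num) ?_
  have : 1 * (x.mx + 1) ≤ 4 * A * (x.mx + 1) := Nat.mul_le_mul_right _ (by omega)
  omega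

lemma num_par (hc : cp ≤ 1 / 200) (hA : 1 ≤ A) (hm0 : 14 ≤ m0)
    (hL : LB F (ParOf cp A m0 γ L M B) w (1 / (4 * A)) jB x t b c h f f' p) :
    4 * (x.N : ℝ) ^ 2 < 2 ^ t ∧ YcA A x ≤ (ParOf cp A m0 γ L M B).cut t ∧
      (ParOf cp A m0 γ L M B).Y x.v ≤ YcA A x := by
  have h1 := mx_le hc hL
  have h2 : m0 ≤ t := hL.lp.m0
  refine ⟨?_, ?_, ?_⟩
  · unfold Bx.N
    push_cast
    rw [← pow_mul]
    calc (4 : ℝ) * 2 ^ ((x.mx + 1) * 2) = 2 ^ ((x.mx + 1) * 2 + 2) := by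
          rw [pow_add]; norm_num; ring
      _ < 2 ^ t := pow_lt_pow_right₀ (by norm_num) (by omega)
  · change YcA A x ≤ 2 ^ (A * t)
    unfold YcA
    refine Nat.pow_le_pow_right (by norm_num) ?_
    calc 4 * A * (x.mx + 1) + 1 ≤ 4 * A * (x.mx + 1) + A := by omega
      _ = A * (4 * (x.mx + 1) + 1) := by ring
      _ ≤ A * t := Nat.mul_le_mul_left _ (by omega)
  · change 2 ^ x.v ≤ YcA A x
    unfold YcA
    refine Nat.pow_le_pow_right (by norm_num) ?_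
    have h3 : x.v ≤ 4 * A * (x.n + 1) := v_le hA hL.vle
    have h4 : x.n ≤ x.mx := le_max_left _ _
    have h5 : 4 * A * (x.n + 1) ≤ 4 * A * (x.mx + 1) := Nat.mul_le_mul_left _ (by omega)
    omega

/-- above `YcA` the threshold is `≥ N` -/
lemma thr_par (hA : 1 ≤ A) (x : Bx) (d i : ℕ) (hi : YcA A x < (ParOf cp A m0 γ L M B).Y i) :
    (x.N : ℝ) ≤ (ParOf cp A m0 γ L M B).thr d i := by
  have h1 : YcA A x < 2 ^ i := hi
  unfold YcA at h1
  have h2 : 4 * A * (x.mx + 1) + 1 < i := (Nat.pow_lt_pow_iff_right (by norm_num)).1 h1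
  have hA' : (0 : ℝ) < 4 * A := by
    have : (1 : ℝ) ≤ A := by exact_mod_cast hA
    linarith
  have h3 : (x.N : ℝ) ≤ (((2 ^ (i - 1) : ℕ) : ℝ)) ^ (1 / (4 * A) : ℝ) := by
    rw [pow_delta hA]
    unfold Bx.N
    push_cast
    rw [← Real.rpow_natCast]
    refine Real.rpow_le_rpow_of_exponent_le (by norm_num) ?_
    rw [le_div_iff₀ hA']
    have h4 : (x.mx + 1) * (4 * A) ≤ i - 1 := by
      have : (x.mx + 1) * (4 * A) = 4 * A * (x.mx + 1) := by ring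
      omega
    have h5 : (((x.mx + 1) * (4 * A) : ℕ) : ℝ) ≤ ((i - 1 : ℕ) : ℝ) := by exact_mod_cast h4
    push_cast at h5 ⊢
    exact h5
  refine le_min (h3.trans (le_max_left _ _)) ?_
  refine h3.trans ?_
  have h6 : (1 : ℝ) ≤ ((2 ^ (i - 1) : ℕ) : ℝ) := by exact_mod_cast Nat.one_le_two_pow
  have h7 : (((2 ^ (i - 1) : ℕ) : ℝ)) ^ (1 / (4 * A) : ℝ) ≤
      (((2 ^ (i - 1) : ℕ) : ℝ)) ^ (4 / 5 : ℝ) := by
    refine Real.rpow_le_rpow_of_exponent_le h6 ?_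
    rw [div_le_iff₀ hA']
    have : (1 : ℝ) ≤ A := by exact_mod_cast hA
    linarith
  refine h7.trans ?_
  have h8 := Real.add_one_le_exp ((((2 ^ (i - 1) : ℕ) : ℝ)) ^ (4 / 5 : ℝ))
  change _ ≤ Real.exp ((((2 ^ (i - 1) : ℕ) : ℝ)) ^ (4 / 5 : ℝ))
  linarith

end par

/-- **ARROW C** -/
theorem tgtC {γ : ℝ} (hA : TgtA γ) : TgtC γ := by
  classical
  intro ε hε
  obtain ⟨C, hC, hKK⟩ := card_KK hε 3
  refine ((Ev.and (show Ev _ from hA) evNum).and (Ev.le_A (fun _ _ => 2))).mono ?_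
  rintro cp η A m0 ⟨⟨h1, hn⟩, hA2⟩
  have hA2' : 2 ≤ A := by exact_mod_cast hA2
  refine ⟨C * 2, by positivity, fun L M B F S => ?_⟩
  have H := hy_of_num hn (γ := γ) (L := L) (B := B) S.hM S.hL F
  have hE : Monotone (ParOf cp A m0 γ L M B).E := by
    intro m m' hmm
    change (2 : ℝ) ^ (cp * m) ≤ (2 : ℝ) ^ (cp * m')
    refine Real.rpow_le_rpow_of_exponent_le (by norm_num) ?_
    exact mul_le_mul_of_nonneg_left (by exact_mod_cast hmm) hn.cp_pos.le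
  have hG : CutGrow (ParOf cp A m0 γ L M B) := cutA_grow hA2' fun m => rfl
  refine arrC_of H hE hG (h1 L M B F S) (YcA A)
    (fun x t b c h f f' p _ _ hL => num_par hn.cp_le hn.A_one hn.m0_14 hL)
    (N_le_Yc hn.A_one) (fun x d i hi => thr_par hn.A_one x d i hi) ?_
  intro x X j z
  have hN : 1 ≤ x.N := Nat.one_le_two_pow
  have hN0 : (0 : ℝ) ≤ (x.N : ℝ) ^ ε := by positivity
  unfold KM
  split_ifs with hz
  · have h2 := hKK M F (ParOf cp A m0 γ L M B).γ (ParOf cp A m0 γ L M B).L X ((x.N : ℝ) ^ 3) x.N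
      (ParOf cp A m0 γ L M B).cut (LDecx500.lb (ParOf cp A m0 γ L M B))
      (range ((ParOf cp A m0 γ L M B).N + 1)) z S.hM hz (by positivity) le_rfl hN H.cut_mono
    have h3 : ((KD F (ParOf cp A m0 γ L M B).γ (ParOf cp A m0 γ L M B).L X ((x.N : ℝ) ^ 3) x.N
      (ParOf cp A m0 γ L M B).cut (LDecx500.lb (ParOf cp A m0 γ L M B))
      (range ((ParOf cp A m0 γ L M B).N + 1)) (2 ^ j) z).card : ℝ) ≤ C * (x.N : ℝ) ^ ε := by
      refine le_trans ?_ h2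
      unfold KD
      exact_mod_cast card_le_card (filter_subset _ _)
    linarith
  · rw [card_empty]
    push_cast
    nlinarith

end Crest.Agent.R4C.ArrCx7
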