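import Crest.Agent.R4C.PureL2_232

/-!
# The common assembly lemma of MX / VEC (row 4, notes 2977, 3058), helper946

* `frm_mul`   : `frm (M0 * M1) Φ = Σ_{z,z'} gcd ν ν (low sum)` (`M0`, `M1` coprime)
* `frm_dy`    : dyadic decomposition of the low gcd
* `assembly`  : low kernel bound `K_i(z,z') ≤ A i * f i z * f i z'` + pure part + non-pure part
                + diagonal `z = z'`  ⟹ total `≤ (1 + Cp + Σ_t ε t) * Fm`
* `assembly_pure` : the same with `PureRel` (constant `5 + Σ ε`)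
* `mx_sum`    : `Σ_i A_i Σ_z ν(z) f_i(z)² ≤ C1 Γ^η' / (1 - 2^(-η')) ν(B)` for
                `f_i(z) = (2^i V_z)^((1+η')/2) 1[2^i V_z ≤ Γ]`, `A_i = C1 2^(-i)`
* `mx`        : MX for a set `B` and a relation `Rel`
-/

set_option autoImplicit false

namespace Crest.Agent.R4C.Asmx946

open Finset Crest.Agent.R4C.Basex935

/-- divisors of a coprime product -/
lemma sum_mul {M0 M1 : ℕ} (h : Nat.Coprime M0 M1) (F : ℕ → ℝ) :
    ∑ b ∈ (M0 * M1).divisors, F b = ∑ u ∈ M0.divisors, ∑ z ∈ M1.divisors, F (u * z) := by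
  classical
  rw [← Finset.sum_product', Nat.divisors_mul, Finset.mul_def]
  rw [Finset.sum_image h.mul_injOn_divisors]

lemma gcd_mul {M0 M1 u u' z z' : ℕ} (h : Nat.Coprime M0 M1) (hu : u ∣ M0) (hu' : u' ∣ M0)
    (hz : z ∣ M1) (hz' : z' ∣ M1) :
    Nat.gcd (u * z) (u' * z') = Nat.gcd u u' * Nat.gcd z z' := by
  have h1 : Nat.Coprime u z' := Nat.Coprime.of_dvd hu hz' h
  have h2 : Nat.Coprime z u' := (Nat.Coprime.of_dvd hu' hz h).symm
  have h3 : Nat.Coprime u z := Nat.Coprime.of_dvd hu hz h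
  rw [Nat.Coprime.gcd_mul _ (Nat.Coprime.of_dvd hu' hz' h)]
  congr 1
  · rw [Nat.gcd_comm, Nat.Coprime.gcd_mul_right_cancel_right, Nat.gcd_comm]
    exact h2
  · rw [Nat.gcd_comm, Nat.Coprime.gcd_mul_left_cancel_right, Nat.gcd_comm]
    exact h1

/-- **the pair form over a coprime product** -/
theorem frm_mul {M0 M1 : ℕ} (h : Nat.Coprime M0 M1) (Φ : ℕ → ℕ → ℝ) :
    frm (M0 * M1) Φ = frm M1 (fun z z' => frm M0 (fun u u' => Φ (u * z) (u' * z'))) := by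
  unfold frm
  rw [sum_mul h]
  calc ∑ u ∈ M0.divisors, ∑ z ∈ M1.divisors, ∑ c ∈ (M0 * M1).divisors,
        (Nat.gcd (u * z) c : ℝ) * nu (M0 * M1) (u * z) * nu (M0 * M1) c * Φ (u * z) c
      = ∑ u ∈ M0.divisors, ∑ z ∈ M1.divisors, ∑ u' ∈ M0.divisors, ∑ z' ∈ M1.divisors,
        (Nat.gcd (u * z) (u' * z') : ℝ) * nu (M0 * M1) (u * z) * nu (M0 * M1) (u' * z') *
          Φ (u * z) (u' * z') :=
        Finset.sum_congr rfl fun u _ => Finset.sum_congr rfl fun z _ => sum_mul h _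
    _ = ∑ z ∈ M1.divisors, ∑ u ∈ M0.divisors, ∑ z' ∈ M1.divisors, ∑ u' ∈ M0.divisors,
        (Nat.gcd (u * z) (u' * z') : ℝ) * nu (M0 * M1) (u * z) * nu (M0 * M1) (u' * z') *
          Φ (u * z) (u' * z') := by
        rw [Finset.sum_comm]
        refine Finset.sum_congr rfl fun z _ => Finset.sum_congr rfl fun u _ => ?_
        exact Finset.sum_comm
    _ = ∑ z ∈ M1.divisors, ∑ z' ∈ M1.divisors, ∑ u ∈ M0.divisors, ∑ u' ∈ M0.divisors,
        (Nat.gcd (u * z) (u' * z') : ℝ) * nu (M0 * M1) (u * z) * nu (M0 * M1) (u' * z') *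
          Φ (u * z) (u' * z') :=
        Finset.sum_congr rfl fun z _ => Finset.sum_comm
    _ = _ := by
        refine Finset.sum_congr rfl fun z hz => Finset.sum_congr rfl fun z' hz' => ?_
        rw [Finset.mul_sum]
        refine Finset.sum_congr rfl fun u hu => ?_
        rw [Finset.mul_sum]
        refine Finset.sum_congr rfl fun u' hu' => ?_
        rw [Nat.mem_divisors] at hz hz' hu hu'
        rw [gcd_mul h hu.1 hu'.1 hz.1 hz'.1, nu_mul h hu.1 hz.1, nu_mul h hu'.1 hz'.1]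
        push_cast
        ring

lemma frm_nonneg {M : ℕ} {Φ : ℕ → ℕ → ℝ} (h : ∀ b c, 0 ≤ Φ b c) : 0 ≤ frm M Φ :=
  Finset.sum_nonneg fun b _ => Finset.sum_nonneg fun c _ =>
    mul_nonneg (mul_nonneg (mul_nonneg (Nat.cast_nonneg _) (nu_nonneg _ _)) (nu_nonneg _ _)) (h b c)

lemma frm_le {M : ℕ} {Φ Ψ : ℕ → ℕ → ℝ} (h : ∀ b c, b ∣ M → c ∣ M → Φ b c ≤ Ψ b c) :
    frm M Φ ≤ frm M Ψ := by
  refine Finset.sum_le_sum fun b hb => Finset.sum_le_sum fun c hc => ?_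
  rw [Nat.mem_divisors] at hb hc
  exact mul_le_mul_of_nonneg_left (h b c hb.1 hc.1)
    (mul_nonneg (mul_nonneg (Nat.cast_nonneg _) (nu_nonneg _ _)) (nu_nonneg _ _))

lemma frm_congr {M : ℕ} {Φ Ψ : ℕ → ℕ → ℝ} (h : ∀ b c, b ∣ M → c ∣ M → Φ b c = Ψ b c) :
    frm M Φ = frm M Ψ :=
  le_antisymm (frm_le fun b c hb hc => (h b c hb hc).le) (frm_le fun b c hb hc => (h b c hb hc).ge)

lemma frm_add {M : ℕ} (Φ Ψ : ℕ → ℕ → ℝ) :
    frm M (fun b c => Φ b c + Ψ b c) = frm M Φ + frm M Ψ := by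
  unfold frm
  rw [← Finset.sum_add_distrib]
  refine Finset.sum_congr rfl fun b _ => ?_
  rw [← Finset.sum_add_distrib]
  exact Finset.sum_congr rfl fun c _ => by ring

lemma frm_smul {M : ℕ} (a : ℝ) (Φ : ℕ → ℕ → ℝ) :
    frm M (fun b c => a * Φ b c) = a * frm M Φ := by
  unfold frm
  rw [Finset.mul_sum]
  refine Finset.sum_congr rfl fun b _ => ?_
  rw [Finset.mul_sum]
  exact Finset.sum_congr rfl fun c _ => by ring

lemma frm_sum {ι : Type*} {M : ℕ} (T : Finset ι) (Φ : ι → ℕ → ℕ → ℝ) :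
    frm M (fun b c => ∑ t ∈ T, Φ t b c) = ∑ t ∈ T, frm M (Φ t) := by
  unfold frm
  simp only [Finset.mul_sum]
  have e : ∀ b ∈ M.divisors, ∑ c ∈ M.divisors, ∑ t ∈ T,
      (Nat.gcd b c : ℝ) * nu M b * nu M c * Φ t b c =
      ∑ t ∈ T, ∑ c ∈ M.divisors, (Nat.gcd b c : ℝ) * nu M b * nu M c * Φ t b c :=
    fun b _ => Finset.sum_comm
  rw [Finset.sum_congr rfl e, Finset.sum_comm]

/-- low kernel of the dyadic class `2^i ≤ gcd (u,u') < 2^(i+1)` -/
noncomputable def lowK (M0 : ℕ) (Φ : ℕ → ℕ → ℝ) (i z z' : ℕ) : ℝ :=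
  frm M0 (fun u u' => if Nat.log 2 (Nat.gcd u u') = i then Φ (u * z) (u' * z') else 0)

lemma lowK_nonneg {M0 : ℕ} {Φ : ℕ → ℕ → ℝ} (h : ∀ b c, 0 ≤ Φ b c) (i z z' : ℕ) :
    0 ≤ lowK M0 Φ i z z' := by
  refine frm_nonneg fun b c => ?_
  split_ifs
  · exact h _ _
  · exact le_rfl

/-- dyadic decomposition -/
theorem frm_dy {M0 : ℕ} (hM : 0 < M0) (Φ : ℕ → ℕ → ℝ) (z z' : ℕ) :
    frm M0 (fun u u' => Φ (u * z) (u' * z')) =
      ∑ i ∈ range (Nat.log 2 M0 + 1), lowK M0 Φ i z z' := by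
  unfold lowK
  rw [← frm_sum]
  refine frm_congr fun u u' hu hu' => ?_
  rw [Finset.sum_ite_eq]
  have h1 : Nat.gcd u u' ≤ M0 := Nat.le_of_dvd hM ((Nat.gcd_dvd_left u u').trans hu)
  rw [if_pos (Finset.mem_range.2 (Nat.lt_succ_of_le (Nat.log_mono_right h1)))]

/-- the diagonal -/
lemma frm_diag (M : ℕ) (f : ℕ → ℝ) :
    frm M (fun b c => if b = c then f b * f c else 0) ≤ ∑ b ∈ M.divisors, nu M b * f b ^ 2 := by
  unfold frm
  refine Finset.sum_le_sum fun b hb => ?_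
  have hb' := hb
  rw [Nat.mem_divisors] at hb'
  rw [Finset.sum_eq_single b]
  · simp only [if_true, Nat.gcd_self]
    have h1 := PureL2x232.V_le hb'.1
    have h2 := nu_nonneg M b
    have h3 : 0 ≤ nu M b * f b ^ 2 := mul_nonneg h2 (sq_nonneg _)
    calc (b : ℝ) * nu M b * nu M b * (f b * f b) = (b * nu M b) * (nu M b * f b ^ 2) := by ring
      _ ≤ 1 * (nu M b * f b ^ 2) := mul_le_mul_of_nonneg_right h1 h3
      _ = _ := one_mul _
  · intro c _ hc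
    simp only [if_neg (Ne.symm hc), mul_zero]
  · intro h
    exact absurd hb h

open Classical in
/-- **THE ASSEMBLY LEMMA.**  `T` : finite set of scales, `P i` : pure relation, `N t i` : good
non-pure pairs at scale `t` and low gcd `~ 2^i`. -/
theorem assembly {τ : Type*} {M0 M1 : ℕ} (hco : Nat.Coprime M0 M1) (hM0 : 0 < M0)
    {Φ : ℕ → ℕ → ℝ}
    {A : ℕ → ℝ} {f : ℕ → ℕ → ℝ} (hA : ∀ i, 0 ≤ A i) (hf : ∀ i z, 0 ≤ f i z)
    {P : ℕ → ℕ → ℕ → Prop} {T : Finset τ} {N : τ → ℕ → ℕ → ℕ → Prop} {Cp : ℝ} {ε : τ → ℝ}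
    {Fm : ℝ} (hCp : 0 ≤ Cp) (hε : ∀ t ∈ T, 0 ≤ ε t)
    (hlow : ∀ i z z', z ∣ M1 → z' ∣ M1 → lowK M0 Φ i z z' ≤ A i * (f i z * f i z'))
    (hcls : ∀ i z z', z ∣ M1 → z' ∣ M1 → lowK M0 Φ i z z' ≠ 0 →
      z = z' ∨ P i z z' ∨ ∃ t ∈ T, N t i z z')
    (hP : ∀ i, frm M1 (fun z z' => if P i z z' then f i z * f i z' else 0) ≤
      Cp * ∑ z ∈ M1.divisors, nu M1 z * f i z ^ 2)
    (hN : ∀ t ∈ T, ∀ i, frm M1 (fun z z' => if N t i z z' then f i z * f i z' else 0) ≤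
      ε t * ∑ z ∈ M1.divisors, nu M1 z * f i z ^ 2)
    (hF : ∑ i ∈ range (Nat.log 2 M0 + 1), A i * ∑ z ∈ M1.divisors, nu M1 z * f i z ^ 2 ≤ Fm) :
    frm (M0 * M1) Φ ≤ (1 + Cp + ∑ t ∈ T, ε t) * Fm := by
  have hS : 0 ≤ 1 + Cp + ∑ t ∈ T, ε t := by
    have := Finset.sum_nonneg hε
    linarith
  have key : ∀ i, frm M1 (fun z z' => lowK M0 Φ i z z') ≤
      (1 + Cp + ∑ t ∈ T, ε t) * (A i * ∑ z ∈ M1.divisors, nu M1 z * f i z ^ 2) := by
    intro i
    set Q := ∑ z ∈ M1.divisors, nu M1 z * f i z ^ 2 with hQ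
    have h1 : frm M1 (fun z z' => lowK M0 Φ i z z') ≤
        frm M1 (fun z z' => A i * ((if z = z' then f i z * f i z' else 0) +
          ((if P i z z' then f i z * f i z' else 0) +
            ∑ t ∈ T, (if N t i z z' then f i z * f i z' else 0)))) := by
      refine frm_le fun z z' hz hz' => ?_
      have hff : 0 ≤ f i z * f i z' := mul_nonneg (hf i z) (hf i z')
      have hs : ∀ t ∈ T, 0 ≤ (if N t i z z' then f i z * f i z' else 0) := by
        intro t _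
        split_ifs
        · exact hff
        · exact le_rfl
      have h2 : 0 ≤ (if z = z' then f i z * f i z' else 0) := by
        split_ifs
        · exact hff
        · exact le_rfl
      have h3 : 0 ≤ (if P i z z' then f i z * f i z' else 0) := by
        split_ifs
        · exact hff
        · exact le_rfl
      have h4 := Finset.sum_nonneg hs
      by_cases h0 : lowK M0 Φ i z z' = 0
      · rw [h0]
        exact mul_nonneg (hA i) (by linarith)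
      · refine (hlow i z z' hz hz').trans (mul_le_mul_of_nonneg_left ?_ (hA i))
        rcases hcls i z z' hz hz' h0 with h | h | ⟨t, ht, h⟩
        · rw [if_pos h] at h2 ⊢
          linarith
        · rw [if_pos h] at h3 ⊢
          linarith
        · have h5 := Finset.single_le_sum hs ht
          rw [if_pos h] at h5
          linarith
    have h2 : frm M1 (fun z z' => A i * ((if z = z' then f i z * f i z' else 0) +
          ((if P i z z' then f i z * f i z' else 0) +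
            ∑ t ∈ T, (if N t i z z' then f i z * f i z' else 0)))) ≤
        A i * (Q + (Cp * Q + ∑ t ∈ T, ε t * Q)) := by
      rw [frm_smul, frm_add, frm_add, frm_sum]
      refine mul_le_mul_of_nonneg_left ?_ (hA i)
      refine add_le_add (frm_diag M1 (f i)) (add_le_add (hP i) ?_)
      exact Finset.sum_le_sum fun t ht => hN t ht i
    refine (h1.trans h2).trans (le_of_eq ?_)
    rw [← Finset.sum_mul]
    ring
  calc frm (M0 * M1) Φ
      = frm M1 (fun z z' => ∑ i ∈ range (Nat.log 2 M0 + 1), lowK M0 Φ i z z') := by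
        rw [frm_mul hco]
        exact frm_congr fun z z' _ _ => frm_dy hM0 Φ z z'
    _ = ∑ i ∈ range (Nat.log 2 M0 + 1), frm M1 (fun z z' => lowK M0 Φ i z z') := frm_sum _ _
    _ ≤ ∑ i ∈ range (Nat.log 2 M0 + 1), (1 + Cp + ∑ t ∈ T, ε t) *
          (A i * ∑ z ∈ M1.divisors, nu M1 z * f i z ^ 2) := Finset.sum_le_sum fun i _ => key i
    _ = (1 + Cp + ∑ t ∈ T, ε t) * ∑ i ∈ range (Nat.log 2 M0 + 1),
          (A i * ∑ z ∈ M1.divisors, nu M1 z * f i z ^ 2) := by rw [Finset.mul_sum]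
    _ ≤ _ := mul_le_mul_of_nonneg_left hF hS

open Classical in
/-- assembly with 232's pure relations: constant `5 + Σ ε` -/
theorem assembly_pure {τ : Type*} {M0 M1 : ℕ} (hco : Nat.Coprime M0 M1) (hM0 : 0 < M0)
    {Φ : ℕ → ℕ → ℝ}
    {A : ℕ → ℝ} {f : ℕ → ℕ → ℝ} (hA : ∀ i, 0 ≤ A i) (hf : ∀ i z, 0 ≤ f i z)
    {P : ℕ → ℕ → ℕ → Prop} {T : Finset τ} {N : τ → ℕ → ℕ → ℕ → Prop} {ε : τ → ℝ}
    {Fm : ℝ} (hε : ∀ t ∈ T, 0 ≤ ε t)
    (hlow : ∀ i z z', z ∣ M1 → z' ∣ M1 → lowK M0 Φ i z z' ≤ A i * (f i z * f i z'))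
    (hcls : ∀ i z z', z ∣ M1 → z' ∣ M1 → lowK M0 Φ i z z' ≠ 0 →
      z = z' ∨ P i z z' ∨ ∃ t ∈ T, N t i z z')
    (hP : ∀ i, PureL2x232.PureRel M1 (P i))
    (hN : ∀ t ∈ T, ∀ i, frm M1 (fun z z' => if N t i z z' then f i z * f i z' else 0) ≤
      ε t * ∑ z ∈ M1.divisors, nu M1 z * f i z ^ 2)
    (hF : ∑ i ∈ range (Nat.log 2 M0 + 1), A i * ∑ z ∈ M1.divisors, nu M1 z * f i z ^ 2 ≤ Fm) :
    frm (M0 * M1) Φ ≤ (5 + ∑ t ∈ T, ε t) * Fm := by
  have := assembly hco hM0 hA hf (by norm_num : (0:ℝ) ≤ 4) hε hlow hcls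
    (fun i => PureL2x232.pure_energy' (hP i) (f i) (hf i)) hN hF
  have e : (1 + 4 + ∑ t ∈ T, ε t : ℝ) = 5 + ∑ t ∈ T, ε t := by ring
  rwa [e] at this


/-! ### MX -/

/-- mass of the fibre of `B` over `z` -/
noncomputable def Vz (M0 : ℕ) (B : Finset ℕ) (z : ℕ) : ℝ := by
  classical exact ∑ u ∈ M0.divisors, if u * z ∈ B then nu M0 u else 0

lemma Vz_nonneg (M0 : ℕ) (B : Finset ℕ) (z : ℕ) : 0 ≤ Vz M0 B z := by
  classical
  unfold Vz
  refine Finset.sum_nonneg fun u _ => ?_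
  split_ifs
  · exact nu_nonneg _ _
  · exact le_rfl

lemma sum_Vz {M0 M1 : ℕ} (hco : Nat.Coprime M0 M1) {B : Finset ℕ} (hB : B ⊆ (M0 * M1).divisors) :
    ∑ z ∈ M1.divisors, nu M1 z * Vz M0 B z = ∑ b ∈ B, nu (M0 * M1) b := by
  classical
  have h1 : ∑ b ∈ B, nu (M0 * M1) b =
      ∑ b ∈ (M0 * M1).divisors, if b ∈ B then nu (M0 * M1) b else 0 := by
    rw [← Finset.sum_filter]
    congr 1
    ext b
    rw [Finset.mem_filter]
    exact ⟨fun h => ⟨hB h, h⟩, fun h => h.2⟩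
  rw [h1, sum_mul hco, Finset.sum_comm]
  unfold Vz
  refine Finset.sum_congr rfl fun z hz => ?_
  rw [Finset.mul_sum]
  refine Finset.sum_congr rfl fun u hu => ?_
  rw [Nat.mem_divisors] at hz hu
  split_ifs
  · rw [nu_mul hco hu.1 hz.1, mul_comm]
  · rw [mul_zero]

/-- geometric sum below a threshold -/
lemma geo_thr {y Γ η : ℝ} (hy : 0 ≤ y) (hΓ : 0 < Γ) (hη : 0 < η) (n : ℕ) :
    ∑ i ∈ range n, (if 2 ^ i * y ≤ Γ then (2 ^ i * y) ^ η else 0) ≤
      Γ ^ η / (1 - (2 : ℝ) ^ (-η)) := by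
  classical
  set r : ℝ := (2 : ℝ) ^ (-η) with hr
  have hr0 : 0 < r := by positivity
  have hr1 : r < 1 := Real.rpow_lt_one_of_one_lt_of_neg (by norm_num) (by linarith)
  have hRHS : 0 ≤ Γ ^ η / (1 - r) := div_nonneg (by positivity) (by linarith)
  rcases hy.eq_or_lt with h0 | h0
  · rw [← h0]
    refine le_trans (le_of_eq ?_) hRHS
    refine Finset.sum_eq_zero fun i _ => ?_
    rw [mul_zero, Real.zero_rpow hη.ne']
    simp
  rw [← Finset.sum_filter]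
  set S := (range n).filter (fun i => (2 : ℝ) ^ i * y ≤ Γ) with hS
  rcases S.eq_empty_or_nonempty with he | hne
  · rw [he, Finset.sum_empty]
    exact hRHS
  set I := S.max' hne with hI
  have hIS : I ∈ S := Finset.max'_mem _ _
  have hIΓ : (2 : ℝ) ^ I * y ≤ Γ := (Finset.mem_filter.1 hIS).2
  have h1 : ∀ i ∈ S, ((2 : ℝ) ^ i * y) ^ η ≤ Γ ^ η * r ^ (I - i) := by
    intro i hi
    have hiI : i ≤ I := Finset.le_max' _ _ hi
    obtain ⟨k, hk⟩ := Nat.exists_eq_add_of_le hiI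
    have e1 : I - i = k := by omega
    have e2 : ((2 : ℝ) ^ i * y) ^ η = ((2 : ℝ) ^ I * y) ^ η * r ^ k := by
      have e3 : (2 : ℝ) ^ I * y = (2 : ℝ) ^ k * ((2 : ℝ) ^ i * y) := by
        rw [hk, pow_add]; ring
      have hk2 : ((2 : ℝ) ^ k) ^ η = (2 : ℝ) ^ ((k : ℝ) * η) := by
        rw [← Real.rpow_natCast, ← Real.rpow_mul (by norm_num)]
      have hr2 : r ^ k = (2 : ℝ) ^ (-η * (k : ℝ)) := by
        rw [hr, ← Real.rpow_natCast, ← Real.rpow_mul (by norm_num)]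
      have e4 : (2 : ℝ) ^ ((k : ℝ) * η) * (2 : ℝ) ^ (-η * (k : ℝ)) = 1 := by
        rw [← Real.rpow_add (by norm_num)]
        rw [show (k : ℝ) * η + -η * (k : ℝ) = 0 by ring, Real.rpow_zero]
      have e5 : ((2 : ℝ) ^ k * ((2 : ℝ) ^ i * y)) ^ η =
          ((2 : ℝ) ^ k) ^ η * ((2 : ℝ) ^ i * y) ^ η :=
        Real.mul_rpow (by positivity) (by positivity)
      rw [e3, e5, hk2, hr2]
      calc ((2 : ℝ) ^ i * y) ^ η = ((2 : ℝ) ^ i * y) ^ η *
            ((2 : ℝ) ^ ((k : ℝ) * η) * (2 : ℝ) ^ (-η * (k : ℝ))) := by rw [e4, mul_one]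
        _ = _ := by ring
    rw [e1, e2]
    exact mul_le_mul_of_nonneg_right (Real.rpow_le_rpow (by positivity) hIΓ hη.le) (by positivity)
  have h2 : ∑ i ∈ S, r ^ (I - i) ≤ (1 - r)⁻¹ := by
    have hinj : Set.InjOn (fun i : ℕ => I - i) S := by
      intro a ha b hb hab
      have h3 : a ≤ I := Finset.le_max' _ _ ha
      have h4 : b ≤ I := Finset.le_max' _ _ hb
      simp only at hab
      omega
    have h5 : ∑ i ∈ S, r ^ (I - i) = ∑ k ∈ S.image (fun i : ℕ => I - i), r ^ k := by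
      rw [Finset.sum_image hinj]
    rw [h5]
    exact sum_le_hasSum _ (fun n _ => pow_nonneg hr0.le n)
      (hasSum_geometric_of_lt_one hr0.le hr1)
  calc ∑ i ∈ S, ((2 : ℝ) ^ i * y) ^ η ≤ ∑ i ∈ S, Γ ^ η * r ^ (I - i) := Finset.sum_le_sum h1
    _ = Γ ^ η * ∑ i ∈ S, r ^ (I - i) := by rw [Finset.mul_sum]
    _ ≤ Γ ^ η * (1 - r)⁻¹ := mul_le_mul_of_nonneg_left h2 (by positivity)
    _ = Γ ^ η / (1 - r) := by rw [div_eq_mul_inv]

/-- the weight function of MX -/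
noncomputable def fX (V : ℕ → ℝ) (η Γ : ℝ) (i z : ℕ) : ℝ :=
  if 2 ^ i * V z ≤ Γ then (2 ^ i * V z) ^ ((1 + η) / 2) else 0

lemma fX_nonneg {V : ℕ → ℝ} (hV : ∀ z, 0 ≤ V z) (η Γ : ℝ) (i z : ℕ) : 0 ≤ fX V η Γ i z := by
  unfold fX
  split_ifs
  · exact Real.rpow_nonneg (mul_nonneg (by positivity) (hV z)) _
  · exact le_rfl

/-- **the sum over the dyadic low gcd** -/
theorem mx_sum {M1 : ℕ} {V : ℕ → ℝ} (hV : ∀ z, 0 ≤ V z) {C1 Γ η : ℝ} (hC1 : 0 ≤ C1)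
    (hΓ : 0 < Γ) (hη : 0 < η) (n : ℕ) :
    ∑ i ∈ range n, (C1 * ((2 : ℝ) ^ i)⁻¹) * ∑ z ∈ M1.divisors, nu M1 z * fX V η Γ i z ^ 2 ≤
      C1 * (Γ ^ η / (1 - (2 : ℝ) ^ (-η))) * ∑ z ∈ M1.divisors, nu M1 z * V z := by
  classical
  have h1 : ∀ i z, ((2 : ℝ) ^ i)⁻¹ * fX V η Γ i z ^ 2 =
      V z * (if 2 ^ i * V z ≤ Γ then (2 ^ i * V z) ^ η else 0) := by
    intro i z
    unfold fX
    split_ifs with h
    · have hx : 0 ≤ 2 ^ i * V z := mul_nonneg (by positivity) (hV z)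
      rcases hx.eq_or_lt with h0 | h0
      · have hVz : V z = 0 := by
          have := h0.symm
          rcases mul_eq_zero.1 this with h' | h'
          · exact absurd h' (by positivity)
          · exact h'
        have hne : (1 + η) / 2 ≠ 0 := by positivity
        rw [hVz, mul_zero, Real.zero_rpow hne]
        simp
      · have e1 : ((2 ^ i * V z) ^ ((1 + η) / 2)) ^ 2 = (2 ^ i * V z) * (2 ^ i * V z) ^ η := by
          rw [← Real.rpow_natCast, ← Real.rpow_mul hx]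
          have e2 : (1 + η) / 2 * ((2 : ℕ) : ℝ) = 1 + η := by push_cast; ring
          rw [e2, Real.rpow_add h0, Real.rpow_one]
        rw [e1]
        field_simp
    · ring
  calc ∑ i ∈ range n, (C1 * ((2 : ℝ) ^ i)⁻¹) * ∑ z ∈ M1.divisors, nu M1 z * fX V η Γ i z ^ 2
      = ∑ i ∈ range n, ∑ z ∈ M1.divisors, C1 * (nu M1 z * (V z *
          (if 2 ^ i * V z ≤ Γ then (2 ^ i * V z) ^ η else 0))) := by
        refine Finset.sum_congr rfl fun i _ => ?_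
        rw [Finset.mul_sum]
        refine Finset.sum_congr rfl fun z _ => ?_
        rw [← h1 i z]
        ring
    _ = ∑ z ∈ M1.divisors, C1 * (nu M1 z * (V z *
          ∑ i ∈ range n, (if 2 ^ i * V z ≤ Γ then (2 ^ i * V z) ^ η else 0))) := by
        rw [Finset.sum_comm]
        refine Finset.sum_congr rfl fun z _ => ?_
        rw [Finset.mul_sum, Finset.mul_sum, Finset.mul_sum]
    _ ≤ ∑ z ∈ M1.divisors, C1 * (nu M1 z * (V z * (Γ ^ η / (1 - (2 : ℝ) ^ (-η))))) := by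
        refine Finset.sum_le_sum fun z _ => ?_
        refine mul_le_mul_of_nonneg_left ?_ hC1
        refine mul_le_mul_of_nonneg_left ?_ (nu_nonneg _ _)
        exact mul_le_mul_of_nonneg_left (geo_thr (hV z) hΓ hη n) (hV z)
    _ = _ := by
        rw [Finset.mul_sum]
        refine Finset.sum_congr rfl fun z _ => ?_
        ring

open Classical in
/-- **MX** (abstract `V`, kernel `Φ`). -/
theorem mx {τ : Type*} {M0 M1 : ℕ} (hco : Nat.Coprime M0 M1) (hM0 : 0 < M0)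
    {Φ : ℕ → ℕ → ℝ} {V : ℕ → ℝ} (hV : ∀ z, 0 ≤ V z) {C1 Γ η : ℝ} (hC1 : 0 ≤ C1)
    (hΓ : 0 < Γ) (hη : 0 < η)
    {P : ℕ → ℕ → ℕ → Prop} {T : Finset τ} {N : τ → ℕ → ℕ → ℕ → Prop} {ε : τ → ℝ}
    (hε : ∀ t ∈ T, 0 ≤ ε t)
    (hlow : ∀ i z z', z ∣ M1 → z' ∣ M1 → lowK M0 Φ i z z' ≤
      C1 * ((2 : ℝ) ^ i)⁻¹ * ((2 ^ i * V z) * (2 ^ i * V z')) ^ ((1 + η) / 2))
    (hcls : ∀ i z z', z ∣ M1 → z' ∣ M1 → lowK M0 Φ i z z' ≠ 0 →
      2 ^ i * V z ≤ Γ ∧ 2 ^ i * V z' ≤ Γ ∧ (z = z' ∨ P i z z' ∨ ∃ t ∈ T, N t i z z'))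
    (hP : ∀ i, PureL2x232.PureRel M1 (P i))
    (hN : ∀ t ∈ T, ∀ i, frm M1 (fun z z' => if N t i z z' then
        fX V η Γ i z * fX V η Γ i z' else 0) ≤
      ε t * ∑ z ∈ M1.divisors, nu M1 z * fX V η Γ i z ^ 2) :
    frm (M0 * M1) Φ ≤ (5 + ∑ t ∈ T, ε t) *
      (C1 * (Γ ^ η / (1 - (2 : ℝ) ^ (-η))) * ∑ z ∈ M1.divisors, nu M1 z * V z) := by
  refine assembly_pure (A := fun i => C1 * ((2 : ℝ) ^ i)⁻¹) (f := fX V η Γ) hco hM0
    (fun i => by positivity) (fX_nonneg hV η Γ) hε ?_ ?_ hP hN (mx_sum hV hC1 hΓ hη _)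
  · intro i z z' hz hz'
    have hff := mul_nonneg (fX_nonneg hV η Γ i z) (fX_nonneg hV η Γ i z')
    by_cases h0 : lowK M0 Φ i z z' = 0
    · rw [h0]
      exact mul_nonneg (by positivity) hff
    · obtain ⟨h1, h2, _⟩ := hcls i z z' hz hz' h0
      refine (hlow i z z' hz hz').trans (le_of_eq ?_)
      rw [Real.mul_rpow (mul_nonneg (by positivity) (hV z)) (mul_nonneg (by positivity) (hV z'))]
      unfold fX
      rw [if_pos h1, if_pos h2]
  · intro i z z' hz hz' h0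
    exact (hcls i z z' hz hz' h0).2.2

end Crest.Agent.R4C.Asmx946
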