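import Crest.Agent.R4C.Base_935
import Crest.Agent.Lib.Mertens

/-!
# Row 4: pivots (helper80)

Bonferroni / Cauchy count of almost disjoint heavy events, and its two uses in row 4, in the
language of `Base_935` (divisors of an arbitrary `M`, law `nu M b = φ(M/b)/M`).

* `bonf`       : abstract count.  Events of mass `≥ a`, overlaps (of events with different keys)
                 `≤ o`, multiplicity `≤ R` for one key, total mass `≤ m`, `2 m o ≤ a²`;
                 then the sum of all masses is `≤ 2 m R` (so the number is `≤ 2 m R / a`).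
* `bonf_union` : plain Bonferroni, `Σ mass ≤ m + Σ_{i≠j} overlap / 2 ...` (no smallness needed).
* `mass_mult`, `mass_rough` : exact natural masses of `{b : h ∣ b}` and of
                 `{b : h ∣ b, b/h has only primes > Y}`.
* `pivots`     : 2645 (1), number of active pivots.
* `dense_row`  : 2520 (1), row bound for the dense nodes.
-/

set_option autoImplicit false

open Finset

namespace Crest.Agent.R4C.Pivotsx80

open Crest.Agent.R4C.Basex935

/-! ### abstract count -/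

section abstract
variable {Ω ι κ : Type*} [DecidableEq Ω] [DecidableEq κ]

/-- second moment form: `S² ≤ m (R S + (#I)² o)` -/
theorem bonf_sq (Om : Finset Ω) (I : Finset ι) (key : ι → κ) (A : ι → Finset Ω) (μ : Ω → ℝ)
    {o m R : ℝ} (hμ : ∀ x ∈ Om, 0 ≤ μ x) (hA : ∀ i ∈ I, A i ⊆ Om) (ho : 0 ≤ o)
    (hov : ∀ i ∈ I, ∀ j ∈ I, key i ≠ key j → ∑ x ∈ A i ∩ A j, μ x ≤ o)
    (hR : ∀ x ∈ Om, ∀ i ∈ I, x ∈ A i → ((I.filter fun j => key j = key i ∧ x ∈ A j).card : ℝ) ≤ R)
    (hm : ∑ x ∈ Om, μ x ≤ m) :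
    (∑ i ∈ I, ∑ x ∈ A i, μ x) ^ 2 ≤
      m * (R * (∑ i ∈ I, ∑ x ∈ A i, μ x) + (I.card : ℝ) ^ 2 * o) := by
  classical
  set S := ∑ i ∈ I, ∑ x ∈ A i, μ x with hS
  set cnt : Ω → ℝ := fun x => ∑ i ∈ I, if x ∈ A i then (1 : ℝ) else 0 with hcnt
  have hsum : ∀ i ∈ I, ∑ x ∈ A i, μ x = ∑ x ∈ Om, μ x * (if x ∈ A i then (1 : ℝ) else 0) := by
    intro i hi
    rw [← Finset.sum_filter_add_sum_filter_not Om (fun x => x ∈ A i)]
    have h1 : Om.filter (fun x => x ∈ A i) = A i := by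
      ext x
      simp only [Finset.mem_filter]
      exact ⟨fun h => h.2, fun h => ⟨hA i hi h, h⟩⟩
    have h2 : ∑ x ∈ Om.filter (fun x => ¬ x ∈ A i), μ x * (if x ∈ A i then (1 : ℝ) else 0) = 0 := by
      refine Finset.sum_eq_zero fun x hx => ?_
      rw [if_neg (Finset.mem_filter.1 hx).2, mul_zero]
    rw [h2, add_zero, h1]
    exact Finset.sum_congr rfl fun x hx => by rw [if_pos hx, mul_one]
  have hS1 : S = ∑ x ∈ Om, μ x * cnt x := by
    rw [hS, Finset.sum_congr rfl hsum, Finset.sum_comm]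
    exact Finset.sum_congr rfl fun x _ => by rw [hcnt, Finset.mul_sum]
  -- Cauchy
  have hC : S ^ 2 ≤ (∑ x ∈ Om, μ x) * ∑ x ∈ Om, μ x * cnt x ^ 2 := by
    rw [hS1]
    have h := Finset.sum_mul_sq_le_sq_mul_sq Om (fun x => Real.sqrt (μ x))
      (fun x => Real.sqrt (μ x) * cnt x)
    have e1 : ∑ x ∈ Om, Real.sqrt (μ x) * (Real.sqrt (μ x) * cnt x) = ∑ x ∈ Om, μ x * cnt x :=
      Finset.sum_congr rfl fun x hx => by rw [← mul_assoc, Real.mul_self_sqrt (hμ x hx)]
    have e2 : ∑ x ∈ Om, Real.sqrt (μ x) ^ 2 = ∑ x ∈ Om, μ x :=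
      Finset.sum_congr rfl fun x hx => Real.sq_sqrt (hμ x hx)
    have e3 : ∑ x ∈ Om, (Real.sqrt (μ x) * cnt x) ^ 2 = ∑ x ∈ Om, μ x * cnt x ^ 2 :=
      Finset.sum_congr rfl fun x hx => by rw [mul_pow, Real.sq_sqrt (hμ x hx)]
    rw [e1, e2, e3] at h
    exact h
  -- the second moment
  have hsq : ∑ x ∈ Om, μ x * cnt x ^ 2 ≤ R * S + (I.card : ℝ) ^ 2 * o := by
    have hx : ∀ x ∈ Om, μ x * cnt x ^ 2 ≤
        R * (μ x * cnt x) + ∑ i ∈ I, ∑ j ∈ I, (if key i ≠ key j then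
          μ x * (if x ∈ A i ∩ A j then (1 : ℝ) else 0) else 0) := by
      intro x hxO
      have hsplit : cnt x ^ 2 = ∑ i ∈ I, ∑ j ∈ I,
          (if x ∈ A i then (1 : ℝ) else 0) * (if x ∈ A j then (1 : ℝ) else 0) := by
        rw [sq, hcnt, Finset.sum_mul_sum]
      have hi : ∀ i ∈ I, ∑ j ∈ I, (if x ∈ A i then (1 : ℝ) else 0) *
          (if x ∈ A j then (1 : ℝ) else 0) ≤ R * (if x ∈ A i then (1 : ℝ) else 0) +
            ∑ j ∈ I, (if key i ≠ key j then (if x ∈ A i ∩ A j then (1 : ℝ) else 0) else 0) := by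
        intro i hi
        by_cases hxi : x ∈ A i
        · rw [if_pos hxi, mul_one]
          have h1 : ∑ j ∈ I, (1 : ℝ) * (if x ∈ A j then (1 : ℝ) else 0) =
              ∑ j ∈ I, ((if key j = key i ∧ x ∈ A j then (1 : ℝ) else 0) +
                (if key i ≠ key j then (if x ∈ A i ∩ A j then (1 : ℝ) else 0) else 0)) := by
            refine Finset.sum_congr rfl fun j _ => ?_
            by_cases hk : key j = key i
            · have hk' : ¬ (key i ≠ key j) := by rw [not_not]; exact hk.symm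
              by_cases hxj : x ∈ A j
              · rw [if_pos hxj, if_pos ⟨hk, hxj⟩, if_neg hk']
                norm_num
              · rw [if_neg hxj, if_neg (fun h => hxj h.2), if_neg hk']
                norm_num
            · have hk' : key i ≠ key j := Ne.symm hk
              by_cases hxj : x ∈ A j
              · rw [if_pos hxj, if_neg (fun h => hk h.1), if_pos hk',
                  if_pos (Finset.mem_inter.2 ⟨hxi, hxj⟩)]
                norm_num
              · rw [if_neg hxj, if_neg (fun h => hk h.1), if_pos hk',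
                  if_neg (fun h => hxj (Finset.mem_inter.1 h).2)]
                norm_num
          rw [h1, Finset.sum_add_distrib]
          refine add_le_add ?_ le_rfl
          have h2 := hR x hxO i hi hxi
          rw [Finset.card_filter] at h2
          push_cast at h2
          exact h2
        · rw [if_neg hxi]
          have h0 : ∀ j ∈ I, (0 : ℝ) * (if x ∈ A j then (1 : ℝ) else 0) = 0 := fun j _ => zero_mul _
          rw [Finset.sum_congr rfl h0, Finset.sum_const_zero, mul_zero, zero_add]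
          refine Finset.sum_nonneg fun j _ => ?_
          split_ifs <;> norm_num
      have hcn : cnt x ^ 2 ≤ R * cnt x + ∑ i ∈ I, ∑ j ∈ I,
          (if key i ≠ key j then (if x ∈ A i ∩ A j then (1 : ℝ) else 0) else 0) := by
        rw [hsplit]
        refine (Finset.sum_le_sum hi).trans ?_
        rw [Finset.sum_add_distrib, ← Finset.mul_sum]
      have h3 := mul_le_mul_of_nonneg_left hcn (hμ x hxO)
      refine h3.trans (le_of_eq ?_)
      have e5 : μ x * ∑ i ∈ I, ∑ j ∈ I,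
            (if key i ≠ key j then (if x ∈ A i ∩ A j then (1 : ℝ) else 0) else 0) =
          ∑ i ∈ I, ∑ j ∈ I, (if key i ≠ key j then
            μ x * (if x ∈ A i ∩ A j then (1 : ℝ) else 0) else 0) := by
        rw [Finset.mul_sum]
        refine Finset.sum_congr rfl fun i _ => ?_
        rw [Finset.mul_sum]
        refine Finset.sum_congr rfl fun j _ => ?_
        split_ifs <;> simp
      rw [mul_add, e5]
      ring
    refine (Finset.sum_le_sum hx).trans ?_
    rw [Finset.sum_add_distrib, ← Finset.mul_sum, ← hS1]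
    refine add_le_add le_rfl ?_
    rw [Finset.sum_comm]
    have h4 : ∀ i ∈ I, ∑ x ∈ Om, ∑ j ∈ I, (if key i ≠ key j then
          μ x * (if x ∈ A i ∩ A j then (1 : ℝ) else 0) else 0) ≤ (I.card : ℝ) * o := by
      intro i hi
      rw [Finset.sum_comm]
      have h5 : ∀ j ∈ I, ∑ x ∈ Om, (if key i ≠ key j then
          μ x * (if x ∈ A i ∩ A j then (1 : ℝ) else 0) else 0) ≤ o := by
        intro j hj
        by_cases hk : key i ≠ key j
        · simp only [if_pos hk]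
          refine le_trans (le_of_eq ?_) (hov i hi j hj hk)
          rw [← Finset.sum_filter_add_sum_filter_not Om (fun x => x ∈ A i ∩ A j)]
          have h1 : Om.filter (fun x => x ∈ A i ∩ A j) = A i ∩ A j := by
            ext x
            simp only [Finset.mem_filter]
            exact ⟨fun h => h.2, fun h => ⟨hA i hi (Finset.mem_inter.1 h).1, h⟩⟩
          have h2 : ∑ x ∈ Om.filter (fun x => ¬ x ∈ A i ∩ A j),
              μ x * (if x ∈ A i ∩ A j then (1 : ℝ) else 0) = 0 := by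
            refine Finset.sum_eq_zero fun x hx => ?_
            rw [if_neg (Finset.mem_filter.1 hx).2, mul_zero]
          rw [h2, add_zero, h1]
          exact Finset.sum_congr rfl fun x hx => by rw [if_pos hx, mul_one]
        · simp only [if_neg hk, Finset.sum_const_zero]
          exact ho
      refine (Finset.sum_le_sum h5).trans (le_of_eq ?_)
      rw [Finset.sum_const, nsmul_eq_mul]
    refine (Finset.sum_le_sum h4).trans (le_of_eq ?_)
    rw [Finset.sum_const, nsmul_eq_mul]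
    ring
  have hm0 : 0 ≤ ∑ x ∈ Om, μ x := Finset.sum_nonneg hμ
  have hq0 : 0 ≤ ∑ x ∈ Om, μ x * cnt x ^ 2 :=
    Finset.sum_nonneg fun x hx => mul_nonneg (hμ x hx) (sq_nonneg _)
  calc S ^ 2 ≤ (∑ x ∈ Om, μ x) * ∑ x ∈ Om, μ x * cnt x ^ 2 := hC
    _ ≤ m * ∑ x ∈ Om, μ x * cnt x ^ 2 := mul_le_mul_of_nonneg_right hm hq0
    _ ≤ m * (R * S + (I.card : ℝ) ^ 2 * o) :=
        mul_le_mul_of_nonneg_left hsq (hm0.trans hm)

/-- **abstract count**: all masses together are `≤ 2 m R`, if `2 m o ≤ a²` -/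
theorem bonf (Om : Finset Ω) (I : Finset ι) (key : ι → κ) (A : ι → Finset Ω) (μ : Ω → ℝ)
    {a o m R : ℝ} (hμ : ∀ x ∈ Om, 0 ≤ μ x) (hA : ∀ i ∈ I, A i ⊆ Om) (ho : 0 ≤ o) (ha : 0 < a)
    (hR0 : 0 ≤ R) (hmass : ∀ i ∈ I, a ≤ ∑ x ∈ A i, μ x)
    (hov : ∀ i ∈ I, ∀ j ∈ I, key i ≠ key j → ∑ x ∈ A i ∩ A j, μ x ≤ o)
    (hR : ∀ x ∈ Om, ∀ i ∈ I, x ∈ A i → ((I.filter fun j => key j = key i ∧ x ∈ A j).card : ℝ) ≤ R)
    (hm : ∑ x ∈ Om, μ x ≤ m) (hs : 2 * m * o ≤ a ^ 2) :
    ∑ i ∈ I, ∑ x ∈ A i, μ x ≤ 2 * m * R ∧ (I.card : ℝ) * a ≤ 2 * m * R := by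
  have h1 := bonf_sq Om I key A μ hμ hA ho hov hR hm
  set S := ∑ i ∈ I, ∑ x ∈ A i, μ x with hS
  have hm0 : 0 ≤ m := (Finset.sum_nonneg hμ).trans hm
  have hN : (I.card : ℝ) * a ≤ S := by
    have := Finset.sum_le_sum hmass
    rw [Finset.sum_const, nsmul_eq_mul] at this
    exact this
  have hN0 : 0 ≤ (I.card : ℝ) * a := by positivity
  have hS0 : 0 ≤ S := hN0.trans hN
  have h2 : (I.card : ℝ) ^ 2 * a ^ 2 ≤ S ^ 2 := by
    rw [← mul_pow]
    exact pow_le_pow_left₀ hN0 hN 2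
  have h3 : 2 * (m * ((I.card : ℝ) ^ 2 * o)) ≤ S ^ 2 := by
    calc 2 * (m * ((I.card : ℝ) ^ 2 * o)) = (I.card : ℝ) ^ 2 * (2 * m * o) := by ring
      _ ≤ (I.card : ℝ) ^ 2 * a ^ 2 := mul_le_mul_of_nonneg_left hs (sq_nonneg _)
      _ ≤ S ^ 2 := h2
  have h4 : S * S ≤ (2 * m * R) * S := by nlinarith
  have h5 : S ≤ 2 * m * R := by
    rcases hS0.eq_or_lt with h | h
    · rw [← h]; positivity
    · exact le_of_mul_le_mul_right h4 h
  exact ⟨h5, hN.trans h5⟩

/-- version with keys = indices (`R = 1`) -/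
theorem bonf' [DecidableEq ι] (Om : Finset Ω) (I : Finset ι) (A : ι → Finset Ω) (μ : Ω → ℝ)
    {a o m : ℝ} (hμ : ∀ x ∈ Om, 0 ≤ μ x) (hA : ∀ i ∈ I, A i ⊆ Om) (ho : 0 ≤ o) (ha : 0 < a)
    (hmass : ∀ i ∈ I, a ≤ ∑ x ∈ A i, μ x)
    (hov : ∀ i ∈ I, ∀ j ∈ I, i ≠ j → ∑ x ∈ A i ∩ A j, μ x ≤ o)
    (hm : ∑ x ∈ Om, μ x ≤ m) (hs : 2 * m * o ≤ a ^ 2) :
    ∑ i ∈ I, ∑ x ∈ A i, μ x ≤ 2 * m ∧ (I.card : ℝ) * a ≤ 2 * m := by
  have h := bonf Om I (fun i => i) A μ (R := 1) hμ hA ho ha zero_le_one hmass hov ?_ hm hs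
  · rw [mul_one] at h
    exact h
  · intro x _ i hi hxi
    have : (I.filter fun j => j = i ∧ x ∈ A j) ⊆ {i} := by
      intro j hj
      rw [Finset.mem_singleton]
      exact (Finset.mem_filter.1 hj).2.1
    have h2 := Finset.card_le_card this
    rw [Finset.card_singleton] at h2
    exact_mod_cast h2

/-- plain Bonferroni: `Σ mass ≤ total + Σ_{i ≠ j} overlap` (ordered pairs, no factor `1/2` used) -/
theorem bonf_union [DecidableEq ι] (Om : Finset Ω) (I : Finset ι) (A : ι → Finset Ω) (μ : Ω → ℝ)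
    {o m : ℝ} (hμ : ∀ x ∈ Om, 0 ≤ μ x) (hA : ∀ i ∈ I, A i ⊆ Om) (ho : 0 ≤ o)
    (hov : ∀ i ∈ I, ∀ j ∈ I, i ≠ j → ∑ x ∈ A i ∩ A j, μ x ≤ o)
    (hm : ∑ x ∈ Om, μ x ≤ m) :
    ∑ i ∈ I, ∑ x ∈ A i, μ x ≤ m + (I.card : ℝ) ^ 2 * o := by
  classical
  have hsum : ∀ i ∈ I, ∑ x ∈ A i, μ x = ∑ x ∈ Om, μ x * (if x ∈ A i then (1 : ℝ) else 0) := by
    intro i hi
    rw [← Finset.sum_filter_add_sum_filter_not Om (fun x => x ∈ A i)]
    have h1 : Om.filter (fun x => x ∈ A i) = A i := by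
      ext x
      simp only [Finset.mem_filter]
      exact ⟨fun h => h.2, fun h => ⟨hA i hi h, h⟩⟩
    have h2 : ∑ x ∈ Om.filter (fun x => ¬ x ∈ A i), μ x * (if x ∈ A i then (1 : ℝ) else 0) = 0 := by
      refine Finset.sum_eq_zero fun x hx => ?_
      rw [if_neg (Finset.mem_filter.1 hx).2, mul_zero]
    rw [h2, add_zero, h1]
    exact Finset.sum_congr rfl fun x hx => by rw [if_pos hx, mul_one]
  have hpt : ∀ x ∈ Om, ∑ i ∈ I, μ x * (if x ∈ A i then (1 : ℝ) else 0) ≤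
      μ x + ∑ i ∈ I, ∑ j ∈ I.erase i, μ x * (if x ∈ A i ∩ A j then (1 : ℝ) else 0) := by
    intro x hx
    have hcount : ∀ i ∈ I, ∑ j ∈ I.erase i, (if x ∈ A i ∩ A j then (1 : ℝ) else 0) =
        (if x ∈ A i then (1 : ℝ) else 0) * ((∑ j ∈ I, (if x ∈ A j then (1 : ℝ) else 0)) - 1) := by
      intro i hi
      by_cases hxi : x ∈ A i
      · rw [if_pos hxi, one_mul]
        have h1 := Finset.add_sum_erase I (fun j => if x ∈ A j then (1 : ℝ) else 0) hi
        simp only [if_pos hxi] at h1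
        rw [← h1]
        have h2 : ∀ j ∈ I.erase i, (if x ∈ A i ∩ A j then (1 : ℝ) else 0) =
            (if x ∈ A j then (1 : ℝ) else 0) := by
          intro j _
          simp [Finset.mem_inter, hxi]
        rw [Finset.sum_congr rfl h2]
        ring
      · rw [if_neg hxi, zero_mul]
        refine Finset.sum_eq_zero fun j _ => ?_
        rw [if_neg]
        intro h
        exact hxi (Finset.mem_inter.1 h).1
    set c := ∑ j ∈ I, (if x ∈ A j then (1 : ℝ) else 0) with hc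
    have hcn : c = ((I.filter fun j => x ∈ A j).card : ℝ) := by
      rw [hc, Finset.card_filter]
      push_cast
      rfl
    have e1 : ∑ i ∈ I, μ x * (if x ∈ A i then (1 : ℝ) else 0) = μ x * c := by
      rw [← Finset.mul_sum]
    have e2 : ∑ i ∈ I, ∑ j ∈ I.erase i, μ x * (if x ∈ A i ∩ A j then (1 : ℝ) else 0) =
        μ x * (c * (c - 1)) := by
      rw [hc, Finset.sum_mul, Finset.mul_sum]
      refine Finset.sum_congr rfl fun i hi => ?_
      rw [← Finset.mul_sum, hcount i hi]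
    rw [e1, e2]
    have h0 := hμ x hx
    have h3 : c ≤ 1 + c * (c - 1) := by
      rw [hcn]
      nlinarith [sq_nonneg (((I.filter fun j => x ∈ A j).card : ℝ) - 1)]
    nlinarith [mul_le_mul_of_nonneg_left h3 h0]
  rw [Finset.sum_congr rfl hsum, Finset.sum_comm]
  refine (Finset.sum_le_sum hpt).trans ?_
  rw [Finset.sum_add_distrib]
  refine add_le_add hm ?_
  rw [Finset.sum_comm]
  have h4 : ∀ i ∈ I, ∑ x ∈ Om, ∑ j ∈ I.erase i, μ x * (if x ∈ A i ∩ A j then (1 : ℝ) else 0) ≤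
      (I.card : ℝ) * o := by
    intro i hi
    rw [Finset.sum_comm]
    have h5 : ∀ j ∈ I.erase i, ∑ x ∈ Om, μ x * (if x ∈ A i ∩ A j then (1 : ℝ) else 0) ≤ o := by
      intro j hj
      refine le_trans (le_of_eq ?_)
        (hov i hi j (Finset.mem_of_mem_erase hj) (Finset.ne_of_mem_erase hj).symm)
      rw [← Finset.sum_filter_add_sum_filter_not Om (fun x => x ∈ A i ∩ A j)]
      have h1 : Om.filter (fun x => x ∈ A i ∩ A j) = A i ∩ A j := by
        ext x
        simp only [Finset.mem_filter]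
        exact ⟨fun h => h.2, fun h => ⟨hA i hi (Finset.mem_inter.1 h).1, h⟩⟩
      have h2 : ∑ x ∈ Om.filter (fun x => ¬ x ∈ A i ∩ A j),
          μ x * (if x ∈ A i ∩ A j then (1 : ℝ) else 0) = 0 := by
        refine Finset.sum_eq_zero fun x hx => ?_
        rw [if_neg (Finset.mem_filter.1 hx).2, mul_zero]
      rw [h2, add_zero, h1]
      exact Finset.sum_congr rfl fun x hx => by rw [if_pos hx, mul_one]
    refine (Finset.sum_le_sum h5).trans ?_
    rw [Finset.sum_const, nsmul_eq_mul]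
    exact mul_le_mul_of_nonneg_right (by exact_mod_cast Finset.card_erase_le) ho
  refine (Finset.sum_le_sum h4).trans (le_of_eq ?_)
  rw [Finset.sum_const, nsmul_eq_mul]
  ring

end abstract

/-! ### natural masses -/

section masses

open Classical

/-- all primes of `n` are `> Y` -/
def Rough (Y : ℝ) (n : ℕ) : Prop := ∀ p : ℕ, p.Prime → p ∣ n → Y < p

lemma rough_one (Y : ℝ) : Rough Y 1 := fun _ hp h => absurd (Nat.dvd_one.1 h) hp.ne_one

lemma Rough.dvd {Y : ℝ} {a b : ℕ} (h : Rough Y b) (hab : a ∣ b) : Rough Y a :=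
  fun p hp hpa => h p hp (hpa.trans hab)

lemma rough_mul {Y : ℝ} {a b : ℕ} : Rough Y (a * b) ↔ Rough Y a ∧ Rough Y b := by
  constructor
  · exact fun h => ⟨h.dvd (Nat.dvd_mul_right a b), h.dvd (Nat.dvd_mul_left b a)⟩
  · rintro ⟨h1, h2⟩ p hp hd
    rcases hp.dvd_mul.1 hd with h | h
    · exact h1 p hp h
    · exact h2 p hp h

lemma Rough.lt_of_ne_one {Y : ℝ} {n : ℕ} (h : Rough Y n) (h0 : 0 < n) (h1 : n ≠ 1) : Y < n := by
  have hp := Nat.minFac_prime h1
  have h2 := h _ hp (Nat.minFac_dvd n)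
  have h3 : (n.minFac : ℝ) ≤ n := by exact_mod_cast Nat.minFac_le h0
  linarith

/-- `Σ_{σ ∣ N, σ Y-rough} ν_N(σ) = ∏_{p ∣ N, p ≤ Y} (1 - 1/p)` -/
theorem rough_sum (Y : ℝ) : ∀ N : ℕ, 0 < N →
    ∑ σ ∈ N.divisors, (if Rough Y σ then nu N σ else 0) =
      ∏ p ∈ N.primeFactors.filter (fun p : ℕ => (p : ℝ) ≤ Y), (1 - 1 / (p : ℝ)) := by
  refine ind_min ?_ ?_
  · simp [rough_one, nu]
  · intro p a M1 hp ha hM1 hnd _ ih
    have hcop : Nat.Coprime (p ^ a) M1 :=
      Nat.Coprime.pow_left a ((Nat.Prime.coprime_iff_not_dvd hp).2 hnd)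
    rw [sum_split hp a hM1 hnd]
    have hstep : ∀ v ∈ range (a + 1), ∑ b1 ∈ M1.divisors,
        (if Rough Y (p ^ v * b1) then nu (p ^ a * M1) (p ^ v * b1) else 0) =
        (if (v = 0 ∨ Y < p) then nup p a v else 0) *
          ∑ b1 ∈ M1.divisors, (if Rough Y b1 then nu M1 b1 else 0) := by
      intro v hv
      rw [Finset.mem_range] at hv
      rw [Finset.mul_sum]
      refine Finset.sum_congr rfl fun b1 hb1 => ?_
      rw [Nat.mem_divisors] at hb1
      have hnu : nu (p ^ a * M1) (p ^ v * b1) = nup p a v * nu M1 b1 := by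
        rw [nu_mul hcop (pow_dvd_pow p (by omega)) hb1.1, nu_prime_pow hp (by omega)]
      have hr : Rough Y (p ^ v) ↔ (v = 0 ∨ Y < p) := by
        constructor
        · intro h
          by_cases hv0 : v = 0
          · exact Or.inl hv0
          · exact Or.inr (h p hp (dvd_pow_self p hv0))
        · rintro (h | h)
          · rw [h, pow_zero]; exact rough_one Y
          · intro r hr hd
            have := (Nat.prime_dvd_prime_iff_eq hr hp).1 (hr.dvd_of_dvd_pow hd)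
            rw [this]; exact h
      rw [hnu]
      by_cases h1 : (v = 0 ∨ Y < p)
      · by_cases h2 : Rough Y b1
        · rw [if_pos (rough_mul.2 ⟨hr.2 h1, h2⟩), if_pos h1, if_pos h2]
        · rw [if_neg (fun h => h2 (rough_mul.1 h).2), if_neg h2, mul_zero]
      · rw [if_neg (fun h => h1 (hr.1 (rough_mul.1 h).1)), if_neg h1, zero_mul]
    rw [Finset.sum_congr rfl hstep, ← Finset.sum_mul, ih]
    have hpf : (p ^ a * M1).primeFactors = insert p M1.primeFactors := by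
      rw [Nat.Coprime.primeFactors_mul hcop, Nat.primeFactors_prime_pow ha.ne' hp]
      rfl
    have hpn : p ∉ M1.primeFactors := fun h => hnd (Nat.dvd_of_mem_primeFactors h)
    have hsum1 : ∑ v ∈ range (a + 1), nup p a v = 1 := by
      have h := sum_nu (pow_pos hp.pos a)
      rw [Nat.sum_divisors_prime_pow hp] at h
      rw [← h]
      refine Finset.sum_congr rfl fun v hv => ?_
      rw [Finset.mem_range] at hv
      rw [nu_prime_pow hp (by omega)]
    rw [hpf, Finset.filter_insert]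
    by_cases hY : (p : ℝ) ≤ Y
    · rw [if_pos hY, Finset.prod_insert (by
        intro h
        exact hpn (Finset.mem_filter.1 h).1)]
      congr 1
      rw [Finset.sum_range_succ']
      have h0 : ∑ k ∈ range a, (if (k + 1 = 0 ∨ Y < p) then nup p a (k + 1) else 0) = 0 := by
        refine Finset.sum_eq_zero fun k _ => ?_
        rw [if_neg]
        rintro (h | h)
        · omega
        · linarith
      rw [h0, zero_add, if_pos (Or.inl rfl)]
      unfold nup
      rw [if_pos ha]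
      simp
    · rw [if_neg hY]
      have h1 : ∀ v ∈ range (a + 1), (if (v = 0 ∨ Y < p) then nup p a v else 0) = nup p a v :=
        fun v _ => if_pos (Or.inr (lt_of_not_ge hY))
      rw [Finset.sum_congr rfl h1, hsum1, one_mul]

/-- thinning factor of the star of `h` at level `Y` -/
noncomputable def V (M : ℕ) (Y : ℝ) (h : ℕ) : ℝ :=
  ∏ p ∈ (M / h).primeFactors.filter (fun p : ℕ => (p : ℝ) ≤ Y), (1 - 1 / (p : ℝ))

/-- star of `h`: `h ∣ b` and `b / h` has only primes `> Y` -/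
noncomputable def St (M : ℕ) (Y : ℝ) (h : ℕ) : Finset ℕ :=
  M.divisors.filter (fun b => h ∣ b ∧ Rough Y (b / h))

lemma mem_St {M : ℕ} {Y : ℝ} {h b : ℕ} :
    b ∈ St M Y h ↔ (b ∣ M ∧ M ≠ 0) ∧ h ∣ b ∧ Rough Y (b / h) := by
  unfold St
  rw [Finset.mem_filter, Nat.mem_divisors]

lemma factor_bounds {p : ℕ} (hp : p.Prime) : 0 < 1 - 1 / (p : ℝ) ∧ 1 - 1 / (p : ℝ) ≤ 1 := by
  have h2 : (2 : ℝ) ≤ p := by exact_mod_cast hp.two_le
  have h3 : 1 / (p : ℝ) ≤ 1 / 2 := one_div_le_one_div_of_le (by norm_num) h2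
  have h4 : (0 : ℝ) ≤ 1 / p := by positivity
  constructor <;> linarith

lemma V_pos (M : ℕ) (Y : ℝ) (h : ℕ) : 0 < V M Y h :=
  Finset.prod_pos fun _ hp =>
    (factor_bounds (Nat.prime_of_mem_primeFactors (Finset.mem_filter.1 hp).1)).1

lemma V_le_one (M : ℕ) (Y : ℝ) (h : ℕ) : V M Y h ≤ 1 :=
  Finset.prod_le_one
    (fun _ hp => (factor_bounds (Nat.prime_of_mem_primeFactors (Finset.mem_filter.1 hp).1)).1.le)
    (fun _ hp => (factor_bounds (Nat.prime_of_mem_primeFactors (Finset.mem_filter.1 hp).1)).2)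

lemma nu_mul_left {M h σ : ℕ} (hM : 0 < M) (hh : h ∣ M) :
    nu M (h * σ) = nu (M / h) σ / h := by
  have hh0 : 0 < h := Nat.pos_of_dvd_of_pos hh hM
  have hhr : (h : ℝ) ≠ 0 := by exact_mod_cast hh0.ne'
  have hMr : (M : ℝ) ≠ 0 := by exact_mod_cast hM.ne'
  unfold nu
  rw [← Nat.div_div_eq_div_mul, Nat.cast_div hh hhr]
  field_simp

/-- **mass of a star** -/
theorem mass_rough {M : ℕ} (hM : 0 < M) (Y : ℝ) {h : ℕ} (hh : h ∣ M) :
    ∑ b ∈ St M Y h, nu M b = V M Y h / h := by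
  have hh0 : 0 < h := Nat.pos_of_dvd_of_pos hh hM
  have hMh : 0 < M / h := Nat.div_pos (Nat.le_of_dvd hM hh) hh0
  have hfac : M = h * (M / h) := (Nat.mul_div_cancel' hh).symm
  have h1 : ∑ b ∈ St M Y h, nu M b =
      ∑ σ ∈ (M / h).divisors.filter (fun σ => Rough Y σ), nu M (h * σ) := by
    symm
    refine Finset.sum_bij (fun σ _ => h * σ) ?_ ?_ ?_ ?_
    · intro σ hσ
      rw [Finset.mem_filter, Nat.mem_divisors] at hσ
      rw [mem_St]
      refine ⟨⟨?_, hM.ne'⟩, Nat.dvd_mul_right h σ, ?_⟩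
      · rw [hfac]; exact Nat.mul_dvd_mul_left h hσ.1.1
      · rw [Nat.mul_div_cancel_left σ hh0]; exact hσ.2
    · intro σ _ σ' _ he
      exact Nat.eq_of_mul_eq_mul_left hh0 he
    · intro b hb
      rw [mem_St] at hb
      obtain ⟨⟨hbM, _⟩, hhb, hr⟩ := hb
      refine ⟨b / h, ?_, Nat.mul_div_cancel' hhb⟩
      rw [Finset.mem_filter, Nat.mem_divisors]
      exact ⟨⟨Nat.div_dvd_div hhb hbM, hMh.ne'⟩, hr⟩
    · intro σ _; rfl
  rw [h1]
  have h2 : ∀ σ ∈ (M / h).divisors.filter (fun σ => Rough Y σ), nu M (h * σ) =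
      nu (M / h) σ / h := fun σ _ => nu_mul_left hM hh
  rw [Finset.sum_congr rfl h2, ← Finset.sum_div, Finset.sum_filter, rough_sum Y _ hMh]
  rfl

/-- mass of all multiples of `h` -/
theorem mass_mult {M : ℕ} (hM : 0 < M) {h : ℕ} (hh : h ∣ M) :
    ∑ b ∈ M.divisors.filter (fun b => h ∣ b), nu M b = 1 / h := by
  have h1 := mass_rough hM 0 hh
  have h2 : St M 0 h = M.divisors.filter (fun b => h ∣ b) := by
    unfold St
    refine Finset.filter_congr fun b _ => ?_
    refine ⟨fun h => h.1, fun h => ⟨h, fun p hp _ => ?_⟩⟩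
    exact_mod_cast hp.pos
  have h3 : V M 0 h = 1 := by
    unfold V
    refine Finset.prod_eq_one fun p hp => ?_
    rw [Finset.mem_filter] at hp
    have := (Nat.prime_of_mem_primeFactors hp.1).pos
    have h4 : (0 : ℝ) < p := by exact_mod_cast this
    linarith [hp.2]
  rw [h2, h3] at h1
  exact h1

lemma St_inter {M : ℕ} {Y : ℝ} {h h' : ℕ} (hh : 0 < h) (hh' : 0 < h') :
    St M Y h ∩ St M Y h' ⊆ St M Y (Nat.lcm h h') := by
  intro b hb
  rw [Finset.mem_inter, mem_St, mem_St] at hb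
  obtain ⟨⟨h1, h2, h3⟩, _, h4, _⟩ := hb
  rw [mem_St]
  refine ⟨h1, Nat.lcm_dvd h2 h4, ?_⟩
  refine h3.dvd ?_
  obtain ⟨c, hc⟩ := Nat.dvd_lcm_left h h'
  obtain ⟨d, hd⟩ := Nat.lcm_dvd h2 h4
  have hl : 0 < Nat.lcm h h' := Nat.lcm_pos hh hh'
  have e1 : b / Nat.lcm h h' = d := by
    conv_lhs => rw [hd]
    exact Nat.mul_div_cancel_left d hl
  have e2 : b / h = c * d := by
    conv_lhs => rw [hd, hc, mul_assoc]
    exact Nat.mul_div_cancel_left _ hh
  rw [e1, e2]
  exact Nat.dvd_mul_left d c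

lemma lcm_rough {M : ℕ} {Y : ℝ} {h h' b : ℕ} (hb : b ∈ St M Y h)
    (hb' : b ∈ St M Y h') : Rough Y (Nat.lcm h h' / h) := by
  rw [mem_St] at hb hb'
  obtain ⟨h1, h2, h3⟩ := hb
  refine h3.dvd ?_
  exact Nat.div_dvd_div (Nat.dvd_lcm_left h h') (Nat.lcm_dvd h2 hb'.2.1)

/-- two different pivots of the same dyadic size: `lcm > h Y` as soon as their stars meet -/
lemma lcm_gt {M : ℕ} {Y X : ℝ} {h h' b : ℕ} (hb : b ∈ St M Y h)
    (hb' : b ∈ St M Y h') (hX : 0 < X) (h1 : X ≤ h) (h2 : (h : ℝ) < 2 * X) (h1' : X ≤ h')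
    (_h2' : (h' : ℝ) < 2 * X) (hne : h ≠ h') : Y * h < Nat.lcm h h' := by
  have hh : 0 < h := by
    have : (0 : ℝ) < h := lt_of_lt_of_le hX h1
    exact_mod_cast this
  have hh' : 0 < h' := by
    have : (0 : ℝ) < h' := lt_of_lt_of_le hX h1'
    exact_mod_cast this
  have hr := lcm_rough hb hb'
  have hl : 0 < Nat.lcm h h' := Nat.lcm_pos hh hh'
  have hq : 0 < Nat.lcm h h' / h := Nat.div_pos (Nat.le_of_dvd hl (Nat.dvd_lcm_left h h')) hh
  have hq1 : Nat.lcm h h' / h ≠ 1 := by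
    intro h3
    have h4 : Nat.lcm h h' = h := by
      have := Nat.div_mul_cancel (Nat.dvd_lcm_left h h')
      rw [h3, one_mul] at this
      exact this.symm
    have h5 : h' ∣ h := by rw [← h4]; exact Nat.dvd_lcm_right h h'
    obtain ⟨k, hk⟩ := h5
    have hk2 : 2 ≤ k := by
      rcases Nat.lt_or_ge k 2 with h6 | h6
      · interval_cases k
        · rw [mul_zero] at hk; omega
        · rw [mul_one] at hk; exact absurd hk hne
      · exact h6
    have h7 : (h : ℝ) = h' * k := by exact_mod_cast hk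
    have h8 : (2 : ℝ) ≤ k := by exact_mod_cast hk2
    nlinarith
  have h3 := hr.lt_of_ne_one hq hq1
  have h4 : ((Nat.lcm h h' / h : ℕ) : ℝ) * h = (Nat.lcm h h' : ℕ) := by
    exact_mod_cast Nat.div_mul_cancel (Nat.dvd_lcm_left h h')
  rw [← h4]
  have h5 : (0 : ℝ) < h := by exact_mod_cast hh
  exact mul_lt_mul_of_pos_right h3 h5

end masses

/-! ### active pivots, 2645 (1) -/

section pivots

open Classical

/-- **2645 (1), number of active pivots** (nodes `i` = (pivot `hn i`, further label), `Q i b` = further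
condition of the node, at most `R` nodes over one pivot contain one `b`). -/
theorem pivots {ι : Type*} {M : ℕ} (hM : 0 < M) {L T Y v δ m R : ℝ} (hL : 0 < L) (hT : 0 < T)
    (hY : 0 < Y) (hv : 0 < v) (hδ : 0 < δ) (hR0 : 0 ≤ R)
    (B : Finset ℕ) (hmass : L * ∑ b ∈ B, nu M b ≤ m)
    (I : Finset ι) (hn : ι → ℕ) (Q : ι → ℕ → Prop)
    (h1 : ∀ i ∈ I, hn i ∣ M ∧ T * L ≤ hn i ∧ (hn i : ℝ) < 2 * (T * L))
    (hV : ∀ i ∈ I, v ≤ V M Y (hn i))
    (hact : ∀ i ∈ I, δ * (V M Y (hn i) / hn i) ≤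
      ∑ b ∈ B.filter (fun b => b ∈ St M Y (hn i) ∧ Q i b), nu M b)
    (hR : ∀ b ∈ B, ∀ i ∈ I, ((I.filter fun j => hn j = hn i ∧ Q j b).card : ℝ) ≤ R)
    (hs : 2 * m / (T * Y) ≤ (δ * v / (2 * T)) ^ 2) :
    (I.card : ℝ) * (δ * v / (2 * T)) ≤ 2 * m * R := by
  have hTL : 0 < T * L := by positivity
  have hpos : ∀ i ∈ I, (0 : ℝ) < hn i := fun i hi => lt_of_lt_of_le hTL (h1 i hi).2.1
  refine (bonf B I hn (fun i => B.filter (fun b => b ∈ St M Y (hn i) ∧ Q i b))
    (fun b => L * nu M b) (a := δ * v / (2 * T)) (o := 1 / (T * Y)) (m := m) (R := R)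
    (fun b _ => mul_nonneg hL.le (nu_nonneg M b)) (fun i _ => Finset.filter_subset _ _)
    (by positivity) (by positivity) hR0 ?_ ?_ ?_ ?_ ?_).2
  · intro i hi
    rw [← Finset.mul_sum]
    have h2 := mul_le_mul_of_nonneg_left (hact i hi) hL.le
    refine le_trans ?_ h2
    have h3 : v / (2 * (T * L)) ≤ V M Y (hn i) / hn i :=
      div_le_div₀ (V_pos M Y (hn i)).le (hV i hi) (hpos i hi) (h1 i hi).2.2.le
    have h4 : δ * v / (2 * T) = L * (δ * (v / (2 * (T * L)))) := by field_simp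
    rw [h4]
    exact mul_le_mul_of_nonneg_left (mul_le_mul_of_nonneg_left h3 hδ.le) hL.le
  · intro i hi j hj hij
    rcases Finset.eq_empty_or_nonempty
      ((B.filter (fun b => b ∈ St M Y (hn i) ∧ Q i b)) ∩
        (B.filter (fun b => b ∈ St M Y (hn j) ∧ Q j b))) with h0 | ⟨b0, hb0⟩
    · rw [h0, Finset.sum_empty]; positivity
    · rw [Finset.mem_inter, Finset.mem_filter, Finset.mem_filter] at hb0
      obtain ⟨⟨_, hbi, _⟩, _, hbj, _⟩ := hb0
      have hlt := lcm_gt hbi hbj hTL (h1 i hi).2.1 (h1 i hi).2.2 (h1 j hj).2.1 (h1 j hj).2.2 hij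
      have hni : 0 < hn i := by exact_mod_cast hpos i hi
      have hnj : 0 < hn j := by exact_mod_cast hpos j hj
      have hsub : (B.filter (fun b => b ∈ St M Y (hn i) ∧ Q i b)) ∩
          (B.filter (fun b => b ∈ St M Y (hn j) ∧ Q j b)) ⊆ St M Y (Nat.lcm (hn i) (hn j)) := by
        intro b hb
        rw [Finset.mem_inter, Finset.mem_filter, Finset.mem_filter] at hb
        exact St_inter hni hnj (Finset.mem_inter.2 ⟨hb.1.2.1, hb.2.2.1⟩)
      have hlM : Nat.lcm (hn i) (hn j) ∣ M := Nat.lcm_dvd (h1 i hi).1 (h1 j hj).1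
      have hl0 : (0 : ℝ) < (Nat.lcm (hn i) (hn j) : ℕ) := by
        exact_mod_cast Nat.lcm_pos hni hnj
      calc ∑ b ∈ (B.filter (fun b => b ∈ St M Y (hn i) ∧ Q i b)) ∩
            (B.filter (fun b => b ∈ St M Y (hn j) ∧ Q j b)), L * nu M b
          ≤ ∑ b ∈ St M Y (Nat.lcm (hn i) (hn j)), L * nu M b :=
            Finset.sum_le_sum_of_subset_of_nonneg hsub
              (fun b _ _ => mul_nonneg hL.le (nu_nonneg M b))
        _ = L * (V M Y (Nat.lcm (hn i) (hn j)) / (Nat.lcm (hn i) (hn j) : ℕ)) := by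
            rw [← Finset.mul_sum, mass_rough hM Y hlM]
        _ ≤ L * (1 / (Y * (T * L))) := by
            refine mul_le_mul_of_nonneg_left ?_ hL.le
            refine div_le_div₀ zero_le_one (V_le_one M Y _) (by positivity) ?_
            refine le_trans ?_ hlt.le
            exact mul_le_mul_of_nonneg_left (h1 i hi).2.1 hY.le
        _ = 1 / (T * Y) := by field_simp
  · intro b hb i hi hbi
    refine le_trans ?_ (hR b hb i hi)
    have hsub : (I.filter fun j => hn j = hn i ∧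
        b ∈ B.filter (fun b => b ∈ St M Y (hn j) ∧ Q j b)) ⊆
        I.filter fun j => hn j = hn i ∧ Q j b := by
      intro j hj
      rw [Finset.mem_filter] at hj ⊢
      exact ⟨hj.1, hj.2.1, (Finset.mem_filter.1 hj.2.2).2.2⟩
    exact_mod_cast Finset.card_le_card hsub
  · rw [← Finset.mul_sum]; exact hmass
  · refine le_trans (le_of_eq ?_) hs
    ring

end pivots

/-! ### dense nodes, 2520 (1) -/

section dense

open Classical

variable {M : ℕ} {x L T ε M0 : ℝ}

/-- two different nodes of the window `(L, T L]`, all primes `> x ≥ T`: `lcm > x L` -/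
lemma lcm_gt_window (hM : 0 < M) (hr : Rough x M) (hL : 0 < L) (hTx : T ≤ x) {G G' : ℕ}
    (hG : G ∣ M) (hG' : G' ∣ M) (h1 : L < G) (h2 : (G : ℝ) ≤ T * L) (h1' : L < G')
    (_h2' : (G' : ℝ) ≤ T * L) (hne : G ≠ G') : x * L < Nat.lcm G G' := by
  have hG0 : 0 < G := Nat.pos_of_dvd_of_pos hG hM
  have hG'0 : 0 < G' := Nat.pos_of_dvd_of_pos hG' hM
  have hx0 : 0 < x := by
    have h3 : 0 < T * L := lt_of_lt_of_le (hL.trans h1) h2
    have h4 : 0 < T := by
      by_contra h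
      push Not at h
      nlinarith
    linarith
  have hl : 0 < Nat.lcm G G' := Nat.lcm_pos hG0 hG'0
  have hlM : Nat.lcm G G' ∣ M := Nat.lcm_dvd hG hG'
  have hq : 0 < Nat.lcm G G' / G := Nat.div_pos (Nat.le_of_dvd hl (Nat.dvd_lcm_left G G')) hG0
  have hq1 : Nat.lcm G G' / G ≠ 1 := by
    intro h3
    have h4 : Nat.lcm G G' = G := by
      have := Nat.div_mul_cancel (Nat.dvd_lcm_left G G')
      rw [h3, one_mul] at this
      exact this.symm
    have h5 : G' ∣ G := by rw [← h4]; exact Nat.dvd_lcm_right G G'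
    obtain ⟨k, hk⟩ := h5
    have hk0 : 0 < k := by
      rcases Nat.eq_zero_or_pos k with h6 | h6
      · rw [h6, mul_zero] at hk; omega
      · exact h6
    have hk1 : k ≠ 1 := by
      intro h6
      rw [h6, mul_one] at hk
      exact hne hk
    have hkr : Rough x k := hr.dvd ((Dvd.intro_left G' hk.symm).trans hG)
    have h6 := hkr.lt_of_ne_one hk0 hk1
    have h7 : (G : ℝ) = G' * k := by exact_mod_cast hk
    have h8 : L * x < G' * k := by
      have h9 : (0 : ℝ) < G' := by exact_mod_cast hG'0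
      nlinarith
    nlinarith
  have hqr : Rough x (Nat.lcm G G' / G) :=
    (hr.dvd hlM).dvd (Nat.div_dvd_of_dvd (Nat.dvd_lcm_left G G'))
  have h3 := hqr.lt_of_ne_one hq hq1
  have h4 : ((Nat.lcm G G' / G : ℕ) : ℝ) * G = (Nat.lcm G G' : ℕ) := by
    exact_mod_cast Nat.div_mul_cancel (Nat.dvd_lcm_left G G')
  rw [← h4]
  have h5 : (0 : ℝ) < G := by exact_mod_cast hG0
  calc x * L < x * G := mul_lt_mul_of_pos_left h1 hx0
    _ < ((Nat.lcm G G' / G : ℕ) : ℝ) * G := mul_lt_mul_of_pos_right h3 h5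

/-- masses of the dense nodes -/
theorem dense_nodes (hM : 0 < M) (hr : Rough x M) (hx : 0 < x) (hL : 0 < L) (hT : 0 < T)
    (hTx : T ≤ x) (hε : 0 < ε) (B0 : Finset ℕ) (hB0 : B0 ⊆ M.divisors)
    (hM0 : L * ∑ b ∈ B0, nu M b ≤ M0) (D : Finset ℕ)
    (hD : ∀ G ∈ D, G ∣ M ∧ L < G ∧ (G : ℝ) ≤ T * L)
    (hdense : ∀ G ∈ D, ε ≤ G * ∑ b ∈ B0.filter (fun b => G ∣ b), nu M b)
    (hs : 2 * M0 * T ^ 2 ≤ ε ^ 2 * x) :
    ∑ G ∈ D, L * ∑ b ∈ B0.filter (fun b => G ∣ b), nu M b ≤ M0 + (D.card : ℝ) ^ 2 / x ∧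
    ∑ G ∈ D, L * ∑ b ∈ B0.filter (fun b => G ∣ b), nu M b ≤ 2 * M0 ∧
    (D.card : ℝ) * (ε / T) ≤ 2 * M0 := by
  have hov : ∀ G ∈ D, ∀ G' ∈ D, G ≠ G' →
      ∑ b ∈ B0.filter (fun b => G ∣ b) ∩ B0.filter (fun b => G' ∣ b), L * nu M b ≤ 1 / x := by
    intro G hG G' hG' hne
    have h1 := lcm_gt_window hM hr hL hTx (hD G hG).1 (hD G' hG').1 (hD G hG).2.1 (hD G hG).2.2
      (hD G' hG').2.1 (hD G' hG').2.2 hne
    have hlM : Nat.lcm G G' ∣ M := Nat.lcm_dvd (hD G hG).1 (hD G' hG').1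
    have hl0 : (0 : ℝ) < (Nat.lcm G G' : ℕ) := lt_trans (by positivity) h1
    calc ∑ b ∈ B0.filter (fun b => G ∣ b) ∩ B0.filter (fun b => G' ∣ b), L * nu M b
        ≤ ∑ b ∈ M.divisors.filter (fun b => Nat.lcm G G' ∣ b), L * nu M b := by
          refine Finset.sum_le_sum_of_subset_of_nonneg ?_
            (fun b _ _ => mul_nonneg hL.le (nu_nonneg M b))
          intro b hb
          rw [Finset.mem_inter, Finset.mem_filter, Finset.mem_filter] at hb
          exact Finset.mem_filter.2 ⟨hB0 hb.1.1, Nat.lcm_dvd hb.1.2 hb.2.2⟩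
      _ = L * (1 / (Nat.lcm G G' : ℕ)) := by rw [← Finset.mul_sum, mass_mult hM hlM]
      _ ≤ L * (1 / (x * L)) := by
          refine mul_le_mul_of_nonneg_left ?_ hL.le
          exact one_div_le_one_div_of_le (by positivity) h1.le
      _ = 1 / x := by field_simp
  have hnn : ∀ b ∈ B0, 0 ≤ L * nu M b := fun b _ => mul_nonneg hL.le (nu_nonneg M b)
  have hsubs : ∀ G ∈ D, B0.filter (fun b => G ∣ b) ⊆ B0 := fun G _ => Finset.filter_subset _ _
  have hm : ∑ b ∈ B0, L * nu M b ≤ M0 := by rw [← Finset.mul_sum]; exact hM0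
  have hmass : ∀ G ∈ D, ε / T ≤ ∑ b ∈ B0.filter (fun b => G ∣ b), L * nu M b := by
    intro G hG
    have h1 := hdense G hG
    have h2 := (hD G hG).2.2
    have hG0 : (0 : ℝ) < G := hL.trans (hD G hG).2.1
    rw [← Finset.mul_sum, div_le_iff₀ hT]
    set s := ∑ b ∈ B0.filter (fun b => G ∣ b), nu M b with hsdef
    have hs0 : 0 ≤ s := Finset.sum_nonneg fun b _ => nu_nonneg M b
    calc ε ≤ G * s := h1
      _ ≤ T * L * s := mul_le_mul_of_nonneg_right h2 hs0
      _ = L * s * T := by ring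
  have hpull : ∑ G ∈ D, L * ∑ b ∈ B0.filter (fun b => G ∣ b), nu M b =
      ∑ G ∈ D, ∑ b ∈ B0.filter (fun b => G ∣ b), L * nu M b :=
    Finset.sum_congr rfl fun G _ => Finset.mul_sum _ _ _
  rw [hpull]
  have h1 := bonf_union B0 D (fun G => B0.filter (fun b => G ∣ b)) (fun b => L * nu M b)
    (o := 1 / x) (m := M0) hnn hsubs (by positivity) hov hm
  have hs' : 2 * M0 * (1 / x) ≤ (ε / T) ^ 2 := by
    rw [div_pow, mul_one_div, div_le_div_iff₀ hx (by positivity)]
    exact hs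
  have h2 := bonf' B0 D (fun G => B0.filter (fun b => G ∣ b)) (fun b => L * nu M b)
    (a := ε / T) (o := 1 / x) (m := M0) hnn hsubs (by positivity) (by positivity) hmass hov hm hs'
  refine ⟨?_, h2.1, h2.2⟩
  refine h1.trans (le_of_eq ?_)
  ring

/-- a weighted gcd sum over nodes `G ∈ D` is bounded by the masses of `B0` in the nodes -/
theorem row_le (hM : 0 < M) (hL : 0 < L) (B0 B1 : Finset ℕ) (hB0 : B0 ⊆ M.divisors)
    (hB1 : B1 ⊆ M.divisors) (D : Finset ℕ) :
    ∑ c ∈ B0, ∑ b ∈ B1.filter (fun b => Nat.gcd b c ∈ D),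
      L * (Nat.gcd b c : ℝ) * nu M b * nu M c ≤
    ∑ G ∈ D, L * ∑ b ∈ B0.filter (fun b => G ∣ b), nu M b := by
  have h1 : ∀ c ∈ B0, ∑ b ∈ B1.filter (fun b => Nat.gcd b c ∈ D),
      L * (Nat.gcd b c : ℝ) * nu M b * nu M c ≤
      ∑ G ∈ D, (if G ∣ c then L * nu M c else 0) := by
    intro c hc
    have hc0 : 0 < c := Nat.pos_of_mem_divisors (hB0 hc)
    have h2 : ∑ b ∈ B1.filter (fun b => Nat.gcd b c ∈ D),
        L * (Nat.gcd b c : ℝ) * nu M b * nu M c =
        ∑ G ∈ D, ∑ b ∈ B1.filter (fun b => Nat.gcd b c = G),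
          L * (Nat.gcd b c : ℝ) * nu M b * nu M c := by
      rw [← Finset.sum_fiberwise_of_maps_to (s := B1.filter (fun b => Nat.gcd b c ∈ D)) (t := D)
        (g := fun b => Nat.gcd b c) (fun b hb => (Finset.mem_filter.1 hb).2)]
      refine Finset.sum_congr rfl fun G hG => ?_
      refine Finset.sum_congr ?_ fun _ _ => rfl
      ext b
      simp only [Finset.mem_filter]
      constructor
      · rintro ⟨⟨h3, _⟩, h4⟩; exact ⟨h3, h4⟩
      · rintro ⟨h3, h4⟩; exact ⟨⟨h3, by rw [h4]; exact hG⟩, h4⟩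
    rw [h2]
    refine Finset.sum_le_sum fun G hG => ?_
    by_cases hGc : G ∣ c
    · rw [if_pos hGc]
      have hGM : G ∣ M := hGc.trans (Nat.dvd_of_mem_divisors (hB0 hc))
      have hG0 : 0 < G := Nat.pos_of_dvd_of_pos hGM hM
      have hGr : (0 : ℝ) < G := by exact_mod_cast hG0
      calc ∑ b ∈ B1.filter (fun b => Nat.gcd b c = G), L * (Nat.gcd b c : ℝ) * nu M b * nu M c
          = (L * nu M c * G) * ∑ b ∈ B1.filter (fun b => Nat.gcd b c = G), nu M b := by
            rw [Finset.mul_sum]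
            refine Finset.sum_congr rfl fun b hb => ?_
            rw [(Finset.mem_filter.1 hb).2]
            ring
        _ ≤ (L * nu M c * G) * ∑ b ∈ M.divisors.filter (fun b => G ∣ b), nu M b := by
            refine mul_le_mul_of_nonneg_left ?_
              (mul_nonneg (mul_nonneg hL.le (nu_nonneg M c)) hGr.le)
            refine Finset.sum_le_sum_of_subset_of_nonneg ?_ (fun b _ _ => nu_nonneg M b)
            intro b hb
            rw [Finset.mem_filter] at hb ⊢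
            exact ⟨hB1 hb.1, by rw [← hb.2]; exact Nat.gcd_dvd_left b c⟩
        _ = L * nu M c := by
            rw [mass_mult hM hGM]
            field_simp
    · rw [if_neg hGc]
      refine le_of_eq (Finset.sum_eq_zero fun b hb => ?_)
      exfalso
      apply hGc
      rw [← (Finset.mem_filter.1 hb).2]
      exact Nat.gcd_dvd_right b c
  refine (Finset.sum_le_sum h1).trans (le_of_eq ?_)
  rw [Finset.sum_comm]
  refine Finset.sum_congr rfl fun G _ => ?_
  rw [Finset.mul_sum, Finset.sum_filter]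

/-- **2520 (1), row bound of the dense nodes** -/
theorem dense_row (hM : 0 < M) (hr : Rough x M) (hx : 0 < x) (hL : 0 < L) (hT : 0 < T)
    (hTx : T ≤ x) (hε : 0 < ε) (B0 B1 : Finset ℕ) (hB0 : B0 ⊆ M.divisors) (hB1 : B1 ⊆ M.divisors)
    (hM0 : L * ∑ b ∈ B0, nu M b ≤ M0) (D : Finset ℕ)
    (hD : ∀ G ∈ D, G ∣ M ∧ L < G ∧ (G : ℝ) ≤ T * L)
    (hdense : ∀ G ∈ D, ε ≤ G * ∑ b ∈ B0.filter (fun b => G ∣ b), nu M b)
    (hs : 2 * M0 * T ^ 2 ≤ ε ^ 2 * x) :
    ∑ c ∈ B0, ∑ b ∈ B1.filter (fun b => Nat.gcd b c ∈ D),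
      L * (Nat.gcd b c : ℝ) * nu M b * nu M c ≤ M0 * (1 + 4 * T ^ 2 * M0 / (ε ^ 2 * x)) ∧
    ∑ c ∈ B0, ∑ b ∈ B1.filter (fun b => Nat.gcd b c ∈ D),
      L * (Nat.gcd b c : ℝ) * nu M b * nu M c ≤ 2 * M0 := by
  obtain ⟨h1, h2, h3⟩ := dense_nodes hM hr hx hL hT hTx hε B0 hB0 hM0 D hD hdense hs
  have h4 := row_le (L := L) hM hL B0 B1 hB0 hB1 D
  refine ⟨h4.trans (h1.trans ?_), h4.trans h2⟩
  have h5 : (D.card : ℝ) ≤ 2 * M0 * T / ε := by
    rw [le_div_iff₀ hε]
    have : (D.card : ℝ) * ε = (D.card : ℝ) * (ε / T) * T := by field_simp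
    rw [this]
    exact mul_le_mul_of_nonneg_right h3 hT.le
  have h6 : (D.card : ℝ) ^ 2 ≤ (2 * M0 * T / ε) ^ 2 := pow_le_pow_left₀ (Nat.cast_nonneg _) h5 2
  calc M0 + (D.card : ℝ) ^ 2 / x ≤ M0 + (2 * M0 * T / ε) ^ 2 / x := by
        refine add_le_add le_rfl ?_
        exact div_le_div_of_nonneg_right h6 hx.le
    _ = M0 * (1 + 4 * T ^ 2 * M0 / (ε ^ 2 * x)) := by
        field_simp
        ring

end dense

/-! ### lower bound for the thinning factor -/

section thinning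

open Crest.Agent.Lib.Mertens in
/-- `V M Y h ≥ e^{-13} / log Y` for `Y ≥ 2` -/
theorem V_ge (M h : ℕ) {Y : ℝ} (hY : 2 ≤ Y) : Real.exp (-13) / Real.log Y ≤ V M Y h := by
  classical
  have hlog2 : (0.69 : ℝ) < Real.log 2 := by linarith [Real.log_two_gt_d9]
  have hlog2' : Real.log 2 < 0.7 := by linarith [Real.log_two_lt_d9]
  set n := ⌊Y⌋₊ with hn
  have hn2 : 2 ≤ n := by
    rw [hn]
    exact Nat.le_floor (by exact_mod_cast hY)
  have hnY : (n : ℝ) ≤ Y := Nat.floor_le (by linarith)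
  have hn0 : (0 : ℝ) < n := by
    have : 0 < n := by omega
    exact_mod_cast this
  have hlY : 0 < Real.log Y := Real.log_pos (by linarith)
  have hln : 0 < Real.log n := Real.log_pos (by exact_mod_cast hn2)
  have hlnY : Real.log n ≤ Real.log Y := Real.log_le_log hn0 hnY
  -- the product over all primes `≤ n`
  have hsub : (M / h).primeFactors.filter (fun p : ℕ => (p : ℝ) ≤ Y) ⊆
      insert 2 (primesIoc 2 n) := by
    intro p hp
    rw [Finset.mem_filter] at hp
    have hpp := Nat.prime_of_mem_primeFactors hp.1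
    have hpn : p ≤ n := Nat.le_floor hp.2
    rw [Finset.mem_insert, mem_primesIoc]
    rcases hpp.two_le.eq_or_lt with h2 | h2
    · exact Or.inl h2.symm
    · exact Or.inr ⟨⟨h2, hpn⟩, hpp⟩
  have hprimes : ∀ p ∈ insert 2 (primesIoc 2 n), p.Prime := by
    intro p hp
    rw [Finset.mem_insert, mem_primesIoc] at hp
    rcases hp with h2 | h2
    · rw [h2]; exact Nat.prime_two
    · exact h2.2
  have h1 : ∏ p ∈ insert 2 (primesIoc 2 n), (1 - 1 / (p : ℝ)) ≤ V M Y h := by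
    rw [← Finset.prod_sdiff hsub]
    have h2 : ∏ p ∈ insert 2 (primesIoc 2 n) \
        (M / h).primeFactors.filter (fun p : ℕ => (p : ℝ) ≤ Y), (1 - 1 / (p : ℝ)) ≤ 1 :=
      Finset.prod_le_one
        (fun p hp => (factor_bounds (hprimes p (Finset.mem_sdiff.1 hp).1)).1.le)
        (fun p hp => (factor_bounds (hprimes p (Finset.mem_sdiff.1 hp).1)).2)
    exact mul_le_of_le_one_left (V_pos M Y h).le h2
  refine le_trans ?_ h1
  rw [Finset.prod_insert (by rw [mem_primesIoc]; omega), prod_eq_exp]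
  have h2 := L_le 2 n (by norm_num) hn2
  have h3 := mertens_two_nat 2 n le_rfl hn2
  rw [abs_le] at h3
  have h4 : Crest.Agent.Lib.Mertens.L 2 n ≤
      Real.log (Real.log Y) - Real.log (Real.log 2) + 11 := by
    have h5 : 7 / Real.log ((2 : ℕ) : ℝ) ≤ 10.2 := by
      push_cast
      rw [div_le_iff₀ (by linarith)]
      nlinarith
    have h6 : Real.log (Real.log n) ≤ Real.log (Real.log Y) := Real.log_le_log hln hlnY
    have h7 := h3.2
    push_cast at h2 h7 h5
    linarith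
  have h5 : Real.exp (-(Real.log (Real.log Y) - Real.log (Real.log 2) + 11)) ≤
      Real.exp (-Crest.Agent.Lib.Mertens.L 2 n) := Real.exp_le_exp.2 (by linarith)
  have h6 : Real.exp (-(Real.log (Real.log Y) - Real.log (Real.log 2) + 11)) =
      Real.exp (-11) * Real.log 2 / Real.log Y := by
    have e : -(Real.log (Real.log Y) - Real.log (Real.log 2) + 11) =
        -11 + Real.log (Real.log 2) - Real.log (Real.log Y) := by ring
    rw [e, Real.exp_sub, Real.exp_add, Real.exp_log hlY, Real.exp_log (by linarith)]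
  have h7 : Real.exp (-13) ≤ Real.exp (-11) * (1 / 2 * Real.log 2) := by
    have e1 : Real.exp (-13) = Real.exp (-11) * Real.exp (-2) := by
      rw [← Real.exp_add]; norm_num
    rw [e1]
    refine mul_le_mul_of_nonneg_left ?_ (Real.exp_pos _).le
    have e2 : Real.exp (-2) ≤ 1 / 4 := by
      rw [Real.exp_neg]
      rw [inv_eq_one_div]
      refine one_div_le_one_div_of_le (by norm_num) ?_
      have e3 : Real.exp 2 = Real.exp 1 * Real.exp 1 := by rw [← Real.exp_add]; norm_num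
      have e4 := Real.add_one_le_exp (1 : ℝ)
      rw [e3]
      nlinarith
    linarith
  calc Real.exp (-13) / Real.log Y
      ≤ Real.exp (-11) * (1 / 2 * Real.log 2) / Real.log Y :=
        div_le_div_of_nonneg_right h7 hlY.le
    _ = (1 - 1 / ((2 : ℕ) : ℝ)) * (Real.exp (-11) * Real.log 2 / Real.log Y) := by
        push_cast
        ring
    _ ≤ (1 - 1 / ((2 : ℕ) : ℝ)) * Real.exp (-Crest.Agent.Lib.Mertens.L 2 n) := by
        refine mul_le_mul_of_nonneg_left ?_ (factor_bounds Nat.prime_two).1.le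
        rw [← h6]
        exact h5

open Classical in
/-- **2645 (1) in powers**: `Y = T^A`, `δ = T^{-c1}`, at most `m R T^{1+2c1}` active nodes -/
theorem pivots_pow {ι : Type*} {M : ℕ} (hM : 0 < M) {L T A c1 m R : ℝ} (hL : 0 < L)
    (hc1 : 0 < c1) (hA : 1 + 4 * c1 ≤ A) (hm : m ≤ 2) (hR0 : 0 ≤ R)
    (hT1 : 1 < T) (hTA : 2 ≤ T ^ A) (hT : 4 * Real.exp 13 * (A * Real.log T) ≤ T ^ c1)
    (B : Finset ℕ) (hmass : L * ∑ b ∈ B, nu M b ≤ m)
    (I : Finset ι) (hn : ι → ℕ) (Q : ι → ℕ → Prop)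
    (h1 : ∀ i ∈ I, hn i ∣ M ∧ T * L ≤ hn i ∧ (hn i : ℝ) < 2 * (T * L))
    (hact : ∀ i ∈ I, T ^ (-c1) * (V M (T ^ A) (hn i) / hn i) ≤
      ∑ b ∈ B.filter (fun b => b ∈ St M (T ^ A) (hn i) ∧ Q i b), nu M b)
    (hR : ∀ b ∈ B, ∀ i ∈ I, ((I.filter fun j => hn j = hn i ∧ Q j b).card : ℝ) ≤ R) :
    (I.card : ℝ) ≤ m * R * T ^ (1 + 2 * c1) := by
  have hT0 : 0 < T := by linarith
  have hlT : 0 < Real.log T := Real.log_pos hT1
  have hA0 : 0 < A := by linarith
  have hlA : Real.log (T ^ A) = A * Real.log T := Real.log_rpow hT0 A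
  have hlA0 : 0 < A * Real.log T := by positivity
  set v := 4 * T ^ (-c1) with hv
  have hv0 : 0 < v := by positivity
  have hVge : ∀ i ∈ I, v ≤ V M (T ^ A) (hn i) := by
    intro i _
    refine le_trans ?_ (V_ge M (hn i) hTA)
    rw [hlA, hv, le_div_iff₀ hlA0, Real.rpow_neg hT0.le, Real.exp_neg]
    have h2 : 0 < T ^ c1 := Real.rpow_pos_of_pos hT0 c1
    have h3 : 0 < Real.exp 13 := Real.exp_pos 13
    rw [← div_eq_mul_inv, div_mul_eq_mul_div, div_le_iff₀ h2, inv_mul_eq_div, le_div_iff₀ h3]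
    linarith
  have e1 : T ^ (-c1) * v / (2 * T) = 2 * T ^ (-(1 + 2 * c1)) := by
    have h2 : T ^ (-(1 + 2 * c1)) = T ^ (-c1) * T ^ (-c1) * T⁻¹ := by
      rw [← Real.rpow_add hT0, ← Real.rpow_neg_one T, ← Real.rpow_add hT0]
      congr 1
      ring
    rw [hv, h2]
    field_simp
    ring
  have hTAp : 0 < T ^ A := Real.rpow_pos_of_pos hT0 A
  have h2 := pivots (Y := T ^ A) (v := v) (δ := T ^ (-c1)) (m := m) (R := R) hM hL hT0 hTAp hv0
    (Real.rpow_pos_of_pos hT0 _) hR0 B hmass I hn Q h1 hVge hact hR ?_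
  · rw [e1] at h2
    have h3 : 0 < T ^ (1 + 2 * c1) := Real.rpow_pos_of_pos hT0 _
    rw [Real.rpow_neg hT0.le] at h2
    have h4 : (I.card : ℝ) * (2 * (T ^ (1 + 2 * c1))⁻¹) =
        2 * ((I.card : ℝ) / T ^ (1 + 2 * c1)) := by
      field_simp
    rw [h4] at h2
    have h5 : (I.card : ℝ) / T ^ (1 + 2 * c1) ≤ m * R := by nlinarith
    rw [div_le_iff₀ h3] at h5
    exact h5
  · rw [e1, mul_pow, ← Real.rpow_natCast (T ^ (-(1 + 2 * c1))) 2, ← Real.rpow_mul hT0.le]
    have h3 : 2 * m / (T * T ^ A) ≤ 4 / (T * T ^ A) :=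
      div_le_div_of_nonneg_right (by linarith) (by positivity)
    refine h3.trans ?_
    have h4 : 4 / (T * T ^ A) = 4 * T ^ (-(1 + A)) := by
      rw [Real.rpow_neg hT0.le, Real.rpow_add hT0, Real.rpow_one]
      field_simp
    rw [h4]
    have h5 : T ^ (-(1 + A)) ≤ T ^ (-(1 + 2 * c1) * ((2 : ℕ) : ℝ)) := by
      refine Real.rpow_le_rpow_of_exponent_le hT1.le ?_
      push_cast
      linarith
    nlinarith

end thinning

end Crest.Agent.R4C.Pivotsx80
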