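import Crest.Agent.R4C.NearAbs_60
import Crest.Agent.R4C.Bridge_882
import Crest.Agent.R4C.Pivots_80

/-!
# Row 4: the boost summed over the offsets (helper60, note 2999 (2); BLOCK S7)

For arbitrary labels `lam` and any pair `b, c`:
`Σ_{h linked, not killed} boost ≤ B1tail * (6 L / g + 4 ^ y * B2)`
where `B1tail = Π (1 - 1/p)⁻¹` over the labelled primes `p ∣ s s'`, `p > y`, and `B2 = Π (1 - 1/p)⁻¹`
over the common missing primes labelled on both sides (`B2 ≤ C log X` if these are `≤ X`).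
So for `t = g / L ≤ (log X)^{-2}` the boost of near pairs is bounded by a constant
(apart from the factor `B1tail`).
-/

set_option autoImplicit false

open Finset

namespace Crest.Agent.R4C.NearBoostx60

open Crest.Agent.R4C.Basex935 Crest.Agent.R4C.PrefixMx882 Crest.Agent.R4C.CrCountx935
  Crest.Agent.R4C.CrCoinx935 Crest.Agent.R4C.Bridgex882 Crest.Agent.R4C.NearAbsx60

open Classical in
/-- labelled differing primes (the member with the smaller exponent has a label) -/
noncomputable def P1 (M : ℕ) (lam : ℕ → ℕ → Option ℤ) (b c : ℕ) : Finset ℕ :=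
  (free M b ∪ free M c).filter fun p =>
    (p ∣ c / Nat.gcd b c ∧ lam b p ≠ none) ∨ (p ∣ b / Nat.gcd b c ∧ lam c p ≠ none)

open Classical in
/-- non-differing missing primes labelled on both sides -/
noncomputable def P2 (M : ℕ) (lam : ℕ → ℕ → Option ℤ) (b c : ℕ) : Finset ℕ :=
  (free M b ∪ free M c).filter fun p =>
    ¬ p ∣ b / Nat.gcd b c ∧ ¬ p ∣ c / Nat.gcd b c ∧ lam b p ≠ none ∧ lam c p ≠ none

open Classical in
/-- the class of offsets charged at `p` -/
noncomputable def res (lam : ℕ → ℕ → Option ℤ) (b c p : ℕ) : ℤ :=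
  if p ∣ c / Nat.gcd b c then ((b / Nat.gcd b c : ℕ) : ℤ) * (lam b p).getD 0
  else if p ∣ b / Nat.gcd b c then - (((c / Nat.gcd b c : ℕ) : ℤ) * (lam c p).getD 0)
  else ((b / Nat.gcd b c : ℕ) : ℤ) * (lam b p).getD 0 -
    ((c / Nat.gcd b c : ℕ) : ℤ) * (lam c p).getD 0

lemma prime_of_free {M b c p : ℕ} (hp : p ∈ free M b ∪ free M c) : p.Prime := by
  rw [mem_union] at hp
  rcases hp with hp | hp
  · exact Nat.prime_of_mem_primeFactors (mem_free.1 hp).1
  · exact Nat.prime_of_mem_primeFactors (mem_free.1 hp).1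

lemma factor_pos {p : ℕ} (hp : p.Prime) : 0 < 1 - 1 / (p : ℝ) :=
  (Crest.Agent.R4C.Pivotsx80.factor_bounds hp).1

lemma disj {M b c : ℕ} (lam : ℕ → ℕ → Option ℤ) : Disjoint (P1 M lam b c) (P2 M lam b c) := by
  classical
  rw [Finset.disjoint_left]
  intro p h1 h2
  unfold P1 at h1
  unfold P2 at h2
  rw [mem_filter] at h1 h2
  rcases h1.2 with h | h
  · exact h2.2.2.1 h.1
  · exact h2.2.1 h.1

open Classical in
/-- `boost · [not killed]` as a product of local factors -/
lemma boost_le {M b c : ℕ} (hb : 0 < b) (lam : ℕ → ℕ → Option ℤ) (h : ℤ)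
    (hk : ¬ killedB lam b c h) :
    boostB M lam b c h = (∏ p ∈ P1 M lam b c, ((1 - 1 / (p : ℝ))⁻¹ *
        (1 - if (p : ℤ) ∣ h - res lam b c p then 1 else 0))) *
      ∏ p ∈ P2 M lam b c, (1 + 1 / ((p : ℝ) - 1) * if (p : ℤ) ∣ h - res lam b c p then 1 else 0) := by
  set g := Nat.gcd b c with hg
  have hg0 : 0 < g := Nat.gcd_pos_of_pos_left _ hb
  have hcop : Nat.Coprime (b / g) (c / g) := Nat.coprime_div_gcd_div_gcd hg0
  -- restrict the product to `P1 ∪ P2`
  have hsub : P1 M lam b c ∪ P2 M lam b c ⊆ free M b ∪ free M c := by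
    intro p hp
    rw [mem_union] at hp
    rcases hp with hp | hp
    · unfold P1 at hp; exact (mem_filter.1 hp).1
    · unfold P2 at hp; exact (mem_filter.1 hp).1
  unfold boostB
  rw [← Finset.prod_subset hsub (f := fun p => if chargedB lam b c h p then (1 - 1 / (p : ℝ))⁻¹ else 1)]
  · rw [Finset.prod_union (disj lam)]
    congr 1
    · refine Finset.prod_congr rfl fun p hp => ?_
      unfold P1 at hp
      rw [mem_filter] at hp
      have hpp := prime_of_free hp.1
      have hch : chargedB lam b c h p := by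
        rcases hp.2 with h1 | h1
        · exact Or.inl h1
        · exact Or.inr (Or.inl h1)
      have hnd : ¬ (p : ℤ) ∣ h - res lam b c p := by
        intro hd
        apply hk
        rcases hp.2 with ⟨h1, h2⟩ | ⟨h1, h2⟩
        · left
          obtain ⟨a, ha⟩ := Option.ne_none_iff_exists'.1 h2
          refine ⟨p, hpp, h1, a, ha, ?_⟩
          unfold res at hd
          rw [← hg, if_pos h1, ha, Option.getD_some] at hd
          exact hd
        · right
          obtain ⟨a, ha⟩ := Option.ne_none_iff_exists'.1 h2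
          refine ⟨p, hpp, h1, a, ha, ?_⟩
          have h3 : ¬ p ∣ c / g := by
            intro h4
            exact hpp.one_lt.ne' (Nat.dvd_one.1 (hcop ▸ Nat.dvd_gcd h1 h4))
          unfold res at hd
          rw [← hg, if_neg h3, if_pos h1, ha, Option.getD_some, sub_neg_eq_add] at hd
          exact hd
      rw [if_pos hch, if_neg hnd, sub_zero, mul_one]
    · refine Finset.prod_congr rfl fun p hp => ?_
      unfold P2 at hp
      rw [mem_filter] at hp
      obtain ⟨hpf, h1, h2, h3, h4⟩ := hp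
      have hpp := prime_of_free hpf
      have hpr : (1 : ℝ) < p := by exact_mod_cast hpp.one_lt
      obtain ⟨a, ha⟩ := Option.ne_none_iff_exists'.1 h3
      obtain ⟨a', ha'⟩ := Option.ne_none_iff_exists'.1 h4
      have hres : h - res lam b c p = h - ((b / g : ℕ) : ℤ) * a + ((c / g : ℕ) : ℤ) * a' := by
        unfold res
        rw [← hg, if_neg h2, if_neg h1, ha, ha', Option.getD_some, Option.getD_some]
        ring
      have hiff : chargedB lam b c h p ↔ (p : ℤ) ∣ h - res lam b c p := by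
        rw [hres]
        unfold chargedB
        rw [← hg]
        constructor
        · rintro (h5 | h5 | ⟨_, _, x, x', hx, hx', h5⟩)
          · exact absurd h5.1 h2
          · exact absurd h5.1 h1
          · rw [ha] at hx
            rw [ha'] at hx'
            cases hx
            cases hx'
            exact h5
        · intro h5
          exact Or.inr (Or.inr ⟨h1, h2, a, a', ha, ha', h5⟩)
      by_cases hd : (p : ℤ) ∣ h - res lam b c p
      · rw [if_pos (hiff.2 hd), if_pos hd]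
        have hp1 : (p : ℝ) - 1 ≠ 0 := by linarith
        have hp0 : (p : ℝ) ≠ 0 := by linarith
        field_simp
        ring
      · rw [if_neg (fun h5 => hd (hiff.1 h5)), if_neg hd]
        ring
  · intro p hp hnp
    rw [mem_union, not_or] at hnp
    refine if_neg fun hch => ?_
    unfold P1 P2 at hnp
    rw [mem_filter, mem_filter] at hnp
    rcases hch with h1 | h1 | ⟨h1, h2, a, a', ha, ha', _⟩
    · exact hnp.1 ⟨hp, Or.inl h1⟩
    · exact hnp.1 ⟨hp, Or.inr h1⟩
    · exact hnp.2 ⟨hp, h1, h2, by rw [ha]; exact Option.some_ne_none _, by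
        rw [ha']; exact Option.some_ne_none _⟩

/-- `Π (1 + 1/(p(p-1))) ≤ e` -/
lemma prod_e (P : Finset ℕ) (hP : ∀ p ∈ P, p.Prime) :
    ∏ p ∈ P, (1 + 1 / ((p : ℝ) * (p - 1))) ≤ Real.exp 1 := by
  classical
  have h1 : ∏ p ∈ P, (1 + 1 / ((p : ℝ) * (p - 1))) ≤ ∏ p ∈ P, Real.exp (1 / ((p : ℝ) * (p - 1))) := by
    refine Finset.prod_le_prod (fun p hp => ?_) fun p hp => ?_
    · have : (1 : ℝ) < p := by exact_mod_cast (hP p hp).one_lt
      have h2 : 0 < (p : ℝ) * (p - 1) := mul_pos (by linarith) (by linarith)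
      positivity
    · rw [add_comm]; exact Real.add_one_le_exp _
  rw [← Real.exp_sum] at h1
  refine h1.trans (Real.exp_le_exp.2 ?_)
  -- telescoping
  have h2 : ∀ N : ℕ, 1 ≤ N → ∑ n ∈ Finset.Icc 2 N, 1 / ((n : ℝ) * (n - 1)) = 1 - 1 / (N : ℝ) := by
    intro N hN
    induction N, hN using Nat.le_induction with
    | base => simp
    | succ k hk ih =>
      rw [Finset.sum_Icc_succ_top (by omega), ih]
      have hk0 : (0 : ℝ) < k := by exact_mod_cast (show 0 < k by omega)
      push_cast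
      have e1 : (k : ℝ) + 1 - 1 = k := by ring
      rw [e1]
      field_simp
      ring
  set N := P.sup id + 1 with hN
  have h3 : P ⊆ Finset.Icc 2 N := by
    intro p hp
    rw [Finset.mem_Icc]
    refine ⟨(hP p hp).two_le, ?_⟩
    have : p ≤ P.sup id := Finset.le_sup (f := id) hp
    omega
  calc ∑ p ∈ P, 1 / ((p : ℝ) * (p - 1)) ≤ ∑ n ∈ Finset.Icc 2 N, 1 / ((n : ℝ) * (n - 1)) := by
        refine Finset.sum_le_sum_of_subset_of_nonneg h3 fun n hn _ => ?_
        rw [Finset.mem_Icc] at hn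
        have : (2 : ℝ) ≤ n := by exact_mod_cast hn.1
        have h4 : 0 < (n : ℝ) * (n - 1) := mul_pos (by linarith) (by linarith)
        positivity
    _ = 1 - 1 / (N : ℝ) := h2 N (by omega)
    _ ≤ 1 := by
        have : (0 : ℝ) ≤ 1 / (N : ℝ) := by positivity
        linarith

/-- local `α` -/
noncomputable def al (S : Finset ℕ) (p : ℕ) : ℝ := by
  classical exact if p ∈ S then (1 - 1 / (p : ℝ))⁻¹ else 1

/-- local `β` -/
noncomputable def be (S : Finset ℕ) (p : ℕ) : ℝ := by
  classical exact if p ∈ S then -(1 - 1 / (p : ℝ))⁻¹ else 1 / ((p : ℝ) - 1)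

lemma Lnk_card {γ L : ℝ} (hL : 0 < L) {b c : ℕ} (hb : 0 < b) (D : ℕ) (hD : 0 < D) (a : ℤ) :
    (open Classical in |(((Lnk γ L b c).filter (fun h => (D : ℤ) ∣ h - a)).card : ℝ) -
      (2 * (L / (Nat.gcd b c : ℕ))) / D|) ≤ 1 := by
  have hg : (0 : ℝ) < (Nat.gcd b c : ℕ) := by exact_mod_cast Nat.gcd_pos_of_pos_left c hb
  have h0 : 0 < L / (Nat.gcd b c : ℕ) := div_pos hL hg
  set Δ := L / (Nat.gcd b c : ℕ) with hΔ
  set x := -((((b / Nat.gcd b c : ℕ) : ℝ) - ((c / Nat.gcd b c : ℕ) : ℝ)) * γ) - Δ with hx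
  refine card_ap (x := x) (N := 2 * Δ) (by linarith) (Lnk γ L b c) (fun h => ?_) D hD a
  unfold Lnk
  rw [mem_Hf, abs_lt, hx]
  constructor
  · rintro ⟨h1, h2⟩
    constructor <;> linarith
  · rintro ⟨h1, h2⟩
    constructor <;> linarith

open Classical in
/-- **NEAR BOOST LEMMA**: boosts summed over all linked offsets, arbitrary labels -/
theorem near_boost {γ L : ℝ} (hL : 0 < L) {M b c : ℕ} (hb : 0 < b) (lam : ℕ → ℕ → Option ℤ)
    (y : ℕ) :
    ∑ h ∈ (Lnk γ L b c).filter (fun h => ¬ killedB lam b c h), boostB M lam b c h ≤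
      (∏ p ∈ (P1 M lam b c).filter (fun p => y < p), (1 - 1 / (p : ℝ))⁻¹) *
        (2 * Real.exp 1 * (L / (Nat.gcd b c : ℕ)) +
          4 ^ y * ∏ p ∈ P2 M lam b c, (1 - 1 / (p : ℝ))⁻¹) := by
  set Δ := L / (Nat.gcd b c : ℕ) with hΔ
  have hg : (0 : ℝ) < (Nat.gcd b c : ℕ) := by exact_mod_cast Nat.gcd_pos_of_pos_left c hb
  have hΔ0 : 0 < Δ := div_pos hL hg
  set A := (P1 M lam b c).filter (fun p => p ≤ y) with hA
  set A' := (P1 M lam b c).filter (fun p => y < p) with hA'
  set Q := P2 M lam b c with hQ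
  set r := res lam b c with hr
  have hPr : ∀ p ∈ P1 M lam b c, p.Prime := by
    intro p hp
    unfold P1 at hp
    exact prime_of_free (mem_filter.1 hp).1
  have hQr : ∀ p ∈ Q, p.Prime := by
    intro p hp
    rw [hQ] at hp
    unfold P2 at hp
    exact prime_of_free (mem_filter.1 hp).1
  have hpos : ∀ p : ℕ, p.Prime → 0 < (1 - 1 / (p : ℝ))⁻¹ := fun p hp =>
    inv_pos.2 (factor_pos hp)
  have hE0 : 0 ≤ ∏ p ∈ A', (1 - 1 / (p : ℝ))⁻¹ :=
    Finset.prod_nonneg fun p hp => (hpos p (hPr p (mem_filter.1 hp).1)).le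
  have hdisj : Disjoint A Q := (disj lam).mono_left (filter_subset _ _)
  -- the pointwise bound
  have hpt : ∀ h ∈ (Lnk γ L b c).filter (fun h => ¬ killedB lam b c h), boostB M lam b c h ≤
      (∏ p ∈ A', (1 - 1 / (p : ℝ))⁻¹) *
        ∏ p ∈ A ∪ Q, (al A p + be A p * (if (p : ℤ) ∣ h - r p then 1 else 0)) := by
    intro h hh
    rw [mem_filter] at hh
    rw [boost_le hb lam h hh.2, ← Finset.prod_filter_mul_prod_filter_not (P1 M lam b c)
      (fun p => y < p), Finset.prod_union hdisj]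
    have e0 : (P1 M lam b c).filter (fun p => ¬ y < p) = A := by
      rw [hA]
      exact Finset.filter_congr fun p _ => by rw [not_lt]
    rw [e0, ← hA', mul_assoc]
    have e1 : ∏ p ∈ A', ((1 - 1 / (p : ℝ))⁻¹ * (1 - if (p : ℤ) ∣ h - r p then 1 else 0)) ≤
        ∏ p ∈ A', (1 - 1 / (p : ℝ))⁻¹ := by
      refine Finset.prod_le_prod (fun p hp => ?_) fun p hp => ?_
      · have := (hpos p (hPr p (mem_filter.1 hp).1)).le
        split_ifs
        · rw [sub_self, mul_zero]
        · rw [sub_zero, mul_one]; exact this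
      · have := (hpos p (hPr p (mem_filter.1 hp).1)).le
        split_ifs
        · rw [sub_self, mul_zero]; exact this
        · rw [sub_zero, mul_one]
    have e2 : ∏ p ∈ A, ((1 - 1 / (p : ℝ))⁻¹ * (1 - if (p : ℤ) ∣ h - r p then 1 else 0)) =
        ∏ p ∈ A, (al A p + be A p * (if (p : ℤ) ∣ h - r p then 1 else 0)) := by
      refine Finset.prod_congr rfl fun p hp => ?_
      unfold al be
      rw [if_pos hp, if_pos hp]
      ring
    have e3 : ∏ p ∈ Q, (1 + 1 / ((p : ℝ) - 1) * if (p : ℤ) ∣ h - r p then 1 else 0) =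
        ∏ p ∈ Q, (al A p + be A p * (if (p : ℤ) ∣ h - r p then 1 else 0)) := by
      refine Finset.prod_congr rfl fun p hp => ?_
      have hpA : p ∉ A := fun hpA => (Finset.disjoint_left.1 hdisj hpA hp)
      unfold al be
      rw [if_neg hpA, if_neg hpA]
    rw [← e2, ← e3]
    refine mul_le_mul_of_nonneg_right e1 (mul_nonneg ?_ ?_)
    · refine Finset.prod_nonneg fun p hp => ?_
      have := (hpos p (hPr p (mem_filter.1 hp).1)).le
      split_ifs
      · rw [sub_self, mul_zero]
      · rw [sub_zero, mul_one]; exact this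
    · refine Finset.prod_nonneg fun p hp => ?_
      have h1 : (1 : ℝ) < p := by exact_mod_cast (hQr p hp).one_lt
      have h2 : 0 < 1 / ((p : ℝ) - 1) := one_div_pos.2 (by linarith)
      split_ifs
      · rw [mul_one]; linarith
      · rw [mul_zero]; norm_num
  refine (Finset.sum_le_sum hpt).trans ?_
  rw [← Finset.mul_sum]
  refine mul_le_mul_of_nonneg_left ?_ hE0
  -- drop the filter (the factors are nonnegative) and average
  have hnn : ∀ h : ℤ, 0 ≤ ∏ p ∈ A ∪ Q, (al A p + be A p * (if (p : ℤ) ∣ h - r p then 1 else 0)) := by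
    intro h
    refine Finset.prod_nonneg fun p hp => ?_
    rw [mem_union] at hp
    unfold al be
    by_cases hpA : p ∈ A
    · have h1 := (hpos p (hPr p (mem_filter.1 hpA).1)).le
      rw [if_pos hpA, if_pos hpA]
      split_ifs
      · simp
      · simpa using h1
    · have hpQ : p ∈ Q := by tauto
      have h1 : (1 : ℝ) < p := by exact_mod_cast (hQr p hpQ).one_lt
      have h2 : 0 < 1 / ((p : ℝ) - 1) := one_div_pos.2 (by linarith)
      rw [if_neg hpA, if_neg hpA]
      split_ifs <;> linarith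
  have hAQ : ∀ p ∈ A ∪ Q, p.Prime := by
    intro p hp
    rw [mem_union] at hp
    rcases hp with hp | hp
    · exact hPr p (mem_filter.1 hp).1
    · exact hQr p hp
  have hmain := sum_prod_le (Lnk γ L b c) (N := 2 * Δ)
    (fun D hD a => by
      have := Lnk_card (γ := γ) hL (c := c) hb D hD a
      exact this) (A ∪ Q) hAQ r (al A) (be A)
  refine (Finset.sum_le_sum_of_subset_of_nonneg (filter_subset _ _) fun h _ _ => hnn h).trans
    (hmain.trans ?_)
  rw [Finset.prod_union hdisj, Finset.prod_union hdisj]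
  have f1 : ∏ p ∈ A, (al A p + be A p / p) = 1 := by
    refine Finset.prod_eq_one fun p hp => ?_
    have hpp := hPr p (mem_filter.1 hp).1
    have h1 : (1 : ℝ) < p := by exact_mod_cast hpp.one_lt
    have h2 := factor_pos hpp
    unfold al be
    rw [if_pos hp, if_pos hp]
    have : (1 - 1 / (p : ℝ))⁻¹ + -(1 - 1 / (p : ℝ))⁻¹ / p =
        (1 - 1 / (p : ℝ))⁻¹ * (1 - 1 / (p : ℝ)) := by ring
    rw [this, inv_mul_cancel₀ h2.ne']
  have f2 : ∏ p ∈ Q, (al A p + be A p / p) ≤ Real.exp 1 := by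
    refine le_trans (le_of_eq ?_) (prod_e Q hQr)
    refine Finset.prod_congr rfl fun p hp => ?_
    have hpA : p ∉ A := fun hpA => (Finset.disjoint_left.1 hdisj hpA hp)
    unfold al be
    rw [if_neg hpA, if_neg hpA]
    have h1 : (1 : ℝ) < p := by exact_mod_cast (hQr p hp).one_lt
    have h2 : (p : ℝ) - 1 ≠ 0 := by linarith
    have h3 : (p : ℝ) ≠ 0 := by linarith
    field_simp
  have f3 : ∏ p ∈ A, (|al A p| + |be A p|) ≤ 4 ^ y := by
    have g1 : ∏ p ∈ A, (|al A p| + |be A p|) ≤ ∏ _p ∈ A, (4 : ℝ) := by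
      refine Finset.prod_le_prod (fun p _ => by positivity) fun p hp => ?_
      have hpp := hPr p (mem_filter.1 hp).1
      have h1 : (2 : ℝ) ≤ p := by exact_mod_cast hpp.two_le
      have h3 : 1 / (p : ℝ) ≤ 1 / 2 := one_div_le_one_div_of_le (by norm_num) h1
      have h4 : (1 - 1 / (p : ℝ))⁻¹ ≤ 2 := by
        rw [inv_le_comm₀ (by linarith) (by norm_num)]
        linarith
      have h5 := (hpos p hpp).le
      unfold al be
      rw [if_pos hp, if_pos hp, abs_neg, abs_of_nonneg h5]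
      linarith
    refine g1.trans ?_
    rw [Finset.prod_const]
    refine pow_le_pow_right₀ (by norm_num) ?_
    have g2 : A ⊆ Finset.Icc 1 y := by
      intro p hp
      rw [Finset.mem_Icc]
      exact ⟨(hPr p (mem_filter.1 hp).1).one_le, (mem_filter.1 hp).2⟩
    simpa using Finset.card_le_card g2
  have f4 : ∏ p ∈ Q, (|al A p| + |be A p|) = ∏ p ∈ Q, (1 - 1 / (p : ℝ))⁻¹ := by
    refine Finset.prod_congr rfl fun p hp => ?_
    have hpA : p ∉ A := fun hpA => (Finset.disjoint_left.1 hdisj hpA hp)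
    unfold al be
    have h1 : (1 : ℝ) < p := by exact_mod_cast (hQr p hp).one_lt
    have h2 : (p : ℝ) - 1 ≠ 0 := by linarith
    have h3 : (p : ℝ) ≠ 0 := by linarith
    rw [if_neg hpA, if_neg hpA, abs_one, abs_of_pos (one_div_pos.2 (by linarith))]
    have h4 : (1 : ℝ) - 1 / p ≠ 0 := (factor_pos (hQr p hp)).ne'
    field_simp
    ring
  have hQ0 : 0 ≤ ∏ p ∈ Q, (1 - 1 / (p : ℝ))⁻¹ :=
    Finset.prod_nonneg fun p hp => (hpos p (hQr p hp)).le
  rw [f1, one_mul, f4]
  refine add_le_add ?_ (mul_le_mul_of_nonneg_right f3 hQ0)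
  calc 2 * Δ * ∏ p ∈ Q, (al A p + be A p / p) ≤ 2 * Δ * Real.exp 1 :=
        mul_le_mul_of_nonneg_left f2 (by linarith)
    _ = 2 * Real.exp 1 * Δ := by ring

/-- Mertens: product over a set of primes `≤ X` -/
lemma prod_inv_le (P : Finset ℕ) (hP : ∀ p ∈ P, p.Prime) {X : ℝ} (hX : 2 ≤ X)
    (hPX : ∀ p ∈ P, (p : ℝ) ≤ X) :
    ∏ p ∈ P, (1 - 1 / (p : ℝ))⁻¹ ≤ Real.exp 13 * Real.log X := by
  classical
  have hlX : 0 < Real.log X := Real.log_pos (by linarith)
  have h1 := Crest.Agent.R4C.Pivotsx80.V_ge (∏ p ∈ P, p) 1 hX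
  have h2 : Crest.Agent.R4C.Pivotsx80.V (∏ p ∈ P, p) X 1 = ∏ p ∈ P, (1 - 1 / (p : ℝ)) := by
    unfold Crest.Agent.R4C.Pivotsx80.V
    rw [Nat.div_one, Nat.primeFactors_prod hP]
    congr 1
    exact Finset.filter_true_of_mem hPX
  rw [h2] at h1
  have h3 : 0 < ∏ p ∈ P, (1 - 1 / (p : ℝ)) := Finset.prod_pos fun p hp => factor_pos (hP p hp)
  rw [Finset.prod_inv_distrib, inv_le_comm₀ h3 (by positivity)]
  refine le_trans (le_of_eq ?_) h1
  rw [mul_inv, ← Real.exp_neg]
  rfl

open Classical in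
/-- near boost in the energy of `KCb`: labels common to both members only at primes `≤ X` -/
theorem EnB_le {γ L X : ℝ} (hL : 0 < L) (hX : 2 ≤ X) {M b c : ℕ} (hb : 0 < b)
    (lam : ℕ → ℕ → Option ℤ) (hlam : ∀ p ∈ P2 M lam b c, (p : ℝ) ≤ X) (y : ℕ) :
    EnB γ L M lam b c ≤ (Nat.gcd b c : ℝ) * nu M b * nu M c *
      ((∏ p ∈ (P1 M lam b c).filter (fun p => y < p), (1 - 1 / (p : ℝ))⁻¹) *
        (2 * Real.exp 1 * (L / (Nat.gcd b c : ℕ)) + 4 ^ y * (Real.exp 13 * Real.log X))) := by
  have hP2 : ∀ p ∈ P2 M lam b c, p.Prime := by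
    intro p hp
    unfold P2 at hp
    exact prime_of_free (mem_filter.1 hp).1
  have hP1 : ∀ p ∈ P1 M lam b c, p.Prime := by
    intro p hp
    unfold P1 at hp
    exact prime_of_free (mem_filter.1 hp).1
  unfold EnB
  refine mul_le_mul_of_nonneg_left ((near_boost hL hb lam y).trans ?_)
    (mul_nonneg (mul_nonneg (by positivity) (nu_nonneg _ _)) (nu_nonneg _ _))
  refine mul_le_mul_of_nonneg_left ?_
    (Finset.prod_nonneg fun p hp => (inv_pos.2 (factor_pos (hP1 p (mem_filter.1 hp).1))).le)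
  exact add_le_add le_rfl (mul_le_mul_of_nonneg_left (prod_inv_le _ hP2 hX hlam) (by positivity))

end Crest.Agent.R4C.NearBoostx60
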