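import Crest.Agent.R4C.Ky_952
import Crest.Agent.R4C.NearBoost_60

/-!
# Row 4, BLOCK S7: the whole near part (helper360, note 3115)

* `near_cut`   : one pair, arbitrary labels: boosts summed over the unkilled offsets outside an
  exceptional set `E`, if the aligned common primes `> X` have boost `≤ K` for these offsets.
* `near_total` : all pairs with `gcd ≤ T0 L`, arbitrary labels, exceptional offsets `E b c`.
-/

set_option autoImplicit false

open Finset

namespace Crest.Agent.R4C.NearTotx360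

open Crest.Agent.R4C.Basex935 Crest.Agent.R4C.PrefixMx882 Crest.Agent.R4C.CrCountx935
  Crest.Agent.R4C.CrCoinx935 Crest.Agent.R4C.Bridgex882 Crest.Agent.R4C.NearAbsx60
  Crest.Agent.R4C.NearBoostx60 Crest.Agent.R4C.Kyx952

open Classical in
/-- the labels cut at `X` -/
noncomputable def cutL (lam : ℕ → ℕ → Option ℤ) (X : ℝ) (b p : ℕ) : Option ℤ :=
  if (p : ℝ) ≤ X then lam b p else none

lemma cutL_of_le {lam : ℕ → ℕ → Option ℤ} {X : ℝ} {b p : ℕ} (h : (p : ℝ) ≤ X) :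
    cutL lam X b p = lam b p := if_pos h

lemma cutL_of_gt {lam : ℕ → ℕ → Option ℤ} {X : ℝ} {b p : ℕ} (h : ¬ (p : ℝ) ≤ X) :
    cutL lam X b p = none := if_neg h

lemma P1_cut (M : ℕ) (lam : ℕ → ℕ → Option ℤ) (X : ℝ) (b c : ℕ) :
    P1 M (cutL lam X) b c = (P1 M lam b c).filter (fun p : ℕ => (p : ℝ) ≤ X) := by
  classical
  unfold P1
  rw [filter_filter]
  refine filter_congr fun p _ => ?_
  by_cases h : (p : ℝ) ≤ X
  · rw [cutL_of_le h, cutL_of_le h]; simp [h]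
  · rw [cutL_of_gt h, cutL_of_gt h]; simp [h]

lemma P2_cut (M : ℕ) (lam : ℕ → ℕ → Option ℤ) (X : ℝ) (b c : ℕ) :
    P2 M (cutL lam X) b c = (P2 M lam b c).filter (fun p : ℕ => (p : ℝ) ≤ X) := by
  classical
  unfold P2
  rw [filter_filter]
  refine filter_congr fun p _ => ?_
  by_cases h : (p : ℝ) ≤ X
  · rw [cutL_of_le h, cutL_of_le h]; simp [h]
  · rw [cutL_of_gt h, cutL_of_gt h]; simp [h]

lemma res_cut (lam : ℕ → ℕ → Option ℤ) {X : ℝ} (b c : ℕ) {p : ℕ} (h : (p : ℝ) ≤ X) :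
    res (cutL lam X) b c p = res lam b c p := by
  unfold res
  rw [cutL_of_le h, cutL_of_le h]

lemma killed_cut {lam : ℕ → ℕ → Option ℤ} {X : ℝ} {b c : ℕ} {h : ℤ}
    (hk : killedB (cutL lam X) b c h) : killedB lam b c h := by
  rcases hk with ⟨p, hp, h1, a, ha, h2⟩ | ⟨p, hp, h1, a, ha, h2⟩
  · refine Or.inl ⟨p, hp, h1, a, ?_, h2⟩
    by_cases h3 : (p : ℝ) ≤ X
    · rwa [cutL_of_le h3] at ha
    · rw [cutL_of_gt h3] at ha; cases ha
  · refine Or.inr ⟨p, hp, h1, a, ?_, h2⟩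
    by_cases h3 : (p : ℝ) ≤ X
    · rwa [cutL_of_le h3] at ha
    · rw [cutL_of_gt h3] at ha; cases ha

lemma prime_P1 {M : ℕ} {lam : ℕ → ℕ → Option ℤ} {b c p : ℕ} (hp : p ∈ P1 M lam b c) :
    p.Prime := by
  unfold P1 at hp
  exact prime_of_free (mem_filter.1 hp).1

lemma prime_P2 {M : ℕ} {lam : ℕ → ℕ → Option ℤ} {b c p : ℕ} (hp : p ∈ P2 M lam b c) :
    p.Prime := by
  unfold P2 at hp
  exact prime_of_free (mem_filter.1 hp).1

lemma inv_pos' {p : ℕ} (hp : p.Prime) : 0 < (1 - 1 / (p : ℝ))⁻¹ := inv_pos.2 (factor_pos hp)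

open Classical in
/-- the boost of an unkilled offset, primes `> X` taken out -/
lemma boost_cut {M b c : ℕ} (hb : 0 < b) (lam : ℕ → ℕ → Option ℤ) (X : ℝ) (h : ℤ)
    (hk : ¬ killedB lam b c h) :
    boostB M lam b c h ≤ (∏ p ∈ (P1 M lam b c).filter (fun p : ℕ => X < (p : ℝ)),
        (1 - 1 / (p : ℝ))⁻¹) *
      (∏ p ∈ (P2 M lam b c).filter (fun p : ℕ => X < (p : ℝ) ∧ (p : ℤ) ∣ h - res lam b c p),
        (1 - 1 / (p : ℝ))⁻¹) * boostB M (cutL lam X) b c h := by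
  rw [boost_le hb lam h hk, boost_le hb (cutL lam X) h (fun h1 => hk (killed_cut h1)),
    P1_cut, P2_cut]
  have e1 : ∏ p ∈ P1 M lam b c, ((1 - 1 / (p : ℝ))⁻¹ *
        (1 - if (p : ℤ) ∣ h - res lam b c p then 1 else 0)) ≤
      (∏ p ∈ (P1 M lam b c).filter (fun p : ℕ => X < (p : ℝ)), (1 - 1 / (p : ℝ))⁻¹) *
      ∏ p ∈ (P1 M lam b c).filter (fun p : ℕ => (p : ℝ) ≤ X), ((1 - 1 / (p : ℝ))⁻¹ *
        (1 - if (p : ℤ) ∣ h - res (cutL lam X) b c p then 1 else 0)) := by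
    rw [← Finset.prod_filter_mul_prod_filter_not (P1 M lam b c) (fun p : ℕ => X < (p : ℝ))]
    have h1 : ∏ p ∈ (P1 M lam b c).filter (fun p : ℕ => ¬ X < (p : ℝ)), ((1 - 1 / (p : ℝ))⁻¹ *
        (1 - if (p : ℤ) ∣ h - res lam b c p then 1 else 0)) =
        ∏ p ∈ (P1 M lam b c).filter (fun p : ℕ => (p : ℝ) ≤ X), ((1 - 1 / (p : ℝ))⁻¹ *
        (1 - if (p : ℤ) ∣ h - res (cutL lam X) b c p then 1 else 0)) := by
      refine prod_congr (filter_congr fun p _ => by rw [not_lt]) fun p hp => ?_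
      rw [res_cut lam b c (mem_filter.1 hp).2]
    rw [h1]
    refine mul_le_mul_of_nonneg_right ?_ (prod_nonneg fun p hp => ?_)
    · refine prod_le_prod (fun p hp => ?_) fun p hp => ?_
      · have := (inv_pos' (prime_P1 (mem_filter.1 hp).1)).le
        split_ifs
        · simp
        · simpa using this
      · have := (inv_pos' (prime_P1 (mem_filter.1 hp).1)).le
        split_ifs
        · simpa using this
        · simp
    · have := (inv_pos' (prime_P1 (mem_filter.1 hp).1)).le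
      split_ifs
      · simp
      · simpa using this
  have e2 : ∏ p ∈ P2 M lam b c, (1 + 1 / ((p : ℝ) - 1) *
        if (p : ℤ) ∣ h - res lam b c p then 1 else 0) =
      (∏ p ∈ (P2 M lam b c).filter (fun p : ℕ => X < (p : ℝ) ∧ (p : ℤ) ∣ h - res lam b c p),
        (1 - 1 / (p : ℝ))⁻¹) *
      ∏ p ∈ (P2 M lam b c).filter (fun p : ℕ => (p : ℝ) ≤ X), (1 + 1 / ((p : ℝ) - 1) *
        if (p : ℤ) ∣ h - res (cutL lam X) b c p then 1 else 0) := by
    rw [← Finset.prod_filter_mul_prod_filter_not (P2 M lam b c) (fun p : ℕ => X < (p : ℝ))]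
    congr 1
    · conv_rhs => rw [← filter_filter, prod_filter]
      refine prod_congr rfl fun p hp => ?_
      have h1 : (1 : ℝ) < p := by exact_mod_cast (prime_P2 (mem_filter.1 hp).1).one_lt
      have h2 : (p : ℝ) - 1 ≠ 0 := by linarith
      have h3 : (p : ℝ) ≠ 0 := by linarith
      split_ifs
      · have h4 : (1 : ℝ) - 1 / p ≠ 0 := (factor_pos (prime_P2 (mem_filter.1 hp).1)).ne'
        field_simp
        ring
      · simp
    · refine prod_congr (filter_congr fun p _ => by rw [not_lt]) fun p hp => ?_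
      rw [res_cut lam b c (mem_filter.1 hp).2]
  rw [e2]
  have h0 : 0 ≤ (∏ p ∈ (P2 M lam b c).filter (fun p : ℕ => X < (p : ℝ) ∧
        (p : ℤ) ∣ h - res lam b c p), (1 - 1 / (p : ℝ))⁻¹) *
      ∏ p ∈ (P2 M lam b c).filter (fun p : ℕ => (p : ℝ) ≤ X), (1 + 1 / ((p : ℝ) - 1) *
        if (p : ℤ) ∣ h - res (cutL lam X) b c p then 1 else 0) := by
    refine mul_nonneg (prod_nonneg fun p hp => (inv_pos' (prime_P2 (mem_filter.1 hp).1)).le)
      (prod_nonneg fun p hp => ?_)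
    have h1 : (1 : ℝ) < p := by exact_mod_cast (prime_P2 (mem_filter.1 hp).1).one_lt
    have h2 : 0 < 1 / ((p : ℝ) - 1) := one_div_pos.2 (by linarith)
    split_ifs
    · linarith
    · simp
  refine (mul_le_mul_of_nonneg_right e1 h0).trans (le_of_eq ?_)
  ring

open Classical in
/-- one pair -/
theorem near_cut {γ L : ℝ} (hL : 0 < L) {M b c : ℕ} (hb : 0 < b) (lam : ℕ → ℕ → Option ℤ)
    (y : ℕ) {X K : ℝ} (hyX : (y : ℝ) ≤ X) (hX : 2 ≤ X) (hK : 0 ≤ K) (E : Finset ℤ)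
    (hE : ∀ h ∈ Lnk γ L b c, ¬ killedB lam b c h → h ∉ E →
      ∏ p ∈ (P2 M lam b c).filter (fun p : ℕ => X < (p : ℝ) ∧ (p : ℤ) ∣ h - res lam b c p),
        (1 - 1 / (p : ℝ))⁻¹ ≤ K) :
    ∑ h ∈ (Lnk γ L b c).filter (fun h => ¬ killedB lam b c h ∧ h ∉ E), boostB M lam b c h ≤
      K * (∏ p ∈ (P1 M lam b c).filter (fun p => y < p), (1 - 1 / (p : ℝ))⁻¹) *
        (2 * Real.exp 1 * (L / (Nat.gcd b c : ℕ)) + 4 ^ y * (Real.exp 13 * Real.log X)) := by
  set D := ∏ p ∈ (P1 M lam b c).filter (fun p : ℕ => X < (p : ℝ)), (1 - 1 / (p : ℝ))⁻¹ with hD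
  have hD0 : 0 ≤ D := prod_nonneg fun p hp => (inv_pos' (prime_P1 (mem_filter.1 hp).1)).le
  have hbn : ∀ (l : ℕ → ℕ → Option ℤ) (h : ℤ), 0 ≤ boostB M l b c h := by
    intro l h
    unfold boostB
    refine prod_nonneg fun p hp => ?_
    split_ifs
    · exact (inv_pos' (prime_of_free hp)).le
    · exact zero_le_one
  -- pointwise
  have h1 : ∀ h ∈ (Lnk γ L b c).filter (fun h => ¬ killedB lam b c h ∧ h ∉ E),
      boostB M lam b c h ≤ D * K * boostB M (cutL lam X) b c h := by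
    intro h hh
    rw [mem_filter] at hh
    refine (boost_cut hb lam X h hh.2.1).trans ?_
    refine mul_le_mul_of_nonneg_right ?_ (hbn _ _)
    exact mul_le_mul_of_nonneg_left (hE h hh.1 hh.2.1 hh.2.2) hD0
  refine (sum_le_sum h1).trans ?_
  rw [← mul_sum]
  have h2 : ∑ h ∈ (Lnk γ L b c).filter (fun h => ¬ killedB lam b c h ∧ h ∉ E),
      boostB M (cutL lam X) b c h ≤
      ∑ h ∈ (Lnk γ L b c).filter (fun h => ¬ killedB (cutL lam X) b c h),
        boostB M (cutL lam X) b c h := by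
    refine sum_le_sum_of_subset_of_nonneg ?_ fun h _ _ => hbn _ _
    intro h hh
    rw [mem_filter] at hh ⊢
    exact ⟨hh.1, fun h3 => hh.2.1 (killed_cut h3)⟩
  have h3 := near_boost (γ := γ) (c := c) (M := M) hL hb (cutL lam X) y
  rw [P2_cut, P1_cut] at h3
  have h4 : ∏ p ∈ (P2 M lam b c).filter (fun p : ℕ => (p : ℝ) ≤ X), (1 - 1 / (p : ℝ))⁻¹ ≤
      Real.exp 13 * Real.log X :=
    prod_inv_le _ (fun p hp => prime_P2 (mem_filter.1 hp).1) hX fun p hp => (mem_filter.1 hp).2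
  set A := ∏ p ∈ ((P1 M lam b c).filter (fun p : ℕ => (p : ℝ) ≤ X)).filter (fun p => y < p),
    (1 - 1 / (p : ℝ))⁻¹ with hA
  have hA0 : 0 ≤ A := prod_nonneg fun p hp =>
    (inv_pos' (prime_P1 (mem_filter.1 (mem_filter.1 hp).1).1)).le
  have h5 : D * A = ∏ p ∈ (P1 M lam b c).filter (fun p => y < p), (1 - 1 / (p : ℝ))⁻¹ := by
    rw [← Finset.prod_filter_mul_prod_filter_not ((P1 M lam b c).filter (fun p => y < p))
      (fun p : ℕ => X < (p : ℝ)), hD, hA, filter_filter, filter_filter, filter_filter]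
    congr 1
    · refine prod_congr (filter_congr fun p _ => ?_) fun _ _ => rfl
      constructor
      · intro h6
        exact ⟨by exact_mod_cast lt_of_le_of_lt hyX h6, h6⟩
      · exact fun h6 => h6.2
    · refine prod_congr (filter_congr fun p _ => ?_) fun _ _ => rfl
      rw [not_lt]
      exact and_comm
  have hlog : 0 ≤ Real.log X := Real.log_nonneg (by linarith)
  have hg : (0 : ℝ) < (Nat.gcd b c : ℕ) := by exact_mod_cast Nat.gcd_pos_of_pos_left c hb
  calc D * K * ∑ h ∈ (Lnk γ L b c).filter (fun h => ¬ killedB lam b c h ∧ h ∉ E),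
        boostB M (cutL lam X) b c h
      ≤ D * K * (A * (2 * Real.exp 1 * (L / (Nat.gcd b c : ℕ)) +
          4 ^ y * (Real.exp 13 * Real.log X))) := by
        refine mul_le_mul_of_nonneg_left (h2.trans (h3.trans ?_)) (mul_nonneg hD0 hK)
        refine mul_le_mul_of_nonneg_left ?_ hA0
        exact add_le_add le_rfl (mul_le_mul_of_nonneg_left h4 (by positivity))
    _ = K * (D * A) * (2 * Real.exp 1 * (L / (Nat.gcd b c : ℕ)) +
          4 ^ y * (Real.exp 13 * Real.log X)) := by ring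
    _ = _ := by rw [h5]

/-! ### The factor of the labelled differing primes -/

lemma inv_le_exp' {p : ℕ} (hp : p.Prime) : (1 - 1 / (p : ℝ))⁻¹ ≤ Real.exp (2 * (1 / (p : ℝ))) := by
  have h1 : (2 : ℝ) ≤ p := by exact_mod_cast hp.two_le
  have h0 : (0 : ℝ) < p := by linarith
  have h2 : 1 / (p : ℝ) ≤ 1 / 2 := one_div_le_one_div_of_le (by norm_num) h1
  have h3 : 0 < 1 / (p : ℝ) := by positivity
  set x := 1 / (p : ℝ) with hx
  have h4 : (1 - x)⁻¹ ≤ 1 + 2 * x := by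
    rw [inv_le_comm₀ (by linarith) (by linarith), inv_le_comm₀ (by positivity) (by linarith)]
    rw [inv_le_iff_one_le_mul₀ (by linarith)]
    nlinarith
  refine h4.trans ?_
  have := Real.add_one_le_exp (2 * x)
  linarith

lemma prod_P1_le {M b c : ℕ} (hM : 0 < M) (hb : b ∣ M) (hc : c ∣ M)
    (lam : ℕ → ℕ → Option ℤ) (y : ℕ) :
    ∏ p ∈ (P1 M lam b c).filter (fun p => y < p), (1 - 1 / (p : ℝ))⁻¹ ≤
      Real.exp (2 * iy y (cof b c)) := by
  classical
  have hb0 : 0 < b := Nat.pos_of_dvd_of_pos hb hM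
  have hc0 : 0 < c := Nat.pos_of_dvd_of_pos hc hM
  have h1 : ∏ p ∈ (P1 M lam b c).filter (fun p => y < p), (1 - 1 / (p : ℝ))⁻¹ ≤
      ∏ p ∈ (P1 M lam b c).filter (fun p => y < p), Real.exp (2 * (1 / (p : ℝ))) :=
    prod_le_prod (fun p hp => (inv_pos' (prime_P1 (mem_filter.1 hp).1)).le)
      fun p hp => inv_le_exp' (prime_P1 (mem_filter.1 hp).1)
  refine h1.trans ?_
  rw [← Real.exp_sum, Real.exp_le_exp, ← mul_sum]
  refine mul_le_mul_of_nonneg_left ?_ (by norm_num)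
  unfold iy
  refine sum_le_sum_of_subset_of_nonneg ?_ fun p _ _ => by positivity
  intro p hp
  rw [mem_filter] at hp ⊢
  have hpp := prime_P1 hp.1
  have h2 := hp.1
  unfold P1 at h2
  rw [mem_filter] at h2
  have h3 : p ∣ cof b c := by
    unfold cof
    rcases h2.2 with h3 | h3
    · exact h3.1.mul_left _
    · exact h3.1.mul_right _
  exact ⟨Nat.mem_primeFactors.2 ⟨hpp, h3, cof_ne_zero hb0.ne' hc0.ne'⟩, by exact_mod_cast hp.2⟩

/-- one dyadic block -/
lemma iy_block {y : ℕ} (hy : 0 < y) (n : ℕ) : iy y n ≤ iy ((2 * y : ℕ) : ℝ) n + 1 := by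
  classical
  unfold iy
  rw [← Finset.sum_filter_add_sum_filter_not (n.primeFactors.filter (fun p : ℕ => ((y : ℕ) : ℝ) < (p : ℝ)))
    (fun p : ℕ => ((2 * y : ℕ) : ℝ) < (p : ℝ))]
  refine add_le_add ?_ ?_
  · refine sum_le_sum_of_subset_of_nonneg ?_ fun p _ _ => by positivity
    intro p hp
    rw [mem_filter, mem_filter] at hp
    rw [mem_filter]
    exact ⟨hp.1.1, hp.2⟩
  · have hyr : (0 : ℝ) < y := by exact_mod_cast hy
    have h1 : ∀ p ∈ (n.primeFactors.filter (fun p : ℕ => ((y : ℕ) : ℝ) < (p : ℝ))).filter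
        (fun p : ℕ => ¬ ((2 * y : ℕ) : ℝ) < (p : ℝ)), (1 : ℝ) / p ≤ 1 / y := by
      intro p hp
      rw [mem_filter, mem_filter] at hp
      exact one_div_le_one_div_of_le hyr hp.1.2.le
    refine (sum_le_sum h1).trans ?_
    rw [sum_const, nsmul_eq_mul]
    have h2 : (n.primeFactors.filter (fun p : ℕ => ((y : ℕ) : ℝ) < (p : ℝ))).filter
        (fun p : ℕ => ¬ ((2 * y : ℕ) : ℝ) < (p : ℝ)) ⊆ Ioc y (2 * y) := by
      intro p hp
      rw [mem_filter, mem_filter, not_lt] at hp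
      rw [mem_Ioc]
      exact ⟨by exact_mod_cast hp.1.2, by exact_mod_cast hp.2⟩
    have h3 := card_le_card h2
    rw [Nat.card_Ioc] at h3
    have h4 : (((n.primeFactors.filter (fun p : ℕ => ((y : ℕ) : ℝ) < (p : ℝ))).filter
        (fun p : ℕ => ¬ ((2 * y : ℕ) : ℝ) < (p : ℝ))).card : ℝ) ≤ y := by
      exact (Nat.cast_le (α := ℝ)).2 (by omega)
    rw [mul_one_div, div_le_one hyr]
    exact h4

lemma iy_blocks {y : ℕ} (hy : 0 < y) (n j : ℕ) :
    iy y n ≤ iy ((2 ^ j * y : ℕ) : ℝ) n + j := by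
  induction j with
  | zero => simp
  | succ j ih =>
    have h1 := iy_block (y := 2 ^ j * y) (by positivity) n
    have e : 2 * (2 ^ j * y) = 2 ^ (j + 1) * y := by ring
    rw [e] at h1
    push_cast at *
    linarith

open Classical in
/-- level decomposition of the factor -/
lemma level {y : ℕ} (hy : 0 < y) (n J : ℕ) (hJ : iy ((2 ^ J * y : ℕ) : ℝ) n < 1) :
    Real.exp (2 * iy y n) ≤ Real.exp 2 + ∑ j ∈ range J, Real.exp (2 * (j + 2)) *
      (if 1 ≤ iy ((2 ^ j * y : ℕ) : ℝ) n then 1 else 0) := by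
  induction J with
  | zero =>
    simp only [pow_zero, one_mul] at hJ
    rw [range_zero, sum_empty, add_zero, Real.exp_le_exp]
    linarith
  | succ J ih =>
    rw [sum_range_succ]
    by_cases h : iy ((2 ^ J * y : ℕ) : ℝ) n < 1
    · have h1 := ih h
      have h2 : 0 ≤ Real.exp (2 * ((J : ℝ) + 2)) *
          (if 1 ≤ iy ((2 ^ J * y : ℕ) : ℝ) n then (1 : ℝ) else 0) := by
        split_ifs
        · positivity
        · simp
      linarith
    · have h3 : 1 ≤ iy ((2 ^ J * y : ℕ) : ℝ) n := not_lt.1 h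
      rw [if_pos h3, mul_one]
      have h4 := iy_blocks hy n (J + 1)
      have h5 : Real.exp (2 * iy y n) ≤ Real.exp (2 * ((J : ℝ) + 2)) := by
        rw [Real.exp_le_exp]
        push_cast at h4 hJ
        linarith
      have h6 : 0 ≤ ∑ j ∈ range J, Real.exp (2 * ((j : ℝ) + 2)) *
          (if 1 ≤ iy ((2 ^ j * y : ℕ) : ℝ) n then (1 : ℝ) else 0) := by
        refine sum_nonneg fun j _ => ?_
        split_ifs
        · positivity
        · simp
      have h7 := Real.exp_pos 2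
      linarith

lemma iy_zero_of_large {y M n : ℕ} (hn : ∀ p ∈ n.primeFactors, p ≤ M) (h : M ≤ y) :
    iy y n = 0 := by
  unfold iy
  refine sum_eq_zero fun p hp => ?_
  rw [mem_filter] at hp
  have h1 : y < p := by exact_mod_cast hp.2
  have h2 := hn p hp.1
  omega

/-! ### One pair in a dyadic window -/

lemma prod_mono' {S T : Finset ℕ} (h : S ⊆ T) (f : ℕ → ℝ) (hf : ∀ p ∈ T, 1 ≤ f p) :
    ∏ p ∈ S, f p ≤ ∏ p ∈ T, f p := by
  classical
  rw [← prod_sdiff h]
  have h1 : 1 ≤ ∏ p ∈ T \ S, f p := by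
    calc (1 : ℝ) = ∏ _p ∈ T \ S, (1 : ℝ) := by rw [prod_const_one]
      _ ≤ _ := prod_le_prod (fun _ _ => zero_le_one) fun p hp => hf p (mem_sdiff.1 hp).1
  have h2 : 0 ≤ ∏ p ∈ S, f p := prod_nonneg fun p hp => zero_le_one.trans (hf p (h hp))
  exact le_mul_of_one_le_left h2 h1

lemma four_pow_le {i : ℕ} {a : ℝ} (ha : (2 : ℝ) ^ i ≤ a) : (4 : ℝ) ^ (i / 8) ≤ Real.sqrt a := by
  refine Real.le_sqrt_of_sq_le (le_trans ?_ ha)
  have e : ((4 : ℝ) ^ (i / 8)) ^ 2 = 2 ^ (4 * (i / 8)) := by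
    rw [show (4 : ℝ) = 2 ^ 2 by norm_num, ← pow_mul, ← pow_mul]
    congr 1
    ring
  rw [e]
  exact pow_le_pow_right₀ (by norm_num) (by omega)

lemma nat_le_sqrt {i : ℕ} {a : ℝ} (ha : (2 : ℝ) ^ i ≤ a) : (i : ℝ) ≤ 2 * Real.sqrt a := by
  have h1 : i / 2 < 2 ^ (i / 2) := Nat.lt_two_pow_self
  have h2 : i ≤ 2 * 2 ^ (i / 2) := by omega
  have h3 : (2 : ℝ) ^ (i / 2) ≤ Real.sqrt a := by
    refine Real.le_sqrt_of_sq_le (le_trans ?_ ha)
    rw [← pow_mul]
    exact pow_le_pow_right₀ (by norm_num) (by omega)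
  have h4 : (i : ℝ) ≤ 2 * 2 ^ (i / 2) := by exact_mod_cast h2
  linarith

/-- the constant -/
noncomputable def C1 (Y : ℕ) (T0 : ℝ) : ℝ :=
  2 * Real.exp 1 + 4 ^ Y * Real.exp 13 * (Y + 4) * T0

lemma C1_pos (Y : ℕ) {T0 : ℝ} (hT0 : 1 ≤ T0) : 0 < C1 Y T0 := by
  unfold C1
  have := Real.exp_pos 1
  have := Real.exp_pos 13
  positivity

open Classical in
lemma pair_near {T0 : ℝ} (hT0 : 1 ≤ T0) (Y : ℕ) {γ L : ℝ} (hL : 0 < L) {M b c : ℕ} (hM : 0 < M)
    (hb : b ∣ M) (hc : c ∣ M) (lam : ℕ → ℕ → Option ℤ) {K : ℝ} (hK : 0 ≤ K) (E : Finset ℤ) (i : ℕ)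
    (h2 : (Nat.gcd b c : ℝ) ≤ T0 * L / 2 ^ i)
    (hE : ∀ h ∈ Lnk γ L b c, ¬ killedB lam b c h → h ∉ E →
      ∏ p ∈ (P2 M lam b c).filter (fun p : ℕ =>
        Real.exp ((max 1 (L / (Nat.gcd b c : ℕ))) ^ (1 / 8 : ℝ)) < (p : ℝ) ∧
          (p : ℤ) ∣ h - res lam b c p), (1 - 1 / (p : ℝ))⁻¹ ≤ K) :
    (Nat.gcd b c : ℝ) * nu M b * nu M c *
      ∑ h ∈ (Lnk γ L b c).filter (fun h => ¬ killedB lam b c h ∧ h ∉ E), boostB M lam b c h ≤
    C1 Y T0 * K * L * (nu M b * nu M c * Real.exp (2 * iy ((Y + i / 8 : ℕ) : ℝ) (cof b c))) := by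
  have hb0 : 0 < b := Nat.pos_of_dvd_of_pos hb hM
  have hg : (0 : ℝ) < (Nat.gcd b c : ℕ) := by exact_mod_cast Nat.gcd_pos_of_pos_left c hb0
  set g : ℝ := ((Nat.gcd b c : ℕ) : ℝ) with hgdef
  set Δ := L / g with hΔ
  have hΔ0 : 0 < Δ := div_pos hL hg
  have hgΔ : g * Δ = L := by rw [hΔ]; field_simp
  set a := T0 * Δ with ha
  have h2i : (0 : ℝ) < 2 ^ i := by positivity
  have ha1 : (2 : ℝ) ^ i ≤ a := by
    rw [ha, hΔ]
    rw [le_div_iff₀ h2i] at h2
    rw [← mul_div_assoc, le_div_iff₀ hg]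
    linarith
  have h21 : (1 : ℝ) ≤ 2 ^ i := one_le_pow₀ (by norm_num)
  have ha0 : 1 ≤ a := h21.trans ha1
  have hmax : max 1 Δ ≤ a := by
    refine max_le ha0 ?_
    rw [ha]
    nlinarith
  set u := (max 1 Δ) ^ (1 / 8 : ℝ) with hu
  have hm1 : 1 ≤ max 1 Δ := le_max_left _ _
  have hu1 : 1 ≤ u := Real.one_le_rpow hm1 (by norm_num)
  have hus : u ≤ Real.sqrt a := by
    rw [Real.sqrt_eq_rpow]
    calc u ≤ (max 1 Δ) ^ (1 / 2 : ℝ) := Real.rpow_le_rpow_of_exponent_le hm1 (by norm_num)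
      _ ≤ a ^ (1 / 2 : ℝ) := Real.rpow_le_rpow (by linarith) hmax (by norm_num)
  have hs1 : 1 ≤ Real.sqrt a := hu1.trans hus
  set y : ℕ := Y + i / 8 with hy
  set X := max (Real.exp u) ((y : ℝ) + 2) with hX
  have hX2 : 2 ≤ X := by
    have : (0 : ℝ) ≤ y := Nat.cast_nonneg _
    exact le_trans (by linarith) (le_max_right _ _)
  have hyX : (y : ℝ) ≤ X := le_trans (by linarith) (le_max_right _ _)
  -- the hypothesis for `X`
  have hE' : ∀ h ∈ Lnk γ L b c, ¬ killedB lam b c h → h ∉ E →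
      ∏ p ∈ (P2 M lam b c).filter (fun p : ℕ => X < (p : ℝ) ∧ (p : ℤ) ∣ h - res lam b c p),
        (1 - 1 / (p : ℝ))⁻¹ ≤ K := by
    intro h hh hk hhE
    refine le_trans ?_ (hE h hh hk hhE)
    refine prod_mono' ?_ _ fun p hp => ?_
    · intro p hp
      rw [mem_filter] at hp ⊢
      exact ⟨hp.1, lt_of_le_of_lt (le_max_left _ _) hp.2.1, hp.2.2⟩
    · have hpp := prime_P2 (mem_filter.1 hp).1
      have h3 := factor_pos hpp
      rw [one_le_inv₀ h3]
      have h4 : (0 : ℝ) < p := by exact_mod_cast hpp.pos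
      have : 0 ≤ 1 / (p : ℝ) := by positivity
      linarith
  have hmain := near_cut (γ := γ) (M := M) hL hb0 lam y hyX hX2 hK E hE'
  have hP1 := prod_P1_le hM hb hc lam y
  have hP0 : 0 ≤ ∏ p ∈ (P1 M lam b c).filter (fun p => y < p), (1 - 1 / (p : ℝ))⁻¹ :=
    prod_nonneg fun p hp => (inv_pos' (prime_P1 (mem_filter.1 hp).1)).le
  -- `log X`
  have hlog : Real.log X ≤ (Y + 4) * Real.sqrt a := by
    have hy0 : (0 : ℝ) ≤ (y : ℝ) := Nat.cast_nonneg _
    have hYr : (0 : ℝ) ≤ (Y : ℝ) := Nat.cast_nonneg _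
    have h3 : Real.log X ≤ max u ((y : ℝ) + 1) := by
      rcases le_total (Real.exp u) ((y : ℝ) + 2) with h | h
      · rw [hX, max_eq_right h]
        refine le_trans ?_ (le_max_right _ _)
        have := Real.log_le_sub_one_of_pos (show (0 : ℝ) < (y : ℝ) + 2 by linarith)
        linarith
      · rw [hX, max_eq_left h, Real.log_exp]
        exact le_max_left _ _
    refine h3.trans (max_le ?_ ?_)
    · nlinarith
    · have h4 := nat_le_sqrt ha1
      have h5 : (y : ℝ) ≤ Y + i := by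
        rw [hy]
        push_cast
        have : ((i / 8 : ℕ) : ℝ) ≤ i := by exact_mod_cast Nat.div_le_self i 8
        linarith
      nlinarith
  have hlog0 : 0 ≤ Real.log X := Real.log_nonneg (by linarith)
  -- the bracket
  have hbr : 2 * Real.exp 1 * Δ + 4 ^ y * (Real.exp 13 * Real.log X) ≤ C1 Y T0 * Δ := by
    have h5 : (4 : ℝ) ^ y ≤ 4 ^ Y * Real.sqrt a := by
      rw [hy, pow_add]
      exact mul_le_mul_of_nonneg_left (four_pow_le ha1) (by positivity)
    have h6 : (4 : ℝ) ^ y * (Real.exp 13 * Real.log X) ≤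
        (4 ^ Y * Real.sqrt a) * (Real.exp 13 * ((Y + 4) * Real.sqrt a)) := by
      refine mul_le_mul h5 ?_ (by positivity) (by positivity)
      exact mul_le_mul_of_nonneg_left hlog (Real.exp_pos _).le
    have h7 : Real.sqrt a * Real.sqrt a = a := Real.mul_self_sqrt (by linarith)
    have h8 : (4 ^ Y * Real.sqrt a) * (Real.exp 13 * ((Y + 4) * Real.sqrt a)) =
        4 ^ Y * Real.exp 13 * (Y + 4) * a := by
      calc _ = 4 ^ Y * Real.exp 13 * (Y + 4) * (Real.sqrt a * Real.sqrt a) := by ring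
        _ = _ := by rw [h7]
    rw [h8] at h6
    unfold C1
    calc _ ≤ 2 * Real.exp 1 * Δ + 4 ^ Y * Real.exp 13 * (Y + 4) * a := by linarith
      _ = _ := by rw [ha]; ring
  have hbr0 : 0 ≤ 2 * Real.exp 1 * Δ + 4 ^ y * (Real.exp 13 * Real.log X) := by positivity
  have hn1 := nu_nonneg M b
  have hn2 := nu_nonneg M c
  calc g * nu M b * nu M c *
      ∑ h ∈ (Lnk γ L b c).filter (fun h => ¬ killedB lam b c h ∧ h ∉ E), boostB M lam b c h
      ≤ g * nu M b * nu M c * (K * Real.exp (2 * iy y (cof b c)) * (C1 Y T0 * Δ)) := by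
        refine mul_le_mul_of_nonneg_left (hmain.trans ?_) (by positivity)
        refine mul_le_mul ?_ hbr hbr0 (by positivity)
        exact mul_le_mul_of_nonneg_left hP1 hK
    _ = C1 Y T0 * K * (g * Δ) * (nu M b * nu M c * Real.exp (2 * iy y (cof b c))) := by ring
    _ = _ := by rw [hgΔ]

/-! ### The sum over all near pairs -/

lemma exists_window {T0 L g : ℝ} {I : ℕ} (hg : 1 ≤ g) (hI : T0 * L / 2 ^ I < 1) (hTL : 0 < T0 * L)
    (h : g ≤ T0 * L) : ∃ i ∈ range (I + 1), T0 * L / 2 ^ (i + 1) < g ∧ g ≤ T0 * L / 2 ^ i := by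
  classical
  have hP : ∃ i, T0 * L / 2 ^ (i + 1) < g := by
    refine ⟨I, lt_of_le_of_lt ?_ (hI.trans_le hg)⟩
    rw [pow_succ]
    exact div_le_div_of_nonneg_left hTL.le (by positivity) (by
      have : (0 : ℝ) < 2 ^ I := by positivity
      linarith)
  refine ⟨Nat.find hP, ?_, Nat.find_spec hP, ?_⟩
  · rw [mem_range, Nat.lt_succ_iff]
    refine Nat.find_min' hP (lt_of_le_of_lt ?_ (hI.trans_le hg))
    rw [pow_succ]
    exact div_le_div_of_nonneg_left hTL.le (by positivity) (by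
      have : (0 : ℝ) < 2 ^ I := by positivity
      linarith)
  · rcases Nat.eq_zero_or_pos (Nat.find hP) with h0 | h0
    · rw [h0, pow_zero, div_one]; exact h
    · have h1 := Nat.find_min hP (show Nat.find hP - 1 < Nat.find hP by omega)
      rw [Nat.sub_add_cancel h0] at h1
      exact not_lt.1 h1

lemma geom_half (n : ℕ) : ∑ j ∈ range n, (1 / 2 : ℝ) ^ j ≤ 2 := by
  have h := geom_sum_eq (x := (1 / 2 : ℝ)) (by norm_num) n
  rw [h]
  have : (0 : ℝ) < (1 / 2) ^ n := by positivity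
  rw [div_le_iff_of_neg (by norm_num)]
  linarith

lemma sum_sum_geom (a : ℝ) (m n : ℕ) :
    ∑ i ∈ range m, ∑ j ∈ range n, a * ((1 / 2 : ℝ) ^ i * (1 / 2) ^ j) =
      a * ((∑ i ∈ range m, (1 / 2 : ℝ) ^ i) * ∑ j ∈ range n, (1 / 2 : ℝ) ^ j) := by
  rw [Finset.sum_mul_sum, Finset.mul_sum]
  refine Finset.sum_congr rfl fun i _ => ?_
  rw [Finset.mul_sum]

/-- numerical bound of one level -/
lemma level_num (Y i j : ℕ) (hY : 1 ≤ Y) :
    Real.exp (2 * ((j : ℝ) + 2)) * Real.exp (-(32 * ((2 ^ j * (Y + i / 8) : ℕ) : ℝ))) *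
      2 ^ (i + 1) ≤ Real.exp 4 * ((1 / 2) ^ i * (1 / 2) ^ j) := by
  have h1 : 4 * (i + 1) + 32 * j ≤ 32 * (2 ^ j * (Y + i / 8)) := by
    have h2 : j < 2 ^ j := Nat.lt_two_pow_self
    have h3 : i + 1 ≤ 8 * (Y + i / 8) := by omega
    have h4 : (j + 1) * (Y + i / 8) ≤ 2 ^ j * (Y + i / 8) := Nat.mul_le_mul_right _ h2
    have h5 : 1 ≤ Y + i / 8 := by omega
    have h6 : j ≤ j * (Y + i / 8) := Nat.le_mul_of_pos_right _ h5
    have h7 : (j + 1) * (Y + i / 8) = j * (Y + i / 8) + (Y + i / 8) := by ring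
    omega
  have h1r : 4 * ((i : ℝ) + 1) + 32 * j ≤ 32 * ((2 ^ j * (Y + i / 8) : ℕ) : ℝ) := by
    exact_mod_cast h1
  have h2 : Real.exp (2 * ((j : ℝ) + 2)) * Real.exp (-(32 * ((2 ^ j * (Y + i / 8) : ℕ) : ℝ))) ≤
      Real.exp 4 * (Real.exp (-4 * ((i : ℝ) + 1)) * Real.exp (-30 * (j : ℝ))) := by
    rw [← Real.exp_add, ← Real.exp_add, ← Real.exp_add, Real.exp_le_exp]
    linarith
  have h3 : Real.exp (-30 * (j : ℝ)) ≤ (1 / 2) ^ j := by
    have e : Real.exp (-30 * (j : ℝ)) = (Real.exp (-30)) ^ j := by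
      rw [← Real.exp_nat_mul]; ring_nf
    rw [e]
    refine pow_le_pow_left₀ (Real.exp_pos _).le ?_ _
    have : Real.exp (-30) ≤ Real.exp (-1) := Real.exp_le_exp.2 (by norm_num)
    have h4 : Real.exp (-1) ≤ 1 / 2 := by
      rw [Real.exp_neg, one_div]
      exact inv_anti₀ (by norm_num) (by have := Real.add_one_le_exp 1; linarith)
    linarith
  have h4 : Real.exp (-4 * ((i : ℝ) + 1)) * 2 ^ (i + 1) ≤ (1 / 2) ^ i := by
    have e : Real.exp (-4 * ((i : ℝ) + 1)) = (Real.exp (-4)) ^ (i + 1) := by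
      rw [← Real.exp_nat_mul]; push_cast; ring_nf
    rw [e, ← mul_pow]
    have h5 : Real.exp (-4) * 2 ≤ 1 / 2 := by
      have h6 : Real.exp 4 = (Real.exp 1) ^ 4 := by rw [← Real.exp_nat_mul]; norm_num
      have h7 : (2 : ℝ) ≤ Real.exp 1 := by have := Real.add_one_le_exp 1; linarith
      have h8 : (16 : ℝ) ≤ Real.exp 4 := by
        rw [h6]
        calc (16 : ℝ) = 2 ^ 4 := by norm_num
          _ ≤ _ := pow_le_pow_left₀ (by norm_num) h7 4
      have h9 : Real.exp (-4) ≤ 1 / 16 := by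
        rw [Real.exp_neg, one_div]
        exact inv_anti₀ (by norm_num) h8
      linarith
    calc (Real.exp (-4) * 2) ^ (i + 1) ≤ (1 / 2) ^ (i + 1) :=
          pow_le_pow_left₀ (by positivity) h5 _
      _ ≤ (1 / 2) ^ i := pow_le_pow_of_le_one (by norm_num) (by norm_num) (by omega)
  calc Real.exp (2 * ((j : ℝ) + 2)) * Real.exp (-(32 * ((2 ^ j * (Y + i / 8) : ℕ) : ℝ))) *
        2 ^ (i + 1)
      ≤ Real.exp 4 * (Real.exp (-4 * ((i : ℝ) + 1)) * Real.exp (-30 * (j : ℝ))) * 2 ^ (i + 1) :=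
        mul_le_mul_of_nonneg_right h2 (by positivity)
    _ = Real.exp 4 * ((Real.exp (-4 * ((i : ℝ) + 1)) * 2 ^ (i + 1)) * Real.exp (-30 * (j : ℝ))) := by
        ring
    _ ≤ _ := mul_le_mul_of_nonneg_left (mul_le_mul h4 h3 (Real.exp_pos _).le (by positivity))
        (Real.exp_pos _).le

/-- scale bookkeeping -/
lemma scale_num {T0 L S : ℝ} (hT0 : 1 ≤ T0) (hL : 0 < L) (hS : 0 ≤ S) (hm : L * S ≤ 1) (i : ℕ) :
    L ^ 2 * (1 / (T0 * L / 2 ^ (i + 1)) * ((T0 * L / 2 ^ (i + 1)) ^ (2 * (3 / 4 : ℝ) - 1) *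
      (S ^ (3 / 4 : ℝ) * S ^ (3 / 4 : ℝ)))) ≤ 2 ^ (i + 1) * (L * S) := by
  set X := T0 * L / 2 ^ (i + 1) with hX
  have hX0 : 0 < X := by rw [hX]; positivity
  have e1 : X ^ (2 * (3 / 4 : ℝ) - 1) = Real.sqrt X := by
    rw [Real.sqrt_eq_rpow]; norm_num
  have e2 : S ^ (3 / 4 : ℝ) * S ^ (3 / 4 : ℝ) = S * Real.sqrt S := by
    rw [Real.sqrt_eq_rpow]
    rcases hS.eq_or_lt with h0 | h0
    · rw [← h0]; norm_num
    · rw [← Real.rpow_add h0]
      nth_rewrite 2 [← Real.rpow_one S]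
      rw [← Real.rpow_add h0]
      norm_num
  rw [e1, e2]
  have hr : 0 < Real.sqrt X := Real.sqrt_pos.2 hX0
  have hr2 : Real.sqrt X * Real.sqrt X = X := Real.mul_self_sqrt hX0.le
  have h1 : L * Real.sqrt S ≤ 2 ^ (i + 1) * Real.sqrt X := by
    refine abs_le_of_sq_le_sq' ?_ (by positivity) |>.2
    rw [mul_pow, mul_pow, Real.sq_sqrt hS, Real.sq_sqrt hX0.le, hX]
    have h2 : (1 : ℝ) ≤ 2 ^ (i + 1) := one_le_pow₀ (by norm_num)
    have e3 : ((2 : ℝ) ^ (i + 1)) ^ 2 * (T0 * L / 2 ^ (i + 1)) = 2 ^ (i + 1) * T0 * L := by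
      field_simp
    rw [e3]
    have h3 : (1 : ℝ) ≤ 2 ^ (i + 1) * T0 := by nlinarith
    nlinarith
  have h4 : L ^ 2 * (1 / X * (Real.sqrt X * (S * Real.sqrt S))) =
      (L * S) * (L * Real.sqrt S) / Real.sqrt X := by
    rw [eq_div_iff hr.ne']
    have : L ^ 2 * (1 / X * (Real.sqrt X * (S * Real.sqrt S))) * Real.sqrt X =
        L ^ 2 * (S * Real.sqrt S) * (Real.sqrt X * Real.sqrt X / X) := by ring
    rw [this, hr2, div_self hX0.ne']
    ring
  rw [h4, div_le_iff₀ hr]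
  have h5 : 0 ≤ L * S := mul_nonneg hL.le hS
  nlinarith [mul_le_mul_of_nonneg_left h1 h5]

open Classical in
/-- energy of the unkilled non-exceptional offsets of one pair (without the factor `L`) -/
noncomputable def EnE (γ L : ℝ) (M : ℕ) (lam : ℕ → ℕ → Option ℤ) (E : Finset ℤ) (b c : ℕ) : ℝ :=
  (Nat.gcd b c : ℝ) * nu M b * nu M c *
    ∑ h ∈ (Lnk γ L b c).filter (fun h => ¬ killedB lam b c h ∧ h ∉ E), boostB M lam b c h

open Classical in
/-- **NEAR PAIRS**: all pairs with `gcd ≤ T0 L`, arbitrary labels, exceptional offsets `E b c`;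
`K` bounds the boost of the aligned common primes `> exp ((L/g)^(1/8))`. -/
theorem near_total {T0 : ℝ} (hT0 : 1 ≤ T0) : ∃ C : ℝ, 0 < C ∧ ∀ (γ L : ℝ) (M : ℕ) (B : Finset ℕ)
    (lam : ℕ → ℕ → Option ℤ) (E : ℕ → ℕ → Finset ℤ) (K : ℝ), 0 < L → 0 < M → B ⊆ M.divisors →
    L * ∑ b ∈ B, nu M b ≤ 1 → 0 ≤ K →
    (∀ b ∈ B, ∀ c ∈ B, b ≠ c → (Nat.gcd b c : ℝ) ≤ T0 * L → ∀ h ∈ Lnk γ L b c,
      ¬ killedB lam b c h → h ∉ E b c →
      ∏ p ∈ (P2 M lam b c).filter (fun p : ℕ =>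
        Real.exp ((max 1 (L / (Nat.gcd b c : ℕ))) ^ (1 / 8 : ℝ)) < (p : ℝ) ∧
          (p : ℤ) ∣ h - res lam b c p), (1 - 1 / (p : ℝ))⁻¹ ≤ K) →
    L * ∑ b ∈ B, ∑ c ∈ (B.erase b).filter (fun c => (Nat.gcd b c : ℝ) ≤ T0 * L),
      EnE γ L M lam (E b c) b c ≤ C * K * (L * ∑ b ∈ B, nu M b) := by
  obtain ⟨C2, hC2, H2⟩ := energy_ky (κ := 3 / 4) (by norm_num) (by norm_num)
  obtain ⟨y1, hy1, H3⟩ := H2 32 1 (by norm_num) one_pos
  set Y : ℕ := ⌈y1⌉₊ with hY
  have hY1 : y1 ≤ Y := Nat.le_ceil _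
  have hYn : 1 ≤ Y := by
    have : (1 : ℝ) ≤ Y := hy1.trans hY1
    exact_mod_cast this
  have hC10 := C1_pos Y hT0
  refine ⟨C1 Y T0 * (Real.exp 2 + 4 * Real.exp 4 * C2), by positivity, ?_⟩
  intro γ L M B lam E K hL hM hB hm hK hE
  have hTL : 0 < T0 * L := by positivity
  obtain ⟨I, hI⟩ := pow_unbounded_of_one_lt (T0 * L) (show (1 : ℝ) < 2 by norm_num)
  have hI' : T0 * L / 2 ^ I < 1 := by rw [div_lt_one (by positivity)]; exact hI
  set S := ∑ b ∈ B, nu M b with hS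
  have hS0 : 0 ≤ S := sum_nonneg fun b _ => nu_nonneg M b
  set f : ℕ → ℝ := fun b => if b ∈ B then 1 else 0 with hf
  have hf0 : ∀ x, 0 ≤ f x := fun x => by rw [hf]; dsimp only; split_ifs <;> norm_num
  have hf1 : ∀ x, f x ≤ 1 := fun x => by rw [hf]; dsimp only; split_ifs <;> norm_num
  have hfS : ∑ b ∈ M.divisors, nu M b * f b = S := by
    rw [hS, ← sum_subset hB (f := fun b => nu M b * f b)]
    · refine sum_congr rfl fun b hb => ?_
      rw [hf]; dsimp only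
      rw [if_pos hb, mul_one]
    · intro b _ hb
      rw [hf]; dsimp only
      rw [if_neg hb, mul_zero]
  -- the window sums
  set X : ℕ → ℝ := fun i => T0 * L / 2 ^ (i + 1) with hX
  have hX0 : ∀ i, 0 < X i := fun i => by rw [hX]; positivity
  set T : ℕ → ℕ → ℕ → ℕ → ℝ := fun i j b c =>
    (if X i < (Nat.gcd b c : ℝ) ∧ (Nat.gcd b c : ℝ) ≤ 2 * X i then
      (Nat.gcd b c : ℝ) * nu M b * nu M c *
        (f b * f c * KY ((2 ^ j * (Y + i / 8) : ℕ) : ℝ) 1 b c) else 0) with hT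
  have hT0' : ∀ i j b c, 0 ≤ T i j b c := by
    intro i j b c
    rw [hT]; dsimp only
    split_ifs
    · have := nu_nonneg M b
      have := nu_nonneg M c
      have := hf0 b
      have := hf0 c
      have := KY_nonneg ((2 ^ j * (Y + i / 8) : ℕ) : ℝ) 1 b c
      positivity
    · exact le_rfl
  -- pointwise bound
  have hpt : ∀ b ∈ B, ∀ c ∈ (B.erase b).filter (fun c => (Nat.gcd b c : ℝ) ≤ T0 * L),
      EnE γ L M lam (E b c) b c ≤ C1 Y T0 * K * L * (Real.exp 2 * (nu M b * nu M c) +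
        ∑ i ∈ range (I + 1), ∑ j ∈ range M, Real.exp (2 * ((j : ℝ) + 2)) * (1 / X i * T i j b c)) := by
    intro b hb c hc
    rw [mem_filter, mem_erase] at hc
    obtain ⟨⟨hcb, hcB⟩, hgc⟩ := hc
    have hbM := Nat.dvd_of_mem_divisors (hB hb)
    have hcM := Nat.dvd_of_mem_divisors (hB hcB)
    have hb0 : 0 < b := Nat.pos_of_dvd_of_pos hbM hM
    have hc0 : 0 < c := Nat.pos_of_dvd_of_pos hcM hM
    have hg1 : (1 : ℝ) ≤ (Nat.gcd b c : ℕ) := by
      exact_mod_cast Nat.gcd_pos_of_pos_left c hb0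
    obtain ⟨i, hi, hi1, hi2⟩ := exists_window hg1 hI' hTL hgc
    have h1 := pair_near hT0 Y hL hM hbM hcM lam hK (E b c) i hi2
      (hE b hb c hcB (Ne.symm hcb) hgc)
    refine h1.trans (mul_le_mul_of_nonneg_left ?_ (by positivity))
    have hlev := level (y := Y + i / 8) (by omega) (cof b c) M (by
      have hbig : M ≤ 2 ^ M * (Y + i / 8) := by
        have h3 : M < 2 ^ M := Nat.lt_two_pow_self
        have h4 : 2 ^ M * 1 ≤ 2 ^ M * (Y + i / 8) := Nat.mul_le_mul_left _ (by omega)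
        omega
      rw [iy_zero_of_large (M := M) (fun p hp => ?_) hbig]
      · norm_num
      · rw [mem_cof hb0.ne' hc0.ne'] at hp
        have hpM : p ∈ M.primeFactors := by
          rw [← Nat.support_factorization, Finsupp.mem_support_iff]
          have a1 := (Nat.factorization_le_iff_dvd hb0.ne' hM.ne').2 hbM p
          have a2 := (Nat.factorization_le_iff_dvd hc0.ne' hM.ne').2 hcM p
          omega
        exact Nat.le_of_dvd hM (Nat.dvd_of_mem_primeFactors hpM))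
    have hnn : 0 ≤ nu M b * nu M c := mul_nonneg (nu_nonneg _ _) (nu_nonneg _ _)
    refine (mul_le_mul_of_nonneg_left hlev hnn).trans ?_
    rw [mul_add, mul_comm (nu M b * nu M c) (Real.exp 2)]
    refine add_le_add le_rfl ?_
    have h2 : (nu M b * nu M c) * ∑ j ∈ range M, Real.exp (2 * ((j : ℝ) + 2)) *
        (if 1 ≤ iy ((2 ^ j * (Y + i / 8) : ℕ) : ℝ) (cof b c) then (1 : ℝ) else 0) ≤
        ∑ j ∈ range M, Real.exp (2 * ((j : ℝ) + 2)) * (1 / X i * T i j b c) := by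
      rw [mul_sum]
      refine sum_le_sum fun j _ => ?_
      have e1 : (if 1 ≤ iy ((2 ^ j * (Y + i / 8) : ℕ) : ℝ) (cof b c) then (1 : ℝ) else 0) =
          KY ((2 ^ j * (Y + i / 8) : ℕ) : ℝ) 1 b c := rfl
      rw [e1]
      have hKY := KY_nonneg ((2 ^ j * (Y + i / 8) : ℕ) : ℝ) 1 b c
      have e2 : T i j b c = (Nat.gcd b c : ℝ) * nu M b * nu M c *
          KY ((2 ^ j * (Y + i / 8) : ℕ) : ℝ) 1 b c := by
        rw [hT]; dsimp only
        rw [if_pos, hf]
        · dsimp only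
          rw [if_pos hb, if_pos hcB, one_mul, one_mul]
        · refine ⟨hi1, ?_⟩
          rw [hX]; dsimp only
          refine hi2.trans (le_of_eq ?_)
          rw [pow_succ]; field_simp
      rw [e2]
      have h3 : 1 ≤ 1 / X i * (Nat.gcd b c : ℕ) := by
        rw [one_div, inv_mul_eq_div, one_le_div (hX0 i)]
        exact hi1.le
      have h4 : 0 ≤ Real.exp (2 * ((j : ℝ) + 2)) * (nu M b * nu M c *
          KY ((2 ^ j * (Y + i / 8) : ℕ) : ℝ) 1 b c) := by positivity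
      calc (nu M b * nu M c) * (Real.exp (2 * ((j : ℝ) + 2)) *
            KY ((2 ^ j * (Y + i / 8) : ℕ) : ℝ) 1 b c)
          = (Real.exp (2 * ((j : ℝ) + 2)) * (nu M b * nu M c *
            KY ((2 ^ j * (Y + i / 8) : ℕ) : ℝ) 1 b c)) * 1 := by ring
        _ ≤ (Real.exp (2 * ((j : ℝ) + 2)) * (nu M b * nu M c *
            KY ((2 ^ j * (Y + i / 8) : ℕ) : ℝ) 1 b c)) * (1 / X i * (Nat.gcd b c : ℕ)) :=
            mul_le_mul_of_nonneg_left h3 h4
        _ = _ := by ring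
    refine h2.trans ?_
    exact single_le_sum (f := fun i => ∑ j ∈ range M, Real.exp (2 * ((j : ℝ) + 2)) *
      (1 / X i * T i j b c)) (fun i _ => sum_nonneg fun j _ =>
        mul_nonneg (Real.exp_pos _).le (mul_nonneg (by have := hX0 i; positivity)
          (hT0' i j b c))) hi
  -- sum
  have hXi : ∀ i, 0 ≤ 1 / X i := fun i => by have := hX0 i; positivity
  have hsum : ∑ b ∈ B, ∑ c ∈ (B.erase b).filter (fun c => (Nat.gcd b c : ℝ) ≤ T0 * L),
      EnE γ L M lam (E b c) b c ≤ C1 Y T0 * K * L * (Real.exp 2 * (S * S) +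
        ∑ i ∈ range (I + 1), ∑ j ∈ range M, Real.exp (2 * ((j : ℝ) + 2)) *
          (1 / X i * ∑ b ∈ M.divisors, ∑ c ∈ M.divisors, T i j b c)) := by
    have g1 : ∀ b c, 0 ≤ Real.exp 2 * (nu M b * nu M c) +
        ∑ i ∈ range (I + 1), ∑ j ∈ range M, Real.exp (2 * ((j : ℝ) + 2)) *
          (1 / X i * T i j b c) := fun b c =>
      add_nonneg (mul_nonneg (Real.exp_pos _).le (mul_nonneg (nu_nonneg _ _) (nu_nonneg _ _)))
        (sum_nonneg fun i _ => sum_nonneg fun j _ => mul_nonneg (Real.exp_pos _).le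
          (mul_nonneg (hXi i) (hT0' i j b c)))
    have hCK : 0 ≤ C1 Y T0 * K * L := by positivity
    calc _ ≤ ∑ b ∈ B, ∑ c ∈ (B.erase b).filter (fun c => (Nat.gcd b c : ℝ) ≤ T0 * L),
          C1 Y T0 * K * L * (Real.exp 2 * (nu M b * nu M c) +
            ∑ i ∈ range (I + 1), ∑ j ∈ range M, Real.exp (2 * ((j : ℝ) + 2)) *
              (1 / X i * T i j b c)) :=
          sum_le_sum fun b hb => sum_le_sum fun c hc => hpt b hb c hc
      _ ≤ ∑ b ∈ B, ∑ c ∈ B, C1 Y T0 * K * L * (Real.exp 2 * (nu M b * nu M c) +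
            ∑ i ∈ range (I + 1), ∑ j ∈ range M, Real.exp (2 * ((j : ℝ) + 2)) *
              (1 / X i * T i j b c)) := by
          refine sum_le_sum fun b _ => sum_le_sum_of_subset_of_nonneg
            ((filter_subset _ _).trans (erase_subset _ _)) fun c _ _ =>
              mul_nonneg hCK (g1 b c)
      _ = C1 Y T0 * K * L * (Real.exp 2 * (S * S) +
            ∑ b ∈ B, ∑ c ∈ B, ∑ i ∈ range (I + 1), ∑ j ∈ range M,
              Real.exp (2 * ((j : ℝ) + 2)) * (1 / X i * T i j b c)) := by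
          rw [hS, sum_mul_sum, mul_sum (s := B) (a := Real.exp 2), ← sum_add_distrib, mul_sum]
          refine sum_congr rfl fun b _ => ?_
          rw [mul_sum (s := B) (a := Real.exp 2), ← sum_add_distrib, mul_sum]
      _ ≤ _ := by
          refine mul_le_mul_of_nonneg_left (add_le_add le_rfl ?_) hCK
          calc _ ≤ ∑ b ∈ M.divisors, ∑ c ∈ M.divisors, ∑ i ∈ range (I + 1), ∑ j ∈ range M,
                Real.exp (2 * ((j : ℝ) + 2)) * (1 / X i * T i j b c) := by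
                have g2 : ∀ b c, 0 ≤ ∑ i ∈ range (I + 1), ∑ j ∈ range M,
                    Real.exp (2 * ((j : ℝ) + 2)) * (1 / X i * T i j b c) := fun b c =>
                  sum_nonneg fun i _ => sum_nonneg fun j _ => mul_nonneg (Real.exp_pos _).le
                    (mul_nonneg (hXi i) (hT0' i j b c))
                calc _ ≤ ∑ b ∈ B, ∑ c ∈ M.divisors, ∑ i ∈ range (I + 1), ∑ j ∈ range M,
                      Real.exp (2 * ((j : ℝ) + 2)) * (1 / X i * T i j b c) :=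
                      sum_le_sum fun b _ => sum_le_sum_of_subset_of_nonneg hB fun c _ _ => g2 b c
                  _ ≤ _ := sum_le_sum_of_subset_of_nonneg hB fun b _ _ =>
                      sum_nonneg fun c _ => g2 b c
            _ = _ := by
                have s1 : ∀ b, ∑ c ∈ M.divisors, ∑ i ∈ range (I + 1), ∑ j ∈ range M,
                    Real.exp (2 * ((j : ℝ) + 2)) * (1 / X i * T i j b c) =
                    ∑ i ∈ range (I + 1), ∑ j ∈ range M, ∑ c ∈ M.divisors,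
                      Real.exp (2 * ((j : ℝ) + 2)) * (1 / X i * T i j b c) := by
                  intro b
                  rw [sum_comm]
                  exact sum_congr rfl fun i _ => sum_comm
                rw [sum_congr rfl fun b _ => s1 b, sum_comm]
                refine sum_congr rfl fun i _ => ?_
                rw [sum_comm]
                refine sum_congr rfl fun j _ => ?_
                rw [mul_sum, mul_sum]
                refine sum_congr rfl fun b _ => ?_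
                rw [mul_sum, mul_sum]
  have hm0 : 0 ≤ L * S := mul_nonneg hL.le hS0
  -- the bound of the levels
  have hlevels : L ^ 2 * ∑ i ∈ range (I + 1), ∑ j ∈ range M, Real.exp (2 * ((j : ℝ) + 2)) *
      (1 / X i * ∑ b ∈ M.divisors, ∑ c ∈ M.divisors, T i j b c) ≤
      4 * Real.exp 4 * C2 * (L * S) := by
    have g3 : ∀ i ∈ range (I + 1), ∀ j ∈ range M, L ^ 2 * (Real.exp (2 * ((j : ℝ) + 2)) *
        (1 / X i * ∑ b ∈ M.divisors, ∑ c ∈ M.divisors, T i j b c)) ≤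
        (C2 * Real.exp 4 * (L * S)) * ((1 / 2) ^ i * (1 / 2) ^ j) := by
      intro i _ j _
      have hyy : y1 ≤ ((2 ^ j * (Y + i / 8) : ℕ) : ℝ) := by
        refine hY1.trans ?_
        have : Y ≤ 2 ^ j * (Y + i / 8) := by
          calc Y ≤ 1 * (Y + i / 8) := by omega
            _ ≤ _ := Nat.mul_le_mul_right _ Nat.one_le_two_pow
        exact_mod_cast this
      have h4 := H3 _ hyy M (X i) f f hM.ne' (hX0 i) hf0 hf1 hf0 hf1
      rw [hfS] at h4
      have h5 : ∑ b ∈ M.divisors, ∑ c ∈ M.divisors, T i j b c ≤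
          C2 * (X i) ^ (2 * (3 / 4 : ℝ) - 1) *
            Real.exp (-(32 * ((2 ^ j * (Y + i / 8) : ℕ) : ℝ))) *
              (S ^ (3 / 4 : ℝ) * S ^ (3 / 4 : ℝ)) := h4
      have h6 := scale_num hT0 hL hS0 hm i
      have h7 := level_num Y i j hYn
      set e1 := Real.exp (2 * ((j : ℝ) + 2)) with he1
      set e2 := Real.exp (-(32 * ((2 ^ j * (Y + i / 8) : ℕ) : ℝ))) with he2
      have he1p : 0 < e1 := Real.exp_pos _
      have he2p : 0 < e2 := Real.exp_pos _
      calc L ^ 2 * (e1 * (1 / X i * ∑ b ∈ M.divisors, ∑ c ∈ M.divisors, T i j b c))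
          ≤ L ^ 2 * (e1 * (1 / X i * (C2 * (X i) ^ (2 * (3 / 4 : ℝ) - 1) * e2 *
              (S ^ (3 / 4 : ℝ) * S ^ (3 / 4 : ℝ))))) := by
            refine mul_le_mul_of_nonneg_left (mul_le_mul_of_nonneg_left
              (mul_le_mul_of_nonneg_left h5 (hXi i)) he1p.le) (by positivity)
        _ = (C2 * (e1 * e2)) * (L ^ 2 * (1 / X i * ((X i) ^ (2 * (3 / 4 : ℝ) - 1) *
              (S ^ (3 / 4 : ℝ) * S ^ (3 / 4 : ℝ))))) := by ring
        _ ≤ (C2 * (e1 * e2)) * (2 ^ (i + 1) * (L * S)) :=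
            mul_le_mul_of_nonneg_left h6 (by positivity)
        _ = (C2 * (L * S)) * (e1 * e2 * 2 ^ (i + 1)) := by ring
        _ ≤ (C2 * (L * S)) * (Real.exp 4 * ((1 / 2) ^ i * (1 / 2) ^ j)) :=
            mul_le_mul_of_nonneg_left h7 (by positivity)
        _ = _ := by ring
    calc _ = ∑ i ∈ range (I + 1), ∑ j ∈ range M, L ^ 2 * (Real.exp (2 * ((j : ℝ) + 2)) *
          (1 / X i * ∑ b ∈ M.divisors, ∑ c ∈ M.divisors, T i j b c)) := by
          rw [mul_sum]
          exact sum_congr rfl fun i _ => mul_sum _ _ _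
      _ ≤ ∑ i ∈ range (I + 1), ∑ j ∈ range M,
          (C2 * Real.exp 4 * (L * S)) * ((1 / 2) ^ i * (1 / 2) ^ j) :=
          sum_le_sum fun i hi => sum_le_sum fun j hj => g3 i hi j hj
      _ = (C2 * Real.exp 4 * (L * S)) *
          ((∑ i ∈ range (I + 1), (1 / 2 : ℝ) ^ i) * ∑ j ∈ range M, (1 / 2 : ℝ) ^ j) := by
          exact sum_sum_geom _ _ _
      _ ≤ (C2 * Real.exp 4 * (L * S)) * (2 * 2) := by
          refine mul_le_mul_of_nonneg_left ?_ (by positivity)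
          exact mul_le_mul (geom_half _) (geom_half _) (sum_nonneg fun j _ => by positivity)
            (by norm_num)
      _ = _ := by ring
  have hfin := mul_le_mul_of_nonneg_left hsum hL.le
  refine hfin.trans ?_
  have h8 : (L * S) * (L * S) ≤ L * S := by nlinarith
  have hCK : 0 ≤ C1 Y T0 * K := by positivity
  calc L * (C1 Y T0 * K * L * (Real.exp 2 * (S * S) +
        ∑ i ∈ range (I + 1), ∑ j ∈ range M, Real.exp (2 * ((j : ℝ) + 2)) *
          (1 / X i * ∑ b ∈ M.divisors, ∑ c ∈ M.divisors, T i j b c)))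
      = C1 Y T0 * K * (Real.exp 2 * ((L * S) * (L * S)) +
        L ^ 2 * ∑ i ∈ range (I + 1), ∑ j ∈ range M, Real.exp (2 * ((j : ℝ) + 2)) *
          (1 / X i * ∑ b ∈ M.divisors, ∑ c ∈ M.divisors, T i j b c)) := by ring
    _ ≤ C1 Y T0 * K * (Real.exp 2 * (L * S) + 4 * Real.exp 4 * C2 * (L * S)) :=
        mul_le_mul_of_nonneg_left (add_le_add
          (mul_le_mul_of_nonneg_left h8 (Real.exp_pos _).le) hlevels) hCK
    _ = _ := by ring

end Crest.Agent.R4C.NearTotx360
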