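import Crest.Agent.R4C.Rule_945
import Crest.Agent.R4C.NearTot_360

/-!
# Row 4, BLOCK S7: B3 for the label rule, near pairs of the rule (helper360)

* `FcI`, `Fc_eq_FcI` : the centre used at `(b, p)` depends on `p` only through the block.
* `B3_rule` : the product of `(1 - 1/p)⁻¹` over primes `≥ y` at which the two centres used are
  different points and which divide `D0` is bounded by an absolute constant, for a pair good at `y`.
-/

set_option autoImplicit false

namespace Crest.Agent.R4C.B3Rulex360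

open Crest.Agent.R4C.Basex935 Crest.Agent.R4C.FLDefx935 Crest.Agent.R4C.BoostCx972
  Crest.Agent.R4C.CrCoinx935 Crest.Agent.R4C.S7cx14 Crest.Agent.R4C.Rulex945

section rule

variable {M : ℕ} (F : FL M) (P : Par)

/-- eligibility in a block -/
def eligI (b i m : ℕ) : Prop :=
  P.m0 ≤ m ∧ P.Y i ≤ P.cut m ∧ ∃ f : ℚ, TC F P m b f ∧ dep F P m b f ≤ P.thr b i

open Classical in
/-- the centre used in a block -/
noncomputable def FcI (b i : ℕ) : Option ℚ :=
  if h : eligI F P b i (Nat.findGreatest (eligI F P b i) P.N) then some (Classical.choose h.2.2)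
  else none

variable {F P}

lemma Fc_eq_FcI (b p : ℕ) : Fc F P b p = FcI F P b (P.blk p) := rfl

lemma FcI_spec {b i : ℕ} {f : ℚ} (h : FcI F P b i = some f) :
    ∃ m, P.m0 ≤ m ∧ P.Y i ≤ P.cut m ∧ TC F P m b f ∧ dep F P m b f ≤ P.thr b i := by
  unfold FcI at h
  split_ifs at h with h1
  rw [Option.some.injEq] at h
  have h2 := Classical.choose_spec h1.2.2
  rw [h] at h2
  exact ⟨_, h1.1, h1.2.1, h2.1, h2.2⟩

end rule

/-- the ratio -/
noncomputable def rr : ℝ := (2 : ℝ) ^ (-(1 / 5) : ℝ)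

lemma rr_pos : 0 < rr := Real.rpow_pos_of_pos (by norm_num) _
lemma rr_lt : rr < 1 := Real.rpow_lt_one_of_one_lt_of_neg (by norm_num) (by norm_num)

/-- the constant of B3 -/
noncomputable def KB : ℝ := Real.exp (70 * (rr⁻¹ * (1 - rr)⁻¹))

lemma one_le_KB : 1 ≤ KB := by
  unfold KB
  have h1 := rr_pos
  have h2 := rr_lt
  exact Real.one_le_exp (mul_nonneg (by norm_num) (mul_nonneg (inv_pos.2 h1).le
    (inv_pos.2 (by linarith)).le))

lemma sum_rr (I : Finset ℕ) (hI : ∀ i ∈ I, 2 ≤ i) :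
    ∑ i ∈ I, rr ^ (i - 1) ≤ rr⁻¹ * (1 - rr)⁻¹ := by
  have h1 := rr_pos
  have h2 := rr_lt
  have h3 : ∑ i ∈ I, rr ^ (i - 1) = rr⁻¹ * ∑ i ∈ I, rr ^ i := by
    rw [Finset.mul_sum]
    refine Finset.sum_congr rfl fun i hi => ?_
    have h4 := hI i hi
    have h5 : rr ^ i = rr * rr ^ (i - 1) := by
      rw [← pow_succ']
      congr 1
      omega
    rw [h5, ← mul_assoc, inv_mul_cancel₀ h1.ne', one_mul]
  rw [h3]
  refine mul_le_mul_of_nonneg_left ?_ (inv_pos.2 h1).le
  have h6 : Summable fun n : ℕ => rr ^ n := summable_geometric_of_lt_one h1.le h2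
  rw [← tsum_geometric_of_lt_one h1.le h2]
  exact h6.sum_le_tsum I fun n _ => pow_nonneg h1.le n

/-- `log 3 ≤ 2` -/
lemma log_three_le : Real.log 3 ≤ 2 := by
  have := Real.log_le_sub_one_of_pos (show (0 : ℝ) < 3 by norm_num)
  linarith

section main

variable {M : ℕ} {F : FL M} {P : Par}

open Classical in
/-- **B3 of the rule** -/
theorem B3_rule (hY : ∀ i, P.Y i = 2 ^ i)
    (hthr : ∀ b i, P.thr b i ≤ Real.exp ((P.Y (i - 1) : ℝ) ^ (4 / 5 : ℝ))) (hL : 0 < P.L)
    {g s s' : ℕ} (hM : 0 < M) (hb : g * s ∣ M) (hc : g * s' ∣ M) (hs : 0 < s)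
    (hcop : Nat.Coprime s s') (h : ℤ) (hlink : (g : ℝ) * |((s : ℝ) - s') * P.γ + h| ≤ P.L)
    {y : ℝ} (hy : 2 < y) (hLg : P.L ≤ g * Real.exp (10 * y ^ (4 / 5 : ℝ))) {x0 : ℕ}
    (hx0 : (x0 : ℝ) ≤ y) (hgood : F.good x0 (g * s) (g * s')) (S : Finset ℕ)
    (hS : ∀ p ∈ S, p.Prime ∧ y ≤ p ∧ ∃ f f', Fc F P (g * s) p = some f ∧
      Fc F P (g * s') p = some f' ∧ gap f f' s s' h ≠ 0 ∧ (p : ℤ) ∣ D0 g s s' h f f') :
    ∏ p ∈ S, pf p ≤ KB := by
  have hg0 : g * s ≠ 0 := (Nat.pos_of_dvd_of_pos hb hM).ne'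
  have hg : 0 < g := Nat.pos_of_ne_zero fun h => hg0 (by rw [h, zero_mul])
  have hgR : (0 : ℝ) < g := by exact_mod_cast hg
  have hYm : StrictMono P.Y := by
    intro i j hij
    rw [hY, hY]
    exact Nat.pow_lt_pow_right (by norm_num) hij
  -- blocks
  have hblk : ∀ p ∈ S, 2 ≤ P.blk p ∧ P.Y (P.blk p - 1) < p ∧ p ≤ P.Y (P.blk p) := by
    intro p hp
    obtain ⟨hpp, hyp, _⟩ := hS p hp
    have h1 := Par.le_blk hYm p
    have h2 : (2 : ℝ) < p := lt_of_lt_of_le hy hyp
    have h3 : 2 < p := by exact_mod_cast h2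
    have h4 : 2 ≤ P.blk p := by
      by_contra hcon
      push Not at hcon
      have h5 : P.blk p ≤ 1 := by omega
      have h6 := hYm.monotone h5
      rw [hY 1] at h6
      omega
    exact ⟨h4, Par.lt_of_lt_blk (by omega), h1⟩
  set I := S.image P.blk with hI
  have hI2 : ∀ i ∈ I, 2 ≤ i := by
    intro i hi
    rw [hI, Finset.mem_image] at hi
    obtain ⟨p, hp, rfl⟩ := hi
    exact (hblk p hp).1
  rw [← Finset.prod_fiberwise_of_maps_to (g := P.blk) (t := I)
    (fun p hp => Finset.mem_image_of_mem _ hp)]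
  have hlog2 : (0.69 : ℝ) < Real.log 2 := by
    have := Real.log_two_gt_d9
    linarith
  -- one block
  have hone : ∀ i ∈ I, ∏ p ∈ S.filter (fun p => P.blk p = i), pf p ≤
      Real.exp (70 * rr ^ (i - 1)) := by
    intro i hi
    have hi2 := hI2 i hi
    rw [hI, Finset.mem_image] at hi
    obtain ⟨p0, hp0, hpi⟩ := hi
    obtain ⟨hpp0, hyp0, f, f', hf, hf', hgap, _⟩ := hS p0 hp0
    have hb0 := hblk p0 hp0
    rw [hpi] at hb0
    -- the scale of the block
    set Q : ℝ := (((2 : ℕ) ^ (i - 1) : ℕ) : ℝ) with hQ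
    have hQ2 : (2 : ℝ) ≤ Q := by
      rw [hQ]
      have : 2 ^ 1 ≤ 2 ^ (i - 1) := Nat.pow_le_pow_right (by norm_num) (by omega)
      exact_mod_cast this
    have hQ0 : 0 < Q := by linarith
    have hyQ : y ≤ 2 * Q := by
      have h1 : (p0 : ℝ) ≤ 2 * Q := by
        have h2 := hb0.2.2
        rw [hY] at h2
        have h3 : (2 : ℕ) ^ i = 2 * 2 ^ (i - 1) := by
          rw [← pow_succ']
          congr 1
          omega
        rw [h3] at h2
        rw [hQ]
        exact_mod_cast h2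
      linarith
    -- the centres
    have hfI := hf
    rw [Fc_eq_FcI, hpi] at hfI
    have hfI' := hf'
    rw [Fc_eq_FcI, hpi] at hfI'
    obtain ⟨m, _, hm1, hTC, hdep⟩ := FcI_spec hfI
    obtain ⟨m', _, hm1', hTC', hdep'⟩ := FcI_spec hfI'
    have hcut : x0 ≤ P.cut m := by
      refine le_trans ?_ hm1
      have h1 : (x0 : ℝ) ≤ p0 := hx0.trans hyp0
      have h2 : x0 ≤ p0 := by exact_mod_cast h1
      exact h2.trans hb0.2.2
    have hcut' : x0 ≤ P.cut m' := by
      refine le_trans ?_ hm1'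
      have h1 : (x0 : ℝ) ≤ p0 := hx0.trans hyp0
      have h2 : x0 ≤ p0 := by exact_mod_cast h1
      exact h2.trans hb0.2.2
    -- the size of `D0`
    set w := Q ^ (4 / 5 : ℝ) with hw
    have hw1 : 1 ≤ w := Real.one_le_rpow (by linarith) (by norm_num)
    have hthr1 : P.thr (g * s) i ≤ Real.exp w := by
      refine (hthr _ _).trans (le_of_eq ?_)
      rw [hw, hQ, hY]
    have hthr2 : P.thr (g * s') i ≤ Real.exp w := by
      refine (hthr _ _).trans (le_of_eq ?_)
      rw [hw, hQ, hY]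
    have hd1 := hdep.trans hthr1
    have hd2 := hdep'.trans hthr2
    have hk1 := k0_le_dep (F := F) (P := P) m (g * s) f
    have hk2 := k0_le_dep (F := F) (P := P) m' (g * s') f'
    set k : ℝ := (k0 F (P.cut m) (g * s) f : ℝ) with hk
    set k' : ℝ := (k0 F (P.cut m') (g * s') f' : ℝ) with hk'
    have hk0 : 0 ≤ k := Nat.cast_nonneg _
    have hk0' : 0 ≤ k' := Nat.cast_nonneg _
    have hkD : k * (((g * s : ℕ) : ℝ) * |P.γ - f|) ≤ Real.exp w * P.L := by
      refine le_trans ?_ (mul_le_mul_of_nonneg_right hd1 hL.le)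
      unfold dep
      rw [← hk, mul_assoc]
      refine mul_le_mul_of_nonneg_left ?_ hk0
      calc ((g * s : ℕ) : ℝ) * |P.γ - f| = ((g * s : ℕ) : ℝ) * |P.γ - f| / P.L * P.L := by
            field_simp
        _ ≤ _ := mul_le_mul_of_nonneg_right (le_max_right _ _) hL.le
    have hkD' : k' * (((g * s' : ℕ) : ℝ) * |P.γ - f'|) ≤ Real.exp w * P.L := by
      refine le_trans ?_ (mul_le_mul_of_nonneg_right hd2 hL.le)
      unfold dep
      rw [← hk', mul_assoc]
      refine mul_le_mul_of_nonneg_left ?_ hk0'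
      calc ((g * s' : ℕ) : ℝ) * |P.γ - f'| = ((g * s' : ℕ) : ℝ) * |P.γ - f'| / P.L * P.L := by
            field_simp
        _ ≤ _ := mul_le_mul_of_nonneg_right (le_max_right _ _) hL.le
    have hE1 : 0 < Real.exp w := Real.exp_pos _
    have hkE : k ≤ Real.exp w := hk1.trans hd1
    have hkE' : k' ≤ Real.exp w := hk2.trans hd2
    have hsize : k * k' * (((g * s : ℕ) : ℝ) * |P.γ - f| + ((g * s' : ℕ) : ℝ) * |P.γ - f'| +
        g * |((s : ℝ) - s') * P.γ + h|) ≤ 3 * (Real.exp w * Real.exp w) * P.L := by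
      have a1 : k * k' * (((g * s : ℕ) : ℝ) * |P.γ - f|) ≤ Real.exp w * Real.exp w * P.L := by
        calc k * k' * (((g * s : ℕ) : ℝ) * |P.γ - f|) =
              k' * (k * (((g * s : ℕ) : ℝ) * |P.γ - f|)) := by ring
          _ ≤ Real.exp w * (Real.exp w * P.L) := mul_le_mul hkE' hkD (by positivity) hE1.le
          _ = _ := by ring
      have a2 : k * k' * (((g * s' : ℕ) : ℝ) * |P.γ - f'|) ≤ Real.exp w * Real.exp w * P.L := by
        calc k * k' * (((g * s' : ℕ) : ℝ) * |P.γ - f'|) =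
              k * (k' * (((g * s' : ℕ) : ℝ) * |P.γ - f'|)) := by ring
          _ ≤ Real.exp w * (Real.exp w * P.L) := mul_le_mul hkE hkD' (by positivity) hE1.le
          _ = _ := by ring
      have a3 : k * k' * (g * |((s : ℝ) - s') * P.γ + h|) ≤ Real.exp w * Real.exp w * P.L :=
        mul_le_mul (mul_le_mul hkE hkE' hk0' hE1.le) hlink (by positivity) (by positivity)
      calc _ = k * k' * (((g * s : ℕ) : ℝ) * |P.γ - f|) +
            k * k' * (((g * s' : ℕ) : ℝ) * |P.γ - f'|) +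
            k * k' * (g * |((s : ℝ) - s') * P.γ + h|) := by ring
        _ ≤ _ := by linarith
    have hD := D0_abs_good (γ := P.γ) hM hb hc hs hcop h (isC_k0 (F := F) (P.cut m) (g * s) f)
      (isC_k0 (F := F) (P.cut m') (g * s') f') (FL.good_mono hcut hgood)
      (FL.good_mono hcut' hgood)
    have hD1 := hD.trans hsize
    have hyw : y ^ (4 / 5 : ℝ) ≤ 2 * w := by
      have h1 : y ^ (4 / 5 : ℝ) ≤ (2 * Q) ^ (4 / 5 : ℝ) :=
        Real.rpow_le_rpow (by linarith) hyQ (by norm_num)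
      refine h1.trans ?_
      rw [Real.mul_rpow (by norm_num) hQ0.le, ← hw]
      refine mul_le_mul_of_nonneg_right ?_ (by linarith)
      calc (2 : ℝ) ^ (4 / 5 : ℝ) ≤ 2 ^ (1 : ℝ) :=
            Real.rpow_le_rpow_of_exponent_le (by norm_num) (by norm_num)
        _ = 2 := Real.rpow_one _
    have hLg' : P.L ≤ g * Real.exp (20 * w) := by
      refine hLg.trans (mul_le_mul_of_nonneg_left (Real.exp_le_exp.2 ?_) hgR.le)
      linarith
    have hD2 : |(D0 g s s' h f f' : ℝ)| ≤ Real.exp (24 * w) := by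
      have h1 : |(D0 g s s' h f f' : ℝ)| * g ≤ 3 * (Real.exp w * Real.exp w) *
          (g * Real.exp (20 * w)) :=
        hD1.trans (mul_le_mul_of_nonneg_left hLg' (by positivity))
      have h2 : 3 * (Real.exp w * Real.exp w) * (g * Real.exp (20 * w)) =
          (3 * Real.exp (22 * w)) * g := by
        have : Real.exp (22 * w) = Real.exp w * Real.exp w * Real.exp (20 * w) := by
          rw [← Real.exp_add, ← Real.exp_add]
          congr 1
          ring
        rw [this]; ring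
      rw [h2] at h1
      refine (le_of_mul_le_mul_right h1 hgR).trans ?_
      have h3 : (3 : ℝ) ≤ Real.exp (2 * w) := by
        have := Real.add_one_le_exp (2 * w)
        linarith
      calc 3 * Real.exp (22 * w) ≤ Real.exp (2 * w) * Real.exp (22 * w) :=
            mul_le_mul_of_nonneg_right h3 (Real.exp_pos _).le
        _ = _ := by rw [← Real.exp_add]; congr 1; ring
    have hDne : D0 g s s' h f f' ≠ 0 := fun hc => hgap ((D0_eq_zero hg hs hcop).1 hc)
    have hDa : (1 : ℝ) ≤ |(D0 g s s' h f f' : ℝ)| := by exact_mod_cast Int.one_le_abs hDne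
    have hlogD : Real.log |(D0 g s s' h f f' : ℝ)| ≤ 24 * w := by
      have := Real.log_le_log (by linarith) hD2
      rwa [Real.log_exp] at this
    have hprod := prod_pf_dvd_le hDne (P := Q) (by linarith)
      (A := S.filter (fun p => P.blk p = i)) (fun p hp => by
        rw [Finset.mem_filter] at hp
        obtain ⟨hpS, hpb⟩ := hp
        obtain ⟨hpp, hyp, f1, f1', hf1, hf1', _, hDp⟩ := hS p hpS
        have e1 : f1 = f := by
          rw [Fc_eq_FcI, hpb, hfI, Option.some.injEq] at hf1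
          exact hf1.symm
        have e2 : f1' = f' := by
          rw [Fc_eq_FcI, hpb, hfI', Option.some.injEq] at hf1'
          exact hf1'.symm
        subst e1
        subst e2
        refine ⟨hpp, ?_, hDp⟩
        have h1 := (hblk p hpS).2.1
        rw [hpb, hY] at h1
        rw [hQ]
        exact_mod_cast h1.le)
    refine hprod.trans (Real.exp_le_exp.2 ?_)
    -- the exponent
    have hlQ : Real.log 2 ≤ Real.log Q := Real.log_le_log (by norm_num) hQ2
    have hQw : w = Q * rr ^ (i - 1) := by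
      have h1 : rr ^ (i - 1) = Q ^ (-(1 / 5) : ℝ) := by
        rw [hQ]
        push_cast
        unfold rr
        rw [← Real.rpow_natCast, ← Real.rpow_natCast, ← Real.rpow_mul (by norm_num),
          ← Real.rpow_mul (by norm_num)]
        congr 1
        ring
      rw [h1, hw]
      nth_rewrite 2 [← Real.rpow_one Q]
      rw [← Real.rpow_add hQ0]
      norm_num
    have hrr0 : 0 ≤ rr ^ (i - 1) := pow_nonneg rr_pos.le _
    rw [div_le_iff₀ (by
      have : 0 < Real.log Q := by linarith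
      positivity)]
    calc 2 * Real.log |(D0 g s s' h f f' : ℝ)| ≤ 48 * w := by linarith
      _ = 48 * (rr ^ (i - 1) * Q) := by rw [hQw]; ring
      _ ≤ 70 * 0.69 * (rr ^ (i - 1) * Q) := by
          refine mul_le_mul_of_nonneg_right (by norm_num) (by positivity)
      _ = 70 * (rr ^ (i - 1) * Q) * 0.69 := by ring
      _ ≤ 70 * (rr ^ (i - 1) * Q) * Real.log Q := by
          refine mul_le_mul_of_nonneg_left (by linarith) (by positivity)
      _ = _ := by ring
  calc ∏ i ∈ I, ∏ p ∈ S.filter (fun p => P.blk p = i), pf p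
      ≤ ∏ i ∈ I, Real.exp (70 * rr ^ (i - 1)) := by
        refine Finset.prod_le_prod (fun i _ => (prod_pf_pos fun p hp =>
          (hS p (Finset.mem_filter.1 hp).1).1).le) hone
    _ = Real.exp (70 * ∑ i ∈ I, rr ^ (i - 1)) := by
        rw [← Real.exp_sum, Finset.mul_sum]
    _ ≤ KB := by
        unfold KB
        refine Real.exp_le_exp.2 (mul_le_mul_of_nonneg_left (sum_rr I hI2) (by norm_num))

end main

end Crest.Agent.R4C.B3Rulex360
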