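import Crest.Agent.R4C.FLEx_326

/-!
# Row 4: class BAD with boost, all scales, any certificate (helper14)

`F : FL M` with the bound `badEn F B L t x ≤ C0 t^η (x+1)^(-c) μ` for all `t > 0` and all cuts.

* `badAll_le` : the pairs with `gcd < T L` not good at `x`: `≤ C0/(2^η-1) T^η (x+1)^(-c) μ`;
* **`bad_total`** : weights `Wt σ b c ≤ w σ` which vanish if the pair is good at `cut σ` or
  `gcd ≥ 2^(σ+1) L`;
* `bad_series`, **`bad_final`** : `cut σ ≥ 2^(A σ) - 1`, `w σ = K (σ+1)^k 2^(β σ)`, `A c > η + β`.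
-/

set_option autoImplicit false

open Finset

namespace Crest.Agent.R4C.BadTotx14

open Crest.Agent.R4C.Basex935 Crest.Agent.R4C.FLDefx935

open Classical in
/-- energy of all pairs with `gcd < T L` which are not good at the cut `x` -/
noncomputable def badAll {M : ℕ} (F : FL M) (B : Finset ℕ) (L T : ℝ) (x : ℕ) : ℝ :=
  L * ∑ b ∈ B, ∑ c ∈ B, if (Nat.gcd b c : ℝ) < T * L ∧ ¬ F.good x b c then
    (Nat.gcd b c : ℝ) * nu M b * nu M c else 0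

/-- finite geometric sum -/
lemma geo_sum {r : ℝ} (hr0 : 0 ≤ r) (hr : r < 1) (N : ℕ) : ∑ i ∈ range N, r ^ i ≤ 1 / (1 - r) := by
  have h1 : (0 : ℝ) < 1 - r := by linarith
  rw [le_div_iff₀ h1]
  have h2 : (∑ i ∈ range N, r ^ i) * (1 - r) = 1 - r ^ N := geom_sum_mul_neg r N
  have h3 : 0 ≤ r ^ N := pow_nonneg hr0 N
  linarith

theorem badAll_le {M : ℕ} {F : FL M} {B : Finset ℕ} {L η c C0 μ : ℝ} (hL : 0 < L) (hη : 0 < η)
    (hC0 : 0 ≤ C0) (hμ : 0 ≤ μ) (hB : ∀ b ∈ B, 0 < b)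
    (hF : ∀ (t : ℝ) (x : ℕ), 0 < t → badEn F B L t x ≤ C0 * t ^ η * ((x : ℝ) + 1) ^ (-c) * μ)
    {T : ℝ} (hT : 0 < T) (x : ℕ) :
    badAll F B L T x ≤ C0 / (2 ^ η - 1) * T ^ η * ((x : ℝ) + 1) ^ (-c) * μ := by
  classical
  set N : ℕ := ⌈T * L⌉₊ + 1 with hN
  -- every pair lies in a window
  have hwin : ∀ g : ℝ, 1 ≤ g → g < T * L →
      ∃ i ∈ range N, T / 2 ^ (i + 1) * L ≤ g ∧ g < 2 * (T / 2 ^ (i + 1)) * L := by
    intro g hg1 hg2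
    have hex : ∃ i : ℕ, T / 2 ^ (i + 1) * L ≤ g := by
      refine ⟨⌈T * L⌉₊, ?_⟩
      have h1 : T * L ≤ ⌈T * L⌉₊ := Nat.le_ceil _
      have h2 : ((⌈T * L⌉₊ : ℕ) : ℝ) ≤ 2 ^ (⌈T * L⌉₊ + 1) := by
        exact_mod_cast (Nat.lt_two_pow_self.le.trans (Nat.pow_le_pow_right (by norm_num)
          (Nat.le_succ _)))
      have h3 : (0 : ℝ) < 2 ^ (⌈T * L⌉₊ + 1) := by positivity
      calc T / 2 ^ (⌈T * L⌉₊ + 1) * L = (T * L) / 2 ^ (⌈T * L⌉₊ + 1) := by ring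
        _ ≤ 1 := by rw [div_le_one h3]; linarith
        _ ≤ g := hg1
    set i := Nat.find hex with hi
    have hi1 : T / 2 ^ (i + 1) * L ≤ g := Nat.find_spec hex
    refine ⟨i, ?_, hi1, ?_⟩
    · rw [Finset.mem_range, hN]
      have h1 : T * L ≤ ⌈T * L⌉₊ := Nat.le_ceil _
      have h2 : ((⌈T * L⌉₊ : ℕ) : ℝ) ≤ 2 ^ (⌈T * L⌉₊ + 1) := by
        exact_mod_cast (Nat.lt_two_pow_self.le.trans (Nat.pow_le_pow_right (by norm_num)
          (Nat.le_succ _)))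
      have h3 : (0 : ℝ) < 2 ^ (⌈T * L⌉₊ + 1) := by positivity
      have h4 : i ≤ ⌈T * L⌉₊ := Nat.find_min' hex (by
        calc T / 2 ^ (⌈T * L⌉₊ + 1) * L = (T * L) / 2 ^ (⌈T * L⌉₊ + 1) := by ring
          _ ≤ 1 := by rw [div_le_one h3]; linarith
          _ ≤ g := hg1)
      omega
    · rcases Nat.eq_zero_or_pos i with h0 | h0
      · rw [h0]
        calc g < T * L := hg2
          _ = 2 * (T / 2 ^ (0 + 1)) * L := by ring
      · have h1 := Nat.find_min hex (m := i - 1) (by omega)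
        push Not at h1
        calc g < T / 2 ^ (i - 1 + 1) * L := h1
          _ = 2 * (T / 2 ^ (i + 1)) * L := by
            have : i - 1 + 1 = i := by omega
            rw [this, pow_succ]; field_simp
  have hterm : ∀ b ∈ B, ∀ c' ∈ B,
      (if (Nat.gcd b c' : ℝ) < T * L ∧ ¬ F.good x b c' then
        (Nat.gcd b c' : ℝ) * nu M b * nu M c' else 0) ≤
      ∑ i ∈ range N, (if T / 2 ^ (i + 1) * L ≤ (Nat.gcd b c' : ℝ) ∧
        (Nat.gcd b c' : ℝ) < 2 * (T / 2 ^ (i + 1)) * L ∧ ¬ F.good x b c' then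
        (Nat.gcd b c' : ℝ) * nu M b * nu M c' else 0) := by
    intro b hb c' _
    have hnn : ∀ i ∈ range N, (0 : ℝ) ≤ (if T / 2 ^ (i + 1) * L ≤ (Nat.gcd b c' : ℝ) ∧
        (Nat.gcd b c' : ℝ) < 2 * (T / 2 ^ (i + 1)) * L ∧ ¬ F.good x b c' then
        (Nat.gcd b c' : ℝ) * nu M b * nu M c' else 0) := by
      intro i _
      split_ifs
      · exact mul_nonneg (mul_nonneg (Nat.cast_nonneg _) (nu_nonneg _ _)) (nu_nonneg _ _)
      · exact le_rfl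
    by_cases hc : (Nat.gcd b c' : ℝ) < T * L ∧ ¬ F.good x b c'
    · rw [if_pos hc]
      have hg1 : (1 : ℝ) ≤ Nat.gcd b c' := by
        exact_mod_cast Nat.gcd_pos_of_pos_left _ (hB b hb)
      obtain ⟨i, hi, h1, h2⟩ := hwin _ hg1 hc.1
      have h3 := Finset.single_le_sum hnn hi
      rw [if_pos ⟨h1, h2, hc.2⟩] at h3
      exact h3
    · rw [if_neg hc]
      exact Finset.sum_nonneg hnn
  have h1 : badAll F B L T x ≤ ∑ i ∈ range N, badEn F B L (T / 2 ^ (i + 1)) x := by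
    unfold badAll badEn
    rw [← Finset.mul_sum]
    refine mul_le_mul_of_nonneg_left ?_ hL.le
    conv_rhs => rw [Finset.sum_comm]
    refine Finset.sum_le_sum fun b hb => ?_
    conv_rhs => rw [Finset.sum_comm]
    exact Finset.sum_le_sum fun c' hc' => hterm b hb c' hc'
  have h2η : (1 : ℝ) < 2 ^ η := Real.one_lt_rpow (by norm_num) hη
  have hr : (2 : ℝ) ^ (-η) < 1 := Real.rpow_lt_one_of_one_lt_of_neg (by norm_num) (by linarith)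
  have hr0 : (0 : ℝ) < 2 ^ (-η) := by positivity
  have hx : (0 : ℝ) ≤ ((x : ℝ) + 1) ^ (-c) := Real.rpow_nonneg (by positivity) _
  calc badAll F B L T x ≤ ∑ i ∈ range N, badEn F B L (T / 2 ^ (i + 1)) x := h1
    _ ≤ ∑ i ∈ range N, C0 * (T / 2 ^ (i + 1)) ^ η * ((x : ℝ) + 1) ^ (-c) * μ :=
        Finset.sum_le_sum fun i _ => hF _ x (by positivity)
    _ = ∑ i ∈ range N, (C0 * T ^ η * 2 ^ (-η) * ((x : ℝ) + 1) ^ (-c) * μ) * (2 ^ (-η)) ^ i := by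
        refine Finset.sum_congr rfl fun i _ => ?_
        have e : (T / 2 ^ (i + 1)) ^ η = T ^ η * (2 ^ (-η) * (2 ^ (-η)) ^ i) := by
          rw [Real.div_rpow hT.le (by positivity), div_eq_mul_inv, ← pow_succ',
            ← Real.rpow_natCast (2 : ℝ) (i + 1), ← Real.rpow_natCast ((2 : ℝ) ^ (-η)) (i + 1),
            ← Real.rpow_mul (by norm_num : (0 : ℝ) ≤ 2), ← Real.rpow_mul (by norm_num : (0 : ℝ) ≤ 2),
            ← Real.rpow_neg (by norm_num : (0 : ℝ) ≤ 2)]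
          congr 2
          ring
        rw [e]; ring
    _ = (C0 * T ^ η * 2 ^ (-η) * ((x : ℝ) + 1) ^ (-c) * μ) * ∑ i ∈ range N, ((2 : ℝ) ^ (-η)) ^ i := by
        rw [Finset.mul_sum]
    _ ≤ (C0 * T ^ η * 2 ^ (-η) * ((x : ℝ) + 1) ^ (-c) * μ) * (1 / (1 - 2 ^ (-η))) :=
        mul_le_mul_of_nonneg_left (geo_sum hr0.le hr N) (by positivity)
    _ = _ := by
        have e1 : (2 : ℝ) ^ (-η) = (2 ^ η)⁻¹ := Real.rpow_neg (by norm_num) η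
        rw [e1]
        have h3 : (2 : ℝ) ^ η ≠ 0 := by positivity
        have h4 : (2 : ℝ) ^ η - 1 ≠ 0 := by linarith
        field_simp

open Classical in
/-- **class BAD, any certificate.**  `Wt σ b c` = weight of the offsets of the pair with certificate
`σ`; it vanishes unless `gcd < 2^(σ+1) L` and the pair is not good at `cut σ`. -/
theorem bad_total {M : ℕ} {F : FL M} {B : Finset ℕ} {L η c C0 μ : ℝ} (hL : 0 < L) (hη : 0 < η)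
    (hC0 : 0 ≤ C0) (hμ : 0 ≤ μ) (hB : ∀ b ∈ B, 0 < b)
    (hF : ∀ (t : ℝ) (x : ℕ), 0 < t → badEn F B L t x ≤ C0 * t ^ η * ((x : ℝ) + 1) ^ (-c) * μ)
    (cut : ℕ → ℕ) (w : ℕ → ℝ) (hw : ∀ σ, 0 ≤ w σ) (S : Finset ℕ) (Wt : ℕ → ℕ → ℕ → ℝ)
    (hW1 : ∀ σ ∈ S, ∀ b ∈ B, ∀ b' ∈ B, Wt σ b b' ≤ w σ)
    (hW2 : ∀ σ ∈ S, ∀ b ∈ B, ∀ b' ∈ B, F.good (cut σ) b b' → Wt σ b b' ≤ 0)
    (hW3 : ∀ σ ∈ S, ∀ b ∈ B, ∀ b' ∈ B, (2 : ℝ) ^ (σ + 1) * L ≤ Nat.gcd b b' → Wt σ b b' ≤ 0) :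
    L * ∑ b ∈ B, ∑ b' ∈ B, (Nat.gcd b b' : ℝ) * nu M b * nu M b' * ∑ σ ∈ S, Wt σ b b' ≤
      C0 / (2 ^ η - 1) * μ *
        ∑ σ ∈ S, w σ * ((2 : ℝ) ^ (σ + 1)) ^ η * ((cut σ : ℝ) + 1) ^ (-c) := by
  classical
  have hterm : ∀ b ∈ B, ∀ b' ∈ B, (Nat.gcd b b' : ℝ) * nu M b * nu M b' * ∑ σ ∈ S, Wt σ b b' ≤
      ∑ σ ∈ S, w σ * (if (Nat.gcd b b' : ℝ) < (2 : ℝ) ^ (σ + 1) * L ∧ ¬ F.good (cut σ) b b' then
        (Nat.gcd b b' : ℝ) * nu M b * nu M b' else 0) := by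
    intro b hb b' hb'
    rw [Finset.mul_sum]
    refine Finset.sum_le_sum fun σ hσ => ?_
    have h0 : 0 ≤ (Nat.gcd b b' : ℝ) * nu M b * nu M b' :=
      mul_nonneg (mul_nonneg (Nat.cast_nonneg _) (nu_nonneg _ _)) (nu_nonneg _ _)
    by_cases hc : (Nat.gcd b b' : ℝ) < (2 : ℝ) ^ (σ + 1) * L ∧ ¬ F.good (cut σ) b b'
    · rw [if_pos hc, mul_comm (w σ)]
      exact mul_le_mul_of_nonneg_left (hW1 σ hσ b hb b' hb') h0
    · rw [if_neg hc, mul_zero]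
      refine mul_nonpos_of_nonneg_of_nonpos h0 ?_
      by_cases hg : F.good (cut σ) b b'
      · exact hW2 σ hσ b hb b' hb' hg
      · refine hW3 σ hσ b hb b' hb' ?_
        by_contra hcon
        exact hc ⟨not_le.1 hcon, hg⟩
  calc L * ∑ b ∈ B, ∑ b' ∈ B, (Nat.gcd b b' : ℝ) * nu M b * nu M b' * ∑ σ ∈ S, Wt σ b b'
      ≤ L * ∑ b ∈ B, ∑ b' ∈ B, ∑ σ ∈ S, w σ *
        (if (Nat.gcd b b' : ℝ) < (2 : ℝ) ^ (σ + 1) * L ∧ ¬ F.good (cut σ) b b' then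
        (Nat.gcd b b' : ℝ) * nu M b * nu M b' else 0) :=
        mul_le_mul_of_nonneg_left (Finset.sum_le_sum fun b hb => Finset.sum_le_sum fun b' hb' =>
          hterm b hb b' hb') hL.le
    _ = ∑ σ ∈ S, w σ * badAll F B L ((2 : ℝ) ^ (σ + 1)) (cut σ) := by
        have e1 : ∀ b ∈ B, ∑ b' ∈ B, ∑ σ ∈ S, w σ *
            (if (Nat.gcd b b' : ℝ) < (2 : ℝ) ^ (σ + 1) * L ∧ ¬ F.good (cut σ) b b' then
            (Nat.gcd b b' : ℝ) * nu M b * nu M b' else 0) = ∑ σ ∈ S, ∑ b' ∈ B, w σ *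
            (if (Nat.gcd b b' : ℝ) < (2 : ℝ) ^ (σ + 1) * L ∧ ¬ F.good (cut σ) b b' then
            (Nat.gcd b b' : ℝ) * nu M b * nu M b' else 0) := fun b _ => Finset.sum_comm
        rw [Finset.sum_congr rfl e1, Finset.sum_comm, Finset.mul_sum]
        refine Finset.sum_congr rfl fun σ _ => ?_
        unfold badAll
        simp_rw [← Finset.mul_sum]
        ring
    _ ≤ ∑ σ ∈ S, w σ * (C0 / (2 ^ η - 1) * ((2 : ℝ) ^ (σ + 1)) ^ η *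
        ((cut σ : ℝ) + 1) ^ (-c) * μ) :=
        Finset.sum_le_sum fun σ _ => mul_le_mul_of_nonneg_left
          (badAll_le hL hη hC0 hμ hB hF (by positivity) (cut σ)) (hw σ)
    _ = _ := by
        rw [Finset.mul_sum]
        refine Finset.sum_congr rfl fun σ _ => ?_
        ring

/-- the series -/
lemma bad_series {η c A β : ℝ} (hc : 0 < c) (hA : η + β < A * c) (k : ℕ) :
    ∃ C : ℝ, 0 ≤ C ∧ ∀ (cut : ℕ → ℕ) (S : Finset ℕ),
      (∀ σ ∈ S, (2 : ℝ) ^ (A * (σ : ℝ)) ≤ (cut σ : ℝ) + 1) →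
      ∑ σ ∈ S, (((σ : ℝ) + 1) ^ k * 2 ^ (β * (σ : ℝ))) * ((2 : ℝ) ^ (σ + 1)) ^ η *
        ((cut σ : ℝ) + 1) ^ (-c) ≤ C := by
  set r : ℝ := 2 ^ (η + β - A * c) with hr
  have hr0 : 0 < r := by positivity
  have hr1 : r < 1 := Real.rpow_lt_one_of_one_lt_of_neg (by norm_num) (by linarith)
  have hsum : Summable (fun σ : ℕ => ((σ : ℝ) + 1) ^ k * r ^ σ) := by
    have h1 := summable_pow_mul_geometric_of_norm_lt_one k
      (r := r) (by rw [Real.norm_eq_abs, abs_of_pos hr0]; exact hr1)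
    have h2 := (summable_nat_add_iff 1).2 h1
    have h3 := h2.mul_left (r⁻¹)
    refine h3.congr fun σ => ?_
    push_cast
    rw [pow_succ]
    field_simp
  refine ⟨2 ^ η * ∑' σ : ℕ, ((σ : ℝ) + 1) ^ k * r ^ σ, ?_, ?_⟩
  · exact mul_nonneg (by positivity) (tsum_nonneg fun σ => by positivity)
  · intro cut S hS
    calc ∑ σ ∈ S, (((σ : ℝ) + 1) ^ k * 2 ^ (β * (σ : ℝ))) * ((2 : ℝ) ^ (σ + 1)) ^ η *
        ((cut σ : ℝ) + 1) ^ (-c)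
        ≤ ∑ σ ∈ S, 2 ^ η * (((σ : ℝ) + 1) ^ k * r ^ σ) := by
          refine Finset.sum_le_sum fun σ hσ => ?_
          have h1 : ((cut σ : ℝ) + 1) ^ (-c) ≤ ((2 : ℝ) ^ (A * (σ : ℝ))) ^ (-c) :=
            Real.rpow_le_rpow_of_nonpos (by positivity) (hS σ hσ) (by linarith)
          have h2 : ((2 : ℝ) ^ (A * (σ : ℝ))) ^ (-c) = 2 ^ (-(A * c) * (σ : ℝ)) := by
            rw [← Real.rpow_mul (by norm_num)]
            congr 1; ring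
          have h3 : ((2 : ℝ) ^ (σ + 1)) ^ η = 2 ^ η * 2 ^ (η * (σ : ℝ)) := by
            rw [← Real.rpow_natCast, ← Real.rpow_mul (by norm_num), ← Real.rpow_add (by norm_num)]
            congr 1
            push_cast; ring
          have h4 : r ^ σ = 2 ^ (β * (σ : ℝ)) * 2 ^ (η * (σ : ℝ)) * 2 ^ (-(A * c) * (σ : ℝ)) := by
            rw [hr, ← Real.rpow_natCast, ← Real.rpow_mul (by norm_num),
              ← Real.rpow_add (by norm_num), ← Real.rpow_add (by norm_num)]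
            congr 1; ring
          rw [h4]
          calc (((σ : ℝ) + 1) ^ k * 2 ^ (β * (σ : ℝ))) * ((2 : ℝ) ^ (σ + 1)) ^ η *
              ((cut σ : ℝ) + 1) ^ (-c)
              ≤ (((σ : ℝ) + 1) ^ k * 2 ^ (β * (σ : ℝ))) * ((2 : ℝ) ^ (σ + 1)) ^ η *
              2 ^ (-(A * c) * (σ : ℝ)) :=
                mul_le_mul_of_nonneg_left (h1.trans (le_of_eq h2)) (by positivity)
            _ = _ := by rw [h3]; ring
      _ = 2 ^ η * ∑ σ ∈ S, ((σ : ℝ) + 1) ^ k * r ^ σ := by rw [Finset.mul_sum]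
      _ ≤ _ := mul_le_mul_of_nonneg_left
          (hsum.sum_le_tsum S fun σ _ => by positivity) (by positivity)

open Classical in
/-- **class BAD, final form**: constants depend only on `η, c, C0, A, β, k, K`. -/
theorem bad_final {η c C0 A β K : ℝ} (hη : 0 < η) (hc : 0 < c) (hC0 : 0 ≤ C0) (hK : 0 ≤ K)
    (hA : η + β < A * c) (k : ℕ) :
    ∃ C : ℝ, 0 ≤ C ∧ ∀ (M : ℕ) (F : FL M) (B : Finset ℕ) (L μ : ℝ), 0 < L → 0 ≤ μ →
      (∀ b ∈ B, 0 < b) →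
      (∀ (t : ℝ) (x : ℕ), 0 < t → badEn F B L t x ≤ C0 * t ^ η * ((x : ℝ) + 1) ^ (-c) * μ) →
      ∀ (cut : ℕ → ℕ) (S : Finset ℕ) (Wt : ℕ → ℕ → ℕ → ℝ),
      (∀ σ ∈ S, (2 : ℝ) ^ (A * (σ : ℝ)) ≤ (cut σ : ℝ) + 1) →
      (∀ σ ∈ S, ∀ b ∈ B, ∀ b' ∈ B, Wt σ b b' ≤ K * (((σ : ℝ) + 1) ^ k * 2 ^ (β * (σ : ℝ)))) →
      (∀ σ ∈ S, ∀ b ∈ B, ∀ b' ∈ B, F.good (cut σ) b b' → Wt σ b b' ≤ 0) →
      (∀ σ ∈ S, ∀ b ∈ B, ∀ b' ∈ B, (2 : ℝ) ^ (σ + 1) * L ≤ Nat.gcd b b' → Wt σ b b' ≤ 0) →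
      L * ∑ b ∈ B, ∑ b' ∈ B, (Nat.gcd b b' : ℝ) * nu M b * nu M b' * ∑ σ ∈ S, Wt σ b b' ≤
        C * μ := by
  obtain ⟨C, hC, h⟩ := bad_series (η := η) (β := β) hc hA k
  have h2η : (1 : ℝ) < 2 ^ η := Real.one_lt_rpow (by norm_num) hη
  have h2 : 0 < (2 : ℝ) ^ η - 1 := by linarith
  refine ⟨C0 / (2 ^ η - 1) * (K * C), by positivity, ?_⟩
  intro M F B L μ hL hμ hB hF cut S Wt hcut hW1 hW2 hW3
  refine (bad_total hL hη hC0 hμ hB hF cut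
    (fun σ => K * (((σ : ℝ) + 1) ^ k * 2 ^ (β * (σ : ℝ)))) (fun σ => by positivity) S Wt
    hW1 hW2 hW3).trans ?_
  have h3 := h cut S hcut
  have e : ∑ σ ∈ S, K * (((σ : ℝ) + 1) ^ k * 2 ^ (β * (σ : ℝ))) * ((2 : ℝ) ^ (σ + 1)) ^ η *
      ((cut σ : ℝ) + 1) ^ (-c) = K * ∑ σ ∈ S, (((σ : ℝ) + 1) ^ k * 2 ^ (β * (σ : ℝ))) *
      ((2 : ℝ) ^ (σ + 1)) ^ η * ((cut σ : ℝ) + 1) ^ (-c) := by
    rw [Finset.mul_sum]
    refine Finset.sum_congr rfl fun σ _ => ?_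
    ring
  rw [e]
  calc C0 / (2 ^ η - 1) * μ * (K * ∑ σ ∈ S, (((σ : ℝ) + 1) ^ k * 2 ^ (β * (σ : ℝ))) *
      ((2 : ℝ) ^ (σ + 1)) ^ η * ((cut σ : ℝ) + 1) ^ (-c))
      ≤ C0 / (2 ^ η - 1) * μ * (K * C) :=
        mul_le_mul_of_nonneg_left (mul_le_mul_of_nonneg_left h3 hK) (by positivity)
    _ = _ := by ring

end Crest.Agent.R4C.BadTotx14
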