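import Crest.Agent.R4C.HVWt_19

/-!
# Dyadic / level-set summation toolkit (helper281; leaf 459 of row 4)

Pure real analysis (`Finset` sums, explicit constants; `gC a = 1 / (1 - 2^(-a))`):

* `sum_le_left`, `sum_le_right` : one-sided geometric sums over scales `2^k`, `k : ℤ`.
* `sum_min_le` : `S k ≤ a 2^(kα)`, `S k ≤ b 2^(-kβ)` ⟹ `∑ S k ≤ (gC α + gC β) a^(β/(α+β)) b^(α/(α+β))`.
* `sum_scale_min_le` : `∑ 2^(kη) min u (v 2^(-kθ)) ≤ C u^(1-η/θ) v^(η/θ)`.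
* `schur` (Schur test), `cauchy_dyadic` : `∑ a_i b_j 2^(-ε|i-j|) ≤ 2 gC ε (∑ a²)^(1/2) (∑ b²)^(1/2)`.
* `sum_dyadic_nat`, `sum_dyadic_real` : splitting of a sum into dyadic classes.
* `level_le` : `f ≤ ∑ 2^(-i) 1[2^(-i-1) < f ≤ 2^(-i)]`; `level_mass` : the masses of the levels.

Energies of `Base_935`:

* `En M X F` (exact scale), `Wt M θ F = ∑ gcd^θ ν ν F`.
* `Wt_le` : `Wt M (1-η) F ≤ ∑_k 2^(-kη) En M (2^k) F`;
  `Wt_interp` : from `En ≤ A₁ X^(η₁)`, `En ≤ A₂ X^(η₂)`, `η₁ < η < η₂` to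
  `Wt M (1-η) F ≤ C A₁^((η₂-η)/(η₂-η₁)) A₂^((η-η₁)/(η₂-η₁))`.
* `wt_hvw`    : `∑ gcd^(1-η) ν ν f f' ≤ C (ν f)^((1+η)/2) (ν f')^((1+η)/2)`, `0 < η < 1`.
* `hvw_below` : `∑_{gcd < X} gcd ν ν f f' ≤ C X^η (..)`; `hvw_above` : `∑_{gcd ≥ X} gcd^(1-θ) ..
  ≤ C X^(-(θ-η)) (..)`, `θ > η`.
* `hvw_lp`    : `En` with `(∑ ν f^p)^κ`, any `p` with `p κ < 1`.
-/

set_option autoImplicit false

open Finset

namespace Crest.Agent.R4C.Dyadx281

open Crest.Agent.R4C.Basex935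

/-! ### geometric sums -/

/-- the geometric constant `1 / (1 - 2^(-a))` -/
noncomputable def gC (a : ℝ) : ℝ := 1 / (1 - (2 : ℝ) ^ (-a))

lemma two_neg_lt_one {a : ℝ} (ha : 0 < a) : (2 : ℝ) ^ (-a) < 1 :=
  Real.rpow_lt_one_of_one_lt_of_neg (by norm_num) (by linarith)

lemma gC_pos {a : ℝ} (ha : 0 < a) : 0 < gC a := by
  have := two_neg_lt_one ha
  unfold gC
  exact one_div_pos.2 (by linarith)

lemma one_le_gC {a : ℝ} (ha : 0 < a) : 1 ≤ gC a := by
  have h := two_neg_lt_one ha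
  have h0 : (0 : ℝ) < (2 : ℝ) ^ (-a) := Real.rpow_pos_of_pos (by norm_num) _
  unfold gC
  rw [le_div_iff₀ (by linarith)]
  linarith

lemma geom_range {a : ℝ} (ha : 0 < a) (n : ℕ) :
    ∑ k ∈ range n, (2 : ℝ) ^ (-(a * k)) ≤ gC a := by
  have h := two_neg_lt_one ha
  have h0 : (0 : ℝ) < (2 : ℝ) ^ (-a) := Real.rpow_pos_of_pos (by norm_num) _
  have e : ∀ k : ℕ, (2 : ℝ) ^ (-(a * k)) = ((2 : ℝ) ^ (-a)) ^ k := by
    intro k
    rw [← Real.rpow_natCast, ← Real.rpow_mul (by norm_num)]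
    congr 1
    ring
  rw [Finset.sum_congr rfl fun k _ => e k]
  have := geom_sum_eq (x := (2 : ℝ) ^ (-a)) h.ne n
  rw [this]
  unfold gC
  have e2 : (((2 : ℝ) ^ (-a)) ^ n - 1) / ((2 : ℝ) ^ (-a) - 1) =
      (1 - ((2 : ℝ) ^ (-a)) ^ n) / (1 - (2 : ℝ) ^ (-a)) := by
    rw [← neg_div_neg_eq]
    congr 1 <;> ring
  rw [e2]
  exact div_le_div_of_nonneg_right (by linarith [pow_pos h0 n]) (by linarith)

lemma geom_finset {a : ℝ} (ha : 0 < a) (s : Finset ℕ) :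
    ∑ k ∈ s, (2 : ℝ) ^ (-(a * k)) ≤ gC a := by
  obtain ⟨n, hn⟩ : ∃ n, s ⊆ range n := by
    refine ⟨s.sup id + 1, fun k hk => ?_⟩
    rw [Finset.mem_range]
    have : k ≤ s.sup id := Finset.le_sup (f := id) hk
    omega
  exact (Finset.sum_le_sum_of_subset_of_nonneg hn fun k _ _ =>
    (Real.rpow_pos_of_pos (by norm_num) _).le).trans (geom_range ha n)

/-- scales below `x₀` -/
lemma sum_below {a : ℝ} (ha : 0 < a) (s : Finset ℤ) (x0 : ℝ) (h : ∀ k ∈ s, (k : ℝ) ≤ x0) :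
    ∑ k ∈ s, (2 : ℝ) ^ (a * (k - x0)) ≤ gC a := by
  classical
  have hfl : ∀ k ∈ s, k ≤ ⌊x0⌋ := fun k hk => Int.le_floor.2 (h k hk)
  calc ∑ k ∈ s, (2 : ℝ) ^ (a * (k - x0))
      ≤ ∑ k ∈ s, (2 : ℝ) ^ (-(a * ((⌊x0⌋ - k).toNat : ℕ))) := by
        refine Finset.sum_le_sum fun k hk => ?_
        refine Real.rpow_le_rpow_of_exponent_le (by norm_num) ?_
        have h1 : (((⌊x0⌋ - k).toNat : ℕ) : ℝ) = (⌊x0⌋ : ℝ) - k := by
          have h2 : (((⌊x0⌋ - k).toNat : ℕ) : ℤ) = ⌊x0⌋ - k :=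
            Int.toNat_of_nonneg (by linarith [hfl k hk])
          have h3 : ((((⌊x0⌋ - k).toNat : ℕ) : ℤ) : ℝ) = ((⌊x0⌋ - k : ℤ) : ℝ) := by rw [h2]
          push_cast at h3
          simpa using h3
        rw [h1]
        nlinarith [Int.floor_le x0]
    _ = ∑ j ∈ s.image (fun k => (⌊x0⌋ - k).toNat), (2 : ℝ) ^ (-(a * (j : ℕ))) := by
        rw [Finset.sum_image]
        intro k hk k' hk' he
        simp only at he
        have e1 : (((⌊x0⌋ - k).toNat : ℕ) : ℤ) = ⌊x0⌋ - k :=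
          Int.toNat_of_nonneg (by linarith [hfl k hk])
        have e2 : (((⌊x0⌋ - k').toNat : ℕ) : ℤ) = ⌊x0⌋ - k' :=
          Int.toNat_of_nonneg (by linarith [hfl k' hk'])
        rw [he] at e1
        linarith
    _ ≤ gC a := geom_finset ha _

/-- scales above `x₀` -/
lemma sum_above {a : ℝ} (ha : 0 < a) (s : Finset ℤ) (x0 : ℝ) (h : ∀ k ∈ s, x0 ≤ (k : ℝ)) :
    ∑ k ∈ s, (2 : ℝ) ^ (-(a * (k - x0))) ≤ gC a := by
  classical
  have := sum_below ha (s.image fun k => -k) (-x0) (by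
    intro k hk
    rw [Finset.mem_image] at hk
    obtain ⟨j, hj, rfl⟩ := hk
    push_cast
    linarith [h j hj])
  rw [Finset.sum_image (by intro x _ y _ hxy; simpa using hxy)] at this
  refine le_trans (le_of_eq ?_) this
  refine Finset.sum_congr rfl fun k _ => ?_
  congr 1
  push_cast
  ring

/-- one-sided sum: all scales `≤ x₀`, increasing bound -/
lemma sum_le_left {a A x0 : ℝ} (ha : 0 < a) (hA : 0 ≤ A) (s : Finset ℤ)
    (h : ∀ k ∈ s, (k : ℝ) ≤ x0) (S : ℤ → ℝ) (hS : ∀ k ∈ s, S k ≤ A * (2 : ℝ) ^ (a * k)) :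
    ∑ k ∈ s, S k ≤ gC a * (A * (2 : ℝ) ^ (a * x0)) := by
  calc ∑ k ∈ s, S k ≤ ∑ k ∈ s, (A * (2 : ℝ) ^ (a * x0)) * (2 : ℝ) ^ (a * (k - x0)) := by
        refine Finset.sum_le_sum fun k hk => (hS k hk).trans (le_of_eq ?_)
        rw [mul_assoc, ← Real.rpow_add (by norm_num)]
        congr 2
        ring
    _ = (A * (2 : ℝ) ^ (a * x0)) * ∑ k ∈ s, (2 : ℝ) ^ (a * (k - x0)) := by
        rw [Finset.mul_sum]
    _ ≤ (A * (2 : ℝ) ^ (a * x0)) * gC a := by
        refine mul_le_mul_of_nonneg_left (sum_below ha s x0 h) ?_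
        exact mul_nonneg hA (Real.rpow_pos_of_pos (by norm_num) _).le
    _ = _ := by ring

/-- one-sided sum: all scales `≥ x₀`, decreasing bound -/
lemma sum_le_right {b B x0 : ℝ} (hb : 0 < b) (hB : 0 ≤ B) (s : Finset ℤ)
    (h : ∀ k ∈ s, x0 ≤ (k : ℝ)) (S : ℤ → ℝ) (hS : ∀ k ∈ s, S k ≤ B * (2 : ℝ) ^ (-(b * k))) :
    ∑ k ∈ s, S k ≤ gC b * (B * (2 : ℝ) ^ (-(b * x0))) := by
  calc ∑ k ∈ s, S k ≤ ∑ k ∈ s, (B * (2 : ℝ) ^ (-(b * x0))) * (2 : ℝ) ^ (-(b * (k - x0))) := by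
        refine Finset.sum_le_sum fun k hk => (hS k hk).trans (le_of_eq ?_)
        rw [mul_assoc, ← Real.rpow_add (by norm_num)]
        congr 2
        ring
    _ = (B * (2 : ℝ) ^ (-(b * x0))) * ∑ k ∈ s, (2 : ℝ) ^ (-(b * (k - x0))) := by
        rw [Finset.mul_sum]
    _ ≤ (B * (2 : ℝ) ^ (-(b * x0))) * gC b := by
        refine mul_le_mul_of_nonneg_left (sum_above hb s x0 h) ?_
        exact mul_nonneg hB (Real.rpow_pos_of_pos (by norm_num) _).le
    _ = _ := by ring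

lemma cross_value {a b α β : ℝ} (ha : 0 < a) (hb : 0 < b) (hα : 0 < α) (hβ : 0 < β) :
    a * (2 : ℝ) ^ (α * (Real.logb 2 (b / a) / (α + β))) =
      a ^ (β / (α + β)) * b ^ (α / (α + β)) := by
  have hs : 0 < α + β := by linarith
  have e1 : (2 : ℝ) ^ (α * (Real.logb 2 (b / a) / (α + β))) = (b / a) ^ (α / (α + β)) := by
    have : α * (Real.logb 2 (b / a) / (α + β)) = Real.logb 2 (b / a) * (α / (α + β)) := by
      field_simp
    rw [this, Real.rpow_mul (by norm_num),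
      Real.rpow_logb (by norm_num) (by norm_num) (div_pos hb ha)]
  rw [e1, Real.div_rpow hb.le ha.le]
  have e2 : a ^ (β / (α + β)) = a / a ^ (α / (α + β)) := by
    have : β / (α + β) = 1 - α / (α + β) := by field_simp; ring
    rw [this, Real.rpow_sub ha, Real.rpow_one]
  rw [e2]
  field_simp

lemma cross_value' {a b α β : ℝ} (ha : 0 < a) (hb : 0 < b) (hα : 0 < α) (hβ : 0 < β) :
    b * (2 : ℝ) ^ (-(β * (Real.logb 2 (b / a) / (α + β)))) =
      a ^ (β / (α + β)) * b ^ (α / (α + β)) := by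
  have hs : 0 < α + β := by linarith
  have h := cross_value hb ha hβ hα
  have e : Real.logb 2 (a / b) = -Real.logb 2 (b / a) := by
    rw [← Real.logb_inv, inv_div]
  rw [e] at h
  have e2 : β * (-Real.logb 2 (b / a) / (β + α)) = -(β * (Real.logb 2 (b / a) / (α + β))) := by
    rw [add_comm β α]
    ring
  rw [e2] at h
  rw [h, add_comm β α]
  ring

/-- **two-sided geometric sum**: increasing and decreasing bound at every scale -/
theorem sum_min_le {a b α β : ℝ} (ha : 0 ≤ a) (hb : 0 ≤ b) (hα : 0 < α) (hβ : 0 < β)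
    (s : Finset ℤ) (S : ℤ → ℝ) (h1 : ∀ k ∈ s, S k ≤ a * (2 : ℝ) ^ (α * k))
    (h2 : ∀ k ∈ s, S k ≤ b * (2 : ℝ) ^ (-(β * k))) :
    ∑ k ∈ s, S k ≤ (gC α + gC β) * (a ^ (β / (α + β)) * b ^ (α / (α + β))) := by
  classical
  have hs : 0 < α + β := by linarith
  have hpos : 0 ≤ (gC α + gC β) * (a ^ (β / (α + β)) * b ^ (α / (α + β))) :=
    mul_nonneg (add_nonneg (gC_pos hα).le (gC_pos hβ).le)
      (mul_nonneg (Real.rpow_nonneg ha _) (Real.rpow_nonneg hb _))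
  rcases ha.eq_or_lt with ha0 | ha0
  · refine le_trans (Finset.sum_nonpos fun k hk => ?_) hpos
    have := h1 k hk
    rw [← ha0] at this
    simpa using this
  rcases hb.eq_or_lt with hb0 | hb0
  · refine le_trans (Finset.sum_nonpos fun k hk => ?_) hpos
    have := h2 k hk
    rw [← hb0] at this
    simpa using this
  set x0 : ℝ := Real.logb 2 (b / a) / (α + β) with hx0
  rw [← Finset.sum_filter_add_sum_filter_not s (fun k : ℤ => (k : ℝ) ≤ x0)]
  have A1 : ∑ k ∈ s.filter (fun k : ℤ => (k : ℝ) ≤ x0), S k ≤ gC α * (a * (2 : ℝ) ^ (α * x0)) :=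
    sum_le_left hα ha _ (fun k hk => (Finset.mem_filter.1 hk).2) S
      (fun k hk => h1 k (Finset.mem_filter.1 hk).1)
  have A2 : ∑ k ∈ s.filter (fun k : ℤ => ¬ (k : ℝ) ≤ x0), S k ≤
      gC β * (b * (2 : ℝ) ^ (-(β * x0))) :=
    sum_le_right hβ hb _ (fun k hk => (not_le.1 (Finset.mem_filter.1 hk).2).le) S
      (fun k hk => h2 k (Finset.mem_filter.1 hk).1)
  rw [cross_value ha0 hb0 hα hβ] at A1
  rw [cross_value' ha0 hb0 hα hβ] at A2
  calc _ ≤ _ := add_le_add A1 A2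
    _ = _ := by ring

/-- the same, scales indexed by `ℕ` -/
theorem sum_min_le_nat {a b α β : ℝ} (ha : 0 ≤ a) (hb : 0 ≤ b) (hα : 0 < α) (hβ : 0 < β)
    (s : Finset ℕ) (S : ℕ → ℝ) (h1 : ∀ k ∈ s, S k ≤ a * (2 : ℝ) ^ (α * k))
    (h2 : ∀ k ∈ s, S k ≤ b * (2 : ℝ) ^ (-(β * k))) :
    ∑ k ∈ s, S k ≤ (gC α + gC β) * (a ^ (β / (α + β)) * b ^ (α / (α + β))) := by
  classical
  have := sum_min_le ha hb hα hβ (s.map Nat.castEmbedding) (fun k => S k.toNat) (by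
    intro k hk
    rw [Finset.mem_map] at hk
    obtain ⟨j, hj, rfl⟩ := hk
    simpa using h1 j hj) (by
    intro k hk
    rw [Finset.mem_map] at hk
    obtain ⟨j, hj, rfl⟩ := hk
    simpa using h2 j hj)
  rw [Finset.sum_map] at this
  simpa using this

/-- `∑ t^η min(u, v t^(-θ))` over dyadic `t` -/
theorem sum_scale_min_le {u v η θ : ℝ} (hu : 0 ≤ u) (hv : 0 ≤ v) (hη : 0 < η) (hθ : η < θ)
    (s : Finset ℤ) :
    ∑ k ∈ s, (2 : ℝ) ^ (η * k) * min u (v * (2 : ℝ) ^ (-(θ * k))) ≤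
      (gC η + gC (θ - η)) * (u ^ (1 - η / θ) * v ^ (η / θ)) := by
  have hθ0 : 0 < θ := hη.trans hθ
  have := sum_min_le (a := u) (b := v) (α := η) (β := θ - η) hu hv hη (by linarith) s
    (fun k => (2 : ℝ) ^ (η * k) * min u (v * (2 : ℝ) ^ (-(θ * k)))) (by
      intro k _
      rw [mul_comm u]
      exact mul_le_mul_of_nonneg_left (min_le_left _ _) (Real.rpow_pos_of_pos (by norm_num) _).le)
    (by
      intro k _
      calc _ ≤ (2 : ℝ) ^ (η * k) * (v * (2 : ℝ) ^ (-(θ * k))) :=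
            mul_le_mul_of_nonneg_left (min_le_right _ _) (Real.rpow_pos_of_pos (by norm_num) _).le
        _ = v * ((2 : ℝ) ^ (η * k) * (2 : ℝ) ^ (-(θ * k))) := by ring
        _ = v * (2 : ℝ) ^ (-((θ - η) * k)) := by
            rw [← Real.rpow_add (by norm_num)]
            congr 2
            ring)
  have e1 : (θ - η) / (η + (θ - η)) = 1 - η / θ := by
    have : η + (θ - η) = θ := by ring
    rw [this]
    field_simp
  have e2 : η / (η + (θ - η)) = η / θ := by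
    have : η + (θ - η) = θ := by ring
    rw [this]
  rw [e1, e2] at this
  exact this

/-! ### Schur test and Cauchy over dyadic classes -/

/-- **Schur test** with finite sums -/
theorem schur {ι κ : Type*} (s : Finset ι) (t : Finset κ) (K : ι → κ → ℝ) (a : ι → ℝ) (b : κ → ℝ)
    {R C : ℝ} (hR0 : 0 ≤ R) (hC0 : 0 ≤ C) (hK : ∀ i ∈ s, ∀ j ∈ t, 0 ≤ K i j)
    (hR : ∀ i ∈ s, ∑ j ∈ t, K i j ≤ R) (hC : ∀ j ∈ t, ∑ i ∈ s, K i j ≤ C) :
    ∑ i ∈ s, ∑ j ∈ t, K i j * (a i * b j) ≤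
      Real.sqrt (R * C) * (Real.sqrt (∑ i ∈ s, a i ^ 2) * Real.sqrt (∑ j ∈ t, b j ^ 2)) := by
  classical
  have hA : 0 ≤ ∑ i ∈ s, a i ^ 2 := Finset.sum_nonneg fun i _ => sq_nonneg _
  have hB : 0 ≤ ∑ j ∈ t, b j ^ 2 := Finset.sum_nonneg fun j _ => sq_nonneg _
  have h1 : (∑ x ∈ s ×ˢ t, K x.1 x.2 * (a x.1 * b x.2)) ^ 2 ≤
      (∑ x ∈ s ×ˢ t, K x.1 x.2 * a x.1 ^ 2) * ∑ x ∈ s ×ˢ t, K x.1 x.2 * b x.2 ^ 2 := by
    have hcs := Finset.sum_mul_sq_le_sq_mul_sq (s ×ˢ t)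
      (fun x => Real.sqrt (K x.1 x.2) * a x.1) (fun x => Real.sqrt (K x.1 x.2) * b x.2)
    have e1 : ∑ x ∈ s ×ˢ t, Real.sqrt (K x.1 x.2) * a x.1 * (Real.sqrt (K x.1 x.2) * b x.2) =
        ∑ x ∈ s ×ˢ t, K x.1 x.2 * (a x.1 * b x.2) := by
      refine Finset.sum_congr rfl fun x hx => ?_
      rw [Finset.mem_product] at hx
      have := Real.mul_self_sqrt (hK x.1 hx.1 x.2 hx.2)
      calc Real.sqrt (K x.1 x.2) * a x.1 * (Real.sqrt (K x.1 x.2) * b x.2) =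
          (Real.sqrt (K x.1 x.2) * Real.sqrt (K x.1 x.2)) * (a x.1 * b x.2) := by ring
        _ = _ := by rw [this]
    have e2 : ∑ x ∈ s ×ˢ t, (Real.sqrt (K x.1 x.2) * a x.1) ^ 2 =
        ∑ x ∈ s ×ˢ t, K x.1 x.2 * a x.1 ^ 2 := by
      refine Finset.sum_congr rfl fun x hx => ?_
      rw [Finset.mem_product] at hx
      rw [mul_pow, Real.sq_sqrt (hK x.1 hx.1 x.2 hx.2)]
    have e3 : ∑ x ∈ s ×ˢ t, (Real.sqrt (K x.1 x.2) * b x.2) ^ 2 =
        ∑ x ∈ s ×ˢ t, K x.1 x.2 * b x.2 ^ 2 := by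
      refine Finset.sum_congr rfl fun x hx => ?_
      rw [Finset.mem_product] at hx
      rw [mul_pow, Real.sq_sqrt (hK x.1 hx.1 x.2 hx.2)]
    rw [e1, e2, e3] at hcs
    exact hcs
  have h2 : ∑ x ∈ s ×ˢ t, K x.1 x.2 * a x.1 ^ 2 ≤ R * ∑ i ∈ s, a i ^ 2 := by
    rw [Finset.sum_product, Finset.mul_sum]
    refine Finset.sum_le_sum fun i hi => ?_
    simp only
    rw [← Finset.sum_mul]
    exact mul_le_mul_of_nonneg_right (hR i hi) (sq_nonneg _)
  have h3 : ∑ x ∈ s ×ˢ t, K x.1 x.2 * b x.2 ^ 2 ≤ C * ∑ j ∈ t, b j ^ 2 := by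
    rw [Finset.sum_product_right, Finset.mul_sum]
    refine Finset.sum_le_sum fun j hj => ?_
    simp only
    rw [← Finset.sum_mul]
    exact mul_le_mul_of_nonneg_right (hC j hj) (sq_nonneg _)
  have h4 : 0 ≤ ∑ x ∈ s ×ˢ t, K x.1 x.2 * b x.2 ^ 2 := by
    refine Finset.sum_nonneg fun x hx => ?_
    rw [Finset.mem_product] at hx
    exact mul_nonneg (hK x.1 hx.1 x.2 hx.2) (sq_nonneg _)
  rw [← Finset.sum_product' s t (fun i j => K i j * (a i * b j))]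
  refine (Real.le_sqrt_of_sq_le
    (h1.trans (mul_le_mul h2 h3 h4 (mul_nonneg hR0 hA)))).trans (le_of_eq ?_)
  rw [← Real.sqrt_mul hA, ← Real.sqrt_mul (mul_nonneg hR0 hC0)]
  congr 1
  ring

lemma sum_abs_le {ε : ℝ} (hε : 0 < ε) (s : Finset ℤ) (i : ℤ) :
    ∑ j ∈ s, (2 : ℝ) ^ (-(ε * |((i : ℝ) - j)|)) ≤ 2 * gC ε := by
  classical
  rw [← Finset.sum_filter_add_sum_filter_not s (fun j : ℤ => (j : ℝ) ≤ i)]
  have A1 : ∑ j ∈ s.filter (fun j : ℤ => (j : ℝ) ≤ i), (2 : ℝ) ^ (-(ε * |((i : ℝ) - j)|)) ≤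
      gC ε := by
    refine le_trans (le_of_eq ?_) (sum_below hε (s.filter fun j : ℤ => (j : ℝ) ≤ i) (i : ℝ)
      (fun k hk => (Finset.mem_filter.1 hk).2))
    refine Finset.sum_congr rfl fun j hj => ?_
    have := (Finset.mem_filter.1 hj).2
    rw [abs_of_nonneg (by linarith)]
    congr 1
    ring
  have A2 : ∑ j ∈ s.filter (fun j : ℤ => ¬ (j : ℝ) ≤ i), (2 : ℝ) ^ (-(ε * |((i : ℝ) - j)|)) ≤
      gC ε := by
    refine le_trans (le_of_eq ?_) (sum_above hε (s.filter fun j : ℤ => ¬ (j : ℝ) ≤ i) (i : ℝ)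
      (fun k hk => (not_le.1 (Finset.mem_filter.1 hk).2).le))
    refine Finset.sum_congr rfl fun j hj => ?_
    have := not_le.1 (Finset.mem_filter.1 hj).2
    rw [abs_of_neg (by linarith)]
    congr 1
    ring
  linarith

/-- **Cauchy over dyadic classes** -/
theorem cauchy_dyadic {ε : ℝ} (hε : 0 < ε) (s t : Finset ℤ) (a b : ℤ → ℝ) :
    ∑ i ∈ s, ∑ j ∈ t, (2 : ℝ) ^ (-(ε * |((i : ℝ) - j)|)) * (a i * b j) ≤
      2 * gC ε * (Real.sqrt (∑ i ∈ s, a i ^ 2) * Real.sqrt (∑ j ∈ t, b j ^ 2)) := by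
  have hg : 0 ≤ 2 * gC ε := by linarith [gC_pos hε]
  have h := schur s t (fun i j : ℤ => (2 : ℝ) ^ (-(ε * |((i : ℝ) - j)|))) a b hg hg
    (fun i _ j _ => (Real.rpow_pos_of_pos (by norm_num) _).le)
    (fun i _ => sum_abs_le hε t i)
    (fun j _ => by
      refine le_trans (le_of_eq ?_) (sum_abs_le hε s j)
      refine Finset.sum_congr rfl fun i _ => ?_
      rw [abs_sub_comm])
  rwa [Real.sqrt_mul_self hg] at h

/-- the same over `ℕ` -/
theorem cauchy_dyadic_nat {ε : ℝ} (hε : 0 < ε) (s t : Finset ℕ) (a b : ℕ → ℝ) :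
    ∑ i ∈ s, ∑ j ∈ t, (2 : ℝ) ^ (-(ε * |((i : ℝ) - j)|)) * (a i * b j) ≤
      2 * gC ε * (Real.sqrt (∑ i ∈ s, a i ^ 2) * Real.sqrt (∑ j ∈ t, b j ^ 2)) := by
  have h := cauchy_dyadic hε (s.map Nat.castEmbedding) (t.map Nat.castEmbedding)
    (fun k => a k.toNat) (fun k => b k.toNat)
  simp only [Finset.sum_map, Nat.castEmbedding_apply, Int.toNat_natCast, Int.cast_natCast] at h
  exact h

/-! ### dyadic classes -/

/-- splitting into the dyadic classes of a natural number -/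
theorem sum_dyadic_nat {ι : Type*} (s : Finset ι) (g : ι → ℕ) (F : ι → ℝ) (n : ℕ)
    (hg : ∀ x ∈ s, g x ≠ 0) (hn : ∀ x ∈ s, g x < 2 ^ n) :
    ∑ x ∈ s, F x =
      ∑ k ∈ range n, ∑ x ∈ s, (if 2 ^ k ≤ g x ∧ g x < 2 ^ (k + 1) then F x else 0) := by
  classical
  rw [Finset.sum_comm]
  refine Finset.sum_congr rfl fun x hx => ?_
  have h0 := hg x hx
  have hl : Nat.log 2 (g x) < n := Nat.log_lt_of_lt_pow h0 (hn x hx)
  rw [Finset.sum_eq_single (Nat.log 2 (g x))]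
  · rw [if_pos]
    exact ⟨Nat.pow_log_le_self 2 h0, Nat.lt_pow_succ_log_self (by norm_num) _⟩
  · intro k _ hk
    rw [if_neg]
    rintro ⟨h1, h2⟩
    exact hk (Nat.log_eq_of_pow_le_of_lt_pow h1 h2).symm
  · intro h
    exact absurd (Finset.mem_range.2 hl) h

/-- splitting into the dyadic classes of a positive real number -/
theorem sum_dyadic_real {ι : Type*} (s : Finset ι) (g : ι → ℝ) (F : ι → ℝ) (T : Finset ℤ)
    (hg : ∀ x ∈ s, 0 < g x) (hT : ∀ x ∈ s, Int.log 2 (g x) ∈ T) :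
    ∑ x ∈ s, F x =
      ∑ k ∈ T, ∑ x ∈ s, (if (2 : ℝ) ^ k ≤ g x ∧ g x < (2 : ℝ) ^ (k + 1) then F x else 0) := by
  classical
  rw [Finset.sum_comm]
  refine Finset.sum_congr rfl fun x hx => ?_
  have h0 := hg x hx
  have key1 : (2 : ℝ) ^ (Int.log 2 (g x)) ≤ g x := by
    have := Int.zpow_log_le_self (b := 2) (by norm_num) h0
    exact_mod_cast this
  have key2 : g x < (2 : ℝ) ^ (Int.log 2 (g x) + 1) := by
    have := Int.lt_zpow_succ_log_self (b := 2) (by norm_num) (g x)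
    exact_mod_cast this
  rw [Finset.sum_eq_single (Int.log 2 (g x))]
  · rw [if_pos ⟨key1, key2⟩]
  · intro k _ hk
    rw [if_neg]
    rintro ⟨h1, h2⟩
    apply hk
    have a1 : k < Int.log 2 (g x) + 1 :=
      (zpow_lt_zpow_iff_right₀ (by norm_num : (1 : ℝ) < 2)).1 (h1.trans_lt key2)
    have a2 : Int.log 2 (g x) < k + 1 :=
      (zpow_lt_zpow_iff_right₀ (by norm_num : (1 : ℝ) < 2)).1 (key1.trans_lt h2)
    omega
  · intro h
    exact absurd (hT x hx) h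

/-! ### level sets -/

/-- indicator of the level `2^(-i-1) < y ≤ 2^(-i)` -/
noncomputable def lev (i : ℕ) (y : ℝ) : ℝ :=
  if (2 : ℝ) ^ (-((i : ℝ) + 1)) < y ∧ y ≤ (2 : ℝ) ^ (-(i : ℝ)) then 1 else 0

lemma lev_nonneg (i : ℕ) (y : ℝ) : 0 ≤ lev i y := by
  unfold lev
  split_ifs <;> norm_num

lemma lev_le_one (i : ℕ) (y : ℝ) : lev i y ≤ 1 := by
  unfold lev
  split_ifs <;> norm_num

/-- every `y ∈ (0,1]` lies in a level -/
lemma exists_lev {y : ℝ} (h0 : 0 < y) (h1 : y ≤ 1) : ∃ i : ℕ, lev i y = 1 := by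
  refine ⟨⌊Real.logb 2 (1 / y)⌋₊, ?_⟩
  have hpos : 0 ≤ Real.logb 2 (1 / y) :=
    Real.logb_nonneg (by norm_num) (by rw [le_div_iff₀ h0]; linarith)
  have e : y = (2 : ℝ) ^ (-Real.logb 2 (1 / y)) := by
    rw [Real.rpow_neg (by norm_num), Real.rpow_logb (by norm_num) (by norm_num) (by positivity)]
    field_simp
  unfold lev
  rw [if_pos]
  constructor
  · conv_rhs => rw [e]
    refine Real.rpow_lt_rpow_of_exponent_lt (by norm_num) ?_
    have := Nat.lt_floor_add_one (Real.logb 2 (1 / y))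
    linarith
  · conv_lhs => rw [e]
    refine Real.rpow_le_rpow_of_exponent_le (by norm_num) ?_
    have := Nat.floor_le hpos
    linarith

/-- a function with values in `[0,1]` is at most the sum of its levels -/
theorem level_le {ι : Type*} (s : Finset ι) (f : ι → ℝ) (h0 : ∀ x ∈ s, 0 ≤ f x)
    (h1 : ∀ x ∈ s, f x ≤ 1) :
    ∃ n : ℕ, ∀ x ∈ s, f x ≤ ∑ i ∈ range n, (2 : ℝ) ^ (-(i : ℝ)) * lev i (f x) := by
  classical
  have hex : ∀ x : ι, ∃ i : ℕ, x ∈ s → 0 < f x → lev i (f x) = 1 := by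
    intro x
    by_cases hx : x ∈ s ∧ 0 < f x
    · obtain ⟨i, hi⟩ := exists_lev hx.2 (h1 x hx.1)
      exact ⟨i, fun _ _ => hi⟩
    · exact ⟨0, fun a b => absurd ⟨a, b⟩ hx⟩
  choose I hI using hex
  refine ⟨s.sup I + 1, fun x hx => ?_⟩
  rcases (h0 x hx).eq_or_lt with h | h
  · rw [← h]
    exact Finset.sum_nonneg fun i _ =>
      mul_nonneg (Real.rpow_pos_of_pos (by norm_num) _).le (lev_nonneg _ _)
  · have hm : I x ∈ range (s.sup I + 1) := by
      rw [Finset.mem_range]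
      have := Finset.le_sup (f := I) hx
      omega
    have hl := hI x hx h
    calc f x ≤ (2 : ℝ) ^ (-((I x : ℕ) : ℝ)) * lev (I x) (f x) := by
          rw [hl, mul_one]
          unfold lev at hl
          split_ifs at hl with hc
          · exact hc.2
          · norm_num at hl
      _ ≤ _ := Finset.single_le_sum (f := fun i : ℕ => (2 : ℝ) ^ (-(i : ℝ)) * lev i (f x))
          (fun i _ => mul_nonneg (Real.rpow_pos_of_pos (by norm_num) _).le (lev_nonneg _ _)) hm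

lemma lev_le_rpow {i : ℕ} {y p : ℝ} (hy : 0 ≤ y) (hp : 0 < p) :
    lev i y ≤ (2 : ℝ) ^ (p * ((i : ℝ) + 1)) * y ^ p := by
  unfold lev
  split_ifs with h
  · have h1 : ((2 : ℝ) ^ (-((i : ℝ) + 1))) ^ p ≤ y ^ p :=
      Real.rpow_le_rpow (Real.rpow_pos_of_pos (by norm_num) _).le h.1.le hp.le
    rw [← Real.rpow_mul (by norm_num)] at h1
    calc (1 : ℝ) = (2 : ℝ) ^ (p * ((i : ℝ) + 1)) * (2 : ℝ) ^ (-((i : ℝ) + 1) * p) := by
          rw [← Real.rpow_add (by norm_num)]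
          have : p * ((i : ℝ) + 1) + -((i : ℝ) + 1) * p = 0 := by ring
          rw [this, Real.rpow_zero]
      _ ≤ _ := mul_le_mul_of_nonneg_left h1 (Real.rpow_pos_of_pos (by norm_num) _).le
  · exact mul_nonneg (Real.rpow_pos_of_pos (by norm_num) _).le (Real.rpow_nonneg hy _)

/-- masses of the levels -/
theorem level_mass {ι : Type*} (s : Finset ι) (w f : ι → ℝ) {p κ : ℝ} (hp : 0 < p) (hκ : 0 < κ)
    (hpκ : p * κ < 1) (hw : ∀ x ∈ s, 0 ≤ w x) (h0 : ∀ x ∈ s, 0 ≤ f x) (n : ℕ) :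
    ∑ i ∈ range n, (2 : ℝ) ^ (-(i : ℝ)) * (∑ x ∈ s, w x * lev i (f x)) ^ κ ≤
      (2 : ℝ) ^ (p * κ) * gC (1 - p * κ) * (∑ x ∈ s, w x * f x ^ p) ^ κ := by
  have hm0 : 0 ≤ ∑ x ∈ s, w x * f x ^ p :=
    Finset.sum_nonneg fun x hx => mul_nonneg (hw x hx) (Real.rpow_nonneg (h0 x hx) _)
  have hi : ∀ i : ℕ, (∑ x ∈ s, w x * lev i (f x)) ^ κ ≤
      ((2 : ℝ) ^ (p * κ * ((i : ℝ) + 1))) * (∑ x ∈ s, w x * f x ^ p) ^ κ := by
    intro i
    have h1 : ∑ x ∈ s, w x * lev i (f x) ≤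
        (2 : ℝ) ^ (p * ((i : ℝ) + 1)) * ∑ x ∈ s, w x * f x ^ p := by
      rw [Finset.mul_sum]
      refine Finset.sum_le_sum fun x hx => ?_
      calc w x * lev i (f x) ≤ w x * ((2 : ℝ) ^ (p * ((i : ℝ) + 1)) * f x ^ p) :=
            mul_le_mul_of_nonneg_left (lev_le_rpow (h0 x hx) hp) (hw x hx)
        _ = _ := by ring
    have h2 : 0 ≤ ∑ x ∈ s, w x * lev i (f x) :=
      Finset.sum_nonneg fun x hx => mul_nonneg (hw x hx) (lev_nonneg _ _)
    calc _ ≤ ((2 : ℝ) ^ (p * ((i : ℝ) + 1)) * ∑ x ∈ s, w x * f x ^ p) ^ κ :=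
          Real.rpow_le_rpow h2 h1 hκ.le
      _ = _ := by
          rw [Real.mul_rpow (Real.rpow_pos_of_pos (by norm_num) _).le hm0,
            ← Real.rpow_mul (by norm_num)]
          congr 2
          ring
  calc _ ≤ ∑ i ∈ range n, ((2 : ℝ) ^ (p * κ) * (∑ x ∈ s, w x * f x ^ p) ^ κ) *
        (2 : ℝ) ^ (-((1 - p * κ) * i)) := by
        refine Finset.sum_le_sum fun i _ => ?_
        calc _ ≤ (2 : ℝ) ^ (-(i : ℝ)) * (((2 : ℝ) ^ (p * κ * ((i : ℝ) + 1))) *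
              (∑ x ∈ s, w x * f x ^ p) ^ κ) :=
              mul_le_mul_of_nonneg_left (hi i) (Real.rpow_pos_of_pos (by norm_num) _).le
          _ = ((2 : ℝ) ^ (-(i : ℝ)) * (2 : ℝ) ^ (p * κ * ((i : ℝ) + 1))) *
              (∑ x ∈ s, w x * f x ^ p) ^ κ := by ring
          _ = ((2 : ℝ) ^ (p * κ) * (2 : ℝ) ^ (-((1 - p * κ) * i))) *
              (∑ x ∈ s, w x * f x ^ p) ^ κ := by
              rw [← Real.rpow_add (by norm_num), ← Real.rpow_add (by norm_num)]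
              congr 2
              ring
          _ = _ := by ring
    _ = ((2 : ℝ) ^ (p * κ) * (∑ x ∈ s, w x * f x ^ p) ^ κ) *
        ∑ i ∈ range n, (2 : ℝ) ^ (-((1 - p * κ) * i)) := by rw [Finset.mul_sum]
    _ ≤ ((2 : ℝ) ^ (p * κ) * (∑ x ∈ s, w x * f x ^ p) ^ κ) * gC (1 - p * κ) := by
        refine mul_le_mul_of_nonneg_left (geom_range (by linarith) n) ?_
        exact mul_nonneg (Real.rpow_pos_of_pos (by norm_num) _).le (Real.rpow_nonneg hm0 _)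
    _ = _ := by ring

/-! ### energies -/

/-- energy at the exact scale `[X, 2X)` -/
noncomputable def En (M : ℕ) (X : ℝ) (F : ℕ → ℕ → ℝ) : ℝ :=
  ∑ b ∈ M.divisors, ∑ c ∈ M.divisors,
    (if X ≤ (Nat.gcd b c : ℝ) ∧ (Nat.gcd b c : ℝ) < 2 * X then
      (Nat.gcd b c : ℝ) * nu M b * nu M c * F b c else 0)

/-- weighted energy `∑ gcd^θ ν ν F` -/
noncomputable def Wt (M : ℕ) (θ : ℝ) (F : ℕ → ℕ → ℝ) : ℝ :=
  ∑ b ∈ M.divisors, ∑ c ∈ M.divisors, (Nat.gcd b c : ℝ) ^ θ * nu M b * nu M c * F b c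

lemma En_nonneg {M : ℕ} {X : ℝ} {F : ℕ → ℕ → ℝ} (hF : ∀ b c, 0 ≤ F b c) : 0 ≤ En M X F := by
  unfold En
  refine Finset.sum_nonneg fun b _ => Finset.sum_nonneg fun c _ => ?_
  split_ifs
  · exact mul_nonneg (mul_nonneg (mul_nonneg (Nat.cast_nonneg _) (nu_nonneg _ _))
      (nu_nonneg _ _)) (hF b c)
  · exact le_rfl

/-- splitting of `∑_{b,c|M} G b c` into the dyadic classes of `gcd b c` -/
lemma sum_gcd_split (M : ℕ) (G : ℕ → ℕ → ℝ) :
    ∑ b ∈ M.divisors, ∑ c ∈ M.divisors, G b c =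
      ∑ k ∈ range (M + 1), ∑ b ∈ M.divisors, ∑ c ∈ M.divisors,
        (if (2 : ℝ) ^ k ≤ (Nat.gcd b c : ℝ) ∧ (Nat.gcd b c : ℝ) < 2 * (2 : ℝ) ^ k then G b c
          else 0) := by
  classical
  rw [← Finset.sum_product' M.divisors M.divisors G]
  rw [sum_dyadic_nat (M.divisors ×ˢ M.divisors) (fun x => Nat.gcd x.1 x.2) _ (M + 1)]
  · refine Finset.sum_congr rfl fun k _ => ?_
    rw [← Finset.sum_product' M.divisors M.divisors
      (fun b c => if (2 : ℝ) ^ k ≤ (Nat.gcd b c : ℝ) ∧ (Nat.gcd b c : ℝ) < 2 * (2 : ℝ) ^ k then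
        G b c else 0)]
    refine Finset.sum_congr rfl fun x _ => ?_
    have e : (2 ^ k ≤ Nat.gcd x.1 x.2 ∧ Nat.gcd x.1 x.2 < 2 ^ (k + 1)) ↔
        ((2 : ℝ) ^ k ≤ (Nat.gcd x.1 x.2 : ℝ) ∧ (Nat.gcd x.1 x.2 : ℝ) < 2 * (2 : ℝ) ^ k) := by
      have e1 : (2 : ℝ) * 2 ^ k = ((2 ^ (k + 1) : ℕ) : ℝ) := by push_cast; ring
      have e2 : (2 : ℝ) ^ k = ((2 ^ k : ℕ) : ℝ) := by push_cast; ring
      rw [e1, e2, Nat.cast_le, Nat.cast_lt]
    simp only [e]
  · intro x hx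
    rw [Finset.mem_product] at hx
    exact (Nat.gcd_pos_of_pos_left _ (Nat.pos_of_mem_divisors hx.1)).ne'
  · intro x hx
    rw [Finset.mem_product] at hx
    have h1 : Nat.gcd x.1 x.2 ≤ M :=
      (Nat.gcd_le_left _ (Nat.pos_of_mem_divisors hx.1)).trans (Nat.divisor_le hx.1)
    have h2 : M + 1 < 2 ^ (M + 1) := Nat.lt_two_pow_self
    omega

/-- weighted energy from the exact scales -/
theorem Wt_le {M : ℕ} {η : ℝ} (hη : 0 ≤ η) {F : ℕ → ℕ → ℝ} (hF : ∀ b c, 0 ≤ F b c) :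
    Wt M (1 - η) F ≤ ∑ k ∈ range (M + 1), (2 : ℝ) ^ (-(η * k)) * En M ((2 : ℝ) ^ k) F := by
  unfold Wt En
  rw [sum_gcd_split]
  refine Finset.sum_le_sum fun k _ => ?_
  rw [Finset.mul_sum]
  refine Finset.sum_le_sum fun b _ => ?_
  rw [Finset.mul_sum]
  refine Finset.sum_le_sum fun c _ => ?_
  split_ifs with h
  · have h2k : (0 : ℝ) < (2 : ℝ) ^ k := by positivity
    have hg : (0 : ℝ) < (Nat.gcd b c : ℝ) := h2k.trans_le h.1
    have e1 : (Nat.gcd b c : ℝ) ^ (1 - η) = (Nat.gcd b c : ℝ) ^ (-η) * (Nat.gcd b c : ℝ) := by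
      rw [sub_eq_neg_add, Real.rpow_add hg, Real.rpow_one]
    have e2 : (Nat.gcd b c : ℝ) ^ (-η) ≤ (2 : ℝ) ^ (-(η * k)) := by
      calc (Nat.gcd b c : ℝ) ^ (-η) ≤ ((2 : ℝ) ^ k) ^ (-η) :=
            Real.rpow_le_rpow_of_nonpos h2k h.1 (by linarith)
        _ = _ := by
            rw [← Real.rpow_natCast, ← Real.rpow_mul (by norm_num)]
            congr 1
            ring
    have h3 : 0 ≤ (Nat.gcd b c : ℝ) * nu M b * nu M c * F b c :=
      mul_nonneg (mul_nonneg (mul_nonneg (Nat.cast_nonneg _) (nu_nonneg _ _))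
        (nu_nonneg _ _)) (hF b c)
    calc (Nat.gcd b c : ℝ) ^ (1 - η) * nu M b * nu M c * F b c =
        (Nat.gcd b c : ℝ) ^ (-η) * ((Nat.gcd b c : ℝ) * nu M b * nu M c * F b c) := by
          rw [e1]; ring
      _ ≤ _ := mul_le_mul_of_nonneg_right e2 h3
  · simp

/-- **interpolation**: exact-scale bounds with the exponents `η₁ < η < η₂` give the weighted bound -/
theorem Wt_interp {M : ℕ} {η η1 η2 A1 A2 : ℝ} (hη1 : η1 < η) (hη2 : η < η2) (hη : 0 ≤ η)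
    (hA1 : 0 ≤ A1) (hA2 : 0 ≤ A2) {F : ℕ → ℕ → ℝ} (hF : ∀ b c, 0 ≤ F b c)
    (h1 : ∀ X : ℝ, 1 ≤ X → En M X F ≤ A1 * X ^ η1) (h2 : ∀ X : ℝ, 1 ≤ X → En M X F ≤ A2 * X ^ η2) :
    Wt M (1 - η) F ≤ (gC (η2 - η) + gC (η - η1)) *
      (A2 ^ ((η - η1) / (η2 - η1)) * A1 ^ ((η2 - η) / (η2 - η1))) := by
  have hp : ∀ k : ℕ, (1 : ℝ) ≤ (2 : ℝ) ^ k := fun k => one_le_pow₀ (by norm_num)
  have hr : ∀ (k : ℕ) (x : ℝ), ((2 : ℝ) ^ k) ^ x = (2 : ℝ) ^ (x * k) := by
    intro k x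
    rw [← Real.rpow_natCast, ← Real.rpow_mul (by norm_num)]
    congr 1
    ring
  refine (Wt_le hη hF).trans ?_
  have := sum_min_le_nat (a := A2) (b := A1) (α := η2 - η) (β := η - η1) hA2 hA1 (by linarith)
    (by linarith) (range (M + 1)) (fun k => (2 : ℝ) ^ (-(η * k)) * En M ((2 : ℝ) ^ k) F) (by
      intro k _
      calc _ ≤ (2 : ℝ) ^ (-(η * k)) * (A2 * ((2 : ℝ) ^ k) ^ η2) :=
            mul_le_mul_of_nonneg_left (h2 _ (hp k)) (Real.rpow_pos_of_pos (by norm_num) _).le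
        _ = A2 * ((2 : ℝ) ^ (-(η * k)) * (2 : ℝ) ^ (η2 * k)) := by rw [hr]; ring
        _ = _ := by
            rw [← Real.rpow_add (by norm_num)]
            congr 2
            ring) (by
      intro k _
      calc _ ≤ (2 : ℝ) ^ (-(η * k)) * (A1 * ((2 : ℝ) ^ k) ^ η1) :=
            mul_le_mul_of_nonneg_left (h1 _ (hp k)) (Real.rpow_pos_of_pos (by norm_num) _).le
        _ = A1 * ((2 : ℝ) ^ (-(η * k)) * (2 : ℝ) ^ (η1 * k)) := by rw [hr]; ring
        _ = _ := by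
            rw [← Real.rpow_add (by norm_num)]
            congr 2
            ring)
  have e : η2 - η + (η - η1) = η2 - η1 := by ring
  rw [e] at this
  exact this

/-! ### consequences of HVW -/

lemma mass_nonneg {M : ℕ} {f : ℕ → ℝ} (hf : ∀ x, 0 ≤ f x) :
    0 ≤ ∑ b ∈ M.divisors, nu M b * f b :=
  Finset.sum_nonneg fun b _ => mul_nonneg (nu_nonneg _ _) (hf b)

lemma hvw_En {κ : ℝ} (hκ : 1 / 2 < κ) (hκ1 : κ < 1) :
    ∃ C : ℝ, 0 < C ∧ ∀ (M : ℕ) (X : ℝ) (f f' : ℕ → ℝ), M ≠ 0 → 0 < X →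
      (∀ x, 0 ≤ f x) → (∀ x, f x ≤ 1) → (∀ x, 0 ≤ f' x) → (∀ x, f' x ≤ 1) →
      En M X (fun b c => f b * f' c) ≤ C * X ^ (2 * κ - 1) *
          ((∑ b ∈ M.divisors, nu M b * f b) ^ κ * (∑ b ∈ M.divisors, nu M b * f' b) ^ κ) :=
  Crest.Agent.R4C.ThmRx19.hvw_b hκ hκ1

/-- **weighted HVW**: `∑ gcd^(1-η) ν ν f f' ≤ C (ν f)^((1+η)/2) (ν f')^((1+η)/2)` -/
theorem wt_hvw {η : ℝ} (hη0 : 0 < η) (hη1 : η < 1) :
    ∃ C : ℝ, 0 < C ∧ ∀ (M : ℕ) (f f' : ℕ → ℝ), M ≠ 0 →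
      (∀ x, 0 ≤ f x) → (∀ x, f x ≤ 1) → (∀ x, 0 ≤ f' x) → (∀ x, f' x ≤ 1) →
      Wt M (1 - η) (fun b c => f b * f' c) ≤ C *
          ((∑ b ∈ M.divisors, nu M b * f b) ^ ((1 + η) / 2) *
            (∑ b ∈ M.divisors, nu M b * f' b) ^ ((1 + η) / 2)) := by
  set a : ℝ := η / 2 with ha
  set b : ℝ := (1 + η) / 2 with hb
  have ha0 : 0 < a := by rw [ha]; linarith
  have haη : a < η := by rw [ha]; linarith
  have hηb : η < b := by rw [hb]; linarith
  have hb1 : b < 1 := by rw [hb]; linarith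
  obtain ⟨C1, hC1, H1⟩ := hvw_En (κ := (1 + a) / 2) (by linarith) (by linarith)
  obtain ⟨C2, hC2, H2⟩ := hvw_En (κ := (1 + b) / 2) (by linarith) (by linarith)
  have hab : 0 < b - a := by linarith
  refine ⟨(gC (b - η) + gC (η - a)) * (C2 ^ ((η - a) / (b - a)) * C1 ^ ((b - η) / (b - a))),
    mul_pos (add_pos (gC_pos (by linarith)) (gC_pos (by linarith)))
      (mul_pos (Real.rpow_pos_of_pos hC2 _) (Real.rpow_pos_of_pos hC1 _)), ?_⟩
  intro M f f' hM h1 h2 h3 h4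
  set m : ℝ := ∑ b ∈ M.divisors, nu M b * f b with hm
  set m' : ℝ := ∑ b ∈ M.divisors, nu M b * f' b with hm'
  have hm0 : 0 ≤ m := mass_nonneg h1
  have hm0' : 0 ≤ m' := mass_nonneg h3
  have hF : ∀ b c, 0 ≤ f b * f' c := fun b c => mul_nonneg (h1 b) (h3 c)
  have key := Wt_interp (M := M) (η := η) (η1 := a) (η2 := b)
    (A1 := C1 * (m ^ ((1 + a) / 2) * m' ^ ((1 + a) / 2)))
    (A2 := C2 * (m ^ ((1 + b) / 2) * m' ^ ((1 + b) / 2))) haη hηb hη0.le
    (mul_nonneg hC1.le (mul_nonneg (Real.rpow_nonneg hm0 _) (Real.rpow_nonneg hm0' _)))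
    (mul_nonneg hC2.le (mul_nonneg (Real.rpow_nonneg hm0 _) (Real.rpow_nonneg hm0' _)))
    hF (by
      intro X hX
      have := H1 M X f f' hM (by linarith) h1 h2 h3 h4
      have e : 2 * ((1 + a) / 2) - 1 = a := by ring
      rw [e] at this
      refine this.trans (le_of_eq ?_)
      rw [← hm, ← hm']
      ring) (by
      intro X hX
      have := H2 M X f f' hM (by linarith) h1 h2 h3 h4
      have e : 2 * ((1 + b) / 2) - 1 = b := by ring
      rw [e] at this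
      refine this.trans (le_of_eq ?_)
      rw [← hm, ← hm']
      ring)
  refine key.trans (le_of_eq ?_)
  have n1 : 0 ≤ m ^ ((1 + a) / 2) := Real.rpow_nonneg hm0 _
  have n2 : 0 ≤ m' ^ ((1 + a) / 2) := Real.rpow_nonneg hm0' _
  have n3 : 0 ≤ m ^ ((1 + b) / 2) := Real.rpow_nonneg hm0 _
  have n4 : 0 ≤ m' ^ ((1 + b) / 2) := Real.rpow_nonneg hm0' _
  have hex : (1 + b) / 2 * ((η - a) / (b - a)) + (1 + a) / 2 * ((b - η) / (b - a)) =
      (1 + η) / 2 := by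
    field_simp
    ring
  have hp1 : 0 < (1 + b) / 2 * ((η - a) / (b - a)) :=
    mul_pos (by linarith) (div_pos (by linarith) hab)
  have hp2 : 0 < (1 + a) / 2 * ((b - η) / (b - a)) :=
    mul_pos (by linarith) (div_pos (by linarith) hab)
  have comb : ∀ x : ℝ, 0 ≤ x → (x ^ ((1 + b) / 2)) ^ ((η - a) / (b - a)) *
      (x ^ ((1 + a) / 2)) ^ ((b - η) / (b - a)) = x ^ ((1 + η) / 2) := by
    intro x hx
    rw [← Real.rpow_mul hx, ← Real.rpow_mul hx,
      ← Real.rpow_add_of_nonneg hx hp1.le hp2.le, hex]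
  rw [Real.mul_rpow hC2.le (mul_nonneg n3 n4), Real.mul_rpow hC1.le (mul_nonneg n1 n2),
    Real.mul_rpow n3 n4, Real.mul_rpow n1 n2, ← comb m hm0, ← comb m' hm0']
  ring

/-- all scales below `X` -/
theorem hvw_below {κ : ℝ} (hκ : 1 / 2 < κ) (hκ1 : κ < 1) :
    ∃ C : ℝ, 0 < C ∧ ∀ (M : ℕ) (X : ℝ) (f f' : ℕ → ℝ), M ≠ 0 → 0 < X →
      (∀ x, 0 ≤ f x) → (∀ x, f x ≤ 1) → (∀ x, 0 ≤ f' x) → (∀ x, f' x ≤ 1) →
      ∑ b ∈ M.divisors, ∑ c ∈ M.divisors,
        (if (Nat.gcd b c : ℝ) < X then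
          (Nat.gcd b c : ℝ) * nu M b * nu M c * (f b * f' c) else 0) ≤ C * X ^ (2 * κ - 1) *
          ((∑ b ∈ M.divisors, nu M b * f b) ^ κ * (∑ b ∈ M.divisors, nu M b * f' b) ^ κ) := by
  obtain ⟨C1, hC1, H1⟩ := hvw_En hκ hκ1
  have hη : 0 < 2 * κ - 1 := by linarith
  refine ⟨gC (2 * κ - 1) * C1, mul_pos (gC_pos hη) hC1, ?_⟩
  intro M X f f' hM hX h1 h2 h3 h4
  set A : ℝ := (∑ b ∈ M.divisors, nu M b * f b) ^ κ * (∑ b ∈ M.divisors, nu M b * f' b) ^ κ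
    with hA
  have hA0 : 0 ≤ A := mul_nonneg (Real.rpow_nonneg (mass_nonneg h1) _)
    (Real.rpow_nonneg (mass_nonneg h3) _)
  have hF : ∀ b c, 0 ≤ f b * f' c := fun b c => mul_nonneg (h1 b) (h3 c)
  classical
  set T : Finset ℕ := (range (M + 1)).filter (fun k => (2 : ℝ) ^ k < X) with hT
  rw [sum_gcd_split]
  calc _ ≤ ∑ k ∈ T, En M ((2 : ℝ) ^ k) (fun b c => f b * f' c) := by
        rw [hT, Finset.sum_filter]
        refine Finset.sum_le_sum fun k _ => ?_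
        split_ifs with hk
        · unfold En
          refine Finset.sum_le_sum fun b _ => Finset.sum_le_sum fun c _ => ?_
          split_ifs
          · exact le_rfl
          · exact mul_nonneg (mul_nonneg (mul_nonneg (Nat.cast_nonneg _) (nu_nonneg _ _))
              (nu_nonneg _ _)) (hF b c)
          · exact le_rfl
        · refine Finset.sum_nonpos fun b _ => Finset.sum_nonpos fun c _ => ?_
          split_ifs with h5 h6
          · exact absurd (h5.1.trans_lt h6) hk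
          · exact le_rfl
          · exact le_rfl
    _ = ∑ k ∈ T.map Nat.castEmbedding,
        En M ((2 : ℝ) ^ (k : ℤ).toNat) (fun b c => f b * f' c) := by
        rw [Finset.sum_map]
        simp
    _ ≤ gC (2 * κ - 1) * ((C1 * A) * (2 : ℝ) ^ ((2 * κ - 1) * Real.logb 2 X)) := by
        refine sum_le_left hη (mul_nonneg hC1.le hA0) _ ?_ _ ?_
        · intro k hk
          rw [Finset.mem_map] at hk
          obtain ⟨j, hj, rfl⟩ := hk
          have hj2 := (Finset.mem_filter.1 hj).2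
          rw [Real.le_logb_iff_rpow_le (by norm_num) hX]
          simp only [Nat.castEmbedding_apply, Int.cast_natCast, Real.rpow_natCast]
          exact hj2.le
        · intro k hk
          rw [Finset.mem_map] at hk
          obtain ⟨j, hj, rfl⟩ := hk
          simp only [Nat.castEmbedding_apply, Int.toNat_natCast, Int.cast_natCast]
          have := H1 M ((2 : ℝ) ^ j) f f' hM (by positivity) h1 h2 h3 h4
          refine this.trans (le_of_eq ?_)
          rw [← hA, ← Real.rpow_natCast, ← Real.rpow_mul (by norm_num), mul_comm (j : ℝ)]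
          ring
    _ = gC (2 * κ - 1) * C1 * X ^ (2 * κ - 1) * A := by
        rw [mul_comm (2 * κ - 1) (Real.logb 2 X), Real.rpow_mul (by norm_num),
          Real.rpow_logb (by norm_num) (by norm_num) hX]
        ring

/-- all scales above `X`, weight `gcd^(1-θ)`, `θ > η = 2κ-1` -/
theorem hvw_above {κ θ : ℝ} (hκ : 1 / 2 < κ) (hκ1 : κ < 1) (hθ : 2 * κ - 1 < θ) :
    ∃ C : ℝ, 0 < C ∧ ∀ (M : ℕ) (X : ℝ) (f f' : ℕ → ℝ), M ≠ 0 → 0 < X →
      (∀ x, 0 ≤ f x) → (∀ x, f x ≤ 1) → (∀ x, 0 ≤ f' x) → (∀ x, f' x ≤ 1) →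
      ∑ b ∈ M.divisors, ∑ c ∈ M.divisors,
        (if X ≤ (Nat.gcd b c : ℝ) then
          (Nat.gcd b c : ℝ) ^ (1 - θ) * nu M b * nu M c * (f b * f' c) else 0) ≤
          C * X ^ (-(θ - (2 * κ - 1))) *
          ((∑ b ∈ M.divisors, nu M b * f b) ^ κ * (∑ b ∈ M.divisors, nu M b * f' b) ^ κ) := by
  obtain ⟨C1, hC1, H1⟩ := hvw_En hκ hκ1
  have hη : 0 < 2 * κ - 1 := by linarith
  have hβ : 0 < θ - (2 * κ - 1) := by linarith
  refine ⟨gC (θ - (2 * κ - 1)) * (C1 * (2 : ℝ) ^ (θ - (2 * κ - 1))),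
    mul_pos (gC_pos hβ) (mul_pos hC1 (Real.rpow_pos_of_pos (by norm_num) _)), ?_⟩
  intro M X f f' hM hX h1 h2 h3 h4
  set A : ℝ := (∑ b ∈ M.divisors, nu M b * f b) ^ κ * (∑ b ∈ M.divisors, nu M b * f' b) ^ κ
    with hA
  have hA0 : 0 ≤ A := mul_nonneg (Real.rpow_nonneg (mass_nonneg h1) _)
    (Real.rpow_nonneg (mass_nonneg h3) _)
  have hF : ∀ b c, 0 ≤ f b * f' c := fun b c => mul_nonneg (h1 b) (h3 c)
  have hr : ∀ (k : ℕ) (x : ℝ), ((2 : ℝ) ^ k) ^ x = (2 : ℝ) ^ (x * k) := by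
    intro k x
    rw [← Real.rpow_natCast, ← Real.rpow_mul (by norm_num)]
    congr 1
    ring
  classical
  set T : Finset ℕ := (range (M + 1)).filter (fun k => X < 2 * (2 : ℝ) ^ k) with hT
  rw [sum_gcd_split]
  calc _ ≤ ∑ k ∈ T, (2 : ℝ) ^ (-(θ * k)) * En M ((2 : ℝ) ^ k) (fun b c => f b * f' c) := by
        rw [hT, Finset.sum_filter]
        refine Finset.sum_le_sum fun k _ => ?_
        split_ifs with hk
        · unfold En
          rw [Finset.mul_sum]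
          refine Finset.sum_le_sum fun b _ => ?_
          rw [Finset.mul_sum]
          refine Finset.sum_le_sum fun c _ => ?_
          have h2k : (0 : ℝ) < (2 : ℝ) ^ k := by positivity
          have nn : 0 ≤ (Nat.gcd b c : ℝ) * nu M b * nu M c * (f b * f' c) :=
            mul_nonneg (mul_nonneg (mul_nonneg (Nat.cast_nonneg _) (nu_nonneg _ _))
              (nu_nonneg _ _)) (hF b c)
          split_ifs with h5 h6
          · have hg : (0 : ℝ) < (Nat.gcd b c : ℝ) := h2k.trans_le h5.1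
            have e1 : (Nat.gcd b c : ℝ) ^ (1 - θ) =
                (Nat.gcd b c : ℝ) ^ (-θ) * (Nat.gcd b c : ℝ) := by
              rw [sub_eq_neg_add, Real.rpow_add hg, Real.rpow_one]
            have e2 : (Nat.gcd b c : ℝ) ^ (-θ) ≤ (2 : ℝ) ^ (-(θ * k)) := by
              calc (Nat.gcd b c : ℝ) ^ (-θ) ≤ ((2 : ℝ) ^ k) ^ (-θ) :=
                    Real.rpow_le_rpow_of_nonpos h2k h5.1 (by linarith)
                _ = _ := by rw [hr]; congr 1; ring
            calc _ = (Nat.gcd b c : ℝ) ^ (-θ) *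
                  ((Nat.gcd b c : ℝ) * nu M b * nu M c * (f b * f' c)) := by rw [e1]; ring
              _ ≤ _ := mul_le_mul_of_nonneg_right e2 nn
          · exact mul_nonneg (Real.rpow_pos_of_pos (by norm_num) _).le nn
          · simp
        · refine Finset.sum_nonpos fun b _ => Finset.sum_nonpos fun c _ => ?_
          split_ifs with h5 h6
          · exact absurd (h6.trans_lt h5.2) hk
          · exact le_rfl
          · exact le_rfl
    _ = ∑ k ∈ T.map Nat.castEmbedding, (2 : ℝ) ^ (-(θ * (k : ℤ).toNat)) *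
        En M ((2 : ℝ) ^ (k : ℤ).toNat) (fun b c => f b * f' c) := by
        rw [Finset.sum_map]
        simp
    _ ≤ gC (θ - (2 * κ - 1)) * ((C1 * A) *
        (2 : ℝ) ^ (-((θ - (2 * κ - 1)) * (Real.logb 2 X - 1)))) := by
        refine sum_le_right hβ (mul_nonneg hC1.le hA0) _ ?_ _ ?_
        · intro k hk
          rw [Finset.mem_map] at hk
          obtain ⟨j, hj, rfl⟩ := hk
          have hj2 := (Finset.mem_filter.1 hj).2
          have : Real.logb 2 X ≤ (j : ℝ) + 1 := by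
            rw [Real.logb_le_iff_le_rpow (by norm_num) hX, Real.rpow_add (by norm_num),
              Real.rpow_one, Real.rpow_natCast]
            linarith
          simp only [Nat.castEmbedding_apply, Int.cast_natCast]
          linarith
        · intro k hk
          rw [Finset.mem_map] at hk
          obtain ⟨j, hj, rfl⟩ := hk
          simp only [Nat.castEmbedding_apply, Int.toNat_natCast, Int.cast_natCast]
          have h5 := H1 M ((2 : ℝ) ^ j) f f' hM (by positivity) h1 h2 h3 h4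
          rw [← hA, hr] at h5
          calc _ ≤ (2 : ℝ) ^ (-(θ * j)) * (C1 * (2 : ℝ) ^ ((2 * κ - 1) * j) * A) :=
                mul_le_mul_of_nonneg_left h5 (Real.rpow_pos_of_pos (by norm_num) _).le
            _ = C1 * A * ((2 : ℝ) ^ (-(θ * j)) * (2 : ℝ) ^ ((2 * κ - 1) * j)) := by ring
            _ = _ := by
                rw [← Real.rpow_add (by norm_num)]
                congr 2
                ring
    _ = _ := by
        have e : -((θ - (2 * κ - 1)) * (Real.logb 2 X - 1)) =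
            Real.logb 2 X * (-(θ - (2 * κ - 1))) + (θ - (2 * κ - 1)) := by ring
        rw [e, Real.rpow_add (by norm_num), Real.rpow_mul (by norm_num),
          Real.rpow_logb (by norm_num) (by norm_num) hX]
        ring

/-- **level-set form** of HVW: `(∑ ν f^p)^κ` for any `p > 0` with `p κ < 1` -/
theorem hvw_lp {κ p : ℝ} (hκ : 1 / 2 < κ) (hκ1 : κ < 1) (hp : 0 < p) (hpκ : p * κ < 1) :
    ∃ C : ℝ, 0 < C ∧ ∀ (M : ℕ) (X : ℝ) (f f' : ℕ → ℝ), M ≠ 0 → 0 < X →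
      (∀ x, 0 ≤ f x) → (∀ x, f x ≤ 1) → (∀ x, 0 ≤ f' x) → (∀ x, f' x ≤ 1) →
      En M X (fun b c => f b * f' c) ≤ C * X ^ (2 * κ - 1) *
          ((∑ b ∈ M.divisors, nu M b * f b ^ p) ^ κ *
            (∑ b ∈ M.divisors, nu M b * f' b ^ p) ^ κ) := by
  obtain ⟨C1, hC1, H1⟩ := hvw_En hκ hκ1
  set D : ℝ := (2 : ℝ) ^ (p * κ) * gC (1 - p * κ) with hD
  have hD0 : 0 < D := mul_pos (Real.rpow_pos_of_pos (by norm_num) _) (gC_pos (by linarith))
  refine ⟨C1 * (D * D), mul_pos hC1 (mul_pos hD0 hD0), ?_⟩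
  intro M X f f' hM hX h1 h2 h3 h4
  obtain ⟨n, hn⟩ := level_le M.divisors f (fun x _ => h1 x) (fun x _ => h2 x)
  obtain ⟨n', hn'⟩ := level_le M.divisors f' (fun x _ => h3 x) (fun x _ => h4 x)
  have L1 := level_mass M.divisors (nu M) f hp (by linarith : 0 < κ) hpκ
    (fun x _ => nu_nonneg _ _) (fun x _ => h1 x) n
  have L2 := level_mass M.divisors (nu M) f' hp (by linarith : 0 < κ) hpκ
    (fun x _ => nu_nonneg _ _) (fun x _ => h3 x) n'
  set W : ℕ → ℕ → ℝ := fun b c => if X ≤ (Nat.gcd b c : ℝ) ∧ (Nat.gcd b c : ℝ) < 2 * X then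
      (Nat.gcd b c : ℝ) * nu M b * nu M c else 0 with hW
  have hW0 : ∀ b c, 0 ≤ W b c := by
    intro b c
    simp only [hW]
    split_ifs
    · exact mul_nonneg (mul_nonneg (Nat.cast_nonneg _) (nu_nonneg _ _)) (nu_nonneg _ _)
    · exact le_rfl
  have hEn : ∀ F : ℕ → ℕ → ℝ, En M X F = ∑ b ∈ M.divisors, ∑ c ∈ M.divisors, W b c * F b c := by
    intro F
    unfold En
    refine Finset.sum_congr rfl fun b _ => Finset.sum_congr rfl fun c _ => ?_
    simp only [hW]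
    split_ifs
    · ring
    · ring
  have hX1 : 0 ≤ X ^ (2 * κ - 1) := Real.rpow_nonneg hX.le _
  have hmi : ∀ i : ℕ, 0 ≤ (∑ x ∈ M.divisors, nu M x * lev i (f x)) ^ κ := fun i =>
    Real.rpow_nonneg (Finset.sum_nonneg fun x _ => mul_nonneg (nu_nonneg _ _) (lev_nonneg _ _)) _
  have hmi' : ∀ i : ℕ, 0 ≤ (∑ x ∈ M.divisors, nu M x * lev i (f' x)) ^ κ := fun i =>
    Real.rpow_nonneg (Finset.sum_nonneg fun x _ => mul_nonneg (nu_nonneg _ _) (lev_nonneg _ _)) _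
  calc En M X (fun b c => f b * f' c)
      ≤ ∑ b ∈ M.divisors, ∑ c ∈ M.divisors, W b c *
          ((∑ i ∈ range n, (2 : ℝ) ^ (-(i : ℝ)) * lev i (f b)) *
            (∑ j ∈ range n', (2 : ℝ) ^ (-(j : ℝ)) * lev j (f' c))) := by
        rw [hEn]
        refine Finset.sum_le_sum fun b hb => Finset.sum_le_sum fun c hc => ?_
        refine mul_le_mul_of_nonneg_left ?_ (hW0 b c)
        exact mul_le_mul (hn b hb) (hn' c hc) (h3 c)
          (Finset.sum_nonneg fun i _ =>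
            mul_nonneg (Real.rpow_pos_of_pos (by norm_num) _).le (lev_nonneg _ _))
    _ = ∑ i ∈ range n, ∑ j ∈ range n', ((2 : ℝ) ^ (-(i : ℝ)) * (2 : ℝ) ^ (-(j : ℝ))) *
          En M X (fun b c => lev i (f b) * lev j (f' c)) := by
        have e1 : ∀ b ∈ M.divisors, ∀ c ∈ M.divisors, W b c *
            ((∑ i ∈ range n, (2 : ℝ) ^ (-(i : ℝ)) * lev i (f b)) *
              (∑ j ∈ range n', (2 : ℝ) ^ (-(j : ℝ)) * lev j (f' c))) =
            ∑ i ∈ range n, ∑ j ∈ range n', ((2 : ℝ) ^ (-(i : ℝ)) * (2 : ℝ) ^ (-(j : ℝ))) *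
              (W b c * (lev i (f b) * lev j (f' c))) := by
          intro b _ c _
          rw [Finset.sum_mul_sum, Finset.mul_sum]
          refine Finset.sum_congr rfl fun i _ => ?_
          rw [Finset.mul_sum]
          refine Finset.sum_congr rfl fun j _ => ?_
          ring
        rw [Finset.sum_congr rfl fun b hb => Finset.sum_congr rfl fun c hc => e1 b hb c hc]
        have e2 : ∀ b ∈ M.divisors, ∑ c ∈ M.divisors, ∑ i ∈ range n, ∑ j ∈ range n',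
              ((2 : ℝ) ^ (-(i : ℝ)) * (2 : ℝ) ^ (-(j : ℝ))) *
              (W b c * (lev i (f b) * lev j (f' c))) =
            ∑ i ∈ range n, ∑ j ∈ range n', ∑ c ∈ M.divisors,
              ((2 : ℝ) ^ (-(i : ℝ)) * (2 : ℝ) ^ (-(j : ℝ))) *
              (W b c * (lev i (f b) * lev j (f' c))) := by
          intro b _
          rw [Finset.sum_comm]
          refine Finset.sum_congr rfl fun i _ => ?_
          rw [Finset.sum_comm]
        rw [Finset.sum_congr rfl e2, Finset.sum_comm]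
        refine Finset.sum_congr rfl fun i _ => ?_
        rw [Finset.sum_comm]
        refine Finset.sum_congr rfl fun j _ => ?_
        rw [hEn, Finset.mul_sum]
        refine Finset.sum_congr rfl fun b _ => ?_
        rw [Finset.mul_sum]
    _ ≤ ∑ i ∈ range n, ∑ j ∈ range n', ((2 : ℝ) ^ (-(i : ℝ)) * (2 : ℝ) ^ (-(j : ℝ))) *
          (C1 * X ^ (2 * κ - 1) * ((∑ x ∈ M.divisors, nu M x * lev i (f x)) ^ κ *
            (∑ x ∈ M.divisors, nu M x * lev j (f' x)) ^ κ)) := by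
        refine Finset.sum_le_sum fun i _ => Finset.sum_le_sum fun j _ => ?_
        refine mul_le_mul_of_nonneg_left ?_ (mul_nonneg (Real.rpow_pos_of_pos (by norm_num) _).le
          (Real.rpow_pos_of_pos (by norm_num) _).le)
        exact H1 M X (fun b => lev i (f b)) (fun c => lev j (f' c)) hM hX
          (fun x => lev_nonneg _ _) (fun x => lev_le_one _ _) (fun x => lev_nonneg _ _)
          (fun x => lev_le_one _ _)
    _ = C1 * X ^ (2 * κ - 1) *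
          ((∑ i ∈ range n, (2 : ℝ) ^ (-(i : ℝ)) * (∑ x ∈ M.divisors, nu M x * lev i (f x)) ^ κ) *
          (∑ j ∈ range n', (2 : ℝ) ^ (-(j : ℝ)) *
            (∑ x ∈ M.divisors, nu M x * lev j (f' x)) ^ κ)) := by
        rw [Finset.sum_mul_sum, Finset.mul_sum]
        refine Finset.sum_congr rfl fun i _ => ?_
        rw [Finset.mul_sum]
        refine Finset.sum_congr rfl fun j _ => ?_
        ring
    _ ≤ C1 * X ^ (2 * κ - 1) * ((D * (∑ b ∈ M.divisors, nu M b * f b ^ p) ^ κ) *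
          (D * (∑ b ∈ M.divisors, nu M b * f' b ^ p) ^ κ)) := by
        refine mul_le_mul_of_nonneg_left ?_ (mul_nonneg hC1.le hX1)
        refine mul_le_mul L1 L2 ?_ ?_
        · exact Finset.sum_nonneg fun i _ =>
            mul_nonneg (Real.rpow_pos_of_pos (by norm_num) _).le (hmi' i)
        · refine mul_nonneg hD0.le (Real.rpow_nonneg ?_ _)
          exact Finset.sum_nonneg fun x _ => mul_nonneg (nu_nonneg _ _) (Real.rpow_nonneg (h1 x) _)
    _ = _ := by ring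

end Crest.Agent.R4C.Dyadx281
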