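import Crest.Agent.R4C.BadTot_14
import Crest.Agent.R4C.FLSh_326
import Crest.Agent.R4C.Dyad_281

/-!
# Row 4: class BAD with the factor `B1` (helper14)

`F : FL M` of `FLSh_326.flam_full`; `wB F x b = ∏_{p > x off-centre in b} (1-1/p)⁻¹`.

* `hvw_w` : the bound of `Dyad_281.hvw_below` for weights in `{0} ∪ [1, ∞)` with fourth moments;
* **`badW`** : `L Σ_{b,c ∈ B, gcd < T L, not good at x} gcd ν ν w_x(b) w_x(c)
  ≤ C T^η (x+1)^(-c') (L ν(B))^(1+η)`;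
* **`badW_final`** : all certificates `σ`, weights `≤ K (σ+1)^k 2^(βσ) w_{cut σ}(b) w_{cut σ}(c)`.
-/

set_option autoImplicit false

open Finset

namespace Crest.Agent.R4C.BadWx14

open Crest.Agent.R4C.Basex935 Crest.Agent.R4C.FLDefx935 Crest.Agent.R4C.FLShx326
  Crest.Agent.R4C.BoostCx972 Crest.Agent.R4C.BadTotx14

/-! ### weighted form of the two-sided bound -/

/-- dyadic level of a weight -/
noncomputable def lev (w : ℕ → ℝ) (j b : ℕ) : ℝ :=
  if (2 : ℝ) ^ j ≤ w b ∧ w b < 2 ^ (j + 1) then 1 else 0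

lemma lev_nonneg (w : ℕ → ℝ) (j b : ℕ) : 0 ≤ lev w j b := by
  unfold lev; split_ifs <;> norm_num

lemma lev_le_one (w : ℕ → ℝ) (j b : ℕ) : lev w j b ≤ 1 := by
  unfold lev; split_ifs <;> norm_num

/-- a weight in `{0} ∪ [1, 2^N)` is dominated by its levels -/
lemma le_lev {w : ℕ → ℝ} {b N : ℕ} (h : w b = 0 ∨ 1 ≤ w b) (hN : w b < 2 ^ N) :
    w b ≤ ∑ j ∈ range N, 2 ^ (j + 1) * lev w j b := by
  have hnn : ∀ j ∈ range N, (0 : ℝ) ≤ 2 ^ (j + 1) * lev w j b := fun j _ =>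
    mul_nonneg (by positivity) (lev_nonneg w j b)
  rcases h with h | h
  · rw [h]
    exact Finset.sum_nonneg hnn
  · have hex : ∃ j : ℕ, w b < 2 ^ (j + 1) := ⟨N, hN.trans_le (pow_le_pow_right₀ (by norm_num)
      (Nat.le_succ N))⟩
    classical
    set j := Nat.find hex with hj
    have h1 : w b < 2 ^ (j + 1) := Nat.find_spec hex
    have h2 : (2 : ℝ) ^ j ≤ w b := by
      rcases Nat.eq_zero_or_pos j with h0 | h0
      · rw [h0, pow_zero]; exact h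
      · have h3 := Nat.find_min hex (m := j - 1) (by omega)
        push Not at h3
        rwa [show j - 1 + 1 = j by omega] at h3
    have h3 : j < N := by
      by_contra hcon
      push Not at hcon
      have : (2 : ℝ) ^ N ≤ 2 ^ j := pow_le_pow_right₀ (by norm_num) hcon
      linarith
    have h4 := Finset.single_le_sum hnn (mem_range.2 h3)
    have h5 : lev w j b = 1 := by unfold lev; rw [if_pos ⟨h2, h1⟩]
    simp only [h5, mul_one] at h4
    linarith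

lemma lev_mass {M : ℕ} {w : ℕ → ℝ} (hw : ∀ b, 0 ≤ w b) (j : ℕ) :
    ∑ b ∈ M.divisors, nu M b * lev w j b ≤
      ((2 : ℝ) ^ j)⁻¹ ^ 4 * ∑ b ∈ M.divisors, nu M b * w b ^ 4 := by
  rw [Finset.mul_sum]
  refine Finset.sum_le_sum fun b _ => ?_
  have h1 : lev w j b ≤ ((2 : ℝ) ^ j)⁻¹ ^ 4 * w b ^ 4 := by
    rw [← mul_pow]
    unfold lev
    split_ifs with h
    · refine one_le_pow₀ ?_
      rw [inv_mul_eq_div, le_div_iff₀ (by positivity)]
      linarith [h.1]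
    · have := hw b
      positivity
  calc nu M b * lev w j b ≤ nu M b * (((2 : ℝ) ^ j)⁻¹ ^ 4 * w b ^ 4) :=
        mul_le_mul_of_nonneg_left h1 (nu_nonneg M b)
    _ = _ := by ring

/-- **weighted two-sided bound**, fourth moments -/
theorem hvw_w {κ : ℝ} (hκ : 1 / 2 < κ) (hκ1 : κ < 1) :
    ∃ C : ℝ, 0 < C ∧ ∀ (M : ℕ) (X : ℝ) (f f' : ℕ → ℝ), M ≠ 0 → 0 < X →
      (∀ b, f b = 0 ∨ 1 ≤ f b) → (∀ b, f' b = 0 ∨ 1 ≤ f' b) →
      ∑ b ∈ M.divisors, ∑ c ∈ M.divisors,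
        (if (Nat.gcd b c : ℝ) < X then
          (Nat.gcd b c : ℝ) * nu M b * nu M c * (f b * f' c) else 0) ≤ C * X ^ (2 * κ - 1) *
          ((∑ b ∈ M.divisors, nu M b * f b ^ 4) ^ κ * (∑ b ∈ M.divisors, nu M b * f' b ^ 4) ^ κ) := by
  classical
  obtain ⟨C1, hC1, H⟩ := Dyadx281.hvw_below hκ hκ1
  refine ⟨C1 * (4 * 4), by positivity, ?_⟩
  intro M X f f' hM hX hf hf'
  have hf0 : ∀ b, 0 ≤ f b := fun b => by rcases hf b with h | h <;> linarith
  have hf0' : ∀ b, 0 ≤ f' b := fun b => by rcases hf' b with h | h <;> linarith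
  set S := ∑ b ∈ M.divisors, nu M b * f b ^ 4 with hS
  set S' := ∑ b ∈ M.divisors, nu M b * f' b ^ 4 with hS'
  have hS0 : 0 ≤ S := Finset.sum_nonneg fun b _ => mul_nonneg (nu_nonneg M b) (by positivity)
  have hS0' : 0 ≤ S' := Finset.sum_nonneg fun b _ => mul_nonneg (nu_nonneg M b) (by positivity)
  -- a common number of levels
  obtain ⟨N, hN⟩ : ∃ N : ℕ, ∀ b ∈ M.divisors, f b < 2 ^ N ∧ f' b < 2 ^ N := by
    obtain ⟨N, hN⟩ := pow_unbounded_of_one_lt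
      (∑ b ∈ M.divisors, (f b + f' b)) (by norm_num : (1 : ℝ) < 2)
    refine ⟨N, fun b hb => ?_⟩
    have h1 : f b + f' b ≤ ∑ b ∈ M.divisors, (f b + f' b) :=
      Finset.single_le_sum (f := fun b => f b + f' b)
        (fun b _ => add_nonneg (hf0 b) (hf0' b)) hb
    have := hf0 b
    have := hf0' b
    constructor <;> linarith
  set G : ℕ → ℕ → ℝ := fun b c => if (Nat.gcd b c : ℝ) < X then
    (Nat.gcd b c : ℝ) * nu M b * nu M c else 0 with hG
  have hG0 : ∀ b c, 0 ≤ G b c := fun b c => by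
    simp only [hG]
    split_ifs
    · exact mul_nonneg (mul_nonneg (Nat.cast_nonneg _) (nu_nonneg _ _)) (nu_nonneg _ _)
    · exact le_rfl
  have hGe : ∀ (u v : ℕ → ℝ) (b c : ℕ), (if (Nat.gcd b c : ℝ) < X then
      (Nat.gcd b c : ℝ) * nu M b * nu M c * (u b * v c) else 0) = G b c * (u b * v c) := by
    intro u v b c
    simp only [hG]
    split_ifs <;> ring
  -- one pair of levels
  have hone : ∀ j k : ℕ, ∑ b ∈ M.divisors, ∑ c ∈ M.divisors, G b c * (lev f j b * lev f' k c) ≤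
      C1 * X ^ (2 * κ - 1) * ((((2 : ℝ) ^ j)⁻¹ ^ 4 * S) ^ κ * (((2 : ℝ) ^ k)⁻¹ ^ 4 * S') ^ κ) := by
    intro j k
    have h1 := H M X (lev f j) (lev f' k) hM hX (lev_nonneg f j) (lev_le_one f j)
      (lev_nonneg f' k) (lev_le_one f' k)
    simp_rw [hGe] at h1
    refine h1.trans ?_
    refine mul_le_mul_of_nonneg_left ?_ (by positivity)
    have m1 : 0 ≤ ∑ b ∈ M.divisors, nu M b * lev f j b :=
      Finset.sum_nonneg fun b _ => mul_nonneg (nu_nonneg M b) (lev_nonneg _ _ _)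
    have m2 : 0 ≤ ∑ b ∈ M.divisors, nu M b * lev f' k b :=
      Finset.sum_nonneg fun b _ => mul_nonneg (nu_nonneg M b) (lev_nonneg _ _ _)
    exact mul_le_mul (Real.rpow_le_rpow m1 (lev_mass hf0 j) (by linarith))
      (Real.rpow_le_rpow m2 (lev_mass hf0' k) (by linarith)) (Real.rpow_nonneg m2 _)
      (Real.rpow_nonneg (by positivity) _)
  -- the geometric factor
  have hgeo : ∀ (j : ℕ) {s : ℝ}, 0 ≤ s → 2 ^ (j + 1) * (((2 : ℝ) ^ j)⁻¹ ^ 4 * s) ^ κ ≤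
      (2 * (1 / 2) ^ j) * s ^ κ := by
    intro j s hs
    rw [Real.mul_rpow (by positivity) hs, ← mul_assoc]
    refine mul_le_mul_of_nonneg_right ?_ (Real.rpow_nonneg hs _)
    have h2 : (((2 : ℝ) ^ j)⁻¹ ^ 4) ^ κ ≤ ((2 : ℝ) ^ j)⁻¹ ^ 2 := by
      have h3 : (((2 : ℝ) ^ j)⁻¹ ^ 4) ^ κ ≤ (((2 : ℝ) ^ j)⁻¹ ^ 4) ^ ((1 : ℝ) / 2) := by
        refine Real.rpow_le_rpow_of_exponent_ge (by positivity) ?_ hκ.le
        refine pow_le_one₀ (by positivity) ?_
        exact inv_le_one_of_one_le₀ (one_le_pow₀ (by norm_num))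
      refine h3.trans (le_of_eq ?_)
      have e : ((2 : ℝ) ^ j)⁻¹ ^ 4 = (((2 : ℝ) ^ j)⁻¹ ^ 2) ^ 2 := by ring
      rw [e, ← Real.sqrt_eq_rpow, Real.sqrt_sq (by positivity)]
    calc (2 : ℝ) ^ (j + 1) * (((2 : ℝ) ^ j)⁻¹ ^ 4) ^ κ ≤ 2 ^ (j + 1) * ((2 : ℝ) ^ j)⁻¹ ^ 2 :=
          mul_le_mul_of_nonneg_left h2 (by positivity)
      _ = 2 * (1 / 2) ^ j := by
          have h0 : (2 : ℝ) ^ j ≠ 0 := by positivity
          have e : ((1 : ℝ) / 2) ^ j = ((2 : ℝ) ^ j)⁻¹ := by rw [one_div, inv_pow]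
          rw [e, pow_succ]
          field_simp
  have hg2 : ∑ j ∈ range N, (2 : ℝ) * (1 / 2) ^ j ≤ 4 := by
    rw [← Finset.mul_sum]
    have := geo_sum (r := 1 / 2) (by norm_num) (by norm_num) N
    norm_num at this ⊢
    linarith
  calc ∑ b ∈ M.divisors, ∑ c ∈ M.divisors, (if (Nat.gcd b c : ℝ) < X then
        (Nat.gcd b c : ℝ) * nu M b * nu M c * (f b * f' c) else 0)
      = ∑ b ∈ M.divisors, ∑ c ∈ M.divisors, G b c * (f b * f' c) := by simp_rw [hGe]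
    _ ≤ ∑ b ∈ M.divisors, ∑ c ∈ M.divisors, G b c *
        ((∑ j ∈ range N, 2 ^ (j + 1) * lev f j b) * ∑ k ∈ range N, 2 ^ (k + 1) * lev f' k c) := by
        refine Finset.sum_le_sum fun b hb => Finset.sum_le_sum fun c hc => ?_
        refine mul_le_mul_of_nonneg_left ?_ (hG0 b c)
        exact mul_le_mul (le_lev (hf b) (hN b hb).1) (le_lev (hf' c) (hN c hc).2) (hf0' c)
          ((hf0 b).trans (le_lev (hf b) (hN b hb).1))
    _ = ∑ j ∈ range N, ∑ k ∈ range N, (2 ^ (j + 1) * 2 ^ (k + 1)) *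
        ∑ b ∈ M.divisors, ∑ c ∈ M.divisors, G b c * (lev f j b * lev f' k c) := by
        have e1 : ∀ b c, G b c *
            ((∑ j ∈ range N, 2 ^ (j + 1) * lev f j b) * ∑ k ∈ range N, 2 ^ (k + 1) * lev f' k c) =
            ∑ j ∈ range N, ∑ k ∈ range N, (2 ^ (j + 1) * 2 ^ (k + 1)) *
              (G b c * (lev f j b * lev f' k c)) := by
          intro b c
          rw [Finset.sum_mul_sum, Finset.mul_sum]
          refine Finset.sum_congr rfl fun j _ => ?_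
          rw [Finset.mul_sum]
          refine Finset.sum_congr rfl fun k _ => ?_
          ring
        simp_rw [e1]
        calc ∑ b ∈ M.divisors, ∑ c ∈ M.divisors, ∑ j ∈ range N, ∑ k ∈ range N,
              (2 ^ (j + 1) * 2 ^ (k + 1)) * (G b c * (lev f j b * lev f' k c))
            = ∑ b ∈ M.divisors, ∑ j ∈ range N, ∑ c ∈ M.divisors, ∑ k ∈ range N,
              (2 ^ (j + 1) * 2 ^ (k + 1)) * (G b c * (lev f j b * lev f' k c)) :=
              Finset.sum_congr rfl fun b _ => Finset.sum_comm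
          _ = ∑ b ∈ M.divisors, ∑ j ∈ range N, ∑ k ∈ range N, ∑ c ∈ M.divisors,
              (2 ^ (j + 1) * 2 ^ (k + 1)) * (G b c * (lev f j b * lev f' k c)) :=
              Finset.sum_congr rfl fun b _ => Finset.sum_congr rfl fun j _ => Finset.sum_comm
          _ = ∑ j ∈ range N, ∑ b ∈ M.divisors, ∑ k ∈ range N, ∑ c ∈ M.divisors,
              (2 ^ (j + 1) * 2 ^ (k + 1)) * (G b c * (lev f j b * lev f' k c)) := Finset.sum_comm
          _ = ∑ j ∈ range N, ∑ k ∈ range N, ∑ b ∈ M.divisors, ∑ c ∈ M.divisors,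
              (2 ^ (j + 1) * 2 ^ (k + 1)) * (G b c * (lev f j b * lev f' k c)) :=
              Finset.sum_congr rfl fun j _ => Finset.sum_comm
          _ = _ := by simp_rw [← Finset.mul_sum]
    _ ≤ ∑ j ∈ range N, ∑ k ∈ range N, (2 ^ (j + 1) * 2 ^ (k + 1)) *
        (C1 * X ^ (2 * κ - 1) * ((((2 : ℝ) ^ j)⁻¹ ^ 4 * S) ^ κ * (((2 : ℝ) ^ k)⁻¹ ^ 4 * S') ^ κ)) :=
        Finset.sum_le_sum fun j _ => Finset.sum_le_sum fun k _ =>
          mul_le_mul_of_nonneg_left (hone j k) (by positivity)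
    _ ≤ ∑ j ∈ range N, ∑ k ∈ range N, (C1 * X ^ (2 * κ - 1)) *
        (((2 * (1 / 2) ^ j) * S ^ κ) * ((2 * (1 / 2) ^ k) * S' ^ κ)) := by
        refine Finset.sum_le_sum fun j _ => Finset.sum_le_sum fun k _ => ?_
        have h1 := hgeo j hS0
        have h2 := hgeo k hS0'
        calc (2 ^ (j + 1) * 2 ^ (k + 1)) * (C1 * X ^ (2 * κ - 1) *
              ((((2 : ℝ) ^ j)⁻¹ ^ 4 * S) ^ κ * (((2 : ℝ) ^ k)⁻¹ ^ 4 * S') ^ κ))
            = (C1 * X ^ (2 * κ - 1)) * ((2 ^ (j + 1) * (((2 : ℝ) ^ j)⁻¹ ^ 4 * S) ^ κ) *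
              (2 ^ (k + 1) * (((2 : ℝ) ^ k)⁻¹ ^ 4 * S') ^ κ)) := by ring
          _ ≤ _ := by
            refine mul_le_mul_of_nonneg_left ?_ (by positivity)
            exact mul_le_mul h1 h2 (by positivity) (by positivity)
    _ = (C1 * X ^ (2 * κ - 1)) * (((∑ j ∈ range N, (2 : ℝ) * (1 / 2) ^ j) * S ^ κ) *
        ((∑ k ∈ range N, (2 : ℝ) * (1 / 2) ^ k) * S' ^ κ)) := by
        have e1 : (∑ j ∈ range N, (2 : ℝ) * (1 / 2) ^ j) * S ^ κ =
            ∑ j ∈ range N, (2 : ℝ) * (1 / 2) ^ j * S ^ κ := Finset.sum_mul _ _ _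
        have e2 : (∑ j ∈ range N, (2 : ℝ) * (1 / 2) ^ j) * S' ^ κ =
            ∑ j ∈ range N, (2 : ℝ) * (1 / 2) ^ j * S' ^ κ := Finset.sum_mul _ _ _
        rw [e1, e2, Finset.sum_mul_sum, Finset.mul_sum]
        refine Finset.sum_congr rfl fun j _ => ?_
        rw [Finset.mul_sum]
    _ ≤ (C1 * X ^ (2 * κ - 1)) * ((4 * S ^ κ) * (4 * S' ^ κ)) := by
        refine mul_le_mul_of_nonneg_left ?_ (by positivity)
        have h1 : 0 ≤ ∑ j ∈ range N, (2 : ℝ) * (1 / 2) ^ j :=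
          Finset.sum_nonneg fun j _ => by positivity
        exact mul_le_mul (mul_le_mul_of_nonneg_right hg2 (Real.rpow_nonneg hS0 _))
          (mul_le_mul_of_nonneg_right hg2 (Real.rpow_nonneg hS0' _)) (by positivity)
          (by positivity)
    _ = _ := by ring

/-! ### the factor `B1` above the cut -/

/-- `∏_{p > x off-centre in b} (1-1/p)⁻¹` -/
noncomputable def wB {M : ℕ} (F : FL M) (x b : ℕ) : ℝ := ∏ p ∈ W F x b, pf p

lemma one_le_wB {M : ℕ} (F : FL M) (x b : ℕ) : 1 ≤ wB F x b :=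
  one_le_prod_pf fun _ hp => W_prime hp

lemma wB_anti {M : ℕ} {F : FL M} {x y : ℕ} (h : x ≤ y) (b : ℕ) : wB F y b ≤ wB F x b := by
  classical
  refine prod_pf_mono (fun p hp => ?_) fun p hp => W_prime hp
  unfold W at hp ⊢
  rw [Finset.mem_filter] at hp ⊢
  exact ⟨hp.1, h.trans_lt hp.2.1, hp.2.2⟩

open Classical in
/-- energy of the bad pairs with `gcd < T L`, with the weights `wB` -/
noncomputable def badWE {M : ℕ} (F : FL M) (B : Finset ℕ) (L T : ℝ) (x : ℕ) : ℝ :=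
  L * ∑ b ∈ B, ∑ c ∈ B, if (Nat.gcd b c : ℝ) < T * L ∧ ¬ F.good x b c then
    (Nat.gcd b c : ℝ) * nu M b * nu M c * (wB F x b * wB F x c) else 0

/-- **class BAD with `B1`, one cut** -/
theorem badW {η c C0 A : ℝ} (hη : 0 < η) (hη1 : η < 1) (hC0 : 0 ≤ C0) (hA : 0 ≤ A) :
    ∃ C : ℝ, 0 ≤ C ∧ ∀ (M : ℕ) (F : FL M) (B : Finset ℕ) (L s : ℝ), 0 < M → B ⊆ M.divisors →
      0 < L → 3 / 4 ≤ s → Shares F B A s →
      (∀ (t : ℝ) (x : ℕ), 0 < t → badEn F B L t x ≤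
        C0 * t ^ η * ((x : ℝ) + 1) ^ (-c) * (L * ∑ b ∈ B, nu M b) ^ (1 + η)) →
      ∀ (T : ℝ) (x : ℕ), 0 < T → badWE F B L T x ≤
        C * T ^ η * ((x : ℝ) + 1) ^ (-(min c ((1 + η) / 8))) *
          (L * ∑ b ∈ B, nu M b) ^ (1 + η) := by
  classical
  have hκ : 1 / 2 < (1 + η) / 2 := by linarith
  have hκ1 : (1 + η) / 2 < 1 := by linarith
  obtain ⟨C1, hC1, H⟩ := hvw_w hκ hκ1
  obtain ⟨D, hD, hdef⟩ := def_bound 4
  have h2η : (1 : ℝ) < 2 ^ η := Real.one_lt_rpow (by norm_num) hη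
  have h2η0 : (0 : ℝ) < 2 ^ η - 1 := by linarith
  set κ := (1 + η) / 2 with hκd
  have eκ : 2 * κ - 1 = η := by rw [hκd]; ring
  have eκ2 : κ + κ = 1 + η := by rw [hκd]; ring
  have hDA : 0 ≤ D * A := mul_nonneg hD hA
  set Q : ℝ := (2 * (D * A)) ^ κ * (1 + D * A) ^ κ with hQ
  have hQ0 : 0 ≤ Q := by positivity
  refine ⟨4 * (C0 / (2 ^ η - 1)) + 2 * (C1 * Q), by positivity, ?_⟩
  intro M F B L s hM hB hL hs hSh hF T x hT
  set m := ∑ b ∈ B, nu M b with hm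
  have hm0 : 0 ≤ m := Finset.sum_nonneg fun b _ => nu_nonneg M b
  have hx1 : (1 : ℝ) ≤ (x : ℝ) + 1 := by
    have : (0 : ℝ) ≤ x := Nat.cast_nonneg x
    linarith
  have hx0 : (0 : ℝ) < (x : ℝ) + 1 := by linarith
  have hdef4 : ∑ b ∈ B, nu M b * wB F x b ^ 4 ≤
      (1 + D * A * ((x : ℝ) + 1) ^ (-(1 / 4) : ℝ)) * m := by
    refine le_trans (le_of_eq ?_) (hdef M F B A s hSh hA hs x)
    refine Finset.sum_congr rfl fun b _ => ?_
    unfold wB
    rw [Finset.prod_pow]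
  -- the two weights
  set u : ℕ → ℝ := fun b => if b ∈ B then wB F x b else 0 with hu
  set v : ℕ → ℝ := fun b => if b ∈ B ∧ 2 ≤ wB F x b then wB F x b else 0 with hv
  have hu1 : ∀ b, u b = 0 ∨ 1 ≤ u b := fun b => by
    simp only [hu]; split_ifs
    · exact Or.inr (one_le_wB F x b)
    · exact Or.inl rfl
  have hv1 : ∀ b, v b = 0 ∨ 1 ≤ v b := fun b => by
    simp only [hv]; split_ifs
    · exact Or.inr (one_le_wB F x b)
    · exact Or.inl rfl
  have hu0 : ∀ b, 0 ≤ u b := fun b => by rcases hu1 b with h | h <;> linarith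
  have hv0 : ∀ b, 0 ≤ v b := fun b => by rcases hv1 b with h | h <;> linarith
  have hsumB : ∀ g : ℕ → ℝ, (∀ b, b ∉ B → g b = 0) →
      ∑ b ∈ M.divisors, g b = ∑ b ∈ B, g b := fun g hg =>
    (Finset.sum_subset hB fun b _ hb => hg b hb).symm
  have hqx : ((x : ℝ) + 1) ^ (-(1 / 4) : ℝ) ≤ 1 :=
    Real.rpow_le_one_of_one_le_of_nonpos hx1 (by norm_num)
  have hqx0 : 0 ≤ ((x : ℝ) + 1) ^ (-(1 / 4) : ℝ) := Real.rpow_nonneg hx0.le _
  have mu4 : ∑ b ∈ M.divisors, nu M b * u b ^ 4 ≤ (1 + D * A) * m := by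
    rw [hsumB _ fun b hb => by simp only [hu]; rw [if_neg hb]; simp]
    have e : ∑ b ∈ B, nu M b * u b ^ 4 = ∑ b ∈ B, nu M b * wB F x b ^ 4 :=
      Finset.sum_congr rfl fun b hb => by simp only [hu]; rw [if_pos hb]
    rw [e]
    refine hdef4.trans (mul_le_mul_of_nonneg_right ?_ hm0)
    have : D * A * ((x : ℝ) + 1) ^ (-(1 / 4) : ℝ) ≤ D * A * 1 := mul_le_mul_of_nonneg_left hqx hDA
    linarith
  have mv4 : ∑ b ∈ M.divisors, nu M b * v b ^ 4 ≤
      2 * (D * A) * ((x : ℝ) + 1) ^ (-(1 / 4) : ℝ) * m := by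
    rw [hsumB _ fun b hb => by simp only [hv]; rw [if_neg fun h => hb h.1]; simp]
    have h1 : ∀ b ∈ B, nu M b * v b ^ 4 ≤ 2 * (nu M b * wB F x b ^ 4 - nu M b) := by
      intro b hb
      have hw := one_le_wB F x b
      have hn := nu_nonneg M b
      simp only [hv]
      split_ifs with h
      · have h2 : (16 : ℝ) ≤ wB F x b ^ 4 := by
          calc (16 : ℝ) = 2 ^ 4 := by norm_num
            _ ≤ _ := pow_le_pow_left₀ (by norm_num) h.2 4
        nlinarith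
      · have h2 : (1 : ℝ) ≤ wB F x b ^ 4 := one_le_pow₀ hw
        have : nu M b ≤ nu M b * wB F x b ^ 4 := le_mul_of_one_le_right hn h2
        simp
        linarith
    refine (Finset.sum_le_sum h1).trans ?_
    rw [← Finset.mul_sum, Finset.sum_sub_distrib]
    have : ∑ b ∈ B, nu M b * wB F x b ^ 4 - m ≤ D * A * ((x : ℝ) + 1) ^ (-(1 / 4) : ℝ) * m := by
      linarith
    calc 2 * (∑ b ∈ B, nu M b * wB F x b ^ 4 - m)
        ≤ 2 * (D * A * ((x : ℝ) + 1) ^ (-(1 / 4) : ℝ) * m) := by linarith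
      _ = _ := by ring
  have hu4 : 0 ≤ ∑ b ∈ M.divisors, nu M b * u b ^ 4 :=
    Finset.sum_nonneg fun b _ => mul_nonneg (nu_nonneg M b) (pow_nonneg (hu0 b) 4)
  have hv4 : 0 ≤ ∑ b ∈ M.divisors, nu M b * v b ^ 4 :=
    Finset.sum_nonneg fun b _ => mul_nonneg (nu_nonneg M b) (pow_nonneg (hv0 b) 4)
  have hκ0 : 0 ≤ κ := by linarith
  -- the product of the two moments
  have hprod : (∑ b ∈ M.divisors, nu M b * v b ^ 4) ^ κ *
      (∑ b ∈ M.divisors, nu M b * u b ^ 4) ^ κ ≤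
      Q * ((x : ℝ) + 1) ^ (-((1 + η) / 8)) * m ^ (1 + η) := by
    have h1 := Real.rpow_le_rpow hv4 mv4 hκ0
    have h2 := Real.rpow_le_rpow hu4 mu4 hκ0
    refine (mul_le_mul h1 h2 (Real.rpow_nonneg hu4 _) (Real.rpow_nonneg (by positivity) _)).trans
      (le_of_eq ?_)
    rw [Real.mul_rpow (by positivity) hm0, Real.mul_rpow (by positivity) hqx0,
      Real.mul_rpow (by positivity) hm0, ← Real.rpow_mul hx0.le]
    have e1 : -(1 / 4 : ℝ) * κ = -((1 + η) / 8) := by rw [hκd]; ring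
    rw [e1, hQ]
    have e2 : m ^ (1 + η) = m ^ κ * m ^ κ := by
      rw [← eκ2]
      exact Real.rpow_add_of_nonneg hm0 hκ0 hκ0
    rw [e2]; ring
  have hTL : 0 < T * L := mul_pos hT hL
  have eTL : (T * L) ^ (2 * κ - 1) = T ^ η * L ^ η := by rw [eκ, Real.mul_rpow hT.le hL.le]
  have hE1 : ∑ b ∈ M.divisors, ∑ c' ∈ M.divisors,
      (if (Nat.gcd b c' : ℝ) < T * L then
        (Nat.gcd b c' : ℝ) * nu M b * nu M c' * (v b * u c') else 0) ≤
      C1 * (T ^ η * L ^ η) * (Q * ((x : ℝ) + 1) ^ (-((1 + η) / 8)) * m ^ (1 + η)) := by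
    have h1 := H M (T * L) v u hM.ne' hTL hv1 hu1
    rw [eTL] at h1
    exact h1.trans (mul_le_mul_of_nonneg_left hprod (by positivity))
  have hE2 : ∑ b ∈ M.divisors, ∑ c' ∈ M.divisors,
      (if (Nat.gcd b c' : ℝ) < T * L then
        (Nat.gcd b c' : ℝ) * nu M b * nu M c' * (u b * v c') else 0) ≤
      C1 * (T ^ η * L ^ η) * (Q * ((x : ℝ) + 1) ^ (-((1 + η) / 8)) * m ^ (1 + η)) := by
    have h1 := H M (T * L) u v hM.ne' hTL hu1 hv1
    rw [eTL] at h1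
    refine h1.trans (mul_le_mul_of_nonneg_left ?_ (by positivity))
    rw [mul_comm]; exact hprod
  have hbad := badAll_le (F := F) hL hη hC0 (Real.rpow_nonneg (mul_nonneg hL.le hm0) (1 + η))
    (fun b hb => Nat.pos_of_mem_divisors (hB hb)) hF hT x
  -- pointwise decomposition
  set G : ℕ → ℕ → ℝ := fun b c' => if (Nat.gcd b c' : ℝ) < T * L then
    (Nat.gcd b c' : ℝ) * nu M b * nu M c' else 0 with hG
  have hG0 : ∀ b c', 0 ≤ G b c' := fun b c' => by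
    simp only [hG]
    split_ifs
    · exact mul_nonneg (mul_nonneg (Nat.cast_nonneg _) (nu_nonneg _ _)) (nu_nonneg _ _)
    · exact le_rfl
  have hpt : ∀ b ∈ B, ∀ c' ∈ B,
      (if (Nat.gcd b c' : ℝ) < T * L ∧ ¬ F.good x b c' then
        (Nat.gcd b c' : ℝ) * nu M b * nu M c' * (wB F x b * wB F x c') else 0) ≤
      4 * (if (Nat.gcd b c' : ℝ) < T * L ∧ ¬ F.good x b c' then
        (Nat.gcd b c' : ℝ) * nu M b * nu M c' else 0) + G b c' * (v b * u c') +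
        G b c' * (u b * v c') := by
    intro b hb c' hc'
    have hb1 := one_le_wB F x b
    have hc1 := one_le_wB F x c'
    have hg0 := hG0 b c'
    have hub : u b = wB F x b := by simp only [hu]; rw [if_pos hb]
    have huc : u c' = wB F x c' := by simp only [hu]; rw [if_pos hc']
    have t1 : 0 ≤ G b c' * (v b * u c') := mul_nonneg hg0 (mul_nonneg (hv0 b) (hu0 c'))
    have t2 : 0 ≤ G b c' * (u b * v c') := mul_nonneg hg0 (mul_nonneg (hu0 b) (hv0 c'))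
    by_cases hc : (Nat.gcd b c' : ℝ) < T * L ∧ ¬ F.good x b c'
    · rw [if_pos hc, if_pos hc]
      have hGv : G b c' = (Nat.gcd b c' : ℝ) * nu M b * nu M c' := by
        simp only [hG]; rw [if_pos hc.1]
      rw [hGv] at hg0 t1 t2 ⊢
      by_cases h2 : 2 ≤ wB F x b
      · have hvb : v b = wB F x b := by simp only [hv]; rw [if_pos ⟨hb, h2⟩]
        rw [hvb, huc]
        nlinarith
      · by_cases h3 : 2 ≤ wB F x c'
        · have hvc : v c' = wB F x c' := by simp only [hv]; rw [if_pos ⟨hc', h3⟩]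
          rw [hvc, hub] at t2 ⊢
          nlinarith
        · have h4 : wB F x b * wB F x c' ≤ 4 := by nlinarith
          have h5 := mul_le_mul_of_nonneg_left h4 hg0
          linarith
    · rw [if_neg hc, if_neg hc]
      linarith
  have hsum2 : ∀ f f' : ℕ → ℝ, (∀ b, b ∉ B → f b = 0) → (∀ b, b ∉ B → f' b = 0) →
      ∑ b ∈ B, ∑ c' ∈ B, G b c' * (f b * f' c') = ∑ b ∈ M.divisors, ∑ c' ∈ M.divisors,
      (if (Nat.gcd b c' : ℝ) < T * L then
        (Nat.gcd b c' : ℝ) * nu M b * nu M c' * (f b * f' c') else 0) := by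
    intro f f' hf hf'
    rw [hsumB _ fun b hb => Finset.sum_eq_zero fun c' _ => by rw [hf b hb]; simp]
    refine Finset.sum_congr rfl fun b _ => ?_
    rw [hsumB _ fun c' hc' => by rw [hf' c' hc']; simp]
    refine Finset.sum_congr rfl fun c' _ => ?_
    simp only [hG]
    split_ifs <;> ring
  have hu00 : ∀ b, b ∉ B → u b = 0 := fun b hb => by simp only [hu]; rw [if_neg hb]
  have hv00 : ∀ b, b ∉ B → v b = 0 := fun b hb => by simp only [hv]; rw [if_neg fun h => hb h.1]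
  have hmain : badWE F B L T x ≤ 4 * badAll F B L T x +
      2 * (L * (C1 * (T ^ η * L ^ η) *
        (Q * ((x : ℝ) + 1) ^ (-((1 + η) / 8)) * m ^ (1 + η)))) := by
    unfold badWE badAll
    calc L * ∑ b ∈ B, ∑ c' ∈ B, (if (Nat.gcd b c' : ℝ) < T * L ∧ ¬ F.good x b c' then
        (Nat.gcd b c' : ℝ) * nu M b * nu M c' * (wB F x b * wB F x c') else 0)
        ≤ L * ∑ b ∈ B, ∑ c' ∈ B, (4 * (if (Nat.gcd b c' : ℝ) < T * L ∧ ¬ F.good x b c' then
        (Nat.gcd b c' : ℝ) * nu M b * nu M c' else 0) + G b c' * (v b * u c') +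
        G b c' * (u b * v c')) :=
          mul_le_mul_of_nonneg_left (Finset.sum_le_sum fun b hb => Finset.sum_le_sum
            fun c' hc' => hpt b hb c' hc') hL.le
      _ = 4 * (L * ∑ b ∈ B, ∑ c' ∈ B, (if (Nat.gcd b c' : ℝ) < T * L ∧ ¬ F.good x b c' then
        (Nat.gcd b c' : ℝ) * nu M b * nu M c' else 0)) +
          L * (∑ b ∈ B, ∑ c' ∈ B, G b c' * (v b * u c')) +
          L * (∑ b ∈ B, ∑ c' ∈ B, G b c' * (u b * v c')) := by
          simp only [Finset.sum_add_distrib, ← Finset.mul_sum]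
          ring
      _ ≤ _ := by
          rw [hsum2 v u hv00 hu00, hsum2 u v hu00 hv00]
          have h1 := mul_le_mul_of_nonneg_left hE1 hL.le
          have h2 := mul_le_mul_of_nonneg_left hE2 hL.le
          linarith
  -- exponents
  have p1 : ((x : ℝ) + 1) ^ (-c) ≤ ((x : ℝ) + 1) ^ (-(min c ((1 + η) / 8))) :=
    Real.rpow_le_rpow_of_exponent_le hx1 (neg_le_neg (min_le_left _ _))
  have p2 : ((x : ℝ) + 1) ^ (-((1 + η) / 8)) ≤ ((x : ℝ) + 1) ^ (-(min c ((1 + η) / 8))) :=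
    Real.rpow_le_rpow_of_exponent_le hx1 (neg_le_neg (min_le_right _ _))
  have eL : L * (C1 * (T ^ η * L ^ η) *
      (Q * ((x : ℝ) + 1) ^ (-((1 + η) / 8)) * m ^ (1 + η))) =
      C1 * Q * T ^ η * ((x : ℝ) + 1) ^ (-((1 + η) / 8)) * (L * m) ^ (1 + η) := by
    rw [Real.mul_rpow hL.le hm0, Real.rpow_add hL, Real.rpow_one]
    ring
  rw [eL] at hmain
  have hLm : 0 ≤ (L * m) ^ (1 + η) := Real.rpow_nonneg (mul_nonneg hL.le hm0) _
  have hTη : 0 ≤ T ^ η := Real.rpow_nonneg hT.le _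
  calc badWE F B L T x ≤ _ := hmain
    _ ≤ 4 * (C0 / (2 ^ η - 1) * T ^ η * ((x : ℝ) + 1) ^ (-(min c ((1 + η) / 8))) *
          (L * m) ^ (1 + η)) +
        2 * (C1 * Q * T ^ η * ((x : ℝ) + 1) ^ (-(min c ((1 + η) / 8))) *
          (L * m) ^ (1 + η)) := by
        refine add_le_add (mul_le_mul_of_nonneg_left (hbad.trans ?_) (by norm_num))
          (mul_le_mul_of_nonneg_left ?_ (by norm_num))
        · exact mul_le_mul_of_nonneg_right (mul_le_mul_of_nonneg_left p1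
            (mul_nonneg (div_nonneg hC0 h2η0.le) hTη)) hLm
        · exact mul_le_mul_of_nonneg_right (mul_le_mul_of_nonneg_left p2
            (mul_nonneg (mul_nonneg hC1.le hQ0) hTη)) hLm
    _ = _ := by ring

/-! ### all certificates -/

open Classical in
/-- **class BAD with `B1`, all certificates** -/
theorem badW_final {η c C0 A a β K : ℝ} (hη : 0 < η) (hη1 : η < 1) (hc : 0 < c) (hC0 : 0 ≤ C0)
    (hA : 0 ≤ A) (hK : 0 ≤ K) (ha : η + β < a * min c ((1 + η) / 8)) (k : ℕ) :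
    ∃ C : ℝ, 0 ≤ C ∧ ∀ (M : ℕ) (F : FL M) (B : Finset ℕ) (L s : ℝ), 0 < M → B ⊆ M.divisors →
      0 < L → 3 / 4 ≤ s → Shares F B A s →
      (∀ (t : ℝ) (x : ℕ), 0 < t → badEn F B L t x ≤
        C0 * t ^ η * ((x : ℝ) + 1) ^ (-c) * (L * ∑ b ∈ B, nu M b) ^ (1 + η)) →
      ∀ (cut : ℕ → ℕ) (S : Finset ℕ) (Wt : ℕ → ℕ → ℕ → ℝ),
      (∀ σ ∈ S, (2 : ℝ) ^ (a * (σ : ℝ)) ≤ (cut σ : ℝ) + 1) →
      (∀ σ ∈ S, ∀ b ∈ B, ∀ b' ∈ B, Wt σ b b' ≤ K * (((σ : ℝ) + 1) ^ k * 2 ^ (β * (σ : ℝ))) *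
        (wB F (cut σ) b * wB F (cut σ) b')) →
      (∀ σ ∈ S, ∀ b ∈ B, ∀ b' ∈ B, F.good (cut σ) b b' → Wt σ b b' ≤ 0) →
      (∀ σ ∈ S, ∀ b ∈ B, ∀ b' ∈ B, (2 : ℝ) ^ (σ + 1) * L ≤ Nat.gcd b b' → Wt σ b b' ≤ 0) →
      L * ∑ b ∈ B, ∑ b' ∈ B, (Nat.gcd b b' : ℝ) * nu M b * nu M b' * ∑ σ ∈ S, Wt σ b b' ≤
        C * (L * ∑ b ∈ B, nu M b) ^ (1 + η) := by
  obtain ⟨C2, hC2, hW⟩ := badW (c := c) hη hη1 hC0 hA
  obtain ⟨C3, hC3, h⟩ := bad_series (η := η) (β := β) (c := min c ((1 + η) / 8))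
    (lt_min hc (by linarith)) ha k
  refine ⟨C2 * (K * C3), by positivity, ?_⟩
  intro M F B L s hM hB hL hs hSh hF cut S Wt hcut hW1 hW2 hW3
  set m := ∑ b ∈ B, nu M b with hm
  have hm0 : 0 ≤ m := Finset.sum_nonneg fun b _ => nu_nonneg M b
  have hLm : 0 ≤ (L * m) ^ (1 + η) := Real.rpow_nonneg (mul_nonneg hL.le hm0) _
  set w : ℕ → ℝ := fun σ => K * (((σ : ℝ) + 1) ^ k * 2 ^ (β * (σ : ℝ))) with hw
  have hw0 : ∀ σ, 0 ≤ w σ := fun σ => by simp only [hw]; positivity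
  have hterm : ∀ b ∈ B, ∀ b' ∈ B, (Nat.gcd b b' : ℝ) * nu M b * nu M b' * ∑ σ ∈ S, Wt σ b b' ≤
      ∑ σ ∈ S, w σ * (if (Nat.gcd b b' : ℝ) < (2 : ℝ) ^ (σ + 1) * L ∧ ¬ F.good (cut σ) b b' then
        (Nat.gcd b b' : ℝ) * nu M b * nu M b' * (wB F (cut σ) b * wB F (cut σ) b') else 0) := by
    intro b hb b' hb'
    rw [Finset.mul_sum]
    refine Finset.sum_le_sum fun σ hσ => ?_
    have h0 : 0 ≤ (Nat.gcd b b' : ℝ) * nu M b * nu M b' :=
      mul_nonneg (mul_nonneg (Nat.cast_nonneg _) (nu_nonneg _ _)) (nu_nonneg _ _)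
    by_cases hc' : (Nat.gcd b b' : ℝ) < (2 : ℝ) ^ (σ + 1) * L ∧ ¬ F.good (cut σ) b b'
    · rw [if_pos hc']
      calc (Nat.gcd b b' : ℝ) * nu M b * nu M b' * Wt σ b b'
          ≤ (Nat.gcd b b' : ℝ) * nu M b * nu M b' *
            (w σ * (wB F (cut σ) b * wB F (cut σ) b')) :=
            mul_le_mul_of_nonneg_left (hW1 σ hσ b hb b' hb') h0
        _ = _ := by ring
    · rw [if_neg hc', mul_zero]
      refine mul_nonpos_of_nonneg_of_nonpos h0 ?_
      by_cases hg : F.good (cut σ) b b'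
      · exact hW2 σ hσ b hb b' hb' hg
      · refine hW3 σ hσ b hb b' hb' ?_
        by_contra hcon
        exact hc' ⟨not_le.1 hcon, hg⟩
  have h3 := h cut S hcut
  calc L * ∑ b ∈ B, ∑ b' ∈ B, (Nat.gcd b b' : ℝ) * nu M b * nu M b' * ∑ σ ∈ S, Wt σ b b'
      ≤ L * ∑ b ∈ B, ∑ b' ∈ B, ∑ σ ∈ S, w σ *
        (if (Nat.gcd b b' : ℝ) < (2 : ℝ) ^ (σ + 1) * L ∧ ¬ F.good (cut σ) b b' then
        (Nat.gcd b b' : ℝ) * nu M b * nu M b' * (wB F (cut σ) b * wB F (cut σ) b') else 0) :=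
        mul_le_mul_of_nonneg_left (Finset.sum_le_sum fun b hb => Finset.sum_le_sum fun b' hb' =>
          hterm b hb b' hb') hL.le
    _ = ∑ σ ∈ S, w σ * badWE F B L ((2 : ℝ) ^ (σ + 1)) (cut σ) := by
        have e1 : ∀ b ∈ B, ∑ b' ∈ B, ∑ σ ∈ S, w σ *
            (if (Nat.gcd b b' : ℝ) < (2 : ℝ) ^ (σ + 1) * L ∧ ¬ F.good (cut σ) b b' then
            (Nat.gcd b b' : ℝ) * nu M b * nu M b' * (wB F (cut σ) b * wB F (cut σ) b') else 0) =
            ∑ σ ∈ S, ∑ b' ∈ B, w σ *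
            (if (Nat.gcd b b' : ℝ) < (2 : ℝ) ^ (σ + 1) * L ∧ ¬ F.good (cut σ) b b' then
            (Nat.gcd b b' : ℝ) * nu M b * nu M b' * (wB F (cut σ) b * wB F (cut σ) b') else 0) :=
          fun b _ => Finset.sum_comm
        rw [Finset.sum_congr rfl e1, Finset.sum_comm, Finset.mul_sum]
        refine Finset.sum_congr rfl fun σ _ => ?_
        unfold badWE
        simp_rw [← Finset.mul_sum]
        ring
    _ ≤ ∑ σ ∈ S, w σ * (C2 * ((2 : ℝ) ^ (σ + 1)) ^ η *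
        ((cut σ : ℝ) + 1) ^ (-(min c ((1 + η) / 8))) * (L * m) ^ (1 + η)) :=
        Finset.sum_le_sum fun σ _ => mul_le_mul_of_nonneg_left
          (hW M F B L s hM hB hL hs hSh hF _ (cut σ) (by positivity)) (hw0 σ)
    _ = C2 * (K * ∑ σ ∈ S, (((σ : ℝ) + 1) ^ k * 2 ^ (β * (σ : ℝ))) *
        ((2 : ℝ) ^ (σ + 1)) ^ η * ((cut σ : ℝ) + 1) ^ (-(min c ((1 + η) / 8)))) *
        (L * m) ^ (1 + η) := by
        generalize (L * m) ^ (1 + η) = P
        rw [Finset.mul_sum, Finset.mul_sum, Finset.sum_mul]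
        refine Finset.sum_congr rfl fun σ _ => ?_
        simp only [hw]
        ring
    _ ≤ C2 * (K * C3) * (L * m) ^ (1 + η) := by
        refine mul_le_mul_of_nonneg_right ?_ hLm
        exact mul_le_mul_of_nonneg_left (mul_le_mul_of_nonneg_left h3 hK) hC2

end Crest.Agent.R4C.BadWx14
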