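import Crest.Agent.R4C.PureFL_232

/-!
# Row 4: the TWO-SIDED L² ROW LEMMA over an F-Λ structure (helper7)

Notes 3094(1) (5), 3229(3) (823). `PureG F` pairs `(b, c)`, `x` = smallest differing prime,
`b` the member with the centre letter at `x` (it "misses" `x`), `c` the member with more.
`Vx M x b = ∏_{q < x, v_q b < v_q M} (1 - 1/q)`.

`row2_quad` / `row2_bilin` / `row2_sqrt` : if `κ b c · Vx M x b ≤ α x b + α' x c`, where
`Σ_{x missing in b} α x b / x ≤ N`, `α ≤ N`, `Σ_{x | c in excess} α' x c ≤ N'`, then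
`Σ_{PureG b c} gcd ν ν κ f(b) f(c) ≤ (7 N + 4 N') Σ ν f²`.

No filtration: one-prime potentials `½ f² + ¾ (f+θ)²`, `½ (f+θ)²`.
-/

set_option autoImplicit false

open Finset
open Crest.Agent.R4C.Basex935 Crest.Agent.R4C.Cutx50 Crest.Agent.R4C.FLDefx935
open Crest.Agent.R4C.PureL2x232

namespace Crest.Agent.R4C.Row2x7

/-- `∏_{q < x, v_q b < v_q M} (1 - 1/q)` (see `Vx_prod`) -/
noncomputable def Vx (M x b : ℕ) : ℝ := (low (x-1) b : ℝ) * nu (low (x-1) M) (low (x-1) b)

lemma Vx_pos {M b : ℕ} (hM : 0 < M) (hb : b ∣ M) (x : ℕ) : 0 < Vx M x b := by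
  unfold Vx
  have h1 : 0 < low (x-1) M := low_pos _ _
  have h2 := nu_pos h1 (low_dvd (x-1) hM.ne' hb)
  have h3 : (0:ℝ) < low (x-1) b := by exact_mod_cast low_pos _ _
  exact mul_pos h3 h2

lemma Vx_nonneg (M x b : ℕ) : 0 ≤ Vx M x b := by
  unfold Vx
  exact mul_nonneg (by positivity) (nu_nonneg _ _)

lemma Vx_le_one {M b : ℕ} (hM : 0 < M) (hb : b ∣ M) (x : ℕ) : Vx M x b ≤ 1 :=
  V_le (low_dvd (x-1) hM.ne' hb)

/-- product formula -/
lemma Vx_prod {M b : ℕ} (hM : 0 < M) (hb : b ∣ M) (x : ℕ) :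
    Vx M x b = ∏ q ∈ M.primeFactors.filter (fun q => q < x ∧ b.factorization q < M.factorization q),
      (1 - 1 / (q : ℝ)) := by
  have hb0 : b ≠ 0 := (Nat.pos_of_dvd_of_pos hb hM).ne'
  have hL : 0 < low (x-1) M := low_pos _ _
  have hl : 0 < low (x-1) b := low_pos _ _
  have hd : low (x-1) b ∣ low (x-1) M := low_dvd (x-1) hM.ne' hb
  obtain ⟨n, hn⟩ := hd
  have hn0 : 0 < n := by
    rcases Nat.eq_zero_or_pos n with h | h
    · rw [h, mul_zero] at hn; omega
    · exact h
  have hquot : low (x-1) M / low (x-1) b = n := by rw [hn, Nat.mul_div_cancel_left n hl]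
  have hLR : (0:ℝ) < low (x-1) M := by exact_mod_cast hL
  have hlR : (0:ℝ) < low (x-1) b := by exact_mod_cast hl
  have hnR : (0:ℝ) < n := by exact_mod_cast hn0
  have hLe : (low (x-1) M : ℝ) = low (x-1) b * n := by exact_mod_cast hn
  have htot : (n.totient : ℝ) = n * ∏ q ∈ n.primeFactors, (1 - (q : ℝ)⁻¹) := by
    have h := Nat.totient_eq_mul_prod_factors n
    have h' : ((n.totient : ℚ) : ℝ) = ((n * ∏ q ∈ n.primeFactors, (1 - (q : ℚ)⁻¹) : ℚ) : ℝ) := by
      rw [h]
    push_cast at h'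
    exact h'
  have hset : n.primeFactors =
      M.primeFactors.filter (fun q => q < x ∧ b.factorization q < M.factorization q) := by
    ext q
    rw [Finset.mem_filter]
    have hf : ∀ q, (low (x-1) M).factorization q =
        (low (x-1) b).factorization q + n.factorization q := by
      intro q
      rw [hn, Nat.factorization_mul hl.ne' hn0.ne', Finsupp.add_apply]
    constructor
    · intro hq
      have hqp := Nat.prime_of_mem_primeFactors hq
      have h1 : 0 < n.factorization q :=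
        hqp.factorization_pos_of_dvd hn0.ne' (Nat.dvd_of_mem_primeFactors hq)
      have h2 := hf q
      rw [fact_low, fact_low] at h2
      by_cases hqx : q ≤ x - 1
      · rw [if_pos hqx, if_pos hqx] at h2
        have hx : q < x := by have := hqp.pos; omega
        refine ⟨?_, hx, by omega⟩
        rw [← Nat.support_factorization, Finsupp.mem_support_iff]
        omega
      · rw [if_neg hqx, if_neg hqx] at h2
        omega
    · rintro ⟨hq, hqx, hlt⟩
      have h2 := hf q
      rw [fact_low, fact_low, if_pos (by omega), if_pos (by omega)] at h2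
      rw [← Nat.support_factorization, Finsupp.mem_support_iff]
      omega
  unfold Vx nu
  rw [hquot, htot, hLe, hset]
  have e : ∀ P : ℝ, (low (x-1) b : ℝ) * (n * P / (low (x-1) b * n)) = P := by
    intro P; field_simp
  rw [e]
  refine Finset.prod_congr rfl fun q _ => by rw [one_div]

section Low

variable {p a M1 : ℕ} (hp : p.Prime) (hM : 0 < M1) (hlt : ∀ r, r.Prime → r ∣ M1 → r < p)
include hp hM hlt

omit hM in
lemma nd_of_lt : ¬ p ∣ M1 := fun h => lt_irrefl p (hlt p hp h)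

lemma low_pmul_of_lt {x v b : ℕ} (hx : x ≤ p) (hb : b ∣ M1) :
    low (x-1) (p ^ v * b) = low (x-1) b := by
  have hb0 : b ≠ 0 := (Nat.pos_of_dvd_of_pos hb hM).ne'
  have hpb : ¬ p ∣ b := fun h => nd_of_lt hp hlt (h.trans hb)
  refine Nat.eq_of_factorization_eq (low_pos _ _).ne' (low_pos _ _).ne' fun q => ?_
  rw [fact_low, fact_low, fact_pmul hp v hb0 hpb]
  by_cases h : q ≤ x - 1
  · rw [if_pos h, if_pos h, if_neg]
    have := hp.pos
    omega
  · rw [if_neg h, if_neg h]

omit hp in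
lemma low_self_of_lt {b : ℕ} (hb : b ∣ M1) : low (p-1) b = b := by
  have hb0 : b ≠ 0 := (Nat.pos_of_dvd_of_pos hb hM).ne'
  refine Nat.eq_of_factorization_eq (low_pos _ _).ne' hb0 fun q => ?_
  rw [fact_low]
  by_cases h : q ≤ p - 1
  · rw [if_pos h]
  · rw [if_neg h]
    symm
    by_cases hq : q.Prime
    · refine Nat.factorization_eq_zero_of_not_dvd fun hd => ?_
      have := hlt q hq (hd.trans hb)
      omega
    · exact Nat.factorization_eq_zero_of_not_prime _ hq

lemma Vx_pmul {x v b : ℕ} (hx : x ≤ p) (hb : b ∣ M1) :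
    Vx (p ^ a * M1) x (p ^ v * b) = Vx M1 x b := by
  unfold Vx
  rw [low_pmul_of_lt hp hM hlt hx hb, low_pmul_of_lt hp hM hlt hx dvd_rfl]

lemma Vx_top {v b : ℕ} (hb : b ∣ M1) :
    Vx (p ^ a * M1) p (p ^ v * b) = (b : ℝ) * nu M1 b := by
  rw [Vx_pmul hp hM hlt le_rfl hb]
  unfold Vx
  rw [low_self_of_lt hM hlt hb, low_self_of_lt hM hlt dvd_rfl]

end Low

/-! ### the bilinear forms -/

lemma frm_cent {p : ℕ} (hp : p.Prime) (a : ℕ) {M1 : ℕ} (hM : 0 < M1) (hnd : ¬ p ∣ M1)
    {v0 : ℕ} (hv0 : v0 ≤ a) (F : ℕ → ℕ → ℝ)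
    (hF : ∀ v v' b c, v ≤ a → v' ≤ a → b ∣ M1 → c ∣ M1 → min v v' ≠ v0 →
      F (p ^ v * b) (p ^ v' * c) = 0) :
    frm (p ^ a * M1) F = (1 / (p:ℝ)) ^ v0 * ∑ j ∈ range (a - v0 + 1), ∑ j' ∈ range (a - v0 + 1),
      (nup p (a - v0) j * nup p (a - v0) j' *
        frm M1 (fun b c => F (p ^ (v0 + j) * b) (p ^ (v0 + j') * c))) := by
  have hpR : (0:ℝ) < p := by exact_mod_cast hp.pos
  set π : ℝ := (1/(p:ℝ))^v0 with hπ
  have hpp : (p:ℝ)^v0 * π = 1 := by
    rw [hπ, ← mul_pow, mul_one_div_cancel hpR.ne', one_pow]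
  have hvan : ∀ v v', v ≤ a → v' ≤ a → min v v' ≠ v0 →
      frm M1 (fun b c => F (p ^ v * b) (p ^ v' * c)) = 0 := by
    intro v v' hv hv' hne
    unfold frm
    refine Finset.sum_eq_zero fun b hb => Finset.sum_eq_zero fun c hc => ?_
    rw [Nat.mem_divisors] at hb hc
    dsimp only
    rw [hF v v' b c hv hv' hb.1 hc.1 hne, mul_zero]
  rw [frm_split hp a hM hnd]
  rw [Finset.sum_congr rfl (fun v hv => sum_shift hv0 _ (fun v' hv' => by
    rw [Finset.mem_range] at hv
    rw [hvan v v' (by omega) (by omega) (by omega), mul_zero]))]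
  rw [sum_shift hv0 _ (fun v hv => Finset.sum_eq_zero fun j hj => by
    rw [Finset.mem_range] at hj
    rw [hvan v (v0+j) (by omega) (by omega) (by omega), mul_zero])]
  rw [Finset.mul_sum]
  refine Finset.sum_congr rfl fun j hj => ?_
  rw [Finset.mul_sum]
  refine Finset.sum_congr rfl fun j' hj' => ?_
  rw [Finset.mem_range] at hj hj'
  rw [nup_shift a v0 j hv0, nup_shift a v0 j' hv0]
  by_cases hmin : min j j' = 0
  · have hm : min (v0 + j) (v0 + j') = v0 := by omega
    rw [hm, ← hπ]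
    calc (p:ℝ)^v0 * (π * nup p (a - v0) j) * (π * nup p (a - v0) j') *
          frm M1 (fun b c => F (p ^ (v0 + j) * b) (p ^ (v0 + j') * c))
        = ((p:ℝ)^v0 * π) * (π * (nup p (a - v0) j * nup p (a - v0) j' *
          frm M1 (fun b c => F (p ^ (v0 + j) * b) (p ^ (v0 + j') * c)))) := by ring
      _ = _ := by rw [hpp, one_mul]
  · rw [hvan (v0+j) (v0+j') (by omega) (by omega) (by omega)]
    simp

open Classical in
lemma frm_avg2 {M1 : ℕ} (s : Finset ℕ) (w : ℕ → ℝ) (g g' : ℕ → ℕ → ℝ) (D : ℕ → ℝ)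
    (R1 : ℕ → ℕ → Prop) :
    ∑ v ∈ s, ∑ v' ∈ s, w v * w v' *
      frm M1 (fun b c => if R1 b c then g v b * g' v' c * D b else 0) =
    frm M1 (fun b c => if R1 b c then (∑ v ∈ s, w v * g v b) * (∑ v' ∈ s, w v' * g' v' c) * D b
      else 0) := by
  have e : (fun b c => if R1 b c then (∑ v ∈ s, w v * g v b) * (∑ v' ∈ s, w v' * g' v' c) * D b
      else 0)
      = fun b c => ∑ v ∈ s, (fun b c => ∑ v' ∈ s, (fun b c => (w v * w v') *
        (if R1 b c then g v b * g' v' c * D b else 0)) b c) b c := by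
    funext b c
    dsimp only
    split_ifs with h
    · rw [Finset.sum_mul_sum, Finset.sum_mul]
      refine Finset.sum_congr rfl fun v _ => ?_
      rw [Finset.sum_mul]
      refine Finset.sum_congr rfl fun v' _ => by ring
    · simp
  rw [e]
  rw [frm_sum s (fun v b c => ∑ v' ∈ s, (w v * w v') * (if R1 b c then g v b * g' v' c * D b
    else 0))]
  refine Finset.sum_congr rfl fun v _ => ?_
  rw [frm_sum s (fun v' b c => (w v * w v') * (if R1 b c then g v b * g' v' c * D b else 0))]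
  refine Finset.sum_congr rfl fun v' _ => ?_
  rw [frm_smul]

/-- `R x b c` : pure pair with smallest differing prime `x`, `b` has the centre letter at `x`,
`c` has more; primes are read from the largest down. -/
inductive PureX : ℕ → (ℕ → ℕ → ℕ → Prop) → Prop
  | base {M : ℕ} {R : ℕ → ℕ → ℕ → Prop} (h : ∀ x b c, b ∣ M → c ∣ M → ¬ R x b c) : PureX M R
  | cent {p a M1 : ℕ} {R R1 : ℕ → ℕ → ℕ → Prop} (v0 : ℕ) (hp : p.Prime) (ha : 0 < a)
      (hM : 0 < M1) (hlt : ∀ r, r.Prime → r ∣ M1 → r < p) (hv0 : v0 ≤ a) (h1 : PureX M1 R1)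
      (h : ∀ x v v' b c, v ≤ a → v' ≤ a → b ∣ M1 → c ∣ M1 → R x (p ^ v * b) (p ^ v' * c) →
        min v v' = v0 ∧ ((x ∈ M1.primeFactors ∧ R1 x b c) ∨ (x = p ∧ b = c ∧ v = v0 ∧ v0 < v'))) :
      PureX (p ^ a * M1) R
  | branch {p a M1 : ℕ} {R : ℕ → ℕ → ℕ → Prop} {R1 : ℕ → ℕ → ℕ → ℕ → Prop} (hp : p.Prime)
      (ha : 0 < a) (hM : 0 < M1) (hlt : ∀ r, r.Prime → r ∣ M1 → r < p)
      (h1 : ∀ v, v ≤ a → PureX M1 (R1 v))
      (h : ∀ x v v' b c, v ≤ a → v' ≤ a → b ∣ M1 → c ∣ M1 → R x (p ^ v * b) (p ^ v' * c) →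
        v = v' ∧ x ∈ M1.primeFactors ∧ R1 v x b c) : PureX (p ^ a * M1) R

open Classical in
/-- the boosted energy -/
noncomputable def EE (M : ℕ) (R : ℕ → ℕ → ℕ → Prop) (P Q : ℕ → ℕ → ℝ) : ℝ :=
  ∑ x ∈ M.primeFactors, frm M (fun b c => if R x b c then P x b * Q x c * (Vx M x b)⁻¹ else 0)

lemma primeFactors_pmul {p a M1 : ℕ} (hp : p.Prime) (ha : 0 < a) (hM : 0 < M1) :
    (p ^ a * M1).primeFactors = insert p M1.primeFactors := by
  rw [Nat.primeFactors_mul (pow_ne_zero _ hp.ne_zero) hM.ne', Nat.primeFactors_prime_pow ha.ne' hp]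
  rfl

lemma EE_nonneg {M : ℕ} {R : ℕ → ℕ → ℕ → Prop} {P Q : ℕ → ℕ → ℝ} (hP : ∀ x b, 0 ≤ P x b)
    (hQ : ∀ x b, 0 ≤ Q x b) : 0 ≤ EE M R P Q := by
  unfold EE
  refine Finset.sum_nonneg fun x _ => frm_nonneg fun b c _ _ => ?_
  split_ifs
  · exact mul_nonneg (mul_nonneg (hP _ _) (hQ _ _)) (inv_nonneg.2 (Vx_nonneg _ _ _))
  · exact le_rfl

/-- conditional mean over the letters `≥ v0` -/
noncomputable def av (p a v0 : ℕ) (g : ℕ → ℝ) (b : ℕ) : ℝ :=
  ∑ j ∈ range (a - v0 + 1), nup p (a - v0) j * g (p ^ (v0 + j) * b)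

lemma av_nonneg {p a v0 : ℕ} (hp : p.Prime) {g : ℕ → ℝ} (hg : ∀ b, 0 ≤ g b) (b : ℕ) :
    0 ≤ av p a v0 g b :=
  Finset.sum_nonneg fun j _ => mul_nonneg (nup_nonneg hp.pos _ _) (hg _)

/-- **one centre step** -/
lemma cent_step {p a M1 : ℕ} {R R1 : ℕ → ℕ → ℕ → Prop} (v0 : ℕ) (hp : p.Prime) (ha : 0 < a)
    (hM : 0 < M1) (hlt : ∀ r, r.Prime → r ∣ M1 → r < p) (hv0 : v0 ≤ a)
    (h : ∀ x v v' b c, v ≤ a → v' ≤ a → b ∣ M1 → c ∣ M1 → R x (p ^ v * b) (p ^ v' * c) →
        min v v' = v0 ∧ ((x ∈ M1.primeFactors ∧ R1 x b c) ∨ (x = p ∧ b = c ∧ v = v0 ∧ v0 < v')))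
    (P Q : ℕ → ℕ → ℝ) (hP : ∀ x b, 0 ≤ P x b) (hQ : ∀ x b, 0 ≤ Q x b) :
    EE (p ^ a * M1) R P Q ≤ (1 / (p:ℝ)) ^ v0 *
      (EE M1 R1 (fun x => av p a v0 (P x)) (fun x => av p a v0 (Q x)) +
        ∑ b ∈ M1.divisors, nu M1 b * (nup p (a - v0) 0 * P p (p ^ v0 * b) *
          ∑ j ∈ Finset.Ico 1 (a - v0 + 1), nup p (a - v0) j * Q p (p ^ (v0 + j) * b))) := by
  classical
  have hnd := nd_of_lt hp hlt
  have hpR : (0:ℝ) < p := by exact_mod_cast hp.pos
  have hπ0 : (0:ℝ) ≤ (1/(p:ℝ))^v0 := by positivity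
  have hnn : ∀ v, 0 ≤ nup p (a - v0) v := fun v => nup_nonneg hp.pos _ v
  have hpM : p ∉ M1.primeFactors := fun hc => hnd (Nat.dvd_of_mem_primeFactors hc)
  -- vanishing of the kernels
  have hvan : ∀ x v v' b c, v ≤ a → v' ≤ a → b ∣ M1 → c ∣ M1 → min v v' ≠ v0 →
      (if R x (p ^ v * b) (p ^ v' * c) then P x (p ^ v * b) * Q x (p ^ v' * c) *
        (Vx (p ^ a * M1) x (p ^ v * b))⁻¹ else 0) = 0 := by
    intro x v v' b c hv hv' hb hc hne
    rw [if_neg]
    intro hc'
    exact hne (h x v v' b c hv hv' hb hc hc').1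
  unfold EE
  rw [primeFactors_pmul hp ha hM, Finset.sum_insert hpM, add_comm, mul_add]
  refine add_le_add ?_ ?_
  · -- x < p
    rw [Finset.mul_sum]
    refine Finset.sum_le_sum fun x hx => ?_
    have hxp : x ≤ p := (hlt x (Nat.prime_of_mem_primeFactors hx) (Nat.dvd_of_mem_primeFactors hx)).le
    have hxne : x ≠ p := fun hc => hpM (hc ▸ hx)
    rw [frm_cent hp a hM hnd hv0 _ (hvan x)]
    refine mul_le_mul_of_nonneg_left ?_ hπ0
    have e := frm_avg2 (M1 := M1) (range (a - v0 + 1)) (nup p (a - v0))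
      (fun j b => P x (p ^ (v0 + j) * b)) (fun j b => Q x (p ^ (v0 + j) * b))
      (fun b => (Vx M1 x b)⁻¹) (R1 x)
    unfold av
    rw [← e]
    refine Finset.sum_le_sum fun j hj => Finset.sum_le_sum fun j' hj' => ?_
    rw [Finset.mem_range] at hj hj'
    refine mul_le_mul_of_nonneg_left (frm_mono fun b c hb hc => ?_) (mul_nonneg (hnn _) (hnn _))
    rw [Vx_pmul hp hM hlt hxp hb]
    by_cases h2 : R x (p ^ (v0 + j) * b) (p ^ (v0 + j') * c)
    · rw [if_pos h2]
      rcases (h x _ _ b c (by omega) (by omega) hb hc h2).2 with h3 | h3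
      · rw [if_pos h3.2]
      · exact absurd h3.1 hxne
    · rw [if_neg h2]
      split_ifs
      · exact mul_nonneg (mul_nonneg (hP _ _) (hQ _ _)) (inv_nonneg.2 (Vx_nonneg _ _ _))
      · exact le_rfl
  · -- x = p
    rw [frm_cent hp a hM hnd hv0 _ (hvan p)]
    refine mul_le_mul_of_nonneg_left ?_ hπ0
    have hle : ∀ j ∈ range (a - v0 + 1), ∀ j' ∈ range (a - v0 + 1),
        nup p (a - v0) j * nup p (a - v0) j' * frm M1 (fun b c =>
          if R p (p ^ (v0 + j) * b) (p ^ (v0 + j') * c) then P p (p ^ (v0 + j) * b) *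
            Q p (p ^ (v0 + j') * c) * (Vx (p ^ a * M1) p (p ^ (v0 + j) * b))⁻¹ else 0) ≤
        if j = 0 ∧ 1 ≤ j' then nup p (a - v0) 0 * nup p (a - v0) j' *
          ∑ b ∈ M1.divisors, nu M1 b * (P p (p ^ v0 * b) * Q p (p ^ (v0 + j') * b)) else 0 := by
      intro j hj j' hj'
      rw [Finset.mem_range] at hj hj'
      split_ifs with hjj
      · obtain ⟨rfl, hj1⟩ := hjj
        refine mul_le_mul_of_nonneg_left ?_ (mul_nonneg (hnn _) (hnn _))
        have e1 : ∑ b ∈ M1.divisors, nu M1 b * (P p (p ^ v0 * b) * Q p (p ^ (v0 + j') * b)) =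
            frm M1 (fun b c => if b = c then P p (p ^ v0 * b) * Q p (p ^ (v0 + j') * c) *
              ((b:ℝ) * nu M1 b)⁻¹ else 0) := by
          rw [frm_diag (fun b c => P p (p ^ v0 * b) * Q p (p ^ (v0 + j') * c) *
              ((b:ℝ) * nu M1 b)⁻¹)]
          refine Finset.sum_congr rfl fun b hb => ?_
          rw [Nat.mem_divisors] at hb
          have h1 : 0 < (b:ℝ) * nu M1 b := mul_pos (by
            exact_mod_cast Nat.pos_of_dvd_of_pos hb.1 hM) (nu_pos hM hb.1)
          have h2 := mul_inv_cancel₀ h1.ne'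
          calc nu M1 b * (P p (p ^ v0 * b) * Q p (p ^ (v0 + j') * b))
              = nu M1 b * (P p (p ^ v0 * b) * Q p (p ^ (v0 + j') * b)) *
                (((b:ℝ) * nu M1 b) * ((b:ℝ) * nu M1 b)⁻¹) := by rw [h2, mul_one]
            _ = _ := by ring
        rw [e1]
        refine frm_mono fun b c hb hc => ?_
        rw [Vx_top hp hM hlt hb]
        by_cases h2 : R p (p ^ (v0 + 0) * b) (p ^ (v0 + j') * c)
        · rw [if_pos h2]
          rcases (h p _ _ b c (by omega) (by omega) hb hc h2).2 with h3 | h3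
          · exact absurd h3.1 hpM
          · rw [if_pos h3.2.1, add_zero]
        · rw [if_neg h2]
          split_ifs
          · exact mul_nonneg (mul_nonneg (hP _ _) (hQ _ _)) (inv_nonneg.2 (V_nonneg _ _))
          · exact le_rfl
      · refine le_of_eq ?_
        have : frm M1 (fun b c =>
          if R p (p ^ (v0 + j) * b) (p ^ (v0 + j') * c) then P p (p ^ (v0 + j) * b) *
            Q p (p ^ (v0 + j') * c) * (Vx (p ^ a * M1) p (p ^ (v0 + j) * b))⁻¹ else 0) = 0 := by
          unfold frm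
          refine Finset.sum_eq_zero fun b hb => Finset.sum_eq_zero fun c hc => ?_
          rw [Nat.mem_divisors] at hb hc
          dsimp only
          rw [if_neg, mul_zero]
          intro h2
          rcases (h p _ _ b c (by omega) (by omega) hb.1 hc.1 h2).2 with h3 | h3
          · exact hpM h3.1
          · exact hjj ⟨by omega, by omega⟩
        rw [this, mul_zero]
    refine (Finset.sum_le_sum fun j hj => Finset.sum_le_sum fun j' hj' => hle j hj j' hj').trans ?_
    refine le_of_eq ?_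
    rw [Finset.sum_eq_single 0]
    · have hr : range (a - v0 + 1) = insert 0 (Finset.Ico 1 (a - v0 + 1)) := by
        ext x; simp only [Finset.mem_range, Finset.mem_insert, Finset.mem_Ico]; omega
      rw [hr, Finset.sum_insert (by simp), if_neg (by omega), zero_add]
      rw [Finset.sum_congr rfl (fun j' hj' => if_pos ⟨rfl, (Finset.mem_Ico.1 hj').1⟩)]
      simp only [Finset.mul_sum]
      rw [Finset.sum_comm]
      refine Finset.sum_congr rfl fun b _ => Finset.sum_congr rfl fun j _ => by ring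
    · intro j _ hj
      refine Finset.sum_eq_zero fun j' _ => if_neg fun hc => hj hc.1
    · intro hc; exact absurd (Finset.mem_range.2 (by omega)) hc

/-- **one branch step** -/
lemma branch_step {p a M1 : ℕ} {R : ℕ → ℕ → ℕ → Prop} {R1 : ℕ → ℕ → ℕ → ℕ → Prop} (hp : p.Prime)
    (ha : 0 < a) (hM : 0 < M1) (hlt : ∀ r, r.Prime → r ∣ M1 → r < p)
    (h : ∀ x v v' b c, v ≤ a → v' ≤ a → b ∣ M1 → c ∣ M1 → R x (p ^ v * b) (p ^ v' * c) →
        v = v' ∧ x ∈ M1.primeFactors ∧ R1 v x b c)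
    (P Q : ℕ → ℕ → ℝ) (hP : ∀ x b, 0 ≤ P x b) (hQ : ∀ x b, 0 ≤ Q x b) :
    EE (p ^ a * M1) R P Q ≤ ∑ v ∈ range (a + 1), nup p a v *
      EE M1 (R1 v) (fun x b => P x (p ^ v * b)) (fun x b => Q x (p ^ v * b)) := by
  classical
  have hnd := nd_of_lt hp hlt
  have hnn : ∀ v, 0 ≤ nup p a v := fun v => nup_nonneg hp.pos _ v
  have hpM : p ∉ M1.primeFactors := fun hc => hnd (Nat.dvd_of_mem_primeFactors hc)
  unfold EE
  rw [primeFactors_pmul hp ha hM, Finset.sum_insert hpM]
  have h0 : frm (p ^ a * M1) (fun b c => if R p b c then P p b * Q p c *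
      (Vx (p ^ a * M1) p b)⁻¹ else 0) = 0 := by
    rw [frm_split hp a hM hnd]
    refine Finset.sum_eq_zero fun v hv => Finset.sum_eq_zero fun v' hv' => ?_
    rw [Finset.mem_range] at hv hv'
    have : frm M1 (fun b c => if R p (p ^ v * b) (p ^ v' * c) then P p (p ^ v * b) *
        Q p (p ^ v' * c) * (Vx (p ^ a * M1) p (p ^ v * b))⁻¹ else 0) = 0 := by
      unfold frm
      refine Finset.sum_eq_zero fun b hb => Finset.sum_eq_zero fun c hc => ?_
      rw [Nat.mem_divisors] at hb hc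
      dsimp only
      rw [if_neg, mul_zero]
      intro h2
      exact hpM (h p v v' b c (by omega) (by omega) hb.1 hc.1 h2).2.1
    rw [this, mul_zero]
  rw [h0, zero_add]
  have hrhs : ∑ v ∈ range (a + 1), nup p a v * ∑ x ∈ M1.primeFactors, frm M1 (fun b c =>
      if R1 v x b c then P x (p ^ v * b) * Q x (p ^ v * c) * (Vx M1 x b)⁻¹ else 0) =
      ∑ x ∈ M1.primeFactors, ∑ v ∈ range (a + 1), nup p a v * frm M1 (fun b c =>
      if R1 v x b c then P x (p ^ v * b) * Q x (p ^ v * c) * (Vx M1 x b)⁻¹ else 0) := by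
    simp only [Finset.mul_sum]
    exact Finset.sum_comm
  rw [hrhs]
  refine Finset.sum_le_sum fun x hx => ?_
  have hxp : x ≤ p := (hlt x (Nat.prime_of_mem_primeFactors hx) (Nat.dvd_of_mem_primeFactors hx)).le
  rw [frm_split hp a hM hnd]
  refine Finset.sum_le_sum fun v hv => ?_
  rw [Finset.mem_range] at hv
  rw [← Finset.sum_subset (s₁ := {v})]
  · rw [Finset.sum_singleton, min_self]
    have hθ := theta_le hp a v (by omega)
    have hθ0 : 0 ≤ (p:ℝ)^v * nup p a v := mul_nonneg (by positivity) (hnn v)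
    have hmono : frm M1 (fun b c => if R x (p ^ v * b) (p ^ v * c) then P x (p ^ v * b) *
        Q x (p ^ v * c) * (Vx (p ^ a * M1) x (p ^ v * b))⁻¹ else 0) ≤
        frm M1 (fun b c => if R1 v x b c then P x (p ^ v * b) * Q x (p ^ v * c) *
          (Vx M1 x b)⁻¹ else 0) := by
      refine frm_mono fun b c hb hc => ?_
      rw [Vx_pmul hp hM hlt hxp hb]
      by_cases h2 : R x (p ^ v * b) (p ^ v * c)
      · rw [if_pos h2, if_pos (h x v v b c (by omega) (by omega) hb hc h2).2.2]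
      · rw [if_neg h2]
        split_ifs
        · exact mul_nonneg (mul_nonneg (hP _ _) (hQ _ _)) (inv_nonneg.2 (Vx_nonneg _ _ _))
        · exact le_rfl
    have hnn2 : 0 ≤ frm M1 (fun b c => if R1 v x b c then P x (p ^ v * b) * Q x (p ^ v * c) *
          (Vx M1 x b)⁻¹ else 0) := by
      refine frm_nonneg fun b c _ _ => ?_
      split_ifs
      · exact mul_nonneg (mul_nonneg (hP _ _) (hQ _ _)) (inv_nonneg.2 (Vx_nonneg _ _ _))
      · exact le_rfl
    calc _ ≤ (p:ℝ)^v * nup p a v * nup p a v * frm M1 (fun b c => if R1 v x b c then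
            P x (p ^ v * b) * Q x (p ^ v * c) * (Vx M1 x b)⁻¹ else 0) :=
          mul_le_mul_of_nonneg_left hmono (mul_nonneg hθ0 (hnn v))
      _ ≤ 1 * nup p a v * frm M1 (fun b c => if R1 v x b c then
            P x (p ^ v * b) * Q x (p ^ v * c) * (Vx M1 x b)⁻¹ else 0) :=
          mul_le_mul_of_nonneg_right (mul_le_mul_of_nonneg_right hθ (hnn v)) hnn2
      _ = _ := by rw [one_mul]
  · intro y hy; rw [Finset.mem_singleton] at hy; rw [hy]; exact Finset.mem_range.2 hv
  · intro v' hv' hne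
    rw [Finset.mem_range] at hv'
    rw [Finset.mem_singleton] at hne
    have e : frm M1 (fun b c => if R x (p ^ v * b) (p ^ v' * c) then P x (p ^ v * b) *
        Q x (p ^ v' * c) * (Vx (p ^ a * M1) x (p ^ v * b))⁻¹ else 0) = 0 := by
      unfold frm
      refine Finset.sum_eq_zero fun b hb => Finset.sum_eq_zero fun c hc => ?_
      rw [Nat.mem_divisors] at hb hc
      dsimp only
      rw [if_neg, mul_zero]
      intro h2
      exact hne (h x v v' b c (by omega) (by omega) hb.1 hc.1 h2).1.symm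
    rw [e, mul_zero]


/-! ### one-prime inequalities -/

/-- first potential `½ f² + ¾ (f+θ)²`. `w` = mass of the letters above the centre, `F1, T1` the sums
of `f, θ` over them, `Sf, Sg` the sums of `f², (f+θ)²`. -/
lemma one_step1 {w f0 F1 t0 T1 h Sf Sg : ℝ} (hw : 0 < w) (hw2 : w ≤ 1/2) (hf0 : 0 ≤ f0)
    (hF1 : 0 ≤ F1) (hT1 : 0 ≤ T1) (hh : 0 ≤ h) (hhf : h ≤ f0) (hht : w * h ≤ t0)
    (hSf : F1^2 ≤ w * Sf) (hSg : (F1 + T1)^2 ≤ w * Sg) :
    1/2 * ((1-w)*f0 + F1)^2 + 3/4 * (((1-w)*f0 + F1) + ((1-w)*t0 + T1 - (1-w)*(w*h)))^2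
      + (1-w)*h*F1 ≤ (1-w)*(1/2*f0^2 + 3/4*(f0+t0)^2) + 1/2*Sf + 3/4*Sg := by
  obtain ⟨f1, hf1⟩ : ∃ f1, F1 = w * f1 := ⟨F1 / w, by field_simp⟩
  obtain ⟨t1, ht1⟩ : ∃ t1, T1 = w * t1 := ⟨T1 / w, by field_simp⟩
  have hf1' : 0 ≤ f1 := by
    by_contra hc
    have : w * f1 < 0 := mul_neg_of_pos_of_neg hw (by linarith)
    linarith
  have ht1' : 0 ≤ t1 := by
    by_contra hc
    have : w * t1 < 0 := mul_neg_of_pos_of_neg hw (by linarith)
    linarith
  have hSf' : w * f1^2 ≤ Sf := by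
    rw [hf1] at hSf
    have : w * (w * f1^2) ≤ w * Sf := by nlinarith
    exact le_of_mul_le_mul_left this hw
  have hSg' : w * (f1+t1)^2 ≤ Sg := by
    rw [hf1, ht1] at hSg
    have : w * (w * (f1+t1)^2) ≤ w * Sg := by nlinarith
    exact le_of_mul_le_mul_left this hw
  rw [hf1, ht1]
  -- D = f1 - f0, k = w h
  have hk0 : 0 ≤ w * h := mul_nonneg hw.le hh
  set k := w * h with hk
  -- the bracket
  have hbr : 0 ≤ 1/2 * w * (f1-f0)^2 + k * (1/2*f0 - (1 - 3/2*w)*(f1-f0) + 3/4*(1-w)*k) := by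
    have h1 : 0 ≤ k * (3/4*(1-w)*k) := by
      have : 0 ≤ 1 - w := by linarith
      positivity
    have h2 : k * (1/2*f0) ≥ k * (1/2*h) := mul_le_mul_of_nonneg_left (by linarith) hk0
    rcases le_total (f1-f0) 0 with hD | hD
    · have h3 : 0 ≤ k * ((1 - 3/2*w)*(-(f1-f0))) :=
        mul_nonneg hk0 (mul_nonneg (by linarith) (by linarith))
      have h4 : 0 ≤ k * (1/2*f0) := mul_nonneg hk0 (by linarith)
      nlinarith [mul_nonneg hw.le (sq_nonneg (f1-f0))]
    · have h3 : k * ((1 - 3/2*w)*(f1-f0)) ≤ k * (f1-f0) := by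
        refine mul_le_mul_of_nonneg_left ?_ hk0
        nlinarith
      -- ½ w D² + ½ w h² - w h D = ½ w (D-h)²
      have h4 : 0 ≤ 1/2 * w * ((f1-f0)-h)^2 := by positivity
      have e : 1/2 * w * ((f1-f0)-h)^2 = 1/2*w*(f1-f0)^2 + 1/2*(k*h) - k*(f1-f0) := by
        rw [hk]; ring
      nlinarith
  have hkey : 0 ≤ (1-w) * (w * (1/2*(f1-f0)^2 + 3/4*((f1-f0)+(t1-t0))^2) +
      k * (3/2*(((1-w)*f0+w*f1) + ((1-w)*t0+w*t1)) - 3/4*(1-w)*k - f1)) := by
    refine mul_nonneg (by linarith) ?_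
    have h1 : 0 ≤ w * (3/4*((f1-f0)+(t1-t0))^2) := by positivity
    have h2 : k * ((1-w)*k) ≤ k * ((1-w)*t0 + w*t1) := by
      refine mul_le_mul_of_nonneg_left ?_ hk0
      have := mul_nonneg hw.le ht1'
      nlinarith
    nlinarith
  have e2 : (1-w)*(1/2*f0^2 + 3/4*(f0+t0)^2) + 1/2*(w*f1^2) + 3/4*(w*(f1+t1)^2)
      - (1/2 * ((1-w)*f0 + w*f1)^2 + 3/4 * (((1-w)*f0 + w*f1) + ((1-w)*t0 + w*t1 - (1-w)*k))^2
      + (1-w)*h*(w*f1)) =
      (1-w) * (w * (1/2*(f1-f0)^2 + 3/4*((f1-f0)+(t1-t0))^2) +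
      k * (3/2*(((1-w)*f0+w*f1) + ((1-w)*t0+w*t1)) - 3/4*(1-w)*k - f1)) := by
    rw [hk]; ring
  linarith

/-- second potential `½ (f+θ)²` -/
lemma one_step2 {w f0 F1 t0 T1 k Sg : ℝ} (hw : 0 < w) (hw1 : w ≤ 1)
    (hF1 : 0 ≤ F1) (ht0 : 0 ≤ t0) (hk : 0 ≤ k) (hkT : k ≤ T1) (hSg : (F1 + T1)^2 ≤ w * Sg) :
    1/2 * (((1-w)*f0 + F1) + ((1-w)*t0 + T1 - k))^2 + (1-w)*f0*k ≤
      (1-w)*(1/2*(f0+t0)^2) + 1/2*Sg := by
  obtain ⟨A1, hA1⟩ : ∃ A1, F1 + T1 = w * A1 := ⟨(F1+T1) / w, by field_simp⟩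
  have hSg' : w * A1^2 ≤ Sg := by
    rw [hA1] at hSg
    have : w * (w * A1^2) ≤ w * Sg := by nlinarith
    exact le_of_mul_le_mul_left this hw
  have hw1' : 0 ≤ 1 - w := by linarith
  have h1 : 1/2 * (((1-w)*(f0+t0)) + w*A1)^2 ≤ (1-w)*(1/2*(f0+t0)^2) + 1/2*(w*A1^2) := by
    nlinarith [mul_nonneg (mul_nonneg hw.le hw1') (sq_nonneg (A1 - (f0+t0)))]
  have h2 : k * ((1-w)*f0 + k) ≤ k * (((1-w)*(f0+t0)) + w*A1) := by
    refine mul_le_mul_of_nonneg_left ?_ hk
    have := mul_nonneg hw1' ht0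
    nlinarith
  have e : ((1-w)*f0 + F1) + ((1-w)*t0 + T1 - k) = (((1-w)*(f0+t0)) + w*A1) - k := by
    rw [← hA1]; ring
  rw [e]
  nlinarith


lemma range_eq (n : ℕ) : range (n+1) = insert 0 (Finset.Ico 1 (n+1)) := by
  ext x; simp only [Finset.mem_range, Finset.mem_insert, Finset.mem_Ico]; omega

lemma mass_top {p : ℕ} (hp : p.Prime) {n : ℕ} (hn : 0 < n) :
    ∑ j ∈ Finset.Ico 1 (n+1), nup p n j = 1 / (p:ℝ) ∧ nup p n 0 = 1 - 1 / (p:ℝ) := by
  have h0 : nup p n 0 = 1 - 1 / (p:ℝ) := by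
    unfold nup
    rw [if_pos hn, pow_zero, mul_one]
  have h1 := sum_nup hp n
  rw [range_eq, Finset.sum_insert (by simp), h0] at h1
  exact ⟨by linarith, h0⟩

lemma cs_top {p : ℕ} (hp : p.Prime) (n : ℕ) (f : ℕ → ℝ) :
    (∑ j ∈ Finset.Ico 1 (n+1), nup p n j * f j)^2 ≤
      (∑ j ∈ Finset.Ico 1 (n+1), nup p n j) * ∑ j ∈ Finset.Ico 1 (n+1), nup p n j * f j^2 := by
  have hnn : ∀ v, 0 ≤ nup p n v := fun v => nup_nonneg hp.pos n v
  exact Finset.sum_sq_le_sum_mul_sum_of_sq_le_mul (Finset.Ico 1 (n+1))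
      (f := fun v => nup p n v) (g := fun v => nup p n v * f v^2)
      (r := fun v => nup p n v * f v) (fun v _ => hnn v)
      (fun v _ => mul_nonneg (hnn v) (sq_nonneg _)) (fun v _ => le_of_eq (by ring))

lemma w_half {p : ℕ} (hp : p.Prime) : 0 < 1 / (p:ℝ) ∧ 1 / (p:ℝ) ≤ 1/2 := by
  have h2 : (2:ℝ) ≤ p := by exact_mod_cast hp.two_le
  exact ⟨by positivity, one_div_le_one_div_of_le (by norm_num) h2⟩

lemma point1 {p : ℕ} (hp : p.Prime) (n : ℕ) (f t : ℕ → ℝ) (h : ℝ) (hf : ∀ j, 0 ≤ f j)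
    (ht : ∀ j, j ≤ n → 0 ≤ t j) (hh : 0 ≤ h) (hhf : h ≤ f 0) (hht : 1/(p:ℝ) * h ≤ t 0) :
    1/2 * (∑ j ∈ range (n+1), nup p n j * f j)^2 +
      3/4 * ((∑ j ∈ range (n+1), nup p n j * f j) + ((∑ j ∈ range (n+1), nup p n j * t j)
        - 1/(p:ℝ) * (nup p n 0 * h)))^2 +
      nup p n 0 * h * ∑ j ∈ Finset.Ico 1 (n+1), nup p n j * f j ≤
    ∑ j ∈ range (n+1), nup p n j * (1/2 * f j^2 + 3/4 * (f j + t j)^2) := by
  have h00 : (0:ℕ) ∉ Finset.Ico 1 (n+1) := by simp
  have hnn : ∀ v, 0 ≤ nup p n v := fun v => nup_nonneg hp.pos n v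
  obtain ⟨hw0, hw2⟩ := w_half hp
  rcases Nat.eq_zero_or_pos n with hn | hn
  · subst hn
    have e0 : nup p 0 0 = 1 := by
      have := sum_nup hp 0
      simpa using this
    simp only [zero_add, Finset.range_one, Finset.sum_singleton, Finset.Ico_self,
      Finset.sum_empty, e0, mul_zero, one_mul, add_zero]
    have h1 := ht 0 le_rfl
    have h2 := hf 0
    have h3 : 0 ≤ 1/(p:ℝ) * h := mul_nonneg hw0.le hh
    nlinarith
  · obtain ⟨hw, hn0⟩ := mass_top hp hn
    rw [range_eq, Finset.sum_insert h00, Finset.sum_insert h00, Finset.sum_insert h00, hn0]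
    have hSf := cs_top hp n f
    have hSg := cs_top hp n (fun j => f j + t j)
    rw [hw] at hSf hSg
    have e1 : ∑ j ∈ Finset.Ico 1 (n+1), nup p n j * (f j + t j) =
        ∑ j ∈ Finset.Ico 1 (n+1), nup p n j * f j + ∑ j ∈ Finset.Ico 1 (n+1), nup p n j * t j := by
      rw [← Finset.sum_add_distrib]
      exact Finset.sum_congr rfl fun j _ => by ring
    have e2 : ∑ j ∈ Finset.Ico 1 (n+1), nup p n j * (1/2 * f j^2 + 3/4 * (f j + t j)^2) =
        1/2 * ∑ j ∈ Finset.Ico 1 (n+1), nup p n j * f j^2 +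
        3/4 * ∑ j ∈ Finset.Ico 1 (n+1), nup p n j * (f j + t j)^2 := by
      rw [Finset.mul_sum, Finset.mul_sum, ← Finset.sum_add_distrib]
      exact Finset.sum_congr rfl fun j _ => by ring
    rw [e1] at hSg
    rw [e2]
    have hF1 : 0 ≤ ∑ j ∈ Finset.Ico 1 (n+1), nup p n j * f j :=
      Finset.sum_nonneg fun j _ => mul_nonneg (hnn j) (hf j)
    have hT1 : 0 ≤ ∑ j ∈ Finset.Ico 1 (n+1), nup p n j * t j :=
      Finset.sum_nonneg fun j hj => mul_nonneg (hnn j) (ht j (by
        rw [Finset.mem_Ico] at hj; omega))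
    have := one_step1 hw0 hw2 (hf 0) hF1 hT1 hh hhf hht hSf hSg
    calc _ = 1/2 * ((1-1/(p:ℝ))*f 0 + ∑ j ∈ Finset.Ico 1 (n+1), nup p n j * f j)^2 +
          3/4 * (((1-1/(p:ℝ))*f 0 + ∑ j ∈ Finset.Ico 1 (n+1), nup p n j * f j) +
          ((1-1/(p:ℝ))*t 0 + (∑ j ∈ Finset.Ico 1 (n+1), nup p n j * t j)
            - (1-1/(p:ℝ))*(1/(p:ℝ)*h)))^2
          + (1-1/(p:ℝ))*h*∑ j ∈ Finset.Ico 1 (n+1), nup p n j * f j := by ring
      _ ≤ _ := this
      _ = _ := by ring

lemma point2 {p : ℕ} (hp : p.Prime) (n : ℕ) (f t k : ℕ → ℝ) (hf : ∀ j, 0 ≤ f j)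
    (hk : ∀ j, 0 ≤ k j) (hkt : ∀ j, j ≤ n → k j ≤ t j) :
    1/2 * ((∑ j ∈ range (n+1), nup p n j * f j) + ((∑ j ∈ range (n+1), nup p n j * t j)
        - ∑ j ∈ Finset.Ico 1 (n+1), nup p n j * k j))^2 +
      nup p n 0 * f 0 * ∑ j ∈ Finset.Ico 1 (n+1), nup p n j * k j ≤
    ∑ j ∈ range (n+1), nup p n j * (1/2 * (f j + t j)^2) := by
  have h00 : (0:ℕ) ∉ Finset.Ico 1 (n+1) := by simp
  have hnn : ∀ v, 0 ≤ nup p n v := fun v => nup_nonneg hp.pos n v
  obtain ⟨hw0, hw2⟩ := w_half hp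
  rcases Nat.eq_zero_or_pos n with hn | hn
  · subst hn
    have e0 : nup p 0 0 = 1 := by
      have := sum_nup hp 0
      simpa using this
    simp [e0]
  · obtain ⟨hw, hn0⟩ := mass_top hp hn
    rw [range_eq, Finset.sum_insert h00, Finset.sum_insert h00, Finset.sum_insert h00, hn0]
    have hSg := cs_top hp n (fun j => f j + t j)
    rw [hw] at hSg
    have e1 : ∑ j ∈ Finset.Ico 1 (n+1), nup p n j * (f j + t j) =
        ∑ j ∈ Finset.Ico 1 (n+1), nup p n j * f j + ∑ j ∈ Finset.Ico 1 (n+1), nup p n j * t j := by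
      rw [← Finset.sum_add_distrib]
      exact Finset.sum_congr rfl fun j _ => by ring
    have e2 : ∑ j ∈ Finset.Ico 1 (n+1), nup p n j * (1/2 * (f j + t j)^2) =
        1/2 * ∑ j ∈ Finset.Ico 1 (n+1), nup p n j * (f j + t j)^2 := by
      rw [Finset.mul_sum]
      exact Finset.sum_congr rfl fun j _ => by ring
    rw [e1] at hSg
    rw [e2]
    have hF1 : 0 ≤ ∑ j ∈ Finset.Ico 1 (n+1), nup p n j * f j :=
      Finset.sum_nonneg fun j _ => mul_nonneg (hnn j) (hf j)
    have hK0 : 0 ≤ ∑ j ∈ Finset.Ico 1 (n+1), nup p n j * k j :=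
      Finset.sum_nonneg fun j _ => mul_nonneg (hnn j) (hk j)
    have hKT : ∑ j ∈ Finset.Ico 1 (n+1), nup p n j * k j ≤
        ∑ j ∈ Finset.Ico 1 (n+1), nup p n j * t j :=
      Finset.sum_le_sum fun j hj => mul_le_mul_of_nonneg_left (hkt j (by
        rw [Finset.mem_Ico] at hj; omega)) (hnn j)
    have ht0 : 0 ≤ t 0 := (hk 0).trans (hkt 0 (Nat.zero_le _))
    have := one_step2 (f0 := f 0) hw0 (by linarith) hF1 ht0 hK0 hKT hSg
    calc _ = 1/2 * (((1-1/(p:ℝ))*f 0 + ∑ j ∈ Finset.Ico 1 (n+1), nup p n j * f j) +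
          ((1-1/(p:ℝ))*t 0 + (∑ j ∈ Finset.Ico 1 (n+1), nup p n j * t j)
            - ∑ j ∈ Finset.Ico 1 (n+1), nup p n j * k j))^2
          + (1-1/(p:ℝ))*f 0*∑ j ∈ Finset.Ico 1 (n+1), nup p n j * k j := by ring
      _ ≤ _ := this
      _ = _ := by ring

/-- the right side at a centre step -/
lemma rhs_cent {p a M1 : ℕ} {v0 : ℕ} (hp : p.Prime) (hM : 0 < M1) (hnd : ¬ p ∣ M1) (hv0 : v0 ≤ a)
    (Φ : ℕ → ℝ) (hΦ : ∀ b, 0 ≤ Φ b) :
    (1 / (p:ℝ)) ^ v0 * ∑ b ∈ M1.divisors, nu M1 b *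
      ∑ j ∈ range (a - v0 + 1), nup p (a - v0) j * Φ (p ^ (v0 + j) * b) ≤
    ∑ b ∈ (p ^ a * M1).divisors, nu (p ^ a * M1) b * Φ b := by
  have hcop : Nat.Coprime (p ^ a) M1 :=
    Nat.Coprime.pow_left a ((Nat.Prime.coprime_iff_not_dvd hp).2 hnd)
  rw [sum_split hp a hM hnd]
  have h1 := sum_shift_le hv0 (fun v => ∑ b ∈ M1.divisors,
    nu (p ^ a * M1) (p ^ v * b) * Φ (p ^ v * b))
    (fun v => Finset.sum_nonneg fun b _ => mul_nonneg (nu_nonneg _ _) (hΦ _))
  refine le_trans (le_of_eq ?_) h1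
  rw [Finset.mul_sum, Finset.sum_comm]
  refine Finset.sum_congr rfl fun b hb => ?_
  rw [Nat.mem_divisors] at hb
  rw [Finset.mul_sum, Finset.mul_sum]
  refine Finset.sum_congr rfl fun j hj => ?_
  rw [Finset.mem_range] at hj
  rw [nu_mul hcop (pow_dvd_pow p (by omega)) hb.1, nu_prime_pow hp (by omega),
    nup_shift a v0 j hv0]
  ring

lemma rhs_branch {p a M1 : ℕ} (hp : p.Prime) (hM : 0 < M1) (hnd : ¬ p ∣ M1) (Φ : ℕ → ℝ) :
    ∑ v ∈ range (a + 1), nup p a v * ∑ b ∈ M1.divisors, nu M1 b * Φ (p ^ v * b) =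
    ∑ b ∈ (p ^ a * M1).divisors, nu (p ^ a * M1) b * Φ b := by
  have hcop : Nat.Coprime (p ^ a) M1 :=
    Nat.Coprime.pow_left a ((Nat.Prime.coprime_iff_not_dvd hp).2 hnd)
  rw [sum_split hp a hM hnd]
  refine Finset.sum_congr rfl fun v hv => ?_
  rw [Finset.mem_range] at hv
  rw [Finset.mul_sum]
  refine Finset.sum_congr rfl fun b hb => ?_
  rw [Nat.mem_divisors] at hb
  rw [nu_mul hcop (pow_dvd_pow p (by omega)) hb.1, nu_prime_pow hp (by omega)]
  ring

lemma EE_base {M : ℕ} {R : ℕ → ℕ → ℕ → Prop} (h : ∀ x b c, b ∣ M → c ∣ M → ¬ R x b c)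
    (P Q : ℕ → ℕ → ℝ) : EE M R P Q = 0 := by
  unfold EE frm
  refine Finset.sum_eq_zero fun x _ => Finset.sum_eq_zero fun b hb =>
    Finset.sum_eq_zero fun c hc => ?_
  rw [Nat.mem_divisors] at hb hc
  dsimp only
  rw [if_neg (h x b c hb.1 hc.1), mul_zero]

/-- **FIRST HALF** (weights on the member missing `x`): one-prime potential -/
theorem half1 {M : ℕ} {R : ℕ → ℕ → ℕ → Prop} (hR : PureX M R) :
    ∀ (f t : ℕ → ℝ) (H : ℕ → ℕ → ℝ), (∀ b, 0 ≤ f b) → (∀ x b, 0 ≤ H x b) →
      (∀ x b, x ∈ M.primeFactors → b ∣ M → H x b ≤ f b) →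
      (∀ b, b ∣ M → ∑ x ∈ M.primeFactors, 1 / (x:ℝ) * H x b ≤ t b) →
      EE M R H (fun _ c => f c) ≤
        ∑ b ∈ M.divisors, nu M b * (1/2 * f b ^ 2 + 3/4 * (f b + t b) ^ 2) := by
  induction hR with
  | @base M R h =>
    intro f t H hf hH hHf hHt
    rw [EE_base h]
    exact Finset.sum_nonneg fun b _ => mul_nonneg (nu_nonneg _ _) (by positivity)
  | @branch p a M1 R R1 hp ha hM hlt h1 h ih =>
    intro f t H hf hH hHf hHt
    have hnd := nd_of_lt hp hlt
    have hpM : p ∉ M1.primeFactors := fun hc => hnd (Nat.dvd_of_mem_primeFactors hc)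
    refine (branch_step hp ha hM hlt h H (fun _ c => f c) hH (fun _ => hf)).trans ?_
    rw [← rhs_branch hp hM hnd (fun b => 1/2 * f b ^ 2 + 3/4 * (f b + t b) ^ 2)]
    refine Finset.sum_le_sum fun v hv => mul_le_mul_of_nonneg_left ?_ (nup_nonneg hp.pos _ _)
    rw [Finset.mem_range] at hv
    refine ih v (by omega) (fun b => f (p ^ v * b)) (fun b => t (p ^ v * b))
      (fun x b => H x (p ^ v * b)) (fun b => hf _) (fun x b => hH _ _) ?_ ?_
    · intro x b hx hb
      refine hHf x _ ?_ (Nat.mul_dvd_mul (pow_dvd_pow p (by omega)) hb)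
      rw [primeFactors_pmul hp ha hM]
      exact Finset.mem_insert_of_mem hx
    · intro b hb
      refine le_trans ?_ (hHt (p ^ v * b) (Nat.mul_dvd_mul (pow_dvd_pow p (by omega)) hb))
      rw [primeFactors_pmul hp ha hM, Finset.sum_insert hpM]
      have := mul_nonneg (by positivity : (0:ℝ) ≤ 1/(p:ℝ)) (hH p (p ^ v * b))
      linarith
  | @cent p a M1 R R1 v0 hp ha hM hlt hv0 h1 h ih =>
    intro f t H hf hH hHf hHt
    have hnd := nd_of_lt hp hlt
    have hpM : p ∉ M1.primeFactors := fun hc => hnd (Nat.dvd_of_mem_primeFactors hc)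
    have hnn : ∀ v, 0 ≤ nup p (a - v0) v := fun v => nup_nonneg hp.pos _ v
    have hπ0 : (0:ℝ) ≤ (1/(p:ℝ))^v0 := by positivity
    have hbig : ∀ j b, j ≤ a - v0 → b ∣ M1 → p ^ (v0 + j) * b ∣ p ^ a * M1 := fun j b hj hb =>
      Nat.mul_dvd_mul (pow_dvd_pow p (by omega)) hb
    have hsum : ∀ j b, j ≤ a - v0 → b ∣ M1 →
        ∑ x ∈ M1.primeFactors, 1 / (x:ℝ) * H x (p ^ (v0 + j) * b) +
          1 / (p:ℝ) * H p (p ^ (v0 + j) * b) ≤ t (p ^ (v0 + j) * b) := by
      intro j b hj hb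
      have := hHt _ (hbig j b hj hb)
      rw [primeFactors_pmul hp ha hM, Finset.sum_insert hpM] at this
      linarith
    have hsum0 : ∀ j b, 0 ≤ ∑ x ∈ M1.primeFactors, 1 / (x:ℝ) * H x (p ^ (v0 + j) * b) :=
      fun j b => Finset.sum_nonneg fun x _ => mul_nonneg (by positivity) (hH _ _)
    refine (cent_step v0 hp ha hM hlt hv0 h H (fun _ c => f c) hH (fun _ => hf)).trans ?_
    refine le_trans ?_ (rhs_cent hp hM hnd hv0 (fun b => 1/2 * f b ^ 2 + 3/4 * (f b + t b) ^ 2)
      (fun b => by positivity))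
    refine mul_le_mul_of_nonneg_left ?_ hπ0
    have ih1 := ih (av p a v0 f) (fun b => av p a v0 t b - 1/(p:ℝ) * (nup p (a - v0) 0 *
      H p (p ^ v0 * b))) (fun x => av p a v0 (H x)) (av_nonneg hp hf)
      (fun x => av_nonneg hp (hH x)) ?_ ?_
    · refine (add_le_add ih1 le_rfl).trans ?_
      rw [← Finset.sum_add_distrib]
      refine Finset.sum_le_sum fun b hb => ?_
      rw [Nat.mem_divisors] at hb
      rw [← mul_add]
      refine mul_le_mul_of_nonneg_left ?_ (nu_nonneg _ _)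
      have := point1 hp (a - v0) (fun j => f (p ^ (v0 + j) * b)) (fun j => t (p ^ (v0 + j) * b))
        (H p (p ^ v0 * b)) (fun j => hf _) ?_ (hH _ _) ?_ ?_
      · exact this
      · intro j hj
        have h2 := hsum j b hj hb.1
        have h3 := hsum0 j b
        have h4 := mul_nonneg (by positivity : (0:ℝ) ≤ 1/(p:ℝ)) (hH p (p ^ (v0 + j) * b))
        linarith
      · refine hHf p _ ?_ (hbig 0 b (Nat.zero_le _) hb.1)
        rw [primeFactors_pmul hp ha hM]
        exact Finset.mem_insert_self _ _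
      · have h2 := hsum 0 b (Nat.zero_le _) hb.1
        have h3 := hsum0 0 b
        simp only [add_zero] at h2 h3 ⊢
        linarith
    · intro x b hx hb
      unfold av
      refine Finset.sum_le_sum fun j hj => mul_le_mul_of_nonneg_left ?_ (hnn j)
      rw [Finset.mem_range] at hj
      refine hHf x _ ?_ (hbig j b (by omega) hb)
      rw [primeFactors_pmul hp ha hM]
      exact Finset.mem_insert_of_mem hx
    · intro b hb
      unfold av
      have e : ∑ x ∈ M1.primeFactors, 1 / (x:ℝ) * ∑ j ∈ range (a - v0 + 1), nup p (a - v0) j *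
          H x (p ^ (v0 + j) * b) = ∑ j ∈ range (a - v0 + 1), nup p (a - v0) j *
          ∑ x ∈ M1.primeFactors, 1 / (x:ℝ) * H x (p ^ (v0 + j) * b) := by
        simp only [Finset.mul_sum]
        rw [Finset.sum_comm]
        exact Finset.sum_congr rfl fun j _ => Finset.sum_congr rfl fun x _ => by ring
      rw [e]
      have h2 : ∑ j ∈ range (a - v0 + 1), nup p (a - v0) j *
          ∑ x ∈ M1.primeFactors, 1 / (x:ℝ) * H x (p ^ (v0 + j) * b) ≤
          ∑ j ∈ range (a - v0 + 1), nup p (a - v0) j * (t (p ^ (v0 + j) * b) -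
            1/(p:ℝ) * H p (p ^ (v0 + j) * b)) :=
        Finset.sum_le_sum fun j hj => mul_le_mul_of_nonneg_left (by
          rw [Finset.mem_range] at hj
          have := hsum j b (by omega) hb
          linarith) (hnn j)
      have h3 : ∑ j ∈ range (a - v0 + 1), nup p (a - v0) j * (t (p ^ (v0 + j) * b) -
            1/(p:ℝ) * H p (p ^ (v0 + j) * b)) =
          ∑ j ∈ range (a - v0 + 1), nup p (a - v0) j * t (p ^ (v0 + j) * b) -
          ∑ j ∈ range (a - v0 + 1), 1/(p:ℝ) * (nup p (a - v0) j * H p (p ^ (v0 + j) * b)) := by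
        rw [← Finset.sum_sub_distrib]
        exact Finset.sum_congr rfl fun j _ => by ring
      have h4 : 1/(p:ℝ) * (nup p (a - v0) 0 * H p (p ^ v0 * b)) ≤
          ∑ j ∈ range (a - v0 + 1), 1/(p:ℝ) * (nup p (a - v0) j * H p (p ^ (v0 + j) * b)) := by
        have := Finset.single_le_sum (f := fun j => 1/(p:ℝ) * (nup p (a - v0) j *
          H p (p ^ (v0 + j) * b))) (fun j _ => mul_nonneg (by positivity)
          (mul_nonneg (hnn j) (hH _ _))) (Finset.mem_range.2 (by omega : 0 < a - v0 + 1))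
        simpa using this
      linarith

/-- **SECOND HALF** (weights on the member containing `x`): one-prime potential -/
theorem half2 {M : ℕ} {R : ℕ → ℕ → ℕ → Prop} (hR : PureX M R) :
    ∀ (f t : ℕ → ℝ) (K : ℕ → ℕ → ℝ), (∀ b, 0 ≤ f b) → (∀ x b, 0 ≤ K x b) →
      (∀ b, b ∣ M → ∑ x ∈ M.primeFactors, K x b ≤ t b) →
      EE M R (fun _ b => f b) K ≤
        ∑ b ∈ M.divisors, nu M b * (1/2 * (f b + t b) ^ 2) := by
  induction hR with
  | @base M R h =>
    intro f t K hf hK hKt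
    rw [EE_base h]
    exact Finset.sum_nonneg fun b _ => mul_nonneg (nu_nonneg _ _) (by positivity)
  | @branch p a M1 R R1 hp ha hM hlt h1 h ih =>
    intro f t K hf hK hKt
    have hnd := nd_of_lt hp hlt
    have hpM : p ∉ M1.primeFactors := fun hc => hnd (Nat.dvd_of_mem_primeFactors hc)
    refine (branch_step hp ha hM hlt h (fun _ b => f b) K (fun _ => hf) hK).trans ?_
    rw [← rhs_branch hp hM hnd (fun b => 1/2 * (f b + t b) ^ 2)]
    refine Finset.sum_le_sum fun v hv => mul_le_mul_of_nonneg_left ?_ (nup_nonneg hp.pos _ _)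
    rw [Finset.mem_range] at hv
    refine ih v (by omega) (fun b => f (p ^ v * b)) (fun b => t (p ^ v * b))
      (fun x b => K x (p ^ v * b)) (fun b => hf _) (fun x b => hK _ _) ?_
    intro b hb
    refine le_trans ?_ (hKt (p ^ v * b) (Nat.mul_dvd_mul (pow_dvd_pow p (by omega)) hb))
    rw [primeFactors_pmul hp ha hM, Finset.sum_insert hpM]
    have := hK p (p ^ v * b)
    linarith
  | @cent p a M1 R R1 v0 hp ha hM hlt hv0 h1 h ih =>
    intro f t K hf hK hKt
    have hnd := nd_of_lt hp hlt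
    have hpM : p ∉ M1.primeFactors := fun hc => hnd (Nat.dvd_of_mem_primeFactors hc)
    have hnn : ∀ v, 0 ≤ nup p (a - v0) v := fun v => nup_nonneg hp.pos _ v
    have hπ0 : (0:ℝ) ≤ (1/(p:ℝ))^v0 := by positivity
    have hbig : ∀ j b, j ≤ a - v0 → b ∣ M1 → p ^ (v0 + j) * b ∣ p ^ a * M1 := fun j b hj hb =>
      Nat.mul_dvd_mul (pow_dvd_pow p (by omega)) hb
    have hsum : ∀ j b, j ≤ a - v0 → b ∣ M1 →
        ∑ x ∈ M1.primeFactors, K x (p ^ (v0 + j) * b) + K p (p ^ (v0 + j) * b) ≤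
          t (p ^ (v0 + j) * b) := by
      intro j b hj hb
      have := hKt _ (hbig j b hj hb)
      rw [primeFactors_pmul hp ha hM, Finset.sum_insert hpM] at this
      linarith
    have hsum0 : ∀ j b, 0 ≤ ∑ x ∈ M1.primeFactors, K x (p ^ (v0 + j) * b) :=
      fun j b => Finset.sum_nonneg fun x _ => hK _ _
    refine (cent_step v0 hp ha hM hlt hv0 h (fun _ b => f b) K (fun _ => hf) hK).trans ?_
    refine le_trans ?_ (rhs_cent hp hM hnd hv0 (fun b => 1/2 * (f b + t b) ^ 2)
      (fun b => by positivity))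
    refine mul_le_mul_of_nonneg_left ?_ hπ0
    have ih1 := ih (av p a v0 f) (fun b => av p a v0 t b - ∑ j ∈ Finset.Ico 1 (a - v0 + 1),
      nup p (a - v0) j * K p (p ^ (v0 + j) * b)) (fun x => av p a v0 (K x)) (av_nonneg hp hf)
      (fun x => av_nonneg hp (hK x)) ?_
    · refine (add_le_add ih1 le_rfl).trans ?_
      rw [← Finset.sum_add_distrib]
      refine Finset.sum_le_sum fun b hb => ?_
      rw [Nat.mem_divisors] at hb
      rw [← mul_add]
      refine mul_le_mul_of_nonneg_left ?_ (nu_nonneg _ _)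
      have := point2 hp (a - v0) (fun j => f (p ^ (v0 + j) * b)) (fun j => t (p ^ (v0 + j) * b))
        (fun j => K p (p ^ (v0 + j) * b)) (fun j => hf _) (fun j => hK _ _) ?_
      · exact this
      · intro j hj
        have h2 := hsum j b hj hb.1
        have h3 := hsum0 j b
        linarith
    · intro b hb
      unfold av
      rw [Finset.sum_comm]
      have e : ∑ j ∈ range (a - v0 + 1), ∑ x ∈ M1.primeFactors, nup p (a - v0) j *
          K x (p ^ (v0 + j) * b) = ∑ j ∈ range (a - v0 + 1), nup p (a - v0) j *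
          ∑ x ∈ M1.primeFactors, K x (p ^ (v0 + j) * b) := by
        simp only [Finset.mul_sum]
      rw [e]
      have h2 : ∑ j ∈ range (a - v0 + 1), nup p (a - v0) j *
          ∑ x ∈ M1.primeFactors, K x (p ^ (v0 + j) * b) ≤
          ∑ j ∈ range (a - v0 + 1), nup p (a - v0) j * (t (p ^ (v0 + j) * b) -
            K p (p ^ (v0 + j) * b)) :=
        Finset.sum_le_sum fun j hj => mul_le_mul_of_nonneg_left (by
          rw [Finset.mem_range] at hj
          have := hsum j b (by omega) hb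
          linarith) (hnn j)
      have h3 : ∑ j ∈ range (a - v0 + 1), nup p (a - v0) j * (t (p ^ (v0 + j) * b) -
            K p (p ^ (v0 + j) * b)) =
          ∑ j ∈ range (a - v0 + 1), nup p (a - v0) j * t (p ^ (v0 + j) * b) -
          ∑ j ∈ range (a - v0 + 1), nup p (a - v0) j * K p (p ^ (v0 + j) * b) := by
        rw [← Finset.sum_sub_distrib]
        exact Finset.sum_congr rfl fun j _ => by ring
      have h4 : ∑ j ∈ Finset.Ico 1 (a - v0 + 1), nup p (a - v0) j * K p (p ^ (v0 + j) * b) ≤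
          ∑ j ∈ range (a - v0 + 1), nup p (a - v0) j * K p (p ^ (v0 + j) * b) := by
        rw [range_eq (a - v0), Finset.sum_insert (by simp)]
        have := mul_nonneg (hnn 0) (hK p (p ^ (v0 + 0) * b))
        linarith
      linarith


/-! ### the relation over an F-Λ structure -/

/-- pure pair, smallest differing prime `x`, `b` has the smaller (= centre) letter at `x` -/
def RowRel {M : ℕ} (F : FL M) (x b c : ℕ) : Prop :=
  PureG F b c ∧ x.Prime ∧ (∀ q, q.Prime → q < x → b.factorization q = c.factorization q) ∧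
    b.factorization x < c.factorization x

/-- **bridge** -/
theorem pureX_of_FL : ∀ M : ℕ, 0 < M → ∀ F : FL M, PureX M (RowRel F) := by
  refine ind_max ?_ ?_
  · intro F
    refine PureX.base fun x b c hb hc h => ?_
    rw [Nat.dvd_one] at hb hc
    exact h.1.1 (hb.trans hc.symm)
  · intro p a M1 hp ha hM1 hnd hlt ih F
    have key : ∀ b, b ∣ M1 → b ≠ 0 ∧ ¬ p ∣ b := fun b hb =>
      ⟨(Nat.pos_of_dvd_of_pos hb hM1).ne', fun hd => hnd (hd.trans hb)⟩
    have hbig : ∀ v b, v ≤ a → b ∣ M1 → p ^ v * b ∣ p ^ a * M1 := fun v b hv hb =>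
      Nat.mul_dvd_mul (pow_dvd_pow p hv) hb
    -- letters above p vanish
    have habove : ∀ b q, b ∣ p ^ a * M1 → q.Prime → p < q → b.factorization q = 0 := by
      intro b q hb hq hpq
      refine Nat.factorization_eq_zero_of_not_dvd fun hd => ?_
      have h1 : q ∣ p ^ a * M1 := hd.trans hb
      rcases (Nat.Prime.dvd_mul hq).1 h1 with h2 | h2
      · have := (Nat.prime_dvd_prime_iff_eq hq hp).1 (hq.dvd_of_dvd_pow h2)
        omega
      · have := hlt q hq h2
        omega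
    -- status of p is constant
    have hst : ∀ b, b ∣ p ^ a * M1 → F.ctr b p = F.ctr 1 p := fun b hb =>
      F.coh hb (one_dvd _) hp fun q hq hpq _ => by
        rw [habove b q hb hq hpq, habove 1 q (one_dvd _) hq hpq]
    -- differing primes
    have hdiff : ∀ v v' b c, v ≤ a → v' ≤ a → b ∣ M1 → c ∣ M1 → p ^ v * b ≠ p ^ v' * c →
        ∃ r, r.Prime ∧ r ≤ p ∧
          (p ^ v * b).factorization r ≠ (p ^ v' * c).factorization r := by
      intro v v' b c hv hv' hb hc hne
      by_contra hcon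
      push Not at hcon
      apply hne
      refine Nat.eq_of_factorization_eq (mul_ne_zero (pow_ne_zero _ hp.ne_zero) (key b hb).1)
        (mul_ne_zero (pow_ne_zero _ hp.ne_zero) (key c hc).1) fun q => ?_
      by_cases hq : q.Prime
      · by_cases hqp : q ≤ p
        · exact hcon q hq hqp
        · rw [habove _ q (hbig v b hv hb) hq (by omega), habove _ q (hbig v' c hv' hc) hq (by omega)]
      · rw [Nat.factorization_eq_zero_of_not_prime _ hq, Nat.factorization_eq_zero_of_not_prime _ hq]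
    -- the smallest differing prime of the lower parts
    have hlow : ∀ x v v' b c, b ∣ M1 → c ∣ M1 → b ≠ c → x.Prime →
        (∀ q, q.Prime → q < x → (p ^ v * b).factorization q = (p ^ v' * c).factorization q) →
        (p ^ v * b).factorization x < (p ^ v' * c).factorization x →
        x ∈ M1.primeFactors ∧
          (∀ q, q.Prime → q < x → b.factorization q = c.factorization q) ∧
          b.factorization x < c.factorization x := by
      intro x v v' b c hb hc hne hx hmin hlx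
      obtain ⟨r, hr⟩ : ∃ r, b.factorization r ≠ c.factorization r := by
        by_contra hcon
        push Not at hcon
        exact hne (Nat.eq_of_factorization_eq (key b hb).1 (key c hc).1 hcon)
      have hrp : r.Prime := by
        by_contra hcon
        exact hr (by rw [Nat.factorization_eq_zero_of_not_prime _ hcon,
          Nat.factorization_eq_zero_of_not_prime _ hcon])
      have hrd : r ∣ M1 := by
        by_contra hcon
        exact hr (by rw [Nat.factorization_eq_zero_of_not_dvd (fun hd => hcon (hd.trans hb)),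
          Nat.factorization_eq_zero_of_not_dvd (fun hd => hcon (hd.trans hc))])
      have hrlt := hlt r hrp hrd
      have hxr : x ≤ r := by
        by_contra hcon
        have h1 := hmin r hrp (by omega)
        rw [fact_pmul hp v (key b hb).1 (key b hb).2, fact_pmul hp v' (key c hc).1 (key c hc).2,
          if_neg (by omega), if_neg (by omega)] at h1
        exact hr h1
      rw [fact_pmul hp v (key b hb).1 (key b hb).2, fact_pmul hp v' (key c hc).1 (key c hc).2,
          if_neg (by omega), if_neg (by omega)] at hlx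
      refine ⟨?_, ?_, hlx⟩
      · rw [Nat.mem_primeFactors]
        refine ⟨hx, ?_, hM1.ne'⟩
        by_contra hcon
        rw [Nat.factorization_eq_zero_of_not_dvd (fun hd => hcon (hd.trans hc))] at hlx
        omega
      · intro q hq hqx
        have h1 := hmin q hq hqx
        rw [fact_pmul hp v (key b hb).1 (key b hb).2, fact_pmul hp v' (key c hc).1 (key c hc).2,
          if_neg (by omega), if_neg (by omega)] at h1
        exact h1
    cases hst1 : F.ctr 1 p with
    | none =>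
      refine PureX.branch (R1 := fun v x b c => if hv : v ≤ a then
        RowRel (restr hp hM1 hnd v hv F) x b c else False) hp ha hM1 hlt ?_ ?_
      · intro v hv
        have := ih (restr hp hM1 hnd v hv F)
        simpa only [hv, dif_pos] using this
      · intro x v v' b c hv hv' hb hc hR
        obtain ⟨hR, hx, hmin, hlx⟩ := hR
        have hb' := hbig v b hv hb
        have hc' := hbig v' c hv' hc
        have h1 := (hR.2 p hp (hdiff v v' b c hv hv' hb hc hR.1)).1 (by rw [hst _ hb', hst1])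
        rw [fact_pmul hp v (key b hb).1 (key b hb).2, fact_pmul hp v' (key c hc).1 (key c hc).2,
          if_pos rfl, if_pos rfl] at h1
        subst h1
        have hne : b ≠ c := fun hbc => hR.1 (by rw [hbc])
        obtain ⟨g1, g2, g3⟩ := hlow x v v b c hb hc hne hx hmin hlx
        refine ⟨rfl, g1, ?_⟩
        rw [dif_pos hv]
        refine ⟨⟨hne, fun q hq hr => ?_⟩, hx, g2, g3⟩
        obtain ⟨r, hr, hrq, hrne⟩ := hr
        by_cases hqp : q = p
        · subst hqp
          have e1 := Nat.factorization_eq_zero_of_not_dvd (key b hb).2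
          have e2 := Nat.factorization_eq_zero_of_not_dvd (key c hc).2
          refine ⟨fun _ => by rw [e1, e2], fun w hw => ?_⟩
          simp only [restr, if_true, Option.some.injEq] at hw
          rw [e1, e2, ← hw]; rfl
        · have hrp : r ≠ p := by
            rintro rfl
            exact hrne (by rw [Nat.factorization_eq_zero_of_not_dvd (key b hb).2,
              Nat.factorization_eq_zero_of_not_dvd (key c hc).2])
          have h2 := hR.2 q hq ⟨r, hr, hrq, by
            rw [fact_pmul hp v (key b hb).1 (key b hb).2, fact_pmul hp v (key c hc).1 (key c hc).2,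
              if_neg hrp, if_neg hrp]
            exact hrne⟩
          rw [fact_pmul hp v (key b hb).1 (key b hb).2, fact_pmul hp v (key c hc).1 (key c hc).2,
            if_neg hqp, if_neg hqp] at h2
          refine ⟨fun hn => h2.1 ?_, fun w hw => h2.2 w ?_⟩
          · simpa only [restr, hqp, if_false] using hn
          · simpa only [restr, hqp, if_false] using hw
    | some v0 =>
      have hv0 : v0 ≤ a := by
        have h1 := F.le (one_dvd _) hp hst1
        rw [fact_pmul hp a hM1.ne' hnd, if_pos rfl] at h1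
        exact h1
      -- the tree below does not depend on the letter of p
      have hind : ∀ v b q, v ≤ a → b ∣ M1 → q.Prime → q ≠ p →
          F.ctr (p ^ v * b) q = F.ctr (p ^ v0 * b) q := by
        intro v b q hv hb hq hqp
        refine F.coh (hbig v b hv hb) (hbig v0 b hv0 hb) hq fun r hr hqr hn => ?_
        have hrp : r ≠ p := by
          rintro rfl
          rw [hst _ (hbig v b hv hb), hst1] at hn
          cases hn
        rw [fact_pmul hp v (key b hb).1 (key b hb).2, fact_pmul hp v0 (key b hb).1 (key b hb).2,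
          if_neg hrp, if_neg hrp]
      refine PureX.cent (R1 := RowRel (restr hp hM1 hnd v0 hv0 F)) v0 hp ha hM1 hlt hv0 (ih _) ?_
      intro x v v' b c hv hv' hb hc hR
      obtain ⟨hR, hx, hmin, hlx⟩ := hR
      have hb' := hbig v b hv hb
      have h1 := (hR.2 p hp (hdiff v v' b c hv hv' hb hc hR.1)).2 v0 (by rw [hst _ hb', hst1])
      rw [fact_pmul hp v (key b hb).1 (key b hb).2, fact_pmul hp v' (key c hc).1 (key c hc).2,
        if_pos rfl, if_pos rfl] at h1
      refine ⟨h1, ?_⟩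
      by_cases hbc : b = c
      · right
        subst hbc
        rw [fact_pmul hp v (key b hb).1 (key b hb).2, fact_pmul hp v' (key b hb).1 (key b hb).2]
          at hlx
        by_cases hxp : x = p
        · rw [if_pos hxp, if_pos hxp] at hlx
          exact ⟨hxp, rfl, by omega, by omega⟩
        · rw [if_neg hxp, if_neg hxp] at hlx
          omega
      · left
        obtain ⟨g1, g2, g3⟩ := hlow x v v' b c hb hc hbc hx hmin hlx
        refine ⟨g1, ⟨hbc, fun q hq hr => ?_⟩, hx, g2, g3⟩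
        obtain ⟨r, hr, hrq, hrne⟩ := hr
        by_cases hqp : q = p
        · subst hqp
          have e1 := Nat.factorization_eq_zero_of_not_dvd (key b hb).2
          have e2 := Nat.factorization_eq_zero_of_not_dvd (key c hc).2
          refine ⟨fun _ => by rw [e1, e2], fun w hw => ?_⟩
          simp only [restr, if_true, Option.some.injEq] at hw
          rw [e1, e2, ← hw]; rfl
        · have hrp : r ≠ p := by
            rintro rfl
            exact hrne (by rw [Nat.factorization_eq_zero_of_not_dvd (key b hb).2,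
              Nat.factorization_eq_zero_of_not_dvd (key c hc).2])
          have h2 := hR.2 q hq ⟨r, hr, hrq, by
            rw [fact_pmul hp v (key b hb).1 (key b hb).2, fact_pmul hp v' (key c hc).1 (key c hc).2,
              if_neg hrp, if_neg hrp]
            exact hrne⟩
          rw [fact_pmul hp v (key b hb).1 (key b hb).2, fact_pmul hp v' (key c hc).1 (key c hc).2,
            if_neg hqp, if_neg hqp, hind v b q hv hb hq hqp] at h2
          refine ⟨fun hn => h2.1 ?_, fun w hw => h2.2 w ?_⟩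
          · simpa only [restr, hqp, if_false] using hn
          · simpa only [restr, hqp, if_false] using hw

section Rel

variable {M : ℕ} {F : FL M}

lemma row_ctr {x b c : ℕ} (h : RowRel F x b c) : F.ctr b x = some (b.factorization x) := by
  obtain ⟨hp, hx, _, hlx⟩ := h
  have h1 := hp.2 x hx ⟨x, hx, le_rfl, by omega⟩
  cases hc : F.ctr b x with
  | none => have := h1.1 hc; omega
  | some v =>
    have := h1.2 v hc
    rw [show v = b.factorization x by omega]

lemma row_lt {x b c : ℕ} (hM : 0 < M) (hc : c ∣ M) (h : RowRel F x b c) :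
    b.factorization x < M.factorization x :=
  lt_of_lt_of_le h.2.2.2 ((Nat.factorization_le_iff_dvd
    (Nat.pos_of_dvd_of_pos hc hM).ne' hM.ne').2 hc x)

lemma row_mem {x b c : ℕ} (hM : 0 < M) (hc : c ∣ M) (h : RowRel F x b c) :
    x ∈ M.primeFactors := by
  have := row_lt hM hc h
  rw [← Nat.support_factorization, Finsupp.mem_support_iff]
  omega

/-- equal statuses at the primes above a differing one -/
lemma pureG_ctr {b c : ℕ} (hb : b ∣ M) (hc : c ∣ M) (h : PureG F b c) {q : ℕ} (hq : q.Prime)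
    (hr : ∃ r, r.Prime ∧ r ≤ q ∧ b.factorization r ≠ c.factorization r) :
    F.ctr b q = F.ctr c q := by
  obtain ⟨r, hr, hrq, hrne⟩ := hr
  exact F.coh hb hc hq fun q' hq' hlt hn => (h.2 q' hq' ⟨r, hr, by omega, hrne⟩).1 hn

lemma pureG_symm {b c : ℕ} (hb : b ∣ M) (hc : c ∣ M) (h : PureG F b c) : PureG F c b := by
  refine ⟨h.1.symm, fun q hq hr => ?_⟩
  obtain ⟨r, hr, hrq, hrne⟩ := hr
  have h1 : ∃ r, r.Prime ∧ r ≤ q ∧ b.factorization r ≠ c.factorization r := ⟨r, hr, hrq, hrne.symm⟩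
  have h2 := h.2 q hq h1
  rw [← pureG_ctr hb hc h hq h1]
  refine ⟨fun hn => (h2.1 hn).symm, fun v hv => ?_⟩
  rw [min_comm]; exact h2.2 v hv

lemma row_ctr' {x b c : ℕ} (hb : b ∣ M) (hc : c ∣ M) (h : RowRel F x b c) :
    F.ctr c x = some (b.factorization x) := by
  rw [← pureG_ctr hb hc h.1 h.2.1 ⟨x, h.2.1, le_rfl, by have := h.2.2.2; omega⟩]
  exact row_ctr h

/-- every pure pair has a smallest differing prime, on one of the two sides -/
lemma exists_row {b c : ℕ} (hM : 0 < M) (hb : b ∣ M) (hc : c ∣ M) (h : PureG F b c) :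
    ∃ x ∈ M.primeFactors, RowRel F x b c ∨ RowRel F x c b := by
  classical
  have hb0 : b ≠ 0 := (Nat.pos_of_dvd_of_pos hb hM).ne'
  have hc0 : c ≠ 0 := (Nat.pos_of_dvd_of_pos hc hM).ne'
  have hex : ∃ r, r.Prime ∧ b.factorization r ≠ c.factorization r := by
    by_contra hcon
    push Not at hcon
    refine h.1 (Nat.eq_of_factorization_eq hb0 hc0 fun q => ?_)
    by_cases hq : q.Prime
    · exact hcon q hq
    · rw [Nat.factorization_eq_zero_of_not_prime _ hq, Nat.factorization_eq_zero_of_not_prime _ hq]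
  have hx := Nat.find_spec hex
  have hmin : ∀ q, q.Prime → q < Nat.find hex → b.factorization q = c.factorization q := by
    intro q hq hlt
    by_contra hcon
    exact Nat.find_min hex hlt ⟨hq, hcon⟩
  rcases lt_or_gt_of_ne hx.2 with h1 | h1
  · have hR : RowRel F (Nat.find hex) b c := ⟨h, hx.1, hmin, h1⟩
    exact ⟨_, row_mem hM hc hR, Or.inl hR⟩
  · have hR : RowRel F (Nat.find hex) c b :=
      ⟨pureG_symm hb hc h, hx.1, fun q hq hlt => (hmin q hq hlt).symm, h1⟩
    exact ⟨_, row_mem hM hb hR, Or.inr hR⟩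

end Rel

lemma frm_symm {M : ℕ} (G : ℕ → ℕ → ℝ) : frm M (fun b c => G c b) = frm M G := by
  unfold frm
  rw [Finset.sum_comm]
  refine Finset.sum_congr rfl fun b _ => Finset.sum_congr rfl fun c _ => ?_
  dsimp only
  rw [Nat.gcd_comm]; ring

/-- hypotheses on the weights: `b` misses `x`, `c` contains `x` in excess -/
structure RowW {M : ℕ} (F : FL M) (κ α α' : ℕ → ℕ → ℝ) (N N' : ℝ) : Prop where
  κ0 : ∀ b c, 0 ≤ κ b c
  α0 : ∀ x b, 0 ≤ α x b
  αN : ∀ x b, α x b ≤ N
  α'0 : ∀ x b, 0 ≤ α' x b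
  /-- row sum of the missing member -/
  row : ∀ b, b ∣ M → ∑ x ∈ M.primeFactors.filter (fun x =>
    F.ctr b x = some (b.factorization x) ∧ b.factorization x < M.factorization x),
      1 / (x:ℝ) * α x b ≤ N
  /-- number of charged letters of the member containing `x` -/
  row' : ∀ c, c ∣ M → ∑ x ∈ M.primeFactors.filter (fun x =>
    ∃ v, F.ctr c x = some v ∧ v < c.factorization x), α' x c ≤ N'
  /-- the weight, both orders -/
  le : ∀ x b c, b ∣ M → c ∣ M → RowRel F x b c → κ b c * Vx M x b ≤ α x b + α' x c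
  le' : ∀ x b c, b ∣ M → c ∣ M → RowRel F x b c → κ c b * Vx M x b ≤ α x b + α' x c

open Classical in
/-- one orientation -/
lemma row_one {M : ℕ} (hM : 0 < M) {F : FL M} {κ α α' : ℕ → ℕ → ℝ} {N N' : ℝ}
    (hN : 0 < N) (hN' : 0 < N') (hW : RowW F κ α α' N N')
    (κ1 : ℕ → ℕ → ℝ)
    (hle : ∀ x b c, b ∣ M → c ∣ M → RowRel F x b c → κ1 b c * Vx M x b ≤ α x b + α' x c)
    (f : ℕ → ℝ) (hf : ∀ b, 0 ≤ f b) :
    ∑ x ∈ M.primeFactors, frm M (fun b c => if RowRel F x b c then κ1 b c * (f b * f c) else 0) ≤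
      (7/2 * N + 2 * N') * ∑ b ∈ M.divisors, nu M b * f b ^ 2 := by
  set H : ℕ → ℕ → ℝ := fun x b => if F.ctr b x = some (b.factorization x) ∧
    b.factorization x < M.factorization x then N⁻¹ * α x b * f b else 0 with hH
  set K : ℕ → ℕ → ℝ := fun x c => if ∃ v, F.ctr c x = some v ∧ v < c.factorization x then
    N'⁻¹ * α' x c * f c else 0 with hK
  have hNi : 0 ≤ N⁻¹ := inv_nonneg.2 hN.le
  have hNi' : 0 ≤ N'⁻¹ := inv_nonneg.2 hN'.le
  have hH0 : ∀ x b, 0 ≤ H x b := by
    intro x b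
    simp only [hH]
    split_ifs
    · exact mul_nonneg (mul_nonneg hNi (hW.α0 _ _)) (hf _)
    · exact le_rfl
  have hK0 : ∀ x b, 0 ≤ K x b := by
    intro x b
    simp only [hK]
    split_ifs
    · exact mul_nonneg (mul_nonneg hNi' (hW.α'0 _ _)) (hf _)
    · exact le_rfl
  have hHf : ∀ x b, x ∈ M.primeFactors → b ∣ M → H x b ≤ f b := by
    intro x b _ _
    simp only [hH]
    split_ifs
    · have h1 : N⁻¹ * α x b ≤ 1 := by
        rw [inv_mul_le_iff₀ hN, mul_one]; exact hW.αN x b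
      calc N⁻¹ * α x b * f b ≤ 1 * f b := mul_le_mul_of_nonneg_right h1 (hf b)
        _ = f b := one_mul _
    · exact hf b
  have hHt : ∀ b, b ∣ M → ∑ x ∈ M.primeFactors, 1 / (x:ℝ) * H x b ≤ f b := by
    intro b hb
    have e : ∑ x ∈ M.primeFactors, 1 / (x:ℝ) * H x b =
        N⁻¹ * (∑ x ∈ M.primeFactors.filter (fun x =>
          F.ctr b x = some (b.factorization x) ∧ b.factorization x < M.factorization x),
          1 / (x:ℝ) * α x b) * f b := by
      rw [Finset.mul_sum, Finset.sum_mul, Finset.sum_filter]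
      refine Finset.sum_congr rfl fun x _ => ?_
      simp only [hH]
      split_ifs
      · ring
      · ring
    rw [e]
    have h1 : N⁻¹ * (∑ x ∈ M.primeFactors.filter (fun x =>
          F.ctr b x = some (b.factorization x) ∧ b.factorization x < M.factorization x),
          1 / (x:ℝ) * α x b) ≤ 1 := by
      rw [inv_mul_le_iff₀ hN, mul_one]; exact hW.row b hb
    calc _ ≤ 1 * f b := mul_le_mul_of_nonneg_right h1 (hf b)
      _ = f b := one_mul _
  have hKt : ∀ b, b ∣ M → ∑ x ∈ M.primeFactors, K x b ≤ f b := by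
    intro b hb
    have e : ∑ x ∈ M.primeFactors, K x b =
        N'⁻¹ * (∑ x ∈ M.primeFactors.filter (fun x =>
          ∃ v, F.ctr b x = some v ∧ v < b.factorization x), α' x b) * f b := by
      rw [Finset.mul_sum, Finset.sum_mul, Finset.sum_filter]
    rw [e]
    have h1 : N'⁻¹ * (∑ x ∈ M.primeFactors.filter (fun x =>
          ∃ v, F.ctr b x = some v ∧ v < b.factorization x), α' x b) ≤ 1 := by
      rw [inv_mul_le_iff₀ hN', mul_one]; exact hW.row' b hb
    calc _ ≤ 1 * f b := mul_le_mul_of_nonneg_right h1 (hf b)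
      _ = f b := one_mul _
  have hR := pureX_of_FL M hM F
  have A1 := half1 hR f f H hf hH0 hHf hHt
  have A2 := half2 hR f f K hf hK0 hKt
  have hmain : ∑ x ∈ M.primeFactors,
      frm M (fun b c => if RowRel F x b c then κ1 b c * (f b * f c) else 0) ≤
      N * EE M (RowRel F) H (fun _ c => f c) + N' * EE M (RowRel F) (fun _ b => f b) K := by
    unfold EE
    rw [Finset.mul_sum, Finset.mul_sum, ← Finset.sum_add_distrib]
    refine Finset.sum_le_sum fun x hx => ?_
    rw [← frm_smul, ← frm_smul, ← frm_add]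
    refine frm_mono fun b c hb hc => ?_
    by_cases h : RowRel F x b c
    · simp only [if_pos h]
      have hV := Vx_pos hM hb x
      have h1 := hle x b c hb hc h
      have hHx : H x b = N⁻¹ * α x b * f b := by
        simp only [hH]
        rw [if_pos ⟨row_ctr h, row_lt hM hc h⟩]
      have hKx : K x c = N'⁻¹ * α' x c * f c := by
        simp only [hK]
        rw [if_pos ⟨_, row_ctr' hb hc h, h.2.2.2⟩]
      rw [hHx, hKx]
      have h2 : κ1 b c ≤ (α x b + α' x c) * (Vx M x b)⁻¹ := by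
        rw [← div_eq_mul_inv, le_div_iff₀ hV]; exact h1
      calc κ1 b c * (f b * f c) ≤ (α x b + α' x c) * (Vx M x b)⁻¹ * (f b * f c) :=
            mul_le_mul_of_nonneg_right h2 (mul_nonneg (hf _) (hf _))
        _ = (N * N⁻¹) * (α x b * f b * f c * (Vx M x b)⁻¹) +
            (N' * N'⁻¹) * (f b * (α' x c * f c) * (Vx M x b)⁻¹) := by
              rw [mul_inv_cancel₀ hN.ne', mul_inv_cancel₀ hN'.ne']; ring
        _ = _ := by ring
    · simp only [if_neg h]
      simp
  refine hmain.trans ?_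
  have e1 : ∑ b ∈ M.divisors, nu M b * (1/2 * f b ^ 2 + 3/4 * (f b + f b) ^ 2) =
      7/2 * ∑ b ∈ M.divisors, nu M b * f b ^ 2 := by
    rw [Finset.mul_sum]
    exact Finset.sum_congr rfl fun b _ => by ring
  have e2 : ∑ b ∈ M.divisors, nu M b * (1/2 * (f b + f b) ^ 2) =
      2 * ∑ b ∈ M.divisors, nu M b * f b ^ 2 := by
    rw [Finset.mul_sum]
    exact Finset.sum_congr rfl fun b _ => by ring
  rw [e1] at A1
  rw [e2] at A2
  have B1 := mul_le_mul_of_nonneg_left A1 hN.le
  have B2 := mul_le_mul_of_nonneg_left A2 hN'.le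
  linarith

open Classical in
/-- **TWO-SIDED L² ROW LEMMA, quadratic form** -/
theorem row2_quad {M : ℕ} (hM : 0 < M) {F : FL M} {κ α α' : ℕ → ℕ → ℝ} {N N' : ℝ}
    (hN : 0 < N) (hN' : 0 < N') (hW : RowW F κ α α' N N') (f : ℕ → ℝ) (hf : ∀ b, 0 ≤ f b) :
    frm M (fun b c => if PureG F b c then κ b c * (f b * f c) else 0) ≤
      (7 * N + 4 * N') * ∑ b ∈ M.divisors, nu M b * f b ^ 2 := by
  have h1 := row_one hM hN hN' hW κ hW.le f hf
  have h2 := row_one hM hN hN' hW (fun b c => κ c b) hW.le' f hf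
  have h3 : frm M (fun b c => if PureG F b c then κ b c * (f b * f c) else 0) ≤
      ∑ x ∈ M.primeFactors, frm M (fun b c => if RowRel F x b c then κ b c * (f b * f c) else 0) +
      ∑ x ∈ M.primeFactors, frm M (fun b c => if RowRel F x b c then κ c b * (f b * f c) else 0) := by
    have e : ∀ x, frm M (fun b c => if RowRel F x b c then κ c b * (f b * f c) else 0) =
        frm M (fun b c => if RowRel F x c b then κ b c * (f b * f c) else 0) := by
      intro x
      rw [← frm_symm (fun b c => if RowRel F x c b then κ b c * (f b * f c) else 0)]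
      congr 1
      funext b c
      rw [mul_comm (f b) (f c)]
    simp only [e]
    rw [← Finset.sum_add_distrib]
    simp only [← frm_add]
    rw [← frm_sum M.primeFactors (fun x b c => (if RowRel F x b c then κ b c * (f b * f c) else 0) +
      (if RowRel F x c b then κ b c * (f b * f c) else 0))]
    refine frm_mono fun b c hb hc => ?_
    have hnn : ∀ x ∈ M.primeFactors, 0 ≤ (if RowRel F x b c then κ b c * (f b * f c) else 0) +
      (if RowRel F x c b then κ b c * (f b * f c) else 0) := by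
      intro x _
      have := mul_nonneg (hW.κ0 b c) (mul_nonneg (hf b) (hf c))
      refine add_nonneg ?_ ?_ <;> split_ifs <;> first | exact this | exact le_rfl
    by_cases h : PureG F b c
    · rw [if_pos h]
      obtain ⟨x, hx, hR⟩ := exists_row hM hb hc h
      refine le_trans ?_ (Finset.single_le_sum hnn hx)
      have := mul_nonneg (hW.κ0 b c) (mul_nonneg (hf b) (hf c))
      rcases hR with hR | hR
      · rw [if_pos hR]
        split_ifs <;> linarith
      · rw [if_pos hR]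
        split_ifs <;> linarith
    · rw [if_neg h]
      exact Finset.sum_nonneg hnn
  refine h3.trans ?_
  linarith

open Classical in
/-- **TWO-SIDED L² ROW LEMMA, bilinear form** -/
theorem row2_bilin {M : ℕ} (hM : 0 < M) {F : FL M} {κ α α' : ℕ → ℕ → ℝ} {N N' : ℝ}
    (hN : 0 < N) (hN' : 0 < N') (hW : RowW F κ α α' N N') (f g : ℕ → ℝ) (hf : ∀ b, 0 ≤ f b)
    (hg : ∀ b, 0 ≤ g b) {x : ℝ} (hx : 0 < x) :
    frm M (fun b c => if PureG F b c then κ b c * (f b * g c) else 0) ≤
      (14 * N + 8 * N') * (x * ∑ b ∈ M.divisors, nu M b * f b ^ 2 +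
        x⁻¹ * ∑ b ∈ M.divisors, nu M b * g b ^ 2) := by
  have hsx : 0 < Real.sqrt x := Real.sqrt_pos.2 hx
  set y := Real.sqrt x with hy
  have hyy : y * y = x := Real.mul_self_sqrt hx.le
  set h : ℕ → ℝ := fun b => y * f b + y⁻¹ * g b with hh
  have hh0 : ∀ b, 0 ≤ h b := fun b => add_nonneg (mul_nonneg hsx.le (hf b))
    (mul_nonneg (inv_nonneg.2 hsx.le) (hg b))
  have h1 : frm M (fun b c => if PureG F b c then κ b c * (f b * g c) else 0) ≤
      frm M (fun b c => if PureG F b c then κ b c * (h b * h c) else 0) := by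
    refine frm_mono fun b c _ _ => ?_
    split_ifs
    · refine mul_le_mul_of_nonneg_left ?_ (hW.κ0 b c)
      simp only [hh]
      have e : (y * f b + y⁻¹ * g b) * (y * f c + y⁻¹ * g c)
          = f b * g c + (y * y * (f b * f c) + g b * f c + y⁻¹ * y⁻¹ * (g b * g c)) := by
        field_simp; ring
      rw [e]
      have a1 := mul_nonneg (hf b) (hf c)
      have a2 := mul_nonneg (hg b) (hf c)
      have a3 := mul_nonneg (hg b) (hg c)
      have : 0 ≤ y * y * (f b * f c) + g b * f c + y⁻¹ * y⁻¹ * (g b * g c) := by positivity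
      linarith
    · exact le_rfl
  refine h1.trans ((row2_quad hM hN hN' hW h hh0).trans ?_)
  have h5 : ∑ b ∈ M.divisors, nu M b * h b ^ 2 ≤ 2 * (x * ∑ b ∈ M.divisors, nu M b * f b ^ 2 +
        x⁻¹ * ∑ b ∈ M.divisors, nu M b * g b ^ 2) := by
    rw [Finset.mul_sum, Finset.mul_sum, ← Finset.sum_add_distrib, Finset.mul_sum]
    refine Finset.sum_le_sum fun b _ => ?_
    have h2 := nu_nonneg M b
    have h3 : h b ^ 2 ≤ 2 * (x * f b^2 + x⁻¹ * g b^2) := by
      simp only [hh]
      have e : x⁻¹ = y⁻¹ * y⁻¹ := by rw [← hyy, mul_inv]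
      rw [e, ← hyy]
      nlinarith [sq_nonneg (y * f b - y⁻¹ * g b)]
    have h4 := mul_le_mul_of_nonneg_left h3 h2
    calc (nu M b * h b ^ 2) ≤ (nu M b * (2 * (x * f b^2 + x⁻¹ * g b^2))) := by linarith
      _ = 2 * (x * (nu M b * f b ^ 2) + x⁻¹ * (nu M b * g b ^ 2)) := by ring
  have h6 : 0 ≤ 7 * N + 4 * N' := by positivity
  calc (7 * N + 4 * N') * ∑ b ∈ M.divisors, nu M b * h b ^ 2
      ≤ (7 * N + 4 * N') * (2 * (x * ∑ b ∈ M.divisors, nu M b * f b ^ 2 +
        x⁻¹ * ∑ b ∈ M.divisors, nu M b * g b ^ 2)) := mul_le_mul_of_nonneg_left h5 h6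
    _ = _ := by ring

open Classical in
/-- **TWO-SIDED L² ROW LEMMA, Cauchy form** -/
theorem row2_sqrt {M : ℕ} (hM : 0 < M) {F : FL M} {κ α α' : ℕ → ℕ → ℝ} {N N' : ℝ}
    (hN : 0 < N) (hN' : 0 < N') (hW : RowW F κ α α' N N') (f g : ℕ → ℝ) (hf : ∀ b, 0 ≤ f b)
    (hg : ∀ b, 0 ≤ g b) :
    frm M (fun b c => if PureG F b c then κ b c * (f b * g c) else 0) ≤
      (28 * N + 16 * N') * (Real.sqrt (∑ b ∈ M.divisors, nu M b * f b ^ 2) *
        Real.sqrt (∑ b ∈ M.divisors, nu M b * g b ^ 2)) := by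
  set A := ∑ b ∈ M.divisors, nu M b * f b ^ 2 with hA
  set B := ∑ b ∈ M.divisors, nu M b * g b ^ 2 with hB
  have hA0 : 0 ≤ A := Finset.sum_nonneg fun b _ => mul_nonneg (nu_nonneg _ _) (sq_nonneg _)
  have hB0 : 0 ≤ B := Finset.sum_nonneg fun b _ => mul_nonneg (nu_nonneg _ _) (sq_nonneg _)
  have hb := fun (x : ℝ) (hx : 0 < x) => row2_bilin hM hN hN' hW f g hf hg hx
  rw [← hA, ← hB] at hb
  have hC : 0 < 14 * N + 8 * N' := by positivity
  -- perturb to treat zero masses
  have key : ∀ ε : ℝ, 0 < ε → frm M (fun b c => if PureG F b c then κ b c * (f b * g c) else 0) ≤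
      (28 * N + 16 * N') * (Real.sqrt (A + ε) * Real.sqrt (B + ε)) := by
    intro ε hε
    have hAe : 0 < Real.sqrt (A + ε) := Real.sqrt_pos.2 (by linarith)
    have hBe : 0 < Real.sqrt (B + ε) := Real.sqrt_pos.2 (by linarith)
    have hAA := Real.mul_self_sqrt (show 0 ≤ A + ε by linarith)
    have hBB := Real.mul_self_sqrt (show 0 ≤ B + ε by linarith)
    set u := Real.sqrt (A + ε)
    set v := Real.sqrt (B + ε)
    have h1 := hb (v / u) (div_pos hBe hAe)
    refine h1.trans ?_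
    have h2 : v / u * A ≤ v * u := by
      rw [div_mul_eq_mul_div, div_le_iff₀ hAe]
      nlinarith
    have h3 : (v / u)⁻¹ * B ≤ v * u := by
      rw [inv_div, div_mul_eq_mul_div, div_le_iff₀ hBe]
      nlinarith
    calc (14 * N + 8 * N') * (v / u * A + (v / u)⁻¹ * B)
        ≤ (14 * N + 8 * N') * (v * u + v * u) := mul_le_mul_of_nonneg_left (by linarith) hC.le
      _ = _ := by ring
  have hcont : Filter.Tendsto (fun ε : ℝ => (28 * N + 16 * N') * (Real.sqrt (A + ε) *
      Real.sqrt (B + ε))) (nhdsWithin 0 (Set.Ioi 0))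
      (nhds ((28 * N + 16 * N') * (Real.sqrt (A + 0) * Real.sqrt (B + 0)))) := by
    refine Filter.Tendsto.mono_left ?_ nhdsWithin_le_nhds
    have hc : Continuous (fun ε : ℝ => (28 * N + 16 * N') * (Real.sqrt (A + ε) *
      Real.sqrt (B + ε))) := by fun_prop
    exact hc.tendsto 0
  rw [add_zero, add_zero] at hcont
  refine ge_of_tendsto hcont ?_
  filter_upwards [self_mem_nhdsWithin] with ε hε
  exact key ε hε

/-! ### the row sum of the coins -/

/-- `Σ_{x ∈ S} (1/x) ∏_{q ∈ S, q < x} (1 - 1/q) ≤ 1` -/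
theorem coin_row (S : Finset ℕ) (hS : ∀ x ∈ S, x.Prime) :
    ∑ x ∈ S, 1 / (x:ℝ) * ∏ q ∈ S.filter (fun q => q < x), (1 - 1 / (q:ℝ)) ≤ 1 := by
  classical
  have h : ∀ n : ℕ, ∑ x ∈ S.filter (fun x => x < n), 1 / (x:ℝ) *
      ∏ q ∈ S.filter (fun q => q < x), (1 - 1 / (q:ℝ)) =
      1 - ∏ q ∈ S.filter (fun q => q < n), (1 - 1 / (q:ℝ)) := by
    intro n
    induction n with
    | zero => simp
    | succ n ih =>
      by_cases hn : n ∈ S
      · have e : S.filter (fun x => x < n + 1) = insert n (S.filter (fun x => x < n)) := by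
          ext y; simp only [Finset.mem_filter, Finset.mem_insert]
          constructor
          · rintro ⟨h1, h2⟩
            by_cases hy : y = n
            · exact Or.inl hy
            · exact Or.inr ⟨h1, by omega⟩
          · rintro (h1 | ⟨h1, h2⟩)
            · subst h1; exact ⟨hn, by omega⟩
            · exact ⟨h1, by omega⟩
        have hnn : n ∉ S.filter (fun x => x < n) := by simp
        rw [e, Finset.sum_insert hnn, Finset.prod_insert hnn, ih]
        ring
      · have e : S.filter (fun x => x < n + 1) = S.filter (fun x => x < n) := by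
          ext y; simp only [Finset.mem_filter]
          constructor
          · rintro ⟨h1, h2⟩
            refine ⟨h1, ?_⟩
            rcases Nat.lt_succ_iff_lt_or_eq.1 h2 with h3 | h3
            · exact h3
            · exact absurd (h3 ▸ h1) hn
          · rintro ⟨h1, h2⟩
            exact ⟨h1, by omega⟩
        rw [e, ih]
  have h1 := h (S.sup id + 1)
  have e : S.filter (fun x => x < S.sup id + 1) = S := by
    refine Finset.filter_true_of_mem fun x hx => ?_
    have : x ≤ S.sup id := Finset.le_sup (f := id) hx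
    omega
  rw [e] at h1
  rw [h1]
  have : 0 ≤ ∏ q ∈ S, (1 - 1 / (q:ℝ)) := by
    refine Finset.prod_nonneg fun q hq => ?_
    have := (w_half (hS q hq)).2
    linarith
  linarith

/-- the row sum for a family of places contained in `S` -/
theorem coin_row_sub (S T : Finset ℕ) (hS : ∀ x ∈ S, x.Prime) (hT : T ⊆ S) :
    ∑ x ∈ T, 1 / (x:ℝ) * ∏ q ∈ S.filter (fun q => q < x), (1 - 1 / (q:ℝ)) ≤ 1 := by
  refine (Finset.sum_le_sum_of_subset_of_nonneg hT fun x _ _ => ?_).trans (coin_row S hS)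
  refine mul_nonneg (by positivity) (Finset.prod_nonneg fun q hq => ?_)
  have := (w_half (hS q (Finset.mem_filter.1 hq).1)).2
  linarith

end Crest.Agent.R4C.Row2x7
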