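import Crest.Agent.R4C.PairR_14
import Crest.Agent.R4C.Row2_7
import Crest.Agent.R4C.LowL_899

/-!
# Row 4, leaf S6-4 (β): the smallest differing high prime is the first unexplained letter (helper7)

Note 3463 (L)(2)(β), 3229 (2)(ii).

* `x1 y c f` : the first letter `> y` of `c` unexplained by the centre `f` (`q ∣ c`, `q ∣ den f`);
  `x1_eq`, `x1_upp` (depends only on the letters above `y`).
* **`beta_core`** : same point `s f - s' f' + h = 0`, `x ∣ s'`, words equal on `(y, x)`, `f` a centre of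
  `b = g s` at a cut `X ≥ x` whose `k0` has only primes `≤ y`, `x` not explained: `x = x1 y c f'`.
* **`beta_rule`**, `beta_pair` (`KCb` language) : unkilled pair, `f` tree centre of the member `b`
  missing `x` at an index `m` with the block of `x` active: `x = x1 y c f'` or `Alt F P m b f x`;
  `beta_pair'` : if moreover the depth is `≤` the threshold: `x = x1 y c f'` or a deeper centre of a
  larger scale is used (class (H)).
* `RowUp F x b c` : pure above `x`, `b` misses `x`, `c` contains it; `rowRel_iff`, `rowUp_congr`,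
  `rowUp_of_good`, `rowUp_hi`, `rowRel_hi` (words above a cut, twists removed).
* `boostK F α α'`, **`setW_boost`** : the boosted pure kernel satisfies 899's `SetW` with the constant
  `28 N + 16 N'` (from `Row2_7`).
* `tw_row`, `tw_row'`, `x1_row` : twisted weights `Σ_{κ ∈ KK z} a x (κ z)`, `Σ_κ 1[ξ (κ z) = x]`.
-/

set_option autoImplicit false

namespace Crest.Agent.R4C.Betax7

open Finset
open Crest.Agent.R4C.FLDefx935 Crest.Agent.R4C.BoostCx972 Crest.Agent.R4C.CrCoinx935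
  Crest.Agent.R4C.CrCountx935 Crest.Agent.R4C.Bridgex882
  Crest.Agent.R4C.S7cx14 Crest.Agent.R4C.S7dx14 Crest.Agent.R4C.Chainx81
  Crest.Agent.R4C.Cutx50 Crest.Agent.R4C.Pairx14 Crest.Agent.R4C.PairRx14
  Crest.Agent.R4C.Basex935 Crest.Agent.R4C.PureL2x232 Crest.Agent.R4C.Row2x7
  Crest.Agent.R4C.LowLx899

/-! ### the first unexplained letter -/

/-- first letter `> y` of `c` unexplained by `f` -/
noncomputable def x1 (y c : ℕ) (f : ℚ) : ℕ := sInf {q | q.Prime ∧ y < q ∧ q ∣ c ∧ q ∣ f.den}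

lemma x1_eq {y c x : ℕ} {f : ℚ} (hx : x.Prime) (hyx : y < x) (hxc : x ∣ c) (hxf : x ∣ f.den)
    (hmin : ∀ q, q.Prime → y < q → q < x → q ∣ c → ¬ q ∣ f.den) : x1 y c f = x := by
  have hmem : x ∈ {q | q.Prime ∧ y < q ∧ q ∣ c ∧ q ∣ f.den} := ⟨hx, hyx, hxc, hxf⟩
  refine le_antisymm (Nat.sInf_le hmem) ?_
  have h := Nat.sInf_mem ⟨x, hmem⟩
  by_contra hcon
  exact hmin _ h.1 h.2.1 (not_le.1 hcon) h.2.2.1 h.2.2.2

lemma dvd_iff_fact {b q : ℕ} (hb : b ≠ 0) (hq : q.Prime) : q ∣ b ↔ 0 < b.factorization q := by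
  constructor
  · exact fun h => hq.factorization_pos_of_dvd hb h
  · intro h
    by_contra hc
    rw [Nat.factorization_eq_zero_of_not_dvd hc] at h
    omega

lemma dvd_upp_iff {V b q : ℕ} (hb : b ≠ 0) (hq : q.Prime) (hV : V < q) : q ∣ upp V b ↔ q ∣ b := by
  rw [dvd_iff_fact (upp_pos V b).ne' hq, dvd_iff_fact hb hq, fact_upp, if_pos (by omega)]

lemma x1_upp {V y c : ℕ} (hV : V ≤ y) (hc : c ≠ 0) (f : ℚ) : x1 y (upp V c) f = x1 y c f := by
  unfold x1
  congr 1
  ext q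
  constructor
  · rintro ⟨h1, h2, h3, h4⟩
    exact ⟨h1, h2, (dvd_upp_iff hc h1 (by omega)).1 h3, h4⟩
  · rintro ⟨h1, h2, h3, h4⟩
    exact ⟨h1, h2, (dvd_upp_iff hc h1 (by omega)).2 h3, h4⟩

/-! ### (β) -/

/-- the denominators of two centres of one point -/
lemma den_dvd_of_gap {s s' : ℕ} {h : ℤ} {f f' : ℚ} (hs' : 0 < s') (h0 : gap f f' s s' h = 0) :
    f'.den ∣ s' * f.den := by
  have hs0 : (s' : ℚ) ≠ 0 := by exact_mod_cast hs'.ne'
  have hd : (f.den : ℚ) ≠ 0 := by exact_mod_cast f.den_pos.ne'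
  have e : f' = ((s * f.num + h * f.den : ℤ) : ℚ) / (((s' * f.den : ℕ) : ℤ) : ℚ) := by
    have h1 : (f : ℚ) = f.num / f.den := (Rat.num_div_den f).symm
    unfold gap at h0
    have h2 : (s' : ℚ) * f' = s * f + h := by linarith
    have h3 : f' = (s * f + h) / s' := by
      rw [← h2]; field_simp
    rw [h3]
    nth_rewrite 1 [h1]
    push_cast
    field_simp
  have h1 := Rat.den_dvd (s * f.num + h * f.den) ((s' * f.den : ℕ) : ℤ)
  rw [Rat.divInt_eq_div, ← e] at h1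
  exact_mod_cast h1

variable {M : ℕ} {F : FL M}

/-- **(β)**, arithmetic form -/
theorem beta_core {g s s' X x y : ℕ} {h : ℤ} {f f' : ℚ} (hM : 0 < M) (hb : g * s ∣ M)
    (hc : g * s' ∣ M) (hcop : Nat.Coprime s s') (h0 : gap f f' s s' h = 0) (hx : x.Prime)
    (hyx : y < x) (hxs : x ∣ s')
    (heq : ∀ q, q.Prime → y < q → q < x → (g * s).factorization q = (g * s').factorization q)
    (hk : ∀ q, q.Prime → q ∣ Rulex945.k0 F X (g * s) f → q ≤ y) (hxX : x ≤ X)
    (hne : ¬ x ∣ alC (g * s') (g * s) f' f) : x1 y (g * s') f' = x := by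
  have hg0 : g * s ≠ 0 := (Nat.pos_of_dvd_of_pos hb hM).ne'
  have hg0' : g * s' ≠ 0 := (Nat.pos_of_dvd_of_pos hc hM).ne'
  have hg : 0 < g := Nat.pos_of_ne_zero fun h => hg0 (by rw [h, zero_mul])
  have hs : 0 < s := Nat.pos_of_ne_zero fun h => hg0 (by rw [h, mul_zero])
  have hs' : 0 < s' := Nat.pos_of_ne_zero fun h => hg0' (by rw [h, mul_zero])
  have hxd : x ∣ f'.den := by
    by_contra hcon
    exact hne (dvd_al_of_dvd hg hs hcop hx hxs hcon)
  refine x1_eq hx hyx (hxs.mul_left g) hxd ?_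
  intro q hq hyq hqx _ hqd
  have h1 : ¬ q ∣ s' := by
    intro hqs
    have e := heq q hq hyq hqx
    rw [Nat.factorization_mul hg.ne' hs.ne', Nat.factorization_mul hg.ne' hs'.ne',
      Finsupp.add_apply, Finsupp.add_apply] at e
    have h2 := (dvd_iff_fact hs'.ne' hq).1 hqs
    have h3 : q ∣ s := (dvd_iff_fact hs.ne' hq).2 (by omega)
    have h4 := Nat.dvd_gcd h3 hqs
    rw [hcop.gcd_eq_one] at h4
    exact hq.one_lt.ne' (Nat.dvd_one.1 h4)
  have h2 : q ∣ s' * f.den := hqd.trans (den_dvd_of_gap hs' h0)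
  have h3 : q ∣ f.den := ((hq.dvd_mul).1 h2).resolve_left h1
  rcases (hq.dvd_mul).1 (h3.trans (Rulex945.isC_k0 (F := F) X (g * s) f).2) with h4 | h4
  · have := hk q hq h4
    omega
  · have := (FL.prime_dvd_lam hM hb hq h4).1
    omega

section rule

variable {P : Rulex945.Par}

/-- **(β)** over the rule -/
theorem beta_rule (hL : 0 < P.L) (hM : 0 < M) (hN : (M : ℝ) / P.L ≤ P.N)
    (hE : ∀ m, P.m0 ≤ m → 2 * P.E m ^ 3 < 2 ^ m) {g s s' m x y : ℕ} {h : ℤ} {f f' : ℚ}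
    (hb : g * s ∣ M) (hc : g * s' ∣ M) (hcop : Nat.Coprime s s') (h0 : gap f f' s s' h = 0)
    (hm : P.m0 ≤ m) (hT : Rulex945.TC F P m (g * s) f) (hact : P.Y (P.blk x) ≤ P.cut m)
    (hx : x.Prime) (hxm : x ≤ P.cut m) (hyx : y < x) (hxs : x ∣ s')
    (heq : ∀ q, q.Prime → y < q → q < x → (g * s).factorization q = (g * s').factorization q)
    (hk : ∀ q, q.Prime → q ∣ Rulex945.k0 F (P.cut m) (g * s) f → q ≤ y)
    (hu : ¬ killedL (Rulex945.lamR F P) (g * s) (g * s') s s' h) :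
    x1 y (g * s') f' = x ∨ Alt F P m (g * s) f x := by
  have hg0 : g * s ≠ 0 := (Nat.pos_of_dvd_of_pos hb hM).ne'
  have hg0' : g * s' ≠ 0 := (Nat.pos_of_dvd_of_pos hc hM).ne'
  have hg : 0 < g := Nat.pos_of_ne_zero fun h => hg0 (by rw [h, zero_mul])
  have hs : 0 < s := Nat.pos_of_ne_zero fun h => hg0 (by rw [h, mul_zero])
  have hs' : 0 < s' := Nat.pos_of_ne_zero fun h => hg0' (by rw [h, mul_zero])
  by_cases hal : x ∣ alC (g * s') (g * s) f' f
  · exact Or.inr (alt_left hL hM hN hE hb hm hT hact hx hg hs hs' hcop h0 hu hal)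
  · exact Or.inl (beta_core hM hb hc hcop h0 hx hyx hxs heq hk hxm hal)

/-- `x` divides the cofactor of `c` iff `c` has more letters `x` -/
lemma dvd_cof {b c x : ℕ} (hb : b ≠ 0) (hc : c ≠ 0) (hx : x.Prime)
    (hlt : b.factorization x < c.factorization x) : x ∣ c / Nat.gcd b c := by
  have hg : 0 < Nat.gcd b c := Nat.gcd_pos_of_pos_left _ (Nat.pos_of_ne_zero hb)
  have h1 : c / Nat.gcd b c ≠ 0 := by
    have := Nat.div_pos (Nat.le_of_dvd (Nat.pos_of_ne_zero hc) (Nat.gcd_dvd_right b c)) hg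
    omega
  rw [dvd_iff_fact h1 hx, Nat.factorization_div (Nat.gcd_dvd_right b c), Finsupp.tsub_apply,
    Nat.factorization_gcd hb hc, Finsupp.inf_apply]
  omega

/-- **(β)** in the language of `KCb` -/
theorem beta_pair (hL : 0 < P.L) (hM : 0 < M) (hN : (M : ℝ) / P.L ≤ P.N)
    (hE : ∀ m, P.m0 ≤ m → 2 * P.E m ^ 3 < 2 ^ m) {b c m x y : ℕ} {h : ℤ} {f f' : ℚ}
    (hb : b ∣ M) (hc : c ∣ M) (h0 : gap f f' (b / Nat.gcd b c) (c / Nat.gcd b c) h = 0)
    (hm : P.m0 ≤ m) (hT : Rulex945.TC F P m b f) (hact : P.Y (P.blk x) ≤ P.cut m)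
    (hx : x.Prime) (hxm : x ≤ P.cut m) (hyx : y < x)
    (hlt : b.factorization x < c.factorization x)
    (heq : ∀ q, q.Prime → y < q → q < x → b.factorization q = c.factorization q)
    (hk : ∀ q, q.Prime → q ∣ Rulex945.k0 F (P.cut m) b f → q ≤ y)
    (hu : ¬ killedB (Rulex945.lamR F P) b c h) : x1 y c f' = x ∨ Alt F P m b f x := by
  have hb0 : 0 < b := Nat.pos_of_dvd_of_pos hb hM
  have hc0 : 0 < c := Nat.pos_of_dvd_of_pos hc hM
  have hg : 0 < Nat.gcd b c := Nat.gcd_pos_of_pos_left _ hb0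
  have e1 : Nat.gcd b c * (b / Nat.gcd b c) = b := Nat.mul_div_cancel' (Nat.gcd_dvd_left _ _)
  have e2 : Nat.gcd b c * (c / Nat.gcd b c) = c := Nat.mul_div_cancel' (Nat.gcd_dvd_right _ _)
  have hcop : Nat.Coprime (b / Nat.gcd b c) (c / Nat.gcd b c) :=
    Nat.coprime_div_gcd_div_gcd hg
  have := beta_rule (F := F) (P := P) (g := Nat.gcd b c) (s := b / Nat.gcd b c)
    (s' := c / Nat.gcd b c) (m := m) (x := x) (y := y) (h := h) (f := f) (f' := f') hL hM hN hE
    (by rw [e1]; exact hb) (by rw [e2]; exact hc) hcop h0 hm (by rw [e1]; exact hT) hact hx hxm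
    hyx (dvd_cof hb0.ne' hc0.ne' hx hlt) (by rw [e1, e2]; exact heq) (by rw [e1]; exact hk)
    (by rw [e1, e2]; exact fun hh => hu (Rulex945.killedB_iff.2 hh))
  rw [e1, e2] at this
  exact this

/-- **(β)** with an eligible centre: the first unexplained letter, or class (H) at `x` -/
theorem beta_pair' (hL : 0 < P.L) (hM : 0 < M) (hN : (M : ℝ) / P.L ≤ P.N)
    (hE : ∀ m, P.m0 ≤ m → 2 * P.E m ^ 3 < 2 ^ m) {b c m x y : ℕ} {h : ℤ} {f f' : ℚ}
    (hb : b ∣ M) (hc : c ∣ M) (h0 : gap f f' (b / Nat.gcd b c) (c / Nat.gcd b c) h = 0)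
    (hm : P.m0 ≤ m) (hT : Rulex945.TC F P m b f) (hact : P.Y (P.blk x) ≤ P.cut m)
    (hx : x.Prime) (hxm : x ≤ P.cut m) (hyx : y < x)
    (hlt : b.factorization x < c.factorization x)
    (heq : ∀ q, q.Prime → y < q → q < x → b.factorization q = c.factorization q)
    (hk : ∀ q, q.Prime → q ∣ Rulex945.k0 F (P.cut m) b f → q ≤ y)
    (hu : ¬ killedB (Rulex945.lamR F P) b c h)
    (hd : Rulex945.dep F P m b f ≤ P.thr b (P.blk x)) :
    x1 y c f' = x ∨ ∃ (m₂ : ℕ) (f₂ : ℚ), m < m₂ ∧ f ≠ f₂ ∧ Rulex945.TC F P m₂ b f₂ ∧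
      Rulex945.dep F P m₂ b f₂ ≤ P.thr b (P.blk x) ∧ Rulex945.Fc F P b x = some f₂ ∧
      P.Y (P.blk x) ≤ P.cut m₂ := by
  rcases beta_pair hL hM hN hE hb hc h0 hm hT hact hx hxm hyx hlt heq hk hu with h1 | h1 | h1
  · exact Or.inl h1
  · exact absurd hd (not_le.2 h1)
  · exact Or.inr h1

/-- the same point read from the other side -/
lemma gap_swap {b c : ℕ} {f f' : ℚ} {h : ℤ}
    (h0 : gap f f' (b / Nat.gcd b c) (c / Nat.gcd b c) h = 0) :
    gap f' f (c / Nat.gcd c b) (b / Nat.gcd c b) (-h) = 0 := by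
  rw [Nat.gcd_comm c b]
  exact gap_symm h0

lemma killedB_symm {lam : ℕ → ℕ → Option ℤ} {b c : ℕ} {h : ℤ} (hk : ¬ killedB lam b c h) :
    ¬ killedB lam c b (-h) := by
  intro h1
  apply hk
  rw [Rulex945.killedB_iff] at h1 ⊢
  rw [Nat.gcd_comm c b] at h1
  rcases h1 with ⟨p, hp, hd, a, ha, h2⟩ | ⟨p, hp, hd, a, ha, h2⟩
  · refine Or.inr ⟨p, hp, hd, a, ha, ?_⟩
    have e : h + ((c / Nat.gcd b c : ℕ) : ℤ) * a = -(-h - ((c / Nat.gcd b c : ℕ) : ℤ) * a) := by
      ring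
    rw [e]; exact (dvd_neg).2 h2
  · refine Or.inl ⟨p, hp, hd, a, ha, ?_⟩
    have e : h - ((b / Nat.gcd b c : ℕ) : ℤ) * a = -(-h + ((b / Nat.gcd b c : ℕ) : ℤ) * a) := by
      ring
    rw [e]; exact (dvd_neg).2 h2

end rule

/-! ### pure above `x` -/

/-- pure above `x`; `b` misses `x`, `c` contains it (no condition below `x`) -/
def RowUp (F : FL M) (x b c : ℕ) : Prop :=
  x.Prime ∧ b.factorization x < c.factorization x ∧ ∀ q, q.Prime → x ≤ q →
    (F.ctr b q = none → b.factorization q = c.factorization q) ∧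
    (∀ v, F.ctr b q = some v → min (b.factorization q) (c.factorization q) = v)

lemma rowRel_iff {x b c : ℕ} : RowRel F x b c ↔
    RowUp F x b c ∧ ∀ q, q.Prime → q < x → b.factorization q = c.factorization q := by
  constructor
  · rintro ⟨h1, h2, h3, h4⟩
    exact ⟨⟨h2, h4, fun q hq hxq => h1.2 q hq ⟨x, h2, hxq, by omega⟩⟩, h3⟩
  · rintro ⟨⟨h1, h2, h3⟩, h4⟩
    refine ⟨⟨fun hbc => by rw [hbc] at h2; omega, fun q hq hr => ?_⟩, h1, h4, h2⟩
    obtain ⟨r, hr, hrq, hrne⟩ := hr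
    refine h3 q hq ?_
    by_contra hcon
    exact hrne (h4 r hr (by omega))

/-- the relation only depends on the letters `≥ x` -/
lemma rowUp_congr {x b b0 c c0 : ℕ} (hb : b ∣ M) (hb0 : b0 ∣ M)
    (hbb : ∀ q, q.Prime → x ≤ q → b.factorization q = b0.factorization q)
    (hcc : ∀ q, q.Prime → x ≤ q → c.factorization q = c0.factorization q)
    (h : RowUp F x b c) : RowUp F x b0 c0 := by
  obtain ⟨h1, h2, h3⟩ := h
  refine ⟨h1, ?_, fun q hq hxq => ?_⟩
  · rw [← hbb x h1 le_rfl, ← hcc x h1 le_rfl]; exact h2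
  · have e : F.ctr b0 q = F.ctr b q := F.coh hb0 hb hq fun r hr hqr _ =>
      (hbb r hr (by omega)).symm
    rw [e, ← hbb q hq hxq, ← hcc q hq hxq]
    exact h3 q hq hxq

/-- a good pair at a cut `X < x` without deficits -/
lemma rowUp_of_good (hM : 0 < M) {X x b c : ℕ} (hb : b ∣ M) (hc : c ∣ M) (hX : X < x)
    (hg : F.good X b c) (h1 : F.ell X b = 1) (h2 : F.ell X c = 1) (hx : x.Prime)
    (hlt : b.factorization x < c.factorization x) : RowUp F x b c := by
  refine ⟨hx, hlt, fun q hq hxq => ?_⟩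
  have hXq : X < q := by omega
  refine ⟨fun hn => hg.1 q hq hXq hn, fun v hv => ?_⟩
  have hv' : F.ctr c q = some v := by rw [← FL.ctr_eq hb hc hg.1 hq hXq.le]; exact hv
  have e1 : v ≤ b.factorization q := by
    by_contra hcon
    have := FL.dvd_ell (F := F) hM hb hq hXq hv (by omega)
    rw [h1] at this
    exact hq.one_lt.ne' (Nat.dvd_one.1 this)
  have e2 : v ≤ c.factorization q := by
    by_contra hcon
    have := FL.dvd_ell (F := F) hM hc hq hXq hv' (by omega)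
    rw [h2] at this
    exact hq.one_lt.ne' (Nat.dvd_one.1 this)
  rcases hg.2 q hq hXq v hv with h3 | h3 <;> omega

/-- the structure above a cut `y < x` has the same relation -/
lemma rowUp_hi (hM : 0 < M) {y x z z' : ℕ} (hyx : y < x) :
    RowUp (hiFL hM y F) x z z' ↔ RowUp F x z z' := by
  have e : ∀ q, x ≤ q → (hiFL hM y F).ctr z q = F.ctr z q := by
    intro q hq
    show (if y < q then F.ctr z q else some 0) = _
    rw [if_pos (by omega)]
  constructor
  · rintro ⟨h1, h2, h3⟩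
    refine ⟨h1, h2, fun q hq hxq => ?_⟩
    rw [← e q hxq]; exact h3 q hq hxq
  · rintro ⟨h1, h2, h3⟩
    refine ⟨h1, h2, fun q hq hxq => ?_⟩
    rw [e q hxq]; exact h3 q hq hxq

/-- **words above a cut, twists removed**: `b, c` pure above `x`; `z0, z0'` divisors of `upp y M`
with the same letters `≥ x` as `b, c` and equal letters below `x` -/
lemma rowRel_hi (hM : 0 < M) {y x b c z0 z0' : ℕ} (hyx : y < x) (hb : b ∣ M)
    (hz : z0 ∣ upp y M) (h : RowUp F x b c)
    (hbz : ∀ q, q.Prime → x ≤ q → b.factorization q = z0.factorization q)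
    (hcz : ∀ q, q.Prime → x ≤ q → c.factorization q = z0'.factorization q)
    (heq : ∀ q, q.Prime → q < x → z0.factorization q = z0'.factorization q) :
    RowRel (hiFL hM y F) x z0 z0' := by
  rw [rowRel_iff]
  refine ⟨?_, heq⟩
  rw [rowUp_hi hM hyx]
  exact rowUp_congr hb (hz.trans (upp_dvd_self y M)) hbz hcz h

/-! ### the boosted pure kernel -/

lemma rowRel_unique {x x' b c : ℕ} (h : RowRel F x b c) (h' : RowRel F x' b c) : x = x' := by
  rcases lt_trichotomy x x' with h1 | h1 | h1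
  · have := h'.2.2.1 x h.2.1 h1
    have := h.2.2.2
    omega
  · exact h1
  · have := h.2.2.1 x' h'.2.1 h1
    have := h'.2.2.2
    omega

lemma rowRel_asymm {x x' b c : ℕ} (h : RowRel F x b c) (h' : RowRel F x' c b) : False := by
  rcases lt_trichotomy x x' with h1 | h1 | h1
  · have := h'.2.2.1 x h.2.1 h1
    have := h.2.2.2
    omega
  · subst h1
    have := h.2.2.2
    have := h'.2.2.2
    omega
  · have := h.2.2.1 x' h'.2.1 h1
    have := h'.2.2.2
    omega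

open Classical in
/-- the boosted pure kernel -/
noncomputable def boostK (F : FL M) (α α' : ℕ → ℕ → ℝ) (b c : ℕ) : ℝ :=
  ∑ x ∈ M.primeFactors, ((if RowRel F x b c then (α x b + α' x c) * (Vx M x b)⁻¹ else 0) +
    (if RowRel F x c b then (α x c + α' x b) * (Vx M x c)⁻¹ else 0))

lemma boostK_symm (α α' : ℕ → ℕ → ℝ) (b c : ℕ) : boostK F α α' b c = boostK F α α' c b := by
  unfold boostK
  exact Finset.sum_congr rfl fun x _ => add_comm _ _

lemma boostK_eq (hM : 0 < M) (α α' : ℕ → ℕ → ℝ) {x b c : ℕ} (hc : c ∣ M)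
    (h : RowRel F x b c) : boostK F α α' b c = (α x b + α' x c) * (Vx M x b)⁻¹ := by
  classical
  unfold boostK
  rw [Finset.sum_eq_single x]
  · rw [if_pos h, if_neg (fun h' => rowRel_asymm h h'), add_zero]
  · intro x' _ hne
    rw [if_neg (fun h' => hne (rowRel_unique h' h)), if_neg (fun h' => rowRel_asymm h h'), add_zero]
  · intro hx
    exact absurd (row_mem hM hc h) hx

lemma boostK_eq' (hM : 0 < M) (α α' : ℕ → ℕ → ℝ) {x b c : ℕ} (hc : c ∣ M)
    (h : RowRel F x b c) : boostK F α α' c b = (α x b + α' x c) * (Vx M x b)⁻¹ := by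
  rw [boostK_symm]; exact boostK_eq hM α α' hc h

lemma boostK_nonneg {α α' : ℕ → ℕ → ℝ} (h : ∀ x b, 0 ≤ α x b) (h' : ∀ x b, 0 ≤ α' x b)
    (b c : ℕ) : 0 ≤ boostK F α α' b c := by
  classical
  unfold boostK
  refine Finset.sum_nonneg fun x _ => add_nonneg ?_ ?_
  · split_ifs
    · exact mul_nonneg (add_nonneg (h _ _) (h' _ _)) (inv_nonneg.2 (Vx_nonneg _ _ _))
    · exact le_rfl
  · split_ifs
    · exact mul_nonneg (add_nonneg (h _ _) (h' _ _)) (inv_nonneg.2 (Vx_nonneg _ _ _))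
    · exact le_rfl

lemma boostK_zero {α α' : ℕ → ℕ → ℝ} {b c : ℕ} (hb : b ∣ M) (hc : c ∣ M)
    (h : ¬ PureG F b c) : boostK F α α' b c = 0 := by
  classical
  unfold boostK
  refine Finset.sum_eq_zero fun x _ => ?_
  rw [if_neg (fun h' => h h'.1), if_neg (fun h' => h (pureG_symm hc hb h'.1)), add_zero]

open Classical in
/-- **the boosted pure kernel satisfies the bilinear set bound** -/
theorem setW_boost (hM : 0 < M) {α α' : ℕ → ℕ → ℝ} {N N' : ℝ} (hN : 0 < N) (hN' : 0 < N')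
    (α0 : ∀ x b, 0 ≤ α x b) (αN : ∀ x b, b ∣ M → α x b ≤ N) (α'0 : ∀ x b, 0 ≤ α' x b)
    (row : ∀ b, b ∣ M → ∑ x ∈ M.primeFactors.filter (fun x =>
      F.ctr b x = some (b.factorization x) ∧ b.factorization x < M.factorization x),
        1 / (x:ℝ) * α x b ≤ N)
    (row' : ∀ c, c ∣ M → ∑ x ∈ M.primeFactors.filter (fun x =>
      ∃ v, F.ctr c x = some v ∧ v < c.factorization x), α' x c ≤ N') :
    SetW M (boostK F α α') (28 * N + 16 * N') := by
  -- clip
  set β : ℕ → ℕ → ℝ := fun x b => if b ∣ M then α x b else 0 with hβ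
  have hβ0 : ∀ x b, 0 ≤ β x b := by
    intro x b; simp only [hβ]; split_ifs
    · exact α0 _ _
    · exact le_rfl
  have hW : RowW F (boostK F β α') β α' N N' := by
    refine ⟨boostK_nonneg hβ0 α'0, hβ0, ?_, α'0, ?_, row', ?_, ?_⟩
    · intro x b; simp only [hβ]; split_ifs with hb
      · exact αN _ _ hb
      · exact hN.le
    · intro b hb
      refine le_trans (le_of_eq ?_) (row b hb)
      refine Finset.sum_congr rfl fun x _ => ?_
      simp only [hβ, if_pos hb]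
    · intro x b c hb hc h
      rw [boostK_eq hM _ _ hc h, mul_assoc, inv_mul_cancel₀ (Vx_pos hM hb x).ne', mul_one]
    · intro x b c hb hc h
      rw [boostK_eq' hM _ _ hc h, mul_assoc, inv_mul_cancel₀ (Vx_pos hM hb x).ne', mul_one]
  have h1 : SetW M (boostK F β α') (4 * (7 * N + 4 * N')) := by
    refine SetW.of_quad (boostK_nonneg hβ0 α'0) (by positivity) fun f hf => ?_
    refine le_trans (le_of_eq ?_) (row2_quad hM hN hN' hW f hf)
    unfold frm
    refine Finset.sum_congr rfl fun b hb => Finset.sum_congr rfl fun c hc => ?_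
    rw [Nat.mem_divisors] at hb hc
    dsimp only
    by_cases h : PureG F b c
    · rw [if_pos h]
    · rw [if_neg h, boostK_zero hb.1 hc.1 h, zero_mul]
  refine h1.mono (fun z z' hz hz' => ?_) (le_of_eq (by ring))
  unfold boostK
  refine le_of_eq (Finset.sum_congr rfl fun x _ => ?_)
  simp only [hβ, if_pos hz, if_pos hz']

/-! ### twisted weights -/

/-- row sums of the twisted weights of the missing member -/
lemma tw_row {KK : ℕ → Finset ℕ} {a : ℕ → ℕ → ℝ} {A N : ℝ} {z : ℕ} (S : Finset ℕ)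
    (hA : 0 ≤ A) (hcard : ((KK z).card : ℝ) ≤ N)
    (ha : ∀ κ ∈ KK z, ∑ x ∈ S, 1 / (x:ℝ) * a x (κ * z) ≤ A) :
    ∑ x ∈ S, 1 / (x:ℝ) * ∑ κ ∈ KK z, a x (κ * z) ≤ N * A := by
  have e : ∑ x ∈ S, 1 / (x:ℝ) * ∑ κ ∈ KK z, a x (κ * z) =
      ∑ κ ∈ KK z, ∑ x ∈ S, 1 / (x:ℝ) * a x (κ * z) := by
    simp only [Finset.mul_sum]
    exact Finset.sum_comm
  rw [e]
  calc _ ≤ ∑ κ ∈ KK z, A := Finset.sum_le_sum ha
    _ = (KK z).card * A := by rw [Finset.sum_const, nsmul_eq_mul]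
    _ ≤ _ := mul_le_mul_of_nonneg_right hcard hA

lemma tw_le {KK : ℕ → Finset ℕ} {a : ℕ → ℕ → ℝ} {A N : ℝ} {x z : ℕ} (hA : 0 ≤ A)
    (hcard : ((KK z).card : ℝ) ≤ N) (ha : ∀ κ ∈ KK z, a x (κ * z) ≤ A) :
    ∑ κ ∈ KK z, a x (κ * z) ≤ N * A := by
  calc _ ≤ ∑ κ ∈ KK z, A := Finset.sum_le_sum ha
    _ = (KK z).card * A := by rw [Finset.sum_const, nsmul_eq_mul]
    _ ≤ _ := mul_le_mul_of_nonneg_right hcard hA

/-- the number of charged letters: one place `ξ (κ z)` per twist -/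
lemma tw_row' {KK : ℕ → Finset ℕ} (ξ : ℕ → ℕ) {N : ℝ} {z : ℕ} (S : Finset ℕ)
    (hcard : ((KK z).card : ℝ) ≤ N) :
    ∑ x ∈ S, ∑ κ ∈ KK z, (if ξ (κ * z) = x then (1:ℝ) else 0) ≤ N := by
  rw [Finset.sum_comm]
  calc _ ≤ ∑ κ ∈ KK z, (1:ℝ) := Finset.sum_le_sum fun κ _ => by
        rw [Finset.sum_ite_eq]
        split_ifs <;> norm_num
    _ = (KK z).card := by rw [Finset.sum_const, nsmul_eq_mul, mul_one]
    _ ≤ _ := hcard

/-- one place per word -/
lemma x1_row (ξ : ℕ → ℕ) {z : ℕ} (S : Finset ℕ) :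
    ∑ x ∈ S, (if ξ z = x then (1:ℝ) else 0) ≤ 1 := by
  rw [Finset.sum_ite_eq]
  split_ifs <;> norm_num

end Crest.Agent.R4C.Betax7
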