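import Crest.Agent.R4C.BigTwist_22
import Crest.Agent.R4C.TwistKK_863
import Crest.Agent.R4C.Rule_945

/-!
# Row 4: LEMMA TW (big twist), literal form over the label rule (helper22)

`Cen F P K k b` : the item `b` has a tree centre `f` at some scale `2^m`, `m ≥ m0`, with depth in
`[K, 2K)`, and `k ∣ k0(b, f)`.

`key` : all such centres over one base word are equal and the denominators `k0` form a divisibility
chain; hence few twists (`card_KR`, `card_KR'`).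

`big_twistR` : the energy at gcd `~ X` of the pairs `(b, c)` such that `b = k b0`, `k ≥ K0`,
`gcd b c ∣ b0`, `Cen F P K k b`, is `≤ C X^{2t-1} K^ε K0^{-(1-t)} (E f)^t (E f')^t`.
Nothing is asked of the partner `c`.
-/

set_option autoImplicit false

open Finset
open Crest.Agent.R4C.Basex935 Crest.Agent.R4C.FLDefx935 Crest.Agent.R4C.Rulex945
  Crest.Agent.R4C.TwistKKx863 Crest.Agent.R4C.Twistx662 Crest.Agent.R4C.BigTwistx22

namespace Crest.Agent.R4C.BigTwistRx22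

variable {M : ℕ} (F : FL M) (P : Par)

/-- `b` carries the twist `k` at depth `~ K` -/
def Cen (K : ℝ) (k b : ℕ) : Prop :=
  ∃ (m : ℕ) (f : ℚ), P.m0 ≤ m ∧ TC F P m b f ∧ K ≤ dep F P m b f ∧ dep F P m b f < 2 * K ∧
    k ∣ k0 F (P.cut m) b f

open Classical in
/-- the twists over the base word `z` -/
noncomputable def KR (K K0 : ℝ) (z : ℕ) : Finset ℕ :=
  (Finset.range (⌈2 * K⌉₊ + 1)).filter
    (fun k => K0 ≤ (k : ℝ) ∧ 0 < k ∧ k * z ∣ M ∧ Cen F P K k (k * z))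

variable {F P}

lemma mem_KR {K K0 : ℝ} {z k : ℕ} : k ∈ KR F P K K0 z ↔
    K0 ≤ (k : ℝ) ∧ 0 < k ∧ k * z ∣ M ∧ Cen F P K k (k * z) := by
  classical
  unfold KR
  rw [Finset.mem_filter]
  refine ⟨fun h => h.2, fun h => ⟨?_, h⟩⟩
  obtain ⟨_, _, _, m, f, _, _, _, h5, h6⟩ := h
  rw [Finset.mem_range]
  have h7 : (k : ℝ) ≤ k0 F (P.cut m) (k * z) f := by
    exact_mod_cast Nat.le_of_dvd (k0_pos _ _ _) h6
  have h8 := k0_le_dep (F := F) (P := P) m (k * z) f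
  have h9 : (k : ℝ) ≤ ⌈2 * K⌉₊ := (by linarith : (k : ℝ) ≤ 2 * K).trans (Nat.le_ceil _)
  have h10 : k ≤ ⌈2 * K⌉₊ := by exact_mod_cast h9
  omega

lemma Cen.lt {K : ℝ} {k b : ℕ} (h : Cen F P K k b) : (k : ℝ) < 2 * K := by
  obtain ⟨m, f, _, _, _, h5, h6⟩ := h
  have h7 : (k : ℝ) ≤ k0 F (P.cut m) b f := by
    exact_mod_cast Nat.le_of_dvd (k0_pos _ _ _) h6
  have h8 := k0_le_dep (F := F) (P := P) m b f
  linarith

/-- **all centres over one base word are equal, the denominators form a chain** -/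
theorem key (hL : 0 < P.L) (hM : 0 < M) (hcut : Monotone P.cut)
    (hE6 : ∀ m, P.m0 ≤ m → 16 * P.E m ^ 6 < 2 ^ m)
    (hEc : ∀ m, P.m0 ≤ m → 2 * P.E m ^ 2 ≤ P.cut m) {K : ℝ} {z κ₁ κ₂ m₁ m₂ : ℕ} {f₁ f₂ : ℚ}
    (hκ₁ : (κ₁ : ℝ) < 2 * K) (hκ₂ : (κ₂ : ℝ) < 2 * K)
    (hb₁ : κ₁ * z ∣ M) (hb₂ : κ₂ * z ∣ M) (h12 : m₁ ≤ m₂) (hm₁ : P.m0 ≤ m₁)
    (hT₁ : TC F P m₁ (κ₁ * z) f₁) (hK₁ : K ≤ dep F P m₁ (κ₁ * z) f₁)
    (hK₁' : dep F P m₁ (κ₁ * z) f₁ < 2 * K) (hK₂' : dep F P m₂ (κ₂ * z) f₂ < 2 * K) :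
    f₁ = f₂ ∧ k0 F (P.cut m₁) (κ₁ * z) f₁ ∣ k0 F (P.cut m₂) (κ₂ * z) f₂ := by
  have hz : z ∣ M := (Dvd.intro_left _ rfl).trans hb₁
  have h01 : κ₁ * z ≠ 0 := (Nat.pos_of_dvd_of_pos hb₁ hM).ne'
  have h02 : κ₂ * z ≠ 0 := (Nat.pos_of_dvd_of_pos hb₂ hM).ne'
  have hz0 : z ≠ 0 := right_ne_zero_of_mul h01
  have hκ10 : κ₁ ≠ 0 := left_ne_zero_of_mul h01
  have hκ20 : κ₂ ≠ 0 := left_ne_zero_of_mul h02
  have hd1 := hT₁.dep_le hL
  have hKc : 2 * K ≤ (P.cut m₁ : ℝ) := by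
    have := hEc m₁ hm₁
    linarith
  have hp1 : ∀ p, p.Prime → p ∣ κ₁ → p ≤ P.cut m₁ := by
    intro p _ hp
    have h1 : p ≤ κ₁ := Nat.le_of_dvd (Nat.pos_of_ne_zero hκ10) hp
    have h2 : (p : ℝ) ≤ κ₁ := by exact_mod_cast h1
    exact_mod_cast (by linarith : (p : ℝ) ≤ P.cut m₁)
  have hp2 : ∀ p, p.Prime → p ∣ κ₂ → p ≤ P.cut m₂ := by
    intro p _ hp
    have h1 : p ≤ κ₂ := Nat.le_of_dvd (Nat.pos_of_ne_zero hκ20) hp
    have h2 : (p : ℝ) ≤ κ₂ := by exact_mod_cast h1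
    have h3 : p ≤ P.cut m₁ := by exact_mod_cast (by linarith : (p : ℝ) ≤ P.cut m₁)
    exact h3.trans (hcut h12)
  have hl1 : F.lam (P.cut m₁) (κ₁ * z) = F.lam (P.cut m₁) z :=
    lam_congr hb₁ hz (fact_mul_low hκ10 hz0 hp1)
  have hl2 : F.lam (P.cut m₂) (κ₂ * z) = F.lam (P.cut m₂) z :=
    lam_congr hb₂ hz (fact_mul_low hκ20 hz0 hp2)
  have hk1 : k0 F (P.cut m₁) (κ₁ * z) f₁ = k0 F (P.cut m₁) z f₁ := by
    unfold k0; rw [hl1]
  have hk2 : k0 F (P.cut m₂) (κ₂ * z) f₂ = k0 F (P.cut m₂) z f₂ := by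
    unfold k0; rw [hl2]
  have hdz : ∀ {κ m : ℕ} {f : ℚ}, κ ≠ 0 → k0 F (P.cut m) (κ * z) f = k0 F (P.cut m) z f →
      dep F P m z f ≤ dep F P m (κ * z) f := by
    intro κ m f hκ hk
    unfold dep
    rw [hk]
    refine mul_le_mul_of_nonneg_left ?_ (Nat.cast_nonneg _)
    refine max_le_max le_rfl ?_
    refine div_le_div_of_nonneg_right ?_ hL.le
    refine mul_le_mul_of_nonneg_right ?_ (abs_nonneg _)
    push_cast
    have h1 : (1 : ℝ) ≤ κ := by exact_mod_cast Nat.pos_of_ne_zero hκ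
    have h2 : (0 : ℝ) ≤ z := Nat.cast_nonneg _
    nlinarith
  have he : f₁ = f₂ := by
    by_contra hne
    have hc := conflict_uu (F := F) (P := P) hL hM hcut hz h12 hne
    have e1 := hdz hκ10 hk1
    have e2 := hdz hκ20 hk2
    have e3 : (1 : ℝ) ≤ dep F P m₁ z f₁ := one_le_dep _ _ _
    have e4 : (1 : ℝ) ≤ dep F P m₂ z f₂ := one_le_dep _ _ _
    have hK1 : 1 < 2 * K := by linarith
    have e5 : dep F P m₁ z f₁ * dep F P m₂ z f₂ ≤ (2 * K) * (2 * K) :=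
      mul_le_mul (by linarith) (by linarith) (by linarith) (by linarith)
    have hu := uu_mul (F := F) hM hb₁ hp1
    have hs := hT₁.scl
    rw [hu] at hs
    push_cast at hs
    have hu0 : (0 : ℝ) ≤ F.uu (P.cut m₁) z := Nat.cast_nonneg _
    have e6 : (F.uu (P.cut m₁) z : ℝ) ≤ 8 * K ^ 2 * P.L := by
      refine hc.trans ?_
      have : 2 * dep F P m₁ z f₁ * dep F P m₂ z f₂ ≤ 8 * K ^ 2 := by nlinarith
      exact mul_le_mul_of_nonneg_right this hL.le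
    have e7 : (2 : ℝ) ^ m₁ * P.L ≤ 16 * K ^ 3 * P.L := by
      refine hs.trans ?_
      calc (κ₁ : ℝ) * F.uu (P.cut m₁) z ≤ (2 * K) * (8 * K ^ 2 * P.L) :=
            mul_le_mul hκ₁.le e6 hu0 (by linarith)
        _ = 16 * K ^ 3 * P.L := by ring
    have e8 : (2 : ℝ) ^ m₁ ≤ 16 * K ^ 3 := le_of_mul_le_mul_right e7 hL
    have e9 : K ≤ P.E m₁ ^ 2 := hK₁.trans hd1
    have e10 : K ^ 3 ≤ P.E m₁ ^ 6 := by
      calc K ^ 3 ≤ (P.E m₁ ^ 2) ^ 3 := pow_le_pow_left₀ (by linarith) e9 3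
        _ = P.E m₁ ^ 6 := by ring
    have e11 := hE6 m₁ hm₁
    linarith
  refine ⟨he, ?_⟩
  rw [hk1, hk2, he]
  exact k0_mono (hcut h12) f₂

/-- counting with a divisibility chain -/
lemma card_chain {S : Finset ℕ} {B D : ℝ} (n : ℕ → ℕ)
    (hn : ∀ κ ∈ S, κ ∣ n κ ∧ 0 < n κ ∧ (n κ : ℝ) < B)
    (hch : ∀ κ ∈ S, ∀ κ' ∈ S, n κ ∣ n κ' ∨ n κ' ∣ n κ) (hD0 : 0 ≤ D)
    (hD : ∀ k : ℕ, 0 < k → (k : ℝ) < B → (k.divisors.card : ℝ) ≤ D) : (S.card : ℝ) ≤ D := by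
  rcases S.eq_empty_or_nonempty with h0 | h0
  · rw [h0]; simpa using hD0
  · obtain ⟨κ, hκ, hmax⟩ := Finset.exists_max_image S n h0
    have hsub : S ⊆ (n κ).divisors := by
      intro κ' hκ'
      rw [Nat.mem_divisors]
      refine ⟨?_, (hn κ hκ).2.1.ne'⟩
      rcases hch κ hκ κ' hκ' with h | h
      · have h1 := Nat.le_of_dvd (hn κ' hκ').2.1 h
        have h2 : n κ = n κ' := le_antisymm h1 (hmax κ' hκ')
        rw [h2]
        exact (hn κ' hκ').1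
      · exact (hn κ' hκ').1.trans h
    refine le_trans ?_ (hD (n κ) (hn κ hκ).2.1 (hn κ hκ).2.2)
    exact_mod_cast Finset.card_le_card hsub

/-- **few twists over a base word** -/
theorem card_KR (hL : 0 < P.L) (hM : 0 < M) (hcut : Monotone P.cut)
    (hE6 : ∀ m, P.m0 ≤ m → 16 * P.E m ^ 6 < 2 ^ m)
    (hEc : ∀ m, P.m0 ≤ m → 2 * P.E m ^ 2 ≤ P.cut m) {K K0 D : ℝ} {z : ℕ} (hD0 : 0 ≤ D)
    (hD : ∀ k : ℕ, 0 < k → (k : ℝ) < 2 * K → (k.divisors.card : ℝ) ≤ D) :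
    ((KR F P K K0 z).card : ℝ) ≤ D := by
  classical
  have hex : ∀ κ, ∃ d : ℕ × ℚ, κ ∈ KR F P K K0 z → P.m0 ≤ d.1 ∧ TC F P d.1 (κ * z) d.2 ∧
      K ≤ dep F P d.1 (κ * z) d.2 ∧ dep F P d.1 (κ * z) d.2 < 2 * K ∧
      κ ∣ k0 F (P.cut d.1) (κ * z) d.2 := by
    intro κ
    by_cases h : κ ∈ KR F P K K0 z
    · obtain ⟨_, _, _, m, f, h1⟩ := mem_KR.1 h
      exact ⟨(m, f), fun _ => h1⟩
    · exact ⟨(0, 0), fun h' => absurd h' h⟩
  choose d hd using hex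
  refine card_chain (B := 2 * K) (fun κ => k0 F (P.cut (d κ).1) (κ * z) (d κ).2) ?_ ?_ hD0 hD
  · intro κ hκ
    obtain ⟨_, _, _, h4, h5⟩ := hd κ hκ
    exact ⟨h5, k0_pos _ _ _, (k0_le_dep (F := F) (P := P) _ _ _).trans_lt h4⟩
  · intro κ hκ κ' hκ'
    obtain ⟨h1, h2, h3, h4, h5⟩ := hd κ hκ
    obtain ⟨h1', h2', h3', h4', h5'⟩ := hd κ' hκ'
    obtain ⟨_, _, hb, hc⟩ := mem_KR.1 hκ
    obtain ⟨_, _, hb', hc'⟩ := mem_KR.1 hκ'
    rcases le_total (d κ).1 (d κ').1 with h | h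
    · exact Or.inl (key hL hM hcut hE6 hEc hc.lt hc'.lt hb hb' h h1 h2 h3 h4 h4').2
    · exact Or.inr (key hL hM hcut hE6 hEc hc'.lt hc.lt hb' hb h h1' h2' h3' h4' h4).2

/-- **few twists of one item** -/
theorem card_KR' (hL : 0 < P.L) (hM : 0 < M) (hcut : Monotone P.cut)
    (hE6 : ∀ m, P.m0 ≤ m → 16 * P.E m ^ 6 < 2 ^ m)
    (hEc : ∀ m, P.m0 ≤ m → 2 * P.E m ^ 2 ≤ P.cut m) {K K0 D : ℝ} {b : ℕ} (hb : b ∣ M)
    (hD0 : 0 ≤ D) (hD : ∀ k : ℕ, 0 < k → (k : ℝ) < 2 * K → (k.divisors.card : ℝ) ≤ D) :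
    ((b.divisors.filter (fun k => k ∈ KR F P K K0 (b / k))).card : ℝ) ≤ D := by
  classical
  have hmem : ∀ κ, κ ∈ b.divisors.filter (fun k => k ∈ KR F P K K0 (b / k)) → Cen F P K κ b := by
    intro κ h
    rw [Finset.mem_filter, Nat.mem_divisors] at h
    obtain ⟨_, _, _, h1⟩ := mem_KR.1 h.2
    rwa [Nat.mul_div_cancel' h.1.1] at h1
  have hex : ∀ κ, ∃ d : ℕ × ℚ, κ ∈ b.divisors.filter (fun k => k ∈ KR F P K K0 (b / k)) →
      P.m0 ≤ d.1 ∧ TC F P d.1 b d.2 ∧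
      K ≤ dep F P d.1 b d.2 ∧ dep F P d.1 b d.2 < 2 * K ∧
      κ ∣ k0 F (P.cut d.1) b d.2 := by
    intro κ
    by_cases h : κ ∈ b.divisors.filter (fun k => k ∈ KR F P K K0 (b / k))
    · obtain ⟨m, f, h1⟩ := hmem κ h
      exact ⟨(m, f), fun _ => h1⟩
    · exact ⟨(0, 0), fun h' => absurd h' h⟩
  choose d hd using hex
  refine card_chain (B := 2 * K) (fun κ => k0 F (P.cut (d κ).1) b (d κ).2) ?_ ?_ hD0 hD
  · intro κ hκ
    obtain ⟨_, _, _, h4, h5⟩ := hd κ hκ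
    exact ⟨h5, k0_pos _ _ _, (k0_le_dep (F := F) (P := P) _ _ _).trans_lt h4⟩
  · intro κ hκ κ' hκ'
    obtain ⟨h1, h2, h3, h4, h5⟩ := hd κ hκ
    obtain ⟨h1', h2', h3', h4', h5'⟩ := hd κ' hκ'
    have h1K : ((1 : ℕ) : ℝ) < 2 * K := by
      push_cast
      exact (one_le_dep (F := F) (P := P) _ _ _).trans_lt h4
    rw [← one_mul b] at hb h2 h3 h4 h2' h3' h4'
    rcases le_total (d κ).1 (d κ').1 with h | h
    · have := (key hL hM hcut hE6 hEc h1K h1K hb hb h h1 h2 h3 h4 h4').2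
      rw [one_mul] at this
      exact Or.inl this
    · have := (key hL hM hcut hE6 hEc h1K h1K hb hb h h1' h2' h3' h4' h4).2
      rw [one_mul] at this
      exact Or.inr this

/-- pairs with a big twist -/
def BTR (F : FL M) (P : Par) (K K0 : ℝ) (b c : ℕ) : Prop :=
  ∃ k b0 : ℕ, b = k * b0 ∧ K0 ≤ (k : ℝ) ∧ Nat.gcd b c ∣ b0 ∧ Cen F P K k b

/-- the twist `gcd(k0(b,f), b / gcd(b,c))` -/
lemma BTR_of_gcd (hM : 0 < M) {K K0 : ℝ} {b c m : ℕ} {f : ℚ} (hb : b ∣ M) (hm : P.m0 ≤ m)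
    (hT : TC F P m b f) (hK : K ≤ dep F P m b f) (hK' : dep F P m b f < 2 * K)
    (h : K0 ≤ (Nat.gcd (k0 F (P.cut m) b f) (b / Nat.gcd b c) : ℕ)) : BTR F P K K0 b c := by
  have hb0 : 0 < b := Nat.pos_of_dvd_of_pos hb hM
  have hg : Nat.gcd b c ∣ b := Nat.gcd_dvd_left _ _
  have h1 : Nat.gcd (k0 F (P.cut m) b f) (b / Nat.gcd b c) ∣ b / Nat.gcd b c :=
    Nat.gcd_dvd_right _ _
  have h2 : Nat.gcd (k0 F (P.cut m) b f) (b / Nat.gcd b c) * Nat.gcd b c ∣ b := by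
    have h3 := Nat.mul_dvd_mul_right h1 (Nat.gcd b c)
    rwa [Nat.div_mul_cancel hg] at h3
  obtain ⟨r, hr⟩ := h2
  refine ⟨Nat.gcd (k0 F (P.cut m) b f) (b / Nat.gcd b c), Nat.gcd b c * r, ?_, h,
    Dvd.intro _ rfl, m, f, hm, hT, hK, hK', Nat.gcd_dvd_left _ _⟩
  rw [← mul_assoc]
  exact hr

/-- `ω = log2 (2K) + 1` is `≤ C K^ε` -/
lemma log_le {ε : ℝ} (hε : 0 < ε) : ∃ C : ℝ, 1 ≤ C ∧ ∀ K : ℝ, 1 ≤ 2 * K →
    ((Nat.log 2 ⌊2 * K⌋₊ : ℕ) : ℝ) + 1 ≤ C * (2 * K) ^ ε := by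
  refine ⟨max 1 (1 / (ε * Real.log 2)), le_max_left _ _, fun K hK => ?_⟩
  refine (succ_le_small hε 2 _ le_rfl).trans ?_
  have h1 : (1 : ℝ) ≤ max 1 (1 / (ε * Real.log 2)) := le_max_left _ _
  refine mul_le_mul_of_nonneg_left ?_ (by linarith)
  refine Real.rpow_le_rpow (by positivity) ?_ hε.le
  have h2 : 0 < ⌊2 * K⌋₊ := Nat.floor_pos.2 hK
  have h3 := Nat.pow_log_le_self 2 h2.ne'
  have h4 : ((2 ^ Nat.log 2 ⌊2 * K⌋₊ : ℕ) : ℝ) ≤ ⌊2 * K⌋₊ := by exact_mod_cast h3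
  push_cast at h4 ⊢
  exact h4.trans (Nat.floor_le (by linarith))

open Classical in
/-- **LEMMA TW over the rule** -/
theorem big_twistR {t ε : ℝ} (ht : 1 / 2 < t) (ht1 : t < 1) (hε : 0 < ε) : ∃ C : ℝ, 0 < C ∧
    ∀ (M : ℕ) (F : FL M) (P : Par) (X K K0 : ℝ) (f f' : ℕ → ℝ), 0 < M → 0 < X → 1 ≤ K → 0 < K0 →
      0 < P.L → Monotone P.cut → (∀ m, P.m0 ≤ m → 16 * P.E m ^ 6 < 2 ^ m) →
      (∀ m, P.m0 ≤ m → 2 * P.E m ^ 2 ≤ P.cut m) →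
      (∀ x, 0 ≤ f x) → (∀ x, f x ≤ 1) → (∀ x, 0 ≤ f' x) → (∀ x, f' x ≤ 1) →
      ∑ b ∈ M.divisors, ∑ c ∈ M.divisors,
        (if X ≤ (Nat.gcd b c : ℝ) ∧ (Nat.gcd b c : ℝ) < 2 * X ∧ BTR F P K K0 b c then
          (Nat.gcd b c : ℝ) * nu M b * nu M c * (f b * f' c) else 0) ≤
      C * X ^ (2 * t - 1) * (K ^ ε * (1 / K0) ^ (1 - t) *
        ((∑ b ∈ M.divisors, nu M b * f b) ^ t * (∑ b ∈ M.divisors, nu M b * f' b) ^ t)) := by
  have hδ : 0 < ε / 2 := by positivity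
  obtain ⟨C, hC, hbt⟩ := big_twist ht ht1
  obtain ⟨C1, hC1, hdiv⟩ := divisor_bound hδ
  obtain ⟨C2, hC2, hlog⟩ := log_le hδ
  refine ⟨C * (C1 * C2 * (2 : ℝ) ^ ε), by positivity, ?_⟩
  intro M F P X K K0 f f' hM hX hK hK0 hL hcut hE6 hEc hf hf1 hf' hf1'
  set E1 : ℝ := ∑ b ∈ M.divisors, nu M b * f b with hE1
  set E2 : ℝ := ∑ b ∈ M.divisors, nu M b * f' b with hE2
  have hEf : 0 ≤ E1 := Finset.sum_nonneg fun b _ => mul_nonneg (nu_nonneg _ _) (hf b)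
  have hEf' : 0 ≤ E2 := Finset.sum_nonneg fun b _ => mul_nonneg (nu_nonneg _ _) (hf' b)
  have hKp : 0 < K := by linarith
  set ω : ℝ := ((Nat.log 2 ⌊2 * K⌋₊ : ℕ) : ℝ) + 1 with hω
  have hω1 : 1 ≤ ω := by
    have : (0 : ℝ) ≤ ((Nat.log 2 ⌊2 * K⌋₊ : ℕ) : ℝ) := Nat.cast_nonneg _
    linarith
  have hω0 : 0 < ω := by linarith
  set N : ℝ := C1 * (2 * K) ^ (ε / 2) with hN
  have hN0 : 0 < N := by positivity
  have hD : ∀ k : ℕ, 0 < k → (k : ℝ) < 2 * K → (k.divisors.card : ℝ) ≤ N := by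
    intro k hk hk2
    refine (hdiv k hk).trans ?_
    refine mul_le_mul_of_nonneg_left ?_ (by linarith)
    exact Real.rpow_le_rpow (Nat.cast_nonneg _) hk2.le hδ.le
  have hkω : ∀ z, ∀ k ∈ KR F P K K0 z, (k : ℝ) ≤ ω * k.totient := by
    intro z k hk
    obtain ⟨_, _, _, h4⟩ := mem_KR.1 hk
    have h1 := le_totient_mul k
    have h2 : k ≤ ⌊2 * K⌋₊ := Nat.le_floor h4.lt.le
    have h3 : Nat.log 2 k ≤ Nat.log 2 ⌊2 * K⌋₊ := Nat.log_mono_right h2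
    have h5 : k ≤ k.totient * (Nat.log 2 ⌊2 * K⌋₊ + 1) :=
      h1.trans (Nat.mul_le_mul_left _ (by omega))
    have h6 : (k : ℝ) ≤ (k.totient : ℝ) * (((Nat.log 2 ⌊2 * K⌋₊ : ℕ) : ℝ) + 1) := by
      exact_mod_cast h5
    rw [mul_comm]
    exact h6
  have hφ : ∀ z, ∀ k ∈ KR F P K K0 z, K0 / ω ≤ (k.totient : ℝ) := by
    intro z k hk
    rw [div_le_iff₀ hω0, mul_comm]
    exact (mem_KR.1 hk).1.trans (hkω z k hk)
  have hmain := hbt M X N N (K0 / ω) ω (KR F P K K0) f f' hM hX hf hf1 hf' hf1' hN0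
    (by positivity) hω0.le hN0.le
    (fun z _ => card_KR hL hM hcut hE6 hEc hN0.le hD) hφ hkω
    (fun b hb => by
      have := card_KR' (F := F) (K0 := K0) hL hM hcut hE6 hEc hb hN0.le hD
      convert this)
  refine le_trans ?_ (hmain.trans ?_)
  · refine Finset.sum_le_sum fun b hb => Finset.sum_le_sum fun c hc => ?_
    have h0 : 0 ≤ (Nat.gcd b c : ℝ) * nu M b * nu M c * (f b * f' c) := by
      have a1 := nu_nonneg M b
      have a2 := nu_nonneg M c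
      have a3 := hf b
      have a4 := hf' c
      positivity
    by_cases h : X ≤ (Nat.gcd b c : ℝ) ∧ (Nat.gcd b c : ℝ) < 2 * X ∧ BTR F P K K0 b c
    · rw [if_pos h, if_pos]
      obtain ⟨h1, h2, k, b0, e, h3, h4, h5⟩ := h
      refine ⟨h1, h2, k, b0, e, mem_KR.2 ⟨h3, ?_, ?_, ?_⟩, h4⟩
      · have hb0 : 0 < b := Nat.pos_of_mem_divisors hb
        rw [e] at hb0
        exact Nat.pos_of_mul_pos_right hb0
      · rw [← e]; exact Nat.dvd_of_mem_divisors hb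
      · rw [← e]; exact h5
    · rw [if_neg h]
      split_ifs
      · exact h0
      · exact le_rfl
  · have hNω : N * ω ≤ C1 * C2 * 2 ^ ε * K ^ ε := by
      have h1 := hlog K (by linarith)
      have h2 : (2 * K) ^ (ε / 2) * (2 * K) ^ (ε / 2) = 2 ^ ε * K ^ ε := by
        rw [← Real.rpow_add (by linarith), add_halves, Real.mul_rpow (by norm_num) hKp.le]
      calc N * ω ≤ (C1 * (2 * K) ^ (ε / 2)) * (C2 * (2 * K) ^ (ε / 2)) :=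
            mul_le_mul_of_nonneg_left h1 hN0.le
        _ = C1 * C2 * ((2 * K) ^ (ε / 2) * (2 * K) ^ (ε / 2)) := by ring
        _ = C1 * C2 * 2 ^ ε * K ^ ε := by rw [h2]; ring
    have h3 : N / (K0 / ω) = (N * ω) * (1 / K0) := by
      field_simp
    have hNω0 : 0 < N * ω := by positivity
    have h4 : (N / (K0 / ω)) ^ (1 - t) = (N * ω) ^ (1 - t) * (1 / K0) ^ (1 - t) := by
      rw [h3, Real.mul_rpow hNω0.le (by positivity)]
    have h5 : (ω * N * E1) ^ t = (N * ω) ^ t * E1 ^ t := by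
      rw [mul_comm ω N, Real.mul_rpow hNω0.le hEf]
    have h6 : (N * ω) ^ (1 - t) * (N * ω) ^ t = N * ω := by
      rw [← Real.rpow_add hNω0]
      simp
    rw [h4, h5]
    have hB0 : 0 ≤ E1 ^ t * E2 ^ t := mul_nonneg (Real.rpow_nonneg hEf _) (Real.rpow_nonneg hEf' _)
    calc C * X ^ (2 * t - 1) * ((N * ω) ^ (1 - t) * (1 / K0) ^ (1 - t) *
          ((N * ω) ^ t * E1 ^ t * E2 ^ t))
        = C * X ^ (2 * t - 1) * (((N * ω) ^ (1 - t) * (N * ω) ^ t) * (1 / K0) ^ (1 - t) *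
          (E1 ^ t * E2 ^ t)) := by ring
      _ = C * X ^ (2 * t - 1) * ((N * ω) * (1 / K0) ^ (1 - t) * (E1 ^ t * E2 ^ t)) := by rw [h6]
      _ ≤ C * X ^ (2 * t - 1) * ((C1 * C2 * 2 ^ ε * K ^ ε) * (1 / K0) ^ (1 - t) *
          (E1 ^ t * E2 ^ t)) := by
          refine mul_le_mul_of_nonneg_left ?_ (by positivity)
          refine mul_le_mul_of_nonneg_right ?_ hB0
          exact mul_le_mul_of_nonneg_right hNω (by positivity)
      _ = _ := by ring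

end Crest.Agent.R4C.BigTwistRx22
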