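import Mathlib

/-!
# Row 4: the one-prime inequality of THEOREM (R) (note 2326), for arbitrary exponents (helper19)

`y i` = mass share of the exponent `i` at the prime `p`.  Everything is normalised by the total.
-/

set_option autoImplicit false
set_option linter.unusedVariables false

namespace Crest.Agent.R4C.OnePx19

open Finset Real

/-- kernel Cauchy-Schwarz (Schur test with equal row and column bounds). -/
lemma schur {ι κ : Type*} (I : Finset ι) (J : Finset κ) (k : ι → κ → ℝ) (u : ι → ℝ) (v : κ → ℝ)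
    (R : ℝ) (hR : 0 ≤ R) (hk : ∀ i ∈ I, ∀ j ∈ J, 0 ≤ k i j)
    (hu : ∀ i ∈ I, 0 ≤ u i) (hv : ∀ j ∈ J, 0 ≤ v j)
    (hrow : ∀ i ∈ I, ∑ j ∈ J, k i j ≤ R) (hcol : ∀ j ∈ J, ∑ i ∈ I, k i j ≤ R) :
    ∑ i ∈ I, ∑ j ∈ J, k i j * (u i * v j) ≤
      R * (√(∑ i ∈ I, u i ^ 2) * √(∑ j ∈ J, v j ^ 2)) := by
  set U := √(∑ i ∈ I, u i ^ 2) with hU
  set V := √(∑ j ∈ J, v j ^ 2) with hV
  have hU0 : 0 ≤ U := Real.sqrt_nonneg _
  have hV0 : 0 ≤ V := Real.sqrt_nonneg _
  have hUU : U ^ 2 = ∑ i ∈ I, u i ^ 2 := by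
    rw [hU, Real.sq_sqrt]; exact Finset.sum_nonneg fun i _ => sq_nonneg _
  have hVV : V ^ 2 = ∑ j ∈ J, v j ^ 2 := by
    rw [hV, Real.sq_sqrt]; exact Finset.sum_nonneg fun i _ => sq_nonneg _
  rcases hU0.lt_or_eq with hUp | hUz
  · rcases hV0.lt_or_eq with hVp | hVz
    · -- main case
      have key : ∀ i ∈ I, ∀ j ∈ J, k i j * (u i * v j) ≤
          k i j * (u i ^ 2) * (V / (2 * U)) + k i j * (v j ^ 2) * (U / (2 * V)) := by
        intro i hi j hj
        have h1 : u i * v j ≤ u i ^ 2 * (V / (2 * U)) + v j ^ 2 * (U / (2 * V)) := by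
          have : 0 ≤ (u i * V - v j * U) ^ 2 / (2 * U * V) := by positivity
          have e : u i ^ 2 * (V / (2 * U)) + v j ^ 2 * (U / (2 * V)) - u i * v j
              = (u i * V - v j * U) ^ 2 / (2 * U * V) := by
            field_simp
            ring
          linarith
        have := mul_le_mul_of_nonneg_left h1 (hk i hi j hj)
        linarith [this]
      calc ∑ i ∈ I, ∑ j ∈ J, k i j * (u i * v j)
          ≤ ∑ i ∈ I, ∑ j ∈ J, (k i j * (u i ^ 2) * (V / (2 * U)) + k i j * (v j ^ 2) * (U / (2 * V))) :=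
            Finset.sum_le_sum fun i hi => Finset.sum_le_sum fun j hj => key i hi j hj
        _ = (∑ i ∈ I, (∑ j ∈ J, k i j) * (u i ^ 2)) * (V / (2 * U))
            + (∑ j ∈ J, (∑ i ∈ I, k i j) * (v j ^ 2)) * (U / (2 * V)) := by
            simp only [Finset.sum_add_distrib]
            congr 1
            · rw [Finset.sum_mul]
              refine Finset.sum_congr rfl fun i _ => ?_
              rw [Finset.sum_mul, Finset.sum_mul]
            · rw [Finset.sum_comm, Finset.sum_mul]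
              refine Finset.sum_congr rfl fun j _ => ?_
              rw [Finset.sum_mul, Finset.sum_mul]
        _ ≤ (∑ i ∈ I, R * (u i ^ 2)) * (V / (2 * U)) + (∑ j ∈ J, R * (v j ^ 2)) * (U / (2 * V)) := by
            gcongr with i hi j hj
            · exact hrow i hi
            · exact hcol j hj
        _ = R * (U * V) := by
            rw [← Finset.mul_sum, ← Finset.mul_sum, ← hUU, ← hVV]
            field_simp
            ring
    · -- V = 0
      have hv0 : ∀ j ∈ J, v j = 0 := by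
        intro j hj
        have h0 : ∑ j ∈ J, v j ^ 2 = 0 := by rw [← hVV, ← hVz]; norm_num
        have := (Finset.sum_eq_zero_iff_of_nonneg (fun i _ => sq_nonneg (v i))).1 h0 j hj
        exact pow_eq_zero_iff (two_ne_zero) |>.1 this
      have : ∑ i ∈ I, ∑ j ∈ J, k i j * (u i * v j) = 0 :=
        Finset.sum_eq_zero fun i hi => Finset.sum_eq_zero fun j hj => by rw [hv0 j hj]; ring
      rw [this]; positivity
  · have hu0 : ∀ i ∈ I, u i = 0 := by
      intro j hj
      have h0 : ∑ j ∈ I, u j ^ 2 = 0 := by rw [← hUU, ← hUz]; norm_num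
      have := (Finset.sum_eq_zero_iff_of_nonneg (fun i _ => sq_nonneg (u i))).1 h0 j hj
      exact pow_eq_zero_iff (two_ne_zero) |>.1 this
    have : ∑ i ∈ I, ∑ j ∈ J, k i j * (u i * v j) = 0 :=
      Finset.sum_eq_zero fun i hi => Finset.sum_eq_zero fun j hj => by rw [hu0 i hi]; ring
    rw [this]; positivity

/-- distance of two exponents -/
def dst (i j : ℕ) : ℕ := (i - j) + (j - i)

lemma dst_self (i : ℕ) : dst i i = 0 := by simp [dst]
lemma dst_comm (i j : ℕ) : dst i j = dst j i := by simp [dst, add_comm]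
lemma dst_pos {i j : ℕ} (h : i ≠ j) : 1 ≤ dst i j := by unfold dst; omega

lemma geom_le (w : ℝ) (hw0 : 0 ≤ w) (hw1 : w < 1) (n : ℕ) :
    ∑ k ∈ range n, w ^ k ≤ 1 / (1 - w) := by
  have h := geom_sum_mul_neg w n
  have h1 : 0 < 1 - w := by linarith
  rw [le_div_iff₀ h1, h]
  have : 0 ≤ w ^ n := pow_nonneg hw0 n
  linarith

/-- row sum of the off-diagonal kernel -/
lemma row_off (w : ℝ) (hw0 : 0 ≤ w) (hw1 : w < 1) (n i : ℕ) :
    ∑ j ∈ range n, (if j = i then 0 else w ^ dst i j) ≤ 2 * w / (1 - w) := by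
  have h1 : 0 < 1 - w := by linarith
  have hsplit : ∀ j ∈ range n, (if j = i then (0:ℝ) else w ^ dst i j) ≤
      (if j < i then w ^ (i - j) else 0) + (if i < j then w ^ (j - i) else 0) := by
    intro j _
    rcases lt_trichotomy j i with h | h | h
    · have e : dst i j = i - j := by unfold dst; omega
      have : ¬ i < j := by omega
      simp [h, h.ne, e, this]
    · subst h; simp
    · have e : dst i j = j - i := by unfold dst; omega
      have h2 : ¬ j < i := by omega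
      have h3 : j ≠ i := by omega
      simp [h, h2, h3, e]
  refine (Finset.sum_le_sum hsplit).trans ?_
  rw [Finset.sum_add_distrib]
  have hA : ∑ j ∈ range n, (if j < i then w ^ (i - j) else 0) ≤ w / (1 - w) := by
    rw [← Finset.sum_filter]
    have : ∑ j ∈ (range n).filter (fun j => j < i), w ^ (i - j) ≤ ∑ j ∈ range i, w ^ (i - j) := by
      apply Finset.sum_le_sum_of_subset_of_nonneg
      · intro j hj; simp at hj ⊢; exact hj.2
      · intro j _ _; positivity
    refine this.trans ?_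
    have e : ∑ j ∈ range i, w ^ (i - j) = ∑ k ∈ range i, w ^ (k + 1) := by
      rw [← Finset.sum_range_reflect]
      refine Finset.sum_congr rfl fun k hk => ?_
      congr 1
      have := Finset.mem_range.1 hk
      omega
    rw [e]
    simp_rw [pow_succ]
    rw [← Finset.sum_mul]
    calc (∑ k ∈ range i, w ^ k) * w ≤ (1 / (1 - w)) * w :=
          mul_le_mul_of_nonneg_right (geom_le w hw0 hw1 i) hw0
      _ = w / (1 - w) := by ring
  have hB : ∑ j ∈ range n, (if i < j then w ^ (j - i) else 0) ≤ w / (1 - w) := by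
    rw [← Finset.sum_filter]
    have : ∑ j ∈ (range n).filter (fun j => i < j), w ^ (j - i) ≤
        ∑ j ∈ Finset.image (fun k => i + 1 + k) (range n), w ^ (j - i) := by
      apply Finset.sum_le_sum_of_subset_of_nonneg
      · intro j hj
        simp only [Finset.mem_filter, Finset.mem_range, Finset.mem_image] at hj ⊢
        exact ⟨j - i - 1, by omega, by omega⟩
      · intro j _ _; positivity
    refine this.trans ?_
    rw [Finset.sum_image (by intro a _ b _ h; simpa using h)]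
    have e : ∑ k ∈ range n, w ^ (i + 1 + k - i) = (∑ k ∈ range n, w ^ k) * w := by
      rw [Finset.sum_mul]
      refine Finset.sum_congr rfl fun k hk => ?_
      rw [← pow_succ]; congr 1; omega
    rw [e]
    calc (∑ k ∈ range n, w ^ k) * w ≤ (1 / (1 - w)) * w :=
          mul_le_mul_of_nonneg_right (geom_le w hw0 hw1 n) hw0
      _ = w / (1 - w) := by ring
  calc _ ≤ w / (1 - w) + w / (1 - w) := add_le_add hA hB
    _ = 2 * w / (1 - w) := by ring


/-! ## powers of the shares -/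

section shares

variable {κ : ℝ}

lemma sum_rpow_le (hκ : 1 / 2 ≤ κ) (I : Finset ℕ) (y : ℕ → ℝ) (hy : ∀ i ∈ I, 0 ≤ y i) (Z : ℝ)
    (hZ : ∑ i ∈ I, y i ≤ Z) : ∑ i ∈ I, (y i ^ κ) ^ 2 ≤ Z ^ (2 * κ) := by
  have hZ0 : 0 ≤ Z := (Finset.sum_nonneg hy).trans hZ
  have hk0 : 0 ≤ 2 * κ - 1 := by linarith
  have h1 : ∀ i ∈ I, (y i ^ κ) ^ 2 ≤ y i * Z ^ (2 * κ - 1) := by
    intro i hi
    have hyi := hy i hi
    have hyZ : y i ≤ Z := (Finset.single_le_sum hy hi).trans hZ
    rcases hyi.lt_or_eq with h | h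
    · have e : (y i ^ κ) ^ 2 = y i * y i ^ (2 * κ - 1) := by
        rw [← Real.rpow_natCast, ← Real.rpow_mul hyi]
        have : κ * ((2:ℕ):ℝ) = 1 + (2 * κ - 1) := by push_cast; ring
        rw [this, Real.rpow_add h, Real.rpow_one]
      rw [e]
      exact mul_le_mul_of_nonneg_left (Real.rpow_le_rpow hyi hyZ hk0) hyi
    · rw [← h, Real.zero_rpow (by linarith)]
      simp
  refine (Finset.sum_le_sum h1).trans ?_
  rw [← Finset.sum_mul]
  rcases hZ0.lt_or_eq with h | h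
  · calc (∑ i ∈ I, y i) * Z ^ (2 * κ - 1) ≤ Z * Z ^ (2 * κ - 1) :=
          mul_le_mul_of_nonneg_right hZ (Real.rpow_nonneg hZ0 _)
      _ = Z ^ (2 * κ) := by
          conv_rhs => rw [show 2 * κ = 1 + (2 * κ - 1) by ring, Real.rpow_add h, Real.rpow_one]
  · have : ∑ i ∈ I, y i = 0 := le_antisymm (by linarith) (Finset.sum_nonneg hy)
    rw [this, zero_mul]
    exact Real.rpow_nonneg hZ0 _

lemma sqrt_sum_le (hκ : 1 / 2 ≤ κ) (I : Finset ℕ) (y : ℕ → ℝ) (hy : ∀ i ∈ I, 0 ≤ y i) (Z : ℝ)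
    (hZ : ∑ i ∈ I, y i ≤ Z) : √(∑ i ∈ I, (y i ^ κ) ^ 2) ≤ Z ^ κ := by
  have hZ0 : 0 ≤ Z := (Finset.sum_nonneg hy).trans hZ
  rw [Real.sqrt_le_left (Real.rpow_nonneg hZ0 _)]
  refine (sum_rpow_le hκ I y hy Z hZ).trans (le_of_eq ?_)
  rw [← Real.rpow_natCast, ← Real.rpow_mul hZ0]
  congr 1; push_cast; ring

/-- the convexity constant -/
noncomputable def c0 (κ : ℝ) : ℝ := 1 - 2 ^ (-(2 * κ - 1))

lemma c0_pos (hκ : 1 / 2 < κ) : 0 < c0 κ := by
  unfold c0
  have : (2:ℝ) ^ (-(2 * κ - 1)) < 1 := by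
    apply Real.rpow_lt_one_of_one_lt_of_neg <;> linarith
  linarith

lemma c0_lt_one : c0 κ < 1 := by
  unfold c0
  have : (0:ℝ) < (2:ℝ) ^ (-(2 * κ - 1)) := by positivity
  linarith

lemma sigma_le (hκ : 1 / 2 < κ) (I : Finset ℕ) (y : ℕ → ℝ) (hy : ∀ i ∈ I, 0 ≤ y i)
    (hs : ∑ i ∈ I, y i = 1) (i0 : ℕ) (hi0 : i0 ∈ I) (hmax : ∀ i ∈ I, y i ≤ y i0) :
    ∑ i ∈ I, (y i ^ κ) ^ 2 ≤ 1 - c0 κ * (1 - y i0) := by
  have hc := c0_pos hκ
  have hk0 : 0 < 2 * κ - 1 := by linarith
  have hy0 : 0 ≤ y i0 := hy i0 hi0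
  have hy1 : y i0 ≤ 1 := by rw [← hs]; exact Finset.single_le_sum hy hi0
  have hsq : ∀ x : ℝ, 0 ≤ x → (x ^ κ) ^ 2 = x * x ^ (2 * κ - 1) := by
    intro x hx
    rcases hx.lt_or_eq with h | h
    · rw [← Real.rpow_natCast, ← Real.rpow_mul hx]
      have : κ * ((2:ℕ):ℝ) = 1 + (2 * κ - 1) := by push_cast; ring
      rw [this, Real.rpow_add h, Real.rpow_one]
    · rw [← h, Real.zero_rpow (by linarith)]; simp
  have hhalf : ((1:ℝ) / 2) ^ (2 * κ - 1) = 1 - c0 κ := by
    unfold c0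
    rw [Real.rpow_neg (by norm_num), one_div, Real.inv_rpow (by norm_num)]
    ring
  rcases le_or_gt (1 / 2) (y i0) with h | h
  · rw [← Finset.add_sum_erase I _ hi0]
    have h1 : (y i0 ^ κ) ^ 2 ≤ y i0 := by
      rw [hsq _ hy0]
      have : y i0 ^ (2 * κ - 1) ≤ 1 := Real.rpow_le_one hy0 hy1 hk0.le
      nlinarith
    have hz : ∑ i ∈ I.erase i0, y i = 1 - y i0 := by
      have := Finset.add_sum_erase I y hi0
      linarith
    have h2 : ∑ i ∈ I.erase i0, (y i ^ κ) ^ 2 ≤ (1 - y i0) ^ (2 * κ) :=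
      sum_rpow_le hκ.le _ y (fun i hi => hy i (Finset.mem_of_mem_erase hi)) _ hz.le
    have h3 : (1 - y i0) ^ (2 * κ) ≤ (1 - y i0) * (1 - c0 κ) := by
      have hz0 : 0 ≤ 1 - y i0 := by linarith
      have e : (1 - y i0) ^ (2 * κ) = ((1 - y i0) ^ κ) ^ 2 := by
        rw [← Real.rpow_natCast, ← Real.rpow_mul hz0]; congr 1; push_cast; ring
      rw [e, hsq _ hz0, ← hhalf]
      exact mul_le_mul_of_nonneg_left (Real.rpow_le_rpow hz0 (by linarith) hk0.le) hz0
    calc _ ≤ y i0 + (1 - y i0) * (1 - c0 κ) := by linarith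
      _ = 1 - c0 κ * (1 - y i0) := by ring
  · have h1 : ∀ i ∈ I, (y i ^ κ) ^ 2 ≤ y i * (1 - c0 κ) := by
      intro i hi
      rw [hsq _ (hy i hi), ← hhalf]
      exact mul_le_mul_of_nonneg_left
        (Real.rpow_le_rpow (hy i hi) ((hmax i hi).trans h.le) hk0.le) (hy i hi)
    refine (Finset.sum_le_sum h1).trans ?_
    rw [← Finset.sum_mul, hs]
    nlinarith

lemma off_le (hκ : 1 / 2 ≤ κ) (w : ℝ) (hw0 : 0 ≤ w) (hw : w ≤ 1 / 2) (n : ℕ)
    (I J : Finset ℕ) (hI : I ⊆ range n) (hJ : J ⊆ range n) (y y' : ℕ → ℝ)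
    (hy : ∀ i ∈ range n, 0 ≤ y i) (hy' : ∀ i ∈ range n, 0 ≤ y' i)
    (Z Z' : ℝ) (hZ : ∑ i ∈ I, y i ≤ Z) (hZ' : ∑ i ∈ J, y' i ≤ Z') :
    ∑ i ∈ I, ∑ j ∈ J, (if j = i then 0 else w ^ dst i j) * (y i ^ κ * y' j ^ κ) ≤
      4 * w * (Z ^ κ * Z' ^ κ) := by
  have hrow : ∀ i, ∑ j ∈ range n, (if j = i then (0:ℝ) else w ^ dst i j) ≤ 4 * w := by
    intro i
    refine (row_off w hw0 (by linarith) n i).trans ?_
    rw [div_le_iff₀ (by linarith)]
    nlinarith
  have hnn : ∀ i j, (0:ℝ) ≤ (if j = i then (0:ℝ) else w ^ dst i j) := by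
    intro i j; split_ifs
    · exact le_rfl
    · positivity
  have h := schur I J (fun i j => if j = i then (0:ℝ) else w ^ dst i j) (fun i => y i ^ κ)
    (fun j => y' j ^ κ) (4 * w) (by linarith) (fun i _ j _ => hnn i j)
    (fun i hi => Real.rpow_nonneg (hy i (hI hi)) _) (fun j hj => Real.rpow_nonneg (hy' j (hJ hj)) _)
    (fun i hi => (Finset.sum_le_sum_of_subset_of_nonneg hJ fun j _ _ => hnn i j).trans (hrow i))
    (fun j hj => by
      refine (Finset.sum_le_sum_of_subset_of_nonneg hI fun i _ _ => hnn i j).trans ?_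
      refine le_trans (le_of_eq ?_) (hrow j)
      refine Finset.sum_congr rfl fun i _ => ?_
      rcases eq_or_ne i j with e | e
      · subst e; simp
      · simp [e, e.symm, dst_comm])
  refine h.trans ?_
  have h1 := sqrt_sum_le hκ I y (fun i hi => hy i (hI hi)) Z hZ
  have h2 := sqrt_sum_le hκ J y' (fun i hi => hy' i (hJ hi)) Z' hZ'
  have h3 : 0 ≤ Z ^ κ := (Real.sqrt_nonneg _).trans h1
  gcongr

lemma diag_le (I : Finset ℕ) (y y' : ℕ → ℝ) :
    ∑ i ∈ I, y i ^ κ * y' i ^ κ ≤ √(∑ i ∈ I, (y i ^ κ) ^ 2) * √(∑ i ∈ I, (y' i ^ κ) ^ 2) :=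
  Real.sum_mul_le_sqrt_mul_sqrt _ _ _

/-- **normalised one-prime inequality** (large primes). -/
lemma split_norm (hκ : 1 / 2 < κ) (hκ1 : κ < 1) (w : ℝ) (hw0 : 0 ≤ w) (hw : w ≤ c0 κ / 64)
    (x1 : ℝ) (hx0 : 0 ≤ x1) (hx1 : x1 ≤ 1 / 4)
    (hx : ∀ z, x1 ≤ z → z ≤ 1 → 12 * w * z ^ κ ≤ c0 κ / 4 * z)
    (n : ℕ) (y y' : ℕ → ℝ)
    (hy : ∀ i ∈ range n, 0 ≤ y i) (hy' : ∀ i ∈ range n, 0 ≤ y' i)
    (hs : ∑ i ∈ range n, y i = 1) (hs' : ∑ i ∈ range n, y' i = 1) :
    (∃ i0 ∈ range n, 1 - y i0 ≤ x1 ∧ 1 - y' i0 ≤ x1) ∨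
    (∑ i ∈ range n, y i ^ κ * y' i ^ κ +
      ∑ i ∈ range n, ∑ j ∈ range n, (if j = i then 0 else w ^ dst i j) * (y i ^ κ * y' j ^ κ)
        ≤ 1 - c0 κ / 4 * x1) := by
  have hc := c0_pos hκ
  have hc1 : c0 κ < 1 := c0_lt_one
  have hw2 : w ≤ 1 / 2 := by linarith
  have hne : (range n).Nonempty := by
    rw [Finset.nonempty_iff_ne_empty]; intro h; rw [h] at hs; simp at hs
  obtain ⟨i0, hi0, hmax⟩ := Finset.exists_max_image (range n) y hne
  obtain ⟨j0, hj0, hmax'⟩ := Finset.exists_max_image (range n) y' hne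
  set ζ := 1 - y i0 with hζ
  set ζ' := 1 - y' j0 with hζ'
  have hy1 : y i0 ≤ 1 := by rw [← hs]; exact Finset.single_le_sum hy hi0
  have hy1' : y' j0 ≤ 1 := by rw [← hs']; exact Finset.single_le_sum hy' hj0
  have hz0 : 0 ≤ ζ := by rw [hζ]; linarith
  have hz0' : 0 ≤ ζ' := by rw [hζ']; linarith
  have hz1 : ζ ≤ 1 := by have := hy i0 hi0; rw [hζ]; linarith
  have hz1' : ζ' ≤ 1 := by have := hy' j0 hj0; rw [hζ']; linarith
  have hs1 := sigma_le hκ (range n) y hy hs i0 hi0 hmax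
  have hs2 := sigma_le hκ (range n) y' hy' hs' j0 hj0 hmax'
  -- diagonal bound
  have hM : ∑ i ∈ range n, y i ^ κ * y' i ^ κ ≤ 1 - c0 κ / 2 * (ζ + ζ') := by
    refine (diag_le (κ := κ) (range n) y y').trans ?_
    set a := ∑ i ∈ range n, (y i ^ κ) ^ 2
    set b := ∑ i ∈ range n, (y' i ^ κ) ^ 2
    have ha : 0 ≤ a := Finset.sum_nonneg fun i _ => sq_nonneg _
    have hb : 0 ≤ b := Finset.sum_nonneg fun i _ => sq_nonneg _
    have h1 : √a * √b ≤ (a + b) / 2 := by
      nlinarith [sq_nonneg (√a - √b), Real.sq_sqrt ha, Real.sq_sqrt hb]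
    calc √a * √b ≤ (a + b) / 2 := h1
      _ ≤ ((1 - c0 κ * ζ) + (1 - c0 κ * ζ')) / 2 := by linarith
      _ = _ := by ring
  have he : ∑ i ∈ (range n).erase i0, y i = ζ := by
    have := Finset.add_sum_erase (range n) y hi0
    rw [hζ]; linarith
  have he' : ∑ i ∈ (range n).erase j0, y' i = ζ' := by
    have := Finset.add_sum_erase (range n) y' hj0
    rw [hζ']; linarith
  by_cases hij : i0 = j0
  · subst hij
    by_cases hp : ζ ≤ x1 ∧ ζ' ≤ x1
    · exact Or.inl ⟨i0, hi0, hp.1, hp.2⟩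
    · right
      set z := max ζ ζ' with hz
      have hzx : x1 ≤ z := by
        by_contra hcon
        push_neg at hcon
        exact hp ⟨(le_max_left _ _).trans hcon.le, (le_max_right _ _).trans hcon.le⟩
      have hzle1 : z ≤ 1 := max_le hz1 hz1'
      have hznn : 0 ≤ z := hx0.trans hzx
      have hzk : ζ ^ κ ≤ z ^ κ := Real.rpow_le_rpow hz0 (le_max_left _ _) (by linarith)
      have hzk' : ζ' ^ κ ≤ z ^ κ := Real.rpow_le_rpow hz0' (le_max_right _ _) (by linarith)
      have hzk1 : z ^ κ ≤ 1 := Real.rpow_le_one hznn hzle1 (by linarith)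
      have hζk0 : 0 ≤ ζ ^ κ := Real.rpow_nonneg hz0 _
      have hζk0' : 0 ≤ ζ' ^ κ := Real.rpow_nonneg hz0' _
      have hE : (range n).erase i0 ⊆ range n := Finset.erase_subset _ _
      have hS : ({i0} : Finset ℕ) ⊆ range n := by simpa using hi0
      have b1 := off_le hκ.le w hw0 hw2 n {i0} ((range n).erase i0) hS hE y y' hy hy' 1 ζ'
        (by simpa using hy1) he'.le
      have b2 := off_le hκ.le w hw0 hw2 n ((range n).erase i0) {i0} hE hS y y' hy hy' ζ 1
        he.le (by simpa using hy1')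
      have b3 := off_le hκ.le w hw0 hw2 n ((range n).erase i0) ((range n).erase i0) hE hE
        y y' hy hy' ζ ζ' he.le he'.le
      have hX : ∑ i ∈ range n, ∑ j ∈ range n,
          (if j = i then 0 else w ^ dst i j) * (y i ^ κ * y' j ^ κ) ≤ 12 * w * z ^ κ := by
        rw [← Finset.add_sum_erase (range n) _ hi0]
        have e1 : ∑ j ∈ range n, (if j = i0 then 0 else w ^ dst i0 j) * (y i0 ^ κ * y' j ^ κ)
            ≤ 4 * w * (1 ^ κ * ζ' ^ κ) := by
          rw [← Finset.add_sum_erase (range n) _ hi0]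
          simpa using b1
        have e2 : ∑ i ∈ (range n).erase i0, ∑ j ∈ range n,
            (if j = i then 0 else w ^ dst i j) * (y i ^ κ * y' j ^ κ)
            ≤ 4 * w * (ζ ^ κ * 1 ^ κ) + 4 * w * (ζ ^ κ * ζ' ^ κ) := by
          have : ∀ i ∈ (range n).erase i0, ∑ j ∈ range n,
              (if j = i then 0 else w ^ dst i j) * (y i ^ κ * y' j ^ κ) =
              (∑ j ∈ ({i0} : Finset ℕ), (if j = i then 0 else w ^ dst i j) * (y i ^ κ * y' j ^ κ))
              + ∑ j ∈ (range n).erase i0,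
                (if j = i then 0 else w ^ dst i j) * (y i ^ κ * y' j ^ κ) := by
            intro i _
            rw [← Finset.add_sum_erase (range n) _ hi0, Finset.sum_singleton]
          rw [Finset.sum_congr rfl this, Finset.sum_add_distrib]
          exact add_le_add b2 b3
        have hprod : ζ ^ κ * ζ' ^ κ ≤ z ^ κ := by
          calc ζ ^ κ * ζ' ^ κ ≤ z ^ κ * 1 := by
                apply mul_le_mul hzk (hzk'.trans hzk1) hζk0' (by positivity)
            _ = z ^ κ := mul_one _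
        simp only [Real.one_rpow, one_mul, mul_one] at e1 e2
        calc _ ≤ 4 * w * ζ' ^ κ + (4 * w * ζ ^ κ + 4 * w * (ζ ^ κ * ζ' ^ κ)) := add_le_add e1 e2
          _ ≤ 4 * w * z ^ κ + (4 * w * z ^ κ + 4 * w * z ^ κ) := by gcongr
          _ = 12 * w * z ^ κ := by ring
      have hXz := hx z hzx hzle1
      have hmz : z ≤ ζ + ζ' := max_le (by linarith) (by linarith)
      nlinarith
  · right
    have hX : ∑ i ∈ range n, ∑ j ∈ range n,
        (if j = i then 0 else w ^ dst i j) * (y i ^ κ * y' j ^ κ) ≤ 4 * w := by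
      have := off_le hκ.le w hw0 hw2 n (range n) (range n) subset_rfl subset_rfl y y' hy hy' 1 1
        hs.le hs'.le
      simpa using this
    by_cases hbig : 1 / 4 < ζ + ζ'
    · nlinarith
    · push_neg at hbig
      -- both concentrated, at different levels
      have hyj : y j0 ≤ ζ := by
        have hj : j0 ∈ (range n).erase i0 := Finset.mem_erase.2 ⟨fun h => hij h.symm, hj0⟩
        rw [← he]
        exact Finset.single_le_sum (fun i hi => hy i (Finset.mem_of_mem_erase hi)) hj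
      have hk4 : ∀ x : ℝ, 0 ≤ x → x ≤ 1 / 4 → x ^ κ ≤ (1 / 4 : ℝ) ^ κ := fun x h0 h1 =>
        Real.rpow_le_rpow h0 h1 (by linarith)
      have h4 : 2 * (1 / 4 : ℝ) ^ κ = 1 - c0 κ := by
        unfold c0
        have : (1 / 4 : ℝ) = 2 ^ (-2 : ℝ) := by
          rw [Real.rpow_neg (by norm_num)]; norm_num
        rw [this, ← Real.rpow_mul (by norm_num)]
        have h2 : (2:ℝ) * 2 ^ (-2 * κ) = 2 ^ (1 + -2 * κ) := by
          rw [Real.rpow_add (by norm_num), Real.rpow_one]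
        rw [h2]
        ring_nf
      have d1 : y j0 ^ κ * y' j0 ^ κ ≤ (1 / 4 : ℝ) ^ κ := by
        have a1 : y j0 ^ κ ≤ (1 / 4 : ℝ) ^ κ := hk4 _ (hy j0 hj0) (by linarith)
        have a2 : y' j0 ^ κ ≤ 1 := Real.rpow_le_one (hy' j0 hj0) hy1' (by linarith)
        have a3 : 0 ≤ y' j0 ^ κ := Real.rpow_nonneg (hy' j0 hj0) _
        have a4 : 0 ≤ (1 / 4 : ℝ) ^ κ := by positivity
        nlinarith
      have d2 : ∑ i ∈ (range n).erase j0, y i ^ κ * y' i ^ κ ≤ (1 / 4 : ℝ) ^ κ := by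
        refine (diag_le (κ := κ) _ y y').trans ?_
        have hsub : ∀ i ∈ (range n).erase j0, 0 ≤ y i := fun i hi => hy i (Finset.mem_of_mem_erase hi)
        have hsub' : ∀ i ∈ (range n).erase j0, 0 ≤ y' i := fun i hi => hy' i (Finset.mem_of_mem_erase hi)
        have b1 := sqrt_sum_le hκ.le ((range n).erase j0) y hsub 1
          (by
            rw [← hs]
            exact Finset.sum_le_sum_of_subset_of_nonneg (Finset.erase_subset _ _)
              fun i hi _ => hy i hi)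
        have b2 := sqrt_sum_le hκ.le ((range n).erase j0) y' hsub' ζ' he'.le
        rw [Real.one_rpow] at b1
        calc _ ≤ 1 * ζ' ^ κ := by gcongr
          _ ≤ (1 / 4 : ℝ) ^ κ := by rw [one_mul]; exact hk4 _ hz0' (by linarith)
      have hM2 : ∑ i ∈ range n, y i ^ κ * y' i ^ κ ≤ 1 - c0 κ := by
        rw [← Finset.add_sum_erase (range n) _ hj0, ← h4]
        linarith
      nlinarith

end shares

end Crest.Agent.R4C.OnePx19
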