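import Mathlib
import Crest.Agent.R4C.OneP_19

/-!
# Row 4: the one-prime inequality of THEOREM (R) (note 2326), constants (helper19)
-/

set_option autoImplicit false
set_option linter.unusedVariables false

namespace Crest.Agent.R4C.OnePx19

open Finset Real

/-- the one-prime property: `w` = cross weight of one exponent step, `g` = gain factor of a split
common exponent, `C` = total constant. -/
def OneP (κ w g C : ℝ) : Prop :=
  ∀ (n : ℕ) (y y' : ℕ → ℝ), (∀ i ∈ range n, 0 ≤ y i) → (∀ i ∈ range n, 0 ≤ y' i) →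
    (∃ i0 ∈ range n,
      ∑ i ∈ (range n).erase i0, ∑ j ∈ (range n).erase i0,
        w ^ dst i j * 2 * (y i ^ κ * y' j ^ κ) ≤
          (C - 1) * ((∑ i ∈ range n, y i) ^ κ * (∑ i ∈ range n, y' i) ^ κ)) ∨
    (∑ i ∈ range n, (y i ^ κ * y' i ^ κ) / g +
      ∑ i ∈ range n, ∑ j ∈ range n, (if j = i then 0 else w ^ dst i j) * (y i ^ κ * y' j ^ κ)
        ≤ C * ((∑ i ∈ range n, y i) ^ κ * (∑ i ∈ range n, y' i) ^ κ))

/-- it is enough to treat normalised sequences -/
lemma OneP.of_norm {κ w g C : ℝ} (hκ : 0 < κ) (hC : 0 ≤ C)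
    (h : ∀ (n : ℕ) (y y' : ℕ → ℝ), (∀ i ∈ range n, 0 ≤ y i) → (∀ i ∈ range n, 0 ≤ y' i) →
      ∑ i ∈ range n, y i = 1 → ∑ i ∈ range n, y' i = 1 →
    (∃ i0 ∈ range n,
      ∑ i ∈ (range n).erase i0, ∑ j ∈ (range n).erase i0,
        w ^ dst i j * 2 * (y i ^ κ * y' j ^ κ) ≤ (C - 1)) ∨
    (∑ i ∈ range n, (y i ^ κ * y' i ^ κ) / g +
      ∑ i ∈ range n, ∑ j ∈ range n, (if j = i then 0 else w ^ dst i j) * (y i ^ κ * y' j ^ κ)
        ≤ C)) : OneP κ w g C := by
  intro n y y' hy hy'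
  set s := ∑ i ∈ range n, y i with hs
  set s' := ∑ i ∈ range n, y' i with hs'
  have hs0 : 0 ≤ s := Finset.sum_nonneg hy
  have hs0' : 0 ≤ s' := Finset.sum_nonneg hy'
  by_cases hz : s = 0 ∨ s' = 0
  · right
    have hterm : ∀ i ∈ range n, ∀ j ∈ range n, y i ^ κ * y' j ^ κ = 0 := by
      intro i hi j hj
      rcases hz with hz | hz
      · have : y i = 0 := (Finset.sum_eq_zero_iff_of_nonneg hy).1 hz i hi
        rw [this, Real.zero_rpow hκ.ne', zero_mul]
      · have : y' j = 0 := (Finset.sum_eq_zero_iff_of_nonneg hy').1 hz j hj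
        rw [this, Real.zero_rpow hκ.ne', mul_zero]
    have e1 : ∑ i ∈ range n, (y i ^ κ * y' i ^ κ) / g = 0 :=
      Finset.sum_eq_zero fun i hi => by rw [hterm i hi i hi, zero_div]
    have e2 : ∑ i ∈ range n, ∑ j ∈ range n,
        (if j = i then 0 else w ^ dst i j) * (y i ^ κ * y' j ^ κ) = 0 :=
      Finset.sum_eq_zero fun i hi => Finset.sum_eq_zero fun j hj => by rw [hterm i hi j hj, mul_zero]
    rw [e1, e2, add_zero]
    have := Real.rpow_nonneg hs0 κ
    have := Real.rpow_nonneg hs0' κ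
    positivity
  · have hsp : 0 < s := lt_of_le_of_ne hs0 (fun h => hz (Or.inl h.symm))
    have hsp' : 0 < s' := lt_of_le_of_ne hs0' (fun h => hz (Or.inr h.symm))
    have hS : 0 < s ^ κ * s' ^ κ := by positivity
    have hterm : ∀ i ∈ range n, ∀ j ∈ range n,
        y i ^ κ * y' j ^ κ = ((y i / s) ^ κ * (y' j / s') ^ κ) * (s ^ κ * s' ^ κ) := by
      intro i hi j hj
      rw [Real.div_rpow (hy i hi) hs0, Real.div_rpow (hy' j hj) hs0']
      field_simp
    rcases h n (fun i => y i / s) (fun i => y' i / s')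
      (fun i hi => div_nonneg (hy i hi) hs0) (fun i hi => div_nonneg (hy' i hi) hs0')
      (by rw [← Finset.sum_div, ← hs, div_self hsp.ne'])
      (by rw [← Finset.sum_div, ← hs', div_self hsp'.ne']) with ⟨i0, hi0, h1⟩ | h1
    · left
      refine ⟨i0, hi0, ?_⟩
      calc _ = (∑ i ∈ (range n).erase i0, ∑ j ∈ (range n).erase i0,
            w ^ dst i j * 2 * ((y i / s) ^ κ * (y' j / s') ^ κ)) * (s ^ κ * s' ^ κ) := by
            rw [Finset.sum_mul]
            refine Finset.sum_congr rfl fun i hi => ?_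
            rw [Finset.sum_mul]
            refine Finset.sum_congr rfl fun j hj => ?_
            rw [hterm i (Finset.mem_of_mem_erase hi) j (Finset.mem_of_mem_erase hj)]
            ring
        _ ≤ _ := mul_le_mul_of_nonneg_right h1 hS.le
    · right
      calc _ = (∑ i ∈ range n, ((y i / s) ^ κ * (y' i / s') ^ κ) / g +
          ∑ i ∈ range n, ∑ j ∈ range n, (if j = i then 0 else w ^ dst i j) *
            ((y i / s) ^ κ * (y' j / s') ^ κ)) * (s ^ κ * s' ^ κ) := by
            rw [add_mul, Finset.sum_mul, Finset.sum_mul]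
            congr 1
            · refine Finset.sum_congr rfl fun i hi => ?_
              rw [hterm i hi i hi]; ring
            · refine Finset.sum_congr rfl fun i hi => ?_
              rw [Finset.sum_mul]
              refine Finset.sum_congr rfl fun j hj => ?_
              rw [hterm i hi j hj]
              ring
        _ ≤ _ := mul_le_mul_of_nonneg_right h1 hS.le

/-- large primes -/
lemma oneP_large {κ : ℝ} (hκ : 1 / 2 < κ) (hκ1 : κ < 1) (w : ℝ) (hw0 : 0 ≤ w)
    (hw : w ≤ c0 κ / 64) (x1 : ℝ) (hx0 : 0 ≤ x1) (hx1 : x1 ≤ 1 / 4)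
    (hx : ∀ z, x1 ≤ z → z ≤ 1 → 12 * w * z ^ κ ≤ c0 κ / 4 * z) :
    OneP κ w (1 - c0 κ / 8 * x1) (1 + 3 * x1 ^ (2 * κ)) := by
  have hc := c0_pos hκ
  have hc1 : c0 κ < 1 := c0_lt_one
  have hX0 : 0 ≤ x1 ^ (2 * κ) := Real.rpow_nonneg hx0 _
  refine OneP.of_norm (by linarith) (by linarith) ?_
  intro n y y' hy hy' hs hs'
  rcases split_norm hκ hκ1 w hw0 hw x1 hx0 hx1 hx n y y' hy hy' hs hs' with ⟨i0, hi0, ha, hb⟩ | h
  · left
    refine ⟨i0, hi0, ?_⟩
    have hE : (range n).erase i0 ⊆ range n := Finset.erase_subset _ _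
    have he : ∑ i ∈ (range n).erase i0, y i = 1 - y i0 := by
      have := Finset.add_sum_erase (range n) y hi0
      linarith
    have he' : ∑ i ∈ (range n).erase i0, y' i = 1 - y' i0 := by
      have := Finset.add_sum_erase (range n) y' hi0
      linarith
    have b3 := off_le hκ.le w hw0 (by linarith) n ((range n).erase i0) ((range n).erase i0) hE hE
        y y' hy hy' x1 x1 (he.le.trans ha) (he'.le.trans hb)
    have d := diag_le (κ := κ) ((range n).erase i0) y y'
    have d1 := sqrt_sum_le hκ.le ((range n).erase i0) y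
      (fun i hi => hy i (Finset.mem_of_mem_erase hi)) x1 (he.le.trans ha)
    have d2 := sqrt_sum_le hκ.le ((range n).erase i0) y'
      (fun i hi => hy' i (Finset.mem_of_mem_erase hi)) x1 (he'.le.trans hb)
    have hxk : x1 ^ κ * x1 ^ κ = x1 ^ (2 * κ) := by
      rcases hx0.lt_or_eq with h | h
      · rw [← Real.rpow_add h]; congr 1; ring
      · rw [← h, Real.zero_rpow (by linarith), Real.zero_rpow (by linarith)]; simp
    have d3 : √(∑ i ∈ (range n).erase i0, (y i ^ κ) ^ 2) *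
        √(∑ i ∈ (range n).erase i0, (y' i ^ κ) ^ 2) ≤ x1 ^ (2 * κ) := by
      rw [← hxk]
      have : 0 ≤ x1 ^ κ := Real.rpow_nonneg hx0 _
      gcongr
    rw [hxk] at b3
    have e : ∑ i ∈ (range n).erase i0, ∑ j ∈ (range n).erase i0,
        w ^ dst i j * 2 * (y i ^ κ * y' j ^ κ) =
        2 * (∑ i ∈ (range n).erase i0, y i ^ κ * y' i ^ κ) +
        2 * ∑ i ∈ (range n).erase i0, ∑ j ∈ (range n).erase i0,
          (if j = i then 0 else w ^ dst i j) * (y i ^ κ * y' j ^ κ) := by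
      rw [Finset.mul_sum, Finset.mul_sum, ← Finset.sum_add_distrib]
      refine Finset.sum_congr rfl fun i hi => ?_
      rw [← Finset.add_sum_erase _ (fun j => w ^ dst i j * 2 * (y i ^ κ * y' j ^ κ)) hi,
        ← Finset.add_sum_erase _ (fun j => (if j = i then 0 else w ^ dst i j) *
          (y i ^ κ * y' j ^ κ)) hi]
      simp only [dst_self, pow_zero, if_true, zero_mul, zero_add]
      rw [Finset.mul_sum]
      congr 1
      · ring
      · refine Finset.sum_congr rfl fun j hj => ?_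
        rw [if_neg (Finset.ne_of_mem_erase hj)]
        ring
    rw [e]
    have : 4 * w * x1 ^ (2 * κ) ≤ (1 / 16) * x1 ^ (2 * κ) := by
      apply mul_le_mul_of_nonneg_right _ hX0
      linarith
    linarith
  · right
    set M := ∑ i ∈ range n, y i ^ κ * y' i ^ κ with hM
    set X := ∑ i ∈ range n, ∑ j ∈ range n,
      (if j = i then 0 else w ^ dst i j) * (y i ^ κ * y' j ^ κ) with hXd
    have hX : 0 ≤ X := by
      refine Finset.sum_nonneg fun i hi => Finset.sum_nonneg fun j hj => ?_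
      have := Real.rpow_nonneg (hy i hi) κ
      have := Real.rpow_nonneg (hy' j hj) κ
      split_ifs
      · simp
      · positivity
    have hM0 : 0 ≤ M := by
      refine Finset.sum_nonneg fun i hi => ?_
      have := Real.rpow_nonneg (hy i hi) κ
      have := Real.rpow_nonneg (hy' i hi) κ
      positivity
    rw [← Finset.sum_div, ← hM]
    have hg : 1 / 2 ≤ 1 - c0 κ / 8 * x1 := by nlinarith
    have hMg : M / (1 - c0 κ / 8 * x1) ≤ M + c0 κ / 4 * x1 := by
      rw [div_le_iff₀ (by linarith)]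
      have hM1 : M ≤ 1 := by nlinarith
      have ha : 0 ≤ c0 κ * x1 := by positivity
      nlinarith
    linarith

/-- small primes -/
lemma oneP_small {κ : ℝ} (hκ : 1 / 2 < κ) (w : ℝ) (hw0 : 0 ≤ w) (hw1 : w < 1) :
    OneP κ w 1 (1 + 2 * w / (1 - w)) := by
  have h1w : 0 < 1 - w := by linarith
  have hR : 0 ≤ 2 * w / (1 - w) := by positivity
  refine OneP.of_norm (by linarith) (by linarith) ?_
  intro n y y' hy hy' hs hs'
  right
  have hnn : ∀ i j, (0:ℝ) ≤ (if j = i then (0:ℝ) else w ^ dst i j) := by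
    intro i j; split_ifs
    · exact le_rfl
    · positivity
  have h := schur (range n) (range n) (fun i j => if j = i then (0:ℝ) else w ^ dst i j)
    (fun i => y i ^ κ) (fun j => y' j ^ κ) (2 * w / (1 - w)) hR (fun i _ j _ => hnn i j)
    (fun i hi => Real.rpow_nonneg (hy i hi) _) (fun j hj => Real.rpow_nonneg (hy' j hj) _)
    (fun i hi => row_off w hw0 hw1 n i)
    (fun j hj => by
      refine le_trans (le_of_eq ?_) (row_off w hw0 hw1 n j)
      refine Finset.sum_congr rfl fun i _ => ?_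
      rcases eq_or_ne i j with e | e
      · subst e; simp
      · simp [e, e.symm, dst_comm])
  have h1 := sqrt_sum_le hκ.le (range n) y hy 1 hs.le
  have h2 := sqrt_sum_le hκ.le (range n) y' hy' 1 hs'.le
  have d := diag_le (κ := κ) (range n) y y'
  rw [Real.one_rpow] at h1 h2
  have h3 : √(∑ i ∈ range n, (y i ^ κ) ^ 2) * √(∑ i ∈ range n, (y' i ^ κ) ^ 2) ≤ 1 := by
    calc _ ≤ (1:ℝ) * 1 := by gcongr
      _ = 1 := one_mul 1
  simp only [div_one]
  have h4 := mul_le_mul_of_nonneg_left h3 hR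
  linarith

/-- `x1` up to a constant -/
noncomputable def X1 (κ δ : ℝ) (p : ℕ) : ℝ := (p : ℝ) ^ (-(1 - δ / (1 - κ)))

/-- cross weight of one exponent step at `p` (already multiplied by `p^δ`) -/
noncomputable def om (κ δ : ℝ) (p : ℕ) : ℝ := (p : ℝ) ^ (-(1 - κ - δ))

lemma om_pos {κ δ : ℝ} {p : ℕ} (hp : 0 < p) : 0 < om κ δ p := by
  unfold om; positivity

lemma om_le_two {κ δ : ℝ} (hδ : δ < 1 - κ) {p : ℕ} (hp : 2 ≤ p) : om κ δ p ≤ om κ δ 2 := by
  unfold om
  have h2 : (2:ℝ) ≤ p := by exact_mod_cast hp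
  exact_mod_cast Real.rpow_le_rpow_of_nonpos (by norm_num) h2 (by linarith)

lemma om_two_lt {κ δ : ℝ} (hδ : δ < 1 - κ) : om κ δ 2 < 1 := by
  unfold om
  exact_mod_cast Real.rpow_lt_one_of_one_lt_of_neg (by norm_num) (by linarith)

lemma om_tendsto {κ δ : ℝ} (hδ : δ < 1 - κ) :
    Filter.Tendsto (om κ δ) Filter.atTop (nhds 0) := by
  unfold om
  exact (tendsto_rpow_neg_atTop (by linarith : 0 < 1 - κ - δ)).comp tendsto_natCast_atTop_atTop

/-- **the constants of the one-prime inequality.** -/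
theorem exists_oneP {κ δ : ℝ} (hκ : 1 / 2 < κ) (hκ1 : κ < 1) (hδ0 : 0 < δ) (hδ : δ < 1 - κ) :
    ∃ (c C1 C2 : ℝ) (p0 : ℕ), 0 < c ∧ 0 ≤ C1 ∧ 1 ≤ C2 ∧
      (∀ p : ℕ, p0 ≤ p → c * X1 κ δ p ≤ 1 / 2) ∧
      ∀ p : ℕ, 2 ≤ p → OneP κ (om κ δ p)
        (if p0 ≤ p then 1 - c * X1 κ δ p else 1)
        (if p0 ≤ p then 1 + C1 * (X1 κ δ p) ^ (2 * κ) else C2) := by
  have hc := c0_pos hκ
  have hc1 : c0 κ < 1 := c0_lt_one
  have h1k : 0 < 1 - κ := by linarith
  -- x1 p := (48 / c0 * om p)^(1/(1-κ))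
  set x1 : ℕ → ℝ := fun p => (48 / c0 κ * om κ δ p) ^ (1 / (1 - κ)) with hx1d
  have hx1t : Filter.Tendsto x1 Filter.atTop (nhds 0) := by
    have h := (om_tendsto (κ := κ) hδ).const_mul (48 / c0 κ)
    rw [mul_zero] at h
    have := h.rpow_const (p := 1 / (1 - κ)) (Or.inr (by positivity))
    rwa [Real.zero_rpow (by positivity)] at this
  have hev1 : ∀ᶠ p in Filter.atTop, x1 p ≤ 1 / 4 :=
    hx1t.eventually_le_const (by norm_num)
  have hev2 : ∀ᶠ p in Filter.atTop, om κ δ p ≤ c0 κ / 64 :=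
    (om_tendsto (κ := κ) hδ).eventually_le_const (by positivity)
  obtain ⟨p0, hp0⟩ := Filter.eventually_atTop.1 (hev1.and hev2)
  set A := (48 / c0 κ) ^ (1 / (1 - κ)) with hA
  have hA0 : 0 < A := by positivity
  have hxA : ∀ p : ℕ, x1 p = A * X1 κ δ p := by
    intro p
    simp only [hx1d, hA, X1, om]
    rw [Real.mul_rpow (by positivity) (by positivity), ← Real.rpow_mul (by positivity)]
    congr 2
    field_simp
  refine ⟨c0 κ / 8 * A, 3 * A ^ (2 * κ), 1 + 2 * om κ δ 2 / (1 - om κ δ 2), p0, by positivity,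
    by positivity, ?_, ?_, ?_⟩
  · have := om_two_lt (κ := κ) hδ
    have h3 : 0 < om κ δ 2 := om_pos (by norm_num)
    have : 0 ≤ 2 * om κ δ 2 / (1 - om κ δ 2) := by
      apply div_nonneg <;> linarith
    linarith
  · intro p hp
    have := (hp0 p hp).1
    rw [hxA] at this
    have h2 : 0 ≤ A * X1 κ δ p := by unfold X1; positivity
    nlinarith
  · intro p hp
    have hpp : 0 < p := by omega
    have hom := om_pos (κ := κ) (δ := δ) hpp
    by_cases h : p0 ≤ p
    · simp only [h, if_true]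
      obtain ⟨ha, hb⟩ := hp0 p h
      have hx1pos : 0 < x1 p := by simp only [hx1d]; positivity
      have key := oneP_large hκ hκ1 (om κ δ p) hom.le hb (x1 p) hx1pos.le ha (by
        intro z hz _
        have hz0 : 0 < z := lt_of_lt_of_le hx1pos hz
        have h1 : 48 / c0 κ * om κ δ p ≤ z ^ (1 - κ) := by
          have : (x1 p) ^ (1 - κ) ≤ z ^ (1 - κ) := Real.rpow_le_rpow hx1pos.le hz h1k.le
          refine le_trans (le_of_eq ?_) this
          simp only [hx1d]
          rw [← Real.rpow_mul (by positivity), one_div, inv_mul_cancel₀ h1k.ne', Real.rpow_one]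
        have h2 : z = z ^ κ * z ^ (1 - κ) := by
          rw [← Real.rpow_add hz0]; simp
        have h3 : 0 < z ^ κ := by positivity
        have h4 : 48 * om κ δ p ≤ c0 κ * z ^ (1 - κ) := by
          have := mul_le_mul_of_nonneg_left h1 hc.le
          calc 48 * om κ δ p = c0 κ * (48 / c0 κ * om κ δ p) := by field_simp
            _ ≤ _ := this
        calc 12 * om κ δ p * z ^ κ = (48 * om κ δ p) * (z ^ κ / 4) := by ring
          _ ≤ (c0 κ * z ^ (1 - κ)) * (z ^ κ / 4) := by gcongr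
          _ = c0 κ / 4 * (z ^ κ * z ^ (1 - κ)) := by ring
          _ = c0 κ / 4 * z := by rw [← h2])
      have e1 : 1 - c0 κ / 8 * x1 p = 1 - c0 κ / 8 * A * X1 κ δ p := by rw [hxA]; ring
      have e2 : 1 + 3 * x1 p ^ (2 * κ) = 1 + 3 * A ^ (2 * κ) * X1 κ δ p ^ (2 * κ) := by
        rw [hxA, Real.mul_rpow hA0.le (by unfold X1; positivity)]; ring
      rw [← e1, ← e2]
      exact key
    · simp only [h, if_false]
      have h2 := om_le_two (κ := κ) hδ hp
      have h3 := om_two_lt (κ := κ) hδ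
      have key := oneP_small hκ (om κ δ p) hom.le (by linarith)
      -- monotone in the constant
      intro n y y' hy hy'
      have hC : 1 + 2 * om κ δ p / (1 - om κ δ p) ≤ 1 + 2 * om κ δ 2 / (1 - om κ δ 2) := by
        have : 2 * om κ δ p / (1 - om κ δ p) ≤ 2 * om κ δ 2 / (1 - om κ δ 2) := by
          apply div_le_div₀ <;> linarith
        linarith
      have hs0 : 0 ≤ (∑ i ∈ range n, y i) ^ κ * (∑ i ∈ range n, y' i) ^ κ := by
        have := Real.rpow_nonneg (Finset.sum_nonneg hy) κ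
        have := Real.rpow_nonneg (Finset.sum_nonneg hy') κ
        positivity
      rcases key n y y' hy hy' with ⟨i0, hi0, h5⟩ | h5
      · exact Or.inl ⟨i0, hi0, h5.trans (mul_le_mul_of_nonneg_right (by linarith) hs0)⟩
      · exact Or.inr (h5.trans (mul_le_mul_of_nonneg_right hC hs0))

/-- the product of the constants is bounded -/
theorem prod_cst_le {κ δ : ℝ} (hκ : 1 / 2 < κ) (hκ1 : κ < 1) (hδ0 : 0 < δ)
    (hδ : δ * (2 * κ) < (1 - κ) * (2 * κ - 1)) (C1 C2 : ℝ) (hC1 : 0 ≤ C1) (hC2 : 1 ≤ C2) (p0 : ℕ) :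
    ∃ C : ℝ, 1 ≤ C ∧ ∀ s : Finset ℕ,
      ∏ p ∈ s, (if p0 ≤ p then 1 + C1 * (X1 κ δ p) ^ (2 * κ) else C2) ≤ C := by
  have h1k : 0 < 1 - κ := by linarith
  set e : ℝ := (1 - δ / (1 - κ)) * (2 * κ) with he
  have he1 : 1 < e := by
    have : δ / (1 - κ) * (2 * κ) < 2 * κ - 1 := by
      rw [div_mul_eq_mul_div, div_lt_iff₀ h1k]
      linarith
    rw [he]; linarith
  have hsum : Summable fun p : ℕ => (p : ℝ) ^ (-e) := Real.summable_nat_rpow.2 (by linarith)
  set S := ∑' p : ℕ, (p : ℝ) ^ (-e) with hS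
  refine ⟨C2 ^ p0 * Real.exp (C1 * S), ?_, ?_⟩
  · have h1 : 1 ≤ C2 ^ p0 := one_le_pow₀ hC2
    have hS0 : 0 ≤ S := tsum_nonneg fun p => by positivity
    have h2 : 1 ≤ Real.exp (C1 * S) := Real.one_le_exp (by positivity)
    nlinarith
  · intro s
    have hX : ∀ p : ℕ, (X1 κ δ p) ^ (2 * κ) = (p : ℝ) ^ (-e) := by
      intro p
      unfold X1
      rw [← Real.rpow_mul (by positivity), he]
      congr 1; ring
    have hb : ∀ p ∈ s, (if p0 ≤ p then 1 + C1 * (X1 κ δ p) ^ (2 * κ) else C2) ≤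
        (if p0 ≤ p then 1 else C2) * Real.exp (C1 * (p : ℝ) ^ (-e)) := by
      intro p _
      rw [hX]
      have h0 : 0 ≤ C1 * (p : ℝ) ^ (-e) := by positivity
      have h1 := Real.add_one_le_exp (C1 * (p : ℝ) ^ (-e))
      split_ifs
      · linarith
      · have : 1 ≤ Real.exp (C1 * (p : ℝ) ^ (-e)) := Real.one_le_exp h0
        nlinarith
    have hpos : ∀ p ∈ s, 0 ≤ (if p0 ≤ p then 1 + C1 * (X1 κ δ p) ^ (2 * κ) else C2) := by
      intro p _
      rw [hX]
      split_ifs
      · positivity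
      · linarith
    refine (Finset.prod_le_prod hpos hb).trans ?_
    rw [Finset.prod_mul_distrib, ← Real.exp_sum, ← Finset.mul_sum]
    have h1 : ∏ p ∈ s, (if p0 ≤ p then (1:ℝ) else C2) ≤ C2 ^ p0 := by
      rw [Finset.prod_ite, Finset.prod_const_one, one_mul, Finset.prod_const]
      apply pow_le_pow_right₀ hC2
      calc _ ≤ (range p0).card := Finset.card_le_card (by
            intro p hp; simp at hp ⊢; omega)
        _ = p0 := Finset.card_range p0
    have h2 : ∑ p ∈ s, (p : ℝ) ^ (-e) ≤ S := hsum.sum_le_tsum s fun p _ => by positivity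
    have h3 : Real.exp (C1 * ∑ p ∈ s, (p : ℝ) ^ (-e)) ≤ Real.exp (C1 * S) :=
      Real.exp_le_exp.2 (mul_le_mul_of_nonneg_left h2 hC1)
    have h4 : 0 ≤ C2 ^ p0 := by positivity
    exact mul_le_mul h1 h3 (Real.exp_pos _).le h4

end Crest.Agent.R4C.OnePx19
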