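import Mathlib
import Crest.Agent.R4C.OnePb_19

/-!
# Row 4: THEOREM (R) (note 2326), q-language, arbitrary exponents (helper19)

`natural rarity => energy gain`, for an arbitrary weight `K : pairs -> [0,1]`.
-/

set_option autoImplicit false
set_option linter.unusedVariables false

namespace Crest.Agent.R4C.ThmRx19

open Finset Real Crest.Agent.R4C.OnePx19
open scoped Classical

/-! ## divisors -/

lemma sum_divisors_pp {p A T : ℕ} (hp : p.Prime) (hT : ¬ p ∣ T) (F : ℕ → ℝ) :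
    ∑ q ∈ (p ^ A * T).divisors, F q = ∑ i ∈ range (A + 1), ∑ q ∈ T.divisors, F (p ^ i * q) := by
  have hcop : Nat.Coprime (p ^ A) T := Nat.Coprime.pow_left _ ((Nat.Prime.coprime_iff_not_dvd hp).2 hT)
  rw [Nat.divisors_mul, Finset.mul_def, Finset.sum_image, Finset.sum_product,
    Nat.sum_divisors_prime_pow hp]
  intro x hx y hy h
  exact hcop.mul_injOn_divisors hx hy h

/-- passive condition: at every prime of `Mz` one of `q, q'` has the exponent of `G`. -/
def lvl (Mz G q q' : ℕ) : Prop :=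
  ∀ p ∈ Mz.primeFactors, q.factorization p = G.factorization p ∨ q'.factorization p = G.factorization p

/-- one term of the energy -/
noncomputable def tm (Mz G : ℕ) (N : ℝ) (f f' : ℕ → ℝ) (K : ℕ → ℕ → ℝ) (q q' : ℕ) : ℝ :=
  if lvl Mz G q q' ∧ N ≤ (Nat.lcm q q' : ℝ) ∧ (Nat.lcm q q' : ℝ) < 2 * N then
    ((Nat.totient q : ℝ) * Nat.totient q' / (Nat.lcm q q' : ℝ)) * (f q * f' q' * K q q')
  else 0

/-- the energy of all pairs of divisors of `T` with `N ≤ lcm < 2N` -/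
noncomputable def SS (T Mz G : ℕ) (N : ℝ) (f f' : ℕ → ℝ) (K : ℕ → ℕ → ℝ) : ℝ :=
  ∑ q ∈ T.divisors, ∑ q' ∈ T.divisors, tm Mz G N f f' K q q'

/-- the mass -/
noncomputable def mu (T : ℕ) (f : ℕ → ℝ) : ℝ := ∑ q ∈ T.divisors, (Nat.totient q : ℝ) * f q

lemma mu_pp {p A T : ℕ} (hp : p.Prime) (hT : ¬ p ∣ T) (f : ℕ → ℝ) :
    mu (p ^ A * T) f =
      ∑ i ∈ range (A + 1), (Nat.totient (p ^ i) : ℝ) * mu T (fun x => f (p ^ i * x)) := by
  unfold mu
  rw [sum_divisors_pp hp hT]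
  refine Finset.sum_congr rfl fun i _ => ?_
  rw [Finset.mul_sum]
  refine Finset.sum_congr rfl fun q hq => ?_
  have hq' : ¬ p ∣ q := fun h => hT (h.trans (Nat.dvd_of_mem_divisors hq))
  have hc : Nat.Coprime (p ^ i) q :=
    Nat.Coprime.pow_left _ ((Nat.Prime.coprime_iff_not_dvd hp).2 hq')
  rw [Nat.totient_mul hc]
  push_cast
  ring

lemma mu_nonneg {T : ℕ} {f : ℕ → ℝ} (hf : ∀ x, 0 ≤ f x) : 0 ≤ mu T f :=
  Finset.sum_nonneg fun q _ => mul_nonneg (Nat.cast_nonneg _) (hf q)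

/-! ## one prime pulled out -/

/-- weight of the exponents `(i,j)` at the prime `p` -/
noncomputable def wt (p i j : ℕ) : ℝ :=
  (Nat.totient (p ^ i) : ℝ) * Nat.totient (p ^ j) / (p : ℝ) ^ max i j

lemma lcm_pp {p i j x y : ℕ} (hp : p.Prime) (hx : ¬ p ∣ x) (hy : ¬ p ∣ y) :
    Nat.lcm (p ^ i * x) (p ^ j * y) = p ^ max i j * Nat.lcm x y := by
  have hx0 : x ≠ 0 := by rintro rfl; exact hx (dvd_zero _)
  have hy0 : y ≠ 0 := by rintro rfl; exact hy (dvd_zero _)
  have hpi : p ^ i ≠ 0 := pow_ne_zero _ hp.ne_zero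
  have hpj : p ^ j ≠ 0 := pow_ne_zero _ hp.ne_zero
  have hl0 : Nat.lcm x y ≠ 0 := Nat.lcm_ne_zero hx0 hy0
  have hpm : p ^ max i j ≠ 0 := pow_ne_zero _ hp.ne_zero
  apply Nat.eq_of_factorization_eq (Nat.lcm_ne_zero (mul_ne_zero hpi hx0) (mul_ne_zero hpj hy0))
    (mul_ne_zero hpm hl0)
  intro r
  rw [Nat.factorization_lcm (mul_ne_zero hpi hx0) (mul_ne_zero hpj hy0),
    Finsupp.sup_apply, Nat.factorization_mul hpi hx0, Nat.factorization_mul hpj hy0,
    Nat.factorization_mul hpm hl0, Nat.factorization_lcm hx0 hy0, Nat.factorization_pow,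
    Nat.factorization_pow, Nat.factorization_pow]
  simp only [Finsupp.add_apply, Finsupp.smul_apply, Finsupp.sup_apply, smul_eq_mul]
  by_cases hr : r = p
  · subst hr
    rw [Nat.Prime.factorization_self hp, Nat.factorization_eq_zero_of_not_dvd hx,
      Nat.factorization_eq_zero_of_not_dvd hy]
    simp
  · have hr' : p ≠ r := fun h => hr h.symm
    simp [hp.factorization, hr']

lemma fact_pp {p i x r : ℕ} (hp : p.Prime) (hx : ¬ p ∣ x) (hr : r ≠ p) :
    (p ^ i * x).factorization r = x.factorization r := by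
  have hx0 : x ≠ 0 := by rintro rfl; exact hx (dvd_zero _)
  rw [Nat.factorization_mul (pow_ne_zero _ hp.ne_zero) hx0, Nat.factorization_pow]
  have hr' : p ≠ r := fun h => hr h.symm
  simp [hp.factorization, hr']

lemma fact_pp_self {p i x : ℕ} (hp : p.Prime) (hx : ¬ p ∣ x) :
    (p ^ i * x).factorization p = i := by
  have hx0 : x ≠ 0 := by rintro rfl; exact hx (dvd_zero _)
  rw [Nat.factorization_mul (pow_ne_zero _ hp.ne_zero) hx0, Nat.factorization_pow]
  simp [hp.factorization, Nat.factorization_eq_zero_of_not_dvd hx]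

lemma lvl_pp {p Mz G i j x y : ℕ} (hp : p.Prime) (hMz : ¬ p ∣ Mz) (hx : ¬ p ∣ x) (hy : ¬ p ∣ y) :
    lvl Mz G (p ^ i * x) (p ^ j * y) ↔ lvl Mz G x y := by
  unfold lvl
  refine forall_congr' fun r => forall_congr' fun hr => ?_
  have hrp : r ≠ p := by
    rintro rfl
    exact hMz (Nat.dvd_of_mem_primeFactors hr)
  rw [fact_pp hp hx hrp, fact_pp hp hy hrp]

lemma tm_pp {p Mz G i j x y : ℕ} (hp : p.Prime) (hMz : ¬ p ∣ Mz) (hx : ¬ p ∣ x) (hy : ¬ p ∣ y)
    (N : ℝ) (f f' : ℕ → ℝ) (K : ℕ → ℕ → ℝ) :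
    tm Mz G N f f' K (p ^ i * x) (p ^ j * y) =
      wt p i j * tm Mz G (N / (p : ℝ) ^ max i j) (fun z => f (p ^ i * z)) (fun z => f' (p ^ j * z))
        (fun u v => K (p ^ i * u) (p ^ j * v)) x y := by
  have hpm : (0 : ℝ) < (p : ℝ) ^ max i j := by
    have := hp.pos; positivity
  unfold tm
  rw [lvl_pp hp hMz hx hy, lcm_pp hp hx hy]
  have hcx : Nat.Coprime (p ^ i) x := Nat.Coprime.pow_left _ ((Nat.Prime.coprime_iff_not_dvd hp).2 hx)
  have hcy : Nat.Coprime (p ^ j) y := Nat.Coprime.pow_left _ ((Nat.Prime.coprime_iff_not_dvd hp).2 hy)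
  have hiff : (N ≤ ((p ^ max i j * Nat.lcm x y : ℕ) : ℝ) ∧
      ((p ^ max i j * Nat.lcm x y : ℕ) : ℝ) < 2 * N) ↔
      (N / (p : ℝ) ^ max i j ≤ (Nat.lcm x y : ℝ) ∧
        (Nat.lcm x y : ℝ) < 2 * (N / (p : ℝ) ^ max i j)) := by
    push_cast
    constructor
    · rintro ⟨h1, h2⟩
      constructor
      · rw [div_le_iff₀ hpm]; linarith
      · rw [← mul_div_assoc, lt_div_iff₀ hpm]; linarith
    · rintro ⟨h1, h2⟩
      rw [div_le_iff₀ hpm] at h1
      rw [← mul_div_assoc, lt_div_iff₀ hpm] at h2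
      constructor <;> linarith
  simp only [hiff]
  split_ifs with h
  · rw [Nat.totient_mul hcx, Nat.totient_mul hcy]
    unfold wt
    push_cast
    by_cases hl : (Nat.lcm x y : ℝ) = 0
    · simp [hl]
    · field_simp
  · simp

lemma SS_pp {p A T Mz G : ℕ} (hp : p.Prime) (hT : ¬ p ∣ T) (hMz : ¬ p ∣ Mz)
    (N : ℝ) (f f' : ℕ → ℝ) (K : ℕ → ℕ → ℝ) (P : ℕ → ℕ → Prop) :
    ∑ q ∈ (p ^ A * T).divisors, ∑ q' ∈ (p ^ A * T).divisors,
        (if P (q.factorization p) (q'.factorization p) then tm Mz G N f f' K q q' else 0) =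
      ∑ i ∈ range (A + 1), ∑ j ∈ range (A + 1),
        if P i j then wt p i j * SS T Mz G (N / (p : ℝ) ^ max i j) (fun z => f (p ^ i * z))
          (fun z => f' (p ^ j * z)) (fun u v => K (p ^ i * u) (p ^ j * v)) else 0 := by
  rw [sum_divisors_pp hp hT]
  refine Finset.sum_congr rfl fun i _ => ?_
  have h1 : ∀ x ∈ T.divisors, ∑ q' ∈ (p ^ A * T).divisors,
      (if P ((p ^ i * x).factorization p) (q'.factorization p) then
        tm Mz G N f f' K (p ^ i * x) q' else 0) =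
      ∑ j ∈ range (A + 1), ∑ y ∈ T.divisors, (if P i j then
        wt p i j * tm Mz G (N / (p : ℝ) ^ max i j) (fun z => f (p ^ i * z))
          (fun z => f' (p ^ j * z)) (fun u v => K (p ^ i * u) (p ^ j * v)) x y else 0) := by
    intro x hx
    have hx' : ¬ p ∣ x := fun h => hT (h.trans (Nat.dvd_of_mem_divisors hx))
    rw [sum_divisors_pp hp hT]
    refine Finset.sum_congr rfl fun j _ => Finset.sum_congr rfl fun y hy => ?_
    have hy' : ¬ p ∣ y := fun h => hT (h.trans (Nat.dvd_of_mem_divisors hy))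
    rw [fact_pp_self hp hx', fact_pp_self hp hy', tm_pp hp hMz hx' hy']
  rw [Finset.sum_congr rfl h1, Finset.sum_comm]
  refine Finset.sum_congr rfl fun j _ => ?_
  unfold SS
  split_ifs
  · rw [Finset.mul_sum]
    refine Finset.sum_congr rfl fun x _ => ?_
    rw [Finset.mul_sum]
  · simp

/-- declaring `p` passive at level `i0` -/
lemma lvl_passive {p A Mz G i0 : ℕ} (hp : p.Prime) (hA : A ≠ 0) (hMz0 : Mz ≠ 0) (hG : ¬ p ∣ G)
    (q q' : ℕ) :
    lvl (p ^ A * Mz) (p ^ i0 * G) q q' ↔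
      (lvl Mz G q q' ∧ (q.factorization p = i0 ∨ q'.factorization p = i0)) ∨
      (p ∣ Mz ∧ lvl (p ^ A * Mz) (p ^ i0 * G) q q') := by
  by_cases hpM : p ∣ Mz
  · constructor
    · intro h; exact Or.inr ⟨hpM, h⟩
    · rintro (⟨h1, h2⟩ | ⟨_, h⟩)
      · intro r hr
        rw [Nat.primeFactors_mul (pow_ne_zero _ hp.ne_zero) hMz0, Finset.mem_union] at hr
        have hr2 : r ∈ Mz.primeFactors := by
          rcases hr with hr | hr
          · rw [Nat.primeFactors_prime_pow hA hp, Finset.mem_singleton] at hr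
            subst hr
            exact Nat.mem_primeFactors.2 ⟨hp, hpM, hMz0⟩
          · exact hr
        by_cases hrp : r = p
        · subst hrp
          rw [fact_pp_self hp hG]
          exact h2
        · rw [fact_pp hp hG hrp]; exact h1 r hr2
      · exact h
  · constructor
    · intro h
      left
      constructor
      · intro r hr
        have hrp : r ≠ p := by rintro rfl; exact hpM (Nat.dvd_of_mem_primeFactors hr)
        have := h r (by
          rw [Nat.primeFactors_mul (pow_ne_zero _ hp.ne_zero) hMz0, Finset.mem_union]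
          exact Or.inr hr)
        rwa [fact_pp hp hG hrp] at this
      · have := h p (by
          rw [Nat.primeFactors_mul (pow_ne_zero _ hp.ne_zero) hMz0, Finset.mem_union]
          left
          rw [Nat.primeFactors_prime_pow hA hp]
          exact Finset.mem_singleton_self _)
        rwa [fact_pp_self hp hG] at this
    · rintro (⟨h1, h2⟩ | ⟨h, _⟩)
      · intro r hr
        rw [Nat.primeFactors_mul (pow_ne_zero _ hp.ne_zero) hMz0, Finset.mem_union] at hr
        rcases hr with hr | hr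
        · rw [Nat.primeFactors_prime_pow hA hp, Finset.mem_singleton] at hr
          subst hr
          rw [fact_pp_self hp hG]; exact h2
        · have hrp : r ≠ p := by rintro rfl; exact hpM (Nat.dvd_of_mem_primeFactors hr)
          rw [fact_pp hp hG hrp]; exact h1 r hr
      · exact absurd h hpM

lemma tm_passive {p A Mz G i0 : ℕ} (hp : p.Prime) (hA : A ≠ 0) (hMz0 : Mz ≠ 0) (hMz : ¬ p ∣ Mz)
    (hG : ¬ p ∣ G) (N : ℝ) (f f' : ℕ → ℝ) (K : ℕ → ℕ → ℝ) (q q' : ℕ) :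
    tm Mz G N f f' K q q' = tm (p ^ A * Mz) (p ^ i0 * G) N f f' K q q' +
      (if q.factorization p ≠ i0 ∧ q'.factorization p ≠ i0 then tm Mz G N f f' K q q' else 0) := by
  have hl := lvl_passive (i0 := i0) hp hA hMz0 hG q q'
  simp only [hMz, false_and, or_false] at hl
  unfold tm
  by_cases h1 : lvl Mz G q q' ∧ N ≤ (Nat.lcm q q' : ℝ) ∧ (Nat.lcm q q' : ℝ) < 2 * N
  · by_cases h2 : q.factorization p = i0 ∨ q'.factorization p = i0
    · have h3 : lvl (p ^ A * Mz) (p ^ i0 * G) q q' := hl.2 ⟨h1.1, h2⟩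
      have h4 : ¬ (q.factorization p ≠ i0 ∧ q'.factorization p ≠ i0) := by tauto
      rw [if_pos h1, if_pos ⟨h3, h1.2⟩, if_neg h4, add_zero]
    · have h3 : ¬ lvl (p ^ A * Mz) (p ^ i0 * G) q q' := fun h => h2 (hl.1 h).2
      have h4 : (q.factorization p ≠ i0 ∧ q'.factorization p ≠ i0) := by tauto
      rw [if_pos h1, if_neg (fun h => h3 h.1), if_pos h4, zero_add]
  · have h3 : ¬ (lvl (p ^ A * Mz) (p ^ i0 * G) q q' ∧ N ≤ (Nat.lcm q q' : ℝ) ∧
        (Nat.lcm q q' : ℝ) < 2 * N) := fun h => h1 ⟨(hl.1 h.1).1, h.2⟩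
    rw [if_neg h1, if_neg h3]
    simp

/-- one active prime: everything split -/
lemma SS_split {p A T Mz G : ℕ} (hp : p.Prime) (hT : ¬ p ∣ T) (hMz : ¬ p ∣ Mz)
    (N : ℝ) (f f' : ℕ → ℝ) (K : ℕ → ℕ → ℝ) :
    SS (p ^ A * T) Mz G N f f' K =
      ∑ i ∈ range (A + 1), ∑ j ∈ range (A + 1),
        wt p i j * SS T Mz G (N / (p : ℝ) ^ max i j) (fun z => f (p ^ i * z))
          (fun z => f' (p ^ j * z)) (fun u v => K (p ^ i * u) (p ^ j * v)) := by
  have := SS_pp (A := A) (G := G) hp hT hMz N f f' K (fun _ _ => True)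
  simpa [SS] using this

/-- one active prime: passive part and removed part -/
lemma SS_passive {p A T Mz G i0 : ℕ} (hp : p.Prime) (hA : A ≠ 0) (hT : ¬ p ∣ T) (hMz0 : Mz ≠ 0)
    (hMz : ¬ p ∣ Mz) (hG : ¬ p ∣ G) (N : ℝ) (f f' : ℕ → ℝ) (K : ℕ → ℕ → ℝ) :
    SS (p ^ A * T) Mz G N f f' K = SS (p ^ A * T) (p ^ A * Mz) (p ^ i0 * G) N f f' K +
      ∑ i ∈ (range (A + 1)).erase i0, ∑ j ∈ (range (A + 1)).erase i0,
        wt p i j * SS T Mz G (N / (p : ℝ) ^ max i j) (fun z => f (p ^ i * z))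
          (fun z => f' (p ^ j * z)) (fun u v => K (p ^ i * u) (p ^ j * v)) := by
  have h1 := SS_pp (A := A) (G := G) hp hT hMz N f f' K (fun a b => a ≠ i0 ∧ b ≠ i0)
  have h2 : SS (p ^ A * T) Mz G N f f' K = SS (p ^ A * T) (p ^ A * Mz) (p ^ i0 * G) N f f' K +
      ∑ q ∈ (p ^ A * T).divisors, ∑ q' ∈ (p ^ A * T).divisors,
        (if q.factorization p ≠ i0 ∧ q'.factorization p ≠ i0 then tm Mz G N f f' K q q' else 0) := by
    unfold SS
    rw [← Finset.sum_add_distrib]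
    refine Finset.sum_congr rfl fun q _ => ?_
    rw [← Finset.sum_add_distrib]
    refine Finset.sum_congr rfl fun q' _ => ?_
    exact tm_passive hp hA hMz0 hMz hG N f f' K q q'
  rw [h2]
  congr 1
  refine Eq.trans ?_ (Eq.trans h1 ?_)
  · refine Finset.sum_congr rfl fun q _ => Finset.sum_congr rfl fun q' _ => ?_
    congr
  have herase : ∀ (F : ℕ → ℝ), ∑ i ∈ range (A + 1), (if i ≠ i0 then F i else 0) =
      ∑ i ∈ (range (A + 1)).erase i0, F i := by
    intro F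
    rw [← Finset.sum_filter]
    refine Finset.sum_congr ?_ fun _ _ => rfl
    ext i; simp only [Finset.mem_filter, Finset.mem_erase]; tauto
  rw [← herase]
  refine Finset.sum_congr rfl fun i _ => ?_
  by_cases hi : i ≠ i0
  · rw [if_pos hi, ← herase]
    refine Finset.sum_congr rfl fun j _ => ?_
    by_cases hj : j ≠ i0
    · rw [if_pos ⟨hi, hj⟩, if_pos hj]
    · rw [if_neg (fun h => hj h.2), if_neg hj]
  · rw [if_neg hi]
    refine Finset.sum_eq_zero fun j _ => ?_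
    rw [if_neg (fun h => hi h.1)]

/-! ## the weight inequality -/

lemma wt_nonneg (p i j : ℕ) : 0 ≤ wt p i j := by unfold wt; positivity

/-- `wt p i j * p^{max(i,j) (2κ-1)} (m m')^κ <= (p^{-(1-κ)})^{|i-j|} (φ m)^κ (φ m')^κ`. -/
lemma wt_le {p i j : ℕ} (hp : p.Prime) {κ : ℝ} (hκ1 : κ ≤ 1) (hκ0 : 0 ≤ κ) {m m' : ℝ}
    (hm : 0 ≤ m) (hm' : 0 ≤ m') :
    wt p i j * (((p : ℝ) ^ max i j) ^ (2 * κ - 1) * (m ^ κ * m' ^ κ)) ≤
      ((p : ℝ) ^ (-(1 - κ))) ^ dst i j *
        ((((Nat.totient (p ^ i) : ℝ)) * m) ^ κ * (((Nat.totient (p ^ j) : ℝ)) * m') ^ κ) := by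
  have hp0 : (0 : ℝ) < p := by exact_mod_cast hp.pos
  set a : ℝ := (Nat.totient (p ^ i) : ℝ) with ha
  set b : ℝ := (Nat.totient (p ^ j) : ℝ) with hb
  have ha0 : 0 < a := by
    rw [ha]; exact_mod_cast Nat.totient_pos.2 (pow_pos hp.pos _)
  have hb0 : 0 < b := by
    rw [hb]; exact_mod_cast Nat.totient_pos.2 (pow_pos hp.pos _)
  have ha1 : a ≤ (p : ℝ) ^ i := by rw [ha]; exact_mod_cast Nat.totient_le _
  have hb1 : b ≤ (p : ℝ) ^ j := by rw [hb]; exact_mod_cast Nat.totient_le _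
  rw [Real.mul_rpow ha0.le hm, Real.mul_rpow hb0.le hm']
  unfold wt
  rw [← ha, ← hb]
  set P := (p : ℝ) ^ max i j with hP
  have hP0 : 0 < P := by positivity
  have hkey : a * b / P * P ^ (2 * κ - 1) ≤ ((p : ℝ) ^ (-(1 - κ))) ^ dst i j * (a ^ κ * b ^ κ) := by
    have e1 : a = a ^ κ * a ^ (1 - κ) := by
      rw [← Real.rpow_add ha0, show κ + (1 - κ) = 1 by ring, Real.rpow_one]
    have e2 : b = b ^ κ * b ^ (1 - κ) := by
      rw [← Real.rpow_add hb0, show κ + (1 - κ) = 1 by ring, Real.rpow_one]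
    have e3 : P ^ (2 * κ - 1) / P = P ^ (-(2 * (1 - κ))) := by
      rw [show -(2 * (1 - κ)) = (2 * κ - 1) - 1 by ring]
      exact (Real.rpow_sub_one hP0.ne' (2 * κ - 1)).symm
    have e4 : a ^ (1 - κ) * b ^ (1 - κ) * P ^ (-(2 * (1 - κ))) ≤ ((p : ℝ) ^ (-(1 - κ))) ^ dst i j := by
      have h1 : a ^ (1 - κ) ≤ ((p : ℝ) ^ i) ^ (1 - κ) := Real.rpow_le_rpow ha0.le ha1 (by linarith)
      have h2 : b ^ (1 - κ) ≤ ((p : ℝ) ^ j) ^ (1 - κ) := Real.rpow_le_rpow hb0.le hb1 (by linarith)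
      have h3 : ((p : ℝ) ^ i) ^ (1 - κ) * ((p : ℝ) ^ j) ^ (1 - κ) * P ^ (-(2 * (1 - κ))) =
          ((p : ℝ) ^ (-(1 - κ))) ^ dst i j := by
        rw [hP, ← Real.rpow_natCast, ← Real.rpow_natCast, ← Real.rpow_natCast, ← Real.rpow_natCast,
          ← Real.rpow_mul hp0.le, ← Real.rpow_mul hp0.le, ← Real.rpow_mul hp0.le,
          ← Real.rpow_mul hp0.le, ← Real.rpow_add hp0, ← Real.rpow_add hp0]
        congr 1
        have hd : ((dst i j : ℕ) : ℝ) = 2 * ((max i j : ℕ) : ℝ) - i - j := by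
          have : dst i j + i + j = 2 * max i j := by unfold dst; omega
          have h : ((dst i j + i + j : ℕ) : ℝ) = ((2 * max i j : ℕ) : ℝ) := by rw [this]
          push_cast at h ⊢
          linarith
        rw [hd]; ring
      rw [← h3]
      gcongr
    calc a * b / P * P ^ (2 * κ - 1) = (a * b) * (P ^ (2 * κ - 1) / P) := by ring
      _ = (a ^ κ * b ^ κ) * (a ^ (1 - κ) * b ^ (1 - κ) * P ^ (-(2 * (1 - κ)))) := by
          rw [e3]
          conv_lhs => rw [e1, e2]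
          ring
      _ ≤ (a ^ κ * b ^ κ) * ((p : ℝ) ^ (-(1 - κ))) ^ dst i j := by gcongr
      _ = _ := by ring
  have hmm : 0 ≤ m ^ κ * m' ^ κ := by positivity
  calc _ = (a * b / P * P ^ (2 * κ - 1)) * (m ^ κ * m' ^ κ) := by ring
    _ ≤ (((p : ℝ) ^ (-(1 - κ))) ^ dst i j * (a ^ κ * b ^ κ)) * (m ^ κ * m' ^ κ) :=
        mul_le_mul_of_nonneg_right hkey hmm
    _ = _ := by ring

lemma om_split {κ δ : ℝ} {p : ℕ} (hp : 0 < p) (d : ℕ) :
    om κ δ p ^ d = ((p : ℝ) ^ (-(1 - κ))) ^ d * (p : ℝ) ^ (δ * d) := by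
  have hp0 : (0 : ℝ) < p := by exact_mod_cast hp
  unfold om
  rw [Real.rpow_mul hp0.le, Real.rpow_natCast, ← mul_pow, ← Real.rpow_add hp0]
  congr 2; ring

/-! ## the base: all primes passive -/

/-- upward part of `q` over `G` -/
def up (G q : ℕ) : ℕ := q / Nat.gcd q G

/-- natural weight -/
noncomputable def nw (G q : ℕ) : ℝ := (Nat.totient q : ℝ) / (Nat.lcm q G : ℝ)

/-- dyadic class of `q` -/
def la (G q : ℕ) : ℕ := Nat.log 2 (up G q)

/-- `K` has natural density at most `ρ` in every dyadic box of the model `(Mz, G)`. -/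
def Rho (Mz G : ℕ) (K : ℕ → ℕ → ℝ) (ρ : ℝ) : Prop :=
  ∀ a b : ℕ, ∑ q ∈ Mz.divisors.filter (fun q => la G q = a),
    ∑ q' ∈ Mz.divisors.filter (fun q => la G q = b),
      (if lvl Mz G q q' then nw G q * nw G q' * K q q' else 0) ≤ ρ * 2 ^ a * 2 ^ b

lemma up_pos {G q : ℕ} (hq : q ≠ 0) : 0 < up G q := by
  unfold up
  exact Nat.div_pos (Nat.le_of_dvd (Nat.pos_of_ne_zero hq) (Nat.gcd_dvd_left _ _))
    (Nat.gcd_pos_of_pos_left _ (Nat.pos_of_ne_zero hq))

lemma lcm_eq_up {G q : ℕ} (hq : q ≠ 0) : Nat.lcm q G = G * up G q := by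
  unfold up Nat.lcm
  rw [Nat.mul_comm q G, Nat.mul_div_assoc _ (Nat.gcd_dvd_left _ _)]

/-- under the passive condition `lcm(q,q') * G = lcm(q,G) * lcm(q',G)`. -/
lemma lcm_mul_eq {Mz G q q' : ℕ} (hMz0 : Mz ≠ 0) (hG : G ∣ Mz) (hq : q ∣ Mz) (hq' : q' ∣ Mz)
    (hl : lvl Mz G q q') : Nat.lcm q q' * G = Nat.lcm q G * Nat.lcm q' G := by
  have hG0 : G ≠ 0 := ne_zero_of_dvd_ne_zero hMz0 hG
  have hq0 : q ≠ 0 := ne_zero_of_dvd_ne_zero hMz0 hq
  have hq0' : q' ≠ 0 := ne_zero_of_dvd_ne_zero hMz0 hq'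
  apply Nat.eq_of_factorization_eq (mul_ne_zero (Nat.lcm_ne_zero hq0 hq0') hG0)
    (mul_ne_zero (Nat.lcm_ne_zero hq0 hG0) (Nat.lcm_ne_zero hq0' hG0))
  intro r
  rw [Nat.factorization_mul (Nat.lcm_ne_zero hq0 hq0') hG0,
    Nat.factorization_mul (Nat.lcm_ne_zero hq0 hG0) (Nat.lcm_ne_zero hq0' hG0),
    Nat.factorization_lcm hq0 hq0', Nat.factorization_lcm hq0 hG0, Nat.factorization_lcm hq0' hG0]
  simp only [Finsupp.add_apply, Finsupp.sup_apply]
  by_cases hr : r ∈ Mz.primeFactors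
  · rcases hl r hr with h | h
    · rw [h]
      rcases le_total (q'.factorization r) (G.factorization r) with h2 | h2
      · simp [h2]
      · simp [h2, add_comm]
    · rw [h]
      rcases le_total (q.factorization r) (G.factorization r) with h2 | h2
      · simp [h2]
      · simp [h2]
  · have hz : Mz.factorization r = 0 := by
      rw [← Nat.support_factorization] at hr
      exact Finsupp.notMem_support_iff.1 hr
    have e1 : q.factorization r = 0 :=
      Nat.le_zero.1 (hz ▸ (Nat.factorization_le_iff_dvd hq0 hMz0).2 hq r)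
    have e2 : q'.factorization r = 0 :=
      Nat.le_zero.1 (hz ▸ (Nat.factorization_le_iff_dvd hq0' hMz0).2 hq' r)
    have e3 : G.factorization r = 0 :=
      Nat.le_zero.1 (hz ▸ (Nat.factorization_le_iff_dvd hG0 hMz0).2 hG r)
    simp [e1, e2, e3]

lemma interp {S A B κ : ℝ} (hS : 0 ≤ S) (hA : S ≤ A) (hB : S ≤ B) (h0 : 0 ≤ κ) (h1 : κ ≤ 1) :
    S ≤ A ^ κ * B ^ (1 - κ) := by
  rcases hS.lt_or_eq with h | h
  · calc S = S ^ κ * S ^ (1 - κ) := by
          rw [← Real.rpow_add h, show κ + (1 - κ) = 1 by ring, Real.rpow_one]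
      _ ≤ A ^ κ * B ^ (1 - κ) := by
          apply mul_le_mul (Real.rpow_le_rpow hS hA h0) (Real.rpow_le_rpow hS hB (by linarith))
            (Real.rpow_nonneg hS _) (Real.rpow_nonneg (hS.trans hA) _)
  · rw [← h]
    have := Real.rpow_nonneg (hS.trans hA) κ
    have := Real.rpow_nonneg (hS.trans hB) (1 - κ)
    positivity

/-- at most three dyadic values -/
lemma card_dyadic (n : ℕ) (X N : ℝ) (hX : 0 < X) :
    ((range n).filter (fun b : ℕ => X * 2 ^ b < 2 * N ∧ N < 4 * (X * 2 ^ b))).card ≤ 3 := by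
  set s := (range n).filter (fun b : ℕ => X * 2 ^ b < 2 * N ∧ N < 4 * (X * 2 ^ b)) with hs
  by_cases hne : s.Nonempty
  · obtain ⟨b0, hb0, hmin⟩ := Finset.exists_min_image s id hne
    have hsub : s ⊆ Finset.Icc b0 (b0 + 2) := by
      intro b hb
      rw [Finset.mem_Icc]
      refine ⟨hmin b hb, ?_⟩
      by_contra hcon
      have hb3 : b0 + 3 ≤ b := by omega
      have h1 := (Finset.mem_filter.1 hb0).2.2
      have h2 := (Finset.mem_filter.1 hb).2.1
      have h3 : (2:ℝ) ^ (b0 + 3) ≤ 2 ^ b := pow_le_pow_right₀ (by norm_num) hb3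
      have h4 : X * (2 : ℝ) ^ (b0 + 3) ≤ X * 2 ^ b := mul_le_mul_of_nonneg_left h3 hX.le
      have h5 : X * (2 : ℝ) ^ (b0 + 3) = 8 * (X * 2 ^ b0) := by rw [pow_add]; ring
      linarith
    calc s.card ≤ (Finset.Icc b0 (b0 + 2)).card := Finset.card_le_card hsub
      _ = 3 := by rw [Nat.card_Icc]; omega
  · rw [Finset.not_nonempty_iff_eq_empty] at hne
    rw [hne]; simp

set_option maxHeartbeats 2000000 in
/-- **base case.** -/
lemma base {Mz G : ℕ} (hMz0 : Mz ≠ 0) (hG : G ∣ Mz) {κ : ℝ} (hκ : 1 / 2 < κ) (hκ1 : κ < 1)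
    {N ρ : ℝ} (hN : 0 < N) (hρ : 0 ≤ ρ) (f f' : ℕ → ℝ) (K : ℕ → ℕ → ℝ)
    (hf : ∀ x, 0 ≤ f x) (hf1 : ∀ x, f x ≤ 1) (hf' : ∀ x, 0 ≤ f' x) (hf1' : ∀ x, f' x ≤ 1)
    (hK : ∀ x y, 0 ≤ K x y) (hK1 : ∀ x y, K x y ≤ 1) (hR : Rho Mz G K ρ) :
    SS Mz Mz G N f f' K ≤ 6 * (N ^ (-(2 * κ - 1)) * (mu Mz f ^ κ * mu Mz f' ^ κ) * ρ ^ (1 - κ)) := by
  have hG0 : G ≠ 0 := ne_zero_of_dvd_ne_zero hMz0 hG
  have hGp : (0:ℝ) < G := by exact_mod_cast Nat.pos_of_ne_zero hG0
  set n := Mz + 1 with hn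
  set D : ℕ → Finset ℕ := fun a => Mz.divisors.filter (fun q => la G q = a) with hD
  have hla : ∀ q ∈ Mz.divisors, la G q ∈ range n := by
    intro q hq
    rw [Finset.mem_range, hn]
    have h1 : la G q ≤ up G q := Nat.log_le_self _ _
    have h2 : up G q ≤ q := Nat.div_le_self _ _
    have h3 : q ≤ Mz := Nat.divisor_le hq
    omega
  set μ : ℕ → ℝ := fun a => ∑ q ∈ D a, (Nat.totient q : ℝ) * f q with hμ
  set μ' : ℕ → ℝ := fun a => ∑ q ∈ D a, (Nat.totient q : ℝ) * f' q with hμ'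
  have hμ0 : ∀ a, 0 ≤ μ a := fun a => Finset.sum_nonneg fun q _ => mul_nonneg (Nat.cast_nonneg _) (hf q)
  have hμ0' : ∀ a, 0 ≤ μ' a := fun a => Finset.sum_nonneg fun q _ => mul_nonneg (Nat.cast_nonneg _) (hf' q)
  have hμs : ∑ a ∈ range n, μ a = mu Mz f := by
    simp only [hμ, hD, mu]
    exact Finset.sum_fiberwise_of_maps_to hla _
  have hμs' : ∑ a ∈ range n, μ' a = mu Mz f' := by
    simp only [hμ', hD, mu]
    exact Finset.sum_fiberwise_of_maps_to hla _
  set Sab : ℕ → ℕ → ℝ := fun a b => ∑ q ∈ D a, ∑ q' ∈ D b, tm Mz G N f f' K q q' with hSab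
  have hSS : SS Mz Mz G N f f' K = ∑ a ∈ range n, ∑ b ∈ range n, Sab a b := by
    simp only [hSab, SS, hD]
    refine (Finset.sum_fiberwise_of_maps_to hla
      (fun q => ∑ q' ∈ Mz.divisors, tm Mz G N f f' K q q')).symm.trans ?_
    refine Finset.sum_congr rfl fun a _ => ?_
    refine Eq.trans ?_ Finset.sum_comm
    refine Finset.sum_congr rfl fun q _ => ?_
    exact (Finset.sum_fiberwise_of_maps_to hla (fun q' => tm Mz G N f f' K q q')).symm
  have htm0 : ∀ q q', 0 ≤ tm Mz G N f f' K q q' := by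
    intro q q'
    unfold tm
    split_ifs
    · have := hf q; have := hf' q'; have := hK q q'
      positivity
    · exact le_rfl
  -- facts about one pair in the window
  have hpair : ∀ a b, ∀ q ∈ D a, ∀ q' ∈ D b, lvl Mz G q q' →
      ((Nat.lcm q q' : ℝ) * G = (Nat.lcm q G : ℝ) * Nat.lcm q' G) ∧
      (G : ℝ) * 2 ^ a * 2 ^ b ≤ (Nat.lcm q q' : ℝ) ∧
      (Nat.lcm q q' : ℝ) < 4 * ((G : ℝ) * 2 ^ a * 2 ^ b) := by
    intro a b q hq q' hq' hl
    have hqd := Nat.dvd_of_mem_divisors (Finset.mem_filter.1 hq).1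
    have hqd' := Nat.dvd_of_mem_divisors (Finset.mem_filter.1 hq').1
    have hq0 : q ≠ 0 := ne_zero_of_dvd_ne_zero hMz0 hqd
    have hq0' : q' ≠ 0 := ne_zero_of_dvd_ne_zero hMz0 hqd'
    have h1 := lcm_mul_eq hMz0 hG hqd hqd' hl
    have h1' : (Nat.lcm q q' : ℝ) * G = (Nat.lcm q G : ℝ) * Nat.lcm q' G := by exact_mod_cast h1
    have h2 : (Nat.lcm q q' : ℝ) = G * up G q * up G q' := by
      have e1 : (Nat.lcm q G : ℝ) = G * up G q := by exact_mod_cast lcm_eq_up hq0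
      have e2 : (Nat.lcm q' G : ℝ) = G * up G q' := by exact_mod_cast lcm_eq_up hq0'
      rw [e1, e2] at h1'
      have : (Nat.lcm q q' : ℝ) * G = (G * up G q * up G q') * G := by rw [h1']; ring
      exact mul_right_cancel₀ hGp.ne' this
    have ha : la G q = a := (Finset.mem_filter.1 hq).2
    have hb : la G q' = b := (Finset.mem_filter.1 hq').2
    have ua1 : (2:ℝ) ^ a ≤ up G q := by
      rw [← ha]; exact_mod_cast Nat.pow_log_le_self 2 (up_pos hq0).ne'
    have ub1 : (2:ℝ) ^ b ≤ up G q' := by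
      rw [← hb]; exact_mod_cast Nat.pow_log_le_self 2 (up_pos hq0').ne'
    have ua2 : (up G q : ℝ) < 2 * 2 ^ a := by
      have := Nat.lt_pow_succ_log_self (b := 2) (by norm_num) (up G q)
      rw [show Nat.log 2 (up G q) = a from ha] at this
      have h : ((up G q : ℕ) : ℝ) < ((2 ^ a.succ : ℕ) : ℝ) := by exact_mod_cast this
      rw [pow_succ] at h; push_cast at h; linarith
    have ub2 : (up G q' : ℝ) < 2 * 2 ^ b := by
      have := Nat.lt_pow_succ_log_self (b := 2) (by norm_num) (up G q')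
      rw [show Nat.log 2 (up G q') = b from hb] at this
      have h : ((up G q' : ℕ) : ℝ) < ((2 ^ b.succ : ℕ) : ℝ) := by exact_mod_cast this
      rw [pow_succ] at h; push_cast at h; linarith
    have u0 : (0:ℝ) < up G q := by exact_mod_cast up_pos hq0
    have u0' : (0:ℝ) < up G q' := by exact_mod_cast up_pos hq0'
    refine ⟨h1', ?_, ?_⟩
    · rw [h2]; gcongr
    · rw [h2]
      have : (up G q : ℝ) * up G q' < (2 * 2 ^ a) * (2 * 2 ^ b) := by
        apply mul_lt_mul'' ua2 ub2 u0.le u0'.le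
      calc (G:ℝ) * up G q * up G q' = G * (up G q * up G q') := by ring
        _ < G * ((2 * 2 ^ a) * (2 * 2 ^ b)) := by gcongr
        _ = _ := by ring
  set k : ℕ → ℕ → ℝ := fun a b =>
    if ((G : ℝ) * 2 ^ a) * 2 ^ b < 2 * N ∧ N < 4 * (((G : ℝ) * 2 ^ a) * 2 ^ b) then 1 else 0 with hk
  have hbox : ∀ a b, Sab a b ≤ k a b * (μ a ^ κ * μ' b ^ κ) *
      (2 * (N ^ (-(2 * κ - 1)) * ρ ^ (1 - κ))) := by
    intro a b
    by_cases hw : ((G : ℝ) * 2 ^ a) * 2 ^ b < 2 * N ∧ N < 4 * (((G : ℝ) * 2 ^ a) * 2 ^ b)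
    · have hS0 : 0 ≤ Sab a b := Finset.sum_nonneg fun q _ => Finset.sum_nonneg fun q' _ => htm0 q q'
      have hA : Sab a b ≤ μ a * μ' b / N := by
        simp only [hSab, hμ, hμ']
        rw [Finset.sum_mul_sum, Finset.sum_div]
        refine Finset.sum_le_sum fun q _ => ?_
        rw [Finset.sum_div]
        refine Finset.sum_le_sum fun q' _ => ?_
        unfold tm
        have h1 := hf q; have h2 := hf' q'; have h3 := hK q q'; have h4 := hK1 q q'
        split_ifs with h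
        · have hl : 0 < (Nat.lcm q q' : ℝ) := lt_of_lt_of_le hN h.2.1
          have : (Nat.totient q : ℝ) * Nat.totient q' / (Nat.lcm q q' : ℝ) ≤
              (Nat.totient q : ℝ) * Nat.totient q' / N := by
            apply div_le_div_of_nonneg_left (by positivity) hN h.2.1
          calc _ ≤ ((Nat.totient q : ℝ) * Nat.totient q' / N) * (f q * f' q' * 1) := by gcongr
            _ = _ := by ring
        · positivity
      have hB : Sab a b ≤ 2 * N * ρ := by
        have h1 : Sab a b ≤ (G : ℝ) * (ρ * 2 ^ a * 2 ^ b) := by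
          refine le_trans ?_ (mul_le_mul_of_nonneg_left (hR a b) hGp.le)
          simp only [hSab]
          rw [Finset.mul_sum]
          refine Finset.sum_le_sum fun q hq => ?_
          rw [Finset.mul_sum]
          refine Finset.sum_le_sum fun q' hq' => ?_
          unfold tm
          have h1 := hf q; have h2 := hf' q'; have h3 := hK q q'
          have h1' := hf1 q; have h2' := hf1' q'
          by_cases hl : lvl Mz G q q'
          · rw [if_pos hl]
            have hnw : 0 ≤ nw G q * nw G q' := by unfold nw; positivity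
            have e : (Nat.totient q : ℝ) * Nat.totient q' / (Nat.lcm q q' : ℝ) =
                G * (nw G q * nw G q') := by
              obtain ⟨e1, e2, _⟩ := hpair a b q hq q' hq' hl
              have hL : 0 < (Nat.lcm q q' : ℝ) := lt_of_lt_of_le (by positivity) e2
              unfold nw
              rw [div_mul_div_comm, ← e1]
              field_simp
            have hff : f q * f' q' ≤ 1 := mul_le_one₀ h1' h2 h2'
            split_ifs with h
            · rw [e]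
              calc (G:ℝ) * (nw G q * nw G q') * (f q * f' q' * K q q')
                  = (G * (nw G q * nw G q' * K q q')) * (f q * f' q') := by ring
                _ ≤ (G * (nw G q * nw G q' * K q q')) * 1 := by gcongr
                _ = _ := by ring
            · positivity
          · rw [if_neg hl, if_neg (fun h => hl h.1)]; simp
        calc Sab a b ≤ (G : ℝ) * (ρ * 2 ^ a * 2 ^ b) := h1
          _ = ((G : ℝ) * 2 ^ a) * 2 ^ b * ρ := by ring
          _ ≤ 2 * N * ρ := mul_le_mul_of_nonneg_right hw.1.le hρ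
      have h := interp hS0 hA hB (by linarith : 0 ≤ κ) hκ1.le
      simp only [hk]
      rw [if_pos hw, one_mul]
      refine h.trans ?_
      have hm : 0 ≤ μ a * μ' b := mul_nonneg (hμ0 a) (hμ0' b)
      rw [Real.div_rpow hm hN.le, Real.mul_rpow (hμ0 a) (hμ0' b),
        Real.mul_rpow (by positivity) hρ, Real.mul_rpow (by norm_num) hN.le]
      have h2 : (2:ℝ) ^ (1 - κ) ≤ 2 := by
        calc (2:ℝ) ^ (1 - κ) ≤ 2 ^ (1:ℝ) :=
              Real.rpow_le_rpow_of_exponent_le (by norm_num) (by linarith)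
          _ = 2 := Real.rpow_one 2
      have h3 : N ^ (1 - κ) / N ^ κ = N ^ (-(2 * κ - 1)) := by
        rw [← Real.rpow_sub hN]; congr 1; ring
      have h4 : 0 ≤ ρ ^ (1 - κ) := Real.rpow_nonneg hρ _
      have h5 : 0 ≤ μ a ^ κ * μ' b ^ κ :=
        mul_nonneg (Real.rpow_nonneg (hμ0 a) _) (Real.rpow_nonneg (hμ0' b) _)
      calc μ a ^ κ * μ' b ^ κ / N ^ κ * ((2:ℝ) ^ (1 - κ) * N ^ (1 - κ) * ρ ^ (1 - κ))
          = (μ a ^ κ * μ' b ^ κ) * ((2:ℝ) ^ (1 - κ) * (N ^ (1 - κ) / N ^ κ * ρ ^ (1 - κ))) := by ring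
        _ ≤ (μ a ^ κ * μ' b ^ κ) * (2 * (N ^ (1 - κ) / N ^ κ * ρ ^ (1 - κ))) := by gcongr
        _ = _ := by rw [h3]
    · simp only [hk]
      rw [if_neg hw]
      simp only [zero_mul]
      apply le_of_eq
      simp only [hSab]
      refine Finset.sum_eq_zero fun q hq => Finset.sum_eq_zero fun q' hq' => ?_
      unfold tm
      rw [if_neg]
      rintro ⟨hl, h1, h2⟩
      obtain ⟨_, e2, e3⟩ := hpair a b q hq q' hq' hl
      apply hw
      constructor
      · linarith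
      · linarith
  have hsch := schur (range n) (range n) k (fun a => μ a ^ κ) (fun b => μ' b ^ κ) 3 (by norm_num)
    (fun a _ b _ => by simp only [hk]; split_ifs <;> norm_num)
    (fun a _ => Real.rpow_nonneg (hμ0 a) _) (fun b _ => Real.rpow_nonneg (hμ0' b) _)
    (fun a _ => by
      simp only [hk]
      rw [← Finset.sum_filter, Finset.sum_const, nsmul_eq_mul, mul_one]
      have := card_dyadic n ((G : ℝ) * 2 ^ a) N (by positivity)
      exact_mod_cast this)
    (fun b _ => by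
      simp only [hk]
      have e : ∀ a : ℕ, ((G : ℝ) * 2 ^ a) * 2 ^ b = ((G : ℝ) * 2 ^ b) * 2 ^ a := fun a => by ring
      simp only [e]
      rw [← Finset.sum_filter, Finset.sum_const, nsmul_eq_mul, mul_one]
      have := card_dyadic n ((G : ℝ) * 2 ^ b) N (by positivity)
      exact_mod_cast this)
  have s1 := sqrt_sum_le hκ.le (range n) μ (fun a _ => hμ0 a) (mu Mz f) hμs.le
  have s2 := sqrt_sum_le hκ.le (range n) μ' (fun a _ => hμ0' a) (mu Mz f') hμs'.le
  have hc : 0 ≤ 2 * (N ^ (-(2 * κ - 1)) * ρ ^ (1 - κ)) := by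
    have := Real.rpow_nonneg hρ (1 - κ)
    positivity
  have hm1 : 0 ≤ mu Mz f ^ κ := Real.rpow_nonneg (mu_nonneg hf) _
  rw [hSS]
  calc ∑ a ∈ range n, ∑ b ∈ range n, Sab a b
      ≤ ∑ a ∈ range n, ∑ b ∈ range n, k a b * (μ a ^ κ * μ' b ^ κ) *
          (2 * (N ^ (-(2 * κ - 1)) * ρ ^ (1 - κ))) :=
        Finset.sum_le_sum fun a _ => Finset.sum_le_sum fun b _ => hbox a b
    _ = (∑ a ∈ range n, ∑ b ∈ range n, k a b * (μ a ^ κ * μ' b ^ κ)) *
          (2 * (N ^ (-(2 * κ - 1)) * ρ ^ (1 - κ))) := by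
        rw [Finset.sum_mul]
        refine Finset.sum_congr rfl fun a _ => ?_
        rw [Finset.sum_mul]
    _ ≤ (3 * (mu Mz f ^ κ * mu Mz f' ^ κ)) * (2 * (N ^ (-(2 * κ - 1)) * ρ ^ (1 - κ))) := by
        apply mul_le_mul_of_nonneg_right _ hc
        refine hsch.trans ?_
        gcongr
    _ = _ := by ring

/-! ## the tree -/

/-- full modulus: active prime powers times the passive part -/
def tot (ps : List (ℕ × ℕ)) (Mz : ℕ) : ℕ := (ps.map fun x => x.1 ^ x.2).prod * Mz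

lemma tot_nil (Mz : ℕ) : tot [] Mz = Mz := by simp [tot]

lemma tot_cons (x : ℕ × ℕ) (ps : List (ℕ × ℕ)) (Mz : ℕ) :
    tot (x :: ps) Mz = x.1 ^ x.2 * tot ps Mz := by simp [tot, mul_assoc]

lemma tot_mul (p A : ℕ) (ps : List (ℕ × ℕ)) (Mz : ℕ) :
    tot ps (p ^ A * Mz) = p ^ A * tot ps Mz := by simp [tot, mul_left_comm]

/-- well-formed state of the tree -/
def Ok (ps : List (ℕ × ℕ)) (Mz : ℕ) : Prop :=
  Mz ≠ 0 ∧ (ps.map Prod.fst).Nodup ∧ ∀ x ∈ ps, x.1.Prime ∧ x.2 ≠ 0 ∧ ¬ x.1 ∣ Mz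

lemma not_dvd_tot {p : ℕ} (hp : p.Prime) : ∀ (ps : List (ℕ × ℕ)) (Mz : ℕ),
    (∀ x ∈ ps, x.1.Prime) → p ∉ ps.map Prod.fst → ¬ p ∣ Mz → ¬ p ∣ tot ps Mz := by
  intro ps
  induction ps with
  | nil => intro Mz _ _ h; rwa [tot_nil]
  | cons x ps ih =>
    intro Mz h1 h2 h3 h4
    rw [tot_cons] at h4
    rcases (Nat.Prime.dvd_mul hp).1 h4 with h | h
    · have := hp.dvd_of_dvd_pow h
      rw [Nat.prime_dvd_prime_iff_eq hp (h1 x List.mem_cons_self)] at this
      apply h2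
      rw [List.map_cons, ← this]
      exact List.mem_cons_self
    · exact ih Mz (fun y hy => h1 y (List.mem_cons_of_mem _ hy))
        (fun hh => h2 (by rw [List.map_cons]; exact List.mem_cons_of_mem _ hh)) h3 h

lemma Ok.tail {x : ℕ × ℕ} {ps : List (ℕ × ℕ)} {Mz : ℕ} (h : Ok (x :: ps) Mz) : Ok ps Mz :=
  ⟨h.1, (List.nodup_cons.1 (by simpa using h.2.1)).2,
    fun y hy => h.2.2 y (List.mem_cons_of_mem _ hy)⟩

lemma Ok.head_notMem {x : ℕ × ℕ} {ps : List (ℕ × ℕ)} {Mz : ℕ} (h : Ok (x :: ps) Mz) :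
    x.1 ∉ ps.map Prod.fst :=
  (List.nodup_cons.1 (by have := h.2.1; rwa [List.map_cons] at this)).1

lemma Ok.mul {x : ℕ × ℕ} {ps : List (ℕ × ℕ)} {Mz : ℕ} (h : Ok (x :: ps) Mz) :
    Ok ps (x.1 ^ x.2 * Mz) := by
  have hx := h.2.2 x List.mem_cons_self
  refine ⟨mul_ne_zero (pow_ne_zero _ hx.1.ne_zero) h.1, h.tail.2.1, fun y hy => ?_⟩
  have hy' := h.2.2 y (List.mem_cons_of_mem _ hy)
  refine ⟨hy'.1, hy'.2.1, fun hd => ?_⟩
  rcases (Nat.Prime.dvd_mul hy'.1).1 hd with h1 | h1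
  · have := hy'.1.dvd_of_dvd_pow h1
    rw [Nat.prime_dvd_prime_iff_eq hy'.1 hx.1] at this
    apply h.head_notMem
    rw [← this]
    exact List.mem_map_of_mem hy
  · exact hy'.2.2 h1

/-- the hypothesis of the tree: every leaf reached has `F * ρ^(1-κ) ≤ V0`. `F` collects the
factors of the path: `g p` for an active prime with equal exponents, `p^(-δ|i-j|)` for an active
prime with exponents `i ≠ j`. -/
def Good (κ δ V0 : ℝ) (g : ℕ → ℝ) :
    List (ℕ × ℕ) → ℕ → ℕ → (ℕ → ℕ → ℝ) → ℝ → Prop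
  | [], Mz, G, K, F => ∃ ρ : ℝ, 0 ≤ ρ ∧ Rho Mz G K ρ ∧ F * ρ ^ (1 - κ) ≤ V0
  | (p, A) :: ps, Mz, G, K, F =>
      (∀ i0 ≤ A, Good κ δ V0 g ps (p ^ A * Mz) (p ^ i0 * G) K F) ∧
      (∀ i ≤ A, Good κ δ V0 g ps Mz G (fun u v => K (p ^ i * u) (p ^ i * v)) (F * g p)) ∧
      (∀ i ≤ A, ∀ j ≤ A, i ≠ j → Good κ δ V0 g ps Mz G (fun u v => K (p ^ i * u) (p ^ j * v))
        (F * (p : ℝ) ^ (-(δ * dst i j))))

/-- **THEOREM (R), recursive form.** -/
theorem main {κ δ V0 : ℝ} (hκ : 1 / 2 < κ) (hκ1 : κ < 1) (hV0 : 0 ≤ V0)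
    (g C : ℕ → ℝ) (hg : ∀ p : ℕ, p.Prime → 1 / 2 ≤ g p) (hC : ∀ p : ℕ, p.Prime → 1 ≤ C p)
    (hO : ∀ p : ℕ, p.Prime → OneP κ (om κ δ p) (g p) (C p)) :
    ∀ (ps : List (ℕ × ℕ)) (Mz G : ℕ) (N F : ℝ) (f f' : ℕ → ℝ) (K : ℕ → ℕ → ℝ),
      Ok ps Mz → G ∣ Mz → 0 < N → 0 ≤ F →
      (∀ x, 0 ≤ f x) → (∀ x, f x ≤ 1) → (∀ x, 0 ≤ f' x) → (∀ x, f' x ≤ 1) →
      (∀ x y, 0 ≤ K x y) → (∀ x y, K x y ≤ 1) →
      Good κ δ V0 g ps Mz G K F →
      F * SS (tot ps Mz) Mz G N f f' K ≤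
        (ps.map fun x => C x.1).prod * (6 * N ^ (-(2 * κ - 1)) * V0) *
          (mu (tot ps Mz) f ^ κ * mu (tot ps Mz) f' ^ κ) := by
  intro ps
  induction ps with
  | nil =>
    intro Mz G N F f f' K hok hG hN hF hf hf1 hf' hf1' hK hK1 hgood
    obtain ⟨ρ, hρ, hR, hV⟩ := hgood
    have hb := base hok.1 hG hκ hκ1 hN hρ f f' K hf hf1 hf' hf1' hK hK1 hR
    rw [tot_nil]
    have hm : 0 ≤ mu Mz f ^ κ * mu Mz f' ^ κ :=
      mul_nonneg (Real.rpow_nonneg (mu_nonneg hf) _) (Real.rpow_nonneg (mu_nonneg hf') _)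
    have hN' : 0 ≤ N ^ (-(2 * κ - 1)) := Real.rpow_nonneg hN.le _
    calc F * SS Mz Mz G N f f' K
        ≤ F * (6 * (N ^ (-(2 * κ - 1)) * (mu Mz f ^ κ * mu Mz f' ^ κ) * ρ ^ (1 - κ))) :=
          mul_le_mul_of_nonneg_left hb hF
      _ = (6 * N ^ (-(2 * κ - 1)) * (mu Mz f ^ κ * mu Mz f' ^ κ)) * (F * ρ ^ (1 - κ)) := by ring
      _ ≤ (6 * N ^ (-(2 * κ - 1)) * (mu Mz f ^ κ * mu Mz f' ^ κ)) * V0 :=
          mul_le_mul_of_nonneg_left hV (by positivity)
      _ = _ := by simp; ring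
  | cons x ps ih =>
    obtain ⟨p, A⟩ := x
    intro Mz G N F f f' K hok hG hN hF hf hf1 hf' hf1' hK hK1 hgood
    obtain ⟨hgP, hgD, hgO⟩ := hgood
    have hx := hok.2.2 (p, A) List.mem_cons_self
    obtain ⟨hp, hA, hpM⟩ := hx
    simp only at hp hA hpM
    have hpG : ¬ p ∣ G := fun h => hpM (h.trans hG)
    have hT1 : ¬ p ∣ tot ps Mz :=
      not_dvd_tot hp ps Mz (fun y hy => (hok.tail.2.2 y hy).1) hok.head_notMem hpM
    rw [tot_cons]
    simp only [List.map_cons, List.prod_cons]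
    set T1 := tot ps Mz with hT1d
    set C' := (ps.map fun x => C x.1).prod with hC'
    have hC1 : 0 ≤ C' := by
      rw [hC']
      apply List.prod_nonneg
      intro a ha
      obtain ⟨y, hy, rfl⟩ := List.mem_map.1 ha
      have := hC y.1 (hok.tail.2.2 y hy).1
      linarith
    have hp0 : (0:ℝ) < p := by exact_mod_cast hp.pos
    set Bd := C' * (6 * N ^ (-(2 * κ - 1)) * V0) with hBd
    have hBd0 : 0 ≤ Bd := by
      have := Real.rpow_nonneg hN.le (-(2 * κ - 1))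
      positivity
    set fi : ℕ → ℕ → ℝ := fun i z => f (p ^ i * z) with hfi
    set fj : ℕ → ℕ → ℝ := fun j z => f' (p ^ j * z) with hfj
    set y : ℕ → ℝ := fun i => (Nat.totient (p ^ i) : ℝ) * mu T1 (fi i) with hy
    set y' : ℕ → ℝ := fun i => (Nat.totient (p ^ i) : ℝ) * mu T1 (fj i) with hy'
    have hmi : ∀ i, 0 ≤ mu T1 (fi i) := fun i => mu_nonneg fun z => hf _
    have hmj : ∀ i, 0 ≤ mu T1 (fj i) := fun i => mu_nonneg fun z => hf' _
    have hy0 : ∀ i, 0 ≤ y i := fun i => mul_nonneg (Nat.cast_nonneg _) (hmi i)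
    have hy0' : ∀ i, 0 ≤ y' i := fun i => mul_nonneg (Nat.cast_nonneg _) (hmj i)
    have hmu : mu (p ^ A * T1) f = ∑ i ∈ range (A + 1), y i := mu_pp hp hT1 f
    have hmu' : mu (p ^ A * T1) f' = ∑ i ∈ range (A + 1), y' i := mu_pp hp hT1 f'
    set E : ℕ → ℕ → ℝ := fun i j => wt p i j * SS T1 Mz G (N / (p : ℝ) ^ max i j) (fi i) (fj j)
      (fun u v => K (p ^ i * u) (p ^ j * v)) with hE
    have hgp := hg p hp
    have hgp0 : 0 < g p := by linarith
    have hom : 0 < om κ δ p := om_pos hp.pos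
    -- the key bound on one piece
    have hNP : ∀ m : ℕ, (N / (p : ℝ) ^ m) ^ (-(2 * κ - 1)) =
        N ^ (-(2 * κ - 1)) * ((p : ℝ) ^ m) ^ (2 * κ - 1) := by
      intro m
      have hP : (0:ℝ) < (p : ℝ) ^ m := by positivity
      rw [Real.div_rpow hN.le hP.le, Real.rpow_neg hP.le, div_inv_eq_mul]
    have hdiag : ∀ i ∈ range (A + 1), F * E i i ≤ (y i ^ κ * y' i ^ κ) / g p * Bd := by
      intro i hi
      have hiA : i ≤ A := by have := Finset.mem_range.1 hi; omega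
      have h := ih Mz G (N / (p : ℝ) ^ max i i) (F * g p) (fi i) (fj i)
        (fun u v => K (p ^ i * u) (p ^ i * v)) hok.tail hG (by positivity) (by positivity)
        (fun z => hf _) (fun z => hf1 _) (fun z => hf' _) (fun z => hf1' _)
        (fun _ _ => hK _ _) (fun _ _ => hK1 _ _) (hgD i hiA)
      rw [← hT1d] at h
      rw [hNP] at h
      have hw := wt_le (i := i) (j := i) hp hκ1.le (by linarith : 0 ≤ κ) (hmi i) (hmj i)
      rw [dst_self, pow_zero, one_mul] at hw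
      have hwn := wt_nonneg p i i
      have h2 : F * g p * E i i ≤ (y i ^ κ * y' i ^ κ) * Bd := by
        calc F * g p * E i i = wt p i i * (F * g p * SS T1 Mz G (N / (p : ℝ) ^ max i i) (fi i) (fj i)
              (fun u v => K (p ^ i * u) (p ^ i * v))) := by simp only [hE]; ring
          _ ≤ wt p i i * (C' * (6 * (N ^ (-(2 * κ - 1)) * ((p : ℝ) ^ max i i) ^ (2 * κ - 1)) * V0) *
                (mu T1 (fi i) ^ κ * mu T1 (fj i) ^ κ)) := mul_le_mul_of_nonneg_left h hwn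
          _ = (wt p i i * (((p : ℝ) ^ max i i) ^ (2 * κ - 1) *
                (mu T1 (fi i) ^ κ * mu T1 (fj i) ^ κ))) * Bd := by rw [hBd]; ring
          _ ≤ _ := mul_le_mul_of_nonneg_right hw hBd0
      rw [div_mul_eq_mul_div, le_div_iff₀ hgp0]
      calc F * E i i * g p = F * g p * E i i := by ring
        _ ≤ _ := h2
    have hoff : ∀ i ∈ range (A + 1), ∀ j ∈ range (A + 1), i ≠ j →
        F * E i j ≤ om κ δ p ^ dst i j * (y i ^ κ * y' j ^ κ) * Bd := by
      intro i hi j hj hij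
      have hiA : i ≤ A := by have := Finset.mem_range.1 hi; omega
      have hjA : j ≤ A := by have := Finset.mem_range.1 hj; omega
      have hd0 : 0 < (p : ℝ) ^ (-(δ * dst i j)) := by positivity
      have h := ih Mz G (N / (p : ℝ) ^ max i j) (F * (p : ℝ) ^ (-(δ * dst i j))) (fi i) (fj j)
        (fun u v => K (p ^ i * u) (p ^ j * v)) hok.tail hG (by positivity) (by positivity)
        (fun z => hf _) (fun z => hf1 _) (fun z => hf' _) (fun z => hf1' _)
        (fun _ _ => hK _ _) (fun _ _ => hK1 _ _) (hgO i hiA j hjA hij)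
      rw [← hT1d] at h
      rw [hNP] at h
      have hw := wt_le (i := i) (j := j) hp hκ1.le (by linarith : 0 ≤ κ) (hmi i) (hmj j)
      have hwn := wt_nonneg p i j
      have h2 : F * (p : ℝ) ^ (-(δ * dst i j)) * E i j ≤
          (((p : ℝ) ^ (-(1 - κ))) ^ dst i j * (y i ^ κ * y' j ^ κ)) * Bd := by
        calc F * (p : ℝ) ^ (-(δ * dst i j)) * E i j
            = wt p i j * (F * (p : ℝ) ^ (-(δ * dst i j)) * SS T1 Mz G (N / (p : ℝ) ^ max i j)
                (fi i) (fj j) (fun u v => K (p ^ i * u) (p ^ j * v))) := by simp only [hE]; ring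
          _ ≤ wt p i j * (C' * (6 * (N ^ (-(2 * κ - 1)) * ((p : ℝ) ^ max i j) ^ (2 * κ - 1)) * V0) *
                (mu T1 (fi i) ^ κ * mu T1 (fj j) ^ κ)) := mul_le_mul_of_nonneg_left h hwn
          _ = (wt p i j * (((p : ℝ) ^ max i j) ^ (2 * κ - 1) *
                (mu T1 (fi i) ^ κ * mu T1 (fj j) ^ κ))) * Bd := by rw [hBd]; ring
          _ ≤ _ := mul_le_mul_of_nonneg_right hw hBd0
      rw [om_split hp.pos]
      have hd1 : (p : ℝ) ^ (-(δ * dst i j)) * (p : ℝ) ^ (δ * dst i j) = 1 := by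
        rw [← Real.rpow_add hp0]; simp
      have hdp : 0 < (p : ℝ) ^ (δ * (dst i j : ℝ)) := by positivity
      calc F * E i j = (F * (p : ℝ) ^ (-(δ * dst i j)) * E i j) * (p : ℝ) ^ (δ * (dst i j : ℝ)) := by
            calc F * E i j = F * E i j * ((p : ℝ) ^ (-(δ * dst i j)) * (p : ℝ) ^ (δ * dst i j)) := by
                  rw [hd1, mul_one]
              _ = _ := by ring
        _ ≤ ((((p : ℝ) ^ (-(1 - κ))) ^ dst i j * (y i ^ κ * y' j ^ κ)) * Bd) *
              (p : ℝ) ^ (δ * (dst i j : ℝ)) := mul_le_mul_of_nonneg_right h2 hdp.le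
        _ = _ := by ring
    have hyk : ∀ i, 0 ≤ y i ^ κ := fun i => Real.rpow_nonneg (hy0 i) _
    have hyk' : ∀ i, 0 ≤ y' i ^ κ := fun i => Real.rpow_nonneg (hy0' i) _
    rcases hO p hp (A + 1) y y' (fun i _ => hy0 i) (fun i _ => hy0' i) with ⟨i0, hi0, h1⟩ | h1
    · -- passive
      have hiA : i0 ≤ A := by have := Finset.mem_range.1 hi0; omega
      rw [SS_passive (i0 := i0) hp hA hT1 hok.1 hpM hpG, mul_add]
      have hpas := ih (p ^ A * Mz) (p ^ i0 * G) N F f f' K hok.mul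
        (Nat.mul_dvd_mul (pow_dvd_pow p hiA) hG) hN hF hf hf1 hf' hf1' hK hK1 (hgP i0 hiA)
      rw [tot_mul, ← hT1d, ← hBd] at hpas
      have hrem : F * ∑ i ∈ (range (A + 1)).erase i0, ∑ j ∈ (range (A + 1)).erase i0, E i j ≤
          (∑ i ∈ (range (A + 1)).erase i0, ∑ j ∈ (range (A + 1)).erase i0,
            om κ δ p ^ dst i j * 2 * (y i ^ κ * y' j ^ κ)) * Bd := by
        rw [Finset.mul_sum, Finset.sum_mul]
        refine Finset.sum_le_sum fun i hi => ?_
        rw [Finset.mul_sum, Finset.sum_mul]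
        refine Finset.sum_le_sum fun j hj => ?_
        have hi' := Finset.mem_of_mem_erase hi
        have hj' := Finset.mem_of_mem_erase hj
        by_cases hij : i = j
        · subst hij
          refine (hdiag i hi').trans ?_
          apply mul_le_mul_of_nonneg_right _ hBd0
          rw [dst_self, pow_zero, one_mul, div_le_iff₀ hgp0]
          have : 0 ≤ y i ^ κ * y' i ^ κ := mul_nonneg (hyk i) (hyk' i)
          nlinarith
        · refine (hoff i hi' j hj' hij).trans ?_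
          apply mul_le_mul_of_nonneg_right _ hBd0
          have h3 : 0 ≤ om κ δ p ^ dst i j * (y i ^ κ * y' j ^ κ) :=
            mul_nonneg (pow_nonneg hom.le _) (mul_nonneg (hyk i) (hyk' j))
          linarith
      have hrem2 := hrem.trans (mul_le_mul_of_nonneg_right h1 hBd0)
      rw [← hmu, ← hmu'] at hrem2
      calc _ ≤ Bd * (mu (p ^ A * T1) f ^ κ * mu (p ^ A * T1) f' ^ κ) +
            (C p - 1) * (mu (p ^ A * T1) f ^ κ * mu (p ^ A * T1) f' ^ κ) * Bd :=
            add_le_add hpas hrem2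
        _ = _ := by rw [hBd]; ring
    · -- split
      rw [SS_split hp hT1 hpM]
      have hsum : F * ∑ i ∈ range (A + 1), ∑ j ∈ range (A + 1), E i j ≤
          (∑ i ∈ range (A + 1), (y i ^ κ * y' i ^ κ) / g p +
            ∑ i ∈ range (A + 1), ∑ j ∈ range (A + 1),
              (if j = i then 0 else om κ δ p ^ dst i j) * (y i ^ κ * y' j ^ κ)) * Bd := by
        rw [Finset.mul_sum, ← Finset.sum_add_distrib, Finset.sum_mul]
        refine Finset.sum_le_sum fun i hi => ?_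
        rw [← Finset.add_sum_erase _ _ hi, ← Finset.add_sum_erase _
          (fun j => (if j = i then 0 else om κ δ p ^ dst i j) * (y i ^ κ * y' j ^ κ)) hi]
        simp only [if_true, zero_mul, zero_add]
        rw [mul_add, add_mul]
        refine add_le_add (hdiag i hi) ?_
        rw [Finset.mul_sum, Finset.sum_mul]
        refine Finset.sum_le_sum fun j hj => ?_
        have hji := Finset.ne_of_mem_erase hj
        rw [if_neg hji]
        exact hoff i hi j (Finset.mem_of_mem_erase hj) (fun h => hji h.symm)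
      have := hsum.trans (mul_le_mul_of_nonneg_right h1 hBd0)
      rw [← hmu, ← hmu'] at this
      calc _ ≤ C p * (mu (p ^ A * T1) f ^ κ * mu (p ^ A * T1) f' ^ κ) * Bd := this
        _ = _ := by rw [hBd]; ring

end Crest.Agent.R4C.ThmRx19
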