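import Mathlib
import Crest.Agent.R4C.ThmR_19

/-!
# Row 4: THEOREM (R) (note 2326), leaf form (helper19)

`natural rarity in every assignment model => energy gain`.
-/

set_option autoImplicit false
set_option linter.unusedVariables false

namespace Crest.Agent.R4C.ThmRx19

open Finset Real Crest.Agent.R4C.OnePx19
open scoped Classical

/-- factor of a path: gain `g p` at the active primes with equal exponents, `p^(-δ|i-j|)` at the
others. -/
noncomputable def FF (δ : ℝ) (g : ℕ → ℝ) (Ma h h' : ℕ) : ℝ :=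
  ∏ p ∈ Ma.primeFactors, (if h.factorization p = h'.factorization p then g p
    else (p:ℝ) ^ (-(δ * dst (h.factorization p) (h'.factorization p))))

lemma FF_mul {δ : ℝ} {g : ℕ → ℝ} {Ma h h' p A i j : ℕ} (hp : p.Prime) (hA : A ≠ 0)
    (hMa0 : Ma ≠ 0) (hMa : ¬ p ∣ Ma) (hh : h ∣ Ma) (hh' : h' ∣ Ma) :
    FF δ g (p ^ A * Ma) (p ^ i * h) (p ^ j * h') =
      (if i = j then g p else (p : ℝ) ^ (-(δ * dst i j))) * FF δ g Ma h h' := by
  have hph : ¬ p ∣ h := fun h1 => hMa (h1.trans hh)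
  have hph' : ¬ p ∣ h' := fun h1 => hMa (h1.trans hh')
  have hpn : p ∉ Ma.primeFactors := fun h1 => hMa (Nat.dvd_of_mem_primeFactors h1)
  unfold FF
  have e : (p ^ A * Ma).primeFactors = insert p Ma.primeFactors := by
    rw [Nat.primeFactors_mul (pow_ne_zero _ hp.ne_zero) hMa0, Nat.primeFactors_prime_pow hA hp]
    rfl
  rw [e, Finset.prod_insert hpn, fact_pp_self hp hph, fact_pp_self hp hph']
  congr 1
  refine Finset.prod_congr rfl fun r hr => ?_
  have hrp : r ≠ p := by rintro rfl; exact hpn hr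
  rw [fact_pp hp hph hrp, fact_pp hp hph' hrp]

lemma FF_one (δ : ℝ) (g : ℕ → ℝ) (h h' : ℕ) : FF δ g 1 h h' = 1 := by
  simp [FF]

/-- leaf hypothesis ⟹ `Good` -/
theorem Good_of_leaf {κ δ V0 : ℝ} {g : ℕ → ℝ} {T : ℕ} {K : ℕ → ℕ → ℝ}
    (hleaf : ∀ Ma Mz G h h' : ℕ, Ma * Mz = T → Nat.Coprime Ma Mz → h ∣ Ma → h' ∣ Ma → G ∣ Mz →
      ∃ ρ : ℝ, 0 ≤ ρ ∧ Rho Mz G (fun u v => K (h * u) (h' * v)) ρ ∧
        FF δ g Ma h h' * ρ ^ (1 - κ) ≤ V0) :
    ∀ (ps : List (ℕ × ℕ)) (Mz G Ma h h' : ℕ), Ok ps Mz → G ∣ Mz → Ma ≠ 0 →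
      Ma * tot ps Mz = T → Nat.Coprime Ma (tot ps Mz) → h ∣ Ma → h' ∣ Ma →
      Good κ δ V0 g ps Mz G (fun u v => K (h * u) (h' * v)) (FF δ g Ma h h') := by
  intro ps
  induction ps with
  | nil =>
    intro Mz G Ma h h' hok hG hMa hT hc hh hh'
    rw [tot_nil] at hT hc
    exact hleaf Ma Mz G h h' hT hc hh hh' hG
  | cons x ps ih =>
    obtain ⟨p, A⟩ := x
    intro Mz G Ma h h' hok hG hMa hT hc hh hh'
    obtain ⟨hp, hA, hpM⟩ := hok.2.2 (p, A) List.mem_cons_self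
    simp only at hp hA hpM
    have hT1 : ¬ p ∣ tot ps Mz :=
      not_dvd_tot hp ps Mz (fun y hy => (hok.tail.2.2 y hy).1) hok.head_notMem hpM
    rw [tot_cons] at hT hc
    simp only at hT hc
    have hpMa : ¬ p ∣ Ma := by
      intro h1
      have h2 : p ∣ p ^ A * tot ps Mz := (dvd_pow_self p hA).mul_right _
      have := Nat.dvd_gcd h1 h2
      rw [hc] at this
      exact hp.one_lt.ne' (Nat.dvd_one.1 this)
    have hstep : ∀ i ≤ A, ∀ j ≤ A, Good κ δ V0 g ps Mz G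
        (fun u v => K (h * (p ^ i * u)) (h' * (p ^ j * v)))
        ((if i = j then g p else (p : ℝ) ^ (-(δ * dst i j))) * FF δ g Ma h h') := by
      intro i hi j hj
      have hcop : Nat.Coprime (p ^ A * Ma) (tot ps Mz) := by
        apply Nat.Coprime.mul_left
        · exact Nat.Coprime.pow_left _ ((Nat.Prime.coprime_iff_not_dvd hp).2 hT1)
        · exact Nat.Coprime.coprime_mul_left_right hc
      have := ih Mz G (p ^ A * Ma) (p ^ i * h) (p ^ j * h') hok.tail hG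
        (mul_ne_zero (pow_ne_zero _ hp.ne_zero) hMa) (by rw [← hT]; ring) hcop
        (Nat.mul_dvd_mul (pow_dvd_pow p hi) hh) (Nat.mul_dvd_mul (pow_dvd_pow p hj) hh')
      rw [FF_mul hp hA hMa hpMa hh hh'] at this
      have e : (fun u v => K (h * (p ^ i * u)) (h' * (p ^ j * v))) =
          (fun u v => K (p ^ i * h * u) (p ^ j * h' * v)) := by
        funext u v
        congr 1 <;> ring
      rw [e]
      exact this
    refine ⟨?_, ?_, ?_⟩
    · intro i0 hi0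
      exact ih (p ^ A * Mz) (p ^ i0 * G) Ma h h' hok.mul
        (Nat.mul_dvd_mul (pow_dvd_pow p hi0) hG) hMa (by rw [tot_mul]; exact hT)
        (by rw [tot_mul]; exact hc) hh hh'
    · intro i hi
      have := hstep i hi i hi
      rw [if_pos rfl, mul_comm] at this
      exact this
    · intro i hi j hj hij
      have := hstep i hi j hj
      rw [if_neg hij, mul_comm] at this
      exact this

/-- the list of prime powers of `T` -/
noncomputable def pl (T : ℕ) : List (ℕ × ℕ) := T.primeFactors.toList.map fun p => (p, T.factorization p)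

lemma pl_fst (T : ℕ) : (pl T).map Prod.fst = T.primeFactors.toList := by
  unfold pl
  rw [List.map_map]
  exact List.map_id'' (fun _ => rfl) _

lemma tot_pl {T : ℕ} (hT : T ≠ 0) : tot (pl T) 1 = T := by
  unfold tot pl
  rw [List.map_map, mul_one]
  have : (List.map ((fun x : ℕ × ℕ => x.1 ^ x.2) ∘ fun p => (p, T.factorization p))
      T.primeFactors.toList).prod = ∏ p ∈ T.primeFactors, p ^ T.factorization p := by
    rw [Finset.prod_eq_multiset_prod, ← Finset.coe_toList T.primeFactors]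
    rfl
  rw [this]
  exact Nat.prod_factorization_pow_eq_self hT

lemma Ok_pl {T : ℕ} (hT : T ≠ 0) : Ok (pl T) 1 := by
  refine ⟨one_ne_zero, ?_, ?_⟩
  · rw [pl_fst]; exact Finset.nodup_toList _
  · intro x hx
    unfold pl at hx
    obtain ⟨p, hp, rfl⟩ := List.mem_map.1 hx
    rw [Finset.mem_toList] at hp
    have hpp := Nat.prime_of_mem_primeFactors hp
    refine ⟨hpp, ?_, ?_⟩
    · exact (hpp.factorization_pos_of_dvd hT (Nat.dvd_of_mem_primeFactors hp)).ne'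
    · intro h
      exact hpp.one_lt.ne' (Nat.dvd_one.1 h)

lemma lvl_one (q q' : ℕ) : lvl 1 1 q q' := by
  intro p hp; simp at hp

/-- the energy without passive primes is the plain energy -/
lemma SS_one (T : ℕ) (N : ℝ) (f f' : ℕ → ℝ) (K : ℕ → ℕ → ℝ) :
    SS T 1 1 N f f' K = ∑ q ∈ T.divisors, ∑ q' ∈ T.divisors,
      if N ≤ (Nat.lcm q q' : ℝ) ∧ (Nat.lcm q q' : ℝ) < 2 * N then
        ((Nat.totient q : ℝ) * Nat.totient q' / (Nat.lcm q q' : ℝ)) * (f q * f' q' * K q q')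
      else 0 := by
  unfold SS tm
  refine Finset.sum_congr rfl fun q _ => Finset.sum_congr rfl fun q' _ => ?_
  simp [lvl_one]

/-- gain of a split common prime -/
noncomputable def gg (κ δ c : ℝ) (p0 : ℕ) (p : ℕ) : ℝ := if p0 ≤ p then 1 - c * X1 κ δ p else 1

/-- **THEOREM (R), leaf form.**  Let `1/2 < κ < 1`, `δ < (1-κ)(2κ-1)/(2κ)`.  There are absolute
constants `c > 0`, `p0`, `C`: for every modulus `T`, every weight `K` of pairs with values in
`[0,1]` and all `f, f'` with values in `[0,1]`: if for every coprime factorisation `T = Ma Mz`,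
every `h, h' ∣ Ma` and every centre `G ∣ Mz` the weight `K(h u, h' v)` has natural density `≤ ρ` in
every dyadic box of the model `(Mz, G)` with `FF * ρ^(1-κ) ≤ V0`, then the energy of `K` at scale
`N` is `≤ C N^{-(2κ-1)} V0 (μ(f) μ(f'))^κ`. -/
theorem thmR {κ δ : ℝ} (hκ : 1 / 2 < κ) (hκ1 : κ < 1) (hδ0 : 0 < δ)
    (hδ : δ * (2 * κ) < (1 - κ) * (2 * κ - 1)) :
    ∃ (c C : ℝ) (p0 : ℕ), 0 < c ∧ 0 < C ∧ (∀ p : ℕ, p0 ≤ p → c * X1 κ δ p ≤ 1 / 2) ∧
      ∀ (T : ℕ) (N V0 : ℝ) (f f' : ℕ → ℝ) (K : ℕ → ℕ → ℝ), T ≠ 0 → 0 < N → 0 ≤ V0 →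
      (∀ x, 0 ≤ f x) → (∀ x, f x ≤ 1) → (∀ x, 0 ≤ f' x) → (∀ x, f' x ≤ 1) →
      (∀ x y, 0 ≤ K x y) → (∀ x y, K x y ≤ 1) →
      (∀ Ma Mz G h h' : ℕ, Ma * Mz = T → Nat.Coprime Ma Mz → h ∣ Ma → h' ∣ Ma → G ∣ Mz →
        ∃ ρ : ℝ, 0 ≤ ρ ∧ Rho Mz G (fun u v => K (h * u) (h' * v)) ρ ∧
          FF δ (gg κ δ c p0) Ma h h' * ρ ^ (1 - κ) ≤ V0) →
      ∑ q ∈ T.divisors, ∑ q' ∈ T.divisors,
        (if N ≤ (Nat.lcm q q' : ℝ) ∧ (Nat.lcm q q' : ℝ) < 2 * N then
          ((Nat.totient q : ℝ) * Nat.totient q' / (Nat.lcm q q' : ℝ)) * (f q * f' q' * K q q')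
        else 0) ≤ C * N ^ (-(2 * κ - 1)) * V0 * (mu T f ^ κ * mu T f' ^ κ) := by
  have h1k : 0 < 1 - κ := by linarith
  have hδ' : δ < 1 - κ := by nlinarith
  obtain ⟨c, C1, C2, p0, hc, hC1, hC2, hX, hO⟩ := exists_oneP hκ hκ1 hδ0 hδ'
  obtain ⟨C, hC, hprod⟩ := prod_cst_le hκ hκ1 hδ0 hδ C1 C2 hC1 hC2 p0
  refine ⟨c, 6 * C, p0, hc, by linarith, hX, ?_⟩
  intro T N V0 f f' K hT hN hV0 hf hf1 hf' hf1' hK hK1 hleaf
  set Cp : ℕ → ℝ := fun p => if p0 ≤ p then 1 + C1 * (X1 κ δ p) ^ (2 * κ) else C2 with hCp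
  have hgood := Good_of_leaf hleaf (pl T) 1 1 1 1 1 (Ok_pl hT) (dvd_refl _) one_ne_zero
    (by rw [tot_pl hT, one_mul]) (Nat.coprime_one_left _) (dvd_refl _) (dvd_refl _)
  rw [FF_one] at hgood
  simp only [one_mul] at hgood
  have hm := main hκ hκ1 hV0 (gg κ δ c p0) Cp
    (fun p hp => by
      unfold gg
      split_ifs with h
      · have := hX p h; linarith
      · norm_num)
    (fun p hp => by
      simp only [hCp]
      split_ifs
      · have : 0 ≤ X1 κ δ p := by unfold X1; positivity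
        have : 0 ≤ C1 * (X1 κ δ p) ^ (2 * κ) := by positivity
        linarith
      · exact hC2)
    (fun p hp => hO p hp.two_le) (pl T) 1 1 N 1 f f' K (Ok_pl hT) (dvd_refl _) hN zero_le_one
    hf hf1 hf' hf1' hK hK1 hgood
  rw [one_mul, tot_pl hT, SS_one] at hm
  refine hm.trans ?_
  have hpr : ((pl T).map fun x => Cp x.1).prod ≤ C := by
    have e : ((pl T).map fun x => Cp x.1).prod = ∏ p ∈ T.primeFactors, Cp p := by
      unfold pl
      rw [List.map_map, Finset.prod_eq_multiset_prod, ← Finset.coe_toList T.primeFactors]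
      rfl
    rw [e]
    exact hprod T.primeFactors
  have h0 : 0 ≤ N ^ (-(2 * κ - 1)) := Real.rpow_nonneg hN.le _
  have hm1 : 0 ≤ mu T f ^ κ * mu T f' ^ κ :=
    mul_nonneg (Real.rpow_nonneg (mu_nonneg hf) _) (Real.rpow_nonneg (mu_nonneg hf') _)
  calc _ ≤ C * (6 * N ^ (-(2 * κ - 1)) * V0) * (mu T f ^ κ * mu T f' ^ κ) := by gcongr
    _ = _ := by ring

end Crest.Agent.R4C.ThmRx19
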