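import Mathlib
import Crest.Agent.R4C.ThmRb_19
import Crest.Agent.R4C.Base_935

/-!
# Row 4: exact-gcd HVW (`K = 1`) and THEOREM (R) in the divisor language (helper19)

`b = M/q`, weights `nu M b`, arbitrary `M`.
-/

set_option autoImplicit false
set_option linter.unusedVariables false

namespace Crest.Agent.R4C.ThmRx19

open Finset Real Crest.Agent.R4C.OnePx19 Crest.Agent.R4C.Basex935
open scoped Classical

lemma nw_nonneg (G q : ℕ) : 0 ≤ nw G q := by unfold nw; positivity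

/-- natural mass of one dyadic class is at most its length -/
lemma sum_nw_le {Mz G : ℕ} (hMz : Mz ≠ 0) (hG : G ≠ 0) (a : ℕ) :
    ∑ q ∈ Mz.divisors.filter (fun q => la G q = a), nw G q ≤ 2 ^ a := by
  have hmap : ∀ q ∈ Mz.divisors.filter (fun q => la G q = a),
      up G q ∈ Finset.Ico (2 ^ a) (2 ^ (a + 1)) := by
    intro q hq
    obtain ⟨h1, h2⟩ := Finset.mem_filter.1 hq
    have hq0 : q ≠ 0 := ne_zero_of_dvd_ne_zero hMz (Nat.dvd_of_mem_divisors h1)
    rw [Finset.mem_Ico, ← h2]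
    exact ⟨Nat.pow_log_le_self 2 (up_pos hq0).ne', Nat.lt_pow_succ_log_self (by norm_num) _⟩
  rw [← Finset.sum_fiberwise_of_maps_to hmap]
  calc _ ≤ ∑ u ∈ Finset.Ico (2 ^ a) (2 ^ (a + 1)), (1:ℝ) := by
        refine Finset.sum_le_sum fun u hu => ?_
        have hu0 : 0 < u := lt_of_lt_of_le (pow_pos (by norm_num) a) (Finset.mem_Ico.1 hu).1
        have hGu : 0 < G * u := Nat.mul_pos (Nat.pos_of_ne_zero hG) hu0
        have hGu' : (0:ℝ) < (G * u : ℕ) := by exact_mod_cast hGu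
        calc _ ≤ ∑ q ∈ (G * u).divisors, (Nat.totient q : ℝ) / ((G * u : ℕ) : ℝ) := by
              refine (Finset.sum_le_sum (g := fun q => (Nat.totient q : ℝ) / ((G * u : ℕ) : ℝ)) ?_).trans
                (Finset.sum_le_sum_of_subset_of_nonneg ?_ ?_)
              · intro q hq
                obtain ⟨h1, h2⟩ := Finset.mem_filter.1 hq
                obtain ⟨h3, h4⟩ := Finset.mem_filter.1 h1
                have hq0 : q ≠ 0 := ne_zero_of_dvd_ne_zero hMz (Nat.dvd_of_mem_divisors h3)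
                unfold nw
                rw [lcm_eq_up hq0, h2]
              · intro q hq
                obtain ⟨h1, h2⟩ := Finset.mem_filter.1 hq
                obtain ⟨h3, h4⟩ := Finset.mem_filter.1 h1
                have hq0 : q ≠ 0 := ne_zero_of_dvd_ne_zero hMz (Nat.dvd_of_mem_divisors h3)
                rw [Nat.mem_divisors]
                refine ⟨?_, hGu.ne'⟩
                rw [← h2, ← lcm_eq_up hq0]
                exact Nat.dvd_lcm_left _ _
              · intro q _ _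
                positivity
          _ = 1 := by
              rw [← Finset.sum_div]
              have h := Nat.sum_totient (G * u)
              have h2 : ((∑ d ∈ (G * u).divisors, Nat.totient d : ℕ) : ℝ) = (G * u : ℕ) := by
                exact_mod_cast h
              push_cast at h2 ⊢
              rw [h2, div_self]
              have := hGu'
              push_cast at this
              exact this.ne'
    _ = 2 ^ a := by
        rw [Finset.sum_const, Nat.card_Ico, nsmul_eq_mul, mul_one, pow_succ]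
        have : 2 ^ a * 2 - 2 ^ a = 2 ^ a := by omega
        rw [this]; push_cast; rfl

/-- every weight with values in `[0,1]` has natural density at most one -/
lemma Rho_one {Mz G : ℕ} (hMz : Mz ≠ 0) (hG : G ≠ 0) (K : ℕ → ℕ → ℝ)
    (hK : ∀ x y, 0 ≤ K x y) (hK1 : ∀ x y, K x y ≤ 1) : Rho Mz G K 1 := by
  intro a b
  have h1 := sum_nw_le hMz hG a
  have h2 := sum_nw_le hMz hG b
  calc _ ≤ ∑ q ∈ Mz.divisors.filter (fun q => la G q = a),
        ∑ q' ∈ Mz.divisors.filter (fun q => la G q = b), nw G q * nw G q' := by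
        refine Finset.sum_le_sum fun q _ => Finset.sum_le_sum fun q' _ => ?_
        have hn := nw_nonneg G q
        have hn' := nw_nonneg G q'
        split_ifs
        · calc nw G q * nw G q' * K q q' ≤ nw G q * nw G q' * 1 :=
              mul_le_mul_of_nonneg_left (hK1 q q') (mul_nonneg hn hn')
            _ = _ := mul_one _
        · exact mul_nonneg hn hn'
    _ = (∑ q ∈ Mz.divisors.filter (fun q => la G q = a), nw G q) *
        ∑ q' ∈ Mz.divisors.filter (fun q => la G q = b), nw G q' := by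
        rw [Finset.sum_mul_sum]
    _ ≤ 2 ^ a * 2 ^ b := by
        apply mul_le_mul h1 h2 (Finset.sum_nonneg fun q _ => nw_nonneg G q) (by positivity)
    _ = _ := by ring

lemma FF_nonneg {κ δ c : ℝ} {p0 : ℕ} (hX : ∀ p : ℕ, p0 ≤ p → c * X1 κ δ p ≤ 1 / 2)
    (Ma h h' : ℕ) : 0 ≤ FF δ (gg κ δ c p0) Ma h h' := by
  unfold FF
  refine Finset.prod_nonneg fun p hp => ?_
  split_ifs
  · unfold gg
    split_ifs with h1
    · have := hX p h1; linarith
    · norm_num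
  · positivity

lemma FF_le_one {κ δ c : ℝ} (hδ0 : 0 < δ) {p0 : ℕ} (hc : 0 < c)
    (hX : ∀ p : ℕ, p0 ≤ p → c * X1 κ δ p ≤ 1 / 2)
    (Ma h h' : ℕ) : FF δ (gg κ δ c p0) Ma h h' ≤ 1 := by
  unfold FF
  refine Finset.prod_le_one (fun p hp => ?_) (fun p hp => ?_)
  · split_ifs
    · unfold gg
      split_ifs with h1
      · have := hX p h1; linarith
      · norm_num
    · positivity
  · split_ifs
    · unfold gg
      split_ifs with h1
      · have : 0 ≤ X1 κ δ p := by unfold X1; positivity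
        have : 0 ≤ c * X1 κ δ p := by positivity
        linarith
      · exact le_rfl
    · apply Real.rpow_le_one_of_one_le_of_nonpos
      · exact_mod_cast (Nat.prime_of_mem_primeFactors hp).one_lt.le
      · have : 0 ≤ δ * (dst (h.factorization p) (h'.factorization p) : ℝ) := by positivity
        linarith

lemma exists_delta {κ : ℝ} (hκ : 1 / 2 < κ) (hκ1 : κ < 1) :
    ∃ δ : ℝ, 0 < δ ∧ δ * (2 * κ) < (1 - κ) * (2 * κ - 1) := by
  refine ⟨(1 - κ) * (2 * κ - 1) / 4, ?_, ?_⟩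
  · have h1 : 0 < 1 - κ := by linarith
    have h2 : 0 < 2 * κ - 1 := by linarith
    positivity
  · have h1 : 0 < (1 - κ) * (2 * κ - 1) := mul_pos (by linarith) (by linarith)
    nlinarith

/-- **exact-gcd HVW, q-language**, arbitrary exponents, weight `K ∈ [0,1]`. -/
theorem hvw_q {κ : ℝ} (hκ : 1 / 2 < κ) (hκ1 : κ < 1) :
    ∃ C : ℝ, 0 < C ∧ ∀ (T : ℕ) (N : ℝ) (f f' : ℕ → ℝ) (K : ℕ → ℕ → ℝ), T ≠ 0 → 0 < N →
      (∀ x, 0 ≤ f x) → (∀ x, f x ≤ 1) → (∀ x, 0 ≤ f' x) → (∀ x, f' x ≤ 1) →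
      (∀ x y, 0 ≤ K x y) → (∀ x y, K x y ≤ 1) →
      ∑ q ∈ T.divisors, ∑ q' ∈ T.divisors,
        (if N ≤ (Nat.lcm q q' : ℝ) ∧ (Nat.lcm q q' : ℝ) < 2 * N then
          ((Nat.totient q : ℝ) * Nat.totient q' / (Nat.lcm q q' : ℝ)) * (f q * f' q' * K q q')
        else 0) ≤ C * N ^ (-(2 * κ - 1)) * (mu T f ^ κ * mu T f' ^ κ) := by
  obtain ⟨δ, hδ0, hδ⟩ := exists_delta hκ hκ1
  obtain ⟨c, C, p0, hc, hC, hX, h⟩ := thmR hκ hκ1 hδ0 hδ
  refine ⟨C, hC, ?_⟩
  intro T N f f' K hT hN hf hf1 hf' hf1' hK hK1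
  have := h T N 1 f f' K hT hN zero_le_one hf hf1 hf' hf1' hK hK1 (by
    intro Ma Mz G h h' hM hcop hh hh' hG
    have hMz : Mz ≠ 0 := by rintro rfl; simp at hM; exact hT hM.symm
    refine ⟨1, zero_le_one, Rho_one hMz (ne_zero_of_dvd_ne_zero hMz hG) _
      (fun _ _ => hK _ _) (fun _ _ => hK1 _ _), ?_⟩
    rw [Real.one_rpow, mul_one]
    exact FF_le_one hδ0 hc hX Ma h h')
  rwa [mul_one] at this

/-! ## divisor language -/

/-- natural density of `K` in the model `(Mz, H)`: `b = H/l * λ`, `l = H / gcd(b,H)` counted in a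
dyadic range, `λ` natural. -/
def RhoB (Mz H : ℕ) (K : ℕ → ℕ → ℝ) (ρ : ℝ) : Prop :=
  ∀ i j : ℕ, ∑ b ∈ Mz.divisors.filter (fun b => Nat.log 2 (H / Nat.gcd H b) = i),
    ∑ c ∈ Mz.divisors.filter (fun c => Nat.log 2 (H / Nat.gcd H c) = j),
      (if lvl Mz H b c then ((Nat.gcd H b : ℝ) * nu Mz b) * ((Nat.gcd H c : ℝ) * nu Mz c) * K b c
        else 0) ≤ ρ * 2 ^ i * 2 ^ j

/-- reindexing `q ↔ M/q` -/
lemma sum_flip {M : ℕ} (F : ℕ → ℝ) : ∑ q ∈ M.divisors, F q = ∑ b ∈ M.divisors, F (M / b) :=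
  (Nat.sum_div_divisors M F).symm

lemma sum_flip_filter {M : ℕ} (P : ℕ → Prop) (F : ℕ → ℝ) :
    ∑ q ∈ M.divisors.filter P, F q = ∑ b ∈ M.divisors.filter (fun b => P (M / b)), F (M / b) := by
  rw [Finset.sum_filter, Finset.sum_filter, sum_flip]

lemma fact_div {M q : ℕ} (hM : M ≠ 0) (hq : q ∣ M) (r : ℕ) :
    (M / q).factorization r = M.factorization r - q.factorization r := by
  rw [Nat.factorization_div hq]; rfl

lemma fact_le {M q : ℕ} (hM : M ≠ 0) (hq : q ∣ M) (r : ℕ) :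
    q.factorization r ≤ M.factorization r :=
  (Nat.factorization_le_iff_dvd (ne_zero_of_dvd_ne_zero hM hq) hM).2 hq r

lemma lvl_flip {M G q q' : ℕ} (hM : M ≠ 0) (hG : G ∣ M) (hq : q ∣ M) (hq' : q' ∣ M) :
    lvl M (M / G) (M / q) (M / q') ↔ lvl M G q q' := by
  unfold lvl
  refine forall_congr' fun r => forall_congr' fun hr => ?_
  rw [fact_div hM hG, fact_div hM hq, fact_div hM hq']
  have h1 := fact_le hM hG r
  have h2 := fact_le hM hq r
  have h3 := fact_le hM hq' r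
  omega

lemma FF_flip {δ : ℝ} {g : ℕ → ℝ} {Ma h h' : ℕ} (hMa : Ma ≠ 0) (hh : h ∣ Ma) (hh' : h' ∣ Ma) :
    FF δ g Ma (Ma / h) (Ma / h') = FF δ g Ma h h' := by
  unfold FF
  refine Finset.prod_congr rfl fun r _ => ?_
  rw [fact_div hMa hh, fact_div hMa hh']
  have h1 := fact_le hMa hh r
  have h2 := fact_le hMa hh' r
  have e : dst (Ma.factorization r - h.factorization r) (Ma.factorization r - h'.factorization r) =
      dst (h.factorization r) (h'.factorization r) := by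
    unfold dst; omega
  rw [e]
  have e2 : (Ma.factorization r - h.factorization r = Ma.factorization r - h'.factorization r) ↔
      (h.factorization r = h'.factorization r) := by omega
  simp only [e2]

lemma Rho_of_RhoB {Mz G : ℕ} (hMz : Mz ≠ 0) (hG : G ∣ Mz) {K : ℕ → ℕ → ℝ} {ρ : ℝ}
    (h : RhoB Mz (Mz / G) K ρ) : Rho Mz G (fun u v => K (Mz / u) (Mz / v)) ρ := by
  intro a b
  refine le_trans (le_of_eq ?_) (h a b)
  have hG0 : 0 < Mz := Nat.pos_of_ne_zero hMz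
  have key : ∀ q, q ∣ Mz → (Mz / G) / Nat.gcd (Mz / G) (Mz / q) = up G q := by
    intro q hq
    rw [cof_div hG0 hG hq, Nat.gcd_comm]; rfl
  have key2 : ∀ q, q ∣ Mz → nw G q = (Nat.gcd (Mz / G) (Mz / q) : ℝ) * nu Mz (Mz / q) := by
    intro q hq
    unfold nw
    have hl : Nat.lcm q G ∣ Mz := Nat.lcm_dvd hq hG
    have hq0 : q ≠ 0 := ne_zero_of_dvd_ne_zero hMz hq
    have hg0 : G ≠ 0 := ne_zero_of_dvd_ne_zero hMz hG
    have hl0 : (Nat.lcm q G : ℝ) ≠ 0 := by exact_mod_cast Nat.lcm_ne_zero hq0 hg0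
    have hM0 : (Mz : ℝ) ≠ 0 := by exact_mod_cast hMz
    rw [mass_div hG0 hq, gcd_div_div hG0 hG hq, Nat.lcm_comm G q, Nat.cast_div hl hl0]
    field_simp
  symm
  rw [Finset.sum_filter, sum_flip, Finset.sum_filter]
  refine Finset.sum_congr rfl fun q hq => ?_
  have hqd := Nat.dvd_of_mem_divisors hq
  have e1 : (Nat.log 2 (Mz / G / Nat.gcd (Mz / G) (Mz / q)) = a) ↔ la G q = a := by
    rw [key q hqd]; rfl
  simp only [e1]
  by_cases h1 : la G q = a
  · rw [if_pos h1, if_pos h1]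
    rw [Finset.sum_filter, sum_flip, Finset.sum_filter]
    refine Finset.sum_congr rfl fun q' hq' => ?_
    have hqd' := Nat.dvd_of_mem_divisors hq'
    have e2 : (Nat.log 2 (Mz / G / Nat.gcd (Mz / G) (Mz / q')) = b) ↔ la G q' = b := by
      rw [key q' hqd']; rfl
    simp only [e2, lvl_flip hMz hG hqd hqd']
    by_cases h2 : la G q' = b
    · rw [if_pos h2, if_pos h2, key2 q hqd, key2 q' hqd']
    · rw [if_neg h2, if_neg h2]
  · rw [if_neg h1, if_neg h1]

/-- **THEOREM (R), divisor language, arbitrary `M`** -/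
theorem thmR_b {κ δ : ℝ} (hκ : 1 / 2 < κ) (hκ1 : κ < 1) (hδ0 : 0 < δ)
    (hδ : δ * (2 * κ) < (1 - κ) * (2 * κ - 1)) :
    ∃ (c C : ℝ) (p0 : ℕ), 0 < c ∧ 0 < C ∧ (∀ p : ℕ, p0 ≤ p → c * X1 κ δ p ≤ 1 / 2) ∧
      ∀ (M : ℕ) (X V0 : ℝ) (f f' : ℕ → ℝ) (K : ℕ → ℕ → ℝ), M ≠ 0 → 0 < X → 0 ≤ V0 →
      (∀ x, 0 ≤ f x) → (∀ x, f x ≤ 1) → (∀ x, 0 ≤ f' x) → (∀ x, f' x ≤ 1) →
      (∀ x y, 0 ≤ K x y) → (∀ x y, K x y ≤ 1) →
      (∀ Ma Mz H h h' : ℕ, Ma * Mz = M → Nat.Coprime Ma Mz → h ∣ Ma → h' ∣ Ma → H ∣ Mz →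
        ∃ ρ : ℝ, 0 ≤ ρ ∧ RhoB Mz H (fun u v => K (h * u) (h' * v)) ρ ∧
          FF δ (gg κ δ c p0) Ma h h' * ρ ^ (1 - κ) ≤ V0) →
      ∑ b ∈ M.divisors, ∑ c' ∈ M.divisors,
        (if X < (Nat.gcd b c' : ℝ) ∧ (Nat.gcd b c' : ℝ) ≤ 2 * X then
          (Nat.gcd b c' : ℝ) * nu M b * nu M c' * (f b * f' c' * K b c')
        else 0) ≤ C * X ^ (2 * κ - 1) * V0 *
          ((∑ b ∈ M.divisors, nu M b * f b) ^ κ * (∑ b ∈ M.divisors, nu M b * f' b) ^ κ) := by
  obtain ⟨c, C, p0, hc, hC, hX, hR⟩ := thmR hκ hκ1 hδ0 hδ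
  refine ⟨c, C * 2 ^ (2 * κ - 1), p0, hc, by positivity, hX, ?_⟩
  intro M X V0 f f' K hM hX0 hV0 hf hf1 hf' hf1' hK hK1 hleaf
  have hMp : 0 < M := Nat.pos_of_ne_zero hM
  have hMr : (0:ℝ) < M := by exact_mod_cast hMp
  have hN : 0 < (M:ℝ) / (2 * X) := by positivity
  have h := hR M ((M:ℝ) / (2 * X)) V0 (fun q => f (M / q)) (fun q => f' (M / q))
    (fun q q' => K (M / q) (M / q')) hM hN hV0 (fun _ => hf _) (fun _ => hf1 _) (fun _ => hf' _)
    (fun _ => hf1' _) (fun _ _ => hK _ _) (fun _ _ => hK1 _ _) (by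
      intro Ma Mz G h h' hMM hcop hh hh' hG
      have hMz : Mz ≠ 0 := by rintro rfl; simp at hMM; exact hM hMM.symm
      have hMa : Ma ≠ 0 := by rintro rfl; simp at hMM; exact hM hMM.symm
      obtain ⟨ρ, h1, h2, h3⟩ := hleaf Ma Mz (Mz / G) (Ma / h) (Ma / h') hMM hcop
        (Nat.div_dvd_of_dvd hh) (Nat.div_dvd_of_dvd hh') (Nat.div_dvd_of_dvd hG)
      refine ⟨ρ, h1, ?_, ?_⟩
      · have h4 := Rho_of_RhoB hMz hG h2
        intro a b
        refine le_trans (le_of_eq ?_) (h4 a b)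
        refine Finset.sum_congr rfl fun q hq => Finset.sum_congr rfl fun q' hq' => ?_
        have hqd := Nat.dvd_of_mem_divisors (Finset.mem_filter.1 hq).1
        have hqd' := Nat.dvd_of_mem_divisors (Finset.mem_filter.1 hq').1
        have e1 : M / (h * q) = Ma / h * (Mz / q) := by
          rw [← hMM, Nat.mul_div_mul_comm hh hqd]
        have e2 : M / (h' * q') = Ma / h' * (Mz / q') := by
          rw [← hMM, Nat.mul_div_mul_comm hh' hqd']
        simp only [e1, e2]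
      · rwa [FF_flip hMa hh hh'] at h3)
  -- the two sides
  have hmu : ∀ F : ℕ → ℝ, mu M (fun q => F (M / q)) = M * ∑ b ∈ M.divisors, nu M b * F b := by
    intro F
    unfold mu
    rw [sum_flip, Finset.mul_sum]
    refine Finset.sum_congr rfl fun b hb => ?_
    have hbd := Nat.dvd_of_mem_divisors hb
    simp only
    rw [Nat.div_div_self hbd hM]
    unfold nu
    field_simp
  rw [hmu f, hmu f'] at h
  have hlhs : ∑ q ∈ M.divisors, ∑ q' ∈ M.divisors,
        (if (M:ℝ) / (2 * X) ≤ (Nat.lcm q q' : ℝ) ∧ (Nat.lcm q q' : ℝ) < 2 * ((M:ℝ) / (2 * X)) then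
          ((Nat.totient q : ℝ) * Nat.totient q' / (Nat.lcm q q' : ℝ)) *
            (f (M / q) * f' (M / q') * K (M / q) (M / q'))
        else 0) = M * ∑ b ∈ M.divisors, ∑ c' ∈ M.divisors,
        (if X < (Nat.gcd b c' : ℝ) ∧ (Nat.gcd b c' : ℝ) ≤ 2 * X then
          (Nat.gcd b c' : ℝ) * nu M b * nu M c' * (f b * f' c' * K b c')
        else 0) := by
    symm
    rw [sum_flip, Finset.mul_sum]
    refine Finset.sum_congr rfl fun q hq => ?_
    rw [sum_flip, Finset.mul_sum]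
    refine Finset.sum_congr rfl fun q' hq' => ?_
    have hqd := Nat.dvd_of_mem_divisors hq
    have hqd' := Nat.dvd_of_mem_divisors hq'
    have hl : Nat.lcm q q' ∣ M := Nat.lcm_dvd hqd hqd'
    have hl0 : (0:ℝ) < (Nat.lcm q q' : ℝ) := by
      exact_mod_cast Nat.pos_of_dvd_of_pos hl hMp
    have hg : (Nat.gcd (M / q) (M / q') : ℝ) = M / (Nat.lcm q q' : ℝ) := by
      rw [gcd_div_div hMp hqd hqd', Nat.cast_div hl hl0.ne']
    have hiff : (X < (Nat.gcd (M / q) (M / q') : ℝ) ∧ (Nat.gcd (M / q) (M / q') : ℝ) ≤ 2 * X) ↔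
        ((M:ℝ) / (2 * X) ≤ (Nat.lcm q q' : ℝ) ∧ (Nat.lcm q q' : ℝ) < 2 * ((M:ℝ) / (2 * X))) := by
      rw [hg, lt_div_iff₀ hl0, div_le_iff₀ hl0, div_le_iff₀ (by positivity : (0:ℝ) < 2 * X),
        mul_div_assoc', lt_div_iff₀ (by positivity : (0:ℝ) < 2 * X)]
      constructor
      · rintro ⟨h1, h2⟩; constructor <;> nlinarith
      · rintro ⟨h1, h2⟩; constructor <;> nlinarith
    have hw := weight_div hMp hqd hqd'
    by_cases hc : X < (Nat.gcd (M / q) (M / q') : ℝ) ∧ (Nat.gcd (M / q) (M / q') : ℝ) ≤ 2 * X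
    · rw [if_pos hc, if_pos (hiff.1 hc), hw]
      ring
    · rw [if_neg hc, if_neg (fun h => hc (hiff.2 h)), mul_zero]
  rw [hlhs] at h
  set S := ∑ b ∈ M.divisors, ∑ c' ∈ M.divisors,
        (if X < (Nat.gcd b c' : ℝ) ∧ (Nat.gcd b c' : ℝ) ≤ 2 * X then
          (Nat.gcd b c' : ℝ) * nu M b * nu M c' * (f b * f' c' * K b c')
        else 0) with hS
  set A := ∑ b ∈ M.divisors, nu M b * f b with hA
  set B := ∑ b ∈ M.divisors, nu M b * f' b with hB
  have hA0 : 0 ≤ A := Finset.sum_nonneg fun b _ => mul_nonneg (nu_nonneg _ _) (hf b)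
  have hB0 : 0 ≤ B := Finset.sum_nonneg fun b _ => mul_nonneg (nu_nonneg _ _) (hf' b)
  rw [Real.mul_rpow hMr.le hA0, Real.mul_rpow hMr.le hB0] at h
  have e : C * ((M:ℝ) / (2 * X)) ^ (-(2 * κ - 1)) * V0 * ((M:ℝ) ^ κ * A ^ κ * ((M:ℝ) ^ κ * B ^ κ)) =
      M * (C * 2 ^ (2 * κ - 1) * X ^ (2 * κ - 1) * V0 * (A ^ κ * B ^ κ)) := by
    have e1 : ((M:ℝ) / (2 * X)) ^ (-(2 * κ - 1)) = (M:ℝ) ^ (-(2 * κ - 1)) *
        (2 ^ (2 * κ - 1) * X ^ (2 * κ - 1)) := by
      rw [Real.div_rpow hMr.le (by positivity), Real.rpow_neg (by positivity : (0:ℝ) ≤ 2 * X),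
        div_inv_eq_mul, Real.mul_rpow (by norm_num) hX0.le]
    have e2 : (M:ℝ) ^ (-(2 * κ - 1)) * ((M:ℝ) ^ κ * (M:ℝ) ^ κ) = M := by
      rw [← Real.rpow_add hMr, ← Real.rpow_add hMr]
      rw [show -(2 * κ - 1) + (κ + κ) = 1 by ring, Real.rpow_one]
    rw [e1]
    calc _ = ((M:ℝ) ^ (-(2 * κ - 1)) * ((M:ℝ) ^ κ * (M:ℝ) ^ κ)) *
          (C * 2 ^ (2 * κ - 1) * X ^ (2 * κ - 1) * V0 * (A ^ κ * B ^ κ)) := by ring
      _ = _ := by rw [e2]
  rw [e] at h
  exact le_of_mul_le_mul_left h hMr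

lemma RhoB_one {Mz H : ℕ} (hMz : Mz ≠ 0) (hH : H ∣ Mz) (K : ℕ → ℕ → ℝ)
    (hK : ∀ x y, 0 ≤ K x y) (hK1 : ∀ x y, K x y ≤ 1) : RhoB Mz H K 1 := by
  -- transport back
  have hMp : 0 < Mz := Nat.pos_of_ne_zero hMz
  have hG : Mz / H ∣ Mz := Nat.div_dvd_of_dvd hH
  have h1 := Rho_one (G := Mz / H) hMz (ne_zero_of_dvd_ne_zero hMz hG)
    (fun u v => K (Mz / u) (Mz / v)) (fun _ _ => hK _ _) (fun _ _ => hK1 _ _)
  intro a b
  refine le_trans (le_of_eq ?_) (h1 a b)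
  have hHH : Mz / (Mz / H) = H := Nat.div_div_self hH hMz
  have key : ∀ q, q ∣ Mz → H / Nat.gcd H (Mz / q) = up (Mz / H) q := by
    intro q hq
    have := cof_div hMp hG hq
    rw [hHH] at this
    rw [this, Nat.gcd_comm]; rfl
  have key2 : ∀ q, q ∣ Mz → nw (Mz / H) q = (Nat.gcd H (Mz / q) : ℝ) * nu Mz (Mz / q) := by
    intro q hq
    unfold nw
    have hl : Nat.lcm q (Mz / H) ∣ Mz := Nat.lcm_dvd hq hG
    have hq0 : q ≠ 0 := ne_zero_of_dvd_ne_zero hMz hq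
    have hg0 : Mz / H ≠ 0 := ne_zero_of_dvd_ne_zero hMz hG
    have hl0 : (Nat.lcm q (Mz / H) : ℝ) ≠ 0 := by exact_mod_cast Nat.lcm_ne_zero hq0 hg0
    have hM0 : (Mz : ℝ) ≠ 0 := by exact_mod_cast hMz
    have e := gcd_div_div hMp hG hq
    rw [hHH] at e
    rw [mass_div hMp hq, e, Nat.lcm_comm (Mz / H) q, Nat.cast_div hl hl0]
    field_simp
  rw [Finset.sum_filter, sum_flip, Finset.sum_filter]
  refine Finset.sum_congr rfl fun q hq => ?_
  have hqd := Nat.dvd_of_mem_divisors hq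
  have e1 : (Nat.log 2 (H / Nat.gcd H (Mz / q)) = a) ↔ la (Mz / H) q = a := by
    rw [key q hqd]; rfl
  simp only [e1]
  by_cases h1 : la (Mz / H) q = a
  · rw [if_pos h1, if_pos h1]
    rw [Finset.sum_filter, sum_flip, Finset.sum_filter]
    refine Finset.sum_congr rfl fun q' hq' => ?_
    have hqd' := Nat.dvd_of_mem_divisors hq'
    have e2 : (Nat.log 2 (H / Nat.gcd H (Mz / q')) = b) ↔ la (Mz / H) q' = b := by
      rw [key q' hqd']; rfl
    have e3 : lvl Mz H (Mz / q) (Mz / q') ↔ lvl Mz (Mz / H) q q' := by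
      have := lvl_flip hMz hG hqd hqd'
      rwa [hHH] at this
    simp only [e2, e3]
    by_cases h2 : la (Mz / H) q' = b
    · rw [if_pos h2, if_pos h2, key2 q hqd, key2 q' hqd']
    · rw [if_neg h2, if_neg h2]
  · rw [if_neg h1, if_neg h1]

/-- **exact-gcd HVW at a fixed scale, divisor language, arbitrary `M`** -/
theorem hvw_b {κ : ℝ} (hκ : 1 / 2 < κ) (hκ1 : κ < 1) :
    ∃ C : ℝ, 0 < C ∧ ∀ (M : ℕ) (X : ℝ) (f f' : ℕ → ℝ), M ≠ 0 → 0 < X →
      (∀ x, 0 ≤ f x) → (∀ x, f x ≤ 1) → (∀ x, 0 ≤ f' x) → (∀ x, f' x ≤ 1) →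
      ∑ b ∈ M.divisors, ∑ c ∈ M.divisors,
        (if X ≤ (Nat.gcd b c : ℝ) ∧ (Nat.gcd b c : ℝ) < 2 * X then
          (Nat.gcd b c : ℝ) * nu M b * nu M c * (f b * f' c)
        else 0) ≤ C * X ^ (2 * κ - 1) *
          ((∑ b ∈ M.divisors, nu M b * f b) ^ κ * (∑ b ∈ M.divisors, nu M b * f' b) ^ κ) := by
  obtain ⟨δ, hδ0, hδ⟩ := exists_delta hκ hκ1
  obtain ⟨c, C, p0, hc, hC, hX, h⟩ := thmR_b hκ hκ1 hδ0 hδ
  refine ⟨2 * C, by linarith, ?_⟩
  intro M X f f' hM hX0 hf hf1 hf' hf1'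
  have hgen : ∀ X : ℝ, 0 < X → ∑ b ∈ M.divisors, ∑ c' ∈ M.divisors,
        (if X < (Nat.gcd b c' : ℝ) ∧ (Nat.gcd b c' : ℝ) ≤ 2 * X then
          (Nat.gcd b c' : ℝ) * nu M b * nu M c' * (f b * f' c' * 1)
        else 0) ≤ C * X ^ (2 * κ - 1) * 1 *
          ((∑ b ∈ M.divisors, nu M b * f b) ^ κ * (∑ b ∈ M.divisors, nu M b * f' b) ^ κ) := by
    intro X hX0
    refine h M X 1 f f' (fun _ _ => 1) hM hX0 zero_le_one hf hf1 hf' hf1'
      (fun _ _ => zero_le_one) (fun _ _ => le_rfl) ?_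
    intro Ma Mz H h h' hMM hcop hh hh' hH
    have hMz : Mz ≠ 0 := by rintro rfl; simp at hMM; exact hM hMM.symm
    refine ⟨1, zero_le_one, RhoB_one hMz hH _ (fun _ _ => zero_le_one) (fun _ _ => le_rfl), ?_⟩
    rw [Real.one_rpow, mul_one]
    exact FF_le_one hδ0 hc hX Ma h h'
  have h1 := hgen X hX0
  have h2 := hgen (X / 2) (by linarith)
  have hX2 : (X / 2) ^ (2 * κ - 1) ≤ X ^ (2 * κ - 1) :=
    Real.rpow_le_rpow (by linarith) (by linarith) (by linarith)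
  set A := ∑ b ∈ M.divisors, nu M b * f b with hA
  set B := ∑ b ∈ M.divisors, nu M b * f' b with hB
  have hA0 : 0 ≤ A := Finset.sum_nonneg fun b _ => mul_nonneg (nu_nonneg _ _) (hf b)
  have hB0 : 0 ≤ B := Finset.sum_nonneg fun b _ => mul_nonneg (nu_nonneg _ _) (hf' b)
  have hAB : 0 ≤ A ^ κ * B ^ κ := mul_nonneg (Real.rpow_nonneg hA0 _) (Real.rpow_nonneg hB0 _)
  calc _ ≤ ∑ b ∈ M.divisors, ∑ c' ∈ M.divisors,
        (if X < (Nat.gcd b c' : ℝ) ∧ (Nat.gcd b c' : ℝ) ≤ 2 * X then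
          (Nat.gcd b c' : ℝ) * nu M b * nu M c' * (f b * f' c' * 1) else 0) +
      ∑ b ∈ M.divisors, ∑ c' ∈ M.divisors,
        (if X / 2 < (Nat.gcd b c' : ℝ) ∧ (Nat.gcd b c' : ℝ) ≤ 2 * (X / 2) then
          (Nat.gcd b c' : ℝ) * nu M b * nu M c' * (f b * f' c' * 1) else 0) := by
        rw [← Finset.sum_add_distrib]
        refine Finset.sum_le_sum fun b _ => ?_
        rw [← Finset.sum_add_distrib]
        refine Finset.sum_le_sum fun c' _ => ?_
        have h0 : 0 ≤ (Nat.gcd b c' : ℝ) * nu M b * nu M c' * (f b * f' c' * 1) := by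
          have := nu_nonneg M b; have := nu_nonneg M c'; have := hf b; have := hf' c'
          positivity
        by_cases hx : X ≤ (Nat.gcd b c' : ℝ) ∧ (Nat.gcd b c' : ℝ) < 2 * X
        · have e0 : (Nat.gcd b c' : ℝ) * nu M b * nu M c' * (f b * f' c') =
              (Nat.gcd b c' : ℝ) * nu M b * nu M c' * (f b * f' c' * 1) := by ring
          rw [if_pos hx, e0]
          rcases hx.1.lt_or_eq with h5 | h5
          · rw [if_pos ⟨h5, hx.2.le⟩]
            have : 0 ≤ (if X / 2 < (Nat.gcd b c' : ℝ) ∧ (Nat.gcd b c' : ℝ) ≤ 2 * (X / 2) then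
              (Nat.gcd b c' : ℝ) * nu M b * nu M c' * (f b * f' c' * 1) else 0) := by
              split_ifs
              · exact h0
              · exact le_rfl
            linarith
          · have h6 : X / 2 < (Nat.gcd b c' : ℝ) ∧ (Nat.gcd b c' : ℝ) ≤ 2 * (X / 2) := by
              constructor <;> linarith
            rw [if_pos h6]
            have : 0 ≤ (if X < (Nat.gcd b c' : ℝ) ∧ (Nat.gcd b c' : ℝ) ≤ 2 * X then
              (Nat.gcd b c' : ℝ) * nu M b * nu M c' * (f b * f' c' * 1) else 0) := by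
              split_ifs
              · exact h0
              · exact le_rfl
            linarith
        · rw [if_neg hx]
          have h7 : ∀ P : Prop, [Decidable P] → 0 ≤ (if P then
              (Nat.gcd b c' : ℝ) * nu M b * nu M c' * (f b * f' c' * 1) else 0) := by
            intro P _
            split_ifs
            · exact h0
            · exact le_rfl
          exact add_nonneg (h7 _) (h7 _)
    _ ≤ C * X ^ (2 * κ - 1) * 1 * (A ^ κ * B ^ κ) + C * (X / 2) ^ (2 * κ - 1) * 1 * (A ^ κ * B ^ κ) :=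
        add_le_add h1 h2
    _ ≤ C * X ^ (2 * κ - 1) * 1 * (A ^ κ * B ^ κ) + C * X ^ (2 * κ - 1) * 1 * (A ^ κ * B ^ κ) := by
        gcongr
    _ = _ := by ring

end Crest.Agent.R4C.ThmRx19
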