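import Crest.Agent.R4C.Twist_662
import Crest.Agent.R4C.HVWt_19

/-!
# Row 4: LEMMA TW (big twist), abstract part (helper22)

`BT KK b c` : `b = k * b0` with `k ∈ KK b0` and `gcd b c ∣ b0`, i.e. `b` contains a factor `k` which
is not common with `c` and which is determined, up to few choices, by the rest `b0 = b / k`.

`big_twist` : the energy of such pairs at gcd `~ X` is at most
`C X^{2κ-1} (N / P0)^{1-κ} (ω N' E f)^κ (E f')^κ`
if every `k ∈ KK z` has `φ k ≥ P0`, `k ≤ ω φ k`, `#KK z ≤ N`, and every `b` has at most `N'`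
divisors `k` with `k ∈ KK (b / k)`.  Nothing is asked of the partner `c`.
-/

set_option autoImplicit false

open Finset
open Crest.Agent.R4C.Basex935 Crest.Agent.R4C.Twistx662

namespace Crest.Agent.R4C.BigTwistx22

/-- big twist pairs -/
def BT (KK : ℕ → Finset ℕ) (b c : ℕ) : Prop :=
  ∃ k b0 : ℕ, b = k * b0 ∧ k ∈ KK b0 ∧ Nat.gcd b c ∣ b0

/-- the exact law of the twisted function -/
lemma sum_nu_G_le {M : ℕ} (hM : 0 < M) (KK : ℕ → Finset ℕ) (f : ℕ → ℝ) (hf : ∀ b, 0 ≤ f b)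
    {N' ω : ℝ} (hω0 : 0 ≤ ω)
    (hN' : ∀ b, b ∣ M → ((b.divisors.filter (fun k => k ∈ KK (b / k))).card : ℝ) ≤ N')
    (hω : ∀ z, ∀ k ∈ KK z, (k : ℝ) ≤ ω * k.totient) :
    ∑ z ∈ M.divisors, nu M z * G M KK f z ≤ ω * N' * ∑ b ∈ M.divisors, nu M b * f b := by
  have h1 : ∀ z ∈ M.divisors, nu M z * G M KK f z ≤
      ∑ k ∈ KK z, (if k * z ∣ M then ω * (nu M (k * z) * f (k * z)) else 0) := by
    intro z hz
    unfold G
    rw [Finset.mul_sum]
    refine Finset.sum_le_sum fun k hk => ?_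
    by_cases hd : k * z ∣ M
    · rw [if_pos hd, if_pos hd]
      have hkz : 0 < k * z := Nat.pos_of_dvd_of_pos hd hM
      have hk0 : 0 < k := Nat.pos_of_mul_pos_right hkz
      have hφ : (0 : ℝ) < (k.totient : ℝ) := by exact_mod_cast Nat.totient_pos.2 hk0
      have a1 := nu_le_mul hM hd
      have a2 := hω z k hk
      have a3 := nu_nonneg M (k * z)
      have a4 := hf (k * z)
      rw [← mul_div_assoc, div_le_iff₀ hφ]
      calc nu M z * f (k * z) ≤ ((k : ℝ) * nu M (k * z)) * f (k * z) :=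
            mul_le_mul_of_nonneg_right a1 a4
        _ = (k : ℝ) * (nu M (k * z) * f (k * z)) := by ring
        _ ≤ (ω * k.totient) * (nu M (k * z) * f (k * z)) :=
            mul_le_mul_of_nonneg_right a2 (mul_nonneg a3 a4)
        _ = _ := by ring
    · rw [if_neg hd, if_neg hd, mul_zero]
  refine (Finset.sum_le_sum h1).trans ?_
  rw [sum_swap_dvd hM KK (fun _ b => ω * (nu M b * f b)), Finset.mul_sum]
  refine Finset.sum_le_sum fun b hb => ?_
  rw [Finset.sum_const, nsmul_eq_mul]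
  have h2 := hN' b (Nat.dvd_of_mem_divisors hb)
  have h3 : 0 ≤ ω * (nu M b * f b) := mul_nonneg hω0 (mul_nonneg (nu_nonneg _ _) (hf b))
  calc _ ≤ N' * (ω * (nu M b * f b)) := mul_le_mul_of_nonneg_right h2 h3
    _ = _ := by ring

lemma G_le {M : ℕ} (KK : ℕ → Finset ℕ) (f : ℕ → ℝ) (hf1 : ∀ b, f b ≤ 1)
    {N P0 : ℝ} (hP0 : 0 < P0) {z : ℕ} (hN : ((KK z).card : ℝ) ≤ N)
    (hφ : ∀ k ∈ KK z, P0 ≤ (k.totient : ℝ)) : G M KK f z ≤ N / P0 := by
  unfold G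
  have h1 : ∀ k ∈ KK z, (if k * z ∣ M then f (k * z) / (k.totient : ℝ) else 0) ≤ 1 / P0 := by
    intro k hk
    have h2 := hφ k hk
    split_ifs
    · exact div_le_div₀ zero_le_one (hf1 _) hP0 h2
    · positivity
  refine (Finset.sum_le_sum h1).trans ?_
  rw [Finset.sum_const, nsmul_eq_mul, mul_one_div]
  exact div_le_div_of_nonneg_right hN hP0.le

lemma G_one {M : ℕ} (f : ℕ → ℝ) {z : ℕ} (hz : z ∣ M) : G M (fun _ => {1}) f z = f z := by
  unfold G
  rw [Finset.sum_singleton, one_mul, if_pos hz]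
  simp

open Classical in
/-- **LEMMA TW (big twist)** -/
theorem big_twist {κ : ℝ} (hκ : 1 / 2 < κ) (hκ1 : κ < 1) : ∃ C : ℝ, 0 < C ∧
    ∀ (M : ℕ) (X N N' P0 ω : ℝ) (KK : ℕ → Finset ℕ) (f f' : ℕ → ℝ), 0 < M → 0 < X →
      (∀ x, 0 ≤ f x) → (∀ x, f x ≤ 1) → (∀ x, 0 ≤ f' x) → (∀ x, f' x ≤ 1) →
      0 < N → 0 < P0 → 0 ≤ ω → 0 ≤ N' →
      (∀ z, z ∣ M → ((KK z).card : ℝ) ≤ N) →
      (∀ z, ∀ k ∈ KK z, P0 ≤ (k.totient : ℝ)) →
      (∀ z, ∀ k ∈ KK z, (k : ℝ) ≤ ω * k.totient) →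
      (∀ b, b ∣ M → ((b.divisors.filter (fun k => k ∈ KK (b / k))).card : ℝ) ≤ N') →
      ∑ b ∈ M.divisors, ∑ c ∈ M.divisors,
        (if X ≤ (Nat.gcd b c : ℝ) ∧ (Nat.gcd b c : ℝ) < 2 * X ∧ BT KK b c then
          (Nat.gcd b c : ℝ) * nu M b * nu M c * (f b * f' c) else 0) ≤
      C * X ^ (2 * κ - 1) * ((N / P0) ^ (1 - κ) * ((ω * N' * ∑ b ∈ M.divisors, nu M b * f b) ^ κ *
          (∑ b ∈ M.divisors, nu M b * f' b) ^ κ)) := by
  obtain ⟨C, hC, hhvw⟩ := Crest.Agent.R4C.ThmRx19.hvw_b hκ hκ1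
  refine ⟨C, hC, ?_⟩
  intro M X N N' P0 ω KK f f' hM hX hf hf1 hf' hf1' hN0 hP0 hω0 hN'0 hN hφ hω hN'
  set gi : ℝ := N / P0 with hg
  have hg0 : 0 < gi := div_pos hN0 hP0
  -- step 1 : untwist
  have hG0 : ∀ z, 0 ≤ G M KK f z := fun z => G_nonneg hf z
  have s1 : ∑ b ∈ M.divisors, ∑ c ∈ M.divisors,
        (if X ≤ (Nat.gcd b c : ℝ) ∧ (Nat.gcd b c : ℝ) < 2 * X ∧ BT KK b c then
          (Nat.gcd b c : ℝ) * nu M b * nu M c * (f b * f' c) else 0) ≤
      ∑ b ∈ M.divisors, ∑ c ∈ M.divisors,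
        (if Tw KK (fun _ => {1}) (fun b c => X ≤ (Nat.gcd b c : ℝ) ∧ (Nat.gcd b c : ℝ) < 2 * X) b c
          then (Nat.gcd b c : ℝ) * nu M b * nu M c * (f b * f' c) else 0) := by
    refine Finset.sum_le_sum fun b hb => Finset.sum_le_sum fun c hc => ?_
    have h0 : 0 ≤ (Nat.gcd b c : ℝ) * nu M b * nu M c * (f b * f' c) := by
      have a1 := nu_nonneg M b
      have a2 := nu_nonneg M c
      have a3 := hf b
      have a4 := hf' c
      positivity
    by_cases h : X ≤ (Nat.gcd b c : ℝ) ∧ (Nat.gcd b c : ℝ) < 2 * X ∧ BT KK b c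
    · rw [if_pos h, if_pos]
      obtain ⟨h1, h2, k, b0, e, hk, hd⟩ := h
      have hgcd : Nat.gcd b0 c = Nat.gcd b c := by
        refine Nat.dvd_antisymm ?_ ?_
        · refine Nat.gcd_dvd_gcd_of_dvd_left _ ?_
          rw [e]; exact dvd_mul_left _ _
        · exact Nat.dvd_gcd hd (Nat.gcd_dvd_right _ _)
      refine ⟨k, 1, b0, c, e, (one_mul c).symm, hk, Finset.mem_singleton_self 1, hgcd.ge, ?_, ?_⟩
      · rw [hgcd]; exact h1
      · rw [hgcd]; exact h2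
    · rw [if_neg h]
      split_ifs
      · exact h0
      · exact le_rfl
  have s2 := twist_sum hM KK (fun _ => {1})
    (fun b c => X ≤ (Nat.gcd b c : ℝ) ∧ (Nat.gcd b c : ℝ) < 2 * X) f f' hf hf'
  -- step 2 : normalise
  set F : ℕ → ℝ := fun z => if z ∣ M then G M KK f z / gi else 0 with hF
  have hF0 : ∀ z, 0 ≤ F z := by
    intro z
    simp only [hF]
    split_ifs
    · exact div_nonneg (hG0 z) hg0.le
    · exact le_rfl
  have hF1 : ∀ z, F z ≤ 1 := by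
    intro z
    simp only [hF]
    split_ifs with hz
    · rw [div_le_one hg0]
      exact G_le KK f hf1 hP0 (hN z hz) (hφ z)
    · exact zero_le_one
  have s3 := hhvw M X F f' hM.ne' hX hF0 hF1 hf' hf1'
  have s4 : ∑ b ∈ M.divisors, ∑ c ∈ M.divisors,
      (if X ≤ (Nat.gcd b c : ℝ) ∧ (Nat.gcd b c : ℝ) < 2 * X then
        (Nat.gcd b c : ℝ) * nu M b * nu M c * (G M KK f b * G M (fun _ => {1}) f' c) else 0) =
      gi * ∑ b ∈ M.divisors, ∑ c ∈ M.divisors,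
        (if X ≤ (Nat.gcd b c : ℝ) ∧ (Nat.gcd b c : ℝ) < 2 * X then
          (Nat.gcd b c : ℝ) * nu M b * nu M c * (F b * f' c) else 0) := by
    rw [Finset.mul_sum]
    refine Finset.sum_congr rfl fun b hb => ?_
    rw [Finset.mul_sum]
    refine Finset.sum_congr rfl fun c hc => ?_
    rw [G_one f' (Nat.dvd_of_mem_divisors hc)]
    split_ifs
    · simp only [hF]
      rw [if_pos (Nat.dvd_of_mem_divisors hb)]
      field_simp
    · rw [mul_zero]
  have hEf' : 0 ≤ ∑ b ∈ M.divisors, nu M b * f' b :=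
    Finset.sum_nonneg fun b _ => mul_nonneg (nu_nonneg _ _) (hf' b)
  have hEf : 0 ≤ ∑ b ∈ M.divisors, nu M b * f b :=
    Finset.sum_nonneg fun b _ => mul_nonneg (nu_nonneg _ _) (hf b)
  have hEF0 : 0 ≤ ∑ b ∈ M.divisors, nu M b * F b :=
    Finset.sum_nonneg fun b _ => mul_nonneg (nu_nonneg _ _) (hF0 b)
  have hEF : ∑ b ∈ M.divisors, nu M b * F b ≤
      (ω * N' * ∑ b ∈ M.divisors, nu M b * f b) / gi := by
    have e : ∑ b ∈ M.divisors, nu M b * F b = (∑ b ∈ M.divisors, nu M b * G M KK f b) / gi := by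
      rw [Finset.sum_div]
      refine Finset.sum_congr rfl fun b hb => ?_
      simp only [hF]
      rw [if_pos (Nat.dvd_of_mem_divisors hb), mul_div_assoc]
    rw [e]
    exact div_le_div_of_nonneg_right (sum_nu_G_le hM KK f hf hω0 hN' hω) hg0.le
  have hκ0 : 0 ≤ κ := by linarith
  refine s1.trans (s2.trans ?_)
  refine (le_of_eq ?_ : _ ≤ gi * ∑ b ∈ M.divisors, ∑ c ∈ M.divisors,
        (if X ≤ (Nat.gcd b c : ℝ) ∧ (Nat.gcd b c : ℝ) < 2 * X then
          (Nat.gcd b c : ℝ) * nu M b * nu M c * (F b * f' c) else 0)).trans ?_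
  · rw [← s4]
    refine Finset.sum_congr rfl fun b _ => Finset.sum_congr rfl fun c _ => ?_
    by_cases h : X ≤ (Nat.gcd b c : ℝ) ∧ (Nat.gcd b c : ℝ) < 2 * X
    · rw [if_pos h, if_pos h]
    · rw [if_neg h, if_neg h]
  refine (mul_le_mul_of_nonneg_left s3 hg0.le).trans ?_
  have h5 : (∑ b ∈ M.divisors, nu M b * F b) ^ κ ≤
      (ω * N' * ∑ b ∈ M.divisors, nu M b * f b) ^ κ / gi ^ κ := by
    rw [← Real.div_rpow (mul_nonneg (mul_nonneg hω0 hN'0) hEf) hg0.le]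
    exact Real.rpow_le_rpow hEF0 hEF hκ0
  have h6 : gi / gi ^ κ = gi ^ (1 - κ) := by
    rw [Real.rpow_sub hg0, Real.rpow_one]
  have hXp : 0 ≤ C * X ^ (2 * κ - 1) := by positivity
  have hB0 : 0 ≤ (∑ b ∈ M.divisors, nu M b * f' b) ^ κ := Real.rpow_nonneg hEf' _
  calc gi * (C * X ^ (2 * κ - 1) * ((∑ b ∈ M.divisors, nu M b * F b) ^ κ *
        (∑ b ∈ M.divisors, nu M b * f' b) ^ κ))
      ≤ gi * (C * X ^ (2 * κ - 1) * (((ω * N' * ∑ b ∈ M.divisors, nu M b * f b) ^ κ / gi ^ κ) *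
        (∑ b ∈ M.divisors, nu M b * f' b) ^ κ)) := by
        refine mul_le_mul_of_nonneg_left ?_ hg0.le
        exact mul_le_mul_of_nonneg_left (mul_le_mul_of_nonneg_right h5 hB0) hXp
    _ = C * X ^ (2 * κ - 1) * ((gi / gi ^ κ) * ((ω * N' * ∑ b ∈ M.divisors, nu M b * f b) ^ κ *
        (∑ b ∈ M.divisors, nu M b * f' b) ^ κ)) := by ring
    _ = _ := by rw [h6]

end Crest.Agent.R4C.BigTwistx22
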