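import Mathlib
import Crest.Agent.R4C.HVWt_19
import Crest.Agent.Lib.Mertens

/-!
# Row 4: boosted THEOREM (R) (leaf 454, helper398)

Pair weight multiplied by `bst S M b c = ∏_{p ∈ S, v_p b = v_p c < v_p M} (1 - 1/p)⁻¹`.

The loss `∏ (1-1/p)⁻¹` is the true one for arbitrary `f` (take `f = f' = 1`, `K = 1`, `gcd = 1`,
`M` squarefree: the boosted energy is `∏ (1 + w - 2 w²)`), so the version with
`∏ (1-1/p)^(-(2κ-1))` holds only at primes where both members are forced.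
-/

set_option autoImplicit false
set_option linter.unusedVariables false

namespace Crest.Agent.R4C.BoostRx398

open Finset Real Crest.Agent.R4C.OnePx19 Crest.Agent.R4C.Basex935 Crest.Agent.R4C.ThmRx19
open scoped Classical

/-- one factor -/
noncomputable def tf (p : ℕ) : ℝ := (1 - 1 / (p : ℝ))⁻¹

/-- the boost of a pair at the primes of `S` -/
noncomputable def bst (S : Finset ℕ) (M b c : ℕ) : ℝ :=
  ∏ p ∈ S, if b.factorization p = c.factorization p ∧ b.factorization p < M.factorization p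
    then tf p else 1

/-- the full boost -/
noncomputable def Bst (S : Finset ℕ) : ℝ := ∏ p ∈ S, tf p

lemma one_le_tf {p : ℕ} (hp : p.Prime) : 1 ≤ tf p := by
  have h2 : (2 : ℝ) ≤ p := by exact_mod_cast hp.two_le
  have h3 : 1 / (p : ℝ) ≤ 1 / 2 := one_div_le_one_div_of_le (by norm_num) h2
  have h4 : 0 ≤ 1 / (p : ℝ) := by positivity
  unfold tf
  exact one_le_inv_iff₀.2 ⟨by linarith, by linarith⟩

lemma one_le_bst {S : Finset ℕ} (hS : ∀ p ∈ S, p.Prime) (M b c : ℕ) : 1 ≤ bst S M b c := by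
  unfold bst
  refine Finset.prod_induction _ (fun x : ℝ => 1 ≤ x) (fun a b ha hb => one_le_mul_of_one_le_of_one_le ha hb) le_rfl ?_
  intro p hp
  split_ifs
  · exact one_le_tf (hS p hp)
  · exact le_rfl

lemma bst_le {S : Finset ℕ} (hS : ∀ p ∈ S, p.Prime) (M b c : ℕ) : bst S M b c ≤ Bst S := by
  unfold bst Bst
  refine Finset.prod_le_prod (fun p hp => ?_) (fun p hp => ?_)
  · have := one_le_tf (hS p hp)
    split_ifs <;> linarith
  · have := one_le_tf (hS p hp)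
    split_ifs
    · exact le_rfl
    · exact this

lemma one_le_Bst {S : Finset ℕ} (hS : ∀ p ∈ S, p.Prime) : 1 ≤ Bst S := by
  unfold Bst
  exact Finset.prod_induction _ (fun x : ℝ => 1 ≤ x)
    (fun a b ha hb => one_le_mul_of_one_le_of_one_le ha hb) le_rfl (fun p hp => one_le_tf (hS p hp))

lemma Bst_mono {S T : Finset ℕ} (hT : ∀ p ∈ T, p.Prime) (h : S ⊆ T) : Bst S ≤ Bst T := by
  have h1 : Bst (T \ S) * Bst S = Bst T := Finset.prod_sdiff h
  have h2 : 1 ≤ Bst (T \ S) := one_le_Bst fun p hp => hT p (Finset.mem_sdiff.1 hp).1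
  have h3 : 1 ≤ Bst S := one_le_Bst fun p hp => hT p (h hp)
  nlinarith

/-- Mertens: the full boost at primes `≤ x` is `≤ C log x`. -/
lemma Bst_le {x : ℝ} (hx : 2 ≤ x) {S : Finset ℕ} (hS : ∀ p ∈ S, p.Prime ∧ (p : ℝ) ≤ x) :
    Bst S ≤ 2 * Real.exp (22 / Real.log 2) / Real.log 2 * Real.log x := by
  have h1 := (Crest.Agent.Lib.Mertens.mertens_three 2 x le_rfl hx).1
  have hl2 : 0 < Real.log 2 := Real.log_pos (by norm_num)
  have hlx : 0 < Real.log x := Real.log_pos (by linarith)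
  have hpr : ∀ p ∈ Crest.Agent.Lib.Mertens.pr 2 x, p.Prime := fun p hp =>
    ((Crest.Agent.Lib.Mertens.mem_pr (by norm_num) (by linarith)).1 hp).2
  have hsub : S ⊆ insert 2 (Crest.Agent.Lib.Mertens.pr 2 x) := by
    intro p hp
    obtain ⟨hpp, hpx⟩ := hS p hp
    rcases hpp.two_le.lt_or_eq with h | h
    · rw [Finset.mem_insert]
      right
      rw [Crest.Agent.Lib.Mertens.mem_pr (by norm_num) (by linarith)]
      exact ⟨⟨by exact_mod_cast h, hpx⟩, hpp⟩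
    · rw [← h]; exact Finset.mem_insert_self _ _
  have hins : ∀ p ∈ insert 2 (Crest.Agent.Lib.Mertens.pr 2 x), p.Prime := by
    intro p hp
    rcases Finset.mem_insert.1 hp with h | h
    · rw [h]; exact Nat.prime_two
    · exact hpr p h
  refine (Bst_mono hins hsub).trans ?_
  have h2n : 2 ∉ Crest.Agent.Lib.Mertens.pr 2 x := by
    intro h
    have := ((Crest.Agent.Lib.Mertens.mem_pr (by norm_num) (by linarith)).1 h).1.1
    norm_num at this
  have e1 : Bst (insert 2 (Crest.Agent.Lib.Mertens.pr 2 x)) =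
      tf 2 * Bst (Crest.Agent.Lib.Mertens.pr 2 x) := Finset.prod_insert h2n
  have e2 : tf 2 = 2 := by unfold tf; norm_num
  have e3 : Bst (Crest.Agent.Lib.Mertens.pr 2 x) =
      (∏ p ∈ Crest.Agent.Lib.Mertens.pr 2 x, (1 - 1 / (p : ℝ)))⁻¹ := by
    unfold Bst tf
    exact Finset.prod_inv_distrib _
  rw [e1, e2, e3]
  have h4 : 0 < Real.exp (-(22 / Real.log 2)) * (Real.log 2 / Real.log x) := by positivity
  have h5 := inv_anti₀ h4 h1
  have e4 : (Real.exp (-(22 / Real.log 2)) * (Real.log 2 / Real.log x))⁻¹ =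
      Real.exp (22 / Real.log 2) / Real.log 2 * Real.log x := by
    rw [Real.exp_neg]
    field_simp
  rw [e4] at h5
  calc 2 * (∏ p ∈ Crest.Agent.Lib.Mertens.pr 2 x, (1 - 1 / (p : ℝ)))⁻¹
      ≤ 2 * (Real.exp (22 / Real.log 2) / Real.log 2 * Real.log x) := by linarith
    _ = _ := by ring

/-- **boosted THEOREM (R)**, divisor language: loss `∏_{p ∈ S} (1-1/p)⁻¹`. -/
theorem thmR_boost {κ δ : ℝ} (hκ : 1 / 2 < κ) (hκ1 : κ < 1) (hδ0 : 0 < δ)
    (hδ : δ * (2 * κ) < (1 - κ) * (2 * κ - 1)) :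
    ∃ (c C : ℝ) (p0 : ℕ), 0 < c ∧ 0 < C ∧ (∀ p : ℕ, p0 ≤ p → c * X1 κ δ p ≤ 1 / 2) ∧
      ∀ (M : ℕ) (X V0 : ℝ) (f f' : ℕ → ℝ) (K : ℕ → ℕ → ℝ), M ≠ 0 → 0 < X → 0 ≤ V0 →
      (∀ x, 0 ≤ f x) → (∀ x, f x ≤ 1) → (∀ x, 0 ≤ f' x) → (∀ x, f' x ≤ 1) →
      (∀ x y, 0 ≤ K x y) → (∀ x y, K x y ≤ 1) →
      (∀ Ma Mz H h h' : ℕ, Ma * Mz = M → Nat.Coprime Ma Mz → h ∣ Ma → h' ∣ Ma → H ∣ Mz →
        ∃ ρ : ℝ, 0 ≤ ρ ∧ RhoB Mz H (fun u v => K (h * u) (h' * v)) ρ ∧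
          FF δ (gg κ δ c p0) Ma h h' * ρ ^ (1 - κ) ≤ V0) →
      ∀ S : Finset ℕ, (∀ p ∈ S, p.Prime) →
      ∑ b ∈ M.divisors, ∑ c' ∈ M.divisors,
        (if X < (Nat.gcd b c' : ℝ) ∧ (Nat.gcd b c' : ℝ) ≤ 2 * X then
          (Nat.gcd b c' : ℝ) * nu M b * nu M c' * bst S M b c' * (f b * f' c' * K b c')
        else 0) ≤ Bst S * (C * X ^ (2 * κ - 1) * V0 *
          ((∑ b ∈ M.divisors, nu M b * f b) ^ κ * (∑ b ∈ M.divisors, nu M b * f' b) ^ κ)) := by
  obtain ⟨c, C, p0, hc, hC, hX, hR⟩ := thmR_b hκ hκ1 hδ0 hδ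
  refine ⟨c, C, p0, hc, hC, hX, ?_⟩
  intro M X V0 f f' K hM hX0 hV0 hf hf1 hf' hf1' hK hK1 hleaf S hS
  have h := hR M X V0 f f' K hM hX0 hV0 hf hf1 hf' hf1' hK hK1 hleaf
  have hB : 0 ≤ Bst S := zero_le_one.trans (one_le_Bst hS)
  refine le_trans ?_ (mul_le_mul_of_nonneg_left h hB)
  rw [Finset.mul_sum]
  refine Finset.sum_le_sum fun b hb => ?_
  rw [Finset.mul_sum]
  refine Finset.sum_le_sum fun c' hc' => ?_
  have h1 := bst_le hS M b c'
  have h2 : 0 ≤ (Nat.gcd b c' : ℝ) * nu M b * nu M c' * (f b * f' c' * K b c') := by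
    have := nu_nonneg M b; have := nu_nonneg M c'; have := hf b; have := hf' c'
    have := hK b c'
    positivity
  split_ifs
  · calc (Nat.gcd b c' : ℝ) * nu M b * nu M c' * bst S M b c' * (f b * f' c' * K b c')
        = bst S M b c' * ((Nat.gcd b c' : ℝ) * nu M b * nu M c' * (f b * f' c' * K b c')) := by ring
      _ ≤ _ := mul_le_mul_of_nonneg_right h1 h2
  · simp

/-- **boosted exact-gcd HVW**: loss `∏_{p ∈ S} (1-1/p)⁻¹`. -/
theorem hvw_boost {κ : ℝ} (hκ : 1 / 2 < κ) (hκ1 : κ < 1) :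
    ∃ C : ℝ, 0 < C ∧ ∀ (M : ℕ) (X : ℝ) (f f' : ℕ → ℝ), M ≠ 0 → 0 < X →
      (∀ x, 0 ≤ f x) → (∀ x, f x ≤ 1) → (∀ x, 0 ≤ f' x) → (∀ x, f' x ≤ 1) →
      ∀ S : Finset ℕ, (∀ p ∈ S, p.Prime) →
      ∑ b ∈ M.divisors, ∑ c ∈ M.divisors,
        (if X ≤ (Nat.gcd b c : ℝ) ∧ (Nat.gcd b c : ℝ) < 2 * X then
          (Nat.gcd b c : ℝ) * nu M b * nu M c * bst S M b c * (f b * f' c)
        else 0) ≤ Bst S * (C * X ^ (2 * κ - 1) *
          ((∑ b ∈ M.divisors, nu M b * f b) ^ κ * (∑ b ∈ M.divisors, nu M b * f' b) ^ κ)) := by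
  obtain ⟨C, hC, hR⟩ := hvw_b hκ hκ1
  refine ⟨C, hC, ?_⟩
  intro M X f f' hM hX0 hf hf1 hf' hf1' S hS
  have h := hR M X f f' hM hX0 hf hf1 hf' hf1'
  have hB : 0 ≤ Bst S := zero_le_one.trans (one_le_Bst hS)
  refine le_trans ?_ (mul_le_mul_of_nonneg_left h hB)
  rw [Finset.mul_sum]
  refine Finset.sum_le_sum fun b hb => ?_
  rw [Finset.mul_sum]
  refine Finset.sum_le_sum fun c' hc' => ?_
  have h1 := bst_le hS M b c'
  have h2 : 0 ≤ (Nat.gcd b c' : ℝ) * nu M b * nu M c' * (f b * f' c') := by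
    have := nu_nonneg M b; have := nu_nonneg M c'; have := hf b; have := hf' c'
    positivity
  split_ifs
  · calc (Nat.gcd b c' : ℝ) * nu M b * nu M c' * bst S M b c' * (f b * f' c')
        = bst S M b c' * ((Nat.gcd b c' : ℝ) * nu M b * nu M c' * (f b * f' c')) := by ring
      _ ≤ _ := mul_le_mul_of_nonneg_right h1 h2
  · simp

end Crest.Agent.R4C.BoostRx398
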