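import Crest.Agent.R4C.PureFL_232

/-!
# Row 4: pure part of Theorem C in `L²` form with the boost `B1` (helper232)

`B1 b c = ∏_{p ∣ (b/g)(c/g)} (1 - 1/p)⁻¹`, `g = gcd b c`.
-/

set_option autoImplicit false

open Finset
open Crest.Agent.R4C.Basex935 Crest.Agent.R4C.Cutx50 Crest.Agent.R4C.FLDefx935

namespace Crest.Agent.R4C.PureL2x232

/-- the boost at the differing primes -/
noncomputable def B1 (b c : ℕ) : ℝ :=
  ∏ p ∈ ((b / Nat.gcd b c) * (c / Nat.gcd b c)).primeFactors, (1 - 1/(p:ℝ))⁻¹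

lemma one_sub_inv_pos {p : ℕ} (hp : p.Prime) : (0:ℝ) < 1 - 1/(p:ℝ) := by
  have h2 : (2:ℝ) ≤ p := by exact_mod_cast hp.two_le
  have : 1/(p:ℝ) ≤ 1/2 := one_div_le_one_div_of_le (by norm_num) h2
  linarith

lemma B1_pos (b c : ℕ) : 0 < B1 b c :=
  Finset.prod_pos fun _ hp => inv_pos.2 (one_sub_inv_pos (Nat.prime_of_mem_primeFactors hp))

lemma B1_self {b : ℕ} (hb : 0 < b) : B1 b b = 1 := by
  unfold B1
  rw [Nat.gcd_self, Nat.div_self hb]
  simp

lemma B1_split {p : ℕ} (hp : p.Prime) (v v' : ℕ) {b c : ℕ} (hb0 : 0 < b) (hc0 : 0 < c)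
    (hb : ¬ p ∣ b) (hc : ¬ p ∣ c) :
    B1 (p ^ v * b) (p ^ v' * c) = (if v = v' then 1 else (1 - 1/(p:ℝ))⁻¹) * B1 b c := by
  unfold B1
  rw [gcd_split hp v v' hb hc]
  have hg0 : 0 < Nat.gcd b c := Nat.gcd_pos_of_pos_left _ hb0
  have e1 : p ^ v * b / (p ^ min v v' * Nat.gcd b c) = p ^ (v - min v v') * (b / Nat.gcd b c) := by
    rw [Nat.mul_div_mul_comm (pow_dvd_pow p (min_le_left _ _)) (Nat.gcd_dvd_left _ _),
      Nat.pow_div (min_le_left _ _) hp.pos]
  have e2 : p ^ v' * c / (p ^ min v v' * Nat.gcd b c) =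
      p ^ (v' - min v v') * (c / Nat.gcd b c) := by
    rw [Nat.mul_div_mul_comm (pow_dvd_pow p (min_le_right _ _)) (Nat.gcd_dvd_right _ _),
      Nat.pow_div (min_le_right _ _) hp.pos]
  have e3 : p ^ (v - min v v') * (b / Nat.gcd b c) * (p ^ (v' - min v v') * (c / Nat.gcd b c)) =
      p ^ ((v - min v v') + (v' - min v v')) * ((b / Nat.gcd b c) * (c / Nat.gcd b c)) := by
    rw [pow_add]; ring
  have hbg : b / Nat.gcd b c ≠ 0 :=
    (Nat.div_pos (Nat.le_of_dvd hb0 (Nat.gcd_dvd_left _ _)) hg0).ne'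
  have hcg : c / Nat.gcd b c ≠ 0 :=
    (Nat.div_pos (Nat.le_of_dvd hc0 (Nat.gcd_dvd_right _ _)) hg0).ne'
  rw [e1, e2, e3]
  by_cases h : v = v'
  · subst h
    simp
  · have h1 : (v - min v v') + (v' - min v v') ≠ 0 := by omega
    rw [if_neg h, Nat.primeFactors_mul (pow_ne_zero _ hp.ne_zero) (mul_ne_zero hbg hcg),
      Nat.primeFactors_prime_pow h1 hp]
    have h2 : p ∉ ((b / Nat.gcd b c) * (c / Nat.gcd b c)).primeFactors := by
      intro hmem
      have h3 := Nat.dvd_of_mem_primeFactors hmem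
      rcases (Nat.Prime.dvd_mul hp).1 h3 with h4 | h4
      · exact hb (h4.trans (Nat.div_dvd_of_dvd (Nat.gcd_dvd_left _ _)))
      · exact hc (h4.trans (Nat.div_dvd_of_dvd (Nat.gcd_dvd_right _ _)))
    rw [← Finset.insert_eq, Finset.prod_insert h2]

lemma aux_left {w f0 f1 : ℝ} (hw0 : 0 ≤ w) (hw1 : w ≤ 1/2) (hf0 : 0 ≤ f0) (_hf1 : 0 ≤ f1)
    (hc : f1 ≤ 4 * f0 ∨ 1/8 ≤ w) :
    4 * w^2 * f0 * f1 + 8 * w^3 * f1^2 ≤ 40 * w^2 * ((1 - w) * f0^2 + w * f1^2) := by
  have hw2 : 0 ≤ w^2 := sq_nonneg w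
  have key : 4 * f0 * f1 + 8 * w * f1^2 ≤ 40 * ((1 - w) * f0^2 + w * f1^2) := by
    have hwf : 0 ≤ w * f1^2 := by positivity
    have h1w : 20 * f0^2 ≤ 40 * ((1 - w) * f0^2) := by nlinarith [sq_nonneg f0]
    rcases hc with hc | hc
    · have h1 : 4 * f0 * f1 ≤ 16 * f0^2 := by nlinarith
      nlinarith [sq_nonneg f0]
    · have h2 : 4 * f0 * f1 ≤ 4 * f0^2 + f1^2 := by nlinarith [sq_nonneg (2*f0 - f1)]
      have h3 : f1^2 ≤ 8 * (w * f1^2) := by nlinarith [sq_nonneg f1]
      nlinarith [sq_nonneg f0]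
  have h := mul_le_mul_of_nonneg_left key hw2
  calc 4 * w^2 * f0 * f1 + 8 * w^3 * f1^2 = w^2 * (4 * f0 * f1 + 8 * w * f1^2) := by ring
    _ ≤ w^2 * (40 * ((1 - w) * f0^2 + w * f1^2)) := h
    _ = _ := by ring

lemma aux_right {w V f0 f1 : ℝ} (hw0 : 0 ≤ w) (hw8 : w ≤ 1/8) (hV0 : 0 ≤ V)
    (hV1 : V ≤ 1) (hf0 : 0 ≤ f0) (hf1 : 0 ≤ f1) (hc : 4 * f0 ≤ f1) :
    (4 - 3*V) * (4 * w^2 * f0 * f1) ≤
      w * (1 - w) * (4 * (1 - V) * (f1 - f0)^2 + V * (f1 - 2 * f0)^2) := by
  have s1 : f1^2 / 4 ≤ (f1 - f0)^2 := by nlinarith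
  have s2 : f1^2 / 4 ≤ (f1 - 2 * f0)^2 := by nlinarith
  have a1 := mul_le_mul_of_nonneg_left s1 (by linarith : 0 ≤ 4 * (1 - V))
  have a2 := mul_le_mul_of_nonneg_left s2 hV0
  have s3 : (4 - 3*V) * (f1^2/4) ≤ 4 * (1 - V) * (f1 - f0)^2 + V * (f1 - 2 * f0)^2 := by
    have e : (4 - 3*V) * (f1^2/4) = 4 * (1 - V) * (f1^2/4) + V * (f1^2/4) := by ring
    rw [e]; linarith
  have hww : 0 ≤ w * (1 - w) := mul_nonneg hw0 (by linarith)
  have s4 := mul_le_mul_of_nonneg_left s3 hww
  refine le_trans ?_ s4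
  have h1 : 4 * w^2 * f0 * f1 ≤ w * (1 - w) * (f1^2/4) := by
    have t1 : 4 * w^2 * f0 * f1 ≤ w^2 * f1^2 := by
      have h : 0 ≤ w^2 * f1 := by positivity
      have := mul_le_mul_of_nonneg_left hc h
      calc 4 * w^2 * f0 * f1 = w^2 * f1 * (4 * f0) := by ring
        _ ≤ w^2 * f1 * f1 := this
        _ = _ := by ring
    have t2 : w^2 * f1^2 ≤ w * (1 - w) * (f1^2/4) := by
      have h : 0 ≤ w * f1^2 := by positivity
      have h' : w ≤ (1 - w)/4 := by linarith
      have := mul_le_mul_of_nonneg_left h' h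
      calc w^2 * f1^2 = w * f1^2 * w := by ring
        _ ≤ w * f1^2 * ((1 - w)/4) := this
        _ = _ := by ring
    exact t1.trans t2
  have h2 := mul_le_mul_of_nonneg_left h1 (by linarith : 0 ≤ 4 - 3 * V)
  calc (4 - 3*V) * (4 * w^2 * f0 * f1) ≤ (4 - 3*V) * (w * (1 - w) * (f1^2/4)) := h2
    _ = w * (1 - w) * ((4 - 3*V) * (f1^2/4)) := by ring

lemma aux_sq {w f0 f1 : ℝ} (hw0 : 0 ≤ w) (hw1 : w ≤ 1/2) (hf0 : 0 ≤ f0) (hf1 : 0 ≤ f1) :
    ((1 - w) * f0 + w * f1 / (1 - w))^2 ≤
      ((1 - w) * f0 + w * f1)^2 + (2 * w^2 * f0 * f1 + 8 * w^3 * f1^2) := by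
  have h1w0 : 0 < 1 - w := by linarith
  have ha : w * f1 / (1 - w) = w * f1 + w^2 * f1 / (1 - w) := by field_simp; ring
  have hinv : w^2 * f1 / (1 - w) ≤ 2 * w^2 * f1 := by
    rw [div_le_iff₀ h1w0]
    have : 0 ≤ w^2 * f1 := by positivity
    nlinarith
  have hinv0 : 0 ≤ w^2 * f1 / (1 - w) := by positivity
  have e : ((1 - w) * f0 + w * f1 / (1 - w))^2 = ((1 - w) * f0 + w * f1)^2 +
      (2 * (1 - w) * f0 * (w^2 * f1 / (1 - w)) + 2 * w * f1 * (w^2 * f1 / (1 - w)) +
        (w^2 * f1 / (1 - w))^2) := by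
    rw [ha]; ring
  have e2 : 2 * (1 - w) * f0 * (w^2 * f1 / (1 - w)) = 2 * w^2 * f0 * f1 := by
    field_simp
  rw [e, e2]
  have t1 : 2 * w * f1 * (w^2 * f1 / (1 - w)) ≤ 4 * w^3 * f1^2 := by
    have h : 0 ≤ 2 * w * f1 := by positivity
    have := mul_le_mul_of_nonneg_left hinv h
    calc 2 * w * f1 * (w^2 * f1 / (1 - w)) ≤ 2 * w * f1 * (2 * w^2 * f1) := this
      _ = _ := by ring
  have t2 : (w^2 * f1 / (1 - w))^2 ≤ 4 * w^3 * f1^2 := by
    have h := pow_le_pow_left₀ hinv0 hinv 2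
    have h3 : (2 * w^2 * f1)^2 = 4 * w^3 * f1^2 * w := by ring
    have h4 : 0 ≤ 4 * w^3 * f1^2 := by positivity
    have h5 : 4 * w^3 * f1^2 * w ≤ 4 * w^3 * f1^2 * 1 :=
      mul_le_mul_of_nonneg_left (by linarith) h4
    linarith
  linarith

/-- the boosted one-prime inequality -/
lemma one_prime_B1 {w V f0 f1 : ℝ} (hw0 : 0 ≤ w) (hw1 : w ≤ 1/2) (hV0 : 0 ≤ V)
    (hV1 : V ≤ 1) (hf0 : 0 ≤ f0) (hf1 : 0 ≤ f1) :
    2 * V * w * f0 * f1 + (4 - 3*V) * ((1 - w) * f0 + w * f1 / (1 - w))^2 ≤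
      (1 + 40 * w^2) * ((4 - 3*V) * ((1 - w) * f0^2 + w * f1^2) + 3 * w * (1 - w) * V * f0^2) := by
  have hX : 0 ≤ 4 - 3 * V := by linarith
  have hX1 : V ≤ 4 - 3 * V := by linarith
  set P := 4 * w^2 * f0 * f1 with hP
  set Q := 8 * w^3 * f1^2 with hQ
  set G := 40 * w^2 * ((1 - w) * f0^2 + w * f1^2) with hG
  set S := w * (1 - w) * (4 * (1 - V) * (f1 - f0)^2 + V * (f1 - 2 * f0)^2) with hS
  have h1w : 0 ≤ 1 - w := by linarith
  have hV10 : 0 ≤ 1 - V := by linarith
  have hS0 : 0 ≤ S := by rw [hS]; positivity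
  have hP0 : 0 ≤ P := by rw [hP]; positivity
  have hQG : Q ≤ G := by
    have b1 : 0 ≤ w^3 * f1^2 := by positivity
    have b2 : 0 ≤ w^2 * ((1 - w) * f0^2) := by positivity
    have e : G = 40 * (w^2 * ((1 - w) * f0^2)) + 40 * (w^3 * f1^2) := by rw [hG]; ring
    rw [hQ, e]; nlinarith
  -- the extra terms
  have hextra : (4 - 3*V) * (P + Q) ≤ S + (4 - 3*V) * G := by
    by_cases hc : f1 ≤ 4 * f0 ∨ 1/8 ≤ w
    · have := mul_le_mul_of_nonneg_left (aux_left hw0 hw1 hf0 hf1 hc) hX
      rw [← hP, ← hQ, ← hG] at this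
      linarith
    · push Not at hc
      have h1 := aux_right hw0 hc.2.le hV0 hV1 hf0 hf1 hc.1.le
      rw [← hP, ← hS] at h1
      have h2 := mul_le_mul_of_nonneg_left hQG hX
      rw [mul_add]; linarith
  have hid : (4 - 3*V) * ((1 - w) * f0^2 + w * f1^2) + 3 * w * (1 - w) * V * f0^2
      - (2 * V * w * (1 - w) * f0 * f1 + (4 - 3*V) * ((1 - w) * f0 + w * f1)^2) = S := by
    rw [hS]; ring
  have hB := mul_le_mul_of_nonneg_left (aux_sq hw0 hw1 hf0 hf1) hX
  have hVP : 2 * V * w^2 * f0 * f1 ≤ (4 - 3*V) * (P/2) := by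
    have := mul_le_mul_of_nonneg_right hX1 (by positivity : 0 ≤ P/2)
    calc 2 * V * w^2 * f0 * f1 = V * (P/2) := by rw [hP]; ring
      _ ≤ _ := this
  have hpos : 0 ≤ 40 * w^2 * (3 * w * (1 - w) * V * f0^2) := by positivity
  have e1 : (4 - 3*V) * (((1 - w) * f0 + w * f1)^2 + (2 * w^2 * f0 * f1 + 8 * w^3 * f1^2)) =
      (4 - 3*V) * ((1 - w) * f0 + w * f1)^2 + ((4 - 3*V) * (P/2) + (4 - 3*V) * Q) := by
    rw [hP, hQ]; ring
  have e2 : (4 - 3*V) * (P + Q) = (4 - 3*V) * (P/2) + (4 - 3*V) * (P/2) + (4 - 3*V) * Q := by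
    ring
  have e3 : 2 * V * w * f0 * f1 = 2 * V * w * (1 - w) * f0 * f1 + 2 * V * w^2 * f0 * f1 := by
    ring
  have e4 : (1 + 40 * w^2) * ((4 - 3*V) * ((1 - w) * f0^2 + w * f1^2) +
      3 * w * (1 - w) * V * f0^2) = (4 - 3*V) * ((1 - w) * f0^2 + w * f1^2) +
      3 * w * (1 - w) * V * f0^2 + (4 - 3*V) * G + 40 * w^2 * (3 * w * (1 - w) * V * f0^2) := by
    rw [hG]; ring
  rw [e1] at hB
  rw [e2] at hextra
  rw [e3, e4]
  linarith

/-! ### the induction -/

lemma frm_avgK {M1 : ℕ} (s : Finset ℕ) (w : ℕ → ℝ) (g : ℕ → ℕ → ℝ) (K : ℕ → ℕ → ℝ) :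
    ∑ v ∈ s, ∑ v' ∈ s, w v * w v' * frm M1 (fun b c => K b c * (g v b * g v' c)) =
    frm M1 (fun b c => K b c * ((∑ v ∈ s, w v * g v b) * (∑ v' ∈ s, w v' * g v' c))) := by
  have e : (fun b c => K b c * ((∑ v ∈ s, w v * g v b) * (∑ v' ∈ s, w v' * g v' c)))
      = fun b c => ∑ v ∈ s, (fun b c => ∑ v' ∈ s, (fun b c => (w v * w v') *
        (K b c * (g v b * g v' c))) b c) b c := by
    funext b c
    dsimp only
    rw [Finset.sum_mul_sum, Finset.mul_sum]
    refine Finset.sum_congr rfl fun v _ => ?_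
    rw [Finset.mul_sum]
    refine Finset.sum_congr rfl fun v' _ => by ring
  rw [e]
  rw [frm_sum s (fun v b c => ∑ v' ∈ s, (w v * w v') * (K b c * (g v b * g v' c)))]
  refine Finset.sum_congr rfl fun v _ => ?_
  rw [frm_sum s (fun v' b c => (w v * w v') * (K b c * (g v b * g v' c)))]
  refine Finset.sum_congr rfl fun v' _ => ?_
  rw [frm_smul]

/-- potential of `f` on `Div M1` with parameter `θ` -/
noncomputable def pot (M1 : ℕ) (θ : ℝ) (f : ℕ → ℝ) : ℝ :=
  ∑ b ∈ M1.divisors, nu M1 b * (f b ^ 2 * (4 - 3 * (θ * ((b:ℝ) * nu M1 b))))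

lemma pot_nonneg {M1 : ℕ} {θ : ℝ} (hθ1 : θ ≤ 1) (f : ℕ → ℝ) : 0 ≤ pot M1 θ f := by
  refine Finset.sum_nonneg fun b hb => ?_
  rw [Nat.mem_divisors] at hb
  have h1 := V_le hb.1
  have h0 := V_nonneg M1 b
  exact mul_nonneg (nu_nonneg _ _) (mul_nonneg (sq_nonneg _) (by nlinarith))

/-- the boost of one prime -/
noncomputable def bst (p v v' : ℕ) : ℝ := if v = v' then 1 else (1 - 1/(p:ℝ))⁻¹

lemma bst_pos {p : ℕ} (hp : p.Prime) (v v' : ℕ) : 0 < bst p v v' := by
  unfold bst; split_ifs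
  · norm_num
  · exact inv_pos.2 (one_sub_inv_pos hp)

open Classical in
/-- the one-prime step at a passive prime with boost (free form) -/
lemma free_coreB1 {p : ℕ} (hp : p.Prime) (a : ℕ) {M1 : ℕ} {K : ℕ → ℕ → ℝ}
    (hK : ∀ b c, 0 ≤ K b c) {Γ : ℝ} (hΓ : 1 ≤ Γ)
    (ih : ∀ f : ℕ → ℝ, (∀ b, 0 ≤ f b) →
      frm M1 (fun b c => K b c * (f b * f c)) ≤ Γ * pot M1 1 f)
    (F : ℕ → ℕ → ℝ) (hF : ∀ v b, 0 ≤ F v b) :
    (∑ v ∈ range (a + 1), ∑ v' ∈ range (a + 1), (if min v v' = 0 then
        nup p a v * nup p a v' * bst p v v' * (frm M1 (fun b c => K b c * (F v b * F v' c))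
            + (if v ≠ v' then frm M1 (fun b c =>
              if b = c then F v b * F v' c else 0) else 0)) else 0)) ≤
    Γ * (1 + 40 * (1/(p:ℝ))^2) *
      ∑ v ∈ range (a + 1), nup p a v * pot M1 ((p:ℝ)^v * nup p a v) (F v) := by
  have hnn : ∀ v, 0 ≤ nup p a v := fun v => nup_nonneg hp.pos a v
  have hΓ0 : 0 ≤ Γ := by linarith
  have h40 : 1 ≤ 1 + 40 * (1/(p:ℝ))^2 := by
    have : 0 ≤ (1/(p:ℝ))^2 := sq_nonneg _
    linarith
  rcases Nat.eq_zero_or_pos a with ha | ha
  · subst ha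
    have e1 : nup p 0 0 = 1 := by unfold nup; simp
    simp only [zero_add, Finset.range_one, Finset.sum_singleton, min_self, if_true, ne_eq,
      not_true_eq_false, if_false, add_zero, pow_zero, e1, one_mul, mul_one]
    have e2 : bst p 0 0 = 1 := by unfold bst; simp
    rw [e2, one_mul]
    refine (ih (F 0) (hF 0)).trans ?_
    have h1 := pot_nonneg (M1 := M1) (θ := 1) le_rfl (F 0)
    have h2 : Γ * pot M1 1 (F 0) * 1 ≤ Γ * pot M1 1 (F 0) * (1 + 40 * (1/(p:ℝ))^2) :=
      mul_le_mul_of_nonneg_left h40 (mul_nonneg hΓ0 h1)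
    linarith
  · -- a ≥ 1
    set w : ℝ := 1/(p:ℝ) with hw
    have hp2 : (2:ℝ) ≤ p := by exact_mod_cast hp.two_le
    have hw0 : 0 < w := by rw [hw]; positivity
    have hw1 : w ≤ 1/2 := one_div_le_one_div_of_le (by norm_num) hp2
    have h1w : 0 < 1 - w := by linarith
    have hP0 : nup p a 0 = 1 - w := by
      unfold nup; rw [if_pos ha]; simp [hw]
    have hr : range (a+1) = insert 0 (Finset.Ico 1 (a+1)) := by
      ext x; simp only [Finset.mem_range, Finset.mem_insert, Finset.mem_Ico]; omega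
    have h0 : (0:ℕ) ∉ Finset.Ico 1 (a+1) := by simp
    have hwt : ∑ v ∈ Finset.Ico 1 (a+1), nup p a v = w := by
      have := sum_nup hp a
      rw [hr, Finset.sum_insert h0, hP0] at this
      linarith
    -- the weights n
    set n : ℕ → ℝ := fun v => if v = 0 then 1 - w else nup p a v / (1 - w) with hn
    have hn0 : ∀ v, 0 ≤ n v := by
      intro v; simp only [hn]; split_ifs
      · exact h1w.le
      · exact div_nonneg (hnn v) h1w.le
    set ft : ℕ → ℝ := fun b => ∑ v ∈ range (a + 1), n v * F v b with hft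
    have hft0 : ∀ b, 0 ≤ ft b := fun b => Finset.sum_nonneg fun v _ => mul_nonneg (hn0 v) (hF _ _)
    have hnP : ∀ v v', min v v' = 0 → nup p a v * nup p a v' * bst p v v' ≤ n v * n v' := by
      intro v v' hmin
      by_cases hv : v = 0
      · subst hv
        by_cases hv' : v' = 0
        · subst hv'
          simp only [hn, bst, if_true, hP0]; linarith
        · simp only [hn, bst, if_true, hP0, hv', if_false]
          rw [if_neg (fun h => hv' h.symm)]
          apply le_of_eq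
          rw [← hw]; field_simp
      · have hv' : v' = 0 := by omega
        subst hv'
        simp only [hn, bst, if_true, hP0, hv, if_false]
        apply le_of_eq
        rw [← hw]; field_simp
    have hfrm0 : ∀ v v', 0 ≤ frm M1 (fun b c => K b c * (F v b * F v' c)) := fun v v' =>
      frm_nonneg fun b c _ _ => mul_nonneg (hK _ _) (mul_nonneg (hF _ _) (hF _ _))
    have hstep : (∑ v ∈ range (a + 1), ∑ v' ∈ range (a + 1), (if min v v' = 0 then
        nup p a v * nup p a v' * bst p v v' * (frm M1 (fun b c => K b c * (F v b * F v' c))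
            + (if v ≠ v' then frm M1 (fun b c =>
              if b = c then F v b * F v' c else 0) else 0)) else 0)) ≤
        frm M1 (fun b c => K b c * (ft b * ft c)) +
        ∑ b ∈ M1.divisors, nu M1 b * ((b:ℝ) * nu M1 b) *
          (2 * F 0 b * ∑ v ∈ Finset.Ico 1 (a+1), nup p a v * F v b) := by
      have hA : ∑ v ∈ range (a + 1), ∑ v' ∈ range (a + 1), (if min v v' = 0 then
        nup p a v * nup p a v' * bst p v v' * (frm M1 (fun b c => K b c * (F v b * F v' c))
            + (if v ≠ v' then frm M1 (fun b c =>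
              if b = c then F v b * F v' c else 0) else 0)) else 0) ≤
          ∑ v ∈ range (a + 1), ∑ v' ∈ range (a + 1),
            (n v * n v' * frm M1 (fun b c => K b c * (F v b * F v' c)) +
            (if v ≠ v' ∧ min v v' = 0 then nup p a v * nup p a v' * (1 - w)⁻¹ *
              frm M1 (fun b c => if b = c then F v b * F v' c else 0) else 0)) := by
        refine Finset.sum_le_sum fun v _ => Finset.sum_le_sum fun v' _ => ?_
        by_cases hmin : min v v' = 0
        · rw [if_pos hmin, mul_add]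
          refine add_le_add (mul_le_mul_of_nonneg_right (hnP v v' hmin) (hfrm0 v v')) ?_
          by_cases hvv : v = v'
          · rw [if_neg (fun h => h hvv), if_neg (fun h => h.1 hvv), mul_zero]
          · rw [if_pos hvv, if_pos ⟨hvv, hmin⟩]
            apply le_of_eq
            unfold bst; rw [if_neg hvv]
        · rw [if_neg hmin, if_neg (fun h => hmin h.2), add_zero]
          exact mul_nonneg (mul_nonneg (hn0 _) (hn0 _)) (hfrm0 v v')
      refine hA.trans (le_of_eq ?_)
      simp only [Finset.sum_add_distrib]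
      congr 1
      · exact frm_avgK (range (a+1)) n F K
      · rw [sum_offdiag a (fun v v' => nup p a v * nup p a v' * (1 - w)⁻¹ *
              frm M1 (fun b c => if b = c then F v b * F v' c else 0))]
        simp only [frm_diag (fun b c => F _ b * F _ c), Finset.mul_sum]
        rw [Finset.sum_comm, Finset.sum_comm (s := Finset.Ico 1 (a+1)), ← Finset.sum_add_distrib]
        refine Finset.sum_congr rfl fun b _ => ?_
        rw [← Finset.sum_add_distrib]
        refine Finset.sum_congr rfl fun v _ => ?_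
        rw [hP0]
        field_simp
        ring
    refine hstep.trans ((add_le_add_left (ih ft hft0) _).trans ?_)
    -- pointwise
    have hpt : ∀ b ∈ M1.divisors, Γ * (nu M1 b * (ft b ^ 2 * (4 - 3 * (1 * ((b:ℝ) * nu M1 b))))) +
        nu M1 b * ((b:ℝ) * nu M1 b) *
          (2 * F 0 b * ∑ v ∈ Finset.Ico 1 (a+1), nup p a v * F v b) ≤
        Γ * (1 + 40 * w^2) * ∑ v ∈ range (a + 1), nup p a v * (nu M1 b * (F v b ^ 2 *
          (4 - 3 * ((p:ℝ)^v * nup p a v * ((b:ℝ) * nu M1 b))))) := by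
      intro b hb
      rw [Nat.mem_divisors] at hb
      have hνb := nu_nonneg M1 b
      have hV1 := V_le hb.1
      have hV0 := V_nonneg M1 b
      set V := (b:ℝ) * nu M1 b with hV
      set H := ∑ v ∈ Finset.Ico 1 (a+1), nup p a v * F v b with hH
      set S := ∑ v ∈ Finset.Ico 1 (a+1), nup p a v * F v b^2 with hS
      have hH0 : 0 ≤ H := Finset.sum_nonneg fun v _ => mul_nonneg (hnn v) (hF _ _)
      have hCS : H^2 ≤ w * S := by
        rw [← hwt]
        exact Finset.sum_sq_le_sum_mul_sum_of_sq_le_mul (Finset.Ico 1 (a+1))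
          (f := fun v => nup p a v) (g := fun v => nup p a v * F v b^2)
          (r := fun v => nup p a v * F v b) (fun v _ => hnn v)
          (fun v _ => mul_nonneg (hnn v) (sq_nonneg _)) (fun v _ => le_of_eq (by ring))
      set f1 := H / w with hf1
      have hf10 : 0 ≤ f1 := div_nonneg hH0 hw0.le
      have hHw : H = w * f1 := by rw [hf1]; field_simp
      have hS' : w * f1^2 ≤ S := by
        rw [hHw] at hCS
        have : w * (w * f1^2) ≤ w * S := by nlinarith
        exact le_of_mul_le_mul_left this hw0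
      have hftb : ft b = (1 - w) * F 0 b + w * f1 / (1 - w) := by
        simp only [hft]
        rw [hr, Finset.sum_insert h0]
        congr 1
        rw [← hHw, hH, Finset.sum_div]
        refine Finset.sum_congr rfl fun v hv => ?_
        rw [Finset.mem_Ico] at hv
        simp only [hn]
        rw [if_neg (by omega)]; ring
      have h43 : 0 ≤ 4 - 3 * V := by linarith
      have hone := one_prime_B1 hw0.le hw1 hV0 hV1 (hF 0 b) hf10
      -- lower bound of the right side
      have hrhs : (4 - 3*V) * ((1 - w) * (F 0 b)^2 + w * f1^2) + 3 * w * (1 - w) * V * (F 0 b)^2 ≤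
          ∑ v ∈ range (a + 1), nup p a v * (F v b ^ 2 * (4 - 3 * ((p:ℝ)^v * nup p a v * V))) := by
        rw [hr, Finset.sum_insert h0]
        have e0 : nup p a 0 * (F 0 b ^ 2 * (4 - 3 * ((p:ℝ)^0 * nup p a 0 * V))) =
            (4 - 3*V) * ((1 - w) * (F 0 b)^2) + 3 * w * (1 - w) * V * (F 0 b)^2 := by
          rw [hP0]; ring
        rw [e0]
        have h1 : (4 - 3*V) * (w * f1^2) ≤ ∑ v ∈ Finset.Ico 1 (a+1),
            nup p a v * (F v b ^ 2 * (4 - 3 * ((p:ℝ)^v * nup p a v * V))) := by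
          refine (mul_le_mul_of_nonneg_left hS' h43).trans ?_
          rw [hS, Finset.mul_sum]
          refine Finset.sum_le_sum fun v hv => ?_
          rw [Finset.mem_Ico] at hv
          have hθ := theta_le hp a v (by omega)
          have h2 : 4 - 3 * V ≤ 4 - 3 * ((p:ℝ)^v * nup p a v * V) := by nlinarith
          have h3 : 0 ≤ nup p a v * F v b^2 := mul_nonneg (hnn v) (sq_nonneg _)
          calc (4 - 3*V) * (nup p a v * F v b^2) = (nup p a v * F v b^2) * (4 - 3*V) := by ring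
            _ ≤ (nup p a v * F v b^2) * (4 - 3 * ((p:ℝ)^v * nup p a v * V)) :=
              mul_le_mul_of_nonneg_left h2 h3
            _ = _ := by ring
        rw [mul_add]; linarith
      have hfin : Γ * (ft b ^ 2 * (4 - 3 * V)) + V * (2 * F 0 b * H) ≤
          Γ * (1 + 40 * w^2) * ∑ v ∈ range (a + 1), nup p a v * (F v b ^ 2 *
            (4 - 3 * ((p:ℝ)^v * nup p a v * V))) := by
        have c1 : V * (2 * F 0 b * H) ≤ Γ * (2 * V * w * F 0 b * f1) := by
          have e : V * (2 * F 0 b * H) = 2 * V * w * F 0 b * f1 := by rw [hHw]; ring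
          rw [e]
          have hpos : 0 ≤ 2 * V * w * F 0 b * f1 := by
            have := hF 0 b; positivity
          have := mul_le_mul_of_nonneg_right hΓ hpos
          linarith
        have c2 : Γ * (ft b ^ 2 * (4 - 3 * V)) + Γ * (2 * V * w * F 0 b * f1) =
            Γ * (2 * V * w * F 0 b * f1 + (4 - 3*V) * ((1 - w) * F 0 b + w * f1 / (1 - w))^2) := by
          rw [hftb]; ring
        have c3 := mul_le_mul_of_nonneg_left hone hΓ0
        have c4 := mul_le_mul_of_nonneg_left hrhs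
          (mul_nonneg hΓ0 (by positivity : (0:ℝ) ≤ 1 + 40 * w^2))
        calc Γ * (ft b ^ 2 * (4 - 3 * V)) + V * (2 * F 0 b * H)
            ≤ Γ * (ft b ^ 2 * (4 - 3 * V)) + Γ * (2 * V * w * F 0 b * f1) := by linarith
          _ = _ := c2
          _ ≤ _ := c3
          _ = Γ * (1 + 40 * w^2) * ((4 - 3*V) * ((1 - w) * (F 0 b)^2 + w * f1^2) +
              3 * w * (1 - w) * V * (F 0 b)^2) := by ring
          _ ≤ _ := c4
      have h5 := mul_le_mul_of_nonneg_left hfin hνb
      have e5 : Γ * (nu M1 b * (ft b ^ 2 * (4 - 3 * (1 * V)))) + nu M1 b * V * (2 * F 0 b * H) =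
          nu M1 b * (Γ * (ft b ^ 2 * (4 - 3 * V)) + V * (2 * F 0 b * H)) := by ring
      have e6 : Γ * (1 + 40 * w^2) * ∑ v ∈ range (a + 1), nup p a v * (nu M1 b * (F v b ^ 2 *
          (4 - 3 * ((p:ℝ)^v * nup p a v * V)))) =
          nu M1 b * (Γ * (1 + 40 * w^2) * ∑ v ∈ range (a + 1), nup p a v * (F v b ^ 2 *
            (4 - 3 * ((p:ℝ)^v * nup p a v * V)))) := by
        simp only [Finset.mul_sum]
        refine Finset.sum_congr rfl fun v _ => by ring
      rw [e5, e6]
      exact h5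
    have hsum := Finset.sum_le_sum hpt
    rw [Finset.sum_add_distrib, ← Finset.mul_sum] at hsum
    unfold pot
    refine hsum.trans (le_of_eq ?_)
    rw [← Finset.mul_sum, Finset.sum_comm]
    congr 1
    refine Finset.sum_congr rfl fun v _ => ?_
    rw [Finset.mul_sum]

lemma pot_split {p : ℕ} (hp : p.Prime) (a : ℕ) {M1 : ℕ} (hM : 0 < M1) (hnd : ¬ p ∣ M1)
    (f : ℕ → ℝ) : pot (p ^ a * M1) 1 f = ∑ v ∈ range (a + 1),
      nup p a v * pot M1 ((p:ℝ)^v * nup p a v) (fun b => f (p ^ v * b)) := by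
  have hcop : Nat.Coprime (p ^ a) M1 :=
    Nat.Coprime.pow_left a ((Nat.Prime.coprime_iff_not_dvd hp).2 hnd)
  unfold pot
  rw [sum_split hp a hM hnd]
  refine Finset.sum_congr rfl fun v hv => ?_
  rw [Finset.mem_range] at hv
  rw [Finset.mul_sum]
  refine Finset.sum_congr rfl fun b hb => ?_
  rw [Nat.mem_divisors] at hb
  rw [nu_mul hcop (pow_dvd_pow p (by omega)) hb.1, nu_prime_pow hp (by omega)]
  push_cast
  ring

lemma pot_theta {M1 : ℕ} {θ : ℝ} (_hθ0 : 0 ≤ θ) (hθ1 : θ ≤ 1) (g : ℕ → ℝ) :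
    θ * pot M1 1 g ≤ pot M1 θ g := by
  unfold pot
  rw [Finset.mul_sum]
  refine Finset.sum_le_sum fun b hb => ?_
  rw [Nat.mem_divisors] at hb
  have hV1 := V_le hb.1
  have hV0 := V_nonneg M1 b
  have hn := nu_nonneg M1 b
  have h1 : θ * (4 - 3 * (1 * ((b:ℝ) * nu M1 b))) ≤ 4 - 3 * (θ * ((b:ℝ) * nu M1 b)) := by
    nlinarith
  have h2 := mul_le_mul_of_nonneg_left h1 (mul_nonneg hn (sq_nonneg (g b)))
  calc θ * (nu M1 b * (g b ^ 2 * (4 - 3 * (1 * ((b:ℝ) * nu M1 b)))))
      = nu M1 b * g b ^ 2 * (θ * (4 - 3 * (1 * ((b:ℝ) * nu M1 b)))) := by ring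
    _ ≤ nu M1 b * g b ^ 2 * (4 - 3 * (θ * ((b:ℝ) * nu M1 b))) := h2
    _ = _ := by ring

/-- the accumulated constant of the boost -/
noncomputable def Gc (M : ℕ) : ℝ := ∏ p ∈ M.primeFactors, (1 + 40 * (1/(p:ℝ))^2)

lemma Gc_one_le (M : ℕ) : 1 ≤ Gc M := by
  unfold Gc
  have h := Finset.prod_le_prod (s := M.primeFactors) (f := fun _ : ℕ => (1:ℝ))
    (g := fun p : ℕ => 1 + 40 * (1/(p:ℝ))^2) (fun _ _ => zero_le_one) (fun p _ => by
      have : 0 ≤ (1/(p:ℝ))^2 := sq_nonneg _
      linarith)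
  rwa [Finset.prod_const_one] at h

lemma Gc_split {p : ℕ} (hp : p.Prime) {a M1 : ℕ} (ha : 0 < a) (hM : 0 < M1) (hnd : ¬ p ∣ M1) :
    Gc (p ^ a * M1) = (1 + 40 * (1/(p:ℝ))^2) * Gc M1 := by
  unfold Gc
  rw [Nat.primeFactors_mul (pow_ne_zero _ hp.ne_zero) hM.ne',
    Nat.primeFactors_prime_pow ha.ne' hp, ← Finset.insert_eq, Finset.prod_insert]
  intro hmem
  exact hnd (Nat.dvd_of_mem_primeFactors hmem)

lemma Gc_mono {p : ℕ} (hp : p.Prime) (a : ℕ) {M1 : ℕ} (hM : 0 < M1) (hnd : ¬ p ∣ M1) :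
    Gc M1 ≤ Gc (p ^ a * M1) := by
  rcases Nat.eq_zero_or_pos a with h | h
  · subst h; rw [pow_zero, one_mul]
  · rw [Gc_split hp h hM hnd]
    have h1 := Gc_one_le M1
    have : 0 ≤ (1/(p:ℝ))^2 := sq_nonneg _
    nlinarith

/-- the constant is absolute -/
lemma Gc_le (M : ℕ) : Gc M ≤ Real.exp 40 := by
  unfold Gc
  have h1 : ∏ p ∈ M.primeFactors, (1 + 40 * (1/(p:ℝ))^2) ≤
      ∏ p ∈ M.primeFactors, Real.exp (40 * (1/(p:ℝ))^2) := by
    refine Finset.prod_le_prod (fun p _ => ?_) fun p _ => ?_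
    · have : 0 ≤ (1/(p:ℝ))^2 := sq_nonneg _
      linarith
    · have := Real.add_one_le_exp (40 * (1/(p:ℝ))^2)
      linarith
  refine h1.trans ?_
  rw [← Real.exp_sum, Real.exp_le_exp, ← Finset.mul_sum]
  have h2 : ∑ p ∈ M.primeFactors, (1/(p:ℝ))^2 ≤ 1 := by
    have hsub : M.primeFactors ⊆ Finset.Ioc 1 (M + 1) := by
      intro p hp
      have hpp := Nat.prime_of_mem_primeFactors hp
      rw [Finset.mem_Ioc]
      refine ⟨hpp.one_lt, ?_⟩
      have := Nat.le_of_mem_primeFactors hp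
      omega
    have h3 : ∑ p ∈ M.primeFactors, (1/(p:ℝ))^2 ≤ ∑ p ∈ Finset.Ioc 1 (M+1), ((p:ℝ)^2)⁻¹ := by
      refine (Finset.sum_le_sum_of_subset_of_nonneg hsub fun p _ _ => sq_nonneg _).trans ?_
      refine Finset.sum_le_sum fun p _ => le_of_eq ?_
      rw [one_div, inv_pow]
    have h4 := sum_Ioc_inv_sq_le_sub (α := ℝ) (k := 1) (n := M + 1) one_ne_zero (by omega)
    have h5 : (0:ℝ) ≤ ((M + 1 : ℕ) : ℝ)⁻¹ := by positivity
    have h6 : (((1:ℕ):ℝ))⁻¹ = 1 := by norm_num
    rw [h6] at h4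
    linarith
  linarith

open Classical in
/-- **PURE PART OF THEOREM C with the boost `B1`** -/
theorem pure_energyB1 {M : ℕ} {R : ℕ → ℕ → Prop} (hR : PureRelC M R) :
    ∀ f : ℕ → ℝ, (∀ b, 0 ≤ f b) →
      frm M (fun b c => (if R b c then B1 b c else 0) * (f b * f c)) ≤ Gc M * pot M 1 f := by
  have hKnn : ∀ (R : ℕ → ℕ → Prop) (b c : ℕ), (0:ℝ) ≤ (if R b c then B1 b c else 0) := by
    intro R b c; split_ifs
    · exact (B1_pos b c).le
    · exact le_rfl
  induction hR with
  | @base M R h =>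
    intro f hf
    have h0 : frm M (fun b c => (if R b c then B1 b c else 0) * (f b * f c)) ≤
        frm M (fun _ _ => 0) :=
      frm_mono (fun b c hb hc => by rw [if_neg (h b c hb hc), zero_mul])
    refine h0.trans ?_
    have e : frm M (fun _ _ => (0:ℝ)) = 0 := by unfold frm; simp
    rw [e]
    exact mul_nonneg (by linarith [Gc_one_le M]) (pot_nonneg le_rfl f)
  | @branch p a M1 R R1 hp hM hnd h1 h ih =>
    intro f hf
    have hG := Gc_mono hp a hM hnd
    have hG1 := Gc_one_le M1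
    have hkey : ∀ b, b ∣ M1 → 0 < b ∧ ¬ p ∣ b := fun b hb =>
      ⟨Nat.pos_of_dvd_of_pos hb hM, fun hd => hnd (hd.trans hb)⟩
    refine le_trans ?_ (mul_le_mul_of_nonneg_right hG (pot_nonneg le_rfl f))
    rw [frm_split hp a hM hnd, pot_split hp a hM hnd, Finset.mul_sum]
    refine Finset.sum_le_sum fun v hv => ?_
    rw [Finset.mem_range] at hv
    have hva : v ≤ a := by omega
    have hle : ∑ v' ∈ range (a + 1), (p : ℝ) ^ (min v v') * nup p a v * nup p a v' *
        frm M1 (fun b c => (if R (p ^ v * b) (p ^ v' * c) then B1 (p ^ v * b) (p ^ v' * c) else 0) *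
          (f (p ^ v * b) * f (p ^ v' * c)))
        ≤ (p:ℝ)^v * nup p a v * nup p a v *
          frm M1 (fun b c => (if R1 v b c then B1 b c else 0) *
            (f (p ^ v * b) * f (p ^ v * c))) := by
      rw [← Finset.sum_subset (s₁ := {v})]
      · rw [Finset.sum_singleton, min_self]
        refine mul_le_mul_of_nonneg_left ?_ (mul_nonneg (mul_nonneg (by positivity)
          (nup_nonneg hp.pos _ _)) (nup_nonneg hp.pos _ _))
        refine frm_mono fun b c hb hc => ?_
        refine mul_le_mul_of_nonneg_right ?_ (mul_nonneg (hf _) (hf _))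
        by_cases h2 : R (p ^ v * b) (p ^ v * c)
        · rw [if_pos h2, if_pos (h v v b c hva hva hb hc h2).2,
            B1_split hp v v (hkey b hb).1 (hkey c hc).1 (hkey b hb).2 (hkey c hc).2, if_pos rfl,
            one_mul]
        · rw [if_neg h2]; exact hKnn _ _ _
      · intro x hx; rw [Finset.mem_singleton] at hx; rw [hx]; exact Finset.mem_range.2 hv
      · intro v' hv' hne
        rw [Finset.mem_range] at hv'
        rw [Finset.mem_singleton] at hne
        have e : frm M1 (fun b c => (if R (p ^ v * b) (p ^ v' * c) then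
            B1 (p ^ v * b) (p ^ v' * c) else 0) * (f (p ^ v * b) * f (p ^ v' * c))) = 0 := by
          unfold frm
          refine Finset.sum_eq_zero fun b hb => Finset.sum_eq_zero fun c hc => ?_
          rw [Nat.mem_divisors] at hb hc
          dsimp only
          rw [if_neg, zero_mul, mul_zero]
          intro h2
          exact hne (h v v' b c hva (by omega) hb.1 hc.1 h2).1.symm
        rw [e, mul_zero]
    refine hle.trans ?_
    have ih1 := ih v hva (fun b => f (p ^ v * b)) (fun b => hf _)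
    have hθ := theta_le hp a v hva
    have hn := nup_nonneg hp.pos a v
    have hθ0 : 0 ≤ (p:ℝ)^v * nup p a v := mul_nonneg (by positivity) hn
    have hpt := pot_theta hθ0 hθ (M1 := M1) (fun b => f (p ^ v * b))
    calc (p:ℝ)^v * nup p a v * nup p a v * frm M1 (fun b c => (if R1 v b c then B1 b c else 0) *
            (f (p ^ v * b) * f (p ^ v * c)))
        ≤ (p:ℝ)^v * nup p a v * nup p a v * (Gc M1 * pot M1 1 (fun b => f (p ^ v * b))) :=
          mul_le_mul_of_nonneg_left ih1 (mul_nonneg hθ0 hn)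
      _ = Gc M1 * (nup p a v * (((p:ℝ)^v * nup p a v) * pot M1 1 (fun b => f (p ^ v * b)))) := by
          ring
      _ ≤ Gc M1 * (nup p a v * pot M1 ((p:ℝ)^v * nup p a v) (fun b => f (p ^ v * b))) :=
          mul_le_mul_of_nonneg_left (mul_le_mul_of_nonneg_left hpt hn) (by linarith)
  | @cent p a M1 R R1 v0 hp hM hnd hv0 h1 h ih =>
    intro f hf
    have hkey : ∀ b, b ∣ M1 → 0 < b ∧ ¬ p ∣ b := fun b hb =>
      ⟨Nat.pos_of_dvd_of_pos hb hM, fun hd => hnd (hd.trans hb)⟩
    have hpR : (0:ℝ) < p := by exact_mod_cast hp.pos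
    set π : ℝ := (1/(p:ℝ))^v0 with hπ
    have hπ0 : 0 < π := by positivity
    have hpp : (p:ℝ)^v0 * π = 1 := by
      rw [hπ, ← mul_pow, mul_one_div_cancel hpR.ne', one_pow]
    set F : ℕ → ℕ → ℝ := fun j b => f (p ^ (v0 + j) * b) with hF
    have hF0 : ∀ j b, 0 ≤ F j b := fun j b => hf _
    have hnn : ∀ v, 0 ≤ nup p (a - v0) v := fun v => nup_nonneg hp.pos _ v
    -- vanishing
    have hvan : ∀ v v', v ≤ a → v' ≤ a → min v v' ≠ v0 →
        frm M1 (fun b c => (if R (p ^ v * b) (p ^ v' * c) then B1 (p ^ v * b) (p ^ v' * c) else 0) *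
            (f (p ^ v * b) * f (p ^ v' * c))) = 0 := by
      intro v v' hv hv' hne
      unfold frm
      refine Finset.sum_eq_zero fun b hb => Finset.sum_eq_zero fun c hc => ?_
      rw [Nat.mem_divisors] at hb hc
      dsimp only
      rw [if_neg, zero_mul, mul_zero]
      intro h2
      exact hne (h v v' b c hv hv' hb.1 hc.1 h2).1
    set K : ℕ → ℕ → ℝ := fun b c => if R1 b c then B1 b c else 0 with hK
    have hKn : ∀ b c, 0 ≤ K b c := fun b c => hKnn R1 b c
    have hLHS : frm (p ^ a * M1) (fun b c => (if R b c then B1 b c else 0) * (f b * f c)) ≤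
        π * ∑ j ∈ range (a - v0 + 1), ∑ j' ∈ range (a - v0 + 1), (if min j j' = 0 then
        nup p (a - v0) j * nup p (a - v0) j' * bst p j j' *
          (frm M1 (fun b c => K b c * (F j b * F j' c))
            + (if j ≠ j' then frm M1 (fun b c =>
              if b = c then F j b * F j' c else 0) else 0)) else 0) := by
      rw [frm_split hp a hM hnd]
      rw [Finset.sum_congr rfl (fun v hv => sum_shift hv0 _ (fun v' hv' => by
        rw [Finset.mem_range] at hv
        rw [hvan v v' (by omega) (by omega) (by omega), mul_zero]))]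
      rw [sum_shift hv0 _ (fun v hv => Finset.sum_eq_zero fun j hj => by
        rw [Finset.mem_range] at hj
        rw [hvan v (v0+j) (by omega) (by omega) (by omega), mul_zero])]
      rw [Finset.mul_sum]
      refine Finset.sum_le_sum fun j hj => ?_
      rw [Finset.mul_sum]
      refine Finset.sum_le_sum fun j' hj' => ?_
      rw [Finset.mem_range] at hj hj'
      have hnn2 : 0 ≤ nup p (a - v0) j * nup p (a - v0) j' := mul_nonneg (hnn j) (hnn j')
      rw [nup_shift a v0 j hv0, nup_shift a v0 j' hv0]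
      by_cases hmin : min j j' = 0
      · have hm : min (v0 + j) (v0 + j') = v0 := by omega
        rw [hm, if_pos hmin]
        have e : (p:ℝ)^v0 * ((1/(p:ℝ))^v0 * nup p (a - v0) j) *
            ((1/(p:ℝ))^v0 * nup p (a - v0) j') = π * (nup p (a - v0) j * nup p (a - v0) j') := by
          rw [← hπ]
          calc (p:ℝ)^v0 * (π * nup p (a - v0) j) * (π * nup p (a - v0) j')
              = ((p:ℝ)^v0 * π) * (π * (nup p (a - v0) j * nup p (a - v0) j')) := by ring
            _ = _ := by rw [hpp, one_mul]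
        rw [e, mul_assoc, mul_assoc (nup p (a - v0) j * nup p (a - v0) j') (bst p j j')]
        refine mul_le_mul_of_nonneg_left (mul_le_mul_of_nonneg_left ?_ hnn2) hπ0.le
        -- pull the boost out
        have hb1 : frm M1 (fun b c => (if R (p ^ (v0 + j) * b) (p ^ (v0 + j') * c) then
            B1 (p ^ (v0 + j) * b) (p ^ (v0 + j') * c) else 0) *
            (f (p ^ (v0 + j) * b) * f (p ^ (v0 + j') * c))) ≤
            frm M1 (fun b c => bst p j j' * (K b c * (F j b * F j' c) +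
              (if j ≠ j' then (if b = c then F j b * F j' c else 0) else 0))) := by
          refine frm_mono fun b c hb hc => ?_
          have h5 : 0 ≤ F j b * F j' c := mul_nonneg (hF0 _ _) (hF0 _ _)
          have h6 := (bst_pos hp j j').le
          have h7 : (0:ℝ) ≤ if j ≠ j' then (if b = c then F j b * F j' c else 0) else 0 := by
            split_ifs <;> first | exact h5 | exact le_rfl
          by_cases h2 : R (p ^ (v0 + j) * b) (p ^ (v0 + j') * c)
          · rw [if_pos h2, B1_split hp _ _ (hkey b hb).1 (hkey c hc).1 (hkey b hb).2 (hkey c hc).2]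
            have hbst : (if v0 + j = v0 + j' then (1:ℝ) else (1 - 1/(p:ℝ))⁻¹) = bst p j j' := by
              unfold bst
              by_cases hjj : j = j'
              · rw [if_pos (by rw [hjj]), if_pos hjj]
              · rw [if_neg (by omega), if_neg hjj]
            rw [hbst, mul_assoc]
            refine mul_le_mul_of_nonneg_left ?_ h6
            rcases (h _ _ b c (by omega) (by omega) hb hc h2).2 with h4 | h4
            · have hKK : K b c = B1 b c := by simp only [hK]; rw [if_pos h4]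
              rw [hKK]
              simp only [hF] at h7 ⊢
              linarith
            · have hjj : j ≠ j' := by
                intro hh; exact h4.2 (by rw [hh])
              have hbc := h4.1
              subst hbc
              rw [if_pos hjj, if_pos rfl, B1_self (hkey b hb).1, one_mul]
              have := mul_nonneg (hKn b b) h5
              simp only [hF] at this ⊢
              linarith
          · rw [if_neg h2, zero_mul]
            exact mul_nonneg h6 (add_nonneg (mul_nonneg (hKn _ _) h5) h7)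
        refine hb1.trans (le_of_eq ?_)
        rw [frm_smul (bst p j j') (fun b c => K b c * (F j b * F j' c) +
              (if j ≠ j' then (if b = c then F j b * F j' c else 0) else 0)),
          frm_add (fun b c => K b c * (F j b * F j' c))
            (fun b c => if j ≠ j' then (if b = c then F j b * F j' c else 0) else 0)]
        congr 2
        by_cases hjj : j ≠ j'
        · simp only [if_pos hjj]
        · simp only [if_neg hjj]
          unfold frm; simp
      · rw [hvan (v0+j) (v0+j') (by omega) (by omega) (by omega), mul_zero, if_neg hmin, mul_zero]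
    -- the core
    have hcore := free_coreB1 hp (a - v0) hKn (Gc_one_le M1) ih F hF0
    have hpotle : π * ∑ j ∈ range (a - v0 + 1), nup p (a - v0) j *
        pot M1 ((p:ℝ)^j * nup p (a - v0) j) (F j) ≤ pot (p ^ a * M1) 1 f := by
      rw [pot_split hp a hM hnd, Finset.mul_sum]
      have hsh := sum_shift_le hv0 (fun v => if v ≤ a then nup p a v *
        pot M1 ((p:ℝ)^v * nup p a v) (fun b => f (p ^ v * b)) else 0) (fun v => by
          split_ifs with hv
          · exact mul_nonneg (nup_nonneg hp.pos _ _) (pot_nonneg (theta_le hp a v hv) _)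
          · exact le_rfl)
      have e2 : ∑ v ∈ range (a + 1), (if v ≤ a then nup p a v *
          pot M1 ((p:ℝ)^v * nup p a v) (fun b => f (p ^ v * b)) else 0) =
          ∑ v ∈ range (a + 1), nup p a v *
          pot M1 ((p:ℝ)^v * nup p a v) (fun b => f (p ^ v * b)) := by
        refine Finset.sum_congr rfl fun v hv => ?_
        rw [Finset.mem_range] at hv
        rw [if_pos (by omega)]
      rw [e2] at hsh
      refine le_trans (le_of_eq ?_) hsh
      refine Finset.sum_congr rfl fun j hj => ?_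
      rw [Finset.mem_range] at hj
      rw [if_pos (by omega), nup_shift a v0 j hv0, ← hπ]
      have e3 : (p:ℝ)^(v0+j) * (π * nup p (a - v0) j) = (p:ℝ)^j * nup p (a - v0) j := by
        rw [pow_add]
        calc (p:ℝ)^v0 * (p:ℝ)^j * (π * nup p (a - v0) j)
            = ((p:ℝ)^v0 * π) * ((p:ℝ)^j * nup p (a - v0) j) := by ring
          _ = _ := by rw [hpp, one_mul]
      rw [e3, mul_assoc]
    rcases Nat.eq_zero_or_pos a with ha | ha
    · -- a = 0 : the prime is absent
      subst ha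
      have hv00 : v0 = 0 := by omega
      subst hv00
      have hπ1 : π = 1 := by rw [hπ, pow_zero]
      have e1 : nup p 0 0 = 1 := by unfold nup; simp
      have e2 : bst p 0 0 = 1 := by unfold bst; simp
      refine hLHS.trans ?_
      rw [hπ1]
      simp only [Nat.sub_zero, zero_add, Finset.range_one, Finset.sum_singleton, min_self, if_true,
        ne_eq, not_true_eq_false, if_false, add_zero, e1, e2, one_mul, mul_one, pow_zero]
      have h3 := ih (F 0) (hF0 0)
      have h4 : F 0 = f := by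
        funext b; simp only [hF]; rw [Nat.add_zero, pow_zero, one_mul]
      rw [h4] at h3 ⊢
      exact h3
    · rw [Gc_split hp ha hM hnd]
      refine hLHS.trans ((mul_le_mul_of_nonneg_left hcore hπ0.le).trans ?_)
      have hG1 := Gc_one_le M1
      have h40 : 0 ≤ 1 + 40 * (1/(p:ℝ))^2 := by
        have : 0 ≤ (1/(p:ℝ))^2 := sq_nonneg _
        linarith
      calc π * (Gc M1 * (1 + 40 * (1/(p:ℝ))^2) * ∑ j ∈ range (a - v0 + 1), nup p (a - v0) j *
            pot M1 ((p:ℝ)^j * nup p (a - v0) j) (F j))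
          = ((1 + 40 * (1/(p:ℝ))^2) * Gc M1) * (π * ∑ j ∈ range (a - v0 + 1), nup p (a - v0) j *
            pot M1 ((p:ℝ)^j * nup p (a - v0) j) (F j)) := by ring
        _ ≤ _ := mul_le_mul_of_nonneg_left hpotle (mul_nonneg h40 (by linarith))

open Classical in
/-- convenient form: absolute constant `4 e^40` -/
theorem pure_energyB1' {M : ℕ} {R : ℕ → ℕ → Prop} (hR : PureRelC M R)
    (f : ℕ → ℝ) (hf : ∀ b, 0 ≤ f b) :
    frm M (fun b c => (if R b c then B1 b c else 0) * (f b * f c)) ≤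
      4 * Real.exp 40 * ∑ b ∈ M.divisors, nu M b * f b ^ 2 := by
  refine (pure_energyB1 hR f hf).trans ?_
  have h1 : pot M 1 f ≤ 4 * ∑ b ∈ M.divisors, nu M b * f b ^ 2 := by
    unfold pot
    rw [Finset.mul_sum]
    refine Finset.sum_le_sum fun b _ => ?_
    have h1 := V_nonneg M b
    have h3 : 0 ≤ nu M b * f b^2 := mul_nonneg (nu_nonneg M b) (sq_nonneg _)
    nlinarith
  have h2 := pot_nonneg (M1 := M) (θ := 1) le_rfl f
  calc Gc M * pot M 1 f ≤ Real.exp 40 * (4 * ∑ b ∈ M.divisors, nu M b * f b ^ 2) :=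
        mul_le_mul (Gc_le M) h1 h2 (Real.exp_pos _).le
    _ = _ := by ring

open Classical in
/-- over an F-Λ structure -/
theorem pureFL_energyB1 {M : ℕ} (hM : 0 < M) (F : FL M) (f : ℕ → ℝ) (hf : ∀ b, 0 ≤ f b) :
    frm M (fun b c => (if PureG F b c then B1 b c else 0) * (f b * f c)) ≤
      4 * Real.exp 40 * ∑ b ∈ M.divisors, nu M b * f b ^ 2 :=
  pure_energyB1' (pureRelC_of_FL M hM F) f hf

end Crest.Agent.R4C.PureL2x232
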