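import Crest.Agent.R4C.PairR_14
import Crest.Agent.R4C.BoostR_398
import Crest.Agent.R4C.PureB1_232
import Crest.Agent.R4C.NearBoost_60

/-!
# Row 4: the far boost for the rule of `Rule_945` (helper19)

Dyadic blocks `P.Y i = 2^i`, thresholds `P.thr b i ≤ exp (Y(i-1)^{4/5})`.

* `prodN_far` : pair good above `Q`: the aligned common primes `> Q` whose two centres are
  different points have boost `≤ exp (100 (1 + Λ/Q))`, `Λ = log (3 max(1, L/g))`.
* `boost_far` : if moreover all aligned common primes with the same point are `≤ Q`: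
  `boostB ≤ exp (100 (1 + Λ/Q)) * B1 * bst (primes ≤ Q)`.
* `P2_far` : the hypothesis of `NearTotx360.near_total`.
-/

set_option autoImplicit false

open Finset

namespace Crest.Agent.R4C.BoostTopx19

open Crest.Agent.R4C.Basex935 Crest.Agent.R4C.PrefixMx882 Crest.Agent.R4C.CrCountx935
  Crest.Agent.R4C.CrCoinx935 Crest.Agent.R4C.Bridgex882 Crest.Agent.R4C.FLDefx935
  Crest.Agent.R4C.BoostCx972 Crest.Agent.R4C.S7cx14 Crest.Agent.R4C.S7dx14
  Crest.Agent.R4C.Rulex945

/-! ### numerical sums -/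

lemma sum_half {I : Finset ℕ} {i0 : ℕ} (hI : ∀ i ∈ I, i0 ≤ i) :
    ∑ i ∈ I, (1 / 2 : ℝ) ^ i ≤ 2 * (1 / 2 : ℝ) ^ i0 := by
  classical
  have hinj : Set.InjOn (fun i : ℕ => i - i0) I := by
    intro a ha b hb h
    have h1 := hI a ha
    have h2 := hI b hb
    simp only at h
    omega
  have h1 : ∑ i ∈ I, (1 / 2 : ℝ) ^ i = (1 / 2 : ℝ) ^ i0 * ∑ n ∈ I.image (fun i => i - i0),
      (1 / 2 : ℝ) ^ n := by
    rw [sum_image hinj, mul_sum]
    refine sum_congr rfl fun i hi => ?_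
    rw [← pow_add]
    congr 1
    have := hI i hi
    omega
  have h2 : ∑ n ∈ I.image (fun i => i - i0), (1 / 2 : ℝ) ^ n ≤ 2 := by
    have h3 := (summable_geometric_of_lt_one (by norm_num : (0:ℝ) ≤ 1/2)
      (by norm_num : (1/2:ℝ) < 1)).sum_le_tsum (I.image (fun i => i - i0))
      (fun n _ => by positivity)
    rwa [tsum_geometric_of_lt_one (by norm_num) (by norm_num),
      show ((1 : ℝ) - 1 / 2)⁻¹ = 2 by norm_num] at h3
  rw [h1]
  have h0 : (0 : ℝ) ≤ (1 / 2 : ℝ) ^ i0 := by positivity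
  nlinarith

lemma rho_lt : (2 : ℝ) ^ (-(1 / 5) : ℝ) ≤ 7 / 8 := by
  have h1 : (2 : ℝ) ^ (-(1 / 5) : ℝ) = ((2 : ℝ) ^ (-1 : ℝ)) ^ (1 / 5 : ℝ) := by
    rw [← Real.rpow_mul (by norm_num)]; norm_num
  rw [h1, show ((2 : ℝ) ^ (-1 : ℝ)) = 1 / 2 by rw [Real.rpow_neg_one]; norm_num]
  have h2 : (1 / 2 : ℝ) ≤ (7 / 8 : ℝ) ^ (5 : ℕ) := by norm_num
  calc ((1 : ℝ) / 2) ^ (1 / 5 : ℝ) ≤ ((7 / 8 : ℝ) ^ (5 : ℕ)) ^ (1 / 5 : ℝ) :=
        Real.rpow_le_rpow (by norm_num) h2 (by norm_num)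
    _ = 7 / 8 := by
        rw [← Real.rpow_natCast, ← Real.rpow_mul (by norm_num)]
        norm_num

lemma sum_rho (I : Finset ℕ) : ∑ i ∈ I, ((2 : ℝ) ^ (-(1 / 5) : ℝ)) ^ i ≤ 8 := by
  have h0 : (0 : ℝ) ≤ (2 : ℝ) ^ (-(1 / 5) : ℝ) := by positivity
  have h1 : (2 : ℝ) ^ (-(1 / 5) : ℝ) < 1 := rho_lt.trans_lt (by norm_num)
  have h3 := (summable_geometric_of_lt_one h0 h1).sum_le_tsum I (fun n _ => by positivity)
  rw [tsum_geometric_of_lt_one h0 h1] at h3
  refine h3.trans ?_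
  rw [inv_le_comm₀ (by linarith) (by norm_num)]
  linarith [rho_lt]

/-! ### the centre used depends on the block only -/

section blk

variable {M : ℕ} (F : FL M) (P : Par)

/-- eligibility for the block `i` -/
def eligB (b i m : ℕ) : Prop :=
  P.m0 ≤ m ∧ P.Y i ≤ P.cut m ∧ ∃ f : ℚ, TC F P m b f ∧ dep F P m b f ≤ P.thr b i

open Classical in
/-- the centre used in the block `i` -/
noncomputable def FcB (b i : ℕ) : Option ℚ :=
  if h : eligB F P b i (Nat.findGreatest (eligB F P b i) P.N) then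
    some (Classical.choose h.2.2) else none

lemma Fc_eq (b p : ℕ) : Fc F P b p = FcB F P b (P.blk p) := rfl

variable {F P}

lemma Fc_blk {b p p' : ℕ} (h : P.blk p = P.blk p') : Fc F P b p = Fc F P b p' := by
  rw [Fc_eq, Fc_eq, h]

end blk

/-! ### cofactors -/

lemma fact_cof {b c p : ℕ} (hb : 0 < b) (hc : 0 < c)
    (h1 : ¬ p ∣ b / Nat.gcd b c) (h2 : ¬ p ∣ c / Nat.gcd b c) :
    b.factorization p = c.factorization p := by
  have hg : 0 < Nat.gcd b c := Nat.gcd_pos_of_pos_left _ hb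
  have e1 : (b / Nat.gcd b c).factorization p = 0 := Nat.factorization_eq_zero_of_not_dvd h1
  have e2 : (c / Nat.gcd b c).factorization p = 0 := Nat.factorization_eq_zero_of_not_dvd h2
  rw [Nat.factorization_div (Nat.gcd_dvd_left _ _), Finsupp.tsub_apply] at e1
  rw [Nat.factorization_div (Nat.gcd_dvd_right _ _), Finsupp.tsub_apply] at e2
  have h3 := (Nat.factorization_le_iff_dvd hg.ne' hb.ne').2 (Nat.gcd_dvd_left b c) p
  have h4 := (Nat.factorization_le_iff_dvd hg.ne' hc.ne').2 (Nat.gcd_dvd_right b c) p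
  omega

lemma mem_pf_div {M b p : ℕ} (hM : 0 < M) (hb : b ∣ M) (h : p ∈ (M / b).primeFactors) :
    b.factorization p < M.factorization p := by
  have hb0 : 0 < b := Nat.pos_of_dvd_of_pos hb hM
  have hq0 : 0 < M / b := Nat.div_pos (Nat.le_of_dvd hM hb) hb0
  have h1 : 0 < (M / b).factorization p := by
    rw [← Nat.support_factorization, Finsupp.mem_support_iff] at h
    omega
  rw [Nat.factorization_div hb, Finsupp.tsub_apply] at h1
  omega

/-! ### the non-coincident part -/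

/-- `Λ` -/
noncomputable def Lam (L g : ℝ) : ℝ := Real.log (3 * max 1 (L / g))

lemma Lam_nonneg (L g : ℝ) : 0 ≤ Lam L g := by
  unfold Lam
  have : (1 : ℝ) ≤ max 1 (L / g) := le_max_left _ _
  exact Real.log_nonneg (by linarith)

section far

variable {M : ℕ} {F : FL M} {P : Par}

/-- labels indexed by `q = M / b` -/
noncomputable def Fq (F : FL M) (P : Par) (q p : ℕ) : Option ℚ := Fc F P (M / q) p

lemma isLabq : IsLab (Fq F P) (fun q p => lamR F P (M / q) p) := isLab_labC _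

set_option maxHeartbeats 1000000 in
open Classical in
/-- **B3 above `Q`** -/
theorem prodN_far (hM : 0 < M) {b c : ℕ} (hb : b ∣ M) (hc : c ∣ M) (hL : 0 < P.L)
    (hY : ∀ i, P.Y i = 2 ^ i)
    (hthr : ∀ b i, P.thr b i ≤ Real.exp ((P.Y (i - 1) : ℝ) ^ (4 / 5 : ℝ))) {Q : ℕ} (hQ : 2 ≤ Q)
    (hgood : F.good Q b c) {h : ℤ} (hl : h ∈ Lnk P.γ P.L b c) :
    ∏ p ∈ (setN (Fq F P) (Nat.gcd b c) (M / b) (M / c) (b / Nat.gcd b c) (c / Nat.gcd b c)
      h).filter (fun p : ℕ => ((Q + 1 : ℕ) : ℝ) ≤ (p : ℝ)), pf p ≤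
      Real.exp (100 * (1 + Lam P.L (Nat.gcd b c) / Q)) := by
  have hYm : StrictMono P.Y := by
    intro i j hij
    rw [hY, hY]
    exact Nat.pow_lt_pow_right (by norm_num) hij
  have hb0 : 0 < b := Nat.pos_of_dvd_of_pos hb hM
  have hc0 : 0 < c := Nat.pos_of_dvd_of_pos hc hM
  set g := Nat.gcd b c with hgdef
  have hg : 0 < g := Nat.gcd_pos_of_pos_left _ hb0
  have hgR : (0 : ℝ) < g := by exact_mod_cast hg
  set s := b / g with hs
  set s' := c / g with hs'
  have eb : g * s = b := Nat.mul_div_cancel' (Nat.gcd_dvd_left _ _)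
  have ec : g * s' = c := Nat.mul_div_cancel' (Nat.gcd_dvd_right _ _)
  have hs0 : 0 < s := Nat.pos_of_ne_zero fun h => by rw [h, mul_zero] at eb; omega
  have hs0' : 0 < s' := Nat.pos_of_ne_zero fun h => by rw [h, mul_zero] at ec; omega
  have hcop : Nat.Coprime s s' := Nat.coprime_div_gcd_div_gcd hg
  have eMb : M / (M / b) = b := Nat.div_div_self hb hM.ne'
  have eMc : M / (M / c) = c := Nat.div_div_self hc hM.ne'
  -- the set of active common primes
  set S : Finset ℕ := ((M / b) * (M / c)).primeFactors.filter (fun p => Q < p ∧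
    ∃ f f', Fq F P (M / b) p = some f ∧ Fq F P (M / c) p = some f') with hS
  set I : Finset ℕ := S.image P.blk with hI
  set v : ℕ → ℚ × ℚ := fun i => ((FcB F P b i).getD 0, (FcB F P c i).getD 0) with hv
  have hblk : ∀ p, Q < p → 2 ≤ P.blk p ∧ p ≤ 2 ^ P.blk p ∧ 2 ^ (P.blk p - 1) < p := by
    intro p hp
    have h1 : p ≤ P.Y (P.blk p) := Par.le_blk hYm p
    rw [hY] at h1
    have h2 : 2 ≤ P.blk p := by
      by_contra hcon
      have h3 : 2 ^ P.blk p ≤ 2 ^ 1 := Nat.pow_le_pow_right (by norm_num) (by omega)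
      omega
    refine ⟨h2, h1, ?_⟩
    have h3 := Par.lt_of_lt_blk (P := P) (p := p) (i := P.blk p - 1) (by omega)
    rwa [hY] at h3
  have hkey : ∀ i ∈ I, ∃ p f f', Q < p ∧ P.blk p = i ∧ Fc F P b p = some f ∧
      Fc F P c p = some f' ∧ v i = (f, f') := by
    intro i hi
    rw [hI, mem_image] at hi
    obtain ⟨p, hp, rfl⟩ := hi
    rw [hS, mem_filter] at hp
    obtain ⟨_, h1, f, f', h2, h3⟩ := hp
    unfold Fq at h2 h3
    rw [eMb] at h2
    rw [eMc] at h3
    refine ⟨p, f, f', h1, rfl, h2, h3, ?_⟩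
    rw [hv]
    simp only
    rw [← Fc_eq, ← Fc_eq, h2, h3]
    rfl
  have hLam := Lam_nonneg P.L g
  set E : ℕ → ℝ := fun i => Lam P.L g + 2 * ((2 : ℝ) ^ (i - 1)) ^ (4 / 5 : ℝ) with hE
  have hmain := prod_setN_idx_good (F := F) (Fc := Fq F P) (g := g) (q := M / b) (q' := M / c)
    (s := s) (s' := s') (γ := P.γ) hM (by rw [eb]; exact hb) (by rw [ec]; exact hc) hs0 hcop h
    ((Q + 1 : ℕ) : ℝ) I v (fun i => (2 : ℝ) ^ (i - 1)) E ?_ ?_ ?_ ?_
  · refine hmain.trans (Real.exp_le_exp.2 ?_)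
    -- the sum
    have hi0 : ∀ i ∈ I, Nat.log 2 Q + 1 ≤ i := by
      intro i hi
      obtain ⟨p, _, _, h1, h2, _⟩ := hkey i hi
      have h3 := (hblk p h1).2.1
      rw [h2] at h3
      by_contra hcon
      have h4 : 2 ^ i ≤ 2 ^ Nat.log 2 Q := Nat.pow_le_pow_right (by norm_num) (by omega)
      have h5 := Nat.pow_log_le_self 2 (x := Q) (by omega)
      omega
    have hl2 : (1 / 2 : ℝ) ≤ Real.log 2 := by
      have := Real.log_two_gt_d9
      linarith
    have hterm : ∀ i ∈ I, 2 * E i / ((2 : ℝ) ^ (i - 1) * Real.log ((2 : ℝ) ^ (i - 1))) ≤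
        8 * Lam P.L g * (1 / 2) ^ i + 10 * ((2 : ℝ) ^ (-(1 / 5) : ℝ)) ^ i := by
      intro i hi
      obtain ⟨p, _, _, h1, h2, _⟩ := hkey i hi
      have h3 := (hblk p h1).1
      rw [h2] at h3
      obtain ⟨n, rfl⟩ : ∃ n, i = n + 2 := ⟨i - 2, by omega⟩
      have e1 : n + 2 - 1 = n + 1 := by omega
      rw [hE]
      simp only
      rw [e1, Real.log_pow]
      have hpow : (0 : ℝ) < 2 ^ (n + 1) := by positivity
      have hn : (1 : ℝ) ≤ ((n + 1 : ℕ) : ℝ) := by push_cast; linarith [Nat.cast_nonneg (α := ℝ) n]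
      have hlog : (1 / 2 : ℝ) ≤ ((n + 1 : ℕ) : ℝ) * Real.log 2 := by nlinarith
      set a := ((2 : ℝ) ^ (n + 1)) ^ (4 / 5 : ℝ) with ha
      have ha0 : 0 ≤ a := by positivity
      have h4 : 2 * (Lam P.L g + 2 * a) / ((2 : ℝ) ^ (n + 1) * (((n + 1 : ℕ) : ℝ) * Real.log 2)) ≤
          2 * (Lam P.L g + 2 * a) / ((2 : ℝ) ^ (n + 1) * (1 / 2)) := by
        refine div_le_div_of_nonneg_left (by positivity) (by positivity) ?_
        exact mul_le_mul_of_nonneg_left hlog hpow.le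
      refine h4.trans ?_
      have h5 : a / (2 : ℝ) ^ (n + 1) = ((2 : ℝ) ^ (-(1 / 5) : ℝ)) ^ (n + 1) := by
        rw [ha, ← Real.rpow_natCast 2 (n + 1), ← Real.rpow_natCast _ (n + 1),
          ← Real.rpow_mul (by norm_num), ← Real.rpow_mul (by norm_num),
          ← Real.rpow_sub (by norm_num)]
        congr 1
        ring
      have h6 : ((2 : ℝ) ^ (-(1 / 5) : ℝ)) ^ (n + 1) * (4 / 5) ≤
          ((2 : ℝ) ^ (-(1 / 5) : ℝ)) ^ (n + 2) := by
        rw [pow_succ _ (n + 1)]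
        refine mul_le_mul_of_nonneg_left ?_ (by positivity)
        have h7 : (4 / 5 : ℝ) ^ (5 : ℕ) ≤ 1 / 2 := by norm_num
        calc (4 / 5 : ℝ) = ((4 / 5 : ℝ) ^ (5 : ℕ)) ^ (1 / 5 : ℝ) := by
              rw [← Real.rpow_natCast, ← Real.rpow_mul (by norm_num)]
              norm_num
          _ ≤ (1 / 2 : ℝ) ^ (1 / 5 : ℝ) := Real.rpow_le_rpow (by norm_num) h7 (by norm_num)
          _ = (2 : ℝ) ^ (-(1 / 5) : ℝ) := by
              rw [show (1 / 2 : ℝ) = (2 : ℝ) ^ (-1 : ℝ) by rw [Real.rpow_neg_one]; norm_num,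
                ← Real.rpow_mul (by norm_num)]
              norm_num
      have e2 : 2 * (Lam P.L g + 2 * a) / ((2 : ℝ) ^ (n + 1) * (1 / 2)) =
          8 * Lam P.L g * (1 / 2) ^ (n + 2) + 8 * (a / (2 : ℝ) ^ (n + 1)) := by
        rw [pow_succ (1 / 2 : ℝ) (n + 1), one_div_pow]
        field_simp
        ring
      rw [e2, h5]
      linarith
    refine (sum_le_sum hterm).trans ?_
    rw [sum_add_distrib, ← mul_sum, ← mul_sum]
    have h1 := sum_half (I := I) (i0 := Nat.log 2 Q + 1) hi0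
    have h2 := sum_rho I
    have h3 : (1 / 2 : ℝ) ^ (Nat.log 2 Q + 1) ≤ 1 / Q := by
      rw [one_div_pow]
      have h4 : Q < 2 ^ (Nat.log 2 Q + 1) := Nat.lt_pow_succ_log_self (by norm_num) Q
      have hQ0 : (0 : ℝ) < Q := by exact_mod_cast (by omega : 0 < Q)
      exact one_div_le_one_div_of_le hQ0 (by exact_mod_cast h4.le)
    have h5 : 8 * Lam P.L g * ∑ i ∈ I, (1 / 2 : ℝ) ^ i ≤ 8 * Lam P.L g * (2 * (1 / Q)) :=
      mul_le_mul_of_nonneg_left (h1.trans (by linarith)) (by positivity)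
    have hQ0 : (0 : ℝ) < Q := by exact_mod_cast (by omega : 0 < Q)
    have h6 : 8 * Lam P.L g * (2 * (1 / (Q : ℝ))) = 16 * (Lam P.L g / Q) := by ring
    have h7 : 0 ≤ Lam P.L g / Q := by positivity
    have : 10 * ∑ i ∈ I, ((2 : ℝ) ^ (-(1 / 5) : ℝ)) ^ i ≤ 80 := by linarith
    rw [h6] at h5
    linarith
  · intro i hi
    obtain ⟨p, _, _, h1, h2, _⟩ := hkey i hi
    have h3 := (hblk p h1).1
    rw [h2] at h3
    exact one_lt_pow₀ (by norm_num) (by omega)
  · intro p hp hpQ _ _ f f' hf hf' _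
    have hpQ' : Q < p := by
      have : (Q + 1 : ℕ) ≤ p := by exact_mod_cast hpQ
      omega
    have hpS : p ∈ S := by
      rw [hS, mem_filter]
      exact ⟨hp, hpQ', f, f', hf, hf'⟩
    refine ⟨P.blk p, mem_image_of_mem _ hpS, ?_, ?_⟩
    · unfold Fq at hf hf'
      rw [eMb] at hf
      rw [eMc] at hf'
      rw [hv]
      simp only
      rw [← Fc_eq, ← Fc_eq, hf, hf']
      rfl
    · exact_mod_cast (hblk p hpQ').2.2.le
  · intro i _
    rw [hE]
    positivity
  · intro i hi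
    obtain ⟨p, f, f', h1, h2, h3, h4, h5⟩ := hkey i hi
    obtain ⟨_, c2, c3, c4⟩ := Fc_spec h3
    obtain ⟨_, d2, d3, d4⟩ := Fc_spec h4
    have hgl : ∀ m, P.Y (P.blk p) ≤ P.cut m → F.good (P.cut m) b c := fun m hm =>
      FL.good_mono (h1.le.trans ((Par.le_blk hYm p).trans hm)) hgood
    refine ⟨P.cut (mst F P b p), P.cut (mst F P c p), k0 F (P.cut (mst F P b p)) b f,
      k0 F (P.cut (mst F P c p)) c f', ?_, ?_, ?_, ?_, ?_⟩
    · rw [h5, eb]; exact isC_k0 _ _ _
    · rw [h5, ec]; exact isC_k0 _ _ _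
    · rw [eb, ec]; exact hgl _ c2
    · rw [eb, ec]; exact hgl _ d2
    · rw [h5, eb, ec]
      simp only
      have hlk : |((s : ℝ) - s') * P.γ + h| < P.L / g := mem_Hf.1 hl
      have hlk' : (g : ℝ) * |((s : ℝ) - s') * P.γ + h| ≤ P.L := by
        rw [lt_div_iff₀ hgR] at hlk
        linarith
      set k : ℝ := (k0 F (P.cut (mst F P b p)) b f : ℝ) with hk
      set k' : ℝ := (k0 F (P.cut (mst F P c p)) c f' : ℝ) with hk'
      have hk1 : 1 ≤ k := k0_pos' _ _ _
      have hk1' : 1 ≤ k' := k0_pos' _ _ _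
      set x := max 1 ((b : ℝ) * |P.γ - f| / P.L) with hx
      set x' := max 1 ((c : ℝ) * |P.γ - f'| / P.L) with hx'
      have x1 : 1 ≤ x := le_max_left _ _
      have x1' : 1 ≤ x' := le_max_left _ _
      have dx : (b : ℝ) * |P.γ - f| ≤ x * P.L := by
        calc (b : ℝ) * |P.γ - f| = (b : ℝ) * |P.γ - f| / P.L * P.L := by field_simp
          _ ≤ _ := mul_le_mul_of_nonneg_right (le_max_right _ _) hL.le
      have dx' : (c : ℝ) * |P.γ - f'| ≤ x' * P.L := by
        calc (c : ℝ) * |P.γ - f'| = (c : ℝ) * |P.γ - f'| / P.L * P.L := by field_simp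
          _ ≤ _ := mul_le_mul_of_nonneg_right (le_max_right _ _) hL.le
      set t := Real.exp (((2 : ℝ) ^ (i - 1)) ^ (4 / 5 : ℝ)) with ht
      have ht0 : 0 < t := Real.exp_pos _
      have hkx : k * x ≤ t := by
        have := c4.trans (hthr b (P.blk p))
        rw [hY, h2] at this
        push_cast at this
        exact this
      have hkx' : k' * x' ≤ t := by
        have := d4.trans (hthr c (P.blk p))
        rw [hY, h2] at this
        push_cast at this
        exact this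
      have e1 : (b : ℝ) * |P.γ - f| + (c : ℝ) * |P.γ - f'| +
          g * |((s : ℝ) - s') * P.γ + h| ≤ 3 * (x * x') * P.L := by
        have h6 : x ≤ x * x' := by nlinarith
        have h7 : x' ≤ x * x' := by nlinarith
        have h8 : 1 ≤ x * x' := by nlinarith
        calc _ ≤ x * P.L + x' * P.L + P.L := by linarith
          _ ≤ _ := by nlinarith
      have e2 : k * k' * ((b : ℝ) * |P.γ - f| + (c : ℝ) * |P.γ - f'| +
          g * |((s : ℝ) - s') * P.γ + h|) ≤ 3 * (t * t) * P.L := by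
        calc _ ≤ k * k' * (3 * (x * x') * P.L) := mul_le_mul_of_nonneg_left e1 (by positivity)
          _ = 3 * ((k * x) * (k' * x')) * P.L := by ring
          _ ≤ 3 * (t * t) * P.L := by
              have : (k * x) * (k' * x') ≤ t * t :=
                mul_le_mul hkx hkx' (by positivity) ht0.le
              nlinarith
      refine e2.trans ?_
      rw [hE]
      simp only
      rw [Real.exp_add]
      have e3 : Real.exp (2 * ((2 : ℝ) ^ (i - 1)) ^ (4 / 5 : ℝ)) = t * t := by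
        rw [ht, ← Real.exp_add]; congr 1; ring
      have e4 : Real.exp (Lam P.L g) = 3 * max 1 (P.L / g) := by
        unfold Lam
        refine Real.exp_log ?_
        have : (1 : ℝ) ≤ max 1 (P.L / g) := le_max_left _ _
        linarith
      rw [e3, e4]
      have e5 : P.L ≤ g * max 1 (P.L / g) := by
        have h6 : P.L / g ≤ max 1 (P.L / g) := le_max_right _ _
        rw [div_le_iff₀ hgR] at h6
        linarith
      calc 3 * (t * t) * P.L ≤ 3 * (t * t) * (g * max 1 (P.L / g)) :=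
            mul_le_mul_of_nonneg_left e5 (by positivity)
        _ = g * (3 * max 1 (P.L / g) * (t * t)) := by ring

/-! ### the full boost -/

lemma boostB_eq (hM : 0 < M) {b c : ℕ} (hb : b ∣ M) (hc : c ∣ M) (lam : ℕ → ℕ → Option ℤ)
    (h : ℤ) : boostB M lam b c h = boost (fun r => lam (M / r)) (M / b) (M / c)
      (b / Nat.gcd b c) (c / Nat.gcd b c) h := by
  have hq : M / b ∣ M := Nat.div_dvd_of_dvd hb
  have hq' : M / c ∣ M := Nat.div_dvd_of_dvd hc
  have e := boost_div hM hq hq' lam h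
  have eMb : M / (M / b) = b := Nat.div_div_self hb hM.ne'
  have eMc : M / (M / c) = c := Nat.div_div_self hc hM.ne'
  have e1 := cof_div hM hq hq'
  have e2 := cof_div' hM hq hq'
  rw [eMb, eMc] at e e1 e2
  rw [← e, e1, e2]

/-- same point and different points exclude each other -/
lemma disj_EN (F : ℕ → ℕ → Option ℚ) (g q q' s s' : ℕ) (h : ℤ) :
    Disjoint (setE F q q' s s' h) (setN F g q q' s s' h) := by
  classical
  rw [Finset.disjoint_left]
  intro p hp1 hp2
  unfold setN at hp2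
  unfold setE at hp1
  rw [Finset.mem_filter] at hp1 hp2
  obtain ⟨_, h2, h3, f, f', hf1, hf1', _, _, hgap, _⟩ := hp2
  obtain ⟨_, _, _, f₁, f₁', e1, e2, _, _, h0⟩ := hp1
  rw [hf1, Option.some.injEq] at e1
  rw [hf1', Option.some.injEq] at e2
  subst e1
  subst e2
  exact hgap h0

open Classical in
/-- primes `≤ Q` -/
noncomputable def prQ (Q : ℕ) : Finset ℕ := (range (Q + 1)).filter Nat.Prime

open Classical in
lemma bst_eq (Q M b c : ℕ) : BoostRx398.bst (prQ Q) M b c =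
    ∏ p ∈ (prQ Q).filter (fun p => b.factorization p = c.factorization p ∧
      b.factorization p < M.factorization p), pf p := by
  rw [Finset.prod_filter]
  unfold BoostRx398.bst BoostRx398.tf pf
  rfl

/-- common missing primes -/
lemma common_fact (hM : 0 < M) {b c p : ℕ} (hb : b ∣ M) (hc : c ∣ M)
    (hp : p ∈ ((M / b) * (M / c)).primeFactors) (h1 : ¬ p ∣ b / Nat.gcd b c)
    (h2 : ¬ p ∣ c / Nat.gcd b c) :
    b.factorization p = c.factorization p ∧ b.factorization p < M.factorization p := by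
  have hb0 : 0 < b := Nat.pos_of_dvd_of_pos hb hM
  have hc0 : 0 < c := Nat.pos_of_dvd_of_pos hc hM
  have hq0 : 0 < M / b := Nat.div_pos (Nat.le_of_dvd hM hb) hb0
  have hq0' : 0 < M / c := Nat.div_pos (Nat.le_of_dvd hM hc) hc0
  have e := fact_cof hb0 hc0 h1 h2
  refine ⟨e, ?_⟩
  rw [Nat.primeFactors_mul hq0.ne' hq0'.ne', mem_union] at hp
  rcases hp with hp | hp
  · exact mem_pf_div hM hb hp
  · rw [e]; exact mem_pf_div hM hc hp

open Classical in
/-- **THE FAR BOOST** -/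
theorem boost_far (hM : 0 < M) {b c : ℕ} (hb : b ∣ M) (hc : c ∣ M) (hL : 0 < P.L)
    (hY : ∀ i, P.Y i = 2 ^ i)
    (hthr : ∀ b i, P.thr b i ≤ Real.exp ((P.Y (i - 1) : ℝ) ^ (4 / 5 : ℝ))) {Q : ℕ} (hQ : 2 ≤ Q)
    (hgood : F.good Q b c) {h : ℤ} (hl : h ∈ Lnk P.γ P.L b c)
    (hE : ∀ p ∈ setE (Fq F P) (M / b) (M / c) (b / Nat.gcd b c) (c / Nat.gcd b c) h, p ≤ Q) :
    boostB M (lamR F P) b c h ≤ Real.exp (100 * (1 + Lam P.L (Nat.gcd b c) / Q)) *
      (PureL2x232.B1 b c * BoostRx398.bst (prQ Q) M b c) := by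
  have hb0 : 0 < b := Nat.pos_of_dvd_of_pos hb hM
  have hc0 : 0 < c := Nat.pos_of_dvd_of_pos hc hM
  have hfar := prodN_far hM hb hc hL hY hthr hQ hgood hl
  rw [boostB_eq hM hb hc]
  set g := Nat.gcd b c with hgdef
  have hg : 0 < g := Nat.gcd_pos_of_pos_left _ hb0
  set s := b / g with hs
  set s' := c / g with hs'
  have eb : g * s = b := Nat.mul_div_cancel' (Nat.gcd_dvd_left _ _)
  have ec : g * s' = c := Nat.mul_div_cancel' (Nat.gcd_dvd_right _ _)
  have hs0 : 0 < s := Nat.pos_of_ne_zero fun h => by rw [h, mul_zero] at eb; omega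
  have hs0' : 0 < s' := Nat.pos_of_ne_zero fun h => by rw [h, mul_zero] at ec; omega
  have hcop : Nat.Coprime s s' := Nat.coprime_div_gcd_div_gcd hg
  have h1 := BoostCx972.boost_le (isLabq (M := M) (F := F) (P := P)) (g := g) (q := M / b)
    (q' := M / c) hg hs0 hs0' hcop h
  refine h1.trans ?_
  have eB1 : ∏ p ∈ (s * s').primeFactors, pf p = PureL2x232.B1 b c := rfl
  rw [eB1]
  set SN := setN (Fq F P) g (M / b) (M / c) s s' h with hSN
  set SE := setE (Fq F P) (M / b) (M / c) s s' h with hSE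
  have hsplit : ∏ p ∈ SN, pf p = (∏ p ∈ SN.filter (fun p : ℕ => ((Q + 1 : ℕ) : ℝ) ≤ (p : ℝ)), pf p) *
      ∏ p ∈ SN.filter (fun p : ℕ => ¬ ((Q + 1 : ℕ) : ℝ) ≤ (p : ℝ)), pf p :=
    (Finset.prod_filter_mul_prod_filter_not _ _ _).symm
  have hprN : ∀ p ∈ SN, p.Prime := fun p hp => prime_setN hp
  have hprE : ∀ p ∈ SE, p.Prime := fun p hp => prime_setE hp
  have hlow : (∏ p ∈ SE, pf p) * ∏ p ∈ SN.filter (fun p : ℕ => ¬ ((Q + 1 : ℕ) : ℝ) ≤ (p : ℝ)),
      pf p ≤ BoostRx398.bst (prQ Q) M b c := by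
    rw [bst_eq, ← Finset.prod_union]
    · refine prod_pf_mono ?_ ?_
      · intro p hp
        rw [mem_union] at hp
        rw [mem_filter]
        rcases hp with hp | hp
        · have hpQ := hE p hp
          have hpp := hprE p hp
          rw [hSE] at hp
          unfold setE at hp
          rw [mem_filter] at hp
          obtain ⟨h0, h2, h3, _⟩ := hp
          refine ⟨?_, common_fact hM hb hc h0 h2 h3⟩
          unfold prQ
          rw [mem_filter, mem_range]
          exact ⟨by omega, hpp⟩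
        · rw [mem_filter] at hp
          obtain ⟨hp, hpQ⟩ := hp
          have hpp := hprN p hp
          have hpQ' : p ≤ Q := by
            rw [not_le] at hpQ
            have : p < Q + 1 := by exact_mod_cast hpQ
            omega
          rw [hSN] at hp
          unfold setN at hp
          rw [mem_filter] at hp
          obtain ⟨h0, h2, h3, _⟩ := hp
          refine ⟨?_, common_fact hM hb hc h0 h2 h3⟩
          unfold prQ
          rw [mem_filter, mem_range]
          exact ⟨by omega, hpp⟩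
      · intro p hp
        rw [mem_filter] at hp
        unfold prQ at hp
        rw [mem_filter] at hp
        exact hp.1.2
    · exact Disjoint.mono_right (Finset.filter_subset _ _) (disj_EN _ _ _ _ _ _ _)
  have hB1 : 0 ≤ PureL2x232.B1 b c := by
    rw [← eB1]
    exact (prod_pf_pos fun p hp => Nat.prime_of_mem_primeFactors hp).le
  have hN0 : 0 ≤ ∏ p ∈ SN.filter (fun p : ℕ => ((Q + 1 : ℕ) : ℝ) ≤ (p : ℝ)), pf p :=
    (prod_pf_pos fun p hp => hprN p (mem_filter.1 hp).1).le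
  have hb1 : 0 ≤ BoostRx398.bst (prQ Q) M b c := by
    rw [bst_eq]
    exact (prod_pf_pos fun p hp => by
      rw [mem_filter] at hp
      unfold prQ at hp
      exact (mem_filter.1 hp.1).2).le
  rw [hsplit]
  calc PureL2x232.B1 b c * (∏ p ∈ SE, pf p) *
        ((∏ p ∈ SN.filter (fun p : ℕ => ((Q + 1 : ℕ) : ℝ) ≤ (p : ℝ)), pf p) *
          ∏ p ∈ SN.filter (fun p : ℕ => ¬ ((Q + 1 : ℕ) : ℝ) ≤ (p : ℝ)), pf p)
      = (∏ p ∈ SN.filter (fun p : ℕ => ((Q + 1 : ℕ) : ℝ) ≤ (p : ℝ)), pf p) *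
          (PureL2x232.B1 b c * ((∏ p ∈ SE, pf p) *
            ∏ p ∈ SN.filter (fun p : ℕ => ¬ ((Q + 1 : ℕ) : ℝ) ≤ (p : ℝ)), pf p)) := by ring
    _ ≤ Real.exp (100 * (1 + Lam P.L g / Q)) * (PureL2x232.B1 b c *
          BoostRx398.bst (prQ Q) M b c) := by
        refine mul_le_mul hfar (mul_le_mul_of_nonneg_left hlow hB1) ?_ (Real.exp_pos _).le
        refine mul_nonneg hB1 (mul_nonneg ?_ ?_)
        · exact (prod_pf_pos hprE).le
        · exact (prod_pf_pos fun p hp => hprN p (mem_filter.1 hp).1).le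

/-- the factor `exp` for `t ≥ 1` -/
lemma Lam_far {L g : ℝ} {Q : ℕ} (hg : 0 < g) (hLg : L ≤ g) (hQ : 2 ≤ Q) : Lam L g / Q ≤ 1 := by
  have hQ0 : (2 : ℝ) ≤ Q := by exact_mod_cast hQ
  rw [div_le_one (by linarith)]
  unfold Lam
  rw [max_eq_left ((div_le_one hg).2 hLg), mul_one]
  have h1 : Real.log 3 ≤ 2 := by
    rw [Real.log_le_iff_le_exp (by norm_num)]
    have := Real.add_one_le_exp (2 : ℝ)
    linarith
  linarith

/-! ### near pairs -/

open Classical in
/-- aligned common primes `> X`: the literal form of `NearTotx360.near_total` -/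
theorem P2_far (hM : 0 < M) {b c : ℕ} (hb : b ∣ M) (hc : c ∣ M) (hL : 0 < P.L)
    (hY : ∀ i, P.Y i = 2 ^ i)
    (hthr : ∀ b i, P.thr b i ≤ Real.exp ((P.Y (i - 1) : ℝ) ^ (4 / 5 : ℝ))) {X : ℝ} (hX : 2 ≤ X)
    (hgood : F.good ⌊X⌋₊ b c) {h : ℤ} (hl : h ∈ Lnk P.γ P.L b c)
    (hE : ∀ p ∈ setE (Fq F P) (M / b) (M / c) (b / Nat.gcd b c) (c / Nat.gcd b c) h,
      (p : ℝ) ≤ X) :
    ∏ p ∈ (NearBoostx60.P2 M (lamR F P) b c).filter (fun p : ℕ => X < (p : ℝ) ∧
      (p : ℤ) ∣ h - NearBoostx60.res (lamR F P) b c p), (1 - 1 / (p : ℝ))⁻¹ ≤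
      Real.exp (100 * (1 + Lam P.L (Nat.gcd b c) / (⌊X⌋₊ : ℕ))) := by
  have hQ : 2 ≤ ⌊X⌋₊ := Nat.le_floor (by exact_mod_cast hX)
  have hfar := prodN_far hM hb hc hL hY hthr hQ hgood hl
  refine le_trans ?_ hfar
  have hb0 : 0 < b := Nat.pos_of_dvd_of_pos hb hM
  have hc0 : 0 < c := Nat.pos_of_dvd_of_pos hc hM
  have hg : 0 < Nat.gcd b c := Nat.gcd_pos_of_pos_left _ hb0
  have hs0 : 0 < b / Nat.gcd b c := Nat.div_pos (Nat.le_of_dvd hb0 (Nat.gcd_dvd_left _ _)) hg
  have hcop : Nat.Coprime (b / Nat.gcd b c) (c / Nat.gcd b c) := Nat.coprime_div_gcd_div_gcd hg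
  have eMb : M / (M / b) = b := Nat.div_div_self hb hM.ne'
  have eMc : M / (M / c) = c := Nat.div_div_self hc hM.ne'
  have e0 : ∀ S : Finset ℕ, ∏ p ∈ S, (1 - 1 / (p : ℝ))⁻¹ = ∏ p ∈ S, pf p := fun S => rfl
  rw [e0]
  refine prod_pf_mono ?_ fun p hp => prime_setN (mem_filter.1 hp).1
  intro p hp
  rw [mem_filter] at hp
  obtain ⟨hp2, hpX, hdv⟩ := hp
  unfold NearBoostx60.P2 at hp2
  rw [mem_filter] at hp2
  obtain ⟨hpf, h1, h2, h3, h4⟩ := hp2
  have hfu : free M b ∪ free M c = ((M / b) * (M / c)).primeFactors := by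
    have := free_union hM (Nat.div_dvd_of_dvd hb) (Nat.div_dvd_of_dvd hc)
    rwa [eMb, eMc] at this
  rw [hfu] at hpf
  obtain ⟨a, ha⟩ := Option.ne_none_iff_exists'.1 h3
  obtain ⟨a', ha'⟩ := Option.ne_none_iff_exists'.1 h4
  have hres : h - NearBoostx60.res (lamR F P) b c p =
      h - ((b / Nat.gcd b c : ℕ) : ℤ) * a + ((c / Nat.gcd b c : ℕ) : ℤ) * a' := by
    unfold NearBoostx60.res
    rw [if_neg h2, if_neg h1, ha, ha', Option.getD_some, Option.getD_some]
    ring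
  rw [hres] at hdv
  have hch : charged (fun q p => lamR F P (M / q) p) (M / b) (M / c) (b / Nat.gcd b c)
      (c / Nat.gcd b c) h p := by
    unfold charged
    refine Or.inr (Or.inr ⟨h1, h2, a, a', ?_, ?_, hdv⟩)
    · simp only [eMb]; exact ha
    · simp only [eMc]; exact ha'
  have hmem := charged_set_eq (isLabq (M := M) (F := F) (P := P)) (g := Nat.gcd b c) (q := M / b)
    (q' := M / c) hg hs0 hcop h
  have hp3 : p ∈ ((M / b) * (M / c)).primeFactors.filter
      (charged (fun q p => lamR F P (M / q) p) (M / b) (M / c) (b / Nat.gcd b c)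
        (c / Nat.gcd b c) h) := mem_filter.2 ⟨hpf, hch⟩
  rw [hmem, mem_union, mem_union] at hp3
  rcases hp3 with (hp3 | hp3) | hp3
  · exfalso
    unfold setD at hp3
    rw [mem_filter] at hp3
    rcases hp3.2 with ⟨h5, _⟩ | ⟨h5, _⟩
    · exact h2 h5
    · exact h1 h5
  · exact absurd (hE p hp3) (not_le.2 hpX)
  · rw [mem_filter]
    refine ⟨hp3, ?_⟩
    have : ⌊X⌋₊ < p := (Nat.floor_lt (by linarith)).2 hpX
    exact_mod_cast this

/-- the constant of the near part -/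
lemma Lam_near {L g : ℝ} :
    Lam L g / (⌊Real.exp ((max 1 (L / g)) ^ (1 / 8 : ℝ))⌋₊ : ℕ) ≤ 10 := by
  set x := max 1 (L / g) with hx
  have x1 : 1 ≤ x := le_max_left _ _
  set y := x ^ (1 / 8 : ℝ) with hy
  have y1 : 1 ≤ y := Real.one_le_rpow x1 (by norm_num)
  have hfl : Real.exp y < (⌊Real.exp y⌋₊ : ℕ) + 1 := Nat.lt_floor_add_one _
  have hey := Real.add_one_le_exp y
  have hQ : y ≤ (⌊Real.exp y⌋₊ : ℕ) := by linarith
  rw [div_le_iff₀ (by linarith)]
  have e1 : Lam L g = Real.log 3 + 8 * Real.log y := by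
    unfold Lam
    rw [← hx, Real.log_mul (by norm_num) (by linarith), hy, Real.log_rpow (by linarith)]
    ring
  have h1 : Real.log 3 ≤ 2 := by
    rw [Real.log_le_iff_le_exp (by norm_num)]
    have := Real.add_one_le_exp (2 : ℝ)
    linarith
  have h2 : Real.log y ≤ y - 1 := Real.log_le_sub_one_of_pos (by linarith)
  rw [e1]
  linarith

end far

end Crest.Agent.R4C.BoostTopx19
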