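import Crest.Agent.R4C.SplitDef_945
import Crest.Agent.R4C.BoostTop_19

/-!
# Row 4: the boost in the language of the split (helper100)

For `F : FL M`, the rule (`Y i = 2^i`, `thr ≤ exp (Y^(4/5))`), a linked offset `h`, pair good at
`P.cut l`, all aligned primes `≤ P.cut l` (`AlLe`), near cut `X1 ≤ P.cut l`:

* **`boost_al`** : `boostB ≤ exp 1200 * (B1 b c * bst (prQ (P.cut l)) M b c)`;
* **`boost_al_log`** : `boostB ≤ exp 1200 * CM * log (P.cut l) * B1 b c`.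
-/

set_option autoImplicit false

namespace Crest.Agent.R4C.BoostAlx100

open Finset Crest.Agent.R4C.Basex935 Crest.Agent.R4C.FLDefx935 Crest.Agent.R4C.BoostCx972
  Crest.Agent.R4C.CrCoinx935 Crest.Agent.R4C.CrCountx935 Crest.Agent.R4C.Bridgex882
  Crest.Agent.R4C.PrefixMx882 Crest.Agent.R4C.Rulex945 Crest.Agent.R4C.Sharedx11
  Crest.Agent.R4C.Splitx945 Crest.Agent.R4C.BoostTopx19

variable {M : ℕ} {F : FL M} {P : Par}

/-- the same-point primes of `BoostC_972` are aligned primes of `Shared_11` -/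
lemma setE_le (hM : 0 < M) {b c : ℕ} (hb : b ∣ M) (hc : c ∣ M) {h : ℤ} {x : ℕ}
    (hal : AlLe F P b c h x) :
    ∀ p ∈ setE (Fq F P) (M / b) (M / c) (b / Nat.gcd b c) (c / Nat.gcd b c) h, p ≤ x := by
  classical
  intro p hp
  have hpp := prime_setE hp
  unfold setE at hp
  rw [mem_filter] at hp
  obtain ⟨h0, h1, h2, f, f', h3, h4, h5, h6, h7⟩ := hp
  refine hal p ?_
  unfold alSet
  rw [mem_filter]
  have eMb : M / (M / b) = b := Nat.div_div_self hb hM.ne'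
  have eMc : M / (M / c) = c := Nat.div_div_self hc hM.ne'
  have hfu : free M b ∪ free M c = ((M / b) * (M / c)).primeFactors := by
    have := free_union hM (Nat.div_dvd_of_dvd hb) (Nat.div_dvd_of_dvd hc)
    rwa [eMb, eMc] at this
  refine ⟨by rw [hfu]; exact h0, f, f', hpp, h1, h2, ?_, ?_, h5, h6, h7⟩
  · unfold Fq at h3
    rwa [eMb] at h3
  · unfold Fq at h4
    rwa [eMc] at h4

lemma B1_nonneg (b c : ℕ) : 0 ≤ PureL2x232.B1 b c := by
  unfold PureL2x232.B1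
  exact (prod_pf_pos fun p hp => Nat.prime_of_mem_primeFactors hp).le

lemma bst_nonneg (Q M b c : ℕ) : 0 ≤ BoostRx398.bst (prQ Q) M b c := by
  classical
  rw [bst_eq]
  exact (prod_pf_pos fun p hp => by
    rw [mem_filter] at hp
    unfold prQ at hp
    exact (mem_filter.1 hp.1).2).le

lemma bst_le_log {Q : ℕ} (hQ : 2 ≤ Q) (M b c : ℕ) :
    BoostRx398.bst (prQ Q) M b c ≤ CM * Real.log Q := by
  classical
  rw [bst_eq]
  refine prod_pf_le_mertens (by exact_mod_cast hQ) fun p hp => ?_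
  rw [mem_filter] at hp
  unfold prQ at hp
  rw [mem_filter, mem_range] at hp
  exact ⟨hp.1.2, by exact_mod_cast Nat.lt_succ_iff.1 hp.1.1⟩

lemma Lam_X1 {L g : ℝ} {Q : ℕ} (hQ : Real.exp ((max 1 (L / g)) ^ (1 / 8 : ℝ)) ≤ Q) :
    Lam L g / Q ≤ 10 := by
  have h := Lam_near (L := L) (g := g)
  set e := Real.exp ((max 1 (L / g)) ^ (1 / 8 : ℝ)) with he
  have x1 : (1 : ℝ) ≤ max 1 (L / g) := le_max_left _ _
  have y1 : 1 ≤ (max 1 (L / g)) ^ (1 / 8 : ℝ) := Real.one_le_rpow x1 (by norm_num)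
  have he1 : 1 ≤ e := Real.one_le_exp (by linarith)
  have hf : 0 < ⌊e⌋₊ := Nat.floor_pos.2 he1
  have h1 : (⌊e⌋₊ : ℝ) ≤ Q := (Nat.floor_le (by linarith)).trans hQ
  have h2 : (0 : ℝ) < ⌊e⌋₊ := by exact_mod_cast hf
  exact (div_le_div_of_nonneg_left (Lam_nonneg L g) h2 h1).trans h

/-- **the boost of a pair with aligned primes `≤ Q`** -/
theorem boost_alQ (hM : 0 < M) {b c : ℕ} (hb : b ∣ M) (hc : c ∣ M) (hL : 0 < P.L)
    (hY : ∀ i, P.Y i = 2 ^ i)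
    (hthr : ∀ b i, P.thr b i ≤ Real.exp ((P.Y (i - 1) : ℝ) ^ (4 / 5 : ℝ))) {Q : ℕ} (hQ : 2 ≤ Q)
    (hgood : F.good Q b c) {h : ℤ} (hl : h ∈ Lnk P.γ P.L b c) (hal : AlLe F P b c h Q)
    (hX : X1 P b c ≤ Q ∨ P.L ≤ (Nat.gcd b c : ℝ)) :
    boostB M (lamR F P) b c h ≤ Real.exp 1200 *
      (PureL2x232.B1 b c * BoostRx398.bst (prQ Q) M b c) := by
  have h1 := boost_far hM hb hc hL hY hthr hQ hgood hl (setE_le hM hb hc hal)
  refine h1.trans (mul_le_mul_of_nonneg_right (Real.exp_le_exp.2 ?_)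
    (mul_nonneg (B1_nonneg b c) (bst_nonneg _ _ _ _)))
  have h2 : Lam P.L (Nat.gcd b c) / Q ≤ 10 := by
    rcases hX with hX | hX
    · exact Lam_X1 hX
    · have hg : (0 : ℝ) < (Nat.gcd b c : ℕ) := by
        exact_mod_cast Nat.gcd_pos_of_pos_left _ (Nat.pos_of_dvd_of_pos hb hM)
      exact (Lam_far hg hX hQ).trans (by norm_num)
  linarith

/-- **the boost in the classes of the split** -/
theorem boost_al (hM : 0 < M) {b c : ℕ} (hb : b ∣ M) (hc : c ∣ M) (hL : 0 < P.L)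
    (hY : ∀ i, P.Y i = 2 ^ i)
    (hthr : ∀ b i, P.thr b i ≤ Real.exp ((P.Y (i - 1) : ℝ) ^ (4 / 5 : ℝ))) {l : ℕ}
    (hQ : 2 ≤ P.cut l) (hgood : F.good (P.cut l) b c) {h : ℤ} (hl : h ∈ Lnk P.γ P.L b c)
    (hal : AlLe F P b c h (P.cut l)) (hX : X1 P b c ≤ P.cut l ∨ P.L ≤ (Nat.gcd b c : ℝ)) :
    boostB M (lamR F P) b c h ≤ Real.exp 1200 *
      (PureL2x232.B1 b c * BoostRx398.bst (prQ (P.cut l)) M b c) :=
  boost_alQ hM hb hc hL hY hthr hQ hgood hl hal hX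

/-- the crude form -/
theorem boost_al_log (hM : 0 < M) {b c : ℕ} (hb : b ∣ M) (hc : c ∣ M) (hL : 0 < P.L)
    (hY : ∀ i, P.Y i = 2 ^ i)
    (hthr : ∀ b i, P.thr b i ≤ Real.exp ((P.Y (i - 1) : ℝ) ^ (4 / 5 : ℝ))) {l : ℕ}
    (hQ : 2 ≤ P.cut l) (hgood : F.good (P.cut l) b c) {h : ℤ} (hl : h ∈ Lnk P.γ P.L b c)
    (hal : AlLe F P b c h (P.cut l)) (hX : X1 P b c ≤ P.cut l ∨ P.L ≤ (Nat.gcd b c : ℝ)) :
    boostB M (lamR F P) b c h ≤
      Real.exp 1200 * CM * Real.log (P.cut l) * PureL2x232.B1 b c := by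
  refine (boost_al hM hb hc hL hY hthr hQ hgood hl hal hX).trans ?_
  have h1 := bst_le_log hQ M b c
  calc Real.exp 1200 * (PureL2x232.B1 b c * BoostRx398.bst (prQ (P.cut l)) M b c)
      ≤ Real.exp 1200 * (PureL2x232.B1 b c * (CM * Real.log (P.cut l))) :=
        mul_le_mul_of_nonneg_left (mul_le_mul_of_nonneg_left h1 (B1_nonneg b c))
          (Real.exp_pos _).le
    _ = _ := by ring

end Crest.Agent.R4C.BoostAlx100
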