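import Crest.Agent.R4C.BoxW_899
import Crest.Agent.R4C.LBoxDef_662

/-!
# Row 4, class (L): arrow C of `LBoxDef_662` over one `FL` (helper899)

* `PairW.congr` : the candidate sets only matter at the two words
* `zb_of_tw`    : letters of the untwisted word above the cut
* `pairG`       : `PairW` for general untwisted words `z0, z0'` and any `Q` (primes `≤ cut t`
  missing in `z0`)
* `arrC_of`     : `ArrA` implies `ArrC` (candidate sets from the twists), parameters over `Hy`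
-/

set_option autoImplicit false

namespace Crest.Agent.R4C.BoxGx899

open Finset Crest.Agent.R4C.Basex935 Crest.Agent.R4C.FLDefx935 Crest.Agent.R4C.Rulex945
  Crest.Agent.R4C.BoxUniqx60 Crest.Agent.R4C.TEndx129 Crest.Agent.R4C.Betax7
  Crest.Agent.R4C.HighWx899 Crest.Agent.R4C.Cutx50 Crest.Agent.R4C.BoostCx972
  Crest.Agent.R4C.Bridgex882 Crest.Agent.R4C.Splitx945 Crest.Agent.R4C.Sharedx11
  Crest.Agent.R4C.S7dx14 Crest.Agent.R4C.LBxx500 Crest.Agent.R4C.BoxWx899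
  Crest.Agent.R4C.NonPureBlkx559 Crest.Agent.R4C.Keptx559 Crest.Agent.R4C.PureL2x232
  Crest.Agent.R4C.LBoxDefx662 Crest.Agent.R4C.LClassx662

open Crest.Agent.R4C.Hclsx81 (HvK)

variable {M : ℕ} {F : FL M} {P : Par}

/-- candidate sets matter only at the two words -/
lemma PairW.congr {N : ℕ} {G : FL N} {j0 : ℕ} {cut : ℕ → ℕ}
    {TT XH TT' XH' T1 X1 T1' X1' : ℕ → Finset ℕ} {z z' : ℕ} {Q : Finset ℕ} (h : PairW G j0 cut TT XH TT' XH' z z' Q) (h1 : TT z = T1 z)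
    (h2 : XH z = X1 z) (h3 : TT' z' = T1' z') (h4 : XH' z' = X1' z') :
    PairW G j0 cut T1 X1 T1' X1' z z' Q := by
  refine ⟨h.sub, h.mis, h.below, h.kz, ?_, ?_⟩
  · rw [← h1, ← h4]; exact h.left
  · rw [← h3, ← h2]; exact h.right

/-- letters of the untwisted word above the cut -/
lemma zb_of_tw {y x b z κ : ℕ} (hyx : y ≤ x) (hup : upp y b = κ * z)
    (hκ : ∀ q, q.Prime → x < q → ¬ q ∣ κ) (q : ℕ) (hq : q.Prime) (hxq : x < q) :
    z.factorization q = b.factorization q := by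
  have h0 : κ * z ≠ 0 := by rw [← hup]; exact (upp_pos y b).ne'
  have h1 : (upp y b).factorization q = b.factorization q := by
    rw [fact_upp, if_pos (by omega)]
  rw [← h1, hup, Nat.factorization_mul (left_ne_zero_of_mul h0) (right_ne_zero_of_mul h0),
    Finsupp.add_apply, Nat.factorization_eq_zero_of_not_dvd (hκ q hq hxq), zero_add]

/-- the untwisted word has no letters `≤ y` -/
lemma zlow_of_tw {y b z κ : ℕ} (hup : upp y b = κ * z) (q : ℕ) (hq : q ≤ y) :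
    z.factorization q = 0 := by
  have h0 : κ * z ≠ 0 := by rw [← hup]; exact (upp_pos y b).ne'
  have h1 : (upp y b).factorization q = 0 := by
    rw [fact_upp, if_neg (by omega)]
  rw [hup, Nat.factorization_mul (left_ne_zero_of_mul h0) (right_ne_zero_of_mul h0),
    Finsupp.add_apply] at h1
  omega

/-- the twist only has primes `≤` the depth -/
lemma tw_primes {y t b c : ℕ} {f f' : ℚ} {K : ℝ} {x : ℕ} (hd : dep F P t b f ≤ K) (hK : K ≤ x) :
    ∀ q, q.Prime → x < q → ¬ q ∣ tw F P y t b c f f' := by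
  intro q _ hxq hqd
  have h1 : tw F P y t b c f f' ∣ k0 F (P.cut t) b f := by
    unfold tw
    exact (upp_dvd_self _ _).trans (Nat.div_dvd_of_dvd (Nat.gcd_dvd_left _ _))
  have h3 : q ≤ k0 F (P.cut t) b f := Nat.le_of_dvd (k0_pos _ _ _) (hqd.trans h1)
  have h4 : (k0 F (P.cut t) b f : ℝ) ≤ x := ((k0_le_dep t b f).trans hd).trans hK
  have h5 : k0 F (P.cut t) b f ≤ x := by exact_mod_cast h4
  omega

/-- data of the pair, thresholds only above the cut -/
structure PG (F : FL M) (P : Par) (w : ℕ → ℝ) (ε K : ℝ) (y Yc t b c : ℕ) (h : ℤ) (f f' : ℚ) :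
    Prop where
  m0 : P.m0 ≤ t
  good : F.good (P.cut t) b c
  pt : gap f f' (b / Nat.gcd b c) (c / Nat.gcd b c) h = 0
  ib : Ix F P t b f
  ic : Ix F P t c f'
  db : dep F P t b f ≤ K
  dc : dep F P t c f' ≤ K
  eb : dep F P t b f ≤ P.E t ^ 4
  ec : dep F P t c f' ≤ P.E t ^ 4
  top : ∀ r : ℕ, r.Prime → Yc < r → r ≤ P.cut t →
    (r ∣ b / Nat.gcd b c → r ∣ k0 F (P.cut t) b f) ∧
    (r ∣ c / Nat.gcd b c → r ∣ k0 F (P.cut t) c f')
  al : AlLe F P b c h (P.cut (2 * t))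
  scl : (Nat.gcd b c : ℝ) < 2 ^ (t + 1) * P.L
  near : X1 P b c < P.cut t
  yY : y ≤ Yc
  Yt : Yc ≤ P.cut t
  K1 : 1 ≤ K
  KY : K ≤ Yc
  Kt : 4 * K ^ 2 < 2 ^ t
  thb : ∀ i, P.cut t < P.Y i → K ≤ P.thr b i
  thc : ∀ i, P.cut t < P.Y i → K ≤ P.thr c i
  nk : ¬ killedB (lamR F P) b c h
  nh : ¬ CHvy F P w ε b c h

/-- **the (alpha)/(beta) data, general form** -/
theorem pairG {w : ℕ → ℝ} {δ ε : ℝ} {D : ℕ → ℝ} (H : Hy F P w δ ε D) (hE : Monotone P.E)
    (hG : CutGrow P) {K : ℝ} {t b c y Yc j0 κ κ' z z' : ℕ} {h : ℤ} {f f' : ℚ}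
    {Rs Rs' Q : Finset ℕ} {KK KK' : ℕ → Finset ℕ} (hb : b ∣ M) (hc : c ∣ M)
    (hP : PG F P w ε K y Yc t b c h f f')
    (hup : upp y b = κ * z) (hup' : upp y c = κ' * z')
    (hκ : κ ∈ KK z) (hκ' : κ' ∈ KK' z')
    (hr : Nat.log 2 (low y b) ∈ Rs) (hr' : Nat.log 2 (low y c) ∈ Rs')
    (hzb : ∀ q, q.Prime → P.cut t < q → z.factorization q = b.factorization q)
    (hzc : ∀ q, q.Prime → P.cut t < q → z'.factorization q = c.factorization q)
    (hze : ∀ q, q.Prime → q ≤ P.cut t → z.factorization q = z'.factorization q)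
    (hQ1 : Q ⊆ (upp y M).primeFactors)
    (hQ2 : ∀ q ∈ Q, z.factorization q < (upp y M).factorization q)
    (hQc : ∀ q ∈ Q, q ≤ P.cut t) (hz : KZ (hiFL H.hM y F) j0 z z') :
    PairW (hiFL H.hM y F) j0 P.cut (TTs F P y K Rs KK) (XHs F P y K Rs KK Yc)
      (TTs F P y K Rs' KK') (XHs F P y K Rs' KK' Yc) z z' Q := by
  have hM := H.hM
  have hb0 : b ≠ 0 := (Nat.pos_of_dvd_of_pos hb hM).ne'
  have hc0 : c ≠ 0 := (Nat.pos_of_dvd_of_pos hc hM).ne'
  have hyt : y ≤ P.cut t := hP.yY.trans hP.Yt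
  -- the first difference is above the cut
  have hfst : ∀ x, Fst x z z' → P.cut t < x := by
    intro x hx
    by_contra hcon
    exact hx.2.2 (hze x hx.1 (not_lt.1 hcon))
  -- letters in `(Yc, x)` are equal
  have heq : ∀ x, Fst x z z' → ∀ q, q.Prime → Yc < q →
      q < x → b.factorization q = c.factorization q := by
    intro x hx q hq hYq hqx
    by_cases h1 : q ≤ P.cut t
    · have h2 := hP.top q hq hYq h1
      exact eq_of_top hb0 hc0 hP.db hP.dc hP.KY hYq h2.1 h2.2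
    · have h2 := hx.2.1 q hq hqx
      rw [hzb q hq (not_le.1 h1), hzc q hq (not_le.1 h1)] at h2
      exact h2
  have hhv : ∀ e, t ≤ e → _ := fun e he =>
    not_hvK (w := w) (ε := ε) H.cut_mono H.hL hP.m0 hP.good hP.al hP.scl hP.near hP.nh he
  refine ⟨hQ1, hQ2, ?_, hz, ?_, ?_⟩
  · intro x hx q hq
    exact (hQc q hq).trans_lt (hfst x hx)
  · intro _ x hx hlt
    have h1 := hfst x hx
    rw [hzb x hx.1 h1, hzc x hx.1 h1] at hlt
    exact side H hE hG hP.K1 hb hc hP.pt hP.nk hP.m0 hyt hP.yY hP.Kt hP.KY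
      hP.thb hP.ib hP.ic hP.db hP.dc hP.eb (fun e he => (hhv e he).1) hup hup' hκ hκ' hr hr' hx.1
      hlt (heq x hx) (hP.Yt.trans_lt h1) h1 hQc
  · intro _ x hx hlt
    have h1 := hfst x hx
    rw [hzb x hx.1 h1, hzc x hx.1 h1] at hlt
    exact side H hE hG hP.K1 hc hb (gap_swap hP.pt) (killedB_symm hP.nk) hP.m0 hyt hP.yY hP.Kt
      hP.KY hP.thc hP.ic hP.ib hP.dc hP.db hP.ec (fun e he => (hhv e he).2) hup' hup hκ' hκ hr' hr
      hx.1 hlt (fun q hq h3 h4 => (heq x hx q hq h3 h4).symm) (hP.Yt.trans_lt h1) h1 hQc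

/-! ### Arrow C -/

/-- size classes of a member -/
lemma size_class {y b g a i : ℕ} (hd : g ∣ low y b) (ha : Nat.log 2 (low y b / g) = a)
    (hi : Nat.log 2 g = i) : Nat.log 2 (low y b) ∈ ({i + a, i + a + 1} : Finset ℕ) := by
  have hb : 0 < low y b := low_pos y b
  have hg0 : 0 < g := Nat.pos_of_dvd_of_pos hd hb
  have hq0 : 0 < low y b / g := Nat.div_pos (Nat.le_of_dvd hb hd) hg0
  have e : low y b = g * (low y b / g) := (Nat.mul_div_cancel' hd).symm
  have h1 : 2 ^ i ≤ g := by rw [← hi]; exact Nat.pow_log_le_self 2 hg0.ne'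
  have h2 : g < 2 ^ (i + 1) := by rw [← hi]; exact Nat.lt_pow_succ_log_self (by norm_num) _
  have h3 : 2 ^ a ≤ low y b / g := by rw [← ha]; exact Nat.pow_log_le_self 2 hq0.ne'
  have h4 : low y b / g < 2 ^ (a + 1) := by
    rw [← ha]; exact Nat.lt_pow_succ_log_self (by norm_num) _
  have h5 : 2 ^ (i + a) ≤ low y b := by
    rw [e, pow_add]; exact Nat.mul_le_mul h1 h3
  have h6 : low y b < 2 ^ (i + a + 2) := by
    rw [e, show i + a + 2 = (i + 1) + (a + 1) by ring, pow_add]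
    exact Nat.mul_lt_mul'' h2 h4
  have h7 : i + a ≤ Nat.log 2 (low y b) := Nat.le_log_of_pow_le (by norm_num) h5
  have h8 : Nat.log 2 (low y b) < i + a + 2 := Nat.log_lt_of_lt_pow hb.ne' h6
  rw [mem_insert, mem_singleton]
  omega

/-- **arrow C** from arrow A -/
theorem arrC_of {w : ℕ → ℝ} {δ δ' ε : ℝ} {D : ℕ → ℝ} {jB : ℕ → ℕ} {j0 : ℕ}
    (H : Hy F P w δ' ε D) (hE : Monotone P.E) (hG : CutGrow P)
    (hE16 : ∀ m, P.m0 ≤ m → 16 * P.E m ^ 8 < 2 ^ m)
    (hthr : ∀ t, P.m0 ≤ t → ∀ d i, P.cut t < P.Y i → 2 * P.E t ^ 4 ≤ P.thr d i)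
    (hA : ArrA F P H.hM w δ jB j0) {Nw : Bx → ℝ}
    (hN : ∀ (x : Bx) (X : ℝ) (U z : ℕ), z ∣ upp (P.Y x.v) M →
      2 * ((KD F P.γ P.L X (x.N ^ 3) x.N P.cut (LDecx500.lb P) (range (P.N + 1)) U z).card : ℝ) ≤
        Nw x) (hN0 : ∀ x, 0 ≤ Nw x) :
    ArrC F P H.hM w δ jB j0 (CHvy F P w ε) Nw := by
  classical
  have hM := H.hM
  intro x a a' i
  set y := P.Y x.v with hy
  set KK : ℕ → ℕ → ℕ → Finset ℕ := fun a j z => KD F P.γ P.L
    (2 ^ (i + a + 1) * x.N) (x.N ^ 3) x.N P.cut (LDecx500.lb P) (range (P.N + 1)) (2 ^ j) z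
    with hKK
  set Yc := max y x.N with hYc
  have hcard : ∀ (a j : ℕ) (r : Finset ℕ), r.card ≤ 2 → ∀ (G : Finset ℕ) (z : ℕ), z ∣ upp y M →
      G.card ≤ (KK a j z).card * r.card → (G.card : ℝ) ≤ Nw x := by
    intro a j r hr G z hz hG
    have h1 := hN x (2 ^ (i + a + 1) * x.N) (2 ^ j) z hz
    have h2 : (G.card : ℝ) ≤ (KK a j z).card * r.card := by exact_mod_cast hG
    have h3 : (r.card : ℝ) ≤ 2 := by exact_mod_cast hr
    have h4 : (0 : ℝ) ≤ (KK a j z).card := Nat.cast_nonneg _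
    calc (G.card : ℝ) ≤ (KK a j z).card * r.card := h2
      _ ≤ (KK a j z).card * 2 := mul_le_mul_of_nonneg_left h3 h4
      _ = 2 * ((KK a j z).card : ℝ) := mul_comm _ _
      _ ≤ _ := h1
  have hc2 : ∀ a : ℕ, ({i + a, i + a + 1} : Finset ℕ).card ≤ 2 := fun a => Finset.card_le_two
  have hite : ∀ (G : ℕ → Finset ℕ) (z : ℕ), (z ∣ upp y M → ((G z).card : ℝ) ≤ Nw x) →
      (((if z ∣ upp y M then G z else ∅ : Finset ℕ).card : ℕ) : ℝ) ≤ Nw x := by
    intro G z h1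
    by_cases h2 : z ∣ upp y M
    · rw [if_pos h2]; exact h1 h2
    · rw [if_neg h2, Finset.card_empty, Nat.cast_zero]; exact hN0 x
  refine ⟨fun z => if z ∣ upp y M then TTs F P y x.N {i + a, i + a + 1} (KK a x.j) z else ∅,
    fun z => if z ∣ upp y M then XHs F P y x.N {i + a, i + a + 1} (KK a x.j) Yc z else ∅,
    fun z => if z ∣ upp y M then TTs F P y x.N {i + a', i + a' + 1} (KK a' x.j') z else ∅,
    fun z => if z ∣ upp y M then XHs F P y x.N {i + a', i + a' + 1} (KK a' x.j') Yc z else ∅,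
    fun z => hite _ z fun h => hcard _ _ _ (hc2 _) _ z h (card_TTs z),
    fun z => hite _ z fun h => hcard _ _ _ (hc2 _) _ z h (card_XHs _ z),
    fun z => hite _ z fun h => hcard _ _ _ (hc2 _) _ z h (card_TTs z),
    fun z => hite _ z fun h => hcard _ _ _ (hc2 _) _ z h (card_XHs _ z), ?_⟩
  intro t b c h f f' p hb hc hh hnk hnh hL ha ha' hi z0 z0' hup hup' hze hz
  obtain ⟨w0, w0', g1, g2, g3, g4, _, _, _⟩ := hA x t b c h f f' p hb hc hh hL
  have hpos : ∀ {d κ z : ℕ}, upp y d = κ * z → 0 < κ := fun {d κ z} h1 =>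
    Nat.pos_of_ne_zero (left_ne_zero_of_mul (h1 ▸ (upp_pos y d).ne'))
  have e1 : w0 = z0 := by
    have h1 := g1.symm.trans hup
    exact Nat.eq_of_mul_eq_mul_left (hpos hup) h1
  have e2 : w0' = z0' := by
    have h1 := g2.symm.trans hup'
    exact Nat.eq_of_mul_eq_mul_left (hpos hup') h1
  rw [e1, hi, ha] at g3
  rw [e2, hi, ha'] at g4
  have hzd : z0 ∣ upp y M := (Dvd.intro_left _ hup.symm).trans (upp_dvd y hM.ne' hb)
  have hzd' : z0' ∣ upp y M := (Dvd.intro_left _ hup'.symm).trans (upp_dvd y hM.ne' hc)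
  have ht := hL.lp.m0
  -- sizes
  have hNE : (x.N : ℝ) ≤ 2 * P.E t ^ 4 := by
    have h1 : (2 : ℝ) ^ x.n ≤ P.E t ^ 4 := hL.dn.trans hL.lp.db
    have h2 : (2 : ℝ) ^ x.n' ≤ P.E t ^ 4 := hL.dn'.trans hL.lp.dc
    have h3 : (2 : ℝ) ^ x.mx ≤ P.E t ^ 4 := by
      unfold Bx.mx
      rcases max_choice x.n x.n' with e | e <;> rw [e] <;> assumption
    unfold Bx.N
    push_cast
    rw [pow_succ]
    linarith
  have hN1 : (1 : ℝ) ≤ x.N := by
    unfold Bx.N
    push_cast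
    exact one_le_pow₀ (by norm_num)
  have hE1 := H.E_one t
  have hE4 : 1 ≤ P.E t ^ 4 := one_le_pow₀ hE1
  have hNt : 4 * (x.N : ℝ) ^ 2 < 2 ^ t := by
    have h1 : (x.N : ℝ) ^ 2 ≤ (2 * P.E t ^ 4) ^ 2 := pow_le_pow_left₀ (by linarith) hNE 2
    have h2 := hE16 t ht
    have h3 : (2 * P.E t ^ 4) ^ 2 = 4 * P.E t ^ 8 := by ring
    rw [h3] at h1
    linarith
  have hNc : x.N ≤ P.cut t := by
    have h1 : (x.N : ℝ) ≤ P.cut t := by
      have h2 : ((2 ^ t : ℕ) : ℝ) ≤ P.cut t := by exact_mod_cast H.cut_ge t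
      push_cast at h2
      nlinarith
    exact_mod_cast h1
  have hdn : dep F P t b f ≤ x.N := by
    refine hL.dn1.le.trans ?_
    unfold Bx.N Bx.mx
    push_cast
    exact pow_le_pow_right₀ (by norm_num) (by omega)
  have hdn' : dep F P t c f' ≤ x.N := by
    refine hL.dn1'.le.trans ?_
    unfold Bx.N Bx.mx
    push_cast
    exact pow_le_pow_right₀ (by norm_num) (by omega)
  have hpy : p ≤ y := by
    rw [hy, ← hL.blk]
    exact Par.le_blk H.Y_mono p
  have hyt : y ≤ P.cut t := by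
    rw [hy, ← hL.blk]
    exact H.act t p hL.lp.le
  have hPG : PG F P w ε x.N y Yc t b c h f f' := by
    refine ⟨ht, hL.lp.good, hL.lp.pt, hL.lp.ib, hL.lp.ic, hdn, hdn', hL.lp.db, hL.lp.dc, ?_,
      hL.lp.al, hL.lp.scl, hL.lp.near, le_max_left _ _, max_le hyt hNc, hN1, ?_, hNt, ?_, ?_,
      hnk, hnh⟩
    · intro r hr hYr hrt
      exact hL.lp.topk r hr (lt_of_le_of_lt (hpy.trans (le_max_left _ _)) hYr) hrt
    · exact_mod_cast le_max_right _ _
    · exact fun i hi => hNE.trans (hthr t ht b i hi)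
    · exact fun i hi => hNE.trans (hthr t ht c i hi)
  have hNc' : (x.N : ℝ) ≤ P.cut t := by exact_mod_cast hNc
  have hW := pairG (F := F) (P := P) (j0 := j0) (Q := Qt (M := M) P y t z0 z0')
    (KK := KK a x.j) (KK' := KK a' x.j') (Rs := {i + a, i + a + 1}) (Rs' := {i + a', i + a' + 1})
    H hE hG hb hc hPG hup hup' g3 g4 (size_class (Nat.gcd_dvd_left _ _) ha hi)
    (size_class (Nat.gcd_dvd_right _ _) ha' hi)
    (fun q hq hx => zb_of_tw hyt hup (tw_primes hdn hNc') q hq hx)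
    (fun q hq hx => zb_of_tw hyt hup' (tw_primes hdn' hNc') q hq hx)
    (fun q hq hx => by
      by_cases h1 : q ≤ y
      · rw [zlow_of_tw hup q h1, zlow_of_tw hup' q h1]
      · exact hze q hq (not_le.1 h1) hx)
    (fun q hq => (mem_filter.1 hq).1) (fun q hq => (mem_filter.1 hq).2.2.1)
    (fun q hq => (mem_filter.1 hq).2.1) hz
  exact PairW.congr hW (by rw [if_pos hzd]) (by rw [if_pos hzd]) (by rw [if_pos hzd'])
    (by rw [if_pos hzd'])

end Crest.Agent.R4C.BoxGx899
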