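import Crest.Agent.R4C.FarKit_179

/-!
# Row 4: classes which are unions of boxes with one offset per pair and box (helper179)

* `box_one`  : one box: a set bound of the weighted kernel gives the bound of the class `q`;
* `EnR_le_boxes` : finitely many boxes suffice;
* `clsOK_of_boxes` : `ClsOK` from a cover by boxes, one offset per pair and box, pointwise boost
  `≤ Wt x b c · offW b · offW c` and bilinear set bounds `E x` with bounded partial sums.
-/

set_option autoImplicit false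

open Finset

namespace Crest.Agent.R4C.BoxKitx179

open Crest.Agent.R4C.Basex935 Crest.Agent.R4C.CrCoinx935 Crest.Agent.R4C.CrCountx935
  Crest.Agent.R4C.Bridgex882 Crest.Agent.R4C.FLDefx935
  Crest.Agent.R4C.Rulex945 Crest.Agent.R4C.Spinex946 Crest.Agent.R4C.FarKitx179
open Crest.Agent.R4C.B1Levx52 (offW one_le_offW offW_moment weight_sets)
open Crest.Agent.R4C.FLShx326 (Shares NodeShares)

open Classical in
/-- weighted kernel of a class of offsets -/
noncomputable def kerW (γ L : ℝ) (M : ℕ) (lam : ℕ → ℕ → Option ℤ) (q : ℕ → ℕ → ℤ → Prop)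
    (W : ℕ → ℕ → ℝ) (b c : ℕ) : ℝ :=
  if ∃ h ∈ Lnk γ L b c, ¬ killedB lam b c h ∧ q b c h then
    (Nat.gcd b c : ℝ) * nu M b * nu M c * W b c else 0

lemma gn (M b c : ℕ) : (0 : ℝ) ≤ (Nat.gcd b c : ℝ) * nu M b * nu M c :=
  mul_nonneg (mul_nonneg (Nat.cast_nonneg _) (nu_nonneg _ _)) (nu_nonneg _ _)

lemma kerW_nonneg {γ L : ℝ} {M : ℕ} {lam : ℕ → ℕ → Option ℤ} {q : ℕ → ℕ → ℤ → Prop}
    {W : ℕ → ℕ → ℝ} (hW : ∀ b c, 0 ≤ W b c) (b c : ℕ) : 0 ≤ kerW γ L M lam q W b c := by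
  unfold kerW
  split_ifs
  · exact mul_nonneg (gn M b c) (hW b c)
  · exact le_rfl

open Classical in
/-- **one box** -/
theorem box_one {C A s : ℝ} (hC : 0 ≤ C) (hmom : ∀ (M : ℕ) (F : FL M) (B : Finset ℕ) (A s : ℝ),
      Shares F B A s → 0 ≤ A → 3 / 4 ≤ s → ∀ X : ℕ,
      ∑ b ∈ B, nu M b * offW F X b ^ 4 ≤ (1 + C * A) * ∑ b ∈ B, nu M b)
    {γ L : ℝ} {M : ℕ} {F : FL M} (hL : 0 < L) {B : Finset ℕ} {lam : ℕ → ℕ → Option ℤ}
    (hS : Shares F B A s) (hA : 0 ≤ A) (hs : 3 / 4 ≤ s) {X0 : ℕ}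
    {E : ℝ} (hE : 0 ≤ E) (q : ℕ → ℕ → ℤ → Prop) {W : ℕ → ℕ → ℝ} (hW : ∀ b c, 0 ≤ W b c)
    (huniq : ∀ b ∈ B, ∀ c ∈ B, b ≠ c → ∀ h₁ ∈ Lnk γ L b c, ∀ h₂ ∈ Lnk γ L b c,
      ¬ killedB lam b c h₁ → ¬ killedB lam b c h₂ → q b c h₁ → q b c h₂ → h₁ = h₂)
    (hboost : ∀ b ∈ B, ∀ c ∈ B, b ≠ c → ∀ h ∈ Lnk γ L b c, ¬ killedB lam b c h → q b c h →
      boostB M lam b c h ≤ W b c * (offW F X0 b * offW F X0 c))
    (hset : ∀ S S' : Finset ℕ, S ⊆ B → S' ⊆ B →
      L * ∑ b ∈ S, ∑ c ∈ S', kerW γ L M lam q W b c ≤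
        E * √((L * ∑ b ∈ S, nu M b) * (L * ∑ c ∈ S', nu M c))) :
    EnR γ L M B lam q ≤ (16 * (1 + C * A)) * E * (L * ∑ b ∈ B, nu M b) := by
  have hm0 : 0 ≤ ∑ b ∈ B, nu M b := Finset.sum_nonneg fun b _ => nu_nonneg M b
  have hpt : ∀ b ∈ B, ∀ c ∈ B.erase b, (Nat.gcd b c : ℝ) * nu M b * nu M c *
      ∑ h ∈ (Lnk γ L b c).filter (fun h => ¬ killedB lam b c h ∧ q b c h),
        boostB M lam b c h ≤ kerW γ L M lam q W b c * (offW F X0 b * offW F X0 c) := by
    intro b hb c hc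
    have hcB := Finset.mem_of_mem_erase hc
    have hne : b ≠ c := fun h => (Finset.ne_of_mem_erase hc) h.symm
    have hw : 0 ≤ offW F X0 b * offW F X0 c := by
      have a1 := one_le_offW (F := F) X0 b
      have a2 := one_le_offW (F := F) X0 c
      positivity
    set T := (Lnk γ L b c).filter (fun h => ¬ killedB lam b c h ∧ q b c h) with hT
    rcases T.eq_empty_or_nonempty with h0 | ⟨h0, hh0⟩
    · rw [h0, Finset.sum_empty, mul_zero]
      exact mul_nonneg (kerW_nonneg hW b c) hw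
    have hm := hh0
    rw [hT, Finset.mem_filter] at hm
    have hT1 : T = {h0} := by
      ext h
      rw [Finset.mem_singleton]
      constructor
      · intro hh
        rw [hT, Finset.mem_filter] at hh
        exact huniq b hb c hcB hne h hh.1 h0 hm.1 hh.2.1 hm.2.1 hh.2.2 hm.2.2
      · rintro rfl
        exact hh0
    have hker : kerW γ L M lam q W b c = (Nat.gcd b c : ℝ) * nu M b * nu M c * W b c :=
      if_pos ⟨h0, hm.1, hm.2.1, hm.2.2⟩
    rw [hT1, Finset.sum_singleton, hker]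
    have h1 := hboost b hb c hcB hne h0 hm.1 hm.2.1 hm.2.2
    calc (Nat.gcd b c : ℝ) * nu M b * nu M c * boostB M lam b c h0
        ≤ (Nat.gcd b c : ℝ) * nu M b * nu M c * (W b c * (offW F X0 b * offW F X0 c)) :=
          mul_le_mul_of_nonneg_left h1 (gn M b c)
      _ = _ := by ring
  have hset' : ∀ S S' : Finset ℕ, S ⊆ B → S' ⊆ B → ∑ b ∈ S, ∑ c ∈ S', kerW γ L M lam q W b c ≤
      E * √((∑ b ∈ S, nu M b) * ∑ c ∈ S', nu M c) := by
    intro S S' h1 h2
    have h3 := hset S S' h1 h2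
    have e1 : (L * ∑ b ∈ S, nu M b) * (L * ∑ c ∈ S', nu M c) =
        L ^ 2 * ((∑ b ∈ S, nu M b) * ∑ c ∈ S', nu M c) := by ring
    rw [e1, Real.sqrt_mul (by positivity), Real.sqrt_sq hL.le] at h3
    have e2 : E * (L * √((∑ b ∈ S, nu M b) * ∑ c ∈ S', nu M c)) =
        L * (E * √((∑ b ∈ S, nu M b) * ∑ c ∈ S', nu M c)) := by ring
    rw [e2] at h3
    exact le_of_mul_le_mul_left h3 hL
  have hCA : 0 ≤ 1 + C * A := by positivity
  have h2 := weight_sets (B := B) (B' := B) (ν := nu M) (w := offW F X0) (w' := offW F X0)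
    (K := kerW γ L M lam q W) (E := E) (C1 := 1 + C * A) (nu_nonneg M)
    (fun b _ c _ => kerW_nonneg hW b c)
    hE hCA hset' (fun b _ => one_le_offW X0 b) (fun b _ => one_le_offW X0 b)
    (hmom M F B A s hS hA hs X0) (hmom M F B A s hS hA hs X0)
  rw [Real.sqrt_mul_self hm0] at h2
  unfold EnR
  have h3 : ∑ b ∈ B, ∑ c ∈ B.erase b, (Nat.gcd b c : ℝ) * nu M b * nu M c *
      ∑ h ∈ (Lnk γ L b c).filter (fun h => ¬ killedB lam b c h ∧ q b c h),
        boostB M lam b c h ≤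
        ∑ b ∈ B, ∑ c ∈ B, kerW γ L M lam q W b c * (offW F X0 b * offW F X0 c) := by
    refine Finset.sum_le_sum fun b hb => ?_
    refine (Finset.sum_le_sum fun c hc => hpt b hb c hc).trans ?_
    refine Finset.sum_le_sum_of_subset_of_nonneg (Finset.erase_subset _ _) fun c _ _ => ?_
    have a1 := one_le_offW (F := F) X0 b
    have a2 := one_le_offW (F := F) X0 c
    have a3 := kerW_nonneg (γ := γ) (L := L) (M := M) (lam := lam) (q := q) hW b c
    positivity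
  calc L * ∑ b ∈ B, ∑ c ∈ B.erase b, (Nat.gcd b c : ℝ) * nu M b * nu M c *
        ∑ h ∈ (Lnk γ L b c).filter (fun h => ¬ killedB lam b c h ∧ q b c h),
          boostB M lam b c h
      ≤ L * (16 * (1 + C * A) * E * ∑ b ∈ B, nu M b) :=
        mul_le_mul_of_nonneg_left (h3.trans h2) hL.le
    _ = _ := by ring

open Classical in
/-- finitely many boxes suffice -/
lemma EnR_le_boxes {ι : Type} {γ L : ℝ} (hL : 0 ≤ L) {M : ℕ} {B : Finset ℕ}
    {lam : ℕ → ℕ → Option ℤ} {R : ℕ → ℕ → ℤ → Prop} {q : ι → ℕ → ℕ → ℤ → Prop}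
    (ok : ι → Prop)
    (H : ∀ b ∈ B, ∀ c ∈ B, b ≠ c → ∀ h ∈ Lnk γ L b c, ¬ killedB lam b c h → R b c h →
      ∃ x, ok x ∧ q x b c h) :
    ∃ T : Finset ι, (∀ x ∈ T, ok x) ∧ EnR γ L M B lam R ≤ ∑ x ∈ T, EnR γ L M B lam (q x) := by
  rcases Classical.em (∃ x0 : ι, ok x0) with ⟨x0, hx0⟩ | hno
  · set τ : ℕ → ℕ → ℤ → ι := fun b c h => if hx : ∃ x, ok x ∧ q x b c h then hx.choose else x0
      with hτ
    have hτ0 : ∀ b c h, ok (τ b c h) := by
      intro b c h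
      rw [hτ]
      simp only
      split_ifs with hx
      · exact hx.choose_spec.1
      · exact hx0
    have hτ1 : ∀ b c h, (∃ x, ok x ∧ q x b c h) → q (τ b c h) b c h := by
      intro b c h hx
      rw [hτ]
      simp only
      rw [dif_pos hx]
      exact hx.choose_spec.2
    set T : Finset ι := B.biUnion fun b => B.biUnion fun c => (Lnk γ L b c).image (τ b c) with hT
    refine ⟨T, ?_, ?_⟩
    · intro t ht
      simp only [hT, Finset.mem_biUnion, Finset.mem_image] at ht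
      obtain ⟨b, _, c, _, h, _, rfl⟩ := ht
      exact hτ0 b c h
    · -- the union bound
      unfold EnR
      rw [← Finset.mul_sum]
      refine mul_le_mul_of_nonneg_left ?_ hL
      rw [Finset.sum_comm]
      refine Finset.sum_le_sum fun b hb => ?_
      rw [Finset.sum_comm]
      refine Finset.sum_le_sum fun c hc => ?_
      have hcB := Finset.mem_of_mem_erase hc
      have hne : b ≠ c := fun h => (Finset.ne_of_mem_erase hc) h.symm
      rw [← Finset.mul_sum]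
      refine mul_le_mul_of_nonneg_left ?_ (gn M b c)
      simp only [Finset.sum_filter]
      rw [Finset.sum_comm]
      refine Finset.sum_le_sum fun h hh => ?_
      have h0 : ∀ x ∈ T, 0 ≤ (if ¬ killedB lam b c h ∧ q x b c h then boostB M lam b c h
          else 0) := by
        intro x _
        split_ifs
        · exact boostB_nonneg _ _ _ _ _
        · exact le_rfl
      split_ifs with h1
      · have h2 := hτ1 b c h (H b hb c hcB hne h hh h1.1 h1.2)
        have h4 : τ b c h ∈ T := by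
          simp only [hT, Finset.mem_biUnion, Finset.mem_image]
          exact ⟨b, hb, c, hcB, h, hh, rfl⟩
        have h3 := Finset.single_le_sum h0 h4
        rwa [if_pos ⟨h1.1, h2⟩] at h3
      · exact Finset.sum_nonneg h0
  · refine ⟨∅, by simp, ?_⟩
    rw [Finset.sum_empty]
    unfold EnR
    have : ∀ b ∈ B, ∀ c ∈ B.erase b, (Nat.gcd b c : ℝ) * nu M b * nu M c *
        ∑ h ∈ (Lnk γ L b c).filter (fun h => ¬ killedB lam b c h ∧ R b c h),
          boostB M lam b c h = 0 := by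
      intro b hb c hc
      have hcB := Finset.mem_of_mem_erase hc
      have hne : b ≠ c := fun h => (Finset.ne_of_mem_erase hc) h.symm
      have he : (Lnk γ L b c).filter (fun h => ¬ killedB lam b c h ∧ R b c h) = ∅ := by
        rw [Finset.filter_eq_empty_iff]
        rintro h hh ⟨h1, h2⟩
        obtain ⟨x, hx, _⟩ := H b hb c hcB hne h hh h1 h2
        exact hno ⟨x, hx⟩
      rw [he, Finset.sum_empty, mul_zero]
    rw [Finset.sum_eq_zero fun b hb => Finset.sum_eq_zero fun c hc => this b hb c hc, mul_zero]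

/-- **`ClsOK` from boxes** -/
theorem clsOK_of_boxes {ι : Type} {γ : ℝ} {R : Cls} (X0 : ℕ) (H : Ev fun cp η A m0 =>
    ∃ C' : ℝ, 0 ≤ C' ∧ ∃ (ok : ι → Prop) (E : ι → ℝ), (∀ x, 0 ≤ E x) ∧
      (∀ T : Finset ι, (∀ x ∈ T, ok x) → ∑ x ∈ T, E x ≤ C') ∧
      ∀ (L : ℝ) (M : ℕ) (B : Finset ℕ) (F : FL M), Setup η L M B F →
      ∃ (q : ι → ℕ → ℕ → ℤ → Prop) (W : ι → ℕ → ℕ → ℝ), (∀ x b c, 0 ≤ W x b c) ∧
      (∀ b ∈ B, ∀ c ∈ B, b ≠ c → ∀ h ∈ Lnk γ L b c,
        ¬ killedB (lamOf cp A m0 γ L M B F) b c h → R cp η A m0 L M B F b c h →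
        ∃ x, ok x ∧ q x b c h) ∧
      (∀ x, ok x → ∀ b ∈ B, ∀ c ∈ B, b ≠ c → ∀ h₁ ∈ Lnk γ L b c, ∀ h₂ ∈ Lnk γ L b c,
        ¬ killedB (lamOf cp A m0 γ L M B F) b c h₁ → ¬ killedB (lamOf cp A m0 γ L M B F) b c h₂ →
        q x b c h₁ → q x b c h₂ → h₁ = h₂) ∧
      (∀ x, ok x → ∀ b ∈ B, ∀ c ∈ B, b ≠ c → ∀ h ∈ Lnk γ L b c,
        ¬ killedB (lamOf cp A m0 γ L M B F) b c h → q x b c h →
        boostB M (lamOf cp A m0 γ L M B F) b c h ≤ W x b c * (offW F X0 b * offW F X0 c)) ∧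
      (∀ x, ok x → ∀ S S' : Finset ℕ, S ⊆ B → S' ⊆ B →
        L * ∑ b ∈ S, ∑ c ∈ S', kerW γ L M (lamOf cp A m0 γ L M B F) (q x) (W x) b c ≤
          E x * √((L * ∑ b ∈ S, nu M b) * (L * ∑ c ∈ S', nu M c)))) : ClsOK γ R := by
  obtain ⟨C, hC, hmom⟩ := offW_moment
  refine (H.and Ev.basic).mono ?_
  rintro cp η A m0 ⟨⟨C', hC', ok, E, hE, hsum, H⟩, hcp, _, hη, _, hη1, hA, hm0⟩
  obtain ⟨htree, _⟩ := tree_spec hη hη1
  have hsA := htree.A_pos
  refine ⟨(16 * (1 + C * sA η)) * C', ?_⟩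
  intro L M B F hS
  obtain ⟨q, W, hW, hcov, huniq, hboost, hset⟩ := H L M B F hS
  obtain ⟨T, hT, h1⟩ := EnR_le_boxes (ι := ι) (M := M) hS.hL.le (q := q) ok hcov
  have h2 : ∀ x ∈ T, EnR γ L M B (lamOf cp A m0 γ L M B F) (q x) ≤
      (16 * (1 + C * sA η)) * E x * (L * ∑ b ∈ B, nu M b) := fun x hx =>
    box_one (A := sA η) (s := sE η) (F := F) (X0 := X0) hC hmom hS.hL hS.shares htree.A_pos.le
      htree.s_gt.le (hE x) (q x) (hW x) (huniq x (hT x hx)) (hboost x (hT x hx))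
      (hset x (hT x hx))
  have h3 := hS.mass
  have h4 := hS.mass_nonneg
  have h5 : 0 ≤ 16 * (1 + C * sA η) := by positivity
  have h6 := hsum T hT
  have h7 : 0 ≤ ∑ x ∈ T, E x := Finset.sum_nonneg fun x _ => hE x
  calc EnR γ L M B (lamOf cp A m0 γ L M B F) (R cp η A m0 L M B F)
      ≤ ∑ x ∈ T, EnR γ L M B (lamOf cp A m0 γ L M B F) (q x) := h1
    _ ≤ ∑ x ∈ T, (16 * (1 + C * sA η)) * E x * (L * ∑ b ∈ B, nu M b) := Finset.sum_le_sum h2
    _ = (16 * (1 + C * sA η)) * (∑ x ∈ T, E x) * (L * ∑ b ∈ B, nu M b) := by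
        rw [← Finset.sum_mul, ← Finset.mul_sum]
    _ ≤ (16 * (1 + C * sA η)) * C' * 1 := by
        refine mul_le_mul (mul_le_mul_of_nonneg_left h6 h5) h3 h4 (mul_nonneg h5 hC')
    _ = _ := mul_one _

end Crest.Agent.R4C.BoxKitx179
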