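import Crest.Agent.R4C.SplitDef_945
import Crest.Agent.R4C.PairB_945

/-!
# Row 4: the exhaustive split of the unkilled pairs, proof (helper945)

* `dh_of_alt` : at an explained prime `p ≤ cut t` of a member with depth `≤ E t ^ 4` the centre is
  too deep for the threshold, or the member is heavy (`HvK`);
* `caseB` : a common point of the level `t`: `CTw`, `CHvy`, `CNP` or `CLow`;
* `caseA` : own scale: `CHvy`, `CLow`, `CRareA`, `CUD`, `CDomP`, `CDomN`;
* **`split_all`**.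
-/

set_option autoImplicit false

namespace Crest.Agent.R4C.Splitx945

open Crest.Agent.R4C.FLDefx935 Crest.Agent.R4C.BoostCx972 Crest.Agent.R4C.CrCoinx935
  Crest.Agent.R4C.CrCountx935 Crest.Agent.R4C.Bridgex882 Crest.Agent.R4C.PrefixMx882
  Crest.Agent.R4C.S7cx14 Crest.Agent.R4C.S7dx14 Crest.Agent.R4C.Cutx50
  Crest.Agent.R4C.PairRx14 Crest.Agent.R4C.Rulex945 Crest.Agent.R4C.Sharedx11

open Crest.Agent.R4C.S2bx284 (Rare Dom)
open Crest.Agent.R4C.Hclsx81 (HvK HeavyAt heavyAt_of_rule)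

variable {M : ℕ} {F : FL M} {P : Par} {w : ℕ → ℝ} {δ ε : ℝ} {D : ℕ → ℝ}

namespace Hy

variable (H : Hy F P w δ ε D)
include H

lemma act (m p : ℕ) (hp : p ≤ P.cut m) : P.Y (P.blk p) ≤ P.cut m := by
  obtain ⟨i, hi⟩ := H.blkend m
  exact Par.act_of_le H.Y_mono hi hp

lemma E_pos (m : ℕ) : 0 < P.E m := lt_of_lt_of_le one_pos (H.E_one m)

lemma hE3 (m : ℕ) (hm : P.m0 ≤ m) : 2 * P.E m ^ 3 < 2 ^ m := by
  refine lt_of_le_of_lt ?_ (H.hE m hm)
  have := pow_le_pow_right₀ (H.E_one m) (show 3 ≤ 8 by norm_num)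
  linarith

lemma E4_le (m : ℕ) (hm : P.m0 ≤ m) : P.E m ^ 4 < P.cut m := by
  have h1 : P.E m ^ 4 ≤ P.E m ^ 8 := pow_le_pow_right₀ (H.E_one m) (by norm_num)
  have h2 := H.hE m hm
  have h3 : (2 : ℝ) ^ m ≤ P.cut m := by exact_mod_cast H.cut_ge m
  have h4 : 0 < P.E m ^ 8 := pow_pos (H.E_pos m) _
  linarith

end Hy

lemma uu_le_uu' {x y d : ℕ} (hxy : x ≤ y) : (F.uu x d : ℝ) ≤ F.uu y d := by
  have h1 : F.uu x d ∣ F.uu y d := FL.uu_dvd_uu hxy
  exact_mod_cast Nat.le_of_dvd (FL.uu_pos y d) h1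

/-- deep or heavy -/
def DH (F : FL M) (P : Par) (w : ℕ → ℝ) (ε : ℝ) (t d : ℕ) (f : ℚ) (p : ℕ) : Prop :=
  P.thr d (P.blk p) < dep F P t d f ∨
    HvK F w P.L (1 / ε) (2 ^ t / (2 * P.E t ^ 4)) (P.cut t) d

/-- **explained prime missing in `d`** : deep or heavy; `m ≥ t` = index at which `f` is the tree
centre of `d`, with the same depth -/
theorem dh_of_alt (H : Hy F P w δ ε D) {t m d p : ℕ} {f : ℚ} (hd : d ∣ M) (ht : P.m0 ≤ t)
    (htm : t ≤ m) (hp : p ≤ P.cut t) (hT : TC F P m d f) (heq : dep F P m d f = dep F P t d f)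
    (hdep : dep F P t d f ≤ P.E t ^ 4) (ha : Alt F P m d f p) : DH F P w ε t d f p := by
  rcases ha with h | ⟨m₂, f₂, h1, h2, _, h4, _, _⟩
  · left
    rw [← heq]; exact h
  right
  have h7 := (uu_le_uu' (F := F) (d := d) (H.cut_mono htm)).trans
    (conflict_uu (F := F) (P := P) H.hL H.hM H.cut_mono hd h1.le h2)
  have h8 := (pow_le_pow_right₀ (by norm_num : (1 : ℝ) ≤ 2) htm).trans
    (conflict_scale H.hL H.hM H.cut_mono hd h1.le hT h2)
  rw [heq] at h7 h8
  set K := dep F P m₂ d f₂ with hK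
  set K₁ := dep F P t d f with hK₁
  have hK1 : 1 ≤ K := one_le_dep m₂ d f₂
  have hK₁1 : 1 ≤ K₁ := one_le_dep t d f
  have hE := H.E_pos t
  have hE4 : 0 < P.E t ^ 4 := pow_pos hE 4
  have h9 : (2 : ℝ) ^ t ≤ K * (2 * P.E t ^ 4) := by
    have : 2 * K₁ * K ≤ 2 * P.E t ^ 4 * K := mul_le_mul_of_nonneg_right (by linarith) (by linarith)
    linarith
  have hK₀ : 2 ^ t / (2 * P.E t ^ 4) ≤ K := (div_le_iff₀ (by positivity)).2 h9
  have h10 : K₁ ≤ K := by
    refine hdep.trans ?_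
    have h5 : P.E t ^ 4 * (2 * P.E t ^ 4) ≤ K * (2 * P.E t ^ 4) := by
      calc P.E t ^ 4 * (2 * P.E t ^ 4) = 2 * P.E t ^ 8 := by ring
        _ ≤ 2 ^ t := (H.hE t ht).le
        _ ≤ _ := h9
    exact le_of_mul_le_mul_right h5 (by positivity)
  refine ⟨K, hK₀, ?_, ?_⟩
  · refine h7.trans (mul_le_mul_of_nonneg_right ?_ H.hL.le)
    nlinarith
  · obtain ⟨j, hj, hjT⟩ := exists_Th M w P.Y d (P.blk p)
    have hΘ0 : 0 ≤ ThS M w P.Y d (P.blk p) := by
      rw [hjT]; exact Th_nonneg M H.w0 _ _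
    refine heavyAt_of_rule H.hε (by linarith) hΘ0 (h4.trans (H.thr_le d _)) ?_
      ⟨P.Y j, (H.Y_mono.monotone hj).trans (H.act t p hp), hjT.le⟩
    have h7' : (P.Y (P.blk p - 1) : ℝ) ^ δ ≤ (P.cut t : ℝ) ^ δ := by
      refine Real.rpow_le_rpow (Nat.cast_nonneg _) ?_ H.hδ
      exact_mod_cast (H.Y_mono.monotone (Nat.sub_le _ 1)).trans (H.act t p hp)
    refine h7'.trans_lt ?_
    have h8' : 2 * P.E t ^ 4 * (P.cut t : ℝ) ^ δ < K * (2 * P.E t ^ 4) :=
      lt_of_lt_of_le (H.hEc t ht) h9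
    have h9' : (P.cut t : ℝ) ^ δ * (2 * P.E t ^ 4) < K * (2 * P.E t ^ 4) := by
      rwa [mul_comm ((P.cut t : ℝ) ^ δ)]
    exact lt_of_mul_lt_mul_right h9' (by positivity)

lemma AlLe.mono {b c : ℕ} {h : ℤ} {x y : ℕ} (ha : AlLe F P b c h x) (hxy : x ≤ y) :
    AlLe F P b c h y := fun q hq => (ha q hq).trans hxy


section pair

variable {b c : ℕ} {h : ℤ} {f f' : ℚ}

lemma gs_left (b c : ℕ) : Nat.gcd b c * (b / Nat.gcd b c) = b :=
  Nat.mul_div_cancel' (Nat.gcd_dvd_left _ _)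

lemma gs_right (b c : ℕ) : Nat.gcd b c * (c / Nat.gcd b c) = c :=
  Nat.mul_div_cancel' (Nat.gcd_dvd_right _ _)

lemma cop_gs (hM : 0 < M) (hb : b ∣ M) : Nat.Coprime (b / Nat.gcd b c) (c / Nat.gcd b c) :=
  Nat.coprime_div_gcd_div_gcd (Nat.gcd_pos_of_pos_left _ (Nat.pos_of_dvd_of_pos hb hM))

/-- `uu x b = g * low s * ell x c` -/
lemma uu_eq {x : ℕ} (hM : 0 < M) (hb : b ∣ M) (hc : c ∣ M) (hx : F.good x b c) :
    F.uu x b = Nat.gcd b c * low x (b / Nat.gcd b c) * F.ell x c := by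
  have h1 := uu_eq_good (F := F) (x := x) (g := Nat.gcd b c) (s := b / Nat.gcd b c)
    (s' := c / Nat.gcd b c) hM (by rw [gs_left]; exact hb) (by rw [gs_right]; exact hc)
    (cop_gs hM hb) (by rw [gs_left, gs_right]; exact hx)
  rw [gs_left, gs_right] at h1
  exact h1

lemma uu_eq' {x : ℕ} (hM : 0 < M) (hb : b ∣ M) (hc : c ∣ M) (hx : F.good x b c) :
    F.uu x c = Nat.gcd b c * low x (c / Nat.gcd b c) * F.ell x b := by
  have h1 := uu_eq (F := F) (x := x) hM hc hb (FL.good_symm hb hc hx)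
  rwa [Nat.gcd_comm c b] at h1

/-- square form of the scale condition against a live member -/
lemma live_low (H : Hy F P w δ ε D) {t : ℕ} {d lo : ℕ} {g : ℕ} (ht : P.m0 ≤ t)
    (hT : (2 : ℝ) ^ t * P.L ≤ F.uu (P.cut t) d) (hu : F.uu (P.cut t) d = g * lo)
    (hscl : (g : ℝ) ^ 2 ≤ 2 ^ (t + 1) * P.L ^ 2) : P.E t ^ 8 < (lo : ℝ) ^ 2 := by
  have hL := H.hL
  have h1 : (2 : ℝ) ^ t * P.L ≤ g * lo := by
    have : ((F.uu (P.cut t) d : ℕ) : ℝ) = g * lo := by exact_mod_cast congrArg (fun n : ℕ => (n : ℝ)) hu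
    rw [← this]; exact hT
  have h2 : ((2 : ℝ) ^ t * P.L) ^ 2 ≤ (g * lo : ℝ) ^ 2 := pow_le_pow_left₀ (by positivity) h1 2
  have h3 : (g * lo : ℝ) ^ 2 ≤ 2 ^ (t + 1) * P.L ^ 2 * (lo : ℝ) ^ 2 := by
    rw [mul_pow]
    exact mul_le_mul_of_nonneg_right hscl (by positivity)
  have h4 : (2 : ℝ) ^ t ≤ 2 * (lo : ℝ) ^ 2 := by
    have h5 : (2 ^ t * P.L ^ 2) * (2 : ℝ) ^ t ≤ (2 ^ t * P.L ^ 2) * (2 * (lo : ℝ) ^ 2) := by
      calc (2 ^ t * P.L ^ 2) * (2 : ℝ) ^ t = ((2 : ℝ) ^ t * P.L) ^ 2 := by ring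
        _ ≤ 2 ^ (t + 1) * P.L ^ 2 * (lo : ℝ) ^ 2 := h2.trans h3
        _ = _ := by rw [pow_succ]; ring
    exact le_of_mul_le_mul_left h5 (by positivity)
  have h6 := H.hE t ht
  linarith

/-- pure pairs of case B: the low word is large -/
lemma bigW_of_pure (H : Hy F P w δ ε D) {t : ℕ} (hb : b ∣ M) (hc : c ∣ M)
    (hB : BS F P t b c h f f') (hp : Pure F (P.cut t) b c) : BigW F P t b c f f' := by
  have ht : P.m0 ≤ t := by have := hB.m0; omega
  set lo := low (P.cut t) (b / Nat.gcd b c) with hlo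
  set lo' := low (P.cut t) (c / Nat.gcd b c) with hlo'
  have l1 : (1 : ℝ) ≤ lo := by exact_mod_cast low_pos (P.cut t) (b / Nat.gcd b c)
  have l2 : (1 : ℝ) ≤ lo' := by exact_mod_cast low_pos (P.cut t) (c / Nat.gcd b c)
  have key : P.E t ^ 4 ≤ (lo : ℝ) * lo' := by
    have h1 : P.E t ^ 8 < ((lo : ℝ) * lo') ^ 2 := by
      rcases hB.tc with hT | hT
      · have h2 := live_low H ht hT.scl (g := Nat.gcd b c) (lo := lo) (by
          rw [uu_eq H.hM hb hc hB.good, hp.2, mul_one]) hB.scl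
        refine lt_of_lt_of_le h2 (pow_le_pow_left₀ (by linarith) ?_ 2)
        exact le_mul_of_one_le_right (by linarith) l2
      · have h2 := live_low H ht hT.scl (g := Nat.gcd b c) (lo := lo') (by
          rw [uu_eq' H.hM hb hc hB.good, hp.1, mul_one]) hB.scl
        refine lt_of_lt_of_le h2 (pow_le_pow_left₀ (by linarith) ?_ 2)
        exact le_mul_of_one_le_left (by linarith) l1
    have h2 : (P.E t ^ 4) ^ 2 < ((lo : ℝ) * lo') ^ 2 := by
      calc (P.E t ^ 4) ^ 2 = P.E t ^ 8 := by ring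
        _ < _ := h1
    exact (lt_of_pow_lt_pow_left₀ 2 (by positivity) h2).le
  have h3 : (1 : ℝ) ≤ (lo : ℝ) * lo' := by nlinarith
  have h4 : (lo : ℝ) * lo' ≤ 128 * ((lo : ℝ) * lo') ^ 3 := by
    set pw := (lo : ℝ) * lo'
    have h5 : pw ≤ pw ^ 3 := by
      calc pw = pw ^ 1 := (pow_one _).symm
        _ ≤ pw ^ 3 := pow_le_pow_right₀ h3 (by norm_num)
    have h6 : 0 ≤ pw ^ 3 := by positivity
    linarith
  exact ⟨(hB.db.trans key).trans h4, (hB.dc.trans key).trans h4⟩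

/-- pure pairs of case B have an explained differing prime -/
lemma not_noEx_of_pure (H : Hy F P w δ ε D) {t : ℕ} (hb : b ∣ M) (hc : c ∣ M)
    (hB : BS F P t b c h f f') (hp : Pure F (P.cut t) b c) : ¬ NoEx (P.cut t) b c f f' := by
  intro hn
  have ht : P.m0 ≤ t := by have := hB.m0; omega
  have hE1 := H.E_one t
  have hE2 : P.E t ^ 2 ≤ P.E t ^ 8 := pow_le_pow_right₀ hE1 (by norm_num)
  have hb' : Nat.gcd b c * (b / Nat.gcd b c) ∣ M := by rw [gs_left]; exact hb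
  have hc' : Nat.gcd b c * (c / Nat.gcd b c) ∣ M := by rw [gs_right]; exact hc
  have hcop := cop_gs (c := c) H.hM hb
  rcases hB.tc with hT | hT
  · have h2 := live_low H ht hT.scl (g := Nat.gcd b c) (lo := low (P.cut t) (b / Nat.gcd b c)) (by
      rw [uu_eq H.hM hb hc hB.good, hp.2, mul_one]) hB.scl
    have h3 := low_s_dvd_k0 (F := F) (x := P.cut t) (f := f) (f' := f') H.hM hb' hc' hcop hB.pt
      (by rw [gs_left, gs_right]; exact hn)
    rw [gs_left] at h3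
    have h4 : (low (P.cut t) (b / Nat.gcd b c) : ℝ) ≤ P.E t := by
      have h5 : (low (P.cut t) (b / Nat.gcd b c) : ℝ) ≤ k0 F (P.cut t) b f := by
        exact_mod_cast Nat.le_of_dvd (k0_pos _ _ _) h3
      exact h5.trans hT.den
    have h5 : (low (P.cut t) (b / Nat.gcd b c) : ℝ) ^ 2 ≤ P.E t ^ 2 :=
      pow_le_pow_left₀ (Nat.cast_nonneg _) h4 2
    linarith
  · have h2 := live_low H ht hT.scl (g := Nat.gcd b c) (lo := low (P.cut t) (c / Nat.gcd b c)) (by
      rw [uu_eq' H.hM hb hc hB.good, hp.1, mul_one]) hB.scl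
    have h3 := low_s_dvd_k0 (F := F) (x := P.cut t) (f := f') (f' := f) H.hM hc' hb' hcop.symm
      (gap_symm hB.pt) (by rw [gs_left, gs_right]; exact hn.symm)
    rw [gs_right] at h3
    have h4 : (low (P.cut t) (c / Nat.gcd b c) : ℝ) ≤ P.E t := by
      have h5 : (low (P.cut t) (c / Nat.gcd b c) : ℝ) ≤ k0 F (P.cut t) c f' := by
        exact_mod_cast Nat.le_of_dvd (k0_pos _ _ _) h3
      exact h5.trans hT.den
    have h5 : (low (P.cut t) (c / Nat.gcd b c) : ℝ) ^ 2 ≤ P.E t ^ 2 :=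
      pow_le_pow_left₀ (Nat.cast_nonneg _) h4 2
    linarith

end pair


/-! ### the explained primes -/

section main

variable {b c : ℕ} {h : ℤ} {f f' : ℚ}

lemma Ix.dep_eq {t d : ℕ} {f : ℚ} (h : Ix F P t d f) :
    ∃ m, t ≤ m ∧ TC F P m d f ∧ dep F P m d f = dep F P t d f := by
  obtain ⟨m, h1, h2, h3⟩ := h
  refine ⟨m, h1, h2, ?_⟩
  unfold dep
  rw [h3]

/-- nothing explained, or the largest explained differing prime with its alternative -/
theorem top_or (H : Hy F P w δ ε D) {t : ℕ} (hb : b ∣ M) (hc : c ∣ M) (ht : P.m0 ≤ t)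
    (hk : ¬ killedB (lamR F P) b c h)
    (h0 : gap f f' (b / Nat.gcd b c) (c / Nat.gcd b c) h = 0)
    (ib : Ix F P t b f) (ic : Ix F P t c f') (db : dep F P t b f ≤ P.E t ^ 4)
    (dc : dep F P t c f' ≤ P.E t ^ 4) :
    NoEx (P.cut t) b c f f' ∨ ∃ p : ℕ, p.Prime ∧ p ≤ P.cut t ∧
      ((p ∣ c / Nat.gcd b c ∧ p ∣ alC c b f' f ∧ DH F P w ε t b f p) ∨
        (p ∣ b / Nat.gcd b c ∧ p ∣ alC b c f f' ∧ DH F P w ε t c f' p)) ∧
      (∀ r : ℕ, r.Prime → p < r → r ≤ P.cut t → ¬ r ∣ alC b c f f' ∧ ¬ r ∣ alC c b f' f) ∧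
      ∀ r : ℕ, r.Prime → p < r → r ≤ P.cut t →
        (r ∣ b / Nat.gcd b c → r ∣ k0 F (P.cut t) b f) ∧
        (r ∣ c / Nat.gcd b c → r ∣ k0 F (P.cut t) c f') := by
  classical
  have hM := H.hM
  have hb0 : 0 < b := Nat.pos_of_dvd_of_pos hb hM
  have hc0 : 0 < c := Nat.pos_of_dvd_of_pos hc hM
  set g := Nat.gcd b c with hg'
  set s := b / g with hs'
  set s' := c / g with hs''
  have hg : 0 < g := Nat.gcd_pos_of_pos_left _ hb0
  have e1 : g * s = b := gs_left b c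
  have e2 : g * s' = c := gs_right b c
  have hs : 0 < s := Nat.pos_of_ne_zero fun h => by rw [h, mul_zero] at e1; omega
  have hs0' : 0 < s' := Nat.pos_of_ne_zero fun h => by rw [h, mul_zero] at e2; omega
  have hcop : Nat.Coprime s s' := cop_gs hM hb
  have hbM : g * s ∣ M := by rw [e1]; exact hb
  have hcM : g * s' ∣ M := by rw [e2]; exact hc
  have hk' : ¬ killedL (lamR F P) (g * s) (g * s') s s' h := by
    rw [e1, e2]
    exact fun hh => hk (killedB_iff.2 hh)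
  obtain ⟨mb, hmb, tb, eb⟩ := ib.dep_eq
  obtain ⟨mc, hmc, tc, ec⟩ := ic.dep_eq
  set S := (Finset.range (P.cut t + 1)).filter (fun p => p.Prime ∧
    (p ∣ alC b c f f' ∨ p ∣ alC c b f' f)) with hS
  have hmem : ∀ p, p ∈ S ↔ p ≤ P.cut t ∧ p.Prime ∧
      (p ∣ alC b c f f' ∨ p ∣ alC c b f' f) := by
    intro p
    rw [hS, Finset.mem_filter, Finset.mem_range, Nat.lt_succ_iff]
  rcases S.eq_empty_or_nonempty with he | hne
  · left
    intro p hp hpx
    have h1 : p ∉ S := by rw [he]; exact Finset.notMem_empty p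
    constructor
    · intro hd; exact h1 ((hmem p).2 ⟨hpx, hp, Or.inl hd⟩)
    · intro hd; exact h1 ((hmem p).2 ⟨hpx, hp, Or.inr hd⟩)
  right
  set p := S.max' hne with hp
  obtain ⟨hpx, hpp, hpe⟩ := (hmem p).1 (S.max'_mem hne)
  refine ⟨p, hpp, hpx, ?_, ?_, ?_⟩
  · rcases hpe with h1 | h1
    · right
      have h1' : p ∣ alC (g * s) (g * s') f f' := by rw [e1, e2]; exact h1
      refine ⟨h1'.trans (al_dvd_s hg hs hs0' hcop h0), h1, ?_⟩
      have ha := alt_right (F := F) (P := P) (m := mc) H.hL hM H.hN (fun m hm => H.hE3 m hm) hcM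
        (ht.trans hmc) (by rw [e2]; exact tc)
        ((H.act t p hpx).trans (H.cut_mono hmc)) hpp hg hs hs0' hcop h0 hk' h1'
      rw [e2] at ha
      exact dh_of_alt H hc ht hmc hpx tc ec dc ha
    · left
      have h1' : p ∣ alC (g * s') (g * s) f' f := by rw [e1, e2]; exact h1
      refine ⟨h1'.trans (al'_dvd hg hs hs0' hcop h0), h1, ?_⟩
      have ha := alt_left (F := F) (P := P) (m := mb) H.hL hM H.hN (fun m hm => H.hE3 m hm) hbM
        (ht.trans hmb) (by rw [e1]; exact tb)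
        ((H.act t p hpx).trans (H.cut_mono hmb)) hpp hg hs hs0' hcop h0 hk' h1'
      rw [e1] at ha
      exact dh_of_alt H hb ht hmb hpx tb eb db ha
  · intro r hr hpr hrx
    have hrS : r ∉ S := fun hc => by
      have := S.le_max' r hc
      omega
    exact ⟨fun hd => hrS ((hmem r).2 ⟨hrx, hr, Or.inl hd⟩),
      fun hd => hrS ((hmem r).2 ⟨hrx, hr, Or.inr hd⟩)⟩
  · intro r hr hpr hrx
    have hrS : r ∉ S := fun hc => by
      have := S.le_max' r hc
      omega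
    constructor
    · intro hrs
      by_contra hcon
      refine hrS ((hmem r).2 ⟨hrx, hr, Or.inl ?_⟩)
      have := Pairx14.expl_of_not_dvd (F := F) (f := f') (f' := f) hM hbM hg hs0' hcop.symm
        (isC_k0 (F := F) (P.cut t) (g * s) f) hr hrx hrs (by rw [e1]; exact hcon)
      rwa [e1, e2] at this
    · intro hrs
      by_contra hcon
      refine hrS ((hmem r).2 ⟨hrx, hr, Or.inr ?_⟩)
      have := Pairx14.expl_of_not_dvd (F := F) (f := f) (f' := f') hM hcM hg hs hcop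
        (isC_k0 (F := F) (P.cut t) (g * s') f') hr hrx hrs (by rw [e2]; exact hcon)
      rwa [e1, e2] at this

/-- the case analysis at one level -/
theorem caseS (H : Hy F P w δ ε D) {t : ℕ} (hb : b ∣ M) (hc : c ∣ M) (ht : P.m0 ≤ t)
    (hk : ¬ killedB (lamR F P) b c h) (good : F.good (P.cut t) b c)
    (h0 : gap f f' (b / Nat.gcd b c) (c / Nat.gcd b c) h = 0)
    (al : AlLe F P b c h (P.cut (2 * t))) (scl : (Nat.gcd b c : ℝ) < 2 ^ (t + 1) * P.L)
    (near : X1 P b c < P.cut t)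
    (ib : Ix F P t b f) (ic : Ix F P t c f') (tc : TC F P t b f ∨ TC F P t c f')
    (db : dep F P t b f ≤ P.E t ^ 4) (dc : dep F P t c f' ≤ P.E t ^ 4) :
    CHvy F P w ε b c h ∨ NoEx (P.cut t) b c f f' ∨ ¬ BigW F P t b c f f' ∨ CLow F P b c h := by
  rcases top_or H hb hc ht hk h0 ib ic db dc with h1 | ⟨p, hp, hpx, halt, htop, htopk⟩
  · exact Or.inr (Or.inl h1)
  by_cases hbig : BigW F P t b c f f'
  swap
  · exact Or.inr (Or.inr (Or.inl hbig))
  rcases halt with ⟨h1, h2, h3 | h3⟩ | ⟨h1, h2, h3 | h3⟩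
  · exact Or.inr (Or.inr (Or.inr ⟨t, f, f', p, good, h0, db, dc, ib, ic, tc, hp, hpx,
      Or.inl ⟨h1, h2, h3⟩, htop, htopk, hbig, al, ht, scl, near⟩))
  · exact Or.inl ⟨t, ht, good, al, scl, near, Or.inl h3⟩
  · exact Or.inr (Or.inr (Or.inr ⟨t, f, f', p, good, h0, db, dc, ib, ic, tc, hp, hpx,
      Or.inr ⟨h1, h2, h3⟩, htop, htopk, hbig, al, ht, scl, near⟩))
  · exact Or.inl ⟨t, ht, good, al, scl, near, Or.inr h3⟩

/-- `g^2 ≤ 2^(t+1) L^2` implies `g < 2^(t+1) L` for `t ≥ 1` -/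
lemma lt_of_scl {L : ℝ} (hL : 0 < L) {g : ℝ} (hg : 0 ≤ g) {t : ℕ} (ht : 1 ≤ t)
    (h : g ^ 2 ≤ 2 ^ (t + 1) * L ^ 2) : g < 2 ^ (t + 1) * L := by
  have h1 : (1 : ℝ) < 2 ^ (t + 1) := one_lt_pow₀ (by norm_num) (by omega)
  have h2 : g ^ 2 < (2 ^ (t + 1) * L) ^ 2 := by
    refine lt_of_le_of_lt h ?_
    have h3 : (0 : ℝ) < 2 ^ (t + 1) * L ^ 2 := by positivity
    nlinarith
  exact lt_of_pow_lt_pow_left₀ 2 (by positivity) h2

/-- **case B**, both depths small -/
theorem caseB (H : Hy F P w δ ε D) {t : ℕ} (hb : b ∣ M) (hc : c ∣ M)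
    (hk : ¬ killedB (lamR F P) b c h) (hB : BS F P t b c h f f') :
    CHvy F P w ε b c h ∨ CNP F P b c h ∨ CLow F P b c h := by
  have ht : P.m0 ≤ t := by have := hB.m0; omega
  have ht1 : 1 ≤ t := by have := hB.m0; omega
  have hal : AlLe F P b c h (P.cut (2 * t)) := hB.al.mono (H.cut_mono (by omega))
  rcases caseS H hb hc ht hk hB.good hB.pt hal
    (lt_of_scl H.hL (Nat.cast_nonneg _) ht1 hB.scl) hB.near hB.ib hB.ic hB.tc hB.db hB.dc with
    h1 | h1 | h1 | h1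
  · exact Or.inl h1
  · exact Or.inr (Or.inl ⟨t, f, f', hB, fun hp => not_noEx_of_pure H hb hc hB hp h1, Or.inl h1⟩)
  · exact Or.inr (Or.inl ⟨t, f, f', hB, fun hp => h1 (bigW_of_pure H hb hc hB hp), Or.inr h1⟩)
  · exact Or.inr (Or.inr h1)


/-- **case B**: an aligned prime `q` whose cuts all have index `≥ l` -/
theorem caseAl (H : Hy F P w δ ε D) {l q : ℕ} (hb : b ∣ M) (hc : c ∣ M)
    (hk : ¬ killedB (lamR F P) b c h) (hgood : F.good (P.cut l) b c)
    (hal : AlLe F P b c h (P.cut l))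
    (hq : q ∈ alSet F P b c (b / Nat.gcd b c) (c / Nat.gcd b c) h)
    (hql : ∀ t, q ≤ P.cut t → l ≤ t) (hm0 : 2 * P.m0 < l)
    (hscl : (Nat.gcd b c : ℝ) ^ 2 ≤ 2 ^ (l + 1) * P.L ^ 2) (hnear : X1 P b c < P.cut l) :
    CHvy F P w ε b c h ∨ CTw F P b c h ∨ CNP F P b c h ∨ CLow F P b c h := by
  classical
  obtain ⟨_, f, f', ha⟩ := Finset.mem_filter.1 hq
  obtain ⟨a1, a2, a3, _⟩ := Fc_spec ha.used
  obtain ⟨b1, b2, b3, _⟩ := Fc_spec ha.used'
  set mb := mst F P b q with hmb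
  set mc := mst F P c q with hmc
  set t := min mb mc with ht
  have htb : t ≤ mb := min_le_left _ _
  have htc : t ≤ mc := min_le_right _ _
  have hqY : q ≤ P.Y (P.blk q) := Par.le_blk H.Y_mono q
  have hqt : q ≤ P.cut t := by
    rcases min_choice mb mc with e | e
    · rw [ht, e]; exact hqY.trans a2
    · rw [ht, e]; exact hqY.trans b2
  have hlt : l ≤ t := hql t hqt
  have htm : P.m0 ≤ t := by omega
  have hcut := H.cut_mono hlt
  have hBP : BP F P t b c h f f' := by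
    refine ⟨FL.good_mono hcut hgood, ha.pt, hal.mono hcut, by omega, ?_, ?_⟩
    · refine hscl.trans (mul_le_mul_of_nonneg_right ?_ (sq_nonneg _))
      exact pow_le_pow_right₀ (by norm_num) (by omega)
    · refine hnear.trans_le ?_
      exact_mod_cast hcut
  -- `dep ≤ E^4` at the scale `t` for a tree centre of the scale `t`
  have hsm : ∀ (d : ℕ) (f₀ : ℚ), TC F P t d f₀ → dep F P t d f₀ ≤ P.E t ^ 4 := fun d f₀ hT =>
    (hT.dep_le H.hL).trans (pow_le_pow_right₀ (H.E_one t) (by norm_num))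
  by_cases h1 : P.E t ^ 4 < dep F P mb b f
  · have hne : t ≠ mb := fun e => by
      rw [← e] at a3 h1
      have := hsm b f a3
      linarith
    have e : t = mc := by
      rcases min_choice mb mc with e | e
      · exact absurd e (by omega)
      · rw [ht, e]
    right; left
    refine ⟨t, mb, f, f', hBP, htb, Or.inl ⟨a3, ?_, h1⟩⟩
    rw [e]; exact b3
  by_cases h2 : P.E t ^ 4 < dep F P mc c f'
  · have hne : t ≠ mc := fun e => by
      rw [← e] at b3 h2
      have := hsm c f' b3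
      linarith
    have e : t = mb := by
      rcases min_choice mb mc with e | e
      · rw [ht, e]
      · exact absurd e (by omega)
    right; left
    refine ⟨t, mc, f, f', hBP, htc, Or.inr ⟨b3, ?_, h2⟩⟩
    rw [e]; exact a3
  rw [not_lt] at h1 h2
  have hE4 := H.E4_le t htm
  have kb : k0 F (P.cut mb) b f ≤ P.cut t := by
    have : (k0 F (P.cut mb) b f : ℝ) ≤ P.cut t :=
      ((k0_le_dep mb b f).trans h1).trans hE4.le
    exact_mod_cast this
  have kc : k0 F (P.cut mc) c f' ≤ P.cut t := by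
    have : (k0 F (P.cut mc) c f' : ℝ) ≤ P.cut t :=
      ((k0_le_dep mc c f').trans h2).trans hE4.le
    exact_mod_cast this
  have hBS : BS F P t b c h f f' := by
    refine ⟨hBP, ⟨mb, htb, a3, (TwPairx100.k0_stable (H.cut_mono htb) kb).symm⟩,
      ⟨mc, htc, b3, (TwPairx100.k0_stable (H.cut_mono htc) kc).symm⟩, ?_, ?_, ?_⟩
    · rcases min_choice mb mc with e | e
      · left; rw [ht, e]; exact a3
      · right; rw [ht, e]; exact b3
    · rw [TwPairx100.dep_stable H.cut_mono htb kb]; exact h1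
    · rw [TwPairx100.dep_stable H.cut_mono htc kc]; exact h2
  rcases caseB H hb hc hk hBS with h3 | h3 | h3
  · exact Or.inl h3
  · exact Or.inr (Or.inr (Or.inl h3))
  · exact Or.inr (Or.inr (Or.inr h3))

lemma depW_symm (m g s s' : ℕ) (f f' : ℚ) : depW F P m g s' s f' f = depW F P m g s s' f f' := by
  unfold depW
  rw [Nat.lcm_comm, max_comm (2 ^ m * ((s' : ℝ) * |P.γ - f'|))]

/-- **case A**: own scale, good at `cut i` -/
theorem caseA (H : Hy F P w δ ε D) {i : ℕ} (hb : b ∣ M) (hc : c ∣ M)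
    (hl : h ∈ Lnk P.γ P.L b c) (hk : ¬ killedB (lamR F P) b c h)
    (hnear : X1 P b c < P.cut i) (hF : FarA F P i b c h) :
    CHvy F P w ε b c h ∨ CLow F P b c h ∨ CRareA F P D b c h ∨ CUD F P D b c h ∨
      CDomP F P b c h ∨ CDomN F P b c h := by
  have hi := hF.m0
  have hM := H.hM
  have hb0 : 0 < b := Nat.pos_of_dvd_of_pos hb hM
  have hg2 : (Nat.gcd b c : ℝ) ≤ 2 * ((2 : ℝ) ^ i * P.L) := by
    refine hF.hi.le.trans (le_of_eq ?_)
    rw [pow_succ]; ring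
  rcases PairBx945.cover_goodBX (F := F) (P := P) (D := D i) H.hL hM H.hN
    (fun m hm => H.hE3 m hm) hi
    (H.act i) hb hc hF.good (H.hD i hi) (H.hDT i hi) (H.hDE i hi) hF.lo hg2 hl hk with
    h1 | h1 | h1 | h1 | ⟨f, f', p, hP⟩
  · exact Or.inr (Or.inr (Or.inl ⟨i, hF, h1⟩))
  · have hDE := H.hDE i hi
    have hD8 : (0 : ℝ) ≤ 4 * D i ^ 8 := by positivity
    have hdom : DomA P i b c := ⟨h1.1, h1.2.1.trans (by linarith), h1.2.2.trans (by linarith)⟩
    by_cases hp : Pure F (P.cut i) b c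
    · exact Or.inr (Or.inr (Or.inr (Or.inr (Or.inl ⟨i, hF, hdom, hp⟩))))
    · exact Or.inr (Or.inr (Or.inr (Or.inr (Or.inr ⟨i, hF, hdom, hp⟩))))
  · exact Or.inr (Or.inr (Or.inr (Or.inl ⟨i, hF, Or.inl h1⟩)))
  · exact Or.inr (Or.inr (Or.inr (Or.inl ⟨i, hF, Or.inr h1⟩)))
  -- labelled pair
  have e1 := gs_left b c
  have e2 := gs_right b c
  have hbM : Nat.gcd b c * (b / Nat.gcd b c) ∣ M := by rw [e1]; exact hb
  have hcM : Nat.gcd b c * (c / Nat.gcd b c) ∣ M := by rw [e2]; exact hc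
  have hcop := cop_gs (c := c) hM hb
  have tb : TC F P i b f := by have := hP.tcb; rwa [e1] at this
  have tc : TC F P i c f' := by have := hP.tcc; rwa [e2] at this
  have hsm : ∀ (d : ℕ) (f₀ : ℚ), TC F P i d f₀ → dep F P i d f₀ ≤ P.E i ^ 4 := fun d f₀ hT =>
    (hT.dep_le H.hL).trans (pow_le_pow_right₀ (H.E_one i) (by norm_num))
  have hbig : BigW F P i b c f f' := by
    have hlab := hP.labels hM hbM hcM hcop (by rw [e1, e2]; exact hF.good)
    obtain ⟨_, _, _, _, _, _, _, _, _, _, _, _, _, hw⟩ := hlab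
    have d1 := dep_le_depW (F := F) (P := P) (m := i) (g := Nat.gcd b c)
      (s := b / Nat.gcd b c) (s' := c / Nat.gcd b c) (f := f) (f' := f') H.hL hg2
    have d2 := dep_le_depW (F := F) (P := P) (m := i) (g := Nat.gcd b c)
      (s := c / Nat.gcd b c) (s' := b / Nat.gcd b c) (f := f') (f' := f) H.hL hg2
    rw [depW_symm] at d2
    rw [e1] at d1
    rw [e2] at d2
    have l1 : (1 : ℝ) ≤ low (P.cut i) (b / Nat.gcd b c) := by
      exact_mod_cast low_pos (P.cut i) (b / Nat.gcd b c)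
    have l2 : (1 : ℝ) ≤ low (P.cut i) (c / Nat.gcd b c) := by
      exact_mod_cast low_pos (P.cut i) (c / Nat.gcd b c)
    set lo : ℝ := (low (P.cut i) (b / Nat.gcd b c) : ℝ) * low (P.cut i) (c / Nat.gcd b c)
      with hlo
    have h3 : (1 : ℝ) ≤ lo := by rw [hlo]; nlinarith
    have h4 : (1 : ℝ) ≤ lo ^ 3 := one_le_pow₀ h3
    have hW : 2 * depW F P i (Nat.gcd b c) (b / Nat.gcd b c) (c / Nat.gcd b c) f f' ≤
        128 * lo ^ 3 := by
      rcases hw with hw | hw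
      · linarith
      · linarith
    exact ⟨d1.trans hW, d2.trans hW⟩
  rcases caseS H hb hc hi hk hF.good hP.pt hF.al hF.hi hnear ⟨i, le_rfl, tb, rfl⟩
    ⟨i, le_rfl, tc, rfl⟩ (Or.inl tb) (hsm b f tb) (hsm c f' tc) with h1 | h1 | h1 | h1
  · exact Or.inl h1
  · exfalso
    rcases hP.alt with ⟨_, h2, _⟩ | ⟨_, h2, _⟩
    · rw [e1, e2] at h2
      exact (h1 p hP.prime hP.le).2 h2
    · rw [e1, e2] at h2
      exact (h1 p hP.prime hP.le).1 h2
  · exact absurd hbig h1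
  · exact Or.inr (Or.inl h1)


/-! ### levels -/

lemma good_top (hM : 0 < M) (hb : b ∣ M) (hc : c ∣ M) {x : ℕ} (hx : M ≤ x) : F.good x b c := by
  have key : ∀ q : ℕ, q.Prime → x < q → q ∉ M.primeFactors := fun q _ hq hmem => by
    have := Nat.le_of_dvd hM (Nat.dvd_of_mem_primeFactors hmem)
    omega
  constructor
  · intro q hq hx' _
    rw [FL.fact_zero hM hb (key q hq hx'), FL.fact_zero hM hc (key q hq hx')]
  · intro q hq hx' v hv
    left
    rw [FL.fact_zero hM hb (key q hq hx'), FL.ctr_zero hb hq hM (key q hq hx') hv]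

lemma alLe_top (hM : 0 < M) {x : ℕ} (hx : M ≤ x) : AlLe F P b c h x := by
  classical
  intro q hq
  have h1 := (Finset.mem_filter.1 hq).1
  have h2 : q ∈ M.primeFactors := by
    rcases Finset.mem_union.1 h1 with h | h
    · exact (Finset.mem_filter.1 h).1
    · exact (Finset.mem_filter.1 h).1
  exact (Nat.le_of_dvd hM (Nat.dvd_of_mem_primeFactors h2)).trans hx

/-- the level of a pair -/
theorem exists_level (H : Hy F P w δ ε D) (hb : b ∣ M) (hc : c ∣ M) (I : ℕ) :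
    ∃ l, I ≤ l ∧ F.good (P.cut l) b c ∧ AlLe F P b c h (P.cut l) ∧
      ∀ l', I ≤ l' → l' < l → ¬ (F.good (P.cut l') b c ∧ AlLe F P b c h (P.cut l')) := by
  classical
  have hex : ∃ l, I ≤ l ∧ F.good (P.cut l) b c ∧ AlLe F P b c h (P.cut l) := by
    refine ⟨max I M, le_max_left _ _, ?_⟩
    have h1 : M ≤ P.cut (max I M) := by
      have h2 : M < 2 ^ M := Nat.lt_two_pow_self
      have h3 : 2 ^ M ≤ 2 ^ (max I M) := Nat.pow_le_pow_right (by norm_num) (le_max_right _ _)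
      have h4 := H.cut_ge (max I M)
      omega
    exact ⟨good_top H.hM hb hc h1, alLe_top H.hM h1⟩
  refine ⟨Nat.find hex, (Nat.find_spec hex).1, (Nat.find_spec hex).2.1, (Nat.find_spec hex).2.2,
    fun l' h1 h2 h3 => Nat.find_min hex h2 ⟨h1, h3⟩⟩

lemma X1_far (H : Hy F P w δ ε D) {t : ℕ} (ht : 2 ≤ t) (hg : P.L ≤ (Nat.gcd b c : ℝ)) :
    X1 P b c < P.cut t := by
  have hg0 : (0 : ℝ) < (Nat.gcd b c : ℝ) := H.hL.trans_le hg
  have h1 : P.L / (Nat.gcd b c : ℕ) ≤ 1 := (div_le_one hg0).2 hg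
  unfold X1
  rw [max_eq_left h1, Real.one_rpow]
  have h2 : (4 : ℝ) ≤ P.cut t := by
    have h3 : 2 ^ 2 ≤ P.cut t := (Nat.pow_le_pow_right (by norm_num) ht).trans (H.cut_ge t)
    exact_mod_cast h3
  linarith [Real.exp_one_lt_d9]

/-- **THE SPLIT** -/
theorem split_all (H : Hy F P w δ ε D) (hb : b ∣ M) (hc : c ∣ M)
    (hl : h ∈ Lnk P.γ P.L b c) (hk : ¬ killedB (lamR F P) b c h) :
    CNear F P b c h ∨ CBad F P b c h ∨ CHvy F P w ε b c h ∨ (¬ CHvy F P w ε b c h ∧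
      (CTw F P b c h ∨ CNP F P b c h ∨ CLow F P b c h ∨ CRareA F P D b c h ∨ CUD F P D b c h ∨
        CDomP F P b c h ∨ CDomN F P b c h)) := by
  classical
  have hM := H.hM
  have hL := H.hL
  have hb0 : 0 < b := Nat.pos_of_dvd_of_pos hb hM
  have hg : 0 < Nat.gcd b c := Nat.gcd_pos_of_pos_left _ hb0
  have hgR : (0 : ℝ) < (Nat.gcd b c : ℝ) := by exact_mod_cast hg
  -- the conclusion from a disjunction without the negation
  have key : (CNear F P b c h ∨ CBad F P b c h ∨ CHvy F P w ε b c h ∨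
      (CTw F P b c h ∨ CNP F P b c h ∨ CLow F P b c h ∨ CRareA F P D b c h ∨ CUD F P D b c h ∨
        CDomP F P b c h ∨ CDomN F P b c h)) →
      CNear F P b c h ∨ CBad F P b c h ∨ CHvy F P w ε b c h ∨ (¬ CHvy F P w ε b c h ∧
      (CTw F P b c h ∨ CNP F P b c h ∨ CLow F P b c h ∨ CRareA F P D b c h ∨ CUD F P D b c h ∨
        CDomP F P b c h ∨ CDomN F P b c h)) := by
    rintro (h1 | h1 | h1 | h1)
    · exact Or.inl h1
    · exact Or.inr (Or.inl h1)
    · exact Or.inr (Or.inr (Or.inl h1))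
    · by_cases h2 : CHvy F P w ε b c h
      · exact Or.inr (Or.inr (Or.inl h2))
      · exact Or.inr (Or.inr (Or.inr ⟨h2, h1⟩))
  refine key ?_
  -- the scale index
  obtain ⟨I, hI0, hIhi, hIlo⟩ : ∃ I : ℕ, P.m0 ≤ I ∧ (Nat.gcd b c : ℝ) < 2 ^ (I + 1) * P.L ∧
      ((I = P.m0 ∧ (Nat.gcd b c : ℝ) < 2 ^ P.m0 * P.L) ∨ 2 ^ I * P.L ≤ (Nat.gcd b c : ℝ)) := by
    by_cases hn : (Nat.gcd b c : ℝ) < 2 ^ P.m0 * P.L
    · refine ⟨P.m0, le_rfl, hn.trans_le ?_, Or.inl ⟨rfl, hn⟩⟩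
      refine mul_le_mul_of_nonneg_right ?_ hL.le
      exact pow_le_pow_right₀ (by norm_num) (Nat.le_succ _)
    · rw [not_lt] at hn
      have h1 : (2 : ℝ) ^ P.m0 ≤ (Nat.gcd b c : ℝ) / P.L := (le_div_iff₀ hL).2 hn
      have h2 : (1 : ℝ) ≤ (Nat.gcd b c : ℝ) / P.L :=
        (one_le_pow₀ (by norm_num : (1 : ℝ) ≤ 2)).trans h1
      obtain ⟨n, hn1, hn2⟩ := exists_nat_pow_near h2 (by norm_num : (1 : ℝ) < 2)
      refine ⟨n, ?_, (div_lt_iff₀ hL).1 hn2, Or.inr ((le_div_iff₀ hL).1 hn1)⟩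
      have h3 : (2 : ℝ) ^ P.m0 < 2 ^ (n + 1) := h1.trans_lt hn2
      have h4 := (pow_lt_pow_iff_right₀ (by norm_num : (1 : ℝ) < 2)).1 h3
      omega
  obtain ⟨l, hIl, hgood, hal, hmin⟩ := exists_level (h := h) H hb hc I
  have htwo := H.two
  by_cases hl2 : l ≤ 2 * I
  · -- level comparable with the own scale
    rcases hIlo with ⟨hIe, hn⟩ | hIlo
    · exact Or.inl ⟨hn, l, hgood, hal, Or.inl (by omega)⟩
    have hfarL : P.L ≤ (Nat.gcd b c : ℝ) := by
      refine le_trans ?_ hIlo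
      exact le_mul_of_one_le_left hL.le (one_le_pow₀ (by norm_num))
    by_cases hx : F.good (P.cut I) b c
    · have hF : FarA F P I b c h := ⟨hI0, hIlo, hIhi, hx, hal.mono (H.cut_mono hl2)⟩
      rcases caseA H hb hc hl hk (X1_far H (by omega) hfarL) hF with
        h1 | h1 | h1 | h1 | h1 | h1
      · exact Or.inr (Or.inr (Or.inl h1))
      · exact Or.inr (Or.inr (Or.inr (Or.inr (Or.inr (Or.inl h1)))))
      · exact Or.inr (Or.inr (Or.inr (Or.inr (Or.inr (Or.inr (Or.inl h1))))))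
      · exact Or.inr (Or.inr (Or.inr (Or.inr (Or.inr (Or.inr (Or.inr (Or.inl h1)))))))
      · exact Or.inr (Or.inr (Or.inr (Or.inr (Or.inr (Or.inr (Or.inr (Or.inr (Or.inl h1))))))))
      · exact Or.inr (Or.inr (Or.inr (Or.inr (Or.inr (Or.inr (Or.inr (Or.inr (Or.inr h1))))))))
    · have hlI : I < l := by
        rcases Nat.lt_or_eq_of_le hIl with h1 | h1
        · exact h1
        · rw [← h1] at hgood; exact absurd hgood hx
      exact Or.inr (Or.inl ⟨I, l, hI0, hlI, by omega, hx, hgood, hal, hIhi,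
        X1_far H (by omega) hfarL⟩)
  · rw [not_le] at hl2
    -- the near cut
    by_cases hX : X1 P b c < P.cut l
    swap
    · rcases hIlo with ⟨hIe, hn⟩ | hIlo
      · exact Or.inl ⟨hn, l, hgood, hal, Or.inr (not_lt.1 hX)⟩
      · exfalso
        have hfarL : P.L ≤ (Nat.gcd b c : ℝ) := by
          refine le_trans ?_ hIlo
          exact le_mul_of_one_le_left hL.le (one_le_pow₀ (by norm_num))
        exact hX (X1_far H (by omega) hfarL)
    obtain ⟨r, rfl⟩ : ∃ r, l = r + 1 := ⟨l - 1, by omega⟩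
    have hIr : I ≤ r := by omega
    by_cases hx : F.good (P.cut r) b c
    · -- an aligned prime above `cut r`
      have hna : ¬ AlLe F P b c h (P.cut r) := fun ha => hmin r hIr (Nat.lt_succ_self r) ⟨hx, ha⟩
      unfold AlLe at hna
      push Not at hna
      obtain ⟨q, hq, hqr⟩ := hna
      have hql : ∀ t, q ≤ P.cut t → r + 1 ≤ t := by
        intro t ht
        by_contra hc'
        have h1 : P.cut t ≤ P.cut r := H.cut_mono (by omega)
        omega
      have hscl : (Nat.gcd b c : ℝ) ^ 2 ≤ 2 ^ (r + 1 + 1) * P.L ^ 2 := by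
        have h1 : (Nat.gcd b c : ℝ) ^ 2 ≤ (2 ^ (I + 1) * P.L) ^ 2 :=
          pow_le_pow_left₀ hgR.le hIhi.le 2
        refine h1.trans ?_
        rw [mul_pow, ← pow_mul]
        refine mul_le_mul_of_nonneg_right ?_ (sq_nonneg _)
        exact pow_le_pow_right₀ (by norm_num) (by omega)
      rcases caseAl H hb hc hk hgood hal hq hql (by omega) hscl hX with h1 | h1 | h1 | h1
      · exact Or.inr (Or.inr (Or.inl h1))
      · exact Or.inr (Or.inr (Or.inr (Or.inl h1)))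
      · exact Or.inr (Or.inr (Or.inr (Or.inr (Or.inl h1))))
      · exact Or.inr (Or.inr (Or.inr (Or.inr (Or.inr (Or.inl h1)))))
    · refine Or.inr (Or.inl ⟨r, r + 1, by omega, Nat.lt_succ_self r, by omega, hx, hgood, hal, ?_,
        hX⟩)
      refine hIhi.trans_le (mul_le_mul_of_nonneg_right ?_ hL.le)
      exact pow_le_pow_right₀ (by norm_num) (by omega)

/-- **conflict at a tree centre of any level** (for the (β) part of the boosted rows): a pair good at
`cut t` with all aligned primes `≤ cut (2 t)`; at an explained differing prime `p ≤ cut t` missing in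
`b` the tree centre of the level `t` is too deep, unless the pair is in `CHvy` -/
theorem deep_left (H : Hy F P w δ ε D) {t p : ℕ} (hb : b ∣ M) (hc : c ∣ M) (ht : P.m0 ≤ t)
    (hk : ¬ killedB (lamR F P) b c h) (hn : ¬ CHvy F P w ε b c h) (good : F.good (P.cut t) b c)
    (h0 : gap f f' (b / Nat.gcd b c) (c / Nat.gcd b c) h = 0)
    (al : AlLe F P b c h (P.cut (2 * t))) (scl : (Nat.gcd b c : ℝ) < 2 ^ (t + 1) * P.L)
    (near : X1 P b c < P.cut t) (tb : TC F P t b f) (hp : p.Prime) (hpx : p ≤ P.cut t)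
    (hpa : p ∣ alC c b f' f) : P.thr b (P.blk p) < dep F P t b f := by
  have hM := H.hM
  have hb0 : 0 < b := Nat.pos_of_dvd_of_pos hb hM
  have hc0 : 0 < c := Nat.pos_of_dvd_of_pos hc hM
  have hg : 0 < Nat.gcd b c := Nat.gcd_pos_of_pos_left _ hb0
  have e1 := gs_left b c
  have e2 := gs_right b c
  have hs : 0 < b / Nat.gcd b c := Nat.pos_of_ne_zero fun h => by rw [h, mul_zero] at e1; omega
  have hs' : 0 < c / Nat.gcd b c := Nat.pos_of_ne_zero fun h => by rw [h, mul_zero] at e2; omega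
  have hbM : Nat.gcd b c * (b / Nat.gcd b c) ∣ M := by rw [e1]; exact hb
  have hk' : ¬ killedL (lamR F P) (Nat.gcd b c * (b / Nat.gcd b c))
      (Nat.gcd b c * (c / Nat.gcd b c)) (b / Nat.gcd b c) (c / Nat.gcd b c) h := by
    rw [e1, e2]
    exact fun hh => hk (killedB_iff.2 hh)
  have ha := alt_left (F := F) (P := P) (m := t) H.hL hM H.hN (fun m hm => H.hE3 m hm) hbM
    ht (by rw [e1]; exact tb) (H.act t p hpx) hp hg hs hs' (cop_gs hM hb) h0 hk'
    (by rw [e1, e2]; exact hpa)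
  rw [e1] at ha
  have hdep : dep F P t b f ≤ P.E t ^ 4 :=
    (tb.dep_le H.hL).trans (pow_le_pow_right₀ (H.E_one t) (by norm_num))
  rcases dh_of_alt H hb ht le_rfl hpx tb rfl hdep ha with h1 | h1
  · exact h1
  · exact absurd ⟨t, ht, good, al, scl, near, Or.inl h1⟩ hn

theorem deep_right (H : Hy F P w δ ε D) {t p : ℕ} (hb : b ∣ M) (hc : c ∣ M) (ht : P.m0 ≤ t)
    (hk : ¬ killedB (lamR F P) b c h) (hn : ¬ CHvy F P w ε b c h) (good : F.good (P.cut t) b c)
    (h0 : gap f f' (b / Nat.gcd b c) (c / Nat.gcd b c) h = 0)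
    (al : AlLe F P b c h (P.cut (2 * t))) (scl : (Nat.gcd b c : ℝ) < 2 ^ (t + 1) * P.L)
    (near : X1 P b c < P.cut t) (tc : TC F P t c f') (hp : p.Prime) (hpx : p ≤ P.cut t)
    (hpa : p ∣ alC b c f f') : P.thr c (P.blk p) < dep F P t c f' := by
  have hM := H.hM
  have hb0 : 0 < b := Nat.pos_of_dvd_of_pos hb hM
  have hc0 : 0 < c := Nat.pos_of_dvd_of_pos hc hM
  have hg : 0 < Nat.gcd b c := Nat.gcd_pos_of_pos_left _ hb0
  have e1 := gs_left b c
  have e2 := gs_right b c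
  have hs : 0 < b / Nat.gcd b c := Nat.pos_of_ne_zero fun h => by rw [h, mul_zero] at e1; omega
  have hs' : 0 < c / Nat.gcd b c := Nat.pos_of_ne_zero fun h => by rw [h, mul_zero] at e2; omega
  have hcM : Nat.gcd b c * (c / Nat.gcd b c) ∣ M := by rw [e2]; exact hc
  have hk' : ¬ killedL (lamR F P) (Nat.gcd b c * (b / Nat.gcd b c))
      (Nat.gcd b c * (c / Nat.gcd b c)) (b / Nat.gcd b c) (c / Nat.gcd b c) h := by
    rw [e1, e2]
    exact fun hh => hk (killedB_iff.2 hh)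
  have ha := alt_right (F := F) (P := P) (m := t) H.hL hM H.hN (fun m hm => H.hE3 m hm) hcM
    ht (by rw [e2]; exact tc) (H.act t p hpx) hp hg hs hs' (cop_gs hM hb) h0 hk'
    (by rw [e1, e2]; exact hpa)
  rw [e2] at ha
  have hdep : dep F P t c f' ≤ P.E t ^ 4 :=
    (tc.dep_le H.hL).trans (pow_le_pow_right₀ (H.E_one t) (by norm_num))
  rcases dh_of_alt H hc ht le_rfl hpx tc rfl hdep ha with h1 | h1
  · exact h1
  · exact absurd ⟨t, ht, good, al, scl, near, Or.inr h1⟩ hn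

end main

end Crest.Agent.R4C.Splitx945
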