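import Mathlib
import Crest.Agent.Lib.Mertens
import Crest.Agent.R4C.Base_935

/-!
# Row 4: counting leaves (helper952)

* `Rough x n` : every prime factor of `n` is `> x`.
* `card_rough_le` : `#{1 ≤ n ≤ N rough} ≤ C N / log x` for `2 ≤ x ≤ N`;
  `card_rough_all` : `≤ 1 + C N / log x` for all `N`; `card_rough_Ico` : the window `[Y, 2Y)`.
* `recip_rough_le` : `∑_{n ≤ N, rough} 1/n ≤ C log N / log x`.
* `sum_inv_primes_window` : `∑_{X ≤ p ≤ XT} 1/p ≤ (log T + 19) / log X`.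
* Rankin: `rankin_smooth`, `rankin_nu`.
-/

set_option autoImplicit false

open Finset

namespace Crest.Agent.R4C.Countsx952

/-- all prime factors are larger than `x` -/
def Rough (x : ℝ) (n : ℕ) : Prop := ∀ p : ℕ, p.Prime → p ∣ n → x < p

lemma Rough.of_dvd {x : ℝ} {m n : ℕ} (h : Rough x n) (hd : m ∣ n) : Rough x m :=
  fun p hp hpd => h p hp (hpd.trans hd)

lemma Rough.one (x : ℝ) : Rough x 1 := fun p hp hd => by
  have := Nat.dvd_one.1 hd
  exact absurd this hp.ne_one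

lemma Rough.ne_zero {x : ℝ} (hx : 2 ≤ x) {n : ℕ} (h : Rough x n) : n ≠ 0 := by
  rintro rfl
  have := h 2 Nat.prime_two (dvd_zero _)
  norm_num at this
  linarith

lemma Rough.eq_one {x : ℝ} (hx : 2 ≤ x) {n : ℕ} (h : Rough x n) (hn : (n : ℝ) ≤ x) : n = 1 := by
  by_contra h1
  obtain ⟨p, hp, hd⟩ := Nat.exists_prime_and_dvd h1
  have h2 := h p hp hd
  have h3 : p ≤ n := Nat.le_of_dvd (Nat.pos_of_ne_zero (h.ne_zero hx)) hd
  have h4 : (p : ℝ) ≤ n := by exact_mod_cast h3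
  linarith

open Classical in
/-- the rough numbers in `[1, M]` -/
noncomputable def RF (x : ℝ) (M : ℕ) : Finset ℕ := (Icc 1 M).filter (Rough x)

lemma mem_RF {x : ℝ} {M n : ℕ} : n ∈ RF x M ↔ (1 ≤ n ∧ n ≤ M) ∧ Rough x n := by
  classical
  unfold RF
  rw [mem_filter, mem_Icc]

/-- reciprocal sum of rough numbers against the Euler product -/
lemma recip_le_prod {x N : ℝ} (hx : 2 ≤ x) (hN : x ≤ N) :
    ∑ m ∈ RF x ⌊N⌋₊, (1 : ℝ) / m ≤ ∏ p ∈ Lib.Mertens.pr x N, (1 - 1 / (p : ℝ))⁻¹ := by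
  classical
  set s := Lib.Mertens.pr x N with hs
  let f : ℕ →* ℝ :=
    { toFun := fun n => (1 : ℝ) / n
      map_one' := by simp
      map_mul' := fun a b => by push_cast; rw [one_div_mul_one_div] }
  have hf : ∀ n, f n = (1 : ℝ) / n := fun n => rfl
  have h0 := (EulerProduct.summable_and_hasSum_factoredNumbers_prod_filter_prime_geometric (f := f)
    (fun {p} hp => by
      rw [hf, Real.norm_eq_abs, abs_of_nonneg (by positivity), div_lt_one (by exact_mod_cast hp.pos)]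
      exact_mod_cast hp.one_lt) s).2
  have h1 : (s.filter Nat.Prime) = s := by
    rw [Finset.filter_eq_self]
    intro p hp
    rw [hs, Lib.Mertens.mem_pr (by linarith) (by linarith)] at hp
    exact hp.2
  rw [h1] at h0
  have h2 : HasSum (Set.indicator (Nat.factoredNumbers s) (fun n => f n))
      (∏ p ∈ s, (1 - f p)⁻¹) := by
    have := (hasSum_subtype_iff_indicator (f := fun n => f n) (s := Nat.factoredNumbers s)).1 h0
    exact this
  have h3 : ∀ m ∈ RF x ⌊N⌋₊, Set.indicator (Nat.factoredNumbers s) (fun n => f n) m = (1 : ℝ) / m := by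
    intro m hm
    rw [mem_RF] at hm
    rw [Set.indicator_of_mem, hf]
    rw [Nat.mem_factoredNumbers']
    intro p hp hd
    rw [hs, Lib.Mertens.mem_pr (by linarith) (by linarith)]
    refine ⟨⟨hm.2 p hp hd, ?_⟩, hp⟩
    have h4 : p ≤ ⌊N⌋₊ := (Nat.le_of_dvd (by omega) hd).trans hm.1.2
    exact (Nat.le_floor_iff (by linarith)).1 h4
  calc ∑ m ∈ RF x ⌊N⌋₊, (1 : ℝ) / m
      = ∑ m ∈ RF x ⌊N⌋₊, Set.indicator (Nat.factoredNumbers s) (fun n => f n) m :=
        (sum_congr rfl h3).symm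
    _ ≤ ∏ p ∈ s, (1 - f p)⁻¹ := by
        refine sum_le_hasSum _ (fun n _ => ?_) h2
        refine Set.indicator_nonneg (fun n _ => ?_) n
        rw [hf]; positivity
    _ = _ := rfl

/-- the constant of `recip_rough_le` -/
noncomputable def C1 : ℝ := Real.exp (22 / Real.log 2)

lemma C1_pos : 0 < C1 := Real.exp_pos _

theorem recip_rough_le {x N : ℝ} (hx : 2 ≤ x) (hN : x ≤ N) :
    ∑ m ∈ RF x ⌊N⌋₊, (1 : ℝ) / m ≤ C1 * (Real.log N / Real.log x) := by
  have h1 := (Lib.Mertens.mertens_three x N hx hN).1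
  have hlx : 0 < Real.log x := Real.log_pos (by linarith)
  have hlN : 0 < Real.log N := Real.log_pos (by linarith)
  have h2 : (∏ p ∈ Lib.Mertens.pr x N, (1 - 1 / (p : ℝ))⁻¹) ≤
      (Real.exp (-(22 / Real.log x)) * (Real.log x / Real.log N))⁻¹ := by
    rw [prod_inv_distrib]
    exact inv_anti₀ (by positivity) h1
  have h3 : (Real.exp (-(22 / Real.log x)) * (Real.log x / Real.log N))⁻¹ =
      Real.exp (22 / Real.log x) * (Real.log N / Real.log x) := by
    rw [mul_inv, ← Real.exp_neg, neg_neg, inv_div]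
  have h4 : Real.exp (22 / Real.log x) ≤ C1 := by
    unfold C1
    rw [Real.exp_le_exp]
    have : Real.log 2 ≤ Real.log x := Real.log_le_log (by norm_num) hx
    exact div_le_div_of_nonneg_left (by norm_num) (Real.log_pos (by norm_num)) this
  calc _ ≤ _ := recip_le_prod hx hN
    _ ≤ _ := h2
    _ = _ := h3
    _ ≤ _ := mul_le_mul_of_nonneg_right h4 (by positivity)

/-- the constant of Chebyshev's bound -/
noncomputable def C0 : ℝ := Real.log 4 + 4

lemma C0_pos : 0 < C0 := by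
  unfold C0
  have : 0 < Real.log 4 := Real.log_pos (by norm_num)
  linarith

/-- double counting -/
lemma sum_log_le {x N : ℝ} (hx : 2 ≤ x) (hN : x ≤ N) :
    ∑ n ∈ RF x ⌊N⌋₊, Real.log n ≤ C0 * N * ∑ m ∈ RF x ⌊N⌋₊, (1 : ℝ) / m := by
  classical
  set M := ⌊N⌋₊ with hM
  have hN0 : 0 < N := by linarith
  have h1 : ∀ n ∈ RF x M, Real.log n = ∑ m ∈ n.divisors, ArithmeticFunction.vonMangoldt (n / m) := by
    intro n hn
    rw [← ArithmeticFunction.vonMangoldt_sum, Nat.sum_div_divisors n (fun d =>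
      ArithmeticFunction.vonMangoldt d)]
  rw [sum_congr rfl h1]
  have h2 : ∑ n ∈ RF x M, ∑ m ∈ n.divisors, ArithmeticFunction.vonMangoldt (n / m) =
      ∑ m ∈ RF x M, ∑ n ∈ (RF x M).filter (m ∣ ·), ArithmeticFunction.vonMangoldt (n / m) := by
    refine sum_comm' fun n m => ?_
    rw [mem_filter, Nat.mem_divisors]
    constructor
    · rintro ⟨hn, hd, _⟩
      refine ⟨⟨hn, hd⟩, ?_⟩
      rw [mem_RF] at hn ⊢
      have hn0 : 0 < n := by omega
      exact ⟨⟨Nat.pos_of_dvd_of_pos hd hn0, (Nat.le_of_dvd hn0 hd).trans hn.1.2⟩, hn.2.of_dvd hd⟩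
    · rintro ⟨⟨hn, hd⟩, _⟩
      refine ⟨hn, hd, ?_⟩
      rw [mem_RF] at hn
      omega
  rw [h2, mul_sum]
  refine sum_le_sum fun m hm => ?_
  rw [mem_RF] at hm
  have hm0 : 0 < m := by omega
  have hm0' : (0 : ℝ) < m := by exact_mod_cast hm0
  have h3 : ∑ n ∈ (RF x M).filter (m ∣ ·), ArithmeticFunction.vonMangoldt (n / m) ≤
      ∑ d ∈ Ioc 0 (M / m), ArithmeticFunction.vonMangoldt d := by
    have hinj : Set.InjOn (fun n => n / m) ((RF x M).filter (m ∣ ·) : Set ℕ) := by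
      intro a ha b hb hab
      simp only [coe_filter, Set.mem_ofPred_eq] at ha hb
      obtain ⟨u, rfl⟩ := ha.2
      obtain ⟨v, rfl⟩ := hb.2
      simp only [Nat.mul_div_cancel_left _ hm0] at hab
      rw [hab]
    rw [← sum_image (f := fun d => ArithmeticFunction.vonMangoldt d) hinj]
    refine sum_le_sum_of_subset_of_nonneg ?_ fun d _ _ => ArithmeticFunction.vonMangoldt_nonneg
    intro d hd
    rw [mem_image] at hd
    obtain ⟨n, hn, rfl⟩ := hd
    rw [mem_filter, mem_RF] at hn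
    rw [mem_Ioc]
    exact ⟨Nat.div_pos (Nat.le_of_dvd (by omega) hn.2) hm0, Nat.div_le_div_right hn.1.1.2⟩
  refine h3.trans ?_
  have h4 : ∑ d ∈ Ioc 0 (M / m), ArithmeticFunction.vonMangoldt d = Chebyshev.psi ((M / m : ℕ) : ℝ) := by
    unfold Chebyshev.psi
    rw [Nat.floor_natCast]
  rw [h4]
  have h5 := Chebyshev.psi_le_const_mul_self (x := ((M / m : ℕ) : ℝ)) (by positivity)
  refine h5.trans ?_
  have h6 : ((M / m : ℕ) : ℝ) ≤ N / m := by
    refine (Nat.cast_div_le).trans ?_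
    have : (M : ℝ) ≤ N := Nat.floor_le hN0.le
    gcongr
  have h7 : (Real.log 4 + 4) * ((M / m : ℕ) : ℝ) ≤ C0 * (N / m) :=
    mul_le_mul_of_nonneg_left h6 C0_pos.le
  refine h7.trans (le_of_eq ?_)
  ring

/-- constant of the rough count -/
noncomputable def C2 : ℝ := 2 + 2 * C0 * C1

lemma C2_pos : 0 < C2 := by
  have := C0_pos
  have := C1_pos
  unfold C2
  positivity

/-- **rough numbers up to `N`** -/
theorem card_rough_le {x N : ℝ} (hx : 2 ≤ x) (hN : x ≤ N) :
    ((RF x ⌊N⌋₊).card : ℝ) ≤ C2 * (N / Real.log x) := by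
  classical
  have hlx : 0 < Real.log x := Real.log_pos (by linarith)
  have hlN : 0 < Real.log N := Real.log_pos (by linarith)
  have hN0 : 0 < N := by linarith
  have hC0 := C0_pos
  have hC1 := C1_pos
  have hsq : Real.sqrt N * Real.sqrt N = N := Real.mul_self_sqrt hN0.le
  have hsq0 : 0 < Real.sqrt N := Real.sqrt_pos.2 hN0
  set F := RF x ⌊N⌋₊ with hF
  -- small elements
  have h1 : ((F.filter (fun n : ℕ => (n : ℝ) ≤ Real.sqrt N)).card : ℝ) ≤ Real.sqrt N := by
    have h2 : F.filter (fun n : ℕ => (n : ℝ) ≤ Real.sqrt N) ⊆ Icc 1 ⌊Real.sqrt N⌋₊ := by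
      intro n hn
      rw [mem_filter, hF, mem_RF] at hn
      rw [mem_Icc]
      exact ⟨hn.1.1.1, Nat.le_floor hn.2⟩
    have h3 := card_le_card h2
    rw [Nat.card_Icc, Nat.add_sub_cancel] at h3
    calc ((F.filter (fun n : ℕ => (n : ℝ) ≤ Real.sqrt N)).card : ℝ) ≤ (⌊Real.sqrt N⌋₊ : ℝ) := by
          exact_mod_cast h3
      _ ≤ _ := Nat.floor_le hsq0.le
  -- large elements
  have h2 : ((F.filter (fun n : ℕ => ¬ (n : ℝ) ≤ Real.sqrt N)).card : ℝ) * (Real.log N / 2) ≤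
      C0 * N * (C1 * (Real.log N / Real.log x)) := by
    have hlog0 : ∀ n ∈ F, 0 ≤ Real.log (n : ℝ) := by
      intro n hn
      rw [hF, mem_RF] at hn
      exact Real.log_nonneg (by exact_mod_cast hn.1.1)
    calc ((F.filter (fun n : ℕ => ¬ (n : ℝ) ≤ Real.sqrt N)).card : ℝ) * (Real.log N / 2)
        = ∑ _n ∈ F.filter (fun n : ℕ => ¬ (n : ℝ) ≤ Real.sqrt N), Real.log N / 2 := by
          rw [sum_const, nsmul_eq_mul]
      _ ≤ ∑ n ∈ F.filter (fun n : ℕ => ¬ (n : ℝ) ≤ Real.sqrt N), Real.log n := by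
          refine sum_le_sum fun n hn => ?_
          rw [mem_filter] at hn
          have h3 : Real.sqrt N ≤ n := (not_le.1 hn.2).le
          have h4 := Real.log_le_log hsq0 h3
          rwa [Real.log_sqrt hN0.le] at h4
      _ ≤ ∑ n ∈ F, Real.log n :=
          sum_le_sum_of_subset_of_nonneg (filter_subset _ _) fun n hn _ => hlog0 n hn
      _ ≤ C0 * N * ∑ m ∈ F, (1 : ℝ) / m := sum_log_le hx hN
      _ ≤ _ := mul_le_mul_of_nonneg_left (recip_rough_le hx hN) (by positivity)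
  have h3 : ((F.filter (fun n : ℕ => ¬ (n : ℝ) ≤ Real.sqrt N)).card : ℝ) ≤
      2 * C0 * C1 * (N / Real.log x) := by
    have h4 : 2 * C0 * C1 * (N / Real.log x) * (Real.log N / 2) =
        C0 * N * (C1 * (Real.log N / Real.log x)) := by ring
    rw [← h4] at h2
    exact le_of_mul_le_mul_right h2 (by positivity)
  have h4 : Real.sqrt N ≤ 2 * (N / Real.log x) := by
    rw [← mul_div_assoc, le_div_iff₀ hlx]
    have h5 : Real.log x ≤ Real.log N := Real.log_le_log (by linarith) hN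
    have h6 : Real.log N ≤ 2 * Real.sqrt N := by
      have h7 : Real.log N = 2 * Real.log (Real.sqrt N) := by
        rw [Real.log_sqrt hN0.le]; ring
      rw [h7]
      have := Real.log_le_sub_one_of_pos hsq0
      linarith
    calc Real.sqrt N * Real.log x ≤ Real.sqrt N * (2 * Real.sqrt N) :=
          mul_le_mul_of_nonneg_left (h5.trans h6) hsq0.le
      _ = 2 * (Real.sqrt N * Real.sqrt N) := by ring
      _ = 2 * N := by rw [hsq]
  have h5 : (F.card : ℝ) = ((F.filter (fun n : ℕ => (n : ℝ) ≤ Real.sqrt N)).card : ℝ) +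
      ((F.filter (fun n : ℕ => ¬ (n : ℝ) ≤ Real.sqrt N)).card : ℝ) := by
    rw [← Finset.card_filter_add_card_filter_not (s := F) (fun n : ℕ => (n : ℝ) ≤ Real.sqrt N)]
    push_cast
    rfl
  rw [h5]
  unfold C2
  have e : (2 + 2 * C0 * C1) * (N / Real.log x) = 2 * (N / Real.log x) + 2 * C0 * C1 * (N / Real.log x) := by
    ring
  rw [e]
  linarith

/-- **rough numbers up to `N`, all `N`** -/
theorem card_rough_all {x N : ℝ} (hx : 2 ≤ x) (hN : 0 ≤ N) :
    ((RF x ⌊N⌋₊).card : ℝ) ≤ 1 + C2 * (N / Real.log x) := by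
  have hlx : 0 < Real.log x := Real.log_pos (by linarith)
  have hC := C2_pos
  by_cases h : x ≤ N
  · have := card_rough_le hx h
    linarith
  · push Not at h
    have h1 : RF x ⌊N⌋₊ ⊆ {1} := by
      intro n hn
      rw [mem_RF] at hn
      rw [mem_singleton]
      refine hn.2.eq_one hx ?_
      have : (n : ℝ) ≤ N := (Nat.le_floor_iff hN).1 hn.1.2
      linarith
    have h2 := card_le_card h1
    rw [card_singleton] at h2
    have h3 : ((RF x ⌊N⌋₊).card : ℝ) ≤ 1 := by exact_mod_cast h2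
    have h4 : 0 ≤ C2 * (N / Real.log x) := by positivity
    linarith

open Classical in
/-- **rough numbers in the window `[Y, 2Y)`** (`n = 1` is only counted if `Y ≤ 1`) -/
theorem card_rough_Ico {x Y : ℝ} (hx : 2 ≤ x) (hY : 0 < Y) :
    ((((range ⌈2 * Y⌉₊).filter (fun n : ℕ => Y ≤ n ∧ Rough x n)).card : ℕ) : ℝ) ≤
      2 * C2 * (Y / Real.log x) + (if Y ≤ 1 then 1 else 0) := by
  have hlx : 0 < Real.log x := Real.log_pos (by linarith)
  have hC := C2_pos
  set G := (range ⌈2 * Y⌉₊).filter (fun n : ℕ => Y ≤ n ∧ Rough x n) with hG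
  have hsub : G ⊆ RF x ⌊2 * Y⌋₊ := by
    intro n hn
    rw [hG, mem_filter, mem_range] at hn
    rw [mem_RF]
    refine ⟨⟨Nat.pos_of_ne_zero (hn.2.2.ne_zero hx), ?_⟩, hn.2.2⟩
    exact Nat.le_floor (Nat.lt_ceil.1 hn.1).le
  by_cases h : x ≤ 2 * Y
  · have h1 := card_rough_le hx h
    have h2 : ((G.card : ℕ) : ℝ) ≤ ((RF x ⌊2 * Y⌋₊).card : ℝ) := by exact_mod_cast card_le_card hsub
    have h3 : C2 * (2 * Y / Real.log x) = 2 * C2 * (Y / Real.log x) := by ring
    have h4 : (0 : ℝ) ≤ (if Y ≤ 1 then 1 else 0) := by split_ifs <;> norm_num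
    linarith
  · push Not at h
    have h1 : G ⊆ (if Y ≤ 1 then {1} else ∅) := by
      intro n hn
      have hn' := hn
      rw [hG, mem_filter, mem_range] at hn'
      have h2 : (n : ℝ) < 2 * Y := Nat.lt_ceil.1 hn'.1
      have h3 : n = 1 := hn'.2.2.eq_one hx (by linarith)
      have h4 : Y ≤ 1 := by
        have := hn'.2.1
        rw [h3] at this
        exact_mod_cast this
      rw [if_pos h4, mem_singleton]
      exact h3
    have h2 := card_le_card h1
    have h3 : ((G.card : ℕ) : ℝ) ≤ (if Y ≤ 1 then 1 else 0) := by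
      split_ifs at h2 ⊢ with h4
      · rw [card_singleton] at h2
        exact_mod_cast h2
      · rw [card_empty] at h2
        exact_mod_cast h2
    have h4 : 0 ≤ 2 * C2 * (Y / Real.log x) := by positivity
    linarith

/-! ### primes in a window -/

open Classical in
/-- `∑_{X ≤ p ≤ XT} 1/p ≤ (log T + 19) / log X` -/
theorem sum_inv_primes_window {X T : ℝ} (hX : 2 ≤ X) (hT : 1 ≤ T) :
    ∑ p ∈ (Icc ⌈X⌉₊ ⌊X * T⌋₊).filter Nat.Prime, (1 : ℝ) / p ≤
      (Real.log T + 19) / Real.log X := by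
  have hlX : 0 < Real.log X := Real.log_pos (by linarith)
  have hX0 : 0 < X := by linarith
  have hlT : 0 ≤ Real.log T := Real.log_nonneg hT
  have hXT : X ≤ X * T := by nlinarith
  have h1 := Lib.Mertens.mertens_two X (X * T) hX hXT
  rw [abs_le] at h1
  have h2 : Real.log (Real.log (X * T)) - Real.log (Real.log X) ≤ Real.log T / Real.log X := by
    rw [← Real.log_div (Real.log_pos (by nlinarith)).ne' hlX.ne']
    have h3 : 0 < Real.log (X * T) / Real.log X := div_pos (Real.log_pos (by nlinarith)) hlX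
    refine (Real.log_le_sub_one_of_pos h3).trans (le_of_eq ?_)
    rw [Real.log_mul (by linarith) (by linarith)]
    field_simp
    ring
  have h3 : (Icc ⌈X⌉₊ ⌊X * T⌋₊).filter Nat.Prime ⊆
      insert ⌊X⌋₊ (Lib.Mertens.pr X (X * T)) := by
    intro p hp
    rw [mem_filter, mem_Icc] at hp
    rw [mem_insert]
    by_cases h4 : p = ⌊X⌋₊
    · exact Or.inl h4
    right
    rw [Lib.Mertens.mem_pr hX0.le (by positivity)]
    have h5 : X ≤ p := Nat.ceil_le.1 hp.1.1
    refine ⟨⟨?_, (Nat.le_floor_iff (by positivity)).1 hp.1.2⟩, hp.2⟩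
    refine lt_of_le_of_ne h5 ?_
    intro h6
    apply h4
    rw [h6, Nat.floor_natCast]
  have h4 : ∑ p ∈ (Icc ⌈X⌉₊ ⌊X * T⌋₊).filter Nat.Prime, (1 : ℝ) / p ≤
      1 / (⌊X⌋₊ : ℝ) + ∑ p ∈ Lib.Mertens.pr X (X * T), (1 : ℝ) / p := by
    refine (sum_le_sum_of_subset_of_nonneg h3 fun p _ _ => by positivity).trans ?_
    by_cases h5 : ⌊X⌋₊ ∈ Lib.Mertens.pr X (X * T)
    · rw [insert_eq_self.2 h5]
      have : (0 : ℝ) ≤ 1 / (⌊X⌋₊ : ℝ) := by positivity
      linarith
    · rw [sum_insert h5]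
  have h5 : (1 : ℝ) / (⌊X⌋₊ : ℝ) ≤ 1 / Real.log X := by
    refine one_div_le_one_div_of_le hlX ?_
    have h6 := Real.log_le_sub_one_of_pos hX0
    have h7 := Nat.lt_floor_add_one X
    linarith
  have e : (Real.log T + 19) / Real.log X = Real.log T / Real.log X + 18 / Real.log X + 1 / Real.log X := by
    ring
  rw [e]
  linarith [h1.2]

/-! ### reciprocal sums over windows of rough numbers -/

lemma sum_biUnion_le' {ι : Type*} (s : Finset ι) (W : ι → Finset ℕ) (f : ℕ → ℝ) (hf : ∀ n, 0 ≤ f n) :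
    ∑ n ∈ s.biUnion W, f n ≤ ∑ j ∈ s, ∑ n ∈ W j, f n := by
  classical
  induction s using Finset.induction_on with
  | empty => simp
  | insert a s ha ih =>
    rw [biUnion_insert, sum_insert ha]
    have h1 := sum_union_inter (s₁ := W a) (s₂ := s.biUnion W) (f := f)
    have h2 : 0 ≤ ∑ n ∈ W a ∩ s.biUnion W, f n := sum_nonneg fun n _ => hf n
    linarith

open Classical in
/-- `∑_{n ∈ [Y, YT), rough} 1/n ≤ 2 C2 (log T / log 2 + 1) / log x + [Y ≤ 1] / Y` -/
theorem recip_rough_window {x Y T : ℝ} (hx : 2 ≤ x) (hY : 0 < Y) (hT : 1 ≤ T) :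
    ∑ n ∈ (range ⌈Y * T⌉₊).filter (fun n : ℕ => Y ≤ n ∧ Rough x n), (1 : ℝ) / n ≤
      2 * C2 * ((Real.log T / Real.log 2 + 1) / Real.log x) + (if Y ≤ 1 then 1 / Y else 0) := by
  have hlx : 0 < Real.log x := Real.log_pos (by linarith)
  have hl2 : 0 < Real.log 2 := Real.log_pos (by norm_num)
  have hC := C2_pos
  have hlT : 0 ≤ Real.log T := Real.log_nonneg hT
  set J : ℕ := ⌊Real.log T / Real.log 2⌋₊ with hJ
  set W : ℕ → Finset ℕ := fun j =>
    (range ⌈2 * (2 ^ j * Y)⌉₊).filter (fun n : ℕ => 2 ^ j * Y ≤ n ∧ Rough x n) with hW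
  -- covering
  have hcov : (range ⌈Y * T⌉₊).filter (fun n : ℕ => Y ≤ n ∧ Rough x n) ⊆
      (range (J + 1)).biUnion W := by
    intro n hn
    rw [mem_filter, mem_range] at hn
    have hnT : (n : ℝ) < Y * T := Nat.lt_ceil.1 hn.1
    have hnY := hn.2.1
    have hn0 : (0 : ℝ) < n := by linarith
    have hr1 : 1 ≤ (n : ℝ) / Y := (one_le_div hY).2 hnY
    have hl : 0 ≤ Real.log ((n : ℝ) / Y) := Real.log_nonneg hr1
    set j : ℕ := ⌊Real.log ((n : ℝ) / Y) / Real.log 2⌋₊ with hj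
    have h1 : (j : ℝ) ≤ Real.log ((n : ℝ) / Y) / Real.log 2 := Nat.floor_le (by positivity)
    have h2 : Real.log ((n : ℝ) / Y) / Real.log 2 < j + 1 := Nat.lt_floor_add_one _
    rw [le_div_iff₀ hl2] at h1
    rw [div_lt_iff₀ hl2] at h2
    have h3 : (2 : ℝ) ^ j ≤ n / Y := by
      rw [← Real.log_le_log_iff (by positivity) (by positivity), Real.log_pow]
      exact h1
    have h4 : (n : ℝ) / Y < 2 ^ (j + 1) := by
      rw [← Real.log_lt_log_iff (by positivity) (by positivity), Real.log_pow]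
      push_cast
      exact h2
    rw [le_div_iff₀ hY] at h3
    rw [div_lt_iff₀ hY] at h4
    rw [mem_biUnion]
    refine ⟨j, ?_, ?_⟩
    · rw [mem_range]
      have h5 : j ≤ J := by
        refine Nat.floor_le_floor ?_
        refine div_le_div_of_nonneg_right ?_ hl2.le
        refine Real.log_le_log (by positivity) ?_
        rw [div_le_iff₀ hY]
        linarith
      omega
    · rw [hW, mem_filter, mem_range]
      refine ⟨?_, h3, hn.2.2⟩
      rw [Nat.lt_ceil]
      have : (2 : ℝ) ^ (j + 1) * Y = 2 * (2 ^ j * Y) := by ring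
      linarith
  have hterm : ∀ j ∈ range (J + 1), ∑ n ∈ W j, (1 : ℝ) / n ≤
      2 * C2 * (1 / Real.log x) + (if j = 0 then (if Y ≤ 1 then 1 / Y else 0) else
        (if 2 ^ j * Y ≤ 1 then 1 / (2 ^ j * Y) else 0)) := by
    intro j _
    have hYj : 0 < 2 ^ j * Y := by positivity
    have h1 := card_rough_Ico hx hYj
    have h2 : ∑ n ∈ W j, (1 : ℝ) / n ≤ ((W j).card : ℝ) * (1 / (2 ^ j * Y)) := by
      rw [← nsmul_eq_mul, ← sum_const]
      refine sum_le_sum fun n hn => ?_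
      rw [hW, mem_filter] at hn
      exact one_div_le_one_div_of_le hYj hn.2.1
    have h3 : ((W j).card : ℝ) * (1 / (2 ^ j * Y)) ≤
        (2 * C2 * (2 ^ j * Y / Real.log x) + (if 2 ^ j * Y ≤ 1 then 1 else 0)) *
          (1 / (2 ^ j * Y)) := mul_le_mul_of_nonneg_right h1 (by positivity)
    have h4 : (2 * C2 * (2 ^ j * Y / Real.log x) + (if 2 ^ j * Y ≤ 1 then 1 else 0)) *
          (1 / (2 ^ j * Y)) = 2 * C2 * (1 / Real.log x) +
            (if 2 ^ j * Y ≤ 1 then 1 / (2 ^ j * Y) else 0) := by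
      split_ifs
      · field_simp
      · field_simp
        ring
    rw [h4] at h3
    refine h2.trans (h3.trans (le_of_eq ?_))
    by_cases hj0 : j = 0
    · subst hj0
      simp
    · rw [if_neg hj0]
  -- the exceptional element `1` occurs only once
  have h1 : ∑ n ∈ (range ⌈Y * T⌉₊).filter (fun n : ℕ => Y ≤ n ∧ Rough x n), (1 : ℝ) / n ≤
      ∑ n ∈ ((range (J + 1)).biUnion W).erase 1, (1 : ℝ) / n + (if Y ≤ 1 then 1 / Y else 0) := by
    set G := (range ⌈Y * T⌉₊).filter (fun n : ℕ => Y ≤ n ∧ Rough x n) with hG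
    have hle : ∑ n ∈ G.erase 1, (1 : ℝ) / n ≤ ∑ n ∈ ((range (J + 1)).biUnion W).erase 1, (1 : ℝ) / n :=
      sum_le_sum_of_subset_of_nonneg (erase_subset_erase _ hcov) fun n _ _ => by positivity
    by_cases h2 : 1 ∈ G
    · rw [← add_sum_erase _ _ h2]
      have h3 : Y ≤ 1 := by
        rw [hG, mem_filter] at h2
        exact_mod_cast h2.2.1
      rw [if_pos h3]
      have h4 : (1 : ℝ) / ((1 : ℕ) : ℝ) ≤ 1 / Y := by
        rw [Nat.cast_one, div_one, one_le_div hY]
        exact h3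
      linarith
    · rw [erase_eq_of_notMem h2] at hle
      have h4 : (0 : ℝ) ≤ (if Y ≤ 1 then 1 / Y else 0) := by split_ifs <;> positivity
      linarith
  have hterm' : ∀ j ∈ range (J + 1), ∑ n ∈ (W j).erase 1, (1 : ℝ) / n ≤ 2 * C2 * (1 / Real.log x) := by
    intro j _
    have hYj : 0 < 2 ^ j * Y := by positivity
    by_cases hs : x ≤ 2 * (2 ^ j * Y)
    · have hsub : W j ⊆ RF x ⌊2 * (2 ^ j * Y)⌋₊ := by
        intro n hn
        rw [hW, mem_filter, mem_range] at hn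
        rw [mem_RF]
        refine ⟨⟨Nat.pos_of_ne_zero (hn.2.2.ne_zero hx), ?_⟩, hn.2.2⟩
        exact Nat.le_floor (Nat.lt_ceil.1 hn.1).le
      have h1 := card_rough_le hx hs
      have h2 : ((W j).card : ℝ) ≤ ((RF x ⌊2 * (2 ^ j * Y)⌋₊).card : ℝ) := by
        exact_mod_cast card_le_card hsub
      have h3 : ∑ n ∈ (W j).erase 1, (1 : ℝ) / n ≤ ((W j).card : ℝ) * (1 / (2 ^ j * Y)) := by
        calc ∑ n ∈ (W j).erase 1, (1 : ℝ) / n ≤ ∑ n ∈ W j, (1 : ℝ) / n :=
              sum_le_sum_of_subset_of_nonneg (erase_subset _ _) fun n _ _ => by positivity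
          _ ≤ ∑ _n ∈ W j, 1 / (2 ^ j * Y) := by
              refine sum_le_sum fun n hn => ?_
              rw [hW, mem_filter] at hn
              exact one_div_le_one_div_of_le hYj hn.2.1
          _ = _ := by rw [sum_const, nsmul_eq_mul]
      refine h3.trans ((mul_le_mul_of_nonneg_right (h2.trans h1) (by positivity)).trans
        (le_of_eq ?_))
      field_simp
    · push Not at hs
      have h1 : (W j).erase 1 = ∅ := by
        rw [eq_empty_iff_forall_notMem]
        intro n hn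
        rw [mem_erase, hW, mem_filter, mem_range] at hn
        apply hn.1
        refine hn.2.2.2.eq_one hx ?_
        have := Nat.lt_ceil.1 hn.2.1
        linarith
      rw [h1, sum_empty]
      positivity
  have h2 : ∑ n ∈ ((range (J + 1)).biUnion W).erase 1, (1 : ℝ) / n ≤
      ∑ j ∈ range (J + 1), 2 * C2 * (1 / Real.log x) := by
    have h3 : ((range (J + 1)).biUnion W).erase 1 = (range (J + 1)).biUnion (fun j => (W j).erase 1) := by
      ext n
      simp only [mem_erase, mem_biUnion]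
      tauto
    rw [h3]
    exact (sum_biUnion_le' _ _ _ fun n => by positivity).trans (sum_le_sum hterm')
  have h3 : ∑ _j ∈ range (J + 1), 2 * C2 * (1 / Real.log x) =
      2 * C2 * (((J : ℝ) + 1) / Real.log x) := by
    rw [sum_const, card_range, nsmul_eq_mul]
    push_cast
    ring
  have h4 : (J : ℝ) ≤ Real.log T / Real.log 2 := Nat.floor_le (by positivity)
  have h5 : 2 * C2 * (((J : ℝ) + 1) / Real.log x) ≤
      2 * C2 * ((Real.log T / Real.log 2 + 1) / Real.log x) := by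
    gcongr
  linarith

/-! ### Rankin -/

/-- `p^κ - 1 ≤ κ log p p^κ` -/
lemma rpow_sub_one_le {p κ : ℝ} (hp : 0 < p) : p ^ κ - 1 ≤ κ * Real.log p * p ^ κ := by
  have h1 : p ^ κ = Real.exp (Real.log p * κ) := Real.rpow_def_of_pos hp κ
  rw [h1]
  have h2 := Real.add_one_le_exp (-(Real.log p * κ))
  have h3 : 0 < Real.exp (Real.log p * κ) := Real.exp_pos _
  have h4 : Real.exp (-(Real.log p * κ)) * Real.exp (Real.log p * κ) = 1 := by
    rw [← Real.exp_add, neg_add_cancel, Real.exp_zero]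
  nlinarith

lemma rpow_le_34 {p : ℕ} (hp : 2 ≤ p) {κ : ℝ} (hκ : κ ≤ 1 / 2) :
    (p : ℝ) ^ κ / p ≤ 3 / 4 := by
  have hp2 : (2 : ℝ) ≤ p := by exact_mod_cast hp
  have hp0 : (0 : ℝ) < p := by linarith
  have h1 : (p : ℝ) ^ κ ≤ (p : ℝ) ^ (1 / 2 : ℝ) := Real.rpow_le_rpow_of_exponent_le (by linarith) hκ
  rw [← Real.sqrt_eq_rpow] at h1
  rw [div_le_iff₀ hp0]
  refine h1.trans ?_
  rw [Real.sqrt_le_left (by positivity)]
  nlinarith

/-- one prime: `(1 - 1/p) / (1 - p^(κ-1)) ≤ exp (4 κ log p p^κ / p)` -/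
lemma ratio_le {p : ℕ} (hp : 2 ≤ p) {κ : ℝ} (hκ0 : 0 ≤ κ) (hκ : κ ≤ 1 / 2) :
    (1 - 1 / (p : ℝ)) / (1 - (p : ℝ) ^ κ / p) ≤
      Real.exp (4 * κ * (p : ℝ) ^ κ * (Real.log p / p)) := by
  have hp2 : (2 : ℝ) ≤ p := by exact_mod_cast hp
  have hp0 : (0 : ℝ) < p := by linarith
  have h34 := rpow_le_34 hp hκ
  have hd : 0 < 1 - (p : ℝ) ^ κ / p := by linarith
  have h1 := rpow_sub_one_le (κ := κ) hp0
  have h2 : (1 - 1 / (p : ℝ)) / (1 - (p : ℝ) ^ κ / p) =
      1 + ((p : ℝ) ^ κ - 1) / p / (1 - (p : ℝ) ^ κ / p) := by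
    have hu : ((p : ℝ) ^ κ - 1) / p = (p : ℝ) ^ κ / p - 1 / p := sub_div _ _ _
    rw [hu]
    set u : ℝ := (p : ℝ) ^ κ / p
    set w : ℝ := 1 / (p : ℝ)
    field_simp
    ring
  have hpk : 1 ≤ (p : ℝ) ^ κ := Real.one_le_rpow (by linarith) hκ0
  have h3 : ((p : ℝ) ^ κ - 1) / p / (1 - (p : ℝ) ^ κ / p) ≤ ((p : ℝ) ^ κ - 1) / p * 4 := by
    rw [div_eq_mul_inv (((p : ℝ) ^ κ - 1) / p)]
    refine mul_le_mul_of_nonneg_left ?_ (div_nonneg (by linarith) hp0.le)
    rw [inv_le_comm₀ hd (by norm_num)]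
    linarith
  have h4 : ((p : ℝ) ^ κ - 1) / p * 4 ≤ 4 * κ * (p : ℝ) ^ κ * (Real.log p / p) := by
    have : ((p : ℝ) ^ κ - 1) / p ≤ κ * Real.log p * (p : ℝ) ^ κ / p :=
      div_le_div_of_nonneg_right h1 hp0.le
    calc ((p : ℝ) ^ κ - 1) / p * 4 ≤ κ * Real.log p * (p : ℝ) ^ κ / p * 4 := by linarith
      _ = _ := by ring
  rw [h2]
  have h5 := Real.add_one_le_exp (4 * κ * (p : ℝ) ^ κ * (Real.log p / p))
  linarith

/-- the sum of `log p / p` over the primes up to `z` -/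
lemma sum_log_div_le {z : ℝ} (hz : 2 ≤ z) {P : Finset ℕ} (hP : ∀ p ∈ P, p.Prime ∧ (p : ℝ) ≤ z) :
    ∑ p ∈ P, Real.log p / p ≤ Real.log z + 2 := by
  have h1 : P ⊆ Nat.primesLE ⌊z⌋₊ := by
    intro p hp
    rw [Nat.mem_primesLE]
    exact ⟨Nat.le_floor (hP p hp).2, (hP p hp).1⟩
  have hn : 1 ≤ ⌊z⌋₊ := Nat.le_floor (by push_cast; linarith)
  have h2 := Lib.Mertens.A_le ⌊z⌋₊ hn
  unfold Lib.Mertens.A at h2
  have h3 : ∑ p ∈ P, Real.log p / p ≤ ∑ p ∈ Nat.primesLE ⌊z⌋₊, Real.log p / p := by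
    refine sum_le_sum_of_subset_of_nonneg h1 fun p hp _ => ?_
    rw [Nat.mem_primesLE] at hp
    exact div_nonneg (Real.log_nonneg (by exact_mod_cast hp.2.one_lt.le)) (by positivity)
  have h4 : Real.log (⌊z⌋₊ : ℝ) ≤ Real.log z :=
    Real.log_le_log (by exact_mod_cast hn) (Nat.floor_le (by linarith))
  have h5 : Real.log 4 ≤ 2 := by
    rw [show (4 : ℝ) = 2 ^ 2 by norm_num, Real.log_pow]
    have := Real.log_two_lt_d9
    push_cast
    linarith
  linarith

/-- product form -/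
lemma prod_ratio_le {z : ℝ} (hz : 2 ≤ z) {κ : ℝ} (hκ0 : 0 ≤ κ) (hκ : κ ≤ 1 / 2) {P : Finset ℕ}
    (hP : ∀ p ∈ P, p.Prime ∧ (p : ℝ) ≤ z) :
    ∏ p ∈ P, (1 - 1 / (p : ℝ)) / (1 - (p : ℝ) ^ κ / p) ≤
      Real.exp (4 * κ * z ^ κ * (Real.log z + 2)) := by
  calc ∏ p ∈ P, (1 - 1 / (p : ℝ)) / (1 - (p : ℝ) ^ κ / p)
      ≤ ∏ p ∈ P, Real.exp (4 * κ * z ^ κ * (Real.log p / p)) := by
        refine prod_le_prod (fun p hp => ?_) fun p hp => ?_
        · have h2 := (hP p hp).1.two_le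
          have h3 : (2 : ℝ) ≤ p := by exact_mod_cast h2
          have h34 := rpow_le_34 h2 hκ
          refine div_nonneg ?_ (by linarith)
          have : (1 : ℝ) / p ≤ 1 := by rw [div_le_one (by linarith)]; linarith
          linarith
        · have h2 := (hP p hp).1.two_le
          have h3 : (2 : ℝ) ≤ p := by exact_mod_cast h2
          refine (ratio_le h2 hκ0 hκ).trans ?_
          rw [Real.exp_le_exp]
          have h4 : (p : ℝ) ^ κ ≤ z ^ κ := Real.rpow_le_rpow (by linarith) (hP p hp).2 hκ0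
          have h5 : 0 ≤ Real.log p / p := div_nonneg (Real.log_nonneg (by linarith)) (by linarith)
          exact mul_le_mul_of_nonneg_right (mul_le_mul_of_nonneg_left h4 (by linarith)) h5
    _ = Real.exp (4 * κ * z ^ κ * ∑ p ∈ P, Real.log p / p) := by
        rw [← Real.exp_sum, mul_sum]
    _ ≤ _ := by
        rw [Real.exp_le_exp]
        have hz0 : 0 ≤ z ^ κ := Real.rpow_nonneg (by linarith) κ
        exact mul_le_mul_of_nonneg_left (sum_log_div_le hz hP) (by positivity)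

/-- **Rankin for smooth numbers**: `S` a finite set of integers `n > T` all of whose prime factors
lie in the finite set `P` of primes `≤ z` -/
theorem rankin_smooth {z T : ℝ} (hz : 2 ≤ z) (hT : 0 < T) {κ : ℝ} (hκ0 : 0 ≤ κ) (hκ : κ ≤ 1 / 2)
    {P : Finset ℕ} (hP : ∀ p ∈ P, p.Prime ∧ (p : ℝ) ≤ z) {S : Finset ℕ}
    (hS : ∀ n ∈ S, T < n ∧ ∀ p : ℕ, p.Prime → p ∣ n → p ∈ P) :
    (∑ n ∈ S, (1 : ℝ) / n) * ∏ p ∈ P, (1 - 1 / (p : ℝ)) ≤
      T ^ (-κ) * Real.exp (4 * κ * z ^ κ * (Real.log z + 2)) := by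
  classical
  let f : ℕ →* ℝ :=
    { toFun := fun n => (n : ℝ) ^ (κ - 1)
      map_one' := by simp
      map_mul' := fun a b => by push_cast; rw [Real.mul_rpow (by positivity) (by positivity)] }
  have hf : ∀ n, f n = (n : ℝ) ^ (κ - 1) := fun n => rfl
  have hf0 : ∀ n, 0 ≤ f n := fun n => by rw [hf]; positivity
  have hfp : ∀ p : ℕ, p.Prime → f p = (p : ℝ) ^ κ / p := by
    intro p hp
    rw [hf, Real.rpow_sub (by exact_mod_cast hp.pos), Real.rpow_one]
  have h0 := (EulerProduct.summable_and_hasSum_factoredNumbers_prod_filter_prime_geometric (f := f)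
    (fun {p} hp => by
      rw [Real.norm_eq_abs, abs_of_nonneg (hf0 p), hfp p hp]
      have := rpow_le_34 hp.two_le hκ
      linarith) P).2
  have h1 : (P.filter Nat.Prime) = P := by
    rw [Finset.filter_eq_self]
    exact fun p hp => (hP p hp).1
  rw [h1] at h0
  have h2 : HasSum (Set.indicator (Nat.factoredNumbers P) (fun n => f n))
      (∏ p ∈ P, (1 - f p)⁻¹) :=
    (hasSum_subtype_iff_indicator (f := fun n => f n) (s := Nat.factoredNumbers P)).1 h0
  have h3 : ∑ n ∈ S, (1 : ℝ) / n ≤ T ^ (-κ) * ∏ p ∈ P, (1 - f p)⁻¹ := by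
    calc ∑ n ∈ S, (1 : ℝ) / n ≤ ∑ n ∈ S, T ^ (-κ) * Set.indicator (Nat.factoredNumbers P) (fun n => f n) n := by
          refine sum_le_sum fun n hn => ?_
          have h4 := hS n hn
          have hn0 : (0 : ℝ) < n := hT.trans h4.1
          rw [Set.indicator_of_mem (Nat.mem_factoredNumbers'.2 h4.2), hf,
            Real.rpow_sub hn0, Real.rpow_one]
          have h5 : T ^ κ ≤ (n : ℝ) ^ κ := Real.rpow_le_rpow hT.le h4.1.le hκ0
          rw [Real.rpow_neg hT.le, ← mul_div_assoc]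
          refine div_le_div_of_nonneg_right ?_ hn0.le
          rw [inv_mul_eq_div, one_le_div (Real.rpow_pos_of_pos hT κ)]
          exact h5
      _ = T ^ (-κ) * ∑ n ∈ S, Set.indicator (Nat.factoredNumbers P) (fun n => f n) n := by
          rw [mul_sum]
      _ ≤ _ := by
          refine mul_le_mul_of_nonneg_left ?_ (Real.rpow_nonneg hT.le _)
          exact sum_le_hasSum _ (fun n _ => Set.indicator_nonneg (fun n _ => hf0 n) n) h2
  have h4 : 0 ≤ ∏ p ∈ P, (1 - 1 / (p : ℝ)) := by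
    refine prod_nonneg fun p hp => ?_
    have h3 : (2 : ℝ) ≤ p := by exact_mod_cast (hP p hp).1.two_le
    have : (1 : ℝ) / p ≤ 1 := by rw [div_le_one (by linarith)]; linarith
    linarith
  calc (∑ n ∈ S, (1 : ℝ) / n) * ∏ p ∈ P, (1 - 1 / (p : ℝ))
      ≤ (T ^ (-κ) * ∏ p ∈ P, (1 - f p)⁻¹) * ∏ p ∈ P, (1 - 1 / (p : ℝ)) :=
        mul_le_mul_of_nonneg_right h3 h4
    _ = T ^ (-κ) * ∏ p ∈ P, (1 - 1 / (p : ℝ)) / (1 - (p : ℝ) ^ κ / p) := by
        rw [mul_assoc, ← prod_mul_distrib]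
        congr 1
        refine prod_congr rfl fun p hp => ?_
        rw [hfp p (hP p hp).1, div_eq_mul_inv (1 - 1 / (p : ℝ)), mul_comm]
    _ ≤ _ := mul_le_mul_of_nonneg_left (prod_ratio_le hz hκ0 hκ hP) (Real.rpow_nonneg hT.le _)

open Basex935 in
/-- local moment of the exponent law -/
lemma nup_moment {p : ℕ} (hp : 2 ≤ p) {κ : ℝ} (hκ0 : 0 ≤ κ) (hκ : κ ≤ 1 / 2) (a : ℕ) :
    ∑ v ∈ range (a + 1), nup p a v * ((p : ℝ) ^ κ) ^ v ≤
      (1 - 1 / (p : ℝ)) / (1 - (p : ℝ) ^ κ / p) := by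
  have hp2 : (2 : ℝ) ≤ p := by exact_mod_cast hp
  have hp0 : (0 : ℝ) < p := by linarith
  have h34 := rpow_le_34 hp hκ
  have hd : 0 < 1 - (p : ℝ) ^ κ / p := by linarith
  have hpk : 1 ≤ (p : ℝ) ^ κ := Real.one_le_rpow (by linarith) hκ0
  set w : ℝ := 1 / (p : ℝ) with hw
  set y : ℝ := (p : ℝ) ^ κ with hy
  have hwy : y / p = w * y := by rw [hw]; ring
  rw [hwy] at hd ⊢
  have h1 : ∀ a : ℕ, ∑ v ∈ range (a + 1), nup p a v * y ^ v =
      (1 - w) * ∑ v ∈ range a, (w * y) ^ v + (w * y) ^ a := by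
    intro a
    rw [sum_range_succ, mul_sum]
    congr 1
    · refine sum_congr rfl fun v hv => ?_
      rw [mem_range] at hv
      unfold nup
      rw [if_pos hv, mul_pow]
      ring
    · unfold nup
      rw [if_neg (lt_irrefl a), mul_pow]
  rw [h1]
  have hw0 : 0 ≤ w := by rw [hw]; positivity
  have hyw : 0 ≤ w * y := mul_nonneg hw0 (by linarith)
  induction a with
  | zero =>
    simp only [range_zero, sum_empty, mul_zero, pow_zero, zero_add]
    rw [one_le_div hd]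
    nlinarith
  | succ a ih =>
    have h2 : (1 - w) * ∑ v ∈ range (a + 1), (w * y) ^ v + (w * y) ^ (a + 1) =
        (1 - w) + w * y * ((1 - w) * ∑ v ∈ range a, (w * y) ^ v + (w * y) ^ a) := by
      rw [sum_range_succ']
      simp only [pow_succ, pow_zero, ← sum_mul]
      ring
    rw [h2]
    have h3 : (1 - w) / (1 - w * y) = (1 - w) + w * y * ((1 - w) / (1 - w * y)) := by
      field_simp
      ring
    rw [h3]
    have := mul_le_mul_of_nonneg_left ih hyw
    linarith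

open Basex935 in
/-- **moment of the exact type law** -/
theorem nu_moment {z : ℝ} (hz : 2 ≤ z) {κ : ℝ} (hκ0 : 0 ≤ κ) (hκ : κ ≤ 1 / 2) :
    ∀ M : ℕ, 0 < M → (∀ p ∈ M.primeFactors, (p : ℝ) ≤ z) →
      ∑ b ∈ M.divisors, nu M b * (b : ℝ) ^ κ ≤ Real.exp (4 * κ * z ^ κ * (Real.log z + 2)) := by
  have key : ∀ M : ℕ, 0 < M → ∑ b ∈ M.divisors, nu M b * (b : ℝ) ^ κ ≤
      ∏ p ∈ M.primeFactors, (1 - 1 / (p : ℝ)) / (1 - (p : ℝ) ^ κ / p) := by
    refine ind_min ?_ ?_
    · simp [nu]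
    · intro p a M1 hp ha hM1 hnd _ ih
      rw [sum_split hp a hM1 hnd]
      have hcop : Nat.Coprime (p ^ a) M1 :=
        Nat.Coprime.pow_left a ((Nat.Prime.coprime_iff_not_dvd hp).2 hnd)
      have h1 : ∀ v ∈ range (a + 1), ∑ b1 ∈ M1.divisors, nu (p ^ a * M1) (p ^ v * b1) *
          ((p ^ v * b1 : ℕ) : ℝ) ^ κ = nup p a v * ((p : ℝ) ^ κ) ^ v *
            ∑ b ∈ M1.divisors, nu M1 b * (b : ℝ) ^ κ := by
        intro v hv
        rw [mem_range] at hv
        rw [mul_sum]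
        refine sum_congr rfl fun b hb => ?_
        rw [Nat.mem_divisors] at hb
        rw [nu_mul hcop (pow_dvd_pow p (by omega)) hb.1, nu_prime_pow hp (by omega)]
        have h2 : ((p ^ v * b : ℕ) : ℝ) ^ κ = ((p : ℝ) ^ κ) ^ v * (b : ℝ) ^ κ := by
          push_cast
          rw [Real.mul_rpow (by positivity) (by positivity), ← Real.rpow_natCast, ← Real.rpow_natCast,
            ← Real.rpow_mul (by positivity), ← Real.rpow_mul (by positivity), mul_comm κ]
        rw [h2]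
        ring
      rw [sum_congr rfl h1, ← sum_mul]
      have hpf : (p ^ a * M1).primeFactors = insert p M1.primeFactors := by
        rw [Nat.primeFactors_mul (pow_ne_zero _ hp.ne_zero) hM1.ne', Nat.primeFactors_prime_pow ha.ne' hp]
        rfl
      have hpn : p ∉ M1.primeFactors := fun h => hnd (Nat.dvd_of_mem_primeFactors h)
      rw [hpf, prod_insert hpn]
      have h3 : 0 ≤ ∑ b ∈ M1.divisors, nu M1 b * (b : ℝ) ^ κ :=
        sum_nonneg fun b _ => mul_nonneg (nu_nonneg _ _) (by positivity)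
      have hp2 : (2 : ℝ) ≤ p := by exact_mod_cast hp.two_le
      have h34 := rpow_le_34 hp.two_le hκ
      have h4 : 0 ≤ (1 - 1 / (p : ℝ)) / (1 - (p : ℝ) ^ κ / p) := by
        refine div_nonneg ?_ (by linarith)
        have : (1 : ℝ) / p ≤ 1 := by rw [div_le_one (by linarith)]; linarith
        linarith
      exact mul_le_mul (nup_moment hp.two_le hκ0 hκ a) ih h3 h4
  intro M hM hMz
  refine (key M hM).trans (prod_ratio_le hz hκ0 hκ fun p hp => ?_)
  exact ⟨Nat.prime_of_mem_primeFactors hp, hMz p hp⟩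

open Basex935 Classical in
/-- **Rankin in the law `nu M`** -/
theorem rankin_nu {z T : ℝ} (hz : 2 ≤ z) (hT : 0 < T) {κ : ℝ} (hκ0 : 0 ≤ κ) (hκ : κ ≤ 1 / 2)
    {M : ℕ} (hM : 0 < M) (hMz : ∀ p ∈ M.primeFactors, (p : ℝ) ≤ z) :
    ∑ b ∈ M.divisors.filter (fun b : ℕ => T < b), nu M b ≤
      T ^ (-κ) * Real.exp (4 * κ * z ^ κ * (Real.log z + 2)) := by
  have h1 := nu_moment hz hκ0 hκ M hM hMz
  calc ∑ b ∈ M.divisors.filter (fun b : ℕ => T < b), nu M b
      ≤ ∑ b ∈ M.divisors.filter (fun b : ℕ => T < b), T ^ (-κ) * (nu M b * (b : ℝ) ^ κ) := by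
        refine sum_le_sum fun b hb => ?_
        rw [mem_filter] at hb
        have h2 : T ^ κ ≤ (b : ℝ) ^ κ := Real.rpow_le_rpow hT.le hb.2.le hκ0
        have h3 := nu_nonneg M b
        have h4 : 1 ≤ T ^ (-κ) * (b : ℝ) ^ κ := by
          rw [Real.rpow_neg hT.le, inv_mul_eq_div, one_le_div (Real.rpow_pos_of_pos hT κ)]
          exact h2
        calc nu M b = nu M b * 1 := (mul_one _).symm
          _ ≤ nu M b * (T ^ (-κ) * (b : ℝ) ^ κ) := mul_le_mul_of_nonneg_left h4 h3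
          _ = _ := by ring
    _ ≤ ∑ b ∈ M.divisors, T ^ (-κ) * (nu M b * (b : ℝ) ^ κ) :=
        sum_le_sum_of_subset_of_nonneg (filter_subset _ _) fun b _ _ => by
          have := nu_nonneg M b
          positivity
    _ = T ^ (-κ) * ∑ b ∈ M.divisors, nu M b * (b : ℝ) ^ κ := by rw [mul_sum]
    _ ≤ _ := mul_le_mul_of_nonneg_left h1 (Real.rpow_nonneg hT.le _)

open Basex935 Classical in
/-- Rankin with `κ = A / log z`: `ν(b > z^u) ≤ exp (8 A e^A - A u)` -/
theorem rankin_nu_exp {z A u : ℝ} (hz : 2 ≤ Real.log z) (hz0 : 2 ≤ z) (hA : 0 ≤ A)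
    (hAz : 2 * A ≤ Real.log z) {M : ℕ} (hM : 0 < M) (hMz : ∀ p ∈ M.primeFactors, (p : ℝ) ≤ z) :
    ∑ b ∈ M.divisors.filter (fun b : ℕ => z ^ u < b), nu M b ≤
      Real.exp (8 * A * Real.exp A - A * u) := by
  have hlz : 0 < Real.log z := by linarith
  have hz1 : 0 < z := by linarith
  have h1 := rankin_nu (T := z ^ u) (κ := A / Real.log z) hz0 (Real.rpow_pos_of_pos hz1 u)
    (div_nonneg hA hlz.le) (by rw [div_le_iff₀ hlz]; linarith) hM hMz
  refine h1.trans ?_
  have h2 : (z ^ u) ^ (-(A / Real.log z)) = Real.exp (-(A * u)) := by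
    rw [← Real.rpow_mul hz1.le, Real.rpow_def_of_pos hz1]
    congr 1
    field_simp
  have h3 : z ^ (A / Real.log z) = Real.exp A := by
    rw [Real.rpow_def_of_pos hz1]
    congr 1
    field_simp
  rw [h2, h3, ← Real.exp_add, Real.exp_le_exp]
  have h4 : 4 * (A / Real.log z) * Real.exp A * (Real.log z + 2) =
      4 * A * Real.exp A * (1 + 2 / Real.log z) := by
    field_simp
  rw [h4]
  have h5 : 2 / Real.log z ≤ 1 := by rw [div_le_one hlz]; exact hz
  have h6 : 0 ≤ 4 * A * Real.exp A := by positivity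
  nlinarith

end Crest.Agent.R4C.Countsx952
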