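import Crest.Agent.R4C.BoxUniq_60
import Crest.Agent.R4C.Counts_952
import Crest.Agent.R4C.Row2_7

/-!
# Row 4: `t(b)` = the end of the index interval of a run (helper129), 3463 (L)(2), 3600

Over `BoxUniq_60` (`Valid F P k f m b` : the scale `2^m` is valid for the run `(f, k)` of `b`).

* `tEnd F P k f b` : the LAST valid scale (`Nat.findGreatest`), `tEnd_spec`, `le_tEnd`.
* `valid_close` : if `m` is valid for `b₁`, some `m₂ ≤ m` is valid for `b₂`, and `b₁, b₂` are in one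
  box (same letters above `X ≤ cut m₂`, `b₁ ≤ 2 b₂`), then `m` or `m - 1` (`≥ m₂`) is valid for `b₂`.
* `tEnd_close` : `tEnd b₁ ≤ tEnd b₂ + 1` in one box (no depth hypothesis).
* `tBox F P k f S` : minimum over the words `S` of the box; `tBox_le`, `le_tBox_succ`.
* `alpha_row` : the row sum of (alpha), with the loss of one scale:
  `∑_{x > cut t} (1/x) ∏_{q > cut (t+1), q < x} (1 - 1/q) ≤ 1 + (log T + 19)/log (cut t)`.
-/

set_option autoImplicit false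

namespace Crest.Agent.R4C.TEndx129

open Finset Crest.Agent.R4C.FLDefx935 Crest.Agent.R4C.Rulex945 Crest.Agent.R4C.BoxUniqx60
  Crest.Agent.R4C.Countsx952 Crest.Agent.R4C.Row2x7

variable {M : ℕ} {F : FL M} {P : Par}

open Classical in
/-- the last scale of the run `(f, k)` of `b` -/
noncomputable def tEnd (F : FL M) (P : Par) (k : ℕ) (f : ℚ) (b : ℕ) : ℕ :=
  Nat.findGreatest (fun m => Valid F P k f m b) P.N

open Classical in
lemma tEnd_spec {k b m : ℕ} {f : ℚ} (h : Valid F P k f m b) (hm : m ≤ P.N) :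
    Valid F P k f (tEnd F P k f b) b :=
  Nat.findGreatest_spec (P := fun m => Valid F P k f m b) hm h

open Classical in
lemma le_tEnd {k b m : ℕ} {f : ℚ} (h : Valid F P k f m b) (hm : m ≤ P.N) :
    m ≤ tEnd F P k f b :=
  Nat.le_findGreatest (P := fun m => Valid F P k f m b) hm h

open Classical in
lemma tEnd_le_N {k b : ℕ} {f : ℚ} : tEnd F P k f b ≤ P.N :=
  Nat.findGreatest_le (P := fun m => Valid F P k f m b) _

open Classical in
lemma not_valid_of_lt {k b m : ℕ} {f : ℚ} (h : tEnd F P k f b < m) (hm : m ≤ P.N) :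
    ¬ Valid F P k f m b :=
  Nat.findGreatest_is_greatest (P := fun m => Valid F P k f m b) h hm

/-- valid scales are `≤ N` -/
lemma valid_le_N (hL : 0 < P.L) (hN : (M : ℝ) / P.L ≤ P.N) (hM : 0 < M) {k m b : ℕ} (hb : b ∣ M)
    {f : ℚ} (h : Valid F P k f m b) : m ≤ P.N := h.tc.le_N hL hN hM hb

/-- one step: `m` valid for `b₁`, `m₂ ≤ m` valid for `b₂`, one box: `m` or `m - 1` valid for `b₂` -/
theorem valid_close (hL : 0 < P.L) (hM : 0 < M) (hcut : Monotone P.cut) (hE : Monotone P.E)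
    {X b₁ b₂ m m₂ k : ℕ} {f : ℚ} (hb₁ : b₁ ∣ M) (hb₂ : b₂ ∣ M) (hX : X ≤ P.cut m₂)
    (h : SameUp X b₁ b₂) (hR : (b₁ : ℝ) ≤ 2 * b₂) (h1 : Valid F P k f m b₁)
    (h2 : Valid F P k f m₂ b₂) (hm : m₂ ≤ m)
    (hA : (2 : ℝ) ^ m ≤ ((P.cut (m - 1) : ℝ) + 1) * 2 ^ m₂) :
    ∃ m', m₂ ≤ m' ∧ m ≤ m' + 1 ∧ m' ≤ m ∧ Valid F P k f m' b₂ := by
  rcases Nat.lt_or_ge m (m₂ + 2) with hlt | hge
  · exact ⟨m₂, le_rfl, by omega, hm, h2⟩
  · have hT1 : m₂ ≤ m - 1 := by omega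
    have hXT : X ≤ P.cut m := hX.trans (hcut (by omega))
    have kT : k0 F (P.cut m) b₂ f = k := by
      rw [← k0_eq (F := F) hb₁ hb₂ hXT h f]; exact h1.kk
    have kT1 : k0 F (P.cut (m - 1)) b₂ f = k := by
      have e1 : k ∣ k0 F (P.cut (m - 1)) b₂ f := by
        have := k0_mono (F := F) (b := b₂) (hcut hT1) f
        rwa [h2.kk] at this
      have e2 : k0 F (P.cut (m - 1)) b₂ f ∣ k := by
        have := k0_mono (F := F) (b := b₂) (hcut (show m - 1 ≤ m by omega)) f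
        rwa [kT] at this
      exact Nat.dvd_antisymm e2 e1
    have hden : ∀ i, m₂ ≤ i → (k : ℝ) ≤ P.E i := fun i hi => by
      have := h2.tc.den
      rw [h2.kk] at this
      exact this.trans (hE hi)
    have hdis : ∀ i, m₂ ≤ i → (b₂ : ℝ) * |P.γ - f| ≤ P.E i * P.L := fun i hi =>
      h2.tc.dis.trans (mul_le_mul_of_nonneg_right (hE hi) hL.le)
    have hsc : (2 : ℝ) ^ (m - 1) * P.L ≤ F.uu (P.cut m) b₂ := by
      have e1 := uu_le (F := F) hM hb₁ hb₂ hXT h hR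
      have e2 := h1.tc.scl.trans e1
      have e3 : (2 : ℝ) ^ m = 2 * 2 ^ (m - 1) := by
        rw [← pow_succ']
        congr 1
        omega
      rw [e3] at e2
      linarith
    rcases uu_jump (F := F) hM hb₂ (hcut (show m - 1 ≤ m by omega)) with hu | hu
    · refine ⟨m - 1, hT1, by omega, by omega, ⟨?_, ?_, ?_⟩, kT1⟩
      · rw [kT1]; exact hden _ hT1
      · exact hdis _ hT1
      · rw [hu]; exact hsc
    · refine ⟨m, by omega, by omega, le_rfl, ⟨?_, ?_, ?_⟩, kT⟩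
      · rw [kT]; exact hden _ (by omega)
      · exact hdis _ (by omega)
      · have e1 : ((P.cut (m - 1) : ℝ) + 1) * F.uu (P.cut (m - 1)) b₂ ≤ F.uu (P.cut m) b₂ := by
          exact_mod_cast hu
        have e2 : (2 : ℝ) ^ m₂ * P.L ≤ F.uu (P.cut (m - 1)) b₂ := by
          refine h2.tc.scl.trans ?_
          have : F.uu (P.cut m₂) b₂ ≤ F.uu (P.cut (m - 1)) b₂ :=
            Nat.le_of_dvd (FL.uu_pos _ _) (FL.uu_dvd_uu (hcut hT1))
          exact_mod_cast this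
        calc (2 : ℝ) ^ m * P.L ≤ ((P.cut (m - 1) : ℝ) + 1) * 2 ^ m₂ * P.L :=
              mul_le_mul_of_nonneg_right hA hL.le
          _ = ((P.cut (m - 1) : ℝ) + 1) * (2 ^ m₂ * P.L) := by ring
          _ ≤ ((P.cut (m - 1) : ℝ) + 1) * F.uu (P.cut (m - 1)) b₂ :=
              mul_le_mul_of_nonneg_left e2 (by positivity)
          _ ≤ _ := e1

/-- the growth condition on the cuts (for `cut m = 2^(A m)`, `A ≥ 2`: `cutA_grow`) -/
def CutGrow (P : Par) : Prop := ∀ m, 2 ≤ m → (2 : ℝ) ^ m ≤ (P.cut (m - 1) : ℝ) + 1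

lemma CutGrow.mul (h : CutGrow P) {m m₂ : ℕ} (hm : 1 ≤ m) :
    (2 : ℝ) ^ m ≤ ((P.cut (m - 1) : ℝ) + 1) * 2 ^ m₂ ∨ m ≤ m₂ + 1 := by
  rcases Nat.lt_or_ge m 2 with h1 | h1
  · right; omega
  · left
    have h2 := h m h1
    have h3 : (1 : ℝ) ≤ 2 ^ m₂ := one_le_pow₀ (by norm_num)
    have h4 : (0 : ℝ) ≤ (P.cut (m - 1) : ℝ) + 1 := by positivity
    nlinarith

lemma cutA_grow {A : ℕ} (hA : 2 ≤ A) (h : ∀ m, P.cut m = 2 ^ (A * m)) : CutGrow P := by
  intro m hm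
  rw [h]
  have h1 : m ≤ A * (m - 1) := by
    have : m ≤ 2 * (m - 1) := by omega
    exact this.trans (Nat.mul_le_mul_right _ hA)
  have h2 : (2 : ℝ) ^ m ≤ (2 : ℝ) ^ (A * (m - 1)) := pow_le_pow_right₀ (by norm_num) h1
  push_cast
  linarith

/-- **the end of the run is the same for all words of a box up to one dyadic scale** -/
theorem tEnd_close (hL : 0 < P.L) (hM : 0 < M) (hcut : Monotone P.cut) (hE : Monotone P.E)
    (hG : CutGrow P) {X b₁ b₂ m₁ m₂ k : ℕ} {f : ℚ} (hb₁ : b₁ ∣ M) (hb₂ : b₂ ∣ M)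
    (hX₂ : X ≤ P.cut m₂) (h : SameUp X b₁ b₂) (hR : (b₁ : ℝ) ≤ 2 * b₂)
    (h1 : Valid F P k f m₁ b₁) (h2 : Valid F P k f m₂ b₂) (hm₁ : m₁ ≤ P.N) (hm₂ : m₂ ≤ P.N) :
    tEnd F P k f b₁ ≤ tEnd F P k f b₂ + 1 := by
  have hv1 := tEnd_spec h1 hm₁
  set e₁ := tEnd F P k f b₁ with he₁
  have he₁N : e₁ ≤ P.N := tEnd_le_N
  have h22 := le_tEnd h2 hm₂
  rcases Nat.lt_or_ge e₁ m₂ with hlt | hge
  · omega
  · rcases Nat.lt_or_ge e₁ (m₂ + 2) with hlt2 | hge2
    · omega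
    · rcases hG.mul (m := e₁) (m₂ := m₂) (by omega) with hA | hA
      · obtain ⟨m', _, h4, h5, h6⟩ := valid_close hL hM hcut hE hb₁ hb₂ hX₂ h hR hv1 h2 hge hA
        have := le_tEnd h6 (h5.trans he₁N)
        omega
      · omega

/-- general ratio `2 ^ j`, by the same proof -/
theorem tEnd_close_pow (hL : 0 < P.L) (hM : 0 < M) (hcut : Monotone P.cut) (hE : Monotone P.E)
    (hG : CutGrow P) {X b₁ b₂ m₁ m₂ k j : ℕ} {f : ℚ} (hb₁ : b₁ ∣ M) (hb₂ : b₂ ∣ M)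
    (hX₂ : X ≤ P.cut m₂) (h : SameUp X b₁ b₂) (hR : (b₁ : ℝ) ≤ 2 ^ j * b₂)
    (h1 : Valid F P k f m₁ b₁) (h2 : Valid F P k f m₂ b₂) (hm₁ : m₁ ≤ P.N) (hm₂ : m₂ ≤ P.N) :
    tEnd F P k f b₁ ≤ tEnd F P k f b₂ + (j + 1) := by
  have hv1 := tEnd_spec h1 hm₁
  set e₁ := tEnd F P k f b₁ with he₁
  have he₁N : e₁ ≤ P.N := tEnd_le_N
  have h22 := le_tEnd h2 hm₂
  by_contra hcon
  rw [not_le] at hcon
  -- the scale `n = e₁ - j - 1 ≥ m₂ + 1`
  obtain ⟨n, hn⟩ : ∃ n, e₁ = n + j := ⟨e₁ - j, by omega⟩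
  have hn2 : m₂ + 2 ≤ n := by omega
  have hXn : X ≤ P.cut n := hX₂.trans (hcut (by omega))
  have hXe : X ≤ P.cut e₁ := hX₂.trans (hcut (by omega))
  have kT : k0 F (P.cut e₁) b₂ f = k := by
    rw [← k0_eq (F := F) hb₁ hb₂ hXe h f]; exact hv1.kk
  have kmid : ∀ i, m₂ ≤ i → i ≤ e₁ → k0 F (P.cut i) b₂ f = k := by
    intro i hi1 hi2
    have e1 : k ∣ k0 F (P.cut i) b₂ f := by
      have := k0_mono (F := F) (b := b₂) (hcut hi1) f
      rwa [h2.kk] at this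
    have e2 : k0 F (P.cut i) b₂ f ∣ k := by
      have := k0_mono (F := F) (b := b₂) (hcut hi2) f
      rwa [kT] at this
    exact Nat.dvd_antisymm e2 e1
  have hval : ∀ i, m₂ ≤ i → i ≤ e₁ → (2 : ℝ) ^ i * P.L ≤ F.uu (P.cut i) b₂ →
      Valid F P k f i b₂ := by
    intro i hi1 hi2 hs
    refine ⟨⟨?_, ?_, hs⟩, kmid i hi1 hi2⟩
    · rw [kmid i hi1 hi2]
      have := h2.tc.den
      rw [h2.kk] at this
      exact this.trans (hE hi1)
    · exact h2.tc.dis.trans (mul_le_mul_of_nonneg_right (hE hi1) hL.le)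
  have hnot : ∀ i, n ≤ i + 1 → i ≤ e₁ → ¬ Valid F P k f i b₂ := by
    intro i hi1 hi2 hv
    have := le_tEnd hv (hi2.trans he₁N)
    omega
  -- scale at the end
  have hsc : (2 : ℝ) ^ n * P.L ≤ F.uu (P.cut e₁) b₂ := by
    have e1 := uu_le (F := F) hM hb₁ hb₂ hXe h hR
    have e2 := hv1.tc.scl.trans e1
    have e4 : (2 : ℝ) ^ e₁ = 2 ^ j * 2 ^ n := by rw [hn, pow_add, mul_comm]
    rw [e4, mul_assoc] at e2
    have e3 : (0 : ℝ) < 2 ^ j := by positivity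
    exact le_of_mul_le_mul_left e2 e3
  -- `uu` is constant between the cuts `n - 1` and `e₁`
  have hconst : ∀ d, n - 1 + d ≤ e₁ → F.uu (P.cut (n - 1 + d)) b₂ = F.uu (P.cut (n - 1)) b₂ := by
    intro d
    induction d with
    | zero => intro _; rfl
    | succ d ih =>
      intro hd
      have ih' := ih (by omega)
      rcases uu_jump (F := F) hM hb₂ (hcut (show n - 1 + d ≤ n - 1 + (d + 1) by omega)) with hu | hu
      · rw [← hu, ih']
      · exfalso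
        refine hnot (n - 1 + (d + 1)) (by omega) hd (hval _ (by omega) hd ?_)
        have e1 : ((P.cut (n - 1 + d) : ℝ) + 1) * F.uu (P.cut (n - 1 + d)) b₂ ≤
            F.uu (P.cut (n - 1 + (d + 1))) b₂ := by exact_mod_cast hu
        have e2 : (2 : ℝ) ^ m₂ * P.L ≤ F.uu (P.cut (n - 1 + d)) b₂ := by
          refine h2.tc.scl.trans ?_
          have : F.uu (P.cut m₂) b₂ ≤ F.uu (P.cut (n - 1 + d)) b₂ :=
            Nat.le_of_dvd (FL.uu_pos _ _) (FL.uu_dvd_uu (hcut (by omega)))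
          exact_mod_cast this
        have e3 := hG (n - 1 + (d + 1)) (by omega)
        have e4 : n - 1 + (d + 1) - 1 = n - 1 + d := by omega
        rw [e4] at e3
        have e5 : (1 : ℝ) ≤ 2 ^ m₂ := one_le_pow₀ (by norm_num)
        calc (2 : ℝ) ^ (n - 1 + (d + 1)) * P.L
            ≤ ((P.cut (n - 1 + d) : ℝ) + 1) * P.L := mul_le_mul_of_nonneg_right e3 hL.le
          _ ≤ ((P.cut (n - 1 + d) : ℝ) + 1) * (2 ^ m₂ * P.L) := by
              refine mul_le_mul_of_nonneg_left ?_ (by positivity)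
              nlinarith
          _ ≤ ((P.cut (n - 1 + d) : ℝ) + 1) * F.uu (P.cut (n - 1 + d)) b₂ :=
              mul_le_mul_of_nonneg_left e2 (by positivity)
          _ ≤ _ := e1
  have h7 : F.uu (P.cut e₁) b₂ = F.uu (P.cut (n - 1)) b₂ := by
    have := hconst (e₁ - (n - 1)) (by omega)
    rwa [show n - 1 + (e₁ - (n - 1)) = e₁ by omega] at this
  refine hnot (n - 1) (by omega) (by omega) (hval _ (by omega) (by omega) ?_)
  rw [← h7]
  refine le_trans ?_ hsc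
  refine mul_le_mul_of_nonneg_right ?_ hL.le
  exact pow_le_pow_right₀ (by norm_num) (by omega)

/-! ### the value on a box -/

open Classical in
/-- minimum of `tEnd` over a set of words -/
noncomputable def tBox (F : FL M) (P : Par) (k : ℕ) (f : ℚ) (S : Finset ℕ) : ℕ :=
  if h : S.Nonempty then (S.image (tEnd F P k f)).min' (h.image _) else 0

lemma tBox_le {k : ℕ} {f : ℚ} {S : Finset ℕ} {b : ℕ} (hb : b ∈ S) :
    tBox F P k f S ≤ tEnd F P k f b := by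
  classical
  have h : S.Nonempty := ⟨b, hb⟩
  unfold tBox
  rw [dif_pos h]
  exact min'_le _ _ (mem_image_of_mem _ hb)

lemma exists_tBox {k : ℕ} {f : ℚ} {S : Finset ℕ} (h : S.Nonempty) :
    ∃ b ∈ S, tEnd F P k f b = tBox F P k f S := by
  classical
  unfold tBox
  rw [dif_pos h]
  obtain ⟨b, hb, h1⟩ := mem_image.1 (min'_mem (S.image (tEnd F P k f)) (h.image _))
  exact ⟨b, hb, h1⟩

/-- on a box (same letters above `X`, sizes within a factor 2, every word has a valid scale `m`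
with `X ≤ cut m`) the end of the run is `tBox` or `tBox + 1` -/
theorem le_tBox_succ (hL : 0 < P.L) (hM : 0 < M) (hcut : Monotone P.cut) (hE : Monotone P.E)
    (hG : CutGrow P) {X k : ℕ} {f : ℚ} {S : Finset ℕ} (hS : ∀ b ∈ S, b ∣ M)
    (hup : ∀ b ∈ S, ∀ c ∈ S, SameUp X b c) (hsz : ∀ b ∈ S, ∀ c ∈ S, (b : ℝ) ≤ 2 * c)
    (hval : ∀ b ∈ S, ∃ m, m ≤ P.N ∧ X ≤ P.cut m ∧ Valid F P k f m b) {b : ℕ} (hb : b ∈ S) :
    tEnd F P k f b ≤ tBox F P k f S + 1 := by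
  obtain ⟨c, hc, hct⟩ := exists_tBox (F := F) (P := P) (k := k) (f := f) ⟨b, hb⟩
  obtain ⟨m₁, h1, _, h2⟩ := hval b hb
  obtain ⟨m₂, h3, h4, h5⟩ := hval c hc
  rw [← hct]
  exact tEnd_close hL hM hcut hE hG (hS b hb) (hS c hc) h4 (hup b hb c hc) (hsz b hb c hc) h2 h5
    h1 h3

/-! ### the row sum of (alpha) -/

/-- primes in `(X, X T]` -/
lemma window_sum {X T : ℝ} (hX : 2 ≤ X) (hT : 1 ≤ T) (S : Finset ℕ)
    (hS : ∀ p ∈ S, p.Prime ∧ X ≤ (p : ℝ) ∧ (p : ℝ) ≤ X * T) :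
    ∑ p ∈ S, (1 : ℝ) / p ≤ (Real.log T + 19) / Real.log X := by
  classical
  refine le_trans (sum_le_sum_of_subset_of_nonneg ?_ fun p _ _ => by positivity)
    (sum_inv_primes_window hX hT)
  intro p hp
  obtain ⟨h1, h2, h3⟩ := hS p hp
  rw [mem_filter, mem_Icc]
  exact ⟨⟨Nat.ceil_le.2 h2, Nat.le_floor h3⟩, h1⟩

/-- coins above `Z`: places in `T0` above `Z`, coins in `S` above `Z` -/
lemma coin_row_above (S T0 : Finset ℕ) (hS : ∀ x ∈ S, x.Prime) (hT : T0 ⊆ S) (Z : ℕ) :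
    ∑ x ∈ T0.filter (fun x => Z < x), 1 / (x : ℝ) *
      ∏ q ∈ S.filter (fun q => Z < q ∧ q < x), (1 - 1 / (q : ℝ)) ≤ 1 := by
  classical
  have h := coin_row_sub (S.filter (fun q => Z < q)) (T0.filter (fun x => Z < x))
    (fun x hx => hS x (mem_filter.1 hx).1) (filter_subset_filter _ hT)
  refine le_trans (le_of_eq (sum_congr rfl fun x _ => ?_)) h
  rw [filter_filter]

/-- **row sum of (alpha)** with the loss of a window `(Z, Z T]` -/
theorem alpha_row (S T0 : Finset ℕ) (hS : ∀ x ∈ S, x.Prime) (hT0 : T0 ⊆ S) {Z Z' : ℕ} {T : ℝ}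
    (hZ : 2 ≤ Z) (hT : 1 ≤ T) (hZ' : (Z' : ℝ) ≤ Z * T) :
    ∑ x ∈ T0.filter (fun x => Z < x), 1 / (x : ℝ) *
      ∏ q ∈ S.filter (fun q => Z' < q ∧ q < x), (1 - 1 / (q : ℝ)) ≤
      1 + (Real.log T + 19) / Real.log Z := by
  classical
  have hprod : ∀ x, 0 ≤ ∏ q ∈ S.filter (fun q => Z' < q ∧ q < x), (1 - 1 / (q : ℝ)) := by
    intro x
    refine prod_nonneg fun q hq => ?_
    have := (w_half (hS q (mem_filter.1 hq).1)).2
    linarith
  have hprod1 : ∀ x, ∏ q ∈ S.filter (fun q => Z' < q ∧ q < x), (1 - 1 / (q : ℝ)) ≤ 1 := by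
    intro x
    refine prod_le_one (fun q hq => ?_) fun q hq => ?_
    · have := (w_half (hS q (mem_filter.1 hq).1)).2
      linarith
    · have := (w_half (hS q (mem_filter.1 hq).1)).1
      linarith
  have hsplit : T0.filter (fun x => Z < x) ⊆
      T0.filter (fun x => Z < x ∧ x ≤ Z') ∪ T0.filter (fun x => Z' < x) := by
    intro x hx
    rw [mem_filter] at hx
    rw [mem_union, mem_filter, mem_filter]
    by_cases h : x ≤ Z'
    · exact Or.inl ⟨hx.1, hx.2, h⟩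
    · exact Or.inr ⟨hx.1, by omega⟩
  have hnn : ∀ x : ℕ, 0 ≤ 1 / (x : ℝ) *
      ∏ q ∈ S.filter (fun q => Z' < q ∧ q < x), (1 - 1 / (q : ℝ)) := fun x =>
    mul_nonneg (by positivity) (hprod x)
  calc ∑ x ∈ T0.filter (fun x => Z < x), 1 / (x : ℝ) *
      ∏ q ∈ S.filter (fun q => Z' < q ∧ q < x), (1 - 1 / (q : ℝ))
      ≤ ∑ x ∈ T0.filter (fun x => Z < x ∧ x ≤ Z') ∪ T0.filter (fun x => Z' < x), 1 / (x : ℝ) *
      ∏ q ∈ S.filter (fun q => Z' < q ∧ q < x), (1 - 1 / (q : ℝ)) :=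
        sum_le_sum_of_subset_of_nonneg hsplit fun x _ _ => hnn x
    _ ≤ ∑ x ∈ T0.filter (fun x => Z < x ∧ x ≤ Z'), 1 / (x : ℝ) *
      ∏ q ∈ S.filter (fun q => Z' < q ∧ q < x), (1 - 1 / (q : ℝ)) +
      ∑ x ∈ T0.filter (fun x => Z' < x), 1 / (x : ℝ) *
      ∏ q ∈ S.filter (fun q => Z' < q ∧ q < x), (1 - 1 / (q : ℝ)) := by
        rw [← sum_union_inter]
        exact le_add_of_nonneg_right (sum_nonneg fun x _ => hnn x)
    _ ≤ (Real.log T + 19) / Real.log Z + 1 := by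
        refine add_le_add ?_ (coin_row_above S T0 hS hT0 Z')
        calc ∑ x ∈ T0.filter (fun x => Z < x ∧ x ≤ Z'), 1 / (x : ℝ) *
            ∏ q ∈ S.filter (fun q => Z' < q ∧ q < x), (1 - 1 / (q : ℝ))
            ≤ ∑ x ∈ T0.filter (fun x => Z < x ∧ x ≤ Z'), 1 / (x : ℝ) := by
              refine sum_le_sum fun x _ => ?_
              have h1 : (0 : ℝ) ≤ 1 / x := by positivity
              calc 1 / (x : ℝ) * ∏ q ∈ S.filter (fun q => Z' < q ∧ q < x), (1 - 1 / (q : ℝ))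
                  ≤ 1 / (x : ℝ) * 1 := mul_le_mul_of_nonneg_left (hprod1 x) h1
                _ = _ := mul_one _
          _ ≤ (Real.log T + 19) / Real.log Z := by
              refine window_sum (by exact_mod_cast hZ) hT _ fun p hp => ?_
              rw [mem_filter] at hp
              refine ⟨hS p (hT0 hp.1), by exact_mod_cast hp.2.1.le, ?_⟩
              refine le_trans ?_ hZ'
              exact_mod_cast hp.2.2
    _ = _ := by ring

/-- the case `cut m = 2 ^ (A m)`, `m ≥ 1`: constant `30` -/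
theorem alpha_row_cut (S T0 : Finset ℕ) (hS : ∀ x ∈ S, x.Prime) (hT0 : T0 ⊆ S) {A m : ℕ}
    (hA : 1 ≤ A) (hm : 1 ≤ m) :
    ∑ x ∈ T0.filter (fun x => 2 ^ (A * m) < x), 1 / (x : ℝ) *
      ∏ q ∈ S.filter (fun q => 2 ^ (A * (m + 1)) < q ∧ q < x), (1 - 1 / (q : ℝ)) ≤ 30 := by
  have h := alpha_row S T0 hS hT0 (Z := 2 ^ (A * m)) (Z' := 2 ^ (A * (m + 1))) (T := 2 ^ A)
    (by calc 2 = 2 ^ 1 := rfl
          _ ≤ 2 ^ (A * m) := Nat.pow_le_pow_right (by norm_num) (Nat.mul_pos hA hm))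
    (one_le_pow₀ (by norm_num))
    (by push_cast; rw [← pow_add]; exact le_of_eq (by congr 1))
  refine h.trans ?_
  have hl2 : 0.6931471803 < Real.log 2 := Real.log_two_gt_d9
  have hA' : (1 : ℝ) ≤ A := by exact_mod_cast hA
  have hm' : (1 : ℝ) ≤ m := by exact_mod_cast hm
  have e1 : Real.log ((2 ^ (A * m) : ℕ) : ℝ) = A * m * Real.log 2 := by
    push_cast
    rw [Real.log_pow]
    push_cast
    ring
  have e2 : Real.log ((2 : ℝ) ^ A) = A * Real.log 2 := Real.log_pow _ _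
  rw [e1, e2]
  have hAm : (A : ℝ) ≤ A * m := by nlinarith
  have h0 : 0 < (A : ℝ) * m * Real.log 2 := by positivity
  have h1 : (A * Real.log 2 + 19) / (A * m * Real.log 2) ≤ 29 := by
    rw [div_le_iff₀ h0]
    nlinarith
  linarith

end Crest.Agent.R4C.TEndx129
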