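import Crest.Agent.R4C.HighW_899
import Crest.Agent.R4C.TEnd_129
import Crest.Agent.R4C.Beta_7
import Crest.Agent.R4C.Split_945
import Crest.Agent.R4C.LBx_500

/-!
# Row 4: the (alpha)/(beta) data of class (L) over the rule (helper899)

`HighW_899.PairW` from the landed pieces `BoxUniq_60`, `TEnd_129`, `Beta_7`, `SplitDef_945`.

* `RunP F P y r K z k f b` : `b | M` lies over the high word `z` (cut `y`), low size class `r`, and
  `(f, k)` is a run of `b` of depth `≤ K` valid at a scale `m` with `4 K² < 2^m`, `y ≤ cut m`.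
* `RunP.unique` : `(k, f)` depends only on `(z, r)`.
* `rn`, `TB`, `TB_le`, `le_TB` : the run and (up to one dyadic scale) its end.
* `TTs`, `XHs` : candidate ends / first unexplained letters over the twists `κ ∈ KK z0` and the size
  classes `r ∈ Rs`; `card_TTs`, `card_XHs : ≤ #KK z0 * #Rs`.
* `PD` : data of a pair of class (L) at the level `t` (unkilled, not in `CHvy`, low cut `Yc`);
* `pairW` : `PD` gives `PairW (hiFL hM y F) j0 P.cut ...` for the aligned primes `QQ` in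
  `(Yc, cut t]`; words `LBx_500.zz`, `upp y b = κ * zz ..`;
* `bst_le` : boost of all aligned primes `QA` above `Yc` is `≤ C * WH ...`;
* `wbd_box` : `WBd (upp y M) (WH ...) (C * N)`, `#KK * #Rs ≤ N`, for `cut m = 2^(A m)`.
-/

set_option autoImplicit false

namespace Crest.Agent.R4C.BoxWx899

open Finset Crest.Agent.R4C.Basex935 Crest.Agent.R4C.FLDefx935 Crest.Agent.R4C.Rulex945
  Crest.Agent.R4C.BoxUniqx60 Crest.Agent.R4C.TEndx129 Crest.Agent.R4C.Betax7
  Crest.Agent.R4C.HighWx899 Crest.Agent.R4C.Cutx50 Crest.Agent.R4C.BoostCx972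
  Crest.Agent.R4C.Bridgex882 Crest.Agent.R4C.Splitx945 Crest.Agent.R4C.Sharedx11
  Crest.Agent.R4C.S7dx14 Crest.Agent.R4C.LBxx500
  Crest.Agent.R4C.NonPureBlkx559 Crest.Agent.R4C.Keptx559 Crest.Agent.R4C.PureL2x232
  Crest.Agent.R4C.NonPure2x559 Crest.Agent.R4C.PairRx14

open Crest.Agent.R4C.Hclsx81 (HvK)

section runs

variable {M : ℕ} (F : FL M) (P : Par)

/-- run of a word of a box -/
structure RunP (y r : ℕ) (K : ℝ) (z k : ℕ) (f : ℚ) (b : ℕ) : Prop where
  dvd : b ∣ M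
  up : upp y b = z
  sz : Nat.log 2 (low y b) = r
  ex : ∃ m, y ≤ P.cut m ∧ 4 * K ^ 2 < 2 ^ m ∧ Valid F P k f m b ∧ dep F P m b f ≤ K

variable {F P} {y r z k k' b b' : ℕ} {K : ℝ} {f f' : ℚ}

lemma low_lt (h : Nat.log 2 (low y b) = r) : low y b < 2 ^ (r + 1) := by
  rw [← h]
  exact Nat.lt_pow_succ_log_self (by norm_num) _

lemma le_low (h : Nat.log 2 (low y b) = r) : 2 ^ r ≤ low y b := by
  rw [← h]
  exact Nat.pow_log_le_self 2 (low_pos y b).ne'

/-- sizes of two words of a box -/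
lemma size_le (hM : 0 < M) (h : RunP F P y r K z k f b) (h' : RunP F P y r K z k' f' b') :
    (b : ℝ) ≤ 2 * b' := by
  have hb0 : b ≠ 0 := (Nat.pos_of_dvd_of_pos h.dvd hM).ne'
  have hb0' : b' ≠ 0 := (Nat.pos_of_dvd_of_pos h'.dvd hM).ne'
  have e : b = low y b * z := by rw [← h.up, low_mul_upp y hb0]
  have e' : b' = low y b' * z := by rw [← h'.up, low_mul_upp y hb0']
  have h1 : low y b ≤ 2 * low y b' := by
    have h2 := low_lt h.sz
    have h3 := le_low h'.sz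
    rw [pow_succ] at h2
    omega
  have h2 : b ≤ 2 * b' := by
    rw [e, e']
    calc low y b * z ≤ 2 * low y b' * z := Nat.mul_le_mul_right _ h1
      _ = 2 * (low y b' * z) := by ring
  exact_mod_cast h2

lemma sameUp (h : RunP F P y r K z k f b) (h' : RunP F P y r K z k' f' b') : SameUp y b b' :=
  SameUp.of_upp (h.up.trans h'.up.symm)

/-- one half of the uniqueness -/
lemma k_unique_aux (hM : 0 < M) (hcut : Monotone P.cut) (hc2 : ∀ m, 2 ^ m ≤ P.cut m) (hK : 1 ≤ K)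
    {m m' : ℕ} (hb : b ∣ M) (hb' : b' ∣ M) (hS : SameUp y b b') (hy : y ≤ P.cut m')
    (hm : 4 * K ^ 2 < 2 ^ m) (hv : Valid F P k f m b) (hv' : Valid F P k' f m' b')
    (hd' : dep F P m' b' f ≤ K) (hmm : m ≤ m') : k = k' := by
  have e1 : k0 F (P.cut m') b f = k0 F (P.cut m') b' f := k0_eq (F := F) hb hb' hy hS f
  rcases k0_jump' (F := F) hM hb (hcut hmm) f with h | h
  · rw [← hv.kk, h, e1, hv'.kk]
  · exfalso
    rw [hv.kk, e1] at h
    have hk : 1 ≤ k := by rw [← hv.kk]; exact k0_pos _ _ _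
    have h1 : P.cut m + 1 ≤ k0 F (P.cut m') b' f := by
      calc P.cut m + 1 = (P.cut m + 1) * 1 := (Nat.mul_one _).symm
        _ ≤ (P.cut m + 1) * k := Nat.mul_le_mul_left _ hk
        _ ≤ _ := h
    have h2 : (k0 F (P.cut m') b' f : ℝ) ≤ K := (k0_le_dep m' b' f).trans hd'
    have h3 : ((P.cut m + 1 : ℕ) : ℝ) ≤ k0 F (P.cut m') b' f := by exact_mod_cast h1
    have h4 : ((2 ^ m : ℕ) : ℝ) ≤ P.cut m := by exact_mod_cast hc2 m
    push_cast at h3 h4
    nlinarith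

/-- **the run depends only on the high word and the size class** -/
theorem RunP.unique (hM : 0 < M) (hL : 0 < P.L) (hcut : Monotone P.cut)
    (hc2 : ∀ m, 2 ^ m ≤ P.cut m) (hK : 1 ≤ K) (h : RunP F P y r K z k f b)
    (h' : RunP F P y r K z k' f' b') : k = k' ∧ f = f' := by
  obtain ⟨m, hy, hm, hv, hd⟩ := h.ex
  obtain ⟨m', hy', hm', hv', hd'⟩ := h'.ex
  have hS := sameUp h h'
  have hf : f = f' := box_unique' hL hM hcut h.dvd h'.dvd hy hy' hS (by norm_num : (1 : ℝ) ≤ 2)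
    (size_le hM h h') (size_le hM h' h) hv.tc hv'.tc hd hd' (by linarith) (by linarith)
  subst hf
  refine ⟨?_, rfl⟩
  rcases le_total m m' with hmm | hmm
  · exact k_unique_aux hM hcut hc2 hK h.dvd h'.dvd hS hy' hm hv hv' hd' hmm
  · exact (k_unique_aux hM hcut hc2 hK h'.dvd h.dvd hS.symm hy hm' hv' hv hd hmm).symm

end runs

section box

variable {M : ℕ} (F : FL M) (P : Par) (y r : ℕ) (K : ℝ)

open Classical in
/-- the run over `(z, r)` -/
noncomputable def rn (z : ℕ) : ℕ × ℚ :=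
  if h : ∃ kf : ℕ × ℚ, ∃ b, RunP F P y r K z kf.1 kf.2 b then h.choose else (0, 0)

open Classical in
/-- the words of the box with the run -/
noncomputable def Sb (z : ℕ) : Finset ℕ :=
  M.divisors.filter (RunP F P y r K z (rn F P y r K z).1 (rn F P y r K z).2)

/-- the end of the run (minimum over the box) -/
noncomputable def TB (z : ℕ) : ℕ :=
  tBox F P (rn F P y r K z).1 (rn F P y r K z).2 (Sb F P y r K z)

variable {F P y r K} {z k b : ℕ} {f : ℚ}

lemma rn_eq (hM : 0 < M) (hL : 0 < P.L) (hcut : Monotone P.cut)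
    (hc2 : ∀ m, 2 ^ m ≤ P.cut m) (hK : 1 ≤ K) (h : RunP F P y r K z k f b) :
    rn F P y r K z = (k, f) := by
  have hex : ∃ kf : ℕ × ℚ, ∃ b, RunP F P y r K z kf.1 kf.2 b := ⟨(k, f), b, h⟩
  unfold rn
  rw [dif_pos hex]
  obtain ⟨b', hb'⟩ := hex.choose_spec
  have := hb'.unique hM hL hcut hc2 hK h
  exact Prod.ext this.1 this.2

lemma mem_Sb (hM : 0 < M) (hL : 0 < P.L) (hcut : Monotone P.cut)
    (hc2 : ∀ m, 2 ^ m ≤ P.cut m) (hK : 1 ≤ K) (h : RunP F P y r K z k f b) :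
    b ∈ Sb F P y r K z := by
  classical
  unfold Sb
  rw [mem_filter, Nat.mem_divisors, rn_eq hM hL hcut hc2 hK h]
  exact ⟨⟨h.dvd, hM.ne'⟩, h⟩

lemma TB_le (hM : 0 < M) (hL : 0 < P.L) (hcut : Monotone P.cut)
    (hc2 : ∀ m, 2 ^ m ≤ P.cut m) (hK : 1 ≤ K) (h : RunP F P y r K z k f b) :
    TB F P y r K z ≤ tEnd F P k f b := by
  have h1 := tBox_le (F := F) (P := P) (k := (rn F P y r K z).1) (f := (rn F P y r K z).2)
    (mem_Sb hM hL hcut hc2 hK h)
  unfold TB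
  rw [rn_eq hM hL hcut hc2 hK h] at h1 ⊢
  exact h1

lemma le_TB (hM : 0 < M) (hL : 0 < P.L) (hcut : Monotone P.cut) (hE : Monotone P.E)
    (hG : CutGrow P) (hN : (M : ℝ) / P.L ≤ P.N)
    (hc2 : ∀ m, 2 ^ m ≤ P.cut m) (hK : 1 ≤ K) (h : RunP F P y r K z k f b) :
    tEnd F P k f b ≤ TB F P y r K z + 1 := by
  classical
  have e := rn_eq hM hL hcut hc2 hK h
  have key : ∀ c ∈ Sb F P y r K z, RunP F P y r K z k f c := by
    intro c hc
    have := (mem_filter.1 hc).2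
    rw [e] at this
    exact this
  have h1 := le_tBox_succ (F := F) (P := P) hL hM hcut hE hG (X := y) (k := k) (f := f)
    (S := Sb F P y r K z) (fun c hc => (key c hc).dvd)
    (fun c hc c' hc' => sameUp (key c hc) (key c' hc'))
    (fun c hc c' hc' => size_le hM (key c hc) (key c' hc'))
    (fun c hc => by
      obtain ⟨m, h2, _, h4, _⟩ := (key c hc).ex
      exact ⟨m, valid_le_N hL hN hM (key c hc).dvd h4, h2, h4⟩) (mem_Sb hM hL hcut hc2 hK h)
  unfold TB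
  rw [e]
  exact h1

end box

section sets

variable {M : ℕ} (F : FL M) (P : Par) (y : ℕ) (K : ℝ) (Rs : Finset ℕ) (KK : ℕ → Finset ℕ)

/-- candidate ends of the run over `z0` -/
noncomputable def TTs (z0 : ℕ) : Finset ℕ :=
  (KK z0 ×ˢ Rs).image fun x => TB F P y x.2 K (x.1 * z0)

/-- candidate first unexplained letters over `z0` -/
noncomputable def XHs (Yc z0 : ℕ) : Finset ℕ :=
  (KK z0 ×ˢ Rs).image fun x => x1 Yc (x.1 * z0) (rn F P y x.2 K (x.1 * z0)).2

variable {F P y K Rs KK}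

lemma card_TTs (z0 : ℕ) : (TTs F P y K Rs KK z0).card ≤ (KK z0).card * Rs.card := by
  unfold TTs
  exact card_image_le.trans (card_product _ _).le

lemma card_XHs (Yc z0 : ℕ) : (XHs F P y K Rs KK Yc z0).card ≤ (KK z0).card * Rs.card := by
  unfold XHs
  exact card_image_le.trans (card_product _ _).le

lemma mem_TTs {z0 κ r : ℕ} (hκ : κ ∈ KK z0) (hr : r ∈ Rs) :
    TB F P y r K (κ * z0) ∈ TTs F P y K Rs KK z0 := by
  unfold TTs
  exact mem_image.2 ⟨(κ, r), mem_product.2 ⟨hκ, hr⟩, rfl⟩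

lemma mem_XHs {Yc z0 κ r : ℕ} (hκ : κ ∈ KK z0) (hr : r ∈ Rs) :
    x1 Yc (κ * z0) (rn F P y r K (κ * z0)).2 ∈ XHs F P y K Rs KK Yc z0 := by
  unfold XHs
  exact mem_image.2 ⟨(κ, r), mem_product.2 ⟨hκ, hr⟩, rfl⟩

end sets

section pair

variable {M : ℕ} {F : FL M} {P : Par}

/-- the depth depends on the cut only through the denominator -/
lemma dep_congr {m m' b : ℕ} {f : ℚ} (h : k0 F (P.cut m) b f = k0 F (P.cut m') b f) :
    dep F P m b f = dep F P m' b f := by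
  unfold Rulex945.dep
  rw [h]

/-- the run of a member of class (L) -/
lemma runP_of {t y : ℕ} {K : ℝ} {b : ℕ} {f : ℚ} (hb : b ∣ M) (hcut : Monotone P.cut)
    (hy : y ≤ P.cut t) (hK : 4 * K ^ 2 < 2 ^ t) (hI : Ix F P t b f) (hd : dep F P t b f ≤ K) :
    RunP F P y (Nat.log 2 (low y b)) K (upp y b) (k0 F (P.cut t) b f) f b := by
  obtain ⟨m, hm, hT, he⟩ := hI
  refine ⟨hb, rfl, rfl, m, hy.trans (hcut hm), ?_, ⟨hT, he⟩, ?_⟩
  · exact hK.trans_le (pow_le_pow_right₀ (by norm_num) hm)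
  · rw [dep_congr he]
    exact hd

/-- above the level no member of an unkilled pair outside `CHvy` is heavy -/
lemma not_hvK {w : ℕ → ℝ} {ε : ℝ} {b c t : ℕ} {h : ℤ} (hcut : Monotone P.cut) (hL : 0 < P.L)
    (hm0 : P.m0 ≤ t) (hgood : F.good (P.cut t) b c) (hal : AlLe F P b c h (P.cut (2 * t)))
    (hg : (Nat.gcd b c : ℝ) < 2 ^ (t + 1) * P.L) (hX : X1 P b c < P.cut t)
    (hn : ¬ CHvy F P w ε b c h) {e : ℕ} (he : t ≤ e) :
    ¬ HvK F w P.L (1 / ε) (2 ^ e / (2 * P.E e ^ 4)) (P.cut e) b ∧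
      ¬ HvK F w P.L (1 / ε) (2 ^ e / (2 * P.E e ^ 4)) (P.cut e) c := by
  have h1 : F.good (P.cut e) b c := FL.good_mono (hcut he) hgood
  have h2 : AlLe F P b c h (P.cut (2 * e)) := hal.mono (hcut (by omega))
  have h3 : (Nat.gcd b c : ℝ) < 2 ^ (e + 1) * P.L :=
    hg.trans_le (mul_le_mul_of_nonneg_right (pow_le_pow_right₀ (by norm_num) (by omega)) hL.le)
  have h4 : X1 P b c < P.cut e := hX.trans_le (by exact_mod_cast hcut he)
  constructor
  · intro hh
    exact hn ⟨e, hm0.trans he, h1, h2, h3, h4, Or.inl hh⟩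
  · intro hh
    exact hn ⟨e, hm0.trans he, h1, h2, h3, h4, Or.inr hh⟩

/-- one side: `b` misses the first difference `x` of the untwisted words -/
lemma side {w : ℕ → ℝ} {δ ε : ℝ} {D : ℕ → ℝ} (H : Hy F P w δ ε D) (hE : Monotone P.E)
    (hG : CutGrow P) {K : ℝ} (hK1 : 1 ≤ K) {t b c y Yc x : ℕ} {h : ℤ} {f f' : ℚ}
    {Rs Rs' : Finset ℕ} {KK KK' : ℕ → Finset ℕ} {z0 z0' κ κ' : ℕ} {Q : Finset ℕ}
    (hb : b ∣ M) (hc : c ∣ M) (h0 : gap f f' (b / Nat.gcd b c) (c / Nat.gcd b c) h = 0)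
    (hu : ¬ killedB (lamR F P) b c h) (hm0 : P.m0 ≤ t) (hy : y ≤ P.cut t) (hyY : y ≤ Yc)
    (hK : 4 * K ^ 2 < 2 ^ t) (hKY : K ≤ Yc)
    (hthr : ∀ i, P.cut t < P.Y i → K ≤ P.thr b i)
    (hIb : Ix F P t b f) (hIc : Ix F P t c f') (hdb : dep F P t b f ≤ K)
    (hdc : dep F P t c f' ≤ K) (hdE : dep F P t b f ≤ P.E t ^ 4)
    (hhv : ∀ e, t ≤ e → ¬ HvK F w P.L (1 / ε) (2 ^ e / (2 * P.E e ^ 4)) (P.cut e) b)
    (hup : upp y b = κ * z0) (hup' : upp y c = κ' * z0') (hκ : κ ∈ KK z0) (hκ' : κ' ∈ KK' z0')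
    (hr : Nat.log 2 (low y b) ∈ Rs) (hr' : Nat.log 2 (low y c) ∈ Rs')
    (hx : x.Prime) (hlt : b.factorization x < c.factorization x)
    (heq : ∀ q, q.Prime → Yc < q → q < x → b.factorization q = c.factorization q)
    (hYx : Yc < x) (hxt : P.cut t < x) (hQ : ∀ q ∈ Q, q ≤ P.cut t) :
    (∃ T ∈ TTs F P y K Rs KK z0, P.cut T < x ∧ ∀ q ∈ Q, q ≤ P.cut (T + 1)) ∨
      x ∈ XHs F P y K Rs' KK' Yc z0' := by
  have hM := H.hM
  have hL := H.hL
  have hcut := H.cut_mono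
  have hc2 := H.cut_ge
  have hN := H.hN
  have hRb := runP_of (F := F) (P := P) hb hcut hy hK hIb hdb
  have hRc := runP_of (F := F) (P := P) hc hcut hy hK hIc hdc
  rw [hup] at hRb
  rw [hup'] at hRc
  set k := k0 F (P.cut t) b f with hk
  have h1 := TB_le hM hL hcut hc2 hK1 hRb
  have h2 := le_TB hM hL hcut hE hG hN hc2 hK1 hRb
  obtain ⟨m, hm, hT, he⟩ := hIb
  have hv : Valid F P k f m b := ⟨hT, he⟩
  have hmN := valid_le_N hL hN hM hb hv
  have hvE := tEnd_spec hv hmN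
  have hme := le_tEnd hv hmN
  set e := tEnd F P k f b with hedef
  have hte : t ≤ e := hm.trans hme
  by_cases hxe : P.cut e < x
  · left
    refine ⟨_, mem_TTs hκ hr, (hcut h1).trans_lt hxe, fun q hq => ?_⟩
    exact (hQ q hq).trans (hcut (hte.trans h2))
  · right
    have hxe' : x ≤ P.cut e := not_lt.1 hxe
    have hact : P.Y (P.blk x) ≤ P.cut e := H.act e x hxe'
    have hdt : dep F P e b f = dep F P t b f := by
      have : k0 F (P.cut e) b f = k0 F (P.cut t) b f := hvE.kk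
      rw [dep_congr this]
    have hde : dep F P e b f ≤ K := hdt.le.trans hdb
    have hkk : ∀ q, q.Prime → q ∣ k0 F (P.cut e) b f → q ≤ Yc := by
      intro q _ hqd
      have h3 : q ≤ k0 F (P.cut e) b f := Nat.le_of_dvd (k0_pos _ _ _) hqd
      have h4 : (k0 F (P.cut e) b f : ℝ) ≤ Yc := ((k0_le_dep e b f).trans hde).trans hKY
      have h5 : k0 F (P.cut e) b f ≤ Yc := by exact_mod_cast h4
      exact h3.trans h5
    have hthx : K ≤ P.thr b (P.blk x) := by
      refine hthr _ ?_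
      have h3 : x ≤ P.Y (P.blk x) := Par.le_blk H.Y_mono x
      exact hxt.trans_le h3
    have hb2 := beta_pair' (F := F) (P := P) hL hM hN H.hE3 hb hc h0 (hm0.trans hte) hvE.tc hact hx
      hxe' hYx hlt heq hkk hu (hde.trans hthx)
    rcases hb2 with h3 | h3
    · have h10 := mem_XHs (F := F) (P := P) (y := y) (K := K) (Yc := Yc) (Rs := Rs') hκ' hr'
      rw [← hup'] at h10 hRc
      rw [rn_eq hM hL hcut hc2 hK1 hRc] at h10
      rw [x1_upp hyY (Nat.pos_of_dvd_of_pos hc hM).ne' f', h3] at h10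
      exact h10
    · exfalso
      have hde4 : dep F P e b f ≤ P.E e ^ 4 := by
        rw [hdt]
        exact hdE.trans (pow_le_pow_left₀ (H.E_pos t).le (hE hte) 4)
      have hdh : DH F P w ε e b f x := dh_of_alt H hb (hm0.trans hte) le_rfl hxe' hvE.tc rfl hde4
        (Or.inr h3)
      rcases hdh with h4 | h4
      · exact absurd h4 (not_lt.2 (hde.trans hthx))
      · exact hhv e hte h4

/-! ### the untwisted words -/

lemma upp_ne_zero' (x n : ℕ) : upp x n ≠ 0 := (upp_pos x n).ne'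

/-- letters of the untwisted word -/
lemma fact_zz {x y b c : ℕ} (hyx : y ≤ x) (hb : b ≠ 0) (q : ℕ) :
    (zz x y b c).factorization q = if q ≤ y then 0 else if q ≤ x then
      (Nat.gcd b c).factorization q else b.factorization q := by
  have hg : Nat.gcd b c ≠ 0 := Nat.gcd_ne_zero_left hb
  have hs : b / Nat.gcd b c ≠ 0 := (Nat.div_pos (Nat.le_of_dvd (Nat.pos_of_ne_zero hb)
    (Nat.gcd_dvd_left _ _)) (Nat.pos_of_ne_zero hg)).ne'
  have e : b.factorization q = (Nat.gcd b c).factorization q +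
      (b / Nat.gcd b c).factorization q := by
    conv_lhs => rw [← Nat.mul_div_cancel' (Nat.gcd_dvd_left b c)]
    rw [Nat.factorization_mul hg hs]
    rfl
  unfold zz
  rw [Nat.factorization_mul (upp_ne_zero' _ _) (upp_ne_zero' _ _), Finsupp.add_apply, fact_upp,
    fact_upp]
  by_cases h1 : q ≤ y
  · rw [if_neg (by simpa using h1), if_neg (by simpa using h1.trans hyx), if_pos h1]
  · rw [if_pos h1, if_neg h1]
    by_cases h2 : q ≤ x
    · rw [if_neg (by simpa using h2), if_pos h2, add_zero]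
    · rw [if_pos h2, if_neg h2, e]

/-- a prime `q > p` of LP's window dividing neither denominator is not a difference -/
lemma eq_of_top {t b c Yc q : ℕ} {f f' : ℚ} {K : ℝ} (hb : b ≠ 0) (hc : c ≠ 0)
    (hdb : dep F P t b f ≤ K) (hdc : dep F P t c f' ≤ K) (hKY : K ≤ Yc)
    (hYq : Yc < q)
    (h1 : q ∣ b / Nat.gcd b c → q ∣ k0 F (P.cut t) b f)
    (h2 : q ∣ c / Nat.gcd b c → q ∣ k0 F (P.cut t) c f') :
    b.factorization q = c.factorization q := by
  have hg : Nat.gcd b c ≠ 0 := Nat.gcd_ne_zero_left hb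
  have key : ∀ {d : ℕ} {a : ℚ}, dep F P t d a ≤ K → ¬ q ∣ k0 F (P.cut t) d a := by
    intro d a hd hqd
    have h3 : q ≤ k0 F (P.cut t) d a := Nat.le_of_dvd (k0_pos _ _ _) hqd
    have h4 : (k0 F (P.cut t) d a : ℝ) ≤ Yc := ((k0_le_dep t d a).trans hd).trans hKY
    have h5 : k0 F (P.cut t) d a ≤ Yc := by exact_mod_cast h4
    omega
  have e1 : (b / Nat.gcd b c).factorization q = 0 :=
    Nat.factorization_eq_zero_of_not_dvd fun h => key hdb (h1 h)
  have e2 : (c / Nat.gcd b c).factorization q = 0 :=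
    Nat.factorization_eq_zero_of_not_dvd fun h => key hdc (h2 h)
  have hs : b / Nat.gcd b c ≠ 0 := (Nat.div_pos (Nat.le_of_dvd (Nat.pos_of_ne_zero hb)
    (Nat.gcd_dvd_left _ _)) (Nat.pos_of_ne_zero hg)).ne'
  have hs' : c / Nat.gcd b c ≠ 0 := (Nat.div_pos (Nat.le_of_dvd (Nat.pos_of_ne_zero hc)
    (Nat.gcd_dvd_right _ _)) (Nat.pos_of_ne_zero hg)).ne'
  have e3 : b.factorization q = (Nat.gcd b c).factorization q +
      (b / Nat.gcd b c).factorization q := by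
    conv_lhs => rw [← Nat.mul_div_cancel' (Nat.gcd_dvd_left b c)]
    rw [Nat.factorization_mul hg hs]
    rfl
  have e4 : c.factorization q = (Nat.gcd b c).factorization q +
      (c / Nat.gcd b c).factorization q := by
    conv_lhs => rw [← Nat.mul_div_cancel' (Nat.gcd_dvd_right b c)]
    rw [Nat.factorization_mul hg hs']
    rfl
  rw [e3, e4, e1, e2]

/-- the aligned primes in `(Yc, cut t]` -/
noncomputable def QQ (F : FL M) (P : Par) (t Yc b c : ℕ) (h : ℤ) : Finset ℕ :=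
  (alSet F P b c (b / Nat.gcd b c) (c / Nat.gcd b c) h).filter fun q => Yc < q ∧ q ≤ P.cut t

/-- the common hypotheses of a pair of class (L); `K` bounds both depths, `Yc` is the low cut
(`thr ≥ K` above it) -/
structure PD (F : FL M) (P : Par) (w : ℕ → ℝ) (ε K : ℝ) (y Yc t b c : ℕ) (h : ℤ) (f f' : ℚ) :
    Prop where
  m0 : P.m0 ≤ t
  good : F.good (P.cut t) b c
  pt : gap f f' (b / Nat.gcd b c) (c / Nat.gcd b c) h = 0
  ib : Ix F P t b f
  ic : Ix F P t c f'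
  db : dep F P t b f ≤ K
  dc : dep F P t c f' ≤ K
  eb : dep F P t b f ≤ P.E t ^ 4
  ec : dep F P t c f' ≤ P.E t ^ 4
  top : ∀ r : ℕ, r.Prime → Yc < r → r ≤ P.cut t →
    (r ∣ b / Nat.gcd b c → r ∣ k0 F (P.cut t) b f) ∧
    (r ∣ c / Nat.gcd b c → r ∣ k0 F (P.cut t) c f')
  al : AlLe F P b c h (P.cut (2 * t))
  scl : (Nat.gcd b c : ℝ) < 2 ^ (t + 1) * P.L
  near : X1 P b c < P.cut t
  yY : y ≤ Yc
  Yt : Yc ≤ P.cut t
  K1 : 1 ≤ K
  KY : K ≤ Yc
  Kt : 4 * K ^ 2 < 2 ^ t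
  thb : ∀ i, (Yc : ℝ) < P.Y i → K ≤ P.thr b i
  thc : ∀ i, (Yc : ℝ) < P.Y i → K ≤ P.thr c i
  nk : ¬ killedB (lamR F P) b c h
  nh : ¬ CHvy F P w ε b c h

/-- **the (alpha)/(beta) data of a pair of class (L)** -/
theorem pairW {w : ℕ → ℝ} {δ ε : ℝ} {D : ℕ → ℝ} (H : Hy F P w δ ε D) (hE : Monotone P.E)
    (hG : CutGrow P) {K : ℝ} {t b c y Yc j0 κ κ' : ℕ} {h : ℤ} {f f' : ℚ}
    {Rs Rs' : Finset ℕ} {KK KK' : ℕ → Finset ℕ} (hb : b ∣ M) (hc : c ∣ M)
    (hP : PD F P w ε K y Yc t b c h f f')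
    (hup : upp y b = κ * zz (P.cut t) y b c) (hup' : upp y c = κ' * zz (P.cut t) y c b)
    (hκ : κ ∈ KK (zz (P.cut t) y b c)) (hκ' : κ' ∈ KK' (zz (P.cut t) y c b))
    (hr : Nat.log 2 (low y b) ∈ Rs) (hr' : Nat.log 2 (low y c) ∈ Rs')
    (hz : KZ (hiFL H.hM y F) j0 (zz (P.cut t) y b c) (zz (P.cut t) y c b)) :
    PairW (hiFL H.hM y F) j0 P.cut (TTs F P y K Rs KK) (XHs F P y K Rs KK Yc)
      (TTs F P y K Rs' KK') (XHs F P y K Rs' KK' Yc) (zz (P.cut t) y b c) (zz (P.cut t) y c b)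
      (QQ F P t Yc b c h) := by
  have hM := H.hM
  have hb0 : b ≠ 0 := (Nat.pos_of_dvd_of_pos hb hM).ne'
  have hc0 : c ≠ 0 := (Nat.pos_of_dvd_of_pos hc hM).ne'
  have hyt : y ≤ P.cut t := hP.yY.trans hP.Yt
  have hQc : ∀ q ∈ QQ F P t Yc b c h, q ≤ P.cut t := fun q hq => (mem_filter.1 hq).2.2
  have hQfree : ∀ q ∈ QQ F P t Yc b c h, q ∈ M.primeFactors ∧ Yc < q ∧
      (b.factorization q < M.factorization q ∨ c.factorization q < M.factorization q) := by
    classical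
    intro q hq
    have h1 := mem_filter.1 hq
    have h2 : q ∈ PrefixMx882.free M b ∪ PrefixMx882.free M c := by
      have h4 := h1.1
      unfold alSet at h4
      exact Finset.mem_of_mem_filter q h4
    rcases mem_union.1 h2 with h3 | h3
    · exact ⟨(PrefixMx882.mem_free.1 h3).1, h1.2.1, Or.inl (PrefixMx882.mem_free.1 h3).2⟩
    · exact ⟨(PrefixMx882.mem_free.1 h3).1, h1.2.1, Or.inr (PrefixMx882.mem_free.1 h3).2⟩
  have hgc : Nat.gcd c b = Nat.gcd b c := Nat.gcd_comm c b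
  -- the first difference is above the cut
  have hfst : ∀ x, Fst x (zz (P.cut t) y b c) (zz (P.cut t) y c b) → P.cut t < x := by
    intro x hx
    by_contra hcon
    refine hx.2.2 ?_
    rw [fact_zz hyt hb0, fact_zz hyt hc0, hgc]
    by_cases h1 : x ≤ y
    · rw [if_pos h1, if_pos h1]
    · rw [if_neg h1, if_neg h1, if_pos (not_lt.1 hcon), if_pos (not_lt.1 hcon)]
  have hval : ∀ x, P.cut t < x → (zz (P.cut t) y b c).factorization x = b.factorization x ∧
      (zz (P.cut t) y c b).factorization x = c.factorization x := by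
    intro x hx
    rw [fact_zz hyt hb0, fact_zz hyt hc0, if_neg (by omega), if_neg (by omega), if_neg (by omega),
      if_neg (by omega)]
    exact ⟨rfl, rfl⟩
  -- letters in `(Yc, x)` are equal
  have heq : ∀ x, Fst x (zz (P.cut t) y b c) (zz (P.cut t) y c b) → ∀ q, q.Prime → Yc < q →
      q < x → b.factorization q = c.factorization q := by
    intro x hx q hq hYq hqx
    by_cases h1 : q ≤ P.cut t
    · have h2 := hP.top q hq hYq h1
      exact eq_of_top hb0 hc0 hP.db hP.dc hP.KY hYq h2.1 h2.2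
    · have h2 := hx.2.1 q hq hqx
      have h3 := hval q (not_le.1 h1)
      rw [h3.1, h3.2] at h2
      exact h2
  have hhv : ∀ e, t ≤ e → _ := fun e he =>
    not_hvK (w := w) (ε := ε) H.cut_mono H.hL hP.m0 hP.good hP.al hP.scl hP.near hP.nh he
  refine ⟨?_, ?_, ?_, hz, ?_, ?_⟩
  · intro q hq
    have h1 := hQfree q hq
    exact (mem_pf_upp hM (hP.yY.trans_lt h1.2.1)).2 h1.1
  · intro q hq
    have h1 := hQfree q hq
    have h2 := hQc q hq
    have hyq : ¬ q ≤ y := not_le.2 (hP.yY.trans_lt h1.2.1)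
    rw [fact_zz hyt hb0, if_neg hyq, if_pos h2, fact_upp, if_pos hyq]
    rcases h1.2.2 with h3 | h3
    · exact lt_of_le_of_lt ((Nat.factorization_le_iff_dvd (Nat.gcd_ne_zero_left hb0) hb0).2
        (Nat.gcd_dvd_left _ _) q) h3
    · exact lt_of_le_of_lt ((Nat.factorization_le_iff_dvd (Nat.gcd_ne_zero_left hb0) hc0).2
        (Nat.gcd_dvd_right _ _) q) h3
  · intro x hx q hq
    exact (hQc q hq).trans_lt (hfst x hx)
  · intro _ x hx hlt
    have h1 := hfst x hx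
    have h2 := hval x h1
    rw [h2.1, h2.2] at hlt
    exact side H hE hG hP.K1 hb hc hP.pt hP.nk hP.m0 hyt hP.yY hP.Kt hP.KY
      (fun i hi => hP.thb i (lt_of_le_of_lt (by exact_mod_cast hP.Yt) (Nat.cast_lt.2 hi)))
      hP.ib hP.ic hP.db hP.dc hP.eb (fun e he => (hhv e he).1) hup hup' hκ hκ' hr hr' hx.1 hlt
      (heq x hx) (hP.Yt.trans_lt h1) h1 hQc
  · intro _ x hx hlt
    have h1 := hfst x hx
    have h2 := hval x h1
    rw [h2.1, h2.2] at hlt
    exact side H hE hG hP.K1 hc hb (gap_swap hP.pt) (killedB_symm hP.nk) hP.m0 hyt hP.yY hP.Kt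
      hP.KY (fun i hi => hP.thc i (lt_of_le_of_lt (by exact_mod_cast hP.Yt) (Nat.cast_lt.2 hi)))
      hP.ic hP.ib hP.dc hP.db hP.ec (fun e he => (hhv e he).2) hup' hup hκ' hκ hr' hr
      hx.1 hlt (fun q hq h3 h4 => (heq x hx q hq h3 h4).symm) (hP.Yt.trans_lt h1) h1 hQc

/-- the aligned primes above `Yc` -/
noncomputable def QA (F : FL M) (P : Par) (Yc b c : ℕ) (h : ℤ) : Finset ℕ :=
  (alSet F P b c (b / Nat.gcd b c) (c / Nat.gcd b c) h).filter fun q => Yc < q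

lemma prime_of_alSet {b c q : ℕ} {h : ℤ}
    (hq : q ∈ alSet F P b c (b / Nat.gcd b c) (c / Nat.gcd b c) h) : q.Prime := by
  classical
  unfold alSet at hq
  obtain ⟨f, f', h1⟩ := (mem_filter.1 hq).2
  exact h1.prime

/-- the window `(cut t, cut (2 t)]` costs a constant -/
lemma bst_QA {t b c Yc : ℕ} {h : ℤ} {Cw : ℝ} (hcut : Monotone P.cut) (ht2 : 2 ≤ P.cut t)
    (hal : AlLe F P b c h (P.cut (2 * t)))
    (hw : Real.log (P.cut (2 * t)) ≤ Cw * Real.log (P.cut t)) :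
    bst (QA F P Yc b c h) ≤ Real.exp (22 / Real.log 2) * Cw * bst (QQ F P t Yc b c h) := by
  classical
  have hpr : ∀ q ∈ QA F P Yc b c h, q.Prime := fun q hq => prime_of_alSet (mem_filter.1 hq).1
  have h1 := bst_split (QA F P Yc b c h) (fun q => q ≤ P.cut t)
  have e : (QA F P Yc b c h).filter (fun q => q ≤ P.cut t) = QQ F P t Yc b c h := by
    unfold QA QQ
    rw [filter_filter]
  rw [e] at h1
  have hlt : 0 < Real.log (P.cut t) := Real.log_pos (by exact_mod_cast ht2)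
  have h2 : bst ((QA F P Yc b c h).filter fun q => ¬ q ≤ P.cut t) ≤
      Real.exp (22 / Real.log 2) * Cw := by
    refine (bst_window ht2 (hcut (by omega : t ≤ 2 * t)) (fun q hq => hpr q (mem_filter.1 hq).1)
      (fun q hq => not_le.1 (mem_filter.1 hq).2)
      (fun q hq => hal q (mem_filter.1 (mem_filter.1 hq).1).1)).trans ?_
    refine mul_le_mul_of_nonneg_left ?_ (Real.exp_pos _).le
    rw [div_le_iff₀ hlt]
    exact hw
  have h3 : 0 < bst (QQ F P t Yc b c h) := bst_pos fun q hq => prime_of_alSet (mem_filter.1 hq).1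
  rw [h1, mul_comm]
  exact mul_le_mul_of_nonneg_right h2 h3.le

/-- **boost of the aligned primes above `Yc`** -/
theorem bst_le {w : ℕ → ℝ} {δ ε : ℝ} {D : ℕ → ℝ} (H : Hy F P w δ ε D) (hE : Monotone P.E)
    (hG : CutGrow P) {K Cw : ℝ} {t b c y Yc j0 κ κ' : ℕ} {h : ℤ} {f f' : ℚ}
    {Rs Rs' : Finset ℕ} {KK KK' : ℕ → Finset ℕ} (hj0 : 1 ≤ j0) (hb : b ∣ M) (hc : c ∣ M)
    (hP : PD F P w ε K y Yc t b c h f f')
    (hup : upp y b = κ * zz (P.cut t) y b c) (hup' : upp y c = κ' * zz (P.cut t) y c b)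
    (hκ : κ ∈ KK (zz (P.cut t) y b c)) (hκ' : κ' ∈ KK' (zz (P.cut t) y c b))
    (hr : Nat.log 2 (low y b) ∈ Rs) (hr' : Nat.log 2 (low y c) ∈ Rs')
    (hz : KZ (hiFL H.hM y F) j0 (zz (P.cut t) y b c) (zz (P.cut t) y c b))
    (hw : Real.log (P.cut (2 * t)) ≤ Cw * Real.log (P.cut t)) :
    bst (QA F P Yc b c h) ≤ Real.exp (22 / Real.log 2) * Cw *
      (4 * Real.exp (22 / Real.log 2) *
      WH (hiFL H.hM y F) j0 P.cut (TTs F P y K Rs KK) (XHs F P y K Rs KK Yc)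
        (TTs F P y K Rs' KK') (XHs F P y K Rs' KK' Yc) (zz (P.cut t) y b c)
        (zz (P.cut t) y c b)) := by
  have hM := H.hM
  have ht2 : 2 ≤ P.cut t := by
    have h1 := H.cut_ge t
    have h2 : 2 ^ 1 ≤ 2 ^ t := Nat.pow_le_pow_right (by norm_num)
      (by have := H.two; have := hP.m0; omega)
    omega
  have hC : 0 ≤ Cw := by
    have h1 : 0 < Real.log (P.cut t) := Real.log_pos (by exact_mod_cast ht2)
    have h2 : 0 ≤ Real.log (P.cut (2 * t)) := Real.log_natCast_nonneg _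
    by_contra hcon
    have h3 := mul_neg_of_neg_of_pos (not_le.1 hcon) h1
    linarith
  refine (bst_QA H.cut_mono ht2 hP.al hw).trans (mul_le_mul_of_nonneg_left ?_
    (mul_nonneg (Real.exp_pos _).le hC))
  refine bst_le_WH (upp_pos y M) hj0 ?_ ?_
    (pairW H hE hG hb hc hP hup hup' hκ hκ' hr hr' hz)
  · exact (Dvd.intro_left κ hup.symm).trans (upp_dvd y hM.ne' hb)
  · exact (Dvd.intro_left κ' hup'.symm).trans (upp_dvd y hM.ne' hc)

end pair

/-! ### the parameters `cut m = 2^(A m)`: cost -/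

/-- the boost weight of one box costs `C * #KK * #Rs` -/
theorem wbd_box (A : ℕ) : ∃ C : ℝ, 0 < C ∧ ∀ {M : ℕ} (hM : 0 < M) (F : FL M) (P : Par)
    (_ : P.cut = fun m => 2 ^ (A * m)) (j0 : ℕ) (_ : 1 ≤ j0) (y Yc : ℕ) (K N : ℝ)
    (Rs Rs' : Finset ℕ) (KK KK' : ℕ → Finset ℕ)
    (_ : ∀ z, ((KK z).card : ℝ) * Rs.card ≤ N) (_ : ∀ z, ((KK' z).card : ℝ) * Rs'.card ≤ N)
    (_ : 1 ≤ N),
    LTwx662.WBd (upp y M) (WH (hiFL hM y F) j0 P.cut (TTs F P y K Rs KK) (XHs F P y K Rs KK Yc)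
      (TTs F P y K Rs' KK') (XHs F P y K Rs' KK' Yc)) (C * N) := by
  obtain ⟨C, hC, h⟩ := wbd_WH_pow A
  refine ⟨C, hC, ?_⟩
  intro M hM F P hP j0 hj0 y Yc K N Rs Rs' KK KK' h1 h2 hN
  rw [hP]
  have e : ∀ {R : Finset ℕ} {KK : ℕ → Finset ℕ} {n z : ℕ}, ((KK z).card : ℝ) * R.card ≤ N →
      n ≤ (KK z).card * R.card → (n : ℝ) ≤ N := by
    intro R KK n z h3 h4
    have h5 : (n : ℝ) ≤ ((KK z).card * R.card : ℕ) := by exact_mod_cast h4
    push_cast at h5
    exact h5.trans h3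
  exact h (upp y M) (hiFL hM y F) (upp_pos y M) j0 hj0 _ _ _ _ N hN
    (fun b => e (h1 b) (card_TTs b)) (fun b => e (h1 b) (card_XHs _ b))
    (fun b => e (h2 b) (card_TTs b)) (fun b => e (h2 b) (card_XHs _ b))

end Crest.Agent.R4C.BoxWx899
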