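import Mathlib

/-!
# Row 4, GW section: telescoping over the births of one word, two zones at a time (helper966)

`I` = finite set of indices (scale indices of the births of one word), `g` antitone, `0 ≤ g ≤ 1`
(`g i` = product over the coins of the word `≤ cut i`).

* `nx I i` : the next element of `I` above `i`; `nx2 I i` : the second next one.
* `Y2 I g i = 1 - g (nx2 I i) / g i`, and `1` if there are fewer than two elements of `I` above `i`.
* `tele2` : `∑_{i ∈ I} g i * Y2 I g i ≤ 2`.
* `kap_sum` : `∑_{i ∈ I} κ i ≤ 1 + C * 2^(-c m₀) / (1 - 2^(-c))` for `κ = 1` at the first birth and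
  `κ i = C 2^(-c i)` later.
* `budget` : the same over an index type `Z` with an injective rank.
-/

set_option autoImplicit false

open Finset

namespace Crest.Agent.R4C.Tele2x966

/-- the elements of `I` above `i` -/
def abv (I : Finset ℕ) (i : ℕ) : Finset ℕ := I.filter (fun j => i < j)

/-- next element of `I` above `i` (`0` if none) -/
noncomputable def nx (I : Finset ℕ) (i : ℕ) : ℕ := sInf {j | j ∈ I ∧ i < j}

/-- second next element -/
noncomputable def nx2 (I : Finset ℕ) (i : ℕ) : ℕ := nx I (nx I i)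

/-- the loss over the next two births -/
noncomputable def Y2 (I : Finset ℕ) (g : ℕ → ℝ) (i : ℕ) : ℝ :=
  if 2 ≤ (abv I i).card then 1 - g (nx2 I i) / g i else 1

lemma nx_mem {I : Finset ℕ} {i : ℕ} (h : (abv I i).Nonempty) : nx I i ∈ I ∧ i < nx I i := by
  have h1 : ({j | j ∈ I ∧ i < j} : Set ℕ).Nonempty := by
    obtain ⟨j, hj⟩ := h
    rw [abv, mem_filter] at hj
    exact ⟨j, hj⟩
  exact Nat.sInf_mem h1

lemma nx_le {I : Finset ℕ} {i j : ℕ} (h1 : j ∈ I) (h2 : i < j) : nx I i ≤ j :=
  Nat.sInf_le ⟨h1, h2⟩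

lemma abv_nx {I : Finset ℕ} {i : ℕ} (h : (abv I i).Nonempty) :
    abv I i = insert (nx I i) (abv I (nx I i)) := by
  ext j
  have h1 := nx_mem h
  simp only [abv, mem_insert, mem_filter]
  constructor
  · rintro ⟨h2, h3⟩
    rcases eq_or_lt_of_le (nx_le h2 h3) with h4 | h4
    · exact Or.inl h4.symm
    · exact Or.inr ⟨h2, h4⟩
  · rintro (h2 | ⟨h2, h3⟩)
    · rw [h2]; exact h1
    · exact ⟨h2, h1.2.trans h3⟩

lemma card_abv_nx {I : Finset ℕ} {i : ℕ} (h : (abv I i).Nonempty) :
    (abv I i).card = (abv I (nx I i)).card + 1 := by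
  conv_lhs => rw [abv_nx h]
  rw [card_insert_of_notMem]
  simp [abv]

lemma nx2_mem {I : Finset ℕ} {i : ℕ} (h : 2 ≤ (abv I i).card) : nx2 I i ∈ I ∧ i < nx2 I i := by
  have h1 : (abv I i).Nonempty := card_pos.1 (by omega)
  have h2 := card_abv_nx h1
  have h3 : (abv I (nx I i)).Nonempty := card_pos.1 (by omega)
  exact ⟨(nx_mem h3).1, (nx_mem h1).2.trans (nx_mem h3).2⟩

section mono

variable {g : ℕ → ℝ}

lemma Y2_nonneg (hg0 : ∀ i, 0 ≤ g i) (hg : Antitone g) (I : Finset ℕ) (i : ℕ) : 0 ≤ Y2 I g i := by
  unfold Y2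
  split_ifs with h
  · have h1 := (nx2_mem h).2
    have h2 : g (nx2 I i) / g i ≤ 1 := div_le_one_of_le₀ (hg h1.le) (hg0 i)
    linarith
  · exact zero_le_one

lemma Y2_le_one (hg0 : ∀ i, 0 ≤ g i) (I : Finset ℕ) (i : ℕ) : Y2 I g i ≤ 1 := by
  unfold Y2
  split_ifs with h
  · have : 0 ≤ g (nx2 I i) / g i := div_nonneg (hg0 _) (hg0 _)
    linarith
  · exact le_rfl

lemma mul_Y2 (hg0 : ∀ i, 0 ≤ g i) (hg : Antitone g) (I : Finset ℕ) (i : ℕ) :
    g i * Y2 I g i ≤ if 2 ≤ (abv I i).card then g i - g (nx2 I i) else g i := by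
  unfold Y2
  split_ifs with h
  · have h1 := (nx2_mem h).2
    rcases eq_or_lt_of_le (hg0 i) with h2 | h2
    · have h3 := hg h1.le
      have h4 := hg0 (nx2 I i)
      rw [← h2] at h3 ⊢
      linarith
    · rw [mul_sub, mul_one, mul_div_cancel₀ _ h2.ne']
  · linarith

/-- the first two elements of `I` -/
def fst2 (I : Finset ℕ) : Finset ℕ := I.filter (fun i => (I.filter (fun j => j < i)).card < 2)

lemma card_fst2 (I : Finset ℕ) : (fst2 I).card ≤ 2 := by
  by_contra hc
  push Not at hc
  have h0 : (fst2 I).Nonempty := card_pos.1 (by omega)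
  set m := (fst2 I).max' h0 with hm
  have h1 : m ∈ fst2 I := max'_mem _ _
  have h2 : (fst2 I).erase m ⊆ I.filter (fun j => j < m) := by
    intro j hj
    rw [mem_erase] at hj
    refine mem_filter.2 ⟨(mem_filter.1 hj.2).1, lt_of_le_of_ne (le_max' _ _ hj.2) hj.1⟩
  have h3 := card_le_card h2
  rw [card_erase_of_mem h1] at h3
  have h4 := (mem_filter.1 h1).2
  omega

lemma abv_insert {a : ℕ} {s : Finset ℕ} {i : ℕ} (h : a ≤ i) : abv (insert a s) i = abv s i := by
  ext j
  simp only [abv, mem_filter, mem_insert]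
  constructor
  · rintro ⟨h1 | h1, h2⟩
    · omega
    · exact ⟨h1, h2⟩
  · rintro ⟨h1, h2⟩
    exact ⟨Or.inr h1, h2⟩

lemma nx_insert {a : ℕ} {s : Finset ℕ} {i : ℕ} (h : a ≤ i) : nx (insert a s) i = nx s i := by
  unfold nx
  congr 1
  ext j
  simp only [Set.mem_ofPred_eq, mem_insert]
  constructor
  · rintro ⟨h1 | h1, h2⟩
    · omega
    · exact ⟨h1, h2⟩
  · rintro ⟨h1, h2⟩
    exact ⟨Or.inr h1, h2⟩

lemma nx2_insert {a : ℕ} {s : Finset ℕ} {i : ℕ} (h : a ≤ i) (hi : (abv s i).Nonempty) :
    nx2 (insert a s) i = nx2 s i := by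
  unfold nx2
  rw [nx_insert h, nx_insert (h.trans (nx_mem hi).2.le)]

/-- the bound of one term, by the index of the element -/
noncomputable def tm (I : Finset ℕ) (g : ℕ → ℝ) (i : ℕ) : ℝ :=
  if 2 ≤ (abv I i).card then g i - g (nx2 I i) else g i

lemma tm_insert {a : ℕ} {s : Finset ℕ} {i : ℕ} (h : a ≤ i) : tm (insert a s) g i = tm s g i := by
  unfold tm
  rw [abv_insert h]
  split_ifs with h1
  · rw [nx2_insert h (card_pos.1 (by omega))]
  · rfl

/-- telescoping: `∑ tm ≤ g i₁ + g i₂` -/
lemma sum_tm (hg0 : ∀ i, 0 ≤ g i) (I : Finset ℕ) :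
    ∑ i ∈ I, tm I g i ≤ ∑ i ∈ fst2 I, g i := by
  classical
  induction I using Finset.induction_on_min with
  | empty => simp [fst2]
  | insert a s ha ih =>
    have hns : a ∉ s := fun h => lt_irrefl _ (ha a h)
    rw [sum_insert hns]
    have e1 : ∑ i ∈ s, tm (insert a s) g i = ∑ i ∈ s, tm s g i :=
      sum_congr rfl fun i hi => tm_insert (ha i hi).le
    rw [e1]
    have habv : abv (insert a s) a = s := by
      rw [abv_insert le_rfl]
      ext j
      simp only [abv, mem_filter]
      exact ⟨fun h => h.1, fun h => ⟨h, ha j h⟩⟩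
    rcases s.eq_empty_or_nonempty with hs | hs
    · subst hs
      have : fst2 ({a} : Finset ℕ) = {a} := by
        ext j
        simp only [fst2, mem_filter, mem_singleton]
        constructor
        · exact fun h => h.1
        · rintro rfl
          refine ⟨rfl, ?_⟩
          have : ({j} : Finset ℕ).filter (fun k => k < j) = ∅ := by
            ext k; simp; omega
          rw [this]; simp
      simp only [insert_empty_eq, sum_empty, add_zero] at *
      rw [this]
      simp only [sum_singleton]
      unfold tm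
      split_ifs
      · linarith [hg0 (nx2 {a} a)]
      · exact le_rfl
    · -- the minimum of `s`
      set b := s.min' hs with hb
      have hbs : b ∈ s := min'_mem _ _
      have hab : a < b := ha b hbs
      have hf : fst2 (insert a s) = {a, b} := by
        ext j
        simp only [fst2, mem_filter, mem_insert, mem_singleton]
        constructor
        · rintro ⟨h1 | h1, h2⟩
          · exact Or.inl h1
          · right
            by_contra hne
            have h3 : b < j := lt_of_le_of_ne (min'_le _ _ h1) (fun h => hne h.symm)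
            have h4 : ({a, b} : Finset ℕ) ⊆ (insert a s).filter (fun k => k < j) := by
              intro k hk
              rw [mem_insert, mem_singleton] at hk
              rcases hk with rfl | rfl
              · exact mem_filter.2 ⟨mem_insert_self _ _, hab.trans h3⟩
              · exact mem_filter.2 ⟨mem_insert_of_mem hbs, h3⟩
            have h5 := card_le_card h4
            rw [card_pair hab.ne] at h5
            omega
        · rintro (rfl | rfl)
          · refine ⟨Or.inl rfl, ?_⟩
            have : (insert j s).filter (fun k => k < j) = ∅ := by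
              ext k
              simp only [mem_filter, mem_insert, notMem_empty, iff_false, not_and, not_lt]
              rintro (rfl | hk)
              · exact le_rfl
              · exact (ha k hk).le
            rw [this]; simp
          · refine ⟨Or.inr hbs, ?_⟩
            have : (insert a s).filter (fun k => k < b) ⊆ {a} := by
              intro k hk
              rw [mem_filter, mem_insert] at hk
              rcases hk with ⟨rfl | hk, h2⟩
              · exact mem_singleton_self _
              · exact absurd (min'_le _ _ hk) (not_le.2 h2)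
            have h5 := card_le_card this
            rw [card_singleton] at h5
            omega
      rw [hf, sum_pair hab.ne]
      have hnxa : nx (insert a s) a = b := by
        rw [nx_insert le_rfl]
        have h1 : (abv s a).Nonempty := ⟨b, mem_filter.2 ⟨hbs, hab⟩⟩
        exact le_antisymm (nx_le hbs hab) (min'_le _ _ (nx_mem h1).1)
      by_cases h2 : 2 ≤ s.card
      · -- second minimum
        have hne : (s.erase b).Nonempty := by
          rw [← card_pos, card_erase_of_mem hbs]; omega
        set c := (s.erase b).min' hne with hc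
        have hcs : c ∈ s.erase b := min'_mem _ _
        have hbc : b < c := lt_of_le_of_ne (min'_le _ _ (mem_of_mem_erase hcs))
          (ne_of_mem_erase hcs).symm
        have hnxb : nx2 (insert a s) a = c := by
          unfold nx2
          rw [hnxa, nx_insert hab.le]
          have h1 : (abv s b).Nonempty := ⟨c, mem_filter.2 ⟨mem_of_mem_erase hcs, hbc⟩⟩
          refine le_antisymm (nx_le (mem_of_mem_erase hcs) hbc) (min'_le _ _ ?_)
          have h3 := nx_mem h1
          exact mem_erase.2 ⟨h3.2.ne', h3.1⟩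
        have hfs : fst2 s ⊆ {b, c} := by
          intro j hj
          rw [fst2, mem_filter] at hj
          by_contra hn
          rw [mem_insert, mem_singleton, not_or] at hn
          have h3 : b < j := lt_of_le_of_ne (min'_le _ _ hj.1) (fun h => hn.1 h.symm)
          have h4 : c < j := lt_of_le_of_ne (min'_le _ _ (mem_erase.2 ⟨hn.1, hj.1⟩))
            (fun h => hn.2 h.symm)
          have h5 : ({b, c} : Finset ℕ) ⊆ s.filter (fun k => k < j) := by
            intro k hk
            rw [mem_insert, mem_singleton] at hk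
            rcases hk with rfl | rfl
            · exact mem_filter.2 ⟨hbs, h3⟩
            · exact mem_filter.2 ⟨mem_of_mem_erase hcs, h4⟩
          have h6 := card_le_card h5
          rw [card_pair hbc.ne] at h6
          omega
        have h3 : ∑ i ∈ fst2 s, g i ≤ g b + g c := by
          refine (sum_le_sum_of_subset_of_nonneg hfs fun i _ _ => hg0 i).trans ?_
          rw [sum_pair hbc.ne]
        have h4 : tm (insert a s) g a = g a - g c := by
          unfold tm
          rw [habv, if_pos h2, hnxb]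
        rw [h4]
        linarith
      · have h3 : ∑ i ∈ fst2 s, g i ≤ g b := by
          have h4 : fst2 s ⊆ {b} := by
            intro j hj
            rw [fst2, mem_filter] at hj
            rw [mem_singleton]
            by_contra hn
            have h5 : ({b, j} : Finset ℕ) ⊆ s := by
              intro k hk
              rw [mem_insert, mem_singleton] at hk
              rcases hk with rfl | rfl
              · exact hbs
              · exact hj.1
            have h6 := card_le_card h5
            rw [card_pair (fun h => hn h.symm)] at h6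
            omega
          refine (sum_le_sum_of_subset_of_nonneg h4 fun i _ _ => hg0 i).trans ?_
          rw [sum_singleton]
        have h4 : tm (insert a s) g a = g a := by
          unfold tm
          rw [habv, if_neg h2]
        rw [h4]
        linarith

/-- **telescoping over two zones** -/
theorem tele2 (hg0 : ∀ i, 0 ≤ g i) (hg1 : ∀ i, g i ≤ 1) (hg : Antitone g) (I : Finset ℕ) :
    ∑ i ∈ I, g i * Y2 I g i ≤ 2 := by
  calc ∑ i ∈ I, g i * Y2 I g i ≤ ∑ i ∈ I, tm I g i := sum_le_sum fun i _ => mul_Y2 hg0 hg I i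
    _ ≤ ∑ i ∈ fst2 I, g i := sum_tm hg0 I
    _ ≤ ∑ _i ∈ fst2 I, (1 : ℝ) := sum_le_sum fun i _ => hg1 i
    _ = (fst2 I).card := by simp
    _ ≤ 2 := by exact_mod_cast card_fst2 I

end mono

/-- geometric sum over a finite set of distinct scales `≥ m₀` -/
lemma geom_sum_ge {r : ℝ} (h0 : 0 ≤ r) (h1 : r < 1) (I : Finset ℕ) (m0 : ℕ)
    (hI : ∀ i ∈ I, m0 ≤ i) : ∑ i ∈ I, r ^ i ≤ r ^ m0 / (1 - r) := by
  classical
  have hs : Summable (fun i : ℕ => r ^ i) := summable_geometric_of_lt_one h0 h1
  have h2 : ∑ i ∈ I, r ^ i = ∑ i ∈ I.image (fun i => i - m0), r ^ (i + m0) := by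
    rw [sum_image]
    · exact sum_congr rfl fun i hi => by rw [Nat.sub_add_cancel (hI i hi)]
    · intro i hi j hj hij
      have := hI i hi
      have := hI j hj
      simp only at hij
      omega
  rw [h2]
  have h3 : ∑ i ∈ I.image (fun i => i - m0), r ^ (i + m0) =
      r ^ m0 * ∑ i ∈ I.image (fun i => i - m0), r ^ i := by
    rw [mul_sum]
    exact sum_congr rfl fun i _ => by rw [pow_add, mul_comm]
  rw [h3, div_eq_mul_inv]
  refine mul_le_mul_of_nonneg_left ?_ (pow_nonneg h0 _)
  rw [← tsum_geometric_of_lt_one h0 h1]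
  exact hs.sum_le_tsum _ fun i _ => pow_nonneg h0 i

/-- the sum of the `κ`: `1` at the first birth, `C r^i` later -/
theorem kap_sum {κ : ℕ → ℝ} {C r : ℝ} (hC : 0 ≤ C) (h0 : 0 ≤ r) (h1 : r < 1) (I : Finset ℕ)
    (m0 : ℕ) (hI : ∀ i ∈ I, m0 ≤ i) (hk1 : ∀ i ∈ I, κ i ≤ 1)
    (hk : ∀ i ∈ I, (∃ j ∈ I, j < i) → κ i ≤ C * r ^ i) :
    ∑ i ∈ I, κ i ≤ 1 + C * r ^ m0 / (1 - r) := by
  classical
  rcases I.eq_empty_or_nonempty with h | h
  · subst h
    have : 0 ≤ C * r ^ m0 / (1 - r) :=
      div_nonneg (mul_nonneg hC (pow_nonneg h0 _)) (by linarith)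
    simp only [sum_empty]
    linarith
  · set a := I.min' h with ha
    have haI : a ∈ I := min'_mem _ _
    rw [← add_sum_erase _ _ haI]
    have h2 : ∑ i ∈ I.erase a, κ i ≤ ∑ i ∈ I.erase a, C * r ^ i := by
      refine sum_le_sum fun i hi => ?_
      rw [mem_erase] at hi
      exact hk i hi.2 ⟨a, haI, lt_of_le_of_ne (min'_le _ _ hi.2) (Ne.symm hi.1)⟩
    have h3 : ∑ i ∈ I.erase a, C * r ^ i ≤ C * (r ^ m0 / (1 - r)) := by
      rw [← mul_sum]
      exact mul_le_mul_of_nonneg_left
        (geom_sum_ge h0 h1 _ m0 fun i hi => hI i (mem_of_mem_erase hi)) hC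
    have h4 := hk1 a haI
    rw [mul_div_assoc]
    linarith

/-- **budget of one word** over an index type `Z` of zones with injective rank -/
theorem budget {Z : Type*} (Zw : Finset Z) (rkz : Z → ℕ)
    (hinj : ∀ z ∈ Zw, ∀ z' ∈ Zw, rkz z = rkz z' → z = z') (W Y κ : Z → ℝ) (g : ℕ → ℝ)
    (hg0 : ∀ i, 0 ≤ g i) (hg1 : ∀ i, g i ≤ 1) (hg : Antitone g) (K : ℝ)
    (hW : ∀ z ∈ Zw, W z = g (rkz z))
    (hY : ∀ z ∈ Zw, Y z ≤ Y2 (Zw.image rkz) g (rkz z))
    (hκ0 : ∀ z ∈ Zw, 0 ≤ κ z) (hκ : ∑ z ∈ Zw, κ z ≤ K) :
    ∑ z ∈ Zw, W z * (Y z + κ z) ≤ 2 + K := by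
  classical
  have h1 : ∀ z ∈ Zw, W z * (Y z + κ z) ≤
      g (rkz z) * Y2 (Zw.image rkz) g (rkz z) + κ z := by
    intro z hz
    rw [hW z hz, mul_add]
    have h2 := mul_le_mul_of_nonneg_left (hY z hz) (hg0 (rkz z))
    have h3 : g (rkz z) * κ z ≤ κ z := mul_le_of_le_one_left (hκ0 z hz) (hg1 _)
    linarith
  refine (sum_le_sum h1).trans ?_
  rw [sum_add_distrib]
  have h2 : ∑ z ∈ Zw, g (rkz z) * Y2 (Zw.image rkz) g (rkz z) =
      ∑ i ∈ Zw.image rkz, g i * Y2 (Zw.image rkz) g i := by
    rw [sum_image]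
    intro z hz z' hz' h
    exact hinj z hz z' hz' h
  rw [h2]
  have h3 := tele2 hg0 hg1 hg (Zw.image rkz)
  linarith

end Crest.Agent.R4C.Tele2x966
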