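import Crest.Agent.R4C.GWnode_863
import Crest.Agent.R4C.Tele2_966

/-!
# Row 4, GW section, leaf F4: the budget of one word (helper966)

World `Z` of GWdef_982.
* `nd_growth` : node indices `i < i'` of one word satisfy `2 i ≤ i'` (hypothesis `2^i ≤ cut i`).
* `Wp_mul`, `Wp_pos`, `Wp_le_one` : coins.
* `sum_WY` : `∑ W z w * Y z w ≤ 2` over the zones of the word.
* `sum_kap` : `∑ κ z ≤ 2 K1` if `κ z ≤ K1 / (prev z.1 w + 1)`.
* `budget` : `∑_{z ∈ Zs, w ∈ zone z} W z w * (Y z w + κ z) ≤ 2 + 2 K1` (leaf F4).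
* `sum_uY`, `budget_u` : the same for an abstract weight sequence `u i' ≤ Wp (cut i) (cut i') w * u i`
  (vector case, (V3)).
* `sum_min` : `∑ min 1 (D / (prev z.1 w + 1)) ≤ 4 + log2 D` (vector case).
-/

set_option autoImplicit false

open Finset
open Crest.Agent.R4C.Basex935 Crest.Agent.R4C.Cutx50 Crest.Agent.R4C.PrefixMx882
  Crest.Agent.R4C.GWdefx982 Crest.Agent.R4C.Tele2x966 Crest.Agent.R4C.GWnodex863

namespace Crest.Agent.R4C.Budgetx966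

variable (Z : World)

/-! ### coins -/

lemma fac_pos {N w p : ℕ} (h : p ∈ free N w) : (0 : ℝ) < 1 - 1 / (p : ℝ) := by
  unfold free at h
  rw [mem_filter, Nat.mem_primeFactors] at h
  have h2 : (2 : ℝ) ≤ p := by exact_mod_cast h.1.1.two_le
  have h3 : 1 / (p : ℝ) ≤ 1 / 2 := one_div_le_one_div_of_le (by norm_num) h2
  linarith

lemma fac_le_one (p : ℕ) : 1 - 1 / (p : ℝ) ≤ 1 := by
  have : (0 : ℝ) ≤ 1 / (p : ℝ) := by positivity
  linarith

variable {Z}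

lemma Wp_pos (a b w : ℕ) : 0 < Z.Wp a b w := by
  classical
  unfold World.Wp
  exact prod_pos fun p hp => fac_pos (mem_filter.1 hp).1

lemma Wp_le_one (a b w : ℕ) : Z.Wp a b w ≤ 1 := by
  classical
  unfold World.Wp
  exact prod_le_one (fun p hp => (fac_pos (mem_filter.1 hp).1).le) fun p _ => fac_le_one p

lemma Wp_mul {a b c : ℕ} (hab : a ≤ b) (hbc : b ≤ c) (w : ℕ) :
    Z.Wp a b w * Z.Wp b c w = Z.Wp a c w := by
  classical
  unfold World.Wp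
  rw [← prod_union]
  · congr 1
    ext p
    simp only [mem_union, mem_filter]
    constructor
    · rintro (⟨h1, h2, h3, h4⟩ | ⟨h1, h2, h3, h4⟩)
      · exact ⟨h1, h2, h3.trans hbc, h4⟩
      · exact ⟨h1, by omega, h3, h4⟩
    · rintro ⟨h1, h2, h3, h4⟩
      by_cases h5 : p ≤ b
      · exact Or.inl ⟨h1, h2, h5, h4⟩
      · exact Or.inr ⟨h1, by omega, h3, h4⟩
  · rw [disjoint_left]
    intro p h1 h2
    rw [mem_filter] at h1 h2
    omega

lemma Wp_anti {b c : ℕ} (hbc : b ≤ c) (w : ℕ) : Z.Wp 0 c w ≤ Z.Wp 0 b w := by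
  rw [← Wp_mul (Nat.zero_le b) hbc w]
  exact mul_le_of_le_one_right (Wp_pos _ _ _).le (Wp_le_one _ _ _)

/-! ### node indices -/

/-- node indices of one word at least double -/
theorem nd_growth (hZ : Z.Ok) (hcut2 : ∀ i, 2 ^ i ≤ Z.cut i) {w i i' : ℕ}
    (h1 : Z.nd i w) (h2 : Z.nd i' w) (hlt : i < i') : 2 * i ≤ i' := by
  have hL := hZ.hL
  have e1 : (Z.e i w : ℝ) < Z.e i' w := by
    refine h1.2.2.trans_le (le_trans ?_ h2.2.1)
    refine mul_le_mul_of_nonneg_right ?_ hL.le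
    exact pow_le_pow_right₀ (by norm_num) hlt
  have e2 : Z.e i w < Z.e i' w := by exact_mod_cast e1
  have hc : Z.cut i ≤ Z.cut i' := hZ.hcut hlt.le
  have h3 : low (Z.cut i') w = low (Z.cut i) w * upp (Z.cut i) (low (Z.cut i') w) := by
    have h4 := low_mul_upp (Z.cut i) (low_pos (Z.cut i') w).ne'
    rw [low_low hc] at h4
    exact h4.symm
  set u := upp (Z.cut i) (low (Z.cut i') w) with hu
  have e3 : Z.e i' w = Z.e i w * u := by
    unfold World.e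
    rw [h3, mul_assoc]
  have hu1 : u ≠ 1 := by
    intro h
    rw [h, mul_one] at e3
    omega
  have hp : u.minFac.Prime := Nat.minFac_prime hu1
  have h5 : ¬ u.minFac ≤ Z.cut i :=
    prime_dvd_part (S := fun p => ¬ p ≤ Z.cut i) hp (Nat.minFac_dvd _)
  have h6 : u.minFac ≤ u := Nat.minFac_le (upp_pos _ _)
  have h7 : 2 ^ i ≤ u := ((hcut2 i).trans (not_le.1 h5).le).trans h6
  have h8 : (2 : ℝ) ^ i ≤ u := by exact_mod_cast h7
  have h9 : (2 : ℝ) ^ i * Z.L * 2 ^ i ≤ Z.e i' w := by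
    rw [e3]
    push_cast
    exact mul_le_mul h1.2.1 h8 (by positivity) (Nat.cast_nonneg _)
  have h10 : (2 : ℝ) ^ i * 2 ^ i < 2 ^ (i' + 1) := by
    have h11 : (2 : ℝ) ^ i * 2 ^ i * Z.L < 2 ^ (i' + 1) * Z.L := by
      calc (2 : ℝ) ^ i * 2 ^ i * Z.L = 2 ^ i * Z.L * 2 ^ i := by ring
        _ ≤ Z.e i' w := h9
        _ < _ := h2.2.2
    exact lt_of_mul_lt_mul_right h11 hL.le
  rw [← pow_add] at h10
  have h12 := (pow_lt_pow_iff_right₀ (by norm_num : (1 : ℝ) < 2)).1 h10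
  omega

/-- the previous node index -/
lemma prev_spec {w i : ℕ} (h : Z.hasPrev i w) :
    Z.prev i w < i ∧ Z.nd (Z.prev i w) w ∧ ∀ i', i' < i → Z.nd i' w → i' ≤ Z.prev i w := by
  classical
  obtain ⟨i', h1, h2⟩ := h
  have h3 := Nat.findGreatest_spec (P := fun i' => i' < i ∧ Z.nd i' w) h1.le ⟨h1, h2⟩
  refine ⟨h3.1, h3.2, fun j hj hnd => ?_⟩
  exact Nat.le_findGreatest (P := fun i' => i' < i ∧ Z.nd i' w) hj.le ⟨hj, hnd⟩

lemma prev_zero {w i : ℕ} (h : ¬ Z.hasPrev i w) : Z.prev i w = 0 := by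
  classical
  unfold World.prev
  rw [Nat.findGreatest_eq_zero_iff]
  intro n _ _ hn
  exact h ⟨n, hn.1, hn.2⟩

/-! ### next births -/

open Classical in
/-- birth indices of `w` -/
noncomputable def Ib (Z : World) (w : ℕ) : Finset ℕ :=
  (range (Z.top + 1)).filter fun i => Z.birth i w

lemma mem_Ib {w i : ℕ} : i ∈ Ib Z w ↔ i ≤ Z.top ∧ Z.birth i w := by
  classical
  unfold Ib
  rw [mem_filter, mem_range]
  constructor <;> rintro ⟨h1, h2⟩ <;> exact ⟨by omega, h2⟩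

lemma hasNb_iff {w i : ℕ} : Z.hasNb i w ↔ (abv (Ib Z w) i).Nonempty := by
  constructor
  · rintro ⟨i', h1, h2, h3⟩
    exact ⟨i', mem_filter.2 ⟨mem_Ib.2 ⟨h2, h3⟩, h1⟩⟩
  · rintro ⟨i', h⟩
    obtain ⟨h1, h2⟩ := mem_filter.1 h
    obtain ⟨h3, h4⟩ := mem_Ib.1 h1
    exact ⟨i', h2, h3, h4⟩

lemma nb_eq {w i : ℕ} (h : Z.hasNb i w) : Z.nb i w = nx (Ib Z w) i := by
  classical
  have h1 := nx_mem (hasNb_iff.1 h)
  have h2 := mem_Ib.1 h1.1
  unfold World.nb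
  rw [dif_pos h]
  have h3 := Nat.find_spec h
  refine le_antisymm (Nat.find_min' h ⟨h1.2, h2.1, h2.2⟩) ?_
  exact nx_le (mem_Ib.2 ⟨h3.2.1, h3.2.2⟩) h3.1

/-- the loss of the world is the loss of Tele2_966 -/
lemma Y_le (hZ : Z.Ok) {w : ℕ} (z : Node) :
    Z.Y z w ≤ Y2 (Ib Z w) (fun i => Z.Wp 0 (Z.cut i) w) z.1 := by
  classical
  unfold World.Y Y2
  by_cases h : 2 ≤ (abv (Ib Z w) z.1).card
  · have h1 : (abv (Ib Z w) z.1).Nonempty := card_pos.1 (by omega)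
    have h2 : Z.hasNb z.1 w := hasNb_iff.2 h1
    have h3 := nb_eq h2
    have h4 : (abv (Ib Z w) (nx (Ib Z w) z.1)).Nonempty := by
      have := card_abv_nx h1
      exact card_pos.1 (by omega)
    have h5 : Z.hasNb (Z.nb z.1 w) w := by rw [h3]; exact hasNb_iff.2 h4
    have h6 : Z.nb (Z.nb z.1 w) w = nx2 (Ib Z w) z.1 := by
      rw [nb_eq h5, h3]; rfl
    rw [if_pos ⟨h2, h5⟩, if_pos h, h6]
    have h7 := (nx2_mem h).2
    have h8 : Z.Wp 0 (Z.cut z.1) w * Z.Wp (Z.cut z.1) (Z.cut (nx2 (Ib Z w) z.1)) w =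
        Z.Wp 0 (Z.cut (nx2 (Ib Z w) z.1)) w := Wp_mul (Nat.zero_le _) (hZ.hcut h7.le) w
    show _ ≤ 1 - Z.Wp 0 (Z.cut (nx2 (Ib Z w) z.1)) w / Z.Wp 0 (Z.cut z.1) w
    rw [← h8, mul_div_cancel_left₀ _ (Wp_pos _ _ _).ne']
  · rw [if_neg h]
    split_ifs
    · have := Wp_pos (Z := Z) (Z.cut z.1) (Z.cut (Z.nb (Z.nb z.1 w) w)) w
      linarith
    · exact le_rfl

lemma Y_nonneg (z : Node) (w : ℕ) : 0 ≤ Z.Y z w := by
  classical
  unfold World.Y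
  split_ifs
  · have := Wp_le_one (Z := Z) (Z.cut z.1) (Z.cut (Z.nb (Z.nb z.1 w) w)) w
    linarith
  · exact zero_le_one

lemma Y_le_one (z : Node) (w : ℕ) : Z.Y z w ≤ 1 := by
  classical
  unfold World.Y
  split_ifs
  · have := Wp_pos (Z := Z) (Z.cut z.1) (Z.cut (Z.nb (Z.nb z.1 w) w)) w
    linarith
  · exact le_rfl

/-! ### the two sums -/

/-- a finite set of zones with injective rank, all ranks births of `w` -/
structure Zw (Z : World) (w : ℕ) (T : Finset Node) : Prop where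
  birth : ∀ z ∈ T, Z.birth z.1 w
  top : ∀ z ∈ T, z.1 ≤ Z.top
  inj : ∀ z ∈ T, ∀ z' ∈ T, z.1 = z'.1 → z = z'

theorem sum_WY (hZ : Z.Ok) {w : ℕ} {T : Finset Node} (hT : Zw Z w T) :
    ∑ z ∈ T, Z.W z w * Z.Y z w ≤ 2 := by
  classical
  set g : ℕ → ℝ := fun i => Z.Wp 0 (Z.cut i) w with hg
  have hg0 : ∀ i, 0 ≤ g i := fun i => (Wp_pos _ _ _).le
  have hg1 : ∀ i, g i ≤ 1 := fun i => Wp_le_one _ _ _
  have hga : Antitone g := fun i j hij => Wp_anti (hZ.hcut hij) w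
  calc ∑ z ∈ T, Z.W z w * Z.Y z w
      ≤ ∑ z ∈ T, g z.1 * Y2 (Ib Z w) g z.1 :=
        sum_le_sum fun z _ => mul_le_mul_of_nonneg_left (Y_le hZ z) (hg0 _)
    _ = ∑ i ∈ T.image (fun z => z.1), g i * Y2 (Ib Z w) g i := by
        rw [sum_image]
        intro z hz z' hz' h
        exact hT.inj z hz z' hz' h
    _ ≤ ∑ i ∈ Ib Z w, g i * Y2 (Ib Z w) g i := by
        refine sum_le_sum_of_subset_of_nonneg ?_ fun i _ _ =>
          mul_nonneg (hg0 i) (Y2_nonneg hg0 hga _ _)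
        intro i hi
        obtain ⟨z, hz, rfl⟩ := mem_image.1 hi
        exact mem_Ib.2 ⟨hT.top z hz, hT.birth z hz⟩
    _ ≤ 2 := tele2 hg0 hg1 hga _

/-- sum of the reciprocals of doubling positive integers -/
lemma dbl_sum (s : Finset ℕ) : ∀ m : ℕ, 0 < m → (∀ j ∈ s, m ≤ j) →
    (∀ j ∈ s, ∀ j' ∈ s, j < j' → 2 * j ≤ j') → ∑ j ∈ s, 1 / (j : ℝ) ≤ 2 / m := by
  classical
  induction s using Finset.induction_on_min with
  | empty => intro m hm _ _; rw [sum_empty]; positivity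
  | insert a s ha ih =>
    intro m hm h1 h2
    have hns : a ∉ s := fun h => lt_irrefl _ (ha a h)
    have hma : m ≤ a := h1 a (mem_insert_self _ _)
    have ha0 : 0 < a := by omega
    have h3 := ih (2 * a) (by omega)
      (fun j hj => h2 a (mem_insert_self _ _) j (mem_insert_of_mem hj) (ha j hj))
      (fun j hj j' hj' => h2 j (mem_insert_of_mem hj) j' (mem_insert_of_mem hj'))
    rw [sum_insert hns]
    have haR : (0 : ℝ) < a := by exact_mod_cast ha0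
    have hmR : (0 : ℝ) < m := by exact_mod_cast hm
    have h4 : (2 : ℝ) / ((2 * a : ℕ) : ℝ) = 1 / a := by
      push_cast; field_simp
    rw [h4] at h3
    have h5 : (2 : ℝ) / a ≤ 2 / m :=
      div_le_div_of_nonneg_left (by norm_num) hmR (by exact_mod_cast hma)
    have h6 : (1 : ℝ) / a + 1 / a = 2 / a := by ring
    linarith

theorem sum_kap (hZ : Z.Ok) (hcut2 : ∀ i, 2 ^ i ≤ Z.cut i) {w : ℕ} {T : Finset Node}
    (hT : Zw Z w T) {κ : Node → ℝ}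
    (hκ : ∀ z ∈ T, κ z ≤ Z.K1 / ((Z.prev z.1 w : ℝ) + 1)) :
    ∑ z ∈ T, κ z ≤ 2 * Z.K1 := by
  classical
  have hK1 := hZ.hK1
  have hi0 := hZ.hi0
  have hnd : ∀ z ∈ T, Z.nd z.1 w := fun z hz => (hT.birth z hz).1
  set p : Node → ℕ := fun z => Z.prev z.1 w with hp
  have hlt : ∀ z ∈ T, p z < z.1 := by
    intro z hz
    by_cases h : Z.hasPrev z.1 w
    · exact (prev_spec h).1
    · have h1 := (hnd z hz).1
      simp only [hp]
      rw [prev_zero h]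
      omega
  have hge : ∀ z ∈ T, ∀ z' ∈ T, z.1 < z'.1 → z.1 ≤ p z' := fun z hz z' hz' h =>
    (prev_spec ⟨z.1, h, hnd z hz⟩).2.2 _ h (hnd z hz)
  have hinj : ∀ z ∈ T, ∀ z' ∈ T, p z = p z' → z = z' := by
    intro z hz z' hz' h
    refine hT.inj z hz z' hz' ?_
    rcases lt_trichotomy z.1 z'.1 with h1 | h1 | h1
    · have := hge z hz z' hz' h1
      have := hlt z hz
      omega
    · exact h1
    · have := hge z' hz' z hz h1
      have := hlt z' hz'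
      omega
  -- the zones with a previous node
  have h0 : ∑ z ∈ T, κ z ≤ ∑ z ∈ T, Z.K1 / ((p z : ℝ) + 1) := sum_le_sum hκ
  have h1 : ∑ z ∈ T, Z.K1 / ((p z : ℝ) + 1) = ∑ j ∈ T.image p, Z.K1 / ((j : ℝ) + 1) := by
    rw [sum_image hinj]
  have h2 : ∑ j ∈ T.image p, Z.K1 / ((j : ℝ) + 1) ≤
      Z.K1 + ∑ j ∈ (T.image p).erase 0, Z.K1 / ((j : ℝ) + 1) := by
    by_cases h3 : 0 ∈ T.image p
    · rw [← add_sum_erase _ _ h3]
      simp
    · rw [erase_eq_of_notMem h3]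
      linarith
  have hpos : ∀ j ∈ (T.image p).erase 0, 3 ≤ j ∧ Z.nd j w := by
    intro j hj
    obtain ⟨hj0, hj1⟩ := mem_erase.1 hj
    obtain ⟨z, hz, rfl⟩ := mem_image.1 hj1
    by_cases h : Z.hasPrev z.1 w
    · have h3 := (prev_spec h).2.1
      exact ⟨hi0.trans h3.1, h3⟩
    · exact absurd (prev_zero h) hj0
  have h3 : ∑ j ∈ (T.image p).erase 0, Z.K1 / ((j : ℝ) + 1) ≤
      Z.K1 * ∑ j ∈ (T.image p).erase 0, 1 / (j : ℝ) := by
    rw [mul_sum]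
    refine sum_le_sum fun j hj => ?_
    have hj3 : (3 : ℝ) ≤ j := by exact_mod_cast (hpos j hj).1
    rw [mul_one_div]
    exact div_le_div_of_nonneg_left (by linarith) (by linarith) (by linarith)
  have h4 : ∑ j ∈ (T.image p).erase 0, 1 / (j : ℝ) ≤ 2 / ((3 : ℕ) : ℝ) :=
    dbl_sum _ 3 (by norm_num) (fun j hj => (hpos j hj).1) fun j hj j' hj' hjj =>
      nd_growth hZ hcut2 (hpos j hj).2 (hpos j' hj').2 hjj
  have h5 : Z.K1 * ∑ j ∈ (T.image p).erase 0, 1 / (j : ℝ) ≤ Z.K1 * (2 / ((3 : ℕ) : ℝ)) :=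
    mul_le_mul_of_nonneg_left h4 (by linarith)
  have h6 : Z.K1 * (2 / ((3 : ℕ) : ℝ)) ≤ Z.K1 := by
    push_cast
    linarith
  linarith

/-- **the budget of one word** -/
theorem budget_T (hZ : Z.Ok) (hcut2 : ∀ i, 2 ^ i ≤ Z.cut i) {w : ℕ} {T : Finset Node}
    (hT : Zw Z w T) {κ : Node → ℝ} (hκ0 : ∀ z ∈ T, 0 ≤ κ z)
    (hκ : ∀ z ∈ T, κ z ≤ Z.K1 / ((Z.prev z.1 w : ℝ) + 1)) :
    ∑ z ∈ T, Z.W z w * (Z.Y z w + κ z) ≤ 2 + 2 * Z.K1 := by
  have h1 := sum_WY hZ hT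
  have h2 := sum_kap hZ hcut2 hT hκ
  have h3 : ∑ z ∈ T, Z.W z w * (Z.Y z w + κ z) ≤ ∑ z ∈ T, (Z.W z w * Z.Y z w + κ z) := by
    refine sum_le_sum fun z hz => ?_
    have h4 : Z.W z w * κ z ≤ κ z := mul_le_of_le_one_left (hκ0 z hz) (Wp_le_one _ _ _)
    rw [mul_add]
    linarith
  rw [sum_add_distrib] at h3
  linarith

/-! ### abstract weight sequence -/

/-- one term: `u i * Y ≤ u i - u (second next)` -/
lemma uY_le (hZ : Z.Ok) {w : ℕ} {u : ℕ → ℝ} (hu0 : ∀ i, 0 ≤ u i)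
    (hu : ∀ i i', Z.birth i w → Z.birth i' w → i < i' →
      u i' ≤ Z.Wp (Z.cut i) (Z.cut i') w * u i) {z : Node} (hz : Z.birth z.1 w) :
    u z.1 * Z.Y z w ≤ tm (Ib Z w) u z.1 := by
  classical
  have h0 := Y_le (Z := Z) hZ (w := w) z
  unfold tm
  unfold Y2 at h0
  by_cases h : 2 ≤ (abv (Ib Z w) z.1).card
  · rw [if_pos h] at h0 ⊢
    have h1 : (abv (Ib Z w) z.1).Nonempty := card_pos.1 (by omega)
    have h7 := nx2_mem h
    have hb := (mem_Ib.1 h7.1).2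
    have h8 : Z.Wp 0 (Z.cut z.1) w * Z.Wp (Z.cut z.1) (Z.cut (nx2 (Ib Z w) z.1)) w =
        Z.Wp 0 (Z.cut (nx2 (Ib Z w) z.1)) w := Wp_mul (Nat.zero_le _) (hZ.hcut h7.2.le) w
    have h9 : Z.Y z w ≤ 1 - Z.Wp (Z.cut z.1) (Z.cut (nx2 (Ib Z w) z.1)) w := by
      refine h0.trans (le_of_eq ?_)
      show 1 - Z.Wp 0 (Z.cut (nx2 (Ib Z w) z.1)) w / Z.Wp 0 (Z.cut z.1) w = _
      rw [← h8, mul_div_cancel_left₀ _ (Wp_pos _ _ _).ne']
    have h10 := mul_le_mul_of_nonneg_left h9 (hu0 z.1)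
    have h11 := hu _ _ hz hb h7.2
    have h12 : u z.1 * (1 - Z.Wp (Z.cut z.1) (Z.cut (nx2 (Ib Z w) z.1)) w) =
        u z.1 - Z.Wp (Z.cut z.1) (Z.cut (nx2 (Ib Z w) z.1)) w * u z.1 := by ring
    linarith
  · rw [if_neg h]
    have h10 := mul_le_mul_of_nonneg_left (Y_le_one (Z := Z) z w) (hu0 z.1)
    linarith

/-- (V3) telescoping for an abstract weight sequence of the word -/
theorem sum_uY (hZ : Z.Ok) {w : ℕ} {T : Finset Node} (hT : Zw Z w T) {u : ℕ → ℝ}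
    (hu0 : ∀ i, 0 ≤ u i) (hu1 : ∀ i, u i ≤ 1)
    (hu : ∀ i i', Z.birth i w → Z.birth i' w → i < i' →
      u i' ≤ Z.Wp (Z.cut i) (Z.cut i') w * u i) :
    ∑ z ∈ T, u z.1 * Z.Y z w ≤ 2 := by
  classical
  have htm : ∀ i ∈ Ib Z w, 0 ≤ tm (Ib Z w) u i := by
    intro i hi
    unfold tm
    split_ifs with h
    · have h7 := nx2_mem h
      have h11 := hu _ _ (mem_Ib.1 hi).2 (mem_Ib.1 h7.1).2 h7.2
      have h12 : Z.Wp (Z.cut i) (Z.cut (nx2 (Ib Z w) i)) w * u i ≤ u i :=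
        mul_le_of_le_one_left (hu0 i) (Wp_le_one _ _ _)
      linarith
    · exact hu0 i
  calc ∑ z ∈ T, u z.1 * Z.Y z w
      ≤ ∑ z ∈ T, tm (Ib Z w) u z.1 := sum_le_sum fun z hz => uY_le hZ hu0 hu (hT.birth z hz)
    _ = ∑ i ∈ T.image (fun z => z.1), tm (Ib Z w) u i := by
        rw [sum_image]
        intro z hz z' hz' h
        exact hT.inj z hz z' hz' h
    _ ≤ ∑ i ∈ Ib Z w, tm (Ib Z w) u i := by
        refine sum_le_sum_of_subset_of_nonneg ?_ fun i hi _ => htm i hi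
        intro i hi
        obtain ⟨z, hz, rfl⟩ := mem_image.1 hi
        exact mem_Ib.2 ⟨hT.top z hz, hT.birth z hz⟩
    _ ≤ ∑ i ∈ fst2 (Ib Z w), u i := sum_tm hu0 _
    _ ≤ ∑ _i ∈ fst2 (Ib Z w), (1 : ℝ) := sum_le_sum fun i _ => hu1 i
    _ = (fst2 (Ib Z w)).card := by simp
    _ ≤ 2 := by exact_mod_cast card_fst2 _

theorem budget_u (hZ : Z.Ok) (hcut2 : ∀ i, 2 ^ i ≤ Z.cut i) {w : ℕ} {T : Finset Node}
    (hT : Zw Z w T) {u : ℕ → ℝ} (hu0 : ∀ i, 0 ≤ u i) (hu1 : ∀ i, u i ≤ 1)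
    (hu : ∀ i i', Z.birth i w → Z.birth i' w → i < i' →
      u i' ≤ Z.Wp (Z.cut i) (Z.cut i') w * u i)
    {κ : Node → ℝ} (hκ0 : ∀ z ∈ T, 0 ≤ κ z)
    (hκ : ∀ z ∈ T, κ z ≤ Z.K1 / ((Z.prev z.1 w : ℝ) + 1)) :
    ∑ z ∈ T, u z.1 * (Z.Y z w + κ z) ≤ 2 + 2 * Z.K1 := by
  have h1 := sum_uY hZ hT hu0 hu1 hu
  have h2 := sum_kap hZ hcut2 hT hκ
  have h3 : ∑ z ∈ T, u z.1 * (Z.Y z w + κ z) ≤ ∑ z ∈ T, (u z.1 * Z.Y z w + κ z) := by
    refine sum_le_sum fun z hz => ?_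
    have h4 : u z.1 * κ z ≤ κ z := mul_le_of_le_one_left (hκ0 z hz) (hu1 _)
    rw [mul_add]
    linarith
  rw [sum_add_distrib] at h3
  linarith

/-- a doubling set of positive integers `≤ X` has at most `1 + log2 X` elements -/
lemma dbl_card {s : Finset ℕ} {X : ℕ} (h1 : ∀ j ∈ s, 1 ≤ j) (hX : ∀ j ∈ s, j ≤ X)
    (hd : ∀ j ∈ s, ∀ j' ∈ s, j < j' → 2 * j ≤ j') : s.card ≤ 1 + Nat.log 2 X := by
  classical
  have hlog : ∀ j ∈ s, ∀ j' ∈ s, j < j' → Nat.log 2 j < Nat.log 2 j' := by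
    intro j hj j' hj' hlt
    have h2 := hd j hj j' hj' hlt
    have h3 : Nat.log 2 (2 * j) ≤ Nat.log 2 j' := Nat.log_mono_right h2
    have h4 : Nat.log 2 (2 * j) = Nat.log 2 j + 1 := by
      rw [mul_comm]
      exact Nat.log_mul_base (by norm_num) (by have := h1 j hj; omega)
    omega
  have hinj : Set.InjOn (Nat.log 2) (s : Set ℕ) := by
    intro j hj j' hj' h
    rcases lt_trichotomy j j' with h2 | h2 | h2
    · have := hlog j hj j' hj' h2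
      omega
    · exact h2
    · have := hlog j' hj' j hj h2
      omega
  rw [← card_image_of_injOn hinj]
  have hsub : s.image (Nat.log 2) ⊆ range (Nat.log 2 X + 1) := by
    intro k hk
    obtain ⟨j, hj, rfl⟩ := mem_image.1 hk
    rw [mem_range]
    have := Nat.log_mono_right (b := 2) (hX j hj)
    omega
  have := card_le_card hsub
  rw [card_range] at this
  omega

/-- `∑ min 1 (D / j) ≤ 3 + log2 D` over a doubling set -/
lemma dbl_min {s : Finset ℕ} {D : ℕ} (hD : 1 ≤ D) (h1 : ∀ j ∈ s, 1 ≤ j)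
    (hd : ∀ j ∈ s, ∀ j' ∈ s, j < j' → 2 * j ≤ j') :
    ∑ j ∈ s, min (1 : ℝ) ((D : ℝ) / j) ≤ 3 + Nat.log 2 D := by
  classical
  rw [← sum_filter_add_sum_filter_not s (fun j => j ≤ D)]
  have a1 : ∑ j ∈ s.filter (fun j => j ≤ D), min (1 : ℝ) ((D : ℝ) / j) ≤ 1 + Nat.log 2 D := by
    have h2 : ∑ j ∈ s.filter (fun j => j ≤ D), min (1 : ℝ) ((D : ℝ) / j) ≤
        ∑ _j ∈ s.filter (fun j => j ≤ D), (1 : ℝ) := sum_le_sum fun _ _ => min_le_left _ _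
    have h3 : (s.filter (fun j => j ≤ D)).card ≤ 1 + Nat.log 2 D :=
      dbl_card (fun j hj => h1 j (mem_filter.1 hj).1) (fun j hj => (mem_filter.1 hj).2)
        fun j hj j' hj' => hd j (mem_filter.1 hj).1 j' (mem_filter.1 hj').1
    have h4 : ((s.filter (fun j => j ≤ D)).card : ℝ) ≤ 1 + Nat.log 2 D := by exact_mod_cast h3
    simp only [sum_const, nsmul_eq_mul, mul_one] at h2
    linarith
  have a2 : ∑ j ∈ s.filter (fun j => ¬ j ≤ D), min (1 : ℝ) ((D : ℝ) / j) ≤ 2 := by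
    have hDR : (0 : ℝ) < D := by exact_mod_cast hD
    have h2 : ∑ j ∈ s.filter (fun j => ¬ j ≤ D), min (1 : ℝ) ((D : ℝ) / j) ≤
        D * ∑ j ∈ s.filter (fun j => ¬ j ≤ D), 1 / (j : ℝ) := by
      rw [mul_sum]
      refine sum_le_sum fun j _ => (min_le_right _ _).trans (le_of_eq ?_)
      ring
    have h3 : ∑ j ∈ s.filter (fun j => ¬ j ≤ D), 1 / (j : ℝ) ≤ 2 / D :=
      dbl_sum _ D hD (fun j hj => by have := (mem_filter.1 hj).2; omega)
        fun j hj j' hj' => hd j (mem_filter.1 hj).1 j' (mem_filter.1 hj').1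
    have h4 := mul_le_mul_of_nonneg_left h3 hDR.le
    have h5 : (D : ℝ) * (2 / D) = 2 := by field_simp
    linarith
  linarith

/-- vector case: `∑ min 1 (D / (prev z.1 w + 1)) ≤ 4 + log2 D` -/
theorem sum_min (hZ : Z.Ok) (hcut2 : ∀ i, 2 ^ i ≤ Z.cut i) {w : ℕ} {T : Finset Node}
    (hT : Zw Z w T) {D : ℕ} (hD : 1 ≤ D) :
    ∑ z ∈ T, min (1 : ℝ) ((D : ℝ) / ((Z.prev z.1 w : ℝ) + 1)) ≤ 4 + Nat.log 2 D := by
  classical
  have hi0 := hZ.hi0
  have hnd : ∀ z ∈ T, Z.nd z.1 w := fun z hz => (hT.birth z hz).1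
  set p : Node → ℕ := fun z => Z.prev z.1 w with hp
  have hlt : ∀ z ∈ T, p z < z.1 := by
    intro z hz
    by_cases h : Z.hasPrev z.1 w
    · exact (prev_spec h).1
    · have h1 := (hnd z hz).1
      simp only [hp]
      rw [prev_zero h]
      omega
  have hge : ∀ z ∈ T, ∀ z' ∈ T, z.1 < z'.1 → z.1 ≤ p z' := fun z hz z' hz' h =>
    (prev_spec ⟨z.1, h, hnd z hz⟩).2.2 _ h (hnd z hz)
  have hinj : ∀ z ∈ T, ∀ z' ∈ T, p z = p z' → z = z' := by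
    intro z hz z' hz' h
    refine hT.inj z hz z' hz' ?_
    rcases lt_trichotomy z.1 z'.1 with h1 | h1 | h1
    · have := hge z hz z' hz' h1
      have := hlt z hz
      omega
    · exact h1
    · have := hge z' hz' z hz h1
      have := hlt z' hz'
      omega
  have h1 : ∑ z ∈ T, min (1 : ℝ) ((D : ℝ) / ((p z : ℝ) + 1)) =
      ∑ j ∈ T.image p, min (1 : ℝ) ((D : ℝ) / ((j : ℝ) + 1)) := by
    rw [sum_image hinj]
  have h2 : ∑ j ∈ T.image p, min (1 : ℝ) ((D : ℝ) / ((j : ℝ) + 1)) ≤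
      1 + ∑ j ∈ (T.image p).erase 0, min (1 : ℝ) ((D : ℝ) / ((j : ℝ) + 1)) := by
    by_cases h3 : 0 ∈ T.image p
    · rw [← add_sum_erase _ _ h3]
      have := min_le_left (1 : ℝ) ((D : ℝ) / (((0 : ℕ) : ℝ) + 1))
      linarith
    · rw [erase_eq_of_notMem h3]
      linarith
  have hpos : ∀ j ∈ (T.image p).erase 0, 3 ≤ j ∧ Z.nd j w := by
    intro j hj
    obtain ⟨hj0, hj1⟩ := mem_erase.1 hj
    obtain ⟨z, hz, rfl⟩ := mem_image.1 hj1
    by_cases h : Z.hasPrev z.1 w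
    · have h3 := (prev_spec h).2.1
      exact ⟨hi0.trans h3.1, h3⟩
    · exact absurd (prev_zero h) hj0
  have h3 : ∑ j ∈ (T.image p).erase 0, min (1 : ℝ) ((D : ℝ) / ((j : ℝ) + 1)) ≤
      ∑ j ∈ (T.image p).erase 0, min (1 : ℝ) ((D : ℝ) / j) := by
    refine sum_le_sum fun j hj => min_le_min le_rfl ?_
    have hj3 : (3 : ℝ) ≤ j := by exact_mod_cast (hpos j hj).1
    exact div_le_div_of_nonneg_left (Nat.cast_nonneg _) (by linarith) (by linarith)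
  have h4 := dbl_min hD (s := (T.image p).erase 0) (fun j hj => by
    have := (hpos j hj).1; omega) fun j hj j' hj' hjj =>
      nd_growth hZ hcut2 (hpos j hj).2 (hpos j' hj').2 hjj
  simp only [hp] at h1 h2 h3 h4 ⊢
  linarith

/-! ### the zones of one word -/

theorem zw_of (hZ : Z.Ok) {w : ℕ} {T : Finset Node}
    (hT : ∀ z ∈ T, z ∈ Z.Zs ∧ w ∈ Z.zd.zone z) : Zw Z w T := by
  classical
  refine ⟨fun z hz => ((mem_zone hZ).1 (hT z hz).2).2.1, fun z hz => ?_,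
    fun z hz z' hz' h => ?_⟩
  · have h1 := (mem_zone hZ).1 (hT z hz).2
    exact nd_le_top hZ h1.1 h1.2.1.1
  · have h1 := ((mem_zone hZ).1 (hT z hz).2).2.2
    have h2 := ((mem_zone hZ).1 (hT z' hz').2).2.2
    rw [← h1, ← h2, h]

/-- the index before the zone -/
lemma pz_eq (hZ : Z.Ok) {w : ℕ} {z : Node} (h : w ∈ Z.zd.zone z) :
    Z.pz z = Z.prev z.1 w := by
  classical
  obtain ⟨h1, h2, h3⟩ := (mem_zone hZ).1 h
  have hw : w ∈ Z.S z := (mem_S hZ).2 ⟨h1, h2.1, h3⟩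
  unfold World.pz
  have hne : (Z.S z).Nonempty := ⟨w, hw⟩
  rw [dif_pos hne]
  exact S_prev hZ hne.choose_spec hw le_rfl

/-- **(F4) the budget of one word** -/
theorem budget (hZ : Z.Ok) (hcut2 : ∀ i, 2 ^ i ≤ Z.cut i) (w : ℕ) {κ : Node → ℝ}
    (hκ0 : ∀ z ∈ Z.Zs, 0 ≤ κ z) (hκ : ∀ z ∈ Z.Zs, κ z ≤ Z.K1 / ((Z.pz z : ℝ) + 1)) :
    ∑ z ∈ Z.Zs with w ∈ Z.zd.zone z, Z.W z w * (Z.Y z w + κ z) ≤ 2 + 2 * Z.K1 := by
  classical
  refine budget_T hZ hcut2 (zw_of hZ fun z hz => mem_filter.1 hz)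
    (fun z hz => hκ0 z (mem_filter.1 hz).1) fun z hz => ?_
  obtain ⟨h1, h2⟩ := mem_filter.1 hz
  rw [← pz_eq hZ h2]
  exact hκ z h1

/-- **(F4)** for the `kap` of GWdef_982 -/
theorem budget_kap (hZ : Z.Ok) (w : ℕ) :
    ∑ z ∈ Z.Zs with w ∈ Z.zd.zone z, Z.W z w * (Z.Y z w + Z.kap z) ≤ 2 + 2 * Z.K1 := by
  refine budget hZ hZ.hcut2 w (fun z _ => ?_) fun z _ => le_rfl
  unfold World.kap
  have := hZ.hK1
  positivity

end Crest.Agent.R4C.Budgetx966
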