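import Crest.Agent.R4C.PureFL_232
import Crest.Agent.R4C.PrefixM_882

/-!
# Row 4: the pure pairs of an F-Λ structure are prefix worlds (helper863)

`F : FL M`.  `D F b` = largest prime at which `b` has a deficit (letter `<` centre), `0` if none.
`core F b = F.uu (D F b) b`, `wd F b = F.lam (D F b) b`, `b = core * wd`.
`PM F G` = modulus of the words of the class with core `G` (`∏ p^(a_p - v)` over the passive
`p > D F G`).

* `core_wd`, `core_idem`, `mem_class` : the class of `G` is `{G * w : w ∣ PM F G}`.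
* `PP w w'` : prefix pair (same letters below the smallest differing prime `x`, `min = 0` above).
* `pureG_core`, `pureG_iff` : pure pairs lie in one class and correspond to the prefix pairs.
* `nu_class`, `gcd_mul` : `ν_M (G w) = nu0 G * ν_{PM G} w`.
* `Ex_class`, `frm_class`, `transfer`.
* `lam_class`, `uu_class` : all cuts.
-/

set_option autoImplicit false

open Finset
open Crest.Agent.R4C.Basex935 Crest.Agent.R4C.Cutx50 Crest.Agent.R4C.FLDefx935
open Crest.Agent.R4C.PureL2x232

namespace Crest.Agent.R4C.PureClsx863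

variable {M : ℕ} (F : FL M)

/-- deficit at `p` -/
def dfc (b p : ℕ) : Prop := ∃ v, F.ctr b p = some v ∧ b.factorization p < v

open Classical in
/-- largest deficit prime (`0` if none) -/
noncomputable def D (b : ℕ) : ℕ := (M.primeFactors.filter (fun p => dfc F b p)).sup id

/-- the core of `b` -/
noncomputable def core (b : ℕ) : ℕ := F.uu (D F b) b

/-- the free word of `b` -/
noncomputable def wd (b : ℕ) : ℕ := F.lam (D F b) b

/-- exponent of the modulus of the class -/
noncomputable def pmE (G p : ℕ) : ℕ := if D F G < p then (match F.ctr G p with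
  | some v => M.factorization p - v
  | none => 0) else 0

/-- modulus of the words of the class with core `G` -/
noncomputable def PM (G : ℕ) : ℕ := ∏ p ∈ M.primeFactors, p ^ pmE F G p

/-- the cores -/
noncomputable def cores : Finset ℕ := M.divisors.filter (fun G => core F G = G)

/-- cofactor: `M = G * PM G * RR G` -/
noncomputable def RR (G : ℕ) : ℕ := M / (G * PM F G)

/-- natural weight of the class -/
noncomputable def nu0 (G : ℕ) : ℝ := ((RR F G).totient : ℝ) / ((G : ℝ) * (RR F G : ℝ))

/-- `∏ (1 - 1/p)` over the missing primes of the class -/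
noncomputable def VR (G : ℕ) : ℝ := ((RR F G).totient : ℝ) / (RR F G : ℝ)

variable {F}

lemma mem_dfc {b p : ℕ} (hM : 0 < M) (hb : b ∣ M) (hp : p.Prime) (h : dfc F b p) :
    p ∈ M.primeFactors := by
  by_contra hc
  obtain ⟨v, h1, h2⟩ := h
  have := FL.ctr_zero hb hp hM hc h1
  omega

lemma le_D {b p : ℕ} (hM : 0 < M) (hb : b ∣ M) (hp : p.Prime) (h : dfc F b p) : p ≤ D F b := by
  classical
  unfold D
  exact Finset.le_sup (f := id) (Finset.mem_filter.2 ⟨mem_dfc hM hb hp h, h⟩)

/-- above `D` there is no deficit -/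
lemma no_dfc {b p v : ℕ} (hM : 0 < M) (hb : b ∣ M) (hp : p.Prime) (h : D F b < p)
    (hv : F.ctr b p = some v) : v ≤ b.factorization p := by
  by_contra hc
  have := le_D hM hb hp ⟨v, hv, not_le.1 hc⟩
  omega

/-- `D` is characterised by the deficits -/
lemma D_congr {b c : ℕ} (h : ∀ p, p ∈ M.primeFactors → (dfc F b p ↔ dfc F c p)) :
    D F b = D F c := by
  classical
  unfold D
  congr 1
  exact Finset.filter_congr h

/-- equal letters at the branched primes: same statuses -/
lemma ctr_of_same {b c p : ℕ} (hb : b ∣ M) (hc : c ∣ M) (h : F.same 0 b c) (hp : p.Prime) :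
    F.ctr b p = F.ctr c p := FL.ctr_eq hb hc h hp (Nat.zero_le _)

lemma fact_core_of_le {b p : ℕ} (hM : 0 < M) (hb : b ∣ M) (h : p ≤ D F b) :
    (core F b).factorization p = b.factorization p := by
  unfold core
  rw [FL.fact_uu]
  by_cases hp : p ∈ M.primeFactors
  · simp only [hp, if_true, FL.uuE]
    rw [if_neg (by omega)]
  · rw [if_neg hp, FL.fact_zero hM hb hp]

lemma fact_core_none {b p : ℕ} (hM : 0 < M) (hb : b ∣ M) (h : F.ctr b p = none) :
    (core F b).factorization p = b.factorization p := by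
  unfold core
  rw [FL.fact_uu]
  by_cases hp : p ∈ M.primeFactors
  · simp only [hp, if_true, FL.uuE, h]
    split_ifs <;> rfl
  · rw [if_neg hp, FL.fact_zero hM hb hp]

lemma fact_core_some {b p v : ℕ} (hM : 0 < M) (hb : b ∣ M) (hpp : p.Prime) (h : D F b < p)
    (hv : F.ctr b p = some v) : (core F b).factorization p = v := by
  unfold core
  rw [FL.fact_uu]
  by_cases hp : p ∈ M.primeFactors
  · simp only [hp, if_true, FL.uuE, hv, h]
    exact min_eq_left (no_dfc hM hb hpp h hv)
  · rw [if_neg hp, FL.ctr_zero hb hpp hM hp hv]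

lemma core_mul_wd {b : ℕ} (hM : 0 < M) (hb : b ∣ M) : core F b * wd F b = b :=
  FL.uu_mul_lam hM hb

lemma core_dvd {b : ℕ} (hM : 0 < M) (hb : b ∣ M) : core F b ∣ M :=
  (Dvd.intro _ (core_mul_wd hM hb)).trans hb

lemma core_pos (b : ℕ) : 0 < core F b := FL.uu_pos _ _

lemma wd_pos (b : ℕ) : 0 < wd F b := FL.lam_pos _ _

lemma same_core {b : ℕ} (hM : 0 < M) (hb : b ∣ M) : F.same 0 b (core F b) :=
  fun _ _ _ hn => (fact_core_none hM hb hn).symm

lemma ctr_core {b p : ℕ} (hM : 0 < M) (hb : b ∣ M) (hp : p.Prime) :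
    F.ctr (core F b) p = F.ctr b p :=
  (ctr_of_same hb (core_dvd hM hb) (same_core hM hb) hp).symm

lemma D_core {b : ℕ} (hM : 0 < M) (hb : b ∣ M) : D F (core F b) = D F b := by
  refine D_congr fun p hp => ?_
  have hpp := Nat.prime_of_mem_primeFactors hp
  unfold dfc
  rw [ctr_core hM hb hpp]
  by_cases h : p ≤ D F b
  · rw [fact_core_of_le hM hb h]
  · constructor
    · rintro ⟨v, h1, h2⟩
      rw [fact_core_some hM hb hpp (not_le.1 h) h1] at h2
      exact absurd h2 (lt_irrefl _)
    · rintro ⟨v, h1, h2⟩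
      have := no_dfc hM hb hpp (not_le.1 h) h1
      omega

/-- two divisors of `M` with the same letters at all primes are equal -/
lemma eq_of_fact {b c : ℕ} (hb : b ≠ 0) (hc : c ≠ 0)
    (h : ∀ p, p.Prime → b.factorization p = c.factorization p) : b = c := by
  refine Nat.eq_of_factorization_eq hb hc fun p => ?_
  by_cases hp : p.Prime
  · exact h p hp
  · rw [Nat.factorization_eq_zero_of_not_prime _ hp, Nat.factorization_eq_zero_of_not_prime _ hp]

/-- the core is determined by statuses, `D`, the letters `≤ D` and the branched letters -/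
lemma core_congr {b c : ℕ} (hM : 0 < M) (hb : b ∣ M) (hc : c ∣ M) (h : F.same 0 b c)
    (hD : D F b = D F c)
    (hl : ∀ p, p.Prime → p ≤ D F b → b.factorization p = c.factorization p) :
    core F b = core F c := by
  refine eq_of_fact (core_pos b).ne' (core_pos c).ne' fun p hp => ?_
  by_cases h1 : p ≤ D F b
  · rw [fact_core_of_le hM hb h1, fact_core_of_le hM hc (hD ▸ h1), hl p hp h1]
  · push Not at h1
    have e := ctr_of_same hb hc h hp
    cases h2 : F.ctr b p with
    | none =>
      rw [fact_core_none hM hb h2, fact_core_none hM hc (e ▸ h2)]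
      exact h p hp hp.pos h2
    | some v =>
      rw [fact_core_some hM hb hp h1 h2, fact_core_some hM hc hp (hD ▸ h1) (e ▸ h2)]

lemma core_idem {b : ℕ} (hM : 0 < M) (hb : b ∣ M) : core F (core F b) = core F b := by
  refine (core_congr hM hb (core_dvd hM hb) (same_core hM hb) (D_core hM hb).symm ?_).symm
  intro p _ h
  exact (fact_core_of_le hM hb h).symm

lemma core_mem {b : ℕ} (hM : 0 < M) (hb : b ∣ M) : core F b ∈ cores F := by
  unfold cores
  rw [Finset.mem_filter, Nat.mem_divisors]
  exact ⟨⟨core_dvd hM hb, hM.ne'⟩, core_idem hM hb⟩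

lemma mem_cores {G : ℕ} : G ∈ cores F ↔ (G ∣ M ∧ M ≠ 0) ∧ core F G = G := by
  unfold cores
  rw [Finset.mem_filter, Nat.mem_divisors]

/-! ### the modulus of a class -/

lemma PM_pos (G : ℕ) : 0 < PM F G := FL.prod_pos' _

lemma fact_PM {G p : ℕ} : (PM F G).factorization p =
    if p ∈ M.primeFactors then pmE F G p else 0 := FL.fact_prod _ _

lemma fact_PM_le {G p : ℕ} (h : p ≤ D F G) : (PM F G).factorization p = 0 := by
  rw [fact_PM]
  split_ifs with h1
  · unfold pmE
    rw [if_neg (by omega)]
  · rfl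

lemma fact_PM_none {G p : ℕ} (h : F.ctr G p = none) : (PM F G).factorization p = 0 := by
  rw [fact_PM]
  split_ifs with h1
  · unfold pmE
    simp only [h]
    split_ifs <;> rfl
  · rfl

lemma fact_PM_some {G p v : ℕ} (hM : 0 < M) (h : D F G < p) (hv : F.ctr G p = some v) :
    (PM F G).factorization p = M.factorization p - v := by
  rw [fact_PM]
  split_ifs with h1
  · unfold pmE
    simp only [hv, h, if_true]
  · rw [FL.fact_zero hM dvd_rfl h1]
    simp

/-- letters of a word of the class -/
lemma fact_word {G w p : ℕ} (hw : w ∣ PM F G) : w.factorization p ≤ (PM F G).factorization p := by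
  have hw0 : w ≠ 0 := (Nat.pos_of_dvd_of_pos hw (PM_pos G)).ne'
  exact (Nat.factorization_le_iff_dvd hw0 (PM_pos G).ne').2 hw p

lemma G_fact_some {G p v : ℕ} (hM : 0 < M) (hG : G ∈ cores F) (hp : p.Prime) (h : D F G < p)
    (hv : F.ctr G p = some v) : G.factorization p = v := by
  obtain ⟨⟨h1, _⟩, h2⟩ := mem_cores.1 hG
  have h3 := fact_core_some hM h1 hp h hv
  rwa [h2] at h3

lemma fact_mul_word {G w : ℕ} (hM : 0 < M) (hG : G ∈ cores F) (hw : w ∣ PM F G) (p : ℕ) :
    (G * w).factorization p = G.factorization p + w.factorization p := by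
  obtain ⟨⟨h1, _⟩, _⟩ := mem_cores.1 hG
  have hG0 : G ≠ 0 := (Nat.pos_of_dvd_of_pos h1 hM).ne'
  have hw0 : w ≠ 0 := (Nat.pos_of_dvd_of_pos hw (PM_pos G)).ne'
  rw [Nat.factorization_mul hG0 hw0, Finsupp.add_apply]

lemma mul_PM_dvd {G : ℕ} (hM : 0 < M) (hG : G ∈ cores F) : G * PM F G ∣ M := by
  obtain ⟨⟨h1, _⟩, _⟩ := mem_cores.1 hG
  have hG0 : G ≠ 0 := (Nat.pos_of_dvd_of_pos h1 hM).ne'
  rw [← Nat.factorization_prime_le_iff_dvd (mul_ne_zero hG0 (PM_pos G).ne') hM.ne']
  intro p hp
  rw [fact_mul_word hM hG dvd_rfl]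
  have hle : G.factorization p ≤ M.factorization p :=
    (Nat.factorization_le_iff_dvd hG0 hM.ne').2 h1 p
  by_cases h : p ≤ D F G
  · rw [fact_PM_le h]; omega
  · push Not at h
    cases h2 : F.ctr G p with
    | none => rw [fact_PM_none h2]; omega
    | some v =>
      rw [fact_PM_some hM h h2, G_fact_some hM hG hp h h2]
      have := F.le h1 hp h2
      omega

lemma mul_dvd {G w : ℕ} (hM : 0 < M) (hG : G ∈ cores F) (hw : w ∣ PM F G) : G * w ∣ M :=
  (Nat.mul_dvd_mul_left G hw).trans (mul_PM_dvd hM hG)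

lemma same_mul {G w : ℕ} (hM : 0 < M) (hG : G ∈ cores F) (hw : w ∣ PM F G) :
    F.same 0 G (G * w) := by
  intro q _ _ hn
  rw [fact_mul_word hM hG hw]
  have h1 := fact_word (p := q) hw
  rw [fact_PM_none hn] at h1
  omega

lemma ctr_mul {G w p : ℕ} (hM : 0 < M) (hG : G ∈ cores F) (hw : w ∣ PM F G) (hp : p.Prime) :
    F.ctr (G * w) p = F.ctr G p :=
  (ctr_of_same (mem_cores.1 hG).1.1 (mul_dvd hM hG hw) (same_mul hM hG hw) hp).symm

lemma D_mul {G w : ℕ} (hM : 0 < M) (hG : G ∈ cores F) (hw : w ∣ PM F G) :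
    D F (G * w) = D F G := by
  refine D_congr fun p hp => ?_
  have hpp := Nat.prime_of_mem_primeFactors hp
  unfold dfc
  rw [ctr_mul hM hG hw hpp, fact_mul_word hM hG hw]
  by_cases h : p ≤ D F G
  · have h1 := fact_word (p := p) hw
    rw [fact_PM_le h] at h1
    have : w.factorization p = 0 := by omega
    rw [this, add_zero]
  · push Not at h
    constructor
    · rintro ⟨v, h1, h2⟩
      have := G_fact_some hM hG hpp h h1
      omega
    · rintro ⟨v, h1, h2⟩
      have := G_fact_some hM hG hpp h h1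
      omega

lemma core_mul {G w : ℕ} (hM : 0 < M) (hG : G ∈ cores F) (hw : w ∣ PM F G) :
    core F (G * w) = G := by
  have h1 := (mem_cores.1 hG).1.1
  have h2 := (mem_cores.1 hG).2
  have h3 := core_congr hM h1 (mul_dvd hM hG hw) (same_mul hM hG hw) (D_mul hM hG hw).symm
    (fun p _ hp => by
      rw [fact_mul_word hM hG hw]
      have h1 := fact_word (p := p) hw
      rw [fact_PM_le hp] at h1
      omega)
  rw [← h3, h2]

lemma wd_mul {G w : ℕ} (hM : 0 < M) (hG : G ∈ cores F) (hw : w ∣ PM F G) :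
    wd F (G * w) = w := by
  have h1 := core_mul_wd (F := F) hM (mul_dvd hM hG hw)
  rw [core_mul hM hG hw] at h1
  have hG0 : 0 < G := Nat.pos_of_dvd_of_pos (mem_cores.1 hG).1.1 hM
  exact Nat.eq_of_mul_eq_mul_left hG0 h1

/-- the word of `b` is a divisor of the modulus of its class -/
lemma wd_dvd {b : ℕ} (hM : 0 < M) (hb : b ∣ M) : wd F b ∣ PM F (core F b) := by
  rw [← Nat.factorization_prime_le_iff_dvd (wd_pos b).ne' (PM_pos _).ne']
  intro p hp
  unfold wd
  rw [FL.fact_lam hM hb, fact_PM]
  by_cases hpm : p ∈ M.primeFactors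
  · simp only [hpm, if_true, FL.lamE, pmE, D_core hM hb, ctr_core hM hb hp]
    by_cases h : D F b < p
    · simp only [h, if_true]
      cases F.ctr b p with
      | none => simp
      | some v =>
        simp only
        have hb0 : b ≠ 0 := (Nat.pos_of_dvd_of_pos hb hM).ne'
        have := (Nat.factorization_le_iff_dvd hb0 hM.ne').2 hb p
        omega
    · simp [h]
  · simp [hpm]

/-! ### cuts -/

/-- excess word at every cut -/
theorem lam_class {G w : ℕ} (hM : 0 < M) (hG : G ∈ cores F) (hw : w ∣ PM F G) (x : ℕ) :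
    F.lam x (G * w) = F.lam x G * upp x w := by
  have hw0 : w ≠ 0 := (Nat.pos_of_dvd_of_pos hw (PM_pos G)).ne'
  have h1 := (mem_cores.1 hG).1.1
  refine eq_of_fact (FL.lam_pos _ _).ne' (mul_ne_zero (FL.lam_pos _ _).ne' (upp_pos _ _).ne')
    fun p hp => ?_
  rw [Nat.factorization_mul (FL.lam_pos _ _).ne' (upp_pos _ _).ne', Finsupp.add_apply,
    FL.fact_lam hM (mul_dvd hM hG hw), FL.fact_lam hM h1, fact_upp]
  have hwp := fact_word (p := p) hw
  by_cases hpm : p ∈ M.primeFactors
  · simp only [hpm, if_true, FL.lamE, ctr_mul hM hG hw hp, fact_mul_word hM hG hw]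
    by_cases hx : x < p
    · simp only [hx, if_true]
      rw [if_pos (by omega)]
      cases h2 : F.ctr G p with
      | none =>
        rw [fact_PM_none h2] at hwp
        simp only; omega
      | some v =>
        simp only
        by_cases hd : p ≤ D F G
        · rw [fact_PM_le hd] at hwp
          omega
        · have := G_fact_some hM hG hp (not_le.1 hd) h2
          omega
    · simp only [hx, if_false]
      rw [if_neg (by omega)]
  · simp only [hpm, if_false]
    rw [fact_PM, if_neg hpm] at hwp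
    split_ifs <;> omega

/-- `uu` at every cut -/
theorem uu_class {G w : ℕ} (hM : 0 < M) (hG : G ∈ cores F) (hw : w ∣ PM F G) (x : ℕ) :
    F.uu x (G * w) = F.uu x G * low x w := by
  have hw0 : w ≠ 0 := (Nat.pos_of_dvd_of_pos hw (PM_pos G)).ne'
  have h1 := FL.uu_mul_lam (F := F) (x := x) hM (mul_dvd hM hG hw)
  have h2 := FL.uu_mul_lam (F := F) (x := x) hM (mem_cores.1 hG).1.1
  have h3 := low_mul_upp x hw0
  rw [lam_class hM hG hw] at h1
  have h4 : F.uu x (G * w) * (F.lam x G * upp x w) =
      F.uu x G * low x w * (F.lam x G * upp x w) := by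
    rw [h1]
    calc G * w = (F.uu x G * F.lam x G) * (low x w * upp x w) := by rw [h2, h3]
      _ = _ := by ring
  exact Nat.eq_of_mul_eq_mul_right (Nat.mul_pos (FL.lam_pos _ _) (upp_pos _ _)) h4

/-- above `D` the core has no excess -/
lemma lam_core_of_le {G x : ℕ} (hM : 0 < M) (hG : G ∈ cores F) (hx : D F G ≤ x) :
    F.lam x G = 1 := by
  refine eq_of_fact (FL.lam_pos _ _).ne' one_ne_zero fun p hp => ?_
  rw [FL.fact_lam hM (mem_cores.1 hG).1.1, Nat.factorization_one, Finsupp.zero_apply]
  by_cases hpm : p ∈ M.primeFactors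
  · simp only [hpm, if_true, FL.lamE]
    by_cases h : x < p
    · simp only [h, if_true]
      cases h2 : F.ctr G p with
      | none => rfl
      | some v =>
        simp only
        have := G_fact_some hM hG hp (lt_of_le_of_lt hx h) h2
        omega
    · simp [h]
  · simp [hpm]

lemma uu_core_of_le {G x : ℕ} (hM : 0 < M) (hG : G ∈ cores F) (hx : D F G ≤ x) :
    F.uu x G = G := by
  have h := FL.uu_mul_lam (F := F) (x := x) hM (mem_cores.1 hG).1.1
  rwa [lam_core_of_le hM hG hx, mul_one] at h

/-! ### natural law and gcd -/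

lemma cof {G : ℕ} (hM : 0 < M) (hG : G ∈ cores F) : G * PM F G * RR F G = M :=
  Nat.mul_div_cancel' (mul_PM_dvd hM hG)

lemma RR_pos {G : ℕ} (hM : 0 < M) (hG : G ∈ cores F) : 0 < RR F G := by
  rcases Nat.eq_zero_or_pos (RR F G) with h | h
  · have := cof hM hG
    rw [h, mul_zero] at this
    omega
  · exact h

lemma coprime_RR {G : ℕ} (hM : 0 < M) (hG : G ∈ cores F) : Nat.Coprime (RR F G) (PM F G) := by
  refine Nat.coprime_of_dvd fun p hp h1 h2 => ?_
  have hG0 : G ≠ 0 := (Nat.pos_of_dvd_of_pos (mem_cores.1 hG).1.1 hM).ne'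
  have hc := cof hM hG
  have e : (G * PM F G * RR F G).factorization p = M.factorization p := by rw [hc]
  rw [Nat.factorization_mul (mul_ne_zero hG0 (PM_pos G).ne') (RR_pos hM hG).ne',
    Nat.factorization_mul hG0 (PM_pos G).ne', Finsupp.add_apply, Finsupp.add_apply] at e
  have h3 : 0 < (RR F G).factorization p :=
    hp.factorization_pos_of_dvd (RR_pos hM hG).ne' h1
  have h4 : 0 < (PM F G).factorization p := hp.factorization_pos_of_dvd (PM_pos G).ne' h2
  by_cases h : p ≤ D F G
  · rw [fact_PM_le h] at h4; omega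
  · push Not at h
    cases h5 : F.ctr G p with
    | none => rw [fact_PM_none h5] at h4; omega
    | some v =>
      rw [fact_PM_some hM h h5, G_fact_some hM hG hp h h5] at e
      rw [fact_PM_some hM h h5] at h4
      omega

theorem nu_class {G w : ℕ} (hM : 0 < M) (hG : G ∈ cores F) (hw : w ∣ PM F G) :
    nu M (G * w) = nu0 F G * nu (PM F G) w := by
  have hG0 : 0 < G := Nat.pos_of_dvd_of_pos (mem_cores.1 hG).1.1 hM
  have hw0 : 0 < w := Nat.pos_of_dvd_of_pos hw (PM_pos G)
  have hR := RR_pos hM hG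
  have hc := cof hM hG
  obtain ⟨u, hu⟩ := hw
  have h1 : M / (G * w) = RR F G * u := by
    refine Nat.div_eq_of_eq_mul_left (Nat.mul_pos hG0 hw0) ?_
    calc M = G * PM F G * RR F G := hc.symm
      _ = G * (w * u) * RR F G := by rw [← hu]
      _ = _ := by ring
  have h2 : PM F G / w = u := by
    refine Nat.div_eq_of_eq_mul_left hw0 ?_
    rw [hu]; ring
  have h3 : Nat.Coprime (RR F G) u :=
    (coprime_RR hM hG).coprime_dvd_right (by rw [hu]; exact Dvd.intro_left _ rfl)
  unfold nu nu0
  rw [h1, h2, Nat.totient_mul h3]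
  have hGR : (G : ℝ) ≠ 0 := by exact_mod_cast hG0.ne'
  have hRR : (RR F G : ℝ) ≠ 0 := by exact_mod_cast hR.ne'
  have hPP : (PM F G : ℝ) ≠ 0 := by exact_mod_cast (PM_pos (F := F) G).ne'
  have hMM : (M : ℝ) = G * PM F G * RR F G := by exact_mod_cast hc.symm
  rw [hMM]
  push_cast
  field_simp

lemma nu0_nonneg (G : ℕ) : 0 ≤ nu0 F G := by unfold nu0; positivity
lemma VR_nonneg (G : ℕ) : 0 ≤ VR F G := by unfold VR; positivity
lemma VR_le_one (G : ℕ) : VR F G ≤ 1 := by
  unfold VR
  refine div_le_one_of_le₀ ?_ (Nat.cast_nonneg _)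
  exact_mod_cast Nat.totient_le _

lemma mul_nu0 {G : ℕ} (hM : 0 < M) (hG : G ∈ cores F) : (G : ℝ) * nu0 F G = VR F G := by
  have hG0 : 0 < G := Nat.pos_of_dvd_of_pos (mem_cores.1 hG).1.1 hM
  have hR := RR_pos hM hG
  unfold nu0 VR
  have hGR : (G : ℝ) ≠ 0 := by exact_mod_cast hG0.ne'
  have hRR : (RR F G : ℝ) ≠ 0 := by exact_mod_cast hR.ne'
  field_simp

/-! ### decomposition of sums -/

/-- fibre of the core map -/
lemma fibre {G : ℕ} (hM : 0 < M) (hG : G ∈ cores F) :
    M.divisors.filter (fun b => core F b = G) = (PM F G).divisors.image (fun w => G * w) := by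
  ext b
  rw [Finset.mem_filter, Nat.mem_divisors, Finset.mem_image]
  constructor
  · rintro ⟨⟨hb, _⟩, h⟩
    refine ⟨wd F b, Nat.mem_divisors.2 ⟨?_, (PM_pos G).ne'⟩, ?_⟩
    · have := wd_dvd (F := F) hM hb
      rwa [h] at this
    · have := core_mul_wd (F := F) hM hb
      rwa [h] at this
  · rintro ⟨w, hw, rfl⟩
    have hw' := Nat.dvd_of_mem_divisors hw
    exact ⟨⟨mul_dvd hM hG hw', hM.ne'⟩, core_mul hM hG hw'⟩

theorem sum_class (hM : 0 < M) (f : ℕ → ℝ) :
    ∑ b ∈ M.divisors, f b = ∑ G ∈ cores F, ∑ w ∈ (PM F G).divisors, f (G * w) := by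
  classical
  rw [← Finset.sum_fiberwise_of_maps_to (g := core F) (t := cores F)
    (fun b hb => core_mem hM (Nat.dvd_of_mem_divisors hb))]
  refine Finset.sum_congr rfl fun G hG => ?_
  rw [fibre hM hG, Finset.sum_image]
  intro w _ w' _ h
  have hG0 : 0 < G := Nat.pos_of_dvd_of_pos (mem_cores.1 hG).1.1 hM
  exact Nat.eq_of_mul_eq_mul_left hG0 h

/-- **expectation** -/
theorem Ex_class (F : FL M) (hM : 0 < M) (f : ℕ → ℝ) :
    Ex M f = ∑ G ∈ cores F, nu0 F G * Ex (PM F G) (fun w => f (G * w)) := by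
  unfold Ex
  rw [sum_class (F := F) hM]
  refine Finset.sum_congr rfl fun G hG => ?_
  rw [Finset.mul_sum]
  refine Finset.sum_congr rfl fun w hw => ?_
  rw [nu_class hM hG (Nat.dvd_of_mem_divisors hw)]
  ring

/-! ### prefix pairs -/

/-- prefix pair: equal letters below the smallest differing prime, minimum `0` at and above it -/
def PP (w w' : ℕ) : Prop :=
  w ≠ w' ∧ ∀ q, q.Prime → (∃ r, r.Prime ∧ r ≤ q ∧ w.factorization r ≠ w'.factorization r) →
    min (w.factorization q) (w'.factorization q) = 0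

lemma PP.symm {w w' : ℕ} (h : PP w w') : PP w' w :=
  ⟨h.1.symm, fun q hq ⟨r, h1, h2, h3⟩ => by
    rw [min_comm]; exact h.2 q hq ⟨r, h1, h2, h3.symm⟩⟩

lemma pureG_same {b c : ℕ} (h : PureG F b c) : F.same 0 b c := by
  intro q hq _ hn
  by_contra hne
  exact hne ((h.2 q hq ⟨q, hq, le_rfl, hne⟩).1 hn)

/-- **pure pairs lie in one class** -/
theorem pureG_core {b c : ℕ} (hM : 0 < M) (hb : b ∣ M) (hc : c ∣ M) (h : PureG F b c) :
    core F b = core F c := by
  have hs := pureG_same h
  -- no deficit at or above a differing prime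
  have key : ∀ r p, r.Prime → p.Prime → r ≤ p → b.factorization r ≠ c.factorization r →
      ¬ dfc F b p ∧ ¬ dfc F c p := by
    intro r p hr hp hrp hne
    have h2 := (h.2 p hp ⟨r, hr, hrp, hne⟩).2
    constructor
    · rintro ⟨v, h3, h4⟩
      have := h2 v h3
      omega
    · rintro ⟨v, h3, h4⟩
      rw [← ctr_of_same hb hc hs hp] at h3
      have := h2 v h3
      omega
  have hD : D F b = D F c := by
    refine D_congr fun p hp => ?_
    have hpp := Nat.prime_of_mem_primeFactors hp
    by_cases h1 : b.factorization p = c.factorization p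
    · unfold dfc
      rw [ctr_of_same hb hc hs hpp, h1]
    · have := key p p hpp hpp le_rfl h1
      tauto
  refine core_congr hM hb hc hs hD fun p hp hpD => ?_
  by_contra hne
  -- `D F b ≥ p` is a deficit prime or `0`
  classical
  have hpos : 0 < D F b := lt_of_lt_of_le hp.pos hpD
  have hne' : (M.primeFactors.filter (fun p => dfc F b p)).Nonempty := by
    by_contra he
    rw [Finset.not_nonempty_iff_eq_empty] at he
    unfold D at hpos
    rw [he] at hpos
    simp at hpos
  obtain ⟨d, hd, hd2⟩ := Finset.exists_mem_eq_sup _ hne' (id : ℕ → ℕ)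
  rw [Finset.mem_filter] at hd
  have hd3 : D F b = d := by unfold D; exact hd2
  exact (key p d hp (Nat.prime_of_mem_primeFactors hd.1) (hd3 ▸ hpD) hne).1 hd.2

/-- pure pairs of one class = prefix pairs of words -/
theorem pureG_iff {G w w' : ℕ} (hM : 0 < M) (hG : G ∈ cores F) (hw : w ∣ PM F G)
    (hw' : w' ∣ PM F G) : PureG F (G * w) (G * w') ↔ PP w w' := by
  have hG0 : 0 < G := Nat.pos_of_dvd_of_pos (mem_cores.1 hG).1.1 hM
  have hfe : ∀ p, (G * w).factorization p ≠ (G * w').factorization p ↔
      w.factorization p ≠ w'.factorization p := by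
    intro p
    rw [fact_mul_word hM hG hw, fact_mul_word hM hG hw']
    omega
  have hbig : ∀ p, w.factorization p ≠ w'.factorization p → D F G < p := by
    intro p h
    by_contra hc
    have h1 := fact_word (p := p) hw
    have h2 := fact_word (p := p) hw'
    rw [fact_PM_le (not_lt.1 hc)] at h1 h2
    omega
  constructor
  · rintro ⟨h1, h2⟩
    refine ⟨fun h => h1 (by rw [h]), fun q hq hr => ?_⟩
    obtain ⟨r, hr1, hr2, hr3⟩ := hr
    have h3 := h2 q hq ⟨r, hr1, hr2, (hfe r).2 hr3⟩
    rw [ctr_mul hM hG hw hq, fact_mul_word hM hG hw, fact_mul_word hM hG hw'] at h3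
    have hDq : D F G < q := lt_of_lt_of_le (hbig r hr3) hr2
    cases h4 : F.ctr G q with
    | none =>
      have h5 := fact_word (p := q) hw
      rw [fact_PM_none h4] at h5
      omega
    | some v =>
      have h5 := h3.2 v h4
      have h6 := G_fact_some hM hG hq hDq h4
      omega
  · rintro ⟨h1, h2⟩
    refine ⟨fun h => h1 (Nat.eq_of_mul_eq_mul_left hG0 h), fun q hq hr => ?_⟩
    obtain ⟨r, hr1, hr2, hr3⟩ := hr
    have hr3' := (hfe r).1 hr3
    have h3 := h2 q hq ⟨r, hr1, hr2, hr3'⟩
    have hDq : D F G < q := lt_of_lt_of_le (hbig r hr3') hr2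
    rw [ctr_mul hM hG hw hq, fact_mul_word hM hG hw, fact_mul_word hM hG hw']
    constructor
    · intro h4
      have h5 := fact_word (p := q) hw
      have h6 := fact_word (p := q) hw'
      rw [fact_PM_none h4] at h5 h6
      omega
    · intro v h4
      have h6 := G_fact_some hM hG hq hDq h4
      omega

open Classical in
/-- **the pair form of the pure pairs is a sum over prefix worlds** -/
theorem frm_class (F : FL M) (hM : 0 < M) (K : ℕ → ℕ → ℝ) :
    frm M (fun b c => if PureG F b c then K b c else 0) =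
      ∑ G ∈ cores F, VR F G * nu0 F G *
        frm (PM F G) (fun w w' => if PP w w' then K (G * w) (G * w') else 0) := by
  unfold frm
  rw [sum_class (F := F) hM]
  refine Finset.sum_congr rfl fun G hG => ?_
  rw [Finset.mul_sum]
  refine Finset.sum_congr rfl fun w hw => ?_
  have hw' := Nat.dvd_of_mem_divisors hw
  have hGw := mul_dvd hM hG hw'
  rw [sum_class (F := F) hM, Finset.sum_eq_single G]
  · rw [Finset.mul_sum]
    refine Finset.sum_congr rfl fun u hu => ?_
    have hu' := Nat.dvd_of_mem_divisors hu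
    rw [nu_class hM hG hw', nu_class hM hG hu', Nat.gcd_mul_left, ← mul_nu0 hM hG]
    simp only [pureG_iff hM hG hw' hu']
    push_cast
    ring
  · intro G' hG' hne
    refine Finset.sum_eq_zero fun u hu => ?_
    have hu' := Nat.dvd_of_mem_divisors hu
    beta_reduce
    rw [if_neg, mul_zero]
    intro h
    have h2 := pureG_core hM hGw (mul_dvd hM hG' hu') h
    rw [core_mul hM hG hw', core_mul hM hG' hu'] at h2
    exact hne h2.symm
  · intro h
    exact absurd hG h

open Classical in
/-- **transfer**: a bound for every prefix world gives the bound for the pure pairs of `F` -/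
theorem transfer (F : FL M) (hM : 0 < M) (K : ℕ → ℕ → ℝ) (f : ℕ → ℝ) (C : ℝ)
    (h : ∀ G ∈ cores F, VR F G *
      frm (PM F G) (fun w w' => if PP w w' then K (G * w) (G * w') else 0) ≤
        C * Ex (PM F G) (fun w => f (G * w))) :
    frm M (fun b c => if PureG F b c then K b c else 0) ≤ C * Ex M f := by
  rw [frm_class F hM, Ex_class F hM, Finset.mul_sum]
  refine Finset.sum_le_sum fun G hG => ?_
  have h1 := mul_le_mul_of_nonneg_left (h G hG) (nu0_nonneg (F := F) G)
  calc _ = nu0 F G * (VR F G *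
      frm (PM F G) (fun w w' => if PP w w' then K (G * w) (G * w') else 0)) := by ring
    _ ≤ _ := h1
    _ = _ := by ring

end Crest.Agent.R4C.PureClsx863
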