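import Crest.Agent.R4C.GWhyp_656
import Crest.Agent.R4C.PureCls_863

/-!
# Row 4, GW section: natural mass of an event of a cell (b-LAW) (helper276)

* `nu_pred`   : `∑_{u ∣ N, E u} ν_N u ≤ ∑_{S ⊆ primes of N, E (∏ S)} law S + ∑_{p ∣ N} 1/p²`.
* `nu_pred_y` : `+ 2/y` if all primes of `N` are `≥ y ≥ 1`.
* `nu_law_y`  : the hypothesis is a bound `≤ s` for the law sum.
* `nu_split`  : `ν_N (n u) = ν_{low N} n * ν_{upp N} u`.
* `cell_law`  : words `b = G * (n * u)` of a class of `PureCls_863` with fixed low part `n`.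
-/

set_option autoImplicit false

open Finset
open Crest.Agent.R4C.Basex935 Crest.Agent.R4C.Cutx50 Crest.Agent.R4C.FLDefx935
open Crest.Agent.R4C.PureL2x232 Crest.Agent.R4C.PureClsx863 Crest.Agent.R4C.GWhx656

namespace Crest.Agent.R4C.CellLawx276

open Classical in
/-- **b-LAW** -/
theorem nu_pred {N : ℕ} (hN : 0 < N) (E : ℕ → Prop) :
    ∑ u ∈ N.divisors with E u, nu N u ≤
      ∑ S ∈ N.primeFactors.powerset with E (∏ p ∈ S, p), law N.primeFactors S +
        ∑ p ∈ N.primeFactors, (1 : ℝ) / (p : ℝ) ^ 2 := by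
  have hsplit : ∑ u ∈ N.divisors with E u, nu N u ≤
      ∑ u ∈ N.divisors with (E u ∧ Squarefree u), nu N u +
        ∑ u ∈ N.divisors with ¬ Squarefree u, nu N u := by
    refine le_trans (sum_le_sum_of_subset_of_nonneg (t := (N.divisors.filter
      fun u => E u ∧ Squarefree u) ∪ (N.divisors.filter fun u => ¬ Squarefree u)) ?_
      fun b _ _ => nu_nonneg N b) ?_
    · intro u hu
      rw [mem_filter] at hu
      rw [mem_union, mem_filter, mem_filter]
      by_cases h : Squarefree u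
      · exact Or.inl ⟨hu.1, hu.2, h⟩
      · exact Or.inr ⟨hu.1, h⟩
    · rw [← sum_union_inter]
      exact le_add_of_nonneg_right (sum_nonneg fun b _ => nu_nonneg N b)
  refine hsplit.trans (add_le_add ?_ (sum_nu_nonsq hN))
  have hinj : ∀ u ∈ N.divisors.filter (fun u => E u ∧ Squarefree u),
      ∏ p ∈ u.primeFactors, p = u := fun u hu =>
    Nat.prod_primeFactors_of_squarefree (mem_filter.1 hu).2.2
  calc ∑ u ∈ N.divisors with (E u ∧ Squarefree u), nu N u
      ≤ ∑ u ∈ N.divisors with (E u ∧ Squarefree u), law N.primeFactors u.primeFactors := by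
        refine sum_le_sum fun u hu => ?_
        rw [mem_filter] at hu
        exact nu_le_law hN (Nat.dvd_of_mem_divisors hu.1) hu.2.2
    _ = ∑ S ∈ (N.divisors.filter fun u => E u ∧ Squarefree u).image Nat.primeFactors,
          law N.primeFactors S := by
        rw [sum_image]
        intro u hu v hv h
        have h' : u.primeFactors = v.primeFactors := h
        rw [← hinj u hu, ← hinj v hv, h']
    _ ≤ _ := by
        refine sum_le_sum_of_subset_of_nonneg ?_ fun S hS _ => law_nonneg fun p hp =>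
          (Nat.prime_of_mem_primeFactors hp).one_lt.le
        intro S hS
        rw [mem_image] at hS
        obtain ⟨u, hu, rfl⟩ := hS
        rw [mem_filter, mem_powerset, hinj u hu]
        have hu' := mem_filter.1 hu
        exact ⟨Nat.primeFactors_mono (Nat.dvd_of_mem_divisors hu'.1) hN.ne', hu'.2.1⟩

/-- `∑_{p ∈ P} 1/p² ≤ 2/y` for primes `> y` -/
lemma sum_sq_le {P : Finset ℕ} {y : ℕ} (hy : 1 ≤ y) (hP : ∀ p ∈ P, y < p) :
    ∑ p ∈ P, (1 : ℝ) / (p : ℝ) ^ 2 ≤ 2 / y := by
  have h1 : P ⊆ Ioo y (P.sup id + 1) := by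
    intro p hp
    rw [mem_Ioo]
    exact ⟨hP p hp, Nat.lt_succ_of_le (Finset.le_sup (f := id) hp)⟩
  calc _ ≤ ∑ i ∈ Ioo y (P.sup id + 1), ((i : ℝ) ^ 2)⁻¹ := by
        simp only [one_div]
        exact sum_le_sum_of_subset_of_nonneg h1 fun i _ _ => by positivity
    _ ≤ 2 / ((y : ℝ) + 1) := sum_Ioo_inv_sq_le _ _
    _ ≤ 2 / y := by
        have : (1 : ℝ) ≤ y := by exact_mod_cast hy
        gcongr
        linarith

open Classical in
/-- **b-LAW**, primes `> y` -/
theorem nu_pred_y {N : ℕ} (hN : 0 < N) {y : ℕ} (hy : 1 ≤ y) (hP : ∀ p ∈ N.primeFactors, y < p)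
    (E : ℕ → Prop) {s : ℝ}
    (hs : ∑ S ∈ N.primeFactors.powerset with E (∏ p ∈ S, p), law N.primeFactors S ≤ s) :
    ∑ u ∈ N.divisors with E u, nu N u ≤ s + 2 / y :=
  (nu_pred hN E).trans (add_le_add hs (sum_sq_le hy hP))

/-! ### cells: fixed low part -/

lemma prime_upp {y N p : ℕ} (hp : p ∈ (upp y N).primeFactors) : y < p := by
  rw [Nat.mem_primeFactors] at hp
  have h := hp.1.factorization_pos_of_dvd hp.2.2 hp.2.1
  rw [fact_upp] at h
  by_contra hc
  push Not at hc
  simp [hc] at h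

/-- words with a fixed part below `y` -/
lemma sum_low_fix {N : ℕ} (hN : 0 < N) (y : ℕ) {n : ℕ} (hn : n ∣ low y N) (f : ℕ → ℝ) :
    ∑ w ∈ N.divisors with low y w = n, f w = ∑ u ∈ (upp y N).divisors, f (n * u) := by
  classical
  rw [sum_filter, sum_low_upp hN y (fun w => if low y w = n then f w else 0)]
  refine sum_congr rfl fun T hT => ?_
  have hT' := Nat.dvd_of_mem_divisors hT
  rw [sum_eq_single n]
  · rw [if_pos (low_of_mul hn hT')]
  · intro n' hn' hne
    rw [if_neg]
    rw [low_of_mul (Nat.dvd_of_mem_divisors hn') hT']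
    exact hne
  · intro h
    exact absurd (Nat.mem_divisors.2 ⟨hn, (low_pos _ _).ne'⟩) h

open Classical in
/-- natural mass of an event of the cell `low y w = n` -/
theorem cell_low {N : ℕ} (hN : 0 < N) (y : ℕ) {n : ℕ} (hn : n ∣ low y N) (E : ℕ → Prop) :
    ∑ w ∈ N.divisors with (low y w = n ∧ E (upp y w)), nu N w =
      nu (low y N) n * ∑ u ∈ (upp y N).divisors with E u, nu (upp y N) u := by
  have h1 : ∑ w ∈ N.divisors with (low y w = n ∧ E (upp y w)), nu N w =
      ∑ w ∈ N.divisors with low y w = n, if E (upp y w) then nu N w else 0 := by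
    rw [← filter_filter, sum_filter (fun w => E (upp y w))]
  rw [h1, sum_low_fix hN y hn (fun w => if E (upp y w) then nu N w else 0), mul_sum, sum_filter]
  refine sum_congr rfl fun u hu => ?_
  have hu' := Nat.dvd_of_mem_divisors hu
  rw [upp_of_mul hn hu', nu_low_upp hN hn hu']

open Classical in
/-- **cell law**: `≤ ν(cell) (s + 2/y)` -/
theorem cell_low_le {N : ℕ} (hN : 0 < N) {y : ℕ} (hy : 1 ≤ y) {n : ℕ} (hn : n ∣ low y N)
    (E : ℕ → Prop) {s : ℝ} (hs : ∑ S ∈ (upp y N).primeFactors.powerset with E (∏ p ∈ S, p),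
      law (upp y N).primeFactors S ≤ s) :
    ∑ w ∈ N.divisors with (low y w = n ∧ E (upp y w)), nu N w ≤
      nu (low y N) n * (s + 2 / y) := by
  rw [cell_low hN y hn E]
  exact mul_le_mul_of_nonneg_left (nu_pred_y (upp_pos _ _) hy (fun p hp => prime_upp hp) E hs)
    (nu_nonneg _ _)

/-- mass of the cell itself -/
lemma cell_mass {N : ℕ} (hN : 0 < N) (y : ℕ) {n : ℕ} (hn : n ∣ low y N) :
    ∑ w ∈ N.divisors with low y w = n, nu N w = nu (low y N) n := by
  rw [sum_low_fix hN y hn (fun w => nu N w)]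
  have h1 : ∀ u ∈ (upp y N).divisors, nu N (n * u) = nu (low y N) n * nu (upp y N) u :=
    fun u hu => nu_low_upp hN hn (Nat.dvd_of_mem_divisors hu)
  rw [sum_congr rfl h1, ← mul_sum, Basex935.sum_nu (upp_pos _ _), mul_one]

/-! ### cells of a class of `PureCls_863` -/

section cls

variable {M : ℕ} (F : FL M)

open Classical in
/-- sums over a class -/
lemma sum_cls {G : ℕ} (hM : 0 < M) (hG : G ∈ cores F) (f : ℕ → ℝ) :
    ∑ b ∈ M.divisors with core F b = G, f b = ∑ w ∈ (PM F G).divisors, f (G * w) := by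
  rw [fibre hM hG, sum_image]
  intro w _ w' _ h
  have hG0 : 0 < G := Nat.pos_of_dvd_of_pos (mem_cores.1 hG).1.1 hM
  exact Nat.eq_of_mul_eq_mul_left hG0 h

open Classical in
/-- natural mass of an event of the cell (core `G`, word part `n` below `y`) -/
theorem cell_cls {G : ℕ} (hM : 0 < M) (hG : G ∈ cores F) (y : ℕ) {n : ℕ}
    (hn : n ∣ low y (PM F G)) (E : ℕ → Prop) :
    ∑ b ∈ M.divisors with (core F b = G ∧ low y (wd F b) = n ∧ E (upp y (wd F b))), nu M b =
      nu0 F G * nu (low y (PM F G)) n *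
        ∑ u ∈ (upp y (PM F G)).divisors with E u, nu (upp y (PM F G)) u := by
  have h1 : ∑ b ∈ M.divisors with (core F b = G ∧ low y (wd F b) = n ∧ E (upp y (wd F b))),
      nu M b = ∑ b ∈ M.divisors with core F b = G,
        if (low y (wd F b) = n ∧ E (upp y (wd F b))) then nu M b else 0 := by
    rw [← filter_filter, sum_filter (fun b => low y (wd F b) = n ∧ E (upp y (wd F b)))]
  rw [h1, sum_cls F hM hG (fun b => if (low y (wd F b) = n ∧ E (upp y (wd F b))) then nu M b
    else 0), mul_assoc, ← cell_low (PM_pos G) y hn E, sum_filter, mul_sum]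
  refine sum_congr rfl fun w hw => ?_
  have hw' := Nat.dvd_of_mem_divisors hw
  rw [wd_mul hM hG hw', nu_class hM hG hw']
  split_ifs <;> simp

open Classical in
/-- **cell law over a class** -/
theorem cell_cls_le {G : ℕ} (hM : 0 < M) (hG : G ∈ cores F) {y : ℕ} (hy : 1 ≤ y) {n : ℕ}
    (hn : n ∣ low y (PM F G)) (E : ℕ → Prop) {s : ℝ}
    (hs : ∑ S ∈ (upp y (PM F G)).primeFactors.powerset with E (∏ p ∈ S, p),
      law (upp y (PM F G)).primeFactors S ≤ s) :
    ∑ b ∈ M.divisors with (core F b = G ∧ low y (wd F b) = n ∧ E (upp y (wd F b))), nu M b ≤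
      nu0 F G * nu (low y (PM F G)) n * (s + 2 / y) := by
  rw [cell_cls F hM hG y hn E]
  exact mul_le_mul_of_nonneg_left (nu_pred_y (upp_pos _ _) hy (fun p hp => prime_upp hp) E hs)
    (mul_nonneg (nu0_nonneg G) (nu_nonneg _ _))

open Classical in
/-- mass of the cell of a class -/
theorem cell_cls_mass {G : ℕ} (hM : 0 < M) (hG : G ∈ cores F) (y : ℕ) {n : ℕ}
    (hn : n ∣ low y (PM F G)) :
    ∑ b ∈ M.divisors with (core F b = G ∧ low y (wd F b) = n), nu M b =
      nu0 F G * nu (low y (PM F G)) n := by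
  have h := cell_cls F hM hG y hn (fun _ => True)
  simp only [and_true, filter_true] at h
  rw [h, Basex935.sum_nu (upp_pos _ _), mul_one]

open Classical in
/-- **cell law**, relative form: `ν(cell ∩ E) ≤ ν(cell) (s + 2/y)` -/
theorem cell_rel {G : ℕ} (hM : 0 < M) (hG : G ∈ cores F) {y : ℕ} (hy : 1 ≤ y) {n : ℕ}
    (hn : n ∣ low y (PM F G)) (E : ℕ → Prop) {s : ℝ}
    (hs : ∑ S ∈ (upp y (PM F G)).primeFactors.powerset with E (∏ p ∈ S, p),
      law (upp y (PM F G)).primeFactors S ≤ s) :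
    ∑ b ∈ M.divisors with (core F b = G ∧ low y (wd F b) = n ∧ E (upp y (wd F b))), nu M b ≤
      (∑ b ∈ M.divisors with (core F b = G ∧ low y (wd F b) = n), nu M b) * (s + 2 / y) := by
  rw [cell_cls_mass F hM hG y hn]
  exact cell_cls_le F hM hG hy hn E hs

end cls

end Crest.Agent.R4C.CellLawx276
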