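import Crest.Agent.R4C.PureCls_863

/-!
# Row 4, GW section: gap nodes of a prefix world and nested cells (helper863)

* `floor_same`, `linked_cell` : a linked pair lies in one cell for `σ = 0` or `σ = 1/2`.
* `Nc`, `cell_mono` : cells at `e ∣ e'` are nested (`Q e * μ = e`).
* `mesh` : `μ = e₁ / ⌊e₁ / (2L)⌋`, `2L ≤ μ ≤ 3L`, `μ * Q = e` for `e₁ ∣ e`.
* `lev L e` = `m` with `2^m L ≤ e < 2^(m+1) L`.
* `Gap cut L G w e` : `e = G * low (cut (lev e)) w` (gap node of the word `w`);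
  `gap_nested`, `gap_dvd`, `gap_trans`.
* `gap_of_pair` : a prefix pair with gcd `G * n`, all differing primes above the cut and
  `L ≤ e / q` for the prime factors `q` of `n` gives a gap node of both words.
-/

set_option autoImplicit false

open Finset
open Crest.Agent.R4C.Basex935 Crest.Agent.R4C.Cutx50

namespace Crest.Agent.R4C.Cellx863

/-! ### cells -/

/-- two reals at distance `< 1/2` are not separated by one of the two grids -/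
lemma floor_same {X Y : ℝ} (h : |X - Y| < 1 / 2) : ⌊X⌋ = ⌊Y⌋ ∨ ⌊X + 1 / 2⌋ = ⌊Y + 1 / 2⌋ := by
  have key : ∀ {X Y : ℝ}, X ≤ Y → |X - Y| < 1 / 2 →
      ⌊X⌋ = ⌊Y⌋ ∨ ⌊X + 1 / 2⌋ = ⌊Y + 1 / 2⌋ := by
    intro X Y hXY h
    have hd : Y - X < 1 / 2 := by
      rw [abs_sub_comm, abs_of_nonneg (by linarith)] at h; exact h
    by_contra hc
    push Not at hc
    obtain ⟨h1, h2⟩ := hc
    have m1 : ⌊X⌋ < ⌊Y⌋ := lt_of_le_of_ne (Int.floor_mono hXY) h1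
    have m2 : ⌊X + 1 / 2⌋ < ⌊Y + 1 / 2⌋ :=
      lt_of_le_of_ne (Int.floor_mono (by linarith)) h2
    have a1 : X < (⌊Y⌋ : ℝ) := Int.floor_lt.1 m1
    have a2 : (⌊Y⌋ : ℝ) ≤ Y := Int.floor_le _
    have b1 : X + 1 / 2 < (⌊Y + 1 / 2⌋ : ℝ) := Int.floor_lt.1 m2
    have b2 : (⌊Y + 1 / 2⌋ : ℝ) ≤ Y + 1 / 2 := Int.floor_le _
    -- `n = ⌊Y⌋`, `n' = ⌊Y + 1/2⌋`, both in an interval of length `< 1/2` up to a shift by `1/2`
    have c1 : (⌊Y⌋ : ℝ) - (⌊Y + 1 / 2⌋ : ℝ) < 0 := by linarith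
    have c2 : (⌊Y + 1 / 2⌋ : ℝ) - (⌊Y⌋ : ℝ) < 1 := by linarith
    have c1' : ⌊Y⌋ < ⌊Y + 1 / 2⌋ := by exact_mod_cast (sub_neg.1 c1)
    have c2' : ⌊Y + 1 / 2⌋ < ⌊Y⌋ + 1 := by
      have : (⌊Y + 1 / 2⌋ : ℝ) < ((⌊Y⌋ + 1 : ℤ) : ℝ) := by push_cast; linarith
      exact_mod_cast this
    omega
  rcases le_total X Y with h1 | h1
  · exact key h1 h
  · have h2 : |Y - X| < 1 / 2 := by rwa [abs_sub_comm]
    rcases key h1 h2 with h3 | h3
    · exact Or.inl h3.symm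
    · exact Or.inr h3.symm

/-- cell number -/
noncomputable def Nc (γ μ σ : ℝ) (b : ℕ) : ℤ := ⌊(b : ℝ) * γ / μ + σ⌋

/-- rounded position of `bγ` -/
noncomputable def rp (γ μ σ : ℝ) (b : ℕ) : ℝ := ((Nc γ μ σ b : ℝ) - σ) * μ

lemma rp_le {γ μ σ : ℝ} (hμ : 0 < μ) (b : ℕ) : rp γ μ σ b ≤ b * γ := by
  unfold rp Nc
  have h := Int.floor_le ((b : ℝ) * γ / μ + σ)
  have h2 : ((⌊(b : ℝ) * γ / μ + σ⌋ : ℝ) - σ) ≤ (b : ℝ) * γ / μ := by linarith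
  calc _ ≤ (b : ℝ) * γ / μ * μ := mul_le_mul_of_nonneg_right h2 hμ.le
    _ = _ := by field_simp

lemma lt_rp {γ μ σ : ℝ} (hμ : 0 < μ) (b : ℕ) : b * γ < rp γ μ σ b + μ := by
  unfold rp Nc
  have h := Int.lt_floor_add_one ((b : ℝ) * γ / μ + σ)
  have h2 : (b : ℝ) * γ / μ < ((⌊(b : ℝ) * γ / μ + σ⌋ : ℝ) - σ) + 1 := by linarith
  calc (b : ℝ) * γ = (b : ℝ) * γ / μ * μ := by field_simp
    _ < (((⌊(b : ℝ) * γ / μ + σ⌋ : ℝ) - σ) + 1) * μ := mul_lt_mul_of_pos_right h2 hμ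
    _ = _ := by ring

lemma abs_rp {γ μ σ : ℝ} (hμ : 0 < μ) (b : ℕ) : |(b : ℝ) * γ - rp γ μ σ b| ≤ μ := by
  rw [abs_le]
  have h1 := rp_le (γ := γ) (σ := σ) hμ b
  have h2 := lt_rp (γ := γ) (σ := σ) hμ b
  constructor <;> linarith

/-- two words of one cell at `e`: the rounded positions agree modulo `e` -/
lemma rp_congr {γ μ σ : ℝ} {e Q b c : ℕ} (hQ : (Q : ℝ) * μ = e)
    (h : Nc γ μ σ b ≡ Nc γ μ σ c [ZMOD Q]) :
    ∃ z : ℤ, rp γ μ σ b = rp γ μ σ c + z * e := by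
  obtain ⟨z, hz⟩ := (Int.modEq_iff_dvd.1 h.symm)
  refine ⟨z, ?_⟩
  unfold rp
  have : (Nc γ μ σ b : ℝ) - (Nc γ μ σ c : ℝ) = (Q : ℝ) * z := by exact_mod_cast hz
  calc ((Nc γ μ σ b : ℝ) - σ) * μ
      = ((Nc γ μ σ c : ℝ) - σ) * μ + ((Nc γ μ σ b : ℝ) - (Nc γ μ σ c : ℝ)) * μ := by ring
    _ = ((Nc γ μ σ c : ℝ) - σ) * μ + z * ((Q : ℝ) * μ) := by rw [this]; ring
    _ = _ := by rw [hQ]

/-- cells are nested -/
lemma cell_mono {x y : ℤ} {Q Q' : ℕ} (h : Q ∣ Q') (hc : x ≡ y [ZMOD Q']) : x ≡ y [ZMOD Q] :=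
  hc.of_dvd (by exact_mod_cast h)

/-- **a linked pair lies in one cell of one of the two grids** -/
theorem linked_cell {γ μ L : ℝ} {e Q b c : ℕ} (hμ : 0 < μ) (hL : 2 * L ≤ μ)
    (hQ : (Q : ℝ) * μ = e) {k : ℤ} (h : |((b : ℝ) - c) * γ + (e : ℝ) * k| < L) :
    Nc γ μ 0 b ≡ Nc γ μ 0 c [ZMOD Q] ∨ Nc γ μ (1 / 2) b ≡ Nc γ μ (1 / 2) c [ZMOD Q] := by
  have hd : |(b : ℝ) * γ / μ - ((c : ℝ) * γ / μ - (Q : ℝ) * k)| < 1 / 2 := by
    have e1 : (b : ℝ) * γ / μ - ((c : ℝ) * γ / μ - (Q : ℝ) * k) =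
        (((b : ℝ) - c) * γ + (e : ℝ) * k) / μ := by
      rw [← hQ]; field_simp; ring
    rw [e1, abs_div, abs_of_pos hμ, div_lt_iff₀ hμ]
    linarith
  have conv : ∀ σ : ℝ, ⌊(b : ℝ) * γ / μ + σ⌋ = ⌊(c : ℝ) * γ / μ - (Q : ℝ) * k + σ⌋ →
      Nc γ μ σ b ≡ Nc γ μ σ c [ZMOD Q] := by
    intro σ hs
    unfold Nc
    rw [hs]
    have e2 : (c : ℝ) * γ / μ - (Q : ℝ) * k + σ = ((c : ℝ) * γ / μ + σ) - (((Q : ℤ) * k : ℤ) : ℝ) := by
      push_cast; ring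
    rw [e2, Int.floor_sub_intCast]
    exact (Int.modEq_iff_dvd.2 ⟨k, by ring⟩)
  rcases floor_same hd with h1 | h1
  · left
    refine conv 0 ?_
    rw [add_zero, add_zero]; exact h1
  · right
    exact conv (1 / 2) h1

/-- the form of `Lnk` -/
theorem linked_cell' {γ μ L : ℝ} {e Q b c g : ℕ} (hμ : 0 < μ) (hL : 2 * L ≤ μ)
    (hQ : (Q : ℝ) * μ = e) (hg : 0 < g) (heg : e ∣ g) (hb : g ∣ b) (hc : g ∣ c) {h : ℤ}
    (hl : |(((b / g : ℕ) : ℝ) - ((c / g : ℕ) : ℝ)) * γ + h| < L / g) :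
    Nc γ μ 0 b ≡ Nc γ μ 0 c [ZMOD Q] ∨ Nc γ μ (1 / 2) b ≡ Nc γ μ (1 / 2) c [ZMOD Q] := by
  obtain ⟨d, rfl⟩ := heg
  have hgR : (0 : ℝ) < ((e * d : ℕ) : ℝ) := by exact_mod_cast hg
  refine linked_cell (k := (d : ℤ) * h) hμ hL hQ ?_
  have e1 : (b : ℝ) = ((e * d : ℕ) : ℝ) * ((b / (e * d) : ℕ) : ℝ) := by
    exact_mod_cast (Nat.mul_div_cancel' hb).symm
  have e2 : (c : ℝ) = ((e * d : ℕ) : ℝ) * ((c / (e * d) : ℕ) : ℝ) := by
    exact_mod_cast (Nat.mul_div_cancel' hc).symm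
  have e3 : ((b : ℝ) - c) * γ + (e : ℝ) * (((d : ℤ) * h : ℤ) : ℝ) =
      ((e * d : ℕ) : ℝ) * ((((b / (e * d) : ℕ) : ℝ) - ((c / (e * d) : ℕ) : ℝ)) * γ + h) := by
    conv_lhs => rw [e1, e2]
    push_cast
    ring
  rw [e3, abs_mul, abs_of_pos hgR]
  rw [lt_div_iff₀ hgR] at hl
  linarith

/-! ### the mesh -/

/-- number of cells at the first node -/
noncomputable def Q1 (L : ℝ) (e₁ : ℕ) : ℕ := ⌊(e₁ : ℝ) / (2 * L)⌋₊

/-- mesh -/
noncomputable def mesh (L : ℝ) (e₁ : ℕ) : ℝ := (e₁ : ℝ) / Q1 L e₁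

lemma Q1_ge {L : ℝ} {e₁ : ℕ} (hL : 0 < L) (h : 4 * L ≤ e₁) : 2 ≤ Q1 L e₁ := by
  unfold Q1
  refine Nat.le_floor ?_
  rw [le_div_iff₀ (by linarith)]
  push_cast
  linarith

lemma mesh_bounds {L : ℝ} {e₁ : ℕ} (hL : 0 < L) (h : 4 * L ≤ e₁) :
    2 * L ≤ mesh L e₁ ∧ mesh L e₁ ≤ 3 * L := by
  have h2 := Q1_ge hL h
  have hQ : (2 : ℝ) ≤ Q1 L e₁ := by exact_mod_cast h2
  have hle : (Q1 L e₁ : ℝ) ≤ (e₁ : ℝ) / (2 * L) := Nat.floor_le (by positivity)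
  have hlt : (e₁ : ℝ) / (2 * L) < Q1 L e₁ + 1 := Nat.lt_floor_add_one _
  rw [le_div_iff₀ (by linarith)] at hle
  rw [div_lt_iff₀ (by linarith)] at hlt
  unfold mesh
  constructor
  · rw [le_div_iff₀ (by linarith)]; linarith
  · rw [div_le_iff₀ (by linarith)]; nlinarith

lemma mesh_pos {L : ℝ} {e₁ : ℕ} (hL : 0 < L) (h : 4 * L ≤ e₁) : 0 < mesh L e₁ := by
  have := (mesh_bounds hL h).1
  linarith

/-- number of cells at `e` -/
noncomputable def Qe (L : ℝ) (e₁ e : ℕ) : ℕ := Q1 L e₁ * (e / e₁)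

lemma Qe_mul {L : ℝ} {e₁ e : ℕ} (hL : 0 < L) (h : 4 * L ≤ e₁) (hd : e₁ ∣ e) :
    (Qe L e₁ e : ℝ) * mesh L e₁ = e := by
  have h2 := Q1_ge hL h
  have hQ : (0 : ℝ) < Q1 L e₁ := by exact_mod_cast (by omega : 0 < Q1 L e₁)
  have e1 : (e : ℝ) = (e₁ : ℝ) * ((e / e₁ : ℕ) : ℝ) := by
    exact_mod_cast (Nat.mul_div_cancel' hd).symm
  unfold Qe mesh
  push_cast
  rw [show (Q1 L e₁ : ℝ) * ((e / e₁ : ℕ) : ℝ) * ((e₁ : ℝ) / (Q1 L e₁ : ℝ)) =
    (e₁ : ℝ) * ((e / e₁ : ℕ) : ℝ) by field_simp]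
  exact e1.symm

lemma Qe_dvd {L : ℝ} {e₁ e e' : ℕ} (hd : e₁ ∣ e) (h : e ∣ e') : Qe L e₁ e ∣ Qe L e₁ e' := by
  unfold Qe
  refine Nat.mul_dvd_mul_left _ ?_
  exact Nat.div_dvd_div hd h

/-! ### levels -/

/-- dyadic level of the scale `e / L` -/
noncomputable def lev (L : ℝ) (e : ℕ) : ℕ := Nat.log 2 ⌊(e : ℝ) / L⌋₊

lemma lev_le {L : ℝ} {e : ℕ} (hL : 0 < L) (h : L ≤ e) : (2 : ℝ) ^ lev L e * L ≤ e := by
  have h1 : (1 : ℝ) ≤ (e : ℝ) / L := by rw [le_div_iff₀ hL]; linarith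
  have h2 : ⌊(e : ℝ) / L⌋₊ ≠ 0 := by
    have : 1 ≤ ⌊(e : ℝ) / L⌋₊ := Nat.le_floor (by exact_mod_cast h1)
    omega
  have h3 : 2 ^ lev L e ≤ ⌊(e : ℝ) / L⌋₊ := Nat.pow_log_le_self 2 h2
  have h4 : ((2 ^ lev L e : ℕ) : ℝ) ≤ (e : ℝ) / L :=
    (by exact_mod_cast h3 : ((2 ^ lev L e : ℕ) : ℝ) ≤ (⌊(e : ℝ) / L⌋₊ : ℝ)).trans
      (Nat.floor_le (by positivity))
  push_cast at h4
  rwa [le_div_iff₀ hL] at h4

lemma lt_lev {L : ℝ} {e : ℕ} (hL : 0 < L) : (e : ℝ) < (2 : ℝ) ^ (lev L e + 1) * L := by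
  have h3 : ⌊(e : ℝ) / L⌋₊ < 2 ^ (lev L e + 1) := Nat.lt_pow_succ_log_self (by norm_num) _
  have h4 : (e : ℝ) / L < ((2 ^ (lev L e + 1) : ℕ) : ℝ) := (Nat.floor_lt (by positivity)).1 h3
  push_cast at h4
  rwa [div_lt_iff₀ hL] at h4

lemma lev_eq {L : ℝ} {e m : ℕ} (hL : 0 < L) (h1 : (2 : ℝ) ^ m * L ≤ e)
    (h2 : (e : ℝ) < (2 : ℝ) ^ (m + 1) * L) : lev L e = m := by
  have hle : L ≤ e := by
    have : (1 : ℝ) ≤ 2 ^ m := one_le_pow₀ (by norm_num)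
    nlinarith
  have a1 := lev_le hL hle
  have a2 := lt_lev (e := e) hL
  have b1 : (2 : ℝ) ^ lev L e < 2 ^ (m + 1) := lt_of_mul_lt_mul_right (a1.trans_lt h2) hL.le
  have b2 : (2 : ℝ) ^ m < 2 ^ (lev L e + 1) := lt_of_mul_lt_mul_right (h1.trans_lt a2) hL.le
  have c1 := (pow_lt_pow_iff_right₀ (by norm_num : (1 : ℝ) < 2)).1 b1
  have c2 := (pow_lt_pow_iff_right₀ (by norm_num : (1 : ℝ) < 2)).1 b2
  omega

lemma lev_mono {L : ℝ} {e e' : ℕ} (hL : 0 < L) (h : e ≤ e') : lev L e ≤ lev L e' := by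
  unfold lev
  refine Nat.log_mono_right (Nat.floor_mono ?_)
  have : (e : ℝ) ≤ e' := by exact_mod_cast h
  gcongr

/-! ### gap nodes -/

/-- `e` is a gap node of the word `w` of the world with base `G` -/
def Gap (cut : ℕ → ℕ) (L : ℝ) (G w e : ℕ) : Prop := e = G * low (cut (lev L e)) w

variable {cut : ℕ → ℕ} {L : ℝ} {G w w' e e' : ℕ}

lemma gap_low (hG : 0 < G) (h : Gap cut L G w e) (h' : Gap cut L G w' e) :
    low (cut (lev L e)) w = low (cut (lev L e)) w' := by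
  unfold Gap at h h'
  exact Nat.eq_of_mul_eq_mul_left hG (h.symm.trans h')

lemma gap_of_low (h : Gap cut L G w e) (hl : low (cut (lev L e)) w = low (cut (lev L e)) w') :
    Gap cut L G w' e := by
  unfold Gap at h ⊢
  rw [← hl]; exact h

/-- **the cylinders of the gap nodes are nested** -/
lemma gap_nested (hL : 0 < L) (hcut : Monotone cut) (hG : 0 < G) (hle : e ≤ e')
    (h : Gap cut L G w e) (h1 : Gap cut L G w e') (h2 : Gap cut L G w' e') :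
    Gap cut L G w' e := by
  refine gap_of_low h ?_
  have h3 := gap_low hG h1 h2
  have h4 : cut (lev L e) ≤ cut (lev L e') := hcut (lev_mono hL hle)
  rw [← low_low h4 w, h3, low_low h4 w']

/-- gap nodes of one word divide each other -/
lemma gap_dvd (hL : 0 < L) (hcut : Monotone cut) (hle : e ≤ e')
    (h : Gap cut L G w e) (h1 : Gap cut L G w e') : e ∣ e' := by
  have h4 : cut (lev L e) ≤ cut (lev L e') := hcut (lev_mono hL hle)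
  have h5 : G * low (cut (lev L e)) w ∣ G * low (cut (lev L e')) w :=
    Nat.mul_dvd_mul_left _ (by rw [← low_low h4 w]; exact low_dvd_self _ _)
  unfold Gap at h h1
  rwa [← h, ← h1] at h5

lemma gap_dvd_word (h : Gap cut L G w e) : e ∣ G * w := by
  unfold Gap at h
  rw [h]
  exact Nat.mul_dvd_mul_left _ (low_dvd_self _ _)

/-- **a prefix pair gives a gap node** : `n = gcd`, `2^m L ≤ G n < 2^(m+1) L`, all differing primes
above `cut m`, all prime factors of `n` at most `cut m` -/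
lemma gap_of_pair {n m : ℕ} (hL : 0 < L) (hw : w ≠ 0) (hw' : w' ≠ 0)
    (hn : n = Nat.gcd w w') (h1 : (2 : ℝ) ^ m * L ≤ (G * n : ℕ))
    (h2 : ((G * n : ℕ) : ℝ) < (2 : ℝ) ^ (m + 1) * L)
    (hd : ∀ q, q.Prime → w.factorization q ≠ w'.factorization q → cut m < q)
    (hq : ∀ q, q.Prime → q ∣ n → q ≤ cut m) :
    Gap cut L G w (G * n) ∧ Gap cut L G w' (G * n) := by
  have hlev := lev_eq hL h1 h2
  have key : ∀ {u v : ℕ}, u ≠ 0 → v ≠ 0 → n = Nat.gcd u v →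
      (∀ q, q.Prime → u.factorization q ≠ v.factorization q → cut m < q) →
      low (cut m) u = n := by
    intro u v hu hv hn' hd'
    have hn0 : n ≠ 0 := by rw [hn']; exact (Nat.gcd_pos_of_pos_left _ (Nat.pos_of_ne_zero hu)).ne'
    refine Nat.eq_of_factorization_eq (low_pos _ _).ne' hn0 fun q => ?_
    rw [fact_low]
    by_cases hqp : q.Prime
    · have hmin : n.factorization q = min (u.factorization q) (v.factorization q) := by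
        rw [hn', Nat.factorization_gcd hu hv]
        rfl
      by_cases hqc : q ≤ cut m
      · rw [if_pos hqc, hmin]
        have : u.factorization q = v.factorization q := by
          by_contra hne
          have := hd' q hqp hne
          omega
        omega
      · rw [if_neg hqc]
        by_contra hne
        have : q ∣ n := Nat.dvd_of_factorization_pos (fun h => hne h.symm)
        exact hqc (hq q hqp this)
    · rw [Nat.factorization_eq_zero_of_not_prime _ hqp,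
        Nat.factorization_eq_zero_of_not_prime _ hqp]
      split_ifs <;> rfl
  unfold Gap
  rw [hlev]
  refine ⟨by rw [key hw hw' hn hd], ?_⟩
  rw [key hw' hw (by rw [hn, Nat.gcd_comm]) fun q h3 h4 => hd q h3 (Ne.symm h4)]

end Crest.Agent.R4C.Cellx863
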