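import Mathlib

/-!
# Row 4, BLOCK S4 (note 2774, helper994): centres are reduced fractions (helper949)

`f : ℚ` is a centre of `b : ℕ` (`b ∣ M`, any exponents), `bet = gcd(b, den f)`,
`kf = den f / bet`, `gf = b / bet`, `disp = b |γ - f|`; on the hit `(b,n)` the point is
`zpt b f n = b (f + n)`, with `den = kf`, `num = gf * wf`, `gcd(b, num) = gf`.
-/

set_option autoImplicit false

namespace Crest.Agent.R4C.Centx949

/-- `β_f(b) = gcd(b, den f)` -/
def bet (b : ℕ) (f : ℚ) : ℕ := Nat.gcd b f.den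

/-- `k_f(b) = den f / β` -/
def kf (b : ℕ) (f : ℚ) : ℕ := f.den / bet b f

/-- `g_f(b) = b / β` -/
def gf (b : ℕ) (f : ℚ) : ℕ := b / bet b f

/-- displacement `D_f(b) = b |γ - f|` -/
noncomputable def disp (γ : ℝ) (b : ℕ) (f : ℚ) : ℝ := b * |γ - f|

/-- the point `z = b (f + n)` of the centre `f` on the hit `(b,n)` -/
def zpt (b : ℕ) (f : ℚ) (n : ℤ) : ℚ := b * (f + n)

/-- `W = P + Q n` -/
def wf (f : ℚ) (n : ℤ) : ℤ := f.num + f.den * n

/-! ### (1) -/

lemma bet_pos (b : ℕ) (f : ℚ) : 0 < bet b f := Nat.gcd_pos_of_pos_right _ f.den_pos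

lemma bet_mul_gf (b : ℕ) (f : ℚ) : bet b f * gf b f = b :=
  Nat.mul_div_cancel' (Nat.gcd_dvd_left _ _)

lemma bet_mul_kf (b : ℕ) (f : ℚ) : bet b f * kf b f = f.den :=
  Nat.mul_div_cancel' (Nat.gcd_dvd_right _ _)

lemma kf_pos (b : ℕ) (f : ℚ) : 0 < kf b f := by
  have := bet_mul_kf b f
  have h := f.den_pos
  exact Nat.pos_of_ne_zero fun h0 => by rw [h0, mul_zero] at this; omega

lemma gf_pos {b : ℕ} (hb : 0 < b) (f : ℚ) : 0 < gf b f := by
  have := bet_mul_gf b f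
  exact Nat.pos_of_ne_zero fun h0 => by rw [h0, mul_zero] at this; omega

lemma coprime_gf_kf (b : ℕ) (f : ℚ) : Nat.Coprime (gf b f) (kf b f) :=
  Nat.coprime_div_gcd_div_gcd (bet_pos b f)

lemma coprime_wf (f : ℚ) (n : ℤ) : IsCoprime (wf f n) (f.den : ℤ) := by
  unfold wf
  exact f.isCoprime_num_den.add_mul_left_left n

lemma coprime_wf_bet (b : ℕ) (f : ℚ) (n : ℤ) : IsCoprime (wf f n) (bet b f : ℤ) :=
  (coprime_wf f n).of_isCoprime_of_dvd_right (by exact_mod_cast Nat.gcd_dvd_right _ _)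

lemma coprime_wf_kf (b : ℕ) (f : ℚ) (n : ℤ) : IsCoprime (wf f n) (kf b f : ℤ) :=
  (coprime_wf f n).of_isCoprime_of_dvd_right
    (by exact_mod_cast Dvd.intro_left _ (bet_mul_kf b f))

lemma coprime_num (b : ℕ) (f : ℚ) (n : ℤ) :
    IsCoprime ((gf b f : ℤ) * wf f n) (kf b f : ℤ) :=
  IsCoprime.mul_left (Nat.isCoprime_iff_coprime.2 (coprime_gf_kf b f)) (coprime_wf_kf b f n)

lemma zpt_eq (b : ℕ) (f : ℚ) (n : ℤ) :
    zpt b f n = (((gf b f : ℤ) * wf f n : ℤ) : ℚ) / ((kf b f : ℤ) : ℚ) := by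
  have hk : ((kf b f : ℕ) : ℚ) ≠ 0 := by exact_mod_cast (kf_pos b f).ne'
  have hq : ((f.den : ℕ) : ℚ) ≠ 0 := by exact_mod_cast f.den_pos.ne'
  have e1 : (b : ℚ) = bet b f * gf b f := by exact_mod_cast (bet_mul_gf b f).symm
  have e2 : (f.den : ℚ) = bet b f * kf b f := by exact_mod_cast (bet_mul_kf b f).symm
  have e3 : f = f.num / f.den := (Rat.num_div_den f).symm
  unfold zpt wf
  push_cast
  rw [eq_div_iff hk]
  have e4 : f * f.den = f.num := by
    nth_rewrite 1 [e3]; field_simp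
  calc (b : ℚ) * (f + n) * kf b f = gf b f * (f * (bet b f * kf b f) + (bet b f * kf b f) * n) := by
        rw [e1]; ring
    _ = gf b f * (f.num + f.den * n) := by rw [← e2, e4]

lemma zpt_den (b : ℕ) (f : ℚ) (n : ℤ) : (zpt b f n).den = kf b f := by
  have h := Rat.den_div_eq_of_coprime (a := (gf b f : ℤ) * wf f n) (b := (kf b f : ℤ))
    (by exact_mod_cast kf_pos b f) (Int.isCoprime_iff_gcd_eq_one.1 (coprime_num b f n))
  rw [← zpt_eq] at h
  exact_mod_cast h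

lemma zpt_num (b : ℕ) (f : ℚ) (n : ℤ) : (zpt b f n).num = gf b f * wf f n := by
  have h := Rat.num_div_eq_of_coprime (a := (gf b f : ℤ) * wf f n) (b := (kf b f : ℤ))
    (by exact_mod_cast kf_pos b f) (Int.isCoprime_iff_gcd_eq_one.1 (coprime_num b f n))
  rw [← zpt_eq] at h
  exact h

/-- `gcd(b, num z) = g_f(b)` -/
lemma gcd_num (b : ℕ) (f : ℚ) (n : ℤ) : Int.gcd b (zpt b f n).num = gf b f := by
  rw [zpt_num]
  have e1 : (b : ℤ) = gf b f * bet b f := by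
    have := bet_mul_gf b f
    rw [mul_comm] at this
    exact_mod_cast this.symm
  nth_rewrite 1 [e1]
  rw [Int.gcd_mul_left]
  have := Int.isCoprime_iff_gcd_eq_one.1 (coprime_wf_bet b f n)
  rw [Int.gcd_comm, this]
  simp

/-- `gcd` with the numerator, without mentioning `f` -/
lemma gf_dvd_num (b : ℕ) (f : ℚ) (n : ℤ) : (gf b f : ℤ) ∣ (zpt b f n).num := by
  rw [zpt_num]; exact Dvd.intro _ rfl

lemma gf_dvd (b : ℕ) (f : ℚ) : gf b f ∣ b := Dvd.intro_left _ (bet_mul_gf b f)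

/-! ### (2) kill -/

/-- the exponent of `p` in `g_f(b)` if `p ∤ den f` -/
lemma gf_split {b : ℕ} (hb : 0 < b) {f : ℚ} {p : ℕ} (hp : p.Prime) (hpQ : ¬ p ∣ f.den) :
    ∃ m : ℕ, gf b f = p ^ (b.factorization p) * m ∧ ¬ p ∣ m := by
  have hpb : ¬ p ∣ bet b f := fun hd => hpQ (hd.trans (Nat.gcd_dvd_right _ _))
  have h0 : gf b f ≠ 0 := (gf_pos hb f).ne'
  have h1 : (gf b f).factorization p = b.factorization p := by
    have e := bet_mul_gf b f
    have h2 : b.factorization p = (bet b f).factorization p + (gf b f).factorization p := by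
      conv_lhs => rw [← e]
      rw [Nat.factorization_mul (bet_pos b f).ne' h0]
      rfl
    rw [h2, Nat.factorization_eq_zero_of_not_dvd hpb, zero_add]
  refine ⟨gf b f / p ^ ((gf b f).factorization p), ?_, Nat.not_dvd_ordCompl hp h0⟩
  rw [← h1]
  exact (Nat.ordProj_mul_ordCompl_eq_self _ _).symm

/-- (2) the label `f` at `(b,p)`, `p ∤ den f`: class `c` with `p ∣ P + Q c`; it contains `n` iff
`p ∣ W` -/
lemma label_iff {f : ℚ} {p : ℕ} (hp : p.Prime) (hpQ : ¬ p ∣ f.den) {c : ℤ}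
    (hc : (p : ℤ) ∣ f.num + f.den * c) (n : ℤ) : (p : ℤ) ∣ n - c ↔ (p : ℤ) ∣ wf f n := by
  have hpZ : Prime (p : ℤ) := Nat.prime_iff_prime_int.1 hp
  have hpQ' : ¬ (p : ℤ) ∣ (f.den : ℤ) := fun h => hpQ (by exact_mod_cast h)
  have e : wf f n = (f.num + f.den * c) + f.den * (n - c) := by unfold wf; ring
  rw [e]
  constructor
  · intro h; exact dvd_add hc (h.mul_left _)
  · intro h
    have h2 : (p : ℤ) ∣ f.den * (n - c) := (dvd_add_right hc).1 h
    exact (hpZ.dvd_or_dvd h2).resolve_left hpQ'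

/-- (2) `p ∣ W` iff `v_p(num z) > v_p(b)` -/
lemma explained_iff {b : ℕ} (hb : 0 < b) {f : ℚ} {p : ℕ} (hp : p.Prime) (hpQ : ¬ p ∣ f.den)
    (n : ℤ) : (p : ℤ) ^ (b.factorization p + 1) ∣ (zpt b f n).num ↔ (p : ℤ) ∣ wf f n := by
  obtain ⟨m, hm, hpm⟩ := gf_split hb hp hpQ
  have hpZ : Prime (p : ℤ) := Nat.prime_iff_prime_int.1 hp
  have hp0 : ((p : ℤ) ^ (b.factorization p)) ≠ 0 := pow_ne_zero _ (by exact_mod_cast hp.ne_zero)
  rw [zpt_num, hm]
  push_cast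
  rw [pow_succ, mul_assoc, mul_dvd_mul_iff_left hp0]
  constructor
  · intro h
    rcases hpZ.dvd_or_dvd h with h1 | h1
    · exact absurd (by exact_mod_cast h1) hpm
    · exact h1
  · intro h; exact h.mul_left _

/-- if a power of `p` beyond `v_p(b)` divides the numerator then `p ∤ den f` -/
lemma not_dvd_den {b : ℕ} (hb : 0 < b) {f : ℚ} {p : ℕ} (hp : p.Prime) {n : ℤ}
    (hN : (p : ℤ) ^ (b.factorization p + 1) ∣ (zpt b f n).num) : ¬ p ∣ f.den := by
  intro hd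
  have hpZ : Prime (p : ℤ) := Nat.prime_iff_prime_int.1 hp
  have hW : ¬ (p : ℤ) ∣ wf f n := fun h =>
    hpZ.not_isUnit ((coprime_wf f n).isUnit_of_dvd' h (by exact_mod_cast hd))
  rw [zpt_num] at hN
  have h0 : gf b f ≠ 0 := (gf_pos hb f).ne'
  -- `p^(v+1) ∣ gf`
  have hco : IsCoprime ((p : ℤ) ^ (b.factorization p + 1)) (wf f n) :=
    IsCoprime.pow_left ((hpZ.coprime_iff_not_dvd).2 hW)
  have h1 : (p : ℤ) ^ (b.factorization p + 1) ∣ gf b f := hco.dvd_of_dvd_mul_right hN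
  have h2 : p ^ (b.factorization p + 1) ∣ gf b f := by exact_mod_cast h1
  have h3 : p ^ (b.factorization p + 1) ∣ b := h2.trans (gf_dvd b f)
  exact Nat.pow_succ_factorization_not_dvd hb.ne' hp h3

/-! ### (3) transfer -/

/-- the transferred centre of `b'` -/
def tr (b' : ℕ) (z : ℚ) (n' : ℤ) : ℚ := z / b' - n'

lemma zpt_tr {b' : ℕ} (hb' : 0 < b') (z : ℚ) (n' : ℤ) : zpt b' (tr b' z n') n' = z := by
  have : (b' : ℚ) ≠ 0 := by exact_mod_cast hb'.ne'
  unfold zpt tr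
  field_simp
  ring

lemma disp_eq (γ : ℝ) (b : ℕ) (f : ℚ) (n : ℤ) :
    disp γ b f = |(b : ℝ) * (γ + n) - (zpt b f n : ℚ)| := by
  have hb : (0 : ℝ) ≤ b := Nat.cast_nonneg _
  unfold disp zpt
  push_cast
  have e : (b : ℝ) * (γ + n) - b * ((f : ℝ) + n) = b * (γ - f) := by ring
  rw [e, abs_mul, abs_of_nonneg hb]

/-- (3) displacement of the transferred centre -/
theorem disp_tr {γ : ℝ} {b b' : ℕ} (hb' : 0 < b') (f : ℚ) (n n' : ℤ) :
    disp γ b' (tr b' (zpt b f n) n') ≤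
      disp γ b f + |(b : ℝ) * (γ + n) - b' * (γ + n')| := by
  rw [disp_eq γ b' _ n', zpt_tr hb', disp_eq γ b f n]
  have h := abs_sub ((b : ℝ) * (γ + n) - (zpt b f n : ℚ)) ((b : ℝ) * (γ + n) - b' * (γ + n'))
  have e : (b' : ℝ) * (γ + n') - (zpt b f n : ℚ) =
      ((b : ℝ) * (γ + n) - (zpt b f n : ℚ)) - ((b : ℝ) * (γ + n) - b' * (γ + n')) := by ring
  rw [e]; exact h

/-- (3) `g_{f'}(b')` is a multiple of `gcd(g_f(b), gcd(b,b'))` -/
theorem gcd_dvd_tr {b b' : ℕ} (hb' : 0 < b') (f : ℚ) (n n' : ℤ) :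
    Nat.gcd (gf b f) (Nat.gcd b b') ∣ gf b' (tr b' (zpt b f n) n') := by
  rw [← gcd_num b' _ n', zpt_tr hb']
  refine Int.natCast_dvd_natCast.1 ?_
  rw [Int.dvd_coe_gcd_iff]
  constructor
  · have h1 : Nat.gcd (gf b f) (Nat.gcd b b') ∣ b' :=
      (Nat.gcd_dvd_right _ _).trans (Nat.gcd_dvd_right _ _)
    exact_mod_cast h1
  · have h1 : Nat.gcd (gf b f) (Nat.gcd b b') ∣ gf b f := Nat.gcd_dvd_left _ _
    exact (by exact_mod_cast h1 : ((Nat.gcd (gf b f) (Nat.gcd b b') : ℕ) : ℤ) ∣ gf b f).trans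
      (gf_dvd_num b f n)

/-- the same point has the same `kf`, and `g` is the gcd with the common numerator -/
theorem same_kf {b b' : ℕ} {f f' : ℚ} {n n' : ℤ} (hz : zpt b f n = zpt b' f' n') :
    kf b f = kf b' f' := by
  rw [← zpt_den b f n, ← zpt_den b' f' n', hz]

theorem same_num {b b' : ℕ} {f f' : ℚ} {n n' : ℤ} (hz : zpt b f n = zpt b' f' n') :
    (gf b f : ℤ) * wf f n = gf b' f' * wf f' n' := by
  rw [← zpt_num b f n, ← zpt_num b' f' n', hz]

/-! ### (4), (5) gaps -/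

/-- different points: `gcd(g,g') ≤ k k' |z - z'|` -/
theorem gap {b b' : ℕ} {f f' : ℚ} {n n' : ℤ} (hne : zpt b f n ≠ zpt b' f' n') :
    (Nat.gcd (gf b f) (gf b' f') : ℝ) ≤
      kf b f * kf b' f' * |((zpt b f n : ℚ) : ℝ) - (zpt b' f' n' : ℚ)| := by
  have hk : (0 : ℝ) < kf b f := by exact_mod_cast kf_pos b f
  have hk' : (0 : ℝ) < kf b' f' := by exact_mod_cast kf_pos b' f'
  have e1 : ((zpt b f n : ℚ) : ℝ) = ((gf b f : ℤ) * wf f n : ℤ) / (kf b f : ℝ) := by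
    rw [zpt_eq]; push_cast; rfl
  have e2 : ((zpt b' f' n' : ℚ) : ℝ) = ((gf b' f' : ℤ) * wf f' n' : ℤ) / (kf b' f' : ℝ) := by
    rw [zpt_eq]; push_cast; rfl
  set X : ℤ := (gf b f : ℤ) * wf f n * kf b' f' - (gf b' f' : ℤ) * wf f' n' * kf b f with hX
  have e3 : (kf b f : ℝ) * kf b' f' * |((zpt b f n : ℚ) : ℝ) - (zpt b' f' n' : ℚ)| = |(X : ℝ)| := by
    rw [← abs_of_pos (mul_pos hk hk'), ← abs_mul, e1, e2, hX]
    congr 1
    push_cast
    field_simp
  rw [e3]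
  have hX0 : X ≠ 0 := by
    intro h0
    apply hne
    have h1 : ((zpt b f n : ℚ) : ℝ) - (zpt b' f' n' : ℚ) = 0 := by
      rw [h0] at e3
      simp only [Int.cast_zero, abs_zero, mul_eq_zero, hk.ne', hk'.ne', false_or, abs_eq_zero] at e3
      exact e3
    exact_mod_cast sub_eq_zero.1 h1
  have hd : ((Nat.gcd (gf b f) (gf b' f') : ℕ) : ℤ) ∣ X := by
    have d1 : ((Nat.gcd (gf b f) (gf b' f') : ℕ) : ℤ) ∣ gf b f := by
      exact_mod_cast Nat.gcd_dvd_left _ _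
    have d2 : ((Nat.gcd (gf b f) (gf b' f') : ℕ) : ℤ) ∣ gf b' f' := by
      exact_mod_cast Nat.gcd_dvd_right _ _
    exact dvd_sub ((d1.mul_right _).mul_right _) ((d2.mul_right _).mul_right _)
  have h2 := Int.le_of_dvd (abs_pos.2 hX0) ((dvd_abs _ _).2 hd)
  exact_mod_cast h2

/-- (4) SAME POINT -/
theorem same_point {γ : ℝ} {b b' : ℕ} {f f' : ℚ} {n n' : ℤ}
    (h : (kf b f : ℝ) * kf b' f' *
      (disp γ b f + disp γ b' f' + |(b : ℝ) * (γ + n) - b' * (γ + n')|) <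
      Nat.gcd (gf b f) (gf b' f')) : zpt b f n = zpt b' f' n' := by
  by_contra hne
  have h1 := gap hne
  have hk : (0 : ℝ) < kf b f := by exact_mod_cast kf_pos b f
  have hk' : (0 : ℝ) < kf b' f' := by exact_mod_cast kf_pos b' f'
  have h2 : |((zpt b f n : ℚ) : ℝ) - (zpt b' f' n' : ℚ)| ≤
      disp γ b f + disp γ b' f' + |(b : ℝ) * (γ + n) - b' * (γ + n')| := by
    rw [disp_eq γ b f n, disp_eq γ b' f' n']
    have e : ((zpt b f n : ℚ) : ℝ) - (zpt b' f' n' : ℚ) =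
        -((b : ℝ) * (γ + n) - (zpt b f n : ℚ)) + ((b' : ℝ) * (γ + n') - (zpt b' f' n' : ℚ)) +
        ((b : ℝ) * (γ + n) - b' * (γ + n')) := by ring
    rw [e]
    refine (abs_add_three _ _ _).trans ?_
    rw [abs_neg]
  have h3 := mul_le_mul_of_nonneg_left h2 (mul_pos hk hk').le
  linarith

/-- (5) UNIQUENESS: two different centres of the same `b` -/
theorem unique_centre {γ : ℝ} {b : ℕ} (hb : 0 < b) {f₁ f₂ : ℚ} (hne : f₁ ≠ f₂) :
    (Nat.gcd (gf b f₁) (gf b f₂) : ℝ) ≤ kf b f₁ * kf b f₂ * (disp γ b f₁ + disp γ b f₂) := by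
  have hb0 : (b : ℚ) ≠ 0 := by exact_mod_cast hb.ne'
  by_contra hcon
  push Not at hcon
  have := same_point (γ := γ) (b := b) (b' := b) (f := f₁) (f' := f₂) (n := 0) (n' := 0)
    (by rw [sub_self, abs_zero, add_zero]; exact hcon)
  unfold zpt at this
  have h2 := mul_left_cancel₀ hb0 this
  exact hne (by simpa using h2)

/-- (5a) divisibility -/
theorem alpha_dvd {b : ℕ} (hb : 0 < b) (f₁ f₂ : ℚ) :
    gf b f₁ / Nat.gcd (gf b f₁) (gf b f₂) ∣ bet b f₂ ∧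
      gf b f₂ / Nat.gcd (gf b f₁) (gf b f₂) ∣ bet b f₁ := by
  have key : ∀ f₁ f₂ : ℚ, gf b f₁ / Nat.gcd (gf b f₁) (gf b f₂) ∣ bet b f₂ := by
    intro f₁ f₂
    set h := Nat.gcd (gf b f₁) (gf b f₂) with hh
    have hh0 : 0 < h := Nat.gcd_pos_of_pos_left _ (gf_pos hb f₁)
    have h1 : gf b f₁ ∣ gf b f₂ * bet b f₂ := by
      rw [mul_comm, bet_mul_gf]; exact gf_dvd b f₁
    have e1 : gf b f₁ = h * (gf b f₁ / h) := (Nat.mul_div_cancel' (Nat.gcd_dvd_left _ _)).symm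
    have e2 : gf b f₂ = h * (gf b f₂ / h) := (Nat.mul_div_cancel' (Nat.gcd_dvd_right _ _)).symm
    have hco : Nat.Coprime (gf b f₁ / h) (gf b f₂ / h) := Nat.coprime_div_gcd_div_gcd hh0
    have h2 : h * (gf b f₁ / h) ∣ h * ((gf b f₂ / h) * bet b f₂) := by
      rw [← mul_assoc, ← e1, ← e2]; exact h1
    exact hco.dvd_of_dvd_mul_left ((Nat.mul_dvd_mul_iff_left hh0).1 h2)
  refine ⟨key f₁ f₂, ?_⟩
  have := key f₂ f₁
  rwa [Nat.gcd_comm] at this

/-- (5a) size -/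
theorem alpha_ge {γ : ℝ} {b : ℕ} (hb : 0 < b) {f₁ f₂ : ℚ} (hne : f₁ ≠ f₂) :
    (gf b f₁ : ℝ) ≤ ((gf b f₁ / Nat.gcd (gf b f₁) (gf b f₂) : ℕ) : ℝ) *
      (kf b f₁ * kf b f₂ * (disp γ b f₁ + disp γ b f₂)) := by
  set h := Nat.gcd (gf b f₁) (gf b f₂) with hh
  have h1 := unique_centre (γ := γ) hb hne
  have e1 : (gf b f₁ : ℝ) = ((gf b f₁ / h : ℕ) : ℝ) * h := by
    exact_mod_cast (Nat.div_mul_cancel (Nat.gcd_dvd_left _ _)).symm
  nth_rewrite 1 [e1]
  exact mul_le_mul_of_nonneg_left h1 (Nat.cast_nonneg _)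

/-- (5b) a part `b₀` of `b` that is explained by both centres -/
theorem explained_part {γ : ℝ} {b b₀ : ℕ} (hb : 0 < b) {f₁ f₂ : ℚ} (hne : f₁ ≠ f₂)
    (h0 : b₀ ∣ b) (h1 : Nat.Coprime b₀ (bet b f₁)) (h2 : Nat.Coprime b₀ (bet b f₂)) :
    (b₀ : ℝ) ≤ kf b f₁ * kf b f₂ * (disp γ b f₁ + disp γ b f₂) := by
  have d1 : b₀ ∣ gf b f₁ := h1.dvd_of_dvd_mul_left (by rw [bet_mul_gf]; exact h0)
  have d2 : b₀ ∣ gf b f₂ := h2.dvd_of_dvd_mul_left (by rw [bet_mul_gf]; exact h0)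
  have h3 := Nat.le_of_dvd (Nat.gcd_pos_of_pos_left _ (gf_pos hb f₁)) (Nat.dvd_gcd d1 d2)
  have h4 : (b₀ : ℝ) ≤ (Nat.gcd (gf b f₁) (gf b f₂) : ℝ) := by exact_mod_cast h3
  exact h4.trans (unique_centre hb hne)

/-! ### (6) kill lemma -/

/-- (6) KILL LEMMA.  Linked pair with offset `h = s n - s' n'`, common point `z`; `v_p(b) < v_p(b')`
(so `p ∣ s'`) and `v_p(num z) > v_p(b)`.  Then `p ∤ den f` and the label of `f` kills. -/
theorem kill {b s s' : ℕ} (hb : 0 < b) {f : ℚ} {n n' : ℤ} {p : ℕ} (hp : p.Prime)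
    (hps' : p ∣ s') (hN : (p : ℤ) ^ (b.factorization p + 1) ∣ (zpt b f n).num) :
    ¬ p ∣ f.den ∧ ∀ c : ℤ, (p : ℤ) ∣ f.num + f.den * c →
      (p : ℤ) ∣ n - c ∧ (p : ℤ) ∣ (s * n - s' * n') - s * c := by
  have hQ := not_dvd_den hb hp hN
  refine ⟨hQ, fun c hc => ?_⟩
  have h1 : (p : ℤ) ∣ n - c := (label_iff hp hQ hc n).2 ((explained_iff hb hp hQ n).1 hN)
  refine ⟨h1, ?_⟩
  have h2 : (p : ℤ) ∣ (s' : ℤ) := by exact_mod_cast hps'
  have e : (s * n - s' * n') - s * c = s * (n - c) - s' * n' := by ring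
  rw [e]
  exact dvd_sub (h1.mul_left _) (h2.mul_right _)

/-- (6) mirror: `p ∣ s` -/
theorem kill' {b' s s' : ℕ} (hb' : 0 < b') {f' : ℚ} {n n' : ℤ} {p : ℕ} (hp : p.Prime)
    (hps : p ∣ s) (hN : (p : ℤ) ^ (b'.factorization p + 1) ∣ (zpt b' f' n').num) :
    ¬ p ∣ f'.den ∧ ∀ c : ℤ, (p : ℤ) ∣ f'.num + f'.den * c →
      (p : ℤ) ∣ n' - c ∧ (p : ℤ) ∣ (s * n - s' * n') + s' * c := by
  have hQ := not_dvd_den hb' hp hN
  refine ⟨hQ, fun c hc => ?_⟩
  have h1 : (p : ℤ) ∣ n' - c := (label_iff hp hQ hc n').2 ((explained_iff hb' hp hQ n').1 hN)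
  refine ⟨h1, ?_⟩
  have h2 : (p : ℤ) ∣ (s : ℤ) := by exact_mod_cast hps
  have e : (s * n - s' * n') + s' * c = s * n - s' * (n' - c) := by ring
  rw [e]
  exact dvd_sub (h2.mul_right _) (h1.mul_left _)

/-- "automatic": if `p ∤ den f'` then `v_p(num z) ≥ v_p(b')` -/
theorem explained_of_not_dvd {b' : ℕ} (hb' : 0 < b') {f' : ℚ} {n' : ℤ} {p : ℕ} (hp : p.Prime)
    (hQ : ¬ p ∣ f'.den) : (p : ℤ) ^ (b'.factorization p) ∣ (zpt b' f' n').num := by
  obtain ⟨m, hm, _⟩ := gf_split hb' hp hQ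
  rw [zpt_num, hm]
  push_cast
  exact (Dvd.intro _ rfl).mul_right _

/-! ### (7) dichotomy -/

/-- two different centres (of `b` and of `b'`) with the same `k` -/
theorem dichotomy {γ R : ℝ} {b b' k : ℕ} (hb : 0 < b) (hbb : b ≤ b') {f f' : ℚ}
    (hk : kf b f = k) (hk' : kf b' f' = k) (hD : disp γ b f ≤ R) (hD' : disp γ b' f' ≤ R)
    (hne : f ≠ f') :
    (b : ℝ) ≤ 2 * R * (k * (Nat.lcm (bet b f) (bet b' f') : ℕ)) := by
  have hb0 : (0 : ℝ) < b := by exact_mod_cast hb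
  have hb0' : (0 : ℝ) < b' := by exact_mod_cast lt_of_lt_of_le hb hbb
  have hbb' : (b : ℝ) ≤ b' := by exact_mod_cast hbb
  have hR : 0 ≤ R := le_trans (by unfold disp; positivity) hD
  set β := bet b f with hβ
  set β' := bet b' f' with hβ'
  have hβ0 : 0 < β := bet_pos b f
  have hβ0' : 0 < β' := bet_pos b' f'
  have hk0 : 0 < k := hk ▸ kf_pos b f
  obtain ⟨c, hc⟩ := Nat.dvd_lcm_left β β'
  obtain ⟨c', hc'⟩ := Nat.dvd_lcm_right β β'
  set l := Nat.lcm β β' with hl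
  have hl0 : 0 < l := Nat.lcm_pos hβ0 hβ0'
  have hkR : (0 : ℝ) < k := by exact_mod_cast hk0
  have hβR : (0 : ℝ) < β := by exact_mod_cast hβ0
  have hβR' : (0 : ℝ) < β' := by exact_mod_cast hβ0'
  have hlR : (0 : ℝ) < l := by exact_mod_cast hl0
  have q1 : (f.den : ℝ) = β * k := by
    have := bet_mul_kf b f
    rw [hk, ← hβ] at this
    exact_mod_cast this.symm
  have q2 : (f'.den : ℝ) = β' * k := by
    have := bet_mul_kf b' f'
    rw [hk', ← hβ'] at this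
    exact_mod_cast this.symm
  have e1 : (l : ℝ) = β * c := by exact_mod_cast hc
  have e2 : (l : ℝ) = β' * c' := by exact_mod_cast hc'
  have f1 : (f : ℝ) = f.num / (β * k) := by
    rw [← q1]; exact Rat.cast_def f
  have f2 : (f' : ℝ) = f'.num / (β' * k) := by
    rw [← q2]; exact Rat.cast_def f'
  set X : ℤ := f.num * c - f'.num * c' with hX
  have e3 : (X : ℝ) = (k * l) * ((f : ℝ) - f') := by
    rw [f1, f2, hX]
    push_cast
    have h1 : (k * l : ℝ) * (f.num / (β * k)) = f.num * c := by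
      rw [e1]; field_simp
    have h2 : (k * l : ℝ) * (f'.num / (β' * k)) = f'.num * c' := by
      rw [e2]; field_simp
    rw [mul_sub, h1, h2]
  have hX0 : X ≠ 0 := by
    intro h0
    rw [h0] at e3
    have h1 : ((f : ℝ) - f') = 0 := by
      have := mul_eq_zero.1 (show (k * l : ℝ) * ((f : ℝ) - f') = 0 by rw [← e3]; simp)
      exact this.resolve_left (mul_pos hkR hlR).ne'
    exact hne (by exact_mod_cast sub_eq_zero.1 h1)
  have h1 : (1 : ℝ) ≤ |(X : ℝ)| := by exact_mod_cast Int.one_le_abs hX0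
  rw [e3, abs_mul, abs_of_pos (mul_pos hkR hlR)] at h1
  have h2 : (b : ℝ) * |(f : ℝ) - f'| ≤ 2 * R := by
    have h3 : (b : ℝ) * |γ - f'| ≤ R := by
      refine le_trans ?_ hD'
      unfold disp
      exact mul_le_mul_of_nonneg_right hbb' (abs_nonneg _)
    have h4 : (b : ℝ) * |γ - f| ≤ R := hD
    have h5 : |(f : ℝ) - f'| ≤ |γ - f'| + |γ - f| := by
      have e : (f : ℝ) - f' = (γ - f') - (γ - f) := by ring
      rw [e]; exact abs_sub _ _
    have := mul_le_mul_of_nonneg_left h5 hb0.le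
    linarith
  calc (b : ℝ) = b * 1 := by ring
    _ ≤ b * ((k * l) * |(f : ℝ) - f'|) := mul_le_mul_of_nonneg_left h1 hb0.le
    _ = (b * |(f : ℝ) - f'|) * (k * l) := by ring
    _ ≤ (2 * R) * (k * l) := mul_le_mul_of_nonneg_right h2 (mul_pos hkR hlR).le
    _ = _ := by ring

/-- (7) first form: `g_f(b) ≤ 2 R k β'/gcd(β,β')` -/
theorem dichotomy₁ {γ R : ℝ} {b b' k : ℕ} (hb : 0 < b) (hbb : b ≤ b') {f f' : ℚ}
    (hk : kf b f = k) (hk' : kf b' f' = k) (hD : disp γ b f ≤ R) (hD' : disp γ b' f' ≤ R)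
    (hne : f ≠ f') :
    (gf b f : ℝ) ≤ 2 * R * k * ((bet b' f' / Nat.gcd (bet b f) (bet b' f') : ℕ) : ℝ) := by
  have h := dichotomy hb hbb hk hk' hD hD' hne
  set β := bet b f with hβ
  set β' := bet b' f' with hβ'
  have hβR : (0 : ℝ) < β := by exact_mod_cast bet_pos b f
  have e1 : (b : ℝ) = β * gf b f := by exact_mod_cast (bet_mul_gf b f).symm
  have e2 : (Nat.lcm β β' : ℕ) = β * (β' / Nat.gcd β β') := by
    unfold Nat.lcm
    rw [Nat.mul_div_assoc _ (Nat.gcd_dvd_right _ _)]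
  rw [e1, e2] at h
  push_cast at h
  have h2 : (β : ℝ) * gf b f ≤ β * (2 * R * k * ((β' / Nat.gcd β β' : ℕ) : ℝ)) := by
    refine h.trans (le_of_eq ?_)
    ring
  exact le_of_mul_le_mul_left h2 hβR

/-- (7) second form: `b g_{f'}(b') ≤ 2 R k b' β/gcd(β,β')` -/
theorem dichotomy₂ {γ R : ℝ} {b b' k : ℕ} (hb : 0 < b) (hbb : b ≤ b') {f f' : ℚ}
    (hk : kf b f = k) (hk' : kf b' f' = k) (hD : disp γ b f ≤ R) (hD' : disp γ b' f' ≤ R)
    (hne : f ≠ f') :
    (b : ℝ) * gf b' f' ≤ b' * (2 * R * k * ((bet b f / Nat.gcd (bet b f) (bet b' f') : ℕ) : ℝ)) := by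
  have h := dichotomy hb hbb hk hk' hD hD' hne
  set β := bet b f with hβ
  set β' := bet b' f' with hβ'
  have e1 : (b' : ℝ) = β' * gf b' f' := by exact_mod_cast (bet_mul_gf b' f').symm
  have e2 : (Nat.lcm β β' : ℕ) = β' * (β / Nat.gcd β β') := by
    unfold Nat.lcm
    rw [mul_comm β β', Nat.mul_div_assoc _ (Nat.gcd_dvd_left _ _)]
  rw [e2] at h
  push_cast at h
  have h2 := mul_le_mul_of_nonneg_right h (Nat.cast_nonneg (α := ℝ) (gf b' f'))
  refine h2.trans (le_of_eq ?_)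
  rw [e1]
  ring

/-- (7) equal centres: every differing prime is explained on a common point -/
theorem explained_of_eq {b b' : ℕ} (hb : 0 < b) (hb' : 0 < b') {f : ℚ} {n n' : ℤ}
    (hz : zpt b f n = zpt b' f n') {p : ℕ} (hp : p.Prime)
    (hd : b.factorization p ≠ b'.factorization p) : ¬ p ∣ bet b f := by
  intro hpb
  have hpZ : Prime (p : ℤ) := Nat.prime_iff_prime_int.1 hp
  have hk := same_kf hz
  have hβ : bet b f = bet b' f := by
    have e1 := bet_mul_kf b f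
    have e2 := bet_mul_kf b' f
    rw [hk, ← e2] at e1
    exact Nat.eq_of_mul_eq_mul_right (kf_pos b' f) e1
  have hpQ : p ∣ f.den := hpb.trans (Nat.gcd_dvd_right _ _)
  have hW : ∀ m : ℤ, ¬ (p : ℤ) ∣ wf f m := fun m h =>
    hpZ.not_isUnit ((coprime_wf f m).isUnit_of_dvd' h (by exact_mod_cast hpQ))
  have hnum := same_num hz
  -- exponents of `p` in the two `g`s agree
  have key : ∀ j : ℕ, p ^ j ∣ gf b f ↔ p ^ j ∣ gf b' f := by
    intro j
    have hco : ∀ m : ℤ, IsCoprime ((p : ℤ) ^ j) (wf f m) := fun m =>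
      IsCoprime.pow_left ((hpZ.coprime_iff_not_dvd).2 (hW m))
    constructor
    · intro h
      have h1 : ((p : ℤ) ^ j) ∣ (gf b f : ℤ) := by exact_mod_cast h
      have h2 : ((p : ℤ) ^ j) ∣ gf b' f * wf f n' := hnum ▸ h1.mul_right _
      exact_mod_cast (hco n').dvd_of_dvd_mul_right h2
    · intro h
      have h1 : ((p : ℤ) ^ j) ∣ (gf b' f : ℤ) := by exact_mod_cast h
      have h2 : ((p : ℤ) ^ j) ∣ gf b f * wf f n := hnum.symm ▸ h1.mul_right _
      exact_mod_cast (hco n).dvd_of_dvd_mul_right h2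
  have h0 : gf b f ≠ 0 := (gf_pos hb f).ne'
  have h0' : gf b' f ≠ 0 := (gf_pos hb' f).ne'
  have hfac : (gf b f).factorization p = (gf b' f).factorization p := by
    apply le_antisymm
    · exact (hp.pow_dvd_iff_le_factorization h0').1 ((key _).1 (Nat.ordProj_dvd _ _))
    · exact (hp.pow_dvd_iff_le_factorization h0).1 ((key _).2 (Nat.ordProj_dvd _ _))
  apply hd
  have e1 := bet_mul_gf b f
  have e2 := bet_mul_gf b' f
  rw [← e1, ← e2, Nat.factorization_mul (bet_pos b f).ne' h0,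
    Nat.factorization_mul (bet_pos b' f).ne' h0', hβ]
  simp [hfac]

/-! ### (8) sparsity -/

/-- separated reals in an interval -/
lemma card_sep {T : Finset ℚ} {x y η : ℝ} (hη : 0 < η) (hxy : x ≤ y)
    (hT : ∀ f ∈ T, x ≤ (f : ℝ) ∧ (f : ℝ) ≤ y)
    (hsep : ∀ f ∈ T, ∀ f' ∈ T, f ≠ f' → η ≤ |(f : ℝ) - f'|) :
    (T.card : ℝ) ≤ (y - x) / η + 1 := by
  have hinj : Set.InjOn (fun f : ℚ => ⌊((f : ℝ) - x) / η⌋₊) T := by
    intro f hf f' hf' he
    by_contra hne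
    have h1 := hsep f hf f' hf' hne
    have he' : ⌊((f : ℝ) - x) / η⌋₊ = ⌊((f' : ℝ) - x) / η⌋₊ := he
    have h2 := Nat.floor_le (show 0 ≤ ((f : ℝ) - x) / η from
      div_nonneg (by linarith [(hT f hf).1]) hη.le)
    have h3 := Nat.lt_floor_add_one (((f : ℝ) - x) / η)
    have h4 := Nat.floor_le (show 0 ≤ ((f' : ℝ) - x) / η from
      div_nonneg (by linarith [(hT f' hf').1]) hη.le)
    have h5 := Nat.lt_floor_add_one (((f' : ℝ) - x) / η)
    rw [he'] at h2 h3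
    have h6 : |((f : ℝ) - x) / η - ((f' : ℝ) - x) / η| < 1 := by
      rw [abs_lt]; constructor <;> linarith
    have e : ((f : ℝ) - x) / η - ((f' : ℝ) - x) / η = ((f : ℝ) - f') / η := by ring
    rw [e, abs_div, abs_of_pos hη, div_lt_one hη] at h6
    linarith
  have hsub : T.image (fun f : ℚ => ⌊((f : ℝ) - x) / η⌋₊) ⊆ Finset.range (⌊(y - x) / η⌋₊ + 1) := by
    intro m hm
    obtain ⟨f, hf, rfl⟩ := Finset.mem_image.1 hm
    rw [Finset.mem_range]
    refine Nat.lt_succ_of_le (Nat.floor_le_floor ?_)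
    exact div_le_div_of_nonneg_right (by linarith [(hT f hf).2]) hη.le
  have h1 := Finset.card_le_card hsub
  rw [Finset.card_image_of_injOn hinj, Finset.card_range] at h1
  have h2 : (T.card : ℝ) ≤ (⌊(y - x) / η⌋₊ : ℝ) + 1 := by exact_mod_cast h1
  have h3 := Nat.floor_le (show 0 ≤ (y - x) / η from div_nonneg (by linarith) hη.le)
  linarith

/-- distance of two different rationals with denominators `k β`, `k β'` -/
lemma dist_ge {f f' : ℚ} {k β β' : ℕ} (hk : 0 < k) (hβ : 0 < β) (hβ' : 0 < β')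
    (h : f.den = k * β) (h' : f'.den = k * β') (hne : f ≠ f') :
    1 / ((k : ℝ) * β * β') ≤ |(f : ℝ) - f'| := by
  have hkR : (0 : ℝ) < k := by exact_mod_cast hk
  have hβR : (0 : ℝ) < β := by exact_mod_cast hβ
  have hβR' : (0 : ℝ) < β' := by exact_mod_cast hβ'
  have f1 : (f : ℝ) = f.num / (k * β) := by
    have := Rat.cast_def (K := ℝ) f
    rw [h] at this
    rw [this]; push_cast; rfl
  have f2 : (f' : ℝ) = f'.num / (k * β') := by
    have := Rat.cast_def (K := ℝ) f'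
    rw [h'] at this
    rw [this]; push_cast; rfl
  set X : ℤ := f.num * β' - f'.num * β with hX
  have e3 : (X : ℝ) = (k * β * β') * ((f : ℝ) - f') := by
    rw [f1, f2, hX]
    push_cast
    field_simp
  have hX0 : X ≠ 0 := by
    intro h0
    rw [h0] at e3
    have := mul_eq_zero.1 (show (k * β * β' : ℝ) * ((f : ℝ) - f') = 0 by rw [← e3]; simp)
    have h1 := this.resolve_left (by positivity)
    exact hne (by exact_mod_cast sub_eq_zero.1 h1)
  have h1 : (1 : ℝ) ≤ |(X : ℝ)| := by exact_mod_cast Int.one_le_abs hX0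
  rw [e3, abs_mul, abs_of_pos (by positivity)] at h1
  rw [div_le_iff₀ (by positivity)]
  linarith

/-- (8b) SPARSITY: reduced fractions `P/(k β)`, `X ≤ β < 2X`, in `[γ-δ, γ+δ]` with
`δ = D/(X t)`: at most `1 + 8 k D X / t` of them -/
theorem sparsity {γ D t : ℝ} {k X : ℕ} (hk : 0 < k) (hX : 0 < X) (ht : 0 < t) (hD : 0 ≤ D)
    {T : Finset ℚ} (hT : ∀ f ∈ T, ∃ β : ℕ, X ≤ β ∧ β < 2 * X ∧ f.den = k * β ∧
      |γ - f| ≤ D / (β * t)) : (T.card : ℝ) ≤ 8 * k * D * X / t + 1 := by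
  have hkR : (0 : ℝ) < k := by exact_mod_cast hk
  have hXR : (0 : ℝ) < X := by exact_mod_cast hX
  have h := card_sep (T := T) (x := γ - D / (X * t)) (y := γ + D / (X * t))
    (η := 1 / (k * (2 * X) * (2 * X))) (by positivity)
    (by have : 0 ≤ D / (X * t) := by positivity
        linarith)
    (by
      intro f hf
      obtain ⟨β, h1, h2, h3, h4⟩ := hT f hf
      have h5 : (X : ℝ) ≤ β := by exact_mod_cast h1
      have h6 : D / (β * t) ≤ D / (X * t) :=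
        div_le_div_of_nonneg_left hD (by positivity) (mul_le_mul_of_nonneg_right h5 ht.le)
      have h7 := abs_le.1 (h4.trans h6)
      constructor <;> linarith [h7.1, h7.2])
    (by
      intro f hf f' hf' hne
      obtain ⟨β, h1, h2, h3, _⟩ := hT f hf
      obtain ⟨β', h1', h2', h3', _⟩ := hT f' hf'
      have hβ : 0 < β := by omega
      have hβ' : 0 < β' := by omega
      refine le_trans ?_ (dist_ge hk hβ hβ' h3 h3' hne)
      have q1 : (β : ℝ) ≤ 2 * X := by exact_mod_cast h2.le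
      have q2 : (β' : ℝ) ≤ 2 * X := by exact_mod_cast h2'.le
      have q3 : (0 : ℝ) < β := by exact_mod_cast hβ
      have q4 : (0 : ℝ) < β' := by exact_mod_cast hβ'
      refine one_div_le_one_div_of_le (by positivity) ?_
      exact mul_le_mul (mul_le_mul_of_nonneg_left q1 hkR.le) q2 q4.le (by positivity))
  refine h.trans (le_of_eq ?_)
  field_simp
  ring

end Crest.Agent.R4C.Centx949
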