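import Crest.Agent.R4C.CrCoin_935
import Crest.Agent.R4C.Base_935
import Crest.Agent.R4C.Cent_949

/-!
# Row 4: bridge between offsets `h` (CrCoin_935) and hits / centres (Cent_949)  (helper949)

`q, q' ∣ M`, `b = M/q`, `b' = M/q'`, `s = q'/gcd(q,q')`, `s' = q/gcd(q,q')`, `b = g s`, `b' = g s'`,
`g = M/lcm(q,q')`.
-/

set_option autoImplicit false

namespace Crest.Agent.R4C.CentBrx949

open Crest.Agent.R4C.CrCountx935 Crest.Agent.R4C.CrCoinx935 Crest.Agent.R4C.Basex935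
  Crest.Agent.R4C.Centx949

/-- `M/q = (M/lcm) * (q'/gcd)` -/
lemma div_eq {M q q' : ℕ} (hM : 0 < M) (hq : q ∣ M) (hq' : q' ∣ M) :
    M / q = (M / Nat.lcm q q') * (q' / Nat.gcd q q') := by
  rw [← gcd_div_div hM hq hq', ← cof_div hM hq hq']
  exact (Nat.mul_div_cancel' (Nat.gcd_dvd_left _ _)).symm

lemma div_eq' {M q q' : ℕ} (hM : 0 < M) (hq : q ∣ M) (hq' : q' ∣ M) :
    M / q' = (M / Nat.lcm q q') * (q / Nat.gcd q q') := by
  have := div_eq hM hq' hq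
  rwa [Nat.lcm_comm, Nat.gcd_comm] at this

lemma coprime_cof {q q' : ℕ} (hq : 0 < q) :
    Nat.Coprime (q' / Nat.gcd q q') (q / Nat.gcd q q') :=
  (Nat.coprime_div_gcd_div_gcd (Nat.gcd_pos_of_pos_left _ hq)).symm

/-- every offset comes from a pair of hits -/
theorem exists_hits {q q' : ℕ} (hq : 0 < q) (h : ℤ) :
    ∃ n n' : ℤ, h = (q' / Nat.gcd q q' : ℕ) * n - (q / Nat.gcd q q' : ℕ) * n' := by
  obtain ⟨u, v, huv⟩ := Nat.isCoprime_iff_coprime.2 (coprime_cof (q' := q') hq)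
  exact ⟨h * u, -(h * v), by linear_combination (-h) * huv⟩

/-- `y - y' = g ((s - s') γ + h)` -/
theorem link_eq {M q q' : ℕ} (hM : 0 < M) (hq : q ∣ M) (hq' : q' ∣ M) (γ : ℝ) {h n n' : ℤ}
    (hh : h = (q' / Nat.gcd q q' : ℕ) * n - (q / Nat.gcd q q' : ℕ) * n') :
    ((M / q : ℕ) : ℝ) * (γ + n) - ((M / q' : ℕ) : ℝ) * (γ + n') =
      ((M / Nat.lcm q q' : ℕ) : ℝ) *
        ((((q' / Nat.gcd q q' : ℕ) : ℝ) - ((q / Nat.gcd q q' : ℕ) : ℝ)) * γ + h) := by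
  have e1 : ((M / q : ℕ) : ℝ) = ((M / Nat.lcm q q' : ℕ) : ℝ) * ((q' / Nat.gcd q q' : ℕ) : ℝ) := by
    exact_mod_cast div_eq hM hq hq'
  have e2 : ((M / q' : ℕ) : ℝ) = ((M / Nat.lcm q q' : ℕ) : ℝ) * ((q / Nat.gcd q q' : ℕ) : ℝ) := by
    exact_mod_cast div_eq' hM hq hq'
  have e3 : (h : ℝ) = ((q' / Nat.gcd q q' : ℕ) : ℝ) * n - ((q / Nat.gcd q q' : ℕ) : ℝ) * n' := by
    rw [hh, Int.cast_sub, Int.cast_mul, Int.cast_mul, Int.cast_natCast, Int.cast_natCast]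
  rw [e1, e2, e3]
  ring

/-- an offset of `Hf` gives linked hits, `L = 2 ρ M` -/
theorem link_lt {M q q' : ℕ} (hM : 0 < M) (hq : q ∣ M) (hq' : q' ∣ M) {γ ρ : ℝ} {h n n' : ℤ}
    (hh : h = (q' / Nat.gcd q q' : ℕ) * n - (q / Nat.gcd q q' : ℕ) * n')
    (hH : h ∈ Hf γ (2 * ρ * (Nat.lcm q q' : ℕ)) (q' / Nat.gcd q q') (q / Nat.gcd q q')) :
    |((M / q : ℕ) : ℝ) * (γ + n) - ((M / q' : ℕ) : ℝ) * (γ + n')| < 2 * ρ * M := by
  have hq0 : 0 < q := Nat.pos_of_dvd_of_pos hq hM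
  have hq0' : 0 < q' := Nat.pos_of_dvd_of_pos hq' hM
  have hl0 : 0 < Nat.lcm q q' := Nat.lcm_pos hq0 hq0'
  have hlM := Nat.lcm_dvd hq hq'
  have hK0 : 0 < M / Nat.lcm q q' := Nat.div_pos (Nat.le_of_dvd hM hlM) hl0
  have hKR : (0 : ℝ) < ((M / Nat.lcm q q' : ℕ) : ℝ) := by exact_mod_cast hK0
  rw [link_eq hM hq hq' γ hh, abs_mul, abs_of_pos hKR]
  have h1 := mul_lt_mul_of_pos_left (mem_Hf.1 hH) hKR
  refine h1.trans_le (le_of_eq ?_)
  have e : (M : ℝ) = ((M / Nat.lcm q q' : ℕ) : ℝ) * (Nat.lcm q q' : ℕ) := by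
    exact_mod_cast (Nat.div_mul_cancel hlM).symm
  rw [e]
  ring

/-- `p ∣ s'` implies `v_p(b) < v_p(b')` -/
theorem fac_lt {M q q' p : ℕ} (hM : 0 < M) (hq : q ∣ M) (hq' : q' ∣ M) (hp : p.Prime)
    (hd : p ∣ q / Nat.gcd q q') : (M / q).factorization p < (M / q').factorization p := by
  have hq0 : 0 < q := Nat.pos_of_dvd_of_pos hq hM
  have hq0' : 0 < q' := Nat.pos_of_dvd_of_pos hq' hM
  have hl0 : 0 < Nat.lcm q q' := Nat.lcm_pos hq0 hq0'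
  have hg0 : 0 < Nat.gcd q q' := Nat.gcd_pos_of_pos_left _ hq0
  have hK0 : 0 < M / Nat.lcm q q' := Nat.div_pos (Nat.le_of_dvd hM (Nat.lcm_dvd hq hq')) hl0
  have hs : 0 < q' / Nat.gcd q q' := Nat.div_pos (Nat.le_of_dvd hq0' (Nat.gcd_dvd_right _ _)) hg0
  have hs' : 0 < q / Nat.gcd q q' := Nat.div_pos (Nat.le_of_dvd hq0 (Nat.gcd_dvd_left _ _)) hg0
  rw [div_eq hM hq hq', div_eq' hM hq hq', Nat.factorization_mul hK0.ne' hs.ne',
    Nat.factorization_mul hK0.ne' hs'.ne']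
  simp only [Finsupp.coe_add, Pi.add_apply]
  have h1 : ¬ p ∣ q' / Nat.gcd q q' := fun h2 => by
    have := Nat.dvd_gcd h2 hd
    rw [(coprime_cof hq0).gcd_eq_one] at this
    exact hp.one_lt.ne' (Nat.dvd_one.1 this)
  rw [Nat.factorization_eq_zero_of_not_dvd h1]
  have := (hp.dvd_iff_one_le_factorization hs'.ne').1 hd
  omega

/-- and conversely -/
theorem dvd_of_fac_lt {M q q' p : ℕ} (hM : 0 < M) (hq : q ∣ M) (hq' : q' ∣ M)
    (hlt : (M / q).factorization p < (M / q').factorization p) : p ∣ q / Nat.gcd q q' := by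
  have hq0 : 0 < q := Nat.pos_of_dvd_of_pos hq hM
  have hq0' : 0 < q' := Nat.pos_of_dvd_of_pos hq' hM
  have hl0 : 0 < Nat.lcm q q' := Nat.lcm_pos hq0 hq0'
  have hg0 : 0 < Nat.gcd q q' := Nat.gcd_pos_of_pos_left _ hq0
  have hK0 : 0 < M / Nat.lcm q q' := Nat.div_pos (Nat.le_of_dvd hM (Nat.lcm_dvd hq hq')) hl0
  have hs : 0 < q' / Nat.gcd q q' := Nat.div_pos (Nat.le_of_dvd hq0' (Nat.gcd_dvd_right _ _)) hg0
  have hs' : 0 < q / Nat.gcd q q' := Nat.div_pos (Nat.le_of_dvd hq0 (Nat.gcd_dvd_left _ _)) hg0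
  rw [div_eq hM hq hq', div_eq' hM hq hq', Nat.factorization_mul hK0.ne' hs.ne',
    Nat.factorization_mul hK0.ne' hs'.ne'] at hlt
  simp only [Finsupp.coe_add, Pi.add_apply] at hlt
  by_contra hd
  rw [Nat.factorization_eq_zero_of_not_dvd hd] at hlt
  omega

/-- **a centre kills** (left side): `b = M/q`, `z = b (f + n)`, `p ∣ s'`, `v_p(num z) > v_p(b)`,
label `lam q p` = the class of `f` -/
theorem killedL_of_centre {M q q' p : ℕ} (hM : 0 < M) (hq : q ∣ M) (hp : p.Prime)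
    {lam : ℕ → ℕ → Option ℤ} {h n n' : ℤ} {f : ℚ}
    (hh : h = (q' / Nat.gcd q q' : ℕ) * n - (q / Nat.gcd q q' : ℕ) * n')
    (hd : p ∣ q / Nat.gcd q q')
    (hN : (p : ℤ) ^ ((M / q).factorization p + 1) ∣ (zpt (M / q) f n).num)
    (hlam : ∃ c, lam q p = some c ∧ (p : ℤ) ∣ f.num + f.den * c) :
    killedL lam q q' (q' / Nat.gcd q q') (q / Nat.gcd q q') h := by
  obtain ⟨c, hc, hcc⟩ := hlam
  have hb : 0 < M / q := Nat.div_pos (Nat.le_of_dvd hM hq) (Nat.pos_of_dvd_of_pos hq hM)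
  refine Or.inl ⟨p, hp, hd, c, hc, ?_⟩
  have := ((kill (s := q' / Nat.gcd q q') (s' := q / Nat.gcd q q') (n' := n') hb hp hd hN).2 c hcc).2
  rw [hh]
  exact this

/-- **a centre kills** (right side) -/
theorem killedL_of_centre' {M q q' p : ℕ} (hM : 0 < M) (hq' : q' ∣ M) (hp : p.Prime)
    {lam : ℕ → ℕ → Option ℤ} {h n n' : ℤ} {f' : ℚ}
    (hh : h = (q' / Nat.gcd q q' : ℕ) * n - (q / Nat.gcd q q' : ℕ) * n')
    (hd : p ∣ q' / Nat.gcd q q')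
    (hN : (p : ℤ) ^ ((M / q').factorization p + 1) ∣ (zpt (M / q') f' n').num)
    (hlam : ∃ c, lam q' p = some c ∧ (p : ℤ) ∣ f'.num + f'.den * c) :
    killedL lam q q' (q' / Nat.gcd q q') (q / Nat.gcd q q') h := by
  obtain ⟨c, hc, hcc⟩ := hlam
  have hb : 0 < M / q' := Nat.div_pos (Nat.le_of_dvd hM hq') (Nat.pos_of_dvd_of_pos hq' hM)
  refine Or.inr ⟨p, hp, hd, c, hc, ?_⟩
  have := ((kill' (s := q' / Nat.gcd q q') (s' := q / Nat.gcd q q') (n := n) hb hp hd hN).2 c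
    hcc).2
  rw [hh]
  exact this

/-- the class of `f` modulo a prime not dividing its denominator -/
theorem exists_class {f : ℚ} {p : ℕ} (hp : p.Prime) (hQ : ¬ p ∣ f.den) :
    ∃ c : ℤ, (p : ℤ) ∣ f.num + f.den * c := by
  have hco : IsCoprime (f.den : ℤ) (p : ℤ) :=
    Nat.isCoprime_iff_coprime.2 (((hp.coprime_iff_not_dvd).2 hQ).symm)
  obtain ⟨u, v, huv⟩ := hco
  exact ⟨-(f.num * u), ⟨f.num * v, by linear_combination (-f.num) * huv⟩⟩

open Classical in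
/-- the class of `f` mod `p`, as a label -/
noncomputable def lab (f : ℚ) (p : ℕ) : Option ℤ :=
  if h : ∃ c : ℤ, (p : ℤ) ∣ f.num + f.den * c then some h.choose else none

theorem lab_spec {f : ℚ} {p : ℕ} (hp : p.Prime) (hQ : ¬ p ∣ f.den) :
    ∃ c, lab f p = some c ∧ (p : ℤ) ∣ f.num + f.den * c := by
  have h := exists_class hp hQ
  refine ⟨h.choose, ?_, h.choose_spec⟩
  unfold lab
  rw [dif_pos h]

/-- **unkilled pairs**: linked hits with a common point `z`, `N = num z`.  At every prime `p ∣ s'`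
with `v_p(N) > v_p(b)` the label of `q` is not the one of the centre. -/
theorem unkilled {M q q' p : ℕ} (hM : 0 < M) (hq : q ∣ M) (hp : p.Prime)
    {lam : ℕ → ℕ → Option ℤ} {h n n' : ℤ} {f : ℚ}
    (hh : h = (q' / Nat.gcd q q' : ℕ) * n - (q / Nat.gcd q q' : ℕ) * n')
    (hu : ¬ killedL lam q q' (q' / Nat.gcd q q') (q / Nat.gcd q q') h)
    (hd : p ∣ q / Nat.gcd q q')
    (hN : (p : ℤ) ^ ((M / q).factorization p + 1) ∣ (zpt (M / q) f n).num) :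
    lam q p ≠ lab f p := by
  intro he
  have hb : 0 < M / q := Nat.div_pos (Nat.le_of_dvd hM hq) (Nat.pos_of_dvd_of_pos hq hM)
  obtain ⟨c, hc, hcc⟩ := lab_spec hp (not_dvd_den hb hp hN)
  exact hu (killedL_of_centre hM hq hp hh hd hN ⟨c, he.trans hc, hcc⟩)

theorem unkilled' {M q q' p : ℕ} (hM : 0 < M) (hq' : q' ∣ M) (hp : p.Prime)
    {lam : ℕ → ℕ → Option ℤ} {h n n' : ℤ} {f' : ℚ}
    (hh : h = (q' / Nat.gcd q q' : ℕ) * n - (q / Nat.gcd q q' : ℕ) * n')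
    (hu : ¬ killedL lam q q' (q' / Nat.gcd q q') (q / Nat.gcd q q') h)
    (hd : p ∣ q' / Nat.gcd q q')
    (hN : (p : ℤ) ^ ((M / q').factorization p + 1) ∣ (zpt (M / q') f' n').num) :
    lam q' p ≠ lab f' p := by
  intro he
  have hb : 0 < M / q' := Nat.div_pos (Nat.le_of_dvd hM hq') (Nat.pos_of_dvd_of_pos hq' hM)
  obtain ⟨c, hc, hcc⟩ := lab_spec hp (not_dvd_den hb hp hN)
  exact hu (killedL_of_centre' hM hq' hp hh hd hN ⟨c, he.trans hc, hcc⟩)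

end Crest.Agent.R4C.CentBrx949
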