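import Crest.Agent.R4C.FLDef_935
import Crest.Agent.R4C.CentBr_949

/-!
# Row 4: the chain `uu x b` of an F-Λ structure and its centres (2743 (b),(c),(d)) (helper81)

`F : FL M`, `b ∣ M`, window `L`.
* `tau F L x b = uu x b / L` is monotone in the cut; `gcd b c ≤ uu x b, uu x c` for good pairs;
* `div_gcd`, `link_target` : the cofactors of a good pair and the local target `lam x b * γ`;
* `fr F x b a k = a / (k lam x b)` : the centre of `b` given by the label `a / k` of `lam x b * γ`;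
* `two_cuts`, `jump`, `no_mild`, `deep_*` : two cuts with different centres;
* `same_pt`, `unkilled_s` : the common centre of a linked pair, and what it kills.
-/

set_option autoImplicit false

namespace Crest.Agent.R4C.Chainx81

open Finset Crest.Agent.R4C.Basex935 Crest.Agent.R4C.Cutx50 Crest.Agent.R4C.FLDefx935
  Crest.Agent.R4C.Centx949

variable {M : ℕ} {F : FL M}

/-! ### (b) the chain -/

/-- the scale of the chain of `b` at the cut `x` -/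
noncomputable def tau (F : FL M) (L : ℝ) (x b : ℕ) : ℝ := (F.uu x b : ℝ) / L

theorem uu_le_uu {x y b : ℕ} (hxy : x ≤ y) : F.uu x b ≤ F.uu y b :=
  Nat.le_of_dvd (FL.uu_pos y b) (FL.uu_dvd_uu hxy)

theorem tau_mono {L : ℝ} (hL : 0 ≤ L) {x y b : ℕ} (hxy : x ≤ y) :
    tau F L x b ≤ tau F L y b :=
  div_le_div_of_nonneg_right (by exact_mod_cast uu_le_uu hxy) hL

theorem tau_pos {L : ℝ} (hL : 0 < L) (x b : ℕ) : 0 < tau F L x b :=
  div_pos (by exact_mod_cast FL.uu_pos x b) hL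

theorem gcd_dvd_uu' {x b c : ℕ} (hM : 0 < M) (hb : b ∣ M) (hc : c ∣ M) (h : F.good x b c) :
    Nat.gcd b c ∣ F.uu x c := by
  rw [Nat.gcd_comm]
  exact FL.good_gcd_dvd_uu hM hc hb (FL.good_symm hb hc h)

theorem gcd_dvd_gcd_uu {x b c : ℕ} (hM : 0 < M) (hb : b ∣ M) (hc : c ∣ M) (h : F.good x b c) :
    Nat.gcd b c ∣ Nat.gcd (F.uu x b) (F.uu x c) :=
  Nat.dvd_gcd (FL.good_gcd_dvd_uu hM hb hc h) (gcd_dvd_uu' hM hb hc h)

theorem gcd_le_uu {x b c : ℕ} (hM : 0 < M) (hb : b ∣ M) (hc : c ∣ M) (h : F.good x b c) :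
    Nat.gcd b c ≤ F.uu x b := Nat.le_of_dvd (FL.uu_pos x b) (FL.good_gcd_dvd_uu hM hb hc h)

theorem gcd_le_gcd_uu {x b c : ℕ} (hM : 0 < M) (hb : b ∣ M) (hc : c ∣ M) (h : F.good x b c) :
    Nat.gcd b c ≤ Nat.gcd (F.uu x b) (F.uu x c) :=
  Nat.le_of_dvd (Nat.gcd_pos_of_pos_left _ (FL.uu_pos x b)) (gcd_dvd_gcd_uu hM hb hc h)

/-- `t ≤ τ_x(b)` for a good pair of scale `t` -/
theorem scale_le_tau {L t : ℝ} (hL : 0 < L) {x b c : ℕ} (hM : 0 < M) (hb : b ∣ M) (hc : c ∣ M)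
    (h : F.good x b c) (ht : t * L ≤ Nat.gcd b c) : t ≤ tau F L x b := by
  rw [tau, le_div_iff₀ hL]
  exact ht.trans (by exact_mod_cast gcd_le_uu hM hb hc h)

/-- (5') quotient of the chain at two cuts = quotient of the excess words -/
theorem uu_mul_quot {x y b : ℕ} (hM : 0 < M) (hb : b ∣ M) (hxy : x ≤ y) :
    F.uu y b = F.uu x b * (F.lam x b / F.lam y b) := by
  have h1 := FL.uu_mul_lam (F := F) (x := x) hM hb
  have h2 := FL.uu_mul_lam (F := F) (x := y) hM hb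
  have h3 : F.lam x b / F.lam y b * F.lam y b = F.lam x b :=
    Nat.div_mul_cancel (FL.lam_dvd_lam hxy)
  refine Nat.eq_of_mul_eq_mul_right (FL.lam_pos (F := F) y b) ?_
  rw [h2, mul_assoc, h3, h1]

/-! ### (c) cofactors of a good pair and the local target -/

/-- the low cofactor -/
def sig (x b c : ℕ) : ℕ := low x b / Nat.gcd (low x b) (low x c)

theorem eq_gcd_mul {x b c : ℕ} (hM : 0 < M) (hb : b ∣ M) (hc : c ∣ M) (h : F.good x b c) :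
    b = Nat.gcd b c * (sig x b c * (F.ell x c * F.lam x b)) := by
  have h1 := FL.good_gcd hM hb hc h
  have h2 := FL.mul_ell (F := F) (x := x) hM hb
  have h3 : Nat.gcd (low x b) (low x c) * sig x b c = low x b :=
    Nat.mul_div_cancel' (Nat.gcd_dvd_left _ _)
  have h4 : 0 < F.ell x b * F.ell x c := Nat.mul_pos (FL.ell_pos x b) (FL.ell_pos x c)
  refine Nat.eq_of_mul_eq_mul_right h4 ?_
  calc b * (F.ell x b * F.ell x c) = (b * F.ell x b) * F.ell x c := by ring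
    _ = low x b * F.cen x b * F.lam x b * F.ell x c := by rw [h2]
    _ = (Nat.gcd (low x b) (low x c) * sig x b c) * F.cen x b * F.lam x b * F.ell x c := by
        rw [h3]
    _ = (Nat.gcd (low x b) (low x c) * F.cen x b) * (sig x b c * (F.ell x c * F.lam x b)) := by
        ring
    _ = (Nat.gcd b c * (F.ell x b * F.ell x c)) * (sig x b c * (F.ell x c * F.lam x b)) := by
        rw [h1]
    _ = _ := by ring

theorem div_gcd {x b c : ℕ} (hM : 0 < M) (hb : b ∣ M) (hc : c ∣ M) (h : F.good x b c) :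
    b / Nat.gcd b c = sig x b c * (F.ell x c * F.lam x b) := by
  have hb0 : 0 < b := Nat.pos_of_dvd_of_pos hb hM
  have hg0 : 0 < Nat.gcd b c := Nat.gcd_pos_of_pos_left _ hb0
  exact Nat.div_eq_of_eq_mul_right hg0 (eq_gcd_mul hM hb hc h)

/-- **local target** (c): for linked hits of a good pair, `σ ell_c (lam_b γ)` and
`σ' ell_b (lam_c γ)` are equal modulo 1 up to `|y - y'| / g` -/
theorem link_target {x b c : ℕ} (hM : 0 < M) (hb : b ∣ M) (hc : c ∣ M) (h : F.good x b c)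
    (γ : ℝ) (n n' : ℤ) :
    |((sig x b c * F.ell x c : ℕ) : ℝ) * (F.lam x b * γ) -
        ((sig x c b * F.ell x b : ℕ) : ℝ) * (F.lam x c * γ) +
        (((b / Nat.gcd b c : ℕ) : ℤ) * n - ((c / Nat.gcd b c : ℕ) : ℤ) * n' : ℤ)| *
        (Nat.gcd b c : ℝ) = |(b : ℝ) * (γ + n) - c * (γ + n')| := by
  have hb0 : 0 < b := Nat.pos_of_dvd_of_pos hb hM
  have hg0 : 0 < Nat.gcd b c := Nat.gcd_pos_of_pos_left _ hb0
  have hgR : (0 : ℝ) < (Nat.gcd b c : ℝ) := by exact_mod_cast hg0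
  have e1 := eq_gcd_mul hM hb hc h
  have e2 := eq_gcd_mul hM hc hb (FL.good_symm hb hc h)
  rw [Nat.gcd_comm c b] at e2
  have d1 : b / Nat.gcd b c = sig x b c * (F.ell x c * F.lam x b) := div_gcd hM hb hc h
  have d2 : c / Nat.gcd b c = sig x c b * (F.ell x b * F.lam x c) := by
    have := div_gcd hM hc hb (FL.good_symm hb hc h)
    rwa [Nat.gcd_comm] at this
  rw [d1, d2]
  nth_rewrite 1 [← abs_of_pos hgR]
  rw [← abs_mul]
  congr 1
  have e1R : (b : ℝ) = (Nat.gcd b c : ℝ) * (sig x b c * (F.ell x c * F.lam x b)) := by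
    exact_mod_cast e1
  have e2R : (c : ℝ) = (Nat.gcd b c : ℝ) * (sig x c b * (F.ell x b * F.lam x c)) := by
    exact_mod_cast e2
  push_cast
  generalize hG : (Nat.gcd b c : ℝ) = G at *
  rw [e1R, e2R]
  ring

/-! ### the centre given by a label of `lam x b * γ` -/

/-- the fraction `a / (k lam x b)` -/
def fr (F : FL M) (x b : ℕ) (a : ℤ) (k : ℕ) : ℚ := a / ((k : ℚ) * F.lam x b)

/-- the point of the centre `fr` -/
theorem zpt_fr {x b : ℕ} (hM : 0 < M) (hb : b ∣ M) (a : ℤ) {k : ℕ} (hk : 0 < k) (n : ℤ) :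
    zpt b (fr F x b a k) n =
      ((F.uu x b : ℤ) * (a + (k : ℤ) * F.lam x b * n) : ℤ) / (k : ℚ) := by
  have h1 : ((F.uu x b : ℚ)) * F.lam x b = b := by
    exact_mod_cast FL.uu_mul_lam (F := F) (x := x) hM hb
  have hl : (F.lam x b : ℚ) ≠ 0 := by exact_mod_cast (FL.lam_pos (F := F) x b).ne'
  have hk' : (k : ℚ) ≠ 0 := by exact_mod_cast hk.ne'
  unfold zpt fr
  rw [← h1]
  push_cast
  field_simp

theorem disp_fr {x b : ℕ} (hM : 0 < M) (hb : b ∣ M) (a : ℤ) {k : ℕ} (hk : 0 < k) (γ : ℝ) :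
    disp γ b (fr F x b a k) = F.uu x b * |F.lam x b * γ - a / k| := by
  have h1 : ((F.uu x b : ℝ)) * F.lam x b = b := by
    exact_mod_cast FL.uu_mul_lam (F := F) (x := x) hM hb
  have hl : (0 : ℝ) < F.lam x b := by exact_mod_cast (FL.lam_pos (F := F) x b)
  have hk' : (0 : ℝ) < k := by exact_mod_cast hk
  unfold disp fr
  rw [← h1]
  push_cast
  rw [mul_assoc]
  congr 1
  nth_rewrite 1 [← abs_of_pos hl]
  rw [← abs_mul]
  congr 1
  field_simp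

/-- `kf ∣ k` -/
theorem kf_dvd {x b : ℕ} (hM : 0 < M) (hb : b ∣ M) (a : ℤ) {k : ℕ} (hk : 0 < k) :
    kf b (fr F x b a k) ∣ k := by
  rw [← zpt_den b (fr F x b a k) 0, zpt_fr hM hb a hk 0]
  have := Rat.den_dvd ((F.uu x b : ℤ) * (a + (k : ℤ) * F.lam x b * 0)) (k : ℤ)
  have h2 : (((F.uu x b : ℤ) * (a + (k : ℤ) * F.lam x b * 0) : ℤ) / (k : ℚ)) =
      (((F.uu x b : ℤ) * (a + (k : ℤ) * F.lam x b * 0) : ℤ) / (((k : ℤ) : ℚ))) := by
    push_cast; rfl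
  rw [h2]
  rw [Rat.divInt_eq_div] at this
  exact_mod_cast this

/-- `num z * k = uu (a + k lam n) * kf` -/
theorem num_mul {x b : ℕ} (hM : 0 < M) (hb : b ∣ M) (a : ℤ) {k : ℕ} (hk : 0 < k) (n : ℤ) :
    (zpt b (fr F x b a k) n).num * k =
      (F.uu x b : ℤ) * (a + (k : ℤ) * F.lam x b * n) * kf b (fr F x b a k) := by
  have h1 := zpt_fr (F := F) (x := x) hM hb a hk n
  have h2 := Rat.num_div_den (zpt b (fr F x b a k) n)
  rw [zpt_den] at h2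
  have hk0 : (k : ℚ) ≠ 0 := by exact_mod_cast hk.ne'
  have hk1 : ((kf b (fr F x b a k) : ℕ) : ℚ) ≠ 0 := by
    exact_mod_cast (kf_pos b (fr F x b a k)).ne'
  rw [← h2] at h1
  rw [div_eq_div_iff hk1 hk0] at h1
  exact_mod_cast h1

/-- `uu ∣ k * num z` -/
theorem uu_dvd_num {x b : ℕ} (hM : 0 < M) (hb : b ∣ M) (a : ℤ) {k : ℕ} (hk : 0 < k) (n : ℤ) :
    (F.uu x b : ℤ) ∣ (zpt b (fr F x b a k) n).num * k :=
  ⟨_, (num_mul hM hb a hk n).trans (mul_assoc _ _ _)⟩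

/-- `uu ∣ gf * k` -/
theorem uu_dvd_gf {x b : ℕ} (hM : 0 < M) (hb : b ∣ M) (a : ℤ) {k : ℕ} (hk : 0 < k) :
    F.uu x b ∣ gf b (fr F x b a k) * k := by
  have h1 := uu_dvd_num (F := F) (x := x) hM hb a hk 0
  have h2 : (F.uu x b : ℤ) ∣ (b : ℤ) * k :=
    (by exact_mod_cast (FL.uu_dvd (F := F) (x := x) hM hb) : (F.uu x b : ℤ) ∣ (b : ℤ)).mul_right _
  have h3 := gcd_num b (fr F x b a k) 0
  have h4 : (F.uu x b) ∣ Int.gcd ((b : ℤ) * k) ((zpt b (fr F x b a k) 0).num * k) :=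
    Int.dvd_gcd h2 h1
  rw [Int.gcd_mul_right, h3] at h4
  simpa using h4

/-- for a reduced label, `k ∣ kf * uu` -/
theorem k_dvd {x b : ℕ} (hM : 0 < M) (hb : b ∣ M) {a : ℤ} {k : ℕ} (hk : 0 < k)
    (hak : IsCoprime a (k : ℤ)) : k ∣ kf b (fr F x b a k) * F.uu x b := by
  have h1 := num_mul (F := F) (x := x) hM hb a hk 0
  have h2 : (k : ℤ) ∣ (kf b (fr F x b a k) * F.uu x b : ℤ) * a := by
    refine ⟨(zpt b (fr F x b a k) 0).num, ?_⟩
    linear_combination -h1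
  have h3 : (k : ℤ) ∣ (kf b (fr F x b a k) * F.uu x b : ℤ) :=
    (IsCoprime.dvd_of_dvd_mul_right hak.symm h2)
  exact_mod_cast h3

/-! ### (d) two cuts -/

/-- two fractions `a₁/(k₁Λ₁)`, `a₂/(k₂Λ₂)` with `Λ₂ ∣ Λ₁` which are different -/
theorem dist_fr {x y b : ℕ} (hxy : x ≤ y) {a₁ a₂ : ℤ} {k₁ k₂ : ℕ} (hk₁ : 0 < k₁) (hk₂ : 0 < k₂)
    (hne : fr F x b a₁ k₁ ≠ fr F y b a₂ k₂) :
    1 / ((k₁ : ℝ) * k₂ * F.lam x b) ≤
      |((fr F x b a₁ k₁ : ℚ) : ℝ) - ((fr F y b a₂ k₂ : ℚ) : ℝ)| := by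
  obtain ⟨m, hm⟩ := FL.lam_dvd_lam (F := F) (b := b) hxy
  have hl1 : (0 : ℝ) < F.lam x b := by exact_mod_cast FL.lam_pos (F := F) x b
  have hl2 : (0 : ℝ) < F.lam y b := by exact_mod_cast FL.lam_pos (F := F) y b
  have hk1 : (0 : ℝ) < k₁ := by exact_mod_cast hk₁
  have hk2 : (0 : ℝ) < k₂ := by exact_mod_cast hk₂
  have hmR : (F.lam x b : ℝ) = F.lam y b * m := by exact_mod_cast hm
  set X : ℤ := a₁ * k₂ - a₂ * k₁ * m with hX
  have e : ((fr F x b a₁ k₁ : ℚ) : ℝ) - ((fr F y b a₂ k₂ : ℚ) : ℝ) =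
      (X : ℝ) / ((k₁ : ℝ) * k₂ * F.lam x b) := by
    unfold fr
    have hm0 : (m : ℝ) ≠ 0 := by
      intro h0
      rw [h0, mul_zero] at hmR
      exact hl1.ne' hmR
    push_cast
    rw [hX, hmR]
    push_cast
    field_simp
  have hX0 : X ≠ 0 := by
    intro h0
    apply hne
    rw [h0] at e
    simp only [Int.cast_zero, zero_div] at e
    exact_mod_cast sub_eq_zero.1 e
  have hX1 : (1 : ℝ) ≤ |(X : ℝ)| := by
    rw [← Int.cast_abs]
    exact_mod_cast Int.one_le_abs hX0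
  have hpos : (0 : ℝ) < (k₁ : ℝ) * k₂ * F.lam x b := by positivity
  rw [e, abs_div, abs_of_pos hpos]
  exact div_le_div_of_nonneg_right hX1 hpos.le

/-- **two cuts, different centres**: the chain at the lower cut is short -/
theorem two_cuts {x y b : ℕ} (hM : 0 < M) (hb : b ∣ M) (hxy : x ≤ y) {a₁ a₂ : ℤ} {k₁ k₂ : ℕ}
    (hk₁ : 0 < k₁) (hk₂ : 0 < k₂) (hne : fr F x b a₁ k₁ ≠ fr F y b a₂ k₂) (γ : ℝ) :
    (F.uu x b : ℝ) ≤ k₁ * k₂ *
      (disp γ b (fr F x b a₁ k₁) + disp γ b (fr F y b a₂ k₂)) := by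
  have h1 := dist_fr hxy hk₁ hk₂ hne
  have hb1 : ((F.uu x b : ℝ)) * F.lam x b = b := by
    exact_mod_cast FL.uu_mul_lam (F := F) (x := x) hM hb
  have hl1 : (0 : ℝ) < F.lam x b := by exact_mod_cast FL.lam_pos (F := F) x b
  have hk1 : (0 : ℝ) < k₁ := by exact_mod_cast hk₁
  have hk2 : (0 : ℝ) < k₂ := by exact_mod_cast hk₂
  have hbR : (0 : ℝ) ≤ b := Nat.cast_nonneg _
  have h2 : |((fr F x b a₁ k₁ : ℚ) : ℝ) - ((fr F y b a₂ k₂ : ℚ) : ℝ)| ≤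
      |γ - (fr F x b a₁ k₁ : ℚ)| + |γ - (fr F y b a₂ k₂ : ℚ)| := by
    rw [show ((fr F x b a₁ k₁ : ℚ) : ℝ) - ((fr F y b a₂ k₂ : ℚ) : ℝ) =
      (γ - (fr F y b a₂ k₂ : ℚ)) - (γ - (fr F x b a₁ k₁ : ℚ)) by ring]
    refine (abs_sub _ _).trans (le_of_eq (add_comm _ _))
  have h3 := mul_le_mul_of_nonneg_left (h1.trans h2) hbR
  have h4 : (b : ℝ) * (1 / ((k₁ : ℝ) * k₂ * F.lam x b)) = F.uu x b / (k₁ * k₂) := by
    rw [← hb1]
    field_simp
  rw [h4, div_le_iff₀ (mul_pos hk1 hk2)] at h3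
  unfold disp
  linarith

/-- **the change of centre costs excess letters** between the two cuts -/
theorem jump {x y b : ℕ} (hM : 0 < M) (hb : b ∣ M) (hxy : x ≤ y) {a₁ a₂ : ℤ} {k₁ k₂ : ℕ}
    (hk₁ : 0 < k₁) (hk₂ : 0 < k₂) (hne : fr F x b a₁ k₁ ≠ fr F y b a₂ k₂) (γ : ℝ) :
    (F.uu y b : ℝ) ≤ ((F.lam x b / F.lam y b : ℕ) : ℝ) * (k₁ * k₂ *
      (disp γ b (fr F x b a₁ k₁) + disp γ b (fr F y b a₂ k₂))) := by
  have h1 := two_cuts hM hb hxy hk₁ hk₂ hne γ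
  have h2 : (F.uu y b : ℝ) = F.uu x b * ((F.lam x b / F.lam y b : ℕ) : ℝ) := by
    exact_mod_cast uu_mul_quot (F := F) hM hb hxy
  rw [h2, mul_comm]
  exact mul_le_mul_of_nonneg_left h1 (Nat.cast_nonneg _)

/-- **no mild conflict**: a partner which is good at the LOWER cut has scale `≤ k₁k₂(D₁+D₂)/L` -/
theorem no_mild {x y b c : ℕ} (hM : 0 < M) (hb : b ∣ M) (hc : c ∣ M) (hxy : x ≤ y)
    {a₁ a₂ : ℤ} {k₁ k₂ : ℕ} (hk₁ : 0 < k₁) (hk₂ : 0 < k₂)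
    (hne : fr F x b a₁ k₁ ≠ fr F y b a₂ k₂) (γ : ℝ) (hg : F.good x b c) :
    (Nat.gcd b c : ℝ) ≤ k₁ * k₂ *
      (disp γ b (fr F x b a₁ k₁) + disp γ b (fr F y b a₂ k₂)) :=
  (by exact_mod_cast gcd_le_uu hM hb hc hg : (Nat.gcd b c : ℝ) ≤ F.uu x b).trans
    (two_cuts hM hb hxy hk₁ hk₂ hne γ)

/-! ### exponent form of (d) -/

section exps

variable {x y b : ℕ} {a₁ a₂ : ℤ} {k₁ k₂ : ℕ} {γ L D t₁ t₂ c : ℝ}

lemma two_cuts_D (hM : 0 < M) (hb : b ∣ M) (hxy : x ≤ y)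
    (hk₁ : 0 < k₁) (hk₂ : 0 < k₂) (hne : fr F x b a₁ k₁ ≠ fr F y b a₂ k₂)
    (hd₁ : disp γ b (fr F x b a₁ k₁) ≤ D * L) (hd₂ : disp γ b (fr F y b a₂ k₂) ≤ D * L) :
    (F.uu x b : ℝ) ≤ k₁ * k₂ * (2 * D * L) := by
  refine (two_cuts hM hb hxy hk₁ hk₂ hne γ).trans ?_
  refine mul_le_mul_of_nonneg_left (by linarith) (by positivity)

/-- `k₂ ≥ t₁^{1-c} / (2D)` -/
theorem deep_k (hM : 0 < M) (hb : b ∣ M) (hxy : x ≤ y) (hL : 0 < L) (ht₁ : 0 < t₁)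
    (hk₁ : 0 < k₁) (hk₂ : 0 < k₂) (hne : fr F x b a₁ k₁ ≠ fr F y b a₂ k₂)
    (hd₁ : disp γ b (fr F x b a₁ k₁) ≤ D * L) (hd₂ : disp γ b (fr F y b a₂ k₂) ≤ D * L)
    (hD : 0 ≤ D) (ht : t₁ * L ≤ F.uu x b) (hkt : (k₁ : ℝ) ≤ t₁ ^ c) :
    t₁ ^ (1 - c) ≤ 2 * D * k₂ := by
  have h1 := two_cuts_D hM hb hxy hk₁ hk₂ hne hd₁ hd₂
  have h2 : t₁ * L ≤ (k₁ * k₂ * (2 * D)) * L := by
    refine (ht.trans h1).trans (le_of_eq (by ring))
  have h3 : t₁ ≤ k₁ * k₂ * (2 * D) := le_of_mul_le_mul_right h2 hL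
  have h4 : t₁ ≤ t₁ ^ c * (2 * D * k₂) := by
    refine h3.trans ?_
    have : (0 : ℝ) ≤ k₂ * (2 * D) := by positivity
    calc (k₁ : ℝ) * k₂ * (2 * D) = k₁ * (k₂ * (2 * D)) := by ring
      _ ≤ t₁ ^ c * (k₂ * (2 * D)) := mul_le_mul_of_nonneg_right hkt this
      _ = _ := by ring
  rw [Real.rpow_sub ht₁, Real.rpow_one, div_le_iff₀ (Real.rpow_pos_of_pos ht₁ c)]
  linarith

/-- excess letters between the cuts: `t₂^{1-2c} / (2D) ≤ lam x b / lam y b` -/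
theorem deep_jump (hM : 0 < M) (hb : b ∣ M) (hxy : x ≤ y) (hL : 0 < L) (ht₁ : 0 < t₁)
    (ht₂ : 0 < t₂) (h12 : t₁ ≤ t₂)
    (hk₁ : 0 < k₁) (hk₂ : 0 < k₂) (hne : fr F x b a₁ k₁ ≠ fr F y b a₂ k₂)
    (hd₁ : disp γ b (fr F x b a₁ k₁) ≤ D * L) (hd₂ : disp γ b (fr F y b a₂ k₂) ≤ D * L)
    (hD : 0 ≤ D) (hc : 0 ≤ c) (ht : t₂ * L ≤ F.uu y b) (hkt₁ : (k₁ : ℝ) ≤ t₁ ^ c)
    (hkt₂ : (k₂ : ℝ) ≤ t₂ ^ c) :
    t₂ ^ (1 - 2 * c) ≤ 2 * D * ((F.lam x b / F.lam y b : ℕ) : ℝ) := by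
  set J : ℝ := ((F.lam x b / F.lam y b : ℕ) : ℝ) with hJ
  have hJ0 : 0 ≤ J := Nat.cast_nonneg _
  have h1 := two_cuts_D hM hb hxy hk₁ hk₂ hne hd₁ hd₂
  have h2 : (F.uu y b : ℝ) = F.uu x b * J := by
    rw [hJ]; exact_mod_cast uu_mul_quot (F := F) hM hb hxy
  have h3 : t₂ * L ≤ (k₁ * k₂ * (2 * D) * J) * L := by
    calc t₂ * L ≤ F.uu x b * J := by rw [← h2]; exact ht
      _ ≤ (k₁ * k₂ * (2 * D * L)) * J := mul_le_mul_of_nonneg_right h1 hJ0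
      _ = _ := by ring
  have h4 : t₂ ≤ k₁ * k₂ * (2 * D) * J := le_of_mul_le_mul_right h3 hL
  have h5 : (k₁ : ℝ) * k₂ ≤ t₂ ^ (2 * c) := by
    have e : t₂ ^ (2 * c) = t₂ ^ c * t₂ ^ c := by rw [← Real.rpow_add ht₂]; ring_nf
    rw [e]
    exact mul_le_mul (hkt₁.trans (Real.rpow_le_rpow ht₁.le h12 hc)) hkt₂ (Nat.cast_nonneg _)
      (Real.rpow_pos_of_pos ht₂ c).le
  have h6 : t₂ ≤ t₂ ^ (2 * c) * (2 * D * J) := by
    refine h4.trans ?_
    calc (k₁ : ℝ) * k₂ * (2 * D) * J = (k₁ * k₂) * (2 * D * J) := by ring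
      _ ≤ _ := mul_le_mul_of_nonneg_right h5 (by positivity)
  rw [Real.rpow_sub ht₂, Real.rpow_one, div_le_iff₀ (Real.rpow_pos_of_pos ht₂ _)]
  linarith

/-- **only deep conflicts**: if a partner of scale `≥ t₂` is good at the lower cut `x` (which is
automatic, up to the bad energy, when `x + 1 ≥ t₂^A`), there is no change of centre between the
cuts -/
theorem deep_cut {b' : ℕ} (hM : 0 < M) (hb : b ∣ M) (hb' : b' ∣ M) (hxy : x ≤ y) (hL : 0 < L)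
    (hk₁ : 0 < k₁) (hk₂ : 0 < k₂)
    (hd₁ : disp γ b (fr F x b a₁ k₁) ≤ D * L) (hd₂ : disp γ b (fr F y b a₂ k₂) ≤ D * L)
    (ht : t₂ * L ≤ Nat.gcd b b') (hg : F.good x b b') (hkk : (k₁ : ℝ) * k₂ * (2 * D) < t₂) :
    fr F x b a₁ k₁ = fr F y b a₂ k₂ := by
  by_contra hne
  have h1 := two_cuts_D hM hb hxy hk₁ hk₂ hne hd₁ hd₂
  have h2 : (Nat.gcd b b' : ℝ) ≤ F.uu x b := by exact_mod_cast gcd_le_uu hM hb hb' hg
  have h3 : t₂ * L ≤ (k₁ * k₂ * (2 * D)) * L :=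
    ((ht.trans h2).trans h1).trans (le_of_eq (by ring))
  have h4 := le_of_mul_le_mul_right h3 hL
  linarith

/-- the cut of `t₁` in a conflict is at most `t₂^A` -/
theorem deep_cut' {A : ℝ} {b' : ℕ} (hM : 0 < M) (hb : b ∣ M) (hb' : b' ∣ M) (hxy : x ≤ y)
    (hL : 0 < L) (hk₁ : 0 < k₁) (hk₂ : 0 < k₂) (hne : fr F x b a₁ k₁ ≠ fr F y b a₂ k₂)
    (hd₁ : disp γ b (fr F x b a₁ k₁) ≤ D * L) (hd₂ : disp γ b (fr F y b a₂ k₂) ≤ D * L)
    (ht : t₂ * L ≤ Nat.gcd b b') (hkk : (k₁ : ℝ) * k₂ * (2 * D) < t₂)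
    (hgood : ∀ w : ℕ, t₂ ^ A ≤ w + 1 → F.good w b b') : (x : ℝ) + 1 < t₂ ^ A := by
  by_contra hcon
  push Not at hcon
  exact hne (deep_cut hM hb hb' hxy hL hk₁ hk₂ hd₁ hd₂ ht (hgood x hcon) hkk)

/-- with `x + 1 ≥ exp(t₁^c')`: `t₁^c' < A log t₂` -/
theorem deep_exp {A c' : ℝ} {b' : ℕ} (hM : 0 < M) (hb : b ∣ M) (hb' : b' ∣ M) (hxy : x ≤ y)
    (hL : 0 < L) (hk₁ : 0 < k₁) (hk₂ : 0 < k₂) (hne : fr F x b a₁ k₁ ≠ fr F y b a₂ k₂)
    (hd₁ : disp γ b (fr F x b a₁ k₁) ≤ D * L) (hd₂ : disp γ b (fr F y b a₂ k₂) ≤ D * L)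
    (ht₂ : 0 < t₂) (ht : t₂ * L ≤ Nat.gcd b b') (hkk : (k₁ : ℝ) * k₂ * (2 * D) < t₂)
    (hgood : ∀ w : ℕ, t₂ ^ A ≤ w + 1 → F.good w b b') (hx : Real.exp (t₁ ^ c') ≤ x + 1) :
    t₁ ^ c' < A * Real.log t₂ := by
  have h1 := deep_cut' hM hb hb' hxy hL hk₁ hk₂ hne hd₁ hd₂ ht hkk hgood
  have h2 : Real.exp (t₁ ^ c') < Real.exp (A * Real.log t₂) := by
    refine (hx.trans_lt h1).trans_le (le_of_eq ?_)
    rw [Real.rpow_def_of_pos ht₂, mul_comm]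
  exact Real.exp_lt_exp.1 h2

end exps

/-! ### the common centre of a linked pair -/

/-- different points: `gcd(uu, uu') ≤ k k' |z - z'|` -/
theorem gap_uu {x x' b b' : ℕ} (hM : 0 < M) (hb : b ∣ M) (hb' : b' ∣ M) {a a' : ℤ} {k k' : ℕ}
    (hk : 0 < k) (hk' : 0 < k') {n n' : ℤ}
    (hne : zpt b (fr F x b a k) n ≠ zpt b' (fr F x' b' a' k') n') :
    (Nat.gcd (F.uu x b) (F.uu x' b') : ℝ) ≤ k * k' *
      |((zpt b (fr F x b a k) n : ℚ) : ℝ) - (zpt b' (fr F x' b' a' k') n' : ℚ)| := by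
  have hkR : (0 : ℝ) < k := by exact_mod_cast hk
  have hkR' : (0 : ℝ) < k' := by exact_mod_cast hk'
  set P : ℤ := (F.uu x b : ℤ) * (a + (k : ℤ) * F.lam x b * n) with hP
  set P' : ℤ := (F.uu x' b' : ℤ) * (a' + (k' : ℤ) * F.lam x' b' * n') with hP'
  have e1 : ((zpt b (fr F x b a k) n : ℚ) : ℝ) = (P : ℝ) / k := by
    rw [zpt_fr hM hb a hk n, ← hP]; push_cast; rfl
  have e2 : ((zpt b' (fr F x' b' a' k') n' : ℚ) : ℝ) = (P' : ℝ) / k' := by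
    rw [zpt_fr hM hb' a' hk' n', ← hP']; push_cast; rfl
  set X : ℤ := P * k' - P' * k with hX
  have e3 : (k : ℝ) * k' * |((zpt b (fr F x b a k) n : ℚ) : ℝ) -
      (zpt b' (fr F x' b' a' k') n' : ℚ)| = |(X : ℝ)| := by
    rw [← abs_of_pos (mul_pos hkR hkR'), ← abs_mul, e1, e2, hX]
    congr 1
    push_cast
    field_simp
  rw [e3]
  have hX0 : X ≠ 0 := by
    intro h0
    apply hne
    have h1 : ((zpt b (fr F x b a k) n : ℚ) : ℝ) - (zpt b' (fr F x' b' a' k') n' : ℚ) = 0 := by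
      rw [h0] at e3
      simp only [Int.cast_zero, abs_zero, mul_eq_zero, hkR.ne', hkR'.ne', false_or,
        abs_eq_zero] at e3
      exact e3
    exact_mod_cast sub_eq_zero.1 h1
  have hd : ((Nat.gcd (F.uu x b) (F.uu x' b') : ℕ) : ℤ) ∣ X := by
    have d1 : ((Nat.gcd (F.uu x b) (F.uu x' b') : ℕ) : ℤ) ∣ F.uu x b := by
      exact_mod_cast Nat.gcd_dvd_left _ _
    have d2 : ((Nat.gcd (F.uu x b) (F.uu x' b') : ℕ) : ℤ) ∣ F.uu x' b' := by
      exact_mod_cast Nat.gcd_dvd_right _ _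
    exact dvd_sub ((d1.mul_right _).mul_right _) ((d2.mul_right _).mul_right _)
  have h2 := Int.le_of_dvd (abs_pos.2 hX0) ((dvd_abs _ _).2 hd)
  exact_mod_cast h2

/-- **same point** -/
theorem same_pt {x x' b b' : ℕ} (hM : 0 < M) (hb : b ∣ M) (hb' : b' ∣ M) {a a' : ℤ} {k k' : ℕ}
    (hk : 0 < k) (hk' : 0 < k') {n n' : ℤ} {γ : ℝ}
    (h : (k : ℝ) * k' * (disp γ b (fr F x b a k) + disp γ b' (fr F x' b' a' k') +
      |(b : ℝ) * (γ + n) - b' * (γ + n')|) < Nat.gcd (F.uu x b) (F.uu x' b')) :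
    zpt b (fr F x b a k) n = zpt b' (fr F x' b' a' k') n' := by
  by_contra hne
  have h1 := gap_uu hM hb hb' hk hk' hne
  set f := fr F x b a k with hf
  set f' := fr F x' b' a' k' with hf'
  have hkR : (0 : ℝ) < k := by exact_mod_cast hk
  have hkR' : (0 : ℝ) < k' := by exact_mod_cast hk'
  have h2 : |((zpt b f n : ℚ) : ℝ) - (zpt b' f' n' : ℚ)| ≤
      disp γ b f + disp γ b' f' + |(b : ℝ) * (γ + n) - b' * (γ + n')| := by
    rw [disp_eq γ b f n, disp_eq γ b' f' n']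
    have e : ((zpt b f n : ℚ) : ℝ) - (zpt b' f' n' : ℚ) =
        -((b : ℝ) * (γ + n) - (zpt b f n : ℚ)) + ((b' : ℝ) * (γ + n') - (zpt b' f' n' : ℚ)) +
        ((b : ℝ) * (γ + n) - b' * (γ + n')) := by ring
    rw [e]
    refine (abs_add_three _ _ _).trans ?_
    rw [abs_neg]
  have h3 := mul_le_mul_of_nonneg_left h2 (mul_pos hkR hkR').le
  linarith

/-- same point, for good pairs: `k k' (2D+1) < t` suffices -/
theorem same_pt_good {x b b' : ℕ} (hM : 0 < M) (hb : b ∣ M) (hb' : b' ∣ M) {a a' : ℤ} {k k' : ℕ}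
    (hk : 0 < k) (hk' : 0 < k') {n n' : ℤ} {γ D L t : ℝ} (hg : F.good x b b')
    (hd : disp γ b (fr F x b a k) ≤ D * L) (hd' : disp γ b' (fr F x b' a' k') ≤ D * L)
    (hl : |(b : ℝ) * (γ + n) - b' * (γ + n')| < L) (ht : t * L ≤ Nat.gcd b b')
    (hkk : (k : ℝ) * k' * (2 * D + 1) ≤ t) :
    zpt b (fr F x b a k) n = zpt b' (fr F x b' a' k') n' := by
  have hL : 0 < L := (abs_nonneg _).trans_lt hl
  refine same_pt hM hb hb' hk hk' (γ := γ) ?_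
  have hkR : (0 : ℝ) < k := by exact_mod_cast hk
  have hkR' : (0 : ℝ) < k' := by exact_mod_cast hk'
  have h1 : (Nat.gcd b b' : ℝ) ≤ Nat.gcd (F.uu x b) (F.uu x b') := by
    exact_mod_cast gcd_le_gcd_uu hM hb hb' hg
  refine lt_of_lt_of_le ?_ (ht.trans h1)
  calc (k : ℝ) * k' * (disp γ b (fr F x b a k) + disp γ b' (fr F x b' a' k') +
      |(b : ℝ) * (γ + n) - b' * (γ + n')|) < (k : ℝ) * k' * (D * L + D * L + L) :=
        mul_lt_mul_of_pos_left (by linarith) (mul_pos hkR hkR')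
    _ = ((k : ℝ) * k' * (2 * D + 1)) * L := by ring
    _ ≤ t * L := mul_le_mul_of_nonneg_right hkk hL.le

/-- the centre of `b'` is the transferred centre of `b` -/
theorem fr_eq_tr {x x' b b' : ℕ} (hM : 0 < M) (hb' : b' ∣ M) {a a' : ℤ} {k k' : ℕ} {n n' : ℤ}
    (hz : zpt b (fr F x b a k) n = zpt b' (fr F x' b' a' k') n') :
    fr F x' b' a' k' = tr b' (zpt b (fr F x b a k) n) n' := by
  have hb0 : ((b' : ℕ) : ℚ) ≠ 0 := by exact_mod_cast (Nat.pos_of_dvd_of_pos hb' hM).ne'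
  rw [hz]
  unfold tr zpt
  field_simp
  ring

/-- **explained primes** of the common point: `p ∤ k'`, `v_p(b) < v_p(uu x' b')` -/
theorem explained_uu {x x' b b' p : ℕ} (hM : 0 < M) (hb' : b' ∣ M) {a a' : ℤ}
    {k k' : ℕ} (hk' : 0 < k') {n n' : ℤ} (hp : p.Prime)
    (hz : zpt b (fr F x b a k) n = zpt b' (fr F x' b' a' k') n') (hpk : ¬ p ∣ k')
    (hlt : b.factorization p < (F.uu x' b').factorization p) :
    (p : ℤ) ^ (b.factorization p + 1) ∣ (zpt b (fr F x b a k) n).num := by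
  rw [hz]
  have h1 := uu_dvd_num (F := F) (x := x') hM hb' a' hk' n'
  have h2 : p ^ (b.factorization p + 1) ∣ F.uu x' b' :=
    (hp.pow_dvd_iff_le_factorization (FL.uu_pos x' b').ne').2 hlt
  have h3 : (p : ℤ) ^ (b.factorization p + 1) ∣ (F.uu x' b' : ℤ) := by exact_mod_cast h2
  have h4 := h3.trans h1
  have hco : IsCoprime ((p : ℤ) ^ (b.factorization p + 1)) (k' : ℤ) := by
    refine IsCoprime.pow_left ?_
    exact Nat.isCoprime_iff_coprime.2 ((hp.coprime_iff_not_dvd).2 hpk)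
  exact hco.dvd_of_dvd_mul_right h4

/-- letters of `uu` at a low prime or at a deficit prime -/
lemma fact_uu_low {x b p : ℕ} (hM : 0 < M) (hb : b ∣ M) (hx : p ≤ x) :
    (F.uu x b).factorization p = b.factorization p := by
  rw [FL.fact_uu]
  by_cases hp : p ∈ M.primeFactors
  · have hx' : ¬ x < p := by omega
    simp [hp, FL.uuE, hx']
  · simp [hp, FL.fact_zero hM hb hp]

lemma fact_uu_passive {x b p v : ℕ} (hM : 0 < M) (hb : b ∣ M) (hx : x < p)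
    (hv : F.ctr b p = some v) (hle : b.factorization p ≤ v) :
    (F.uu x b).factorization p = b.factorization p := by
  rw [FL.fact_uu]
  by_cases hp : p ∈ M.primeFactors
  · simp [hp, FL.uuE, hx, hv, hle]
  · simp [hp, FL.fact_zero hM hb hp]

/-- **the unkilled pairs with a common centre** (form of `CrCoin_935`), left side.  `q, q' ∣ M`,
`b = M/q`, `b' = M/q'`, offset `h = s n - s' n'`; labels `a/k` of `b` at the cut `x`, `a'/k'` of
`b'` at the cut `x'`.  At each prime `p ∣ s'` explained by `uu x' b'` the label used by `q` is not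
the class of the centre. -/
theorem unkilled_s {x x' q q' p : ℕ} (hM : 0 < M) (hq : q ∣ M) (hq' : q' ∣ M) (hp : p.Prime)
    {lab' : ℕ → ℕ → Option ℤ} {h n n' : ℤ} {a a' : ℤ} {k k' : ℕ} (hk : 0 < k) (hk' : 0 < k')
    {γ : ℝ}
    (hh : h = (q' / Nat.gcd q q' : ℕ) * n - (q / Nat.gcd q q' : ℕ) * n')
    (hu : ¬ CrCoinx935.killedL lab' q q' (q' / Nat.gcd q q') (q / Nat.gcd q q') h)
    (hbig : (k : ℝ) * k' * (disp γ (M / q) (fr F x (M / q) a k) +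
      disp γ (M / q') (fr F x' (M / q') a' k') +
      |((M / q : ℕ) : ℝ) * (γ + n) - (M / q' : ℕ) * (γ + n')|) <
      Nat.gcd (F.uu x (M / q)) (F.uu x' (M / q')))
    (hd : p ∣ q / Nat.gcd q q') (hpk : ¬ p ∣ k')
    (hlt : (M / q).factorization p < (F.uu x' (M / q')).factorization p) :
    lab' q p ≠ CentBrx949.lab (fr F x (M / q) a k) p := by
  have hb : M / q ∣ M := Nat.div_dvd_of_dvd hq
  have hb' : M / q' ∣ M := Nat.div_dvd_of_dvd hq'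
  have hz := same_pt hM hb hb' hk hk' hbig
  exact CentBrx949.unkilled hM hq hp hh hu hd
    (explained_uu hM hb' hk' hp hz hpk hlt)

/-- right side -/
theorem unkilled_s' {x x' q q' p : ℕ} (hM : 0 < M) (hq : q ∣ M) (hq' : q' ∣ M) (hp : p.Prime)
    {lab' : ℕ → ℕ → Option ℤ} {h n n' : ℤ} {a a' : ℤ} {k k' : ℕ} (hk : 0 < k) (hk' : 0 < k')
    {γ : ℝ}
    (hh : h = (q' / Nat.gcd q q' : ℕ) * n - (q / Nat.gcd q q' : ℕ) * n')
    (hu : ¬ CrCoinx935.killedL lab' q q' (q' / Nat.gcd q q') (q / Nat.gcd q q') h)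
    (hbig : (k : ℝ) * k' * (disp γ (M / q) (fr F x (M / q) a k) +
      disp γ (M / q') (fr F x' (M / q') a' k') +
      |((M / q : ℕ) : ℝ) * (γ + n) - (M / q' : ℕ) * (γ + n')|) <
      Nat.gcd (F.uu x (M / q)) (F.uu x' (M / q')))
    (hd : p ∣ q' / Nat.gcd q q') (hpk : ¬ p ∣ k)
    (hlt : (M / q').factorization p < (F.uu x (M / q)).factorization p) :
    lab' q' p ≠ CentBrx949.lab (fr F x' (M / q') a' k') p := by
  have hb : M / q ∣ M := Nat.div_dvd_of_dvd hq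
  have hb' : M / q' ∣ M := Nat.div_dvd_of_dvd hq'
  have hz := same_pt hM hb hb' hk hk' hbig
  exact CentBrx949.unkilled' hM hq' hp hh hu hd
    (explained_uu hM hb hk hp hz.symm hpk hlt)

/-! ### what is left: the low gcd is small -/

lemma low_dvd_uu {x b : ℕ} (hM : 0 < M) (hb : b ∣ M) : low x b ∣ F.uu x b := by
  rw [← Nat.factorization_le_iff_dvd (low_pos x b).ne' (FL.uu_pos x b).ne']
  intro p
  rw [fact_low]
  by_cases hx : p ≤ x
  · rw [if_pos hx, fact_uu_low hM hb hx]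
  · rw [if_neg hx]; exact Nat.zero_le _

/-- linked hits whose centres (at any two cuts) are different points: the gcd of the chains, in
particular the gcd of the low parts, is at most `k k' (D + D' + |y - y'|)` -/
theorem low_gcd_le {x x' b b' : ℕ} (hM : 0 < M) (hb : b ∣ M) (hb' : b' ∣ M) {a a' : ℤ}
    {k k' : ℕ} (hk : 0 < k) (hk' : 0 < k') {n n' : ℤ} (γ : ℝ)
    (hne : zpt b (fr F x b a k) n ≠ zpt b' (fr F x' b' a' k') n') :
    (Nat.gcd (low x b) (low x' b') : ℝ) ≤ (k : ℝ) * k' * (disp γ b (fr F x b a k) +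
      disp γ b' (fr F x' b' a' k') + |(b : ℝ) * (γ + n) - b' * (γ + n')|) := by
  have h1 : (Nat.gcd (low x b) (low x' b') : ℝ) ≤ Nat.gcd (F.uu x b) (F.uu x' b') := by
    have : Nat.gcd (low x b) (low x' b') ∣ Nat.gcd (F.uu x b) (F.uu x' b') :=
      Nat.gcd_dvd_gcd_of_dvd_left _ (low_dvd_uu hM hb) |>.trans
        (Nat.gcd_dvd_gcd_of_dvd_right _ (low_dvd_uu hM hb'))
    exact_mod_cast Nat.le_of_dvd (Nat.gcd_pos_of_pos_left _ (FL.uu_pos x b)) this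
  refine h1.trans ?_
  by_contra hcon
  push Not at hcon
  exact hne (same_pt hM hb hb' hk hk' hcon)

end Crest.Agent.R4C.Chainx81
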