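import Crest.Agent.R4C.ClsBad_14
import Crest.Agent.R4C.SpineDef_946

/-!
# Row 4: `ClsOK` for the bad pairs at an arbitrary cut (helper14)

`clsBadX γ κ x` : some `r`, `2 r + 1 ≥ m0`: not good at `x A r`, good at `Q = 2^(A κ (r+1))`,
aligned primes `≤ Q`, `gcd < 2^(κ (r+1)) L`, `X1 ≤ Q`.

* **`clsBadX_ok`** : `ClsOK γ (clsBadX γ κ x)` if `2^(θ A r) ≤ x A r + 1`;
* `clsBadHalf_ok` : level `t`: not good at `cut (t/2)`, good at `cut t`, aligned primes
  `≤ cut (2t)`, `gcd < 2^(t+1) L`, `X1 ≤ cut (2t)`;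
* `clsBadXj_ok` : level `t`: not good at `2^(2^(log₂ (A t))) - 1`, good at `cut t`, ….
-/

set_option autoImplicit false

open Finset

namespace Crest.Agent.R4C.ClsBadXx14

open Crest.Agent.R4C.Basex935 Crest.Agent.R4C.FLDefx935 Crest.Agent.R4C.FLShx326
  Crest.Agent.R4C.BoostCx972 Crest.Agent.R4C.BadTotx14 Crest.Agent.R4C.BadWx14
  Crest.Agent.R4C.Rulex945 Crest.Agent.R4C.Splitx945 Crest.Agent.R4C.Sharedx11
  Crest.Agent.R4C.CrCoinx935 Crest.Agent.R4C.CrCountx935 Crest.Agent.R4C.Bridgex882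
  Crest.Agent.R4C.BoostTopx19 Crest.Agent.R4C.PrefixMx882 Crest.Agent.R4C.ClsBadx14
  Crest.Agent.R4C.Spinex946

/-- bad pairs at an arbitrary cut -/
def clsBadX (γ : ℝ) (κ : ℕ) (x : ℕ → ℕ → ℕ) : Cls := fun cp _ A m0 L M B F b c h =>
  ∃ r, m0 ≤ 2 * r + 1 ∧ ¬ F.good (x A r) b c ∧ F.good (2 ^ (A * (κ * (r + 1)))) b c ∧
    AlLe F (ParOf cp A m0 γ L M B) b c h (2 ^ (A * (κ * (r + 1)))) ∧
    (Nat.gcd b c : ℝ) < 2 ^ (κ * (r + 1)) * L ∧
    X1 (ParOf cp A m0 γ L M B) b c ≤ (2 ^ (A * (κ * (r + 1))) : ℕ)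

lemma log_Q (A κ r : ℕ) : Real.log ((2 ^ (A * (κ * (r + 1))) : ℕ) : ℝ) ≤ A * κ * (r + 1) := by
  push_cast
  rw [Real.log_pow]
  have h1 : Real.log 2 ≤ 1 := by
    have := Real.log_two_lt_d9
    linarith
  have h2 : (0 : ℝ) ≤ ((A * (κ * (r + 1)) : ℕ) : ℝ) := Nat.cast_nonneg _
  calc ((A * (κ * (r + 1)) : ℕ) : ℝ) * Real.log 2 ≤ ((A * (κ * (r + 1)) : ℕ) : ℝ) * 1 :=
        mul_le_mul_of_nonneg_left h1 h2
    _ = _ := by push_cast; ring

set_option maxHeartbeats 1000000 in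
/-- **bad pairs at an arbitrary cut have bounded energy** -/
theorem clsBadX_ok (γ : ℝ) {κ : ℕ} (hκ : 1 ≤ κ) {θ : ℝ} (hθ : 0 < θ) {x : ℕ → ℕ → ℕ}
    (hx : ∀ A r : ℕ, 1 ≤ A → 1 ≤ r → (2 : ℝ) ^ (θ * A * r) ≤ (x A r : ℝ) + 1) :
    ClsOK γ (clsBadX γ κ x) := by
  classical
  unfold ClsOK
  refine (((Ev.basic).and (Ev.le_A fun _ η =>
    (η + 1) * (2 * κ) / (θ * min (bc η) ((1 + η) / 8)))).and (Ev.le_m0 fun _ _ _ => 3)).mono ?_
  rintro cp η A m0 ⟨⟨⟨hcp, _, hη, _, hη1, hA, -⟩, hbig⟩, hm3⟩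
  have hm0 : 3 ≤ m0 := by exact_mod_cast hm3
  obtain ⟨hT, _⟩ := tree_spec hη hη1
  have hmn : 0 < min (bc η) ((1 + η) / 8) := lt_min hT.c_pos (by linarith)
  have hκR : (1 : ℝ) ≤ κ := by exact_mod_cast hκ
  have hAR : (1 : ℝ) ≤ A := by exact_mod_cast hA
  have hCM := CM_pos
  have ha : η + 0 < (θ * A / (2 * κ)) * min (bc η) ((1 + η) / 8) := by
    rw [div_le_iff₀ (mul_pos hθ hmn)] at hbig
    rw [div_mul_eq_mul_div, lt_div_iff₀ (by positivity)]
    nlinarith
  set K : ℝ := 3 * ((A : ℝ) * κ) ^ 8 * (Real.exp 1100 * (CM * (A * κ)) ^ 2) with hK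
  have hK0 : 0 ≤ K := by positivity
  obtain ⟨C, hC, H⟩ := badW_final (η := η) (c := bc η) (C0 := bC η) (A := sA η)
    (a := θ * A / (2 * κ)) (β := 0) (K := K) hη hη1 hT.c_pos hT.C_nonneg hT.A_pos.le hK0 ha 10
  refine ⟨C, fun L M B F S => ?_⟩
  set P := ParOf cp A m0 γ L M B with hP
  have hL : 0 < P.L := S.hL
  set Q : ℕ → ℕ := fun r => 2 ^ (A * (κ * (r + 1))) with hQ
  have hQ2 : ∀ r, 2 ≤ Q r := fun r => by
    simp only [hQ]
    calc 2 = 2 ^ 1 := by norm_num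
      _ ≤ 2 ^ (A * (κ * (r + 1))) := Nat.pow_le_pow_right (by norm_num) (by
        have : 1 ≤ κ * (r + 1) := Nat.one_le_iff_ne_zero.2 (by positivity)
        nlinarith)
  have hlogQ : ∀ r, Real.log (Q r : ℕ) ≤ A * κ * (r + 1) := fun r => log_Q A κ r
  have hlogQ0 : ∀ r, 0 ≤ Real.log (Q r : ℕ) := fun r =>
    Real.log_nonneg (by exact_mod_cast (le_trans (by norm_num) (hQ2 r)))
  -- the range of the certificates
  obtain ⟨N, hN⟩ := pow_unbounded_of_one_lt ((M : ℝ) + 1)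
    (Real.one_lt_rpow (by norm_num : (1 : ℝ) < 2) (mul_pos hθ (by linarith : (0 : ℝ) < A)))
  have hgN : ∀ r, 1 ≤ r → N ≤ r → ∀ b c, b ∣ M → c ∣ M → F.good (x A r) b c := by
    intro r hr1 hr b c hb hc
    refine good_of_ge S.hM hb hc ?_
    have h1 := hx A r hA hr1
    have h2 : ((2 : ℝ) ^ (θ * A)) ^ N ≤ ((2 : ℝ) ^ (θ * A)) ^ r :=
      pow_le_pow_right₀ (Real.one_le_rpow (by norm_num) (by positivity)) hr
    have h3 : ((2 : ℝ) ^ (θ * A)) ^ r = 2 ^ (θ * A * r) := by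
      rw [← Real.rpow_natCast, ← Real.rpow_mul (by norm_num)]
    rw [h3] at h2
    have h4 : (M : ℝ) + 1 < (x A r : ℝ) + 1 := lt_of_lt_of_le (lt_of_lt_of_le hN h2) h1
    have h5 : (M : ℝ) ≤ x A r := by linarith
    exact_mod_cast h5
  set cond : ℕ → ℕ → ℕ → Prop := fun r b c => ¬ F.good (x A r) b c ∧
    (Nat.gcd b c : ℝ) < 2 ^ (κ * (r + 1)) * P.L ∧ X1 P b c ≤ (Q r : ℕ) with hcond
  set R0 : Finset ℕ := (range N).filter (fun r => 1 ≤ r) with hR0
  set ix : ℕ → ℕ := fun r => κ * (r + 1) with hix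
  have hdiv : ∀ r, ix r / κ - 1 = r := fun r => by
    simp only [hix]
    rw [Nat.mul_div_cancel_left _ (by omega)]
    omega
  have hinj : Set.InjOn ix R0 := fun r _ r' _ h => by
    have h1 := hdiv r
    have h2 := hdiv r'
    rw [h] at h1
    omega
  have hww : ∀ y b c, 0 ≤ wB F y b * wB F y c := fun y b c => by
    have h7 := one_le_wB F y b
    have h8 := one_le_wB F y c
    positivity
  set cutx : ℕ → ℕ := fun σ => x A (σ / κ - 1) with hcutx
  set Wt : ℕ → ℕ → ℕ → ℝ := fun σ b c => if cond (σ / κ - 1) b c ∧ σ = ix (σ / κ - 1) then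
    K * (((σ : ℝ) + 1) ^ 10 * 2 ^ ((0 : ℝ) * (σ : ℝ))) * (wB F (cutx σ) b * wB F (cutx σ) c)
    else 0 with hWt
  have hmain := H M F B L (sE η) S.hM S.hB S.hL hT.s_gt.le S.shares S.bad cutx (R0.image ix) Wt
    (fun σ hσ => by
      obtain ⟨r, hr, rfl⟩ := Finset.mem_image.1 hσ
      rw [hR0, Finset.mem_filter] at hr
      have h1 := hx A r hA hr.2
      simp only [hcutx]
      rw [hdiv]
      refine le_trans ?_ h1
      refine Real.rpow_le_rpow_of_exponent_le (by norm_num) ?_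
      simp only [hix]
      push_cast
      have hr1 : (1 : ℝ) ≤ r := by exact_mod_cast hr.2
      rw [div_mul_eq_mul_div, div_le_iff₀ (by positivity)]
      have h2 : 0 ≤ θ * A * κ := by positivity
      nlinarith)
    (fun σ _ b _ b' _ => by
      simp only [hWt]
      split_ifs
      · exact le_rfl
      · have := hww (cutx σ) b b'
        positivity)
    (fun σ _ b _ b' _ hg => by
      simp only [hWt]
      rw [if_neg fun h => h.1.1 hg])
    (fun σ _ b _ b' _ hg => by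
      simp only [hWt]
      refine le_of_eq (if_neg fun h => ?_)
      have h1 := h.1.2.1
      have h2 : ((2 : ℝ) ^ (κ * (σ / κ - 1 + 1))) ≤ 2 ^ (σ + 1) := by
        refine pow_le_pow_right₀ (by norm_num) ?_
        have h3 : σ = κ * (σ / κ - 1 + 1) := h.2
        omega
      have h3 : ((2 : ℝ) ^ (κ * (σ / κ - 1 + 1))) * L ≤ 2 ^ (σ + 1) * L :=
        mul_le_mul_of_nonneg_right h2 S.hL.le
      have h4 : (Nat.gcd b b' : ℝ) < (2 : ℝ) ^ (κ * (σ / κ - 1 + 1)) * L := h1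
      linarith)
  have hmass : (L * ∑ b ∈ B, nu M b) ^ (1 + η) ≤ 1 := (S.mass_pow hη.le).trans S.mass
  refine le_trans ?_ (hmain.trans ((mul_le_mul_of_nonneg_left hmass hC).trans (le_of_eq
    (mul_one C))))
  unfold EnR
  refine mul_le_mul_of_nonneg_left (Finset.sum_le_sum fun b hb => ?_) S.hL.le
  have hbM := S.dvd hb
  have hg0 : ∀ c, 0 ≤ (Nat.gcd b c : ℝ) * nu M b * nu M c := fun c =>
    mul_nonneg (mul_nonneg (Nat.cast_nonneg _) (nu_nonneg _ _)) (nu_nonneg _ _)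
  have hWt0 : ∀ σ c, 0 ≤ Wt σ b c := fun σ c => by
    simp only [hWt]
    split_ifs
    · have := hww (cutx σ) b c
      positivity
    · exact le_rfl
  refine le_trans ?_ (Finset.sum_le_sum_of_subset_of_nonneg (Finset.erase_subset b B)
    fun c _ _ => mul_nonneg (hg0 c) (Finset.sum_nonneg fun σ _ => hWt0 σ c))
  refine Finset.sum_le_sum fun c hc' => mul_le_mul_of_nonneg_left ?_ (hg0 c)
  have hcM := S.dvd (Finset.mem_of_mem_erase hc')
  -- one offset
  have hoff : ∀ h ∈ (Lnk γ L b c).filter (fun h => ¬ killedB (lamOf cp A m0 γ L M B F) b c h ∧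
      clsBadX γ κ x cp η A m0 L M B F b c h),
      boostB M (lamOf cp A m0 γ L M B F) b c h ≤ ∑ r ∈ R0, if cond r b c then
        (Real.exp 1100 * (CM * (A * κ)) ^ 2) * ((r : ℝ) + 1) ^ 2 *
          (wB F (x A r) b * wB F (x A r) c) else 0 := by
    intro h hh
    obtain ⟨hl, -, r, hr1, hr2, hr3, hr4, hr5, hr6⟩ := Finset.mem_filter.1 hh
    have hr0 : 1 ≤ r := by omega
    have hrN : r ∈ R0 := by
      rw [hR0, Finset.mem_filter, Finset.mem_range]
      refine ⟨?_, hr0⟩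
      by_contra hcon
      push Not at hcon
      exact hr2 (hgN r hr0 hcon b c hbM hcM)
    have hcd : cond r b c := ⟨hr2, hr5, hr6⟩
    have hnn : ∀ r ∈ R0, (0 : ℝ) ≤ if cond r b c then
        (Real.exp 1100 * (CM * (A * κ)) ^ 2) * ((r : ℝ) + 1) ^ 2 *
          (wB F (x A r) b * wB F (x A r) c) else 0 := by
      intro r _
      split_ifs
      · have := hww (x A r) b c
        positivity
      · exact le_rfl
    refine le_trans ?_ (Finset.single_le_sum hnn hrN)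
    rw [if_pos hcd]
    have hxQ : x A r ≤ Q r := by
      by_contra hcon
      push Not at hcon
      exact hr2 (FL.good_mono hcon.le hr3)
    have hbst := boost_le_wB (P := P) S.hM hbM hcM hL (fun i => rfl) (fun b i => min_le_right _ _)
      (hQ2 r) hr3 hl hr4 hr6
    have hwl : wB F (Q r) b * wB F (Q r) c ≤ wB F (x A r) b * wB F (x A r) c := by
      have h1 := wB_anti (F := F) hxQ b
      have h2 := wB_anti (F := F) hxQ c
      have h3 := one_le_wB F (Q r) b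
      have h4 := one_le_wB F (Q r) c
      exact mul_le_mul h1 h2 (by linarith) (by linarith)
    refine hbst.trans ?_
    calc Real.exp 1100 * (CM * Real.log (Q r)) ^ 2 * (wB F (Q r) b * wB F (Q r) c)
        ≤ Real.exp 1100 * (CM * (A * κ * (r + 1))) ^ 2 *
          (wB F (x A r) b * wB F (x A r) c) := by
          refine mul_le_mul ?_ hwl (hww _ b c) (by positivity)
          refine mul_le_mul_of_nonneg_left ?_ (Real.exp_pos _).le
          exact pow_le_pow_left₀ (mul_nonneg hCM.le (hlogQ0 r))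
            (mul_le_mul_of_nonneg_left (hlogQ r) hCM.le) 2
      _ = _ := by ring
  set FF := (Lnk γ L b c).filter (fun h => ¬ killedB (lamOf cp A m0 γ L M B F) b c h ∧
      clsBadX γ κ x cp η A m0 L M B F b c h) with hFF
  calc ∑ h ∈ FF, boostB M (lamOf cp A m0 γ L M B F) b c h
      ≤ ∑ _h ∈ FF, ∑ r ∈ R0, (if cond r b c then
        (Real.exp 1100 * (CM * (A * κ)) ^ 2) * ((r : ℝ) + 1) ^ 2 *
          (wB F (x A r) b * wB F (x A r) c) else 0) := Finset.sum_le_sum hoff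
    _ ≤ ∑ _h ∈ Lnk γ L b c, ∑ r ∈ R0, (if cond r b c then
        (Real.exp 1100 * (CM * (A * κ)) ^ 2) * ((r : ℝ) + 1) ^ 2 *
          (wB F (x A r) b * wB F (x A r) c) else 0) := by
        refine Finset.sum_le_sum_of_subset_of_nonneg (Finset.filter_subset _ _) fun h _ _ => ?_
        refine Finset.sum_nonneg fun r _ => ?_
        split_ifs
        · have := hww (x A r) b c
          positivity
        · exact le_rfl
    _ = ∑ r ∈ R0, ((Lnk γ L b c).card : ℝ) * (if cond r b c then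
        (Real.exp 1100 * (CM * (A * κ)) ^ 2) * ((r : ℝ) + 1) ^ 2 *
          (wB F (x A r) b * wB F (x A r) c) else 0) := by
        rw [Finset.sum_const, nsmul_eq_mul, Finset.mul_sum]
    _ ≤ ∑ r ∈ R0, Wt (ix r) b c := by
        refine Finset.sum_le_sum fun r _ => ?_
        simp only [hWt, hcutx, hdiv]
        by_cases hcd : cond r b c
        · rw [if_pos hcd, if_pos ⟨hcd, trivial⟩]
          have h1 : ((Lnk γ L b c).card : ℝ) ≤ 3 * (Real.log (Q r : ℕ)) ^ 8 :=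
            card_Lnk_le (P := P) hL hcd.2.2
          have h4 : ((Lnk γ L b c).card : ℝ) ≤ 3 * (A * κ * (r + 1)) ^ 8 :=
            h1.trans (mul_le_mul_of_nonneg_left
              (pow_le_pow_left₀ (hlogQ0 r) (hlogQ r) 8) (by norm_num))
          have h5 := hww (x A r) b c
          have h6 : (r : ℝ) + 1 ≤ ((ix r : ℕ) : ℝ) + 1 := by
            simp only [hix]
            push_cast
            have : (0 : ℝ) ≤ r := Nat.cast_nonneg r
            nlinarith
          calc ((Lnk γ L b c).card : ℝ) * ((Real.exp 1100 * (CM * (A * κ)) ^ 2) *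
                ((r : ℝ) + 1) ^ 2 * (wB F (x A r) b * wB F (x A r) c))
              ≤ (3 * (A * κ * (r + 1)) ^ 8) * ((Real.exp 1100 * (CM * (A * κ)) ^ 2) *
                ((r : ℝ) + 1) ^ 2 * (wB F (x A r) b * wB F (x A r) c)) :=
                mul_le_mul_of_nonneg_right h4 (by positivity)
            _ = K * ((r : ℝ) + 1) ^ 10 * (wB F (x A r) b * wB F (x A r) c) := by
                rw [hK]; ring
            _ ≤ K * (((ix r : ℕ) : ℝ) + 1) ^ 10 * (wB F (x A r) b * wB F (x A r) c) := by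
                refine mul_le_mul_of_nonneg_right ?_ h5
                refine mul_le_mul_of_nonneg_left ?_ hK0
                exact pow_le_pow_left₀ (by positivity) h6 10
            _ = _ := by
                rw [zero_mul, Real.rpow_zero, mul_one]
        · rw [if_neg hcd, mul_zero, if_neg fun h => hcd h.1]
    _ = ∑ σ ∈ R0.image ix, Wt σ b c :=
        (Finset.sum_image (f := fun σ => Wt σ b c) hinj).symm

lemma alLe_mono {M : ℕ} {F : FL M} {P : Par} {b c : ℕ} {h : ℤ} {x y : ℕ} (hxy : x ≤ y)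
    (hal : AlLe F P b c h x) : AlLe F P b c h y := fun q hq => (hal q hq).trans hxy

/-- level `t`: not good at `cut (t/2)` -/
def clsBadHalf (γ : ℝ) : Cls := fun cp _ A m0 L M B F b c h =>
  ∃ t, m0 ≤ t ∧ ¬ F.good (2 ^ (A * (t / 2))) b c ∧ F.good (2 ^ (A * (2 * t))) b c ∧
    AlLe F (ParOf cp A m0 γ L M B) b c h (2 ^ (A * (2 * t))) ∧
    (Nat.gcd b c : ℝ) < 2 ^ (t + 1) * L ∧
    X1 (ParOf cp A m0 γ L M B) b c ≤ (2 ^ (A * (2 * t)) : ℕ)

/-- level `t`: not good at `Xj (log₂ (A t))` -/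
def clsBadXj (γ : ℝ) : Cls := fun cp _ A m0 L M B F b c h =>
  ∃ t, m0 ≤ t ∧ ¬ F.good (2 ^ (2 ^ Nat.log 2 (A * t)) - 1) b c ∧
    F.good (2 ^ (A * (2 * t))) b c ∧
    AlLe F (ParOf cp A m0 γ L M B) b c h (2 ^ (A * (2 * t))) ∧
    (Nat.gcd b c : ℝ) < 2 ^ (t + 1) * L ∧
    X1 (ParOf cp A m0 γ L M B) b c ≤ (2 ^ (A * (2 * t)) : ℕ)

lemma clsOK_of_imp {γ : ℝ} {R R' : Cls} (h : ClsOK γ R)
    (hi : ∀ cp η A m0 L M (B : Finset ℕ) (F : FL M) b c x, 0 < L → R' cp η A m0 L M B F b c x →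
      R cp η A m0 L M B F b c x) : ClsOK γ R' := by
  classical
  unfold ClsOK at h ⊢
  refine h.mono fun cp η A m0 => ?_
  rintro ⟨C, hC⟩
  refine ⟨C, fun L M B F S => le_trans ?_ (hC L M B F S)⟩
  unfold EnR
  refine mul_le_mul_of_nonneg_left (Finset.sum_le_sum fun b hb => Finset.sum_le_sum
    fun c hc => ?_) S.hL.le
  refine mul_le_mul_of_nonneg_left ?_ (mul_nonneg (mul_nonneg (Nat.cast_nonneg _)
    (nu_nonneg _ _)) (nu_nonneg _ _))
  refine Finset.sum_le_sum_of_subset_of_nonneg (fun x hx => ?_) fun _ _ _ => boostB_nonneg _ _ _ _ _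
  rw [Finset.mem_filter] at hx ⊢
  exact ⟨hx.1, hx.2.1, hi _ _ _ _ _ _ _ _ _ _ _ S.hL hx.2.2⟩

theorem clsBadHalf_ok (γ : ℝ) : ClsOK γ (clsBadHalf γ) := by
  refine clsOK_of_imp (clsBadX_ok γ (κ := 4) (by norm_num) (θ := 1) one_pos
    (x := fun A r => 2 ^ (A * r)) (fun A r _ _ => ?_)) ?_
  · push_cast
    rw [one_mul, ← Nat.cast_mul, Real.rpow_natCast]
    linarith
  · rintro cp η A m0 L M B F b c h hL ⟨t, h1, h2, h3, h4, h5, h6⟩
    have hle : 2 ^ (A * (2 * t)) ≤ 2 ^ (A * (4 * (t / 2 + 1))) :=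
      Nat.pow_le_pow_right (by norm_num) (Nat.mul_le_mul_left _ (by omega))
    refine ⟨t / 2, by omega, h2, FL.good_mono hle h3, alLe_mono hle h4, h5.trans_le ?_, ?_⟩
    · refine mul_le_mul_of_nonneg_right ?_ hL.le
      exact pow_le_pow_right₀ (by norm_num) (by omega)
    · exact h6.trans (by exact_mod_cast hle)

theorem clsBadXj_ok (γ : ℝ) : ClsOK γ (clsBadXj γ) := by
  refine clsOK_of_imp (clsBadX_ok γ (κ := 2) (by norm_num) (θ := 1 / 2) (by norm_num)
    (x := fun A r => 2 ^ (2 ^ Nat.log 2 (A * r)) - 1) (fun A r hA hr => ?_)) ?_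
  · have h0 : A * r ≠ 0 := by positivity
    have h1 : A * r < 2 ^ (Nat.log 2 (A * r) + 1) := Nat.lt_pow_succ_log_self (by norm_num) _
    have h2 : (A : ℝ) * r < 2 ^ Nat.log 2 (A * r) * 2 := by
      rw [pow_succ] at h1
      exact_mod_cast h1
    have h3 : 1 ≤ 2 ^ (2 ^ Nat.log 2 (A * r)) := Nat.one_le_two_pow
    rw [Nat.cast_sub h3]
    push_cast
    have h4 : ((2 : ℝ) ^ (2 ^ Nat.log 2 (A * r))) = 2 ^ (((2 ^ Nat.log 2 (A * r) : ℕ)) : ℝ) := by
      rw [Real.rpow_natCast]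
    rw [h4, sub_add_cancel]
    refine Real.rpow_le_rpow_of_exponent_le (by norm_num) ?_
    push_cast
    linarith
  · rintro cp η A m0 L M B F b c h hL ⟨t, h1, h2, h3, h4, h5, h6⟩
    have hle : 2 ^ (A * (2 * t)) ≤ 2 ^ (A * (2 * (t + 1))) :=
      Nat.pow_le_pow_right (by norm_num) (Nat.mul_le_mul_left _ (by omega))
    refine ⟨t, by omega, h2, FL.good_mono hle h3, alLe_mono hle h4, h5.trans_le ?_, ?_⟩
    · refine mul_le_mul_of_nonneg_right ?_ hL.le
      exact pow_le_pow_right₀ (by norm_num) (by omega)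
    · exact h6.trans (by exact_mod_cast hle)

end Crest.Agent.R4C.ClsBadXx14
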