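import Crest.Agent.R4C.BadW_14
import Crest.Agent.R4C.BoostTop_19
import Crest.Agent.R4C.SplitDef_945

/-!
# Row 4: class total of `Splitx945.CBad` (helper14)

* `setE_le` : `AlLe` gives the hypothesis of `BoostTopx19.boost_far`;
* `B1_le` : pair good at `Q`: `B1 b c ≤ CM log Q * wB F Q b * wB F Q c`;
* `boost_le_wB` : `X1 ≤ Q`, pair good at `Q`, aligned primes `≤ Q`:
  `boostB ≤ exp 1100 * (CM log Q)² * wB F Q b * wB F Q c`;
* **`cls_bad`** : `L Σ_{b,c ∈ B} gcd ν ν Σ_{h linked, not killed, CBad} boostB ≤ C (L ν(B))^(1+η)`.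
-/

set_option autoImplicit false

open Finset

namespace Crest.Agent.R4C.ClsBadx14

open Crest.Agent.R4C.Basex935 Crest.Agent.R4C.FLDefx935 Crest.Agent.R4C.FLShx326
  Crest.Agent.R4C.BoostCx972 Crest.Agent.R4C.BadTotx14 Crest.Agent.R4C.BadWx14
  Crest.Agent.R4C.Rulex945 Crest.Agent.R4C.Splitx945 Crest.Agent.R4C.Sharedx11
  Crest.Agent.R4C.CrCoinx935 Crest.Agent.R4C.CrCountx935 Crest.Agent.R4C.Bridgex882
  Crest.Agent.R4C.BoostTopx19 Crest.Agent.R4C.PrefixMx882

variable {M : ℕ} {F : FL M} {P : Par}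

/-- the aligned primes in the two languages -/
lemma setE_le (hM : 0 < M) {b c : ℕ} (hb : b ∣ M) (hc : c ∣ M) {h : ℤ} {Q : ℕ}
    (hal : AlLe F P b c h Q) :
    ∀ p ∈ setE (Fq F P) (M / b) (M / c) (b / Nat.gcd b c) (c / Nat.gcd b c) h, p ≤ Q := by
  classical
  intro p hp
  unfold setE at hp
  rw [Finset.mem_filter] at hp
  obtain ⟨h1, h2⟩ := hp
  have hpp := Nat.prime_of_mem_primeFactors h1
  have hb0 : 0 < b := Nat.pos_of_dvd_of_pos hb hM
  have hc0 : 0 < c := Nat.pos_of_dvd_of_pos hc hM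
  have hq0 : 0 < M / b := Nat.div_pos (Nat.le_of_dvd hM hb) hb0
  have hq0' : 0 < M / c := Nat.div_pos (Nat.le_of_dvd hM hc) hc0
  have eb : M / (M / b) = b := Nat.div_div_self hb hM.ne'
  have ec : M / (M / c) = c := Nat.div_div_self hc hM.ne'
  refine hal p ?_
  unfold alSet
  rw [Finset.mem_filter]
  constructor
  · rw [Nat.primeFactors_mul hq0.ne' hq0'.ne', Finset.mem_union] at h1
    rw [Finset.mem_union]
    rcases h1 with h1 | h1
    · left
      have := (mem_free_div hM (Nat.div_dvd_of_dvd hb)).2 h1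
      rwa [eb] at this
    · right
      have := (mem_free_div hM (Nat.div_dvd_of_dvd hc)).2 h1
      rwa [ec] at this
  · refine (isE_iff hpp).1 ?_
    unfold IsE at h2 ⊢
    unfold Fq at h2
    rw [eb, ec] at h2
    exact h2

/-- differing primes above the cut are off-centre -/
lemma dvd_off (hM : 0 < M) {b c Q p : ℕ} (hb : b ∣ M) (hc : c ∣ M) (hg : F.good Q b c)
    (hp : p.Prime) (hQ : Q < p) (hne : b.factorization p ≠ c.factorization p) :
    p ∈ W F Q b ∪ W F Q c := by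
  classical
  have hpM : p ∈ M.primeFactors := by
    by_contra hn
    exact hne ((FL.fact_zero hM hb hn).trans (FL.fact_zero hM hc hn).symm)
  rw [Finset.mem_union]
  unfold W
  rw [Finset.mem_filter, Finset.mem_filter]
  cases hv : F.ctr b p with
  | none => exact absurd (hg.1 p hp hQ hv) hne
  | some v =>
    have hv' : F.ctr c p = some v := by rw [← FL.ctr_eq hb hc hg.1 hp hQ.le]; exact hv
    rcases hg.2 p hp hQ v hv with h1 | h1
    · exact Or.inr ⟨hpM, hQ, v, hv', fun h => hne (h1.trans h.symm)⟩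
    · exact Or.inl ⟨hpM, hQ, v, hv, fun h => hne (h.trans h1.symm)⟩

lemma fact_ne {b c p : ℕ} (hb : 0 < b) (hc : 0 < c) (hp : p.Prime)
    (h : p ∣ (b / Nat.gcd b c) * (c / Nat.gcd b c)) : b.factorization p ≠ c.factorization p := by
  intro he
  have hg : 0 < Nat.gcd b c := Nat.gcd_pos_of_pos_left _ hb
  have hs : b / Nat.gcd b c ≠ 0 :=
    (Nat.div_pos (Nat.le_of_dvd hb (Nat.gcd_dvd_left _ _)) hg).ne'
  have hs' : c / Nat.gcd b c ≠ 0 :=
    (Nat.div_pos (Nat.le_of_dvd hc (Nat.gcd_dvd_right _ _)) hg).ne'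
  have e : (Nat.gcd b c).factorization p = min (b.factorization p) (c.factorization p) := by
    rw [Nat.factorization_gcd hb.ne' hc.ne']; rfl
  rcases (hp.dvd_mul).1 h with h1 | h1
  · have h2 := (hp.dvd_iff_one_le_factorization hs).1 h1
    rw [Nat.factorization_div (Nat.gcd_dvd_left _ _), Finsupp.coe_tsub, Pi.sub_apply, e, he,
      min_self] at h2
    omega
  · have h2 := (hp.dvd_iff_one_le_factorization hs').1 h1
    rw [Nat.factorization_div (Nat.gcd_dvd_right _ _), Finsupp.coe_tsub, Pi.sub_apply, e, he,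
      min_self] at h2
    omega

/-- **`B1` of a good pair** -/
lemma B1_le (hM : 0 < M) {b c Q : ℕ} (hb : b ∣ M) (hc : c ∣ M) (hQ : 2 ≤ Q)
    (hg : F.good Q b c) :
    PureL2x232.B1 b c ≤ CM * Real.log Q * (wB F Q b * wB F Q c) := by
  classical
  have hb0 : 0 < b := Nat.pos_of_dvd_of_pos hb hM
  have hc0 : 0 < c := Nat.pos_of_dvd_of_pos hc hM
  set S := ((b / Nat.gcd b c) * (c / Nat.gcd b c)).primeFactors with hS
  have e : PureL2x232.B1 b c = ∏ p ∈ S, pf p := rfl
  rw [e]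
  have hSp : ∀ p ∈ S, p.Prime := fun p hp => Nat.prime_of_mem_primeFactors hp
  have hW : ∀ d, ∀ p ∈ W F Q d, p.Prime := fun d p hp => W_prime hp
  have hsub : S ⊆ (S.filter (fun p => p ≤ Q)) ∪ (W F Q b ∪ W F Q c) := by
    intro p hp
    rw [Finset.mem_union]
    by_cases hpQ : p ≤ Q
    · exact Or.inl (Finset.mem_filter.2 ⟨hp, hpQ⟩)
    · right
      exact dvd_off hM hb hc hg (hSp p hp) (by omega)
        (fact_ne hb0 hc0 (hSp p hp) (Nat.dvd_of_mem_primeFactors hp))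
  have hf : ∀ p ∈ S.filter (fun p => p ≤ Q), p.Prime := fun p hp => hSp p (Finset.mem_filter.1 hp).1
  have hWW : ∀ p ∈ W F Q b ∪ W F Q c, p.Prime := fun p hp =>
    (Finset.mem_union.1 hp).elim (hW b p) (hW c p)
  have h1 := prod_pf_mono hsub fun p hp => (Finset.mem_union.1 hp).elim (hf p) (hWW p)
  have h2 := prod_pf_union hf hWW
  have h3 := prod_pf_union (hW b) (hW c)
  have h4 : ∏ p ∈ S.filter (fun p => p ≤ Q), pf p ≤ CM * Real.log Q := by
    refine prod_pf_le_mertens (by exact_mod_cast hQ) fun p hp => ⟨hf p hp, ?_⟩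
    exact_mod_cast (Finset.mem_filter.1 hp).2
  have h5 : 0 ≤ ∏ p ∈ W F Q b ∪ W F Q c, pf p := (prod_pf_pos hWW).le
  have h6 : 0 ≤ CM * Real.log Q := (prod_pf_pos hf).le.trans h4
  calc ∏ p ∈ S, pf p ≤ _ := h1
    _ ≤ (∏ p ∈ S.filter (fun p => p ≤ Q), pf p) * ∏ p ∈ W F Q b ∪ W F Q c, pf p := h2
    _ ≤ (CM * Real.log Q) * ((∏ p ∈ W F Q b, pf p) * ∏ p ∈ W F Q c, pf p) :=
        mul_le_mul h4 h3 h5 h6
    _ = _ := rfl

lemma bst_le {b c Q : ℕ} (hQ : 2 ≤ Q) : BoostRx398.bst (prQ Q) M b c ≤ CM * Real.log Q := by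
  classical
  rw [bst_eq]
  refine prod_pf_le_mertens (by exact_mod_cast hQ) fun p hp => ?_
  have h1 := (Finset.mem_filter.1 hp).1
  unfold prQ at h1
  rw [Finset.mem_filter, Finset.mem_range] at h1
  exact ⟨h1.2, by exact_mod_cast Nat.lt_succ_iff.1 h1.1⟩

lemma one_le_bst {b c Q : ℕ} : 1 ≤ BoostRx398.bst (prQ Q) M b c := by
  classical
  rw [bst_eq]
  refine one_le_prod_pf fun p hp => ?_
  have h1 := (Finset.mem_filter.1 hp).1
  unfold prQ at h1
  exact (Finset.mem_filter.1 h1).2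

/-- `Lam ≤ 10 Q` when `X1 ≤ Q` -/
lemma Lam_le {b c Q : ℕ} (hQ : 1 ≤ Q) (hX : X1 P b c ≤ Q) : Lam P.L (Nat.gcd b c) ≤ 10 * Q := by
  unfold X1 at hX
  unfold Lam
  set y : ℝ := max 1 (P.L / (Nat.gcd b c : ℕ)) with hy
  have hy1 : 1 ≤ y := le_max_left _ _
  have hy0 : 0 < y := by linarith
  have hQ1 : (1 : ℝ) ≤ Q := by exact_mod_cast hQ
  have h1 : y ^ (1 / 8 : ℝ) ≤ Q := by
    have := Real.add_one_le_exp (y ^ (1 / 8 : ℝ))
    linarith
  have h2 : Real.log y = 8 * Real.log (y ^ (1 / 8 : ℝ)) := by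
    rw [Real.log_rpow hy0]; ring
  have h3 : Real.log (y ^ (1 / 8 : ℝ)) ≤ Q := by
    have := Real.log_le_sub_one_of_pos (Real.rpow_pos_of_pos hy0 (1 / 8 : ℝ))
    linarith
  have h4 : Real.log 3 ≤ 2 := by
    have := Real.log_le_sub_one_of_pos (by norm_num : (0 : ℝ) < 3)
    linarith
  rw [Real.log_mul (by norm_num) hy0.ne', h2]
  linarith

/-- **the boost of a pair good at `Q`** -/
theorem boost_le_wB (hM : 0 < M) {b c : ℕ} (hb : b ∣ M) (hc : c ∣ M) (hL : 0 < P.L)
    (hY : ∀ i, P.Y i = 2 ^ i)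
    (hthr : ∀ b i, P.thr b i ≤ Real.exp ((P.Y (i - 1) : ℝ) ^ (4 / 5 : ℝ))) {Q : ℕ} (hQ : 2 ≤ Q)
    (hgood : F.good Q b c) {h : ℤ} (hl : h ∈ Lnk P.γ P.L b c) (hal : AlLe F P b c h Q)
    (hX : X1 P b c ≤ Q) :
    boostB M (lamR F P) b c h ≤ Real.exp 1100 * (CM * Real.log Q) ^ 2 *
      (wB F Q b * wB F Q c) := by
  have h1 := boost_far hM hb hc hL hY hthr hQ hgood hl (setE_le hM hb hc hal)
  have hQ1 : 1 ≤ Q := by omega
  have hQR : (0 : ℝ) < Q := by exact_mod_cast hQ1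
  have hQ2 : (1 : ℝ) < Q := by exact_mod_cast (by omega : 1 < Q)
  have hlog : 0 < Real.log Q := Real.log_pos hQ2
  have hCM := CM_pos
  have h2 : Real.exp (100 * (1 + Lam P.L (Nat.gcd b c) / Q)) ≤ Real.exp 1100 := by
    refine Real.exp_le_exp.2 ?_
    have h3 : Lam P.L (Nat.gcd b c) / Q ≤ 10 := by
      rw [div_le_iff₀ hQR]; exact Lam_le hQ1 hX
    linarith
  have h4 := B1_le (F := F) hM hb hc hQ hgood
  have h5 := bst_le (M := M) (b := b) (c := c) hQ
  have h6 : 0 ≤ BoostRx398.bst (prQ Q) M b c := by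
    have := one_le_bst (M := M) (b := b) (c := c) (Q := Q)
    linarith
  have hw : 0 ≤ wB F Q b * wB F Q c := by
    have h7 := one_le_wB F Q b
    have h8 := one_le_wB F Q c
    positivity
  refine h1.trans ?_
  calc Real.exp (100 * (1 + Lam P.L (Nat.gcd b c) / Q)) *
        (PureL2x232.B1 b c * BoostRx398.bst (prQ Q) M b c)
      ≤ Real.exp 1100 * ((CM * Real.log Q * (wB F Q b * wB F Q c)) * (CM * Real.log Q)) := by
        refine mul_le_mul h2 ?_ ?_ (Real.exp_pos _).le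
        · exact mul_le_mul h4 h5 h6 (by positivity)
        · refine mul_nonneg ?_ h6
          unfold PureL2x232.B1
          exact (prod_pf_pos (A := ((b / Nat.gcd b c) * (c / Nat.gcd b c)).primeFactors)
            fun p hp => Nat.prime_of_mem_primeFactors hp).le
    _ = _ := by ring

/-- number of linked offsets when `X1 ≤ x` -/
lemma card_Lnk_le {b c : ℕ} (hL : 0 < P.L) {x : ℝ} (hX : X1 P b c ≤ x) :
    ((Lnk P.γ P.L b c).card : ℝ) ≤ 3 * (Real.log x) ^ 8 := by
  have h1 : ((Lnk P.γ P.L b c).card : ℝ) ≤ 2 * (P.L / (Nat.gcd b c : ℕ)) + 1 :=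
    card_Hf (by positivity) _ _
  unfold X1 at hX
  set y : ℝ := max 1 (P.L / (Nat.gcd b c : ℕ)) with hy
  have hy1 : 1 ≤ y := le_max_left _ _
  have hy2 : P.L / (Nat.gcd b c : ℕ) ≤ y := le_max_right _ _
  have hy0 : 0 < y := by linarith
  have h2 : y ^ (1 / 8 : ℝ) ≤ Real.log x := by
    have h3 : Real.log (Real.exp (y ^ (1 / 8 : ℝ))) ≤ Real.log x :=
      Real.log_le_log (Real.exp_pos _) hX
    rwa [Real.log_exp] at h3
  have h3 : y ≤ (Real.log x) ^ 8 := by
    have h4 : (y ^ (1 / 8 : ℝ)) ^ (8 : ℕ) = y := by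
      rw [← Real.rpow_natCast, ← Real.rpow_mul hy0.le]
      norm_num
    calc y = (y ^ (1 / 8 : ℝ)) ^ (8 : ℕ) := h4.symm
      _ ≤ _ := pow_le_pow_left₀ (Real.rpow_nonneg hy0.le _) h2 8
  linarith

/-- above `M` every pair is good -/
lemma good_of_ge (hM : 0 < M) {b c x : ℕ} (hb : b ∣ M) (hc : c ∣ M) (hx : M ≤ x) :
    F.good x b c := by
  have h0 : ∀ q, q.Prime → x < q → q ∉ M.primeFactors := fun q hq hxq hn => by
    have := Nat.le_of_dvd hM (Nat.dvd_of_mem_primeFactors hn)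
    omega
  refine ⟨fun q hq hxq _ => ?_, fun q hq hxq v hv => ?_⟩
  · rw [FL.fact_zero hM hb (h0 q hq hxq), FL.fact_zero hM hc (h0 q hq hxq)]
  · left
    have h1 := F.le hb hq hv
    rw [FL.fact_zero hM dvd_rfl (h0 q hq hxq)] at h1
    rw [FL.fact_zero hM hb (h0 q hq hxq)]
    omega

open Classical in
/-- class energy -/
noncomputable def EnQ (F : FL M) (P : Par) (B : Finset ℕ) (Q : ℕ → ℕ → ℤ → Prop) : ℝ :=
  P.L * ∑ b ∈ B, ∑ c ∈ B, (Nat.gcd b c : ℝ) * nu M b * nu M c *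
    ∑ h ∈ (Lnk P.γ P.L b c).filter (fun h => ¬ killedB (lamR F P) b c h ∧ Q b c h),
      boostB M (lamR F P) b c h

open Classical in
/-- **class total of `CBad`** -/
theorem cls_bad {η c C0 A a A' : ℝ} (hη : 0 < η) (hη1 : η < 1) (hc : 0 < c) (hC0 : 0 ≤ C0)
    (hA : 0 ≤ A) (hA' : 0 ≤ A') (ha : η < a * min c ((1 + η) / 8)) :
    ∃ C : ℝ, 0 ≤ C ∧ ∀ (M : ℕ) (F : FL M) (B : Finset ℕ) (P : Par) (s : ℝ), 0 < M →
      B ⊆ M.divisors → 0 < P.L → 3 / 4 ≤ s → Shares F B A s →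
      (∀ (t : ℝ) (x : ℕ), 0 < t → badEn F B P.L t x ≤
        C0 * t ^ η * ((x : ℝ) + 1) ^ (-c) * (P.L * ∑ b ∈ B, nu M b) ^ (1 + η)) →
      Monotone P.cut → (∀ m, 2 ^ m ≤ P.cut m) → (∀ m : ℕ, (2 : ℝ) ^ (a * (m : ℝ)) ≤ P.cut m + 1) →
      (∀ m : ℕ, Real.log (P.cut m) ≤ A' * (m + 1)) → (∀ i, P.Y i = 2 ^ i) →
      (∀ b i, P.thr b i ≤ Real.exp ((P.Y (i - 1) : ℝ) ^ (4 / 5 : ℝ))) →
      EnQ F P B (CBad F P) ≤ C * (P.L * ∑ b ∈ B, nu M b) ^ (1 + η) := by
  set K : ℝ := 3 * (2 * A') ^ 8 * (Real.exp 1100 * (CM * (2 * A')) ^ 2) with hK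
  have hCM := CM_pos
  have hK0 : 0 ≤ K := by positivity
  obtain ⟨C, hC, H⟩ := badW_final (a := a) (β := 0) (K := K) hη hη1 hc hC0 hA hK0
    (by linarith) 10
  refine ⟨C, hC, ?_⟩
  intro M F B P s hM hB hL hs hSh hF hcm hcge hca hclog hY hthr
  set cond : ℕ → ℕ → ℕ → Prop := fun r b c => ¬ F.good (P.cut r) b c ∧
    (Nat.gcd b c : ℝ) < 2 ^ (r + 1) * P.L ∧ X1 P b c < P.cut (r + 1) with hcond
  set Wt : ℕ → ℕ → ℕ → ℝ := fun r b c => if cond r b c then
    K * (((r : ℝ) + 1) ^ 10 * 2 ^ ((0 : ℝ) * (r : ℝ))) * (wB F (P.cut r) b * wB F (P.cut r) c)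
    else 0 with hWt
  have hww : ∀ r b c, 0 ≤ wB F (P.cut r) b * wB F (P.cut r) c := fun r b c => by
    have h7 := one_le_wB F (P.cut r) b
    have h8 := one_le_wB F (P.cut r) c
    positivity
  have hmain := H M F B P.L s hM hB hL hs hSh hF P.cut (range M) Wt (fun σ _ => hca σ)
    (fun σ _ b _ b' _ => by
      simp only [hWt]
      split_ifs
      · exact le_rfl
      · have := hww σ b b'
        positivity)
    (fun σ _ b _ b' _ hg => by
      simp only [hWt]
      rw [if_neg fun h => h.1 hg])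
    (fun σ _ b _ b' _ hg => by
      simp only [hWt]
      rw [if_neg fun h => not_lt.2 hg h.2.1])
  refine le_trans ?_ hmain
  unfold EnQ
  refine mul_le_mul_of_nonneg_left (Finset.sum_le_sum fun b hb => Finset.sum_le_sum
    fun c' hc' => ?_) hL.le
  have hbM := (Nat.mem_divisors.1 (hB hb)).1
  have hcM := (Nat.mem_divisors.1 (hB hc')).1
  refine mul_le_mul_of_nonneg_left ?_ (mul_nonneg (mul_nonneg (Nat.cast_nonneg _)
    (nu_nonneg _ _)) (nu_nonneg _ _))
  -- one offset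
  have hoff : ∀ h ∈ (Lnk P.γ P.L b c').filter
      (fun h => ¬ killedB (lamR F P) b c' h ∧ CBad F P b c' h),
      boostB M (lamR F P) b c' h ≤ ∑ r ∈ range M, if cond r b c' then
        (Real.exp 1100 * (CM * (2 * A')) ^ 2) * ((r : ℝ) + 1) ^ 2 *
          (wB F (P.cut r) b * wB F (P.cut r) c') else 0 := by
    intro h hh
    obtain ⟨hl, -, r, l, hr1, hr2, hr3, hr4, hr5, hr6, hr7, hr8⟩ := Finset.mem_filter.1 hh
    have hrM : r ∈ range M := by
      rw [Finset.mem_range]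
      by_contra hcon
      push Not at hcon
      refine hr4 (good_of_ge hM hbM hcM ?_)
      calc M ≤ r := hcon
        _ ≤ 2 ^ r := Nat.lt_two_pow_self.le
        _ ≤ P.cut r := hcge r
    have hcd : cond r b c' := ⟨hr4, hr7, hr8⟩
    have hnn : ∀ r ∈ range M, (0 : ℝ) ≤ if cond r b c' then
        (Real.exp 1100 * (CM * (2 * A')) ^ 2) * ((r : ℝ) + 1) ^ 2 *
          (wB F (P.cut r) b * wB F (P.cut r) c') else 0 := by
      intro r _
      split_ifs
      · have := hww r b c'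
        positivity
      · exact le_rfl
    refine le_trans ?_ (Finset.single_le_sum hnn hrM)
    rw [if_pos hcd]
    have hQ : 2 ≤ P.cut l := by
      have h1 := hcge l
      have h2 : 2 ^ 1 ≤ 2 ^ l := Nat.pow_le_pow_right (by norm_num) (by omega)
      omega
    have hXl : X1 P b c' ≤ P.cut l := by
      have h1 : P.cut (r + 1) ≤ P.cut l := hcm (by omega)
      have h2 : ((P.cut (r + 1) : ℕ) : ℝ) ≤ P.cut l := by exact_mod_cast h1
      linarith
    have hbst := boost_le_wB hM hbM hcM hL hY hthr hQ hr5 hl hr6 hXl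
    have hll : Real.log (P.cut l) ≤ 2 * A' * (r + 1) := by
      refine (hclog l).trans ?_
      have h1 : (l : ℝ) ≤ 2 * r + 1 := by exact_mod_cast hr3
      nlinarith
    have hl0 : 0 ≤ Real.log (P.cut l) := Real.log_nonneg (by exact_mod_cast (by omega))
    have hwl : wB F (P.cut l) b * wB F (P.cut l) c' ≤ wB F (P.cut r) b * wB F (P.cut r) c' := by
      have h1 := wB_anti (F := F) (hcm hr2.le) b
      have h2 := wB_anti (F := F) (hcm hr2.le) c'
      have h3 := one_le_wB F (P.cut l) b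
      have h4 := one_le_wB F (P.cut l) c'
      exact mul_le_mul h1 h2 (by linarith) (by linarith)
    refine hbst.trans ?_
    calc Real.exp 1100 * (CM * Real.log (P.cut l)) ^ 2 * (wB F (P.cut l) b * wB F (P.cut l) c')
        ≤ Real.exp 1100 * (CM * (2 * A' * (r + 1))) ^ 2 *
          (wB F (P.cut r) b * wB F (P.cut r) c') := by
          refine mul_le_mul ?_ hwl (hww l b c') (by positivity)
          refine mul_le_mul_of_nonneg_left ?_ (Real.exp_pos _).le
          exact pow_le_pow_left₀ (by positivity) (mul_le_mul_of_nonneg_left hll hCM.le) 2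
      _ = _ := by ring
  set FF := (Lnk P.γ P.L b c').filter
    (fun h => ¬ killedB (lamR F P) b c' h ∧ CBad F P b c' h) with hFF
  calc ∑ h ∈ FF, boostB M (lamR F P) b c' h
      ≤ ∑ _h ∈ FF, ∑ r ∈ range M, (if cond r b c' then
        (Real.exp 1100 * (CM * (2 * A')) ^ 2) * ((r : ℝ) + 1) ^ 2 *
          (wB F (P.cut r) b * wB F (P.cut r) c') else 0) := Finset.sum_le_sum hoff
    _ ≤ ∑ _h ∈ Lnk P.γ P.L b c', ∑ r ∈ range M, (if cond r b c' then
        (Real.exp 1100 * (CM * (2 * A')) ^ 2) * ((r : ℝ) + 1) ^ 2 *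
          (wB F (P.cut r) b * wB F (P.cut r) c') else 0) := by
        refine Finset.sum_le_sum_of_subset_of_nonneg (Finset.filter_subset _ _) fun h _ _ => ?_
        refine Finset.sum_nonneg fun r _ => ?_
        split_ifs
        · have := hww r b c'
          positivity
        · exact le_rfl
    _ = ∑ r ∈ range M, ((Lnk P.γ P.L b c').card : ℝ) * (if cond r b c' then
        (Real.exp 1100 * (CM * (2 * A')) ^ 2) * ((r : ℝ) + 1) ^ 2 *
          (wB F (P.cut r) b * wB F (P.cut r) c') else 0) := by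
        rw [Finset.sum_const, nsmul_eq_mul, Finset.mul_sum]
    _ ≤ ∑ r ∈ range M, Wt r b c' := by
        refine Finset.sum_le_sum fun r _ => ?_
        simp only [hWt]
        split_ifs with hcd
        · have h1 := card_Lnk_le hL hcd.2.2.le
          have h2 : Real.log (P.cut (r + 1)) ≤ 2 * A' * (r + 1) := by
            refine (hclog (r + 1)).trans ?_
            push_cast
            have : (0 : ℝ) ≤ r := Nat.cast_nonneg r
            nlinarith
          have h3 : 0 ≤ Real.log (P.cut (r + 1)) := by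
            refine Real.log_nonneg ?_
            have h4 := hcge (r + 1)
            have h5 : 1 ≤ 2 ^ (r + 1) := Nat.one_le_two_pow
            exact_mod_cast h5.trans h4
          have h4 : ((Lnk P.γ P.L b c').card : ℝ) ≤ 3 * (2 * A' * (r + 1)) ^ 8 :=
            h1.trans (mul_le_mul_of_nonneg_left (pow_le_pow_left₀ h3 h2 8) (by norm_num))
          have h5 := hww r b c'
          calc ((Lnk P.γ P.L b c').card : ℝ) * ((Real.exp 1100 * (CM * (2 * A')) ^ 2) *
                ((r : ℝ) + 1) ^ 2 * (wB F (P.cut r) b * wB F (P.cut r) c'))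
              ≤ (3 * (2 * A' * (r + 1)) ^ 8) * ((Real.exp 1100 * (CM * (2 * A')) ^ 2) *
                ((r : ℝ) + 1) ^ 2 * (wB F (P.cut r) b * wB F (P.cut r) c')) :=
                mul_le_mul_of_nonneg_right h4 (by positivity)
            _ = _ := by
                rw [zero_mul, Real.rpow_zero, hK]
                ring
        · rw [mul_zero]

end Crest.Agent.R4C.ClsBadx14
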