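import Crest.Agent.R4C.BoostAl_100
import Crest.Agent.R4C.BadW_14
import Crest.Agent.R4C.B1Lev_52
import Crest.Agent.R4C.SpineDef_946

/-!
# Row 4: `ClsOK` for the class `CBad` of the split (helper250)

* `B1_le_wB` : a pair good at `Q`: `B1 b c ≤ CM log Q · wB F Q b · wB F Q c`;
* `card_le` : number of linked offsets, `X1 < cut (r+1)`: `≤ 3 (A (r+1))^8`;
* **`cls_badX`** : `ClsOK` for the pairs which are not good at an arbitrary cut `x A r ≤ cut r`,
  `2^(θ A r) ≤ x A r + 1` (`CBadX`);  `cls_badJ` : `x A r = 2^(2^(log₂ (A r))) - 1`;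
* **`cBad_ok`** : `ClsOK γ CBad` (with `BadW_14.badW_final`, `BoostAl_100.boost_al_log`).
-/

set_option autoImplicit false

open Finset

namespace Crest.Agent.R4C.ClsBadx250

open Crest.Agent.R4C.Basex935 Crest.Agent.R4C.FLDefx935 Crest.Agent.R4C.BoostCx972
  Crest.Agent.R4C.CrCoinx935 Crest.Agent.R4C.CrCountx935 Crest.Agent.R4C.Bridgex882
  Crest.Agent.R4C.Rulex945 Crest.Agent.R4C.Sharedx11
  Crest.Agent.R4C.Splitx945 Crest.Agent.R4C.BoostAlx100 Crest.Agent.R4C.BadWx14
  Crest.Agent.R4C.Spinex946 Crest.Agent.R4C.FLShx326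

/-- `B1` of a pair which is good at `Q` -/
lemma B1_le_wB {M : ℕ} {F : FL M} (hM : 0 < M) {b c Q : ℕ} (hb : b ∣ M) (hc : c ∣ M)
    (hQ : 2 ≤ Q) (hgood : F.good Q b c) :
    PureL2x232.B1 b c ≤ CM * Real.log Q * (wB F Q b * wB F Q c) := by
  classical
  have e : PureL2x232.B1 b c =
      (∏ p ∈ ((b / Nat.gcd b c) * (c / Nat.gcd b c)).primeFactors.filter (fun p => ¬ Q < p), pf p) *
        B1Levx52.B1 Q b c := by
    have h1 := Finset.prod_filter_mul_prod_filter_not
      ((b / Nat.gcd b c) * (c / Nat.gcd b c)).primeFactors (fun p => Q < p) pf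
    unfold B1Levx52.B1
    rw [mul_comm, h1]
    rfl
  rw [e]
  have h1 : ∏ p ∈ ((b / Nat.gcd b c) * (c / Nat.gcd b c)).primeFactors.filter
      (fun p => ¬ Q < p), pf p ≤ CM * Real.log Q := by
    refine prod_pf_le_mertens (by exact_mod_cast hQ) fun p hp => ?_
    rw [mem_filter] at hp
    exact ⟨Nat.prime_of_mem_primeFactors hp.1, by exact_mod_cast not_lt.1 hp.2⟩
  have h2 := B1Levx52.B1_le hM hb hc hgood
  have h0 : 0 ≤ ∏ p ∈ ((b / Nat.gcd b c) * (c / Nat.gcd b c)).primeFactors.filter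
      (fun p => ¬ Q < p), pf p :=
    (prod_pf_pos fun p hp => Nat.prime_of_mem_primeFactors (mem_filter.1 hp).1).le
  exact mul_le_mul h1 h2 (B1Levx52.B1_nonneg _ _ _) (h0.trans h1)

/-- number of linked offsets -/
lemma card_Lnk {γ L : ℝ} (hL : 0 < L) (b c : ℕ) :
    ((Lnk γ L b c).card : ℝ) ≤ 3 * max 1 (L / (Nat.gcd b c : ℕ)) := by
  have h1 : ((Lnk γ L b c).card : ℝ) ≤ 2 * (L / (Nat.gcd b c : ℕ)) + 1 := by
    unfold Lnk
    exact card_Hf (by positivity) _ _
  have h2 : L / (Nat.gcd b c : ℕ) ≤ max 1 (L / (Nat.gcd b c : ℕ)) := le_max_right _ _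
  have h3 : (1 : ℝ) ≤ max 1 (L / (Nat.gcd b c : ℕ)) := le_max_left _ _
  linarith

/-- `X1 < 2^(A n)` bounds `L / gcd` -/
lemma max_le_of_X1 {P : Par} {b c A n : ℕ} (h : X1 P b c < 2 ^ (A * n)) :
    max 1 (P.L / (Nat.gcd b c : ℕ)) ≤ ((A : ℝ) * n) ^ 8 := by
  set x := max 1 (P.L / (Nat.gcd b c : ℕ)) with hx
  have hx1 : (1 : ℝ) ≤ x := le_max_left _ _
  have h1 : Real.exp (x ^ (1 / 8 : ℝ)) < 2 ^ (A * n) := h
  have h2 : x ^ (1 / 8 : ℝ) ≤ (A : ℝ) * n := by
    have h3 := Real.log_lt_log (Real.exp_pos _) h1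
    rw [Real.log_exp, Real.log_pow] at h3
    have h4 : Real.log 2 ≤ 1 := by
      have := Real.log_two_lt_d9
      linarith
    have h5 : (0 : ℝ) ≤ ((A * n : ℕ) : ℝ) := Nat.cast_nonneg _
    have h6 : ((A * n : ℕ) : ℝ) * Real.log 2 ≤ ((A * n : ℕ) : ℝ) * 1 :=
      mul_le_mul_of_nonneg_left h4 h5
    push_cast at h3 h6
    linarith
  have h0 : 0 ≤ x ^ (1 / 8 : ℝ) := by positivity
  calc x = (x ^ (1 / 8 : ℝ)) ^ 8 := by
        rw [← Real.rpow_natCast, ← Real.rpow_mul (by linarith)]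
        norm_num
    _ ≤ _ := pow_le_pow_left₀ h0 h2 8

section

variable {M : ℕ} (F : FL M) (P : Par) (x : ℕ → ℕ)

/-- not good at the cut `x r`, own scale `≤ r`, level `l ≤ 2 r + 1` -/
def CBadX (b c : ℕ) (h : ℤ) : Prop :=
  ∃ r l, P.m0 ≤ r ∧ l ≤ 2 * r + 1 ∧ ¬ F.good (x r) b c ∧ F.good (P.cut l) b c ∧
    AlLe F P b c h (P.cut l) ∧ (Nat.gcd b c : ℝ) < 2 ^ (r + 1) * P.L ∧ X1 P b c < P.cut (r + 1)

/-- the class `CBadX` at the level `r` -/
def CBadAt (r b c : ℕ) (h : ℤ) : Prop :=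
  ∃ l, P.m0 ≤ r ∧ l ≤ 2 * r + 1 ∧ ¬ F.good (x r) b c ∧ F.good (P.cut l) b c ∧
    AlLe F P b c h (P.cut l) ∧ (Nat.gcd b c : ℝ) < 2 ^ (r + 1) * P.L ∧ X1 P b c < P.cut (r + 1)

open Classical in
/-- the weight of the level `r` -/
noncomputable def Wt (r b c : ℕ) : ℝ :=
  ∑ h ∈ (Lnk P.γ P.L b c).filter (fun h => CBadAt F P x r b c h), boostB M (lamR F P) b c h

lemma Wt_nonneg (r b c : ℕ) : 0 ≤ Wt F P x r b c :=
  Finset.sum_nonneg fun _ _ => boostB_nonneg _ _ _ _ _

end

lemma CM_nonneg : 0 ≤ CM := by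
  have h1 := prod_pf_le_mertens (y := 2) le_rfl (S := ∅) (by simp)
  rw [Finset.prod_empty] at h1
  have h2 : 0 < Real.log 2 := Real.log_pos (by norm_num)
  by_contra hcon
  push Not at hcon
  nlinarith

/-- the bound of one level -/
lemma Wt_le {M : ℕ} {F : FL M} {cp γ L : ℝ} {A m0 : ℕ} {B : Finset ℕ} (hM : 0 < M) (hL : 0 < L)
    (hA : 1 ≤ A) {x : ℕ → ℕ} {r b c : ℕ} (hx : x r ≤ 2 ^ (A * r)) (hb : b ∣ M) (hc : c ∣ M) :
    Wt F (ParOf cp A m0 γ L M B) x r b c ≤
      (3 * (A : ℝ) ^ 8 * (Real.exp 1200 * CM * (2 * A)) * (CM * (2 * A))) *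
        (((r : ℝ) + 1) ^ 10 * 2 ^ ((0 : ℝ) * (r : ℝ))) * (wB F (x r) b * wB F (x r) c) := by
  classical
  set P := ParOf cp A m0 γ L M B with hP
  have hcut : ∀ m, P.cut m = 2 ^ (A * m) := fun m => rfl
  have hw : 0 ≤ wB F (x r) b * wB F (x r) c :=
    mul_nonneg (by linarith [one_le_wB F (x r) b]) (by linarith [one_le_wB F (x r) c])
  have hCM : 0 ≤ CM := CM_nonneg
  have hr0 : (0 : ℝ) ≤ r := Nat.cast_nonneg r
  have hA0 : (0 : ℝ) ≤ A := Nat.cast_nonneg A
  rw [zero_mul, Real.rpow_zero, mul_one]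
  by_cases hne : ∃ h ∈ Lnk P.γ P.L b c, CBadAt F P x r b c h
  · obtain ⟨h₀, hh₀, l₀, h1, h3, h4, h5, h6, h7, h8⟩ := hne
    have hX : X1 P b c < 2 ^ (A * (r + 1)) := by
      have := h8
      rw [hcut] at this
      exact_mod_cast this
    have hmax := max_le_of_X1 hX
    have hcard := card_Lnk (γ := P.γ) (L := P.L) hL b c
    -- bound of one boost
    have hone : ∀ h ∈ (Lnk P.γ P.L b c).filter (fun h => CBadAt F P x r b c h),
        boostB M (lamR F P) b c h ≤ (Real.exp 1200 * CM * (2 * A * (r + 1))) *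
          ((CM * (2 * A * (r + 1))) * (wB F (x r) b * wB F (x r) c)) := by
      intro h hh
      rw [mem_filter] at hh
      obtain ⟨hl, l', g1, g3', g4, g5', g6', g7, g8⟩ := hh
      obtain ⟨l, g2, g3, g5, g6⟩ : ∃ l, r < l ∧ l ≤ 2 * r + 1 ∧ F.good (P.cut l) b c ∧
          AlLe F P b c h (P.cut l) := by
        have hm : P.cut l' ≤ P.cut (max l' (r + 1)) := by
          rw [hcut, hcut]
          exact Nat.pow_le_pow_right (by norm_num) (Nat.mul_le_mul_left _ (le_max_left _ _))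
        exact ⟨max l' (r + 1), by omega, by omega, FL.good_mono hm g5',
          fun q hq => (g6' q hq).trans hm⟩
      have hl1 : 1 ≤ l := by omega
      have hQ : 2 ≤ P.cut l := by
        rw [hcut]
        calc 2 = 2 ^ 1 := by norm_num
          _ ≤ 2 ^ (A * l) := Nat.pow_le_pow_right (by norm_num) (by nlinarith)
      have hmono : P.cut (r + 1) ≤ P.cut l := by
        rw [hcut, hcut]
        exact Nat.pow_le_pow_right (by norm_num) (Nat.mul_le_mul_left _ (by omega))
      have hmono' : x r ≤ P.cut l := by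
        refine hx.trans ?_
        rw [hcut]
        exact Nat.pow_le_pow_right (by norm_num) (Nat.mul_le_mul_left _ (by omega))
      have hX1 : X1 P b c ≤ P.cut l := by
        have : ((P.cut (r + 1) : ℕ) : ℝ) ≤ P.cut l := by exact_mod_cast hmono
        linarith
      have hb1 := boost_al_log (F := F) (P := P) hM hb hc hL (fun i => rfl)
        (fun b i => min_le_right _ _) hQ g5 hl g6 (Or.inl hX1)
      have hB1 := B1_le_wB hM hb hc hQ g5
      have hlog : Real.log (P.cut l : ℕ) ≤ 2 * A * (r + 1) := by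
        rw [hcut]
        push_cast
        rw [Real.log_pow]
        have e1 : Real.log 2 ≤ 1 := by
          have := Real.log_two_lt_d9
          linarith
        have e2 : ((A * l : ℕ) : ℝ) ≤ 2 * A * (r + 1) := by
          have : A * l ≤ 2 * A * (r + 1) := by
            calc A * l ≤ A * (2 * r + 1) := Nat.mul_le_mul_left _ g3
              _ ≤ _ := by nlinarith
          exact_mod_cast this
        have e3 : (0 : ℝ) ≤ ((A * l : ℕ) : ℝ) := Nat.cast_nonneg _
        have e4 : 0 ≤ Real.log 2 := Real.log_nonneg (by norm_num)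
        calc ((A * l : ℕ) : ℝ) * Real.log 2 ≤ ((A * l : ℕ) : ℝ) * 1 :=
              mul_le_mul_of_nonneg_left e1 e3
          _ ≤ _ := by linarith
      have hlog0 : 0 ≤ Real.log (P.cut l : ℕ) :=
        Real.log_nonneg (by exact_mod_cast (by omega : 1 ≤ P.cut l))
      have hww : wB F (P.cut l) b * wB F (P.cut l) c ≤ wB F (x r) b * wB F (x r) c :=
        mul_le_mul (wB_anti hmono' b) (wB_anti hmono' c)
          (by linarith [one_le_wB F (P.cut l) c]) (by linarith [one_le_wB F (x r) b])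
      have hww0 : 0 ≤ wB F (P.cut l) b * wB F (P.cut l) c :=
        mul_nonneg (by linarith [one_le_wB F (P.cut l) b]) (by linarith [one_le_wB F (P.cut l) c])
      have hB2 : PureL2x232.B1 b c ≤
          (CM * (2 * A * (r + 1))) * (wB F (x r) b * wB F (x r) c) := by
        refine hB1.trans ?_
        exact mul_le_mul (mul_le_mul_of_nonneg_left hlog hCM) hww hww0 (by positivity)
      refine hb1.trans ?_
      refine mul_le_mul ?_ hB2 (B1_nonneg b c) (by positivity)
      exact mul_le_mul_of_nonneg_left hlog (by positivity)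
    have hsum : Wt F P x r b c ≤ ((Lnk P.γ P.L b c).card : ℝ) *
        ((Real.exp 1200 * CM * (2 * A * (r + 1))) *
          ((CM * (2 * A * (r + 1))) * (wB F (x r) b * wB F (x r) c))) := by
      unfold Wt
      refine (Finset.sum_le_sum hone).trans ?_
      rw [Finset.sum_const, nsmul_eq_mul]
      refine mul_le_mul_of_nonneg_right ?_ (by positivity)
      exact_mod_cast Finset.card_le_card (Finset.filter_subset _ _)
    refine hsum.trans ?_
    have hcard2 : ((Lnk P.γ P.L b c).card : ℝ) ≤ 3 * ((A : ℝ) * ((r + 1 : ℕ) : ℝ)) ^ 8 := by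
      refine hcard.trans ?_
      exact mul_le_mul_of_nonneg_left hmax (by norm_num)
    refine (mul_le_mul_of_nonneg_right hcard2 (by positivity)).trans (le_of_eq ?_)
    push_cast
    ring
  · have e : Wt F P x r b c = 0 := by
      unfold Wt
      rw [Finset.filter_eq_empty_iff.2 fun h hh hcon => hne ⟨h, hh, hcon⟩]
      simp
    rw [e]
    positivity

/-- the class `CBadX` in the form of the spine; the cut may depend on `A` -/
def clsBadX (γ : ℝ) (x : ℕ → ℕ → ℕ) : Cls := fun cp _ A m0 L M B F b c h =>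
  CBadX F (ParOf cp A m0 γ L M B) (x A) b c h

/-- **the pairs which are not good at the cut `x A r` have bounded energy** -/
theorem cls_badX (γ : ℝ) (x : ℕ → ℕ → ℕ) {θ : ℝ} (hθ : 0 < θ) (hx1 : ∀ A r, x A r ≤ 2 ^ (A * r))
    (hx2 : ∀ A r : ℕ, (2 : ℝ) ^ (θ * A * r) ≤ (x A r : ℝ) + 1) : ClsOK γ (clsBadX γ x) := by
  classical
  unfold ClsOK
  refine ((Ev.basic).and (Ev.le_A fun _ η => (η + 1) / (θ * min (bc η) ((1 + η) / 8)))).mono ?_
  rintro cp η A m0 ⟨⟨hcp, _, hη, _, hη1, hA, _⟩, hbig⟩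
  obtain ⟨hT, _⟩ := tree_spec hη hη1
  have hcpos : 0 < min (bc η) ((1 + η) / 8) := lt_min hT.c_pos (by linarith)
  have hCM : 0 ≤ CM := CM_nonneg
  have ha : η + 0 < (θ * A) * min (bc η) ((1 + η) / 8) := by
    rw [div_le_iff₀ (mul_pos hθ hcpos)] at hbig
    nlinarith
  obtain ⟨C, hC, H⟩ := badW_final (η := η) (c := bc η) (C0 := bC η) (A := sA η) (a := θ * A)
    (β := 0) (K := 3 * (A : ℝ) ^ 8 * (Real.exp 1200 * CM * (2 * A)) * (CM * (2 * A)))
    hη hη1 hT.c_pos hT.C_nonneg hT.A_pos.le (by positivity) ha 10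
  refine ⟨C, fun L M B F S => ?_⟩
  set P := ParOf cp A m0 γ L M B with hP
  -- the range of the levels
  set lev : ℕ → ℕ → ℤ → ℕ := fun b c h => if hh : ∃ r, CBadAt F P (x A) r b c h then
    Classical.choose hh else 0 with hlev
  set N : ℕ := (B.sup fun b => B.sup fun c => (Lnk γ L b c).sup fun h => lev b c h) + 1 with hN
  have hlevN : ∀ b ∈ B, ∀ c ∈ B, ∀ h ∈ Lnk γ L b c, lev b c h ∈ range N := by
    intro b hb c hc h hh
    rw [mem_range, hN]
    refine Nat.lt_succ_of_le ?_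
    have h1 : lev b c h ≤ (Lnk γ L b c).sup fun h => lev b c h :=
      Finset.le_sup (f := fun h => lev b c h) hh
    have h2 : ((Lnk γ L b c).sup fun h => lev b c h) ≤
        B.sup fun c => (Lnk γ L b c).sup fun h => lev b c h :=
      Finset.le_sup (f := fun c => (Lnk γ L b c).sup fun h => lev b c h) hc
    have h3 : (B.sup fun c => (Lnk γ L b c).sup fun h => lev b c h) ≤
        B.sup fun b => B.sup fun c => (Lnk γ L b c).sup fun h => lev b c h :=
      Finset.le_sup (f := fun b => B.sup fun c => (Lnk γ L b c).sup fun h => lev b c h) hb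
    exact h1.trans (h2.trans h3)
  have hmain := H M F B L (sE η) S.hM S.hB S.hL hT.s_gt.le S.shares S.bad (x A) (range N)
    (fun r b c => Wt F P (x A) r b c) ?_ ?_ ?_ ?_
  · -- comparison
    have hmass : (L * ∑ b ∈ B, nu M b) ^ (1 + η) ≤ 1 := by
      refine (S.mass_pow hη.le).trans S.mass
    have h1 : EnR γ L M B (lamOf cp A m0 γ L M B F) (clsBadX γ x cp η A m0 L M B F) ≤
        L * ∑ b ∈ B, ∑ c ∈ B, (Nat.gcd b c : ℝ) * nu M b * nu M c *
          ∑ r ∈ range N, Wt F P (x A) r b c := by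
      unfold EnR
      refine mul_le_mul_of_nonneg_left (Finset.sum_le_sum fun b hb => ?_) S.hL.le
      have hg0 : ∀ c, 0 ≤ (Nat.gcd b c : ℝ) * nu M b * nu M c := fun c =>
        mul_nonneg (mul_nonneg (Nat.cast_nonneg _) (nu_nonneg _ _)) (nu_nonneg _ _)
      calc ∑ c ∈ B.erase b, (Nat.gcd b c : ℝ) * nu M b * nu M c *
            ∑ h ∈ (Lnk γ L b c).filter (fun h => ¬ killedB (lamOf cp A m0 γ L M B F) b c h ∧
              clsBadX γ x cp η A m0 L M B F b c h), boostB M (lamOf cp A m0 γ L M B F) b c h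
          ≤ ∑ c ∈ B.erase b, (Nat.gcd b c : ℝ) * nu M b * nu M c *
            ∑ r ∈ range N, Wt F P (x A) r b c := by
            refine Finset.sum_le_sum fun c hc' => mul_le_mul_of_nonneg_left ?_ (hg0 c)
            have hcB := Finset.mem_of_mem_erase hc'
            unfold Wt
            have e : ∀ r, ∑ h ∈ (Lnk P.γ P.L b c).filter (fun h => CBadAt F P (x A) r b c h),
                boostB M (lamR F P) b c h = ∑ h ∈ Lnk P.γ P.L b c,
                if CBadAt F P (x A) r b c h then boostB M (lamR F P) b c h else 0 := fun r =>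
              Finset.sum_filter _ _
            simp_rw [e]
            rw [Finset.sum_comm, Finset.sum_filter]
            refine Finset.sum_le_sum fun h hh => ?_
            have hnn : ∀ r ∈ range N, 0 ≤ (if CBadAt F P (x A) r b c h then
                boostB M (lamR F P) b c h else 0) := fun r _ => by
              split_ifs
              · exact boostB_nonneg _ _ _ _ _
              · exact le_rfl
            split_ifs with hcond
            · obtain ⟨_, r, l, h1, h3, h4, h5, h6, h7, h8⟩ := hcond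
              have hex : ∃ r, CBadAt F P (x A) r b c h := ⟨r, l, h1, h3, h4, h5, h6, h7, h8⟩
              have hlv : CBadAt F P (x A) (lev b c h) b c h := by
                simp only [hlev]
                rw [dif_pos hex]
                exact Classical.choose_spec hex
              have h9 := Finset.single_le_sum hnn (hlevN b hb c hcB h hh)
              rw [if_pos hlv] at h9
              exact h9
            · exact Finset.sum_nonneg hnn
        _ ≤ _ := by
            refine Finset.sum_le_sum_of_subset_of_nonneg (Finset.erase_subset _ _) fun c _ _ => ?_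
            exact mul_nonneg (hg0 c) (Finset.sum_nonneg fun r _ => Wt_nonneg F P (x A) r b c)
    calc _ ≤ _ := h1
      _ ≤ _ := hmain
      _ ≤ C * 1 := mul_le_mul_of_nonneg_left hmass hC
      _ = C := mul_one C
  · intro r _
    exact hx2 A r
  · intro r _ b hb c hc
    exact Wt_le S.hM S.hL hA (hx1 A r) (S.dvd hb) (S.dvd hc)
  · intro r _ b _ c _ hg
    refine le_of_eq ?_
    unfold Wt
    rw [Finset.filter_eq_empty_iff.2 ?_]
    · simp
    · rintro h _ ⟨l, h1, h3, h4, _⟩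
      exact h4 hg
  · intro r _ b _ c _ hg
    refine le_of_eq ?_
    unfold Wt
    rw [Finset.filter_eq_empty_iff.2 ?_]
    · simp
    · rintro h _ ⟨l, h1, h3, h4, h5, h6, h7, h8⟩
      have : (Nat.gcd b c : ℝ) < 2 ^ (r + 1) * L := h7
      linarith

/-- the class `CBad` in the form of the spine -/
def clsBad (γ : ℝ) : Cls := fun cp _ A m0 L M B F b c h =>
  CBad F (ParOf cp A m0 γ L M B) b c h

/-- **the class `CBad` has bounded energy** -/
theorem cBad_ok (γ : ℝ) : ClsOK γ (clsBad γ) := by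
  classical
  have h := cls_badX γ (fun A r => 2 ^ (A * r)) one_pos (fun A r => le_rfl) (fun A r => by
    push_cast
    rw [← Real.rpow_natCast]
    push_cast
    rw [one_mul]
    linarith)
  unfold ClsOK at h ⊢
  refine h.mono fun cp η A m0 ⟨C, hC⟩ => ⟨C, fun L M B F S => le_trans ?_ (hC L M B F S)⟩
  unfold EnR
  refine mul_le_mul_of_nonneg_left (Finset.sum_le_sum fun b _ => Finset.sum_le_sum fun c _ => ?_)
    S.hL.le
  refine mul_le_mul_of_nonneg_left ?_ (mul_nonneg (mul_nonneg (Nat.cast_nonneg _)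
    (nu_nonneg _ _)) (nu_nonneg _ _))
  refine Finset.sum_le_sum_of_subset_of_nonneg ?_ fun h _ _ => boostB_nonneg _ _ _ _ _
  intro h hh
  rw [mem_filter] at hh ⊢
  obtain ⟨hl, hk, r, l, h1, h2, h3, h4, h5, h6, h7, h8⟩ := hh
  exact ⟨hl, hk, r, l, h1, h3, h4, h5, h6, h7, h8⟩

/-! ### the block cut `Xj` -/

/-- the largest block start `Xj j = 2^(2^j) - 1` with `2^j ≤ A r` -/
def xJ (A r : ℕ) : ℕ := NonPureBlkx559.Xj (Nat.log 2 (A * r))

lemma xJ_eq (A r : ℕ) : xJ A r = 2 ^ (2 ^ Nat.log 2 (A * r)) - 1 := rfl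

lemma xJ_le (A r : ℕ) : xJ A r ≤ 2 ^ (A * r) := by
  rw [xJ_eq]
  rcases Nat.eq_zero_or_pos (A * r) with h | h
  · rw [h]; norm_num
  · have h1 := Nat.pow_log_le_self 2 (x := A * r) (by omega)
    exact (Nat.sub_le _ _).trans (Nat.pow_le_pow_right (by norm_num) h1)

lemma le_xJ (A r : ℕ) : (2 : ℝ) ^ ((1 / 2 : ℝ) * A * r) ≤ (xJ A r : ℝ) + 1 := by
  have h1 : A * r < 2 ^ (Nat.log 2 (A * r) + 1) := Nat.lt_pow_succ_log_self (by norm_num) _
  have h2 : 1 ≤ 2 ^ (2 ^ Nat.log 2 (A * r)) := Nat.one_le_two_pow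
  have e : (xJ A r : ℝ) + 1 = (2 : ℝ) ^ ((2 : ℝ) ^ Nat.log 2 (A * r)) := by
    rw [xJ_eq, Nat.cast_sub h2]
    push_cast
    have e2 : ((2 : ℝ) ^ (2 ^ Nat.log 2 (A * r) : ℕ)) = (2 : ℝ) ^ ((2 : ℝ) ^ Nat.log 2 (A * r)) := by
      rw [← Real.rpow_natCast]
      push_cast
      rfl
    rw [e2]
    ring
  rw [e]
  refine Real.rpow_le_rpow_of_exponent_le (by norm_num) ?_
  have h3 : ((A * r : ℕ) : ℝ) ≤ ((2 ^ (Nat.log 2 (A * r) + 1) : ℕ) : ℝ) := by exact_mod_cast h1.le
  push_cast at h3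
  rw [pow_succ] at h3
  linarith

/-- **not good at the block start below the cut** -/
theorem cls_badJ (γ : ℝ) : ClsOK γ (clsBadX γ xJ) :=
  cls_badX γ xJ (by norm_num : (0 : ℝ) < 1 / 2) xJ_le le_xJ

/-- what the owners of the far classes need: good at `cut t`, level `2 t`, not good at the block
start -/
lemma CBadX_of {M : ℕ} {F : FL M} {P : Par} {x : ℕ → ℕ} {t b c : ℕ} {h : ℤ} (hm : P.m0 ≤ t)
    (hmono : Monotone P.cut) (hg : ¬ F.good (x t) b c) (hgood : F.good (P.cut t) b c)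
    (hal : AlLe F P b c h (P.cut (2 * t))) (hs : (Nat.gcd b c : ℝ) < 2 ^ (t + 1) * P.L)
    (hX : X1 P b c < P.cut (t + 1)) : CBadX F P x b c h :=
  ⟨t, 2 * t, hm, by omega, hg, FL.good_mono (hmono (by omega)) hgood, hal, hs, hX⟩

end Crest.Agent.R4C.ClsBadx250
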