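import Crest.Agent.R4C.DomN_52

/-!
# Row 4: `ClsOK γ CDomN` (helper52)

**`clsDomN_ok`** : the class of the dominant non-pure words of case A (`CDomN` of `SplitDef_945`, at
the parameters `ParOf` of `SpineDef_946`) has bounded energy.
-/

set_option autoImplicit false

open Finset

namespace Crest.Agent.R4C.ClsDomNx52

open Crest.Agent.R4C.Basex935 Crest.Agent.R4C.Cutx50 Crest.Agent.R4C.FLDefx935
  Crest.Agent.R4C.FixedWordx423 Crest.Agent.R4C.VecNPx50 Crest.Agent.R4C.Rulex945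
  Crest.Agent.R4C.Splitx945 Crest.Agent.R4C.Spinex946 Crest.Agent.R4C.DomNx52
  Crest.Agent.R4C.NonPureBlkx559

/-- the words of the class are short -/
lemma short_word {cp γ L : ℝ} {A m0 M : ℕ} {B : Finset ℕ} (hcp : cp ≤ 1 / 200) (hA : 6 ≤ A)
    {i b c : ℕ} (hi : 1 ≤ i) (hD : DomA (ParOf cp A m0 γ L M B) i b c) :
    (4 * (low ((ParOf cp A m0 γ L M B).cut i) (wd b c).1 *
      low ((ParOf cp A m0 γ L M B).cut i) (wd b c).2) + 1) ^ 2 ≤
      (ParOf cp A m0 γ L M B).cut i := by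
  set P := ParOf cp A m0 γ L M B with hP
  have h1 : ((low (P.cut i) (wd b c).1 : ℕ) : ℝ) ≤ (2 : ℝ) ^ (cp * i) := hD.le_b
  have h2 : ((low (P.cut i) (wd b c).2 : ℕ) : ℝ) ≤ (2 : ℝ) ^ (cp * i) := hD.le_c
  set u := low (P.cut i) (wd b c).1 with hu
  set v := low (P.cut i) (wd b c).2 with hv
  have hir : (1 : ℝ) ≤ i := by exact_mod_cast hi
  have hE : (2 : ℝ) ^ (cp * i) ≤ (2 : ℝ) ^ ((i : ℝ) / 4) :=
    Real.rpow_le_rpow_of_exponent_le (by norm_num) (by nlinarith)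
  have hq : (1 : ℝ) ≤ (2 : ℝ) ^ ((i : ℝ) / 4) :=
    Real.one_le_rpow (by norm_num) (by positivity)
  have h3 : (u : ℝ) * v ≤ (2 : ℝ) ^ ((i : ℝ) / 4) * (2 : ℝ) ^ ((i : ℝ) / 4) :=
    mul_le_mul (h1.trans hE) (h2.trans hE) (by positivity) (by positivity)
  have e1 : (2 : ℝ) ^ ((i : ℝ) / 4) * (2 : ℝ) ^ ((i : ℝ) / 4) = (2 : ℝ) ^ ((i : ℝ) / 2) := by
    rw [← Real.rpow_add (by norm_num)]
    congr 1
    ring
  have hq2 : (1 : ℝ) ≤ (2 : ℝ) ^ ((i : ℝ) / 2) :=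
    Real.one_le_rpow (by norm_num) (by positivity)
  rw [e1] at h3
  have h4 : (4 * ((u : ℝ) * v) + 1) ^ 2 ≤ (5 * (2 : ℝ) ^ ((i : ℝ) / 2)) ^ 2 := by
    refine pow_le_pow_left₀ (by positivity) ?_ 2
    linarith
  have e2 : (5 * (2 : ℝ) ^ ((i : ℝ) / 2)) ^ 2 = 25 * (2 : ℝ) ^ (i : ℝ) := by
    rw [mul_pow, ← Real.rpow_natCast ((2 : ℝ) ^ ((i : ℝ) / 2)) 2, ← Real.rpow_mul (by norm_num)]
    norm_num
  have h5 : 25 * (2 : ℝ) ^ (i : ℝ) ≤ (2 : ℝ) ^ ((A * i : ℕ) : ℝ) := by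
    have e3 : (25 : ℝ) ≤ (2 : ℝ) ^ (5 : ℝ) := by norm_num
    calc 25 * (2 : ℝ) ^ (i : ℝ) ≤ (2 : ℝ) ^ (5 : ℝ) * (2 : ℝ) ^ (i : ℝ) :=
          mul_le_mul_of_nonneg_right e3 (by positivity)
      _ = (2 : ℝ) ^ (5 + (i : ℝ)) := by rw [Real.rpow_add (by norm_num)]
      _ ≤ (2 : ℝ) ^ ((A * i : ℕ) : ℝ) := by
          refine Real.rpow_le_rpow_of_exponent_le (by norm_num) ?_
          have hAr : (6 : ℝ) ≤ A := by exact_mod_cast hA
          push_cast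
          nlinarith
  have h6 : (4 * ((u : ℝ) * v) + 1) ^ 2 ≤ (2 : ℝ) ^ ((A * i : ℕ) : ℝ) :=
    h4.trans (e2.le.trans h5)
  rw [Real.rpow_natCast] at h6
  have h7 : (4 * (u * v) + 1) ^ 2 ≤ 2 ^ (A * i) := by exact_mod_cast h6
  exact h7

/-- **class `CDomN`** -/
theorem clsDomN_ok (γ : ℝ) : ClsOK γ (fun cp _ A m0 L M B F b c h =>
    CDomN F (ParOf cp A m0 γ L M B) b c h) := by
  refine ((Ev.basic.and (Ev.le_A fun _ η => 2 * η / min (bc η) ((1 + η) / 8) + 8)).and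
    (Ev.le_m0 fun _ _ _ => 2)).mono ?_
  rintro cp η A m0 ⟨⟨⟨_, hcp, hη, _, hη1, hA1, _⟩, hA⟩, hm0⟩
  obtain ⟨hT, _⟩ := tree_spec hη hη1
  have hm0' : 2 ≤ m0 := by exact_mod_cast hm0
  set μ := min (bc η) ((1 + η) / 8) with hμ
  have hμ0 : 0 < μ := lt_min hT.c_pos (by linarith)
  have hA6 : 6 ≤ A := by
    have h1 : (6 : ℝ) ≤ A := by
      have : 0 ≤ 2 * η / μ := by positivity
      linarith
    exact_mod_cast h1
  have ha : η < ((A : ℝ) - 1) / 2 * μ := by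
    have h1 : 2 * η / μ * μ = 2 * η := div_mul_cancel₀ _ hμ0.ne'
    nlinarith
  obtain ⟨C1, hC1, hRG⟩ := RG_bound
  obtain ⟨C2, hC2, hRB⟩ := RB_bound (A' := sA η) hη hη1 hT.c_pos hT.C_nonneg hT.A_pos.le hA1 ha
  refine ⟨C1 * (1 + sA η) + C2, fun L M B F S => ?_⟩
  set P := ParOf cp A m0 γ L M B with hP
  have hcut : ∀ m, P.cut m = 2 ^ (A * m) := fun m => rfl
  have hY : ∀ i, P.Y i = 2 ^ i := fun i => rfl
  have hthr : ∀ b i, P.thr b i ≤ Real.exp ((P.Y (i - 1) : ℝ) ^ (4 / 5 : ℝ)) := fun b i =>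
    min_le_right _ _
  have hN : (M : ℝ) / P.L ≤ P.N := Nat.le_ceil _
  have hcut4 : ∀ i, P.m0 ≤ i → 4 ≤ P.cut i := by
    intro i hi
    have hi' : 2 ≤ i := hm0'.trans hi
    rw [hcut]
    calc 4 = 2 ^ 2 := by norm_num
      _ ≤ 2 ^ (A * i) := Nat.pow_le_pow_right (by norm_num) (by nlinarith)
  have hmass0 := S.mass_nonneg
  have h1 := hRG M F P B (sA η) (sE η) S.hM S.hB S.shares hT.A_pos.le hT.s_gt.le S.hL hY hthr
    (fun i _ => by
      rw [hcut, hcut]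
      exact Nat.pow_le_pow_right (by norm_num) (Nat.mul_le_mul_left _ (by omega)))
    (fun i _ => by
      rw [hcut, hcut, ← pow_mul]
      exact Nat.pow_le_pow_right (by norm_num) (by nlinarith)) hcut4
    (show 1 ≤ m0 by omega)
  have h2 := hRB M F P B (sE η) S.hM S.hB S.shares hT.s_gt.le S.hL S.bad hY hthr hcut
    (show 1 ≤ m0 by omega) hN
  have hxh : ∀ i X, P.cut i < (X + 1) ^ 2 → xh A i ≤ X := by
    intro i X hX
    rw [hcut] at hX
    have h5 : (xh A i) ^ 2 < (X + 1) ^ 2 := by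
      refine lt_of_le_of_lt ?_ hX
      unfold xh
      rw [← pow_mul]
      exact Nat.pow_le_pow_right (by norm_num) (Nat.div_mul_le_self _ _)
    have h6 := lt_of_pow_lt_pow_left₀ 2 (Nat.zero_le _) h5
    omega
  have h3 : EnR γ L M B (lamOf cp A m0 γ L M B F) (CDomN F P) ≤
      EnR γ L M B (lamOf cp A m0 γ L M B F) (RG F P) +
      EnR γ L M B (lamOf cp A m0 γ L M B F) (RB F P (xh A)) := by
    refine EnR_or S.hL.le fun b hb c hc _ h _ _ hR => ?_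
    rcases CDomN_cover S.hM (fun i hi => by have := hcut4 i hi; omega) hxh (S.dvd hb)
      (S.dvd hc) hR with h4 | h4 | ⟨i, hF, hD, hlong⟩
    · exact Or.inl h4
    · exact Or.inr h4
    · exfalso
      have hi : 1 ≤ i := by
        have : m0 ≤ i := hF.m0
        omega
      exact absurd (short_word hcp hA6 hi hD) (not_le.2 hlong)
  have h4 : C1 * (1 + sA η) * (P.L * ∑ b ∈ B, nu M b) ≤ C1 * (1 + sA η) := by
    have : 0 ≤ C1 * (1 + sA η) := by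
      have := hT.A_pos
      positivity
    calc C1 * (1 + sA η) * (P.L * ∑ b ∈ B, nu M b) ≤ C1 * (1 + sA η) * 1 :=
          mul_le_mul_of_nonneg_left S.mass this
      _ = _ := mul_one _
  have h5 : C2 * (P.L * ∑ b ∈ B, nu M b) ^ (1 + η) ≤ C2 := by
    calc C2 * (P.L * ∑ b ∈ B, nu M b) ^ (1 + η) ≤ C2 * 1 :=
          mul_le_mul_of_nonneg_left (Real.rpow_le_one hmass0 S.mass (by linarith)) hC2
      _ = _ := mul_one _
  exact h3.trans (add_le_add (h1.trans h4) (h2.trans h5))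

end Crest.Agent.R4C.ClsDomNx52
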