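import Crest.Agent.R4C.CrSieve_935
import Crest.Agent.R4P.BTs_18

/-!
# Row 4: primes `ρ` with `ρ θ` in a short arc and without small label (helper821)

`gwk` : for `1 ≤ K0 ≤ t`, `t ^ 4 ≤ X`: the primes `ρ ∈ (X, X²]` with `‖ρ θ - α‖ ≤ 1/t` such that
`ρ θ` has no label of size `< K0` at scale `t` have `∑ 1/ρ ≤ C / √K0`.
(Brun–Titchmarsh `BTs_18.ap_count`, Legendre sieve `CrSieve_935.sieve`, Dirichlet.)
-/

set_option autoImplicit false

namespace Crest.Agent.R4C.GWKx821

open Finset Crest.Agent.R4P.BTs18 Crest.Agent.R4C.CrSievex935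

/-- `2^ω(w) ≤ 64 w^(1/4)` -/
lemma two_pow_omega {w : ℕ} (hw : 1 ≤ w) :
    (2:ℝ) ^ w.primeFactors.card ≤ 64 * (w:ℝ) ^ (1 / 4 : ℝ) := by
  classical
  have hw0 : w ≠ 0 := by omega
  set S := w.primeFactors with hS
  have h1 : (2:ℝ) ^ S.card = (∏ _p ∈ S.filter (fun p => p < 16), (2:ℝ)) *
      ∏ _p ∈ S.filter (fun p => ¬ p < 16), (2:ℝ) := by
    rw [Finset.prod_filter_mul_prod_filter_not, Finset.prod_const]
  have h2 : (∏ _p ∈ S.filter (fun p => p < 16), (2:ℝ)) ≤ 64 := by
    rw [Finset.prod_const]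
    have hsub : S.filter (fun p => p < 16) ⊆ {2, 3, 5, 7, 11, 13} := by
      intro p hp
      rw [Finset.mem_filter] at hp
      have hpp := Nat.prime_of_mem_primeFactors hp.1
      have h3 := hp.2
      have h4 := hpp.two_le
      interval_cases p <;> simp_all (config := { decide := true })
    have hc : (S.filter (fun p => p < 16)).card ≤ 6 :=
      (Finset.card_le_card hsub).trans (by decide)
    calc (2:ℝ) ^ (S.filter (fun p => p < 16)).card ≤ 2 ^ 6 :=
          pow_le_pow_right₀ (by norm_num) hc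
      _ = 64 := by norm_num
  have h3 : (∏ _p ∈ S.filter (fun p => ¬ p < 16), (2:ℝ)) ≤
      ∏ p ∈ S.filter (fun p => ¬ p < 16), (p:ℝ) ^ (1 / 4 : ℝ) := by
    refine Finset.prod_le_prod (fun _ _ => by norm_num) fun p hp => ?_
    rw [Finset.mem_filter] at hp
    have hp16 : (16:ℝ) ≤ p := by
      have := hp.2
      exact_mod_cast (not_lt.1 this)
    calc (2:ℝ) = (16:ℝ) ^ (1 / 4 : ℝ) := by
          rw [show (16:ℝ) = 2 ^ (4:ℝ) by norm_num, ← Real.rpow_mul (by norm_num)]
          norm_num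
      _ ≤ (p:ℝ) ^ (1 / 4 : ℝ) := Real.rpow_le_rpow (by norm_num) hp16 (by norm_num)
  have h4 : (∏ p ∈ S.filter (fun p => ¬ p < 16), (p:ℝ) ^ (1 / 4 : ℝ)) ≤ (w:ℝ) ^ (1 / 4 : ℝ) := by
    rw [Real.finsetProd_rpow _ _ (fun p _ => Nat.cast_nonneg p)]
    refine Real.rpow_le_rpow (Finset.prod_nonneg fun p _ => Nat.cast_nonneg p) ?_ (by norm_num)
    have h5 : (∏ p ∈ S.filter (fun p => ¬ p < 16), p) ∣ w :=
      (Finset.prod_dvd_prod_of_subset _ _ _ (Finset.filter_subset _ _)).trans
        (Nat.prod_primeFactors_dvd w)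
    have h6 := Nat.le_of_dvd (by omega) h5
    calc (∏ p ∈ S.filter (fun p => ¬ p < 16), (p:ℝ)) =
        ((∏ p ∈ S.filter (fun p => ¬ p < 16), p : ℕ) : ℝ) := by push_cast; rfl
      _ ≤ w := by exact_mod_cast h6
  rw [h1]
  exact mul_le_mul h2 (h3.trans h4) (Finset.prod_nonneg fun _ _ => by norm_num) (by norm_num)

/-- coprime residues `c` with `c u / w` in an arc of half length `δ` -/
lemma class_count {w : ℕ} (hw : 1 ≤ w) {u : ℤ} (hu : IsCoprime u (w:ℤ)) (x δ : ℝ) (hδ : 0 ≤ δ)
    (S : Finset ℕ) (hS : ∀ c ∈ S, c < w ∧ Nat.Coprime c w ∧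
      ∃ m : ℤ, |(c:ℝ) * (u / w) - x - m| ≤ δ) :
    (S.card : ℝ) ≤ (2 * δ * w + 1) * (Nat.totient w / w) + 2 ^ w.primeFactors.card := by
  classical
  have hw0 : (0:ℝ) < w := by exact_mod_cast hw
  -- the map to coprime integers near `x w`
  choose! m hm using fun c (hc : c ∈ S) => (hS c hc).2.2
  set φ : ℕ → ℤ := fun c => c * u - m c * w with hφ
  set a : ℝ := x * w - δ * w with ha
  set b : ℝ := x * w + δ * w + 1 with hb
  have hmap : ∀ c ∈ S, φ c ∈ cnt w.primeFactors (fun _ => 0) a b := by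
    intro c hc
    obtain ⟨h1, h2, _⟩ := hS c hc
    have h3 := hm c hc
    rw [mem_cnt]
    have h4 : |((φ c : ℤ) : ℝ) - x * w| ≤ δ * w := by
      have e : ((φ c : ℤ) : ℝ) - x * w = ((c:ℝ) * (u / w) - x - m c) * w := by
        rw [hφ]; push_cast; field_simp; ring
      rw [e, abs_mul, abs_of_pos hw0]
      exact mul_le_mul_of_nonneg_right h3 hw0.le
    rw [abs_le] at h4
    refine ⟨⟨by rw [ha]; linarith [h4.1], by rw [hb]; linarith [h4.2]⟩, fun p hp hd => ?_⟩
    have hpp := Nat.prime_of_mem_primeFactors hp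
    have hpw : (p:ℤ) ∣ w := by exact_mod_cast Nat.dvd_of_mem_primeFactors hp
    have h5 : (p:ℤ) ∣ c * u := by
      have h6 : (p:ℤ) ∣ φ c := by simpa using hd
      have h7 : (c:ℤ) * u = φ c + m c * w := by rw [hφ]; ring
      rw [h7]
      exact dvd_add h6 (dvd_mul_of_dvd_right hpw _)
    have hpp' : Prime (p:ℤ) := Nat.prime_iff_prime_int.1 hpp
    rcases hpp'.dvd_or_dvd h5 with h6 | h6
    · have h7 : p ∣ c := by exact_mod_cast h6
      have h8 : p ∣ w := Nat.dvd_of_mem_primeFactors hp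
      have h9 := Nat.dvd_gcd h7 h8
      rw [h2.gcd_eq_one] at h9
      exact hpp.one_lt.ne' (Nat.dvd_one.1 h9)
    · have h7 := hu.isUnit_of_dvd' h6 hpw
      exact hpp'.not_isUnit h7
  have hinj : Set.InjOn φ (S : Set ℕ) := by
    intro c hc d hd hcd
    rw [Finset.mem_coe] at hc hd
    have h1 : (w:ℤ) ∣ ((c:ℤ) - d) * u := by
      refine ⟨m c - m d, ?_⟩
      have h2 : (c:ℤ) * u - m c * w = d * u - m d * w := hcd
      linear_combination h2
    have h2 : (w:ℤ) ∣ (c:ℤ) - d := by
      exact hu.symm.dvd_of_dvd_mul_right h1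
    have h3 := (hS c hc).1
    have h4 := (hS d hd).1
    obtain ⟨k, hk⟩ := h2
    have h5 : (c:ℤ) < w := by exact_mod_cast h3
    have h6 : (d:ℤ) < w := by exact_mod_cast h4
    have h7 : k = 0 := by
      rcases lt_trichotomy k 0 with h | h | h
      · nlinarith
      · exact h
      · nlinarith
    rw [h7] at hk
    omega
  have hcard : S.card ≤ (cnt w.primeFactors (fun _ => 0) a b).card := by
    rw [← Finset.card_image_of_injOn hinj]
    refine Finset.card_le_card fun r hr => ?_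
    obtain ⟨c, hc, rfl⟩ := Finset.mem_image.1 hr
    exact hmap c hc
  have hab : a ≤ b := by rw [ha, hb]; nlinarith
  have h1 := sieve w.primeFactors (fun p hp => Nat.prime_of_mem_primeFactors hp)
    (fun _ => 0) a b hab
  rw [abs_le] at h1
  have h2 : (Nat.totient w : ℝ) / w = ∏ p ∈ w.primeFactors, (1 - 1 / (p : ℝ)) := by
    rw [totient_real]; field_simp
  have h3 : (S.card : ℝ) ≤ ((cnt w.primeFactors (fun _ => 0) a b).card : ℝ) := by
    exact_mod_cast hcard
  have h4 : b - a = 2 * δ * w + 1 := by rw [ha, hb]; ring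
  rw [h2, ← h4]
  linarith [h1.2]

/-! ### an interval on which `ρ β` is almost constant -/

lemma card_le_real {ι κ : Type*} [DecidableEq κ] (s : Finset ι) (t : Finset κ) (f : ι → κ)
    (hf : ∀ a ∈ s, f a ∈ t) (R : ℝ) (h : ∀ b ∈ t, ((s.filter (fun a => f a = b)).card : ℝ) ≤ R) :
    (s.card : ℝ) ≤ t.card * R := by
  rw [Finset.card_eq_sum_card_fiberwise hf]
  push_cast
  calc ∑ b ∈ t, ((s.filter (fun a => f a = b)).card : ℝ) ≤ ∑ _b ∈ t, R := Finset.sum_le_sum h
    _ = t.card * R := by rw [Finset.sum_const, nsmul_eq_mul]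

theorem interval_count : ∃ C : ℝ, 0 < C ∧ ∀ (w : ℕ) (u : ℤ), 1 ≤ w → IsCoprime u (w:ℤ) →
    ∀ (β α t Z H : ℝ), 1 ≤ t → (w:ℝ) ≤ Z → H * |β| ≤ 1 / t → 2 * (w:ℝ) ≤ H →
    ∀ F : Finset ℕ, (∀ p ∈ F, p.Prime ∧ Z < p ∧ (p:ℝ) ≤ Z + H ∧
      ∃ m : ℤ, |(p:ℝ) * (u / w + β) - α - m| ≤ 1 / t) →
    (F.card : ℝ) ≤ C * (1 / t + 1 / Real.sqrt w) * (H / Real.log (H / w)) := by
  classical
  obtain ⟨C, hC, hap⟩ := ap_count
  obtain ⟨C', hC', htot⟩ := tot_ge
  refine ⟨C * (5 + 64 * C'), by positivity, fun w u hw hu β α t Z H ht hwZ hβ hwH F hF => ?_⟩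
  have hw0 : (0:ℝ) < w := by exact_mod_cast hw
  have hw1 : (1:ℝ) ≤ w := by exact_mod_cast hw
  have ht0 : 0 < t := by linarith
  have hφ : (0:ℝ) < Nat.totient w := by exact_mod_cast Nat.totient_pos.2 hw
  have hH0 : 0 < H := by linarith
  have hlog : 0 < Real.log (H / w) := Real.log_pos (by rw [lt_div_iff₀ hw0]; linarith)
  set S : Finset ℕ := F.image (fun p => p % w) with hS
  have hSc : (S.card : ℝ) ≤ (2 * (2 / t) * w + 1) * (Nat.totient w / w) +
      2 ^ w.primeFactors.card := by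
    refine class_count hw hu (α - Z * β) (2 / t) (by positivity) S fun c hc => ?_
    obtain ⟨p, hp, rfl⟩ := Finset.mem_image.1 hc
    obtain ⟨hpp, hZp, hpZ, m, hm⟩ := hF p hp
    have hdm := Nat.div_add_mod p w
    obtain ⟨k, hk⟩ : ∃ k, k = p / w := ⟨_, rfl⟩
    rw [← hk] at hdm
    refine ⟨Nat.mod_lt _ (by omega), ?_, m - k * u, ?_⟩
    · have h1 : Nat.Coprime p w := by
        rw [Nat.Prime.coprime_iff_not_dvd hpp]
        intro hd
        have h2 := Nat.le_of_dvd (by omega) hd
        have h3 : (p:ℝ) ≤ w := by exact_mod_cast h2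
        linarith
      unfold Nat.Coprime at h1 ⊢
      rw [← Nat.gcd_rec, Nat.gcd_comm]
      exact h1
    · have e1 : ((p % w : ℕ) : ℝ) = p - k * w := by
        have h2 : ((w * k + p % w : ℕ) : ℝ) = p := by rw [hdm]
        rw [Nat.cast_add, Nat.cast_mul] at h2
        linarith
      have e2 : ((p % w : ℕ) : ℝ) * (u / w) - (α - Z * β) - ((m - k * u : ℤ) : ℝ) =
          ((p:ℝ) * (u / w + β) - α - m) - (p - Z) * β := by
        rw [e1]
        push_cast
        field_simp
        ring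
      rw [e2]
      have h3 : |((p:ℝ) - Z) * β| ≤ 1 / t := by
        rw [abs_mul, abs_of_pos (by linarith : (0:ℝ) < p - Z)]
        exact (mul_le_mul_of_nonneg_right (by linarith) (abs_nonneg _)).trans hβ
      calc |((p:ℝ) * (u / w + β) - α - m) - (p - Z) * β| ≤
            |(p:ℝ) * (u / w + β) - α - m| + |((p:ℝ) - Z) * β| := abs_sub _ _
        _ ≤ 1 / t + 1 / t := add_le_add hm h3
        _ = 2 / t := by ring
  have h1 : (F.card : ℝ) ≤ S.card * (C / Nat.totient w * (H / Real.log (H / w))) := by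
    refine card_le_real F S (fun p => p % w) (fun p hp => Finset.mem_image_of_mem _ hp) _ ?_
    intro c hc
    obtain ⟨q, hq, hqc⟩ := Finset.mem_image.1 hc
    refine hap w q hw Z H (by linarith) hwH _ fun p hp => ?_
    rw [Finset.mem_filter] at hp
    obtain ⟨hpp, hZp, hpZ, _⟩ := hF p hp.1
    exact ⟨hpp, hZp, hpZ, by rw [hp.2, ← hqc]⟩
  have h2 : (S.card : ℝ) * (1 / Nat.totient w) ≤ (5 + 64 * C') * (1 / t + 1 / Real.sqrt w) := by
    have hsq : Real.sqrt w ≤ w := Real.sqrt_le_iff.2 ⟨hw0.le, by nlinarith⟩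
    have hsq0 : 0 < Real.sqrt w := Real.sqrt_pos.2 hw0
    have h3 : (2:ℝ) ^ w.primeFactors.card * (1 / Nat.totient w) ≤ 64 * C' / Real.sqrt w := by
      calc (2:ℝ) ^ w.primeFactors.card * (1 / Nat.totient w) ≤
            (64 * (w:ℝ) ^ (1 / 4 : ℝ)) * (C' / (w:ℝ) ^ (3 / 4 : ℝ)) :=
            mul_le_mul (two_pow_omega hw) (htot w hw) (by positivity) (by positivity)
        _ = 64 * C' / Real.sqrt w := by
            rw [Real.sqrt_eq_rpow, show (3 / 4 : ℝ) = 1 / 4 + 1 / 2 by norm_num,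
              Real.rpow_add hw0]
            field_simp
    have h4 : (2 * (2 / t) * w + 1) * (Nat.totient w / w) * (1 / Nat.totient w) ≤
        4 / t + 1 / Real.sqrt w := by
      have e : (2 * (2 / t) * w + 1) * (Nat.totient w / w) * (1 / Nat.totient w) =
          4 / t + 1 / w := by
        field_simp
        ring
      rw [e]
      exact add_le_add le_rfl (one_div_le_one_div_of_le hsq0 hsq)
    calc (S.card : ℝ) * (1 / Nat.totient w) ≤
          ((2 * (2 / t) * w + 1) * (Nat.totient w / w) + 2 ^ w.primeFactors.card) *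
            (1 / Nat.totient w) := mul_le_mul_of_nonneg_right hSc (by positivity)
      _ ≤ (4 / t + 1 / Real.sqrt w) + 64 * C' / Real.sqrt w := by
          rw [add_mul]; exact add_le_add h4 h3
      _ ≤ (5 + 64 * C') * (1 / t + 1 / Real.sqrt w) := by
          have h5 : 0 < 1 / t := by positivity
          have h6 : 0 < 1 / Real.sqrt w := by positivity
          have e1 : 4 / t = 4 * (1 / t) := by ring
          have e2 : 64 * C' / Real.sqrt w = 64 * C' * (1 / Real.sqrt w) := by ring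
          rw [e1, e2]
          nlinarith [mul_pos hC' h5]
  have hq0 : 0 ≤ C * (H / Real.log (H / w)) := by positivity
  calc (F.card : ℝ) ≤ S.card * (C / Nat.totient w * (H / Real.log (H / w))) := h1
    _ = (S.card : ℝ) * (1 / Nat.totient w) * (C * (H / Real.log (H / w))) := by ring
    _ ≤ (5 + 64 * C') * (1 / t + 1 / Real.sqrt w) * (C * (H / Real.log (H / w))) :=
        mul_le_mul_of_nonneg_right h2 hq0
    _ = _ := by ring

/-! ### a dyadic block -/

lemma card_int_le (M : Finset ℤ) (c R : ℝ) (hR : 0 ≤ R) (h : ∀ m ∈ M, |(m:ℝ) - c| ≤ R) :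
    (M.card : ℝ) ≤ 2 * R + 1 := by
  have hsub : M ⊆ Finset.Icc ⌈c - R⌉ ⌊c + R⌋ := by
    intro m hm
    have := abs_le.1 (h m hm)
    rw [Finset.mem_Icc, Int.ceil_le, Int.le_floor]
    constructor <;> linarith [this.1, this.2]
  have h1 := Finset.card_le_card hsub
  rw [Int.card_Icc] at h1
  have h2 : ((⌊c + R⌋ + 1 - ⌈c - R⌉).toNat : ℝ) ≤ 2 * R + 1 := by
    rcases le_or_gt 0 (⌊c + R⌋ + 1 - ⌈c - R⌉) with h3 | h3
    · have h4 : (((⌊c + R⌋ + 1 - ⌈c - R⌉).toNat : ℤ) : ℝ) = ((⌊c + R⌋ + 1 - ⌈c - R⌉ : ℤ) : ℝ) := by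
        rw [Int.toNat_of_nonneg h3]
      have h5 := Int.floor_le (c + R)
      have h6 := Int.le_ceil (c - R)
      push_cast at h4
      rw [h4]
      linarith
    · rw [Int.toNat_of_nonpos h3.le]
      push_cast
      linarith
  exact le_trans (by exact_mod_cast h1) h2

/-- no label of size `< K0` at scale `t` -/
def Heavy (t K0 x : ℝ) : Prop :=
  ∀ (a : ℤ) (v : ℕ), 1 ≤ v → (v:ℝ) < K0 → K0 / t ≤ |x - a / v|

set_option maxHeartbeats 1600000 in
theorem block_count : ∃ C : ℝ, 0 < C ∧ ∀ (θ α t K0 Y : ℝ), 1 ≤ K0 → K0 ≤ t → t ^ 4 ≤ Y → 16 ≤ Y →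
    ∀ F : Finset ℕ, (∀ p ∈ F, p.Prime ∧ Y < p ∧ (p:ℝ) ≤ 2 * Y ∧
      (∃ m : ℤ, |(p:ℝ) * θ - α - m| ≤ 1 / t) ∧ Heavy t K0 (p * θ)) →
    (F.card : ℝ) ≤ C / Real.sqrt K0 * (Y / Real.log Y) := by
  classical
  obtain ⟨C, hC, hint⟩ := interval_count
  obtain ⟨C1, hC1, hap⟩ := ap_count
  refine ⟨16 * C + 84 * C1, by positivity, fun θ α t K0 Y hK ht hY hY16 F hF => ?_⟩
  have ht1 : 1 ≤ t := hK.trans ht
  have ht0 : 0 < t := by linarith
  have hK0 : 0 < K0 := by linarith
  have hY0 : 0 < Y := by linarith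
  set s : ℝ := Real.sqrt Y with hs
  set r : ℝ := Real.sqrt s with hr
  have hs2 : s ^ 2 = Y := Real.sq_sqrt hY0.le
  have hs0 : 0 < s := Real.sqrt_pos.2 hY0
  have hr2 : r ^ 2 = s := Real.sq_sqrt hs0.le
  have hr0 : 0 < r := Real.sqrt_pos.2 hs0
  have hs4 : 4 ≤ s := by
    rw [hs]; exact Real.le_sqrt_of_sq_le (by linarith)
  have hrr : 2 ≤ r := by
    rw [hr]; exact Real.le_sqrt_of_sq_le (by linarith)
  have htr : t ≤ r := by
    have h1 : t ^ 4 ≤ r ^ 4 := by
      calc t ^ 4 ≤ Y := hY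
        _ = r ^ 4 := by rw [← hs2, ← hr2]; ring
    exact le_of_pow_le_pow_left₀ (by norm_num) hr0.le h1
  have hlogY : 0 < Real.log Y := Real.log_pos (by linarith)
  have hlogr : Real.log r = Real.log Y / 4 := by
    have : Y = r ^ 4 := by rw [← hs2, ← hr2]; ring
    rw [this, Real.log_pow]; push_cast; ring
  have hsK : 0 < Real.sqrt K0 := Real.sqrt_pos.2 hK0
  have hsK1 : Real.sqrt K0 ≤ K0 := Real.sqrt_le_iff.2 ⟨hK0.le, by nlinarith⟩
  -- Dirichlet
  have hn0 : 0 < ⌊s⌋₊ := Nat.floor_pos.2 (by linarith)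
  obtain ⟨q, hq1, hq2⟩ := Real.exists_rat_abs_sub_le_and_den_le θ hn0
  set w : ℕ := q.den with hw
  set u : ℤ := q.num with hu
  have hw1 : 1 ≤ w := q.den_pos
  have hw0 : (0:ℝ) < w := by exact_mod_cast hw1
  have hws : (w:ℝ) ≤ s := (by exact_mod_cast hq2 : (w:ℝ) ≤ (⌊s⌋₊ : ℝ)).trans (Nat.floor_le hs0.le)
  have hcop : IsCoprime u (w:ℤ) := by
    rw [Int.isCoprime_iff_gcd_eq_one]
    have := q.reduced
    unfold Nat.Coprime at this
    rw [Int.gcd_def]
    simpa using this
  have hqr : (q:ℝ) = u / w := by rw [Rat.cast_def]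
  set β : ℝ := θ - q with hβ
  have hθ : θ = u / w + β := by rw [hβ, hqr]; ring
  have hβs : |β| * (s * w) ≤ 1 := by
    have h1 : (⌊s⌋₊ : ℝ) + 1 > s := Nat.lt_floor_add_one s
    have h2 : |β| ≤ 1 / (s * w) := by
      refine hq1.trans (one_div_le_one_div_of_le (by positivity) ?_)
      exact mul_le_mul_of_nonneg_right h1.le hw0.le
    rw [le_div_iff₀ (by positivity)] at h2
    exact h2
  rcases le_or_gt K0 (w:ℝ) with hA | hB
  · -- case A
    obtain ⟨H, hH0, hHβ, hHY, hwH⟩ : ∃ H : ℝ, 0 < H ∧ H * |β| ≤ 1 / t ∧ H ≤ Y ∧ (w:ℝ) * r ≤ H := by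
      rcases le_or_gt (t * |β| * Y) 1 with h | h
      · refine ⟨Y, hY0, ?_, le_rfl, ?_⟩
        · rw [le_div_iff₀ ht0]; linarith
        · calc (w:ℝ) * r ≤ s * s := mul_le_mul hws (by nlinarith) hr0.le hs0.le
            _ = Y := by rw [← hs2]; ring
      · have hb : 0 < |β| := by
          rcases (abs_nonneg β).eq_or_lt with h0 | h0
          · rw [← h0] at h; norm_num at h
          · exact h0
        refine ⟨1 / (t * |β|), by positivity, ?_, ?_, ?_⟩
        · apply le_of_eq; field_simp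
        · rw [div_le_iff₀ (by positivity)]; linarith
        · rw [le_div_iff₀ (by positivity)]
          calc (w:ℝ) * r * (t * |β|) = |β| * (w * r * t) := by ring
            _ ≤ |β| * (w * r * r) := by
                refine mul_le_mul_of_nonneg_left ?_ hb.le
                exact mul_le_mul_of_nonneg_left htr (by positivity)
            _ = |β| * (s * w) := by rw [← hr2]; ring
            _ ≤ 1 := hβs
    have hwH2 : 2 * (w:ℝ) ≤ H := by nlinarith
    have hlogH : Real.log Y / 4 ≤ Real.log (H / w) := by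
      rw [← hlogr]
      refine Real.log_le_log hr0 ?_
      rw [le_div_iff₀ hw0]; linarith
    have h1 : (F.card : ℝ) ≤ (Finset.range ⌈Y / H⌉₊).card *
        (C * (1 / t + 1 / Real.sqrt w) * (H / Real.log (H / w))) := by
      refine card_le_real F _ (fun p => ⌈((p:ℝ) - Y) / H⌉₊ - 1) (fun p hp => ?_) _ fun i _ => ?_
      · obtain ⟨_, h2, h3, _⟩ := hF p hp
        have h4 : 0 < ⌈((p:ℝ) - Y) / H⌉₊ := Nat.ceil_pos.2 (div_pos (by linarith) hH0)
        have h5 : ⌈((p:ℝ) - Y) / H⌉₊ ≤ ⌈Y / H⌉₊ :=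
          Nat.ceil_mono (div_le_div_of_nonneg_right (by linarith) hH0.le)
        rw [Finset.mem_range]
        omega
      · refine hint w u hw1 hcop β α t (Y + i * H) H ht1 ?_ hHβ hwH2 _ fun p hp => ?_
        · have : (w:ℝ) ≤ Y := by nlinarith
          have h3 : (0:ℝ) ≤ i * H := by positivity
          linarith
        · rw [Finset.mem_filter] at hp
          obtain ⟨hpp, h2, h3, ⟨m, hm⟩, _⟩ := hF p hp.1
          have h4 : 0 < ⌈((p:ℝ) - Y) / H⌉₊ := Nat.ceil_pos.2 (div_pos (by linarith) hH0)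
          have h5 : ⌈((p:ℝ) - Y) / H⌉₊ = i + 1 := by have := hp.2; omega
          have h6 := Nat.le_ceil (((p:ℝ) - Y) / H)
          have h7 : ((i:ℕ):ℝ) < ((p:ℝ) - Y) / H := by
            rw [← Nat.lt_ceil]; omega
          rw [h5] at h6
          rw [div_le_iff₀ hH0] at h6
          rw [lt_div_iff₀ hH0] at h7
          push_cast at h6
          refine ⟨hpp, by linarith, by linarith, m, ?_⟩
          rw [← hθ]; exact hm
    have h2 : (((Finset.range ⌈Y / H⌉₊).card : ℕ) : ℝ) ≤ 2 * Y / H := by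
      rw [Finset.card_range]
      have h3 := Nat.ceil_lt_add_one (show 0 ≤ Y / H by positivity)
      have h4 : 1 ≤ Y / H := by rw [le_div_iff₀ hH0]; linarith
      have e : 2 * Y / H = Y / H + Y / H := by ring
      rw [e]; linarith
    have h3 : C * (1 / t + 1 / Real.sqrt w) * (H / Real.log (H / w)) ≤
        C * (2 / Real.sqrt K0) * (H * 4 / Real.log Y) := by
      have h4 : 1 / t + 1 / Real.sqrt w ≤ 2 / Real.sqrt K0 := by
        have h5 : 1 / t ≤ 1 / Real.sqrt K0 := one_div_le_one_div_of_le hsK (hsK1.trans ht)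
        have h6 : 1 / Real.sqrt w ≤ 1 / Real.sqrt K0 :=
          one_div_le_one_div_of_le hsK (Real.sqrt_le_sqrt hA)
        have e : 2 / Real.sqrt K0 = 1 / Real.sqrt K0 + 1 / Real.sqrt K0 := by ring
        rw [e]; exact add_le_add h5 h6
      have h7 : H / Real.log (H / w) ≤ H * 4 / Real.log Y := by
        rw [show H * 4 / Real.log Y = H / (Real.log Y / 4) by field_simp]
        exact div_le_div_of_nonneg_left hH0.le (by positivity) hlogH
      have h8 : 0 ≤ H / Real.log (H / w) :=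
        div_nonneg hH0.le (le_trans (by positivity) hlogH)
      exact mul_le_mul (mul_le_mul_of_nonneg_left h4 hC.le) h7 h8 (by positivity)
    have h9 : 0 ≤ C * (1 / t + 1 / Real.sqrt w) * (H / Real.log (H / w)) := by
      have : 0 ≤ H / Real.log (H / w) := div_nonneg hH0.le (le_trans (by positivity) hlogH)
      positivity
    calc (F.card : ℝ) ≤ _ := h1
      _ ≤ 2 * Y / H * (C * (2 / Real.sqrt K0) * (H * 4 / Real.log Y)) :=
          mul_le_mul h2 h3 h9 (by positivity)
      _ = 16 * C / Real.sqrt K0 * (Y / Real.log Y) := by field_simp; ring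
      _ ≤ (16 * C + 84 * C1) / Real.sqrt K0 * (Y / Real.log Y) := by
          refine mul_le_mul_of_nonneg_right ?_ (by positivity)
          exact div_le_div_of_nonneg_right (by nlinarith) hsK.le
  · -- case B
    rcases F.eq_empty_or_nonempty with rfl | ⟨p0, hp0⟩
    · simp only [Finset.card_empty, Nat.cast_zero]; positivity
    have hb : K0 / (2 * Y * t) ≤ |β| := by
      obtain ⟨_, h2, h3, _, hH⟩ := hF p0 hp0
      have h4 := hH (p0 * u) w hw1 hB
      have e : (p0:ℝ) * θ - ((p0 * u : ℤ) : ℝ) / w = p0 * β := by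
        rw [hθ]; push_cast; field_simp; ring
      rw [e, abs_mul, Nat.abs_cast] at h4
      rw [div_le_iff₀ (by positivity)]
      rw [div_le_iff₀ ht0] at h4
      have h5 : (p0:ℝ) * |β| * t ≤ 2 * Y * |β| * t :=
        mul_le_mul_of_nonneg_right (mul_le_mul_of_nonneg_right h3 (abs_nonneg _)) ht0.le
      linarith
    have hb0 : 0 < |β| := lt_of_lt_of_le (by positivity) hb
    set b : ℝ := |β| with hbdef
    have hφ : (0:ℝ) < Nat.totient w := by exact_mod_cast Nat.totient_pos.2 (by omega)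
    -- 1 / (t b) ≥ r w
    have hrw : r * w ≤ 1 / (t * b) := by
      rw [le_div_iff₀ (by positivity)]
      calc r * w * (t * b) = b * (w * r * t) := by ring
        _ ≤ b * (w * r * r) := by
            refine mul_le_mul_of_nonneg_left ?_ hb0.le
            exact mul_le_mul_of_nonneg_left htr (by positivity)
        _ = b * (s * w) := by rw [← hr2]; ring
        _ ≤ 1 := hβs
    have hw1r : (1:ℝ) ≤ w := by exact_mod_cast hw1
    have hone : 1 ≤ 1 / (t * b) := by nlinarith
    choose! m hm using fun p (hp : p ∈ F) => (hF p hp).2.2.2.1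
    set H : ℝ := 2 / (t * b) + 1 with hHdef
    have hH0 : 0 < H := by positivity
    have e2 : 2 / (t * b) = 2 * (1 / (t * b)) := by ring
    have hH3 : H ≤ 3 * (1 / (t * b)) := by rw [hHdef, e2]; linarith
    have hrH : r * w ≤ H := by rw [hHdef, e2]; linarith [show 0 < 1 / (t * b) by positivity]
    have hwH2 : 2 * (w:ℝ) ≤ H := by nlinarith
    have hlogH : Real.log Y / 4 ≤ Real.log (H / w) := by
      rw [← hlogr]
      refine Real.log_le_log hr0 ?_
      rw [le_div_iff₀ hw0]; linarith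
    set R1 : ℝ := C1 / Nat.totient w * (3 * (1 / (t * b)) * 4 / Real.log Y) with hR1
    have hR10 : 0 ≤ R1 := by positivity
    -- the common equation
    have hkey : ∀ p ∈ F, |(p:ℝ) * β - (α + (m p - (p / w : ℕ) * u : ℤ) -
        ((p % w : ℕ) : ℝ) * (u / w))| ≤ 1 / t := by
      intro p hp
      have h1 := hm p hp
      have hdm := Nat.div_add_mod p w
      obtain ⟨k, hk⟩ : ∃ k, k = p / w := ⟨_, rfl⟩
      rw [← hk] at hdm ⊢
      have e1 : ((p % w : ℕ) : ℝ) = p - k * w := by
        have h2 : ((w * k + p % w : ℕ) : ℝ) = p := by rw [hdm]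
        rw [Nat.cast_add, Nat.cast_mul] at h2
        linarith
      have e3 : (p:ℝ) * β - (α + (m p - (k:ℕ) * u : ℤ) - ((p % w : ℕ) : ℝ) * (u / w)) =
          (p:ℝ) * θ - α - m p := by
        rw [e1, hθ]; push_cast; field_simp; ring
      rw [e3]; exact h1
    have h1 : (F.card : ℝ) ≤ ((Finset.range w).filter w.Coprime).card *
        ((Y * b + 3) * R1) := by
      refine card_le_real F _ (fun p => p % w) (fun p hp => ?_) _ fun c _ => ?_
      · obtain ⟨hpp, hYp, _⟩ := hF p hp
        rw [Finset.mem_filter, Finset.mem_range]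
        refine ⟨Nat.mod_lt _ (by omega), ?_⟩
        have h1 : Nat.Coprime p w := by
          rw [Nat.Prime.coprime_iff_not_dvd hpp]
          intro hd
          have h2 := Nat.le_of_dvd (by omega) hd
          have h3 : (p:ℝ) ≤ w := by exact_mod_cast h2
          nlinarith
        unfold Nat.Coprime at h1 ⊢
        rw [Nat.gcd_comm, ← Nat.gcd_rec, Nat.gcd_comm]
        exact h1
      · set G := F.filter (fun p => p % w = c) with hG
        set f : ℕ → ℤ := fun p => m p - (p / w : ℕ) * u with hf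
        have h2 : (G.card : ℝ) ≤ (G.image f).card * R1 := by
          refine card_le_real G _ f (fun p hp => Finset.mem_image_of_mem _ hp) _ fun j _ => ?_
          set E := G.filter (fun p => f p = j) with hE
          rcases E.eq_empty_or_nonempty with h0 | hne
          · rw [h0]; simpa using hR10
          set p1 := E.min' hne with hp1
          have hp1E : p1 ∈ E := Finset.min'_mem _ _
          have hEF : ∀ p ∈ E, p ∈ F ∧ p % w = c ∧ f p = j := by
            intro p hp
            rw [hE, Finset.mem_filter, hG, Finset.mem_filter] at hp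
            exact ⟨hp.1.1, hp.1.2, hp.2⟩
          obtain ⟨hp1F, hp1c, hp1j⟩ := hEF p1 hp1E
          have h3 := hap w p1 hw1 ((p1:ℝ) - 1) H (by
            have := (hF p1 hp1F).2.1
            linarith) hwH2 E fun p hp => ?_
          · refine h3.trans ?_
            rw [hR1]
            refine mul_le_mul_of_nonneg_left ?_ (by positivity)
            have h4 : 0 < Real.log (H / w) := lt_of_lt_of_le (by positivity) hlogH
            calc H / Real.log (H / w) ≤ (3 * (1 / (t * b))) / (Real.log Y / 4) :=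
                  div_le_div₀ (by positivity) hH3 (by positivity) hlogH
              _ = _ := by field_simp
          · obtain ⟨hpF, hpc, hpj⟩ := hEF p hp
            have h4 := hkey p hpF
            have h5 := hkey p1 hp1F
            rw [hpc] at h4
            rw [hp1c] at h5
            have e4 : (m p - (p / w : ℕ) * u : ℤ) = j := hpj
            have e5 : (m p1 - (p1 / w : ℕ) * u : ℤ) = j := hp1j
            rw [e4] at h4
            rw [e5] at h5
            have h6 : |((p:ℝ) - p1) * β| ≤ 2 / t := by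
              have e6 : ((p:ℝ) - p1) * β = ((p:ℝ) * β - (α + j - (c:ℝ) * (u / w))) -
                  ((p1:ℝ) * β - (α + j - (c:ℝ) * (u / w))) := by ring
              rw [e6]
              refine (abs_sub _ _).trans ?_
              have e7 : 2 / t = 1 / t + 1 / t := by ring
              rw [e7]
              exact add_le_add h4 h5
            have hle : (p1:ℝ) ≤ p := by exact_mod_cast Finset.min'_le E p hp
            rw [abs_mul, abs_of_nonneg (by linarith : (0:ℝ) ≤ (p:ℝ) - p1)] at h6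
            have h7 : (p:ℝ) - p1 ≤ 2 / (t * b) := by
              rw [le_div_iff₀ (by positivity)]
              rw [le_div_iff₀ ht0] at h6
              linarith
            refine ⟨(hF p hpF).1, by linarith, by rw [hHdef]; linarith, by rw [hpc, hp1c]⟩
        have h3 : ((G.image f).card : ℝ) ≤ Y * b + 3 := by
          have h4 := card_int_le (G.image f) (3 / 2 * Y * β + (c:ℝ) * (u / w) - α)
            (Y * b / 2 + 1 / t) (by positivity) fun j hj => ?_
          · have h5 : 1 / t ≤ 1 := by rw [div_le_one ht0]; exact ht1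
            linarith
          · obtain ⟨p, hp, rfl⟩ := Finset.mem_image.1 hj
            rw [hG, Finset.mem_filter] at hp
            have h5 := hkey p hp.1
            rw [hp.2] at h5
            obtain ⟨_, h6, h7, _⟩ := hF p hp.1
            have h8 : |((p:ℝ) - 3 / 2 * Y) * β| ≤ Y * b / 2 := by
              rw [abs_mul]
              have h9 : |(p:ℝ) - 3 / 2 * Y| ≤ Y / 2 := by
                rw [abs_le]; constructor <;> linarith
              calc |(p:ℝ) - 3 / 2 * Y| * |β| ≤ Y / 2 * b :=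
                    mul_le_mul_of_nonneg_right h9 (abs_nonneg _)
                _ = Y * b / 2 := by ring
            have e6 : ((f p : ℤ) : ℝ) - (3 / 2 * Y * β + (c:ℝ) * (u / w) - α) =
                ((p:ℝ) - 3 / 2 * Y) * β -
                ((p:ℝ) * β - (α + (m p - (p / w : ℕ) * u : ℤ) - (c:ℝ) * (u / w))) := by
              rw [hf]; ring
            rw [e6]
            exact (abs_sub _ _).trans (add_le_add h8 h5)
        exact h2.trans (mul_le_mul_of_nonneg_right h3 hR10)
    rw [← Nat.totient_eq_card_coprime] at h1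
    have h2 : 1 / (t * b) ≤ 2 * Y / K0 := by
      rw [div_le_div_iff₀ (by positivity) hK0]
      rw [div_le_iff₀ (by positivity)] at hb
      linarith
    calc (F.card : ℝ) ≤ Nat.totient w * ((Y * b + 3) * R1) := h1
      _ = 12 * C1 * (Y / t + 3 * (1 / (t * b))) / Real.log Y := by
          rw [hR1]; field_simp; ring
      _ ≤ 12 * C1 * (Y / K0 + 3 * (2 * Y / K0)) / Real.log Y := by
          refine div_le_div_of_nonneg_right ?_ hlogY.le
          refine mul_le_mul_of_nonneg_left ?_ (by positivity)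
          have h3 : Y / t ≤ Y / K0 := div_le_div_of_nonneg_left hY0.le hK0 ht
          linarith
      _ = 84 * C1 / K0 * (Y / Real.log Y) := by field_simp; ring
      _ ≤ (16 * C + 84 * C1) / Real.sqrt K0 * (Y / Real.log Y) := by
          refine mul_le_mul_of_nonneg_right ?_ (by positivity)
          exact div_le_div₀ (by positivity) (by nlinarith) hsK hsK1

/-! ### all blocks of `(X, X²]` -/

/-- **primes `ρ` with `ρ θ` in an arc of length `2/t` and without label of size `< K0`** -/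
theorem gwk : ∃ C : ℝ, 0 < C ∧ ∀ (θ α t K0 X : ℝ), 1 ≤ K0 → K0 ≤ t → t ^ 4 ≤ X → 16 ≤ X →
    ∀ F : Finset ℕ, (∀ p ∈ F, p.Prime ∧ X < p ∧ (p:ℝ) ≤ X ^ 2 ∧
      (∃ m : ℤ, |(p:ℝ) * θ - α - m| ≤ 1 / t) ∧ Heavy t K0 (p * θ)) →
    ∑ p ∈ F, (1:ℝ) / p ≤ C / Real.sqrt K0 := by
  classical
  obtain ⟨C, hC, hbl⟩ := block_count
  refine ⟨3 * C, by positivity, fun θ α t K0 X hK ht htX hX F hF => ?_⟩
  have hX0 : 0 < X := by linarith
  have hK0 : 0 < K0 := by linarith
  have hsK : 0 < Real.sqrt K0 := Real.sqrt_pos.2 hK0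
  have hlogX : 0 < Real.log X := Real.log_pos (by linarith)
  set n : ℕ := ⌈Real.logb 2 X⌉₊ with hn
  have hXn : X ≤ 2 ^ n := by
    have h1 := Nat.le_ceil (Real.logb 2 X)
    have h2 : Real.logb 2 X ≤ n := h1
    rw [Real.logb_le_iff_le_rpow (by norm_num) hX0] at h2
    rwa [Real.rpow_natCast] at h2
  have hn1 : (n:ℝ) ≤ 3 * Real.log X := by
    have h1 := Nat.ceil_lt_add_one (Real.logb_nonneg (by norm_num : (1:ℝ) < 2) (by linarith : 1 ≤ X))
    have h2 : Real.logb 2 X = Real.log X / Real.log 2 := rfl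
    have h3 : Real.log X / Real.log 2 ≤ 3 / 2 * Real.log X := by
      rw [div_le_iff₀ (Real.log_pos (by norm_num))]
      have := Real.log_two_gt_d9
      nlinarith
    have h4 : 1 ≤ Real.log X := by
      rw [← Real.log_exp 1]
      exact Real.log_le_log (Real.exp_pos _) (by linarith [Real.exp_one_lt_d9])
    linarith
  have hex : ∀ p ∈ F, ∃ i, (p:ℝ) ≤ 2 ^ (i + 1) * X := by
    intro p hp
    refine ⟨n, ?_⟩
    have h1 := (hF p hp).2.2.1
    have h2 : X ^ 2 ≤ 2 ^ n * X := by nlinarith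
    have h3 : (2:ℝ) ^ (n + 1) * X = 2 * (2 ^ n * X) := by ring
    rw [h3]; nlinarith [show 0 ≤ (2:ℝ) ^ n * X by positivity]
  set f : ℕ → ℕ := fun p => if h : ∃ i, (p:ℝ) ≤ 2 ^ (i + 1) * X then Nat.find h else 0 with hf
  have hfs : ∀ p ∈ F, (p:ℝ) ≤ 2 * (2 ^ f p * X) ∧ 2 ^ f p * X < p ∧ f p < n := by
    intro p hp
    have h := hex p hp
    have e : f p = Nat.find h := by rw [hf]; simp only [dif_pos h]
    rw [e]
    have h1 := Nat.find_spec h
    obtain ⟨_, h2, h3, _⟩ := hF p hp
    have hn0 : 0 < n := by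
      rcases Nat.eq_zero_or_pos n with h0 | h0
      · rw [h0] at hXn; norm_num at hXn; linarith
      · exact h0
    refine ⟨by rw [pow_succ] at h1; linarith, ?_, ?_⟩
    · rcases Nat.eq_zero_or_pos (Nat.find h) with h0 | h0
      · rw [h0]; simpa using h2
      · have h4 := Nat.find_min h (show Nat.find h - 1 < Nat.find h by omega)
        rw [show Nat.find h - 1 + 1 = Nat.find h by omega] at h4
        exact not_le.1 h4
    · have h4 : Nat.find h ≤ n - 1 := by
        refine Nat.find_min' h ?_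
        rw [show n - 1 + 1 = n by omega]
        calc (p:ℝ) ≤ X ^ 2 := h3
          _ = X * X := by ring
          _ ≤ 2 ^ n * X := mul_le_mul_of_nonneg_right hXn hX0.le
      omega
  have h1 : ∑ p ∈ F, (1:ℝ) / p = ∑ i ∈ Finset.range n, ∑ p ∈ F.filter (fun p => f p = i), (1:ℝ) / p :=
    (Finset.sum_fiberwise_of_maps_to (fun p hp => Finset.mem_range.2 (hfs p hp).2.2) _).symm
  rw [h1]
  have h2 : ∀ i ∈ Finset.range n, ∑ p ∈ F.filter (fun p => f p = i), (1:ℝ) / p ≤
      C / Real.sqrt K0 * (1 / Real.log X) := by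
    intro i _
    have hpi : (1:ℝ) ≤ 2 ^ i := one_le_pow₀ (by norm_num)
    set Y : ℝ := 2 ^ i * X with hY
    have hYX : X ≤ Y := by rw [hY]; nlinarith
    have hY0 : 0 < Y := by linarith
    have h3 := hbl θ α t K0 Y hK ht (htX.trans hYX) (hX.trans hYX)
      (F.filter (fun p => f p = i)) fun p hp => by
        rw [Finset.mem_filter] at hp
        obtain ⟨h4, h5, _⟩ := hfs p hp.1
        rw [hp.2] at h4 h5
        obtain ⟨h6, _, _, h7, h8⟩ := hF p hp.1
        exact ⟨h6, h5, h4, h7, h8⟩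
    have h4 : ∑ p ∈ F.filter (fun p => f p = i), (1:ℝ) / p ≤
        (F.filter (fun p => f p = i)).card * (1 / Y) := by
      rw [← nsmul_eq_mul]
      refine Finset.sum_le_card_nsmul _ _ _ fun p hp => ?_
      rw [Finset.mem_filter] at hp
      have h5 := (hfs p hp.1).2.1
      rw [hp.2] at h5
      exact one_div_le_one_div_of_le hY0 h5.le
    calc _ ≤ _ := h4
      _ ≤ (C / Real.sqrt K0 * (Y / Real.log Y)) * (1 / Y) :=
          mul_le_mul_of_nonneg_right h3 (by positivity)
      _ = C / Real.sqrt K0 * (1 / Real.log Y) := by field_simp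
      _ ≤ _ := by
          refine mul_le_mul_of_nonneg_left ?_ (by positivity)
          exact one_div_le_one_div_of_le hlogX (Real.log_le_log hX0 hYX)
  calc _ ≤ ∑ _i ∈ Finset.range n, C / Real.sqrt K0 * (1 / Real.log X) := Finset.sum_le_sum h2
    _ = n * (C / Real.sqrt K0 * (1 / Real.log X)) := by
        rw [Finset.sum_const, Finset.card_range, nsmul_eq_mul]
    _ ≤ (3 * Real.log X) * (C / Real.sqrt K0 * (1 / Real.log X)) :=
        mul_le_mul_of_nonneg_right hn1 (by positivity)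
    _ = _ := by field_simp

end Crest.Agent.R4C.GWKx821
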