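import Crest.Agent.R4C.SpineDef_946
import Crest.Agent.R4C.NearTot_360

/-!
# Row 4: THE SPINE, tool kit (helper946)

* `EnR_mono`, `EnR_or_le`, `EnR_exists_le` : monotone, finite unions.
* `Lnk_card_le_one`, `sum_Lnk_le` : one offset for `gcd ≥ 2 L`.
* `EnR_le_frm`, `EnR_le_frm_one` : `EnR ≤ L * frm M (…)`.
* `scl`, `exists_scl`, `EnR_le_scales`, `EnR_le_geom` : dyadic scales.
* `ClsOK.mono`, `ClsOK.or`, `ClsOK.of_le` : closure of `ClsOK`.
* `near_cls` : the near class (`gcd ≤ 2^k L`, `h` outside the exceptional set).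
-/

set_option autoImplicit false

open Finset

namespace Crest.Agent.R4C.Spinex946

open Crest.Agent.R4C.Basex935 Crest.Agent.R4C.CrCoinx935 Crest.Agent.R4C.Bridgex882
  Crest.Agent.R4C.FLDefx935 Crest.Agent.R4C.Rulex945 Crest.Agent.R4C.FLShx326
open Crest.Agent.R4C.FLExx326 (ind ind_nonneg ind_le_one Ex_ind)
open Crest.Agent.R4C.CrCountx935 (mem_Hf Hf)

section basic

variable {γ L : ℝ} {M : ℕ} {B : Finset ℕ} {lam : ℕ → ℕ → Option ℤ}

lemma pref_nonneg (M b c : ℕ) : 0 ≤ (Nat.gcd b c : ℝ) * nu M b * nu M c :=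
  mul_nonneg (mul_nonneg (by positivity) (nu_nonneg _ _)) (nu_nonneg _ _)

open Classical in
/-- the boosted sum over the offsets of one pair -/
noncomputable def oS (γ L : ℝ) (M : ℕ) (lam : ℕ → ℕ → Option ℤ) (R : ℕ → ℕ → ℤ → Prop)
    (b c : ℕ) : ℝ :=
  ∑ h ∈ (Lnk γ L b c).filter (fun h => ¬ killedB lam b c h ∧ R b c h), boostB M lam b c h

lemma oS_nonneg (R : ℕ → ℕ → ℤ → Prop) (b c : ℕ) : 0 ≤ oS γ L M lam R b c :=
  Finset.sum_nonneg fun _ _ => boostB_nonneg _ _ _ _ _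

lemma EnR_eq (R : ℕ → ℕ → ℤ → Prop) : EnR γ L M B lam R =
    L * ∑ b ∈ B, ∑ c ∈ B.erase b, (Nat.gcd b c : ℝ) * nu M b * nu M c * oS γ L M lam R b c := rfl

/-- comparison pair by pair -/
lemma EnR_le_EnR (hL : 0 ≤ L) {R R' : ℕ → ℕ → ℤ → Prop}
    (h : ∀ b ∈ B, ∀ c ∈ B, b ≠ c → oS γ L M lam R b c ≤ oS γ L M lam R' b c) :
    EnR γ L M B lam R ≤ EnR γ L M B lam R' := by
  rw [EnR_eq, EnR_eq]
  refine mul_le_mul_of_nonneg_left (Finset.sum_le_sum fun b hb => Finset.sum_le_sum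
    fun c hc => ?_) hL
  exact mul_le_mul_of_nonneg_left (h b hb c (Finset.mem_of_mem_erase hc)
    fun e => Finset.ne_of_mem_erase hc e.symm) (pref_nonneg _ _ _)

lemma oS_mono {R R' : ℕ → ℕ → ℤ → Prop} {b c : ℕ}
    (h : ∀ x ∈ Lnk γ L b c, ¬ killedB lam b c x → R b c x → R' b c x) :
    oS γ L M lam R b c ≤ oS γ L M lam R' b c := by
  classical
  unfold oS
  refine Finset.sum_le_sum_of_subset_of_nonneg ?_ fun _ _ _ => boostB_nonneg _ _ _ _ _
  intro x hx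
  rw [Finset.mem_filter] at hx ⊢
  exact ⟨hx.1, hx.2.1, h x hx.1 hx.2.1 hx.2.2⟩

theorem EnR_mono (hL : 0 ≤ L) {R R' : ℕ → ℕ → ℤ → Prop}
    (h : ∀ b ∈ B, ∀ c ∈ B, b ≠ c → ∀ x ∈ Lnk γ L b c, ¬ killedB lam b c x →
      R b c x → R' b c x) : EnR γ L M B lam R ≤ EnR γ L M B lam R' :=
  EnR_le_EnR hL fun b hb c hc hne => oS_mono (h b hb c hc hne)

/-- finite unions -/
theorem EnR_exists_le (hL : 0 ≤ L) {ι : Type*} (s : Finset ι) (R : ι → ℕ → ℕ → ℤ → Prop) :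
    EnR γ L M B lam (fun b c h => ∃ i ∈ s, R i b c h) ≤ ∑ i ∈ s, EnR γ L M B lam (R i) := by
  classical
  have key : ∀ b c : ℕ, oS γ L M lam (fun b c h => ∃ i ∈ s, R i b c h) b c ≤
      ∑ i ∈ s, oS γ L M lam (R i) b c := by
    intro b c
    unfold oS
    have h1 : ∀ i ∈ s, ∑ h ∈ (Lnk γ L b c).filter (fun h => ¬ killedB lam b c h ∧ R i b c h),
        boostB M lam b c h = ∑ h ∈ Lnk γ L b c,
          if ¬ killedB lam b c h ∧ R i b c h then boostB M lam b c h else 0 :=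
      fun i _ => Finset.sum_filter _ _
    rw [Finset.sum_congr rfl h1, Finset.sum_filter, Finset.sum_comm]
    refine Finset.sum_le_sum fun h _ => ?_
    have h2 : ∀ i ∈ s, (0 : ℝ) ≤ if ¬ killedB lam b c h ∧ R i b c h then
        boostB M lam b c h else 0 := by
      intro i _
      split_ifs
      · exact boostB_nonneg _ _ _ _ _
      · exact le_rfl
    split_ifs with h3
    · obtain ⟨h4, i, hi, h5⟩ := h3
      refine le_trans (le_of_eq ?_) (Finset.single_le_sum h2 hi)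
      rw [if_pos ⟨h4, h5⟩]
    · exact Finset.sum_nonneg h2
  have e1 : ∑ i ∈ s, EnR γ L M B lam (R i) = L * ∑ b ∈ B, ∑ c ∈ B.erase b,
      (Nat.gcd b c : ℝ) * nu M b * nu M c * ∑ i ∈ s, oS γ L M lam (R i) b c := by
    simp only [EnR_eq, Finset.mul_sum]
    rw [Finset.sum_comm]
    refine Finset.sum_congr rfl fun b _ => ?_
    rw [Finset.sum_comm]
  rw [e1, EnR_eq]
  exact mul_le_mul_of_nonneg_left (Finset.sum_le_sum fun b _ => Finset.sum_le_sum fun c _ =>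
    mul_le_mul_of_nonneg_left (key b c) (pref_nonneg _ _ _)) hL

theorem EnR_or_le (hL : 0 ≤ L) (R R' : ℕ → ℕ → ℤ → Prop) :
    EnR γ L M B lam (fun b c h => R b c h ∨ R' b c h) ≤
      EnR γ L M B lam R + EnR γ L M B lam R' := by
  have h := EnR_exists_le (γ := γ) (M := M) (B := B) (lam := lam) hL (Finset.univ : Finset Bool)
    (fun i => if i then R else R')
  rw [Fintype.sum_bool] at h
  refine le_trans (EnR_mono hL fun b _ c _ _ x _ _ hx => ?_) h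
  rcases hx with hx | hx
  · exact ⟨true, Finset.mem_univ _, by simpa using hx⟩
  · exact ⟨false, Finset.mem_univ _, by simpa using hx⟩

/-- an empty class -/
lemma EnR_eq_zero {R : ℕ → ℕ → ℤ → Prop}
    (h : ∀ b ∈ B, ∀ c ∈ B, b ≠ c → ∀ x ∈ Lnk γ L b c, ¬ killedB lam b c x → ¬ R b c x) :
    EnR γ L M B lam R = 0 := by
  classical
  rw [EnR_eq]
  refine mul_eq_zero_of_right _ (Finset.sum_eq_zero fun b hb => Finset.sum_eq_zero fun c hc => ?_)
  have : oS γ L M lam R b c = 0 := by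
    unfold oS
    refine Finset.sum_eq_zero fun x hx => ?_
    rw [Finset.mem_filter] at hx
    exact absurd hx.2.2 (h b hb c (Finset.mem_of_mem_erase hc)
      (fun e => Finset.ne_of_mem_erase hc e.symm) x hx.1 hx.2.1)
  rw [this, mul_zero]

/-! ### passage to `frm` -/

open Classical in
/-- **conversion**: a bound `W b c` for the boosted sum over the offsets of the class -/
theorem EnR_le_frm (hL : 0 ≤ L) (hB : B ⊆ M.divisors) {R : ℕ → ℕ → ℤ → Prop} {W : ℕ → ℕ → ℝ}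
    (hW0 : ∀ b ∈ B, 0 ≤ W b b)
    (hW : ∀ b ∈ B, ∀ c ∈ B, b ≠ c → oS γ L M lam R b c ≤ W b c) :
    EnR γ L M B lam R ≤ L * frm M (fun b c => if b ∈ B ∧ c ∈ B then W b c else 0) := by
  rw [EnR_eq]
  refine mul_le_mul_of_nonneg_left ?_ hL
  unfold frm
  have hX : ∀ b ∈ B, ∀ c ∈ B, 0 ≤ W b c := by
    intro b hb c hc
    by_cases h : b = c
    · subst h; exact hW0 b hb
    · exact (oS_nonneg R b c).trans (hW b hb c hc h)
  have h1 : ∀ b ∈ B, ∑ c ∈ B.erase b, (Nat.gcd b c : ℝ) * nu M b * nu M c * oS γ L M lam R b c ≤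
      ∑ c ∈ M.divisors, (Nat.gcd b c : ℝ) * nu M b * nu M c *
        (if b ∈ B ∧ c ∈ B then W b c else 0) := by
    intro b hb
    refine le_trans (Finset.sum_le_sum fun c hc => ?_)
      (Finset.sum_le_sum_of_subset_of_nonneg ((Finset.erase_subset b B).trans hB) fun c _ _ => ?_)
    · have hcB := Finset.mem_of_mem_erase hc
      rw [if_pos ⟨hb, hcB⟩]
      exact mul_le_mul_of_nonneg_left (hW b hb c hcB
        fun e => Finset.ne_of_mem_erase hc e.symm) (pref_nonneg _ _ _)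
    · split_ifs with h2
      · exact mul_nonneg (pref_nonneg _ _ _) (hX b h2.1 c h2.2)
      · rw [mul_zero]
  refine (Finset.sum_le_sum h1).trans ?_
  refine Finset.sum_le_sum_of_subset_of_nonneg hB fun b _ _ => Finset.sum_nonneg fun c _ => ?_
  split_ifs with h2
  · exact mul_nonneg (pref_nonneg _ _ _) (hX b h2.1 c h2.2)
  · rw [mul_zero]

/-! ### offsets -/

lemma card_Lnk_le (hL : 0 < L) {b c : ℕ} (hb : 0 < b) :
    ((Lnk γ L b c).card : ℝ) ≤ 2 * (L / (Nat.gcd b c : ℕ)) + 1 := by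
  have hg : 0 < Nat.gcd b c := Nat.gcd_pos_of_pos_left _ hb
  have hg' : (0 : ℝ) < (Nat.gcd b c : ℕ) := by exact_mod_cast hg
  exact card_Hf (by positivity) _ _

/-- one offset at the scales `≥ 2` -/
lemma Lnk_card_le_one (hL : 0 < L) {b c : ℕ} (h : 2 * L ≤ (Nat.gcd b c : ℝ)) :
    (Lnk γ L b c).card ≤ 1 := by
  rw [Finset.card_le_one]
  intro x hx y hy
  unfold Lnk at hx hy
  rw [mem_Hf] at hx hy
  have hg : (0 : ℝ) < (Nat.gcd b c : ℕ) := by linarith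
  have h1 : L / (Nat.gcd b c : ℕ) ≤ 1 / 2 := by
    rw [div_le_div_iff₀ hg (by norm_num)]
    linarith
  rw [abs_lt] at hx hy
  have h2 : ((x : ℝ) - y) < 1 := by linarith [hx.2, hy.1]
  have h3 : -1 < ((x : ℝ) - y) := by linarith [hx.1, hy.2]
  have h4 : x - y < 1 := by exact_mod_cast h2
  have h5 : -1 < x - y := by exact_mod_cast h3
  omega

open Classical in
/-- the sum over the offsets at a scale `≥ 2` -/
lemma oS_le_one (hL : 0 < L) {R : ℕ → ℕ → ℤ → Prop} {b c : ℕ}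
    (h : 2 * L ≤ (Nat.gcd b c : ℝ)) {w : ℝ}
    (hw : ∀ x ∈ Lnk γ L b c, ¬ killedB lam b c x → R b c x → boostB M lam b c x ≤ w) :
    oS γ L M lam R b c ≤
      if ∃ x ∈ Lnk γ L b c, ¬ killedB lam b c x ∧ R b c x then w else 0 := by
  unfold oS
  have hcard := Lnk_card_le_one (γ := γ) hL h
  split_ifs with h1
  · obtain ⟨x, hx, hk, hR⟩ := h1
    have h2 : (Lnk γ L b c).filter (fun h => ¬ killedB lam b c h ∧ R b c h) = {x} := by
      ext y
      rw [Finset.mem_filter, Finset.mem_singleton]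
      constructor
      · rintro ⟨hy, _⟩
        exact Finset.card_le_one.1 hcard y hy x hx
      · rintro rfl
        exact ⟨hx, hk, hR⟩
    rw [h2, Finset.sum_singleton]
    exact hw x hx hk hR
  · refine le_of_eq (Finset.sum_eq_zero fun x hx => ?_)
    rw [Finset.mem_filter] at hx
    exact absurd ⟨x, hx.1, hx.2⟩ h1

/-- the sum over the offsets, any scale, a bound for each offset -/
lemma oS_le_card (hL : 0 < L) {R : ℕ → ℕ → ℤ → Prop} {b c : ℕ} (hb : 0 < b) {w : ℝ} (hw0 : 0 ≤ w)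
    (hw : ∀ x ∈ Lnk γ L b c, ¬ killedB lam b c x → R b c x → boostB M lam b c x ≤ w) :
    oS γ L M lam R b c ≤ (2 * (L / (Nat.gcd b c : ℕ)) + 1) * w := by
  classical
  unfold oS
  refine (Finset.sum_le_sum (g := fun _ => w) fun x hx => ?_).trans ?_
  · rw [Finset.mem_filter] at hx
    exact hw x hx.1 hx.2.1 hx.2.2
  · rw [Finset.sum_const, nsmul_eq_mul]
    refine mul_le_mul_of_nonneg_right ?_ hw0
    refine le_trans ?_ (card_Lnk_le (γ := γ) (c := c) hL hb)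
    exact_mod_cast Finset.card_filter_le _ _

open Classical in
/-- **conversion at the scales `≥ 2`** (one offset): boosts `≤ W b c` on the class -/
theorem EnR_le_frm_one (hL : 0 < L) (hB : B ⊆ M.divisors) {R : ℕ → ℕ → ℤ → Prop}
    {W : ℕ → ℕ → ℝ} (hg : ∀ b ∈ B, ∀ c ∈ B, b ≠ c → ∀ x, R b c x → 2 * L ≤ (Nat.gcd b c : ℝ))
    (hW : ∀ b ∈ B, ∀ c ∈ B, b ≠ c → ∀ x ∈ Lnk γ L b c, ¬ killedB lam b c x → R b c x →
      boostB M lam b c x ≤ W b c) :
    EnR γ L M B lam R ≤ L * frm M (fun b c => if (b ∈ B ∧ c ∈ B) ∧ b ≠ c ∧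
      ∃ x ∈ Lnk γ L b c, ¬ killedB lam b c x ∧ R b c x then W b c else 0) := by
  have h := EnR_le_frm (γ := γ) (lam := lam) (M := M) (B := B) (R := R) hL.le hB
    (W := fun b c => if b ≠ c ∧ ∃ x ∈ Lnk γ L b c, ¬ killedB lam b c x ∧ R b c x
      then W b c else 0) (fun b _ => by simp) (fun b hb c hc hne => ?_)
  · refine h.trans (le_of_eq ?_)
    congr 1
    unfold frm
    refine Finset.sum_congr rfl fun b _ => Finset.sum_congr rfl fun c _ => ?_
    congr 1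
    beta_reduce
    by_cases h1 : b ∈ B ∧ c ∈ B
    · by_cases h2 : b ≠ c ∧ ∃ x ∈ Lnk γ L b c, ¬ killedB lam b c x ∧ R b c x
      · rw [if_pos h1, if_pos h2, if_pos ⟨h1, h2⟩]
      · rw [if_pos h1, if_neg h2, if_neg fun h => h2 h.2]
    · rw [if_neg h1, if_neg fun h => h1 h.1]
  · by_cases hex : ∃ x ∈ Lnk γ L b c, ¬ killedB lam b c x ∧ R b c x
    · obtain ⟨x, hx, hk, hR⟩ := hex
      have h3 := oS_le_one (γ := γ) (M := M) (lam := lam) (R := R) hL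
        (hg b hb c hc hne x hR) (w := W b c) (hW b hb c hc hne)
      rw [if_pos ⟨x, hx, hk, hR⟩] at h3
      rw [if_pos ⟨hne, x, hx, hk, hR⟩]
      exact h3
    · rw [if_neg fun h => hex h.2]
      refine le_of_eq (Finset.sum_eq_zero fun x hx => ?_)
      rw [Finset.mem_filter] at hx
      exact absurd ⟨x, hx.1, hx.2⟩ hex

/-! ### dyadic scales -/

/-- the pair has the scale `2^m`: `2^m L ≤ gcd < 2^(m+1) L` -/
def scl (L : ℝ) (m b c : ℕ) : Prop :=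
  (2 : ℝ) ^ m * L ≤ (Nat.gcd b c : ℝ) ∧ (Nat.gcd b c : ℝ) < (2 : ℝ) ^ (m + 1) * L

lemma exists_scl (hL : 0 < L) (hM : 0 < M) {b c : ℕ} (hb : b ∣ M) {k : ℕ}
    (h : (2 : ℝ) ^ k * L ≤ (Nat.gcd b c : ℝ)) :
    ∃ m ∈ Finset.Ico k (⌈(M : ℝ) / L⌉₊ + 1), scl L m b c := by
  have hb0 : 0 < b := Nat.pos_of_dvd_of_pos hb hM
  have hgM : Nat.gcd b c ≤ M := (Nat.gcd_le_left c hb0).trans (Nat.le_of_dvd hM hb)
  have hgM' : (Nat.gcd b c : ℝ) ≤ M := by exact_mod_cast hgM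
  set x : ℝ := (Nat.gcd b c : ℝ) / L with hx
  have hx1 : (2 : ℝ) ^ k ≤ x := by rw [hx, le_div_iff₀ hL]; exact h
  have hx0 : (1 : ℝ) ≤ x := le_trans (one_le_pow₀ (by norm_num)) hx1
  obtain ⟨m, hm1, hm2⟩ := exists_nat_pow_near hx0 (by norm_num : (1 : ℝ) < 2)
  have h3 : (2 : ℝ) ^ m * L ≤ (Nat.gcd b c : ℝ) := by rw [hx, le_div_iff₀ hL] at hm1; exact hm1
  have h4 : (Nat.gcd b c : ℝ) < (2 : ℝ) ^ (m + 1) * L := by
    rw [hx, div_lt_iff₀ hL] at hm2; exact hm2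
  refine ⟨m, ?_, h3, h4⟩
  rw [Finset.mem_Ico]
  constructor
  · by_contra hc
    push Not at hc
    have h5 : (2 : ℝ) ^ (m + 1) ≤ 2 ^ k := pow_le_pow_right₀ (by norm_num) hc
    linarith
  · have h5 : (m : ℝ) < 2 ^ m := by exact_mod_cast Nat.lt_two_pow_self
    have h6 : x ≤ (M : ℝ) / L := div_le_div_of_nonneg_right hgM' hL.le
    have h7 : (M : ℝ) / L ≤ ⌈(M : ℝ) / L⌉₊ := Nat.le_ceil _
    have h8 : (m : ℝ) < ⌈(M : ℝ) / L⌉₊ := by linarith
    have h9 : m < ⌈(M : ℝ) / L⌉₊ := by exact_mod_cast h8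
    omega

lemma scl_unique (hL : 0 < L) {m m' b c : ℕ} (h : scl L m b c) (h' : scl L m' b c) : m = m' := by
  have key : ∀ m m', scl L m b c → scl L m' b c → m ≤ m' := by
    intro m m' h h'
    by_contra hc
    push Not at hc
    have h5 : (2 : ℝ) ^ (m' + 1) ≤ 2 ^ m := pow_le_pow_right₀ (by norm_num) hc
    have h6 := mul_le_mul_of_nonneg_right h5 hL.le
    linarith [h.1, h'.2]
  exact le_antisymm (key _ _ h h') (key _ _ h' h)

/-- a class living at the scales `≥ 2^k` is the sum of its scales -/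
theorem EnR_le_scales (hL : 0 < L) (hM : 0 < M) (hB : B ⊆ M.divisors) {k : ℕ}
    {R : ℕ → ℕ → ℤ → Prop}
    (hR : ∀ b ∈ B, ∀ c ∈ B, b ≠ c → ∀ x ∈ Lnk γ L b c, ¬ killedB lam b c x → R b c x →
      (2 : ℝ) ^ k * L ≤ (Nat.gcd b c : ℝ)) :
    EnR γ L M B lam R ≤ ∑ m ∈ Finset.Ico k (⌈(M : ℝ) / L⌉₊ + 1),
      EnR γ L M B lam (fun b c x => R b c x ∧ scl L m b c) := by
  refine le_trans (EnR_mono hL.le fun b hb c hc hne x hx hk hRx => ?_)
    (EnR_exists_le hL.le (Finset.Ico k (⌈(M : ℝ) / L⌉₊ + 1))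
      (fun m b c x => R b c x ∧ scl L m b c))
  obtain ⟨m, hm, hs⟩ := exists_scl (c := c) hL hM (Nat.dvd_of_mem_divisors (hB hb))
    (hR b hb c hc hne x hx hk hRx)
  exact ⟨m, hm, hRx, hs⟩

lemma geom_Ico {r : ℝ} (hr0 : 0 ≤ r) (hr1 : r < 1) (k n : ℕ) :
    ∑ m ∈ Finset.Ico k n, r ^ m ≤ r ^ k / (1 - r) := by
  rw [Finset.sum_Ico_eq_sum_range]
  simp only [pow_add]
  rw [← Finset.mul_sum, div_eq_mul_inv]
  refine mul_le_mul_of_nonneg_left ?_ (by positivity)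
  exact sum_le_hasSum _ (fun n _ => pow_nonneg hr0 n) (hasSum_geometric_of_lt_one hr0 hr1)

/-- geometric decay in the scale -/
theorem EnR_le_geom (hL : 0 < L) (hM : 0 < M) (hB : B ⊆ M.divisors) {k : ℕ}
    {R : ℕ → ℕ → ℤ → Prop}
    (hR : ∀ b ∈ B, ∀ c ∈ B, b ≠ c → ∀ x ∈ Lnk γ L b c, ¬ killedB lam b c x → R b c x →
      (2 : ℝ) ^ k * L ≤ (Nat.gcd b c : ℝ)) {D r : ℝ} (hD : 0 ≤ D) (hr0 : 0 ≤ r) (hr1 : r < 1)
    (h : ∀ m, k ≤ m → EnR γ L M B lam (fun b c x => R b c x ∧ scl L m b c) ≤ D * r ^ m) :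
    EnR γ L M B lam R ≤ D / (1 - r) := by
  refine (EnR_le_scales hL hM hB hR).trans ?_
  refine (Finset.sum_le_sum fun m hm => h m (Finset.mem_Ico.1 hm).1).trans ?_
  rw [← Finset.mul_sum]
  have h1 := geom_Ico hr0 hr1 k (⌈(M : ℝ) / L⌉₊ + 1)
  have h2 : r ^ k / (1 - r) ≤ 1 / (1 - r) :=
    div_le_div_of_nonneg_right (pow_le_one₀ hr0 hr1.le) (by linarith)
  calc D * ∑ m ∈ Finset.Ico k (⌈(M : ℝ) / L⌉₊ + 1), r ^ m ≤ D * (1 / (1 - r)) :=
        mul_le_mul_of_nonneg_left (h1.trans h2) hD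
    _ = D / (1 - r) := by ring

/-- summable scale bounds -/
theorem EnR_le_series (hL : 0 < L) (hM : 0 < M) (hB : B ⊆ M.divisors) {k : ℕ}
    {R : ℕ → ℕ → ℤ → Prop}
    (hR : ∀ b ∈ B, ∀ c ∈ B, b ≠ c → ∀ x ∈ Lnk γ L b c, ¬ killedB lam b c x → R b c x →
      (2 : ℝ) ^ k * L ≤ (Nat.gcd b c : ℝ)) {w : ℕ → ℝ} (hw0 : ∀ m, 0 ≤ w m) (hw : Summable w)
    (h : ∀ m, k ≤ m → EnR γ L M B lam (fun b c x => R b c x ∧ scl L m b c) ≤ w m) :
    EnR γ L M B lam R ≤ ∑' m, w m := by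
  refine (EnR_le_scales hL hM hB hR).trans ?_
  refine (Finset.sum_le_sum fun m hm => h m (Finset.mem_Ico.1 hm).1).trans ?_
  exact hw.sum_le_tsum _ fun m _ => hw0 m

end basic

/-! ### closure properties of `ClsOK` -/

section cls

variable {γ : ℝ}

/-- a class contained (under the set-up, eventually) in a good class is good -/
theorem ClsOK.mono {R R' : Cls} (h : ClsOK γ R')
    (hR : Ev fun cp η A m0 => ∀ (L : ℝ) (M : ℕ) (B : Finset ℕ) (F : FL M), Setup η L M B F →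
      ∀ b ∈ B, ∀ c ∈ B, b ≠ c → ∀ x ∈ Lnk γ L b c,
        ¬ killedB (lamOf cp A m0 γ L M B F) b c x → R cp η A m0 L M B F b c x →
          R' cp η A m0 L M B F b c x) : ClsOK γ R := by
  refine (h.and hR).mono ?_
  rintro cp η A m0 ⟨⟨C, hC⟩, h2⟩
  exact ⟨C, fun L M B F S => (EnR_mono S.hL.le (h2 L M B F S)).trans (hC L M B F S)⟩

theorem ClsOK.or {R R' : Cls} (h : ClsOK γ R) (h' : ClsOK γ R') :
    ClsOK γ (fun cp η A m0 L M B F b c x => R cp η A m0 L M B F b c x ∨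
      R' cp η A m0 L M B F b c x) := by
  refine (Ev.and h h').mono ?_
  rintro cp η A m0 ⟨⟨C, hC⟩, ⟨C', hC'⟩⟩
  exact ⟨C + C', fun L M B F S => (EnR_or_le S.hL.le _ _).trans
    (add_le_add (hC L M B F S) (hC' L M B F S))⟩

/-- a sum of eventually bounded pieces -/
theorem ClsOK.of_exists {R : Cls} {n : ℕ} {R' : ℕ → Cls} (h : ∀ i < n, ClsOK γ (R' i))
    (hR : Ev fun cp η A m0 => ∀ (L : ℝ) (M : ℕ) (B : Finset ℕ) (F : FL M), Setup η L M B F →
      ∀ b ∈ B, ∀ c ∈ B, b ≠ c → ∀ x ∈ Lnk γ L b c,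
        ¬ killedB (lamOf cp A m0 γ L M B F) b c x → R cp η A m0 L M B F b c x →
          ∃ i < n, R' i cp η A m0 L M B F b c x) : ClsOK γ R := by
  have h1 : Ev fun cp η A m0 => ∀ i ∈ List.range n, ∃ C : ℝ,
      ∀ (L : ℝ) (M : ℕ) (B : Finset ℕ) (F : FL M), Setup η L M B F →
        EnR γ L M B (lamOf cp A m0 γ L M B F) (R' i cp η A m0 L M B F) ≤ C :=
    Ev.forall_mem (List.range n) fun i hi => h i (List.mem_range.1 hi)
  refine (h1.and hR).mono ?_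
  rintro cp η A m0 ⟨h2, h3⟩
  choose! C hC using h2
  refine ⟨∑ i ∈ Finset.range n, C i, fun L M B F S => ?_⟩
  refine le_trans (EnR_mono S.hL.le fun b hb c hc hne x hx hk hRx => ?_)
    ((EnR_exists_le S.hL.le (Finset.range n) (fun i => R' i cp η A m0 L M B F)).trans
      (Finset.sum_le_sum fun i hi => hC i (List.mem_range.2 (Finset.mem_range.1 hi)) L M B F S))
  obtain ⟨i, hi, h4⟩ := h3 L M B F S b hb c hc hne x hx hk hRx
  exact ⟨i, Finset.mem_range.2 hi, h4⟩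

end cls

/-! ### the near class -/

/-- `gcd ≤ 2^k L`, offset outside the exceptional set -/
def Near (k : ℝ → ℝ → ℕ → ℕ → ℕ)
    (E : ℝ → ℝ → ℕ → ℕ → ℝ → ∀ M : ℕ, Finset ℕ → FL M → ℕ → ℕ → Finset ℤ) : Cls :=
  fun cp η A m0 L M B F b c h =>
    (Nat.gcd b c : ℝ) ≤ 2 ^ k cp η A m0 * L ∧ h ∉ E cp η A m0 L M B F b c

open Crest.Agent.R4C.NearTotx360 Crest.Agent.R4C.NearBoostx60 in
/-- **the near class**, if the aligned common primes `> exp ((L/g)^(1/8))` have bounded boost off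
the exceptional offsets -/
theorem near_cls {γ : ℝ} (k : ℝ → ℝ → ℕ → ℕ → ℕ)
    (E : ℝ → ℝ → ℕ → ℕ → ℝ → ∀ M : ℕ, Finset ℕ → FL M → ℕ → ℕ → Finset ℤ)
    (hE : Ev fun cp η A m0 => ∃ K : ℝ, 0 ≤ K ∧
      ∀ (L : ℝ) (M : ℕ) (B : Finset ℕ) (F : FL M), Setup η L M B F →
        ∀ b ∈ B, ∀ c ∈ B, b ≠ c → (Nat.gcd b c : ℝ) ≤ 2 ^ k cp η A m0 * L →
          ∀ h ∈ Lnk γ L b c, ¬ killedB (lamOf cp A m0 γ L M B F) b c h →
            h ∉ E cp η A m0 L M B F b c →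
            ∏ p ∈ (P2 M (lamOf cp A m0 γ L M B F) b c).filter (fun p : ℕ =>
              Real.exp ((max 1 (L / (Nat.gcd b c : ℕ))) ^ (1 / 8 : ℝ)) < (p : ℝ) ∧
                (p : ℤ) ∣ h - res (lamOf cp A m0 γ L M B F) b c p),
              (1 - 1 / (p : ℝ))⁻¹ ≤ K) : ClsOK γ (Near k E) := by
  refine hE.mono ?_
  rintro cp η A m0 ⟨K, hK, h⟩
  obtain ⟨C, hC, h1⟩ := near_total (T0 := 2 ^ k cp η A m0) (one_le_pow₀ (by norm_num))
  refine ⟨C * K, fun L M B F S => ?_⟩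
  have h2 := h1 γ L M B (lamOf cp A m0 γ L M B F) (E cp η A m0 L M B F) K S.hL S.hM S.hB S.mass
    hK (h L M B F S)
  have h3 : C * K * (L * ∑ b ∈ B, nu M b) ≤ C * K :=
    mul_le_of_le_one_right (by positivity) S.mass
  refine le_trans ?_ (h2.trans h3)
  classical
  unfold EnR
  refine mul_le_mul_of_nonneg_left (Finset.sum_le_sum fun b hb => ?_) S.hL.le
  rw [Finset.sum_filter]
  refine Finset.sum_le_sum fun c hc => ?_
  unfold Near
  by_cases hg : (Nat.gcd b c : ℝ) ≤ 2 ^ k cp η A m0 * L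
  · rw [if_pos hg]
    unfold EnE
    refine mul_le_mul_of_nonneg_left (le_of_eq ?_) (pref_nonneg _ _ _)
    refine Finset.sum_congr ?_ fun _ _ => rfl
    ext x
    simp only [Finset.mem_filter]
    tauto
  · rw [if_neg hg]
    refine le_of_eq (mul_eq_zero_of_right _ (Finset.sum_eq_zero fun x hx => ?_))
    simp only [Finset.mem_filter] at hx
    exact absurd hx.2.2.1 hg

end Crest.Agent.R4C.Spinex946
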