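import Crest.Agent.R4C.VecPure_520
import Crest.Agent.R4C.PureB1_232
import Crest.Agent.R4C.GWK_821
import Crest.Agent.R4C.BoostAl_100
import Crest.Agent.R4C.SpineKit_946

/-!
# Row 4: class `CDomP`, LARGE LOW WORDS (helper284)

Pure pairs of case A (own scale `2^i`) with a dominant low word of product `W`, `(i+1)^8 ≤ W`:
the whole boost `boostB ≤ C log (cut (2i)) B1 ≤ C W^(1/8) B1` is paid by the factor
`W^(-1/2)` of the row bound.

* `B1_split_cut`, `B1_word_le` : `B1 b c = B1 (low) * B1 (upp)`, `B1` of a word `≤ 64 W^(1/4)`.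
* `pure_assemblyB1`, `vec_classB1`, `vpi_energyB1` : `B1` versions of `VecPure_520`.
* **`vec_pure_crude`** : weight `2^((j+1)/8) B1` on the words with product in `[2^j, 2^(j+1))`.
* **`cls_domP_large`** : `ClsOK γ` of the class `CDomPL`.
* **`cls_domP_of_small`** : `ClsOK γ` of `CDomP` from `ClsOK γ` of its pairs with `W < (i+1)^8`.
-/

set_option autoImplicit false

open Finset

namespace Crest.Agent.R4C.DomPcx284

open Crest.Agent.R4C.Basex935 Crest.Agent.R4C.FLDefx935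
open Crest.Agent.R4C.Cutx50 hiding mass mass_nonneg
open Crest.Agent.R4C.PureL2x232 hiding frm_mono frm_sum
open Crest.Agent.R4C.FixedWordx423 Crest.Agent.R4C.S2bx284 Crest.Agent.R4C.VecPurex520

/-! ### the boost `B1` at a cut -/

/-- `B1` in terms of the word -/
lemma B1_wd (b c : ℕ) : B1 b c = ∏ p ∈ ((wd b c).1 * (wd b c).2).primeFactors, (1 - 1/(p:ℝ))⁻¹ := rfl

lemma primeFactors_low (y : ℕ) {n : ℕ} (hn : n ≠ 0) :
    (low y n).primeFactors = n.primeFactors.filter (fun p => p ≤ y) := by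
  ext p
  rw [mem_filter]
  constructor
  · intro hp
    have hpp := Nat.prime_of_mem_primeFactors hp
    have h2 : (low y n).factorization p ≠ 0 :=
      (hpp.factorization_pos_of_dvd (low_pos y n).ne' (Nat.dvd_of_mem_primeFactors hp)).ne'
    rw [fact_low] at h2
    by_cases h3 : p ≤ y
    · rw [if_pos h3] at h2
      exact ⟨Nat.mem_primeFactors.2 ⟨hpp, Nat.dvd_of_factorization_pos h2, hn⟩, h3⟩
    · rw [if_neg h3] at h2; exact absurd rfl h2
  · rintro ⟨hp, h3⟩
    have hpp := Nat.prime_of_mem_primeFactors hp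
    refine Nat.mem_primeFactors.2 ⟨hpp, Nat.dvd_of_factorization_pos ?_, (low_pos y n).ne'⟩
    rw [fact_low, if_pos h3]
    exact (hpp.factorization_pos_of_dvd hn (Nat.dvd_of_mem_primeFactors hp)).ne'

lemma primeFactors_upp (y : ℕ) {n : ℕ} (hn : n ≠ 0) :
    (upp y n).primeFactors = n.primeFactors.filter (fun p => ¬ p ≤ y) := by
  ext p
  rw [mem_filter]
  constructor
  · intro hp
    have hpp := Nat.prime_of_mem_primeFactors hp
    have h2 : (upp y n).factorization p ≠ 0 :=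
      (hpp.factorization_pos_of_dvd (upp_pos y n).ne' (Nat.dvd_of_mem_primeFactors hp)).ne'
    rw [fact_upp] at h2
    by_cases h3 : ¬ p ≤ y
    · rw [if_pos h3] at h2
      exact ⟨Nat.mem_primeFactors.2 ⟨hpp, Nat.dvd_of_factorization_pos h2, hn⟩, h3⟩
    · rw [if_neg h3] at h2; exact absurd rfl h2
  · rintro ⟨hp, h3⟩
    have hpp := Nat.prime_of_mem_primeFactors hp
    refine Nat.mem_primeFactors.2 ⟨hpp, Nat.dvd_of_factorization_pos ?_, (upp_pos y n).ne'⟩
    rw [fact_upp, if_pos h3]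
    exact (hpp.factorization_pos_of_dvd hn (Nat.dvd_of_mem_primeFactors hp)).ne'

lemma B1_split_cut (y : ℕ) {b c : ℕ} (hb : 0 < b) (hc : 0 < c) :
    B1 b c = B1 (low y b) (low y c) * B1 (upp y b) (upp y c) := by
  classical
  have hs := wd_pos hb hc
  rw [B1_wd b c, B1_wd (low y b), B1_wd (upp y b), wd_low y hb.ne' hc.ne',
    wd_upp y hb.ne' hc.ne']
  simp only
  set s := (wd b c).1
  set s' := (wd b c).2
  have h1 : (low y s * low y s').primeFactors = (s * s').primeFactors.filter (fun p => p ≤ y) := by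
    rw [Nat.primeFactors_mul (low_pos y s).ne' (low_pos y s').ne',
      Nat.primeFactors_mul hs.1.ne' hs.2.ne', filter_union, primeFactors_low y hs.1.ne',
      primeFactors_low y hs.2.ne']
  have h1' : (upp y s * upp y s').primeFactors =
      (s * s').primeFactors.filter (fun p => ¬ p ≤ y) := by
    rw [Nat.primeFactors_mul (upp_pos y s).ne' (upp_pos y s').ne',
      Nat.primeFactors_mul hs.1.ne' hs.2.ne', filter_union, primeFactors_upp y hs.1.ne',
      primeFactors_upp y hs.2.ne']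
  rw [h1, h1', prod_filter_mul_prod_filter_not]

/-- `B1` of a word -/
lemma B1_word_le {b c : ℕ} (hb : 0 < b) (hc : 0 < c) :
    B1 b c ≤ 64 * (((wd b c).1 * (wd b c).2 : ℕ) : ℝ) ^ (1 / 4 : ℝ) := by
  have hs := wd_pos hb hc
  have h1 : 1 ≤ (wd b c).1 * (wd b c).2 := Nat.mul_pos hs.1 hs.2
  refine le_trans ?_ (GWKx821.two_pow_omega h1)
  rw [B1_wd, ← Finset.prod_const]
  refine Finset.prod_le_prod (fun p hp => ?_) fun p hp => ?_
  · exact (inv_pos.2 (one_sub_inv_pos (Nat.prime_of_mem_primeFactors hp))).le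
  · have hpp := Nat.prime_of_mem_primeFactors hp
    have h2 : (2:ℝ) ≤ p := by exact_mod_cast hpp.two_le
    have h3 : 1/(p:ℝ) ≤ 1/2 := one_div_le_one_div_of_le (by norm_num) h2
    rw [inv_le_comm₀ (by linarith) (by norm_num)]
    linarith

/-! ### assembly with `B1` -/

/-- the constant -/
noncomputable def CB : ℝ := 4 * Real.exp 40 + 1

lemma CB_pos : 0 < CB := by unfold CB; positivity

open Classical in
/-- **assembly lemma, pure part, with `B1` of the upper words** -/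
theorem pure_assemblyB1 {M : ℕ} (hM : 0 < M) (y : ℕ) {R : ℕ → ℕ → Prop}
    (hR : PureRelC (upp y M) R) (K : ℕ → ℕ → ℝ) {A : ℝ} (hA : 0 ≤ A) (φ : ℕ → ℝ)
    (hφ : ∀ T, 0 ≤ φ T)
    (hK0 : ∀ b c, b ∣ M → c ∣ M → upp y b ≠ upp y c → ¬ R (upp y b) (upp y c) → K b c ≤ 0)
    (hlow : ∀ T T', T ∣ upp y M → T' ∣ upp y M → (T = T' ∨ R T T') →
      frm (low y M) (fun u u' => K (u * T) (u' * T')) ≤ A * (B1 T T' * (φ T * φ T'))) :
    frm M K ≤ CB * A * ∑ T ∈ (upp y M).divisors, nu (upp y M) T * φ T ^ 2 := by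
  have hMu : 0 < upp y M := upp_pos y M
  rw [frm_low_upp hM y K]
  have key : ∀ T ∈ (upp y M).divisors, ∀ T' ∈ (upp y M).divisors,
      (Nat.gcd T T' : ℝ) * nu (upp y M) T * nu (upp y M) T' *
          frm (low y M) (fun n n' => K (n * T) (n' * T')) ≤
        A * ((Nat.gcd T T' : ℝ) * nu (upp y M) T * nu (upp y M) T' *
          ((if R T T' then B1 T T' else 0) * (φ T * φ T'))) +
        A * ((Nat.gcd T T' : ℝ) * nu (upp y M) T * nu (upp y M) T' *
          (if T = T' then φ T * φ T' else 0)) := by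
    intro T hT T' hT'
    rw [Nat.mem_divisors] at hT hT'
    have hw : 0 ≤ (Nat.gcd T T' : ℝ) * nu (upp y M) T * nu (upp y M) T' :=
      mul_nonneg (mul_nonneg (by positivity) (nu_nonneg _ _)) (nu_nonneg _ _)
    have hφφ : 0 ≤ φ T * φ T' := mul_nonneg (hφ _) (hφ _)
    have hB := (B1_pos T T').le
    by_cases h : T = T' ∨ R T T'
    · have h1 := hlow T T' hT.1 hT'.1 h
      have h2 : A * (B1 T T' * (φ T * φ T')) ≤
          A * ((if R T T' then B1 T T' else 0) * (φ T * φ T')) +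
          A * (if T = T' then φ T * φ T' else 0) := by
        have hAφ : 0 ≤ A * (φ T * φ T') := mul_nonneg hA hφφ
        have hBφ : 0 ≤ A * (B1 T T' * (φ T * φ T')) := mul_nonneg hA (mul_nonneg hB hφφ)
        rcases h with h | h
        · subst h
          rw [if_pos rfl]
          have e : B1 T T = 1 := B1_self (Nat.pos_of_dvd_of_pos hT.1 hMu)
          split_ifs
          · rw [e]; linarith
          · rw [e]; linarith
        · rw [if_pos h]
          split_ifs
          · linarith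
          · rw [mul_zero]; linarith
      calc _ ≤ (Nat.gcd T T' : ℝ) * nu (upp y M) T * nu (upp y M) T' *
            (A * ((if R T T' then B1 T T' else 0) * (φ T * φ T')) +
          A * (if T = T' then φ T * φ T' else 0)) := mul_le_mul_of_nonneg_left (h1.trans h2) hw
        _ = _ := by ring
    · push Not at h
      rw [if_neg h.2, if_neg h.1]
      have h3 : frm (low y M) (fun n n' => K (n * T) (n' * T')) ≤ 0 := by
        unfold frm
        refine Finset.sum_nonpos fun n hn => Finset.sum_nonpos fun n' hn' => ?_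
        rw [Nat.mem_divisors] at hn hn'
        have hb : n * T ∣ M := by
          have := Nat.mul_dvd_mul hn.1 hT.1
          rwa [low_mul_upp y hM.ne'] at this
        have hc : n' * T' ∣ M := by
          have := Nat.mul_dvd_mul hn'.1 hT'.1
          rwa [low_mul_upp y hM.ne'] at this
        refine mul_nonpos_of_nonneg_of_nonpos (mul_nonneg (mul_nonneg (by positivity)
          (nu_nonneg _ _)) (nu_nonneg _ _)) (hK0 _ _ hb hc ?_ ?_)
        · rw [upp_of_mul hn.1 hT.1, upp_of_mul hn'.1 hT'.1]; exact h.1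
        · rw [upp_of_mul hn.1 hT.1, upp_of_mul hn'.1 hT'.1]; exact h.2
      nlinarith [mul_nonpos_of_nonneg_of_nonpos hw h3]
  refine (Finset.sum_le_sum fun T hT => Finset.sum_le_sum fun T' hT' => key T hT T' hT').trans ?_
  simp only [Finset.sum_add_distrib, ← Finset.mul_sum]
  have e1 : ∑ T ∈ (upp y M).divisors, ∑ T' ∈ (upp y M).divisors,
      ((Nat.gcd T T' : ℝ) * nu (upp y M) T * nu (upp y M) T' *
          ((if R T T' then B1 T T' else 0) * (φ T * φ T'))) ≤
      4 * Real.exp 40 * ∑ T ∈ (upp y M).divisors, nu (upp y M) T * φ T ^ 2 :=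
    pure_energyB1' hR φ hφ
  have e2 : ∑ T ∈ (upp y M).divisors, ∑ T' ∈ (upp y M).divisors,
      ((Nat.gcd T T' : ℝ) * nu (upp y M) T * nu (upp y M) T' *
          (if T = T' then φ T * φ T' else 0)) =
      ∑ T ∈ (upp y M).divisors, nu (upp y M) T * ((T:ℝ) * nu (upp y M) T) * (φ T * φ T) :=
    frm_diag (fun T T' => φ T * φ T')
  have e4 : ∑ T ∈ (upp y M).divisors, nu (upp y M) T * ((T:ℝ) * nu (upp y M) T) * (φ T * φ T) ≤
      ∑ T ∈ (upp y M).divisors, nu (upp y M) T * φ T ^ 2 := by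
    refine Finset.sum_le_sum fun T hT => ?_
    have h1 := V_le (Nat.dvd_of_mem_divisors hT)
    have h2 := nu_nonneg (upp y M) T
    have h3 : 0 ≤ nu (upp y M) T * φ T ^ 2 := mul_nonneg h2 (sq_nonneg _)
    nlinarith
  rw [e2]
  have e3 := add_le_add (mul_le_mul_of_nonneg_left e1 hA) (mul_le_mul_of_nonneg_left e4 hA)
  refine e3.trans (le_of_eq ?_)
  unfold CB
  ring

open Classical in
/-- **one class of words, with `B1`** : products in `[W, 2W)` -/
theorem vec_classB1 {M : ℕ} (hM : 0 < M) (y : ℕ) {R : ℕ → ℕ → Prop}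
    (hR : PureRelC (upp y M) R) {W : ℝ} (hW : 0 < W) (P : ℕ → ℕ → Prop) (w : ℕ → ℕ → ℕ × ℕ)
    (hP : ∀ b c, b ∣ M → c ∣ M → P b c → upp y b = upp y c ∨ R (upp y b) (upp y c))
    (hw : ∀ b c, b ∣ M → c ∣ M → P b c → wd (low y b) (low y c) = w (upp y b) (upp y c) ∧
      W ≤ ((w (upp y b) (upp y c)).1 : ℝ) * (w (upp y b) (upp y c)).2 ∧
      ((w (upp y b) (upp y c)).1 : ℝ) * (w (upp y b) (upp y c)).2 ≤ 2 * W) (f : ℕ → ℝ) :
    frm M (fun b c => if P b c then B1 b c * (|f b| * |f c|) else 0) ≤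
      CB * (64 * (2 * W) ^ (1 / 4 : ℝ) / √W) * mass M f := by
  have hA : 0 ≤ 64 * (2 * W) ^ (1 / 4 : ℝ) / √W := by positivity
  have hdiv : ∀ u T, u ∣ low y M → T ∣ upp y M → u * T ∣ M := by
    intro u T hu hT
    have := Nat.mul_dvd_mul hu hT
    rwa [low_mul_upp y hM.ne'] at this
  have key := pure_assemblyB1 hM y hR (fun b c => if P b c then B1 b c * (|f b| * |f c|) else 0) hA
    (fun T => √(mass (low y M) (fun u => f (u * T)))) (fun T => Real.sqrt_nonneg _)
    (fun b c hb hc hne hnR => by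
      rw [if_neg]
      intro hcon
      rcases hP b c hb hc hcon with h | h
      · exact hne h
      · exact hnR h)
    (fun T T' hT hT' _ => by
      have hmm : 0 ≤ √(mass (low y M) (fun u => f (u * T))) *
          √(mass (low y M) (fun u => f (u * T'))) :=
        mul_nonneg (Real.sqrt_nonneg _) (Real.sqrt_nonneg _)
      have hB := (B1_pos T T').le
      by_cases hWw : W ≤ ((w T T').1 : ℝ) * (w T T').2 ∧ ((w T T').1 : ℝ) * (w T T').2 ≤ 2 * W
      · have h1 : frm (low y M) (fun u u' => if P (u * T) (u' * T') then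
            B1 (u * T) (u' * T') * (|f (u * T)| * |f (u' * T')|) else 0) ≤
            (64 * (2 * W) ^ (1 / 4 : ℝ) * B1 T T') *
            frmW (low y M) (w T T') (fun u u' => |f (u * T)| * |f (u' * T')|) := by
          unfold frmW
          rw [← PureL2x232.frm_smul]
          refine frm_mono fun u hu u' hu' => ?_
          rw [Nat.mem_divisors] at hu hu'
          have hff : 0 ≤ |f (u * T)| * |f (u' * T')| := by positivity
          by_cases hPP : P (u * T) (u' * T')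
          · have h2 := (hw _ _ (hdiv u T hu.1 hT) (hdiv u' T' hu'.1 hT') hPP).1
            have hup : 0 < u * T := Nat.pos_of_dvd_of_pos (hdiv u T hu.1 hT) hM
            have hup' : 0 < u' * T' := Nat.pos_of_dvd_of_pos (hdiv u' T' hu'.1 hT') hM
            have h4 := B1_split_cut y hup hup'
            rw [low_of_mul hu.1 hT, low_of_mul hu'.1 hT', upp_of_mul hu.1 hT,
              upp_of_mul hu'.1 hT'] at h2 h4
            rw [if_pos hPP, if_pos h2, h4]
            have hu0 : 0 < u := Nat.pos_of_mul_pos_right hup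
            have hu0' : 0 < u' := Nat.pos_of_mul_pos_right hup'
            have h5 := B1_word_le hu0 hu0'
            rw [h2] at h5
            have h6 : (((w T T').1 * (w T T').2 : ℕ) : ℝ) ^ (1 / 4 : ℝ) ≤
                (2 * W) ^ (1 / 4 : ℝ) := by
              refine Real.rpow_le_rpow (by positivity) ?_ (by norm_num)
              push_cast
              exact hWw.2
            have h7 : B1 u u' ≤ 64 * (2 * W) ^ (1 / 4 : ℝ) := by linarith
            exact mul_le_mul_of_nonneg_right (mul_le_mul_of_nonneg_right h7 hB) hff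
          · rw [if_neg hPP]
            split_ifs
            · positivity
            · simp
        have h3 := word_bilin (low_pos y M) (w T T') (fun u => f (u * T)) (fun u => f (u * T'))
        refine h1.trans ((mul_le_mul_of_nonneg_left h3 (by positivity)).trans ?_)
        have h4 : √W ≤ √(((w T T').1 : ℝ) * (w T T').2) := Real.sqrt_le_sqrt hWw.1
        have h5 : 1 / √(((w T T').1 : ℝ) * (w T T').2) ≤ 1 / √W :=
          one_div_le_one_div_of_le (Real.sqrt_pos.2 hW) h4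
        calc 64 * (2 * W) ^ (1 / 4 : ℝ) * B1 T T' * (1 / √(((w T T').1 : ℝ) * (w T T').2) *
              (√(mass (low y M) fun u => f (u * T)) * √(mass (low y M) fun u => f (u * T'))))
            ≤ 64 * (2 * W) ^ (1 / 4 : ℝ) * B1 T T' * (1 / √W *
              (√(mass (low y M) fun u => f (u * T)) * √(mass (low y M) fun u => f (u * T')))) := by
              refine mul_le_mul_of_nonneg_left (mul_le_mul_of_nonneg_right h5 hmm) (by positivity)
          _ = _ := by ring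
      · have h1 : frm (low y M) (fun u u' => if P (u * T) (u' * T') then
            B1 (u * T) (u' * T') * (|f (u * T)| * |f (u' * T')|) else 0) = 0 := by
          unfold frm
          refine Finset.sum_eq_zero fun u hu => Finset.sum_eq_zero fun u' hu' => ?_
          rw [Nat.mem_divisors] at hu hu'
          have hPP : ¬ P (u * T) (u' * T') := by
            intro hPP
            have h2 := (hw _ _ (hdiv u T hu.1 hT) (hdiv u' T' hu'.1 hT') hPP).2
            rw [upp_of_mul hu.1 hT, upp_of_mul hu'.1 hT'] at h2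
            exact hWw h2
          simp only [if_neg hPP, mul_zero]
        rw [h1]
        positivity)
  refine key.trans (le_of_eq ?_)
  rw [mass_cut hM y f]
  have : ∀ T ∈ (upp y M).divisors, nu (upp y M) T *
      √(mass (low y M) (fun u => f (u * T))) ^ 2 =
      nu (upp y M) T * mass (low y M) (fun u => f (u * T)) := by
    intro T _
    rw [Real.sq_sqrt (mass_nonneg _ _)]
  rw [Finset.sum_congr rfl this]

open Classical in
/-- one dyadic class of words -/
theorem vpi_energyB1 {M : ℕ} (hM : 0 < M) (F : FL M) {D : ℕ → ℕ → ℕ → ℕ → Prop} (hD : Dbl D)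
    (i : ℕ) (f : ℕ → ℝ) :
    frm M (fun b c => if VPi F D i b c then B1 b c * (|f b| * |f c|) else 0) ≤
      CB * (64 * (2 * (2:ℝ) ^ i) ^ (1 / 4 : ℝ) / √((2:ℝ) ^ i)) * mass M f := by
  set y : ℕ := 2 ^ (i + 1) with hy
  set Q : ℕ → ℕ → ℕ × ℕ → Prop := fun T T' x => ∃ b c, b ∣ M ∧ c ∣ M ∧ VPi F D i b c ∧
    upp y b = T ∧ upp y c = T' ∧ wd (low y b) (low y c) = x with hQ
  have hQD : ∀ T T' x, Q T T' x → D (wd T T').1 (wd T T').2 x.1 x.2 ∧
      2 ^ i ≤ x.1 * x.2 ∧ x.1 * x.2 < 2 ^ (i + 1) := by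
    rintro T T' x ⟨b, c, hb, hc, hV, rfl, rfl, rfl⟩
    have hb0 : 0 < b := Nat.pos_of_dvd_of_pos hb hM
    have hc0 : 0 < c := Nat.pos_of_dvd_of_pos hc hM
    obtain ⟨-, h1, h2, h3⟩ := vpi_cut hM F hb hc hV
    rw [wd_upp y hb0.ne' hc0.ne', wd_low y hb0.ne' hc0.ne']
    exact ⟨h1, h2, h3⟩
  have huniq : ∀ T T' x x', Q T T' x → Q T T' x' → x' = x := by
    intro T T' x x' h h'
    by_contra hne
    obtain ⟨h1, h2, h3⟩ := hQD T T' x h
    obtain ⟨h1', h2', h3'⟩ := hQD T T' x' h'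
    have hne' : ((x'.1, x'.2) : ℕ × ℕ) ≠ (x.1, x.2) := hne
    have e : 2 ^ (i + 1) = 2 * 2 ^ i := by rw [pow_succ]; ring
    rcases hD _ _ _ _ _ _ h1 h1' hne' with h4 | h4
    · omega
    · omega
  refine vec_classB1 hM y (pureRelC_of_FL _ (upp_pos y M) (hiFL hM y F)) (by positivity)
    (VPi F D i) (fun T T' => if h : ∃ x, Q T T' x then h.choose else (1, 1)) ?_ ?_ f
  · intro b c hb hc hV
    exact (vpi_cut hM F hb hc hV).1
  · intro b c hb hc hV
    have hQ1 : Q (upp y b) (upp y c) (wd (low y b) (low y c)) := ⟨b, c, hb, hc, hV, rfl, rfl, rfl⟩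
    have hex : ∃ x, Q (upp y b) (upp y c) x := ⟨_, hQ1⟩
    rw [dif_pos hex]
    have h1 := huniq _ _ _ _ hex.choose_spec hQ1
    refine ⟨h1, ?_, ?_⟩
    · rw [← h1]
      have h2 := (hQD _ _ _ hQ1).2.1
      exact_mod_cast h2
    · rw [← h1]
      have h2 := (hQD _ _ _ hQ1).2.2
      have e : 2 ^ (i + 1) = 2 * 2 ^ i := by rw [pow_succ]; ring
      rw [e] at h2
      exact_mod_cast h2.le

/-- the series -/
lemma term_le (j : ℕ) : (2:ℝ) ^ (((j:ℝ) + 1) / 8) *
    (64 * (2 * (2:ℝ) ^ j) ^ (1 / 4 : ℝ) / √((2:ℝ) ^ j)) = 64 * 2 ^ (3 / 8 : ℝ) *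
      ((2:ℝ) ^ (-(1 / 8 : ℝ))) ^ j := by
  have e1 : (2 * (2:ℝ) ^ j) ^ (1 / 4 : ℝ) = (2:ℝ) ^ (((j:ℝ) + 1) / 4) := by
    have : 2 * (2:ℝ) ^ j = (2:ℝ) ^ ((j:ℝ) + 1) := by
      rw [Real.rpow_add (by norm_num), Real.rpow_natCast, Real.rpow_one]; ring
    rw [this, ← Real.rpow_mul (by norm_num)]
    congr 1
    ring
  have e2 : √((2:ℝ) ^ j) = (2:ℝ) ^ ((j:ℝ) / 2) := by
    rw [Real.sqrt_eq_rpow, ← Real.rpow_natCast, ← Real.rpow_mul (by norm_num)]
    congr 1
    ring
  have e3 : ((2:ℝ) ^ (-(1 / 8 : ℝ))) ^ j = (2:ℝ) ^ (-((j:ℝ) / 8)) := by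
    rw [← Real.rpow_natCast, ← Real.rpow_mul (by norm_num)]
    congr 1
    ring
  rw [e1, e2, e3]
  rw [div_eq_mul_inv (64 * (2:ℝ) ^ (((j:ℝ) + 1) / 4)), ← Real.rpow_neg (by norm_num)]
  have h : (2:ℝ) ^ (((j:ℝ) + 1) / 8) * (64 * (2:ℝ) ^ (((j:ℝ) + 1) / 4) * (2:ℝ) ^ (-((j:ℝ) / 2))) =
      64 * ((2:ℝ) ^ (((j:ℝ) + 1) / 8) * (2:ℝ) ^ (((j:ℝ) + 1) / 4) * (2:ℝ) ^ (-((j:ℝ) / 2))) := by
    ring
  rw [h, ← Real.rpow_add (by norm_num), ← Real.rpow_add (by norm_num), mul_assoc,
    ← Real.rpow_add (by norm_num)]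
  congr 2
  ring

/-- the sum of the series -/
noncomputable def CS : ℝ := 64 * 2 ^ (3 / 8 : ℝ) * (1 / (1 - (2:ℝ) ^ (-(1 / 8 : ℝ))))

lemma r_lt : (2:ℝ) ^ (-(1 / 8 : ℝ)) < 1 := Real.rpow_lt_one_of_one_lt_of_neg (by norm_num) (by norm_num)

lemma CS_pos : 0 < CS := by
  unfold CS
  have := r_lt
  have h2 : 0 < 1 - (2:ℝ) ^ (-(1 / 8 : ℝ)) := by linarith
  positivity

open Classical in
/-- **VEC, pure part, crude boost** : weight `2^((j+1)/8) B1` on the words with product in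
`[2^j, 2^(j+1))` -/
theorem vec_pure_crude {M : ℕ} (hM : 0 < M) (F : FL M) {D : ℕ → ℕ → ℕ → ℕ → Prop} (hD : Dbl D)
    (N : ℕ) (f : ℕ → ℝ) :
    frm M (fun b c => ∑ j ∈ range N, if VPi F D j b c then
      (2:ℝ) ^ (((j:ℝ) + 1) / 8) * (B1 b c * (|f b| * |f c|)) else 0) ≤ CB * CS * mass M f := by
  rw [← frm_sum]
  have h1 : ∀ j ∈ range N, frm M (fun b c => if VPi F D j b c then
      (2:ℝ) ^ (((j:ℝ) + 1) / 8) * (B1 b c * (|f b| * |f c|)) else 0) ≤
      CB * (64 * 2 ^ (3 / 8 : ℝ) * ((2:ℝ) ^ (-(1 / 8 : ℝ))) ^ j) * mass M f := by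
    intro j _
    have e : (fun b c => if VPi F D j b c then
        (2:ℝ) ^ (((j:ℝ) + 1) / 8) * (B1 b c * (|f b| * |f c|)) else 0) =
        fun b c => (2:ℝ) ^ (((j:ℝ) + 1) / 8) *
          (if VPi F D j b c then B1 b c * (|f b| * |f c|) else 0) := by
      funext b c
      split_ifs <;> simp
    rw [e, PureL2x232.frm_smul]
    refine (mul_le_mul_of_nonneg_left (vpi_energyB1 hM F hD j f) (by positivity)).trans
      (le_of_eq ?_)
    rw [← term_le j]
    ring
  refine (Finset.sum_le_sum h1).trans ?_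
  rw [← Finset.sum_mul, ← Finset.mul_sum, ← Finset.mul_sum]
  refine mul_le_mul_of_nonneg_right (mul_le_mul_of_nonneg_left ?_ CB_pos.le) (mass_nonneg _ _)
  unfold CS
  refine mul_le_mul_of_nonneg_left ?_ (by positivity)
  have h2 := (summable_geometric_of_lt_one (by positivity) r_lt).sum_le_tsum (range N)
    (fun j _ => by positivity)
  rw [tsum_geometric_of_lt_one (by positivity) r_lt, ← one_div] at h2
  exact h2

/-! ### the class in the language of the spine -/

open Crest.Agent.R4C.BoostCx972 Crest.Agent.R4C.CrCoinx935 Crest.Agent.R4C.Bridgex882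
  Crest.Agent.R4C.Rulex945 Crest.Agent.R4C.Sharedx11 Crest.Agent.R4C.Splitx945
  Crest.Agent.R4C.BoostAlx100 Crest.Agent.R4C.Spinex946
open Crest.Agent.R4C.FLExx326 (ind ind_nonneg ind_le_one)

/-- pure pairs of case A with a dominant low word of product `W`, `(i+1)^8 ≤ W` -/
def CDomPL {M : ℕ} (F : FL M) (P : Par) (b c : ℕ) (h : ℤ) : Prop :=
  ∃ i, FarA F P i b c h ∧ DomA P i b c ∧ Pure F (P.cut i) b c ∧
    ((i:ℝ) + 1) ^ 8 ≤ (low (P.cut i) (b / Nat.gcd b c) : ℝ) * low (P.cut i) (c / Nat.gcd b c)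

/-- the remaining pairs of `CDomP`: low word of product `< (i+1)^8` -/
def CDomPS {M : ℕ} (F : FL M) (P : Par) (b c : ℕ) (h : ℤ) : Prop :=
  ∃ i, FarA F P i b c h ∧ DomA P i b c ∧ Pure F (P.cut i) b c ∧
    (low (P.cut i) (b / Nat.gcd b c) : ℝ) * low (P.cut i) (c / Nat.gcd b c) < ((i:ℝ) + 1) ^ 8

lemma cDomP_split {M : ℕ} {F : FL M} {P : Par} {b c : ℕ} {h : ℤ} (hR : CDomP F P b c h) :
    CDomPL F P b c h ∨ CDomPS F P b c h := by
  obtain ⟨i, h1, h2, h3⟩ := hR
  rcases le_or_gt (((i:ℝ) + 1) ^ 8)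
    ((low (P.cut i) (b / Nat.gcd b c) : ℝ) * low (P.cut i) (c / Nat.gcd b c)) with h4 | h4
  · exact Or.inl ⟨i, h1, h2, h3, h4⟩
  · exact Or.inr ⟨i, h1, h2, h3, h4⟩

/-- the class in the form of the spine -/
def clsDomPL (γ : ℝ) : Cls := fun cp _ A m0 L M B F b c h =>
  CDomPL F (ParOf cp A m0 γ L M B) b c h

/-- the remaining class -/
def clsDomPS (γ : ℝ) : Cls := fun cp _ A m0 L M B F b c h =>
  CDomPS F (ParOf cp A m0 γ L M B) b c h

/-- the size of the low word -/
lemma size_le {cp γ L : ℝ} {A m0 i M : ℕ} {B : Finset ℕ} (_hcp0 : 0 ≤ cp) (hcp : cp ≤ 1 / 200)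
    (hA : 2 ≤ A) (hi : 1 ≤ i) {u v : ℕ} (hu : (u:ℝ) ≤ (ParOf cp A m0 γ L M B).E i)
    (hv : (v:ℝ) ≤ (ParOf cp A m0 γ L M B).E i) :
    2 * (u * v) ≤ (ParOf cp A m0 γ L M B).cut i := by
  have hE : (ParOf cp A m0 γ L M B).E i = (2:ℝ) ^ (cp * i) := rfl
  have hc : (ParOf cp A m0 γ L M B).cut i = 2 ^ (A * i) := rfl
  rw [hE] at hu hv
  rw [hc]
  have h1 : (u:ℝ) * v ≤ (2:ℝ) ^ (cp * i) * (2:ℝ) ^ (cp * i) :=
    mul_le_mul hu hv (Nat.cast_nonneg _) (by positivity)
  rw [← Real.rpow_add (by norm_num)] at h1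
  have hi' : (1:ℝ) ≤ i := by exact_mod_cast hi
  have hA' : (2:ℝ) ≤ A := by exact_mod_cast hA
  have h2 : (2:ℝ) * (2:ℝ) ^ (cp * i + cp * i) ≤ (2:ℝ) ^ ((A * i : ℕ) : ℝ) := by
    have e1 : (2:ℝ) ^ (1 + (cp * i + cp * i)) = (2:ℝ) * (2:ℝ) ^ (cp * i + cp * i) := by
      rw [Real.rpow_add (by norm_num) 1, Real.rpow_one]
    rw [← e1]
    refine Real.rpow_le_rpow_of_exponent_le (by norm_num) ?_
    push_cast
    nlinarith
  rw [Real.rpow_natCast] at h2
  have h3 : (2:ℝ) * (u * v) ≤ 2 ^ (A * i) := by linarith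
  exact_mod_cast h3

open Classical in
/-- the boost of a pair of the class -/
lemma boost_le {M : ℕ} {F : FL M} {cp γ L : ℝ} {A m0 : ℕ} {B : Finset ℕ} (hM : 0 < M) (hL : 0 < L)
    (hcp0 : 0 ≤ cp) (hcp : cp ≤ 1 / 200) (hA : 2 ≤ A) (hm0 : 1 ≤ m0) {b c : ℕ} (hb : b ∣ M) (hc : c ∣ M) {h : ℤ}
    (hl : h ∈ Lnk γ L b c) (hR : CDomPL F (ParOf cp A m0 γ L M B) b c h) {N : ℕ}
    (hN : Nat.log 2 (M * M) < N) :
    boostB M (lamOf cp A m0 γ L M B F) b c h ≤ (Real.exp 1200 * CM * (2 * A)) *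
      ∑ j ∈ range N, if VPi F (DomD γ) j b c then (2:ℝ) ^ (((j:ℝ) + 1) / 8) * B1 b c else 0 := by
  obtain ⟨i, hfar, hdom, hpure, hW⟩ := hR
  set P := ParOf cp A m0 γ L M B with hP
  have hcut : ∀ m, P.cut m = 2 ^ (A * m) := fun m => rfl
  have hb0 : 0 < b := Nat.pos_of_dvd_of_pos hb hM
  have hc0 : 0 < c := Nat.pos_of_dvd_of_pos hc hM
  have hi : 1 ≤ i := hm0.trans hfar.m0
  have hCM := CM_pos
  have hmono : P.cut i ≤ P.cut (2 * i) := by
    rw [hcut, hcut]
    exact Nat.pow_le_pow_right (by norm_num) (Nat.mul_le_mul_left _ (by omega))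
  have hQ : 2 ≤ P.cut (2 * i) := by
    rw [hcut]
    calc 2 = 2 ^ 1 := by norm_num
      _ ≤ 2 ^ (A * (2 * i)) := Nat.pow_le_pow_right (by norm_num) (by nlinarith)
  have hLg : P.L ≤ (Nat.gcd b c : ℝ) := by
    have h1 := hfar.lo
    have h2 : (1:ℝ) ≤ 2 ^ i := one_le_pow₀ (by norm_num)
    have h3 : P.L = L := rfl
    rw [h3] at h1 ⊢
    nlinarith
  have hb1 := boost_al_log (F := F) (P := P) hM hb hc hL (fun i => rfl)
    (fun b i => min_le_right _ _) hQ (FL.good_mono hmono hfar.good) hl hfar.al (Or.inr hLg)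
  -- the logarithm
  have hlog : Real.log (P.cut (2 * i) : ℕ) ≤ 2 * A * (i + 1) := by
    rw [hcut]
    push_cast
    rw [Real.log_pow]
    have e1 : Real.log 2 ≤ 1 := by
      have := Real.log_two_lt_d9
      linarith
    have e2 : ((A * (2 * i) : ℕ) : ℝ) ≤ 2 * A * (i + 1) := by
      push_cast
      have : (0:ℝ) ≤ A := Nat.cast_nonneg A
      nlinarith
    have e3 : (0 : ℝ) ≤ ((A * (2 * i) : ℕ) : ℝ) := Nat.cast_nonneg _
    calc ((A * (2 * i) : ℕ) : ℝ) * Real.log 2 ≤ ((A * (2 * i) : ℕ) : ℝ) * 1 :=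
          mul_le_mul_of_nonneg_left e1 e3
      _ ≤ _ := by linarith
  -- the class of the word
  set u := low (P.cut i) (b / Nat.gcd b c) with hu
  set v := low (P.cut i) (c / Nat.gcd b c) with hv
  set j := Nat.log 2 (u * v) with hj
  have huv0 : u * v ≠ 0 := (Nat.mul_pos (low_pos _ _) (low_pos _ _)).ne'
  have hV : VPi F (DomD γ) j b c := by
    refine ⟨P.cut i, hfar.good, hpure.1, hpure.2, ⟨2 ^ i, by positivity, ?_⟩, ?_, ?_⟩
    · exact hdom.dom
    · exact size_le hcp0 hcp hA hi hdom.le_b hdom.le_c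
    · rfl
  have hjN : j ∈ range N := by
    rw [mem_range]
    refine lt_of_le_of_lt (Nat.log_mono_right (Nat.mul_le_mul ?_ ?_)) hN
    · exact Nat.le_of_dvd hM ((low_dvd_self _ _).trans
        ((Nat.div_dvd_of_dvd (Nat.gcd_dvd_left b c)).trans hb))
    · exact Nat.le_of_dvd hM ((low_dvd_self _ _).trans
        ((Nat.div_dvd_of_dvd (Nat.gcd_dvd_right b c)).trans hc))
  have hi1 : (i:ℝ) + 1 ≤ (2:ℝ) ^ (((j:ℝ) + 1) / 8) := by
    have h1 : ((i:ℝ) + 1) ^ 8 ≤ 2 ^ (j + 1) := by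
      have h2 : u * v < 2 ^ (j + 1) := Nat.lt_pow_succ_log_self (by norm_num) _
      have h3 : ((u:ℝ) * v) < 2 ^ (j + 1) := by exact_mod_cast h2
      linarith
    have h4 : ((2:ℝ) ^ (((j:ℝ) + 1) / 8)) ^ 8 = 2 ^ (j + 1) := by
      rw [← Real.rpow_natCast, ← Real.rpow_mul (by norm_num), ← Real.rpow_natCast]
      congr 1
      push_cast
      ring
    rw [← h4] at h1
    exact le_of_pow_le_pow_left₀ (by norm_num) (by positivity) h1
  have hB1 := (B1_pos b c).le
  have hnn : ∀ k ∈ range N, (0:ℝ) ≤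
      (if VPi F (DomD γ) k b c then (2:ℝ) ^ (((k:ℝ) + 1) / 8) * B1 b c else 0) := by
    intro k _
    split_ifs
    · positivity
    · exact le_rfl
  have hsingle := Finset.single_le_sum hnn hjN
  rw [if_pos hV] at hsingle
  calc boostB M (lamOf cp A m0 γ L M B F) b c h
      ≤ Real.exp 1200 * CM * Real.log (P.cut (2 * i)) * B1 b c := hb1
    _ ≤ Real.exp 1200 * CM * (2 * A * (i + 1)) * B1 b c := by gcongr
    _ ≤ Real.exp 1200 * CM * (2 * A * (2:ℝ) ^ (((j:ℝ) + 1) / 8)) * B1 b c := by gcongr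
    _ = Real.exp 1200 * CM * (2 * A) * ((2:ℝ) ^ (((j:ℝ) + 1) / 8) * B1 b c) := by ring
    _ ≤ _ := mul_le_mul_of_nonneg_left hsingle (by positivity)

/-- **the class `CDomPL` has bounded energy** -/
theorem cls_domP_large (γ : ℝ) : ClsOK γ (clsDomPL γ) := by
  classical
  unfold ClsOK
  refine ((Ev.basic).and (Ev.le_A fun _ _ => 2)).mono ?_
  rintro cp η A m0 ⟨⟨hcp0, hcp, _, _, _, _, hm0⟩, hA2⟩
  have hA : 2 ≤ A := by exact_mod_cast hA2
  refine ⟨(Real.exp 1200 * CM * (2 * A)) * (CB * CS), fun L M B F S => ?_⟩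
  have hCM := CM_pos
  have hCB := CB_pos
  have hCS := CS_pos
  set K0 : ℝ := Real.exp 1200 * CM * (2 * A) with hK0
  have hK0' : 0 ≤ K0 := by positivity
  set N : ℕ := Nat.log 2 (M * M) + 1 with hN
  set W : ℕ → ℕ → ℝ := fun b c => K0 * ∑ j ∈ range N,
    if VPi F (DomD γ) j b c then (2:ℝ) ^ (((j:ℝ) + 1) / 8) * B1 b c else 0 with hW
  have h1 := EnR_le_frm_one (γ := γ) (lam := lamOf cp A m0 γ L M B F) S.hL S.hB
    (R := clsDomPL γ cp η A m0 L M B F) (W := W) (fun b _ c _ _ x hx => by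
      obtain ⟨i, hfar, _⟩ := hx
      have h2 := hfar.lo
      have h3 : (2:ℝ) ≤ 2 ^ i := by
        calc (2:ℝ) = 2 ^ 1 := by norm_num
          _ ≤ 2 ^ i := pow_le_pow_right₀ (by norm_num) (hm0.trans hfar.m0)
      have h4 : (ParOf cp A m0 γ L M B).L = L := rfl
      rw [h4] at h2
      have := S.hL
      nlinarith) (fun b hb c hc _ x hx _ hR =>
      boost_le S.hM S.hL hcp0.le hcp hA hm0 (S.dvd hb) (S.dvd hc) hx hR (by omega))
  refine h1.trans ?_
  have h2 : frm M (fun b c => if (b ∈ B ∧ c ∈ B) ∧ b ≠ c ∧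
      ∃ x ∈ Lnk γ L b c, ¬ killedB (lamOf cp A m0 γ L M B F) b c x ∧
        clsDomPL γ cp η A m0 L M B F b c x then W b c else 0) ≤
      frm M (fun b c => K0 * ∑ j ∈ range N, if VPi F (DomD γ) j b c then
        (2:ℝ) ^ (((j:ℝ) + 1) / 8) * (B1 b c * (|ind B b| * |ind B c|)) else 0) := by
    refine frm_mono fun b _ c _ => ?_
    have hB1 := (B1_pos b c).le
    have hnn : 0 ≤ K0 * ∑ j ∈ range N, if VPi F (DomD γ) j b c then
        (2:ℝ) ^ (((j:ℝ) + 1) / 8) * (B1 b c * (|ind B b| * |ind B c|)) else 0 := by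
      refine mul_nonneg hK0' (Finset.sum_nonneg fun j _ => ?_)
      split_ifs
      · positivity
      · exact le_rfl
    by_cases hcond : (b ∈ B ∧ c ∈ B) ∧ b ≠ c ∧
      ∃ x ∈ Lnk γ L b c, ¬ killedB (lamOf cp A m0 γ L M B F) b c x ∧
        clsDomPL γ cp η A m0 L M B F b c x
    · rw [if_pos hcond]
      have e1 : |ind B b| = 1 := by
        unfold ind; rw [if_pos hcond.1.1]; simp
      have e2 : |ind B c| = 1 := by
        unfold ind; rw [if_pos hcond.1.2]; simp
      rw [e1, e2]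
      simp only [hW, mul_one]
      exact le_rfl
    · rw [if_neg hcond]
      exact hnn
  have h3 : frm M (fun b c => K0 * ∑ j ∈ range N, if VPi F (DomD γ) j b c then
        (2:ℝ) ^ (((j:ℝ) + 1) / 8) * (B1 b c * (|ind B b| * |ind B c|)) else 0) ≤
      K0 * (CB * CS * mass M (ind B)) := by
    rw [PureL2x232.frm_smul]
    exact mul_le_mul_of_nonneg_left (vec_pure_crude S.hM F (dbl_dom γ) N (ind B)) hK0'
  have h4 : mass M (ind B) = ∑ b ∈ B, nu M b := by
    unfold mass ind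
    rw [← Finset.sum_subset S.hB (f := fun b => nu M b * (if b ∈ B then (1:ℝ) else 0) ^ 2)]
    · refine Finset.sum_congr rfl fun b hb => ?_
      rw [if_pos hb]; ring
    · intro b _ hb
      rw [if_neg hb]; ring
  have h5 := S.mass
  have h6 : L * (K0 * (CB * CS * mass M (ind B))) =
      (K0 * (CB * CS)) * (L * ∑ b ∈ B, nu M b) := by rw [h4]; ring
  refine (mul_le_mul_of_nonneg_left (h2.trans h3) S.hL.le).trans ?_
  rw [h6]
  exact mul_le_of_le_one_right (by positivity) h5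

/-- **`CDomP` reduces to the low words of product `< (i+1)^8`** -/
theorem cls_domP_of_small {γ : ℝ} (h : ClsOK γ (clsDomPS γ)) :
    ClsOK γ (fun cp _ A m0 L M B F b c h => CDomP F (ParOf cp A m0 γ L M B) b c h) :=
  ClsOK.mono (ClsOK.or (cls_domP_large γ) h) (Ev.of_forall fun _ _ _ _ _ _ _ _ _ _ _ _ _ _ _ _ _ h =>
    cDomP_split h)

end Crest.Agent.R4C.DomPcx284
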