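import Crest.Agent.R4C.ClsSc_244
import Crest.Agent.R4C.DomPc_284

/-!
# Row 4: the class `cDomP` from its three parts (helper244)

* large low words: `DomPcx284.cls_domP_large`;
* `CDomPV`, `clsDomPV` : own low word `(u, v) ≠ (1, 1)`, `u v < (i+1)^8`;
* low word `(1, 1)`: `GWfinx982.clsDomP1`;
* **`cls_domP_of`** : `ClsOK γ (nH γ (clsDomPV γ)) → ClsOK γ (nH γ (clsDomP1 γ)) →
  ClsOK γ (nH γ (cDomP γ))`;
* `cls_domP_off` : the vector part may also be restricted to the pairs off the `K_y` event.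
-/

set_option autoImplicit false

open Finset

namespace Crest.Agent.R4C.ClsDomPx244

open Crest.Agent.R4C.Basex935 Crest.Agent.R4C.FLDefx935 Crest.Agent.R4C.CrCoinx935
  Crest.Agent.R4C.Bridgex882 Crest.Agent.R4C.Cutx50 Crest.Agent.R4C.Rulex945
  Crest.Agent.R4C.Splitx945 Crest.Agent.R4C.Spinex946 Crest.Agent.R4C.Coverx946
  Crest.Agent.R4C.KyClsx971 Crest.Agent.R4C.GWfinx982 Crest.Agent.R4C.DomPcx284
open Crest.Agent.R4C.FLExx326 (ind)

/-- pure pairs of case A, dominant low word `≠ (1, 1)` of product `< (i+1)^8` -/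
def CDomPV {M : ℕ} (F : FL M) (P : Par) (b c : ℕ) (h : ℤ) : Prop :=
  ∃ i, FarA F P i b c h ∧ DomA P i b c ∧ Pure F (P.cut i) b c ∧
    (low (P.cut i) (b / Nat.gcd b c) : ℝ) * low (P.cut i) (c / Nat.gcd b c) < ((i : ℝ) + 1) ^ 8 ∧
    ¬ (low (P.cut i) (b / Nat.gcd b c) = 1 ∧ low (P.cut i) (c / Nat.gcd b c) = 1)

/-- the class in the form of the spine -/
def clsDomPV (γ : ℝ) : Cls := fun cp _ A m0 L M B F b c h =>
  CDomPV F (ParOf cp A m0 γ L M B) b c h

/-- the exhaustive split -/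
lemma split3 {M : ℕ} {F : FL M} {P : Par} {b c : ℕ} {h : ℤ} (hR : CDomP F P b c h) :
    CDomPL F P b c h ∨ CDomPV F P b c h ∨ CDomP1 F P b c h := by
  rcases cDomP_split hR with h1 | ⟨i, h1, h2, h3, h4⟩
  · exact Or.inl h1
  · right
    by_cases h5 : low (P.cut i) (b / Nat.gcd b c) = 1 ∧ low (P.cut i) (c / Nat.gcd b c) = 1
    · exact Or.inr ⟨i, h1, h3, h5.1, h5.2⟩
    · exact Or.inl ⟨i, h1, h2, h3, h4, h5⟩

/-- **the class `cDomP` from its parts** -/
theorem cls_domP_of {γ : ℝ} (hV : ClsOK γ (nH γ (clsDomPV γ))) (h1 : ClsOK γ (nH γ (clsDomP1 γ))) :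
    ClsOK γ (nH γ (cDomP γ)) := by
  refine ((cls_domP_large γ).or (hV.or h1)).mono (Ev.of_forall
    fun cp η A m0 L M B F _ b _ c _ _ x _ _ hx => ?_)
  rcases split3 hx.2 with h | h | h
  · exact Or.inl h
  · exact Or.inr (Or.inl ⟨hx.1, h⟩)
  · exact Or.inr (Or.inr ⟨hx.1, h⟩)

/-- the vector part off the heavy class and off the `K_y` event is enough -/
theorem cls_domP_off {γ : ℝ}
    (hV : ClsOK γ (fun cp η A m0 L M B F b c x => nH γ (clsDomPV γ) cp η A m0 L M B F b c x ∧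
      ¬ clsKy γ cp η A m0 L M B F b c x))
    (h1 : ClsOK γ (nH γ (clsDomP1 γ))) : ClsOK γ (nH γ (cDomP γ)) :=
  cls_domP_of (ClsOK_off hV) h1

/-- the same with all small low words in the vector part -/
theorem cls_domP_small {γ : ℝ} (hV : ClsOK γ (nH γ (clsDomPS γ))) : ClsOK γ (nH γ (cDomP γ)) := by
  refine ((cls_domP_large γ).or hV).mono (Ev.of_forall
    fun cp η A m0 L M B F _ b _ c _ _ x _ _ hx => ?_)
  rcases cDomP_split hx.2 with h | h
  · exact Or.inl h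
  · exact Or.inr ⟨hx.1, h⟩

/-- **`cDomP` from the kill, the natural hypothesis and the vector part** -/
theorem cls_domP {γ : ℝ} (hV : ClsOK γ (nH γ (clsDomPV γ))) (hK : ClsScx244.KillOK γ)
    (hH : ClsScx244.HypOK γ) : ClsOK γ (nH γ (cDomP γ)) :=
  cls_domP_of hV (ClsScx244.cls_sc hK hH)

end Crest.Agent.R4C.ClsDomPx244
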