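import Mathlib

/-!
# Row 4, BLOCK S6 (S6-5): the outer sums of class (L) (helper251)

Every box of class (L) (`k, k' = log₂` of the depths, `n = max (k, k')`, cut `V = 2^v`, twists
`2^j, 2^j'`) costs
`(2^n)^e (2^(j+j'))^(-1/2) (v+1)^B min (1, (1 + (v+1)(n+1))² 2^(j+j') (2^n)^(-1/3))^s`, `s < 1/2`;
`sumL` : the sum over all boxes is bounded; `sumL_tail` : with `n ≥ n₀` it is `≤ C 2^(-c₀ n₀)`.
(v2: the gain is linear in the twist, correction of helper100 and helper554.)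
-/

set_option autoImplicit false

open Finset

namespace Crest.Agent.R4C.Sum6x251

/-- the cost of one box -/
noncomputable def box (s e B : ℝ) (n v j j' : ℕ) : ℝ :=
  ((2 : ℝ) ^ n) ^ e * ((2 : ℝ) ^ (j + j')) ^ (-(1 : ℝ) / 2) * ((v : ℝ) + 1) ^ B *
    (min 1 ((1 + ((v : ℝ) + 1) * ((n : ℝ) + 1)) ^ 2 *
      ((2 : ℝ) ^ (j + j') * ((2 : ℝ) ^ n) ^ (-(1 : ℝ) / 3)))) ^ s

lemma box_nonneg (s e B : ℝ) (n v j j' : ℕ) : 0 ≤ box s e B n v j j' := by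
  unfold box
  have h : 0 ≤ min 1 ((1 + ((v : ℝ) + 1) * ((n : ℝ) + 1)) ^ 2 *
      ((2 : ℝ) ^ (j + j') * ((2 : ℝ) ^ n) ^ (-(1 : ℝ) / 3))) := le_min zero_le_one (by positivity)
  positivity

lemma rpow_two (a : ℝ) (n : ℕ) : ((2 : ℝ) ^ n) ^ a = ((2 : ℝ) ^ a) ^ n := by
  rw [← Real.rpow_natCast 2 n, ← Real.rpow_mul (by norm_num), ← Real.rpow_natCast _ n,
    ← Real.rpow_mul (by norm_num), mul_comm]

/-- one box, polynomial part separated -/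
lemma box_le {s e B : ℝ} (hs : 0 < s) (n v j j' : ℕ) :
    box s e B n v j j' ≤ ((v : ℝ) + 1) ^ B * ((1 + ((v : ℝ) + 1) * ((n : ℝ) + 1)) ^ 2) ^ s *
      (((2 : ℝ) ^ (-(s / 3 - e))) ^ n *
        (((2 : ℝ) ^ (-(1 / 2 - s))) ^ j * ((2 : ℝ) ^ (-(1 / 2 - s))) ^ j')) := by
  have h2 : (0 : ℝ) < 2 := by norm_num
  have hP : 0 ≤ (1 + ((v : ℝ) + 1) * ((n : ℝ) + 1)) ^ 2 := by positivity
  have hx : 0 ≤ (2 : ℝ) ^ (j + j') * ((2 : ℝ) ^ n) ^ (-(1 : ℝ) / 3) := by positivity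
  have h1 : (min 1 ((1 + ((v : ℝ) + 1) * ((n : ℝ) + 1)) ^ 2 *
      ((2 : ℝ) ^ (j + j') * ((2 : ℝ) ^ n) ^ (-(1 : ℝ) / 3)))) ^ s ≤
      ((1 + ((v : ℝ) + 1) * ((n : ℝ) + 1)) ^ 2) ^ s *
        ((2 : ℝ) ^ (j + j') * ((2 : ℝ) ^ n) ^ (-(1 : ℝ) / 3)) ^ s := by
    rw [← Real.mul_rpow hP hx]
    exact Real.rpow_le_rpow (le_min zero_le_one (by positivity)) (min_le_right _ _) hs.le
  have h3 : ((2 : ℝ) ^ (j + j') * ((2 : ℝ) ^ n) ^ (-(1 : ℝ) / 3)) ^ s =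
      ((2 : ℝ) ^ (-(s / 3))) ^ n * ((2 : ℝ) ^ s) ^ (j + j') := by
    rw [Real.mul_rpow (by positivity) (by positivity), ← Real.rpow_mul (by positivity),
      rpow_two, rpow_two, mul_comm]
    congr 3
    ring
  have h4 : ((2 : ℝ) ^ (j + j')) ^ (-(1 : ℝ) / 2) = ((2 : ℝ) ^ (-(1 : ℝ) / 2)) ^ (j + j') :=
    rpow_two _ _
  have h5 : ((2 : ℝ) ^ e) ^ n * ((2 : ℝ) ^ (-(s / 3))) ^ n = ((2 : ℝ) ^ (-(s / 3 - e))) ^ n := by
    rw [← mul_pow, ← Real.rpow_add h2]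
    congr 2
    ring
  have h6 : ((2 : ℝ) ^ (-(1 : ℝ) / 2)) ^ (j + j') * ((2 : ℝ) ^ s) ^ (j + j') =
      ((2 : ℝ) ^ (-(1 / 2 - s))) ^ j * ((2 : ℝ) ^ (-(1 / 2 - s))) ^ j' := by
    rw [← mul_pow, ← Real.rpow_add h2, ← pow_add]
    congr 2
    ring
  unfold box
  rw [rpow_two e n, h4]
  refine (mul_le_mul_of_nonneg_left h1 (by positivity)).trans (le_of_eq ?_)
  rw [h3, ← h5, ← h6]
  ring

/-- geometric sum -/
lemma geom_le {q : ℝ} (h0 : 0 ≤ q) (h1 : q < 1) (n : ℕ) : ∑ j ∈ range n, q ^ j ≤ 1 / (1 - q) := by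
  have h := geom_sum_eq h1.ne n
  rw [h]
  have h2 : (q ^ n - 1) / (q - 1) = (1 - q ^ n) / (1 - q) := by
    rw [← neg_div_neg_eq]
    congr 1 <;> ring
  rw [h2]
  refine div_le_div_of_nonneg_right ?_ (by linarith)
  have := pow_nonneg h0 n
  linarith

/-- all boxes with a given `n` -/
noncomputable def lev (s e B : ℝ) (A c n : ℕ) : ℝ :=
  ∑ _k ∈ range (n + 1), ∑ _k' ∈ range (n + 1), ∑ v ∈ range (A * (n + 1) + 1),
    ∑ j ∈ range (n + c + 1), ∑ j' ∈ range (n + c + 1), box s e B n v j j'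

lemma lev_nonneg (s e B : ℝ) (A c n : ℕ) : 0 ≤ lev s e B A c n := by
  unfold lev
  refine sum_nonneg fun _ _ => sum_nonneg fun _ _ => sum_nonneg fun _ _ => sum_nonneg fun _ _ =>
    sum_nonneg fun _ _ => box_nonneg _ _ _ _ _ _ _

/-- the sum over the boxes with a given `n` -/
theorem lev_le {s e B : ℝ} (hs : 0 < s) (hs1 : s < 1 / 2) (A c : ℕ) :
    ∃ (C : ℝ) (D : ℕ), 0 < C ∧ ∀ n : ℕ,
      lev s e B A c n ≤ C * ((n : ℝ) + 1) ^ D * ((2 : ℝ) ^ (-(s / 3 - e))) ^ n := by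
  have h2 : (0 : ℝ) < 2 := by norm_num
  set q : ℝ := (2 : ℝ) ^ (-(1 / 2 - s)) with hq
  have hq0 : 0 < q := Real.rpow_pos_of_pos h2 _
  have hq1 : q < 1 := Real.rpow_lt_one_of_one_lt_of_neg (by norm_num) (by linarith)
  set Bn : ℕ := ⌈B⌉₊ with hBn
  have hBle : B ≤ Bn := Nat.le_ceil B
  have h1q : 0 < 1 - q := by linarith
  refine ⟨((A : ℝ) + 1) * ((A : ℝ) + 1) ^ Bn * ((A : ℝ) + 2) ^ 2 * (1 / (1 - q)) ^ 2,
    2 + 1 + Bn + 4, by positivity, fun n => ?_⟩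
  set r : ℝ := (2 : ℝ) ^ (-(s / 3 - e)) with hr
  have hr0 : 0 < r := Real.rpow_pos_of_pos h2 _
  set m : ℝ := (n : ℝ) + 1 with hm
  have hm1 : 1 ≤ m := by rw [hm]; have := Nat.cast_nonneg (α := ℝ) n; linarith
  have hA0 : (0 : ℝ) ≤ A := Nat.cast_nonneg A
  -- the polynomial part of one box
  have hpoly : ∀ v ∈ range (A * (n + 1) + 1),
      ((v : ℝ) + 1) ^ B * ((1 + ((v : ℝ) + 1) * ((n : ℝ) + 1)) ^ 2) ^ s ≤
        (((A : ℝ) + 1) ^ Bn * ((A : ℝ) + 2) ^ 2) * m ^ (Bn + 4) := by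
    intro v hv
    rw [mem_range] at hv
    have hv1 : (v : ℝ) ≤ A * m := by
      have : v ≤ A * (n + 1) := by omega
      rw [hm]
      exact_mod_cast this
    have hv0 : (0 : ℝ) ≤ v := Nat.cast_nonneg v
    have a1 : (v : ℝ) + 1 ≤ ((A : ℝ) + 1) * m := by nlinarith
    have a2 : ((v : ℝ) + 1) ^ B ≤ (((A : ℝ) + 1) * m) ^ Bn := by
      calc ((v : ℝ) + 1) ^ B ≤ ((v : ℝ) + 1) ^ (Bn : ℝ) :=
            Real.rpow_le_rpow_of_exponent_le (by linarith) hBle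
        _ = ((v : ℝ) + 1) ^ Bn := Real.rpow_natCast _ _
        _ ≤ _ := pow_le_pow_left₀ (by linarith) a1 _
    have a3 : 1 + ((v : ℝ) + 1) * m ≤ ((A : ℝ) + 2) * m ^ 2 := by
      have : ((v : ℝ) + 1) * m ≤ (((A : ℝ) + 1) * m) * m :=
        mul_le_mul_of_nonneg_right a1 (by linarith)
      nlinarith
    have a4 : 1 ≤ (1 + ((v : ℝ) + 1) * m) ^ 2 := by
      have : 0 ≤ ((v : ℝ) + 1) * m := by positivity
      nlinarith
    have a5 : ((1 + ((v : ℝ) + 1) * m) ^ 2) ^ s ≤ (((A : ℝ) + 2) * m ^ 2) ^ 2 := by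
      calc ((1 + ((v : ℝ) + 1) * m) ^ 2) ^ s ≤ ((1 + ((v : ℝ) + 1) * m) ^ 2) ^ (1 : ℝ) :=
            Real.rpow_le_rpow_of_exponent_le a4 (by linarith)
        _ = (1 + ((v : ℝ) + 1) * m) ^ 2 := Real.rpow_one _
        _ ≤ _ := pow_le_pow_left₀ (by positivity) a3 2
    calc ((v : ℝ) + 1) ^ B * ((1 + ((v : ℝ) + 1) * m) ^ 2) ^ s
        ≤ (((A : ℝ) + 1) * m) ^ Bn * (((A : ℝ) + 2) * m ^ 2) ^ 2 :=
          mul_le_mul a2 a5 (by positivity) (by positivity)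
      _ = _ := by
        rw [mul_pow ((A : ℝ) + 1) m Bn, pow_add m Bn 4]
        ring
  -- one `v`
  have hv : ∀ v ∈ range (A * (n + 1) + 1),
      ∑ j ∈ range (n + c + 1), ∑ j' ∈ range (n + c + 1), box s e B n v j j' ≤
        (((A : ℝ) + 1) ^ Bn * ((A : ℝ) + 2) ^ 2) * m ^ (Bn + 4) *
          (r ^ n * (1 / (1 - q)) ^ 2) := by
    intro v hv
    calc ∑ j ∈ range (n + c + 1), ∑ j' ∈ range (n + c + 1), box s e B n v j j'
        ≤ ∑ j ∈ range (n + c + 1), ∑ j' ∈ range (n + c + 1),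
            (((A : ℝ) + 1) ^ Bn * ((A : ℝ) + 2) ^ 2) * m ^ (Bn + 4) *
              (r ^ n * (q ^ j * q ^ j')) :=
          sum_le_sum fun j _ => sum_le_sum fun j' _ => (box_le hs n v j j').trans
            (mul_le_mul_of_nonneg_right (hpoly v hv) (by positivity))
      _ = (((A : ℝ) + 1) ^ Bn * ((A : ℝ) + 2) ^ 2) * m ^ (Bn + 4) *
          (r ^ n * ((∑ j ∈ range (n + c + 1), q ^ j) * ∑ j' ∈ range (n + c + 1), q ^ j')) := by
          rw [sum_mul_sum, mul_sum, mul_sum]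
          refine sum_congr rfl fun j _ => ?_
          rw [mul_sum, mul_sum]
      _ ≤ _ := by
          have g1 := geom_le hq0.le hq1 (n + c + 1)
          have g0 : 0 ≤ ∑ j ∈ range (n + c + 1), q ^ j := sum_nonneg fun _ _ => by positivity
          have g2 : (∑ j ∈ range (n + c + 1), q ^ j) * ∑ j' ∈ range (n + c + 1), q ^ j' ≤
              (1 / (1 - q)) ^ 2 := by
            rw [sq]
            exact mul_le_mul g1 g1 g0 (by positivity)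
          refine mul_le_mul_of_nonneg_left (mul_le_mul_of_nonneg_left g2 (by positivity))
            (by positivity)
  -- assembling
  unfold lev
  calc ∑ _k ∈ range (n + 1), ∑ _k' ∈ range (n + 1), ∑ v ∈ range (A * (n + 1) + 1),
        ∑ j ∈ range (n + c + 1), ∑ j' ∈ range (n + c + 1), box s e B n v j j'
      ≤ ∑ _k ∈ range (n + 1), ∑ _k' ∈ range (n + 1), ∑ _v ∈ range (A * (n + 1) + 1),
          (((A : ℝ) + 1) ^ Bn * ((A : ℝ) + 2) ^ 2) * m ^ (Bn + 4) *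
            (r ^ n * (1 / (1 - q)) ^ 2) :=
        sum_le_sum fun _ _ => sum_le_sum fun _ _ => sum_le_sum hv
    _ = (((n : ℝ) + 1) * (((n : ℝ) + 1) * ((A : ℝ) * ((n : ℝ) + 1) + 1))) *
          ((((A : ℝ) + 1) ^ Bn * ((A : ℝ) + 2) ^ 2) * m ^ (Bn + 4) *
            (r ^ n * (1 / (1 - q)) ^ 2)) := by
        simp only [sum_const, card_range, nsmul_eq_mul]
        push_cast
        ring
    _ ≤ (m * (m * (((A : ℝ) + 1) * m))) *
          ((((A : ℝ) + 1) ^ Bn * ((A : ℝ) + 2) ^ 2) * m ^ (Bn + 4) *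
            (r ^ n * (1 / (1 - q)) ^ 2)) := by
        refine mul_le_mul_of_nonneg_right ?_ (by positivity)
        have b1 : (A : ℝ) * ((n : ℝ) + 1) + 1 ≤ ((A : ℝ) + 1) * m := by
          rw [← hm]
          nlinarith
        exact mul_le_mul_of_nonneg_left (mul_le_mul_of_nonneg_left b1 (by linarith)) (by linarith)
    _ = _ := by ring

/-- `∑ (n+1)^D r^n` converges -/
lemma poly_geom {r : ℝ} (h0 : 0 ≤ r) (h1 : r < 1) (D : ℕ) :
    ∃ C : ℝ, 0 < C ∧ ∀ S : Finset ℕ, ∑ n ∈ S, ((n : ℝ) + 1) ^ D * r ^ n ≤ C := by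
  rcases eq_or_lt_of_le h0 with h | h
  · refine ⟨1, one_pos, fun S => ?_⟩
    calc ∑ n ∈ S, ((n : ℝ) + 1) ^ D * r ^ n ≤ ∑ n ∈ S, if n = 0 then (1 : ℝ) else 0 := by
          refine sum_le_sum fun n _ => ?_
          by_cases hn : n = 0
          · subst hn; simp
          · rw [← h, zero_pow hn, if_neg hn, mul_zero]
      _ ≤ 1 := by
          rw [sum_ite_eq']
          split_ifs <;> norm_num
  · have hs : Summable (fun n : ℕ => ((n : ℝ)) ^ D * r ^ n) :=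
      summable_pow_mul_geometric_of_norm_lt_one D (by
        rw [Real.norm_eq_abs, abs_of_pos h]; exact h1)
    have hs1 : Summable (fun n : ℕ => (((n + 1 : ℕ) : ℝ)) ^ D * r ^ (n + 1)) :=
      (summable_nat_add_iff 1).2 hs
    have hs2 : Summable (fun n : ℕ => ((n : ℝ) + 1) ^ D * r ^ n) := by
      refine (hs1.mul_left r⁻¹).congr fun n => ?_
      rw [pow_succ]
      push_cast
      field_simp
    refine ⟨(∑' n : ℕ, ((n : ℝ) + 1) ^ D * r ^ n) + 1, ?_, fun S => ?_⟩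
    · have : 0 ≤ ∑' n : ℕ, ((n : ℝ) + 1) ^ D * r ^ n := tsum_nonneg fun n => by positivity
      linarith
    · have := hs2.sum_le_tsum S (fun n _ => by positivity)
      linarith

/-- **tail**: all boxes with `n ∈ S`, `n ≥ n₀` -/
theorem sumL_tail {s e B : ℝ} (hs : 0 < s) (hs1 : s < 1 / 2) (he : e < s / 3) (A c : ℕ) :
    ∃ C : ℝ, 0 < C ∧ ∀ (n₀ : ℕ) (S : Finset ℕ), (∀ n ∈ S, n₀ ≤ n) →
      ∑ n ∈ S, lev s e B A c n ≤ C * (2 : ℝ) ^ (-((s / 3 - e) / 2) * (n₀ : ℝ)) := by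
  have h2 : (0 : ℝ) < 2 := by norm_num
  obtain ⟨C1, D, hC1, h⟩ := lev_le (s := s) (e := e) (B := B) hs hs1 A c
  set r : ℝ := (2 : ℝ) ^ (-((s / 3 - e) / 2)) with hr
  have hr0 : 0 < r := Real.rpow_pos_of_pos h2 _
  have hr1 : r < 1 := Real.rpow_lt_one_of_one_lt_of_neg (by norm_num) (by linarith)
  obtain ⟨C2, hC2, h'⟩ := poly_geom hr0.le hr1 D
  refine ⟨C1 * C2, by positivity, fun n₀ S hS => ?_⟩
  have e1 : (2 : ℝ) ^ (-((s / 3 - e) / 2) * (n₀ : ℝ)) = r ^ n₀ := by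
    rw [Real.rpow_mul h2.le, Real.rpow_natCast]
  have e2 : (2 : ℝ) ^ (-(s / 3 - e)) = r * r := by
    rw [hr, ← Real.rpow_add h2]
    congr 1
    ring
  rw [e1]
  calc ∑ n ∈ S, lev s e B A c n
      ≤ ∑ n ∈ S, r ^ n₀ * (C1 * (((n : ℝ) + 1) ^ D * r ^ n)) := by
        refine sum_le_sum fun n hn => (h n).trans ?_
        rw [e2, mul_pow]
        have h3 : r ^ n ≤ r ^ n₀ := pow_le_pow_of_le_one hr0.le hr1.le (hS n hn)
        calc C1 * ((n : ℝ) + 1) ^ D * (r ^ n * r ^ n) =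
              r ^ n * (C1 * (((n : ℝ) + 1) ^ D * r ^ n)) := by ring
          _ ≤ _ := mul_le_mul_of_nonneg_right h3 (by positivity)
    _ = r ^ n₀ * (C1 * ∑ n ∈ S, ((n : ℝ) + 1) ^ D * r ^ n) := by rw [← mul_sum, ← mul_sum]
    _ ≤ r ^ n₀ * (C1 * C2) := by
        refine mul_le_mul_of_nonneg_left (mul_le_mul_of_nonneg_left (h' S) hC1.le) (by positivity)
    _ = C1 * C2 * r ^ n₀ := by ring

/-- **S6-5**: the outer sums of class (L) -/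
theorem sumL {s e B : ℝ} (hs : 0 < s) (hs1 : s < 1 / 2) (he : e < s / 3) (A c : ℕ) :
    ∃ C : ℝ, 0 < C ∧ ∀ N : ℕ,
      ∑ n ∈ range N, ∑ _k ∈ range (n + 1), ∑ _k' ∈ range (n + 1),
        ∑ v ∈ range (A * (n + 1) + 1), ∑ j ∈ range (n + c + 1), ∑ j' ∈ range (n + c + 1),
        ((2 : ℝ) ^ n) ^ e * ((2 : ℝ) ^ (j + j')) ^ (-(1 : ℝ) / 2) * ((v : ℝ) + 1) ^ B *
          (min 1 ((1 + ((v : ℝ) + 1) * ((n : ℝ) + 1)) ^ 2 *
            ((2 : ℝ) ^ (j + j') * ((2 : ℝ) ^ n) ^ (-(1 : ℝ) / 3)))) ^ s ≤ C := by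
  obtain ⟨C, hC, h⟩ := sumL_tail hs hs1 he A c
  refine ⟨C, hC, fun N => ?_⟩
  have h1 := h 0 (range N) (fun _ _ => Nat.zero_le _)
  rw [Nat.cast_zero, mul_zero, Real.rpow_zero, mul_one] at h1
  exact h1

end Crest.Agent.R4C.Sum6x251
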