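import Crest.Agent.R4C.SpineDef_946
import Crest.Agent.R4C.SplitDef_945
import Crest.Agent.R4C.BoostTop_19
import Crest.Agent.R4C.B1Lev_52
import Crest.Agent.R4C.Sum6_251

/-!
# Row 4: classes with polynomial (logarithmic) losses (helper179)

Kit for the classes whose kernel has a power saving `2^{-κ t}` at the level `t`
(`CHvy`, `CTw`, `CRareA`, `CUD` of `SplitDef_945`):

* `boost_lvl` : good above `Q`, aligned primes `≤ Q`, `X1 ≤ Q` :
  `boostB ≤ C0 log Q · offW F Q b · offW F Q c` (absolute constant `C0`);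
* `card_Lnk_le`, `ratio_le` : number of linked offsets `≤ 3 (log Q)^8`;
* `lvl_sum` : set bounds for the kernels `Q t` at the levels `t` give the bound of the class;
* `clsOK_of_sets` : the same in the form `ClsOK` of `SpineDef_946`.
-/

set_option autoImplicit false

open Finset

namespace Crest.Agent.R4C.FarKitx179

open Crest.Agent.R4C.Basex935 Crest.Agent.R4C.CrCoinx935 Crest.Agent.R4C.CrCountx935
  Crest.Agent.R4C.Bridgex882 Crest.Agent.R4C.PrefixMx882 Crest.Agent.R4C.FLDefx935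
  Crest.Agent.R4C.Rulex945 Crest.Agent.R4C.Splitx945 Crest.Agent.R4C.Sharedx11
  Crest.Agent.R4C.BoostTopx19 Crest.Agent.R4C.Spinex946
open Crest.Agent.R4C.BoostCx972 (pf pf_pos one_le_pf prod_pf_pos prod_pf_mono prod_pf_le_mertens
  CM CM_pos setE prime_setE IsE)
open Crest.Agent.R4C.B1Levx52 (offW one_le_offW offW_moment weight_sets B1_le diff_of_dvd)
open Crest.Agent.R4C.FLShx326 (Shares NodeShares)

/-! ### the boost -/

variable {M : ℕ} {F : FL M} {P : Par}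

lemma setE_le (hM : 0 < M) {b c : ℕ} (hb : b ∣ M) (hc : c ∣ M) {h : ℤ} {x : ℕ}
    (hal : AlLe F P b c h x) :
    ∀ p ∈ setE (Fq F P) (M / b) (M / c) (b / Nat.gcd b c) (c / Nat.gcd b c) h, p ≤ x := by
  classical
  intro p hp
  have hpp : p.Prime := prime_setE hp
  have eMb : M / (M / b) = b := Nat.div_div_self hb hM.ne'
  have eMc : M / (M / c) = c := Nat.div_div_self hc hM.ne'
  unfold setE at hp
  rw [Finset.mem_filter] at hp
  obtain ⟨hpf, h1, h2, f, f', h3, h4, h5, h6, h7⟩ := hp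
  unfold Fq at h3 h4
  rw [eMb] at h3
  rw [eMc] at h4
  apply hal
  unfold alSet
  rw [Finset.mem_filter]
  refine ⟨?_, f, f', hpp, h1, h2, h3, h4, h5, h6, h7⟩
  have hfu : free M b ∪ free M c = ((M / b) * (M / c)).primeFactors := by
    have := free_union hM (Nat.div_dvd_of_dvd hb) (Nat.div_dvd_of_dvd hc)
    rwa [eMb, eMc] at this
  rw [hfu]
  exact hpf

/-- `Λ/Q ≤ 10` if `X1 ≤ Q` -/
lemma Lam_le {L g : ℝ} {Q : ℕ} (hX : Real.exp ((max 1 (L / g)) ^ (1 / 8 : ℝ)) ≤ Q) :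
    Lam L g / Q ≤ 10 := by
  have h1 := Lam_near (L := L) (g := g)
  have h2 : ⌊Real.exp ((max 1 (L / g)) ^ (1 / 8 : ℝ))⌋₊ ≤ Q := Nat.floor_le_of_le hX
  have h0 : 0 < ⌊Real.exp ((max 1 (L / g)) ^ (1 / 8 : ℝ))⌋₊ := by
    rw [Nat.floor_pos]
    exact Real.one_le_exp (by positivity)
  refine le_trans ?_ h1
  refine div_le_div_of_nonneg_left (Lam_nonneg L g) (by exact_mod_cast h0) (by exact_mod_cast h2)

open Classical in
/-- the low differing primes and the low common primes together: one Mertens product -/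
lemma low_prod (hM : 0 < M) {b c Q : ℕ} (hb : b ∣ M) (hc : c ∣ M) (hQ : 2 ≤ Q) :
    PureL2x232.B1 b c * BoostRx398.bst (prQ Q) M b c ≤
      CM * Real.log Q * B1Levx52.B1 Q b c := by
  have hb0 : 0 < b := Nat.pos_of_dvd_of_pos hb hM
  have hc0 : 0 < c := Nat.pos_of_dvd_of_pos hc hM
  set D : Finset ℕ := ((b / Nat.gcd b c) * (c / Nat.gcd b c)).primeFactors with hD
  have hDp : ∀ p ∈ D, p.Prime := fun p hp => Nat.prime_of_mem_primeFactors hp
  have e1 : PureL2x232.B1 b c = (∏ p ∈ D.filter (fun p => Q < p), pf p) *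
      ∏ p ∈ D.filter (fun p => ¬ Q < p), pf p :=
    (Finset.prod_filter_mul_prod_filter_not D (fun p => Q < p) pf).symm
  have e2 : B1Levx52.B1 Q b c = ∏ p ∈ D.filter (fun p => Q < p), pf p := rfl
  rw [e1, e2, bst_eq]
  set S := (prQ Q).filter (fun p => b.factorization p = c.factorization p ∧
      b.factorization p < M.factorization p) with hS
  have hdisj : Disjoint (D.filter (fun p => ¬ Q < p)) S := by
    rw [Finset.disjoint_left]
    intro p hp1 hp2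
    rw [Finset.mem_filter] at hp1
    rw [hS, Finset.mem_filter] at hp2
    have hpp := hDp p hp1.1
    exact diff_of_dvd hb0 hc0 hpp (Nat.dvd_of_mem_primeFactors hp1.1) hp2.2.1
  have h3 : (∏ p ∈ D.filter (fun p => ¬ Q < p), pf p) * ∏ p ∈ S, pf p ≤ CM * Real.log Q := by
    rw [← Finset.prod_union hdisj]
    refine prod_pf_le_mertens (by exact_mod_cast hQ) fun p hp => ?_
    rw [Finset.mem_union] at hp
    rcases hp with hp | hp
    · rw [Finset.mem_filter] at hp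
      exact ⟨hDp p hp.1, by exact_mod_cast not_lt.1 hp.2⟩
    · rw [hS, Finset.mem_filter] at hp
      have h4 := hp.1
      unfold prQ at h4
      rw [Finset.mem_filter, Finset.mem_range] at h4
      exact ⟨h4.2, by exact_mod_cast (by omega : p ≤ Q)⟩
  have h0 : 0 ≤ ∏ p ∈ D.filter (fun p => Q < p), pf p :=
    (prod_pf_pos fun p hp => hDp p (Finset.mem_filter.1 hp).1).le
  calc (∏ p ∈ D.filter (fun p => Q < p), pf p) * (∏ p ∈ D.filter (fun p => ¬ Q < p), pf p) *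
        ∏ p ∈ S, pf p
      = ((∏ p ∈ D.filter (fun p => ¬ Q < p), pf p) * ∏ p ∈ S, pf p) *
        ∏ p ∈ D.filter (fun p => Q < p), pf p := by ring
    _ ≤ _ := mul_le_mul_of_nonneg_right h3 h0

/-- the constant of `boost_lvl` -/
noncomputable def C0 : ℝ := Real.exp 1100 * CM

lemma C0_pos : 0 < C0 := mul_pos (Real.exp_pos _) CM_pos

/-- **the boost at a level** -/
theorem boost_lvl (hM : 0 < M) {b c : ℕ} (hb : b ∣ M) (hc : c ∣ M) (hL : 0 < P.L)
    (hY : ∀ i, P.Y i = 2 ^ i)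
    (hthr : ∀ b i, P.thr b i ≤ Real.exp ((P.Y (i - 1) : ℝ) ^ (4 / 5 : ℝ))) {Q : ℕ} (hQ : 2 ≤ Q)
    (hgood : F.good Q b c) {h : ℤ} (hl : h ∈ Lnk P.γ P.L b c) (hal : AlLe F P b c h Q)
    (hX : X1 P b c ≤ Q) :
    boostB M (lamR F P) b c h ≤ C0 * Real.log Q * (offW F Q b * offW F Q c) := by
  have h1 := boost_far hM hb hc hL hY hthr hQ hgood hl (setE_le hM hb hc hal)
  have h2 := Lam_le hX
  have h3 : Real.exp (100 * (1 + Lam P.L (Nat.gcd b c) / Q)) ≤ Real.exp 1100 :=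
    Real.exp_le_exp.2 (by linarith)
  have h4 := low_prod hM hb hc hQ
  have h5 := B1_le hM hb hc hgood
  have hlog : 0 ≤ Real.log Q := Real.log_nonneg (by exact_mod_cast (by omega : 1 ≤ Q))
  have h6 : PureL2x232.B1 b c * BoostRx398.bst (prQ Q) M b c ≤
      CM * Real.log Q * (offW F Q b * offW F Q c) :=
    h4.trans (mul_le_mul_of_nonneg_left h5 (mul_nonneg CM_pos.le hlog))
  have h7 : 0 ≤ CM * Real.log Q * (offW F Q b * offW F Q c) := by
    have a1 := one_le_offW (F := F) Q b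
    have a2 := one_le_offW (F := F) Q c
    have a3 := CM_pos
    positivity
  refine h1.trans ?_
  calc Real.exp (100 * (1 + Lam P.L (Nat.gcd b c) / Q)) *
        (PureL2x232.B1 b c * BoostRx398.bst (prQ Q) M b c)
      ≤ Real.exp (100 * (1 + Lam P.L (Nat.gcd b c) / Q)) *
        (CM * Real.log Q * (offW F Q b * offW F Q c)) :=
        mul_le_mul_of_nonneg_left h6 (Real.exp_pos _).le
    _ ≤ Real.exp 1100 * (CM * Real.log Q * (offW F Q b * offW F Q c)) :=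
        mul_le_mul_of_nonneg_right h3 h7
    _ = _ := by unfold C0; ring

/-! ### number of offsets -/

lemma card_Lnk_le {γ L : ℝ} (hL : 0 ≤ L) (b c : ℕ) :
    ((Lnk γ L b c).card : ℝ) ≤ 2 * (L / (Nat.gcd b c : ℕ)) + 1 := by
  unfold Lnk
  exact card_Hf (by positivity) _ _

/-- `X1 ≤ Q` bounds `L/g` by `(log Q)^8` -/
lemma ratio_le {L g : ℝ} {Q : ℕ} (hX : Real.exp ((max 1 (L / g)) ^ (1 / 8 : ℝ)) ≤ Q) :
    max 1 (L / g) ≤ Real.log Q ^ 8 := by
  set x := max 1 (L / g) with hx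
  have x1 : 1 ≤ x := le_max_left _ _
  have hQ0 : (0 : ℝ) < Q := (Real.exp_pos _).trans_le hX
  have h1 : x ^ (1 / 8 : ℝ) ≤ Real.log Q := (Real.le_log_iff_exp_le hQ0).2 hX
  have h2 : x = (x ^ (1 / 8 : ℝ)) ^ 8 := by
    rw [← Real.rpow_natCast, ← Real.rpow_mul (by linarith)]
    norm_num
  rw [h2]
  exact pow_le_pow_left₀ (by positivity) h1 8

/-- number of linked offsets at a level -/
lemma card_lvl (hL : 0 ≤ P.L) {b c Q : ℕ} (hX : X1 P b c ≤ Q) :
    ((Lnk P.γ P.L b c).card : ℝ) ≤ 3 * Real.log Q ^ 8 := by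
  have h1 := card_Lnk_le (γ := P.γ) hL b c
  have h2 := ratio_le hX
  have h3 : (1 : ℝ) ≤ max 1 (P.L / (Nat.gcd b c : ℕ)) := le_max_left _ _
  have h4 : P.L / (Nat.gcd b c : ℕ) ≤ max 1 (P.L / (Nat.gcd b c : ℕ)) := le_max_right _ _
  linarith

/-! ### the level sum -/

open Classical in
/-- the kernel of a pair predicate -/
noncomputable def ker (M : ℕ) (Q : ℕ → ℕ → Prop) (b c : ℕ) : ℝ :=
  if Q b c then (Nat.gcd b c : ℝ) * nu M b * nu M c else 0

lemma ker_nonneg (M : ℕ) (Q : ℕ → ℕ → Prop) (b c : ℕ) : 0 ≤ ker M Q b c := by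
  unfold ker
  split_ifs
  · exact mul_nonneg (mul_nonneg (Nat.cast_nonneg _) (nu_nonneg _ _)) (nu_nonneg _ _)
  · exact le_rfl

lemma ker_mono {Q Q' : ℕ → ℕ → Prop} {b c : ℕ} (h : Q b c → Q' b c) :
    ker M Q b c ≤ ker M Q' b c := by
  unfold ker
  by_cases h1 : Q b c
  · rw [if_pos h1, if_pos (h h1)]
  · rw [if_neg h1]
    split_ifs
    · exact mul_nonneg (mul_nonneg (Nat.cast_nonneg _) (nu_nonneg _ _)) (nu_nonneg _ _)
    · exact le_rfl

/-- the level conditions -/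
structure Lvl (F : FL M) (P : Par) (Q b c : ℕ) (h : ℤ) : Prop where
  good : F.good Q b c
  al : AlLe F P b c h Q
  near : X1 P b c ≤ Q

open Classical in
/-- **one level** -/
theorem lvl_one {C A s : ℝ} (hC : 0 ≤ C) (hmom : ∀ (M : ℕ) (F : FL M) (B : Finset ℕ) (A s : ℝ),
      Shares F B A s → 0 ≤ A → 3 / 4 ≤ s → ∀ X : ℕ,
      ∑ b ∈ B, nu M b * offW F X b ^ 4 ≤ (1 + C * A) * ∑ b ∈ B, nu M b)
    (hM : 0 < M) (hL : 0 < P.L) (hY : ∀ i, P.Y i = 2 ^ i)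
    (hthr : ∀ b i, P.thr b i ≤ Real.exp ((P.Y (i - 1) : ℝ) ^ (4 / 5 : ℝ)))
    {B : Finset ℕ} (hB : B ⊆ M.divisors) (hS : Shares F B A s) (hA : 0 ≤ A) (hs : 3 / 4 ≤ s)
    {Q : ℕ} (hQ : 2 ≤ Q) {E : ℝ} (hE : 0 ≤ E) (R : ℕ → ℕ → ℤ → Prop) (q : ℕ → ℕ → Prop)
    (hR : ∀ b ∈ B, ∀ c ∈ B, b ≠ c → ∀ h ∈ Lnk P.γ P.L b c, ¬ killedB (lamR F P) b c h →
      R b c h → q b c ∧ Lvl F P Q b c h)
    (hset : ∀ S S' : Finset ℕ, S ⊆ B → S' ⊆ B → P.L * ∑ b ∈ S, ∑ c ∈ S', ker M q b c ≤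
      E * √((P.L * ∑ b ∈ S, nu M b) * (P.L * ∑ c ∈ S', nu M c))) :
    EnR P.γ P.L M B (lamR F P) R ≤
      (48 * C0 * (1 + C * A)) * (E * Real.log Q ^ 9) * (P.L * ∑ b ∈ B, nu M b) := by
  have hlog : 0 ≤ Real.log Q := Real.log_nonneg (by exact_mod_cast (by omega : 1 ≤ Q))
  have hC0 := C0_pos
  have hm0 : 0 ≤ ∑ b ∈ B, nu M b := Finset.sum_nonneg fun b _ => nu_nonneg M b
  -- pointwise
  have hpt : ∀ b ∈ B, ∀ c ∈ B.erase b, (Nat.gcd b c : ℝ) * nu M b * nu M c *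
      ∑ h ∈ (Lnk P.γ P.L b c).filter (fun h => ¬ killedB (lamR F P) b c h ∧ R b c h),
        boostB M (lamR F P) b c h ≤
      (3 * C0 * Real.log Q ^ 9) * (ker M q b c * (offW F Q b * offW F Q c)) := by
    intro b hb c hc
    have hcB := Finset.mem_of_mem_erase hc
    have hne : b ≠ c := fun h => (Finset.ne_of_mem_erase hc) h.symm
    have hbM := Nat.dvd_of_mem_divisors (hB hb)
    have hcM := Nat.dvd_of_mem_divisors (hB hcB)
    have hw : 0 ≤ offW F Q b * offW F Q c := by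
      have a1 := one_le_offW (F := F) Q b
      have a2 := one_le_offW (F := F) Q c
      positivity
    have hk := ker_nonneg M q b c
    set T := (Lnk P.γ P.L b c).filter (fun h => ¬ killedB (lamR F P) b c h ∧ R b c h) with hT
    rcases T.eq_empty_or_nonempty with h0 | ⟨h0, hh0⟩
    · rw [h0, Finset.sum_empty, mul_zero]
      positivity
    have hmem : ∀ h ∈ T, h ∈ Lnk P.γ P.L b c ∧ q b c ∧ Lvl F P Q b c h := by
      intro h hh
      rw [hT, Finset.mem_filter] at hh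
      exact ⟨hh.1, hR b hb c hcB hne h hh.1 hh.2.1 hh.2.2⟩
    have hq : q b c := (hmem h0 hh0).2.1
    have hker : ker M q b c = (Nat.gcd b c : ℝ) * nu M b * nu M c := if_pos hq
    have hbound : ∀ h ∈ T, boostB M (lamR F P) b c h ≤
        C0 * Real.log Q * (offW F Q b * offW F Q c) := fun h hh =>
      boost_lvl hM hbM hcM hL hY hthr hQ (hmem h hh).2.2.good (hmem h hh).1 (hmem h hh).2.2.al
        (hmem h hh).2.2.near
    have hcard : (T.card : ℝ) ≤ 3 * Real.log Q ^ 8 := by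
      refine le_trans ?_ (card_lvl (P := P) hL.le (hmem h0 hh0).2.2.near)
      exact_mod_cast Finset.card_le_card (Finset.filter_subset _ _)
    have h1 := Finset.sum_le_card_nsmul T _ _ hbound
    rw [nsmul_eq_mul] at h1
    rw [hker] at hk ⊢
    calc (Nat.gcd b c : ℝ) * nu M b * nu M c * ∑ h ∈ T, boostB M (lamR F P) b c h
        ≤ (Nat.gcd b c : ℝ) * nu M b * nu M c *
          ((T.card : ℝ) * (C0 * Real.log Q * (offW F Q b * offW F Q c))) :=
          mul_le_mul_of_nonneg_left h1 hk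
      _ ≤ (Nat.gcd b c : ℝ) * nu M b * nu M c *
          ((3 * Real.log Q ^ 8) * (C0 * Real.log Q * (offW F Q b * offW F Q c))) := by
          refine mul_le_mul_of_nonneg_left (mul_le_mul_of_nonneg_right hcard ?_) hk
          positivity
      _ = _ := by ring
  -- the weighted set bound
  have hEL : 0 ≤ E := hE
  have hset' : ∀ S S' : Finset ℕ, S ⊆ B → S' ⊆ B → ∑ b ∈ S, ∑ c ∈ S', ker M q b c ≤
      E * √((∑ b ∈ S, nu M b) * ∑ c ∈ S', nu M c) := by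
    intro S S' h1 h2
    have h3 := hset S S' h1 h2
    have e1 : (P.L * ∑ b ∈ S, nu M b) * (P.L * ∑ c ∈ S', nu M c) =
        P.L ^ 2 * ((∑ b ∈ S, nu M b) * ∑ c ∈ S', nu M c) := by ring
    rw [e1, Real.sqrt_mul (by positivity), Real.sqrt_sq hL.le] at h3
    have e2 : E * (P.L * √((∑ b ∈ S, nu M b) * ∑ c ∈ S', nu M c)) =
        P.L * (E * √((∑ b ∈ S, nu M b) * ∑ c ∈ S', nu M c)) := by ring
    rw [e2] at h3
    exact le_of_mul_le_mul_left h3 hL
  have hCA : 0 ≤ 1 + C * A := by positivity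
  have h2 := weight_sets (B := B) (B' := B) (ν := nu M) (w := offW F Q) (w' := offW F Q)
    (K := ker M q) (E := E) (C1 := 1 + C * A) (nu_nonneg M) (fun b _ c _ => ker_nonneg M q b c)
    hE hCA hset' (fun b _ => one_le_offW Q b) (fun b _ => one_le_offW Q b)
    (hmom M F B A s hS hA hs Q) (hmom M F B A s hS hA hs Q)
  rw [Real.sqrt_mul_self hm0] at h2
  unfold EnR
  have h3 : ∑ b ∈ B, ∑ c ∈ B.erase b, (Nat.gcd b c : ℝ) * nu M b * nu M c *
      ∑ h ∈ (Lnk P.γ P.L b c).filter (fun h => ¬ killedB (lamR F P) b c h ∧ R b c h),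
        boostB M (lamR F P) b c h ≤
      (3 * C0 * Real.log Q ^ 9) *
        ∑ b ∈ B, ∑ c ∈ B, ker M q b c * (offW F Q b * offW F Q c) := by
    rw [Finset.mul_sum]
    refine Finset.sum_le_sum fun b hb => ?_
    rw [Finset.mul_sum]
    refine (Finset.sum_le_sum fun c hc => hpt b hb c hc).trans ?_
    refine Finset.sum_le_sum_of_subset_of_nonneg (Finset.erase_subset _ _) fun c _ _ => ?_
    have a1 := one_le_offW (F := F) Q b
    have a2 := one_le_offW (F := F) Q c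
    have a3 := ker_nonneg M q b c
    positivity
  calc P.L * ∑ b ∈ B, ∑ c ∈ B.erase b, (Nat.gcd b c : ℝ) * nu M b * nu M c *
        ∑ h ∈ (Lnk P.γ P.L b c).filter (fun h => ¬ killedB (lamR F P) b c h ∧ R b c h),
          boostB M (lamR F P) b c h
      ≤ P.L * ((3 * C0 * Real.log Q ^ 9) * (16 * (1 + C * A) * E * ∑ b ∈ B, nu M b)) :=
        mul_le_mul_of_nonneg_left (h3.trans (mul_le_mul_of_nonneg_left h2 (by positivity))) hL.le
    _ = _ := by ring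

/-! ### sums of levels -/

open Classical in
/-- energy of a union of classes -/
lemma EnR_le_sum {γ L : ℝ} (hL : 0 ≤ L) {M : ℕ} {B : Finset ℕ} {lam : ℕ → ℕ → Option ℤ}
    {R : ℕ → ℕ → ℤ → Prop} {R' : ℕ → ℕ → ℕ → ℤ → Prop} (T : Finset ℕ)
    (H : ∀ b ∈ B, ∀ c ∈ B, b ≠ c → ∀ h ∈ Lnk γ L b c, ¬ killedB lam b c h → R b c h →
      ∃ t ∈ T, R' t b c h) :
    EnR γ L M B lam R ≤ ∑ t ∈ T, EnR γ L M B lam (R' t) := by
  unfold EnR
  rw [← Finset.mul_sum]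
  refine mul_le_mul_of_nonneg_left ?_ hL
  rw [Finset.sum_comm]
  refine Finset.sum_le_sum fun b hb => ?_
  rw [Finset.sum_comm]
  refine Finset.sum_le_sum fun c hc => ?_
  have hcB := Finset.mem_of_mem_erase hc
  have hne : b ≠ c := fun h => (Finset.ne_of_mem_erase hc) h.symm
  rw [← Finset.mul_sum]
  refine mul_le_mul_of_nonneg_left ?_
    (mul_nonneg (mul_nonneg (Nat.cast_nonneg _) (nu_nonneg _ _)) (nu_nonneg _ _))
  simp only [Finset.sum_filter]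
  rw [Finset.sum_comm]
  refine Finset.sum_le_sum fun h hh => ?_
  have h0 : ∀ t ∈ T, 0 ≤ (if ¬ killedB lam b c h ∧ R' t b c h then boostB M lam b c h else 0) := by
    intro t _
    split_ifs
    · exact boostB_nonneg _ _ _ _ _
    · exact le_rfl
  split_ifs with h1
  · obtain ⟨t, ht, h2⟩ := H b hb c hcB hne h hh h1.1 h1.2
    have h3 := Finset.single_le_sum h0 ht
    rwa [if_pos ⟨h1.1, h2⟩] at h3
  · exact Finset.sum_nonneg h0

open Classical in
/-- finitely many levels suffice -/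
lemma EnR_le_levels {γ L : ℝ} (hL : 0 ≤ L) {M : ℕ} {B : Finset ℕ} {lam : ℕ → ℕ → Option ℤ}
    {R : ℕ → ℕ → ℤ → Prop} {R' : ℕ → ℕ → ℕ → ℤ → Prop} (m0 : ℕ)
    (H : ∀ b ∈ B, ∀ c ∈ B, b ≠ c → ∀ h ∈ Lnk γ L b c, ¬ killedB lam b c h → R b c h →
      ∃ t, m0 ≤ t ∧ R' t b c h) :
    ∃ T : Finset ℕ, (∀ t ∈ T, m0 ≤ t) ∧
      EnR γ L M B lam R ≤ ∑ t ∈ T, EnR γ L M B lam (R' t) := by
  set τ : ℕ → ℕ → ℤ → ℕ := fun b c h => if hx : ∃ t, m0 ≤ t ∧ R' t b c h then hx.choose else m0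
    with hτ
  have hτ0 : ∀ b c h, m0 ≤ τ b c h := by
    intro b c h
    rw [hτ]
    simp only
    split_ifs with hx
    · exact hx.choose_spec.1
    · exact le_rfl
  have hτ1 : ∀ b c h, (∃ t, m0 ≤ t ∧ R' t b c h) → R' (τ b c h) b c h := by
    intro b c h hx
    rw [hτ]
    simp only
    rw [dif_pos hx]
    exact hx.choose_spec.2
  refine ⟨B.biUnion fun b => B.biUnion fun c => (Lnk γ L b c).image (τ b c), ?_, ?_⟩
  · intro t ht
    simp only [Finset.mem_biUnion, Finset.mem_image] at ht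
    obtain ⟨b, _, c, _, h, _, rfl⟩ := ht
    exact hτ0 b c h
  · refine EnR_le_sum hL _ fun b hb c hc hne h hh hk hR => ⟨τ b c h, ?_, hτ1 b c h
      (H b hb c hc hne h hh hk hR)⟩
    simp only [Finset.mem_biUnion, Finset.mem_image]
    exact ⟨b, hb, c, hc, h, hh, rfl⟩

open Classical in
/-- monotonicity -/
lemma EnR_mono {γ L : ℝ} (hL : 0 ≤ L) {M : ℕ} {B : Finset ℕ} {lam : ℕ → ℕ → Option ℤ}
    {R R' : ℕ → ℕ → ℤ → Prop}
    (H : ∀ b ∈ B, ∀ c ∈ B, b ≠ c → ∀ h ∈ Lnk γ L b c, ¬ killedB lam b c h → R b c h →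
      R' b c h) : EnR γ L M B lam R ≤ EnR γ L M B lam R' := by
  have := EnR_le_sum (M := M) hL (R' := fun _ => R') {0} fun b hb c hc hne h hh hk hR =>
    ⟨0, Finset.mem_singleton_self 0, H b hb c hc hne h hh hk hR⟩
  simpa using this

/-- **all levels**: set bounds `E t` of the kernels `q t` give the bound of the class -/
theorem lvl_sum : ∃ C1 : ℝ, 0 ≤ C1 ∧ ∀ (M : ℕ) (F : FL M) (P : Par) (A s : ℝ) (B : Finset ℕ),
    0 < M → 0 < P.L → (∀ i, P.Y i = 2 ^ i) →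
    (∀ b i, P.thr b i ≤ Real.exp ((P.Y (i - 1) : ℝ) ^ (4 / 5 : ℝ))) → B ⊆ M.divisors →
    Shares F B A s → 0 ≤ A → 3 / 4 ≤ s → ∀ (R : ℕ → ℕ → ℤ → Prop) (q : ℕ → ℕ → ℕ → Prop)
      (Q : ℕ → ℕ) (E : ℕ → ℝ) (m0 : ℕ), (∀ t, 2 ≤ Q t) → (∀ t, 0 ≤ E t) →
    (∀ b ∈ B, ∀ c ∈ B, b ≠ c → ∀ h ∈ Lnk P.γ P.L b c, ¬ killedB (lamR F P) b c h →
      R b c h → ∃ t, m0 ≤ t ∧ q t b c ∧ Lvl F P (Q t) b c h) →
    (∀ t, m0 ≤ t → ∀ S S' : Finset ℕ, S ⊆ B → S' ⊆ B →
      P.L * ∑ b ∈ S, ∑ c ∈ S', ker M (q t) b c ≤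
        E t * √((P.L * ∑ b ∈ S, nu M b) * (P.L * ∑ c ∈ S', nu M c))) →
    ∃ T : Finset ℕ, (∀ t ∈ T, m0 ≤ t) ∧ EnR P.γ P.L M B (lamR F P) R ≤
      C1 * (1 + A) * (∑ t ∈ T, E t * Real.log (Q t) ^ 9) * (P.L * ∑ b ∈ B, nu M b) := by
  obtain ⟨C, hC, hmom⟩ := offW_moment
  have hC0 := C0_pos
  refine ⟨48 * C0 * (1 + C), by positivity, ?_⟩
  intro M F P A s B hM hL hY hthr hB hS hA hs R q Q E m0 hQ hE hR hset
  obtain ⟨T, hT, h1⟩ := EnR_le_levels (M := M) (R' := fun t b c h => q t b c ∧ Lvl F P (Q t) b c h)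
    hL.le m0 hR
  refine ⟨T, hT, h1.trans ?_⟩
  have hm0 : 0 ≤ P.L * ∑ b ∈ B, nu M b :=
    mul_nonneg hL.le (Finset.sum_nonneg fun b _ => nu_nonneg M b)
  rw [Finset.mul_sum, Finset.sum_mul]
  refine Finset.sum_le_sum fun t ht => ?_
  have h2 := lvl_one (P := P) hC hmom hM hL hY hthr hB hS hA hs (hQ t) (hE t)
    (fun b c h => q t b c ∧ Lvl F P (Q t) b c h) (q t) (fun b _ c _ _ h _ _ h3 => h3)
    (hset t (hT t ht))
  have hlog : 0 ≤ Real.log (Q t) :=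
    Real.log_nonneg (by exact_mod_cast (by have := hQ t; omega : 1 ≤ Q t))
  have h3 : 1 + C * A ≤ (1 + C) * (1 + A) := by nlinarith
  have h4 : 0 ≤ E t * Real.log (Q t) ^ 9 := mul_nonneg (hE t) (by positivity)
  refine h2.trans ?_
  refine mul_le_mul_of_nonneg_right ?_ hm0
  refine mul_le_mul_of_nonneg_right ?_ h4
  calc 48 * C0 * (1 + C * A) ≤ 48 * C0 * ((1 + C) * (1 + A)) :=
        mul_le_mul_of_nonneg_left h3 (by positivity)
    _ = _ := by ring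

/-- **`ClsOK` from set bounds with a power saving** -/
theorem clsOK_of_sets {γ : ℝ} {R : Cls} (H : Ev fun cp η A m0 =>
    ∃ κ : ℝ, 0 < κ ∧ ∃ C' : ℝ, 0 ≤ C' ∧ ∃ D : ℕ, ∀ (L : ℝ) (M : ℕ) (B : Finset ℕ) (F : FL M),
      Setup η L M B F → ∃ q : ℕ → ℕ → ℕ → Prop,
      (∀ b ∈ B, ∀ c ∈ B, b ≠ c → ∀ h ∈ Lnk γ L b c,
        ¬ killedB (lamOf cp A m0 γ L M B F) b c h → R cp η A m0 L M B F b c h →
        ∃ t, m0 ≤ t ∧ q t b c ∧ Lvl F (ParOf cp A m0 γ L M B) (2 ^ (A * (2 * t + 1))) b c h) ∧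
      (∀ t, m0 ≤ t → ∀ S S' : Finset ℕ, S ⊆ B → S' ⊆ B →
        L * ∑ b ∈ S, ∑ c ∈ S', ker M (q t) b c ≤
          C' * ((t : ℝ) + 1) ^ D * (2 : ℝ) ^ (-(κ * t)) *
            √((L * ∑ b ∈ S, nu M b) * (L * ∑ c ∈ S', nu M c)))) : ClsOK γ R := by
  obtain ⟨C1, hC1, hsum⟩ := lvl_sum
  refine (H.and Ev.basic).mono ?_
  rintro cp η A m0 ⟨⟨κ, hκ, C', hC', D, H⟩, hcp, _, hη, _, hη1, hA, hm0⟩
  -- the geometric series
  set r : ℝ := (2 : ℝ) ^ (-κ) with hr
  have hr0 : 0 < r := by positivity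
  have hr1 : r < 1 := Real.rpow_lt_one_of_one_lt_of_neg (by norm_num) (by linarith)
  obtain ⟨C2, hC2, hgeo⟩ := Sum6x251.poly_geom hr0.le hr1 (D + 9)
  obtain ⟨htree, _⟩ := tree_spec hη hη1
  refine ⟨C1 * (1 + sA η) * (C' * (2 * A) ^ 9 * C2), ?_⟩
  intro L M B F hS
  obtain ⟨q, hq1, hq2⟩ := H L M B F hS
  set P := ParOf cp A m0 γ L M B with hP
  have eL : P.L = L := rfl
  have eγ : P.γ = γ := rfl
  have hAR : (1 : ℝ) ≤ A := by exact_mod_cast hA
  have hsA := htree.A_pos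
  obtain ⟨T, hT, h1⟩ := hsum M F P (sA η) (sE η) B hS.hM hS.hL (fun i => rfl)
    (fun b i => min_le_right _ _) hS.hB hS.shares htree.A_pos.le htree.s_gt.le
    (R cp η A m0 L M B F) q (fun t => 2 ^ (A * (2 * t + 1)))
    (fun t => C' * ((t : ℝ) + 1) ^ D * (2 : ℝ) ^ (-(κ * t))) m0
    (fun t => by
      have h2 : 1 ≤ A * (2 * t + 1) := Nat.one_le_iff_ne_zero.2 (by
        have : A ≠ 0 := by omega
        positivity)
      calc 2 = 2 ^ 1 := by norm_num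
        _ ≤ 2 ^ (A * (2 * t + 1)) := Nat.pow_le_pow_right (by norm_num) h2)
    (fun t => by positivity) hq1 hq2
  have h2 : ∑ t ∈ T, (C' * ((t : ℝ) + 1) ^ D * (2 : ℝ) ^ (-(κ * t))) *
      Real.log ((2 ^ (A * (2 * t + 1)) : ℕ) : ℝ) ^ 9 ≤ C' * (2 * A) ^ 9 * C2 := by
    refine le_trans (Finset.sum_le_sum (g := fun t : ℕ => C' * (2 * A) ^ 9 *
      (((t : ℝ) + 1) ^ (D + 9) * r ^ t)) fun t _ => ?_) ?_
    · have hlog : Real.log ((2 ^ (A * (2 * t + 1)) : ℕ) : ℝ) ≤ 2 * A * ((t : ℝ) + 1) := by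
        rw [Nat.cast_pow, Nat.cast_ofNat, Real.log_pow]
        push_cast
        have h3 : Real.log 2 ≤ 1 := by
          have := Real.log_two_lt_d9
          linarith
        have h4 : (0 : ℝ) ≤ t := Nat.cast_nonneg t
        have h5 : 0 ≤ (A : ℝ) * (2 * t + 1) := by positivity
        calc (A : ℝ) * (2 * t + 1) * Real.log 2 ≤ A * (2 * t + 1) * 1 :=
              mul_le_mul_of_nonneg_left h3 h5
          _ ≤ 2 * A * ((t : ℝ) + 1) := by nlinarith
      have hlog0 : 0 ≤ Real.log ((2 ^ (A * (2 * t + 1)) : ℕ) : ℝ) :=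
        Real.log_nonneg (by exact_mod_cast Nat.one_le_two_pow)
      have h9 := pow_le_pow_left₀ hlog0 hlog 9
      have er : (2 : ℝ) ^ (-(κ * t)) = r ^ t := by
        rw [hr, ← Real.rpow_natCast, ← Real.rpow_mul (by norm_num)]
        congr 1
        ring
      rw [er]
      calc C' * ((t : ℝ) + 1) ^ D * r ^ t * Real.log ((2 ^ (A * (2 * t + 1)) : ℕ) : ℝ) ^ 9
          ≤ C' * ((t : ℝ) + 1) ^ D * r ^ t * (2 * A * ((t : ℝ) + 1)) ^ 9 :=
            mul_le_mul_of_nonneg_left h9 (by positivity)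
        _ = _ := by rw [pow_add, mul_pow]; ring
    · rw [← Finset.mul_sum]
      exact mul_le_mul_of_nonneg_left (hgeo T) (by positivity)
  have h3 : 0 ≤ C1 * (1 + sA η) := by positivity
  have h4 := hS.mass
  have h5 := hS.mass_nonneg
  have h6 : 0 ≤ C' * (2 * A) ^ 9 * C2 := by positivity
  rw [eγ, eL] at h1
  refine h1.trans ?_
  calc C1 * (1 + sA η) * (∑ t ∈ T, (C' * ((t : ℝ) + 1) ^ D * (2 : ℝ) ^ (-(κ * t))) *
        Real.log ((2 ^ (A * (2 * t + 1)) : ℕ) : ℝ) ^ 9) * (L * ∑ b ∈ B, nu M b)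
      ≤ C1 * (1 + sA η) * (C' * (2 * A) ^ 9 * C2) * (L * ∑ b ∈ B, nu M b) :=
        mul_le_mul_of_nonneg_right (mul_le_mul_of_nonneg_left h2 h3) h5
    _ ≤ C1 * (1 + sA η) * (C' * (2 * A) ^ 9 * C2) * 1 :=
        mul_le_mul_of_nonneg_left h4 (mul_nonneg h3 h6)
    _ = _ := mul_one _

end Crest.Agent.R4C.FarKitx179
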