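import Crest.Agent.R4C.ExcRow_634
import Crest.Agent.R4C.FarKit_179

/-!
# Row 4, GW section: THE HEAVY MEMBERS (V4), as a class of its own (helper634)

* `uu_cm_le` : `uu x b · ν(Cell) ≤ 1`.
* `row_bound` : row bound of the pure pairs with short low words, one member in an event `𝓔`.
* **`cls_exc`** : `ClsOK γ (clsExc γ)` : pure pairs of case A, `u v ≤ (i+1)^8`, with a heavy member.
* `thr_of_ncR`, `coin_of_ncR` : the dictionary with the size factor.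
-/

set_option autoImplicit false

open Finset

namespace Crest.Agent.R4C.ClsExcx634

open Crest.Agent.R4C.Basex935 Crest.Agent.R4C.Cutx50 Crest.Agent.R4C.Lawx69
  Crest.Agent.R4C.FLDefx935 Crest.Agent.R4C.FLShx326 Crest.Agent.R4C.NodeMassx634
  Crest.Agent.R4C.Rulex945 Crest.Agent.R4C.PureClsx863 Crest.Agent.R4C.NodeMassRx634
  Crest.Agent.R4C.Spinex946 Crest.Agent.R4C.F5dx634 Crest.Agent.R4C.ExcRowx634
  Crest.Agent.R4C.FarKitx179 Crest.Agent.R4C.Splitx945 Crest.Agent.R4C.CrCoinx935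
  Crest.Agent.R4C.Bridgex882 Crest.Agent.R4C.CrCountx935
open Crest.Agent.R4C.FLExx326 (ind ind_nonneg)

/-! ### row bound -/

/-- the elements of a cell are multiples of `uu` -/
lemma uu_cm_le {M : ℕ} (hM : 0 < M) {F : FL M} {x b : ℕ} (hb : b ∣ M) (hell : F.ell x b = 1) :
    (F.uu x b : ℝ) * cm F x b ≤ 1 := by
  classical
  have h1 : cm F x b ≤ 1 / (F.uu x b : ℝ) := by
    refine le_trans ?_ (prob_dvd_le hM (F.uu x b))
    unfold cm
    refine Finset.sum_le_sum_of_subset_of_nonneg ?_ fun _ _ _ => nu_nonneg _ _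
    intro c hc
    have hcM : c ∣ M := (mem_Cell.1 hc).1.1
    rw [Finset.mem_filter, Nat.mem_divisors]
    refine ⟨⟨hcM, hM.ne'⟩, ?_⟩
    rw [← uu_cell hM hb hell hc]
    exact FL.uu_dvd hM hcM
  have h2 : (0 : ℝ) < F.uu x b := by exact_mod_cast FL.uu_pos x b
  calc (F.uu x b : ℝ) * cm F x b ≤ (F.uu x b : ℝ) * (1 / (F.uu x b : ℝ)) :=
        mul_le_mul_of_nonneg_left h1 h2.le
    _ = 1 := by field_simp

lemma low_gcd {x b c : ℕ} (hb : b ≠ 0) (hc : c ≠ 0) :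
    low x (Nat.gcd b c) = Nat.gcd (low x b) (low x c) := by
  have hg : Nat.gcd b c ≠ 0 := Nat.gcd_ne_zero_left hb
  refine Nat.eq_of_factorization_eq (low_pos _ _).ne' (Nat.gcd_ne_zero_left (low_pos x b).ne')
    fun p => ?_
  rw [Nat.factorization_gcd (low_pos x b).ne' (low_pos x c).ne', fact_low,
    Nat.factorization_gcd hb hc]
  simp only [Finsupp.inf_apply, fact_low]
  split_ifs <;> simp

lemma low_mul_div {x b g : ℕ} (hb : b ≠ 0) (hg : g ∣ b) : low x g * low x (b / g) = low x b := by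
  have hg0 : g ≠ 0 := fun h => hb (Nat.eq_zero_of_zero_dvd (h ▸ hg))
  obtain ⟨d, rfl⟩ := hg
  have hd : d ≠ 0 := fun h => hb (by rw [h, mul_zero])
  rw [Nat.mul_div_cancel_left _ (Nat.pos_of_ne_zero hg0)]
  refine Nat.eq_of_factorization_eq (mul_ne_zero (low_pos _ _).ne' (low_pos _ _).ne')
    (low_pos _ _).ne' fun p => ?_
  rw [Nat.factorization_mul (low_pos _ _).ne' (low_pos _ _).ne', Finsupp.add_apply, fact_low,
    fact_low, fact_low, Nat.factorization_mul hg0 hd, Finsupp.add_apply]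
  split_ifs <;> rfl

/-- pure good pair with short low words and own scale `< T` -/
structure PR {M : ℕ} (F : FL M) (x R0 : ℕ) (T : ℝ) (b c : ℕ) : Prop where
  good : F.good x b c
  pb : F.ell x b = 1
  pc : F.ell x c = 1
  wb : low x (b / Nat.gcd b c) ≤ R0
  wc : low x (c / Nat.gcd b c) ≤ R0
  hi : (Nat.gcd b c : ℝ) ≤ T

lemma PR.symm {M : ℕ} {F : FL M} {x R0 : ℕ} {T : ℝ} {b c : ℕ} (hb : b ∣ M) (hc : c ∣ M)
    (h : PR F x R0 T b c) : PR F x R0 T c b := by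
  have hg : Nat.gcd c b = Nat.gcd b c := Nat.gcd_comm c b
  exact ⟨FL.good_symm hb hc h.good, h.pc, h.pb, by rw [hg]; exact h.wc, by rw [hg]; exact h.wb,
    by rw [hg]; exact h.hi⟩

/-- the gcd and `uu` of a pure pair -/
lemma PR.gcd_eq {M : ℕ} {F : FL M} {x R0 : ℕ} {T : ℝ} {b c : ℕ} (hM : 0 < M) (hb : b ∣ M)
    (hc : c ∣ M) (h : PR F x R0 T b c) :
    Nat.gcd b c = Nat.gcd (low x b) (low x c) * F.cen x b := by
  have h1 := FL.good_gcd hM hb hc h.good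
  rwa [h.pb, h.pc, mul_one, mul_one] at h1

lemma PR.uu_eq {M : ℕ} {F : FL M} {x R0 : ℕ} {T : ℝ} {b c : ℕ} (hM : 0 < M) (hb : b ∣ M)
    (hc : c ∣ M) (h : PR F x R0 T b c) :
    F.uu x b = Nat.gcd b c * low x (b / Nat.gcd b c) := by
  have hb0 : b ≠ 0 := (Nat.pos_of_dvd_of_pos hb hM).ne'
  have hc0 : c ≠ 0 := (Nat.pos_of_dvd_of_pos hc hM).ne'
  have h1 := low_mul_div (x := x) hb0 (Nat.gcd_dvd_left b c)
  rw [low_gcd hb0 hc0] at h1
  have h2 := h.gcd_eq hM hb hc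
  rw [uu_self hM hb h.pb]
  calc low x b * F.cen x b = (Nat.gcd (low x b) (low x c) * low x (b / Nat.gcd b c)) *
        F.cen x b := by rw [h1]
    _ = (Nat.gcd (low x b) (low x c) * F.cen x b) * low x (b / Nat.gcd b c) := by ring
    _ = _ := by rw [← h2]

open Classical in
/-- sum over the divisors with the property `Q` -/
noncomputable def rs (M : ℕ) (Q : ℕ → Prop) (g : ℕ → ℝ) : ℝ := ∑ b ∈ M.divisors.filter Q, g b

open Classical in
/-- mass of the event `Q` in a cell -/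
noncomputable def cs {M : ℕ} (F : FL M) (x b : ℕ) (Q : ℕ → Prop) : ℝ :=
  ∑ d ∈ (Cell F x b).filter Q, nu M d

lemma rs_eq (M : ℕ) (Q : ℕ → Prop) [DecidablePred Q] (g : ℕ → ℝ) :
    rs M Q g = ∑ b ∈ M.divisors.filter Q, g b := by
  unfold rs
  congr 1
  exact Finset.filter_congr_decidable _ _ _

lemma cs_eq {M : ℕ} (F : FL M) (x b : ℕ) (Q : ℕ → Prop) [DecidablePred Q] :
    cs F x b Q = ∑ d ∈ (Cell F x b).filter Q, nu M d := by
  unfold cs
  congr 1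
  exact Finset.filter_congr_decidable _ _ _

lemma rs_mono {M : ℕ} {Q Q' : ℕ → Prop} {g : ℕ → ℝ} (hg : ∀ b, 0 ≤ g b)
    (h : ∀ b, b ∣ M → Q b → Q' b) : rs M Q g ≤ rs M Q' g := by
  classical
  unfold rs
  refine Finset.sum_le_sum_of_subset_of_nonneg ?_ fun b _ _ => hg b
  intro b hb
  rw [Finset.mem_filter] at hb ⊢
  exact ⟨hb.1, h b (Nat.dvd_of_mem_divisors hb.1) hb.2⟩

open Classical in
/-- **row bound** -/
theorem row_bound {M : ℕ} (hM : 0 < M) {F : FL M} {x R0 : ℕ} {T ρ U : ℝ} (hρ : 0 ≤ ρ)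
    (𝓔 : ℕ → Prop) (hTU : T * R0 ≤ U)
    (hrow : ∀ b, b ∣ M → F.ell x b = 1 → (F.uu x b : ℝ) ≤ U →
      cs F x b 𝓔 ≤ cm F x b * ρ)
    {c : ℕ} (hc : c ∣ M) :
    rs M (fun b => PR F x R0 T b c ∧ 𝓔 b) (fun b => (Nat.gcd b c : ℝ) * nu M b) ≤
      ((R0 : ℝ) + 1) ^ 2 * ρ := by
  rw [rs_eq]
  have hc0 : c ≠ 0 := (Nat.pos_of_dvd_of_pos hc hM).ne'
  set D := M.divisors.filter (fun b => PR F x R0 T b c ∧ 𝓔 b) with hD
  have hmem : ∀ b ∈ D, b ∣ M ∧ PR F x R0 T b c ∧ 𝓔 b := fun b hb => by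
    rw [hD, Finset.mem_filter] at hb
    exact ⟨Nat.dvd_of_mem_divisors hb.1, hb.2⟩
  -- the possible low words
  set N := D.image (fun b => low x b) with hN
  have hcard : N.card ≤ (R0 + 1) ^ 2 := by
    have hsub : N ⊆ (Finset.range (R0 + 1) ×ˢ Finset.range (R0 + 1)).image
        (fun z => (low x c / z.2) * z.1) := by
      intro n hn
      rw [hN, Finset.mem_image] at hn
      obtain ⟨b, hb, rfl⟩ := hn
      obtain ⟨hbM, hP, _⟩ := hmem b hb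
      have hb0 : b ≠ 0 := (Nat.pos_of_dvd_of_pos hbM hM).ne'
      rw [Finset.mem_image]
      refine ⟨(low x (b / Nat.gcd b c), low x (c / Nat.gcd b c)), ?_, ?_⟩
      · rw [Finset.mem_product, Finset.mem_range, Finset.mem_range]
        exact ⟨Nat.lt_succ_of_le hP.wb, Nat.lt_succ_of_le hP.wc⟩
      · simp only
        have h1 := low_mul_div (x := x) hb0 (Nat.gcd_dvd_left b c)
        have h2 := low_mul_div (x := x) hc0 (Nat.gcd_dvd_right b c)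
        rw [← h1, ← h2, Nat.mul_div_cancel _ (low_pos _ _)]
    calc N.card ≤ _ := Finset.card_le_card hsub
      _ ≤ (Finset.range (R0 + 1) ×ˢ Finset.range (R0 + 1)).card := Finset.card_image_le
      _ = (R0 + 1) ^ 2 := by
          rw [Finset.card_product, Finset.card_range]; ring
  have hfib : ∀ n ∈ N, ∑ b ∈ D.filter (fun b => low x b = n), (Nat.gcd b c : ℝ) * nu M b ≤ ρ := by
    intro n hn
    rw [hN, Finset.mem_image] at hn
    obtain ⟨b0, hb0D, hb0n⟩ := hn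
    obtain ⟨hb0M, hP0, _⟩ := hmem b0 hb0D
    have huu : (F.uu x b0 : ℝ) ≤ U := by
      rw [hP0.uu_eq hM hb0M hc]
      push_cast
      refine le_trans ?_ hTU
      have h1 : (low x (b0 / Nat.gcd b0 c) : ℝ) ≤ R0 := by exact_mod_cast hP0.wb
      have h2 : (0 : ℝ) ≤ (Nat.gcd b0 c : ℝ) := Nat.cast_nonneg _
      exact mul_le_mul hP0.hi h1 (Nat.cast_nonneg _) (h2.trans hP0.hi)
    have h1 := hrow b0 hb0M hP0.pb huu
    rw [cs_eq] at h1
    have hgle : ∀ b ∈ D.filter (fun b => low x b = n), b ∈ (Cell F x b0).filter 𝓔 ∧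
        (Nat.gcd b c : ℝ) ≤ F.uu x b0 := by
      intro b hb
      rw [Finset.mem_filter] at hb
      obtain ⟨hbM, hP, hE⟩ := hmem b hb.1
      have hcell : b ∈ Cell F x b0 := by
        rw [mem_Cell_iff hM hb0M hbM]
        refine ⟨hb.2.trans hb0n.symm, ?_, hP.pb⟩
        exact FL.same_trans hb0M hc hP0.good.1 (FL.same_symm hbM hc hP.good.1)
      refine ⟨Finset.mem_filter.2 ⟨hcell, hE⟩, ?_⟩
      rw [← uu_cell hM hb0M hP0.pb hcell, hP.uu_eq hM hbM hc]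
      have : 1 ≤ low x (b / Nat.gcd b c) := low_pos _ _
      exact_mod_cast Nat.le_mul_of_pos_right _ this
    calc ∑ b ∈ D.filter (fun b => low x b = n), (Nat.gcd b c : ℝ) * nu M b
        ≤ ∑ b ∈ D.filter (fun b => low x b = n), (F.uu x b0 : ℝ) * nu M b :=
          Finset.sum_le_sum fun b hb => mul_le_mul_of_nonneg_right (hgle b hb).2 (nu_nonneg _ _)
      _ ≤ ∑ b ∈ (Cell F x b0).filter 𝓔, (F.uu x b0 : ℝ) * nu M b :=
          Finset.sum_le_sum_of_subset_of_nonneg (fun b hb => (hgle b hb).1)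
            fun b _ _ => mul_nonneg (Nat.cast_nonneg _) (nu_nonneg _ _)
      _ = (F.uu x b0 : ℝ) * ∑ b ∈ (Cell F x b0).filter 𝓔, nu M b := by rw [Finset.mul_sum]
      _ ≤ (F.uu x b0 : ℝ) * (cm F x b0 * ρ) := mul_le_mul_of_nonneg_left h1 (Nat.cast_nonneg _)
      _ = ((F.uu x b0 : ℝ) * cm F x b0) * ρ := by ring
      _ ≤ 1 * ρ := mul_le_mul_of_nonneg_right (uu_cm_le hM hb0M hP0.pb) hρ
      _ = ρ := one_mul _
  change ∑ b ∈ D, (Nat.gcd b c : ℝ) * nu M b ≤ _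
  calc ∑ b ∈ D, (Nat.gcd b c : ℝ) * nu M b
      = ∑ n ∈ N, ∑ b ∈ D.filter (fun b => low x b = n), (Nat.gcd b c : ℝ) * nu M b :=
        (Finset.sum_fiberwise_of_maps_to (fun b hb => Finset.mem_image_of_mem _ hb) _).symm
    _ ≤ ∑ n ∈ N, ρ := Finset.sum_le_sum hfib
    _ = N.card * ρ := by rw [Finset.sum_const, nsmul_eq_mul]
    _ ≤ ((R0 : ℝ) + 1) ^ 2 * ρ := by
        refine mul_le_mul_of_nonneg_right ?_ hρ
        exact_mod_cast hcard

open Classical in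
/-- bilinear bound from two row bounds -/
lemma two_rows {M : ℕ} {S S' : Finset ℕ} (hS : S ⊆ M.divisors)
    (hS' : S' ⊆ M.divisors) (q : ℕ → ℕ → Prop) {ρ₁ ρ₂ : ℝ} (h1 : 0 ≤ ρ₁) (h2 : 0 ≤ ρ₂)
    (hr1 : ∀ c, c ∣ M → rs M (fun b => q b c) (fun b => (Nat.gcd b c : ℝ) * nu M b) ≤ ρ₁)
    (hr2 : ∀ b, b ∣ M → rs M (fun c => q b c) (fun c => (Nat.gcd b c : ℝ) * nu M c) ≤ ρ₂) :
    ∑ b ∈ S, ∑ c ∈ S', ker M q b c ≤
      √(ρ₁ * ρ₂) * √((∑ b ∈ S, nu M b) * ∑ c ∈ S', nu M c) := by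
  have hb1 : ∑ b ∈ S, ∑ c ∈ S', ker M q b c ≤ ρ₁ * ∑ c ∈ S', nu M c := by
    rw [Finset.sum_comm, Finset.mul_sum]
    refine Finset.sum_le_sum fun c hc => ?_
    have hcM := Nat.dvd_of_mem_divisors (hS' hc)
    calc ∑ b ∈ S, ker M q b c ≤ ∑ b ∈ M.divisors, ker M q b c :=
          Finset.sum_le_sum_of_subset_of_nonneg hS fun _ _ _ => ker_nonneg _ _ _ _
      _ = rs M (fun b => q b c) (fun b => (Nat.gcd b c : ℝ) * nu M b) * nu M c := by
          unfold rs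
          rw [Finset.sum_filter, Finset.sum_mul]
          refine Finset.sum_congr rfl fun b _ => ?_
          unfold ker
          split_ifs <;> ring
      _ ≤ ρ₁ * nu M c := mul_le_mul_of_nonneg_right (hr1 c hcM) (nu_nonneg _ _)
  have hb2 : ∑ b ∈ S, ∑ c ∈ S', ker M q b c ≤ ρ₂ * ∑ b ∈ S, nu M b := by
    rw [Finset.mul_sum]
    refine Finset.sum_le_sum fun b hb => ?_
    have hbM := Nat.dvd_of_mem_divisors (hS hb)
    calc ∑ c ∈ S', ker M q b c ≤ ∑ c ∈ M.divisors, ker M q b c :=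
          Finset.sum_le_sum_of_subset_of_nonneg hS' fun _ _ _ => ker_nonneg _ _ _ _
      _ = rs M (fun c => q b c) (fun c => (Nat.gcd b c : ℝ) * nu M c) * nu M b := by
          unfold rs
          rw [Finset.sum_filter, Finset.sum_mul]
          refine Finset.sum_congr rfl fun c _ => ?_
          unfold ker
          split_ifs <;> ring
      _ ≤ ρ₂ * nu M b := mul_le_mul_of_nonneg_right (hr2 b hbM) (nu_nonneg _ _)
  have hX0 : 0 ≤ ∑ b ∈ S, ∑ c ∈ S', ker M q b c :=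
    Finset.sum_nonneg fun _ _ => Finset.sum_nonneg fun _ _ => ker_nonneg _ _ _ _
  have hν : 0 ≤ ∑ b ∈ S, nu M b := Finset.sum_nonneg fun _ _ => nu_nonneg _ _
  have hν' : 0 ≤ ∑ c ∈ S', nu M c := Finset.sum_nonneg fun _ _ => nu_nonneg _ _
  rw [← Real.sqrt_mul (mul_nonneg h1 h2)]
  refine Real.le_sqrt_of_sq_le ?_
  rw [sq]
  calc (∑ b ∈ S, ∑ c ∈ S', ker M q b c) * ∑ b ∈ S, ∑ c ∈ S', ker M q b c
      ≤ (ρ₁ * ∑ c ∈ S', nu M c) * (ρ₂ * ∑ b ∈ S, nu M b) :=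
        mul_le_mul hb1 hb2 hX0 (mul_nonneg h1 hν')
    _ = _ := by ring

/-! ### the class -/

/-- **heavy members** : pure pairs of case A with short low words, one member heavy above
`cut (i-1)` -/
def clsExc (γ : ℝ) : Cls := fun cp _ A m0 L M B F b c h =>
  ∃ i, FarA F (ParOf cp A m0 γ L M B) i b c h ∧ Pure F (2 ^ (A * i)) b c ∧
    low (2 ^ (A * i)) (b / Nat.gcd b c) * low (2 ^ (A * i)) (c / Nat.gcd b c) ≤ (i + 1) ^ 8 ∧
    (HvyR F B L A (4 * ((i : ℝ) + 1) ^ 8) (i - 1) b ∨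
      HvyR F B L A (4 * ((i : ℝ) + 1) ^ 8) (i - 1) c)

/-- `FarA` at the scale `i ≥ 3` satisfies the level conditions (208's lemma) -/
lemma lvl_of_far {cp γ L η : ℝ} {A m0 M : ℕ} {B : Finset ℕ} {F : FL M} (hS : Setup η L M B F)
    (hA : 1 ≤ A) (hm3 : 3 ≤ m0) {i b c : ℕ} {h : ℤ} (hb : b ∈ B)
    (hF : FarA F (ParOf cp A m0 γ L M B) i b c h) :
    Lvl F (ParOf cp A m0 γ L M B) (2 ^ (A * (2 * i + 1))) b c h := by
  have hi : m0 ≤ i := hF.m0
  have hg : 0 < Nat.gcd b c := Nat.gcd_pos_of_pos_left _ (hS.pos hb)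
  have h2i : (1 : ℝ) ≤ 2 ^ i := one_le_pow₀ (by norm_num)
  have hlo : (2 : ℝ) ^ i * L ≤ (Nat.gcd b c : ℕ) := hF.lo
  refine ⟨?_, ?_, ?_⟩
  · refine FL.good_mono ?_ hF.good
    change 2 ^ (A * i) ≤ _
    exact Nat.pow_le_pow_right (by norm_num) (Nat.mul_le_mul_left _ (by omega))
  · intro p hp
    refine (hF.al p hp).trans ?_
    change 2 ^ (A * (2 * i)) ≤ _
    exact Nat.pow_le_pow_right (by norm_num) (Nat.mul_le_mul_left _ (by omega))
  · have hgR : (0 : ℝ) < (Nat.gcd b c : ℕ) := by exact_mod_cast hg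
    have h1 : L / (Nat.gcd b c : ℕ) ≤ 1 := by
      rw [div_le_one hgR]
      have := hS.hL
      nlinarith
    unfold X1
    rw [show (ParOf cp A m0 γ L M B).L = L from rfl, max_eq_left h1, Real.one_rpow]
    have h2 : Real.exp 1 ≤ 8 := by
      have := Real.exp_one_lt_d9
      linarith
    have h3 : (8 : ℕ) ≤ 2 ^ (A * (2 * i + 1)) := by
      calc (8 : ℕ) = 2 ^ 3 := by norm_num
        _ ≤ 2 ^ (A * (2 * i + 1)) := Nat.pow_le_pow_right (by norm_num) (by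
            have : 3 ≤ i := hm3.trans hi
            nlinarith)
    exact h2.trans (by exact_mod_cast h3)

open Classical in
/-- **THE CLASS OF THE HEAVY MEMBERS HAS BOUNDED ENERGY** -/
theorem cls_exc (γ : ℝ) : ClsOK γ (clsExc γ) := by
  refine clsOK_of_sets ?_
  have hm3 : Ev (fun _ _ _ m0 => 3 ≤ m0) := Ev.of_m0 fun _ _ _ _ _ => ⟨3, fun _ h => h⟩
  refine ((ev_x0.and Ev.basic).and hm3).mono ?_
  rintro cp η A m0 ⟨⟨⟨x0, hq, hx0⟩, hcp, _, hη, _, hη1, hA, _⟩, hm3⟩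
  obtain ⟨C, hC, hrow⟩ := exc_row hA
  refine ⟨1, one_pos, 16 * √C, by positivity, 20, fun L M B F hS => ?_⟩
  have hM := hS.hM
  have hL := hS.hL
  refine ⟨fun t b c => PR F (2 ^ (A * t)) ((t + 1) ^ 8) (2 ^ (t + 1) * L) b c ∧
    (HvyR F B L A (4 * ((t : ℝ) + 1) ^ 8) (t - 1) b ∨
      HvyR F B L A (4 * ((t : ℝ) + 1) ^ 8) (t - 1) c), ?_, ?_⟩
  · rintro b hb c hc _ h _ _ ⟨i, hF, hP, huv, hE⟩
    refine ⟨i, hF.m0, ⟨⟨hF.good, hP.1, hP.2, ?_, ?_, hF.hi.le⟩, hE⟩, lvl_of_far hS hA hm3 hb hF⟩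
    · exact (Nat.le_mul_of_pos_right _ (low_pos _ _)).trans huv
    · exact (Nat.le_mul_of_pos_left _ (low_pos _ _)).trans huv
  · intro t ht S S' hSB hSB'
    have ht1 : 1 ≤ t := by omega
    have hx0t : x0 ≤ 2 ^ (A * t) :=
      hx0.trans (Nat.pow_le_pow_right (by norm_num) (Nat.mul_le_mul_left A ht))
    set R0 : ℕ := (t + 1) ^ 8 with hR0
    set R : ℝ := 4 * ((t : ℝ) + 1) ^ 8 with hR
    set T : ℝ := 2 ^ (t + 1) * L with hT
    set ρ : ℝ := C * R * (2 : ℝ) ^ (-(2 * (t : ℝ))) with hρdef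
    have ht0 : (1 : ℝ) ≤ (t : ℝ) + 1 := by
      have : (0 : ℝ) ≤ t := Nat.cast_nonneg _
      linarith
    have hR0R : (R0 : ℝ) = ((t : ℝ) + 1) ^ 8 := by rw [hR0]; push_cast; rfl
    have hρ : 0 ≤ ρ := by positivity
    have hTU : T * R0 ≤ R * 2 ^ t * L := by
      rw [hR0R, hT, hR, pow_succ]
      have h1 : (0 : ℝ) ≤ 2 ^ t * L * ((t : ℝ) + 1) ^ 8 := by positivity
      nlinarith
    let 𝓔 : ℕ → Prop := fun b => HvyR F B L A R (t - 1) b
    have hrowE : ∀ b, b ∣ M → F.ell (2 ^ (A * t)) b = 1 →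
        (F.uu (2 ^ (A * t)) b : ℝ) ≤ R * 2 ^ t * L →
        cs F (2 ^ (A * t)) b 𝓔 ≤ cm F (2 ^ (A * t)) b * ρ := by
      intro b hb hell hub
      unfold cs
      exact hrow M F B (sA η) (sE η) x0 t b L R hM hS.hB hS.node hq hx0t ht1 hb hell hL.le
        (by positivity) hS.mass hub
    have hrowT : ∀ b, b ∣ M → F.ell (2 ^ (A * t)) b = 1 →
        (F.uu (2 ^ (A * t)) b : ℝ) ≤ R * 2 ^ t * L →
        cs F (2 ^ (A * t)) b (fun _ => True) ≤ cm F (2 ^ (A * t)) b * 1 := by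
      intro b _ _ _
      rw [cs_eq, mul_one]
      unfold cm
      exact Finset.sum_le_sum_of_subset_of_nonneg (Finset.filter_subset _ _)
        fun _ _ _ => nu_nonneg _ _
    have hSd : S ⊆ M.divisors := hSB.trans hS.hB
    have hSd' : S' ⊆ M.divisors := hSB'.trans hS.hB
    -- left member heavy
    have hl : ∑ b ∈ S, ∑ c ∈ S', ker M (fun b c => PR F (2 ^ (A * t)) R0 T b c ∧ 𝓔 b) b c ≤
        √((((R0 : ℝ) + 1) ^ 2 * ρ) * (((R0 : ℝ) + 1) ^ 2 * 1)) *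
          √((∑ b ∈ S, nu M b) * ∑ c ∈ S', nu M c) := by
      refine two_rows hSd hSd' _ (by positivity) (by positivity) (fun c hc => ?_)
        fun b hb => ?_
      · exact row_bound hM hρ 𝓔 hTU hrowE hc
      · refine le_trans ?_ (row_bound hM zero_le_one (fun _ => True) hTU hrowT hb)
        simp only [Nat.gcd_comm b]
        exact rs_mono (fun c => mul_nonneg (Nat.cast_nonneg _) (nu_nonneg _ _))
          fun c hc h => ⟨h.1.symm hb hc, trivial⟩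
    -- right member heavy
    have hr : ∑ b ∈ S, ∑ c ∈ S', ker M (fun b c => PR F (2 ^ (A * t)) R0 T b c ∧ 𝓔 c) b c ≤
        √((((R0 : ℝ) + 1) ^ 2 * 1) * (((R0 : ℝ) + 1) ^ 2 * ρ)) *
          √((∑ b ∈ S, nu M b) * ∑ c ∈ S', nu M c) := by
      refine two_rows hSd hSd' _ (by positivity) (by positivity) (fun c hc => ?_)
        fun b hb => ?_
      · refine le_trans ?_ (row_bound hM zero_le_one (fun _ => True) hTU hrowT hc)
        exact rs_mono (fun b => mul_nonneg (Nat.cast_nonneg _) (nu_nonneg _ _))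
          fun b _ h => ⟨h.1, trivial⟩
      · refine le_trans ?_ (row_bound hM hρ 𝓔 hTU hrowE hb)
        simp only [Nat.gcd_comm b]
        exact rs_mono (fun c => mul_nonneg (Nat.cast_nonneg _) (nu_nonneg _ _))
          fun c hc h => ⟨h.1.symm hb hc, h.2⟩
    have hsplit : ∑ b ∈ S, ∑ c ∈ S', ker M (fun b c => PR F (2 ^ (A * t)) R0 T b c ∧
        (𝓔 b ∨ 𝓔 c)) b c ≤
        ∑ b ∈ S, ∑ c ∈ S', ker M (fun b c => PR F (2 ^ (A * t)) R0 T b c ∧ 𝓔 b) b c +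
        ∑ b ∈ S, ∑ c ∈ S', ker M (fun b c => PR F (2 ^ (A * t)) R0 T b c ∧ 𝓔 c) b c := by
      rw [← Finset.sum_add_distrib]
      refine Finset.sum_le_sum fun b _ => ?_
      rw [← Finset.sum_add_distrib]
      refine Finset.sum_le_sum fun c _ => ?_
      have k1 := ker_nonneg M (fun b c => PR F (2 ^ (A * t)) R0 T b c ∧ 𝓔 b) b c
      have k2 := ker_nonneg M (fun b c => PR F (2 ^ (A * t)) R0 T b c ∧ 𝓔 c) b c
      by_cases h : PR F (2 ^ (A * t)) R0 T b c ∧ (𝓔 b ∨ 𝓔 c)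
      · rcases h.2 with h' | h'
        · have : ker M (fun b c => PR F (2 ^ (A * t)) R0 T b c ∧ (𝓔 b ∨ 𝓔 c)) b c =
              ker M (fun b c => PR F (2 ^ (A * t)) R0 T b c ∧ 𝓔 b) b c := by
            unfold ker
            rw [if_pos h, if_pos ⟨h.1, h'⟩]
          linarith
        · have : ker M (fun b c => PR F (2 ^ (A * t)) R0 T b c ∧ (𝓔 b ∨ 𝓔 c)) b c =
              ker M (fun b c => PR F (2 ^ (A * t)) R0 T b c ∧ 𝓔 c) b c := by
            unfold ker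
            rw [if_pos h, if_pos ⟨h.1, h'⟩]
          linarith
      · have : ker M (fun b c => PR F (2 ^ (A * t)) R0 T b c ∧ (𝓔 b ∨ 𝓔 c)) b c = 0 := by
          unfold ker
          rw [if_neg h]
        linarith
    -- the constant
    have hconst : √((((R0 : ℝ) + 1) ^ 2 * ρ) * (((R0 : ℝ) + 1) ^ 2 * 1)) ≤
        8 * √C * ((t : ℝ) + 1) ^ 20 * (2 : ℝ) ^ (-(1 * (t : ℝ))) := by
      refine Real.sqrt_le_iff.2 ⟨by positivity, ?_⟩
      have h1 : (R0 : ℝ) + 1 ≤ 2 * ((t : ℝ) + 1) ^ 8 := by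
        rw [hR0R]
        have : (1 : ℝ) ≤ ((t : ℝ) + 1) ^ 8 := one_le_pow₀ ht0
        linarith
      have h2 : ((R0 : ℝ) + 1) ^ 4 ≤ (2 * ((t : ℝ) + 1) ^ 8) ^ 4 :=
        pow_le_pow_left₀ (by positivity) h1 4
      have h3 : (2 : ℝ) ^ (-(1 * (t : ℝ))) * (2 : ℝ) ^ (-(1 * (t : ℝ))) =
          (2 : ℝ) ^ (-(2 * (t : ℝ))) := by
        rw [← Real.rpow_add (by norm_num)]
        congr 1
        ring
      have h4 : √C * √C = C := Real.mul_self_sqrt hC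
      calc (((R0 : ℝ) + 1) ^ 2 * ρ) * (((R0 : ℝ) + 1) ^ 2 * 1) = ((R0 : ℝ) + 1) ^ 4 * ρ := by ring
        _ ≤ (2 * ((t : ℝ) + 1) ^ 8) ^ 4 * ρ := mul_le_mul_of_nonneg_right h2 hρ
        _ = 64 * C * ((t : ℝ) + 1) ^ 40 * (2 : ℝ) ^ (-(2 * (t : ℝ))) := by
            rw [hρdef, hR]; ring
        _ = 64 * (√C * √C) * ((t : ℝ) + 1) ^ 40 *
            ((2 : ℝ) ^ (-(1 * (t : ℝ))) * (2 : ℝ) ^ (-(1 * (t : ℝ)))) := by rw [h3, h4]
        _ = _ := by ring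
    have hconst' : √((((R0 : ℝ) + 1) ^ 2 * 1) * (((R0 : ℝ) + 1) ^ 2 * ρ)) ≤
        8 * √C * ((t : ℝ) + 1) ^ 20 * (2 : ℝ) ^ (-(1 * (t : ℝ))) := by
      rw [mul_comm (((R0 : ℝ) + 1) ^ 2 * 1)]
      exact hconst
    set X := √((∑ b ∈ S, nu M b) * ∑ c ∈ S', nu M c) with hX
    have hX0 : 0 ≤ X := Real.sqrt_nonneg _
    have hLX : L * X = √((L * ∑ b ∈ S, nu M b) * (L * ∑ c ∈ S', nu M c)) := by
      rw [hX]
      have e : (L * ∑ b ∈ S, nu M b) * (L * ∑ c ∈ S', nu M c) =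
          L ^ 2 * ((∑ b ∈ S, nu M b) * ∑ c ∈ S', nu M c) := by ring
      rw [e, Real.sqrt_mul (sq_nonneg L), Real.sqrt_sq hL.le]
    rw [← hLX]
    have hfin : ∑ b ∈ S, ∑ c ∈ S', ker M (fun b c => PR F (2 ^ (A * t)) R0 T b c ∧
        (𝓔 b ∨ 𝓔 c)) b c ≤
        16 * √C * ((t : ℝ) + 1) ^ 20 * (2 : ℝ) ^ (-(1 * (t : ℝ))) * X := by
      have h1 := hl.trans (mul_le_mul_of_nonneg_right hconst hX0)
      have h2 := hr.trans (mul_le_mul_of_nonneg_right hconst' hX0)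
      linarith
    calc L * ∑ b ∈ S, ∑ c ∈ S', ker M (fun b c => PR F (2 ^ (A * t)) R0 T b c ∧
        (𝓔 b ∨ 𝓔 c)) b c
        ≤ L * (16 * √C * ((t : ℝ) + 1) ^ 20 * (2 : ℝ) ^ (-(1 * (t : ℝ))) * X) :=
          mul_le_mul_of_nonneg_left hfin hL.le
      _ = _ := by ring

/-! ### dictionary -/

/-- **outside `HvyR` the threshold of a full block is `≤ V^δ`** -/
theorem thr_of_ncR {cp γ L R : ℝ} {A m0 M : ℕ} {B : Finset ℕ} {F : FL M} (hA : 1 ≤ A)
    (hL : 0 < L) (hR : 0 ≤ R) {b i j k : ℕ} (hki : A * i < k) (hkM : k ≤ M) (hjk : A * j ≤ k)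
    (huu : (F.uu (2 ^ k) b : ℝ) ≤ R * 2 ^ (j + 1) * L) (hn : ¬ HvyR F B L A R i b) :
    (ParOf cp A m0 γ L M B).thr b k ≤ (((2 : ℕ) ^ (k - 1) : ℕ) : ℝ) ^ (1 / (4 * (A : ℝ))) := by
  have hA0 : (0 : ℝ) < A := by exact_mod_cast hA
  have h9 : (j : ℝ) ≤ 1 / (A : ℝ) * k := by
    rw [one_div_mul_eq_div, le_div_iff₀ hA0]
    have h10 : ((A * j : ℕ) : ℝ) ≤ k := by exact_mod_cast hjk
    push_cast at h10
    linarith
  have h10 : (2 : ℝ) ^ j ≤ (2 : ℝ) ^ (1 / (A : ℝ) * k) := by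
    rw [← Real.rpow_natCast]
    exact Real.rpow_le_rpow_of_exponent_le (by norm_num) h9
  have huu' : (F.uu (2 ^ k) b : ℝ) ≤ 2 * R * (2 : ℝ) ^ (1 / (A : ℝ) * k) * L := by
    refine huu.trans (mul_le_mul_of_nonneg_right ?_ hL.le)
    rw [pow_succ]
    nlinarith [mul_le_mul_of_nonneg_left h10 hR]
  have hE : HU ((1 / (4 * (A : ℝ))) / (1 / 20)) = HU (5 / (A : ℝ)) := by rw [div_eps hA]
  refine thr_of_not_exc (F := F) (L := L) (h := fun k => 2 * R * (2 : ℝ) ^ (1 / (A : ℝ) * k))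
    (k0 := A * i + 1) (K := M + 1) (ind_nonneg B) (by norm_num) ?_ (by omega) (by omega) huu'
  rw [hE]
  exact hn

end Crest.Agent.R4C.ClsExcx634
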