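import Crest.Agent.R4C.HvySet_281
import Crest.Agent.R4C.FarKit_179

/-!
# Row 4: `ClsOK γ CHvy` (helper281)

The class of the pairs with a heavy member (`CHvy` of `SplitDef_945`, `w = 1_B`, `ε = 1/20`):
`HvySet_281.classK_scales` (set bound, `K₀ = 2^t / (2 E⁴)`, `Λ = (log cut)^8`) and
`FarKit_179.clsOK_of_sets`.
-/

set_option autoImplicit false

namespace Crest.Agent.R4C.ClsHvyx281

open Finset Crest.Agent.R4C.Basex935 Crest.Agent.R4C.FLDefx935 Crest.Agent.R4C.Spinex946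
  Crest.Agent.R4C.Splitx945 Crest.Agent.R4C.Rulex945 Crest.Agent.R4C.Hclsx81
  Crest.Agent.R4C.FarKitx179 Crest.Agent.R4C.HvySetx281
open Crest.Agent.R4C.FLExx326 (ind)

/-- `X1 < Q` gives `L ≤ (log Q)^8 gcd` -/
lemma near_le {P : Par} {b c Q : ℕ} (hg : 0 < Nat.gcd b c) (h : X1 P b c < Q) :
    0 < Real.log Q ∧ P.L ≤ Real.log Q ^ 8 * (Nat.gcd b c : ℝ) := by
  have hg' : (0 : ℝ) < (Nat.gcd b c : ℝ) := by exact_mod_cast hg
  set y : ℝ := max 1 (P.L / (Nat.gcd b c : ℕ)) with hy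
  have hy1 : 1 ≤ y := le_max_left _ _
  have hy0 : 0 ≤ y := by linarith
  have hQ : (0 : ℝ) < Q := (Real.exp_pos _).trans h
  have h1 : y ^ (1 / 8 : ℝ) < Real.log Q := (Real.lt_log_iff_exp_lt hQ).2 h
  have h2 : 0 ≤ y ^ (1 / 8 : ℝ) := Real.rpow_nonneg hy0 _
  refine ⟨lt_of_le_of_lt h2 h1, ?_⟩
  have h3 : y ≤ Real.log Q ^ 8 := by
    have h4 : (y ^ (1 / 8 : ℝ)) ^ 8 = y := by
      rw [← Real.rpow_natCast, ← Real.rpow_mul hy0]
      norm_num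
    rw [← h4]
    exact pow_le_pow_left₀ h2 h1.le 8
  have h5 : P.L / (Nat.gcd b c : ℝ) ≤ Real.log Q ^ 8 := (le_max_right _ _).trans h3
  exact (div_le_iff₀ hg').1 h5

/-- the exponent `sK η 20 = 7 - 9 η` -/
lemma sK_eq (η : ℝ) : sK η 20 = 7 - 9 * η := by
  unfold sK
  ring

/-- `classK_scales` for the kernel `ker` -/
theorem classK_ker {η P : ℝ} (hη0 : 0 < η) (hη1 : η < 1) (hP : 0 < P) (hs : 0 < sK η P) :
    ∃ C : ℝ, 0 < C ∧ ∀ (M : ℕ) (F : FL M) (B S S' : Finset ℕ) (x : ℕ) (L Λ K₀ : ℝ)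
      (Q : ℕ → ℕ → Prop), 0 < M → B ⊆ M.divisors → S ⊆ B → S' ⊆ B →
      0 < L → 0 < Λ → 0 < K₀ → L * ∑ b ∈ B, nu M b ≤ 1 →
      (∀ b ∈ S, ∀ c ∈ S', Q b c → F.good x b c ∧
        (HvK F (ind B) L P K₀ x b ∨ HvK F (ind B) L P K₀ x c) ∧
        L ≤ Λ * (Nat.gcd b c : ℝ)) →
      L * ∑ b ∈ S, ∑ c ∈ S', ker M Q b c ≤
        C * Λ ^ (1 - η) * K₀ ^ (-(sK η P)) *
          Real.sqrt ((L * ∑ b ∈ S, nu M b) * (L * ∑ c ∈ S', nu M c)) := by
  obtain ⟨C, hC, h⟩ := classK_scales hη0 hη1 hP hs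
  refine ⟨C, hC, fun M F B S S' x L Λ K₀ Q hM hB hS hS' hL hΛ hK₀ hm hQ => ?_⟩
  exact @h M F B S S' x L Λ K₀ Q (fun b c => Classical.propDecidable _) hM hB hS hS' hL hΛ hK₀
    hm hQ

/-- **class CHvy** -/
theorem cls_hvy (γ : ℝ) : ClsOK γ (fun cp _ A m0 L M B F b c h =>
    CHvy F (ParOf cp A m0 γ L M B) (ind B) (1 / 20) b c h) := by
  refine clsOK_of_sets (Ev.basic.mono ?_)
  rintro cp η A m0 ⟨hcp, hcp1, hη, hη1, hη2, hA, hm0⟩
  have hs : 0 < sK η 20 := by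
    rw [sK_eq]
    linarith
  obtain ⟨C, hC, hset⟩ := classK_ker (P := 20) hη hη2 (by norm_num) hs
  have h4 : 0 < 1 - 4 * cp := by linarith
  have hAR : (1 : ℝ) ≤ A := by exact_mod_cast hA
  refine ⟨sK η 20 * (1 - 4 * cp), mul_pos hs h4, C * A ^ 8 * 2 ^ (sK η 20), by positivity, 8, ?_⟩
  intro L M B F hS
  set P := ParOf cp A m0 γ L M B with hP
  have eL : P.L = L := rfl
  have ecut : ∀ t, P.cut t = 2 ^ (A * t) := fun t => rfl
  have eE : ∀ t : ℕ, P.E t = (2 : ℝ) ^ (cp * t) := fun t => rfl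
  have eg : ∀ b ∈ B, ∀ c : ℕ, 0 < Nat.gcd b c := fun b hb c =>
    Nat.gcd_pos_of_pos_left _ (hS.pos hb)
  refine ⟨fun t b c => F.good (P.cut t) b c ∧
    (HvK F (ind B) L 20 (2 ^ t / (2 * P.E t ^ 4)) (P.cut t) b ∨
      HvK F (ind B) L 20 (2 ^ t / (2 * P.E t ^ 4)) (P.cut t) c) ∧ X1 P b c < P.cut t,
    fun b hb c hc hne h hh hk hR => ?_, fun t ht S S' hSB hSB' => ?_⟩
  · obtain ⟨t, ht, h1, h2, h3, h5, h6⟩ := hR
    have e20 : (1 : ℝ) / (1 / 20) = 20 := by norm_num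
    rw [e20] at h6
    have hle : P.cut t ≤ 2 ^ (A * (2 * t + 1)) :=
      Nat.pow_le_pow_right (by norm_num) (Nat.mul_le_mul_left A (by omega))
    have hle2 : P.cut (2 * t) ≤ 2 ^ (A * (2 * t + 1)) :=
      Nat.pow_le_pow_right (by norm_num) (Nat.mul_le_mul_left A (by omega))
    refine ⟨t, ht, ⟨h1, h6, h5⟩, ⟨FL.good_mono hle h1, fun q hq => (h2 q hq).trans hle2, ?_⟩⟩
    refine h5.le.trans ?_
    exact_mod_cast hle
  · have ht1 : 1 ≤ t := hm0.trans ht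
    have htR : (1 : ℝ) ≤ t := by exact_mod_cast ht1
    have hlog : Real.log (P.cut t) = A * t * Real.log 2 := by
      rw [ecut, Nat.cast_pow, Nat.cast_ofNat, Real.log_pow]
      push_cast
      ring
    have hl2 : 0 < Real.log 2 := Real.log_pos (by norm_num)
    have hl2' : Real.log 2 ≤ 1 := by
      have := Real.log_two_lt_d9
      linarith
    have hlog0 : 0 < Real.log (P.cut t) := by
      rw [hlog]
      positivity
    have hlogle : Real.log (P.cut t) ≤ A * (t + 1) := by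
      rw [hlog]
      calc (A : ℝ) * t * Real.log 2 ≤ A * t * 1 := mul_le_mul_of_nonneg_left hl2' (by positivity)
        _ ≤ A * (t + 1) := by nlinarith
    have hA1 : (1 : ℝ) ≤ A * (t + 1) := by nlinarith
    -- the set bound
    have h1 := hset M F B S S' (P.cut t) L (Real.log (P.cut t) ^ 8) (2 ^ t / (2 * P.E t ^ 4))
      (fun b c => F.good (P.cut t) b c ∧
        (HvK F (ind B) L 20 (2 ^ t / (2 * P.E t ^ 4)) (P.cut t) b ∨
          HvK F (ind B) L 20 (2 ^ t / (2 * P.E t ^ 4)) (P.cut t) c) ∧ X1 P b c < P.cut t)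
      hS.hM hS.hB hSB hSB' hS.hL (by positivity) (by rw [eE]; positivity) hS.mass
      (fun b hb c hc hq => ⟨hq.1, hq.2.1, (near_le (P := P) (eg b (hSB hb) c) hq.2.2).2⟩)
    refine h1.trans ?_
    refine mul_le_mul_of_nonneg_right ?_ (Real.sqrt_nonneg _)
    have h2 : (Real.log (P.cut t) ^ 8) ^ (1 - η) ≤ A ^ 8 * ((t : ℝ) + 1) ^ 8 := by
      have h3 : Real.log (P.cut t) ^ 8 ≤ (A * ((t : ℝ) + 1)) ^ 8 :=
        pow_le_pow_left₀ hlog0.le hlogle 8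
      have h5 : (1 : ℝ) ≤ (A * ((t : ℝ) + 1)) ^ 8 := one_le_pow₀ hA1
      calc (Real.log (P.cut t) ^ 8) ^ (1 - η) ≤ ((A * ((t : ℝ) + 1)) ^ 8) ^ (1 - η) :=
            Real.rpow_le_rpow (by positivity) h3 (by linarith)
        _ ≤ ((A * ((t : ℝ) + 1)) ^ 8) ^ (1 : ℝ) :=
            Real.rpow_le_rpow_of_exponent_le h5 (by linarith)
        _ = A ^ 8 * ((t : ℝ) + 1) ^ 8 := by rw [Real.rpow_one, mul_pow]
    have h3 : ((2 : ℝ) ^ t / (2 * P.E t ^ 4)) ^ (-(sK η 20)) =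
        2 ^ (sK η 20) * (2 : ℝ) ^ (-(sK η 20 * (1 - 4 * cp) * t)) := by
      have e1 : (2 : ℝ) ^ t / (2 * P.E t ^ 4) = (2 : ℝ) ^ ((t : ℝ) - (1 + cp * t * 4)) := by
        rw [Real.rpow_sub (by norm_num), Real.rpow_add (by norm_num), Real.rpow_one,
          Real.rpow_natCast, eE, ← Real.rpow_natCast ((2 : ℝ) ^ (cp * t)) 4,
          ← Real.rpow_mul (by norm_num)]
        norm_num
      rw [e1, ← Real.rpow_mul (by norm_num), ← Real.rpow_add (by norm_num)]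
      congr 1
      ring
    calc C * (Real.log (P.cut t) ^ 8) ^ (1 - η) * ((2 : ℝ) ^ t / (2 * P.E t ^ 4)) ^ (-(sK η 20))
        ≤ C * (A ^ 8 * ((t : ℝ) + 1) ^ 8) *
          ((2 : ℝ) ^ t / (2 * P.E t ^ 4)) ^ (-(sK η 20)) := by
          refine mul_le_mul_of_nonneg_right (mul_le_mul_of_nonneg_left h2 hC.le) ?_
          rw [h3]
          positivity
      _ = C * A ^ 8 * 2 ^ (sK η 20) * ((t : ℝ) + 1) ^ 8 *
          (2 : ℝ) ^ (-(sK η 20 * (1 - 4 * cp) * t)) := by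
          rw [h3]
          ring

end Crest.Agent.R4C.ClsHvyx281
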