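import Crest.Agent.R4C.SpineKit_946
import Crest.Agent.R4C.Split_945
import Crest.Agent.R4C.HyOf_281

/-!
# Row 4: the ten classes as `Cls`, the cover, and S0004 from the ten class bounds (helper946)

* `cNear … cDomN` : the predicates of `SplitDef_945` at the parameters of the spine
  (`w = ind B`, `ε = 1/20`, `D = DD cp`).
* `nH γ R` : the offsets of `R` which are not in the heavy class (`nH_ok`).
* `tenC γ`, `cover γ : CoverOK γ (tenC γ)`.
* `top10` : the literal statement of S0004 from the ten `ClsOK`.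
-/

set_option autoImplicit false

open MeasureTheory Filter

namespace Crest.Agent.R4C.Coverx946

open Crest.Agent.R4C.Spinex946 Crest.Agent.R4C.Splitx945 Crest.Agent.R4C.Rulex945
  Crest.Agent.R4C.FLDefx935 Crest.Agent.R4C.HyOfx281 Crest.Agent.R4C.Bridgex882
  Crest.Agent.R4C.CrCoinx935
open Crest.Agent.R4C.FLExx326 (ind)

/-- near pairs -/
def cNear (γ : ℝ) : Cls := fun cp _ A m0 L M B F b c h =>
  CNear F (ParOf cp A m0 γ L M B) b c h

/-- bad pairs -/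
def cBad (γ : ℝ) : Cls := fun cp _ A m0 L M B F b c h =>
  CBad F (ParOf cp A m0 γ L M B) b c h

/-- a heavy member -/
def cHvy (γ : ℝ) : Cls := fun cp _ A m0 L M B F b c h =>
  CHvy F (ParOf cp A m0 γ L M B) (ind B) (1 / 20) b c h

/-- big twist -/
def cTw (γ : ℝ) : Cls := fun cp _ A m0 L M B F b c h =>
  CTw F (ParOf cp A m0 γ L M B) b c h

/-- common point, shallow, non-pure -/
def cNP (γ : ℝ) : Cls := fun cp _ A m0 L M B F b c h =>
  CNP F (ParOf cp A m0 γ L M B) b c h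

/-- class (L) -/
def cLow (γ : ℝ) : Cls := fun cp _ A m0 L M B F b c h =>
  CLow F (ParOf cp A m0 γ L M B) b c h

/-- rare box -/
def cRareA (γ : ℝ) : Cls := fun cp _ A m0 L M B F b c h =>
  CRareA F (ParOf cp A m0 γ L M B) (DD cp) b c h

/-- unexplained deficit -/
def cUD (γ : ℝ) : Cls := fun cp _ A m0 L M B F b c h =>
  CUD F (ParOf cp A m0 γ L M B) (DD cp) b c h

/-- dominant word, pure -/
def cDomP (γ : ℝ) : Cls := fun cp _ A m0 L M B F b c h =>
  CDomP F (ParOf cp A m0 γ L M B) b c h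

/-- dominant word, non-pure -/
def cDomN (γ : ℝ) : Cls := fun cp _ A m0 L M B F b c h =>
  CDomN F (ParOf cp A m0 γ L M B) b c h

/-- the offsets of `R` outside the heavy class -/
def nH (γ : ℝ) (R : Cls) : Cls := fun cp η A m0 L M B F b c h =>
  ¬ cHvy γ cp η A m0 L M B F b c h ∧ R cp η A m0 L M B F b c h

lemma nH_ok {γ : ℝ} {R : Cls} (h : ClsOK γ R) : ClsOK γ (nH γ R) :=
  h.mono (Ev.of_forall fun _ _ _ _ _ _ _ _ _ _ _ _ _ _ _ _ _ hx => hx.2)

/-- the ten classes -/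
def tenC (γ : ℝ) : List Cls :=
  [cNear γ, cBad γ, cHvy γ, nH γ (cTw γ), nH γ (cNP γ), nH γ (cLow γ), nH γ (cRareA γ),
    nH γ (cUD γ), nH γ (cDomP γ), nH γ (cDomN γ)]

/-- **the cover** -/
theorem cover (γ : ℝ) : CoverOK γ (tenC γ) := by
  refine (hyOf).mono fun cp η A m0 H L M B F S b hb c hc _ h hh hk => ?_
  have h1 := split_all (F := F) (P := ParOf cp A m0 γ L M B) (H γ L M B F S) (S.dvd hb) (S.dvd hc)
    (h := h) hh hk
  rcases h1 with h1 | h1 | h1 | ⟨h0, h1⟩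
  · exact ⟨cNear γ, by simp [tenC], h1⟩
  · exact ⟨cBad γ, by simp [tenC], h1⟩
  · exact ⟨cHvy γ, by simp [tenC], h1⟩
  · rcases h1 with h1 | h1 | h1 | h1 | h1 | h1 | h1
    · exact ⟨nH γ (cTw γ), by simp [tenC], h0, h1⟩
    · exact ⟨nH γ (cNP γ), by simp [tenC], h0, h1⟩
    · exact ⟨nH γ (cLow γ), by simp [tenC], h0, h1⟩
    · exact ⟨nH γ (cRareA γ), by simp [tenC], h0, h1⟩
    · exact ⟨nH γ (cUD γ), by simp [tenC], h0, h1⟩
    · exact ⟨nH γ (cDomP γ), by simp [tenC], h0, h1⟩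
    · exact ⟨nH γ (cDomN γ), by simp [tenC], h0, h1⟩

/-- **S0004 from the ten class bounds** -/
theorem top10 {γ : ℝ} (h1 : ClsOK γ (cNear γ)) (h2 : ClsOK γ (cBad γ)) (h3 : ClsOK γ (cHvy γ))
    (h4 : ClsOK γ (nH γ (cTw γ))) (h5 : ClsOK γ (nH γ (cNP γ))) (h6 : ClsOK γ (nH γ (cLow γ)))
    (h7 : ClsOK γ (nH γ (cRareA γ))) (h8 : ClsOK γ (nH γ (cUD γ)))
    (h9 : ClsOK γ (nH γ (cDomP γ))) (h10 : ClsOK γ (nH γ (cDomN γ)))
    (ψ : ℕ → ℝ) (hψ : ∀ q, 0 ≤ ψ q)
    (hdiv : ¬ Summable fun q : ℕ => (Nat.totient q : ℝ) / q * ψ q) :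
    ∀ᵐ x : ℝ, ∃ᶠ q : ℕ in atTop, |(q : ℝ) * x - γ - round ((q : ℝ) * x - γ)| < ψ q := by
  refine main_KCl (KCl_of_KCb (KCb_of (tenC γ) (cover γ) ?_)) ψ hψ hdiv
  intro R hR
  simp only [tenC, List.mem_cons, List.not_mem_nil, or_false] at hR
  rcases hR with rfl | rfl | rfl | rfl | rfl | rfl | rfl | rfl | rfl | rfl
  · exact h1
  · exact h2
  · exact h3
  · exact h4
  · exact h5
  · exact h6
  · exact h7
  · exact h8
  · exact h9
  · exact h10

end Crest.Agent.R4C.Coverx946
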