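import Crest.Agent.R4C.VDef_24
import Crest.Agent.R4C.ClsExc_634
import Crest.Agent.R4C.Cover_946
import Crest.Agent.R4C.ClsHvy_281
import Crest.Agent.R4C.DomPc_284

/-!
# Row 4, class CDomP: from the vector classes `VC a a' e` to `ClsOK (cDomP)` (helper305)

* `clsVC` : the union of the classes `VC a a' e`, `e ≤ 1` (VDef_24);
* `hvy_imp` : `VDef_24.HvyR` implies `ExcRow_634.HvyR`;
* `domPS_of` : `ClsOK clsVC → ClsOK clsDomPS` (heavy members: `ClsExc_634.cls_exc`; `CHvy`: 281);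
* `domP_of`, `nh_domP_of` : `ClsOK clsVC → ClsOK cDomP`, `ClsOK (nH cDomP)`.
-/

set_option autoImplicit false

open Finset

namespace Crest.Agent.R4C.ClsDomVx305

open Crest.Agent.R4C.Basex935 Crest.Agent.R4C.Cutx50 Crest.Agent.R4C.PrefixMx882
open Crest.Agent.R4C.FLDefx935 Crest.Agent.R4C.Rulex945
open Crest.Agent.R4C.Splitx945 Crest.Agent.R4C.Spinex946 Crest.Agent.R4C.Bridgex882
open Crest.Agent.R4C.CrCoinx935 Crest.Agent.R4C.Coverx946
open Crest.Agent.R4C.VDefx24 Crest.Agent.R4C.DomPcx284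

/-- the vector classes in the form of the spine -/
def clsVC (γ : ℝ) : Cls := fun cp _ A m0 L M B F b c h =>
  ∃ a a' e, e ≤ 1 ∧ VC F (ParOf cp A m0 γ L M B) (QQ cp A m0 γ L M B F) a a' e b c h

/-- heavy exceptions: floor exponent ⟹ real exponent -/
lemma hvy_imp {M : ℕ} {F : FL M} {B : Finset ℕ} {L : ℝ} (hL : 0 ≤ L) {A : ℕ} {R : ℝ}
    (hR : 0 ≤ R) {i b : ℕ} (h : VDefx24.HvyR F B L A R i b) :
    ExcRowx634.HvyR F B L A R i b := by
  obtain ⟨k, h1, h2, h3, h4⟩ := h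
  refine ⟨k, h1, h2, h3.trans ?_, h4⟩
  refine mul_le_mul_of_nonneg_right ?_ hL
  refine mul_le_mul_of_nonneg_left ?_ (by positivity)
  show (2 : ℝ) ^ (k / A) ≤ (2 : ℝ) ^ (1 / (A : ℝ) * k)
  rw [← Real.rpow_natCast]
  refine Real.rpow_le_rpow_of_exponent_le (by norm_num) ?_
  have h5 : ((k / A : ℕ) : ℝ) ≤ (k : ℝ) / A := Nat.cast_div_le
  calc ((k / A : ℕ) : ℝ) ≤ (k : ℝ) / A := h5
    _ = 1 / (A : ℝ) * k := by ring

/-- **cover**: small pure dominant pairs = vector classes + heavy members + `CHvy` -/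
theorem domPS_of {γ : ℝ} (h : ClsOK γ (clsVC γ)) : ClsOK γ (clsDomPS γ) := by
  refine (h.or ((ClsExcx634.cls_exc γ).or (ClsHvyx281.cls_hvy γ))).mono
    (Ev.of_forall fun cp η A m0 L M B F hS b _ c _ _ x _ _ hx => ?_)
  obtain ⟨i, h1, h2, h3, h4⟩ := hx
  by_cases hv : CHvy F (ParOf cp A m0 γ L M B) (FLExx326.ind B) (1 / 20) b c x
  · exact Or.inr (Or.inr hv)
  have hR : (0 : ℝ) ≤ 4 * ((i : ℝ) + 1) ^ 8 := by positivity
  have hs : low (2 ^ (A * i)) (b / Nat.gcd b c) * low (2 ^ (A * i)) (c / Nat.gcd b c) ≤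
      (i + 1) ^ 8 := by
    have h5 : ((low (2 ^ (A * i)) (b / Nat.gcd b c) * low (2 ^ (A * i)) (c / Nat.gcd b c) : ℕ) : ℝ)
        < (((i + 1) ^ 8 : ℕ) : ℝ) := by
      push_cast
      exact h4
    exact_mod_cast h5.le
  by_cases hb : VDefx24.HvyR F B L A (4 * ((i : ℝ) + 1) ^ 8) (i - 1) b
  · exact Or.inr (Or.inl ⟨i, h1, h3, hs, Or.inl (hvy_imp hS.hL.le hR hb)⟩)
  by_cases hc : VDefx24.HvyR F B L A (4 * ((i : ℝ) + 1) ^ 8) (i - 1) c
  · exact Or.inr (Or.inl ⟨i, h1, h3, hs, Or.inr (hvy_imp hS.hL.le hR hc)⟩)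
  obtain ⟨a, a', e, he, hcl⟩ := VecPairx19.exists_vcl (P := ParOf cp A m0 γ L M B) (i := i)
    (b := b) (c := c)
  exact Or.inl ⟨a, a', e, he, i, h1, h2, h3, h4, hcl, hb, hc, hv⟩

/-- the class `CDomP` -/
theorem domP_of {γ : ℝ} (h : ClsOK γ (clsVC γ)) : ClsOK γ (cDomP γ) :=
  cls_domP_of_small (domPS_of h)

/-- the class `CDomP` off `CHvy` -/
theorem nh_domP_of {γ : ℝ} (h : ClsOK γ (clsVC γ)) : ClsOK γ (nH γ (cDomP γ)) :=
  nH_ok (domP_of h)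

end Crest.Agent.R4C.ClsDomVx305
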