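import Crest.Agent.R4C.SpineDef_946

/-!
# Row 4: symmetry of the energy under `(b, c, h) ↦ (c, b, -h)` (helper350)

* `killedB_swap`, `chargedB_swap`, `boostB_swap`, `mem_Lnk_swap`;
* **`EnR_symm`** : `EnR γ L M B lam R = EnR γ L M B lam (fun b c h => R c b (-h))`;
* `EnR_mono`, `EnR_mono'` : the energy is monotone in the class (on `B × B`, linked, not killed);
* `EnR_or` : `EnR (R ∨ R') ≤ EnR R + EnR R'`, `EnR_exists_le` : a finite union;
* **`EnR_wlog`** : `R b c h → (Q b c h ∨ Q c b (-h))` gives `EnR R ≤ 2 * EnR Q`.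
-/

set_option autoImplicit false

open Finset

namespace Crest.Agent.R4C.EnRsymx350

open Crest.Agent.R4C.Basex935 Crest.Agent.R4C.CrCoinx935 Crest.Agent.R4C.CrCountx935
  Crest.Agent.R4C.Bridgex882 Crest.Agent.R4C.Spinex946

variable {γ L : ℝ} {M : ℕ} {lam : ℕ → ℕ → Option ℤ}

lemma killedB_swap {b c : ℕ} {h : ℤ} : killedB lam c b (-h) ↔ killedB lam b c h := by
  have key : ∀ {b c : ℕ} {h : ℤ}, killedB lam b c h → killedB lam c b (-h) := by
    intro b c h h1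
    unfold killedB at h1 ⊢
    rw [Nat.gcd_comm c b]
    rcases h1 with ⟨p, hp, hd, a, ha, h2⟩ | ⟨p, hp, hd, a, ha, h2⟩
    · refine Or.inr ⟨p, hp, hd, a, ha, ?_⟩
      have e : -h + ((b / Nat.gcd b c : ℕ) : ℤ) * a = -(h - ((b / Nat.gcd b c : ℕ) : ℤ) * a) := by
        ring
      rw [e]; exact (dvd_neg).2 h2
    · refine Or.inl ⟨p, hp, hd, a, ha, ?_⟩
      have e : -h - ((c / Nat.gcd b c : ℕ) : ℤ) * a = -(h + ((c / Nat.gcd b c : ℕ) : ℤ) * a) := by
        ring
      rw [e]; exact (dvd_neg).2 h2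
  refine ⟨fun h1 => ?_, key⟩
  have := key h1
  rwa [neg_neg] at this

lemma chargedB_swap {b c : ℕ} {h : ℤ} {p : ℕ} :
    chargedB lam c b (-h) p ↔ chargedB lam b c h p := by
  have key : ∀ {b c : ℕ} {h : ℤ}, chargedB lam b c h p → chargedB lam c b (-h) p := by
    intro b c h h1
    unfold chargedB at h1 ⊢
    rw [Nat.gcd_comm c b]
    rcases h1 with h1 | h1 | ⟨h1, h2, a, a', ha, ha', h3⟩
    · exact Or.inr (Or.inl h1)
    · exact Or.inl h1
    · refine Or.inr (Or.inr ⟨h2, h1, a', a, ha', ha, ?_⟩)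
      have e : -h - ((c / Nat.gcd b c : ℕ) : ℤ) * a' + ((b / Nat.gcd b c : ℕ) : ℤ) * a =
          -(h - ((b / Nat.gcd b c : ℕ) : ℤ) * a + ((c / Nat.gcd b c : ℕ) : ℤ) * a') := by ring
      rw [e]; exact (dvd_neg).2 h3
  refine ⟨fun h1 => ?_, key⟩
  have := key h1
  rwa [neg_neg] at this

lemma boostB_swap (b c : ℕ) (h : ℤ) : boostB M lam c b (-h) = boostB M lam b c h := by
  classical
  unfold boostB
  rw [Finset.union_comm]
  refine Finset.prod_congr rfl fun p _ => ?_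
  by_cases hp : chargedB lam b c h p
  · rw [if_pos hp, if_pos (chargedB_swap.2 hp)]
  · rw [if_neg hp, if_neg (fun h1 => hp (chargedB_swap.1 h1))]

lemma mem_Lnk_swap {b c : ℕ} {h : ℤ} : -h ∈ Lnk γ L c b ↔ h ∈ Lnk γ L b c := by
  unfold Lnk
  rw [mem_Hf, mem_Hf, Nat.gcd_comm c b]
  have e : |(((c / Nat.gcd b c : ℕ) : ℝ) - ((b / Nat.gcd b c : ℕ) : ℝ)) * γ + ((-h : ℤ) : ℝ)| =
      |(((b / Nat.gcd b c : ℕ) : ℝ) - ((c / Nat.gcd b c : ℕ) : ℝ)) * γ + (h : ℝ)| := by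
    rw [← abs_neg]
    congr 1
    push_cast
    ring
  rw [e]

open Classical in
/-- the inner sum of `EnR` -/
lemma inner_swap (R : ℕ → ℕ → ℤ → Prop) (b c : ℕ) :
    ∑ h ∈ (Lnk γ L c b).filter (fun h => ¬ killedB lam c b h ∧ R c b h), boostB M lam c b h =
      ∑ h ∈ (Lnk γ L b c).filter (fun h => ¬ killedB lam b c h ∧ R c b (-h)),
        boostB M lam b c h := by
  refine Finset.sum_bij' (fun h _ => -h) (fun h _ => -h) ?_ ?_ ?_ ?_ ?_
  · intro h hh
    rw [Finset.mem_filter] at hh ⊢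
    refine ⟨mem_Lnk_swap.1 (by rw [neg_neg]; exact hh.1), fun h1 => hh.2.1 ?_, ?_⟩
    · have := killedB_swap.2 h1
      rwa [neg_neg] at this
    · rw [neg_neg]; exact hh.2.2
  · intro h hh
    rw [Finset.mem_filter] at hh ⊢
    exact ⟨mem_Lnk_swap.2 hh.1, fun h1 => hh.2.1 (killedB_swap.1 h1), hh.2.2⟩
  · intro h _; exact neg_neg h
  · intro h _; exact neg_neg h
  · intro h _
    have := boostB_swap (M := M) (lam := lam) b c (-h)
    rwa [neg_neg] at this

/-- **symmetry of the energy** -/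
theorem EnR_symm (B : Finset ℕ) (R : ℕ → ℕ → ℤ → Prop) :
    EnR γ L M B lam R = EnR γ L M B lam (fun b c h => R c b (-h)) := by
  classical
  unfold EnR
  congr 1
  rw [Finset.sum_comm' (t' := B) (s' := fun c => B.erase c)
    (h := fun x y => by
      simp only [Finset.mem_erase]
      constructor
      · rintro ⟨h1, h2, h3⟩; exact ⟨⟨fun h => h2 h.symm, h1⟩, h3⟩
      · rintro ⟨⟨h1, h2⟩, h3⟩; exact ⟨h2, fun h => h1 h.symm, h3⟩)]
  refine Finset.sum_congr rfl fun b _ => Finset.sum_congr rfl fun c _ => ?_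
  rw [inner_swap R b c, Nat.gcd_comm c b]
  ring

/-- **monotonicity of the energy in the class** -/
theorem EnR_mono (hL : 0 ≤ L) {B : Finset ℕ} {R Q : ℕ → ℕ → ℤ → Prop}
    (hRQ : ∀ b ∈ B, ∀ c ∈ B, b ≠ c → ∀ h ∈ Lnk γ L b c, ¬ killedB lam b c h →
      R b c h → Q b c h) :
    EnR γ L M B lam R ≤ EnR γ L M B lam Q := by
  classical
  unfold EnR
  refine mul_le_mul_of_nonneg_left (Finset.sum_le_sum fun b hb =>
    Finset.sum_le_sum fun c hc => ?_) hL
  have h3 : 0 ≤ (Nat.gcd b c : ℝ) * nu M b * nu M c :=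
    mul_nonneg (mul_nonneg (by positivity) (nu_nonneg _ _)) (nu_nonneg _ _)
  refine mul_le_mul_of_nonneg_left (Finset.sum_le_sum_of_subset_of_nonneg ?_
    fun h _ _ => boostB_nonneg _ _ _ _ _) h3
  intro h hh
  rw [Finset.mem_filter] at hh ⊢
  exact ⟨hh.1, hh.2.1, hRQ b hb c (Finset.mem_of_mem_erase hc)
    (fun h => (Finset.ne_of_mem_erase hc) h.symm) h hh.1 hh.2.1 hh.2.2⟩

/-- monotonicity, pointwise -/
theorem EnR_mono' (hL : 0 ≤ L) {B : Finset ℕ} {R Q : ℕ → ℕ → ℤ → Prop}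
    (hRQ : ∀ b c h, R b c h → Q b c h) : EnR γ L M B lam R ≤ EnR γ L M B lam Q :=
  EnR_mono hL fun b _ c _ _ h _ _ => hRQ b c h

/-- **union of two classes** -/
theorem EnR_or (hL : 0 ≤ L) (B : Finset ℕ) (R Q : ℕ → ℕ → ℤ → Prop) :
    EnR γ L M B lam (fun b c h => R b c h ∨ Q b c h) ≤
      EnR γ L M B lam R + EnR γ L M B lam Q := by
  classical
  unfold EnR
  rw [← mul_add, ← Finset.sum_add_distrib]
  refine mul_le_mul_of_nonneg_left (Finset.sum_le_sum fun b _ => ?_) hL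
  rw [← Finset.sum_add_distrib]
  refine Finset.sum_le_sum fun c _ => ?_
  have h3 : 0 ≤ (Nat.gcd b c : ℝ) * nu M b * nu M c :=
    mul_nonneg (mul_nonneg (by positivity) (nu_nonneg _ _)) (nu_nonneg _ _)
  rw [← mul_add]
  refine mul_le_mul_of_nonneg_left ?_ h3
  have h4 : ∑ h ∈ (Lnk γ L b c).filter (fun h => ¬ killedB lam b c h ∧ R b c h) ∪
        (Lnk γ L b c).filter (fun h => ¬ killedB lam b c h ∧ Q b c h), boostB M lam b c h ≤
      ∑ h ∈ Lnk γ L b c with ¬ killedB lam b c h ∧ R b c h, boostB M lam b c h +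
      ∑ h ∈ Lnk γ L b c with ¬ killedB lam b c h ∧ Q b c h, boostB M lam b c h := by
    rw [← Finset.sum_union_inter]
    exact le_add_of_nonneg_right (Finset.sum_nonneg fun h _ => boostB_nonneg _ _ _ _ _)
  refine (Finset.sum_le_sum_of_subset_of_nonneg ?_ fun h _ _ => boostB_nonneg _ _ _ _ _).trans h4
  intro h hh
  simp only [Finset.mem_union, Finset.mem_filter] at hh ⊢
  tauto

/-- **finite union of classes** -/
theorem EnR_exists_le (hL : 0 ≤ L) (B : Finset ℕ) {ι : Type*} (s : Finset ι)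
    (R : ι → ℕ → ℕ → ℤ → Prop) :
    EnR γ L M B lam (fun b c h => ∃ i ∈ s, R i b c h) ≤ ∑ i ∈ s, EnR γ L M B lam (R i) := by
  classical
  induction s using Finset.induction_on with
  | empty =>
    rw [Finset.sum_empty]
    unfold EnR
    simp
  | insert i s hi ih =>
    rw [Finset.sum_insert hi]
    refine le_trans ?_ (add_le_add le_rfl ih)
    refine le_trans (EnR_mono' hL ?_) (EnR_or hL B (R i) (fun b c h => ∃ i ∈ s, R i b c h))
    rintro b c h ⟨j, hj, hR⟩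
    rcases Finset.mem_insert.1 hj with rfl | hj
    · exact Or.inl hR
    · exact Or.inr ⟨j, hj, hR⟩

/-- **without loss of generality**: a class covered by `Q` and its mirror image -/
theorem EnR_wlog (hL : 0 ≤ L) {B : Finset ℕ} {R Q : ℕ → ℕ → ℤ → Prop}
    (hRQ : ∀ b ∈ B, ∀ c ∈ B, b ≠ c → ∀ h ∈ Lnk γ L b c, ¬ killedB lam b c h →
      R b c h → Q b c h ∨ Q c b (-h)) :
    EnR γ L M B lam R ≤ 2 * EnR γ L M B lam Q := by
  refine (EnR_mono hL hRQ).trans ((EnR_or hL B Q (fun b c h => Q c b (-h))).trans ?_)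
  rw [← EnR_symm B Q]
  linarith

end Crest.Agent.R4C.EnRsymx350
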