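import Crest.Agent.R4C.LBx_500
import Crest.Agent.R4C.BoxUniq_60

/-!
# Row 4, class (L): symmetry, uniqueness and existence of the box data of a pair (helper11)

* `Al_symm`, `alSet_symm`, `AlLe_symm`, `X1_symm`, `BigW_symm`, `NoEx_symm`, **`LP_symm`** :
  exchange of `b, c` (`h ↦ -h`, `f ↔ f'`);
* `centre_eq` : two centres of one word with depths in `[K, 2K)` (measured at their levels
  `t, t₁`) are equal, and so are their `k0`;
* **`BxL_unique`** : the data `f, f', h` and the twists of a pair in a box are unique;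
* **`BxL_of_LP`** : a pair of class (L) with deep side `b`, good at the block start and not smooth
  lies in a box; `box_of_LP` : both sides.
-/

set_option autoImplicit false

namespace Crest.Agent.R4C.LCovBx11

open Crest.Agent.R4C.FLDefx935 Crest.Agent.R4C.BoostCx972 Crest.Agent.R4C.CrCoinx935
  Crest.Agent.R4C.CrCountx935 Crest.Agent.R4C.Bridgex882 Crest.Agent.R4C.PrefixMx882
  Crest.Agent.R4C.S7cx14 Crest.Agent.R4C.S7dx14 Crest.Agent.R4C.Cutx50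
  Crest.Agent.R4C.PairRx14 Crest.Agent.R4C.Rulex945 Crest.Agent.R4C.Sharedx11
  Crest.Agent.R4C.Splitx945 Crest.Agent.R4C.BoxUniqx60 Crest.Agent.R4C.LBxx500
  Crest.Agent.R4C.NonPureBlkx559

variable {M : ℕ} {F : FL M} {P : Par}

/-! ### symmetry -/

lemma gap_symm' {f f' : ℚ} {s s' : ℕ} {h : ℤ} (h0 : BoostCx972.gap f f' s s' h = 0) :
    BoostCx972.gap f' f s' s (-h) = 0 := by
  unfold BoostCx972.gap at h0 ⊢
  push_cast
  linear_combination -h0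

lemma Al_symm {b c s s' p : ℕ} {h : ℤ} {f f' : ℚ} (ha : Al F P b c s s' h p f f') :
    Al F P c b s' s (-h) p f' f :=
  ⟨ha.prime, ha.ns', ha.ns, ha.used', ha.used, ha.den', ha.den, gap_symm' ha.pt⟩

lemma alSet_symm (b c s s' : ℕ) (h : ℤ) :
    alSet F P c b s' s (-h) = alSet F P b c s s' h := by
  classical
  ext p
  unfold alSet
  rw [Finset.mem_filter, Finset.mem_filter, Finset.union_comm]
  refine and_congr_right fun _ => ⟨?_, ?_⟩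
  · rintro ⟨f, f', ha⟩
    have := Al_symm ha
    rw [neg_neg] at this
    exact ⟨f', f, this⟩
  · rintro ⟨f, f', ha⟩
    exact ⟨f', f, Al_symm ha⟩

lemma AlLe_symm {b c x : ℕ} {h : ℤ} (ha : AlLe F P b c h x) : AlLe F P c b (-h) x := by
  intro q hq
  rw [Nat.gcd_comm c b, alSet_symm] at hq
  exact ha q hq

lemma X1_symm (b c : ℕ) : X1 P c b = X1 P b c := by
  unfold X1
  rw [Nat.gcd_comm]

lemma BigW_symm {t b c : ℕ} {f f' : ℚ} (h : BigW F P t b c f f') : BigW F P t c b f' f := by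
  obtain ⟨h1, h2⟩ := h
  refine ⟨?_, ?_⟩
  · rw [Nat.gcd_comm c b, mul_comm (low (P.cut t) (c / Nat.gcd b c) : ℝ)]
    exact h2
  · rw [Nat.gcd_comm c b, mul_comm (low (P.cut t) (c / Nat.gcd b c) : ℝ)]
    exact h1

lemma NoEx_symm {x b c : ℕ} {f f' : ℚ} (h : NoEx x b c f f') : NoEx x c b f' f :=
  fun p hp hpx => ⟨(h p hp hpx).2, (h p hp hpx).1⟩

/-- **symmetry of the pairs of class (L)** -/
theorem LP_symm {t b c p : ℕ} {h : ℤ} {f f' : ℚ} (hb : b ∣ M) (hc : c ∣ M)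
    (hP : LP F P t b c h f f' p) : LP F P t c b (-h) f' f p where
  good := FL.good_symm hb hc hP.good
  pt := by rw [Nat.gcd_comm c b]; exact gap_symm' hP.pt
  db := hP.dc
  dc := hP.db
  ib := hP.ic
  ic := hP.ib
  tc := hP.tc.symm
  prime := hP.prime
  le := hP.le
  deep := by rw [Nat.gcd_comm c b]; exact hP.deep.symm
  top := fun r hr h1 h2 => ⟨(hP.top r hr h1 h2).2, (hP.top r hr h1 h2).1⟩
  topk := fun r hr h1 h2 => by
    rw [Nat.gcd_comm c b]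
    exact ⟨(hP.topk r hr h1 h2).2, (hP.topk r hr h1 h2).1⟩
  big := BigW_symm hP.big
  al := AlLe_symm hP.al
  m0 := hP.m0
  scl := by rw [Nat.gcd_comm c b]; exact hP.scl
  near := by rw [X1_symm]; exact hP.near

/-- the link, symmetric -/
lemma lnk_symm {b c : ℕ} {h : ℤ} {γ L : ℝ}
    (hl : |(((b / Nat.gcd b c : ℕ) : ℝ) - ((c / Nat.gcd b c : ℕ) : ℝ)) * γ + h| <
      L / (Nat.gcd b c : ℕ)) :
    |(((c / Nat.gcd c b : ℕ) : ℝ) - ((b / Nat.gcd c b : ℕ) : ℝ)) * γ + ((-h : ℤ) : ℝ)| <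
      L / (Nat.gcd c b : ℕ) := by
  rw [Nat.gcd_comm c b]
  refine lt_of_eq_of_lt ?_ hl
  rw [← abs_neg]
  congr 1
  push_cast
  ring

/-! ### uniqueness -/

/-- the offset is determined by the common point -/
lemma gap_unique {f f' : ℚ} {s s' : ℕ} {h h₁ : ℤ} (h0 : BoostCx972.gap f f' s s' h = 0)
    (h1 : BoostCx972.gap f f' s s' h₁ = 0) : h = h₁ := by
  unfold BoostCx972.gap at h0 h1
  have h2 : (h : ℚ) = h₁ := by linarith
  exact_mod_cast h2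

lemma Ix_dep {t d : ℕ} {f : ℚ} (h : Ix F P t d f) :
    ∃ m, t ≤ m ∧ TC F P m d f ∧ dep F P m d f = dep F P t d f := by
  obtain ⟨m, h1, h2, h3⟩ := h
  refine ⟨m, h1, h2, ?_⟩
  unfold dep
  rw [h3]

/-- one order of the levels -/
lemma centre_eq_aux (hL : 0 < P.L) (hM : 0 < M) (hcut : Monotone P.cut)
    (hE : ∀ m, P.m0 ≤ m → 4 * P.E m ^ 8 < 2 ^ m) {K : ℝ} {d t t₁ : ℕ} {f f₁ : ℚ} (hd : d ∣ M)
    (ht : P.m0 ≤ t) (hc1 : 1 ≤ P.cut t) (htt : t ≤ t₁) (hi : Ix F P t d f)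
    (hi₁ : Ix F P t₁ d f₁) (hdE : dep F P t d f ≤ P.E t ^ 4) (hK : K ≤ dep F P t d f)
    (hK₁ : dep F P t₁ d f₁ < 2 * K) :
    f = f₁ ∧ k0 F (P.cut t) d f = k0 F (P.cut t₁) d f₁ := by
  obtain ⟨m, hm, tm, em⟩ := Ix_dep hi
  obtain ⟨m₁, hm₁, tm₁, em₁⟩ := Ix_dep hi₁
  set Et := P.E t with hEt
  have d1 : dep F P m d f ≤ Et ^ 4 := em ▸ hdE
  have d2 : dep F P m₁ d f₁ ≤ 2 * Et ^ 4 := by
    rw [em₁]
    linarith
  have hfe : f = f₁ := by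
    rcases le_total m m₁ with h12 | h12
    · refine box_unique (R := 1) hL hM hcut hd hd le_rfl h12 (SameUp.refl _ _) le_rfl (by simp)
        tm.scl d1 d2 ?_
      calc 2 * 1 * Et ^ 4 * (2 * Et ^ 4) = 4 * Et ^ 8 := by ring
        _ < 2 ^ t := hE t ht
        _ ≤ 2 ^ m := pow_le_pow_right₀ (by norm_num) hm
    · refine (box_unique (R := 1) hL hM hcut hd hd le_rfl h12 (SameUp.refl _ _) le_rfl (by simp)
        tm₁.scl d2 d1 ?_).symm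
      calc 2 * 1 * (2 * Et ^ 4) * Et ^ 4 = 4 * Et ^ 8 := by ring
        _ < 2 ^ t := hE t ht
        _ ≤ 2 ^ m₁ := pow_le_pow_right₀ (by norm_num) (htt.trans hm₁)
  refine ⟨hfe, ?_⟩
  rw [← hfe]
  rcases k0_jump' (F := F) hM hd (hcut htt) f with h1 | h1
  · exact h1
  exfalso
  -- the depth would be multiplied by `cut t + 1 ≥ 2`
  have h2 : (2 : ℝ) * k0 F (P.cut t) d f ≤ k0 F (P.cut t₁) d f := by
    have h3 : 2 * k0 F (P.cut t) d f ≤ (P.cut t + 1) * k0 F (P.cut t) d f :=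
      Nat.mul_le_mul_right _ (by omega)
    exact_mod_cast h3.trans h1
  have h4 : 2 * dep F P t d f ≤ dep F P t₁ d f := by
    unfold dep
    have h5 : (0 : ℝ) ≤ max 1 ((d : ℝ) * |P.γ - f| / P.L) := zero_le_one.trans (le_max_left _ _)
    calc 2 * ((k0 F (P.cut t) d f : ℝ) * max 1 ((d : ℝ) * |P.γ - f| / P.L))
        = (2 * k0 F (P.cut t) d f) * max 1 ((d : ℝ) * |P.γ - f| / P.L) := by ring
      _ ≤ _ := mul_le_mul_of_nonneg_right h2 h5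
  rw [← hfe] at hK₁
  linarith

/-- **the centre of a word with depth in `[K, 2K)` is unique** (over all levels), and so is `k0` -/
theorem centre_eq (hL : 0 < P.L) (hM : 0 < M) (hcut : Monotone P.cut)
    (hE : ∀ m, P.m0 ≤ m → 4 * P.E m ^ 8 < 2 ^ m) {K : ℝ} {d t t₁ : ℕ} {f f₁ : ℚ} (hd : d ∣ M)
    (ht : P.m0 ≤ t) (ht₁ : P.m0 ≤ t₁) (hc : 1 ≤ P.cut t) (hc₁ : 1 ≤ P.cut t₁)
    (hi : Ix F P t d f) (hi₁ : Ix F P t₁ d f₁)
    (hdE : dep F P t d f ≤ P.E t ^ 4) (hdE₁ : dep F P t₁ d f₁ ≤ P.E t₁ ^ 4)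
    (hK : K ≤ dep F P t d f) (hK' : dep F P t d f < 2 * K) (hK₁ : K ≤ dep F P t₁ d f₁)
    (hK₁' : dep F P t₁ d f₁ < 2 * K) :
    f = f₁ ∧ k0 F (P.cut t) d f = k0 F (P.cut t₁) d f₁ := by
  rcases le_total t t₁ with h | h
  · exact centre_eq_aux hL hM hcut hE hd ht hc h hi hi₁ hdE hK hK₁'
  · obtain ⟨h1, h2⟩ := centre_eq_aux hL hM hcut hE hd ht₁ hc₁ h hi₁ hi hdE₁ hK₁ hK'
    exact ⟨h1.symm, h2.symm⟩

lemma one_le_cut {jB : ℕ → ℕ} {j0 : ℕ} (H : HyB M P jB j0) {t : ℕ} (ht : P.m0 ≤ t) :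
    1 ≤ P.cut t := by
  have h1 := H.jBE t ht
  have h2 : (1 : ℝ) ≤ P.E t ^ 4 := one_le_pow₀ (H.E_one t)
  have h3 : (1 : ℝ) ≤ (Xj (jB t) : ℕ) := h2.trans h1
  have h4 : 1 ≤ Xj (jB t) := by exact_mod_cast h3
  exact h4.trans (H.jB1 t ht)

/-- **the data of a pair in a box are unique** -/
theorem BxL_unique {w : ℕ → ℝ} {ε : ℝ} {jB : ℕ → ℕ} {j0 : ℕ} (H : HyB M P jB j0) {v : ℕ}
    {K K' : ℝ} {U U' t t₁ b c : ℕ} {h h₁ : ℤ} {f f' f₁ f₁' : ℚ} (hb : b ∣ M) (hc : c ∣ M)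
    (h1 : BxL F P w ε jB v K K' U U' t b c h f f')
    (h2 : BxL F P w ε jB v K K' U U' t₁ b c h₁ f₁ f₁') :
    f = f₁ ∧ f' = f₁' ∧ h = h₁ ∧
      k0 F (P.cut t) b f = k0 F (P.cut t₁) b f₁ ∧ k0 F (P.cut t) c f' = k0 F (P.cut t₁) c f₁' ∧
      tw F P (P.Y v) t b c f f' = tw F P (P.Y v) t₁ b c f₁ f₁' ∧
      tw F P (P.Y v) t c b f' f = tw F P (P.Y v) t₁ c b f₁' f₁ := by
  have hE : ∀ m, P.m0 ≤ m → 4 * P.E m ^ 8 < 2 ^ m := by
    intro m hm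
    have h3 := H.hE m hm
    have h4 : (0 : ℝ) ≤ P.E m ^ 8 := pow_nonneg (zero_le_one.trans (H.E_one m)) _
    linarith
  obtain ⟨e1, k1⟩ := centre_eq H.hL H.hM H.cut_mono hE hb h1.m0 h2.m0 (one_le_cut H h1.m0)
    (one_le_cut H h2.m0) h1.ib h2.ib h1.eb h2.eb h1.db h1.db' h2.db h2.db'
  obtain ⟨e2, k2⟩ := centre_eq H.hL H.hM H.cut_mono hE hc h1.m0 h2.m0 (one_le_cut H h1.m0)
    (one_le_cut H h2.m0) h1.ic h2.ic h1.ec h2.ec h1.dc h1.dc' h2.dc h2.dc'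
  refine ⟨e1, e2, ?_, k1, k2, ?_, ?_⟩
  · have h3 := h1.pt
    rw [e1, e2] at h3
    exact gap_unique h3 h2.pt
  · unfold tw
    rw [k1, k2]
  · unfold tw
    rw [k1, k2]

/-! ### existence -/

lemma exists_dyadic {x : ℝ} (hx : 1 ≤ x) : ∃ n : ℕ, (2 : ℝ) ^ n ≤ x ∧ x < 2 * 2 ^ n := by
  obtain ⟨n, h1, h2⟩ := exists_nat_pow_near hx (by norm_num : (1 : ℝ) < 2)
  exact ⟨n, h1, by rw [pow_succ] at h2; linarith⟩

lemma exists_dyadic_nat {x : ℕ} (hx : 1 ≤ x) : ∃ n : ℕ, 2 ^ n ≤ x ∧ x < 2 * 2 ^ n := by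
  refine ⟨Nat.log 2 x, Nat.pow_log_le_self 2 (by omega), ?_⟩
  have := Nat.lt_pow_succ_log_self (by norm_num : 1 < 2) x
  rw [pow_succ] at this
  omega

lemma tw_pos (y t b c : ℕ) (f f' : ℚ) : 1 ≤ tw F P y t b c f f' := upp_pos _ _

lemma tw_le_dep (y t b c : ℕ) (f f' : ℚ) : (tw F P y t b c f f' : ℝ) ≤ dep F P t b f := by
  refine le_trans ?_ (k0_le_dep (F := F) (P := P) t b f)
  have hk := k0_pos (F := F) (P.cut t) b f
  have h1 : k0 F (P.cut t) b f / Nat.gcd (k0 F (P.cut t) b f) (k0 F (P.cut t) c f') ≤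
      k0 F (P.cut t) b f := Nat.div_le_self _ _
  have h2 : 0 < k0 F (P.cut t) b f / Nat.gcd (k0 F (P.cut t) b f) (k0 F (P.cut t) c f') :=
    Nat.div_pos (Nat.gcd_le_left _ hk) (Nat.gcd_pos_of_pos_left _ hk)
  have h3 : tw F P y t b c f f' ≤ k0 F (P.cut t) b f :=
    (Nat.le_of_dvd h2 (upp_dvd_self _ _)).trans h1
  exact_mod_cast h3

/-- **a pair of class (L) with deep side `b` lies in a box** -/
theorem BxL_of_LP {w : ℕ → ℝ} {δ ε : ℝ} {jB : ℕ → ℕ} {t b c p : ℕ} {h : ℤ} {f f' : ℚ}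
    (hthr : P.thr = thrS M w P.Y δ ε) (hY : StrictMono P.Y)
    (hact : ∀ m p, p ≤ P.cut m → P.Y (P.blk p) ≤ P.cut m)
    (hl : h ∈ Lnk P.γ P.L b c) (hP : LP F P t b c h f f' p)
    (hdeep : P.thr b (P.blk p) < dep F P t b f)
    (hgj : F.good (Xj (jB t)) b c)
    (hns : dep F P t b f ≤ Real.exp ((P.Y (P.blk p - 1) : ℝ) ^ (4 / 5 : ℝ))) :
    ∃ n n' j j' : ℕ, BxL F P w ε jB (P.blk p) (2 ^ n) (2 ^ n') (2 ^ j) (2 ^ j') t b c h f f' ∧
      j ≤ n ∧ j' ≤ n' ∧ (P.Y (P.blk p - 1) : ℝ) ^ δ < 2 ^ (n + 1) := by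
  obtain ⟨n, n1, n2⟩ := exists_dyadic (one_le_dep (F := F) (P := P) t b f)
  obtain ⟨n', n1', n2'⟩ := exists_dyadic (one_le_dep (F := F) (P := P) t c f')
  obtain ⟨j, j1, j2⟩ := exists_dyadic_nat (tw_pos (F := F) (P := P) (P.Y (P.blk p)) t b c f f')
  obtain ⟨j', j1', j2'⟩ := exists_dyadic_nat (tw_pos (F := F) (P := P) (P.Y (P.blk p)) t c b f' f)
  -- thresholds
  have hdeep' := hdeep
  rw [hthr] at hdeep'
  unfold thrS at hdeep'
  have hmax : max ((P.Y (P.blk p - 1) : ℝ) ^ δ) (ThS M w P.Y b (P.blk p) ^ ε) <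
      dep F P t b f := by
    rcases min_lt_iff.1 hdeep' with h1 | h1
    · exact h1
    · exact absurd hns (not_le.2 h1)
  obtain ⟨m1, m2⟩ := max_lt_iff.1 hmax
  have hjn : j ≤ n := by
    have h1 : (2 : ℝ) ^ j < 2 ^ (n + 1) := by
      calc (2 : ℝ) ^ j ≤ tw F P (P.Y (P.blk p)) t b c f f' := by exact_mod_cast j1
        _ ≤ dep F P t b f := tw_le_dep _ _ _ _ _ _
        _ < 2 * 2 ^ n := n2
        _ = 2 ^ (n + 1) := by ring
    have := (pow_lt_pow_iff_right₀ (by norm_num : (1 : ℝ) < 2)).1 h1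
    omega
  have hjn' : j' ≤ n' := by
    have h1 : (2 : ℝ) ^ j' < 2 ^ (n' + 1) := by
      calc (2 : ℝ) ^ j' ≤ tw F P (P.Y (P.blk p)) t c b f' f := by exact_mod_cast j1'
        _ ≤ dep F P t c f' := tw_le_dep _ _ _ _ _ _
        _ < 2 * 2 ^ n' := n2'
        _ = 2 ^ (n' + 1) := by ring
    have := (pow_lt_pow_iff_right₀ (by norm_num : (1 : ℝ) < 2)).1 h1
    omega
  refine ⟨n, n', j, j', ?_, hjn, hjn', ?_⟩
  · exact
    { m0 := hP.m0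
      good := hP.good
      goodj := hgj
      pt := hP.pt
      lnk := mem_Hf.1 hl
      ib := hP.ib
      ic := hP.ic
      act := hact t p hP.le
      top := fun r hr h1 h2 => hP.top r hr (lt_of_le_of_lt (Par.le_blk hY p) h1) h2
      db := n1
      db' := n2
      dc := n1'
      dc' := n2'
      eb := hP.db
      ec := hP.dc
      big := hP.big
      light := m2
      tb := j1
      tb' := j2
      tc := j1'
      tc' := j2' }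
  · calc (P.Y (P.blk p - 1) : ℝ) ^ δ < dep F P t b f := m1
      _ < 2 * 2 ^ n := n2
      _ = 2 ^ (n + 1) := by ring

lemma Lnk_symm {γ L : ℝ} {b c : ℕ} {h : ℤ} (hl : h ∈ Lnk γ L b c) : -h ∈ Lnk γ L c b := by
  have h1 : |(((b / Nat.gcd b c : ℕ) : ℝ) - ((c / Nat.gcd b c : ℕ) : ℝ)) * γ + h| <
      L / (Nat.gcd b c : ℕ) := mem_Hf.1 hl
  exact mem_Hf.2 (lnk_symm h1)

/-- **both sides**: a pair of class (L), good at the block start, is smooth on its deep side, or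
`(b, c)` or `(c, b)` lies in a box -/
theorem box_of_LP {w : ℕ → ℝ} {δ ε : ℝ} {jB : ℕ → ℕ} {t b c p : ℕ} {h : ℤ} {f f' : ℚ}
    (hb : b ∣ M) (hc : c ∣ M)
    (hthr : P.thr = thrS M w P.Y δ ε) (hY : StrictMono P.Y)
    (hact : ∀ m p, p ≤ P.cut m → P.Y (P.blk p) ≤ P.cut m)
    (hl : h ∈ Lnk P.γ P.L b c) (hP : LP F P t b c h f f' p) (hgj : F.good (Xj (jB t)) b c) :
    (p ∣ c / Nat.gcd b c ∧ p ∣ alC c b f' f ∧
      Real.exp ((P.Y (P.blk p - 1) : ℝ) ^ (4 / 5 : ℝ)) < dep F P t b f) ∨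
    (p ∣ b / Nat.gcd b c ∧ p ∣ alC b c f f' ∧
      Real.exp ((P.Y (P.blk p - 1) : ℝ) ^ (4 / 5 : ℝ)) < dep F P t c f') ∨
    (∃ n n' j j' : ℕ, BxL F P w ε jB (P.blk p) (2 ^ n) (2 ^ n') (2 ^ j) (2 ^ j') t b c h f f' ∧
      j ≤ n ∧ j' ≤ n' ∧ (P.Y (P.blk p - 1) : ℝ) ^ δ < 2 ^ (n + 1)) ∨
    (∃ n n' j j' : ℕ, BxL F P w ε jB (P.blk p) (2 ^ n) (2 ^ n') (2 ^ j) (2 ^ j') t c b (-h)
      f' f ∧ j ≤ n ∧ j' ≤ n' ∧ (P.Y (P.blk p - 1) : ℝ) ^ δ < 2 ^ (n + 1)) := by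
  rcases hP.deep with ⟨h1, h2, h3⟩ | ⟨h1, h2, h3⟩
  · by_cases hs : dep F P t b f ≤ Real.exp ((P.Y (P.blk p - 1) : ℝ) ^ (4 / 5 : ℝ))
    · exact Or.inr (Or.inr (Or.inl (BxL_of_LP hthr hY hact hl hP h3 hgj hs)))
    · exact Or.inl ⟨h1, h2, not_le.1 hs⟩
  · by_cases hs : dep F P t c f' ≤ Real.exp ((P.Y (P.blk p - 1) : ℝ) ^ (4 / 5 : ℝ))
    · exact Or.inr (Or.inr (Or.inr (BxL_of_LP hthr hY hact (Lnk_symm hl) (LP_symm hb hc hP) h3
        (FL.good_symm hb hc hgj) hs)))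
    · exact Or.inr (Or.inl ⟨h1, h2, not_le.1 hs⟩)

end Crest.Agent.R4C.LCovBx11
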