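import Crest.Agent.R4C.HyOf_281
import Crest.Agent.R4C.LBx_500
import Crest.Agent.R4C.LCovB_11
import Crest.Agent.R4C.LBoxDef_662

/-!
# Row 4, class (L): `HyB` for the parameters of the spine (helper11)

* `hyB_of_num`, **`hyB_of`** : `HyB M (ParOf ..) (jBA A) 1` (`jBA A t = log2 (A t)`);
* `act_par` : `p ≤ cut m → Y (blk p) ≤ cut m` for `ParOf`.
-/

set_option autoImplicit false

namespace Crest.Agent.R4C.HyBOfx11

open Crest.Agent.R4C.Spinex946 Crest.Agent.R4C.Splitx945 Crest.Agent.R4C.Rulex945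
  Crest.Agent.R4C.FLDefx935 Crest.Agent.R4C.Cutx50 Crest.Agent.R4C.HyOfx281
  Crest.Agent.R4C.LBxx500 Crest.Agent.R4C.NonPureBlkx559
open Crest.Agent.R4C.FLExx326 (ind)
open Crest.Agent.R4C.LBoxDefx662 (jBA)

section par

variable {cp : ℝ} {A m0 : ℕ} {γ L : ℝ} {M : ℕ} {B : Finset ℕ}

lemma pow_jBA_le {t : ℕ} (h : A * t ≠ 0) : 2 ^ jBA A t ≤ A * t := Nat.pow_log_le_self 2 h

lemma lt_pow_jBA (t : ℕ) : A * t < 2 ^ (jBA A t + 1) :=
  Nat.lt_pow_succ_log_self (by norm_num) _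

/-- `64 E⁸ < 2^m` -/
lemma sixtyfour_E8_lt (hc : cp ≤ 1 / 200) {m : ℕ} (hm : 8 ≤ m) :
    64 * (ParOf cp A m0 γ L M B).E m ^ 8 < 2 ^ m := by
  have hm' : (8 : ℝ) ≤ m := by exact_mod_cast hm
  rw [E_pow]
  calc 64 * (2 : ℝ) ^ (cp * m * (8 : ℕ)) = (2 : ℝ) ^ (6 : ℝ) * (2 : ℝ) ^ (cp * m * (8 : ℕ)) := by
        norm_num
    _ = (2 : ℝ) ^ (6 + cp * m * (8 : ℕ)) := by rw [Real.rpow_add (by norm_num)]
    _ < (2 : ℝ) ^ (m : ℝ) := Real.rpow_lt_rpow_of_exponent_lt (by norm_num) (by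
        have h1 : cp * m ≤ 1 / 200 * m := mul_le_mul_of_nonneg_right hc (by linarith)
        push_cast; linarith)
    _ = 2 ^ m := Real.rpow_natCast 2 m

lemma Xj_jBA_le (hA : 1 ≤ A) {t : ℕ} (ht : 1 ≤ t) : Xj (jBA A t) ≤ 2 ^ (A * t) := by
  have h0 : A * t ≠ 0 := (Nat.mul_pos (by omega) (by omega)).ne'
  unfold Xj
  exact (Nat.sub_le _ _).trans (Nat.pow_le_pow_right (by norm_num) (pow_jBA_le h0))

/-- `2^(A t / 2 - 1) ≤ Xj (jBA A t)` -/
lemma le_Xj_jBA (hA : 1 ≤ A) {t : ℕ} (ht : 2 ≤ t) :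
    (2 : ℝ) ^ ((A * t : ℝ) / 2 - 1) ≤ (Xj (jBA A t) : ℕ) := by
  have h1 : A * t < 2 * 2 ^ jBA A t := by
    have := lt_pow_jBA (A := A) t
    rw [pow_succ] at this
    omega
  have h1R : ((A : ℝ) * t) / 2 ≤ ((2 ^ jBA A t : ℕ) : ℝ) := by
    have h2 : ((A * t : ℕ) : ℝ) < ((2 * 2 ^ jBA A t : ℕ) : ℝ) := by exact_mod_cast h1
    push_cast at h2 ⊢
    linarith
  set n := 2 ^ jBA A t with hn
  have hn1 : 1 ≤ n := Nat.one_le_two_pow
  have e1 : Xj (jBA A t) = 2 ^ n - 1 := rfl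
  have e2 : ((2 ^ n - 1 : ℕ) : ℝ) = (2 : ℝ) ^ n - 1 := by
    rw [Nat.cast_sub Nat.one_le_two_pow]; push_cast; ring
  have e3 : (2 : ℝ) ^ n = 2 * (2 : ℝ) ^ ((n : ℝ) - 1) := by
    rw [Real.rpow_sub (by norm_num), Real.rpow_one, Real.rpow_natCast]; ring
  have h3 : (1 : ℝ) ≤ (2 : ℝ) ^ ((n : ℝ) - 1) := by
    refine Real.one_le_rpow (by norm_num) ?_
    have : (1 : ℝ) ≤ n := by exact_mod_cast hn1
    linarith
  rw [e1, e2, e3]
  have h4 : (2 : ℝ) ^ (((A : ℝ) * t) / 2 - 1) ≤ (2 : ℝ) ^ ((n : ℝ) - 1) :=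
    Real.rpow_le_rpow_of_exponent_le (by norm_num) (by linarith)
  linarith

lemma E4_le_Xj (hc : cp ≤ 1 / 200) (hA : 1 ≤ A) {t : ℕ} (ht : 4 ≤ t) :
    (ParOf cp A m0 γ L M B).E t ^ 4 ≤ (Xj (jBA A t) : ℕ) := by
  refine le_trans ?_ (le_Xj_jBA hA (by omega))
  rw [E_pow]
  refine Real.rpow_le_rpow_of_exponent_le (by norm_num) ?_
  have ht' : (4 : ℝ) ≤ t := by exact_mod_cast ht
  have hA' : (1 : ℝ) ≤ A := by exact_mod_cast hA
  have h1 : cp * t ≤ 1 / 200 * t := mul_le_mul_of_nonneg_right hc (by linarith)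
  have h2 : (t : ℝ) ≤ A * t := by nlinarith
  push_cast
  linarith

/-- activity of the blocks for `ParOf` -/
lemma act_par (m p : ℕ) (hp : p ≤ (ParOf cp A m0 γ L M B).cut m) :
    (ParOf cp A m0 γ L M B).Y ((ParOf cp A m0 γ L M B).blk p) ≤
      (ParOf cp A m0 γ L M B).cut m := by
  have hY : StrictMono (ParOf cp A m0 γ L M B).Y :=
    fun a b hab => Nat.pow_lt_pow_right (by norm_num) hab
  exact Par.act_of_le hY (rfl : (ParOf cp A m0 γ L M B).cut m =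
    (ParOf cp A m0 γ L M B).Y (A * m)) hp

end par

theorem hyB_of_num {cp η : ℝ} {A m0 : ℕ} (h : Num cp η A m0) {γ L : ℝ} {M : ℕ} {B : Finset ℕ}
    (hM : 0 < M) (hL : 0 < L) : HyB M (ParOf cp A m0 γ L M B) (jBA A) 1 where
  hM := hM
  hL := hL
  hN := Nat.le_ceil _
  cut_mono := fun a b hab => Nat.pow_le_pow_right (by norm_num) (Nat.mul_le_mul_left A hab)
  E_one := fun m => Real.one_le_rpow (by norm_num) (mul_nonneg h.cp_pos.le (Nat.cast_nonneg m))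
  hE := fun m hm => sixtyfour_E8_lt h.cp_le (by
    have h1 : m0 ≤ m := hm
    have := h.m0_14
    omega)
  jB0 := fun t ht => by
    have h1 : m0 ≤ t := ht
    have h2 := h.m0_14
    have h3 : 2 ≤ A * t := by
      have := Nat.mul_le_mul h.A_one (show 2 ≤ t by omega)
      omega
    exact Nat.le_log_of_pow_le (by norm_num) (by simpa using h3)
  jB1 := fun t ht => Xj_jBA_le h.A_one (by
    have h1 : m0 ≤ t := ht
    have h2 := h.m0_14
    omega)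
  jBE := fun t ht => E4_le_Xj h.cp_le h.A_one (by
    have h1 : m0 ≤ t := ht
    have h2 := h.m0_14
    omega)

/-- **`HyB` for the parameters of the spine** -/
theorem hyB_of : Ev fun cp η A m0 => ∀ (γ L : ℝ) (M : ℕ) (B : Finset ℕ) (F : FL M),
    Setup η L M B F → HyB M (ParOf cp A m0 γ L M B) (jBA A) 1 :=
  evNum.mono fun _ _ _ _ h _ _ _ _ _ S => hyB_of_num h S.hM S.hL

end Crest.Agent.R4C.HyBOfx11
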