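import Crest.Agent.R4C.LBoxP_500
import Crest.Agent.R4C.LBoxDef_662
import Crest.Agent.R4C.HyBOf_11

/-!
# Row 4, CLASS (L): arrow A (helper500), `TgtA` of `LBoxDef_662`

* `core_of_LB` : a pair of a box of `LBoxDef_662` is a `Core`;
* **`arrA`**, **`tgtA`**.
-/

set_option autoImplicit false

open Finset

namespace Crest.Agent.R4C.LArrAx500

open Crest.Agent.R4C.Basex935 Crest.Agent.R4C.Cutx50 Crest.Agent.R4C.FLDefx935
  Crest.Agent.R4C.Rulex945 Crest.Agent.R4C.Splitx945 Crest.Agent.R4C.Bridgex882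
  Crest.Agent.R4C.S7dx14 Crest.Agent.R4C.BoostCx972 Crest.Agent.R4C.PureL2x232
  Crest.Agent.R4C.Keptx559 Crest.Agent.R4C.LClassx662 Crest.Agent.R4C.LowLx899
  Crest.Agent.R4C.NonPureBlkx559 Crest.Agent.R4C.LBoxDefx662 Crest.Agent.R4C.LBoxPx500
  Crest.Agent.R4C.Spinex946
open Crest.Agent.R4C.LBxx500 (HyB zz)
open Crest.Agent.R4C.FLExx326 (ind)

variable {M : ℕ} {F : FL M} {P : Par}

/-- a pair of a box is a `Core` -/
theorem core_of_LB {w : ℕ → ℝ} {δ : ℝ} {jB : ℕ → ℕ} {x : Bx} {t b c : ℕ} {h : ℤ} {f f' : ℚ}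
    {p : ℕ} (hY : StrictMono P.Y) (hact : ∀ t p, p ≤ P.cut t → P.Y (P.blk p) ≤ P.cut t)
    (hl : h ∈ Lnk P.γ P.L b c) (D : LB F P w δ jB x t b c h f f' p) :
    Core F P jB x.v t b c h f f' where
  m0 := D.lp.m0
  good := D.lp.good
  goodj := D.gd
  pt := D.lp.pt
  lnk := CrCountx935.mem_Hf.1 hl
  ib := D.lp.ib
  ic := D.lp.ic
  act := by
    rw [← D.blk]
    exact hact t p D.lp.le
  top := fun r hr h1 h2 => D.lp.top r hr (by
    have h3 := Par.le_blk hY p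
    rw [D.blk] at h3
    omega) h2
  eb := D.lp.db
  ec := D.lp.dc

/-- one side of arrow A -/
lemma side {jB : ℕ → ℕ} {j0 v t b c : ℕ} {h : ℤ} {f f' : ℚ} (H : HyB M P jB j0) (hb : b ∣ M)
    (hc : c ∣ M) (D : Core F P jB v t b c h f f') {n N j i a : ℕ} (hN1 : 2 ≤ N)
    (hn : dep F P t b f < 2 ^ (n + 1)) (hN : 2 ^ (n + 1) ≤ N)
    (ha : Nat.log 2 (low (P.Y v) b / Nat.gcd (low (P.Y v) b) (low (P.Y v) c)) = a)
    (hi : Nat.log 2 (Nat.gcd (low (P.Y v) b) (low (P.Y v) c)) = i)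
    (hj : 2 ^ j ≤ LBxx500.tw F P (P.Y v) t b c f f')
    (hj1 : LBxx500.tw F P (P.Y v) t b c f f' < 2 ^ (j + 1)) :
    LBxx500.tw F P (P.Y v) t b c f f' ∈ KD F P.γ P.L ((2 : ℝ) ^ (i + a + 1) * N) ((N : ℝ) ^ 3) N
      P.cut (LDecx500.lb P) (range (P.N + 1)) (2 ^ j) (zz (P.cut t) (P.Y v) b c) := by
  obtain ⟨h1, h2⟩ := low_size (y := P.Y v) (Nat.pos_of_dvd_of_pos hb H.hM).ne' ha hi
  have h1R : (2 : ℝ) ^ (i + a) ≤ low (P.Y v) b := by exact_mod_cast h1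
  have h2R : (low (P.Y v) b : ℝ) ≤ 4 * 2 ^ (i + a) := by exact_mod_cast h2.le
  have hp : (0 : ℝ) < 2 ^ (i + a) := by positivity
  have hNR : (2 : ℝ) ≤ N := by exact_mod_cast hN1
  have hNn : (2 : ℝ) ^ (n + 1) ≤ N := by exact_mod_cast hN
  have hκ1 : (1 : ℝ) ≤ LBxx500.tw F P (P.Y v) t b c f f' := by
    exact_mod_cast Core.tw_pos (F := F) (P := P)
  have hκN : (LBxx500.tw F P (P.Y v) t b c f f' : ℝ) ≤ N := by
    have e1 : (LBxx500.tw F P (P.Y v) t b c f f' : ℝ) ≤ k0 F (P.cut t) b f := by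
      exact_mod_cast Nat.le_of_dvd (k0_pos _ _ _) Core.tw_dvd
    have e2 : (k0 F (P.cut t) b f : ℝ) ≤ dep F P t b f := k0_le_dep _ _ _
    linarith
  refine Finset.mem_filter.2 ⟨D.mem_KK' H hb hc (K := 2 ^ n) (by positivity) ?_ ?_ ?_ ?_, hj, ?_⟩
  · push_cast
    calc (low (P.Y v) b : ℝ) * LBxx500.tw F P (P.Y v) t b c f f'
        ≤ (4 * 2 ^ (i + a)) * N := mul_le_mul h2R hκN (by linarith) (by positivity)
      _ = 2 * (2 ^ (i + a + 1) * N) := by rw [pow_succ]; ring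
  · rw [← pow_succ']; exact hn
  · rw [← pow_succ']; exact hNn
  · rw [← pow_succ']
    push_cast
    have e1 : (2 : ℝ) ^ (i + a) * 1 ≤ low (P.Y v) b * LBxx500.tw F P (P.Y v) t b c f f' :=
      mul_le_mul h1R hκ1 zero_le_one (by linarith)
    set W : ℝ := (low (P.Y v) b : ℝ) * LBxx500.tw F P (P.Y v) t b c f f' with hW
    have hW0 : 0 ≤ W := by positivity
    calc (2 : ℝ) ^ (i + a + 1) * N * 2 ^ (n + 1) ≤ (2 * W) * N * N := by
          refine mul_le_mul ?_ hNn (by positivity) (by positivity)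
          refine mul_le_mul_of_nonneg_right ?_ (by linarith)
          rw [pow_succ]; linarith
      _ = (2 * (N : ℝ) ^ 2) * W := by ring
      _ ≤ (N * (N : ℝ) ^ 2) * W := by
          refine mul_le_mul_of_nonneg_right ?_ hW0
          exact mul_le_mul_of_nonneg_right hNR (by positivity)
      _ = (N : ℝ) ^ 3 * W := by ring
  · rw [pow_succ, Nat.mul_comm] at hj1
    exact hj1

/-- **ARROW A** -/
theorem arrA {w : ℕ → ℝ} {δ : ℝ} {jB : ℕ → ℕ} {j0 : ℕ} (hM : 0 < M) (H : HyB M P jB j0)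
    (hY : StrictMono P.Y) (hact : ∀ t p, p ≤ P.cut t → P.Y (P.blk p) ≤ P.cut t) :
    ArrA F P hM w δ jB j0 := by
  intro x t b c h f f' p hb hc hl D
  have C := core_of_LB hY hact hl D
  have C' := C.swap hb hc
  have hN2 : 2 ≤ x.N := by
    unfold Bx.N
    calc 2 = 2 ^ 1 := by norm_num
      _ ≤ 2 ^ (x.mx + 1) := Nat.pow_le_pow_right (by norm_num) (by omega)
  have hN : 2 ^ (x.n + 1) ≤ x.N := Nat.pow_le_pow_right (by norm_num) (by
    have : x.n ≤ x.mx := le_max_left _ _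
    omega)
  have hN' : 2 ^ (x.n' + 1) ≤ x.N := Nat.pow_le_pow_right (by norm_num) (by
    have : x.n' ≤ x.mx := le_max_right _ _
    omega)
  refine ⟨zz (P.cut t) (P.Y x.v) b c, zz (P.cut t) (P.Y x.v) c b, C.upp_b H hb hc,
    C'.upp_b H hc hb, ?_, ?_, le_of_eq (C.gcd_upp_le H hb hc), ?_, C.kz H hb hc⟩
  · exact side H hb hc C hN2 D.dn1 hN rfl rfl D.tj D.tj1
  · refine side H hc hb C' hN2 D.dn1' hN' ?_ ?_ D.tj' D.tj1'
    · unfold ca'
      rw [Nat.gcd_comm]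
    · unfold ci
      rw [Nat.gcd_comm]
  · intro q _ _ hqx
    unfold zz
    rw [LDecx500.fact_z0' hqx, LDecx500.fact_z0' hqx, Nat.gcd_comm c b]

/-- **target A** -/
theorem tgtA (γ : ℝ) : TgtA γ := by
  refine HyBOfx11.hyB_of.mono ?_
  intro cp η A m0 h L M B F S
  exact arrA S.hM (h γ L M B F S) (fun a b hab => Nat.pow_lt_pow_right (by norm_num) hab)
    (fun t p hp => HyBOfx11.act_par t p hp)

end Crest.Agent.R4C.LArrAx500
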