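import Crest.Agent.R4C.HyBOf_11

/-!
# Row 4, class (L): arrows U (uniqueness) and K (cover) of `LBoxDef_662` (helper11)

* `arrU`, **`tgtU`** : two `LB` of the same pair and box have the same `f, f', h`;
* `LB_of_LP`, `arrK`, **`tgtK`** : `CLow` ⇒ `BadS`, `LSm`, `LB` or the mirrored `LB`.
-/

set_option autoImplicit false

namespace Crest.Agent.R4C.LArrUKx11

open Crest.Agent.R4C.FLDefx935 Crest.Agent.R4C.BoostCx972 Crest.Agent.R4C.CrCoinx935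
  Crest.Agent.R4C.CrCountx935 Crest.Agent.R4C.Bridgex882 Crest.Agent.R4C.PrefixMx882
  Crest.Agent.R4C.S7cx14 Crest.Agent.R4C.S7dx14 Crest.Agent.R4C.Cutx50
  Crest.Agent.R4C.PairRx14 Crest.Agent.R4C.Rulex945 Crest.Agent.R4C.Sharedx11
  Crest.Agent.R4C.Splitx945 Crest.Agent.R4C.LBxx500 Crest.Agent.R4C.LCovBx11
  Crest.Agent.R4C.NonPureBlkx559 Crest.Agent.R4C.LBoxDefx662 Crest.Agent.R4C.Spinex946
  Crest.Agent.R4C.HyBOfx11
open Crest.Agent.R4C.FLExx326 (ind)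

variable {M : ℕ} {F : FL M} {P : Par}

/-! ### arrow U -/

theorem arrU {w : ℕ → ℝ} {δ : ℝ} {jB : ℕ → ℕ} {j0 : ℕ} (H : HyB M P jB j0) :
    ArrU F P w δ jB := by
  intro x b c t₁ t₂ h₁ h₂ f₁ f₁' f₂ f₂' p₁ p₂ hb hc B1 B2
  have hE : ∀ m, P.m0 ≤ m → 4 * P.E m ^ 8 < 2 ^ m := by
    intro m hm
    have h3 := H.hE m hm
    have h4 : (0 : ℝ) ≤ P.E m ^ 8 := pow_nonneg (zero_le_one.trans (H.E_one m)) _
    linarith
  have pw : ∀ n : ℕ, (2 : ℝ) ^ (n + 1) = 2 * 2 ^ n := fun n => by ring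
  obtain ⟨e1, _⟩ := centre_eq (K := 2 ^ x.n) H.hL H.hM H.cut_mono hE hb B1.lp.m0 B2.lp.m0
    (one_le_cut H B1.lp.m0) (one_le_cut H B2.lp.m0) B1.lp.ib B2.lp.ib B1.lp.db B2.lp.db B1.dn
    (by rw [← pw]; exact B1.dn1) B2.dn (by rw [← pw]; exact B2.dn1)
  obtain ⟨e2, _⟩ := centre_eq (K := 2 ^ x.n') H.hL H.hM H.cut_mono hE hc B1.lp.m0 B2.lp.m0
    (one_le_cut H B1.lp.m0) (one_le_cut H B2.lp.m0) B1.lp.ic B2.lp.ic B1.lp.dc B2.lp.dc B1.dn'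
    (by rw [← pw]; exact B1.dn1') B2.dn' (by rw [← pw]; exact B2.dn1')
  refine ⟨e1, e2, ?_⟩
  have h3 := B1.lp.pt
  rw [e1, e2] at h3
  exact gap_unique h3 B2.lp.pt

/-- **target U** -/
theorem tgtU (γ : ℝ) : TgtU γ :=
  hyB_of.mono fun _ _ _ _ h L M B F S => arrU (h γ L M B F S)

/-! ### arrow K -/

/-- a pair of class (L) with deep side `b`, good at the block start and not smooth, is in a box -/
theorem LB_of_LP {w : ℕ → ℝ} {δ : ℝ} {jB : ℕ → ℕ} {t b c p : ℕ} {h : ℤ} {f f' : ℚ}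
    (hw : ∀ b, 0 ≤ w b) (hthr : P.thr = thrS M w P.Y δ (1 / 20))
    (hP : LP F P t b c h f f' p) (hgj : F.good (Xj (jB t)) b c)
    (hdeep : p ∣ c / Nat.gcd b c ∧ p ∣ alC c b f' f ∧ P.thr b (P.blk p) < dep F P t b f)
    (hns : dep F P t b f ≤ Real.exp ((P.Y (P.blk p - 1) : ℝ) ^ (4 / 5 : ℝ))) :
    ∃ x : Bx, LB F P w δ jB x t b c h f f' p := by
  obtain ⟨n, n1, n2⟩ := exists_dyadic (one_le_dep (F := F) (P := P) t b f)
  obtain ⟨n', n1', n2'⟩ := exists_dyadic (one_le_dep (F := F) (P := P) t c f')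
  obtain ⟨j, j1, j2⟩ := exists_dyadic_nat (tw_pos (F := F) (P := P) (P.Y (P.blk p)) t b c f f')
  obtain ⟨j', j1', j2'⟩ := exists_dyadic_nat (tw_pos (F := F) (P := P) (P.Y (P.blk p)) t c b f' f)
  have pw : ∀ n : ℕ, (2 : ℝ) ^ (n + 1) = 2 * 2 ^ n := fun n => by ring
  have pn : ∀ n : ℕ, 2 ^ (n + 1) = 2 * 2 ^ n := fun n => by ring
  -- thresholds
  have hdeep' := hdeep.2.2
  rw [hthr] at hdeep'
  unfold thrS at hdeep'
  have hmax : max ((P.Y (P.blk p - 1) : ℝ) ^ δ) (ThS M w P.Y b (P.blk p) ^ ((1 : ℝ) / 20)) <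
      dep F P t b f := by
    rcases min_lt_iff.1 hdeep' with h1 | h1
    · exact h1
    · exact absurd hns (not_le.2 h1)
  obtain ⟨m1, m2⟩ := max_lt_iff.1 hmax
  have hlt : dep F P t b f < 2 ^ (n + 1) := by rw [pw]; exact n2
  refine ⟨⟨n, n', P.blk p, j, j'⟩, hP, hgj, hdeep, rfl, n1, hlt, n1', ?_, j1, ?_, j1', ?_,
    m1.trans hlt, m2, ?_⟩
  · change dep F P t c f' < 2 ^ (n' + 1)
    rw [pw]; exact n2'
  · change tw F P (P.Y (P.blk p)) t b c f f' < 2 ^ (j + 1)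
    rw [pn]; exact j2
  · change tw F P (P.Y (P.blk p)) t c b f' f < 2 ^ (j' + 1)
    rw [pn]; exact j2'
  · -- light
    change (low (P.Y (P.blk p)) b : ℝ) * mass M w (P.Y (P.blk p)) (upp (P.Y (P.blk p)) b) ≤
      (2 ^ (n + 1)) ^ 20
    have h4 : Th M w (P.Y (P.blk p)) b ≤ ThS M w P.Y b (P.blk p) := Th_le_ThS M w P.Y b le_rfl
    have h5 : 0 ≤ Th M w (P.Y (P.blk p)) b := Th_nonneg M hw _ _
    have h6 : Th M w (P.Y (P.blk p)) b ^ ((1 : ℝ) / 20) < 2 ^ (n + 1) :=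
      ((Real.rpow_le_rpow h5 h4 (by norm_num)).trans_lt m2).trans hlt
    have h7 : (Th M w (P.Y (P.blk p)) b ^ ((1 : ℝ) / 20)) ^ 20 ≤ ((2 : ℝ) ^ (n + 1)) ^ 20 :=
      pow_le_pow_left₀ (Real.rpow_nonneg h5 _) h6.le 20
    have h8 : (Th M w (P.Y (P.blk p)) b ^ ((1 : ℝ) / 20)) ^ 20 = Th M w (P.Y (P.blk p)) b := by
      rw [← Real.rpow_natCast, ← Real.rpow_mul h5]
      norm_num
    rw [h8] at h7
    exact h7

theorem arrK {w : ℕ → ℝ} {δ : ℝ} {jB : ℕ → ℕ} (hw : ∀ b, 0 ≤ w b)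
    (hthr : P.thr = thrS M w P.Y δ (1 / 20)) : ArrK F P w δ jB := by
  rintro b c h hb hc _ ⟨t, f, f', p, hP⟩
  by_cases hgj : F.good (Xj (jB t)) b c
  swap
  · exact Or.inl ⟨t, hP.m0, hgj, hP.good, hP.al, hP.scl, hP.near⟩
  right
  rcases hP.deep with hd | hd
  · by_cases hs : dep F P t b f ≤ Real.exp ((P.Y (P.blk p - 1) : ℝ) ^ (4 / 5 : ℝ))
    · obtain ⟨x, hx⟩ := LB_of_LP hw hthr hP hgj hd hs
      exact Or.inr (Or.inl ⟨x, t, f, f', p, hx⟩)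
    · exact Or.inl ⟨t, f, f', p, hP, hgj, Or.inl ⟨hd.1, hd.2.1, not_le.1 hs⟩⟩
  · by_cases hs : dep F P t c f' ≤ Real.exp ((P.Y (P.blk p - 1) : ℝ) ^ (4 / 5 : ℝ))
    · obtain ⟨x, hx⟩ := LB_of_LP hw hthr (LP_symm hb hc hP) (FL.good_symm hb hc hgj)
        (by rw [Nat.gcd_comm c b]; exact hd) hs
      exact Or.inr (Or.inr ⟨x, t, f, f', p, hx⟩)
    · exact Or.inl ⟨t, f, f', p, hP, hgj, Or.inr ⟨hd.1, hd.2.1, not_le.1 hs⟩⟩

/-- **target K** -/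
theorem tgtK (γ : ℝ) : TgtK γ :=
  hyB_of.mono fun _ _ _ _ _ _ _ B _ _ => arrK (FLExx326.ind_nonneg B) rfl

end Crest.Agent.R4C.LArrUKx11
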