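import Crest.Agent.R4C.LBx_500
import Crest.Agent.R4C.LClass_662
import Crest.Agent.R4C.SamePt_217

/-!
# Row 4, class (L): the box class of `LBx_500` satisfies the hypotheses of `LClass_662.BoxT`
(helper500)

* `Core` : symmetric part of `BxL`; `Core.upp_b` : `upp y b = tw * zz`;
* `Core.mem_KK`, `Core.kz` : the twist is in `TwistKKx863.KK`, the words `z0, z0'` are kept;
* `QL`, `dens_QL` : the relation of the low cofactors of a box and its density (`SamePt_217`);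
* `light_le` : the member `b` is light at the cut `y`;
* `box_bound` : the bound of one box.
-/

set_option autoImplicit false

namespace Crest.Agent.R4C.LBoxPx500

open Crest.Agent.R4C.Basex935 Crest.Agent.R4C.FLDefx935 Crest.Agent.R4C.BoostCx972
  Crest.Agent.R4C.CrCoinx935 Crest.Agent.R4C.S7cx14 Crest.Agent.R4C.S7dx14
  Crest.Agent.R4C.Chainx81 Crest.Agent.R4C.Cutx50
  Crest.Agent.R4C.S2bx284 Crest.Agent.R4C.S2x232 Crest.Agent.R4C.Rulex945
  Crest.Agent.R4C.Splitx945 Crest.Agent.R4C.NonPureBlkx559 Crest.Agent.R4C.LBxx500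
  Crest.Agent.R4C.LDecx500 Crest.Agent.R4C.Pairx14

variable {M : ℕ} {F : FL M} {P : Par}

/-! ### labels of a centre -/

lemma fr_an (x b : ℕ) (f : ℚ) :
    fr F x b (SamePtx217.an f (F.lam x b)) (k0 F x b f) = f := by
  have h1 := SamePtx217.an_eq f (F.lam x b)
  have hk : SamePtx217.kd f (F.lam x b) = k0 F x b f := rfl
  rw [hk] at h1
  have h2 : (k0 F x b f : ℚ) ≠ 0 := by exact_mod_cast (k0_pos (F := F) x b f).ne'
  have h3 : (F.lam x b : ℚ) ≠ 0 := by exact_mod_cast (FL.lam_pos (F := F) x b).ne'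
  unfold fr
  rw [div_eq_iff (mul_ne_zero h2 h3), ← h1]
  ring

lemma an_cop (x b : ℕ) (f : ℚ) :
    IsCoprime (SamePtx217.an f (F.lam x b)) (k0 F x b f : ℤ) := SamePtx217.an_coprime f _

/-- the error of the label is `lam * |γ - f|` -/
lemma abs_lab (γ : ℝ) (x b : ℕ) (f : ℚ) :
    |(F.lam x b : ℝ) * γ - (SamePtx217.an f (F.lam x b) : ℝ) / (k0 F x b f : ℕ)| =
      F.lam x b * |γ - f| := by
  have h1 := SamePtx217.an_eq f (F.lam x b)
  have hk : SamePtx217.kd f (F.lam x b) = k0 F x b f := rfl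
  rw [hk] at h1
  have h2 : (k0 F x b f : ℝ) ≠ 0 := by exact_mod_cast (k0_pos (F := F) x b f).ne'
  have h3 : (SamePtx217.an f (F.lam x b) : ℝ) = F.lam x b * f * k0 F x b f := by
    exact_mod_cast h1.symm
  have e : (F.lam x b : ℝ) * γ - (SamePtx217.an f (F.lam x b) : ℝ) / (k0 F x b f : ℕ) =
      F.lam x b * (γ - f) := by
    rw [h3]; field_simp
  rw [e, abs_mul, Nat.abs_cast]

/-- `uu * (lam * |γ - f|) = b |γ - f|` -/
lemma uu_abs_lab {x b : ℕ} (hM : 0 < M) (hb : b ∣ M) (γ : ℝ) (f : ℚ) :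
    (F.uu x b : ℝ) * (F.lam x b * |γ - f|) = b * |γ - f| := by
  have h2 : (F.uu x b : ℝ) * F.lam x b = b := by exact_mod_cast FL.uu_mul_lam (F := F) (x := x) hM hb
  rw [← mul_assoc, h2]

/-! ### the symmetric part of the box class -/

/-- symmetric part of `BxL` -/
structure Core (F : FL M) (P : Par) (jB : ℕ → ℕ) (v t b c : ℕ) (h : ℤ) (f f' : ℚ) : Prop where
  m0 : P.m0 ≤ t
  good : F.good (P.cut t) b c
  goodj : F.good (Xj (jB t)) b c
  pt : gap f f' (b / Nat.gcd b c) (c / Nat.gcd b c) h = 0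
  lnk : |(((b / Nat.gcd b c : ℕ) : ℝ) - ((c / Nat.gcd b c : ℕ) : ℝ)) * P.γ + h| <
    P.L / (Nat.gcd b c : ℕ)
  ib : Ix F P t b f
  ic : Ix F P t c f'
  act : P.Y v ≤ P.cut t
  top : ∀ r : ℕ, r.Prime → P.Y v < r → r ≤ P.cut t → ¬ r ∣ alC b c f f' ∧ ¬ r ∣ alC c b f' f
  eb : dep F P t b f ≤ P.E t ^ 4
  ec : dep F P t c f' ≤ P.E t ^ 4

lemma core_of {w : ℕ → ℝ} {ε : ℝ} {jB : ℕ → ℕ} {v : ℕ} {K K' : ℝ} {U U' t b c : ℕ} {h : ℤ}
    {f f' : ℚ} (D : BxL F P w ε jB v K K' U U' t b c h f f') : Core F P jB v t b c h f f' :=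
  ⟨D.m0, D.good, D.goodj, D.pt, D.lnk, D.ib, D.ic, D.act, D.top, D.eb, D.ec⟩

namespace Core

variable {jB : ℕ → ℕ} {v t b c : ℕ} {h : ℤ} {f f' : ℚ}

lemma swap (hb : b ∣ M) (hc : c ∣ M) (D : Core F P jB v t b c h f f') :
    Core F P jB v t c b (-h) f' f where
  m0 := D.m0
  good := FL.good_symm hb hc D.good
  goodj := FL.good_symm hb hc D.goodj
  pt := by
    rw [Nat.gcd_comm]
    exact S7dx14.gap_symm D.pt
  lnk := by
    rw [Nat.gcd_comm]
    have h1 := D.lnk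
    rw [← abs_neg] at h1
    refine lt_of_le_of_lt (le_of_eq ?_) h1
    congr 1
    push_cast
    ring
  ib := D.ic
  ic := D.ib
  act := D.act
  top := fun r hr h1 h2 => ⟨(D.top r hr h1 h2).2, (D.top r hr h1 h2).1⟩
  eb := D.ec
  ec := D.eb

variable {j0 : ℕ}

lemma k_le (H : HyB M P jB j0) (D : Core F P jB v t b c h f f') :
    k0 F (P.cut t) b f ≤ Xj (jB t) := by
  have h1 : (k0 F (P.cut t) b f : ℝ) ≤ Xj (jB t) :=
    (k0_le_dep _ _ _).trans (D.eb.trans (H.jBE t D.m0))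
  exact_mod_cast h1

/-- in `(y, x]` only the primes of the denominators differ -/
theorem upp_eq (H : HyB M P jB j0) (hb : b ∣ M) (hc : c ∣ M) (D : Core F P jB v t b c h f f') :
    upp (P.Y v) (low (P.cut t) (b / Nat.gcd b c)) = tw F P (P.Y v) t b c f f' := by
  have hM := H.hM
  have hb0 : 0 < b := Nat.pos_of_dvd_of_pos hb hM
  have hg : 0 < Nat.gcd b c := Nat.gcd_pos_of_pos_left _ hb0
  have eb : Nat.gcd b c * (b / Nat.gcd b c) = b := Nat.mul_div_cancel' (Nat.gcd_dvd_left _ _)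
  have ec : Nat.gcd b c * (c / Nat.gcd b c) = c := Nat.mul_div_cancel' (Nat.gcd_dvd_right _ _)
  have hcop : Nat.Coprime (b / Nat.gcd b c) (c / Nat.gcd b c) := Nat.coprime_div_gcd_div_gcd hg
  have hkx := (D.k_le H).trans (H.jB1 t D.m0)
  have hkx' : k0 F (P.cut t) c f' ≤ P.cut t :=
    ((D.swap hb hc).k_le H).trans (H.jB1 t D.m0)
  have h1 := upp_low_x (F := F) (x := P.cut t) (y := P.Y v) (g := Nat.gcd b c)
    (s := b / Nat.gcd b c) (s' := c / Nat.gcd b c) (h := h)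
    (a := SamePtx217.an f (F.lam (P.cut t) b)) (a' := SamePtx217.an f' (F.lam (P.cut t) c))
    (k := k0 F (P.cut t) b f) (k' := k0 F (P.cut t) c f') hM (by rw [eb]; exact hb)
    (by rw [ec]; exact hc) hcop (by rw [eb, ec]; exact D.good) (k0_pos _ _ _) (k0_pos _ _ _)
    (an_cop _ _ _) (an_cop _ _ _) hkx hkx' (by rw [eb, ec, fr_an, fr_an]; exact D.pt)
    (by
      intro p hp h1 h2
      rw [eb, ec, fr_an, fr_an]
      exact D.top p hp h1 h2)
  exact h1.1

lemma tw_pos : 0 < tw F P (P.Y v) t b c f f' := upp_pos _ _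

lemma tw_dvd : tw F P (P.Y v) t b c f f' ∣ k0 F (P.cut t) b f :=
  (upp_dvd_self _ _).trans (Nat.div_dvd_of_dvd (Nat.gcd_dvd_left _ _))

/-- `upp y b = κ z0` -/
theorem upp_b (H : HyB M P jB j0) (hb : b ∣ M) (hc : c ∣ M) (D : Core F P jB v t b c h f f') :
    upp (P.Y v) b = tw F P (P.Y v) t b c f f' * zz (P.cut t) (P.Y v) b c := by
  have hb0 : 0 < b := Nat.pos_of_dvd_of_pos hb H.hM
  have hg : 0 < Nat.gcd b c := Nat.gcd_pos_of_pos_left _ hb0
  have eb : Nat.gcd b c * (b / Nat.gcd b c) = b := Nat.mul_div_cancel' (Nat.gcd_dvd_left _ _)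
  have hs : b / Nat.gcd b c ≠ 0 := fun h => by rw [h, mul_zero] at eb; omega
  have h1 := upp_gs (y := P.Y v) (x := P.cut t) D.act hg.ne' hs
  rw [eb, D.upp_eq H hb hc] at h1
  exact h1

lemma zz_dvd (H : HyB M P jB j0) (hb : b ∣ M) (hc : c ∣ M) (D : Core F P jB v t b c h f f') :
    zz (P.cut t) (P.Y v) b c ∣ upp (P.Y v) M := by
  have h1 := upp_dvd (P.Y v) H.hM.ne' hb
  rw [D.upp_b H hb hc] at h1
  exact (Dvd.intro_left _ rfl).trans h1

/-- **the twist is in the set of twists of `z0`**, general form -/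
theorem mem_KK' (H : HyB M P jB j0) (hb : b ∣ M) (hc : c ∣ M) (D : Core F P jB v t b c h f f')
    {X K R : ℝ} {N : ℕ} (hX0 : 0 < X)
    (hX' : ((low (P.Y v) b * tw F P (P.Y v) t b c f f' : ℕ) : ℝ) ≤ 2 * X)
    (hK : dep F P t b f < 2 * K) (hN : 2 * K ≤ N)
    (hXR : X * (2 * K) ≤ R * (low (P.Y v) b * tw F P (P.Y v) t b c f f' : ℕ)) :
    tw F P (P.Y v) t b c f f' ∈ TwistKKx863.KK F P.γ P.L X R N P.cut (lb P)
      (Finset.range (P.N + 1)) (zz (P.cut t) (P.Y v) b c) := by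
  have hM := H.hM
  have hL := H.hL
  have hb0 : 0 < b := Nat.pos_of_dvd_of_pos hb hM
  obtain ⟨m, htm, htc, hk⟩ := D.ib
  have hcut := H.cut_mono htm
  set κ := tw F P (P.Y v) t b c f f' with hκ
  set z0 := zz (P.cut t) (P.Y v) b c with hz0
  set k := k0 F (P.cut t) b f with hkdef
  set wd := low (P.Y v) b * κ with hwd
  have hm0 : P.m0 ≤ m := D.m0.trans htm
  have hE1 := H.E_one m
  have hE3 : 2 * P.E m ^ 3 < 2 ^ m := by
    refine lt_of_le_of_lt ?_ (H.hE m hm0)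
    have h1 : P.E m ^ 3 ≤ P.E m ^ 8 := pow_le_pow_right₀ hE1 (by norm_num)
    have h2 : 0 ≤ P.E m ^ 8 := by positivity
    linarith
  have hkpos : 0 < k := k0_pos _ _ _
  have hkx : k ≤ P.cut m := ((D.k_le H).trans (H.jB1 t D.m0)).trans hcut
  have hkd : (k : ℝ) ≤ dep F P t b f := k0_le_dep _ _ _
  have hkN : k ≤ N := by
    have : (k : ℝ) ≤ N := by linarith
    exact_mod_cast this
  -- the word
  have hwb : wd * z0 = b := by
    rw [hwd, mul_assoc, ← D.upp_b H hb hc]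
    exact low_mul_upp _ hb0.ne'
  have hwb' : wd * z0 ∣ M := by rw [hwb]; exact hb
  have hpw : ∀ p, p.Prime → p ∣ wd → p ≤ P.cut m := by
    intro p hp hpd
    rcases (hp.dvd_mul).1 hpd with h1 | h1
    · exact ((prime_dvd_part (fun p => p ≤ P.Y v) hp h1).trans D.act).trans hcut
    · exact (Nat.le_of_dvd hkpos (h1.trans tw_dvd)).trans hkx
  have hw0 : 0 < wd := Nat.mul_pos (low_pos _ _) (upp_pos _ _)
  have hz00 : 0 < z0 := Nat.mul_pos (upp_pos _ _) (upp_pos _ _)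
  have hzM : z0 ∣ M := (Dvd.intro_left _ rfl).trans hwb'
  have hlam : F.lam (P.cut m) z0 = F.lam (P.cut m) b := by
    rw [← hwb]
    refine (TwistKKx863.lam_congr hwb' hzM fun p hp hx => ?_).symm
    exact TwistKKx863.fact_mul_low hw0.ne' hz00.ne' hpw p hp hx
  have huu : F.uu (P.cut m) b = wd * F.uu (P.cut m) z0 := by
    rw [← TwistKKx863.uu_mul hM hwb' hpw, hwb]
  have huuR : (F.uu (P.cut m) b : ℝ) = wd * F.uu (P.cut m) z0 := by exact_mod_cast huu
  have hu0 : (0 : ℝ) < F.uu (P.cut m) z0 := by exact_mod_cast FL.uu_pos (F := F) (P.cut m) z0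
  have hub0 : (0 : ℝ) < F.uu (P.cut m) b := by exact_mod_cast FL.uu_pos (F := F) (P.cut m) b
  -- the label
  set a := SamePtx217.an f (F.lam (P.cut m) b) with ha
  have hkm : k0 F (P.cut m) b f = k := hk
  have hcop : IsCoprime a (k : ℤ) := by rw [← hkm]; exact an_cop _ _ _
  have herr : (F.uu (P.cut m) b : ℝ) * |(F.lam (P.cut m) b : ℝ) * P.γ - a / (k : ℕ)| =
      b * |P.γ - f| := by
    rw [← hkm, ha, abs_lab, uu_abs_lab hM hb]
  have hsm : |(F.lam (P.cut m) b : ℝ) * P.γ - a / (k : ℕ)| ≤ P.E m / 2 ^ m := by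
    rw [le_div_iff₀ (by positivity)]
    have h1 : (|(F.lam (P.cut m) b : ℝ) * P.γ - a / (k : ℕ)| * 2 ^ m) * P.L ≤ P.E m * P.L := by
      calc _ = (2 ^ m * P.L) * |(F.lam (P.cut m) b : ℝ) * P.γ - a / (k : ℕ)| := by ring
        _ ≤ F.uu (P.cut m) b * |(F.lam (P.cut m) b : ℝ) * P.γ - a / (k : ℕ)| :=
            mul_le_mul_of_nonneg_right htc.scl (abs_nonneg _)
        _ = b * |P.γ - f| := herr
        _ ≤ _ := htc.dis
    exact le_of_mul_le_mul_right h1 hL
  have hlb : lb P m (F.lam (P.cut m) z0) = k := by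
    rw [hlam]
    refine lb_eq hE3 hkpos hcop ?_ hsm
    rw [← hkm]; exact htc.den
  -- displacement
  have hdis : (b : ℝ) * |P.γ - f| ≤ 2 * K * P.L := by
    have h1 : (b : ℝ) * |P.γ - f| / P.L ≤ dep F P t b f := by
      unfold Rulex945.dep
      have h2 : (1 : ℝ) ≤ k0 F (P.cut t) b f := by exact_mod_cast hkpos
      have h3 : (b : ℝ) * |P.γ - f| / P.L ≤ max 1 ((b : ℝ) * |P.γ - f| / P.L) := le_max_right _ _
      have h4 : (0 : ℝ) ≤ max 1 ((b : ℝ) * |P.γ - f| / P.L) := zero_le_one.trans (le_max_left _ _)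
      nlinarith
    rw [div_le_iff₀ hL] at h1
    exact h1.trans (mul_le_mul_of_nonneg_right hK.le hL.le)
  have hK0 : 0 < K := by
    have h1 : (1 : ℝ) ≤ dep F P t b f := one_le_dep _ _ _
    linarith
  have hsg : TwistKKx863.sg F P.L X P.cut z0 m = X * F.uu (P.cut m) z0 / P.L := rfl
  have hmI : m ∈ Finset.range (P.N + 1) := by
    rw [Finset.mem_range, Nat.lt_succ_iff]
    have h1 : (F.uu (P.cut m) b : ℝ) ≤ M := by
      have h2 : F.uu (P.cut m) b ∣ b := Dvd.intro _ (FL.uu_mul_lam hM hb)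
      exact_mod_cast Nat.le_of_dvd hM (h2.trans hb)
    have h2 : (2 : ℝ) ^ m ≤ M / P.L := by
      rw [le_div_iff₀ hL]
      exact htc.scl.trans h1
    have h3 : (m : ℝ) < 2 ^ m := by exact_mod_cast Nat.lt_two_pow_self
    have h4 : (m : ℝ) < P.N := lt_of_lt_of_le h3 (h2.trans H.hN)
    exact_mod_cast h4.le
  refine TwistKKx863.mem_KK.2 ⟨m, hmI, ⟨?_, ?_, ?_, ?_, a, ?_, ?_⟩, ?_⟩
  · rw [hlb]; exact hkpos
  · rw [hlb]; exact hkN
  · rw [hlb]; exact hkx
  · rw [hsg, ← mul_div_assoc, le_div_iff₀ hL]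
    calc (2 : ℝ) ^ m * P.L ≤ F.uu (P.cut m) b := htc.scl
      _ = wd * F.uu (P.cut m) z0 := huuR
      _ ≤ 2 * X * F.uu (P.cut m) z0 := mul_le_mul_of_nonneg_right hX' hu0.le
      _ = _ := by ring
  · rw [hlb]; exact hcop
  · rw [hlb, hlam, hsg, le_div_iff₀ (by positivity), ← mul_div_assoc, div_le_iff₀ hL]
    have hwR : (0 : ℝ) < wd := by exact_mod_cast hw0
    have hXR' : X * (2 * K) ≤ R * (wd : ℝ) := hXR
    have h1 : (|(F.lam (P.cut m) b : ℝ) * P.γ - a / (k : ℕ)| * (X * F.uu (P.cut m) z0)) * wd ≤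
        (R * P.L) * wd := by
      calc _ = X * ((F.uu (P.cut m) b : ℝ) * |(F.lam (P.cut m) b : ℝ) * P.γ - a / (k : ℕ)|) := by
            rw [huuR]; ring
        _ = X * (b * |P.γ - f|) := by rw [herr]
        _ ≤ X * (2 * K * P.L) := mul_le_mul_of_nonneg_left hdis hX0.le
        _ = X * (2 * K) * P.L := by ring
        _ ≤ R * wd * P.L := mul_le_mul_of_nonneg_right hXR' hL.le
        _ = _ := by ring
    exact le_of_mul_le_mul_right h1 hwR
  · rw [hlb]; exact tw_dvd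

/-- **the twist is in the set of twists of `z0`** -/
theorem mem_KK (H : HyB M P jB j0) (hb : b ∣ M) (hc : c ∣ M) (D : Core F P jB v t b c h f f')
    {X K R : ℝ} {N : ℕ} (hX0 : 0 < X) (hX : X ≤ 4 * (low (P.Y v) b * tw F P (P.Y v) t b c f f' : ℕ))
    (hX' : ((low (P.Y v) b * tw F P (P.Y v) t b c f f' : ℕ) : ℝ) ≤ 2 * X)
    (hK : dep F P t b f < 2 * K) (hN : 2 * K ≤ N) (hR : 8 * K ≤ R) :
    tw F P (P.Y v) t b c f f' ∈ TwistKKx863.KK F P.γ P.L X R N P.cut (lb P)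
      (Finset.range (P.N + 1)) (zz (P.cut t) (P.Y v) b c) := by
  refine D.mem_KK' H hb hc hX0 hX' hK hN ?_
  have hK0 : 0 < K := by
    have h1 : (1 : ℝ) ≤ dep F P t b f := one_le_dep _ _ _
    linarith
  calc X * (2 * K) ≤ (4 * (low (P.Y v) b * tw F P (P.Y v) t b c f f' : ℕ)) * (2 * K) :=
        mul_le_mul_of_nonneg_right hX (by positivity)
    _ = 8 * K * (low (P.Y v) b * tw F P (P.Y v) t b c f f' : ℕ) := by ring
    _ ≤ _ := mul_le_mul_of_nonneg_right hR (Nat.cast_nonneg _)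

/-- the untwisted words are kept -/
theorem kz (H : HyB M P jB j0) (hb : b ∣ M) (hc : c ∣ M) (D : Core F P jB v t b c h f f') :
    Keptx559.KZ (PureL2x232.hiFL H.hM (P.Y v) F) j0 (zz (P.cut t) (P.Y v) b c)
      (zz (P.cut t) (P.Y v) c b) := by
  have hM := H.hM
  have eb : Nat.gcd b c * (b / Nat.gcd b c) = b := Nat.mul_div_cancel' (Nat.gcd_dvd_left _ _)
  have ec : Nat.gcd b c * (c / Nat.gcd b c) = c := Nat.mul_div_cancel' (Nat.gcd_dvd_right _ _)
  have h1 := kz_of (F := F) (x := P.cut t) (y := P.Y v) (g := Nat.gcd b c)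
    (s := b / Nat.gcd b c) (s' := c / Nat.gcd b c) (j0 := j0) (jB := jB t) hM
    (by rw [eb]; exact hb) (by rw [ec]; exact hc) D.act (H.jB0 t D.m0) (H.jB1 t D.m0)
    (by rw [eb, ec]; exact D.goodj)
    (by rw [D.upp_eq H hb hc]; exact (Nat.le_of_dvd (k0_pos _ _ _) tw_dvd).trans (D.k_le H))
    (by
      have h2 := (D.swap hb hc).upp_eq H hc hb
      rw [Nat.gcd_comm] at h2
      rw [h2]
      exact (Nat.le_of_dvd (k0_pos _ _ _) tw_dvd).trans ((D.swap hb hc).k_le H))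
  have e : zz (P.cut t) (P.Y v) c b =
      upp (P.Y v) (Nat.gcd b c) * upp (P.cut t) (c / Nat.gcd b c) := by
    unfold zz
    rw [Nat.gcd_comm]
  rw [e]
  exact h1

/-- the gcd of the high words -/
theorem gcd_upp_le (H : HyB M P jB j0) (hb : b ∣ M) (hc : c ∣ M)
    (D : Core F P jB v t b c h f f') :
    Nat.gcd (upp (P.Y v) b) (upp (P.Y v) c) = Nat.gcd (zz (P.cut t) (P.Y v) b c)
      (zz (P.cut t) (P.Y v) c b) := by
  have hb0 : 0 < b := Nat.pos_of_dvd_of_pos hb H.hM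
  have hc0 : 0 < c := Nat.pos_of_dvd_of_pos hc H.hM
  have hg : 0 < Nat.gcd b c := Nat.gcd_pos_of_pos_left _ hb0
  have eb : Nat.gcd b c * (b / Nat.gcd b c) = b := Nat.mul_div_cancel' (Nat.gcd_dvd_left _ _)
  have ec : Nat.gcd b c * (c / Nat.gcd b c) = c := Nat.mul_div_cancel' (Nat.gcd_dvd_right _ _)
  have hcop : Nat.Coprime (b / Nat.gcd b c) (c / Nat.gcd b c) := Nat.coprime_div_gcd_div_gcd hg
  have hs : b / Nat.gcd b c ≠ 0 := fun h => by rw [h, mul_zero] at eb; omega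
  have hs' : c / Nat.gcd b c ≠ 0 := fun h => by rw [h, mul_zero] at ec; omega
  have h1 := gcd_upp (y := P.Y v) hg.ne' hs hs' hcop
  rw [eb, ec] at h1
  rw [h1]
  unfold zz
  rw [Nat.gcd_comm c b, gcd_z0 hcop]

end Core

/-! ### sizes of the low words -/

section size

variable {y b c : ℕ}

/-- dyadic sizes of the low words -/
lemma low_size (hb : b ≠ 0) {a i : ℕ}
    (ha : Nat.log 2 (low y b / Nat.gcd (low y b) (low y c)) = a)
    (hi : Nat.log 2 (Nat.gcd (low y b) (low y c)) = i) :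
    2 ^ (i + a) ≤ low y b ∧ low y b < 4 * 2 ^ (i + a) := by
  have h0 := low_pos y b
  have hG : 0 < Nat.gcd (low y b) (low y c) := Nat.gcd_pos_of_pos_left _ h0
  set G := Nat.gcd (low y b) (low y c) with hGd
  set σ := low y b / G with hσ
  have e : G * σ = low y b := Nat.mul_div_cancel' (Nat.gcd_dvd_left _ _)
  have hσ0 : σ ≠ 0 := fun h => by rw [h, mul_zero] at e; omega
  have a1 : 2 ^ a ≤ σ := by rw [← ha]; exact Nat.pow_log_le_self 2 hσ0
  have a2 : σ < 2 ^ (a + 1) := by rw [← ha]; exact Nat.lt_pow_succ_log_self (by norm_num) σ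
  have i1 : 2 ^ i ≤ G := by rw [← hi]; exact Nat.pow_log_le_self 2 hG.ne'
  have i2 : G < 2 ^ (i + 1) := by rw [← hi]; exact Nat.lt_pow_succ_log_self (by norm_num) G
  rw [← e, pow_add]
  constructor
  · exact Nat.mul_le_mul i1 a1
  · calc G * σ < 2 ^ (i + 1) * 2 ^ (a + 1) := Nat.mul_lt_mul'' i2 a2
      _ = 4 * (2 ^ i * 2 ^ a) := by rw [pow_succ, pow_succ]; ring

end size

/-- size parameter of the twisted words -/
noncomputable def XX (U : ℕ) (i a : ℕ) : ℝ := 4 * 2 ^ (i + a) * U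

section fac

variable {jB : ℕ → ℕ} {j0 v t b c : ℕ} {h : ℤ} {f f' : ℚ}

open Crest.Agent.R4C.LClassx662 in
/-- **the twist is in `KD`** -/
theorem mem_KD (H : HyB M P jB j0) (hb : b ∣ M) (hc : c ∣ M) (D : Core F P jB v t b c h f f')
    {K R : ℝ} {N U : ℕ} (hK : dep F P t b f < 2 * K) (hN : 2 * K ≤ N) (hR : 8 * K ≤ R)
    (hU0 : 1 ≤ U) (hU : U ≤ tw F P (P.Y v) t b c f f') (hU' : tw F P (P.Y v) t b c f f' < 2 * U)
    {a i : ℕ} (ha : Nat.log 2 (low (P.Y v) b / Nat.gcd (low (P.Y v) b) (low (P.Y v) c)) = a)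
    (hi : Nat.log 2 (Nat.gcd (low (P.Y v) b) (low (P.Y v) c)) = i) :
    tw F P (P.Y v) t b c f f' ∈ KD F P.γ P.L (XX U i a) R N P.cut (lb P)
      (Finset.range (P.N + 1)) U (zz (P.cut t) (P.Y v) b c) := by
  obtain ⟨h1, h2⟩ := low_size (y := P.Y v) (Nat.pos_of_dvd_of_pos hb H.hM).ne' ha hi
  have hUR : (1 : ℝ) ≤ U := by exact_mod_cast hU0
  have h1R : (2 : ℝ) ^ (i + a) ≤ low (P.Y v) b := by exact_mod_cast h1
  have h2R : (low (P.Y v) b : ℝ) ≤ 4 * 2 ^ (i + a) := by exact_mod_cast h2.le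
  have h3R : (U : ℝ) ≤ tw F P (P.Y v) t b c f f' := by exact_mod_cast hU
  have h4R : (tw F P (P.Y v) t b c f f' : ℝ) ≤ 2 * U := by exact_mod_cast hU'.le
  have hp : (0 : ℝ) < 2 ^ (i + a) := by positivity
  refine Finset.mem_filter.2 ⟨D.mem_KK H hb hc (X := XX U i a) (K := K) ?_ ?_ ?_ hK hN hR,
    hU, hU'⟩
  · unfold XX; positivity
  · unfold XX
    push_cast
    have : (2 : ℝ) ^ (i + a) * U ≤ low (P.Y v) b * tw F P (P.Y v) t b c f f' :=
      mul_le_mul h1R h3R (by positivity) (by positivity)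
    linarith
  · unfold XX
    push_cast
    have : (low (P.Y v) b : ℝ) * tw F P (P.Y v) t b c f f' ≤ (4 * 2 ^ (i + a)) * (2 * U) :=
      mul_le_mul h2R h4R (by positivity) (by positivity)
    linarith

end fac

/-! ### the relation of the low cofactors -/

section rel

variable {w : ℕ → ℝ} {ε : ℝ} {jB : ℕ → ℕ} {j0 v : ℕ} {K K' : ℝ} {U U' t b c : ℕ} {h : ℤ}
  {f f' : ℚ}

/-- basic facts of a pair -/
lemma pair_facts (hM : 0 < M) (hb : b ∣ M) (hc : c ∣ M) :
    0 < Nat.gcd b c ∧ Nat.gcd b c * (b / Nat.gcd b c) = b ∧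
      Nat.gcd b c * (c / Nat.gcd b c) = c ∧
      Nat.Coprime (b / Nat.gcd b c) (c / Nat.gcd b c) ∧ 0 < b / Nat.gcd b c ∧
      0 < c / Nat.gcd b c := by
  have hb0 : 0 < b := Nat.pos_of_dvd_of_pos hb hM
  have hc0 : 0 < c := Nat.pos_of_dvd_of_pos hc hM
  have hg : 0 < Nat.gcd b c := Nat.gcd_pos_of_pos_left _ hb0
  have eb : Nat.gcd b c * (b / Nat.gcd b c) = b := Nat.mul_div_cancel' (Nat.gcd_dvd_left _ _)
  have ec : Nat.gcd b c * (c / Nat.gcd b c) = c := Nat.mul_div_cancel' (Nat.gcd_dvd_right _ _)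
  refine ⟨hg, eb, ec, Nat.coprime_div_gcd_div_gcd hg, Nat.pos_of_ne_zero fun h => ?_,
    Nat.pos_of_ne_zero fun h => ?_⟩
  · rw [h, mul_zero] at eb; omega
  · rw [h, mul_zero] at ec; omega

/-- the cut words of the cofactors -/
lemma cut_facts (hM : 0 < M) (hb : b ∣ M) (hc : c ∣ M) (y : ℕ) :
    Nat.gcd (low y b) (low y c) = low y (Nat.gcd b c) ∧
      Nat.gcd (upp y b) (upp y c) = upp y (Nat.gcd b c) ∧
      low y b / Nat.gcd (low y b) (low y c) = low y (b / Nat.gcd b c) ∧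
      low y c / Nat.gcd (low y b) (low y c) = low y (c / Nat.gcd b c) ∧
      upp y b / Nat.gcd (upp y b) (upp y c) = upp y (b / Nat.gcd b c) ∧
      upp y c / Nat.gcd (upp y b) (upp y c) = upp y (c / Nat.gcd b c) := by
  obtain ⟨hg, eb, ec, hcop, hs, hs'⟩ := pair_facts hM hb hc
  have egl : Nat.gcd (low y b) (low y c) = low y (Nat.gcd b c) := by
    have h1 := gcd_low (y := y) hg.ne' hs.ne' hs'.ne' hcop
    rwa [eb, ec] at h1
  have egu : Nat.gcd (upp y b) (upp y c) = upp y (Nat.gcd b c) := by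
    have h1 := gcd_upp (y := y) hg.ne' hs.ne' hs'.ne' hcop
    rwa [eb, ec] at h1
  refine ⟨egl, egu, ?_, ?_, ?_, ?_⟩
  · rw [egl]
    have h1 := low_gs y hg.ne' hs.ne'
    rw [eb] at h1
    rw [h1]; exact Nat.mul_div_cancel_left _ (low_pos _ _)
  · rw [egl]
    have h1 := low_gs y hg.ne' hs'.ne'
    rw [ec] at h1
    rw [h1]; exact Nat.mul_div_cancel_left _ (low_pos _ _)
  · rw [egu]
    have h1 := upp_mul y hg.ne' hs.ne'
    rw [eb] at h1
    rw [h1]; exact Nat.mul_div_cancel_left _ (upp_pos _ _)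
  · rw [egu]
    have h1 := upp_mul y hg.ne' hs'.ne'
    rw [ec] at h1
    rw [h1]; exact Nat.mul_div_cancel_left _ (upp_pos _ _)

/-- the denominator at `Λ = upp x s` is `k0` -/
lemma kd_upp (H : HyB M P jB j0) (hb : b ∣ M) (hc : c ∣ M) (D : Core F P jB v t b c h f f') :
    SamePtx217.kd f (upp (P.cut t) (b / Nat.gcd b c)) = k0 F (P.cut t) b f := by
  have hM := H.hM
  obtain ⟨hg, eb, ec, hcop, hs, hs'⟩ := pair_facts hM hb hc
  have hup := upp_cof (F := F) (x := P.cut t) (g := Nat.gcd b c) hM (by rw [eb]; exact hb)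
    (by rw [ec]; exact hc) hcop (by rw [eb, ec]; exact D.good)
  rw [eb, ec] at hup
  rw [hup]
  have hkx : k0 F (P.cut t) b f ≤ P.cut t := (D.k_le H).trans (H.jB1 t D.m0)
  have hkpos := k0_pos (F := F) (P.cut t) b f
  have hce := coprime_ell (F := F) (c := c) hkpos hkx
  set lam := F.lam (P.cut t) b with hlam
  set ell := F.ell (P.cut t) c with hell
  set G := Nat.gcd f.den lam with hG
  have hG0 : 0 < G := Nat.gcd_pos_of_pos_left _ f.den_pos
  have e1 : k0 F (P.cut t) b f * G = f.den := k0_mul (F := F) (P.cut t) b f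
  obtain ⟨l1, hl1⟩ := Nat.gcd_dvd_right f.den lam
  rw [← hG] at hl1
  have hc1 : Nat.Coprime (k0 F (P.cut t) b f) l1 := by
    have h1 := Nat.coprime_div_gcd_div_gcd hG0
    have h2 : lam / G = l1 := by
      rw [hl1]; exact Nat.mul_div_cancel_left _ hG0
    rw [h2] at h1
    exact h1
  have hgc : Nat.gcd f.den (lam * ell) = G := by
    calc Nat.gcd f.den (lam * ell) = Nat.gcd (G * k0 F (P.cut t) b f) (G * (l1 * ell)) := by
          congr 1
          · rw [mul_comm, e1]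
          · calc lam * ell = G * l1 * ell := by rw [← hl1]
              _ = _ := by ring
      _ = G * Nat.gcd (k0 F (P.cut t) b f) (l1 * ell) := Nat.gcd_mul_left _ _ _
      _ = G * 1 := by rw [(Nat.Coprime.mul_right hc1 hce.symm)]
      _ = G := mul_one _
  unfold SamePtx217.kd
  rw [hgc]
  rfl

/-- the low product exponent -/
noncomputable def PP (K K' : ℝ) : ℝ := (max K K' / 128) ^ (1 / 3 : ℝ)

/-- **the datum of a pair of the box** -/
theorem rel_of (H : HyB M P jB j0) (hb : b ∣ M) (hc : c ∣ M)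
    (D : BxL F P w ε jB v K K' U U' t b c h f f') (hK : 0 < K) {t0 : ℝ} (ht0 : 0 < t0)
    (ht1 : t0 ≤ (Nat.gcd b c : ℕ) / P.L) (ht2 : ((Nat.gcd b c : ℕ) : ℝ) / P.L ≤ 2 * t0) :
    (SamePtx217.datOf P.γ t0 f f' (upp (P.cut t) (b / Nat.gcd b c))
      (upp (P.cut t) (c / Nat.gcd b c)) (tw F P (P.Y v) t b c f f')
      (tw F P (P.Y v) t c b f' f)).rel (max K K' / 2) (PP K K')
      (low (P.Y v) (b / Nat.gcd b c)) (low (P.Y v) (c / Nat.gcd b c)) := by
  have hM := H.hM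
  have C := core_of D
  have C' := C.swap hb hc
  obtain ⟨hg, eb, ec, hcop, hs, hs'⟩ := pair_facts hM hb hc
  have k1 := kd_upp H hb hc C
  have k2 := kd_upp H hc hb C'
  rw [Nat.gcd_comm] at k2
  have u1 := C.upp_eq H hb hc
  have u2 := C'.upp_eq H hc hb
  rw [Nat.gcd_comm] at u2
  set x := P.cut t with hx
  set y := P.Y v with hy
  set g := Nat.gcd b c with hgd
  set s := b / g with hsd
  set s' := c / g with hsd'
  set κ := tw F P y t b c f f' with hκ
  set κ' := tw F P y t c b f' f with hκ'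
  have hyx : y ≤ x := D.act
  have es : low y s * (upp x s * κ) = s := by
    have h1 := upp_split hyx hs.ne'
    rw [u1] at h1
    calc low y s * (upp x s * κ) = low y s * (κ * upp x s) := by ring
      _ = low y s * upp y s := by rw [← h1]
      _ = s := low_mul_upp y hs.ne'
  have es' : low y s' * (upp x s' * κ') = s' := by
    have h1 := upp_split hyx hs'.ne'
    rw [u2] at h1
    calc low y s' * (upp x s' * κ') = low y s' * (κ' * upp x s') := by ring
      _ = low y s' * upp y s' := by rw [← h1]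
      _ = s' := low_mul_upp y hs'.ne'
  have el : κ * low y s = low x s := by
    rw [← u1, mul_comm]; exact low_split hyx s
  have el' : κ' * low y s' = low x s' := by
    rw [← u2, mul_comm]; exact low_split hyx s'
  have hk1 : (1 : ℝ) ≤ k0 F x b f := by exact_mod_cast k0_pos (F := F) x b f
  have hk2 : (1 : ℝ) ≤ k0 F x c f' := by exact_mod_cast k0_pos (F := F) x c f'
  refine SamePtx217.rel_datOf (L := P.L) (g := g) (h := h) H.hL ht0 ht1 ht2 ?_ ?_ ?_ ?_
  · rw [es, es']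
    exact D.pt
  · rw [es, es']
    exact D.lnk
  · rw [k1, k2, es, es', eb, ec]
    have hl0 : (0 : ℝ) ≤ (Nat.lcm (k0 F x b f) (k0 F x c f') : ℝ) := Nat.cast_nonneg _
    have hl1 : (k0 F x b f : ℝ) ≤ Nat.lcm (k0 F x b f) (k0 F x c f') := by
      exact_mod_cast Nat.le_of_dvd (Nat.lcm_pos (k0_pos _ _ _) (k0_pos _ _ _))
        (Nat.dvd_lcm_left _ _)
    have hl2 : (k0 F x c f' : ℝ) ≤ Nat.lcm (k0 F x b f) (k0 F x c f') := by
      exact_mod_cast Nat.le_of_dvd (Nat.lcm_pos (k0_pos _ _ _) (k0_pos _ _ _))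
        (Nat.dvd_lcm_right _ _)
    have d1 : Rulex945.dep F P t b f ≤ (Nat.lcm (k0 F x b f) (k0 F x c f') : ℝ) *
        max 1 (max ((b : ℝ) * |P.γ - f| / P.L) ((c : ℝ) * |P.γ - f'| / P.L)) := by
      unfold Rulex945.dep
      refine mul_le_mul hl1 (max_le_max le_rfl (le_max_left _ _)) ?_ hl0
      exact zero_le_one.trans (le_max_left _ _)
    have d2 : Rulex945.dep F P t c f' ≤ (Nat.lcm (k0 F x b f) (k0 F x c f') : ℝ) *
        max 1 (max ((b : ℝ) * |P.γ - f| / P.L) ((c : ℝ) * |P.γ - f'| / P.L)) := by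
      unfold Rulex945.dep
      refine mul_le_mul hl2 (max_le_max le_rfl (le_max_right _ _)) ?_ hl0
      exact zero_le_one.trans (le_max_left _ _)
    have e : 2 * (max K K' / 2) = max K K' := by ring
    rw [e]
    exact max_le (D.db.trans d1) (D.dc.trans d2)
  · rw [el, el']
    have hb1 := D.big.1
    have hb2 := D.big.2
    have h1 : max K K' / 128 ≤ ((low x s : ℝ) * low x s') ^ 3 := by
      rw [div_le_iff₀ (by norm_num)]
      refine max_le ?_ ?_
      · calc K ≤ _ := D.db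
          _ ≤ _ := hb1
          _ = _ := by ring
      · calc K' ≤ _ := D.dc
          _ ≤ _ := hb2
          _ = _ := by ring
    have h0 : (0 : ℝ) ≤ (low x s : ℝ) * low x s' := by positivity
    have hm0 : 0 ≤ max K K' / 128 := by
      have := le_max_left K K'
      have : 0 < max K K' := by linarith
      positivity
    unfold PP
    calc (max K K' / 128) ^ (1 / 3 : ℝ) ≤ (((low x s : ℝ) * low x s') ^ 3) ^ (1 / 3 : ℝ) :=
          Real.rpow_le_rpow hm0 h1 (by norm_num)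
      _ = (low x s : ℝ) * low x s' := by
          rw [← Real.rpow_natCast, ← Real.rpow_mul h0]
          norm_num

end rel

end Crest.Agent.R4C.LBoxPx500
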