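import Crest.Agent.R4C.LBx_500
import Crest.Agent.R4C.HyOf_281

/-!
# Row 4, class (L): the parameters `ParOf` satisfy the numerical hypotheses (helper817)

`jBA' A t = Nat.log 2 (A t)` (the same as `jBA` of `LBoxDef_662`): block start of the level `t`.

* `Xj_le_cut`, `cut_lt_Xj` : `Xj (jBA' A t) ≤ cut t < (Xj (jBA' A t) + 1)²`;
* `pow_le_Xj` : `2^(A t/2) - 1 ≤ Xj (jBA' A t)`; `E_pow_le_Xj` : `E t ^ k ≤ Xj (jBA' A t)`;
* `c_E8_lt` : `c E⁸ < 2^m`;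
* **`hyB`** : `Ev` of `LBxx500.HyB` at `ParOf` with `jB = jBA' A`, for every `j0`;
* `v_le`, `v_le'` : `Y (v-1)^(1/(4A)) < 2^(n+1) → v ≤ 4A(n+1)`;
* `n_le` : `2^n ≤ E t ^ 4 → n ≤ 4 cp t`; `Y_le_cut` : such a `v` is active at the level `t`.
-/

set_option autoImplicit false

namespace Crest.Agent.R4C.LNumPx817

open Crest.Agent.R4C.Spinex946 Crest.Agent.R4C.Splitx945 Crest.Agent.R4C.Rulex945
  Crest.Agent.R4C.FLDefx935 Crest.Agent.R4C.Cutx50 Crest.Agent.R4C.HyOfx281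
  Crest.Agent.R4C.NonPureBlkx559 Crest.Agent.R4C.LBxx500

/-- block start of the level `t` (cut `2^(A t)`) -/
def jBA' (A t : ℕ) : ℕ := Nat.log 2 (A * t)

lemma Xj_add (j : ℕ) : Xj j + 1 = 2 ^ (2 ^ j) := by
  unfold Xj
  have : 1 ≤ 2 ^ (2 ^ j) := Nat.one_le_two_pow
  omega

lemma Xj_mono {i j : ℕ} (h : i ≤ j) : Xj i ≤ Xj j := by
  have h1 : 2 ^ (2 ^ i) ≤ 2 ^ (2 ^ j) :=
    Nat.pow_le_pow_right (by norm_num) (Nat.pow_le_pow_right (by norm_num) h)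
  have e1 := Xj_add i
  have e2 := Xj_add j
  omega

/-- `Xj (log₂ n) < 2^n` -/
lemma Xj_log_lt {n : ℕ} (hn : n ≠ 0) : Xj (Nat.log 2 n) < 2 ^ n := by
  have h1 : 2 ^ (2 ^ Nat.log 2 n) ≤ 2 ^ n :=
    Nat.pow_le_pow_right (by norm_num) (Nat.pow_log_le_self 2 hn)
  have e1 := Xj_add (Nat.log 2 n)
  omega

/-- `2^n < (Xj (log₂ n) + 1)²` -/
lemma lt_Xj_log (n : ℕ) : 2 ^ n < (Xj (Nat.log 2 n) + 1) ^ 2 := by
  rw [Xj_add, ← pow_mul]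
  refine Nat.pow_lt_pow_right (by norm_num) ?_
  have := Nat.lt_pow_succ_log_self (b := 2) (by norm_num) n
  rwa [pow_succ] at this

section par

variable {cp : ℝ} {A m0 : ℕ} {γ L : ℝ} {M : ℕ} {B : Finset ℕ}

lemma cut_eq (t : ℕ) : (ParOf cp A m0 γ L M B).cut t = 2 ^ (A * t) := rfl

lemma Y_eq (v : ℕ) : (ParOf cp A m0 γ L M B).Y v = 2 ^ v := rfl

lemma E_eq (t : ℕ) : (ParOf cp A m0 γ L M B).E t = (2 : ℝ) ^ (cp * t) := rfl

lemma m0_eq : (ParOf cp A m0 γ L M B).m0 = m0 := rfl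

lemma Xj_lt_cut (hA : 1 ≤ A) {t : ℕ} (ht : 1 ≤ t) :
    Xj (jBA' A t) < (ParOf cp A m0 γ L M B).cut t :=
  Xj_log_lt (Nat.mul_ne_zero (by omega) (by omega))

lemma Xj_le_cut (t : ℕ) : Xj (jBA' A t) ≤ (ParOf cp A m0 γ L M B).cut t := by
  rw [cut_eq]
  unfold jBA'
  rcases Nat.eq_zero_or_pos (A * t) with h | h
  · rw [h]
    simp [Xj]
  · exact (Xj_log_lt h.ne').le

lemma cut_lt_Xj (t : ℕ) : (ParOf cp A m0 γ L M B).cut t < (Xj (jBA' A t) + 1) ^ 2 :=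
  lt_Xj_log _

/-- `2^(A t / 2) ≤ Xj + 1` -/
lemma rpow_le_Xj (A t : ℕ) : (2 : ℝ) ^ ((A : ℝ) * t / 2) ≤ (Xj (jBA' A t) : ℝ) + 1 := by
  have h1 : (2 : ℝ) ^ (A * t) ≤ ((Xj (jBA' A t) : ℝ) + 1) ^ 2 := by
    exact_mod_cast (lt_Xj_log (A * t)).le
  have h2 : ((2 : ℝ) ^ ((A : ℝ) * t / 2)) ^ 2 = (2 : ℝ) ^ (A * t) := by
    rw [← Real.rpow_natCast, ← Real.rpow_mul (by norm_num), ← Real.rpow_natCast 2 (A * t)]
    congr 1
    push_cast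
    ring
  have h3 : (0 : ℝ) ≤ (Xj (jBA' A t) : ℝ) + 1 := by positivity
  rw [← h2] at h1
  exact le_of_sq_le_sq h1 h3

/-- `E t ^ k ≤ Xj (jBA' A t)` if `k cp ≤ A / 4` and `A t ≥ 4` -/
lemma E_pow_le_Xj {k t : ℕ} (hk : (k : ℝ) * cp ≤ A / 4) (ht : 4 ≤ A * t) :
    (ParOf cp A m0 γ L M B).E t ^ k ≤ (Xj (jBA' A t) : ℝ) := by
  have h1 := rpow_le_Xj A t
  have ht' : (4 : ℝ) ≤ (A : ℝ) * t := by exact_mod_cast ht
  rw [E_pow]
  have h2 : (2 : ℝ) ^ (cp * t * k) ≤ (2 : ℝ) ^ ((A : ℝ) * t / 4) := by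
    refine Real.rpow_le_rpow_of_exponent_le (by norm_num) ?_
    have ht0 : (0 : ℝ) ≤ t := Nat.cast_nonneg t
    calc cp * t * k = (k * cp) * t := by ring
      _ ≤ (A / 4) * t := mul_le_mul_of_nonneg_right hk ht0
      _ = _ := by ring
  have h3 : (2 : ℝ) ^ ((A : ℝ) * t / 2) = (2 : ℝ) ^ ((A : ℝ) * t / 4) * (2 : ℝ) ^ ((A : ℝ) * t / 4) := by
    rw [← Real.rpow_add (by norm_num)]
    congr 1
    ring
  have h4 : (2 : ℝ) ≤ (2 : ℝ) ^ ((A : ℝ) * t / 4) := by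
    calc (2 : ℝ) = (2 : ℝ) ^ (1 : ℝ) := (Real.rpow_one 2).symm
      _ ≤ _ := Real.rpow_le_rpow_of_exponent_le (by norm_num) (by linarith)
  rw [h3] at h1
  nlinarith

/-- `2^c E^k < 2^m` -/
lemma c_E_lt {k c m : ℕ} (h : (c : ℝ) + k * cp * m < m) :
    (2 : ℝ) ^ c * (ParOf cp A m0 γ L M B).E m ^ k < 2 ^ m := by
  rw [E_pow]
  calc (2 : ℝ) ^ c * (2 : ℝ) ^ (cp * m * k) = (2 : ℝ) ^ ((c : ℝ) + cp * m * k) := by
        rw [Real.rpow_add (by norm_num), Real.rpow_natCast]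
    _ < (2 : ℝ) ^ (m : ℝ) := Real.rpow_lt_rpow_of_exponent_lt (by norm_num) (by
        calc (c : ℝ) + cp * m * k = c + k * cp * m := by ring
          _ < m := h)
    _ = 2 ^ m := Real.rpow_natCast 2 m

/-- `64 E⁸ < 2^m` -/
lemma E8_lt (hc : cp ≤ 1 / 200) {m : ℕ} (hm : 14 ≤ m) :
    64 * (ParOf cp A m0 γ L M B).E m ^ 8 < 2 ^ m := by
  have hm' : (14 : ℝ) ≤ m := by exact_mod_cast hm
  have h1 : (2 : ℝ) ^ 6 * (ParOf cp A m0 γ L M B).E m ^ 8 < 2 ^ m := by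
    refine c_E_lt ?_
    have h2 : cp * m ≤ 1 / 200 * m := mul_le_mul_of_nonneg_right hc (by linarith)
    push_cast
    nlinarith
  norm_num at h1 ⊢
  exact h1

/-- the block index against the depth: `Y (v-1)^(1/(4A)) < 2^(n+1) → v ≤ 4A(n+1)` -/
lemma v_le (hA : 1 ≤ A) {v n : ℕ}
    (h : ((ParOf cp A m0 γ L M B).Y (v - 1) : ℝ) ^ (1 / (4 * A) : ℝ) < 2 ^ (n + 1)) :
    v ≤ 4 * A * (n + 1) := by
  have hA' : (0 : ℝ) < A := by exact_mod_cast hA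
  rw [Y_eq] at h
  push_cast at h
  rw [← Real.rpow_natCast 2 (v - 1), ← Real.rpow_mul (by norm_num),
    ← Real.rpow_natCast 2 (n + 1)] at h
  have h1 := (Real.rpow_lt_rpow_left_iff (by norm_num : (1 : ℝ) < 2)).1 h
  have h2 : (((v - 1 : ℕ) : ℝ)) < 4 * A * ((n + 1 : ℕ) : ℝ) := by
    have h3 : ((v - 1 : ℕ) : ℝ) * (1 / (4 * A)) * (4 * A) < ((n + 1 : ℕ) : ℝ) * (4 * A) :=
      mul_lt_mul_of_pos_right h1 (by positivity)
    have h4 : ((v - 1 : ℕ) : ℝ) * (1 / (4 * A)) * (4 * A) = ((v - 1 : ℕ) : ℝ) := by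
      field_simp
    linarith
  have h5 : v - 1 < 4 * A * (n + 1) := by exact_mod_cast h2
  omega

/-- a depth exponent against the level: `2^n ≤ E t ^ 4 → n ≤ 4 cp t` -/
lemma n_le {n t : ℕ} (h : (2 : ℝ) ^ n ≤ (ParOf cp A m0 γ L M B).E t ^ 4) :
    (n : ℝ) ≤ 4 * cp * t := by
  rw [E_pow, ← Real.rpow_natCast 2 n] at h
  have h1 := (Real.rpow_le_rpow_left_iff (by norm_num : (1 : ℝ) < 2)).1 h
  push_cast at h1
  linarith

/-- a box with `v ≤ 4A(n+1)`, `2^n ≤ E t ^ 4` is active at the level `t` -/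
lemma Y_le_cut (hc : cp ≤ 1 / 200) {v n t : ℕ} (ht : 5 ≤ t) (hv : v ≤ 4 * A * (n + 1))
    (h : (2 : ℝ) ^ n ≤ (ParOf cp A m0 γ L M B).E t ^ 4) :
    (ParOf cp A m0 γ L M B).Y v ≤ (ParOf cp A m0 γ L M B).cut t := by
  have h1 := n_le h
  have ht' : (5 : ℝ) ≤ t := by exact_mod_cast ht
  rw [Y_eq, cut_eq]
  refine Nat.pow_le_pow_right (by norm_num) (hv.trans ?_)
  have h2 : 4 * (n + 1) ≤ t := by
    have h3 : cp * t ≤ 1 / 200 * t := mul_le_mul_of_nonneg_right hc (by linarith)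
    have h4 : (4 : ℝ) * (n + 1) ≤ t := by nlinarith
    exact_mod_cast h4
  calc 4 * A * (n + 1) = A * (4 * (n + 1)) := by ring
    _ ≤ A * t := Nat.mul_le_mul_left A h2

/-- `2 K² ≤ 8 E⁸ < 2^t` for `K ≤ 2 E⁴` -/
lemma two_K2_lt (hc : cp ≤ 1 / 200) {t : ℕ} (ht : 14 ≤ t) {K : ℝ} (hK0 : 0 ≤ K)
    (hK : K ≤ 2 * (ParOf cp A m0 γ L M B).E t ^ 4) : 2 * K ^ 2 < 2 ^ t := by
  have h1 := E8_lt (cp := cp) (A := A) (m0 := m0) (γ := γ) (L := L) (M := M) (B := B) hc ht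
  have h2 : K ^ 2 ≤ (2 * (ParOf cp A m0 γ L M B).E t ^ 4) ^ 2 := pow_le_pow_left₀ hK0 hK 2
  have h3 : 0 ≤ (ParOf cp A m0 γ L M B).E t ^ 8 := by
    have : 0 ≤ (ParOf cp A m0 γ L M B).E t := by rw [E_eq]; positivity
    positivity
  nlinarith

end par

/-- conditions on the constants for `hyB` -/
structure NumB (cp η : ℝ) (A m0 j0 : ℕ) : Prop extends Num cp η A m0 where
  /-- the level is far above `j0` -/
  j0_le : 2 ^ j0 ≤ m0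

lemma evNumB (j0 : ℕ) : Ev fun cp η A m0 => NumB cp η A m0 j0 := by
  refine (evNum.and (Ev.le_m0 (fun _ _ _ => ((2 ^ j0 : ℕ) : ℝ)))).mono ?_
  rintro cp η A m0 ⟨h1, h2⟩
  exact ⟨h1, by exact_mod_cast h2⟩

lemma j0_le_jBA {A j0 m0 t : ℕ} (hA : 1 ≤ A) (h : 2 ^ j0 ≤ m0) (ht : m0 ≤ t) :
    j0 ≤ jBA' A t := by
  unfold jBA'
  refine Nat.le_log_of_pow_le (by norm_num) ?_
  calc 2 ^ j0 ≤ t := h.trans ht
    _ ≤ A * t := Nat.le_mul_of_pos_left t hA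

theorem hyB_of_num {cp η : ℝ} {A m0 j0 : ℕ} (h : NumB cp η A m0 j0) {γ L : ℝ} {M : ℕ}
    {B : Finset ℕ} (hM : 0 < M) (hL : 0 < L) : HyB M (ParOf cp A m0 γ L M B) (jBA' A) j0 where
  hM := hM
  hL := hL
  hN := Nat.le_ceil _
  cut_mono := fun a b hab => Nat.pow_le_pow_right (by norm_num) (Nat.mul_le_mul_left A hab)
  E_one := fun m => Real.one_le_rpow (by norm_num) (mul_nonneg h.cp_pos.le (Nat.cast_nonneg m))
  hE := fun m hm => E8_lt h.cp_le (by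
    have h1 : m0 ≤ m := hm
    have := h.m0_14
    omega)
  jB0 := fun t ht => j0_le_jBA h.A_one h.j0_le ht
  jB1 := fun t _ => Xj_le_cut t
  jBE := fun t ht => E_pow_le_Xj (k := 4) (by
      have h1 := h.cp_le
      have h2 : (1 : ℝ) ≤ A := by exact_mod_cast h.A_one
      push_cast
      linarith) (by
      have h1 : m0 ≤ t := ht
      have h2 := h.m0_14
      have h3 := Nat.mul_le_mul h.A_one (show 4 ≤ t by omega)
      omega)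

/-- **the parameters of the spine satisfy the hypotheses of the boxes of class (L)** -/
theorem hyB (j0 : ℕ) : Ev fun cp η A m0 => ∀ (γ L : ℝ) (M : ℕ) (B : Finset ℕ) (F : FL M),
    Setup η L M B F → HyB M (ParOf cp A m0 γ L M B) (jBA' A) j0 :=
  (evNumB j0).mono fun _ _ _ _ h _ _ _ _ _ S => hyB_of_num h S.hM S.hL

/-- `E t ^ k ≤ Xj (jBA' A t)` for all levels, every `k` -/
theorem evXj (k : ℕ) : Ev fun cp _ A m0 => ∀ (γ L : ℝ) (M : ℕ) (B : Finset ℕ) (t : ℕ), m0 ≤ t →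
    (ParOf cp A m0 γ L M B).E t ^ k ≤ (Xj (jBA' A t) : ℝ) := by
  refine (evNum.and (Ev.le_A (fun cp _ => 4 * (k * cp)))).mono ?_
  rintro cp η A m0 ⟨h1, h2⟩ γ L M B t ht
  refine E_pow_le_Xj (by linarith) ?_
  have h3 := h1.m0_14
  have h4 := Nat.mul_le_mul h1.A_one (show 4 ≤ t by omega)
  omega

/-- `2^c E^k < 2^m` for all levels, every `k`, `c` -/
theorem evE (k c : ℕ) : Ev fun cp _ A m0 => ∀ (γ L : ℝ) (M : ℕ) (B : Finset ℕ) (m : ℕ), m0 ≤ m →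
    (2 : ℝ) ^ c * (ParOf cp A m0 γ L M B).E m ^ k < 2 ^ m := by
  refine ((evNum.and (Ev.cp_le (c := 1 / (2 * (k + 1))) (by positivity))).and
    (Ev.le_m0 (fun _ _ _ => 2 * c + 1))).mono ?_
  rintro cp η A m0 ⟨⟨h1, h2⟩, h3⟩ γ L M B m hm
  refine c_E_lt ?_
  have hm' : (m0 : ℝ) ≤ m := by exact_mod_cast hm
  have hc0 := h1.cp_pos
  have hk0 : (0 : ℝ) ≤ k := Nat.cast_nonneg k
  have h4 : (k : ℝ) * cp ≤ 1 / 2 := by
    calc (k : ℝ) * cp ≤ k * (1 / (2 * (k + 1))) := mul_le_mul_of_nonneg_left h2 hk0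
      _ ≤ 1 / 2 := by
        rw [mul_one_div, div_le_iff₀ (by positivity)]
        linarith
  have h5 : (0 : ℝ) ≤ m := Nat.cast_nonneg m
  have h6 : (k : ℝ) * cp * m ≤ 1 / 2 * m := mul_le_mul_of_nonneg_right h4 h5
  linarith

end Crest.Agent.R4C.LNumPx817
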