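import Crest.Agent.R4C.LBoxDef_662
import Crest.Agent.R4C.LBoxP_500
import Crest.Agent.R4C.LNumP_817

/-!
# Row 4, class (L), ARROW B: density of a box (helper217)

* `rel_LB` : the datum of a pair of the box, with the twist words `low X q`, `X = 2^(mx+1)`,
  `q = z / gcd z z'` (independent of the level);
* `f_eq` : one point per box;
* `cov_QL` : `Cov 1` for the low relation `QL`;
* `dens_QL`, **`tgtB`** : `dens ≤ C * tauB`.
-/

set_option autoImplicit false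

open Finset

namespace Crest.Agent.R4C.LDensx217

open Crest.Agent.R4C.Basex935 Crest.Agent.R4C.Cutx50 Crest.Agent.R4C.FLDefx935
  Crest.Agent.R4C.Rulex945 Crest.Agent.R4C.Splitx945 Crest.Agent.R4C.Bridgex882
  Crest.Agent.R4C.BoostCx972 Crest.Agent.R4C.SamePtx217 Crest.Agent.R4C.BoxUniqx60
  Crest.Agent.R4C.NonPureBlkx559 Crest.Agent.R4C.LBxx500 Crest.Agent.R4C.LBoxPx500
open Crest.Agent.R4C.LBoxDefx662 (Bx ca ca' ci LB QL tauB EvC ArrB TgtB jBA)
open Crest.Agent.R4C.LDecx500 (upp_split upp_one_of low_one_of low_mul upp_mul)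

variable {M : ℕ} {F : FL M} {P : Par}

/-! ### words below and above `X` -/

/-- the twist and the upper word, independent of the level -/
lemma words {jB : ℕ → ℕ} {j0 v t b c X : ℕ} {h : ℤ} {f f' : ℚ} (H : HyB M P jB j0) (hb : b ∣ M)
    (hc : c ∣ M) (D : Core F P jB v t b c h f f') (hX : X ≤ P.cut t)
    (hk : k0 F (P.cut t) b f ≤ X) :
    low X (upp (P.Y v) (b / Nat.gcd b c)) = LBxx500.tw F P (P.Y v) t b c f f' ∧
      upp X (upp (P.Y v) (b / Nat.gcd b c)) = upp (P.cut t) (b / Nat.gcd b c) := by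
  obtain ⟨hg, eb, ec, hcop, hs, hs'⟩ := pair_facts H.hM hb hc
  have e1 := upp_split D.act hs.ne'
  rw [D.upp_eq H hb hc] at e1
  set κ := LBxx500.tw F P (P.Y v) t b c f f' with hκ
  set s := b / Nat.gcd b c with hs_def
  have hκ0 : κ ≠ 0 := (Core.tw_pos (F := F) (P := P) (v := v) (t := t) (b := b) (c := c)
    (f := f) (f' := f')).ne'
  have hU0 : upp (P.cut t) s ≠ 0 := (upp_pos _ _).ne'
  have hκX : upp X κ = 1 := upp_one_of fun p hp hd =>
    (Nat.le_of_dvd (k0_pos _ _ _) (hd.trans Core.tw_dvd)).trans hk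
  have hUX : low X (upp (P.cut t) s) = 1 := low_one_of fun p hp hd => by
    have h1 : ¬ p ≤ P.cut t := prime_dvd_part (fun p => ¬ p ≤ P.cut t) hp hd
    omega
  have hκ1 : low X κ = κ := by
    have := low_mul_upp X hκ0
    rwa [hκX, mul_one] at this
  have hU1 : upp X (upp (P.cut t) s) = upp (P.cut t) s := by
    have := low_mul_upp X hU0
    rwa [hUX, one_mul] at this
  rw [e1, low_mul X hκ0 hU0, upp_mul X hκ0 hU0, hκ1, hUX, hκX, hU1, mul_one, one_mul]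
  exact ⟨rfl, rfl⟩

/-! ### the pair as a pair of `BxL` -/

lemma ThS_zero (M : ℕ) (Y : ℕ → ℕ) (b i : ℕ) : ThS M (fun _ => 0) Y b i = 0 := by
  refine le_antisymm ?_ ((Th_nonneg M (fun _ => le_rfl) (Y 0) b).trans
    (Th_le_ThS M _ Y b (Nat.zero_le i)))
  unfold ThS
  refine Finset.sup'_le _ _ fun j _ => ?_
  unfold Th mass Ex
  simp

/-- a pair of the box is a pair of 500's box (trivial weight) -/
lemma bxL_of {w : ℕ → ℝ} {δ : ℝ} {jB : ℕ → ℕ} {t b c p : ℕ} {x : Bx} {h : ℤ} {f f' : ℚ}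
    (hYm : StrictMono P.Y) (hbe : ∀ m, ∃ i, P.cut m = P.Y i)
    (hl : h ∈ Lnk P.γ P.L b c) (D : LB F P w δ jB x t b c h f f' p) :
    BxL F P (fun _ => 0) 1 jB x.v (2 ^ x.n) (2 ^ x.n') (2 ^ x.j) (2 ^ x.j') t b c h f f' where
  m0 := D.lp.m0
  good := D.lp.good
  goodj := D.gd
  pt := D.lp.pt
  lnk := CrCountx935.mem_Hf.1 hl
  ib := D.lp.ib
  ic := D.lp.ic
  act := by
    obtain ⟨i, hi⟩ := hbe t
    have := Par.act_of_le hYm hi D.lp.le
    rwa [D.blk] at this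
  top := fun r hr h1 h2 => D.lp.top r hr (by
    have h3 := Par.le_blk (P := P) hYm p
    rw [D.blk] at h3
    omega) h2
  db := D.dn
  db' := by
    have := D.dn1
    rwa [pow_succ, mul_comm] at this
  dc := D.dn'
  dc' := by
    have := D.dn1'
    rwa [pow_succ, mul_comm] at this
  eb := D.lp.db
  ec := D.lp.dc
  big := D.lp.big
  light := by
    rw [ThS_zero, Real.rpow_one]
    exact zero_lt_one.trans_le (one_le_dep _ _ _)
  tb := D.tj
  tb' := by
    have := D.tj1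
    rwa [pow_succ, mul_comm] at this
  tc := D.tj'
  tc' := by
    have := D.tj1'
    rwa [pow_succ, mul_comm] at this

/-! ### one point per box -/

lemma pow_mx_le {jB : ℕ → ℕ} {j0 : ℕ} {w : ℕ → ℝ} {ε : ℝ} {v n : ℕ} {K' : ℝ}
    {U U' t b c : ℕ} {h : ℤ} {f f' : ℚ} (H : HyB M P jB j0)
    (D : BxL F P w ε jB v (2 ^ n) K' U U' t b c h f f') : 32 * ((2 : ℝ) ^ n) ^ 2 < 2 ^ t := by
  have h1 : (2 : ℝ) ^ n ≤ P.E t ^ 4 := D.db.trans D.eb
  have h2 : ((2 : ℝ) ^ n) ^ 2 ≤ (P.E t ^ 4) ^ 2 := pow_le_pow_left₀ (by positivity) h1 2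
  have h3 : (P.E t ^ 4) ^ 2 = P.E t ^ 8 := by ring
  have h4 := H.hE t D.m0
  have h5 : 0 ≤ P.E t ^ 8 := by
    have := H.E_one t
    positivity
  rw [h3] at h2
  linarith

/-- **one point per box** (left member) -/
lemma f_eq {jB : ℕ → ℕ} {j0 : ℕ} {w : ℕ → ℝ} {ε : ℝ} {v n : ℕ} {K' K₂' : ℝ}
    {U U' U₂ U₂' t b c t₂ b₂ c₂ : ℕ} {h h₂ : ℤ} {f f' f₂ f₂' : ℚ} (H : HyB M P jB j0)
    (hb : b ∣ M) (hb₂ : b₂ ∣ M)
    (D : BxL F P w ε jB v (2 ^ n) K' U U' t b c h f f')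
    (D₂ : BxL F P w ε jB v (2 ^ n) K₂' U₂ U₂' t₂ b₂ c₂ h₂ f₂ f₂')
    (hz : upp (P.Y v) b = upp (P.Y v) b₂) {a i : ℕ}
    (ha : Nat.log 2 (low (P.Y v) b / Nat.gcd (low (P.Y v) b) (low (P.Y v) c)) = a)
    (hi : Nat.log 2 (Nat.gcd (low (P.Y v) b) (low (P.Y v) c)) = i)
    (ha₂ : Nat.log 2 (low (P.Y v) b₂ / Nat.gcd (low (P.Y v) b₂) (low (P.Y v) c₂)) = a)
    (hi₂ : Nat.log 2 (Nat.gcd (low (P.Y v) b₂) (low (P.Y v) c₂)) = i) : f = f₂ := by
  have hb0 := Nat.pos_of_dvd_of_pos hb H.hM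
  have hb20 := Nat.pos_of_dvd_of_pos hb₂ H.hM
  obtain ⟨p1, p2⟩ := low_size (y := P.Y v) hb0.ne' ha hi
  obtain ⟨q1, q2⟩ := low_size (y := P.Y v) hb20.ne' ha₂ hi₂
  have key : ∀ {d e : ℕ}, d ≠ 0 → e ≠ 0 → upp (P.Y v) d = upp (P.Y v) e →
      low (P.Y v) d ≤ 4 * low (P.Y v) e → (d : ℝ) ≤ 4 * e := by
    intro d e hd he h1 h2
    have e1 := low_mul_upp (P.Y v) hd
    have e2 := low_mul_upp (P.Y v) he
    have : d ≤ 4 * e := by
      calc d = low (P.Y v) d * upp (P.Y v) d := e1.symm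
        _ ≤ 4 * low (P.Y v) e * upp (P.Y v) d := Nat.mul_le_mul_right _ h2
        _ = 4 * (low (P.Y v) e * upp (P.Y v) e) := by rw [h1]; ring
        _ = 4 * e := by rw [e2]
    exact_mod_cast this
  obtain ⟨m, m1, m2, m3⟩ := D.ib
  obtain ⟨m', n1, n2, n3⟩ := D₂.ib
  have d1 : dep F P m b f ≤ 2 * 2 ^ n := by
    have := D.db'.le
    unfold dep at this ⊢
    rwa [m3]
  have d2 : dep F P m' b₂ f₂ ≤ 2 * 2 ^ n := by
    have := D₂.db'.le
    unfold dep at this ⊢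
    rwa [n3]
  have e4 : (2 : ℝ) * 4 * (2 * 2 ^ n) ^ 2 = 32 * ((2 : ℝ) ^ n) ^ 2 := by ring
  exact box_unique' H.hL H.hM H.cut_mono hb hb₂ (D.act.trans (H.cut_mono m1))
    (D₂.act.trans (H.cut_mono n1)) (SameUp.of_upp hz) (by norm_num : (1 : ℝ) ≤ 4)
    (key hb0.ne' hb20.ne' hz (by omega)) (key hb20.ne' hb0.ne' hz.symm (by omega)) m2 n2 d1 d2
    (by rw [e4]; exact (pow_mx_le H D).trans_le (pow_le_pow_right₀ (by norm_num) m1))
    (by rw [e4]; exact (pow_mx_le H D₂).trans_le (pow_le_pow_right₀ (by norm_num) n1))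

/-- exchange of the members -/
lemma bxL_swap {jB : ℕ → ℕ} {v : ℕ} {K K' : ℝ} {U U' t b c : ℕ} {h : ℤ}
    {f f' : ℚ} (hb : b ∣ M) (hc : c ∣ M)
    (D : BxL F P (fun _ => 0) 1 jB v K K' U U' t b c h f f') :
    BxL F P (fun _ => 0) 1 jB v K' K U' U t c b (-h) f' f := by
  have C := (core_of D).swap hb hc
  refine ⟨C.m0, C.good, C.goodj, C.pt, C.lnk, C.ib, C.ic, C.act, C.top, D.dc, D.dc', D.db, D.db',
    C.eb, C.ec, ?_, ?_, D.tc, D.tc', D.tb, D.tb'⟩
  · have h1 := D.big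
    refine ⟨?_, ?_⟩
    · have := h1.2
      rw [Nat.gcd_comm c b]
      calc _ ≤ _ := this
        _ = _ := by ring
    · have := h1.1
      rw [Nat.gcd_comm c b]
      calc _ ≤ _ := this
        _ = _ := by ring
  · rw [ThS_zero, Real.rpow_one]
    exact zero_lt_one.trans_le (one_le_dep _ _ _)

/-! ### the cover -/

/-- hypotheses on the cuts -/
structure HyC (P : Par) : Prop where
  Ym : StrictMono P.Y
  be : ∀ m, ∃ i, P.cut m = P.Y i
  ge : ∀ m, 2 ^ m ≤ P.cut m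

lemma X_le {jB : ℕ → ℕ} {j0 : ℕ} {w : ℕ → ℝ} {ε : ℝ} {v n n' : ℕ} {U U' t b c : ℕ} {h : ℤ}
    {f f' : ℚ} (H : HyB M P jB j0) (hC : HyC P)
    (D : BxL F P w ε jB v (2 ^ n) (2 ^ n') U U' t b c h f f') :
    2 ^ (max n n' + 1) ≤ P.cut t ∧ k0 F (P.cut t) b f ≤ 2 ^ (max n n' + 1) ∧
      k0 F (P.cut t) c f' ≤ 2 ^ (max n n' + 1) := by
  have hE := H.E_one t
  have h4 := H.hE t D.m0
  have hn : (2 : ℝ) ^ n ≤ P.E t ^ 4 := D.db.trans D.eb
  have hn' : (2 : ℝ) ^ n' ≤ P.E t ^ 4 := D.dc.trans D.ec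
  have hE4 : 1 ≤ P.E t ^ 4 := one_le_pow₀ hE
  have hmx : (2 : ℝ) ^ max n n' ≤ P.E t ^ 4 := by
    rcases max_choice n n' with e | e
    · rw [e]; exact hn
    · rw [e]; exact hn'
  have hkk : ∀ {r : ℝ} {d k : ℕ}, (k : ℝ) ≤ r → r < 2 * 2 ^ d → d ≤ max n n' →
      k ≤ 2 ^ (max n n' + 1) := by
    intro r d k h1 h2 h3
    have h5 : (k : ℝ) ≤ 2 ^ (max n n' + 1) := by
      calc (k : ℝ) ≤ 2 * 2 ^ d := h1.trans h2.le
        _ = 2 ^ (d + 1) := by ring
        _ ≤ _ := pow_le_pow_right₀ (by norm_num) (by omega)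
    exact_mod_cast h5
  refine ⟨?_, hkk (k0_le_dep _ _ _) D.db' (le_max_left _ _),
    hkk (k0_le_dep _ _ _) D.dc' (le_max_right _ _)⟩
  have h5 : (2 : ℝ) ^ (max n n' + 1) ≤ 2 ^ t := by
    have e8 : P.E t ^ 8 = (P.E t ^ 4) * (P.E t ^ 4) := by ring
    have h6 : P.E t ^ 4 ≤ P.E t ^ 8 := by rw [e8]; nlinarith
    calc (2 : ℝ) ^ (max n n' + 1) = 2 * 2 ^ max n n' := by ring
      _ ≤ 2 * P.E t ^ 4 := by linarith
      _ ≤ 64 * P.E t ^ 8 := by linarith
      _ ≤ 2 ^ t := h4.le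
  have h6 : 2 ^ (max n n' + 1) ≤ 2 ^ t := by exact_mod_cast h5
  exact h6.trans (hC.ge t)

/-- **one datum per box, class and pair of high words** -/
theorem cov_QL {jB : ℕ → ℕ} {j0 : ℕ} (H : HyB M P jB j0) (hC : HyC P) (w : ℕ → ℝ) (δ : ℝ)
    (x : Bx) (a a' i z z' : ℕ) :
    Cov 1 (4 * 2 ^ (x.j + x.j')) (max (2 ^ x.n) (2 ^ x.n') / 2) (PP (2 ^ x.n) (2 ^ x.n'))
      (QL F P w δ jB x a a' i z z') := by
  intro i1 j1
  by_cases hex : ∃ u v, QL F P w δ jB x a a' i z z' u v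
  · obtain ⟨u0, v0, b0, c0, h0, t0, f0, f0', p0, hb0, hc0, hl0, D0, ez0, ez0', ea0, ea0', ei0,
      eu0, ev0⟩ := hex
    have B0 := bxL_of hC.Ym hC.be hl0 D0
    have hXX0 := X_le H hC B0
    set X := 2 ^ (max x.n x.n' + 1) with hXd
    set y := P.Y x.v with hy
    set q := z / Nat.gcd z z' with hq
    set q' := z' / Nat.gcd z z' with hq'
    have hgz : 0 < Nat.gcd z z' := by
      rw [← ez0]
      exact Nat.gcd_pos_of_pos_left _ (upp_pos _ _)
    set T0 : ℝ := 2 ^ i * (Nat.gcd z z' : ℕ) / P.L with hT0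
    have hT0p : 0 < T0 := by
      have : (0 : ℝ) < (Nat.gcd z z' : ℕ) := by exact_mod_cast hgz
      have := H.hL
      rw [hT0]
      positivity
    -- the words of any pair
    have W : ∀ {b c t p : ℕ} {h : ℤ} {f f' : ℚ}, b ∣ M → c ∣ M → h ∈ Lnk P.γ P.L b c →
        LB F P w δ jB x t b c h f f' p → upp y b = z → upp y c = z' →
        low X q = LBxx500.tw F P y t b c f f' ∧ upp X q = upp (P.cut t) (b / Nat.gcd b c) ∧
        low X q' = LBxx500.tw F P y t c b f' f ∧ upp X q' = upp (P.cut t) (c / Nat.gcd b c) := by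
      intro b c t p h f f' hb hc hl D e1 e2
      have B := bxL_of hC.Ym hC.be hl D
      obtain ⟨hX, k1, k2⟩ := X_le H hC B
      have C := core_of B
      obtain ⟨_, _, _, _, w1, w2⟩ := cut_facts H.hM hb hc y
      rw [e1, e2] at w1 w2
      have r1 := words H hb hc C hX k1
      have r2 := words H hc hb (C.swap hb hc) hX k2
      rw [Nat.gcd_comm c b] at r2
      rw [← w1] at r1
      rw [← w2] at r2
      exact ⟨r1.1, r1.2, r2.1, r2.2⟩
    obtain ⟨l1, l2, l3, l4⟩ := W hb0 hc0 hl0 D0 ez0 ez0'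
    refine ⟨[datOf P.γ T0 f0 f0' (upp X q) (upp X q') (low X q) (low X q')], by simp, ?_, ?_⟩
    · intro d hd
      rw [List.mem_singleton] at hd
      subst hd
      refine ok_datOf _ _ hT0p (low_pos _ _) (low_pos _ _) ?_
      rw [l1, l3]
      have h1 : (LBxx500.tw F P y t0 b0 c0 f0 f0' : ℝ) ≤ 2 * 2 ^ x.j := by
        exact_mod_cast B0.tb'.le
      have h2 : (LBxx500.tw F P y t0 c0 b0 f0' f0 : ℝ) ≤ 2 * 2 ^ x.j' := by
        exact_mod_cast B0.tc'.le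
      calc (LBxx500.tw F P y t0 b0 c0 f0 f0' : ℝ) * LBxx500.tw F P y t0 c0 b0 f0' f0 ≤
          (2 * 2 ^ x.j) * (2 * 2 ^ x.j') :=
            mul_le_mul h1 h2 (Nat.cast_nonneg _) (by positivity)
        _ = 4 * 2 ^ (x.j + x.j') := by rw [pow_add]; ring
    · intro u v _ _ _ _ _ hQ
      obtain ⟨b, c, h, t, f, f', p, hb, hc, hl, D, ez, ez', ea, ea', ei, eu, ev⟩ := hQ
      have B := bxL_of hC.Ym hC.be hl D
      refine ⟨_, List.mem_singleton_self _, ?_⟩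
      -- the points agree
      have hf : f0 = f := f_eq H hb0 hb B0 B (ez0.trans ez.symm) ea0 ei0 ea ei
      have hf' : f0' = f' := by
        refine f_eq H hc0 hc (bxL_swap hb0 hc0 B0) (bxL_swap hb hc B) (ez0'.trans ez'.symm)
          (a := a') (i := i) ?_ ?_ ?_ ?_
        · rw [Nat.gcd_comm (low _ c0)]; exact ea0'
        · rw [Nat.gcd_comm (low _ c0)]; exact ei0
        · rw [Nat.gcd_comm (low _ c)]; exact ea'
        · rw [Nat.gcd_comm (low _ c)]; exact ei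
      subst hf; subst hf'
      obtain ⟨m1, m2, m3, m4⟩ := W hb hc hl D ez ez'
      obtain ⟨g1, g2, g3, g4, g5, g6⟩ := cut_facts H.hM hb hc y
      have hg0 : 0 < Nat.gcd b c := Nat.gcd_pos_of_pos_left _ (Nat.pos_of_dvd_of_pos hb H.hM)
      -- the window
      have eg : (Nat.gcd b c : ℝ) = (low y (Nat.gcd b c) : ℝ) * (Nat.gcd z z' : ℕ) := by
        have h1 := low_mul_upp y hg0.ne'
        rw [← g2, ez, ez'] at h1
        exact_mod_cast h1.symm
      have ei' : Nat.log 2 (low y (Nat.gcd b c)) = i := by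
        rw [← g1]; exact ei
      have hlow := low_pos y (Nat.gcd b c)
      have i1' : (2 : ℝ) ^ i ≤ low y (Nat.gcd b c) := by
        have : 2 ^ i ≤ low y (Nat.gcd b c) := by
          rw [← ei']; exact Nat.pow_log_le_self 2 hlow.ne'
        exact_mod_cast this
      have i2' : (low y (Nat.gcd b c) : ℝ) ≤ 2 * 2 ^ i := by
        have : low y (Nat.gcd b c) < 2 ^ (i + 1) := by
          rw [← ei']; exact Nat.lt_pow_succ_log_self (by norm_num) _
        have h2 : (low y (Nat.gcd b c) : ℝ) ≤ 2 ^ (i + 1) := by exact_mod_cast this.le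
        rwa [pow_succ, mul_comm] at h2
      have hgR : (0 : ℝ) ≤ (Nat.gcd z z' : ℕ) := Nat.cast_nonneg _
      have t1 : T0 ≤ (Nat.gcd b c : ℕ) / P.L := by
        rw [hT0, eg]
        exact div_le_div_of_nonneg_right (mul_le_mul_of_nonneg_right i1' hgR) H.hL.le
      have t2 : ((Nat.gcd b c : ℕ) : ℝ) / P.L ≤ 2 * T0 := by
        rw [hT0, eg, ← mul_div_assoc]
        refine div_le_div_of_nonneg_right ?_ H.hL.le
        calc (low y (Nat.gcd b c) : ℝ) * (Nat.gcd z z' : ℕ) ≤ 2 * 2 ^ i * (Nat.gcd z z' : ℕ) :=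
              mul_le_mul_of_nonneg_right i2' hgR
          _ = _ := by ring
      have hr := rel_of H hb hc B (by positivity) hT0p t1 t2
      rw [← m1, ← m2, ← m3, ← m4] at hr
      have hu : u = low y (b / Nat.gcd b c) := eu.trans g3
      have hv : v = low y (c / Nat.gcd b c) := ev.trans g4
      rw [hu, hv]
      exact hr
  · refine ⟨[], by simp, by simp, fun u v _ _ _ _ _ hQ => absurd ⟨u, v, hQ⟩ hex⟩

/-! ### the density -/

lemma dens_le_one {N : ℕ} (hN : 0 < N) (Q : ℕ → ℕ → Prop) : MXlowx808.dens N (KQ Q) ≤ 1 := by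
  classical
  unfold MXlowx808.dens
  calc ∑ s ∈ N.divisors, ∑ t ∈ N.divisors,
        (if Nat.Coprime s t then nu N s * nu N t * KQ Q s t else 0)
      ≤ ∑ s ∈ N.divisors, ∑ t ∈ N.divisors, nu N s * nu N t := by
        refine sum_le_sum fun s _ => sum_le_sum fun t _ => ?_
        have h1 : 0 ≤ nu N s * nu N t := mul_nonneg (nu_nonneg _ _) (nu_nonneg _ _)
        split_ifs
        · exact mul_le_of_le_one_right h1 (KQ_le_one Q s t)
        · exact h1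
    _ = (∑ s ∈ N.divisors, nu N s) * ∑ t ∈ N.divisors, nu N t := by rw [sum_mul_sum]
    _ = 1 := by rw [sum_nu hN, mul_one]

lemma tau_le (j n n' : ℕ) : tau 1 (4 * 2 ^ j) (max (2 ^ n) (2 ^ n') / 2) (PP (2 ^ n) (2 ^ n')) ≤
    256 * ((2 : ℝ) ^ j * ((2 : ℝ) ^ max n n') ^ (-(1 : ℝ) / 3)) := by
  have hmx : max ((2 : ℝ) ^ n) (2 ^ n') = 2 ^ max n n' := by
    rcases le_total n n' with h | h
    · rw [max_eq_right h, max_eq_right (pow_le_pow_right₀ (by norm_num) h)]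
    · rw [max_eq_left h, max_eq_left (pow_le_pow_right₀ (by norm_num) h)]
  unfold tau PP
  rw [hmx]
  set T : ℝ := 2 ^ max n n' with hT
  have hT1 : 1 ≤ T := one_le_pow₀ (by norm_num)
  have hT0 : 0 < T := by linarith
  have e1 : (T / 128) ^ (1 / 3 : ℝ) = T ^ (1 / 3 : ℝ) / (128 : ℝ) ^ (1 / 3 : ℝ) :=
    Real.div_rpow hT0.le (by norm_num) _
  have h128 : (128 : ℝ) ^ (1 / 3 : ℝ) ≤ 8 := by
    calc (128 : ℝ) ^ (1 / 3 : ℝ) ≤ (512 : ℝ) ^ (1 / 3 : ℝ) :=
          Real.rpow_le_rpow (by norm_num) (by norm_num) (by norm_num)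
      _ = 8 := by
          rw [show (512 : ℝ) = 8 ^ (3 : ℕ) by norm_num, ← Real.rpow_natCast,
            ← Real.rpow_mul (by norm_num)]
          norm_num
  have hT3 : 0 < T ^ (1 / 3 : ℝ) := Real.rpow_pos_of_pos hT0 _
  have e2 : T ^ (-(1 : ℝ) / 3) = (T ^ (1 / 3 : ℝ))⁻¹ := by
    rw [← Real.rpow_neg hT0.le]
    congr 1
    ring
  have e3 : 4 / (T / 128) ^ (1 / 3 : ℝ) ≤ 32 * T ^ (-(1 : ℝ) / 3) := by
    rw [e1, e2, div_div_eq_mul_div, div_eq_mul_inv]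
    refine mul_le_mul_of_nonneg_right ?_ (inv_nonneg.2 hT3.le)
    linarith
  have e4 : 16 / (T / 2) ≤ 32 * T ^ (-(1 : ℝ) / 3) := by
    have h1 : T ^ (1 / 3 : ℝ) ≤ T := by
      calc T ^ (1 / 3 : ℝ) ≤ T ^ (1 : ℝ) :=
            Real.rpow_le_rpow_of_exponent_le hT1 (by norm_num)
        _ = T := Real.rpow_one T
    rw [e2, div_div_eq_mul_div, div_eq_mul_inv]
    have h2 : T⁻¹ ≤ (T ^ (1 / 3 : ℝ))⁻¹ := inv_anti₀ hT3 h1
    calc 16 * 2 * T⁻¹ ≤ 16 * 2 * (T ^ (1 / 3 : ℝ))⁻¹ := mul_le_mul_of_nonneg_left h2 (by norm_num)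
      _ = _ := by ring
  have h2j : (0 : ℝ) < 2 ^ j := by positivity
  push_cast
  calc (1 : ℝ) * (4 * 2 ^ j) * (4 / (T / 128) ^ (1 / 3 : ℝ) + 16 / (T / 2))
      ≤ 1 * (4 * 2 ^ j) * (32 * T ^ (-(1 : ℝ) / 3) + 32 * T ^ (-(1 : ℝ) / 3)) :=
        mul_le_mul_of_nonneg_left (add_le_add e3 e4) (by positivity)
    _ = _ := by ring

/-- **the density of a box** -/
theorem dens_QL {jB : ℕ → ℕ} {j0 : ℕ} (H : HyB M P jB j0) (hC : HyC P) (hY : ∀ v, P.Y v = 2 ^ v)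
    (w : ℕ → ℝ) (δ : ℝ) (x : Bx) (a a' i z z' : ℕ) :
    MXlowx808.dens (low (P.Y x.v) M) (KQ (QL F P w δ jB x a a' i z z')) ≤
      (c14 * 36 * 256) * tauB x := by
  have hc14 := c14_ge
  set r : ℝ := (2 : ℝ) ^ (x.j + x.j') * ((2 : ℝ) ^ x.mx) ^ (-(1 : ℝ) / 3) with hr
  set Pl : ℝ := (1 + ((x.v : ℝ) + 1) * ((x.mx : ℝ) + 1)) ^ 2 with hPl
  have hb1 : (1 : ℝ) ≤ 1 + ((x.v : ℝ) + 1) * ((x.mx : ℝ) + 1) := by
    have : (0 : ℝ) ≤ ((x.v : ℝ) + 1) * ((x.mx : ℝ) + 1) := by positivity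
    linarith
  have hPl1 : 1 ≤ Pl := one_le_pow₀ hb1
  have hT0 : (0 : ℝ) < 2 ^ x.mx := by positivity
  have hr0 : 0 < r := mul_pos (by positivity) (Real.rpow_pos_of_pos hT0 _)
  have etB : tauB x = min 1 (Pl * r) := rfl
  have hd1 := dens_le_one (low_pos (P.Y x.v) M) (QL F P w δ jB x a a' i z z')
  rw [etB]
  have hPlr : r ≤ Pl * r := le_mul_of_one_le_left hr0.le hPl1
  by_cases hbig : 1 ≤ 256 * r
  · refine hd1.trans ?_
    have h1 : 1 / 256 ≤ min 1 (Pl * r) := le_min (by norm_num) (by linarith)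
    nlinarith
  · push Not at hbig
    set τ : ℝ := 256 * r with hτ
    have hτ0 : 0 < τ := by positivity
    -- the cut `y' = max 8 y`
    set y' : ℕ := max 8 (P.Y x.v) with hy'
    have hup : upp y' (low (P.Y x.v) M) = 1 := by
      refine upp_one_of fun p hp hd => ?_
      have h1 : p ≤ P.Y x.v := prime_dvd_part (fun p => p ≤ P.Y x.v) hp hd
      exact h1.trans (le_max_right _ _)
    have hK0 : (0 : ℝ) < max (2 ^ x.n) (2 ^ x.n') / 2 := by positivity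
    have hP0 : 0 < PP ((2 : ℝ) ^ x.n) (2 ^ x.n') := by
      unfold PP
      exact Real.rpow_pos_of_pos (by positivity) _
    have h1 := dens_same (M := low (P.Y x.v) M) (y := y') (N := 1) (R := 4 * 2 ^ (x.j + x.j'))
      (K := max (2 ^ x.n) (2 ^ x.n') / 2) (P := PP (2 ^ x.n) (2 ^ x.n')) (τ := τ)
      (Q := QL F P w δ jB x a a' i z z') (low_pos _ _) (le_max_left _ _) hup (by positivity)
      hK0 hP0 (cov_QL H hC w δ x a a' i z z') hτ0 hbig.le (tau_le _ _ _)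
    -- the logarithms
    have hlog2 : 0 < Real.log 2 := Real.log_pos (by norm_num)
    have hlog2' : Real.log 2 ≤ 1 := by linarith [Real.log_two_lt_d9]
    have hly : Real.log y' ≤ (x.v : ℝ) + 3 := by
      have h2 : (y' : ℝ) ≤ 2 ^ (x.v + 3) := by
        have h3 : y' ≤ 2 ^ (x.v + 3) := by
          rw [hy', hY]
          refine max_le ?_ (Nat.pow_le_pow_right (by norm_num) (by omega))
          calc 8 = 2 ^ 3 := by norm_num
            _ ≤ _ := Nat.pow_le_pow_right (by norm_num) (by omega)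
        exact_mod_cast h3
      have h3 : (0 : ℝ) < y' := by
        have : 8 ≤ y' := le_max_left _ _
        have : (8 : ℝ) ≤ y' := by exact_mod_cast this
        linarith
      calc Real.log y' ≤ Real.log (2 ^ (x.v + 3)) := Real.log_le_log h3 h2
        _ = (x.v + 3) * Real.log 2 := by rw [Real.log_pow]; push_cast; ring
        _ ≤ (x.v + 3) * 1 := mul_le_mul_of_nonneg_left hlog2' (by positivity)
        _ = _ := mul_one _
    have hly0 : 0 ≤ Real.log y' := by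
      refine Real.log_nonneg ?_
      have : 8 ≤ y' := le_max_left _ _
      have : (8 : ℝ) ≤ y' := by exact_mod_cast this
      linarith
    have hlt : Real.log (1 / τ) ≤ x.mx := by
      have h2 : ((2 : ℝ) ^ x.mx) ^ (-(1 : ℝ) / 3) ≤ τ := by
        have h3 : (1 : ℝ) ≤ 2 ^ (x.j + x.j') := one_le_pow₀ (by norm_num)
        have h4 : 0 < ((2 : ℝ) ^ x.mx) ^ (-(1 : ℝ) / 3) := Real.rpow_pos_of_pos hT0 _
        have h5 : ((2 : ℝ) ^ x.mx) ^ (-(1 : ℝ) / 3) ≤ r := le_mul_of_one_le_left h4.le h3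
        rw [hτ]
        linarith
      have h3 : 1 / τ ≤ ((2 : ℝ) ^ x.mx) ^ ((1 : ℝ) / 3) := by
        have e : ((2 : ℝ) ^ x.mx) ^ ((1 : ℝ) / 3) = (((2 : ℝ) ^ x.mx) ^ (-(1 : ℝ) / 3))⁻¹ := by
          rw [← Real.rpow_neg hT0.le]
          congr 1
          ring
        rw [e, one_div]
        exact inv_anti₀ (Real.rpow_pos_of_pos hT0 _) h2
      calc Real.log (1 / τ) ≤ Real.log (((2 : ℝ) ^ x.mx) ^ ((1 : ℝ) / 3)) :=
            Real.log_le_log (by positivity) h3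
        _ = 1 / 3 * (x.mx * Real.log 2) := by rw [Real.log_rpow hT0, Real.log_pow]
        _ ≤ 1 * (x.mx * 1) := by
            refine mul_le_mul (by norm_num) (mul_le_mul_of_nonneg_left hlog2' (Nat.cast_nonneg _))
              (by positivity) (by norm_num)
        _ = _ := by ring
    have hlt0 : 0 ≤ Real.log (1 / τ) := Real.log_nonneg (by
      rw [le_div_iff₀ hτ0, one_mul]; exact hbig.le)
    have hv0 : (0 : ℝ) ≤ x.v := Nat.cast_nonneg _
    have hm0 : (0 : ℝ) ≤ x.mx := Nat.cast_nonneg _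
    have hlin : 1 + 2 * Real.log y' * Real.log (1 / τ) ≤
        6 * (1 + ((x.v : ℝ) + 1) * ((x.mx : ℝ) + 1)) := by
      have h2 : Real.log y' * Real.log (1 / τ) ≤ ((x.v : ℝ) + 3) * x.mx :=
        mul_le_mul hly hlt hlt0 (by positivity)
      nlinarith
    have hlin0 : 0 ≤ 1 + 2 * Real.log y' * Real.log (1 / τ) := by positivity
    have hsq : (1 + 2 * Real.log y' * Real.log (1 / τ)) ^ 2 ≤ 36 * Pl := by
      calc _ ≤ (6 * (1 + ((x.v : ℝ) + 1) * ((x.mx : ℝ) + 1))) ^ 2 :=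
            pow_le_pow_left₀ hlin0 hlin 2
        _ = 36 * Pl := by rw [hPl]; ring
    have h2 : MXlowx808.dens (low (P.Y x.v) M) (KQ (QL F P w δ jB x a a' i z z')) ≤
        (c14 * 36 * 256) * (Pl * r) := by
      refine h1.trans ?_
      calc c14 * ((1 + 2 * Real.log y' * Real.log (1 / τ)) ^ 2 * τ) ≤
          c14 * ((36 * Pl) * τ) :=
            mul_le_mul_of_nonneg_left (mul_le_mul_of_nonneg_right hsq hτ0.le) (by linarith)
        _ = _ := by rw [hτ]; ring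
    rcases min_choice 1 (Pl * r) with e | e
    · rw [e]
      refine hd1.trans ?_
      nlinarith
    · rw [e]
      exact h2

/-! ### `TgtB` -/

open Crest.Agent.R4C.Spinex946 Crest.Agent.R4C.LNumPx817

lemma hyC (cp : ℝ) {A : ℕ} (hA : 1 ≤ A) (m0 : ℕ) (γ L : ℝ) (M : ℕ) (B : Finset ℕ) :
    HyC (ParOf cp A m0 γ L M B) where
  Ym := fun i j hij => Nat.pow_lt_pow_right (by norm_num) hij
  be := fun m => ⟨A * m, rfl⟩
  ge := fun m => Nat.pow_le_pow_right (by norm_num) (Nat.le_mul_of_pos_left m hA)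

/-- **TARGET B** -/
theorem tgtB (γ : ℝ) : TgtB γ := by
  refine ((hyB 1).and Ev.basic).mono ?_
  rintro cp η A m0 ⟨h1, h2⟩
  have hc14 := c14_ge
  refine ⟨c14 * 36 * 256, by linarith, fun L M B F S x a a' i z z' _ _ => ?_⟩
  exact dens_QL (h1 γ L M B F S) (hyC cp h2.2.2.2.2.2.1 m0 γ L M B) (fun _ => rfl) _ _ x a a' i z z'

end Crest.Agent.R4C.LDensx217
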