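import Crest.Agent.R4C.SpineDef_946
import Crest.Agent.R4C.Asm_946
import Crest.Agent.R4C.Sum6_251

/-!
# Row 4, class (L): from the boxes to `ClsOK` (helper251)

* `enR_le_frm` : `EnR ≤ L frm Φ` if `Φ` dominates the boosted offset sums.
* `Fam` : a family of kernels with the indices `n k k' v j j'` of `Sum6_251`; `famSum`, `frm_fam`.
* `enR_of_boxes` : kernels with `frm (Φ box) ≤ C box(..) ν(B)`, covering the class:
  `EnR ≤ C₀ C (L ν(B))`.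
* **`cls_of_boxes`** : the same with the constants `Ev`: `ClsOK`.
* `conv` : the right side of `LClass_662.boxTw` is `≤ C' box(..) ν(B)`.
-/

set_option autoImplicit false

open Finset

namespace Crest.Agent.R4C.LSumx251

open Crest.Agent.R4C.Basex935 Crest.Agent.R4C.Bridgex882 Crest.Agent.R4C.FLDefx935
  Crest.Agent.R4C.Spinex946 Crest.Agent.R4C.Sum6x251
open Crest.Agent.R4C.FLExx326 (ind)

open Classical in
/-- energy of a class `≤ L` times the form of a kernel dominating the boosted offset sums -/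
theorem enR_le_frm {γ L : ℝ} (hL : 0 ≤ L) {M : ℕ} {B : Finset ℕ} (hB : B ⊆ M.divisors)
    {lam : ℕ → ℕ → Option ℤ} {R : ℕ → ℕ → ℤ → Prop} {Φ : ℕ → ℕ → ℝ} (h0 : ∀ b c, 0 ≤ Φ b c)
    (h : ∀ b ∈ B, ∀ c ∈ B, b ≠ c →
      ∑ h ∈ (Lnk γ L b c).filter (fun h => ¬ killedB lam b c h ∧ R b c h),
        boostB M lam b c h ≤ Φ b c) :
    EnR γ L M B lam R ≤ L * frm M Φ := by
  have h1 : ∀ b c : ℕ, 0 ≤ (Nat.gcd b c : ℝ) * nu M b * nu M c := fun b c =>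
    mul_nonneg (mul_nonneg (Nat.cast_nonneg _) (nu_nonneg _ _)) (nu_nonneg _ _)
  unfold EnR frm
  refine mul_le_mul_of_nonneg_left ?_ hL
  calc ∑ b ∈ B, ∑ c ∈ B.erase b, (Nat.gcd b c : ℝ) * nu M b * nu M c *
        ∑ h ∈ (Lnk γ L b c).filter (fun h => ¬ killedB lam b c h ∧ R b c h), boostB M lam b c h
      ≤ ∑ b ∈ B, ∑ c ∈ B.erase b, (Nat.gcd b c : ℝ) * nu M b * nu M c * Φ b c :=
        sum_le_sum fun b hb => sum_le_sum fun c hc => mul_le_mul_of_nonneg_left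
          (h b hb c (mem_of_mem_erase hc) (fun e => ne_of_mem_erase hc e.symm)) (h1 b c)
    _ ≤ ∑ b ∈ B, ∑ c ∈ M.divisors, (Nat.gcd b c : ℝ) * nu M b * nu M c * Φ b c :=
        sum_le_sum fun b _ => sum_le_sum_of_subset_of_nonneg ((erase_subset _ _).trans hB)
          fun c _ _ => mul_nonneg (h1 b c) (h0 b c)
    _ ≤ _ := sum_le_sum_of_subset_of_nonneg hB fun b _ _ => sum_nonneg fun c _ =>
        mul_nonneg (h1 b c) (h0 b c)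

/-- a family of kernels, indices `n k k' v j j'` -/
abbrev Fam := ℕ → ℕ → ℕ → ℕ → ℕ → ℕ → ℕ → ℕ → ℝ

/-- the sum of the kernels of the family -/
noncomputable def famSum (A c N : ℕ) (Φ : Fam) (b b' : ℕ) : ℝ :=
  ∑ n ∈ range N, ∑ k ∈ range (n + 1), ∑ k' ∈ range (n + 1), ∑ v ∈ range (A * (n + 1) + 1),
    ∑ j ∈ range (n + c + 1), ∑ j' ∈ range (n + c + 1), Φ n k k' v j j' b b'

lemma famSum_nonneg {A c N : ℕ} {Φ : Fam} (h : ∀ n k k' v j j' b b', 0 ≤ Φ n k k' v j j' b b')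
    (b b' : ℕ) : 0 ≤ famSum A c N Φ b b' :=
  sum_nonneg fun _ _ => sum_nonneg fun _ _ => sum_nonneg fun _ _ => sum_nonneg fun _ _ =>
    sum_nonneg fun _ _ => sum_nonneg fun _ _ => h _ _ _ _ _ _ _ _

/-- one box is at most the sum -/
lemma le_famSum {A c N : ℕ} {Φ : Fam} (h : ∀ n k k' v j j' b b', 0 ≤ Φ n k k' v j j' b b')
    {n k k' v j j' : ℕ} (hn : n < N) (hk : k ≤ n) (hk' : k' ≤ n) (hv : v ≤ A * (n + 1))
    (hj : j ≤ n + c) (hj' : j' ≤ n + c) (b b' : ℕ) :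
    Φ n k k' v j j' b b' ≤ famSum A c N Φ b b' := by
  unfold famSum
  refine le_trans ?_ (single_le_sum (f := fun n => ∑ k ∈ range (n + 1), ∑ k' ∈ range (n + 1),
    ∑ v ∈ range (A * (n + 1) + 1), ∑ j ∈ range (n + c + 1), ∑ j' ∈ range (n + c + 1),
      Φ n k k' v j j' b b') (fun _ _ => sum_nonneg fun _ _ => sum_nonneg fun _ _ =>
      sum_nonneg fun _ _ => sum_nonneg fun _ _ => sum_nonneg fun _ _ => h _ _ _ _ _ _ _ _)
    (mem_range.2 hn))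
  refine le_trans ?_ (single_le_sum (f := fun k => ∑ k' ∈ range (n + 1),
    ∑ v ∈ range (A * (n + 1) + 1), ∑ j ∈ range (n + c + 1), ∑ j' ∈ range (n + c + 1),
      Φ n k k' v j j' b b') (fun _ _ => sum_nonneg fun _ _ => sum_nonneg fun _ _ =>
      sum_nonneg fun _ _ => sum_nonneg fun _ _ => h _ _ _ _ _ _ _ _)
    (mem_range.2 (Nat.lt_succ_of_le hk)))
  refine le_trans ?_ (single_le_sum (f := fun k' =>
    ∑ v ∈ range (A * (n + 1) + 1), ∑ j ∈ range (n + c + 1), ∑ j' ∈ range (n + c + 1),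
      Φ n k k' v j j' b b') (fun _ _ => sum_nonneg fun _ _ =>
      sum_nonneg fun _ _ => sum_nonneg fun _ _ => h _ _ _ _ _ _ _ _)
    (mem_range.2 (Nat.lt_succ_of_le hk')))
  refine le_trans ?_ (single_le_sum (f := fun v =>
    ∑ j ∈ range (n + c + 1), ∑ j' ∈ range (n + c + 1),
      Φ n k k' v j j' b b') (fun _ _ =>
      sum_nonneg fun _ _ => sum_nonneg fun _ _ => h _ _ _ _ _ _ _ _)
    (mem_range.2 (Nat.lt_succ_of_le hv)))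
  refine le_trans ?_ (single_le_sum (f := fun j =>
    ∑ j' ∈ range (n + c + 1), Φ n k k' v j j' b b') (fun _ _ =>
      sum_nonneg fun _ _ => h _ _ _ _ _ _ _ _)
    (mem_range.2 (Nat.lt_succ_of_le hj)))
  exact single_le_sum (f := fun j' => Φ n k k' v j j' b b') (fun _ _ => h _ _ _ _ _ _ _ _)
    (mem_range.2 (Nat.lt_succ_of_le hj'))

lemma frm_fam (M A c N : ℕ) (Φ : Fam) : frm M (famSum A c N Φ) =
    ∑ n ∈ range N, ∑ k ∈ range (n + 1), ∑ k' ∈ range (n + 1), ∑ v ∈ range (A * (n + 1) + 1),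
      ∑ j ∈ range (n + c + 1), ∑ j' ∈ range (n + c + 1), frm M (Φ n k k' v j j') := by
  have e : famSum A c N Φ = fun b b' => ∑ n ∈ range N, (fun b b' => ∑ k ∈ range (n + 1),
      ∑ k' ∈ range (n + 1), ∑ v ∈ range (A * (n + 1) + 1),
      ∑ j ∈ range (n + c + 1), ∑ j' ∈ range (n + c + 1), Φ n k k' v j j' b b') b b' := rfl
  rw [e, Asmx946.frm_sum]
  refine sum_congr rfl fun n _ => ?_
  rw [Asmx946.frm_sum]
  refine sum_congr rfl fun k _ => ?_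
  rw [Asmx946.frm_sum]
  refine sum_congr rfl fun k' _ => ?_
  rw [Asmx946.frm_sum]
  refine sum_congr rfl fun v _ => ?_
  rw [Asmx946.frm_sum]
  refine sum_congr rfl fun j _ => ?_
  rw [Asmx946.frm_sum]

open Classical in
/-- **energy of a class covered by boxes** -/
theorem enR_of_boxes {s e Bp : ℝ} (hs : 0 < s) (hs1 : s < 1 / 2) (he : e < s / 3) (A c : ℕ) :
    ∃ C₀ : ℝ, 0 < C₀ ∧ ∀ (γ L : ℝ) (M : ℕ) (B : Finset ℕ) (lam : ℕ → ℕ → Option ℤ)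
      (R : ℕ → ℕ → ℤ → Prop) (C : ℝ) (N : ℕ) (Φ : Fam), 0 ≤ L → B ⊆ M.divisors → 0 ≤ C →
      (∀ n k k' v j j' b b', 0 ≤ Φ n k k' v j j' b b') →
      (∀ b ∈ B, ∀ b' ∈ B, b ≠ b' →
        ∑ h ∈ (Lnk γ L b b').filter (fun h => ¬ killedB lam b b' h ∧ R b b' h),
          boostB M lam b b' h ≤ famSum A c N Φ b b') →
      (∀ n k k' v j j', k ≤ n → k' ≤ n → v ≤ A * (n + 1) → j ≤ n + c → j' ≤ n + c →
        frm M (Φ n k k' v j j') ≤ C * box s e Bp n v j j' * ∑ b ∈ B, nu M b) →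
      EnR γ L M B lam R ≤ C₀ * C * (L * ∑ b ∈ B, nu M b) := by
  obtain ⟨C₀, hC₀, h⟩ := sumL (s := s) (e := e) (B := Bp) hs hs1 he A c
  refine ⟨C₀, hC₀, fun γ L M B lam R C N Φ hL hB hC h0 hcov hbox => ?_⟩
  have hS0 : 0 ≤ ∑ b ∈ B, nu M b := sum_nonneg fun b _ => nu_nonneg M b
  refine (enR_le_frm hL hB (famSum_nonneg (A := A) (c := c) (N := N) h0) hcov).trans ?_
  rw [frm_fam]
  have h1 : ∑ n ∈ range N, ∑ k ∈ range (n + 1), ∑ k' ∈ range (n + 1),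
      ∑ v ∈ range (A * (n + 1) + 1), ∑ j ∈ range (n + c + 1), ∑ j' ∈ range (n + c + 1),
        frm M (Φ n k k' v j j') ≤
      ∑ n ∈ range N, ∑ _k ∈ range (n + 1), ∑ _k' ∈ range (n + 1),
      ∑ v ∈ range (A * (n + 1) + 1), ∑ j ∈ range (n + c + 1), ∑ j' ∈ range (n + c + 1),
        (C * ∑ b ∈ B, nu M b) * box s e Bp n v j j' := by
    refine sum_le_sum fun n _ => sum_le_sum fun k hk => sum_le_sum fun k' hk' =>
      sum_le_sum fun v hv => sum_le_sum fun j hj => sum_le_sum fun j' hj' => ?_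
    rw [mem_range] at hk hk' hv hj hj'
    refine (hbox n k k' v j j' (by omega) (by omega) (by omega) (by omega) (by omega)).trans
      (le_of_eq ?_)
    ring
  have h2 : ∑ n ∈ range N, ∑ _k ∈ range (n + 1), ∑ _k' ∈ range (n + 1),
      ∑ v ∈ range (A * (n + 1) + 1), ∑ j ∈ range (n + c + 1), ∑ j' ∈ range (n + c + 1),
        (C * ∑ b ∈ B, nu M b) * box s e Bp n v j j' =
      (C * ∑ b ∈ B, nu M b) * ∑ n ∈ range N, ∑ _k ∈ range (n + 1), ∑ _k' ∈ range (n + 1),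
      ∑ v ∈ range (A * (n + 1) + 1), ∑ j ∈ range (n + c + 1), ∑ j' ∈ range (n + c + 1),
        box s e Bp n v j j' := by
    simp only [mul_sum]
  calc L * ∑ n ∈ range N, ∑ k ∈ range (n + 1), ∑ k' ∈ range (n + 1),
      ∑ v ∈ range (A * (n + 1) + 1), ∑ j ∈ range (n + c + 1), ∑ j' ∈ range (n + c + 1),
        frm M (Φ n k k' v j j')
      ≤ L * ((C * ∑ b ∈ B, nu M b) * C₀) := by
        refine mul_le_mul_of_nonneg_left ?_ hL
        refine h1.trans ?_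
        rw [h2]
        exact mul_le_mul_of_nonneg_left (h N) (mul_nonneg hC hS0)
    _ = _ := by ring

open Classical in
/-- **a class covered by boxes is OK** -/
theorem cls_of_boxes {γ : ℝ} {R : Cls} (h : Ev fun cp η A m0 =>
    ∃ (s e Bp : ℝ) (A' c : ℕ) (C : ℝ), 0 < s ∧ s < 1 / 2 ∧ e < s / 3 ∧ 0 ≤ C ∧
      ∀ (L : ℝ) (M : ℕ) (B : Finset ℕ) (F : FL M), Setup η L M B F → ∃ (N : ℕ) (Φ : Fam),
        (∀ n k k' v j j' b b', 0 ≤ Φ n k k' v j j' b b') ∧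
        (∀ b ∈ B, ∀ b' ∈ B, b ≠ b' →
          ∑ h ∈ (Lnk γ L b b').filter (fun h => ¬ killedB (lamOf cp A m0 γ L M B F) b b' h ∧
            R cp η A m0 L M B F b b' h), boostB M (lamOf cp A m0 γ L M B F) b b' h ≤
            famSum A' c N Φ b b') ∧
        (∀ n k k' v j j', k ≤ n → k' ≤ n → v ≤ A' * (n + 1) → j ≤ n + c → j' ≤ n + c →
          frm M (Φ n k k' v j j') ≤ C * box s e Bp n v j j' * ∑ b ∈ B, nu M b)) :
    ClsOK γ R := by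
  refine h.mono ?_
  rintro cp η A m0 ⟨s, e, Bp, A', c, C, hs, hs1, he, hC, h⟩
  obtain ⟨C₀, hC₀, h1⟩ := enR_of_boxes (Bp := Bp) hs hs1 he A' c
  refine ⟨C₀ * C, fun L M B F S => ?_⟩
  obtain ⟨N, Φ, h2, h3, h4⟩ := h L M B F S
  refine (h1 γ L M B _ _ C N Φ S.hL.le S.hB hC h2 h3 h4).trans ?_
  calc C₀ * C * (L * ∑ b ∈ B, nu M b) ≤ C₀ * C * 1 :=
        mul_le_mul_of_nonneg_left S.mass (by positivity)
    _ = C₀ * C := mul_one _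

/-! ### the right side of `boxTw` -/

/-- **conversion** of the bound of `LClass_662.boxTw` (`y = 2^v`, `U = 2^j`, `U' = 2^j'`,
`s = (1-θ)²/(r(1+κ))`) into the box of `Sum6_251` -/
theorem conv {κ ε e0 a s Bp : ℝ} (hκ : 0 < κ) (hε : 0 < ε) (hs : 0 < s) (hBp : 0 ≤ Bp)
    (c₀ : ℕ) {C1 C2 C3 C4 : ℝ} (hC1 : 0 ≤ C1) (hC2 : 0 ≤ C2) (hC3 : 0 ≤ C3) (hC4 : 1 ≤ C4) :
    ∃ C : ℝ, 0 ≤ C ∧ ∀ (n v j j' N : ℕ) (Θ E0 τ S : ℝ), 0 ≤ Θ → 0 ≤ E0 → 0 ≤ τ → 0 ≤ S →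
      N ≤ 2 ^ (n + c₀) → Θ ≤ C2 * ((2 : ℝ) ^ n) ^ a → E0 ≤ C3 * ((2 : ℝ) ^ n) ^ e0 →
      τ ≤ C4 * min 1 ((1 + ((v : ℝ) + 1) * ((n : ℝ) + 1)) ^ 2 *
        ((2 : ℝ) ^ (j + j') * ((2 : ℝ) ^ n) ^ (-(1 : ℝ) / 3))) →
      C1 * (E0 * (N : ℝ) ^ ε / √((((2 : ℕ) ^ j : ℕ) : ℝ) * (((2 : ℕ) ^ j' : ℕ) : ℝ))) *
        Θ ^ (κ / (1 + κ)) * Real.log (((2 : ℕ) ^ v : ℕ) : ℝ) ^ Bp * τ ^ s * S ≤
      C * box s (ε + a * (κ / (1 + κ)) + e0) Bp n v j j' * S := by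
  have h2 : (0 : ℝ) < 2 := by norm_num
  set q := κ / (1 + κ) with hq
  have hq0 : 0 < q := by positivity
  refine ⟨C1 * C3 * ((2 : ℝ) ^ c₀) ^ ε * C2 ^ q * C4 ^ s, by positivity, ?_⟩
  intro n v j j' N Θ E0 τ S hΘ hE0 hτ hS hN hΘ1 hE1 hτ1
  set m : ℝ := min 1 ((1 + ((v : ℝ) + 1) * ((n : ℝ) + 1)) ^ 2 *
        ((2 : ℝ) ^ (j + j') * ((2 : ℝ) ^ n) ^ (-(1 : ℝ) / 3))) with hm
  have hm0 : 0 ≤ m := le_min zero_le_one (by positivity)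
  have hT : (0 : ℝ) < 2 ^ n := by positivity
  have hU : √((((2 : ℕ) ^ j : ℕ) : ℝ) * (((2 : ℕ) ^ j' : ℕ) : ℝ)) =
      ((2 : ℝ) ^ (j + j')) ^ ((1 : ℝ) / 2) := by
    rw [Real.sqrt_eq_rpow]
    congr 1
    push_cast
    rw [pow_add]
  have hU1 : (1 : ℝ) / √((((2 : ℕ) ^ j : ℕ) : ℝ) * (((2 : ℕ) ^ j' : ℕ) : ℝ)) =
      ((2 : ℝ) ^ (j + j')) ^ (-(1 : ℝ) / 2) := by
    rw [hU, neg_div, Real.rpow_neg (by positivity), one_div]
  have hN1 : (N : ℝ) ^ ε ≤ ((2 : ℝ) ^ c₀) ^ ε * ((2 : ℝ) ^ n) ^ ε := by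
    rw [← Real.mul_rpow (by positivity) (by positivity)]
    refine Real.rpow_le_rpow (Nat.cast_nonneg _) ?_ hε.le
    calc (N : ℝ) ≤ ((2 ^ (n + c₀) : ℕ) : ℝ) := by exact_mod_cast hN
      _ = _ := by push_cast; rw [pow_add]; ring
  have hΘ2 : Θ ^ q ≤ C2 ^ q * ((2 : ℝ) ^ n) ^ (a * q) := by
    calc Θ ^ q ≤ (C2 * ((2 : ℝ) ^ n) ^ a) ^ q := Real.rpow_le_rpow hΘ hΘ1 hq0.le
      _ = _ := by
        rw [Real.mul_rpow hC2 (by positivity), ← Real.rpow_mul hT.le]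
  have hτ2 : τ ^ s ≤ C4 ^ s * m ^ s := by
    calc τ ^ s ≤ (C4 * m) ^ s := Real.rpow_le_rpow hτ hτ1 hs.le
      _ = _ := Real.mul_rpow (by linarith) hm0
  have hlog : Real.log (((2 : ℕ) ^ v : ℕ) : ℝ) ^ Bp ≤ ((v : ℝ) + 1) ^ Bp := by
    have h3 : Real.log (((2 : ℕ) ^ v : ℕ) : ℝ) = v * Real.log 2 := by
      push_cast
      rw [Real.log_pow]
    have h4 : Real.log 2 ≤ 1 := by
      have := Real.log_two_lt_d9
      linarith
    have h5 : 0 ≤ Real.log 2 := Real.log_nonneg (by norm_num)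
    have hv0 : (0 : ℝ) ≤ v := Nat.cast_nonneg v
    refine Real.rpow_le_rpow ?_ ?_ hBp
    · rw [h3]; positivity
    · rw [h3]; nlinarith
  have hlog0 : 0 ≤ Real.log (((2 : ℕ) ^ v : ℕ) : ℝ) ^ Bp := by
    refine Real.rpow_nonneg (Real.log_nonneg ?_) _
    have : 1 ≤ (2 : ℕ) ^ v := Nat.one_le_two_pow
    exact_mod_cast this
  have hE2 : E0 * (N : ℝ) ^ ε ≤ (C3 * ((2 : ℝ) ^ n) ^ e0) * (((2 : ℝ) ^ c₀) ^ ε *
      ((2 : ℝ) ^ n) ^ ε) := mul_le_mul hE1 hN1 (by positivity) (by positivity)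
  have hexp : ((2 : ℝ) ^ n) ^ (ε + a * q + e0) = ((2 : ℝ) ^ n) ^ ε * ((2 : ℝ) ^ n) ^ (a * q) *
      ((2 : ℝ) ^ n) ^ e0 := by
    rw [Real.rpow_add hT, Real.rpow_add hT]
  have hUp : 0 ≤ ((2 : ℝ) ^ (j + j')) ^ (-(1 : ℝ) / 2) := by positivity
  calc C1 * (E0 * (N : ℝ) ^ ε / √((((2 : ℕ) ^ j : ℕ) : ℝ) * (((2 : ℕ) ^ j' : ℕ) : ℝ))) *
        Θ ^ q * Real.log (((2 : ℕ) ^ v : ℕ) : ℝ) ^ Bp * τ ^ s * S
      = C1 * (E0 * (N : ℝ) ^ ε) * ((2 : ℝ) ^ (j + j')) ^ (-(1 : ℝ) / 2) *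
        Θ ^ q * Real.log (((2 : ℕ) ^ v : ℕ) : ℝ) ^ Bp * τ ^ s * S := by
        rw [← hU1]; ring
    _ ≤ C1 * ((C3 * ((2 : ℝ) ^ n) ^ e0) * (((2 : ℝ) ^ c₀) ^ ε *
      ((2 : ℝ) ^ n) ^ ε)) * ((2 : ℝ) ^ (j + j')) ^ (-(1 : ℝ) / 2) *
        (C2 ^ q * ((2 : ℝ) ^ n) ^ (a * q)) * ((v : ℝ) + 1) ^ Bp * (C4 ^ s * m ^ s) * S := by
        have g1 : 0 ≤ Θ ^ q := Real.rpow_nonneg hΘ _
        have g2 : 0 ≤ τ ^ s := Real.rpow_nonneg hτ _
        gcongr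
    _ = _ := by
        unfold Sum6x251.box
        rw [← hm, hexp]
        ring

end Crest.Agent.R4C.LSumx251
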