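import Crest.Agent.R4C.LBoxDef_662
import Crest.Agent.R4C.LSum_251

/-!
# Row 4, class (L): numerics of the boxes (helper251)

* `num_low` : the right side of `LClass_662.boxTw` for the box `x : Bx` (`E0` with the polynomial
  and `N^ε₂` losses of ARROWS C, D, light bound `Θ ≤ (2^(n+1))^20`, density `≤ C tauB x`) is
  `≤ C' box s e (B+2) mx v j j' S`.
* `kp, th, rr, ep`, `num_consts` : explicit constants with `e < s / 3`.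
* `sum_Bx` : the sum over all boxes of a finite set of boxes.
* `LB.v_le`, `LB.j_le`, `LB.j_le'` : the indices of a nonempty box.
-/

set_option autoImplicit false

open Finset

namespace Crest.Agent.R4C.LNumx251

open Crest.Agent.R4C.LBoxDefx662 Crest.Agent.R4C.Sum6x251 Crest.Agent.R4C.FLDefx935
  Crest.Agent.R4C.LBxx500
  Crest.Agent.R4C.Rulex945 Crest.Agent.R4C.Cutx50

/-- `tauB` unfolded -/
lemma tauB_eq (x : Bx) : tauB x = min 1 ((1 + ((x.v : ℝ) + 1) * ((x.mx : ℝ) + 1)) ^ 2 *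
    ((2 : ℝ) ^ (x.j + x.j') * ((2 : ℝ) ^ x.mx) ^ (-(1 : ℝ) / 3))) := rfl

lemma tauB_nonneg (x : Bx) : 0 ≤ tauB x := le_min zero_le_one (by positivity)

lemma tauB_le_one (x : Bx) : tauB x ≤ 1 := min_le_left _ _

/-- polynomials are small powers of `2^n` -/
lemma poly_le {ε : ℝ} (hε : 0 < ε) (D : ℕ) :
    ∃ C : ℝ, 0 < C ∧ ∀ n : ℕ, ((n : ℝ) + 1) ^ D ≤ C * ((2 : ℝ) ^ n) ^ ε := by
  have h2 : (0 : ℝ) < 2 := by norm_num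
  set r : ℝ := (2 : ℝ) ^ (-ε) with hr
  have hr0 : 0 < r := Real.rpow_pos_of_pos h2 _
  have hr1 : r < 1 := Real.rpow_lt_one_of_one_lt_of_neg (by norm_num) (by linarith)
  obtain ⟨C, hC, h⟩ := poly_geom hr0.le hr1 D
  refine ⟨C, hC, fun n => ?_⟩
  have h1 := h {n}
  rw [sum_singleton] at h1
  have h3 : ((2 : ℝ) ^ n) ^ ε * r ^ n = 1 := by
    rw [rpow_two, hr, ← mul_pow, ← Real.rpow_add h2, add_neg_cancel, Real.rpow_zero, one_pow]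
  have h4 : 0 < ((2 : ℝ) ^ n) ^ ε := by positivity
  calc ((n : ℝ) + 1) ^ D = ((n : ℝ) + 1) ^ D * (((2 : ℝ) ^ n) ^ ε * r ^ n) := by
        rw [h3, mul_one]
    _ = (((n : ℝ) + 1) ^ D * r ^ n) * ((2 : ℝ) ^ n) ^ ε := by ring
    _ ≤ C * ((2 : ℝ) ^ n) ^ ε := mul_le_mul_of_nonneg_right h1 h4.le

/-- **numerics of one box** -/
theorem num_low {κ ε ε₂ ε₃ s B : ℝ} (hκ : 0 < κ) (hε : 0 < ε) (hε₂ : 0 < ε₂) (hε₃ : 0 < ε₃)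
    (hs : 0 < s) (hB : 0 ≤ B) {C1 C2 C3 C4 : ℝ} (hC1 : 0 ≤ C1) (hC2 : 0 ≤ C2) (hC3 : 0 ≤ C3)
    (hC4 : 0 ≤ C4) : ∃ C : ℝ, 0 ≤ C ∧ ∀ (x : Bx) (Θ E0 ℓ τ S : ℝ), 0 ≤ Θ → 0 ≤ E0 → 0 ≤ ℓ →
      0 ≤ τ → 0 ≤ S → Θ ≤ (2 ^ (x.n + 1)) ^ 20 →
      E0 ≤ C2 * (x.N : ℝ) ^ ε₂ * ((x.v : ℝ) + 1) ^ 2 * ((x.mx : ℝ) + 1) ^ 4 →
      ℓ ≤ C3 * ((x.v : ℝ) + 1) → τ ≤ C4 * tauB x →
      C1 * (E0 * (x.N : ℝ) ^ ε / √((((2 : ℕ) ^ x.j : ℕ) : ℝ) * (((2 : ℕ) ^ x.j' : ℕ) : ℝ))) *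
        Θ ^ (κ / (1 + κ)) * ℓ ^ B * τ ^ s * S ≤
      C * Sum6x251.box s (ε + ε₂ + ε₃ + 20 * (κ / (1 + κ))) (B + 2) x.mx x.v x.j x.j' * S := by
  have h2 : (0 : ℝ) < 2 := by norm_num
  obtain ⟨C5, hC5, h5⟩ := poly_le hε₃ 4
  set q := κ / (1 + κ) with hq
  have hq0 : 0 < q := by positivity
  refine ⟨C1 * (C2 * (2 : ℝ) ^ ε₂ * C5) * (2 : ℝ) ^ ε * ((2 : ℝ) ^ 20) ^ q * C3 ^ B * C4 ^ s,
    by positivity, ?_⟩
  intro x Θ E0 ℓ τ S hΘ hE0 hℓ hτ hS hΘ1 hE1 hℓ1 hτ1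
  set n := x.mx with hn
  set T : ℝ := (2 : ℝ) ^ n with hTd
  have hT : 0 < T := by positivity
  have hxn : x.n ≤ n := le_max_left _ _
  have hv1 : (0 : ℝ) < (x.v : ℝ) + 1 := by positivity
  have hN : (x.N : ℝ) = 2 * T := by
    unfold Bx.N
    push_cast
    rw [pow_succ]
    ring
  have hNε : (x.N : ℝ) ^ ε = (2 : ℝ) ^ ε * T ^ ε := by
    rw [hN, Real.mul_rpow h2.le hT.le]
  have hNε₂ : (x.N : ℝ) ^ ε₂ = (2 : ℝ) ^ ε₂ * T ^ ε₂ := by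
    rw [hN, Real.mul_rpow h2.le hT.le]
  have hU : √((((2 : ℕ) ^ x.j : ℕ) : ℝ) * (((2 : ℕ) ^ x.j' : ℕ) : ℝ)) =
      ((2 : ℝ) ^ (x.j + x.j')) ^ ((1 : ℝ) / 2) := by
    rw [Real.sqrt_eq_rpow]
    congr 1
    push_cast
    rw [pow_add]
  have hU1 : (1 : ℝ) / √((((2 : ℕ) ^ x.j : ℕ) : ℝ) * (((2 : ℕ) ^ x.j' : ℕ) : ℝ)) =
      ((2 : ℝ) ^ (x.j + x.j')) ^ (-(1 : ℝ) / 2) := by
    rw [hU, neg_div, Real.rpow_neg (by positivity), one_div]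
  have hE2 : E0 ≤ (C2 * (2 : ℝ) ^ ε₂ * C5) * (T ^ ε₂ * T ^ ε₃) * ((x.v : ℝ) + 1) ^ 2 := by
    calc E0 ≤ C2 * (x.N : ℝ) ^ ε₂ * ((x.v : ℝ) + 1) ^ 2 * ((x.mx : ℝ) + 1) ^ 4 := hE1
      _ ≤ C2 * (x.N : ℝ) ^ ε₂ * ((x.v : ℝ) + 1) ^ 2 * (C5 * T ^ ε₃) :=
          mul_le_mul_of_nonneg_left (h5 n) (by positivity)
      _ = _ := by rw [hNε₂]; ring
  have hΘ2 : Θ ^ q ≤ ((2 : ℝ) ^ 20) ^ q * T ^ (20 * q) := by
    have h6 : Θ ≤ (2 : ℝ) ^ 20 * T ^ (20 : ℕ) := by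
      calc Θ ≤ (2 ^ (x.n + 1)) ^ 20 := hΘ1
        _ ≤ (2 ^ (n + 1)) ^ 20 := by
            refine pow_le_pow_left₀ (by positivity) ?_ 20
            exact pow_le_pow_right₀ (by norm_num) (by omega)
        _ = _ := by rw [hTd]; ring
    calc Θ ^ q ≤ ((2 : ℝ) ^ 20 * T ^ (20 : ℕ)) ^ q := Real.rpow_le_rpow hΘ h6 hq0.le
      _ = _ := by
        rw [Real.mul_rpow (by positivity) (by positivity), ← Real.rpow_natCast T 20,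
          ← Real.rpow_mul hT.le]
        norm_num
  have hℓ2 : ℓ ^ B ≤ C3 ^ B * ((x.v : ℝ) + 1) ^ B := by
    rw [← Real.mul_rpow hC3 hv1.le]
    exact Real.rpow_le_rpow hℓ hℓ1 hB
  have hτ2 : τ ^ s ≤ C4 ^ s * (tauB x) ^ s := by
    rw [← Real.mul_rpow hC4 (tauB_nonneg x)]
    exact Real.rpow_le_rpow hτ hτ1 hs.le
  have hexp : T ^ (ε + ε₂ + ε₃ + 20 * q) = T ^ ε * T ^ ε₂ * T ^ ε₃ * T ^ (20 * q) := by
    rw [Real.rpow_add hT, Real.rpow_add hT, Real.rpow_add hT]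
  have hvB : ((x.v : ℝ) + 1) ^ (B + 2) = ((x.v : ℝ) + 1) ^ B * ((x.v : ℝ) + 1) ^ (2 : ℕ) := by
    rw [Real.rpow_add hv1, Real.rpow_two]
  have hUp : 0 ≤ ((2 : ℝ) ^ (x.j + x.j')) ^ (-(1 : ℝ) / 2) := by positivity
  have hτs : 0 ≤ (tauB x) ^ s := Real.rpow_nonneg (tauB_nonneg x) _
  have g1 : 0 ≤ Θ ^ q := Real.rpow_nonneg hΘ _
  have g2 : 0 ≤ τ ^ s := Real.rpow_nonneg hτ _
  have g3 : 0 ≤ ℓ ^ B := Real.rpow_nonneg hℓ _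
  calc C1 * (E0 * (x.N : ℝ) ^ ε / √((((2 : ℕ) ^ x.j : ℕ) : ℝ) * (((2 : ℕ) ^ x.j' : ℕ) : ℝ))) *
        Θ ^ q * ℓ ^ B * τ ^ s * S
      = C1 * (E0 * ((2 : ℝ) ^ ε * T ^ ε)) * ((2 : ℝ) ^ (x.j + x.j')) ^ (-(1 : ℝ) / 2) *
        Θ ^ q * ℓ ^ B * τ ^ s * S := by
        rw [← hU1, ← hNε]; ring
    _ ≤ C1 * (((C2 * (2 : ℝ) ^ ε₂ * C5) * (T ^ ε₂ * T ^ ε₃) * ((x.v : ℝ) + 1) ^ 2) *
        ((2 : ℝ) ^ ε * T ^ ε)) * ((2 : ℝ) ^ (x.j + x.j')) ^ (-(1 : ℝ) / 2) *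
        (((2 : ℝ) ^ 20) ^ q * T ^ (20 * q)) * (C3 ^ B * ((x.v : ℝ) + 1) ^ B) *
        (C4 ^ s * (tauB x) ^ s) * S := by
        gcongr
    _ = _ := by
        unfold Sum6x251.box
        rw [← tauB_eq x, ← hTd, hexp, hvB]
        ring

/-! ### explicit constants -/

/-- `κ` -/
noncomputable def kp : ℝ := 1 / 1000
/-- `θ` -/
noncomputable def th : ℝ := 1 / 10
/-- `r` -/
noncomputable def rr : ℝ := 21 / 10
/-- `ε` -/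
noncomputable def ep : ℝ := 1 / 100
/-- `s` -/
noncomputable def ss : ℝ := (1 - th) ^ 2 / (rr * (1 + kp))

theorem num_consts : 0 < kp ∧ kp < 1 ∧ 2 / (1 - kp) < rr ∧ 0 < th ∧ th < 1 ∧ 0 < ep ∧
    0 < ss ∧ ss < 1 / 2 ∧ ep + ep + ep + 20 * (kp / (1 + kp)) < ss / 3 := by
  unfold ss kp th rr ep
  norm_num

/-- **the numerics with the explicit constants** -/
theorem num_low0 {B : ℝ} (hB : 0 ≤ B) {C1 C2 C3 C4 : ℝ} (hC1 : 0 ≤ C1) (hC2 : 0 ≤ C2)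
    (hC3 : 0 ≤ C3) (hC4 : 0 ≤ C4) : ∃ C : ℝ, 0 ≤ C ∧ ∀ (x : Bx) (Θ E0 ℓ τ S : ℝ),
      0 ≤ Θ → 0 ≤ E0 → 0 ≤ ℓ → 0 ≤ τ → 0 ≤ S → Θ ≤ (2 ^ (x.n + 1)) ^ 20 →
      E0 ≤ C2 * (x.N : ℝ) ^ ep * ((x.v : ℝ) + 1) ^ 2 * ((x.mx : ℝ) + 1) ^ 4 →
      ℓ ≤ C3 * ((x.v : ℝ) + 1) → τ ≤ C4 * tauB x →
      C1 * (E0 * (x.N : ℝ) ^ ep / √((((2 : ℕ) ^ x.j : ℕ) : ℝ) * (((2 : ℕ) ^ x.j' : ℕ) : ℝ))) *
        Θ ^ (kp / (1 + kp)) * ℓ ^ B * τ ^ ((1 - th) ^ 2 / (rr * (1 + kp))) * S ≤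
      C * Sum6x251.box ss (ep + ep + ep + 20 * (kp / (1 + kp))) (B + 2) x.mx x.v x.j x.j' * S := by
  obtain ⟨h1, _, _, _, _, h6, h7, _, _⟩ := num_consts
  exact num_low h1 h6 h6 h6 h7 hB hC1 hC2 hC3 hC4

/-! ### the sum over the boxes -/

/-- the tuple of a box -/
def tup (x : Bx) : Σ _ : ℕ, ℕ × ℕ × ℕ × ℕ × ℕ := ⟨x.mx, x.n, x.n', x.v, x.j, x.j'⟩

lemma tup_inj : Function.Injective tup := by
  intro x y h
  unfold tup at h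
  simp only [Sigma.mk.injEq, heq_eq_eq, Prod.mk.injEq] at h
  obtain ⟨_, h1, h2, h3, h4, h5⟩ := h
  cases x
  cases y
  simp_all

/-- a finite sum over boxes is at most the nested sum -/
lemma sum_Bx_le {g : ℕ → ℕ → ℕ → ℕ → ℕ → ℕ → ℝ} (hg : ∀ n k k' v j j', 0 ≤ g n k k' v j j')
    (A c : ℕ) (X : Finset Bx) (hX : ∀ x ∈ X, x.v ≤ A * (x.mx + 1) ∧ x.j ≤ x.mx + c ∧
      x.j' ≤ x.mx + c) : ∃ N : ℕ, ∑ x ∈ X, g x.mx x.n x.n' x.v x.j x.j' ≤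
      ∑ n ∈ range N, ∑ k ∈ range (n + 1), ∑ k' ∈ range (n + 1), ∑ v ∈ range (A * (n + 1) + 1),
        ∑ j ∈ range (n + c + 1), ∑ j' ∈ range (n + c + 1), g n k k' v j j' := by
  classical
  set N := X.sup Bx.mx + 1 with hN
  refine ⟨N, ?_⟩
  set D : Finset (Σ _ : ℕ, ℕ × ℕ × ℕ × ℕ × ℕ) := (range N).sigma fun n =>
    range (n + 1) ×ˢ range (n + 1) ×ˢ range (A * (n + 1) + 1) ×ˢ range (n + c + 1) ×ˢ
      range (n + c + 1) with hD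
  have e1 : ∑ n ∈ range N, ∑ k ∈ range (n + 1), ∑ k' ∈ range (n + 1),
      ∑ v ∈ range (A * (n + 1) + 1), ∑ j ∈ range (n + c + 1), ∑ j' ∈ range (n + c + 1),
        g n k k' v j j' = ∑ y ∈ D, g y.1 y.2.1 y.2.2.1 y.2.2.2.1 y.2.2.2.2.1 y.2.2.2.2.2 := by
    rw [hD, sum_sigma]
    refine sum_congr rfl fun n _ => ?_
    rw [sum_product]
    refine sum_congr rfl fun k _ => ?_
    rw [sum_product]
    refine sum_congr rfl fun k' _ => ?_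
    rw [sum_product]
    refine sum_congr rfl fun v _ => ?_
    rw [sum_product]
  rw [e1]
  calc ∑ x ∈ X, g x.mx x.n x.n' x.v x.j x.j'
      = ∑ y ∈ X.image tup, g y.1 y.2.1 y.2.2.1 y.2.2.2.1 y.2.2.2.2.1 y.2.2.2.2.2 := by
        rw [sum_image fun a _ b _ h => tup_inj h]
        rfl
    _ ≤ _ := by
        refine sum_le_sum_of_subset_of_nonneg ?_ fun _ _ _ => hg _ _ _ _ _ _
        intro y hy
        rw [mem_image] at hy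
        obtain ⟨x, hx, rfl⟩ := hy
        obtain ⟨h1, h2, h3⟩ := hX x hx
        have h4 : x.mx < N := Nat.lt_succ_of_le (Finset.le_sup (f := Bx.mx) hx)
        have h5 : x.n ≤ x.mx := le_max_left _ _
        have h6 : x.n' ≤ x.mx := le_max_right _ _
        rw [hD, mem_sigma]
        simp only [tup, mem_product, mem_range]
        refine ⟨h4, ?_, ?_, ?_, ?_, ?_⟩ <;> omega

/-- **the sum over the boxes** -/
theorem sum_Bx {s e Bp : ℝ} (hs : 0 < s) (hs1 : s < 1 / 2) (he : e < s / 3) (A c : ℕ) :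
    ∃ C : ℝ, 0 < C ∧ ∀ X : Finset Bx, (∀ x ∈ X, x.v ≤ A * (x.mx + 1) ∧ x.j ≤ x.mx + c ∧
      x.j' ≤ x.mx + c) → ∑ x ∈ X, Sum6x251.box s e Bp x.mx x.v x.j x.j' ≤ C := by
  obtain ⟨C, hC, h⟩ := sumL (s := s) (e := e) (B := Bp) hs hs1 he A c
  refine ⟨C, hC, fun X hX => ?_⟩
  obtain ⟨N, h1⟩ := sum_Bx_le (g := fun n _ _ v j j' => Sum6x251.box s e Bp n v j j')
    (fun n _ _ v j j' => Sum6x251.box_nonneg _ _ _ _ _ _ _) A c X hX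
  exact h1.trans (h N)

/-- **the sum over the boxes with the explicit constants** -/
theorem sum_Bx0 (Bp : ℝ) (A c : ℕ) :
    ∃ C : ℝ, 0 < C ∧ ∀ X : Finset Bx, (∀ x ∈ X, x.v ≤ A * (x.mx + 1) ∧ x.j ≤ x.mx + c ∧
      x.j' ≤ x.mx + c) → ∑ x ∈ X,
        Sum6x251.box ss (ep + ep + ep + 20 * (kp / (1 + kp))) Bp x.mx x.v x.j x.j' ≤ C := by
  obtain ⟨_, _, _, _, _, _, h7, h8, h9⟩ := num_consts
  exact sum_Bx h7 h8 h9 A c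

/-! ### the indices of a nonempty box -/

variable {M : ℕ} {F : FL M} {P : Par} {w : ℕ → ℝ} {jB : ℕ → ℕ} {x : Bx} {t b c : ℕ} {h : ℤ}
  {f f' : ℚ} {p : ℕ}

lemma tw_le (y t b c : ℕ) (f f' : ℚ) : tw F P y t b c f f' ≤ k0 F (P.cut t) b f := by
  unfold tw
  have h1 : 0 < k0 F (P.cut t) b f := k0_pos _ _ _
  set g := Nat.gcd (k0 F (P.cut t) b f) (k0 F (P.cut t) c f') with hg
  have h2 : 0 < k0 F (P.cut t) b f / g :=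
    Nat.div_pos (Nat.le_of_dvd h1 (Nat.gcd_dvd_left _ _)) (Nat.gcd_pos_of_pos_left _ h1)
  exact (Nat.le_of_dvd h2 (upp_dvd_self _ _)).trans (Nat.div_le_self _ _)

lemma j_le {δ : ℝ} (H : LB F P w δ jB x t b c h f f' p) : x.j ≤ x.n := by
  have h1 : ((2 ^ x.j : ℕ) : ℝ) < 2 ^ (x.n + 1) := by
    calc ((2 ^ x.j : ℕ) : ℝ) ≤ (k0 F (P.cut t) b f : ℝ) := by
          exact_mod_cast H.tj.trans (tw_le _ _ _ _ _ _)
      _ ≤ dep F P t b f := k0_le_dep _ _ _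
      _ < _ := H.dn1
  have h2 : 2 ^ x.j < 2 ^ (x.n + 1) := by exact_mod_cast h1
  have h3 := (Nat.pow_lt_pow_iff_right (a := 2) (by norm_num)).1 h2
  omega

lemma j_le' {δ : ℝ} (H : LB F P w δ jB x t b c h f f' p) : x.j' ≤ x.n' := by
  have h1 : ((2 ^ x.j' : ℕ) : ℝ) < 2 ^ (x.n' + 1) := by
    calc ((2 ^ x.j' : ℕ) : ℝ) ≤ (k0 F (P.cut t) c f' : ℝ) := by
          exact_mod_cast H.tj'.trans (tw_le _ _ _ _ _ _)
      _ ≤ dep F P t c f' := k0_le_dep _ _ _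
      _ < _ := H.dn1'
  have h2 : 2 ^ x.j' < 2 ^ (x.n' + 1) := by exact_mod_cast h1
  have h3 := (Nat.pow_lt_pow_iff_right (a := 2) (by norm_num)).1 h2
  omega

/-- `Y i = 2^i`, `δ = 1/(4A)`: `v ≤ 4A (n+1)` -/
lemma v_le {A : ℕ} (hA : 1 ≤ A) (hY : ∀ i, P.Y i = 2 ^ i)
    (H : LB F P w (1 / (4 * (A : ℝ))) jB x t b c h f f' p) : x.v ≤ 4 * A * (x.n + 1) := by
  have hA0 : (0 : ℝ) < A := by exact_mod_cast hA
  have h1 := H.vle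
  rw [hY] at h1
  have h2 : (((2 ^ (x.v - 1) : ℕ) : ℝ)) ^ (1 / (4 * (A : ℝ))) =
      (2 : ℝ) ^ (((x.v - 1 : ℕ) : ℝ) / (4 * A)) := by
    push_cast
    rw [← Real.rpow_natCast 2 (x.v - 1), ← Real.rpow_mul (by norm_num)]
    congr 1
    ring
  rw [h2, ← Real.rpow_natCast 2 (x.n + 1), Real.rpow_lt_rpow_left_iff (by norm_num),
    div_lt_iff₀ (by positivity)] at h1
  have h3 : x.v - 1 < (x.n + 1) * (4 * A) := by exact_mod_cast h1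
  have h4 : (x.n + 1) * (4 * A) = 4 * A * (x.n + 1) := by ring
  omega

/-- the three conditions of `sum_Bx` for a nonempty box -/
theorem box_idx {A : ℕ} (hA : 1 ≤ A) (hY : ∀ i, P.Y i = 2 ^ i)
    (H : LB F P w (1 / (4 * (A : ℝ))) jB x t b c h f f' p) :
    x.v ≤ 4 * A * (x.mx + 1) ∧ x.j ≤ x.mx + 0 ∧ x.j' ≤ x.mx + 0 := by
  have h1 := v_le hA hY H
  have h2 := j_le H
  have h3 := j_le' H
  have h4 : x.n ≤ x.mx := le_max_left _ _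
  have h5 : x.n' ≤ x.mx := le_max_right _ _
  refine ⟨h1.trans (Nat.mul_le_mul_left _ (by omega)), by omega, by omega⟩

end Crest.Agent.R4C.LNumx251
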