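import Crest.Agent.R4C.ClsBadX_14
import Crest.Agent.R4C.LBoxDef_662

/-!
# Row 4, class (L): arrow X of `LBoxDef_662` (helper14)
-/

set_option autoImplicit false

namespace Crest.Agent.R4C.TgtXx14

open Crest.Agent.R4C.FLDefx935 Crest.Agent.R4C.Rulex945 Crest.Agent.R4C.Spinex946
  Crest.Agent.R4C.ClsBadXx14

/-- **target X**: pairs of class (L) which are not good at the block start -/
theorem tgtX (γ : ℝ) : LBoxDefx662.TgtX γ := by
  refine clsOK_of_imp (clsBadXj_ok γ) ?_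
  rintro cp η A m0 L M B F b c h hL ⟨t, h1, h2, h3, h4, h5, h6⟩
  have hle : (2 : ℕ) ^ (A * t) ≤ 2 ^ (A * (2 * t)) :=
    Nat.pow_le_pow_right (by norm_num) (Nat.mul_le_mul_left _ (by omega))
  refine ⟨t, h1, h2, FL.good_mono hle h3, h4, h5, ?_⟩
  have h7 : (((ParOf cp A m0 γ L M B).cut t : ℕ) : ℝ) ≤ ((2 ^ (A * (2 * t)) : ℕ) : ℝ) := by
    exact_mod_cast hle
  exact h6.le.trans h7

end Crest.Agent.R4C.TgtXx14
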