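import Crest.Agent.R4C.LBoxSet_662
import Crest.Agent.R4C.LNum_251
import Crest.Agent.R4C.BoxKit_179
import Crest.Agent.R4C.LCovB_11
import Crest.Agent.R4C.EnRsym_350
import Crest.Agent.R4C.TgtX_14
import Crest.Agent.R4C.Cover_946
import Crest.Agent.R4C.LArrA_500
import Crest.Agent.R4C.LDens_217
import Crest.Agent.R4C.LArrUK_11

/-!
# Row 4: CLASS (L) TOTAL, composition (helper662)

* `cls_bx` : the pairs of the boxes, light member `b`: `ClsOK` from the arrows A, B, C, D, U;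
* `CHvy_symm`, `cls_bx'` : the mirror image;
* **`cls_low_of`** : `ClsOK γ (nH γ (cLow γ))` from the arrows A, B, C, D, U, K, S;
* **`cls_low_CDS`** : the same, with the landed arrows A (500), B (217), U, K (11) plugged in.
-/

set_option autoImplicit false

open Finset

namespace Crest.Agent.R4C.ClsLowx662

open Crest.Agent.R4C.Basex935 Crest.Agent.R4C.Cutx50 Crest.Agent.R4C.FLDefx935
  Crest.Agent.R4C.Rulex945 Crest.Agent.R4C.Splitx945 Crest.Agent.R4C.Bridgex882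
  Crest.Agent.R4C.LBoxDefx662 Crest.Agent.R4C.LBoxSetx662 Crest.Agent.R4C.Spinex946
  Crest.Agent.R4C.LNumx251 Crest.Agent.R4C.BoxKitx179 Crest.Agent.R4C.Coverx946
open Crest.Agent.R4C.FLExx326 (ind)
open Crest.Agent.R4C.LCovBx11 (AlLe_symm X1_symm Lnk_symm)

/-- the pairs of the boxes, light member `b` -/
def cBx (γ : ℝ) : Cls := fun cp _ A m0 L M B F b c h =>
  ¬ CHvy F (ParOf cp A m0 γ L M B) (ind B) (1 / 20) b c h ∧
    ∃ (x : Bx) (t : ℕ) (f f' : ℚ) (p : ℕ),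
      LB F (ParOf cp A m0 γ L M B) (ind B) (1 / (4 * A)) (jBA A) x t b c h f f' p

/-- the mirror image of a class -/
def mir (R : Cls) : Cls := fun cp η A m0 L M B F b c h => R cp η A m0 L M B F c b (-h)

lemma mir_ok {γ : ℝ} {R : Cls} (h : ClsOK γ R) : ClsOK γ (mir R) := by
  refine Ev.mono h ?_
  rintro cp η A m0 ⟨C, hC⟩
  refine ⟨C, fun L M B F S => ?_⟩
  have h1 := hC L M B F S
  rwa [EnRsymx350.EnR_symm] at h1

section hvy

variable {M : ℕ} {F : FL M} {P : Par}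

/-- the heavy class is symmetric -/
lemma CHvy_symm {w : ℕ → ℝ} {ε : ℝ} {b c : ℕ} {h : ℤ} (hb : b ∣ M) (hc : c ∣ M)
    (H : CHvy F P w ε b c h) : CHvy F P w ε c b (-h) := by
  obtain ⟨t, h1, h2, h3, h4, h5, h6⟩ := H
  refine ⟨t, h1, FL.good_symm hb hc h2, AlLe_symm h3, ?_, ?_, h6.symm⟩
  · rw [Nat.gcd_comm c b]; exact h4
  · rw [X1_symm]; exact h5

end hvy

lemma log_le (v : ℕ) : Real.log (max 8 (2 ^ v) : ℕ) ≤ 3 * ((v : ℝ) + 1) := by
  have hv : (0 : ℝ) ≤ v := Nat.cast_nonneg v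
  have h2 : Real.log 2 ≤ 1 := by
    have := Real.log_two_lt_d9
    linarith
  have h20 : 0 ≤ Real.log 2 := Real.log_nonneg (by norm_num)
  rcases le_total 8 (2 ^ v) with h | h
  · rw [max_eq_right h]
    push_cast
    rw [Real.log_pow]
    nlinarith
  · rw [max_eq_left h]
    have : Real.log ((8 : ℕ) : ℝ) = 3 * Real.log 2 := by
      rw [show ((8 : ℕ) : ℝ) = 2 ^ 3 by norm_num, Real.log_pow]
      norm_num
    rw [this]
    nlinarith

lemma ArrC.mono {M : ℕ} {F : FL M} {P : Par} {hM : 0 < M} {w : ℕ → ℝ} {δ : ℝ} {jB : ℕ → ℕ}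
    {j0 : ℕ} {Hv : ℕ → ℕ → ℤ → Prop} {Nw Nw' : Bx → ℝ} (h : ∀ x, Nw x ≤ Nw' x)
    (H : ArrC F P hM w δ jB j0 Hv Nw) : ArrC F P hM w δ jB j0 Hv Nw' := by
  intro x a a' i
  obtain ⟨TT, XH, TT', XH', h1, h2, h3, h4, h5⟩ := H x a a' i
  exact ⟨TT, XH, TT', XH', fun z => (h1 z).trans (h x), fun z => (h2 z).trans (h x),
    fun z => (h3 z).trans (h x), fun z => (h4 z).trans (h x), h5⟩

open Classical in
/-- **the pairs of the boxes** -/
theorem cls_bx (γ : ℝ) (hA : TgtA γ) (hB : TgtB γ) (hC : TgtC γ) (hD : TgtD γ) (hU : TgtU γ) :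
    ClsOK γ (cBx γ) := by
  obtain ⟨k1, k2, k3, k4, k5, k6, k7, k8, k9⟩ := num_consts
  refine clsOK_of_boxes (ι := Bx) 1 ?_
  refine ((hA.and hB).and ((hC ep k6).and (hD.and (Ev.and hU Ev.basic)))).mono ?_
  rintro cp η A m0 ⟨⟨hA, CB, hCB, hB⟩, ⟨CC, hCC, hC⟩, ⟨CD, hCD, hD⟩, hU, hcp, _, hη, _, hη1,
    hA1, hm0⟩
  obtain ⟨Bc, C, hBc, hC1, hbox⟩ := box_sets A k1 k2 k3 k4 k5 k6
  set CC' := max 1 CC with hCC'
  have hCC0 : 0 ≤ CC' := zero_le_one.trans (le_max_left _ _)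
  obtain ⟨C2, hC2, hnum⟩ := num_low0 (B := Bc) hBc (C1 := C * CD * CB ^ ss) (C2 := CC') (C3 := 3)
    (C4 := 1) (by positivity) hCC0 (by norm_num) zero_le_one
  obtain ⟨C3, hC3, hsum⟩ := sum_Bx0 (Bc + 2) (4 * A) 0
  refine ⟨C2 * C3, by positivity, fun x => x.v ≤ 4 * A * (x.mx + 1) ∧ x.j ≤ x.mx + 0 ∧
    x.j' ≤ x.mx + 0, fun x => C2 * Sum6x251.box ss (ep + ep + ep + 20 * (kp / (1 + kp))) (Bc + 2)
      x.mx x.v x.j x.j', fun x => mul_nonneg hC2 (Sum6x251.box_nonneg _ _ _ _ _ _ _), ?_, ?_⟩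
  · intro T hT
    rw [← Finset.mul_sum]
    exact mul_le_mul_of_nonneg_left (hsum T hT) hC2
  intro L M B F S
  set P := ParOf cp A m0 γ L M B with hP
  refine ⟨fun x b c h => RB F P (ind B) (1 / (4 * A)) (jBA A) (CHvy F P (ind B) (1 / 20)) x b c h,
    fun x b c => Ph F P (ind B) (1 / (4 * A)) (jBA A) (CHvy F P (ind B) (1 / 20)) x b c,
    fun x b c => Ph_nonneg _ _, ?_, ?_, ?_, ?_⟩
  · -- cover
    intro b hb c hc hne h hh hk hR
    obtain ⟨h0, x, t, f, f', p, h1⟩ := hR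
    exact ⟨x, box_idx hA1 (fun i => rfl) h1, h0, t, f, f', p, h1⟩
  · -- one offset
    intro x hx b hb c hc hne h₁ hh₁ h₂ hh₂ hk₁ hk₂ hq₁ hq₂
    obtain ⟨_, t, f, f', p, h1⟩ := hq₁
    obtain ⟨_, t', g, g', p', h2⟩ := hq₂
    exact (hU L M B F S x b c t t' h₁ h₂ f f' g g' p p' (S.dvd hb) (S.dvd hc) h1 h2).2.2
  · -- boost
    intro x hx b hb c hc hne h hh hk hq
    have h1 := oS_eq (F := F) (P := P) (w := ind B) (δ := 1 / (4 * A)) (jB := jBA A)
      (Hv := CHvy F P (ind B) (1 / 20)) (x := x) b c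
    rw [← h1]
    unfold oS
    refine Finset.single_le_sum (f := fun h => boostB M (lamR F P) b c h)
      (fun h _ => boostB_nonneg _ _ _ _ _) ?_
    rw [Finset.mem_filter]
    exact ⟨hh, hk, hq⟩
  · -- sets
    intro x hx T T' hT hT'
    have h1 := hbox cp m0 γ L M S.hM B F (CHvy F P (ind B) (1 / 20))
      (fun x => CC' * (x.N : ℝ) ^ ep) CB CD S.hB hCB.le hCD.le (hA L M B F S) (hB L M B F S)
      (ArrC.mono (fun x => mul_le_mul_of_nonneg_right (le_max_right _ _) (by positivity))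
        (hC L M B F S)) (hD L M B F S) (hU L M B F S) x (by omega) (by omega) ?_ T T' hT hT'
    · have h2 : ∑ b ∈ T, ∑ c ∈ T', kerW γ L M (lamOf cp A m0 γ L M B F)
          (RB F P (ind B) (1 / (4 * A)) (jBA A) (CHvy F P (ind B) (1 / 20)) x)
          (Ph F P (ind B) (1 / (4 * A)) (jBA A) (CHvy F P (ind B) (1 / 20)) x) b c ≤
          ∑ b ∈ T, ∑ c ∈ T', (Nat.gcd b c : ℝ) * nu M b * nu M c *
            Ph F P (ind B) (1 / (4 * A)) (jBA A) (CHvy F P (ind B) (1 / 20)) x b c := by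
        refine Finset.sum_le_sum fun b _ => Finset.sum_le_sum fun c _ => ?_
        unfold kerW
        split_ifs
        · exact le_rfl
        · exact mul_nonneg (gn M b c) (Ph_nonneg _ _)
      have hS0 : 0 ≤ √((∑ b ∈ T, nu M b) * ∑ c ∈ T', nu M c) := Real.sqrt_nonneg _
      have hlog : 0 ≤ Real.log (max 8 (2 ^ x.v) : ℕ) := Real.log_natCast_nonneg _
      have h3 := hnum x (((2 : ℝ) ^ (x.n + 1)) ^ 20)
        (((x.v : ℝ) + 1) ^ 2 * ((x.mx : ℝ) + 1) ^ 4 * (CC' * (x.N : ℝ) ^ ep))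
        (Real.log (max 8 (2 ^ x.v) : ℕ)) (tauB x) (√((∑ b ∈ T, nu M b) * ∑ c ∈ T', nu M c))
        (by positivity) (by positivity) hlog (tauB_nonneg x) hS0 le_rfl (le_of_eq (by ring))
        (log_le x.v) (le_of_eq (by ring))
      have h4 : C * CD * CB ^ ((1 - th) ^ 2 / (rr * (1 + kp))) *
          bxc kp ep ((1 - th) ^ 2 / (rr * (1 + kp))) Bc x (CC' * (x.N : ℝ) ^ ep) *
          √((∑ b ∈ T, nu M b) * ∑ c ∈ T', nu M c) ≤
          C2 * Sum6x251.box ss (ep + ep + ep + 20 * (kp / (1 + kp))) (Bc + 2) x.mx x.v x.j x.j' *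
            √((∑ b ∈ T, nu M b) * ∑ c ∈ T', nu M c) := by
        refine le_trans (le_of_eq ?_) h3
        unfold bxc ss
        ring
      have h5 := (h2.trans h1).trans h4
      have hm1 : 0 ≤ ∑ b ∈ T, nu M b := Finset.sum_nonneg fun b _ => nu_nonneg M b
      have e1 : √((L * ∑ b ∈ T, nu M b) * (L * ∑ c ∈ T', nu M c)) =
          L * √((∑ b ∈ T, nu M b) * ∑ c ∈ T', nu M c) := by
        rw [show (L * ∑ b ∈ T, nu M b) * (L * ∑ c ∈ T', nu M c) =
          L ^ 2 * ((∑ b ∈ T, nu M b) * ∑ c ∈ T', nu M c) by ring,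
          Real.sqrt_mul (by positivity), Real.sqrt_sq S.hL.le]
      rw [e1]
      calc L * ∑ b ∈ T, ∑ c ∈ T', kerW γ L M (lamOf cp A m0 γ L M B F)
            (RB F P (ind B) (1 / (4 * A)) (jBA A) (CHvy F P (ind B) (1 / 20)) x)
            (Ph F P (ind B) (1 / (4 * A)) (jBA A) (CHvy F P (ind B) (1 / 20)) x) b c
          ≤ L * (C2 * Sum6x251.box ss (ep + ep + ep + 20 * (kp / (1 + kp))) (Bc + 2) x.mx x.v x.j
            x.j' * √((∑ b ∈ T, nu M b) * ∑ c ∈ T', nu M c)) :=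
            mul_le_mul_of_nonneg_left h5 S.hL.le
        _ = _ := by ring
    · have h6 : (1 : ℝ) ≤ (x.N : ℝ) ^ ep := by
        refine Real.one_le_rpow ?_ k6.le
        have : 1 ≤ x.N := Nat.one_le_two_pow
        exact_mod_cast this
      have h7 : (1 : ℝ) ≤ CC' := le_max_left _ _
      nlinarith

/-- **CLASS (L)** from the arrows -/
theorem cls_low_of (γ : ℝ) (hA : TgtA γ) (hB : TgtB γ) (hC : TgtC γ) (hD : TgtD γ)
    (hU : TgtU γ) (hK : TgtK γ) (hS : TgtS γ) : ClsOK γ (nH γ (cLow γ)) := by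
  have h1 := cls_bx γ hA hB hC hD hU
  have h2 := mir_ok h1
  refine ClsOK.mono (((h1.or h2).or hS).or (TgtXx14.tgtX γ)) ?_
  refine Ev.mono hK ?_
  intro cp η A m0 hK L M B F S b hb c hc hne h hh hk hR
  obtain ⟨h0, h1⟩ := hR
  rcases hK L M B F S b c h (S.dvd hb) (S.dvd hc) hh h1 with h3 | h3 | h3 | h3
  · exact Or.inr h3
  · exact Or.inl (Or.inr h3)
  · exact Or.inl (Or.inl (Or.inl ⟨h0, h3⟩))
  · obtain ⟨x, t, f, f', p, h3⟩ := h3
    refine Or.inl (Or.inl (Or.inr ⟨fun h4 => h0 ?_, x, t, f', f, p, h3⟩))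
    have h5 := CHvy_symm (S.dvd hc) (S.dvd hb) h4
    rwa [neg_neg] at h5

/-- **CLASS (L)** from the arrows C, D, S -/
theorem cls_low_CDS (γ : ℝ) (hC : TgtC γ) (hD : TgtD γ) (hS : TgtS γ) :
    ClsOK γ (nH γ (cLow γ)) :=
  cls_low_of γ (LArrAx500.tgtA γ) (LDensx217.tgtB γ) hC hD (LArrUKx11.tgtU γ) (LArrUKx11.tgtK γ)
    hS

end Crest.Agent.R4C.ClsLowx662
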