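import Crest.Agent.R4C.VecNPw_50
import Crest.Agent.R4C.B1Lev_52

/-!
# Row 4: NON-PURE class total (helper52, on top of `VecNPw_50` and `B1Lev_52`)

* `np_blockB1` : one block `j`, pairs of `B` in a relation `P` (good at `Xj j`, non-pure, low word
  determined by the upper words), weight = full boost at the primes `≤ Xj j` times the full label
  factor `B1` of ALL differing primes: `≤ C (1+A) (√2)^{-j} ν(B)`.
* `np_total` : all blocks `j ≥ j0`, `N j` relations per block, any weight `W` dominated by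
  `bst (pr (Xj j)) * B1`: `≤ C (1+A) (∑_j N_j (√2)^{-j}) ν(B)`.
* `np_total_one`, `np_total_sq` : `N j ≤ 1` resp. `N j ≤ K (j+1)^2` and explicit sums.
* `np_total_dbl` : doubling families of words (dominant words).
-/

set_option autoImplicit false

open Finset
open Crest.Agent.R4C.Basex935 Crest.Agent.R4C.Cutx50 Crest.Agent.R4C.FLDefx935
open Crest.Agent.R4C.BoostRx398 (bst tf one_le_tf)
open Crest.Agent.R4C.FixedWordx423 (wd wd_pos)
open Crest.Agent.R4C.VecPurex520 (Dbl)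
open Crest.Agent.R4C.NonPureBlkx559 (Xj Xj_two log_Xj)
open Crest.Agent.R4C.VecNPx50
open Crest.Agent.R4C.FLShx326 (Shares)

namespace Crest.Agent.R4C.NPTotx52

lemma B1_eq_hi (X b c : ℕ) : B1Levx52.B1 X b c = B1hi X b c := rfl

open Classical in
/-- **one block with `B1`** -/
theorem np_blockB1 : ∃ C : ℝ, 0 < C ∧ ∀ (M : ℕ) (F : FL M) (B : Finset ℕ) (A s : ℝ), 0 < M →
    B ⊆ M.divisors → Shares F B A s → 0 ≤ A → 3 / 4 ≤ s → ∀ j : ℕ, 1 ≤ j →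
    ∀ P : ℕ → ℕ → Prop, (∀ b c, b ∣ M → c ∣ M → P b c → NPX F (Xj j) b c) →
    Uniq M (Xj j) P →
    ∑ b ∈ B, ∑ c ∈ B, (Nat.gcd b c : ℝ) * nu M b * nu M c *
      (if P b c then bst (pr (Xj j)) M b c * PureL2x232.B1 b c else 0) ≤
      C * (1 + A) * ((√2)⁻¹) ^ j * ∑ b ∈ B, nu M b := by
  obtain ⟨C, hC, h⟩ := np_SetBdw
  obtain ⟨C1, hC1, h1⟩ := B1Levx52.good_B1
  refine ⟨8 * (16 * (1 + C1) * C), by positivity,
    fun M F B A s hM hB hS hA hs j hj P hP hU => ?_⟩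
  set r : ℝ := ((√2)⁻¹) ^ j with hr
  have hr0 : 0 ≤ r := by positivity
  have hm0 : 0 ≤ ∑ b ∈ B, nu M b := Finset.sum_nonneg fun b _ => nu_nonneg M b
  set K : ℕ → ℕ → ℝ := fun b c => (Nat.gcd b c : ℝ) * nu M b * nu M c *
    (if P b c then bst (pr (Xj j)) M b c * lw (Xj j) b c else 0) with hK
  have hg0 : ∀ b c, 0 ≤ (Nat.gcd b c : ℝ) * nu M b * nu M c := fun b c =>
    mul_nonneg (mul_nonneg (Nat.cast_nonneg _) (nu_nonneg _ _)) (nu_nonneg _ _)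
  have hK0 : ∀ b c, 0 ≤ K b c := by
    intro b c
    refine mul_nonneg (hg0 b c) ?_
    split_ifs
    · exact mul_nonneg (bst_nonneg _ _ _ _) (lw_nonneg _ _ _)
    · exact le_rfl
  have hset := B1Levx52.set_of_fun (M := M) (B := B) (B' := B) (K := K) (E := C * r) hB hB (by
    intro f g hf hg hf1 hg1
    have h2 := h M F hM j hj P hP hU f g hf hg hf1 hg1
    unfold frm Ex at h2
    refine le_trans (le_of_eq ?_) h2
    refine Finset.sum_congr rfl fun b _ => Finset.sum_congr rfl fun c _ => ?_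
    simp only [hK]
    ring)
  have h3 := h1 M F B A s hM hB hS hA hs (Xj j) K (C * r) (by positivity)
    (fun b _ c _ => hK0 b c) (by
      intro b hb c hc hne
      have : P b c := by
        by_contra hn
        apply hne
        simp only [hK]
        rw [if_neg hn, mul_zero]
      exact (hP b c (Nat.dvd_of_mem_divisors (hB hb)) (Nat.dvd_of_mem_divisors (hB hc)) this).good)
    hset
  have h4 : ∑ b ∈ B, ∑ c ∈ B, (Nat.gcd b c : ℝ) * nu M b * nu M c *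
      (if P b c then bst (pr (Xj j)) M b c * PureL2x232.B1 b c else 0) ≤
      8 * ∑ b ∈ B, ∑ c ∈ B, K b c * B1Levx52.B1 (Xj j) b c := by
    rw [Finset.mul_sum]
    refine Finset.sum_le_sum fun b hb => ?_
    rw [Finset.mul_sum]
    refine Finset.sum_le_sum fun c hc => ?_
    have hb0 := Nat.pos_of_mem_divisors (hB hb)
    have hc0 := Nat.pos_of_mem_divisors (hB hc)
    by_cases hPP : P b c
    · simp only [hK]
      rw [if_pos hPP, if_pos hPP, B1_eq_hi]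
      have h5 := B1_split_cut (Xj j) hb0 hc0
      calc (Nat.gcd b c : ℝ) * nu M b * nu M c * (bst (pr (Xj j)) M b c * PureL2x232.B1 b c)
          ≤ (Nat.gcd b c : ℝ) * nu M b * nu M c *
            (bst (pr (Xj j)) M b c * (8 * lw (Xj j) b c * B1hi (Xj j) b c)) :=
            mul_le_mul_of_nonneg_left (mul_le_mul_of_nonneg_left h5 (bst_nonneg _ _ _ _)) (hg0 b c)
        _ = _ := by ring
    · rw [if_neg hPP, mul_zero]
      exact mul_nonneg (by norm_num) (mul_nonneg (hK0 b c) (B1Levx52.B1_nonneg _ _ _))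
  refine h4.trans ?_
  calc 8 * ∑ b ∈ B, ∑ c ∈ B, K b c * B1Levx52.B1 (Xj j) b c
      ≤ 8 * (16 * (1 + C1 * A) * (C * r) * ∑ b ∈ B, nu M b) :=
        mul_le_mul_of_nonneg_left h3 (by norm_num)
    _ ≤ 8 * (16 * ((1 + C1) * (1 + A)) * (C * r) * ∑ b ∈ B, nu M b) := by
        refine mul_le_mul_of_nonneg_left ?_ (by norm_num)
        refine mul_le_mul_of_nonneg_right ?_ hm0
        refine mul_le_mul_of_nonneg_right ?_ (by positivity)
        nlinarith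
    _ = _ := by ring

open Classical in
/-- **the non-pure class, all blocks, `N j` relations in block `j`** -/
theorem np_total : ∃ C : ℝ, 0 < C ∧ ∀ (M : ℕ) (F : FL M) (B : Finset ℕ) (A s : ℝ), 0 < M →
    B ⊆ M.divisors → Shares F B A s → 0 ≤ A → 3 / 4 ≤ s → ∀ j0 : ℕ, 1 ≤ j0 →
    ∀ (N : ℕ → ℕ) (P : ℕ → ℕ → ℕ → ℕ → Prop),
    (∀ j, j0 ≤ j → ∀ i, i < N j → ∀ b c, b ∣ M → c ∣ M → P j i b c → NPX F (Xj j) b c) →
    (∀ j, j0 ≤ j → ∀ i, i < N j → Uniq M (Xj j) (P j i)) →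
    ∀ W : ℕ → ℕ → ℝ,
    (∀ j, j0 ≤ j → ∀ i, i < N j → ∀ b c, b ∈ B → c ∈ B → P j i b c →
      W b c ≤ bst (pr (Xj j)) M b c * PureL2x232.B1 b c) →
    ∑ b ∈ B, ∑ c ∈ B, (if ∃ j, j0 ≤ j ∧ ∃ i, i < N j ∧ P j i b c then
      (Nat.gcd b c : ℝ) * nu M b * nu M c * W b c else 0) ≤
      C * (1 + A) * (∑ j ∈ Finset.Ico j0 (M + 1), (N j : ℝ) * ((√2)⁻¹) ^ j) *
        ∑ b ∈ B, nu M b := by
  obtain ⟨C, hC, h⟩ := np_blockB1
  refine ⟨C, hC, fun M F B A s hM hB hS hA hs j0 hj0 N P hP hU W hW => ?_⟩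
  have hg0 : ∀ b c, 0 ≤ (Nat.gcd b c : ℝ) * nu M b * nu M c := fun b c =>
    mul_nonneg (mul_nonneg (Nat.cast_nonneg _) (nu_nonneg _ _)) (nu_nonneg _ _)
  set T : ℕ → ℕ → ℕ → ℕ → ℝ := fun j i b c => (Nat.gcd b c : ℝ) * nu M b * nu M c *
    (if P j i b c then bst (pr (Xj j)) M b c * PureL2x232.B1 b c else 0) with hT
  have hT0 : ∀ j i b c, 0 ≤ T j i b c := by
    intro j i b c
    refine mul_nonneg (hg0 b c) ?_
    split_ifs
    · exact mul_nonneg (bst_nonneg _ _ _ _) (PureL2x232.B1_pos b c).le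
    · exact le_rfl
  have h1 : ∑ b ∈ B, ∑ c ∈ B, (if ∃ j, j0 ≤ j ∧ ∃ i, i < N j ∧ P j i b c then
      (Nat.gcd b c : ℝ) * nu M b * nu M c * W b c else 0) ≤
      ∑ b ∈ B, ∑ c ∈ B, ∑ j ∈ Finset.Ico j0 (M + 1), ∑ i ∈ range (N j), T j i b c := by
    refine Finset.sum_le_sum fun b hb => Finset.sum_le_sum fun c hc => ?_
    have hbM := Nat.dvd_of_mem_divisors (hB hb)
    have hcM := Nat.dvd_of_mem_divisors (hB hc)
    by_cases hex : ∃ j, j0 ≤ j ∧ ∃ i, i < N j ∧ P j i b c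
    · rw [if_pos hex]
      obtain ⟨j, hj, i, hi, hPj⟩ := hex
      have hn := hP j hj i hi b c hbM hcM hPj
      have hjM : j < M + 1 := by
        have := hn.np
        rw [not_and_or] at this
        rcases this with h5 | h5
        · exact Xj_lt hM h5
        · exact Xj_lt hM h5
      have h2 : (Nat.gcd b c : ℝ) * nu M b * nu M c * W b c ≤ T j i b c := by
        simp only [hT]
        rw [if_pos hPj]
        exact mul_le_mul_of_nonneg_left (hW j hj i hi b c hb hc hPj) (hg0 b c)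
      refine h2.trans ?_
      refine le_trans ?_ (Finset.single_le_sum (f := fun j => ∑ i ∈ range (N j), T j i b c)
        (fun j _ => Finset.sum_nonneg fun i _ => hT0 j i b c) (Finset.mem_Ico.2 ⟨hj, hjM⟩))
      exact Finset.single_le_sum (f := fun i => T j i b c) (fun i _ => hT0 j i b c)
        (Finset.mem_range.2 hi)
    · rw [if_neg hex]
      exact Finset.sum_nonneg fun j _ => Finset.sum_nonneg fun i _ => hT0 j i b c
  refine h1.trans ?_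
  have h2 : ∑ b ∈ B, ∑ c ∈ B, ∑ j ∈ Finset.Ico j0 (M + 1), ∑ i ∈ range (N j), T j i b c =
      ∑ j ∈ Finset.Ico j0 (M + 1), ∑ i ∈ range (N j), ∑ b ∈ B, ∑ c ∈ B, T j i b c := by
    calc _ = ∑ b ∈ B, ∑ j ∈ Finset.Ico j0 (M + 1), ∑ c ∈ B, ∑ i ∈ range (N j), T j i b c :=
          Finset.sum_congr rfl fun b _ => Finset.sum_comm
      _ = ∑ j ∈ Finset.Ico j0 (M + 1), ∑ b ∈ B, ∑ c ∈ B, ∑ i ∈ range (N j), T j i b c :=
          Finset.sum_comm
      _ = ∑ j ∈ Finset.Ico j0 (M + 1), ∑ b ∈ B, ∑ i ∈ range (N j), ∑ c ∈ B, T j i b c :=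
          Finset.sum_congr rfl fun j _ => Finset.sum_congr rfl fun b _ => Finset.sum_comm
      _ = _ := Finset.sum_congr rfl fun j _ => Finset.sum_comm
  rw [h2]
  calc ∑ j ∈ Finset.Ico j0 (M + 1), ∑ i ∈ range (N j), ∑ b ∈ B, ∑ c ∈ B, T j i b c
      ≤ ∑ j ∈ Finset.Ico j0 (M + 1), ∑ _i ∈ range (N j),
        (C * (1 + A) * ((√2)⁻¹) ^ j * ∑ b ∈ B, nu M b) := by
        refine Finset.sum_le_sum fun j hj => Finset.sum_le_sum fun i hi => ?_
        rw [Finset.mem_Ico] at hj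
        exact h M F B A s hM hB hS hA hs j (by omega) (P j i)
          (hP j hj.1 i (Finset.mem_range.1 hi)) (hU j hj.1 i (Finset.mem_range.1 hi))
    _ = _ := by
        simp only [Finset.sum_const, Finset.card_range, nsmul_eq_mul]
        generalize ∑ b ∈ B, nu M b = m
        rw [Finset.mul_sum, Finset.sum_mul]
        refine Finset.sum_congr rfl fun j _ => ?_
        ring

/-! ### the block sums -/

lemma sqrt2_inv_lt : (√2)⁻¹ < 1 := by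
  have hs2 : 1 < √2 := by
    rw [← Real.sqrt_one]; exact Real.sqrt_lt_sqrt (by norm_num) (by norm_num)
  exact inv_lt_one_of_one_lt₀ hs2

/-- tails of `∑ (j+1)^k r^j` -/
lemma poly_geo (k : ℕ) {r ρ : ℝ} (hr : 0 < r) (hrρ : r < ρ) (hρ : ρ < 1) : ∃ C : ℝ, 0 < C ∧
    ∀ j0 J : ℕ, ∑ j ∈ Finset.Ico j0 J, ((j : ℝ) + 1) ^ k * r ^ j ≤ C * ρ ^ j0 := by
  have hρ0 : 0 < ρ := hr.trans hrρ
  -- `(j+1)^k (r/ρ')^j` bounded with `ρ' ∈ (r, ρ)`; use summability of `(j+1)^k (r/ρ)^j`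
  have hq0 : 0 < r / ρ := div_pos hr hρ0
  have hq1 : r / ρ < 1 := (div_lt_one hρ0).2 hrρ
  have hs : Summable (fun j : ℕ => ((j : ℝ) + 1) ^ k * (r / ρ) ^ j) := by
    have h1 : Summable (fun j : ℕ => ((j : ℝ)) ^ k * (r / ρ) ^ j) :=
      summable_pow_mul_geometric_of_norm_lt_one k (by rw [Real.norm_of_nonneg hq0.le]; exact hq1)
    have h2 := (summable_nat_add_iff 1).2 h1
    have h3 : (fun j : ℕ => ((j : ℝ) + 1) ^ k * (r / ρ) ^ j) =
        fun j : ℕ => (r / ρ)⁻¹ * ((((j + 1 : ℕ) : ℝ)) ^ k * (r / ρ) ^ (j + 1)) := by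
      funext j
      push_cast
      rw [pow_succ]
      field_simp
    rw [h3]
    exact h2.mul_left _
  have hnn : ∀ j : ℕ, 0 ≤ ((j : ℝ) + 1) ^ k * (r / ρ) ^ j := fun j => by positivity
  have ht0 : 0 ≤ ∑' j : ℕ, ((j : ℝ) + 1) ^ k * (r / ρ) ^ j := tsum_nonneg hnn
  refine ⟨(∑' j : ℕ, ((j : ℝ) + 1) ^ k * (r / ρ) ^ j) + 1, by linarith, fun j0 J => ?_⟩
  calc ∑ j ∈ Finset.Ico j0 J, ((j : ℝ) + 1) ^ k * r ^ j
      ≤ ∑ j ∈ Finset.Ico j0 J, (((j : ℝ) + 1) ^ k * (r / ρ) ^ j) * ρ ^ j0 := by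
        refine Finset.sum_le_sum fun j hj => ?_
        rw [Finset.mem_Ico] at hj
        have h1 : r ^ j = (r / ρ) ^ j * ρ ^ j := by
          rw [← mul_pow, div_mul_cancel₀ _ hρ0.ne']
        rw [h1, mul_assoc]
        refine mul_le_mul_of_nonneg_left ?_ (by positivity)
        refine mul_le_mul_of_nonneg_left ?_ (by positivity)
        exact pow_le_pow_of_le_one hρ0.le hρ.le hj.1
    _ = (∑ j ∈ Finset.Ico j0 J, ((j : ℝ) + 1) ^ k * (r / ρ) ^ j) * ρ ^ j0 := by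
        rw [Finset.sum_mul]
    _ ≤ ((∑' j : ℕ, ((j : ℝ) + 1) ^ k * (r / ρ) ^ j) + 1) * ρ ^ j0 := by
        refine mul_le_mul_of_nonneg_right ?_ (by positivity)
        have := hs.sum_le_tsum (Finset.Ico j0 J) (fun j _ => hnn j)
        linarith

open Classical in
/-- **the non-pure class with `N j ≤ K (j+1)^k` words per pair of upper words**: the total is
`≤ C K (1+A) (3/4)^{j0} ν(B)` -/
theorem np_total_poly (k : ℕ) : ∃ C : ℝ, 0 < C ∧ ∀ (M : ℕ) (F : FL M) (B : Finset ℕ) (A s : ℝ),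
    0 < M → B ⊆ M.divisors → Shares F B A s → 0 ≤ A → 3 / 4 ≤ s → ∀ j0 : ℕ, 1 ≤ j0 →
    ∀ (K : ℝ) (N : ℕ → ℕ) (P : ℕ → ℕ → ℕ → ℕ → Prop), 0 ≤ K →
    (∀ j, (N j : ℝ) ≤ K * ((j : ℝ) + 1) ^ k) →
    (∀ j, j0 ≤ j → ∀ i, i < N j → ∀ b c, b ∣ M → c ∣ M → P j i b c → NPX F (Xj j) b c) →
    (∀ j, j0 ≤ j → ∀ i, i < N j → Uniq M (Xj j) (P j i)) →
    ∀ W : ℕ → ℕ → ℝ,
    (∀ j, j0 ≤ j → ∀ i, i < N j → ∀ b c, b ∈ B → c ∈ B → P j i b c →
      W b c ≤ bst (pr (Xj j)) M b c * PureL2x232.B1 b c) →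
    ∑ b ∈ B, ∑ c ∈ B, (if ∃ j, j0 ≤ j ∧ ∃ i, i < N j ∧ P j i b c then
      (Nat.gcd b c : ℝ) * nu M b * nu M c * W b c else 0) ≤
      C * K * (1 + A) * (3 / 4 : ℝ) ^ j0 * ∑ b ∈ B, nu M b := by
  obtain ⟨C, hC, h⟩ := np_total
  have hr0 : 0 < (√2)⁻¹ := by positivity
  have hr34 : (√2)⁻¹ < 3 / 4 := by
    rw [inv_lt_comm₀ (by positivity) (by norm_num)]
    rw [Real.lt_sqrt (by norm_num)]
    norm_num
  obtain ⟨C', hC', h'⟩ := poly_geo k hr0 hr34 (by norm_num)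
  refine ⟨C * C', by positivity,
    fun M F B A s hM hB hS hA hs j0 hj0 K N P hK hN hP hU W hW => ?_⟩
  refine (h M F B A s hM hB hS hA hs j0 hj0 N P hP hU W hW).trans ?_
  have hm0 : 0 ≤ ∑ b ∈ B, nu M b := Finset.sum_nonneg fun b _ => nu_nonneg M b
  refine mul_le_mul_of_nonneg_right ?_ hm0
  have h1 : ∑ j ∈ Finset.Ico j0 (M + 1), (N j : ℝ) * ((√2)⁻¹) ^ j ≤ K * (C' * (3 / 4 : ℝ) ^ j0) := by
    calc ∑ j ∈ Finset.Ico j0 (M + 1), (N j : ℝ) * ((√2)⁻¹) ^ j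
        ≤ ∑ j ∈ Finset.Ico j0 (M + 1), K * (((j : ℝ) + 1) ^ k * ((√2)⁻¹) ^ j) := by
          refine Finset.sum_le_sum fun j _ => ?_
          rw [← mul_assoc]
          exact mul_le_mul_of_nonneg_right (hN j) (by positivity)
      _ = K * ∑ j ∈ Finset.Ico j0 (M + 1), ((j : ℝ) + 1) ^ k * ((√2)⁻¹) ^ j := by
          rw [Finset.mul_sum]
      _ ≤ _ := mul_le_mul_of_nonneg_left (h' j0 (M + 1)) hK
  calc C * (1 + A) * ∑ j ∈ Finset.Ico j0 (M + 1), (N j : ℝ) * ((√2)⁻¹) ^ j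
      ≤ C * (1 + A) * (K * (C' * (3 / 4 : ℝ) ^ j0)) :=
        mul_le_mul_of_nonneg_left h1 (by positivity)
    _ = _ := by ring

open Classical in
/-- **dominant words** (one relation per block) -/
theorem np_total_dbl : ∃ C : ℝ, 0 < C ∧ ∀ (M : ℕ) (F : FL M) (B : Finset ℕ) (A s : ℝ),
    0 < M → B ⊆ M.divisors → Shares F B A s → 0 ≤ A → 3 / 4 ≤ s → ∀ j0 : ℕ, 1 ≤ j0 →
    ∀ D : ℕ → ℕ → ℕ → ℕ → Prop, Dbl D →
    ∀ W : ℕ → ℕ → ℝ,
    (∀ j, j0 ≤ j → ∀ b c, b ∈ B → c ∈ B → NPD F D j b c →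
      W b c ≤ bst (pr (Xj j)) M b c * PureL2x232.B1 b c) →
    ∑ b ∈ B, ∑ c ∈ B, (if ∃ j, j0 ≤ j ∧ NPD F D j b c then
      (Nat.gcd b c : ℝ) * nu M b * nu M c * W b c else 0) ≤
      C * (1 + A) * (3 / 4 : ℝ) ^ j0 * ∑ b ∈ B, nu M b := by
  obtain ⟨C, hC, h⟩ := np_total_poly 0
  refine ⟨C, hC, fun M F B A s hM hB hS hA hs j0 hj0 D hD W hW => ?_⟩
  have h1 := h M F B A s hM hB hS hA hs j0 hj0 1 (fun _ => 1) (fun j _ b c => NPD F D j b c)
    zero_le_one (fun j => by norm_num) (fun j _ i _ b c _ _ hPP => hPP.1)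
    (fun j _ i _ => uniq_dbl hM hD (fun b c _ _ hPP => ⟨hPP.2, hPP.1.size⟩)) W
    (fun j hj i _ b c hb hc hPP => hW j hj b c hb hc hPP)
  rw [mul_one] at h1
  refine le_trans (le_of_eq ?_) h1
  refine Finset.sum_congr rfl fun b _ => Finset.sum_congr rfl fun c _ => ?_
  have e : (∃ j, j0 ≤ j ∧ NPD F D j b c) ↔
      (∃ j, j0 ≤ j ∧ ∃ i, i < 1 ∧ NPD F D j b c) :=
    ⟨fun ⟨j, hj, hh⟩ => ⟨j, hj, 0, by norm_num, hh⟩, fun ⟨j, hj, _, _, hh⟩ => ⟨j, hj, hh⟩⟩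
  by_cases hex : ∃ j, j0 ≤ j ∧ NPD F D j b c
  · rw [if_pos hex, if_pos (e.1 hex)]
  · rw [if_neg hex, if_neg (fun hh => hex (e.2 hh))]

end Crest.Agent.R4C.NPTotx52
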