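import Crest.Agent.R4C.VecNPf_50

/-!
# Row 4: closing lemma for classes with a bilinear set bound (helper50)

`total_of_setBd` : finite index set `T`, cuts `X i`, relations `P i` of good pairs at `X i` with the
set bound `SetBd M (1_{P i} · bst (pr (X i)) · (u u')^{1/4}) (E i)` (`u, u'` the low word at `X i`);
weight `W b c ≤ bst (pr (X i)) M b c * B1 b c` on `P i`; then
`∑_{b,c ∈ B} [∃ i ∈ T, P i b c] gcd ν ν W ≤ C (1 + A) (∑_i E i) ν(B)`.
-/

set_option autoImplicit false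

open Finset
open Crest.Agent.R4C.Basex935 Crest.Agent.R4C.Cutx50 Crest.Agent.R4C.HeavyLx50
open Crest.Agent.R4C.FLDefx935
open Crest.Agent.R4C.BoostRx398 (bst tf one_le_tf)
open Crest.Agent.R4C.FLShx326 (Shares)

namespace Crest.Agent.R4C.VecNPx50

open Classical in
/-- **closing lemma** -/
theorem total_of_setBd : ∃ C : ℝ, 0 ≤ C ∧ ∀ (M : ℕ) (F : FL M) (B : Finset ℕ) (A s : ℝ), 0 < M →
    B ⊆ M.divisors → Shares F B A s → 0 ≤ A → 3 / 4 ≤ s →
    ∀ (ι : Type) (T : Finset ι) (X : ι → ℕ) (P : ι → ℕ → ℕ → Prop) (E : ι → ℝ),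
    (∀ i ∈ T, 0 ≤ E i) →
    (∀ i ∈ T, ∀ b c, b ∣ M → c ∣ M → P i b c → F.good (X i) b c) →
    (∀ i ∈ T, SetBd M (fun b c => if P i b c then bst (pr (X i)) M b c * lw (X i) b c else 0)
      (E i)) →
    ∀ W : ℕ → ℕ → ℝ,
    (∀ i ∈ T, ∀ b ∈ B, ∀ c ∈ B, P i b c →
      W b c ≤ bst (pr (X i)) M b c * PureL2x232.B1 b c) →
    ∑ b ∈ B, ∑ c ∈ B, (if ∃ i ∈ T, P i b c then
        (Nat.gcd b c : ℝ) * nu M b * nu M c * W b c else 0) ≤
      C * (1 + A) * (∑ i ∈ T, E i) * ∑ b ∈ B, nu M b := by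
  obtain ⟨C2, hC2, h2⟩ := B1Levx52.good_B1
  refine ⟨128 * (1 + C2), by positivity,
    fun M F B A s hM hB hSh hA hs ι T X P E hE hgood hset W hW => ?_⟩
  set m := ∑ b ∈ B, nu M b with hm
  have hm0 : 0 ≤ m := Finset.sum_nonneg fun _ _ => nu_nonneg _ _
  have hwt : ∀ b c, 0 ≤ (Nat.gcd b c : ℝ) * nu M b * nu M c := fun b c =>
    mul_nonneg (mul_nonneg (by positivity) (nu_nonneg _ _)) (nu_nonneg _ _)
  set K : ι → ℕ → ℕ → ℝ := fun i b c => (Nat.gcd b c : ℝ) * nu M b * nu M c *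
    (if P i b c then bst (pr (X i)) M b c * lw (X i) b c else 0) with hK
  have hK0 : ∀ i b c, 0 ≤ K i b c := by
    intro i b c
    refine mul_nonneg (hwt b c) ?_
    split_ifs
    · exact mul_nonneg (bst_nonneg _ _ _ _) (lw_nonneg _ _ _)
    · exact le_rfl
  have h1 : ∀ b ∈ B, ∀ c ∈ B, (if ∃ i ∈ T, P i b c then
        (Nat.gcd b c : ℝ) * nu M b * nu M c * W b c else 0) ≤
      ∑ i ∈ T, 8 * (K i b c * B1Levx52.B1 (X i) b c) := by
    intro b hb c hc
    have hbM := Nat.dvd_of_mem_divisors (hB hb)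
    have hcM := Nat.dvd_of_mem_divisors (hB hc)
    have hb0 : 0 < b := Nat.pos_of_dvd_of_pos hbM hM
    have hc0 : 0 < c := Nat.pos_of_dvd_of_pos hcM hM
    have hnn : ∀ i ∈ T, (0 : ℝ) ≤ 8 * (K i b c * B1Levx52.B1 (X i) b c) :=
      fun i _ => mul_nonneg (by norm_num) (mul_nonneg (hK0 i b c) (B1Levx52.B1_nonneg _ _ _))
    by_cases hex : ∃ i ∈ T, P i b c
    · rw [if_pos hex]
      obtain ⟨i, hi, hPi⟩ := hex
      refine le_trans ?_ (Finset.single_le_sum hnn hi)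
      simp only [hK]
      rw [if_pos hPi]
      have h3 := B1_split_cut (X i) hb0 hc0
      rw [B1hi_eq] at h3
      calc (Nat.gcd b c : ℝ) * nu M b * nu M c * W b c
          ≤ (Nat.gcd b c : ℝ) * nu M b * nu M c *
            (bst (pr (X i)) M b c * (8 * lw (X i) b c * B1Levx52.B1 (X i) b c)) :=
            mul_le_mul_of_nonneg_left ((hW i hi b hb c hc hPi).trans
              (mul_le_mul_of_nonneg_left h3 (bst_nonneg _ _ _ _))) (hwt b c)
        _ = _ := by ring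
    · rw [if_neg hex]
      exact Finset.sum_nonneg hnn
  refine (Finset.sum_le_sum fun b hb => Finset.sum_le_sum fun c hc => h1 b hb c hc).trans ?_
  have hswap : ∑ b ∈ B, ∑ c ∈ B, ∑ i ∈ T, 8 * (K i b c * B1Levx52.B1 (X i) b c) =
      ∑ i ∈ T, 8 * ∑ b ∈ B, ∑ c ∈ B, K i b c * B1Levx52.B1 (X i) b c := by
    rw [Finset.sum_congr rfl fun b _ => Finset.sum_comm, Finset.sum_comm]
    refine Finset.sum_congr rfl fun j _ => ?_
    rw [Finset.mul_sum]
    refine Finset.sum_congr rfl fun b _ => ?_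
    rw [Finset.mul_sum]
  rw [hswap]
  have hi : ∀ i ∈ T, 8 * ∑ b ∈ B, ∑ c ∈ B, K i b c * B1Levx52.B1 (X i) b c ≤
      (128 * ((1 + C2) * (1 + A)) * m) * E i := by
    intro i hiT
    have h3 := h2 M F B A s hM hB hSh hA hs (X i) (K i) (E i) (hE i hiT)
      (fun b _ c _ => hK0 i b c)
      (fun b hb c hc hne => by
        have hbM := Nat.dvd_of_mem_divisors (hB hb)
        have hcM := Nat.dvd_of_mem_divisors (hB hc)
        by_contra hng
        apply hne
        simp only [hK]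
        rw [if_neg, mul_zero]
        intro hPi
        exact hng (hgood i hiT b c hbM hcM hPi))
      (fun S S' hS hS' => setBd_sets (hset i hiT) (hS.trans hB) (hS'.trans hB))
    have hA1 : 1 + C2 * A ≤ (1 + C2) * (1 + A) := by nlinarith [mul_nonneg hC2 hA]
    have hEi := hE i hiT
    calc 8 * ∑ b ∈ B, ∑ c ∈ B, K i b c * B1Levx52.B1 (X i) b c
        ≤ 8 * (16 * (1 + C2 * A) * E i * m) := mul_le_mul_of_nonneg_left h3 (by norm_num)
      _ ≤ 8 * (16 * ((1 + C2) * (1 + A)) * E i * m) := by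
          refine mul_le_mul_of_nonneg_left ?_ (by norm_num)
          refine mul_le_mul_of_nonneg_right ?_ hm0
          refine mul_le_mul_of_nonneg_right ?_ hEi
          linarith
      _ = _ := by ring
  refine (Finset.sum_le_sum hi).trans (le_of_eq ?_)
  rw [← Finset.mul_sum]
  ring

end Crest.Agent.R4C.VecNPx50
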