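import Crest.Agent.R4C.NPs_217
import Crest.Agent.R4C.ClsBad_250
import Crest.Agent.R4C.SpineKit_946
import Crest.Agent.R4C.HyOf_281
import Crest.Agent.R4C.VecNPt_50
import Crest.Agent.R4C.NPTot_52

/-!
# Row 4: `ClsOK` for the class `CNP` of the split (helper16)

Index = block `j` of the level `t`: `2^j ≤ A t < 2^(j+1)`, `X = Xj j = 2^(2^j) - 1 ≤ cut t`.

* not good at `X` : `ClsBad_250.cls_badJ`;
* good at `X` : not pure at `X`; `NPs_217` (`uniq_all`, `np_all`): the low word is unique per box,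
  set bound `C 2^{-j/2}` with the full boost at the primes `≤ X`; `bst_cut_le`: the boost of the
  primes in `(X, cut t]` is bounded; one offset per pair and block (`off_unique`); `B1` by
  `VecNPt_50.total_of_setBd`.
* **`cls_np`** : `ClsOK γ (clsNP γ)`, `clsNP` = the literal `CNP F (ParOf cp A m0 γ L M B)`.
-/

set_option autoImplicit false

open Finset

namespace Crest.Agent.R4C.ClsNPx16

open Crest.Agent.R4C.Basex935 Crest.Agent.R4C.Cutx50 Crest.Agent.R4C.FLDefx935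
open Crest.Agent.R4C.BoostRx398 (bst tf one_le_tf)
open Crest.Agent.R4C.FixedWordx423 (wd wd_pos)
open Crest.Agent.R4C.NonPureBlkx559 (Xj Xj_two log_Xj Xj_ge)
open Crest.Agent.R4C.VecNPx50 (NPX pr mem_pr lw SetBd bst_nonneg total_of_setBd Xj_lt)
open Crest.Agent.R4C.BoostCx972 (gap)
open Crest.Agent.R4C.Bridgex882 Crest.Agent.R4C.CrCoinx935
open Crest.Agent.R4C.Rulex945 Crest.Agent.R4C.Sharedx11 Crest.Agent.R4C.Splitx945
open Crest.Agent.R4C.Spinex946 Crest.Agent.R4C.HyOfx281 Crest.Agent.R4C.NPsx217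
open Crest.Agent.R4C.BoostTopx19 (prQ)
open Crest.Agent.R4C.BoostAlx100 (boost_al B1_nonneg)

/-! ### the boost between two cuts -/

/-- Mertens for a set of primes in `(x, Q]` -/
lemma prod_window {x Q : ℕ} (hx : 2 ≤ x) (hxQ : x ≤ Q) (S : Finset ℕ)
    (hS : ∀ p ∈ S, p.Prime ∧ x < p ∧ p ≤ Q) :
    ∏ p ∈ S, tf p ≤ Real.exp (22 / Real.log 2) * (Real.log Q / Real.log x) := by
  classical
  have hx' : (2 : ℝ) ≤ x := by exact_mod_cast hx
  have hxQ' : (x : ℝ) ≤ Q := by exact_mod_cast hxQ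
  have h3 := (Crest.Agent.Lib.Mertens.mertens_three x Q hx' hxQ').1
  have hlx : 0 < Real.log x := Real.log_pos (by linarith)
  have hlQ : 0 < Real.log Q := Real.log_pos (by linarith)
  have hl2 : 0 < Real.log 2 := Real.log_pos (by norm_num)
  have hpr : ∀ p ∈ Crest.Agent.Lib.Mertens.pr x Q, p.Prime := fun p hp =>
    ((Crest.Agent.Lib.Mertens.mem_pr (by linarith) (by linarith)).1 hp).2
  have hsub : S ⊆ Crest.Agent.Lib.Mertens.pr x Q := by
    intro q hq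
    refine (Crest.Agent.Lib.Mertens.mem_pr (by linarith) (by linarith)).2 ⟨⟨?_, ?_⟩, (hS q hq).1⟩
    · exact_mod_cast (hS q hq).2.1
    · exact_mod_cast (hS q hq).2.2
  have hmono : ∏ p ∈ S, tf p ≤ ∏ p ∈ Crest.Agent.Lib.Mertens.pr x Q, tf p :=
    Crest.Agent.R4C.BoostCx972.prod_pf_mono hsub hpr
  refine hmono.trans ?_
  have e : ∏ p ∈ Crest.Agent.Lib.Mertens.pr x Q, tf p =
      (∏ p ∈ Crest.Agent.Lib.Mertens.pr x Q, (1 - 1 / (p : ℝ)))⁻¹ := by
    unfold tf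
    exact Finset.prod_inv_distrib _
  rw [e]
  have h4 : 0 < Real.exp (-(22 / Real.log x)) * (Real.log x / Real.log Q) := by positivity
  refine (inv_anti₀ h4 h3).trans ?_
  have e2 : (Real.exp (-(22 / Real.log x)) * (Real.log x / Real.log Q))⁻¹ =
      Real.exp (22 / Real.log x) * (Real.log Q / Real.log x) := by
    rw [Real.exp_neg]
    field_simp
  rw [e2]
  refine mul_le_mul_of_nonneg_right ?_ (by positivity)
  refine Real.exp_le_exp.2 ?_
  exact div_le_div_of_nonneg_left (by norm_num) hl2 (Real.log_le_log (by norm_num) hx')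

/-- **boost at the primes `≤ Q` against the boost at the primes `≤ x`** -/
lemma bst_cut_le {x Q : ℕ} (hx : 2 ≤ x) (hxQ : x ≤ Q) (M b c : ℕ) :
    bst (prQ Q) M b c ≤ (Real.exp (22 / Real.log 2) * (Real.log Q / Real.log x)) *
      bst (pr x) M b c := by
  classical
  have hmem : ∀ p, p ∈ prQ Q ↔ p ≤ Q ∧ p.Prime := by
    intro p
    unfold prQ
    rw [mem_filter, mem_range, Nat.lt_succ_iff]
  have hsub : pr x ⊆ prQ Q := by
    intro p hp
    rw [mem_pr] at hp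
    exact (hmem p).2 ⟨hp.1.trans hxQ, hp.2⟩
  have hfac : ∀ p, p.Prime → (0 : ℝ) ≤ (if b.factorization p = c.factorization p ∧
      b.factorization p < M.factorization p then tf p else 1) := fun p hp => by
    split_ifs
    · exact zero_le_one.trans (one_le_tf hp)
    · exact zero_le_one
  have e : bst (prQ Q) M b c = bst (prQ Q \ pr x) M b c * bst (pr x) M b c := by
    unfold Crest.Agent.R4C.BoostRx398.bst
    exact (Finset.prod_sdiff hsub).symm
  have hpos : 0 ≤ bst (pr x) M b c :=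
    Finset.prod_nonneg fun p hp => hfac p (mem_pr.1 hp).2
  rw [e]
  refine mul_le_mul_of_nonneg_right ?_ hpos
  have hS : ∀ p ∈ prQ Q \ pr x, p.Prime ∧ x < p ∧ p ≤ Q := by
    intro p hp
    rw [mem_sdiff, hmem, mem_pr] at hp
    refine ⟨hp.1.2, ?_, hp.1.1⟩
    by_contra hc
    exact hp.2 ⟨not_lt.1 hc, hp.1.2⟩
  refine le_trans ?_ (prod_window hx hxQ _ hS)
  refine Finset.prod_le_prod (fun p hp => hfac p (hS p hp).1) fun p hp => ?_
  split_ifs
  · exact le_rfl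
  · exact one_le_tf (hS p hp).1

/-! ### the blocks -/

/-- depth bound of the block `j` -/
noncomputable def KJ (cp : ℝ) (A j : ℕ) : ℝ := (2 : ℝ) ^ (8 * cp * ((2 : ℝ) ^ j / A))

lemma KJ_one {cp : ℝ} (h : 0 ≤ cp) (A j : ℕ) : 1 ≤ KJ cp A j :=
  Real.one_le_rpow (by norm_num) (by positivity)

section num

variable {cp η : ℝ} {A m0 t j : ℕ}

lemma blk_facts (hN : Num cp η A m0) (ht : 2 * m0 < t) (hj : Nat.log 2 (A * t) = j) :
    1 ≤ j ∧ 2 ^ j ≤ A * t ∧ A * t < 2 ^ (j + 1) := by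
  have hA := hN.A_one
  have hm := hN.m0_14
  have h0 : A * t ≠ 0 := (Nat.mul_pos hA (by omega)).ne'
  have h1 : 2 ^ j ≤ A * t := hj ▸ Nat.pow_log_le_self 2 h0
  have h2 : A * t < 2 ^ (j + 1) := hj ▸ Nat.lt_pow_succ_log_self (by norm_num) _
  refine ⟨?_, h1, h2⟩
  by_contra hc
  have : j = 0 := by omega
  rw [this] at h2
  have : t ≤ A * t := Nat.le_mul_of_pos_left t hA
  omega

lemma u_facts (hN : Num cp η A m0) (ht : 2 * m0 < t) (hj : Nat.log 2 (A * t) = j) :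
    (2 : ℝ) ^ j / A ≤ t ∧ (t : ℝ) < 2 * ((2 : ℝ) ^ j / A) ∧ 14 ≤ (2 : ℝ) ^ j / A ∧
      (2 : ℝ) ^ j / A ≤ 2 ^ j := by
  obtain ⟨_, h1, h2⟩ := blk_facts hN ht hj
  have hA : (1 : ℝ) ≤ A := by exact_mod_cast hN.A_one
  have hA0 : (0 : ℝ) < A := by linarith
  have h1' : (2 : ℝ) ^ j ≤ A * t := by exact_mod_cast h1
  have h2' : (A : ℝ) * t < 2 ^ (j + 1) := by exact_mod_cast h2
  have h3 : (28 : ℝ) ≤ t := by
    have := hN.m0_14
    exact_mod_cast (by omega : 28 ≤ t)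
  have e1 : (2 : ℝ) ^ j / A ≤ t := by rw [div_le_iff₀ hA0]; linarith
  have e2 : (t : ℝ) < 2 * ((2 : ℝ) ^ j / A) := by
    rw [mul_div_assoc', lt_div_iff₀ hA0]
    rw [pow_succ] at h2'
    linarith
  exact ⟨e1, e2, by linarith, div_le_self (by positivity) hA⟩

lemma E_le_KJ (hN : Num cp η A m0) (ht : 2 * m0 < t) (hj : Nat.log 2 (A * t) = j) {γ L : ℝ}
    {M : ℕ} {B : Finset ℕ} : (ParOf cp A m0 γ L M B).E t ^ 4 ≤ KJ cp A j := by
  obtain ⟨_, h2, _, _⟩ := u_facts hN ht hj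
  rw [E_pow]
  unfold KJ
  refine Real.rpow_le_rpow_of_exponent_le (by norm_num) ?_
  have h3 := mul_le_mul_of_nonneg_left h2.le hN.cp_pos.le
  push_cast
  linarith

lemma Xj_cast (j : ℕ) : (2 : ℝ) ^ (((2 : ℝ) ^ j) - 1) ≤ (Xj j : ℝ) := by
  have h1 : ((2 ^ (2 ^ j - 1) : ℕ) : ℝ) ≤ (Xj j : ℝ) := by exact_mod_cast Xj_ge (j := j)
  have e : ((2 ^ (2 ^ j - 1) : ℕ) : ℝ) = (2 : ℝ) ^ (((2 : ℝ) ^ j) - 1) := by
    push_cast
    rw [← Real.rpow_natCast]
    congr 1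
    rw [Nat.cast_sub Nat.one_le_two_pow]
    push_cast
    ring
  rwa [e] at h1

lemma KJ_sq (hN : Num cp η A m0) (ht : 2 * m0 < t) (hj : Nat.log 2 (A * t) = j) :
    4 * KJ cp A j ^ 2 < 2 ^ t ∧ 4 * KJ cp A j ^ 2 ≤ Xj j := by
  obtain ⟨h1, _, h3, h4⟩ := u_facts hN ht hj
  have e : 4 * KJ cp A j ^ 2 = (2 : ℝ) ^ (2 + 16 * cp * ((2 : ℝ) ^ j / A)) := by
    unfold KJ
    rw [Real.rpow_add (by norm_num), ← Real.rpow_natCast, ← Real.rpow_mul (by norm_num)]
    congr 1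
    · norm_num
    · congr 1
      push_cast
      ring
  have h5 : 2 + 16 * cp * ((2 : ℝ) ^ j / A) ≤ (2 : ℝ) ^ j / A - 1 := by
    have h6 := mul_le_mul_of_nonneg_right hN.cp_le (by linarith : 0 ≤ (2 : ℝ) ^ j / A)
    nlinarith
  rw [e]
  constructor
  · rw [← Real.rpow_natCast 2 t]
    exact Real.rpow_lt_rpow_of_exponent_lt (by norm_num) (by linarith)
  · refine le_trans ?_ (Xj_cast j)
    exact Real.rpow_le_rpow_of_exponent_le (by norm_num) (by linarith)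

lemma cut_facts (hN : Num cp η A m0) (ht : 2 * m0 < t) (hj : Nat.log 2 (A * t) = j) {γ L : ℝ}
    {M : ℕ} {B : Finset ℕ} : Xj j ≤ (ParOf cp A m0 γ L M B).cut t ∧
    Real.log ((ParOf cp A m0 γ L M B).cut t : ℕ) / Real.log (Xj j) ≤ 4 := by
  obtain ⟨hj1, h1, h2⟩ := blk_facts hN ht hj
  have hc : (ParOf cp A m0 γ L M B).cut t = 2 ^ (A * t) := rfl
  constructor
  · rw [hc]
    unfold Crest.Agent.R4C.NonPureBlkx559.Xj
    exact (Nat.sub_le _ _).trans (Nat.pow_le_pow_right (by norm_num) h1)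
  · have h3 := log_Xj hj1
    have hl2 : 0 < Real.log 2 := Real.log_pos (by norm_num)
    have h4 : 0 < Real.log (Xj j) := lt_of_lt_of_le (by positivity) h3
    rw [div_le_iff₀ h4, hc]
    have e : Real.log (((2 ^ (A * t) : ℕ)) : ℝ) = ((A * t : ℕ) : ℝ) * Real.log 2 := by
      rw [Nat.cast_pow, Real.log_pow]
      norm_num
    rw [e]
    have h5 : ((A * t : ℕ) : ℝ) ≤ 2 ^ (j + 1) := by exact_mod_cast h2.le
    calc ((A * t : ℕ) : ℝ) * Real.log 2 ≤ 2 ^ (j + 1) * Real.log 2 :=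
          mul_le_mul_of_nonneg_right h5 hl2.le
      _ = 4 * (2 ^ j * (Real.log 2 / 2)) := by rw [pow_succ]; ring
      _ ≤ _ := mul_le_mul_of_nonneg_left h3 (by norm_num)

end num

lemma cutMono {cp γ L : ℝ} {A m0 M : ℕ} {B : Finset ℕ} :
    Monotone (ParOf cp A m0 γ L M B).cut := fun _ _ hab =>
  Nat.pow_le_pow_right (by norm_num) (Nat.mul_le_mul_left A hab)

/-! ### one block -/

/-- the pairs of the block `j` -/
def QJ {M : ℕ} (F : FL M) (P : Par) (K : ℝ) (j b c : ℕ) : Prop :=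
  NPX F (Xj j) b c ∧ ∃ h f f', PtU F P (Xj j) K b c h f f'

/-- the offsets of the block `j` -/
def RQ {M : ℕ} (F : FL M) (P : Par) (A : ℕ) (K : ℝ) (j b c : ℕ) (h : ℤ) : Prop :=
  QJ F P K j b c ∧ ∃ t f f', Nat.log 2 (A * t) = j ∧ BS F P t b c h f f' ∧
    PtU F P (Xj j) K b c h f f'

lemma sum_le_of_unique {S : Finset ℤ} {g : ℤ → ℝ} {w : ℝ} (hw : 0 ≤ w) (h1 : ∀ x ∈ S, g x ≤ w)
    (h2 : ∀ x ∈ S, ∀ y ∈ S, x = y) : ∑ x ∈ S, g x ≤ w := by
  rcases S.eq_empty_or_nonempty with rfl | ⟨x, hx⟩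
  · rw [Finset.sum_empty]; exact hw
  · have : S = {x} := by
      ext y
      rw [mem_singleton]
      exact ⟨fun hy => h2 y hy x hx, fun hy => hy ▸ hx⟩
    rw [this, Finset.sum_singleton]
    exact h1 x hx

/-- constant of the boost -/
noncomputable def C0 : ℝ := Real.exp 1200 * (Real.exp (22 / Real.log 2) * 4)

lemma C0_pos : 0 < C0 := by unfold C0; positivity

/-- the boost of an offset of the block `j` -/
lemma boost_le {cp η γ L K : ℝ} {A m0 : ℕ} (hN : Num cp η A m0) {M : ℕ} {B : Finset ℕ}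
    (hM : 0 < M) (hL : 0 < L) {F : FL M} {b c j : ℕ} (hb : b ∣ M) (hc : c ∣ M)
    {h : ℤ} (hl : h ∈ Lnk γ L b c)
    (h1 : RQ F (ParOf cp A m0 γ L M B) A K j b c h) :
    boostB M (lamR F (ParOf cp A m0 γ L M B)) b c h ≤
      C0 * (bst (pr (Xj j)) M b c * PureL2x232.B1 b c) := by
  obtain ⟨_, t, f, f', hj, hS, _⟩ := h1
  have ht : 2 * m0 < t := hS.m0
  obtain ⟨hj1, g1, g2⟩ := blk_facts hN ht hj
  obtain ⟨hX, hlog⟩ := cut_facts hN ht hj (γ := γ) (L := L) (M := M) (B := B)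
  have hX2 : 2 ≤ Xj j := Xj_two hj1
  have hb1 := boost_al (F := F) (P := ParOf cp A m0 γ L M B) hM hb hc hL (fun i => rfl)
    (fun b i => min_le_right _ _) (hX2.trans hX) hS.good hl hS.al (Or.inl hS.near.le)
  have hb2 := bst_cut_le hX2 hX M b c
  have hB0 := B1_nonneg b c
  have hbn := bst_nonneg (pr (Xj j)) M b c
  have hee : 0 < Real.exp (22 / Real.log 2) := Real.exp_pos _
  have hb3 : bst (prQ ((ParOf cp A m0 γ L M B).cut t)) M b c ≤
      (Real.exp (22 / Real.log 2) * 4) * bst (pr (Xj j)) M b c :=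
    hb2.trans (mul_le_mul_of_nonneg_right (mul_le_mul_of_nonneg_left hlog hee.le) hbn)
  refine hb1.trans ?_
  calc Real.exp 1200 * (PureL2x232.B1 b c * bst (prQ ((ParOf cp A m0 γ L M B).cut t)) M b c)
      ≤ Real.exp 1200 * (PureL2x232.B1 b c *
        ((Real.exp (22 / Real.log 2) * 4) * bst (pr (Xj j)) M b c)) :=
        mul_le_mul_of_nonneg_left (mul_le_mul_of_nonneg_left hb3 hB0) (Real.exp_pos _).le
    _ = _ := by unfold C0; ring

open Classical in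
/-- **one block** -/
theorem block_le : ∃ C : ℝ, 0 ≤ C ∧ ∀ {cp η : ℝ} {A m0 : ℕ}, Num cp η A m0 →
    ∀ (γ L : ℝ) (M : ℕ) (B : Finset ℕ) (F : FL M), Setup η L M B F →
    ∀ (j : ℕ), 1 ≤ j → ∀ K : ℝ, K ≤ Xj j →
    EnR γ L M B (lamOf cp A m0 γ L M B F) (RQ F (ParOf cp A m0 γ L M B) A K j) ≤
      C * (1 + sA η) * ((√2)⁻¹) ^ j := by
  obtain ⟨C, hC, H⟩ := total_of_setBd
  obtain ⟨C1, hC1, H1⟩ := np_all
  refine ⟨C0 * C * C1, mul_nonneg (mul_nonneg C0_pos.le hC) hC1.le, ?_⟩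
  intro cp η A m0 hN γ L M B F S j hj K hK
  obtain ⟨hT, _⟩ := tree_spec hN.η_pos hN.η_lt
  have hset := H1 M F (ParOf cp A m0 γ L M B) S.hM S.hL cutMono j hj K hK
  have hset' : SetBd M (fun b c => if QJ F (ParOf cp A m0 γ L M B) K j b c then
      bst (pr (Xj j)) M b c * lw (Xj j) b c else 0) (C1 * ((√2)⁻¹) ^ j) := by
    convert hset using 4
    rfl
  have h1 := H M F B (sA η) (sE η) S.hM S.hB S.shares hT.A_pos.le hT.s_gt.le Unit {()}
    (fun _ => Xj j) (fun _ => QJ F (ParOf cp A m0 γ L M B) K j)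
    (fun _ => C1 * ((√2)⁻¹) ^ j) (fun _ _ => by positivity)
    (fun _ _ b c hb hc hQ => hQ.1.good) (fun _ _ => hset')
    (fun b c => bst (pr (Xj j)) M b c * PureL2x232.B1 b c) (fun _ _ b _ c _ _ => le_rfl)
  simp only [mem_singleton, true_and, exists_const, Finset.sum_singleton] at h1
  set Q : ℕ → ℕ → Prop := QJ F (ParOf cp A m0 γ L M B) K j with hQd
  have hw : ∀ b c, 0 ≤ C0 * (bst (pr (Xj j)) M b c * PureL2x232.B1 b c) := fun b c =>
    mul_nonneg C0_pos.le (mul_nonneg (bst_nonneg _ _ _ _) (B1_nonneg _ _))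
  have h2 : EnR γ L M B (lamOf cp A m0 γ L M B F) (RQ F (ParOf cp A m0 γ L M B) A K j) ≤
      L * ∑ b ∈ B, ∑ c ∈ B, C0 * (if Q b c then (Nat.gcd b c : ℝ) * nu M b * nu M c *
        (bst (pr (Xj j)) M b c * PureL2x232.B1 b c) else 0) := by
    rw [EnR_eq]
    refine mul_le_mul_of_nonneg_left (Finset.sum_le_sum fun b hb => ?_) S.hL.le
    have hnn : ∀ c, (0 : ℝ) ≤ C0 * (if Q b c then (Nat.gcd b c : ℝ) * nu M b * nu M c *
        (bst (pr (Xj j)) M b c * PureL2x232.B1 b c) else 0) := fun c => by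
      refine mul_nonneg C0_pos.le ?_
      split_ifs
      · exact mul_nonneg (pref_nonneg _ _ _) (mul_nonneg (bst_nonneg _ _ _ _) (B1_nonneg _ _))
      · exact le_rfl
    refine le_trans (Finset.sum_le_sum fun c hc => ?_)
      (Finset.sum_le_sum_of_subset_of_nonneg (Finset.erase_subset b B) fun c _ _ => hnn c)
    have hcB := Finset.mem_of_mem_erase hc
    by_cases hQ : Q b c
    · rw [if_pos hQ]
      have h3 : oS γ L M (lamOf cp A m0 γ L M B F) (RQ F (ParOf cp A m0 γ L M B) A K j) b c ≤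
          C0 * (bst (pr (Xj j)) M b c * PureL2x232.B1 b c) := by
        unfold oS
        refine sum_le_of_unique (hw b c) (fun x hx => ?_) (fun x hx y hy => ?_)
        · rw [mem_filter] at hx
          exact boost_le hN S.hM S.hL (S.dvd hb) (S.dvd hcB) hx.1 hx.2.2
        · rw [mem_filter] at hx hy
          obtain ⟨_, _, _, _, _, _, hp⟩ := hx.2.2
          obtain ⟨_, _, _, _, _, _, hp1⟩ := hy.2.2
          exact off_unique (P := ParOf cp A m0 γ L M B) S.hL S.hM cutMono (S.dvd hb) (S.dvd hcB)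
            hp hp1
      calc _ ≤ (Nat.gcd b c : ℝ) * nu M b * nu M c *
            (C0 * (bst (pr (Xj j)) M b c * PureL2x232.B1 b c)) :=
            mul_le_mul_of_nonneg_left h3 (pref_nonneg _ _ _)
        _ = _ := by ring
    · rw [if_neg hQ, mul_zero]
      have h3 : oS γ L M (lamOf cp A m0 γ L M B F) (RQ F (ParOf cp A m0 γ L M B) A K j) b c = 0 := by
        unfold oS
        refine Finset.sum_eq_zero fun x hx => ?_
        rw [mem_filter] at hx
        exact absurd hx.2.2.1 hQ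
      rw [h3, mul_zero]
  refine h2.trans ?_
  have h4 : ∑ b ∈ B, ∑ c ∈ B, C0 * (if Q b c then (Nat.gcd b c : ℝ) * nu M b * nu M c *
        (bst (pr (Xj j)) M b c * PureL2x232.B1 b c) else 0) ≤
      C0 * (C * (1 + sA η) * (C1 * ((√2)⁻¹) ^ j) * ∑ b ∈ B, nu M b) := by
    simp_rw [← Finset.mul_sum]
    exact mul_le_mul_of_nonneg_left h1 C0_pos.le
  have hA0 := hT.A_pos.le
  have hr0 : (0 : ℝ) ≤ ((√2)⁻¹) ^ j := by positivity
  calc _ ≤ L * (C0 * (C * (1 + sA η) * (C1 * ((√2)⁻¹) ^ j) * ∑ b ∈ B, nu M b)) :=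
        mul_le_mul_of_nonneg_left h4 S.hL.le
    _ = (C0 * C * C1 * (1 + sA η) * ((√2)⁻¹) ^ j) * (L * ∑ b ∈ B, nu M b) := by ring
    _ ≤ (C0 * C * C1 * (1 + sA η) * ((√2)⁻¹) ^ j) * 1 := by
        refine mul_le_mul_of_nonneg_left S.mass ?_
        have := C0_pos.le
        positivity
    _ = _ := mul_one _

/-! ### all blocks -/

/-- the part of `CNP` which is good at the block cut -/
def CG {M : ℕ} (F : FL M) (P : Par) (A : ℕ) (b c : ℕ) (h : ℤ) : Prop :=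
  ∃ t f f', BS F P t b c h f f' ∧ F.good (Xj (Nat.log 2 (A * t))) b c ∧
    ¬ Splitx945.Pure F (P.cut t) b c ∧
    (NoEx (P.cut t) b c f f' ∨ ¬ BigW F P t b c f f')

/-- the offset lies in its block -/
lemma mem_block {cp η γ L : ℝ} {A m0 : ℕ} (hN : Num cp η A m0) {M : ℕ} {B : Finset ℕ}
    (hM : 0 < M) {F : FL M} {b c : ℕ} (hb : b ∣ M) (hc : c ∣ M) {h : ℤ}
    (hl : h ∈ Lnk γ L b c) (h1 : CG F (ParOf cp A m0 γ L M B) A b c h) :
    ∃ j ∈ Finset.Ico 1 (M + 1), RQ F (ParOf cp A m0 γ L M B) A (KJ cp A j) j b c h ∧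
      KJ cp A j ≤ Xj j := by
  obtain ⟨t, f, f', hS, hg, hp, hx⟩ := h1
  have ht : 2 * m0 < t := hS.m0
  obtain ⟨j, hj⟩ : ∃ j, Nat.log 2 (A * t) = j := ⟨_, rfl⟩
  rw [hj] at hg
  obtain ⟨hj1, _, _⟩ := blk_facts hN ht hj
  obtain ⟨hX, _⟩ := cut_facts hN ht hj (γ := γ) (L := L) (M := M) (B := B)
  have e1 := E_le_KJ hN ht hj (γ := γ) (L := L) (M := M) (B := B)
  obtain ⟨k1, k2⟩ := KJ_sq hN ht hj
  have k3 := KJ_one hN.cp_pos.le A j
  have k4 : KJ cp A j ≤ Xj j := by nlinarith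
  have hu := ptU_of_BS (P := ParOf cp A m0 γ L M B) hM cutMono hb hc hX e1 k1 k4 hS hl hx
  have hn := npx_of (P := ParOf cp A m0 γ L M B) hM hb hc hX k2 hg hp hu
  refine ⟨j, mem_Ico.2 ⟨hj1, ?_⟩, ⟨⟨hn, h, f, f', hu⟩, t, f, f', hj, hS, hu⟩, k4⟩
  have hnp := hn.np
  rw [not_and_or] at hnp
  rcases hnp with h5 | h5
  · exact Xj_lt hM h5
  · exact Xj_lt hM h5

theorem cls_good (γ : ℝ) : ClsOK γ (fun cp _ A m0 L M B F b c h =>
    CG F (ParOf cp A m0 γ L M B) A b c h) := by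
  obtain ⟨C, hC, H⟩ := block_le
  refine evNum.mono ?_
  intro cp η A m0 hN
  obtain ⟨hT, _⟩ := tree_spec hN.η_pos hN.η_lt
  have hr0 : (0 : ℝ) < (√2)⁻¹ := by positivity
  have hr1 : (√2)⁻¹ < (1 : ℝ) := Crest.Agent.R4C.NPTotx52.sqrt2_inv_lt
  have hR : (0 : ℝ) < (1 - (√2)⁻¹)⁻¹ := inv_pos.2 (by linarith)
  refine ⟨(C * (1 + sA η)) * (1 - (√2)⁻¹)⁻¹, fun L M B F S => ?_⟩
  have hA0 := hT.A_pos.le
  have hD : 0 ≤ C * (1 + sA η) := by positivity
  have h1 : EnR γ L M B (lamOf cp A m0 γ L M B F) (CG F (ParOf cp A m0 γ L M B) A) ≤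
      ∑ j ∈ (Finset.Ico 1 (M + 1)).filter (fun j => KJ cp A j ≤ Xj j),
        EnR γ L M B (lamOf cp A m0 γ L M B F)
          (RQ F (ParOf cp A m0 γ L M B) A (KJ cp A j) j) := by
    refine le_trans (EnR_mono S.hL.le fun b hb c hc _ x hx _ hR => ?_)
      (EnR_exists_le S.hL.le _ (fun (j : ℕ) =>
        RQ F (ParOf cp A m0 γ L M B) A (KJ cp A j) j))
    obtain ⟨j, hj, h2, h3⟩ := mem_block hN S.hM (S.dvd hb) (S.dvd hc) hx hR
    exact ⟨j, mem_filter.2 ⟨hj, h3⟩, h2⟩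
  refine h1.trans ?_
  have h2 : ∀ j ∈ (Finset.Ico 1 (M + 1)).filter (fun j => KJ cp A j ≤ Xj j),
      EnR γ L M B (lamOf cp A m0 γ L M B F)
          (RQ F (ParOf cp A m0 γ L M B) A (KJ cp A j) j) ≤
        (C * (1 + sA η)) * ((√2)⁻¹) ^ j := by
    intro j hj
    rw [mem_filter, mem_Ico] at hj
    exact H hN γ L M B F S j hj.1.1 (KJ cp A j) hj.2
  refine (Finset.sum_le_sum h2).trans ?_
  rw [← Finset.mul_sum]
  refine mul_le_mul_of_nonneg_left ?_ hD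
  have h5 : ∑ j ∈ Finset.Ico 1 (M + 1), ((√2)⁻¹) ^ j ≤ (1 - (√2)⁻¹)⁻¹ := by
    have h6 := geom_Ico hr0.le hr1 1 (M + 1)
    refine h6.trans ?_
    rw [div_eq_mul_inv]
    calc ((√2)⁻¹) ^ 1 * (1 - (√2)⁻¹)⁻¹ ≤ 1 * (1 - (√2)⁻¹)⁻¹ :=
          mul_le_mul_of_nonneg_right (by rw [pow_one]; exact hr1.le) hR.le
      _ = _ := one_mul _
  refine le_trans ?_ h5
  exact Finset.sum_le_sum_of_subset_of_nonneg (filter_subset _ _) fun j _ _ => by positivity

/-- the class `CNP` in the form of the spine -/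
def clsNP (γ : ℝ) : Cls := fun cp _ A m0 L M B F b c h =>
  CNP F (ParOf cp A m0 γ L M B) b c h

/-- **the class `CNP` has bounded energy** -/
theorem cls_np (γ : ℝ) : ClsOK γ (clsNP γ) := by
  refine ClsOK.mono (ClsOK.or (Crest.Agent.R4C.ClsBadx250.cls_badJ γ) (cls_good γ)) ?_
  refine evNum.mono ?_
  intro cp η A m0 hN L M B F S b hb c hc hne h hh hk hR
  obtain ⟨t, f, f', hS, hp, hx⟩ := hR
  have ht : 2 * m0 < t := hS.m0
  by_cases hg : F.good (Xj (Nat.log 2 (A * t))) b c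
  · exact Or.inr ⟨t, f, f', hS, hg, hp, hx⟩
  · left
    refine Crest.Agent.R4C.ClsBadx250.CBadX_of (t := t) (by
      change m0 ≤ t
      omega) cutMono hg hS.good (fun q hq => (hS.al q hq).trans (cutMono (by omega))) ?_ ?_
    · -- scale
      have h1 := hS.scl
      have hg0 : (0 : ℝ) ≤ Nat.gcd b c := Nat.cast_nonneg _
      have hL0 : 0 < L := S.hL
      have h2 : (Nat.gcd b c : ℝ) ^ 2 < (2 ^ (t + 1) * L) ^ 2 := by
        refine lt_of_le_of_lt h1 ?_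
        have h3 : (1 : ℝ) < 2 ^ (t + 1) := one_lt_pow₀ (by norm_num) (by omega)
        have h4 : (0 : ℝ) < 2 ^ (t + 1) * L ^ 2 := by positivity
        calc (2 : ℝ) ^ (t + 1) * L ^ 2 = 1 * (2 ^ (t + 1) * L ^ 2) := (one_mul _).symm
          _ < 2 ^ (t + 1) * (2 ^ (t + 1) * L ^ 2) := mul_lt_mul_of_pos_right h3 h4
          _ = _ := by ring
      exact lt_of_pow_lt_pow_left₀ 2 (by positivity) h2
    · refine lt_of_lt_of_le hS.near ?_
      exact_mod_cast (cutMono (cp := cp) (γ := γ) (L := L) (A := A) (m0 := m0) (M := M) (B := B))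
        (Nat.le_succ t)

end Crest.Agent.R4C.ClsNPx16
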