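import Crest.Agent.R4C.NearRule_360
import Crest.Agent.R4C.SplitDef_945
import Crest.Agent.R4C.SpineDef_946

/-!
# Row 4: the class `CNear` of `SplitDef_945` has bounded energy (helper350)

* `K_near` : the hypothesis of `near_total` for the offsets of the class `CNear`;
* `EnR_near_le` : the energy of the class `CNear`, any parameters with dyadic blocks;
* **`clsOK_near`** : `ClsOK γ CNear` in the form of `SpineDef_946`.
-/

set_option autoImplicit false

open Finset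

namespace Crest.Agent.R4C.ClsNearx350

open Crest.Agent.R4C.Basex935 Crest.Agent.R4C.PrefixMx882 Crest.Agent.R4C.CrCountx935
  Crest.Agent.R4C.CrCoinx935 Crest.Agent.R4C.Bridgex882 Crest.Agent.R4C.NearAbsx60
  Crest.Agent.R4C.NearBoostx60 Crest.Agent.R4C.FLDefx935 Crest.Agent.R4C.BoostCx972
  Crest.Agent.R4C.S7cx14 Crest.Agent.R4C.Rulex945 Crest.Agent.R4C.NearTotx360
  Crest.Agent.R4C.B3Rulex360 Crest.Agent.R4C.NearRulex360 Crest.Agent.R4C.Splitx945
  Crest.Agent.R4C.Spinex946 Crest.Agent.R4C.Sharedx11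

section rule

variable {M : ℕ} {F : FL M} {P : Par}

lemma inv_le_two {p : ℕ} (hp : p.Prime) : (1 - 1 / (p : ℝ))⁻¹ ≤ 2 := by
  have h2 : (2 : ℝ) ≤ p := by exact_mod_cast hp.two_le
  have h3 : 1 / (p : ℝ) ≤ 1 / 2 := one_div_le_one_div_of_le (by norm_num) h2
  have h4 : (1 / 2 : ℝ) ≤ 1 - 1 / (p : ℝ) := by linarith
  calc (1 - 1 / (p : ℝ))⁻¹ ≤ (1 / 2 : ℝ)⁻¹ := inv_anti₀ (by norm_num) h4
    _ = 2 := by norm_num

open Classical in
/-- the hypothesis of `near_total` for the class `CNear` -/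
theorem K_near (hY : ∀ i, P.Y i = 2 ^ i)
    (hthr : ∀ b i, P.thr b i ≤ Real.exp ((P.Y (i - 1) : ℝ) ^ (4 / 5 : ℝ))) (hL : 0 < P.L)
    (hcut : Monotone P.cut)
    (hM : 0 < M) {b c : ℕ} (hb : b ∣ M) (hc : c ∣ M) {h : ℤ} (hh : h ∈ Lnk P.γ P.L b c)
    (hN : CNear F P b c h) :
    ∏ p ∈ (P2 M (lamR F P) b c).filter (fun p : ℕ =>
      Real.exp ((max 1 (P.L / (Nat.gcd b c : ℕ))) ^ (1 / 8 : ℝ)) < (p : ℝ) ∧
      (p : ℤ) ∣ h - res (lamR F P) b c p), (1 - 1 / (p : ℝ))⁻¹ ≤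
      2 ^ (P.cut (2 * P.m0) + 1) * KB := by
  obtain ⟨_, l, hgood, hal, hl⟩ := hN
  have hb0 : 0 < b := Nat.pos_of_dvd_of_pos hb hM
  have hc0 : 0 < c := Nat.pos_of_dvd_of_pos hc hM
  set g := Nat.gcd b c with hg
  have hg0 : 0 < g := Nat.gcd_pos_of_pos_left c hb0
  have hgR : (0 : ℝ) < g := by exact_mod_cast hg0
  set s := b / g with hs
  set s' := c / g with hs'
  have hgs : g * s = b := Nat.mul_div_cancel' (Nat.gcd_dvd_left b c)
  have hgs' : g * s' = c := Nat.mul_div_cancel' (Nat.gcd_dvd_right b c)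
  have hs0 : 0 < s := Nat.pos_of_ne_zero fun h0 => by rw [h0, mul_zero] at hgs; omega
  have hcop : Nat.Coprime s s' := Nat.coprime_div_gcd_div_gcd hg0
  set X : ℝ := Real.exp ((max 1 (P.L / (g : ℕ))) ^ (1 / 8 : ℝ)) with hX
  have hXX : XX P.L g = X := rfl
  have hX1 : X1 P b c = X := rfl
  set N : ℕ := P.cut (2 * P.m0) with hNdef
  set y : ℝ := max X N with hy
  have hX2 : 2 < X := by rw [← hXX]; exact XX_gt _ _
  have hy2 : 2 < y := lt_of_lt_of_le hX2 (le_max_left _ _)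
  have hcl : (P.cut l : ℝ) ≤ y := by
    rcases hl with hl | hl
    · refine le_trans ?_ (le_max_right _ _)
      exact_mod_cast hcut hl
    · rw [hX1] at hl
      exact hl.trans (le_max_left _ _)
  have hlink : (g : ℝ) * |((s : ℝ) - s') * P.γ + h| ≤ P.L := by
    unfold Lnk at hh
    rw [mem_Hf] at hh
    have h1 := hh.le
    rw [le_div_iff₀ hgR] at h1
    rw [mul_comm]
    exact h1
  have hLg : P.L ≤ g * Real.exp (10 * y ^ (4 / 5 : ℝ)) := by
    have h1 := L_le_XX (L := P.L) hg0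
    rw [hXX] at h1
    refine h1.trans (mul_le_mul_of_nonneg_left (Real.exp_le_exp.2 ?_) hgR.le)
    have h2 : X ^ (4 / 5 : ℝ) ≤ y ^ (4 / 5 : ℝ) :=
      Real.rpow_le_rpow (by linarith) (le_max_left _ _) (by norm_num)
    linarith
  have hlab := isLab (F := F) (P := P)
  set S := (P2 M (lamR F P) b c).filter (fun p : ℕ => X < (p : ℝ) ∧
      (p : ℤ) ∣ h - res (lamR F P) b c p) with hS
  have hSp : ∀ p ∈ S, p.Prime := fun p hp => prime_P2 (mem_filter.1 hp).1
  have hpos : ∀ p ∈ S, 0 ≤ (1 - 1 / (p : ℝ))⁻¹ := fun p hp => (inv_pos' (hSp p hp)).le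
  rw [← prod_filter_mul_prod_filter_not S (fun p => p ≤ N)]
  refine mul_le_mul ?_ ?_ (prod_nonneg fun p hp => hpos p (mem_filter.1 hp).1) (by positivity)
  · -- small primes
    have hcard : (S.filter fun p => p ≤ N).card ≤ N + 1 := by
      refine (card_le_card (t := range (N + 1)) fun p hp => ?_).trans (card_range _).le
      rw [mem_range]
      have := (mem_filter.1 hp).2
      omega
    calc ∏ p ∈ S.filter (fun p => p ≤ N), (1 - 1 / (p : ℝ))⁻¹
        ≤ ∏ p ∈ S.filter (fun p => p ≤ N), (2 : ℝ) :=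
          prod_le_prod (fun p hp => hpos p (mem_filter.1 hp).1)
            fun p hp => inv_le_two (hSp p (mem_filter.1 hp).1)
      _ = 2 ^ (S.filter fun p => p ≤ N).card := by rw [prod_const]
      _ ≤ 2 ^ (N + 1) := pow_le_pow_right₀ (by norm_num) hcard
  · -- large primes
    refine B3_rule (F := F) hY hthr hL hM (g := g) (s := s) (s' := s') (by rw [hgs]; exact hb)
      (by rw [hgs']; exact hc) hs0 hcop h hlink hy2 hLg
      (x0 := P.cut l) hcl (by rw [hgs, hgs']; exact hgood) _ ?_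
    intro p hp
    rw [mem_filter, hS, mem_filter] at hp
    obtain ⟨⟨hp2, hpX, hpr⟩, hpN⟩ := hp
    have hpp := prime_P2 hp2
    have hyp : y < p := by
      rw [hy, max_lt_iff]
      refine ⟨hpX, ?_⟩
      have : N < p := not_le.1 hpN
      exact_mod_cast this
    unfold P2 at hp2
    rw [mem_filter] at hp2
    obtain ⟨hfree, h1, h2, h3, h4⟩ := hp2
    obtain ⟨a, ha⟩ := Option.ne_none_iff_exists'.1 h3
    obtain ⟨a', ha'⟩ := Option.ne_none_iff_exists'.1 h4
    obtain ⟨f, hf1, hf2, hf3⟩ := hlab.spec hpp ha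
    obtain ⟨f', hf1', hf2', hf3'⟩ := hlab.spec hpp ha'
    have hgap : gap f f' s s' h ≠ 0 := by
      intro h0
      have hmem : p ∈ alSet F P b c s s' h := by
        unfold alSet
        rw [mem_filter]
        exact ⟨hfree, f, f', hpp, h1, h2, hf1, hf1', hf2, hf2', h0⟩
      have h5 : p ≤ P.cut l := hal p hmem
      have h6 : (p : ℝ) ≤ P.cut l := by exact_mod_cast h5
      linarith
    refine ⟨hpp, hyp.le, f, f', by rw [hgs]; exact hf1, by rw [hgs']; exact hf1', hgap, ?_⟩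
    rw [← dvd_gap_iff_D0 hg0 hs0 hcop hpp hf2 hf2', ← class_iff_gap hpp hf2 hf2' hf3 hf3']
    unfold res at hpr
    rw [← hg, if_neg h2, if_neg h1, ha, ha', Option.getD_some, Option.getD_some] at hpr
    have e : h - (s : ℤ) * a + (s' : ℤ) * a' = h - ((s : ℤ) * a - (s' : ℤ) * a') := by ring
    rw [e]
    exact hpr

end rule

open Classical in
/-- **the energy of the class `CNear`** -/
theorem near_cls (m0 N : ℕ) : ∃ C : ℝ, 0 < C ∧ ∀ (M : ℕ) (F : FL M) (P : Par)
    (B : Finset ℕ), (∀ i, P.Y i = 2 ^ i) →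
    (∀ b i, P.thr b i ≤ Real.exp ((P.Y (i - 1) : ℝ) ^ (4 / 5 : ℝ))) → 0 < P.L → 0 < M →
    Monotone P.cut → P.m0 = m0 → P.cut (2 * P.m0) = N →
    B ⊆ M.divisors → P.L * ∑ b ∈ B, nu M b ≤ 1 →
    EnR P.γ P.L M B (lamR F P) (CNear F P) ≤ C * (P.L * ∑ b ∈ B, nu M b) := by
  obtain ⟨C, hC, H⟩ := near_total (T0 := 2 ^ m0) (one_le_pow₀ (by norm_num))
  have hKB : 0 < KB := by have := one_le_KB; linarith
  refine ⟨C * (2 ^ (N + 1) * KB), by positivity, ?_⟩
  intro M F P B hY hthr hL hM hcut hm0 hN hB hm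
  set E : ℕ → ℕ → Finset ℤ := fun b c => (Lnk P.γ P.L b c).filter fun h => ¬ CNear F P b c h
    with hE
  have h1 := H P.γ P.L M B (lamR F P) E (2 ^ (N + 1) * KB) hL hM hB hm (by positivity)
    fun b hb c hc _ _ h hh _ hhE => by
      have hN' : CNear F P b c h := by
        by_contra hcon
        exact hhE (mem_filter.2 ⟨hh, hcon⟩)
      have := K_near hY hthr hL hcut hM (Nat.dvd_of_mem_divisors (hB hb))
        (Nat.dvd_of_mem_divisors (hB hc)) hh hN'
      rw [hN] at this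
      exact this
  refine le_trans (le_of_eq ?_) h1
  unfold EnR
  congr 1
  refine sum_congr rfl fun b _ => ?_
  rw [← sum_filter_add_sum_filter_not (B.erase b)
    (fun c => (Nat.gcd b c : ℝ) ≤ 2 ^ m0 * P.L)]
  have h2 : ∑ c ∈ (B.erase b).filter (fun c => ¬ (Nat.gcd b c : ℝ) ≤ 2 ^ m0 * P.L),
      ((Nat.gcd b c : ℝ) * nu M b * nu M c *
        ∑ h ∈ (Lnk P.γ P.L b c).filter (fun h => ¬ killedB (lamR F P) b c h ∧ CNear F P b c h),
          boostB M (lamR F P) b c h) = 0 := by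
    refine sum_eq_zero fun c hc => ?_
    rw [mem_filter] at hc
    have h3 : (Lnk P.γ P.L b c).filter
        (fun h => ¬ killedB (lamR F P) b c h ∧ CNear F P b c h) = ∅ := by
      rw [filter_eq_empty_iff]
      rintro h _ ⟨_, h4⟩
      have h5 := h4.1
      rw [hm0] at h5
      exact hc.2 h5.le
    rw [h3, sum_empty, mul_zero]
  rw [h2, add_zero]
  refine sum_congr rfl fun c _ => ?_
  unfold EnE
  congr 1
  refine sum_congr ?_ fun _ _ => rfl
  ext h
  simp only [mem_filter, hE, not_and, not_not]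
  constructor
  · rintro ⟨h3, h4, h5⟩
    exact ⟨h3, h4, fun _ => h5⟩
  · rintro ⟨h3, h4, h5⟩
    exact ⟨h3, h4, h5 h3⟩

/-- **`CNear` is bounded** -/
theorem clsOK_near (γ : ℝ) :
    ClsOK γ (fun cp _ A m0 L M B F b c h => CNear F (ParOf cp A m0 γ L M B) b c h) := by
  refine Ev.basic.mono ?_
  rintro cp η A m0 -
  obtain ⟨C, hC, H⟩ := near_cls m0 (2 ^ (A * (2 * m0)))
  refine ⟨C, fun L M B F S => ?_⟩
  have h1 := H M F (ParOf cp A m0 γ L M B) B (fun _ => rfl) (fun b i => min_le_right _ _) S.hL S.hM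
    (fun i j hij => Nat.pow_le_pow_right (by norm_num) (Nat.mul_le_mul_left _ hij)) rfl rfl S.hB
    S.mass
  have h2 : C * (L * ∑ b ∈ B, nu M b) ≤ C * 1 := mul_le_mul_of_nonneg_left S.mass hC.le
  rw [mul_one] at h2
  exact le_trans h1 h2

end Crest.Agent.R4C.ClsNearx350
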