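import Crest.Agent.R4C.GWdef_982
import Crest.Agent.R4C.Rule_945

/-!
# Row 4, GW section: the prefix world of a core (helper982)

`inst F P G0 σ K1 c` : the world of the core `G0 ∈ cores F`: words `w ∣ PM F G0`, `b = G0 * w`,
cuts, shift and window of `P`, `i0 = max m0 (first index with D F G0 ≤ cut i)`,
`θ i = E i / 16`, `coin w p` = no label of the rule at `(G0 * w, p)`.
-/

set_option autoImplicit false

open Finset
open Crest.Agent.R4C.Basex935 Crest.Agent.R4C.Cutx50 Crest.Agent.R4C.PrefixMx882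
open Crest.Agent.R4C.FLDefx935 Crest.Agent.R4C.Rulex945 Crest.Agent.R4C.PureClsx863
open Crest.Agent.R4C.GWdefx982

namespace Crest.Agent.R4C.GWinstx982

variable {M : ℕ} (F : FL M) (P : Par)

/-- first index with `D F G0 ≤ cut i` -/
noncomputable def iD (G0 : ℕ) : ℕ := sInf {i | D F G0 ≤ P.cut i}

/-- the world of a core -/
noncomputable def inst (G0 : ℕ) (σ K1 c : ℝ) : World where
  N := PM F G0
  G0 := G0
  L := P.L
  cut := P.cut
  γ := P.γ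
  i0 := max P.m0 (iD F P G0)
  top := P.N
  θ := fun i => P.E i / 16
  σ := σ
  coin := fun w p => lamR F P (G0 * w) p = none
  K1 := K1
  c := c

variable {F P}

lemma D_le_cut {G0 i : ℕ} (hcut : Monotone P.cut) (hun : ∀ n, ∃ i, n ≤ P.cut i)
    (h : iD F P G0 ≤ i) : D F G0 ≤ P.cut i := by
  have h1 : ({i | D F G0 ≤ P.cut i} : Set ℕ).Nonempty := hun _
  exact (Nat.sInf_mem h1).trans (hcut h)

lemma iD_le {G0 i : ℕ} (h : D F G0 ≤ P.cut i) : iD F P G0 ≤ i := Nat.sInf_le h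

/-- at the node indices the pure gcd is `uu` -/
lemma uu_inst {G0 w i : ℕ} (hM : 0 < M) (hG : G0 ∈ cores F) (hw : w ∣ PM F G0)
    (h : D F G0 ≤ P.cut i) : F.uu (P.cut i) (G0 * w) = G0 * low (P.cut i) w := by
  rw [uu_class hM hG hw, uu_core_of_le hM hG h]

lemma lam_inst {G0 w i : ℕ} (hM : 0 < M) (hG : G0 ∈ cores F) (hw : w ∣ PM F G0)
    (h : D F G0 ≤ P.cut i) : F.lam (P.cut i) (G0 * w) = upp (P.cut i) w := by
  rw [lam_class hM hG hw, lam_core_of_le hM hG h, one_mul]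

theorem inst_ok {G0 : ℕ} {σ K1 c : ℝ} (hM : 0 < M) (hG : G0 ∈ cores F) (hL : 0 < P.L)
    (hcut : Monotone P.cut) (hcut2 : ∀ i, 2 ^ i ≤ P.cut i) (hm0 : 3 ≤ P.m0) (hN : (M : ℝ) / P.L ≤ P.N) (hσ : 0 ≤ σ)
    (hE : ∀ i, P.m0 ≤ i → 16 < P.E i) (hK1 : 1 ≤ K1) (hc : 0 < c) :
    (inst F P G0 σ K1 c).Ok where
  hN := PM_pos G0
  hG := Nat.pos_of_dvd_of_pos (mem_cores.1 hG).1.1 hM
  hL := hL
  hcut := hcut
  hcut2 := hcut2
  hi0 := hm0.trans (le_max_left _ _)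
  htop := by
    show ((G0 * PM F G0 : ℕ) : ℝ) < 2 ^ (P.N + 1) * P.L
    have h1 : G0 * PM F G0 ≤ M := Nat.le_of_dvd hM (mul_PM_dvd hM hG)
    have h2 : ((G0 * PM F G0 : ℕ) : ℝ) ≤ M := by exact_mod_cast h1
    have h3 : (M : ℝ) ≤ P.N * P.L := (div_le_iff₀ hL).1 hN
    have h4 : (P.N : ℝ) < 2 ^ (P.N + 1) := by
      have h5 : P.N < 2 ^ P.N := Nat.lt_two_pow_self
      have h6 : (P.N : ℝ) < 2 ^ P.N := by exact_mod_cast h5
      have h7 : (2 : ℝ) ^ P.N ≤ 2 ^ (P.N + 1) := pow_le_pow_right₀ (by norm_num) (by omega)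
      linarith
    have h8 : (P.N : ℝ) * P.L < 2 ^ (P.N + 1) * P.L := mul_lt_mul_of_pos_right h4 hL
    linarith
  hσ := hσ
  hθ := fun i hi => by
    show 1 < P.E i / 16
    have h1 := hE i ((le_max_left _ _).trans hi)
    linarith
  hK1 := hK1
  hc := hc

/-- node indices in the language of `F` -/
lemma nd_iff {G0 w i : ℕ} {σ K1 c : ℝ} (hM : 0 < M) (hG : G0 ∈ cores F) (hw : w ∣ PM F G0)
    (hcut : Monotone P.cut) (hun : ∀ n, ∃ i, n ≤ P.cut i) :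
    (inst F P G0 σ K1 c).nd i w ↔ P.m0 ≤ i ∧ D F G0 ≤ P.cut i ∧
      (2 : ℝ) ^ i * P.L ≤ F.uu (P.cut i) (G0 * w) ∧
      (F.uu (P.cut i) (G0 * w) : ℝ) < 2 ^ (i + 1) * P.L := by
  have key : D F G0 ≤ P.cut i → ((inst F P G0 σ K1 c).e i w : ℝ) = F.uu (P.cut i) (G0 * w) := by
    intro h
    rw [uu_inst hM hG hw h]
    rfl
  constructor
  · rintro ⟨h1, h2, h3⟩
    have h4 : P.m0 ≤ i := (le_max_left _ _).trans h1
    have h5 : D F G0 ≤ P.cut i := D_le_cut hcut hun ((le_max_right _ _).trans h1)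
    rw [key h5] at h2 h3
    exact ⟨h4, h5, h2, h3⟩
  · rintro ⟨h1, h2, h3, h4⟩
    rw [← key h2] at h3 h4
    exact ⟨max_le h1 (iD_le h2), h3, h4⟩

end Crest.Agent.R4C.GWinstx982
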