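import Crest.Agent.R4C.BoostAl_100
import Crest.Agent.R4C.PureCls_863
import Crest.Agent.R4C.GWinst_982
import Crest.Agent.Lib.Mertens

/-!
# Row 4, GW section (F3): the weight of a boosted pair (helper115)

* `weight` : pair of words of one core, equal letters `≤ X`, `gcd w w' = low X w`:
  `gcd * nu * nu * boostB ≤ K * B1 * nu0 * (nu w * nu w' / g) * min (WpC w) (WpC w')`;
* `split_pair` : a good pair at `X`, pure above `X`, equal letters `≤ X`, lies in one core;
* `weight_inst` : the weight in the world `inst F P G σ K1 c` at an index `i` of `FarA`;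
* `nd_far` : `i` is a node index of `w`; `Wp_anti`; `low_eq_of_one` : low word `(1,1)`.

* `lbc F P X b c` : the common missing primes `≤ X` at which BOTH members have a label;
* `pf_window` : `∏_{X < p ≤ Q} (1-1/p)⁻¹ ≤ exp (22/log X) log Q / log X`;
* `boost_fine` : pair good at `X`, aligned primes `≤ Q`:
  `boostB ≤ exp (100 (1 + Λ/X)) * (exp (22/log X) log Q/log X) * (B1 b c * ∏_{p ∈ lbc X} (1-1/p)⁻¹)`.
-/

set_option autoImplicit false

open Finset

namespace Crest.Agent.R4C.GWwtx115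

open Crest.Agent.R4C.Basex935 Crest.Agent.R4C.PrefixMx882 Crest.Agent.R4C.CrCountx935
  Crest.Agent.R4C.CrCoinx935 Crest.Agent.R4C.Bridgex882 Crest.Agent.R4C.FLDefx935
  Crest.Agent.R4C.BoostCx972 Crest.Agent.R4C.S7cx14 Crest.Agent.R4C.S7dx14
  Crest.Agent.R4C.Rulex945 Crest.Agent.R4C.BoostTopx19 Crest.Agent.R4C.Splitx945
  Crest.Agent.R4C.Cutx50

section boost

variable {M : ℕ} {F : FL M} {P : Par}

open Classical in
/-- common missing primes `≤ X`, labelled on both sides -/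
noncomputable def lbc (F : FL M) (P : Par) (X b c : ℕ) : Finset ℕ :=
  (prQ X).filter fun p => b.factorization p = c.factorization p ∧
    b.factorization p < M.factorization p ∧ lamR F P b p ≠ none ∧ lamR F P c p ≠ none

lemma mem_lbc {X b c p : ℕ} : p ∈ lbc F P X b c ↔ (p.Prime ∧ p ≤ X) ∧
    b.factorization p = c.factorization p ∧
    b.factorization p < M.factorization p ∧ lamR F P b p ≠ none ∧ lamR F P c p ≠ none := by
  unfold lbc prQ
  rw [mem_filter, mem_filter, mem_range, Nat.lt_succ_iff]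
  tauto

/-- Mertens in a window -/
lemma pf_window {X Q : ℕ} (hX : 2 ≤ X) (hQ : X ≤ Q) {S : Finset ℕ}
    (hS : ∀ p ∈ S, p.Prime ∧ X < p ∧ p ≤ Q) :
    ∏ p ∈ S, pf p ≤ Real.exp (22 / Real.log X) * (Real.log Q / Real.log X) := by
  have hX' : (2 : ℝ) ≤ X := by exact_mod_cast hX
  have hQ' : (X : ℝ) ≤ Q := by exact_mod_cast hQ
  have h1 := (Lib.Mertens.mertens_three (X : ℝ) (Q : ℝ) hX' hQ').1
  have hlx : 0 < Real.log X := Real.log_pos (by linarith)
  have hlN : 0 < Real.log Q := Real.log_pos (by linarith)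
  have hsub : ∏ p ∈ S, pf p ≤ ∏ p ∈ Lib.Mertens.pr (X : ℝ) (Q : ℝ), pf p := by
    refine prod_pf_mono ?_ ?_
    · intro p hp
      obtain ⟨h2, h3, h4⟩ := hS p hp
      rw [Lib.Mertens.mem_pr (by positivity) (by positivity)]
      exact ⟨⟨by exact_mod_cast h3, by exact_mod_cast h4⟩, h2⟩
    · intro p hp
      rw [Lib.Mertens.mem_pr (by positivity) (by positivity)] at hp
      exact hp.2
  refine hsub.trans ?_
  have e : ∏ p ∈ Lib.Mertens.pr (X : ℝ) (Q : ℝ), pf p =
      (∏ p ∈ Lib.Mertens.pr (X : ℝ) (Q : ℝ), (1 - 1 / (p : ℝ)))⁻¹ := by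
    unfold pf
    exact Finset.prod_inv_distrib _
  rw [e]
  have h2 : (∏ p ∈ Lib.Mertens.pr (X : ℝ) (Q : ℝ), (1 - 1 / (p : ℝ)))⁻¹ ≤
      (Real.exp (-(22 / Real.log X)) * (Real.log X / Real.log Q))⁻¹ :=
    inv_anti₀ (by positivity) h1
  refine h2.trans (le_of_eq ?_)
  rw [mul_inv, Real.exp_neg, inv_inv, inv_div]

lemma lab_of {q p : ℕ} (hp : p.Prime) {f : ℚ} (h1 : Fq F P q p = some f) (h2 : ¬ p ∣ f.den) :
    lamR F P (M / q) p ≠ none :=
  (ne_none_iff (isLabq (F := F) (P := P)) (q := q) hp).2 ⟨f, h1, h2⟩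

open Classical in
/-- **the fine boost**: below the cut `X` only the primes labelled on both sides are charged -/
theorem boost_fine (hM : 0 < M) {b c : ℕ} (hb : b ∣ M) (hc : c ∣ M) (hL : 0 < P.L)
    (hY : ∀ i, P.Y i = 2 ^ i)
    (hthr : ∀ b i, P.thr b i ≤ Real.exp ((P.Y (i - 1) : ℝ) ^ (4 / 5 : ℝ))) {X Q : ℕ} (hX : 2 ≤ X)
    (hXQ : X ≤ Q) (hgood : F.good X b c) {h : ℤ} (hl : h ∈ Lnk P.γ P.L b c)
    (hal : AlLe F P b c h Q) :
    boostB M (lamR F P) b c h ≤ Real.exp (100 * (1 + Lam P.L (Nat.gcd b c) / X)) *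
      (Real.exp (22 / Real.log X) * (Real.log Q / Real.log X)) *
      (PureL2x232.B1 b c * ∏ p ∈ lbc F P X b c, pf p) := by
  have hb0 : 0 < b := Nat.pos_of_dvd_of_pos hb hM
  have hc0 : 0 < c := Nat.pos_of_dvd_of_pos hc hM
  have hfar := prodN_far hM hb hc hL hY hthr hX hgood hl
  have hE := BoostAlx100.setE_le hM hb hc hal
  have eMb : M / (M / b) = b := Nat.div_div_self hb hM.ne'
  have eMc : M / (M / c) = c := Nat.div_div_self hc hM.ne'
  rw [boostB_eq hM hb hc]
  set g := Nat.gcd b c with hgdef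
  have hg : 0 < g := Nat.gcd_pos_of_pos_left _ hb0
  set s := b / g with hs
  set s' := c / g with hs'
  have eb : g * s = b := Nat.mul_div_cancel' (Nat.gcd_dvd_left _ _)
  have ec : g * s' = c := Nat.mul_div_cancel' (Nat.gcd_dvd_right _ _)
  have hs0 : 0 < s := Nat.pos_of_ne_zero fun h => by rw [h, mul_zero] at eb; omega
  have hs0' : 0 < s' := Nat.pos_of_ne_zero fun h => by rw [h, mul_zero] at ec; omega
  have hcop : Nat.Coprime s s' := Nat.coprime_div_gcd_div_gcd hg
  have h1 := BoostCx972.boost_le (isLabq (M := M) (F := F) (P := P)) (g := g) (q := M / b)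
    (q' := M / c) hg hs0 hs0' hcop h
  refine h1.trans ?_
  have eB1 : ∏ p ∈ (s * s').primeFactors, pf p = PureL2x232.B1 b c := rfl
  rw [eB1]
  set SN := setN (Fq F P) g (M / b) (M / c) s s' h with hSN
  set SE := setE (Fq F P) (M / b) (M / c) s s' h with hSE
  have hprN : ∀ p ∈ SN, p.Prime := fun p hp => prime_setN hp
  have hprE : ∀ p ∈ SE, p.Prime := fun p hp => prime_setE hp
  have hB1 : 0 ≤ PureL2x232.B1 b c := by
    rw [← eB1]
    exact (prod_pf_pos fun p hp => Nat.prime_of_mem_primeFactors hp).le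
  -- both labels exist at the primes of `SE`, `SN`
  have labE : ∀ p ∈ SE, b.factorization p = c.factorization p ∧
      b.factorization p < M.factorization p ∧ lamR F P b p ≠ none ∧ lamR F P c p ≠ none := by
    intro p hp
    have hpp := hprE p hp
    rw [hSE] at hp
    unfold setE at hp
    rw [mem_filter] at hp
    obtain ⟨h0, h2, h3, f, f', h4, h5, h6, h7, _⟩ := hp
    have h8 := common_fact hM hb hc h0 h2 h3
    have h9 := lab_of hpp h4 h6
    have h10 := lab_of hpp h5 h7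
    rw [eMb] at h9
    rw [eMc] at h10
    exact ⟨h8.1, h8.2, h9, h10⟩
  have labN : ∀ p ∈ SN, b.factorization p = c.factorization p ∧
      b.factorization p < M.factorization p ∧ lamR F P b p ≠ none ∧ lamR F P c p ≠ none := by
    intro p hp
    have hpp := hprN p hp
    rw [hSN] at hp
    unfold setN at hp
    rw [mem_filter] at hp
    obtain ⟨h0, h2, h3, f, f', h4, h5, h6, h7, _⟩ := hp
    have h8 := common_fact hM hb hc h0 h2 h3
    have h9 := lab_of hpp h4 h6
    have h10 := lab_of hpp h5 h7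
    rw [eMb] at h9
    rw [eMc] at h10
    exact ⟨h8.1, h8.2, h9, h10⟩
  -- split `SN` and `SE` at `X`
  have hsN : ∏ p ∈ SN, pf p = (∏ p ∈ SN.filter (fun p : ℕ => ((X + 1 : ℕ) : ℝ) ≤ (p : ℝ)), pf p) *
      ∏ p ∈ SN.filter (fun p : ℕ => ¬ ((X + 1 : ℕ) : ℝ) ≤ (p : ℝ)), pf p :=
    (Finset.prod_filter_mul_prod_filter_not _ _ _).symm
  have hsE : ∏ p ∈ SE, pf p = (∏ p ∈ SE.filter (fun p : ℕ => X < p), pf p) *
      ∏ p ∈ SE.filter (fun p : ℕ => ¬ X < p), pf p :=
    (Finset.prod_filter_mul_prod_filter_not _ _ _).symm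
  have hwin : ∏ p ∈ SE.filter (fun p : ℕ => X < p), pf p ≤
      Real.exp (22 / Real.log X) * (Real.log Q / Real.log X) := by
    refine pf_window hX hXQ fun p hp => ?_
    rw [mem_filter] at hp
    exact ⟨hprE p hp.1, hp.2, hE p hp.1⟩
  have hlow : (∏ p ∈ SE.filter (fun p : ℕ => ¬ X < p), pf p) *
      ∏ p ∈ SN.filter (fun p : ℕ => ¬ ((X + 1 : ℕ) : ℝ) ≤ (p : ℝ)), pf p ≤
      ∏ p ∈ lbc F P X b c, pf p := by
    rw [← Finset.prod_union]
    · refine prod_pf_mono ?_ ?_
      · intro p hp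
        rw [mem_union] at hp
        rw [mem_lbc]
        rcases hp with hp | hp
        · rw [mem_filter] at hp
          exact ⟨⟨hprE p hp.1, not_lt.1 hp.2⟩, labE p hp.1⟩
        · rw [mem_filter] at hp
          have hpX : p ≤ X := by
            have h5 := hp.2
            rw [not_le] at h5
            have : p < X + 1 := by exact_mod_cast h5
            omega
          exact ⟨⟨hprN p hp.1, hpX⟩, labN p hp.1⟩
      · intro p hp
        exact (mem_lbc.1 hp).1.1
    · exact Disjoint.mono (Finset.filter_subset _ _) (Finset.filter_subset _ _)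
        (disj_EN _ _ _ _ _ _ _)
  have p1 : 0 ≤ ∏ p ∈ SN.filter (fun p : ℕ => ((X + 1 : ℕ) : ℝ) ≤ (p : ℝ)), pf p :=
    (prod_pf_pos fun p hp => hprN p (mem_filter.1 hp).1).le
  have p2 : 0 ≤ ∏ p ∈ SN.filter (fun p : ℕ => ¬ ((X + 1 : ℕ) : ℝ) ≤ (p : ℝ)), pf p :=
    (prod_pf_pos fun p hp => hprN p (mem_filter.1 hp).1).le
  have p3 : 0 ≤ ∏ p ∈ SE.filter (fun p : ℕ => X < p), pf p :=
    (prod_pf_pos fun p hp => hprE p (mem_filter.1 hp).1).le
  have p4 : 0 ≤ ∏ p ∈ SE.filter (fun p : ℕ => ¬ X < p), pf p :=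
    (prod_pf_pos fun p hp => hprE p (mem_filter.1 hp).1).le
  have hX' : (2 : ℝ) ≤ X := by exact_mod_cast hX
  have hQ' : (X : ℝ) ≤ Q := by exact_mod_cast hXQ
  have hlx : 0 < Real.log X := Real.log_pos (by linarith)
  have hlN : 0 < Real.log Q := Real.log_pos (by linarith)
  rw [hsN, hsE]
  set a1 := ∏ p ∈ SN.filter (fun p : ℕ => ((X + 1 : ℕ) : ℝ) ≤ (p : ℝ)), pf p with ha1
  set a2 := ∏ p ∈ SN.filter (fun p : ℕ => ¬ ((X + 1 : ℕ) : ℝ) ≤ (p : ℝ)), pf p with ha2
  set a3 := ∏ p ∈ SE.filter (fun p : ℕ => X < p), pf p with ha3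
  set a4 := ∏ p ∈ SE.filter (fun p : ℕ => ¬ X < p), pf p with ha4
  calc PureL2x232.B1 b c * (a3 * a4) * (a1 * a2) = a1 * a3 * (PureL2x232.B1 b c * (a4 * a2)) := by
        ring
    _ ≤ _ := by
        refine mul_le_mul (mul_le_mul hfar hwin p3 (Real.exp_pos _).le)
          (mul_le_mul_of_nonneg_left hlow hB1) (mul_nonneg hB1 (mul_nonneg p4 p2)) ?_
        positivity

end boost

/-! ### measures -/

/-- `n φ(m/n)/m` as a product -/
lemma tot_ratio {m : ℕ} (hm : 0 < m) :
    ((m.totient : ℕ) : ℝ) / (m : ℝ) = ∏ p ∈ m.primeFactors, (1 - 1 / (p : ℝ)) := by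
  have h := Nat.totient_eq_mul_prod_factors m
  have h' : ((m.totient : ℕ) : ℝ) = (m : ℝ) * ∏ p ∈ m.primeFactors, (1 - (p : ℝ)⁻¹) := by
    have h2 := congrArg (fun x : ℚ => (x : ℝ)) h
    push_cast at h2
    exact h2
  have hm0 : (m : ℝ) ≠ 0 := by exact_mod_cast hm.ne'
  rw [h', mul_div_assoc, mul_comm, div_mul_cancel₀ _ hm0]
  refine prod_congr rfl fun p _ => ?_
  rw [one_div]

section world

variable {M : ℕ} {F : FL M} {P : Par}

open Crest.Agent.R4C.PureClsx863

open Classical in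
/-- product of the coins `≤ X` of the word `w` of the core `G` -/
noncomputable def WpC (F : FL M) (P : Par) (G X w : ℕ) : ℝ :=
  ∏ p ∈ (free (PM F G) w).filter fun p => 0 < p ∧ p ≤ X ∧ lamR F P (G * w) p = none,
    (1 - 1 / (p : ℝ))

lemma VR_eq {G : ℕ} (hM : 0 < M) (hG : G ∈ cores F) :
    VR F G = ∏ p ∈ (RR F G).primeFactors, (1 - 1 / (p : ℝ)) := by
  unfold VR
  exact tot_ratio (RR_pos hM hG)

/-- free primes of a word of the class -/
lemma free_class {G w p : ℕ} (hM : 0 < M) (hG : G ∈ cores F) (hw : w ∣ PM F G)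
    (hp : p ∈ free M (G * w)) : p ∈ (RR F G).primeFactors ∨ p ∈ free (PM F G) w := by
  rw [mem_free] at hp
  obtain ⟨hpM, hlt⟩ := hp
  have hpp := Nat.prime_of_mem_primeFactors hpM
  have hG0 : 0 < G := Nat.pos_of_dvd_of_pos (mem_cores.1 hG).1.1 hM
  have hw0 : 0 < w := Nat.pos_of_dvd_of_pos hw (PM_pos G)
  have hR := RR_pos hM hG
  have hc := cof hM hG
  have e1 : M.factorization p = G.factorization p + (PM F G).factorization p +
      (RR F G).factorization p := by
    have e0 := congrArg (fun n => n.factorization p) hc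
    rw [Nat.factorization_mul (Nat.mul_pos hG0 (PM_pos G)).ne' hR.ne',
      Nat.factorization_mul hG0.ne' (PM_pos (F := F) G).ne'] at e0
    exact e0.symm
  have e2 : (G * w).factorization p = G.factorization p + w.factorization p := by
    rw [Nat.factorization_mul hG0.ne' hw0.ne']
    rfl
  by_cases h : p ∣ RR F G
  · exact Or.inl (Nat.mem_primeFactors.2 ⟨hpp, h, hR.ne'⟩)
  · right
    have e3 : (RR F G).factorization p = 0 := Nat.factorization_eq_zero_of_not_dvd h
    rw [mem_free]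
    refine ⟨?_, by omega⟩
    refine Nat.mem_primeFactors.2 ⟨hpp, ?_, (PM_pos G).ne'⟩
    by_contra h4
    have e4 : (PM F G).factorization p = 0 := Nat.factorization_eq_zero_of_not_dvd h4
    omega

lemma prod_one_sub_le {S T : Finset ℕ} (h : S ⊆ T) :
    ∏ p ∈ T, (1 - 1 / (p : ℝ)) ≤ ∏ p ∈ S, (1 - 1 / (p : ℝ)) := by
  classical
  rw [← prod_sdiff h]
  have h1 : ∏ p ∈ T \ S, (1 - 1 / (p : ℝ)) ≤ 1 :=
    prod_le_one (fun p _ => one_sub_nonneg p) fun p _ => one_sub_le_one p
  have h2 : 0 ≤ ∏ p ∈ S, (1 - 1 / (p : ℝ)) := prod_nonneg fun p _ => one_sub_nonneg p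
  nlinarith

open Classical in
/-- cancellation: `∏_{T}(1-1/p) ∏_{S}(1-1/p)⁻¹ ≤ ∏_{U}(1-1/p)`, `S, U ⊆ T` disjoint -/
lemma cancel {S T U : Finset ℕ} (hT : ∀ p ∈ T, p.Prime) (hS : S ⊆ T) (hU : U ⊆ T)
    (hd : Disjoint S U) :
    (∏ p ∈ T, (1 - 1 / (p : ℝ))) * ∏ p ∈ S, pf p ≤ ∏ p ∈ U, (1 - 1 / (p : ℝ)) := by
  have h1 : U ⊆ T \ S := fun p hp => mem_sdiff.2 ⟨hU hp, fun h => disjoint_left.1 hd h hp⟩
  refine le_trans (le_of_eq ?_) (prod_one_sub_le h1)
  rw [← prod_sdiff hS, mul_assoc, ← prod_mul_distrib]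
  have : ∏ p ∈ S, (1 - 1 / (p : ℝ)) * pf p = 1 := by
    refine prod_eq_one fun p hp => ?_
    unfold pf
    exact mul_inv_cancel₀ (one_sub_inv_pos (hT p (hS hp))).ne'
  rw [this, mul_one]

/-- `n ν_{low X N}(n)` -/
lemma low_mass {N w X : ℕ} (hN : 0 < N) (hw : w ∣ N) :
    (low X w : ℝ) * nu (low X N) (low X w) =
      ∏ p ∈ (free N w).filter (fun p => p ≤ X), (1 - 1 / (p : ℝ)) := by
  have hw0 : 0 < w := Nat.pos_of_dvd_of_pos hw hN
  have hl : low X w ∣ low X N := low_dvd X hN.ne' hw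
  have hl0 := low_pos X w
  have hL0 := low_pos X N
  have hq0 : 0 < low X N / low X w := Nat.div_pos (Nat.le_of_dvd hL0 hl) hl0
  have e1 : (low X w : ℝ) * nu (low X N) (low X w) =
      (((low X N / low X w).totient : ℕ) : ℝ) / ((low X N / low X w : ℕ) : ℝ) := by
    unfold nu
    have h1 : (low X w : ℝ) ≠ 0 := by exact_mod_cast hl0.ne'
    have h2 : (low X N : ℝ) ≠ 0 := by exact_mod_cast hL0.ne'
    rw [Nat.cast_div hl h1]
    field_simp
  rw [e1, tot_ratio hq0]
  refine prod_congr ?_ fun _ _ => rfl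
  ext p
  rw [mem_filter, mem_free]
  constructor
  · intro hp
    have hpp := Nat.prime_of_mem_primeFactors hp
    have h1 : 0 < (low X N / low X w).factorization p := by
      rw [← Nat.support_factorization, Finsupp.mem_support_iff] at hp
      omega
    rw [Nat.factorization_div hl, Finsupp.tsub_apply, fact_low, fact_low] at h1
    by_cases hpX : p ≤ X
    · rw [if_pos hpX, if_pos hpX] at h1
      refine ⟨⟨?_, by omega⟩, hpX⟩
      refine Nat.mem_primeFactors.2 ⟨hpp, ?_, hN.ne'⟩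
      by_contra h4
      have e4 : N.factorization p = 0 := Nat.factorization_eq_zero_of_not_dvd h4
      omega
    · rw [if_neg hpX, if_neg hpX] at h1
      omega
  · rintro ⟨⟨hp, hlt⟩, hpX⟩
    have hpp := Nat.prime_of_mem_primeFactors hp
    rw [← Nat.support_factorization, Finsupp.mem_support_iff, Nat.factorization_div hl,
      Finsupp.tsub_apply, fact_low, fact_low, if_pos hpX, if_pos hpX]
    omega

/-- **the mass below the cut with the labelled primes cancelled** -/
theorem mass_le {G w : ℕ} (hM : 0 < M) (hG : G ∈ cores F) (hw : w ∣ PM F G) (X : ℕ)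
    {S : Finset ℕ} (hS : ∀ p ∈ S, p ≤ X ∧ p ∈ free M (G * w) ∧ lamR F P (G * w) p ≠ none) :
    VR F G * ((low X w : ℝ) * nu (low X (PM F G)) (low X w)) * ∏ p ∈ S, pf p ≤
      WpC F P G X w := by
  classical
  rw [low_mass (PM_pos G) hw, VR_eq hM hG]
  have hdis : Disjoint (RR F G).primeFactors ((free (PM F G) w).filter (fun p => p ≤ X)) := by
    refine Disjoint.mono_right (filter_subset _ _) ?_
    refine Disjoint.mono_right (fun p hp => (mem_free.1 hp).1) ?_
    exact Nat.Coprime.disjoint_primeFactors (coprime_RR hM hG)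
  rw [← prod_union hdis]
  unfold WpC
  refine cancel ?_ ?_ ?_ ?_
  · intro p hp
    rcases mem_union.1 hp with h | h
    · exact Nat.prime_of_mem_primeFactors h
    · exact Nat.prime_of_mem_primeFactors (mem_free.1 (mem_filter.1 h).1).1
  · intro p hp
    obtain ⟨h1, h2, h3⟩ := hS p hp
    rcases free_class hM hG hw h2 with h4 | h4
    · exact mem_union_left _ h4
    · exact mem_union_right _ (mem_filter.2 ⟨h4, h1⟩)
  · intro p hp
    rw [mem_filter] at hp
    exact mem_union_right _ (mem_filter.2 ⟨hp.1, hp.2.2.1⟩)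
  · rw [disjoint_left]
    intro p hp hp'
    rw [mem_filter] at hp'
    exact (hS p hp).2.2 hp'.2.2.2

/-- **(F3) THE WEIGHT of a pair of words of one core with the same letters `≤ X`** -/
theorem weight {G w w' : ℕ} (hM : 0 < M) (hG : G ∈ cores F) (hw : w ∣ PM F G)
    (hw' : w' ∣ PM F G) {X Q : ℕ} (hX : 2 ≤ X) (hXQ : X ≤ Q)
    (hn : Nat.gcd w w' = low X w) (hn' : low X w' = low X w) (hL : 0 < P.L)
    (hY : ∀ i, P.Y i = 2 ^ i)
    (hthr : ∀ b i, P.thr b i ≤ Real.exp ((P.Y (i - 1) : ℝ) ^ (4 / 5 : ℝ)))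
    (hgood : F.good X (G * w) (G * w')) {h : ℤ} (hl : h ∈ Lnk P.γ P.L (G * w) (G * w'))
    (hal : AlLe F P (G * w) (G * w') h Q) :
    (Nat.gcd (G * w) (G * w') : ℝ) * nu M (G * w) * nu M (G * w') *
        boostB M (lamR F P) (G * w) (G * w') h ≤
      Real.exp (100 * (1 + Lam P.L (Nat.gcd (G * w) (G * w')) / X)) *
        (Real.exp (22 / Real.log X) * (Real.log Q / Real.log X)) *
        PureL2x232.B1 (G * w) (G * w') * (nu0 F G *
        (nu (PM F G) w * nu (PM F G) w' / nu (low X (PM F G)) (low X w)) *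
        min (WpC F P G X w) (WpC F P G X w')) := by
  classical
  have hb : G * w ∣ M := mul_dvd hM hG hw
  have hc : G * w' ∣ M := mul_dvd hM hG hw'
  have hG0 : 0 < G := Nat.pos_of_dvd_of_pos (mem_cores.1 hG).1.1 hM
  have hN := PM_pos (F := F) G
  have hfine := boost_fine hM hb hc hL hY hthr hX hXQ hgood hl hal
  have hg0 : 0 < nu (low X (PM F G)) (low X w) := nu_pos (low_pos _ _) (low_dvd X hN.ne' hw)
  set K := Real.exp (100 * (1 + Lam P.L (Nat.gcd (G * w) (G * w')) / X)) *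
        (Real.exp (22 / Real.log X) * (Real.log Q / Real.log X)) with hK
  have hX' : (2 : ℝ) ≤ X := by exact_mod_cast hX
  have hQ' : (X : ℝ) ≤ Q := by exact_mod_cast hXQ
  have hlx : 0 < Real.log X := Real.log_pos (by linarith)
  have hlN : 0 < Real.log Q := Real.log_pos (by linarith)
  have hK0 : 0 ≤ K := by positivity
  have hB0 : 0 ≤ PureL2x232.B1 (G * w) (G * w') := BoostAlx100.B1_nonneg _ _
  set pr := ∏ p ∈ lbc F P X (G * w) (G * w'), pf p with hpr
  -- the labelled primes are admissible for both words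
  have m1 : VR F G * ((low X w : ℝ) * nu (low X (PM F G)) (low X w)) * pr ≤ WpC F P G X w := by
    refine mass_le hM hG hw X fun p hp => ?_
    obtain ⟨⟨h1, h2⟩, h3, h4, h5, h6⟩ := mem_lbc.1 hp
    refine ⟨h2, mem_free.2 ⟨?_, h4⟩, h5⟩
    refine Nat.mem_primeFactors.2 ⟨h1, ?_, hM.ne'⟩
    by_contra h7
    have := Nat.factorization_eq_zero_of_not_dvd h7
    omega
  have m2 : VR F G * ((low X w : ℝ) * nu (low X (PM F G)) (low X w)) * pr ≤ WpC F P G X w' := by
    rw [← hn']
    refine mass_le hM hG hw' X fun p hp => ?_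
    obtain ⟨⟨h1, h2⟩, h3, h4, h5, h6⟩ := mem_lbc.1 hp
    rw [h3] at h4
    refine ⟨h2, mem_free.2 ⟨?_, h4⟩, h6⟩
    refine Nat.mem_primeFactors.2 ⟨h1, ?_, hM.ne'⟩
    by_contra h7
    have := Nat.factorization_eq_zero_of_not_dvd h7
    omega
  have e1 : (Nat.gcd (G * w) (G * w') : ℝ) * nu M (G * w) * nu M (G * w') =
      VR F G * nu0 F G * ((low X w : ℝ) * (nu (PM F G) w * nu (PM F G) w')) := by
    rw [Nat.gcd_mul_left, hn, nu_class hM hG hw, nu_class hM hG hw', ← mul_nu0 hM hG]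
    push_cast
    ring
  have h0 : 0 ≤ nu0 F G := nu0_nonneg G
  have hw1 : 0 ≤ nu (PM F G) w := nu_nonneg _ _
  have hw2 : 0 ≤ nu (PM F G) w' := nu_nonneg _ _
  have hR0 := VR_nonneg (F := F) G
  rw [e1]
  calc VR F G * nu0 F G * ((low X w : ℝ) * (nu (PM F G) w * nu (PM F G) w')) *
        boostB M (lamR F P) (G * w) (G * w') h
      ≤ VR F G * nu0 F G * ((low X w : ℝ) * (nu (PM F G) w * nu (PM F G) w')) *
        (K * (PureL2x232.B1 (G * w) (G * w') * pr)) :=
        mul_le_mul_of_nonneg_left hfine (by positivity)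
    _ = K * PureL2x232.B1 (G * w) (G * w') * (nu0 F G *
        (nu (PM F G) w * nu (PM F G) w' / nu (low X (PM F G)) (low X w)) *
        (VR F G * ((low X w : ℝ) * nu (low X (PM F G)) (low X w)) * pr)) := by
        field_simp
    _ ≤ _ := by
        refine mul_le_mul_of_nonneg_left ?_ (mul_nonneg hK0 hB0)
        refine mul_le_mul_of_nonneg_left (le_min m1 m2) ?_
        positivity

/-! ### a pure pair with equal low letters lies in one core -/

lemma low_fact_eq {b c X p : ℕ} (h : low X b = low X c) (hp : p ≤ X) :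
    b.factorization p = c.factorization p := by
  have h1 := congrArg (fun n => n.factorization p) h
  simp only [fact_low, if_pos hp] at h1
  exact h1

lemma low_eq_of_fact {b c X : ℕ} (h : ∀ p, p ≤ X → b.factorization p = c.factorization p) :
    low X b = low X c := by
  refine Nat.eq_of_factorization_eq (low_pos X b).ne' (low_pos X c).ne' fun p => ?_
  rw [fact_low, fact_low]
  by_cases hp : p ≤ X
  · rw [if_pos hp, if_pos hp, h p hp]
  · rw [if_neg hp, if_neg hp]

/-- low word `(1,1)` -/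
lemma low_eq_of_one {b c X : ℕ} (hb : 0 < b) (hc : 0 < c) (h1 : low X (b / Nat.gcd b c) = 1)
    (h2 : low X (c / Nat.gcd b c) = 1) : low X b = low X c := by
  refine low_eq_of_fact fun p hp => ?_
  have hg : 0 < Nat.gcd b c := Nat.gcd_pos_of_pos_left _ hb
  have e1 : (b / Nat.gcd b c).factorization p = 0 := by
    have h3 := congrArg (fun n => n.factorization p) h1
    simp only [fact_low, if_pos hp, Nat.factorization_one] at h3
    simpa using h3
  have e2 : (c / Nat.gcd b c).factorization p = 0 := by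
    have h3 := congrArg (fun n => n.factorization p) h2
    simp only [fact_low, if_pos hp, Nat.factorization_one] at h3
    simpa using h3
  have hs0 : b / Nat.gcd b c ≠ 0 :=
    (Nat.div_pos (Nat.le_of_dvd hb (Nat.gcd_dvd_left _ _)) hg).ne'
  have hs0' : c / Nat.gcd b c ≠ 0 :=
    (Nat.div_pos (Nat.le_of_dvd hc (Nat.gcd_dvd_right _ _)) hg).ne'
  have f1 := congrArg (fun n => n.factorization p) (Nat.mul_div_cancel' (Nat.gcd_dvd_left b c))
  have f2 := congrArg (fun n => n.factorization p) (Nat.mul_div_cancel' (Nat.gcd_dvd_right b c))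
  simp only [Nat.factorization_mul hg.ne' hs0, Nat.factorization_mul hg.ne' hs0',
    Finsupp.add_apply, e1, e2] at f1 f2
  omega

lemma no_dfc_of_ell {b p X : ℕ} (hM : 0 < M) (hb : b ∣ M) (h : F.ell X b = 1) (hp : p.Prime)
    (hX : X < p) : ¬ dfc F b p := by
  rintro ⟨v, hv, hlt⟩
  have h1 := FL.dvd_ell hM hb hp hX hv hlt
  rw [h] at h1
  exact hp.one_lt.ne' (Nat.dvd_one.1 h1)

lemma D_le_of_ell {b X : ℕ} (hM : 0 < M) (hb : b ∣ M) (h : F.ell X b = 1) : D F b ≤ X := by
  classical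
  unfold D
  refine Finset.sup_le fun p hp => ?_
  rw [mem_filter] at hp
  by_contra hc
  exact no_dfc_of_ell hM hb h (Nat.prime_of_mem_primeFactors hp.1) (not_le.1 hc) hp.2

/-- **a pure pair with equal letters `≤ X`** -/
theorem split_pair {b c X : ℕ} (hM : 0 < M) (hb : b ∣ M) (hc : c ∣ M) (hne : b ≠ c)
    (hg : F.good X b c) (hlow : low X b = low X c) (h1 : F.ell X b = 1) (h2 : F.ell X c = 1) :
    ∃ G ∈ cores F, ∃ w w', w ∣ PM F G ∧ w' ∣ PM F G ∧ b = G * w ∧ c = G * w' ∧ D F G ≤ X ∧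
      Nat.gcd w w' = low X w ∧ low X w' = low X w := by
  have hpg := PureL2x232.pureG_of_good F hb hc hM hne hg hlow h1 h2
  have hcore := pureG_core hM hb hc hpg
  have hG := core_mem (F := F) hM hb
  have hw : wd F b ∣ PM F (core F b) := wd_dvd hM hb
  have hw' : wd F c ∣ PM F (core F b) := by rw [hcore]; exact wd_dvd hM hc
  have eb : core F b * wd F b = b := core_mul_wd hM hb
  have ec : core F b * wd F c = c := by rw [hcore]; exact core_mul_wd hM hc
  have hD : D F (core F b) ≤ X := by rw [D_core hM hb]; exact D_le_of_ell hM hb h1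
  have hlw : ∀ p, p ≤ X → (wd F c).factorization p = (wd F b).factorization p := by
    intro p hp
    have h3 := low_fact_eq hlow hp
    have e1 := fact_mul_word hM hG hw p
    have e2 := fact_mul_word hM hG hw' p
    rw [eb] at e1
    rw [ec] at e2
    omega
  refine ⟨core F b, hG, wd F b, wd F c, hw, hw', eb.symm, ec.symm, hD, ?_, low_eq_of_fact hlw⟩
  have hwb : 0 < wd F b := wd_pos b
  have hwc : 0 < wd F c := wd_pos c
  refine Nat.eq_of_factorization_eq (Nat.gcd_pos_of_pos_left _ hwb).ne' (low_pos _ _).ne'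
    fun p => ?_
  rw [Nat.factorization_gcd hwb.ne' hwc.ne', Finsupp.inf_apply, fact_low]
  by_cases hp : p ≤ X
  · rw [if_pos hp, hlw p hp]
    exact min_self _
  · rw [if_neg hp]
    rw [not_le] at hp
    by_cases hpp : p.Prime
    · cases hct : F.ctr (core F b) p with
      | none =>
        have h3 := fact_word (p := p) hw
        rw [fact_PM_none hct] at h3
        have h4 : (wd F b).factorization p = 0 := Nat.le_zero.1 h3
        rw [h4]
        exact Nat.zero_min _
      | some v =>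
        have hGv := G_fact_some hM hG hpp (lt_of_le_of_lt hD hp) hct
        have hctb : F.ctr b p = some v := by
          have h5 := ctr_mul (F := F) hM hG hw hpp
          rw [eb] at h5
          rw [h5, hct]
        have e1 := fact_mul_word hM hG hw p
        have e2 := fact_mul_word hM hG hw' p
        rw [eb] at e1
        rw [ec] at e2
        rcases hg.2 p hpp hp v hctb with h6 | h6
        · have h7 : (wd F b).factorization p = 0 := by omega
          rw [h7]
          exact Nat.zero_min _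
        · have h7 : (wd F c).factorization p = 0 := by omega
          rw [h7]
          exact Nat.min_zero _
    · rw [Nat.factorization_eq_zero_of_not_prime _ hpp, Nat.factorization_eq_zero_of_not_prime _ hpp]
      rfl

/-! ### the world -/

open Crest.Agent.R4C.GWdefx982 Crest.Agent.R4C.GWinstx982

lemma Wp_anti {Z : World} {a b b' w : ℕ} (h : b ≤ b') : Z.Wp a b' w ≤ Z.Wp a b w := by
  classical
  unfold World.Wp
  refine prod_one_sub_le fun p hp => ?_
  rw [mem_filter] at hp ⊢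
  exact ⟨hp.1, hp.2.1, hp.2.2.1.trans h, hp.2.2.2⟩

lemma WpC_inst {G i w : ℕ} {σ K1 c : ℝ} :
    WpC F P G (P.cut i) w = (inst F P G σ K1 c).Wp 0 ((inst F P G σ K1 c).cut i) w := by
  classical
  unfold WpC World.Wp
  refine prod_congr ?_ fun _ _ => rfl
  ext p
  simp only [mem_filter]
  exact Iff.rfl

lemma g_inst {G i w : ℕ} {σ K1 c : ℝ} :
    (inst F P G σ K1 c).g ((inst F P G σ K1 c).lab i w) =
      nu (low (P.cut i) (PM F G)) (low (P.cut i) w) := rfl

/-- the absolute constant -/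
noncomputable def C3 : ℝ := Real.exp 200 * (Real.exp (22 / Real.log 2) * 2)

lemma C3_pos : 0 < C3 := by unfold C3; positivity

lemma K_le {A i : ℕ} (hcut : ∀ m, P.cut m = 2 ^ (A * m)) (hA : 1 ≤ A) (hi : 1 ≤ i) {g : ℝ}
    (hg : 0 < g) (hLg : P.L ≤ g) :
    Real.exp (100 * (1 + Lam P.L g / (P.cut i : ℕ))) *
      (Real.exp (22 / Real.log (P.cut i : ℕ)) *
        (Real.log (P.cut (2 * i) : ℕ) / Real.log (P.cut i : ℕ))) ≤ C3 := by
  have hX2 : 2 ≤ P.cut i := by
    rw [hcut]
    calc 2 = 2 ^ 1 := by norm_num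
      _ ≤ 2 ^ (A * i) := Nat.pow_le_pow_right (by norm_num) (Nat.mul_pos hA hi)
  have hl2 : 0 < Real.log 2 := Real.log_pos (by norm_num)
  have hX2' : (2 : ℝ) ≤ (P.cut i : ℕ) := by exact_mod_cast hX2
  have hlog : Real.log 2 ≤ Real.log (P.cut i : ℕ) := Real.log_le_log (by norm_num) hX2'
  have hlogp : 0 < Real.log (P.cut i : ℕ) := hl2.trans_le hlog
  have h1 := Lam_far hg hLg hX2
  have h2 : Real.log (P.cut (2 * i) : ℕ) / Real.log (P.cut i : ℕ) = 2 := by
    rw [div_eq_iff hlogp.ne', hcut, hcut]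
    push_cast
    rw [Real.log_pow, Real.log_pow]
    push_cast
    ring
  rw [h2]
  unfold C3
  refine mul_le_mul (Real.exp_le_exp.2 (by linarith)) ?_ (by positivity) (Real.exp_pos _).le
  refine mul_le_mul_of_nonneg_right (Real.exp_le_exp.2 ?_) (by norm_num)
  exact div_le_div_of_nonneg_left (by norm_num) hl2 hlog

/-- **(F3) in the world of the core** -/
theorem weight_inst {G w w' A i : ℕ} {σ K1 c : ℝ} (hM : 0 < M) (hG : G ∈ cores F)
    (hw : w ∣ PM F G) (hw' : w' ∣ PM F G) (hcut : ∀ m, P.cut m = 2 ^ (A * m)) (hA : 1 ≤ A)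
    (hi : 1 ≤ i) (hL : 0 < P.L) (hY : ∀ i, P.Y i = 2 ^ i)
    (hthr : ∀ b i, P.thr b i ≤ Real.exp ((P.Y (i - 1) : ℝ) ^ (4 / 5 : ℝ)))
    (hn : Nat.gcd w w' = low (P.cut i) w) (hn' : low (P.cut i) w' = low (P.cut i) w)
    {h : ℤ} (hfar : FarA F P i (G * w) (G * w') h) (hl : h ∈ Lnk P.γ P.L (G * w) (G * w')) :
    (Nat.gcd (G * w) (G * w') : ℝ) * nu M (G * w) * nu M (G * w') *
        boostB M (lamR F P) (G * w) (G * w') h ≤
      C3 * PureL2x232.B1 (G * w) (G * w') * (nu0 F G *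
        (nu (inst F P G σ K1 c).N w * nu (inst F P G σ K1 c).N w' /
          (inst F P G σ K1 c).g ((inst F P G σ K1 c).lab i w)) *
        min ((inst F P G σ K1 c).Wp 0 ((inst F P G σ K1 c).cut i) w)
          ((inst F P G σ K1 c).Wp 0 ((inst F P G σ K1 c).cut i) w')) := by
  rw [← WpC_inst (F := F) (P := P) (G := G) (i := i) (w := w) (σ := σ) (K1 := K1) (c := c),
    ← WpC_inst (F := F) (P := P) (G := G) (i := i) (w := w') (σ := σ) (K1 := K1) (c := c)]
  have hX2 : 2 ≤ P.cut i := by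
    rw [hcut]
    calc 2 = 2 ^ 1 := by norm_num
      _ ≤ 2 ^ (A * i) := Nat.pow_le_pow_right (by norm_num) (Nat.mul_pos hA hi)
  have hXQ : P.cut i ≤ P.cut (2 * i) := by
    rw [hcut, hcut]
    exact Nat.pow_le_pow_right (by norm_num) (Nat.mul_le_mul_left _ (by omega))
  have hwt := weight hM hG hw hw' hX2 hXQ hn hn' hL hY hthr hfar.good hl hfar.al
  refine hwt.trans ?_
  have hg : (0 : ℝ) < Nat.gcd (G * w) (G * w') := by
    have := hfar.lo
    have : (0 : ℝ) < 2 ^ i * P.L := by positivity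
    linarith
  have hLg : P.L ≤ (Nat.gcd (G * w) (G * w') : ℝ) := by
    have h1 := hfar.lo
    have h2 : (1 : ℝ) ≤ 2 ^ i := one_le_pow₀ (by norm_num)
    nlinarith
  have hK := K_le hcut hA hi hg hLg
  have hB0 : 0 ≤ PureL2x232.B1 (G * w) (G * w') := BoostAlx100.B1_nonneg _ _
  have hmin : 0 ≤ min (WpC F P G (P.cut i) w) (WpC F P G (P.cut i) w') := by
    refine le_min ?_ ?_
    · exact prod_nonneg fun p _ => one_sub_nonneg p
    · exact prod_nonneg fun p _ => one_sub_nonneg p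
  have hg0 : 0 ≤ nu (low (P.cut i) (PM F G)) (low (P.cut i) w) := nu_nonneg _ _
  have hnn : 0 ≤ PureL2x232.B1 (G * w) (G * w') * (nu0 F G *
      (nu (PM F G) w * nu (PM F G) w' / nu (low (P.cut i) (PM F G)) (low (P.cut i) w)) *
      min (WpC F P G (P.cut i) w) (WpC F P G (P.cut i) w')) := by
    refine mul_nonneg hB0 (mul_nonneg (mul_nonneg (nu0_nonneg G) ?_) hmin)
    exact div_nonneg (mul_nonneg (nu_nonneg _ _) (nu_nonneg _ _)) hg0
  have e1 : ∀ K : ℝ, K * PureL2x232.B1 (G * w) (G * w') * (nu0 F G *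
      (nu (PM F G) w * nu (PM F G) w' / nu (low (P.cut i) (PM F G)) (low (P.cut i) w)) *
      min (WpC F P G (P.cut i) w) (WpC F P G (P.cut i) w')) =
      K * (PureL2x232.B1 (G * w) (G * w') * (nu0 F G *
      (nu (PM F G) w * nu (PM F G) w' / nu (low (P.cut i) (PM F G)) (low (P.cut i) w)) *
      min (WpC F P G (P.cut i) w) (WpC F P G (P.cut i) w'))) := fun K => mul_assoc _ _ _
  show _ ≤ C3 * PureL2x232.B1 (G * w) (G * w') * (nu0 F G *
      (nu (PM F G) w * nu (PM F G) w' / nu (low (P.cut i) (PM F G)) (low (P.cut i) w)) *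
      min (WpC F P G (P.cut i) w) (WpC F P G (P.cut i) w'))
  rw [e1, e1]
  exact mul_le_mul_of_nonneg_right hK hnn

/-- node index of a pair of the class: from `FarA` -/
lemma nd_far {G w w' i : ℕ} {σ K1 c : ℝ} (hM : 0 < M) (hG : G ∈ cores F) (hw : w ∣ PM F G)
    (hcm : Monotone P.cut) (hun : ∀ n, ∃ i, n ≤ P.cut i) (hD : D F G ≤ P.cut i)
    (hn : Nat.gcd w w' = low (P.cut i) w) {h : ℤ} (hfar : FarA F P i (G * w) (G * w') h) :
    (inst F P G σ K1 c).nd i w := by
  rw [nd_iff hM hG hw hcm hun]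
  have e : F.uu (P.cut i) (G * w) = Nat.gcd (G * w) (G * w') := by
    rw [uu_inst hM hG hw hD, Nat.gcd_mul_left, hn]
  rw [e]
  exact ⟨hfar.m0, hD, hfar.lo, hfar.hi⟩

end world

end Crest.Agent.R4C.GWwtx115
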