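import Crest.Agent.R4C.GWfin_982
import Crest.Agent.R4C.GWwt_115
import Crest.Agent.R4C.Budget_966

/-!
# Row 4: the scalar class from the kill and the natural hypothesis (helper244)

* `wtP` : leaf F3 (`GWfinx982.WtP`) at the parameters of the spine, `Cw = C3 * exp 2`.
* `facts_of_hyp` : `GWasmx982.Facts` from `HYP`.
* `KillOK γ`, `HypOK γ` : the two remaining leaves in the form of the spine.
* **`cls_sc`** : `KillOK γ → HypOK γ → ClsOK γ (nH γ (clsDomP1 γ))`.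
-/

set_option autoImplicit false

open Finset

namespace Crest.Agent.R4C.ClsScx244

open Crest.Agent.R4C.Basex935 Crest.Agent.R4C.FLDefx935 Crest.Agent.R4C.BoostCx972
  Crest.Agent.R4C.CrCoinx935 Crest.Agent.R4C.CrCountx935 Crest.Agent.R4C.Bridgex882
  Crest.Agent.R4C.PrefixMx882 Crest.Agent.R4C.Cutx50 Crest.Agent.R4C.Rulex945
  Crest.Agent.R4C.Sharedx11 Crest.Agent.R4C.Splitx945 Crest.Agent.R4C.PureClsx863
  Crest.Agent.R4C.Spinex946 Crest.Agent.R4C.GWdefx982 Crest.Agent.R4C.GWinstx982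
  Crest.Agent.R4C.GWasmx982 Crest.Agent.R4C.KyClsx971 Crest.Agent.R4C.GWfinx982
open Crest.Agent.R4C.FLExx326 (ind)

/-! ### the weight -/

section wt

variable {M : ℕ} {F : FL M} {P : Par}

lemma nu0_pos {G : ℕ} (hM : 0 < M) (hG : G ∈ cores F) : 0 < nu0 F G := by
  have hG0 : 0 < G := Nat.pos_of_dvd_of_pos (mem_cores.1 hG).1.1 hM
  have hR := RR_pos hM hG
  have h1 : 0 < (RR F G).totient := Nat.totient_pos.2 hR
  unfold nu0
  positivity

/-- **leaf F3** -/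
theorem wtP {A : ℕ} (hM : 0 < M) (hL : 0 < P.L) (hm0 : 1 ≤ P.m0) (hcut : ∀ m, P.cut m = 2 ^ (A * m))
    (hA : 1 ≤ A) (hY : ∀ i, P.Y i = 2 ^ i)
    (hthr : ∀ b i, P.thr b i ≤ Real.exp ((P.Y (i - 1) : ℝ) ^ (4 / 5 : ℝ)))
    (h3 : ∀ i, P.m0 ≤ i → 3 ≤ P.cut i) :
    WtP F P (GWwtx115.C3 * Real.exp 2) := by
  intro G0 hG w w' hw hw' hne h hl i hi hky
  have hmono : Monotone P.cut := by
    intro a b hab
    rw [hcut, hcut]
    exact Nat.pow_le_pow_right (by norm_num) (Nat.mul_le_mul_left _ hab)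
  have hiu : ∀ n, n ≤ P.cut n := fun n => by
    rw [hcut]
    exact Nat.lt_two_pow_self.le.trans
      (Nat.pow_le_pow_right (by norm_num) (Nat.le_mul_of_pos_left _ hA))
  have hun : ∀ n, ∃ i, n ≤ P.cut i := fun n => ⟨n, hiu n⟩
  have hi1 : 1 ≤ i := hm0.trans hi.far.m0
  have hb : G0 * w ∣ M := mul_dvd hM hG hw
  have hc : G0 * w' ∣ M := mul_dvd hM hG hw'
  have hG0 : 0 < G0 := Nat.pos_of_dvd_of_pos (mem_cores.1 hG).1.1 hM
  have hpw := pw_of_pr (σ := 0) (K1 := 1) hM hG hw hw' hmono hun hi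
  have hgcd : Nat.gcd w w' = low (P.cut i) w := by
    have h1 := hpw.e
    rw [Nat.gcd_mul_left] at h1
    exact (Nat.eq_of_mul_eq_mul_left hG0 h1).symm
  have hlow : low (P.cut i) w' = low (P.cut i) w := hpw.low.symm
  have hwt := GWwtx115.weight_inst (σ := 0) (K1 := 1) (c := 1) hM hG hw hw' hcut hA hi1 hL hY hthr
    hgcd hlow hi.far hl
  -- `B1 ≤ exp 2`
  have hlev : LevT F P i (G0 * w) (G0 * w') h := LevT.of_FarA hL (h3 i hi.far.m0) hi.far
  have hB1 : PureL2x232.B1 (G0 * w) (G0 * w') ≤ Real.exp 2 :=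
    KyPurex971.B1_off_one hlev hky (Nat.pos_of_dvd_of_pos hb hM) (Nat.pos_of_dvd_of_pos hc hM)
      (hiu i) hi.lb hi.lc
  have hB0 : 0 ≤ PureL2x232.B1 (G0 * w) (G0 * w') := BoostAlx100.B1_nonneg _ _
  -- signs
  have hN := PM_pos (F := F) G0
  have hn0 : 0 < nu0 F G0 := nu0_pos hM hG
  have hw0 : 0 < nu (PM F G0) w := nu_pos hN hw
  have hw0' : 0 < nu (PM F G0) w' := nu_pos hN hw'
  have hg0 : 0 < nu (low (P.cut i) (PM F G0)) (low (P.cut i) w) :=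
    nu_pos (low_pos _ _) (low_dvd _ hN.ne' hw)
  have hC3 := GWwtx115.C3_pos
  set g : ℝ := nu (low (P.cut i) (PM F G0)) (low (P.cut i) w) with hg
  set mn : ℝ := min ((inst F P G0 0 1 1).Wp 0 (P.cut i) w)
    ((inst F P G0 0 1 1).Wp 0 (P.cut i) w') with hmn
  have hmn0 : 0 ≤ mn := le_min (Wp_nonneg _ _ _) (Wp_nonneg _ _ _)
  have e1 : (Nat.gcd (G0 * w) (G0 * w') : ℝ) * nu M (G0 * w) * nu M (G0 * w') =
      VR F G0 * nu0 F G0 * ((Nat.gcd w w' : ℝ) * (nu (PM F G0) w * nu (PM F G0) w')) := by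
    rw [Nat.gcd_mul_left, nu_class hM hG hw, nu_class hM hG hw', ← mul_nu0 hM hG]
    push_cast
    ring
  have e2 : (inst F P G0 0 1 1).g ((inst F P G0 0 1 1).lab i w) = g := rfl
  have e3 : (inst F P G0 0 1 1).N = PM F G0 := rfl
  have e4 : (inst F P G0 0 1 1).cut i = P.cut i := rfl
  rw [e1, e2, e3, e4, ← hmn] at hwt
  have hk : 0 < nu0 F G0 * (nu (PM F G0) w * nu (PM F G0) w') / g := by positivity
  refine le_of_mul_le_mul_left ?_ hk
  calc nu0 F G0 * (nu (PM F G0) w * nu (PM F G0) w') / g * (VR F G0 * (Nat.gcd w w' : ℝ) * g *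
        boostB M (lamR F P) (G0 * w) (G0 * w') h)
      = VR F G0 * nu0 F G0 * ((Nat.gcd w w' : ℝ) * (nu (PM F G0) w * nu (PM F G0) w')) *
        boostB M (lamR F P) (G0 * w) (G0 * w') h := by
        field_simp
    _ ≤ GWwtx115.C3 * PureL2x232.B1 (G0 * w) (G0 * w') *
        (nu0 F G0 * (nu (PM F G0) w * nu (PM F G0) w' / g) * mn) := hwt
    _ ≤ GWwtx115.C3 * Real.exp 2 *
        (nu0 F G0 * (nu (PM F G0) w * nu (PM F G0) w' / g) * mn) := by
        refine mul_le_mul_of_nonneg_right (mul_le_mul_of_nonneg_left hB1 hC3.le) ?_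
        positivity
    _ = _ := by ring

end wt

/-! ### the facts -/

/-- `Facts` from the natural hypothesis -/
theorem facts_of_hyp {Z : World} (hZ : Z.Ok) {C1 : ℝ} (h : HYP Z C1) :
    Facts Z C1 (2 + 2 * Z.K1) where
  lam := fun z _ => GWnodex863.lamNd hZ z
  mass := fun z _ ν _ => GWnodex863.sum_S_le hZ ν
  gpos := fun z _ ν hν => GWnodex863.g_pos hZ hν
  budget := fun w _ => by
    classical
    convert Budgetx966.budget_kap hZ w
  hyp := h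

/-! ### the class -/

/-- leaf F2 in the form of the spine -/
def KillOK (γ : ℝ) : Prop := Ev fun cp η A m0 => ∀ K1 : ℝ, 1 ≤ K1 →
  ∀ (L : ℝ) (M : ℕ) (B : Finset ℕ) (F : FL M), Setup η L M B F →
    KillP F (ParOf cp A m0 γ L M B) B K1

/-- leaf F5 in the form of the spine -/
def HypOK (γ : ℝ) : Prop := Ev fun cp η A m0 => ∃ K1 C1 : ℝ, 1 ≤ K1 ∧ 1 ≤ C1 ∧
  ∀ (L : ℝ) (M : ℕ) (B : Finset ℕ) (F : FL M), Setup η L M B F →
    ∀ G0 ∈ cores F, ∀ σ : ℝ, σ = 0 ∨ σ = 1 / 2 →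
      HYP (inst F (ParOf cp A m0 γ L M B) G0 σ K1 1) C1

lemma thr_le {cp γ L : ℝ} {A m0 M : ℕ} {B : Finset ℕ} (b i : ℕ) :
    (ParOf cp A m0 γ L M B).thr b i ≤
      Real.exp (((ParOf cp A m0 γ L M B).Y (i - 1) : ℝ) ^ (4 / 5 : ℝ)) := by
  show thrS M (ind B) (fun i => 2 ^ i) (1 / (4 * A)) (1 / 20) b i ≤ _
  unfold thrS
  exact min_le_right _ _

/-- **the scalar class** -/
theorem cls_sc {γ : ℝ} (hK : KillOK γ) (hH : HypOK γ) :
    ClsOK γ (Coverx946.nH γ (clsDomP1 γ)) := by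
  refine cls_of_leaves ?_
  refine (((hK.and hH).and (Ev.basic.and (Ev.le_m0 fun cp _ _ => max 3 (5 / cp))))).mono ?_
  rintro cp η A m0 ⟨⟨hK, K1, C1, hK1, hC1, hH⟩, ⟨hcp, _, _, _, _, hA, _⟩, hm⟩
  have hm3 : 3 ≤ m0 := by
    have : (3 : ℝ) ≤ m0 := (le_max_left _ _).trans hm
    exact_mod_cast this
  refine ⟨K1, C1, 2 + 2 * K1, GWwtx115.C3 * Real.exp 2, hK1, hC1, by linarith, ?_,
    fun L M B F S => ?_⟩
  · have := GWwtx115.C3_pos
    positivity
  set P := ParOf cp A m0 γ L M B with hP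
  have hcut : Monotone P.cut := cut_mono'
  have hcut2 : ∀ i, 2 ^ i ≤ P.cut i := fun i => by
    show 2 ^ i ≤ 2 ^ (A * i)
    exact Nat.pow_le_pow_right (by norm_num) (Nat.le_mul_of_pos_left _ hA)
  have hE : ∀ i, P.m0 ≤ i → 16 < P.E i := by
    intro i hi
    show (16 : ℝ) < (2 : ℝ) ^ (cp * i)
    have h1 : (m0 : ℝ) ≤ i := by exact_mod_cast hi
    have h2 : 5 / cp ≤ i := ((le_max_right _ _).trans hm).trans h1
    have h3 : 5 ≤ cp * i := by
      rw [div_le_iff₀ hcp] at h2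
      linarith
    calc (16 : ℝ) < 2 ^ (5 : ℝ) := by norm_num
      _ ≤ 2 ^ (cp * i) := Real.rpow_le_rpow_of_exponent_le (by norm_num) h3
  refine ⟨fun G0 hG σ hσ => ?_, hK K1 hK1 L M B F S, ?_⟩
  · have hσ0 : 0 ≤ σ := by rcases hσ with rfl | rfl <;> norm_num
    have hok : (inst F P G0 σ K1 1).Ok :=
      inst_ok S.hM hG S.hL hcut hcut2 hm3 (Nat.le_ceil _) hσ0 hE hK1 one_pos
    exact facts_of_hyp hok (hH L M B F S G0 hG σ hσ)
  · refine wtP (A := A) S.hM S.hL (by show 1 ≤ m0; omega) (fun m => rfl) hA (fun i => rfl)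
      thr_le fun i hi => ?_
    have h1 := hcut2 i
    have h2 : 3 ≤ i := hm3.trans hi
    have h3 : 2 ^ 3 ≤ 2 ^ i := Nat.pow_le_pow_right (by norm_num) h2
    omega

end Crest.Agent.R4C.ClsScx244
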