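import Crest.Agent.R4C.TwSets_100
import Crest.Agent.R4C.FarKit_179
import Crest.Agent.R4C.HyOf_281

/-!
# Row 4: `ClsOK` for the class `CTw` of the split (helper100)

`clsTw_ok γ : ClsOK γ (fun cp _ A m0 L M B F b c h => CTw F (ParOf cp A m0 γ L M B) b c h)`:
the set bound `TwSets_100.tw_sets` at every level (`E t = 2^(cp t)`, exponent `η`) with the kit
`FarKit_179.clsOK_of_sets`.
-/

set_option autoImplicit false

open Finset

namespace Crest.Agent.R4C.ClsTwx100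

open Crest.Agent.R4C.Basex935 Crest.Agent.R4C.FLDefx935 Crest.Agent.R4C.BoostCx972
  Crest.Agent.R4C.CrCoinx935 Crest.Agent.R4C.CrCountx935 Crest.Agent.R4C.Bridgex882
  Crest.Agent.R4C.Rulex945 Crest.Agent.R4C.Sharedx11
  Crest.Agent.R4C.Splitx945 Crest.Agent.R4C.TwSetsx100
  Crest.Agent.R4C.Spinex946 Crest.Agent.R4C.FLShx326 Crest.Agent.R4C.FarKitx179
  Crest.Agent.R4C.HyOfx281

section par

variable {cp : ℝ} {A m0 : ℕ} {γ L : ℝ} {M : ℕ} {B : Finset ℕ}

/-- `16 E⁶ < 2^m` -/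
lemma E6_lt (hc : cp ≤ 1 / 200) {m : ℕ} (hm : 5 ≤ m) :
    16 * (ParOf cp A m0 γ L M B).E m ^ 6 < 2 ^ m := by
  have hm' : (5 : ℝ) ≤ m := by exact_mod_cast hm
  rw [E_pow]
  calc 16 * (2 : ℝ) ^ (cp * m * (6 : ℕ)) = (2 : ℝ) ^ (4 + cp * m * (6 : ℕ)) := by
        rw [Real.rpow_add (by norm_num)]; norm_num
    _ < (2 : ℝ) ^ (m : ℝ) := Real.rpow_lt_rpow_of_exponent_lt (by norm_num) (by
        have h1 : cp * m ≤ 1 / 200 * m := mul_le_mul_of_nonneg_right hc (by linarith)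
        push_cast; linarith)
    _ = 2 ^ m := Real.rpow_natCast 2 m

/-- `2 E² ≤ cut` -/
lemma E2_le (hc : cp ≤ 1 / 200) (hA : 1 ≤ A) {m : ℕ} (hm : 2 ≤ m) :
    2 * (ParOf cp A m0 γ L M B).E m ^ 2 ≤ (ParOf cp A m0 γ L M B).cut m := by
  have hm' : (2 : ℝ) ≤ m := by exact_mod_cast hm
  have hA' : (1 : ℝ) ≤ A := by exact_mod_cast hA
  rw [E_pow]
  change _ ≤ (((2 : ℕ) ^ (A * m) : ℕ) : ℝ)
  push_cast
  calc 2 * (2 : ℝ) ^ (cp * m * 2) = (2 : ℝ) ^ (1 + cp * m * 2) := by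
        rw [Real.rpow_add (by norm_num), Real.rpow_one]
    _ ≤ (2 : ℝ) ^ (((A * m : ℕ) : ℝ)) := Real.rpow_le_rpow_of_exponent_le (by norm_num) (by
        have h1 : cp * m ≤ 1 / 200 * m := mul_le_mul_of_nonneg_right hc (by linarith)
        have h2 : (m : ℝ) ≤ A * m := le_mul_of_one_le_left (by linarith) hA'
        push_cast; linarith)
    _ = 2 ^ (A * m) := Real.rpow_natCast 2 (A * m)

lemma cut_mono (hA : 1 ≤ A) : Monotone (ParOf cp A m0 γ L M B).cut := by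
  intro a b hab
  change 2 ^ (A * a) ≤ 2 ^ (A * b)
  exact Nat.pow_le_pow_right (by norm_num) (Nat.mul_le_mul_left A hab)

end par

/-- **class CTw** -/
theorem clsTw_ok (γ : ℝ) : ClsOK γ
    (fun cp _ A m0 L M B F b c h => CTw F (ParOf cp A m0 γ L M B) b c h) := by
  classical
  refine clsOK_of_sets ?_
  refine (Ev.basic.and (Ev.le_m0 (fun _ _ _ => 5))).mono ?_
  rintro cp η A m0 ⟨⟨hcp, hcp2, hη, hη2, hη1, hA, hm01⟩, hm0⟩
  have hm5 : 5 ≤ m0 := by exact_mod_cast hm0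
  obtain ⟨C, hC, htw⟩ := tw_sets (η := η) (ε := 1 / 100) hη hη1 (by norm_num) (by linarith)
  refine ⟨cp / 2, by positivity, 2 * C, by positivity, 0, ?_⟩
  intro L M B F hS
  set P := ParOf cp A m0 γ L M B with hP
  have eL : P.L = L := rfl
  have em : P.m0 = m0 := rfl
  refine ⟨TwLev F P, ?_, ?_⟩
  · rintro b hb c hc hne h hh hk ⟨t, m, f, f', hBP, htm, hR⟩
    have hmt : m0 ≤ t := by
      have := hBP.m0
      rw [em] at this
      omega
    have hle : P.cut t ≤ 2 ^ (A * (2 * t + 1)) := by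
      change 2 ^ (A * t) ≤ _
      exact Nat.pow_le_pow_right (by norm_num) (Nat.mul_le_mul_left A (by omega))
    refine ⟨t, hmt, ⟨h, hh, m, f, f', hBP, htm, hR⟩, ?_, ?_, ?_⟩
    · exact F.good_mono hle hBP.good
    · intro q hq
      exact (hBP.al q hq).trans hle
    · refine hBP.near.le.trans ?_
      exact_mod_cast hle
  · intro t ht S S' hSB hSB'
    have hmass : ∀ T : Finset ℕ, T ⊆ B → P.L * ∑ b ∈ T, nu M b ≤ 1 := by
      intro T hT
      refine le_trans (mul_le_mul_of_nonneg_left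
        (sum_le_sum_of_subset_of_nonneg hT fun b _ _ => nu_nonneg M b) hS.hL.le) hS.mass
    have h1 := htw M F P S S' t hS.hM (hSB.trans hS.hB) (hSB'.trans hS.hB) hS.hL
      (hmass S hSB) (hmass S' hSB') (cut_mono hA)
      (fun m hm => E6_lt hcp2 (hm5.trans hm)) (fun m hm => E2_le hcp2 hA ((by omega : 2 ≤ m0).trans hm))
      (by change 0 < (2 : ℝ) ^ (cp * t); positivity)
    have e1 : ∑ b ∈ S, ∑ c ∈ S', ker M (TwLev F P t) b c = ∑ b ∈ S, ∑ c ∈ S',
        (if TwLev F P t b c then (Nat.gcd b c : ℝ) * nu M b * nu M c else 0) := by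
      refine sum_congr rfl fun b _ => sum_congr rfl fun c _ => ?_
      unfold ker
      congr
    -- the exponent
    have ht0 : (0 : ℝ) ≤ t := Nat.cast_nonneg t
    have e2 : ((2 : ℝ) ^ ((t + 1 : ℝ) / 2)) ^ η * (P.E t ^ 4) ^ (-((1 - η) / 4 - 1 / 100)) ≤
        2 * (2 : ℝ) ^ (-(cp / 2 * t)) := by
      have e3 : P.E t ^ 4 = (2 : ℝ) ^ (cp * t * (4 : ℕ)) := E_pow cp A m0 γ L M B t 4
      rw [e3, ← Real.rpow_mul (by norm_num), ← Real.rpow_mul (by norm_num),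
        ← Real.rpow_add (by norm_num)]
      calc _ ≤ (2 : ℝ) ^ (1 + -(cp / 2 * t)) := by
            refine Real.rpow_le_rpow_of_exponent_le (by norm_num) ?_
            push_cast
            have h2 : η * t ≤ cp / 200 * t := mul_le_mul_of_nonneg_right hη2 ht0
            have h3 : cp * t * η ≤ cp * t * (1 / 200) := by
              refine mul_le_mul_of_nonneg_left ?_ (by positivity)
              linarith
            have h4 : 0 ≤ cp * t := by positivity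
            nlinarith
        _ = 2 * (2 : ℝ) ^ (-(cp / 2 * t)) := by
            rw [Real.rpow_add (by norm_num), Real.rpow_one]
    have h0 : 0 ≤ Real.sqrt ((∑ b ∈ S, nu M b) * ∑ b ∈ S', nu M b) := Real.sqrt_nonneg _
    have e4 : L * Real.sqrt ((∑ b ∈ S, nu M b) * ∑ b ∈ S', nu M b) =
        Real.sqrt ((L * ∑ b ∈ S, nu M b) * (L * ∑ c ∈ S', nu M c)) := by
      have : (L * ∑ b ∈ S, nu M b) * (L * ∑ c ∈ S', nu M c) =
          L ^ 2 * ((∑ b ∈ S, nu M b) * ∑ c ∈ S', nu M c) := by ring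
      rw [this, Real.sqrt_mul (sq_nonneg L), Real.sqrt_sq hS.hL.le]
    rw [pow_zero, mul_one, e1, ← e4]
    calc L * ∑ b ∈ S, ∑ c ∈ S', (if TwLev F P t b c then
          (Nat.gcd b c : ℝ) * nu M b * nu M c else 0)
        ≤ L * (C * ((2 : ℝ) ^ ((t + 1 : ℝ) / 2)) ^ η *
          (P.E t ^ 4) ^ (-((1 - η) / 4 - 1 / 100)) *
          Real.sqrt ((∑ b ∈ S, nu M b) * ∑ b ∈ S', nu M b)) :=
          mul_le_mul_of_nonneg_left h1 hS.hL.le
      _ = C * (((2 : ℝ) ^ ((t + 1 : ℝ) / 2)) ^ η *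
          (P.E t ^ 4) ^ (-((1 - η) / 4 - 1 / 100))) *
          (L * Real.sqrt ((∑ b ∈ S, nu M b) * ∑ b ∈ S', nu M b)) := by ring
      _ ≤ C * (2 * (2 : ℝ) ^ (-(cp / 2 * t))) *
          (L * Real.sqrt ((∑ b ∈ S, nu M b) * ∑ b ∈ S', nu M b)) :=
          mul_le_mul_of_nonneg_right (mul_le_mul_of_nonneg_left e2 hC.le)
            (mul_nonneg hS.hL.le h0)
      _ = _ := by ring

end Crest.Agent.R4C.ClsTwx100
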