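import Crest.Agent.R4C.UDtot_208
import Crest.Agent.R4C.SpineDef_946

/-!
# Class UNEXPLAINED DEFICIT: set-bilinear bound per level (helper404)

`ud_sets` : 208's `ud_tot` for the indicator functions of `S, S' ⊆ B`, `L ν(B) ≤ 1`:
`Σ_{b ∈ S, c ∈ S'} gcd ν ν 1[...] ≤ C A 2^(-m/4) √(ν S ν S')` (input of the level kit `Kit_21`).
-/

set_option autoImplicit false

namespace Crest.Agent.R4C.UDsetx404

open Finset
open Crest.Agent.R4C.Basex935 Crest.Agent.R4C.Cutx50 Crest.Agent.R4C.FLDefx935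
open Crest.Agent.R4C.Pairx14 Crest.Agent.R4C.UDtotx208

open Classical

/-- `x^((1+η)/2) ≤ √x` for `0 ≤ x ≤ 1` -/
lemma rpow_half_le {x η : ℝ} (hx : 0 ≤ x) (hx1 : x ≤ 1) (hη : 0 ≤ η) :
    x ^ ((1 + η) / 2) ≤ √x := by
  rcases hx.eq_or_lt with h | h
  · rw [← h, Real.zero_rpow (by linarith), Real.sqrt_zero]
  · rw [Real.sqrt_eq_rpow]
    exact Real.rpow_le_rpow_of_exponent_ge h hx1 (by linarith)

lemma sum_ind {M : ℕ} {S : Finset ℕ} (hS : S ⊆ M.divisors) (g : ℕ → ℝ) :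
    ∑ b ∈ M.divisors, g b * (if b ∈ S then (1 : ℝ) else 0) = ∑ b ∈ S, g b := by
  simp only [mul_ite, mul_one, mul_zero]
  rw [← Finset.sum_filter]
  refine Finset.sum_congr ?_ fun _ _ => rfl
  ext b
  rw [Finset.mem_filter]
  exact ⟨fun h => h.2, fun h => ⟨hS h, h⟩⟩

/-- a double sum over subsets, with indicators -/
lemma sum_ind2 {M : ℕ} {S S' : Finset ℕ} (hS : S ⊆ M.divisors) (hS' : S' ⊆ M.divisors)
    (K : ℕ → ℕ → ℝ) :
    ∑ b ∈ M.divisors, ∑ c ∈ M.divisors, K b c * ((if b ∈ S then (1 : ℝ) else 0) *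
      (if c ∈ S' then (1 : ℝ) else 0)) = ∑ b ∈ S, ∑ c ∈ S', K b c := by
  rw [← Finset.sum_subset hS]
  · refine Finset.sum_congr rfl fun b hb => ?_
    rw [← Finset.sum_subset hS']
    · refine Finset.sum_congr rfl fun c hc => ?_
      rw [if_pos hb, if_pos hc]; ring
    · intro c _ hc
      rw [if_neg hc]; ring
  · intro b _ hb
    refine Finset.sum_eq_zero fun c _ => ?_
    rw [if_neg hb]; ring

/-- **from an energy bound for `[0,1]`-functions with exponent `(1+η)/2` to a set-bilinear bound** -/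
theorem sets_of_fun {M : ℕ} {L η Z : ℝ} {B : Finset ℕ} {K : ℕ → ℕ → ℝ} (hB : B ⊆ M.divisors)
    (hL : 0 < L) (hη : 0 ≤ η) (hZ : 0 ≤ Z) (hm : L * ∑ b ∈ B, nu M b ≤ 1)
    (h : ∀ f g : ℕ → ℝ, (∀ b, 0 ≤ f b) → (∀ b, f b ≤ 1) → (∀ b, 0 ≤ g b) → (∀ b, g b ≤ 1) →
      L * ∑ b ∈ M.divisors, ∑ c ∈ M.divisors, K b c * (f b * g c) ≤
        Z * ((L * ∑ b ∈ M.divisors, nu M b * f b) ^ ((1 + η) / 2) *
          (L * ∑ b ∈ M.divisors, nu M b * g b) ^ ((1 + η) / 2)))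
    {S S' : Finset ℕ} (hS : S ⊆ B) (hS' : S' ⊆ B) :
    ∑ b ∈ S, ∑ c ∈ S', K b c ≤ Z * √((∑ b ∈ S, nu M b) * ∑ c ∈ S', nu M c) := by
  have h01 : ∀ (T : Finset ℕ) (b : ℕ), (0 : ℝ) ≤ (if b ∈ T then 1 else 0) := fun T b => by
    split_ifs <;> norm_num
  have h02 : ∀ (T : Finset ℕ) (b : ℕ), (if b ∈ T then (1 : ℝ) else 0) ≤ 1 := fun T b => by
    split_ifs <;> norm_num
  have h1 := h (fun b => if b ∈ S then 1 else 0) (fun b => if b ∈ S' then 1 else 0)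
    (h01 S) (h02 S) (h01 S') (h02 S')
  rw [sum_ind2 (hS.trans hB) (hS'.trans hB), sum_ind (hS.trans hB), sum_ind (hS'.trans hB)] at h1
  have hmS : ∀ {T : Finset ℕ}, T ⊆ B → 0 ≤ L * ∑ b ∈ T, nu M b ∧ L * ∑ b ∈ T, nu M b ≤ 1 := by
    intro T hT
    refine ⟨mul_nonneg hL.le (Finset.sum_nonneg fun b _ => nu_nonneg M b), le_trans ?_ hm⟩
    exact mul_le_mul_of_nonneg_left
      (Finset.sum_le_sum_of_subset_of_nonneg hT fun b _ _ => nu_nonneg M b) hL.le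
  have e1 := rpow_half_le (hmS hS).1 (hmS hS).2 hη
  have e2 := rpow_half_le (hmS hS').1 (hmS hS').2 hη
  have h3 : L * ∑ b ∈ S, ∑ c ∈ S', K b c ≤
      L * (Z * √((∑ b ∈ S, nu M b) * ∑ c ∈ S', nu M c)) := by
    refine h1.trans ?_
    calc Z * ((L * ∑ b ∈ S, nu M b) ^ ((1 + η) / 2) * (L * ∑ b ∈ S', nu M b) ^ ((1 + η) / 2))
        ≤ Z * (√(L * ∑ b ∈ S, nu M b) * √(L * ∑ b ∈ S', nu M b)) :=
          mul_le_mul_of_nonneg_left (mul_le_mul e1 e2 (Real.rpow_nonneg (hmS hS').1 _)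
            (Real.sqrt_nonneg _)) hZ
      _ = _ := by
          rw [Real.sqrt_mul hL.le, Real.sqrt_mul hL.le,
            Real.sqrt_mul (Finset.sum_nonneg fun b _ => nu_nonneg M b)]
          have e3 : √L * √L = L := Real.mul_self_sqrt hL.le
          calc Z * (√L * √(∑ b ∈ S, nu M b) * (√L * √(∑ b ∈ S', nu M b)))
              = (√L * √L) * (Z * (√(∑ b ∈ S, nu M b) * √(∑ b ∈ S', nu M b))) := by ring
            _ = _ := by rw [e3]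
  exact le_of_mul_le_mul_left h3 hL

/-- **UNEXPLAINED DEFICIT at the scale `2^m`, cut `2^(A m)`: set-bilinear bound.** -/
theorem ud_sets {η : ℝ} (hη : 0 < η) (hη1 : η ≤ 1 / 20) :
    ∃ A0 : ℕ, ∃ C : ℝ, 1 ≤ A0 ∧ 0 < C ∧
      ∀ (A : ℕ), A0 ≤ A → ∀ (M : ℕ) (F : FL M) (m : ℕ) (γ E L : ℝ) (B : Finset ℕ),
        0 < M → B ⊆ M.divisors → 1 ≤ m → 0 < L → L * ∑ b ∈ B, nu M b ≤ 1 → 1 ≤ E →
        E ≤ 2 ^ ((m : ℝ) / 24) → ∀ S S' : Finset ℕ, S ⊆ B → S' ⊆ B →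
        ∑ b ∈ S, ∑ c ∈ S',
          (if 2 ^ m * L ≤ (Nat.gcd b c : ℝ) ∧ (Nat.gcd b c : ℝ) ≤ 2 * (2 ^ m * L) ∧
            F.good (2 ^ (A * m)) b c ∧
            (UD F γ (2 ^ m) E (2 ^ (A * m)) b c ∨ UD F γ (2 ^ m) E (2 ^ (A * m)) c b) then
            (Nat.gcd b c : ℝ) * nu M b * nu M c else 0) ≤
        C * A * 2 ^ (-(m : ℝ) / 4) * √((∑ b ∈ S, nu M b) * ∑ c ∈ S', nu M c) := by
  obtain ⟨δ, C, hδ, hC, h⟩ := ud_tot hη (by linarith)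
  obtain ⟨A1, hA1⟩ := exists_nat_ge (3 / 10 / δ)
  refine ⟨A1 + 1, 11 * C, by omega, by positivity, ?_⟩
  intro A hA M F m γ E L B hM hB hm hL hmass hE hE2 S S' hS hS'
  have hA1' : 1 ≤ A := by omega
  have hAδ : 3 / 10 ≤ A * δ := by
    have h1 : (A1 : ℝ) ≤ A := by
      have : A1 ≤ A := by omega
      exact_mod_cast this
    have h2 : 3 / 10 / δ ≤ A := hA1.trans h1
    rwa [div_le_iff₀ hδ] at h2
  have hmR : (1:ℝ) ≤ m := by exact_mod_cast hm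
  have hAm : m ≤ A * m := Nat.le_mul_of_pos_left m hA1'
  have hx2 : 2 ≤ 2 ^ (A * m) := by
    calc 2 = 2 ^ 1 := by norm_num
      _ ≤ 2 ^ (A * m) := Nat.pow_le_pow_right (by norm_num) (by omega)
  have hTx : (2:ℝ) ^ m ≤ ((2 ^ (A * m) : ℕ) : ℝ) := by
    push_cast
    exact pow_le_pow_right₀ (by norm_num) hAm
  have hEx : E < ((2 ^ (A * m) : ℕ) : ℝ) := by
    refine lt_of_lt_of_le ?_ hTx
    refine lt_of_le_of_lt hE2 ?_
    rw [← Real.rpow_natCast]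
    exact Real.rpow_lt_rpow_of_exponent_lt (by norm_num) (by linarith)
  have hT1 : (1:ℝ) ≤ 2 ^ m := one_le_pow₀ (by norm_num)
  have hnum := scale_num (δ := δ) hη hη1 hA1' hAδ hm hE hE2
  refine sets_of_fun (η := η) (Z := 11 * C * A * 2 ^ (-(m : ℝ) / 4)) hB hL hη.le (by positivity)
    hmass ?_ hS hS'
  intro f g hf hf1 hg hg1
  have h1 := h M F (2 ^ (A * m)) γ (2 ^ m) E L f g hM hx2 hL hE hT1 hEx hTx hf hf1 hg hg1
  have hm0 : ∀ u : ℕ → ℝ, (∀ b, 0 ≤ u b) → 0 ≤ L * ∑ b ∈ M.divisors, nu M b * u b := fun u hu =>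
    mul_nonneg hL.le (Finset.sum_nonneg fun b _ => mul_nonneg (nu_nonneg _ _) (hu b))
  refine le_trans (le_of_eq ?_) (h1.trans ?_)
  · congr 1
    refine Finset.sum_congr rfl fun b _ => Finset.sum_congr rfl fun c _ => ?_
    split_ifs <;> ring
  · have h2 : 0 ≤ (L * ∑ b ∈ M.divisors, nu M b * f b) ^ ((1 + η) / 2) *
        (L * ∑ b ∈ M.divisors, nu M b * g b) ^ ((1 + η) / 2) :=
      mul_nonneg (Real.rpow_nonneg (hm0 f hf) _) (Real.rpow_nonneg (hm0 g hg) _)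
    calc _ = C * ((2 ^ m) ^ η * ((Real.log ((2 ^ (A * m) : ℕ) : ℝ) * (E ^ 3 / 2 ^ m)) ^
          ((1 - η) / 2) + ((2 ^ (A * m) : ℕ) : ℝ) ^ (-δ))) *
          ((L * ∑ b ∈ M.divisors, nu M b * f b) ^ ((1 + η) / 2) *
            (L * ∑ b ∈ M.divisors, nu M b * g b) ^ ((1 + η) / 2)) := by ring
      _ ≤ C * (11 * A * 2 ^ (-(m : ℝ) / 4)) *
          ((L * ∑ b ∈ M.divisors, nu M b * f b) ^ ((1 + η) / 2) *
            (L * ∑ b ∈ M.divisors, nu M b * g b) ^ ((1 + η) / 2)) :=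
          mul_le_mul_of_nonneg_right (mul_le_mul_of_nonneg_left hnum hC.le) h2
      _ = _ := by ring

end Crest.Agent.R4C.UDsetx404
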