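import Crest.Agent.R4C.FarKit_179
import Crest.Agent.R4C.UDset_404
import Crest.Agent.R4C.HyOf_281

/-!
# Row 4: the class `CUD` (unexplained deficit at the own scale) is bounded (helper208)

* `lvl_of_far` : a pair of `FarA` (own scale `2^i`, good at `cut i`, aligned primes `≤ cut (2 i)`)
  satisfies the level conditions `Lvl` of `FarKit_179` with `Q = 2^(A (2 i + 1))`;
* `clsOK_UD` : `ClsOK γ CUD` for every `1 ≤ D m ≤ 2^(cp m / 16)`;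
* `cls_ud` : the same for `D = HyOf_281.DD`.
-/

set_option autoImplicit false

open Finset

namespace Crest.Agent.R4C.ClsUDx208

open Crest.Agent.R4C.Basex935 Crest.Agent.R4C.CrCoinx935 Crest.Agent.R4C.CrCountx935
  Crest.Agent.R4C.Bridgex882 Crest.Agent.R4C.FLDefx935 Crest.Agent.R4C.Cutx50
  Crest.Agent.R4C.Rulex945 Crest.Agent.R4C.Splitx945 Crest.Agent.R4C.Spinex946
  Crest.Agent.R4C.FarKitx179
open Crest.Agent.R4C.HyOfx281 (DD one_le_DD)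

/-- `FarA` at the scale `i ≥ 3` satisfies the level conditions with `Q = 2^(A (2 i + 1))` -/
lemma lvl_of_far {cp γ L η : ℝ} {A m0 M : ℕ} {B : Finset ℕ} {F : FL M} (hS : Setup η L M B F)
    (hA : 1 ≤ A) (hm3 : 3 ≤ m0) {i b c : ℕ} {h : ℤ} (hb : b ∈ B)
    (hF : FarA F (ParOf cp A m0 γ L M B) i b c h) :
    Lvl F (ParOf cp A m0 γ L M B) (2 ^ (A * (2 * i + 1))) b c h := by
  have hi : m0 ≤ i := hF.m0
  have hg : 0 < Nat.gcd b c := Nat.gcd_pos_of_pos_left _ (hS.pos hb)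
  have h2i : (1 : ℝ) ≤ 2 ^ i := one_le_pow₀ (by norm_num)
  have hlo : (2 : ℝ) ^ i * L ≤ (Nat.gcd b c : ℕ) := hF.lo
  refine ⟨?_, ?_, ?_⟩
  · refine FL.good_mono ?_ hF.good
    change 2 ^ (A * i) ≤ _
    exact Nat.pow_le_pow_right (by norm_num) (Nat.mul_le_mul_left _ (by omega))
  · intro p hp
    refine (hF.al p hp).trans ?_
    change 2 ^ (A * (2 * i)) ≤ _
    exact Nat.pow_le_pow_right (by norm_num) (Nat.mul_le_mul_left _ (by omega))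
  · have hgR : (0 : ℝ) < (Nat.gcd b c : ℕ) := by exact_mod_cast hg
    have h1 : L / (Nat.gcd b c : ℕ) ≤ 1 := by
      rw [div_le_one hgR]
      have := hS.hL
      nlinarith
    unfold X1
    rw [show (ParOf cp A m0 γ L M B).L = L from rfl, max_eq_left h1, Real.one_rpow]
    have h2 : Real.exp 1 ≤ 8 := by
      have := Real.exp_one_lt_d9
      linarith
    have h3 : (8 : ℕ) ≤ 2 ^ (A * (2 * i + 1)) := by
      calc (8 : ℕ) = 2 ^ 3 := by norm_num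
        _ ≤ 2 ^ (A * (2 * i + 1)) := Nat.pow_le_pow_right (by norm_num) (by
            have : 3 ≤ i := hm3.trans hi
            nlinarith)
    exact h2.trans (by exact_mod_cast h3)

open Classical in
/-- **the class `CUD`** -/
theorem clsOK_UD {γ : ℝ} {D : ℝ → ℕ → ℝ} (hD1 : ∀ cp, 0 < cp → ∀ m : ℕ, 1 ≤ D cp m)
    (hD : ∀ cp, 0 < cp → ∀ m : ℕ, D cp m ≤ (2 : ℝ) ^ (cp * m / 16)) :
    ClsOK γ (fun cp _ A m0 L M B F => CUD F (ParOf cp A m0 γ L M B) (D cp)) := by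
  -- the constants of `ud_sets` as functions of `η`
  have hex : ∀ η : ℝ, ∃ A0 : ℕ, ∃ C : ℝ, 0 < η → η ≤ 1 / 20 → 1 ≤ A0 ∧ 0 < C ∧
      ∀ (A : ℕ), A0 ≤ A → ∀ (M : ℕ) (F : FL M) (m : ℕ) (γ E L : ℝ) (B : Finset ℕ),
        0 < M → B ⊆ M.divisors → 1 ≤ m → 0 < L → L * ∑ b ∈ B, nu M b ≤ 1 → 1 ≤ E →
        E ≤ 2 ^ ((m : ℝ) / 24) → ∀ S S' : Finset ℕ, S ⊆ B → S' ⊆ B →
        ∑ b ∈ S, ∑ c ∈ S',
          (if 2 ^ m * L ≤ (Nat.gcd b c : ℝ) ∧ (Nat.gcd b c : ℝ) ≤ 2 * (2 ^ m * L) ∧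
            F.good (2 ^ (A * m)) b c ∧
            (Pairx14.UD F γ (2 ^ m) E (2 ^ (A * m)) b c ∨
              Pairx14.UD F γ (2 ^ m) E (2 ^ (A * m)) c b) then
            (Nat.gcd b c : ℝ) * nu M b * nu M c else 0) ≤
        C * A * 2 ^ (-(m : ℝ) / 4) * √((∑ b ∈ S, nu M b) * ∑ c ∈ S', nu M c) := by
    intro η
    by_cases h : 0 < η ∧ η ≤ 1 / 20
    · obtain ⟨A0, C, h1⟩ := UDsetx404.ud_sets h.1 h.2
      exact ⟨A0, C, fun _ _ => h1⟩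
    · exact ⟨0, 0, fun h1 h2 => absurd ⟨h1, h2⟩ h⟩
  choose A0 C hspec using hex
  refine clsOK_of_sets (((Ev.basic.and (Ev.le_m0 fun _ _ _ => 52)).and
    (Ev.le_A fun _ η => (A0 η : ℝ))).mono ?_)
  rintro cp η A m0 ⟨⟨⟨hcp, hcp2, hη, hη2, hη1, hA, _⟩, hm0⟩, hA0⟩
  have hm52 : 52 ≤ m0 := by exact_mod_cast hm0
  have hA0' : A0 η ≤ A := by exact_mod_cast hA0
  obtain ⟨_, hC0, H⟩ := hspec η hη (by linarith)
  refine ⟨1 / 4, by norm_num, C η * A, by positivity, 0, ?_⟩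
  intro L M B F hS
  refine ⟨fun t b c => 2 ^ t * L ≤ (Nat.gcd b c : ℝ) ∧ (Nat.gcd b c : ℝ) ≤ 2 * (2 ^ t * L) ∧
    F.good (2 ^ (A * t)) b c ∧
    (Pairx14.UD F γ (2 ^ t) (4 * D cp t ^ 8) (2 ^ (A * t)) b c ∨
      Pairx14.UD F γ (2 ^ t) (4 * D cp t ^ 8) (2 ^ (A * t)) c b), ?_, ?_⟩
  · intro b hb c hcB hne h hh hk hR
    obtain ⟨i, hF, hr⟩ := hR
    refine ⟨i, hF.m0, ⟨hF.lo, ?_, hF.good, hr⟩, lvl_of_far hS hA (by omega) hb hF⟩
    have h1 : (Nat.gcd b c : ℝ) < 2 ^ (i + 1) * L := hF.hi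
    rw [pow_succ] at h1
    linarith
  · intro t ht S S' hSB hSB'
    have ht52 : (52 : ℝ) ≤ t := by exact_mod_cast (hm52.trans ht)
    have hD1' := hD1 cp hcp t
    have hE1 : (1 : ℝ) ≤ 4 * D cp t ^ 8 := by
      have := one_le_pow₀ (n := 8) hD1'
      linarith
    have hE2 : 4 * D cp t ^ 8 ≤ (2 : ℝ) ^ ((t : ℝ) / 24) := by
      have h1 : D cp t ^ 8 ≤ ((2 : ℝ) ^ (cp * t / 16)) ^ 8 :=
        pow_le_pow_left₀ (by linarith) (hD cp hcp t) 8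
      calc 4 * D cp t ^ 8 ≤ (2 : ℝ) ^ (2 : ℝ) * ((2 : ℝ) ^ (cp * t / 16)) ^ 8 := by
            rw [show (2 : ℝ) ^ (2 : ℝ) = 4 by norm_num]
            linarith
        _ = (2 : ℝ) ^ (2 + cp * t / 16 * (8 : ℕ)) := by
            rw [← Real.rpow_natCast _ 8, ← Real.rpow_mul (by norm_num),
              Real.rpow_add (by norm_num)]
        _ ≤ (2 : ℝ) ^ ((t : ℝ) / 24) := by
            refine Real.rpow_le_rpow_of_exponent_le (by norm_num) ?_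
            have h2 : cp * t ≤ 1 / 200 * t := mul_le_mul_of_nonneg_right hcp2 (by linarith)
            push_cast
            linarith
    have h1 := H A hA0' M F t γ (4 * D cp t ^ 8) L B hS.hM hS.hB (by omega) hS.hL hS.mass hE1 hE2
      S S' hSB hSB'
    have hL := hS.hL.le
    have h2 : ∑ b ∈ S, ∑ c ∈ S', ker M (fun b c => 2 ^ t * L ≤ (Nat.gcd b c : ℝ) ∧
        (Nat.gcd b c : ℝ) ≤ 2 * (2 ^ t * L) ∧ F.good (2 ^ (A * t)) b c ∧
        (Pairx14.UD F γ (2 ^ t) (4 * D cp t ^ 8) (2 ^ (A * t)) b c ∨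
          Pairx14.UD F γ (2 ^ t) (4 * D cp t ^ 8) (2 ^ (A * t)) c b)) b c ≤
        C η * A * 2 ^ (-(t : ℝ) / 4) * √((∑ b ∈ S, nu M b) * ∑ c ∈ S', nu M c) := by
      refine le_trans (le_of_eq ?_) h1
      refine Finset.sum_congr rfl fun b _ => Finset.sum_congr rfl fun c _ => ?_
      unfold ker
      by_cases hq : 2 ^ t * L ≤ (Nat.gcd b c : ℝ) ∧ (Nat.gcd b c : ℝ) ≤ 2 * (2 ^ t * L) ∧
        F.good (2 ^ (A * t)) b c ∧
        (Pairx14.UD F γ (2 ^ t) (4 * D cp t ^ 8) (2 ^ (A * t)) b c ∨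
          Pairx14.UD F γ (2 ^ t) (4 * D cp t ^ 8) (2 ^ (A * t)) c b)
      · rw [if_pos hq, if_pos hq]
      · rw [if_neg hq, if_neg hq]
    have hn : ∀ T : Finset ℕ, 0 ≤ ∑ b ∈ T, nu M b := fun T =>
      Finset.sum_nonneg fun b _ => nu_nonneg M b
    have e1 : √((L * ∑ b ∈ S, nu M b) * (L * ∑ c ∈ S', nu M c)) =
        L * √((∑ b ∈ S, nu M b) * ∑ c ∈ S', nu M c) := by
      rw [show (L * ∑ b ∈ S, nu M b) * (L * ∑ c ∈ S', nu M c) =
        L ^ 2 * ((∑ b ∈ S, nu M b) * ∑ c ∈ S', nu M c) by ring,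
        Real.sqrt_mul (by positivity), Real.sqrt_sq hL]
    have e2 : (2 : ℝ) ^ (-(t : ℝ) / 4) = (2 : ℝ) ^ (-(1 / 4 * (t : ℝ))) := by
      congr 1
      ring
    rw [e1, pow_zero, mul_one, ← e2]
    calc L * _ ≤ L * (C η * A * 2 ^ (-(t : ℝ) / 4) *
          √((∑ b ∈ S, nu M b) * ∑ c ∈ S', nu M c)) := mul_le_mul_of_nonneg_left h2 hL
      _ = _ := by ring

/-- **the class `CUD` with the parameter `DD` of `HyOf_281`** -/
theorem cls_ud (γ : ℝ) :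
    ClsOK γ (fun cp _ A m0 L M B F => CUD F (ParOf cp A m0 γ L M B) (DD cp)) :=
  clsOK_UD (fun _ hcp m => one_le_DD hcp.le m) fun _ _ _ => le_rfl

end Crest.Agent.R4C.ClsUDx208
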