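import Crest.Agent.R4C.Base_935

/-!
# Row 4: induction core for the exact-scale energy theorems, general `M` (helper251)

Kernel `K b c` arbitrary with values in `[0,1]`; passive primes `p ∈ Z` with centre `z0 p`
(`Ok Z z0 b c` : for all `p ∈ Z`, `v_p(b) = z0 p` or `v_p(c) = z0 p`).
`S M Z z0 X K f f'` = sum over pairs of divisors of `M`, `X ≤ gcd < 2X`, `Ok`, of
`gcd * nu * nu * K * f * f'`.

`Val ρ θ Lam e M Z z0 K u` : inductive predicate "u is an upper value".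
`core` : `Val … u → S ≤ 96 ∏ (1+e p) X^(2ρ-1) (E f * E f')^ρ u`.
-/

set_option autoImplicit false

namespace Crest.Agent.R4C.Corex251

open Finset Crest.Agent.R4C.Basex935

/-! ## arithmetic -/

lemma sum_nu_dvd {M d : ℕ} (hM : 0 < M) (hd : d ∣ M) :
    ∑ b ∈ M.divisors.filter (fun b => d ∣ b), nu M b = 1 / (d : ℝ) := by
  obtain ⟨N, rfl⟩ := hd
  have hd0 : 0 < d := Nat.pos_of_mul_pos_right hM |> fun h => by
    rcases Nat.eq_zero_or_pos d with h0 | h0
    · simp [h0] at hM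
    · exact h0
  have hN0 : 0 < N := by
    rcases Nat.eq_zero_or_pos N with h0 | h0
    · simp [h0] at hM
    · exact h0
  have e : (d * N).divisors.filter (fun b => d ∣ b) = N.divisors.image (fun b => d * b) := by
    ext b
    simp only [mem_filter, Nat.mem_divisors, mem_image]
    constructor
    · rintro ⟨⟨h1, h2⟩, b', rfl⟩
      exact ⟨b', ⟨Nat.dvd_of_mul_dvd_mul_left hd0 h1, hN0.ne'⟩, rfl⟩
    · rintro ⟨b', ⟨h1, h2⟩, rfl⟩
      exact ⟨⟨Nat.mul_dvd_mul_left d h1, hM.ne'⟩, dvd_mul_right d b'⟩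
  rw [e, sum_image (fun a _ b _ h => Nat.eq_of_mul_eq_mul_left hd0 h)]
  have h : ∀ b ∈ N.divisors, nu (d * N) (d * b) = nu N b * (1 / (d : ℝ)) := by
    intro b hb
    unfold nu
    rw [Nat.mul_div_mul_left _ _ hd0]
    push_cast
    field_simp
  rw [sum_congr rfl h, ← sum_mul, sum_nu hN0, one_mul]

/-- kept pairs -/
def Ok (Z : Finset ℕ) (z0 : ℕ → ℕ) (b c : ℕ) : Prop :=
  ∀ q ∈ Z, b.factorization q = z0 q ∨ c.factorization q = z0 q

/-- centre word -/
def Hc (M : ℕ) (z0 : ℕ → ℕ) : ℕ := ∏ q ∈ M.primeFactors, q ^ (z0 q)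

/-- deficit -/
def lb (M : ℕ) (z0 : ℕ → ℕ) (b : ℕ) : ℕ := Hc M z0 / Nat.gcd b (Hc M z0)

lemma Hc_pos (M : ℕ) (z0 : ℕ → ℕ) : 0 < Hc M z0 :=
  prod_pos fun _ hq => pow_pos (Nat.prime_of_mem_primeFactors hq).pos _

lemma Hc_fac {M : ℕ} (z0 : ℕ → ℕ) {q : ℕ} (hq : q ∈ M.primeFactors) :
    (Hc M z0).factorization q = z0 q := by
  unfold Hc
  rw [Nat.factorization_prod (fun r hr => pow_ne_zero _ (Nat.prime_of_mem_primeFactors hr).ne_zero)]
  rw [Finsupp.finsetSum_apply]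
  rw [sum_eq_single q]
  · rw [(Nat.prime_of_mem_primeFactors hq).factorization_pow, Finsupp.single_eq_same]
  · intro r hr hrq
    rw [(Nat.prime_of_mem_primeFactors hr).factorization_pow, Finsupp.single_eq_of_ne]
    exact fun h => hrq h.symm
  · intro h; exact absurd hq h

lemma Hc_dvd {M : ℕ} (hM : 0 < M) (z0 : ℕ → ℕ) (hg : ∀ q ∈ M.primeFactors, z0 q ≤ M.factorization q) :
    Hc M z0 ∣ M := by
  rw [← Nat.factorization_le_iff_dvd (Hc_pos M z0).ne' hM.ne']
  intro q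
  by_cases hq : q ∈ M.primeFactors
  · rw [Hc_fac z0 hq]; exact hg q hq
  · have : (Hc M z0).factorization q = 0 := by
      unfold Hc
      rw [Nat.factorization_prod (fun r hr => pow_ne_zero _ (Nat.prime_of_mem_primeFactors hr).ne_zero)]
      rw [Finsupp.finsetSum_apply]
      apply sum_eq_zero
      intro r hr
      rw [(Nat.prime_of_mem_primeFactors hr).factorization_pow, Finsupp.single_eq_of_ne]
      intro h; exact hq (h ▸ hr)
    rw [this]; exact Nat.zero_le _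

lemma lb_mul {M : ℕ} (z0 : ℕ → ℕ) (b : ℕ) : lb M z0 b * Nat.gcd b (Hc M z0) = Hc M z0 :=
  Nat.div_mul_cancel (Nat.gcd_dvd_right _ _)

lemma lb_pos {M : ℕ} (z0 : ℕ → ℕ) (b : ℕ) : 0 < lb M z0 b := by
  rcases Nat.eq_zero_or_pos (lb M z0 b) with h | h
  · have := lb_mul (M := M) z0 b
    rw [h, zero_mul] at this
    exact absurd this (Hc_pos M z0).ne
  · exact h

/-- `g * H = gcd(b,H) * gcd(c,H)` for kept pairs when all primes are passive -/
lemma gcd_ok {M : ℕ} (hM : 0 < M) {Z : Finset ℕ} {z0 : ℕ → ℕ} (hZ : M.primeFactors ⊆ Z)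
    (hg : ∀ q ∈ M.primeFactors, z0 q ≤ M.factorization q) {b c : ℕ} (hb : b ∣ M) (hc : c ∣ M)
    (hok : Ok Z z0 b c) : Nat.gcd b c * Hc M z0 = Nat.gcd b (Hc M z0) * Nat.gcd c (Hc M z0) := by
  have hb0 : b ≠ 0 := (Nat.pos_of_dvd_of_pos hb hM).ne'
  have hc0 : c ≠ 0 := (Nat.pos_of_dvd_of_pos hc hM).ne'
  have hH0 := (Hc_pos M z0).ne'
  have hHM := Hc_dvd hM z0 hg
  apply Nat.eq_of_factorization_eq
  · exact mul_ne_zero (Nat.gcd_ne_zero_left hb0) hH0
  · exact mul_ne_zero (Nat.gcd_ne_zero_left hb0) (Nat.gcd_ne_zero_left hc0)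
  intro q
  rw [Nat.factorization_mul (Nat.gcd_ne_zero_left hb0) hH0,
    Nat.factorization_mul (Nat.gcd_ne_zero_left hb0) (Nat.gcd_ne_zero_left hc0),
    Nat.factorization_gcd hb0 hc0, Nat.factorization_gcd hb0 hH0, Nat.factorization_gcd hc0 hH0]
  simp only [Finsupp.add_apply, Finsupp.inf_apply]
  by_cases hq : q ∈ M.primeFactors
  · rw [Hc_fac z0 hq]
    rcases hok q (hZ hq) with h | h
    · rw [h]; simp only [min_def]; split_ifs <;> omega
    · rw [h]; simp only [min_def]; split_ifs <;> omega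
  · have hz : ∀ n, n ∣ M → n.factorization q = 0 := by
      intro n hn
      have h1 := (Nat.factorization_le_iff_dvd (Nat.pos_of_dvd_of_pos hn hM).ne' hM.ne').2 hn q
      have h2 : M.factorization q = 0 := by
        rw [← Nat.support_factorization] at hq
        exact Finsupp.notMem_support_iff.1 hq
      omega
    rw [hz b hb, hz c hc, hz _ hHM]
    simp

/-- `g * (l_b * l_c) = H` -/
lemma gcd_ok' {M : ℕ} (hM : 0 < M) {Z : Finset ℕ} {z0 : ℕ → ℕ} (hZ : M.primeFactors ⊆ Z)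
    (hg : ∀ q ∈ M.primeFactors, z0 q ≤ M.factorization q) {b c : ℕ} (hb : b ∣ M) (hc : c ∣ M)
    (hok : Ok Z z0 b c) : Nat.gcd b c * (lb M z0 b * lb M z0 c) = Hc M z0 := by
  have h := gcd_ok hM hZ hg hb hc hok
  have h1 := lb_mul (M := M) z0 b
  have h2 := lb_mul (M := M) z0 c
  have hH := Hc_pos M z0
  apply Nat.eq_of_mul_eq_mul_right hH
  calc Nat.gcd b c * (lb M z0 b * lb M z0 c) * Hc M z0
      = (Nat.gcd b c * Hc M z0) * (lb M z0 b * lb M z0 c) := by ring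
    _ = (Nat.gcd b (Hc M z0) * Nat.gcd c (Hc M z0)) * (lb M z0 b * lb M z0 c) := by rw [h]
    _ = (lb M z0 b * Nat.gcd b (Hc M z0)) * (lb M z0 c * Nat.gcd c (Hc M z0)) := by ring
    _ = Hc M z0 * Hc M z0 := by rw [h1, h2]

/-- mass of a deficit class -/
lemma mass_lb {M : ℕ} (hM : 0 < M) {z0 : ℕ → ℕ}
    (hg : ∀ q ∈ M.primeFactors, z0 q ≤ M.factorization q) (l : ℕ) :
    ∑ b ∈ M.divisors.filter (fun b => lb M z0 b = l), nu M b ≤ l / (Hc M z0 : ℝ) := by
  have hH := Hc_pos M z0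
  have hHM := Hc_dvd hM z0 hg
  by_cases hl : l ∣ Hc M z0 ∧ 0 < l
  · obtain ⟨⟨d, hd⟩, hl0⟩ := hl
    have hd0 : 0 < d := by
      rcases Nat.eq_zero_or_pos d with h | h
      · rw [h, mul_zero] at hd; omega
      · exact h
    have hdM : d ∣ M := (Dvd.intro_left l hd.symm).trans hHM
    calc ∑ b ∈ M.divisors.filter (fun b => lb M z0 b = l), nu M b
        ≤ ∑ b ∈ M.divisors.filter (fun b => d ∣ b), nu M b := by
          apply sum_le_sum_of_subset_of_nonneg
          · intro b hb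
            rw [mem_filter] at hb ⊢
            refine ⟨hb.1, ?_⟩
            have h1 := lb_mul (M := M) z0 b
            rw [hb.2, hd] at h1
            have h2 : Nat.gcd b (l * d) = d := Nat.eq_of_mul_eq_mul_left hl0 h1
            rw [← h2]; exact Nat.gcd_dvd_left _ _
          · intro b _ _; exact nu_nonneg _ _
      _ = 1 / (d : ℝ) := sum_nu_dvd hM hdM
      _ = l / (Hc M z0 : ℝ) := by
          rw [hd]; push_cast
          have : (l : ℝ) ≠ 0 := by exact_mod_cast hl0.ne'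
          have : (d : ℝ) ≠ 0 := by exact_mod_cast hd0.ne'
          field_simp
  · have : M.divisors.filter (fun b => lb M z0 b = l) = ∅ := by
      rw [filter_eq_empty_iff]
      intro b _ hb
      apply hl
      rw [← hb]
      exact ⟨Dvd.intro _ (lb_mul z0 b), lb_pos z0 b⟩
    rw [this, sum_empty]
    positivity

/-- dyadic class of the deficit -/
def cls (M : ℕ) (z0 : ℕ → ℕ) (i : ℕ) : Finset ℕ :=
  M.divisors.filter (fun b => Nat.log 2 (lb M z0 b) = i)

lemma mass_cls {M : ℕ} (hM : 0 < M) {z0 : ℕ → ℕ}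
    (hg : ∀ q ∈ M.primeFactors, z0 q ≤ M.factorization q) (i : ℕ) :
    ∑ b ∈ cls M z0 i, nu M b ≤ 2 * 4 ^ i / (Hc M z0 : ℝ) := by
  classical
  have hmaps : ∀ b ∈ cls M z0 i, lb M z0 b ∈ Ico (2 ^ i) (2 ^ (i + 1)) := by
    intro b hb
    unfold cls at hb
    rw [mem_filter] at hb
    rw [mem_Ico]
    exact ⟨hb.2 ▸ Nat.pow_log_le_self 2 (lb_pos z0 b).ne',
      hb.2 ▸ Nat.lt_pow_succ_log_self (by norm_num) _⟩
  rw [← sum_fiberwise_of_maps_to hmaps]
  have hH : (0 : ℝ) < Hc M z0 := by exact_mod_cast Hc_pos M z0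
  calc ∑ l ∈ Ico (2 ^ i) (2 ^ (i + 1)), ∑ b ∈ (cls M z0 i).filter (fun b => lb M z0 b = l), nu M b
      ≤ ∑ l ∈ Ico (2 ^ i) (2 ^ (i + 1)), (2 ^ (i + 1) : ℝ) / (Hc M z0 : ℝ) := by
        apply sum_le_sum
        intro l hl
        rw [mem_Ico] at hl
        calc ∑ b ∈ (cls M z0 i).filter (fun b => lb M z0 b = l), nu M b
            ≤ ∑ b ∈ M.divisors.filter (fun b => lb M z0 b = l), nu M b := by
              apply sum_le_sum_of_subset_of_nonneg
              · intro b hb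
                unfold cls at hb
                rw [mem_filter, mem_filter] at hb
                rw [mem_filter]
                exact ⟨hb.1.1, hb.2⟩
              · intro b _ _; exact nu_nonneg _ _
          _ ≤ l / (Hc M z0 : ℝ) := mass_lb hM hg l
          _ ≤ (2 ^ (i + 1) : ℝ) / (Hc M z0 : ℝ) := by
              apply div_le_div_of_nonneg_right _ hH.le
              exact_mod_cast hl.2.le
    _ = 2 * 4 ^ i / (Hc M z0 : ℝ) := by
        rw [sum_const, Nat.card_Ico, nsmul_eq_mul]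
        have : (2 ^ (i + 1) - 2 ^ i : ℕ) = 2 ^ i := by rw [pow_succ]; omega
        rw [this]
        push_cast
        rw [show (4 : ℝ) ^ i = 2 ^ i * 2 ^ i by rw [← mul_pow]; norm_num]
        ring

/-! ## inequalities for finite sums -/

lemma holder {ι : Type*} (s : Finset ι) (u v : ι → ℝ) (hu : ∀ i ∈ s, 0 ≤ u i)
    (hv : ∀ i ∈ s, 0 ≤ v i) {θ : ℝ} (h0 : 0 < θ) (h1 : θ < 1) :
    ∑ i ∈ s, u i ^ θ * v i ^ (1 - θ) ≤ (∑ i ∈ s, u i) ^ θ * (∑ i ∈ s, v i) ^ (1 - θ) := by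
  have hU : 0 ≤ ∑ i ∈ s, u i := sum_nonneg hu
  have hV : 0 ≤ ∑ i ∈ s, v i := sum_nonneg hv
  rcases hU.eq_or_lt with hU0 | hU0
  · have hz : ∀ i ∈ s, u i = 0 := fun i hi => (sum_eq_zero_iff_of_nonneg hu).1 hU0.symm i hi
    rw [← hU0, Real.zero_rpow h0.ne', zero_mul]
    apply le_of_eq
    apply sum_eq_zero
    intro i hi
    rw [hz i hi, Real.zero_rpow h0.ne', zero_mul]
  rcases hV.eq_or_lt with hV0 | hV0
  · have hz : ∀ i ∈ s, v i = 0 := fun i hi => (sum_eq_zero_iff_of_nonneg hv).1 hV0.symm i hi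
    rw [← hV0, Real.zero_rpow (by linarith : (1 - θ) ≠ 0), mul_zero]
    apply le_of_eq
    apply sum_eq_zero
    intro i hi
    rw [hz i hi, Real.zero_rpow (by linarith : (1 - θ) ≠ 0), mul_zero]
  set A := ∑ i ∈ s, u i with hA
  set B := ∑ i ∈ s, v i with hB
  have step : ∀ i ∈ s, u i ^ θ * v i ^ (1 - θ) ≤
      (A ^ θ * B ^ (1 - θ)) * (θ * (u i / A) + (1 - θ) * (v i / B)) := by
    intro i hi
    have hm := Real.geom_mean_le_arith_mean2_weighted h0.le (by linarith : (0:ℝ) ≤ 1 - θ)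
      (div_nonneg (hu i hi) hU0.le) (div_nonneg (hv i hi) hV0.le) (by ring)
    rw [Real.div_rpow (hu i hi) hU0.le, Real.div_rpow (hv i hi) hV0.le] at hm
    have hAp : 0 < A ^ θ := Real.rpow_pos_of_pos hU0 _
    have hBp : 0 < B ^ (1 - θ) := Real.rpow_pos_of_pos hV0 _
    calc u i ^ θ * v i ^ (1 - θ)
        = (A ^ θ * B ^ (1 - θ)) * (u i ^ θ / A ^ θ * (v i ^ (1 - θ) / B ^ (1 - θ))) := by
          field_simp
      _ ≤ _ := mul_le_mul_of_nonneg_left hm (by positivity)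
  calc ∑ i ∈ s, u i ^ θ * v i ^ (1 - θ)
      ≤ ∑ i ∈ s, (A ^ θ * B ^ (1 - θ)) * (θ * (u i / A) + (1 - θ) * (v i / B)) := sum_le_sum step
    _ = (A ^ θ * B ^ (1 - θ)) * (θ * (A / A) + (1 - θ) * (B / B)) := by
        rw [← mul_sum, sum_add_distrib, ← mul_sum, ← mul_sum, ← sum_div, ← sum_div]
    _ = A ^ θ * B ^ (1 - θ) := by
        rw [div_self hU0.ne', div_self hV0.ne']; ring

/-- convolution bound, `2ρ ≥ 1` -/
lemma conv_le {ρ : ℝ} (h0 : 1/2 ≤ ρ) (N : ℕ) (F G : ℕ → ℝ) (hF : ∀ i, 0 ≤ F i)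
    (hG : ∀ i, 0 ≤ G i) (m : ℕ) :
    ∑ x ∈ ((range N) ×ˢ (range N)).filter (fun x => x.1 + x.2 = m), (F x.1 * G x.2) ^ ρ ≤
      ((∑ i ∈ range N, F i) * (∑ i ∈ range N, G i)) ^ ρ := by
  set A := ∑ i ∈ range N, F i with hA
  set B := ∑ i ∈ range N, G i with hB
  have hA0 : 0 ≤ A := sum_nonneg fun i _ => hF i
  have hB0 : 0 ≤ B := sum_nonneg fun i _ => hG i
  have hρ : 0 < ρ := by linarith
  rcases hA0.eq_or_lt with h | hA1
  · have hz : ∀ i ∈ range N, F i = 0 := fun i hi =>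
      (sum_eq_zero_iff_of_nonneg (fun i _ => hF i)).1 h.symm i hi
    rw [← h, zero_mul, Real.zero_rpow hρ.ne']
    apply le_of_eq
    apply sum_eq_zero
    intro x hx
    rw [mem_filter, mem_product] at hx
    rw [hz _ hx.1.1, zero_mul, Real.zero_rpow hρ.ne']
  rcases hB0.eq_or_lt with h | hB1
  · have hz : ∀ i ∈ range N, G i = 0 := fun i hi =>
      (sum_eq_zero_iff_of_nonneg (fun i _ => hG i)).1 h.symm i hi
    rw [← h, mul_zero, Real.zero_rpow hρ.ne']
    apply le_of_eq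
    apply sum_eq_zero
    intro x hx
    rw [mem_filter, mem_product] at hx
    rw [hz _ hx.1.2, mul_zero, Real.zero_rpow hρ.ne']
  have hAB : 0 < (A * B) ^ ρ := by positivity
  have step : ∀ x ∈ ((range N) ×ˢ (range N)).filter (fun x => x.1 + x.2 = m),
      (F x.1 * G x.2) ^ ρ ≤ (A * B) ^ ρ * ((F x.1 / A + G x.2 / B) / 2) := by
    intro x hx
    rw [mem_filter, mem_product] at hx
    have f1 : F x.1 / A ≤ 1 := by
      rw [div_le_one hA1]; exact single_le_sum (fun i _ => hF i) hx.1.1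
    have g1 : G x.2 / B ≤ 1 := by
      rw [div_le_one hB1]; exact single_le_sum (fun i _ => hG i) hx.1.2
    have f0 : 0 ≤ F x.1 / A := div_nonneg (hF _) hA1.le
    have g0 : 0 ≤ G x.2 / B := div_nonneg (hG _) hB1.le
    have e : (F x.1 * G x.2) ^ ρ = (A * B) ^ ρ * ((F x.1 / A) * (G x.2 / B)) ^ ρ := by
      rw [← Real.mul_rpow (by positivity) (mul_nonneg f0 g0)]
      congr 1
      field_simp
    rw [e]
    apply mul_le_mul_of_nonneg_left _ hAB.le
    have key : ∀ z : ℝ, 0 ≤ z → z ≤ 1 → z ^ (2 * ρ) ≤ z := by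
      intro z hz0 hz1
      rcases hz0.eq_or_lt with h | h
      · rw [← h, Real.zero_rpow (by linarith)]
      · calc z ^ (2 * ρ) ≤ z ^ (1 : ℝ) :=
              Real.rpow_le_rpow_of_exponent_ge h hz1 (by linarith)
          _ = z := Real.rpow_one z
    have e2 : ∀ z : ℝ, 0 ≤ z → z ^ (2 * ρ) = (z ^ ρ) ^ 2 := by
      intro z hz
      rw [mul_comm, Real.rpow_mul hz]; norm_num
    rw [Real.mul_rpow f0 g0]
    have k1 := key _ f0 f1
    have k2 := key _ g0 g1
    rw [e2 _ f0] at k1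
    rw [e2 _ g0] at k2
    nlinarith [sq_nonneg ((F x.1 / A) ^ ρ - (G x.2 / B) ^ ρ)]
  refine (sum_le_sum step).trans ?_
  rw [← mul_sum]
  have h1 : ∑ x ∈ ((range N) ×ˢ (range N)).filter (fun x => x.1 + x.2 = m), F x.1 / A ≤ 1 := by
    calc ∑ x ∈ ((range N) ×ˢ (range N)).filter (fun x => x.1 + x.2 = m), F x.1 / A
        = ∑ i ∈ (((range N) ×ˢ (range N)).filter (fun x => x.1 + x.2 = m)).image Prod.fst, F i / A := by
          rw [sum_image]
          intro x hx y hy hxy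
          rw [mem_coe, mem_filter] at hx hy
          have : x.2 = y.2 := by have := hx.2; have := hy.2; omega
          exact Prod.ext hxy this
      _ ≤ ∑ i ∈ range N, F i / A := by
          apply sum_le_sum_of_subset_of_nonneg
          · intro i hi
            rw [mem_image] at hi
            obtain ⟨x, hx, rfl⟩ := hi
            rw [mem_filter, mem_product] at hx
            exact hx.1.1
          · intro i _ _; exact div_nonneg (hF i) hA1.le
      _ = 1 := by rw [← sum_div, ← hA, div_self hA1.ne']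
  have h2 : ∑ x ∈ ((range N) ×ˢ (range N)).filter (fun x => x.1 + x.2 = m), G x.2 / B ≤ 1 := by
    calc ∑ x ∈ ((range N) ×ˢ (range N)).filter (fun x => x.1 + x.2 = m), G x.2 / B
        = ∑ i ∈ (((range N) ×ˢ (range N)).filter (fun x => x.1 + x.2 = m)).image Prod.snd, G i / B := by
          rw [sum_image]
          intro x hx y hy hxy
          rw [mem_coe, mem_filter] at hx hy
          have : x.1 = y.1 := by have := hx.2; have := hy.2; omega
          exact Prod.ext this hxy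
      _ ≤ ∑ i ∈ range N, G i / B := by
          apply sum_le_sum_of_subset_of_nonneg
          · intro i hi
            rw [mem_image] at hi
            obtain ⟨x, hx, rfl⟩ := hi
            rw [mem_filter, mem_product] at hx
            exact hx.1.2
          · intro i _ _; exact div_nonneg (hG i) hB1.le
      _ = 1 := by rw [← sum_div, ← hB, div_self hB1.ne']
  have h3 : ∑ x ∈ ((range N) ×ˢ (range N)).filter (fun x => x.1 + x.2 = m),
      (F x.1 / A + G x.2 / B) / 2 ≤ 1 := by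
    rw [← sum_div, sum_add_distrib]; linarith
  calc (A * B) ^ ρ * ∑ x ∈ ((range N) ×ˢ (range N)).filter (fun x => x.1 + x.2 = m),
      (F x.1 / A + G x.2 / B) / 2 ≤ (A * B) ^ ρ * 1 := mul_le_mul_of_nonneg_left h3 hAB.le
    _ = (A * B) ^ ρ := mul_one _

/-! ## the sums -/

open Classical in
/-- kernel at exact scale `X`, kept pairs only -/
noncomputable def ker (Z : Finset ℕ) (z0 : ℕ → ℕ) (X : ℝ) (K : ℕ → ℕ → ℝ) (f f' : ℕ → ℝ) :
    ℕ → ℕ → ℝ := fun b c =>
  if X ≤ (Nat.gcd b c : ℝ) ∧ (Nat.gcd b c : ℝ) < 2 * X ∧ Ok Z z0 b c then K b c * f b * f' c else 0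

noncomputable def S (M : ℕ) (Z : Finset ℕ) (z0 : ℕ → ℕ) (X : ℝ) (K : ℕ → ℕ → ℝ)
    (f f' : ℕ → ℝ) : ℝ := frm M (ker Z z0 X K f f')

/-- anatomy weight -/
noncomputable def wt (Lam : ℕ → ℝ) (b : ℕ) : ℝ := ∏ q ∈ b.primeFactors, (1 + Lam q / q)

noncomputable def E (Lam : ℕ → ℝ) (M : ℕ) (f : ℕ → ℝ) : ℝ :=
  ∑ b ∈ M.divisors, nu M b * wt Lam b * f b

open Classical in
/-- natural mass of the kernel in a pair of classes -/
noncomputable def dens (M : ℕ) (Z : Finset ℕ) (z0 : ℕ → ℕ) (K : ℕ → ℕ → ℝ) (i k : ℕ) : ℝ :=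
  ∑ b ∈ cls M z0 i, ∑ c ∈ cls M z0 k, if Ok Z z0 b c then nu M b * nu M c * K b c else 0

lemma wt_one_le {Lam : ℕ → ℝ} (hL : ∀ q, 0 ≤ Lam q) (b : ℕ) : 1 ≤ wt Lam b := by
  unfold wt
  have : ∀ q ∈ b.primeFactors, (1:ℝ) ≤ 1 + Lam q / q := by
    intro q _
    have : 0 ≤ Lam q / (q : ℝ) := div_nonneg (hL q) (Nat.cast_nonneg q)
    linarith
  calc (1:ℝ) = ∏ q ∈ b.primeFactors, (1:ℝ) := by simp
    _ ≤ _ := prod_le_prod (fun _ _ => zero_le_one) this

/-- unweighted mass at most the weighted mass -/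
lemma mass_le_E {Lam : ℕ → ℝ} (hL : ∀ q, 0 ≤ Lam q) (M : ℕ) {f : ℕ → ℝ} (hf : ∀ b, 0 ≤ f b) :
    ∑ b ∈ M.divisors, nu M b * f b ≤ E Lam M f := by
  unfold E
  apply sum_le_sum
  intro b _
  have h1 := wt_one_le hL b
  have h2 := mul_nonneg (nu_nonneg M b) (hf b)
  calc nu M b * f b = (nu M b * f b) * 1 := by ring
    _ ≤ (nu M b * f b) * wt Lam b := mul_le_mul_of_nonneg_left h1 h2
    _ = _ := by ring

/-- number of the dyadic product sizes -/
lemma card_window {Y : ℝ} (T : Finset ℕ)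
    (hT : ∀ m ∈ T, Y / 8 < 2 ^ m ∧ (2:ℝ) ^ m ≤ Y) : T.card ≤ 3 := by
  rcases T.eq_empty_or_nonempty with h | h
  · rw [h]; simp
  · have hsub : T ⊆ Icc (T.min' h) (T.min' h + 2) := by
      intro m hm
      rw [mem_Icc]
      refine ⟨T.min'_le m hm, ?_⟩
      by_contra hcon
      push Not at hcon
      have h1 := (hT _ (T.min'_mem h)).1
      have h2 := (hT m hm).2
      have h3 : (2:ℝ) ^ (T.min' h + 3) ≤ 2 ^ m := pow_le_pow_right₀ (by norm_num) (by omega)
      rw [pow_add] at h3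
      linarith
    calc T.card ≤ (Icc (T.min' h) (T.min' h + 2)).card := card_le_card hsub
      _ ≤ 3 := by rw [Nat.card_Icc]; omega

set_option maxHeartbeats 2000000 in
/-- **base case** : all primes passive -/
theorem base {ρ θ : ℝ} (hρ : 1/2 < ρ) (hθ : 0 < θ) (hρθ : ρ + θ ≤ 1) {M : ℕ} (hM : 0 < M)
    {Z : Finset ℕ} {z0 : ℕ → ℕ} (hZ : M.primeFactors ⊆ Z)
    (hg : ∀ q ∈ M.primeFactors, z0 q ≤ M.factorization q) {K : ℕ → ℕ → ℝ}
    (hK0 : ∀ b c, 0 ≤ K b c) (hK1 : ∀ b c, K b c ≤ 1) {d u : ℝ} (hd : 0 ≤ d)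
    (hdens : ∀ i k, dens M Z z0 K i k ≤ 4 ^ (i + k) / (Hc M z0 : ℝ) ^ 2 * d) (hdu : d ^ θ ≤ u)
    {X : ℝ} (hX : 0 < X) {f f' : ℕ → ℝ} (hf0 : ∀ b, 0 ≤ f b) (hf1 : ∀ b, f b ≤ 1)
    (hf0' : ∀ b, 0 ≤ f' b) (hf1' : ∀ b, f' b ≤ 1) :
    S M Z z0 X K f f' ≤ 96 * (X ^ (2 * ρ - 1) *
      ((∑ b ∈ M.divisors, nu M b * f b) * (∑ b ∈ M.divisors, nu M b * f' b)) ^ ρ * u) := by
  classical
  have hH : (0 : ℝ) < Hc M z0 := by exact_mod_cast Hc_pos M z0
  have hu : 0 ≤ u := (Real.rpow_nonneg hd θ).trans hdu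
  set N := Nat.log 2 (Hc M z0) + 1 with hN
  set F : ℕ → ℝ := fun i => ∑ b ∈ cls M z0 i, nu M b * f b with hF
  set G : ℕ → ℝ := fun i => ∑ b ∈ cls M z0 i, nu M b * f' b with hG
  have hF0 : ∀ i, 0 ≤ F i := fun i => sum_nonneg fun b _ => mul_nonneg (nu_nonneg _ _) (hf0 b)
  have hG0 : ∀ i, 0 ≤ G i := fun i => sum_nonneg fun b _ => mul_nonneg (nu_nonneg _ _) (hf0' b)
  have hFle : ∀ i, F i ≤ 2 * 4 ^ i / (Hc M z0 : ℝ) := fun i =>
    (sum_le_sum fun b _ => by
      calc nu M b * f b ≤ nu M b * 1 := mul_le_mul_of_nonneg_left (hf1 b) (nu_nonneg _ _)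
        _ = nu M b := mul_one _).trans (mass_cls hM hg i)
  have hGle : ∀ i, G i ≤ 2 * 4 ^ i / (Hc M z0 : ℝ) := fun i =>
    (sum_le_sum fun b _ => by
      calc nu M b * f' b ≤ nu M b * 1 := mul_le_mul_of_nonneg_left (hf1' b) (nu_nonneg _ _)
        _ = nu M b := mul_one _).trans (mass_cls hM hg i)
  have hclsN : ∀ b ∈ M.divisors, Nat.log 2 (lb M z0 b) ∈ range N := by
    intro b _
    rw [mem_range, hN]
    have : lb M z0 b ≤ Hc M z0 := Nat.div_le_self _ _
    have := Nat.log_mono_right (b := 2) this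
    omega
  have hsF : ∑ i ∈ range N, F i = ∑ b ∈ M.divisors, nu M b * f b := by
    rw [← sum_fiberwise_of_maps_to hclsN]; rfl
  have hsG : ∑ i ∈ range N, G i = ∑ b ∈ M.divisors, nu M b * f' b := by
    rw [← sum_fiberwise_of_maps_to hclsN]; rfl
  -- one pair of classes
  set P : ℕ → ℕ → ℝ := fun i k => ∑ b ∈ cls M z0 i, ∑ c ∈ cls M z0 k,
    (Nat.gcd b c : ℝ) * nu M b * nu M c * ker Z z0 X K f f' b c with hP
  have hsplit : ∀ T : ℕ → ℕ → ℝ, ∑ b ∈ M.divisors, ∑ c ∈ M.divisors, T b c =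
      ∑ x ∈ range N ×ˢ range N, ∑ b ∈ cls M z0 x.1, ∑ c ∈ cls M z0 x.2, T b c := by
    intro T
    rw [sum_product]
    calc ∑ b ∈ M.divisors, ∑ c ∈ M.divisors, T b c
        = ∑ b ∈ M.divisors, ∑ k ∈ range N, ∑ c ∈ cls M z0 k, T b c :=
          sum_congr rfl fun b _ => (sum_fiberwise_of_maps_to hclsN _).symm
      _ = ∑ i ∈ range N, ∑ b ∈ cls M z0 i, ∑ k ∈ range N, ∑ c ∈ cls M z0 k, T b c :=
          (sum_fiberwise_of_maps_to hclsN _).symm
      _ = _ := sum_congr rfl fun i _ => sum_comm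
  have hsum : S M Z z0 X K f f' = ∑ x ∈ range N ×ˢ range N, P x.1 x.2 := hsplit _
  set Y : ℝ := (Hc M z0 : ℝ) / X with hY
  have hYpos : 0 < Y := by positivity
  set R : ℕ → ℕ → ℝ := fun i k => ∑ b ∈ cls M z0 i, ∑ c ∈ cls M z0 k,
    (if Ok Z z0 b c then nu M b * nu M c * (K b c * f b * f' c) else 0) with hR
  have hR0 : ∀ i k, 0 ≤ R i k := fun i k => sum_nonneg fun b _ => sum_nonneg fun c _ => by
    split_ifs
    · have := nu_nonneg M b; have := nu_nonneg M c; have := hK0 b c; have := hf0 b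
      have := hf0' c
      positivity
    · exact le_rfl
  have hlog : ∀ i, ∀ b ∈ cls M z0 i, (2:ℝ) ^ i ≤ lb M z0 b ∧ (lb M z0 b : ℝ) < 2 ^ (i + 1) ∧ b ∣ M := by
    intro i b hb
    unfold cls at hb
    rw [mem_filter, Nat.mem_divisors] at hb
    refine ⟨?_, ?_, hb.1.1⟩
    · have : 2 ^ i ≤ lb M z0 b := hb.2 ▸ Nat.pow_log_le_self 2 (lb_pos z0 b).ne'
      exact_mod_cast this
    · have : lb M z0 b < 2 ^ (i + 1) := hb.2 ▸ Nat.lt_pow_succ_log_self (by norm_num) _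
      exact_mod_cast this
  have hPle : ∀ i k, P i k ≤
      if Y / 8 < 2 ^ (i + k) ∧ (2:ℝ) ^ (i + k) ≤ Y then (Hc M z0 : ℝ) / 2 ^ (i + k) * R i k else 0 := by
    intro i k
    have hterm : ∀ b ∈ cls M z0 i, ∀ c ∈ cls M z0 k,
        (Nat.gcd b c : ℝ) * nu M b * nu M c * ker Z z0 X K f f' b c ≤
        if Y / 8 < 2 ^ (i + k) ∧ (2:ℝ) ^ (i + k) ≤ Y then (Hc M z0 : ℝ) / 2 ^ (i + k) *
          (if Ok Z z0 b c then nu M b * nu M c * (K b c * f b * f' c) else 0) else 0 := by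
      intro b hb c hc
      obtain ⟨hb1, hb2, hb3⟩ := hlog i b hb
      obtain ⟨hc1, hc2, hc3⟩ := hlog k c hc
      have hν := nu_nonneg M b
      have hν' := nu_nonneg M c
      have hKK := hK0 b c
      have hff := hf0 b
      have hff' := hf0' c
      by_cases hc0 : X ≤ (Nat.gcd b c : ℝ) ∧ (Nat.gcd b c : ℝ) < 2 * X ∧ Ok Z z0 b c
      · obtain ⟨h1, h2, h3⟩ := hc0
        have hg' := gcd_ok' hM hZ hg hb3 hc3 h3
        have hgr : (Nat.gcd b c : ℝ) * ((lb M z0 b : ℝ) * (lb M z0 c : ℝ)) = Hc M z0 := by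
          exact_mod_cast hg'
        have hg0 : (0:ℝ) < Nat.gcd b c := hX.trans_le h1
        have hl1 : (2:ℝ) ^ (i + k) ≤ (lb M z0 b : ℝ) * (lb M z0 c : ℝ) := by
          rw [pow_add]; exact mul_le_mul hb1 hc1 (by positivity) (by positivity)
        have hl2 : (lb M z0 b : ℝ) * (lb M z0 c : ℝ) < 4 * 2 ^ (i + k) := by
          have : (lb M z0 b : ℝ) * (lb M z0 c : ℝ) < 2 ^ (i + 1) * 2 ^ (k + 1) :=
            mul_lt_mul'' hb2 hc2 (by positivity) (by positivity)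
          calc _ < (2:ℝ) ^ (i + 1) * 2 ^ (k + 1) := this
            _ = 4 * 2 ^ (i + k) := by rw [pow_succ, pow_succ, pow_add]; ring
        have w1 : (2:ℝ) ^ (i + k) ≤ Y := by
          rw [hY, le_div_iff₀ hX]
          calc (2:ℝ) ^ (i + k) * X ≤ ((lb M z0 b : ℝ) * (lb M z0 c : ℝ)) * Nat.gcd b c :=
                mul_le_mul hl1 h1 hX.le (by positivity)
            _ = Hc M z0 := by rw [← hgr]; ring
        have w2 : Y / 8 < 2 ^ (i + k) := by
          rw [hY, div_div, div_lt_iff₀ (by positivity), ← hgr]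
          calc (Nat.gcd b c : ℝ) * ((lb M z0 b : ℝ) * (lb M z0 c : ℝ))
              < (2 * X) * (4 * 2 ^ (i + k)) :=
                mul_lt_mul'' h2 hl2 hg0.le (by positivity)
            _ = 2 ^ (i + k) * (X * 8) := by ring
        rw [if_pos ⟨w2, w1⟩, if_pos h3]
        unfold ker
        rw [if_pos ⟨h1, h2, h3⟩]
        have hgle : (Nat.gcd b c : ℝ) ≤ (Hc M z0 : ℝ) / 2 ^ (i + k) := by
          rw [le_div_iff₀ (by positivity), ← hgr]
          exact mul_le_mul_of_nonneg_left hl1 hg0.le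
        calc (Nat.gcd b c : ℝ) * nu M b * nu M c * (K b c * f b * f' c)
            = (Nat.gcd b c : ℝ) * (nu M b * nu M c * (K b c * f b * f' c)) := by ring
          _ ≤ _ := mul_le_mul_of_nonneg_right hgle (by positivity)
      · unfold ker
        rw [if_neg hc0, mul_zero]
        split_ifs
        · positivity
        · simp
        · exact le_rfl
    calc P i k ≤ ∑ b ∈ cls M z0 i, ∑ c ∈ cls M z0 k,
        (if Y / 8 < 2 ^ (i + k) ∧ (2:ℝ) ^ (i + k) ≤ Y then (Hc M z0 : ℝ) / 2 ^ (i + k) *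
          (if Ok Z z0 b c then nu M b * nu M c * (K b c * f b * f' c) else 0) else 0) :=
          sum_le_sum fun b hb => sum_le_sum fun c hc => hterm b hb c hc
      _ = _ := by
          by_cases hw : Y / 8 < 2 ^ (i + k) ∧ (2:ℝ) ^ (i + k) ≤ Y
          · simp only [if_pos hw]
            rw [hR]
            simp only
            rw [mul_sum]
            exact sum_congr rfl fun b _ => (mul_sum _ _ _).symm
          · simp only [if_neg hw, sum_const_zero]
  have hRle : ∀ i k, R i k ≤ (dens M Z z0 K i k) ^ θ * (F i * G k) ^ (1 - θ) := by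
    intro i k
    have e1 : R i k = ∑ x ∈ cls M z0 i ×ˢ cls M z0 k,
        (if Ok Z z0 x.1 x.2 then nu M x.1 * nu M x.2 * (K x.1 x.2 * f x.1 * f' x.2) else 0) := by
      rw [sum_product]
    have e2 : dens M Z z0 K i k = ∑ x ∈ cls M z0 i ×ˢ cls M z0 k,
        (if Ok Z z0 x.1 x.2 then nu M x.1 * nu M x.2 * K x.1 x.2 else 0) := by
      rw [sum_product]; rfl
    have e3 : F i * G k = ∑ x ∈ cls M z0 i ×ˢ cls M z0 k,
        (nu M x.1 * nu M x.2 * (f x.1 * f' x.2)) := by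
      rw [hF, hG, sum_product, sum_mul_sum]
      exact sum_congr rfl fun b _ => sum_congr rfl fun c _ => by ring
    rw [e1, e2, e3]
    refine le_trans ?_ (holder _ _ _ ?_ ?_ hθ (by linarith))
    · apply sum_le_sum
      intro x _
      have hν := nu_nonneg M x.1
      have hν' := nu_nonneg M x.2
      have hKK := hK0 x.1 x.2
      have hff := hf0 x.1
      have hff' := hf0' x.2
      split_ifs
      · set n := nu M x.1 * nu M x.2 with hn
        have hn0 : 0 ≤ n := mul_nonneg hν hν'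
        set φ := f x.1 * f' x.2 with hφ
        have hφ0 : 0 ≤ φ := mul_nonneg hff hff'
        have hφ1 : φ ≤ 1 := by
          calc φ ≤ 1 * 1 := mul_le_mul (hf1 _) (hf1' _) hff' (by norm_num)
            _ = 1 := one_mul 1
        rw [Real.mul_rpow hn0 hKK, Real.mul_rpow hn0 hφ0]
        have k1 : K x.1 x.2 ≤ K x.1 x.2 ^ θ := by
          rcases hKK.eq_or_lt with h | h
          · rw [← h, Real.zero_rpow hθ.ne']
          · calc K x.1 x.2 = K x.1 x.2 ^ (1:ℝ) := (Real.rpow_one _).symm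
              _ ≤ K x.1 x.2 ^ θ :=
                Real.rpow_le_rpow_of_exponent_ge h (hK1 _ _) (by linarith)
        have k2 : φ ≤ φ ^ (1 - θ) := by
          rcases hφ0.eq_or_lt with h | h
          · rw [← h, Real.zero_rpow (by linarith : (1 - θ) ≠ 0)]
          · calc φ = φ ^ (1:ℝ) := (Real.rpow_one _).symm
              _ ≤ φ ^ (1 - θ) :=
                Real.rpow_le_rpow_of_exponent_ge h hφ1 (by linarith)
        have k3 : n ^ θ * n ^ (1 - θ) = n := by
          rw [← Real.rpow_add_of_nonneg hn0 hθ.le (by linarith)]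
          rw [show θ + (1 - θ) = 1 by ring, Real.rpow_one]
        calc n * (K x.1 x.2 * f x.1 * f' x.2) = n * (K x.1 x.2 * φ) := by rw [hφ]; ring
          _ ≤ n * (K x.1 x.2 ^ θ * φ ^ (1 - θ)) :=
              mul_le_mul_of_nonneg_left (mul_le_mul k1 k2 hφ0 (Real.rpow_nonneg hKK _)) hn0
          _ = (n ^ θ * n ^ (1 - θ)) * (K x.1 x.2 ^ θ * φ ^ (1 - θ)) := by rw [k3]
          _ = _ := by ring
      · positivity
    · intro x _
      have hν := nu_nonneg M x.1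
      have hν' := nu_nonneg M x.2
      have hKK := hK0 x.1 x.2
      split_ifs
      · positivity
      · exact le_rfl
    · intro x _
      have hν := nu_nonneg M x.1
      have hν' := nu_nonneg M x.2
      have hff := hf0 x.1
      have hff' := hf0' x.2
      positivity
  have hdens0 : ∀ i k, 0 ≤ dens M Z z0 K i k := fun i k => by
    unfold dens
    refine sum_nonneg fun b _ => sum_nonneg fun c _ => ?_
    split_ifs
    · have := nu_nonneg M b; have := nu_nonneg M c; have := hK0 b c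
      positivity
    · exact le_rfl
  -- size bound for one pair of classes in the window
  have hone : ∀ i k, Y / 8 < 2 ^ (i + k) → (2:ℝ) ^ (i + k) ≤ Y →
      (Hc M z0 : ℝ) / 2 ^ (i + k) * R i k ≤ 32 * (X ^ (2 * ρ - 1) * (F i * G k) ^ ρ * u) := by
    intro i k hw1 hw2
    set m := i + k with hm
    set q : ℝ := (Hc M z0 : ℝ) / 2 ^ m with hq
    have hq0 : 0 < q := by positivity
    have hqX : q ≤ 8 * X := by
      rw [hq, div_le_iff₀ (by positivity)]
      rw [hY, div_div, div_lt_iff₀ (by positivity)] at hw1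
      linarith
    have hFG : 0 ≤ F i * G k := mul_nonneg (hF0 i) (hG0 k)
    have h4 : (4:ℝ) ^ m / (Hc M z0 : ℝ) ^ 2 = (q⁻¹) ^ 2 := by
      rw [hq, inv_div, div_pow, ← pow_mul, mul_comm m 2, pow_mul]; norm_num
    have hdd : (dens M Z z0 K i k) ^ θ ≤ (q⁻¹ ^ 2) ^ θ * d ^ θ := by
      rw [← Real.mul_rpow (by positivity) hd]
      apply Real.rpow_le_rpow (hdens0 i k) _ hθ.le
      rw [← h4]; exact hdens i k
    have hFG2 : F i * G k ≤ 4 * q⁻¹ ^ 2 := by
      calc F i * G k ≤ (2 * 4 ^ i / (Hc M z0 : ℝ)) * (2 * 4 ^ k / (Hc M z0 : ℝ)) :=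
            mul_le_mul (hFle i) (hGle k) (hG0 k) (by positivity)
        _ = 4 * (4 ^ m / (Hc M z0 : ℝ) ^ 2) := by rw [hm, pow_add]; ring
        _ = _ := by rw [h4]
    have hexp : 0 ≤ 1 - θ - ρ := by linarith
    have hFG3 : (F i * G k) ^ (1 - θ) ≤ (F i * G k) ^ ρ * (4 * (q⁻¹ ^ 2) ^ (1 - θ - ρ)) := by
      have e : (1 - θ) = ρ + (1 - θ - ρ) := by ring
      conv_lhs => rw [e, Real.rpow_add_of_nonneg hFG (by linarith) hexp]
      apply mul_le_mul_of_nonneg_left _ (Real.rpow_nonneg hFG _)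
      calc (F i * G k) ^ (1 - θ - ρ) ≤ (4 * q⁻¹ ^ 2) ^ (1 - θ - ρ) :=
            Real.rpow_le_rpow hFG hFG2 hexp
        _ = 4 ^ (1 - θ - ρ) * (q⁻¹ ^ 2) ^ (1 - θ - ρ) :=
            Real.mul_rpow (by norm_num) (by positivity)
        _ ≤ 4 * (q⁻¹ ^ 2) ^ (1 - θ - ρ) := by
            apply mul_le_mul_of_nonneg_right _ (by positivity)
            calc (4:ℝ) ^ (1 - θ - ρ) ≤ 4 ^ (1:ℝ) :=
                  Real.rpow_le_rpow_of_exponent_le (by norm_num) (by linarith)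
              _ = 4 := Real.rpow_one _
    have hdθ : 0 ≤ d ^ θ := Real.rpow_nonneg hd θ
    have hqq : q * ((q⁻¹ ^ 2) ^ θ * (q⁻¹ ^ 2) ^ (1 - θ - ρ)) = q ^ (2 * ρ - 1) := by
      rw [← Real.rpow_add (by positivity), show θ + (1 - θ - ρ) = 1 - ρ by ring]
      have : (q⁻¹ ^ 2) ^ (1 - ρ) = q ^ (-(2 * (1 - ρ))) := by
        rw [Real.rpow_neg hq0.le, ← Real.inv_rpow hq0.le]
        rw [Real.rpow_mul (by positivity)]
        norm_num
      rw [this]
      conv_lhs => rw [← Real.rpow_one q, ← Real.rpow_mul hq0.le, one_mul,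
        ← Real.rpow_add hq0]
      congr 1; ring
    have hqX2 : q ^ (2 * ρ - 1) ≤ 8 * X ^ (2 * ρ - 1) := by
      calc q ^ (2 * ρ - 1) ≤ (8 * X) ^ (2 * ρ - 1) :=
            Real.rpow_le_rpow hq0.le hqX (by linarith)
        _ = 8 ^ (2 * ρ - 1) * X ^ (2 * ρ - 1) := Real.mul_rpow (by norm_num) hX.le
        _ ≤ 8 * X ^ (2 * ρ - 1) := by
            apply mul_le_mul_of_nonneg_right _ (Real.rpow_nonneg hX.le _)
            calc (8:ℝ) ^ (2 * ρ - 1) ≤ 8 ^ (1:ℝ) :=
                  Real.rpow_le_rpow_of_exponent_le (by norm_num) (by linarith)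
              _ = 8 := Real.rpow_one _
    have hFGρ : 0 ≤ (F i * G k) ^ ρ := Real.rpow_nonneg hFG _
    have hqi1 : 0 ≤ (q⁻¹ ^ 2) ^ θ := by positivity
    have hqi2 : 0 ≤ (q⁻¹ ^ 2) ^ (1 - θ - ρ) := by positivity
    calc q * R i k ≤ q * ((dens M Z z0 K i k) ^ θ * (F i * G k) ^ (1 - θ)) :=
          mul_le_mul_of_nonneg_left (hRle i k) hq0.le
      _ ≤ q * (((q⁻¹ ^ 2) ^ θ * d ^ θ) * ((F i * G k) ^ ρ * (4 * (q⁻¹ ^ 2) ^ (1 - θ - ρ)))) := by
          apply mul_le_mul_of_nonneg_left _ hq0.le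
          exact mul_le_mul hdd hFG3 (Real.rpow_nonneg hFG _) (by positivity)
      _ = 4 * (q * ((q⁻¹ ^ 2) ^ θ * (q⁻¹ ^ 2) ^ (1 - θ - ρ))) * ((F i * G k) ^ ρ * d ^ θ) := by ring
      _ = 4 * q ^ (2 * ρ - 1) * ((F i * G k) ^ ρ * d ^ θ) := by rw [hqq]
      _ ≤ 4 * (8 * X ^ (2 * ρ - 1)) * ((F i * G k) ^ ρ * u) := by
          apply mul_le_mul _ _ (by positivity) (by positivity)
          · linarith
          · exact mul_le_mul_of_nonneg_left hdu hFGρ
      _ = _ := by ring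
  set T : Finset ℕ := (range (2 * N)).filter (fun m => Y / 8 < 2 ^ m ∧ (2:ℝ) ^ m ≤ Y) with hT
  have hTc : T.card ≤ 3 := card_window T fun m hm => (mem_filter.1 hm).2
  set W := (range N ×ˢ range N).filter
    (fun x : ℕ × ℕ => Y / 8 < 2 ^ (x.1 + x.2) ∧ (2:ℝ) ^ (x.1 + x.2) ≤ Y) with hW
  have hWT : ∀ x ∈ W, x.1 + x.2 ∈ T := by
    intro x hx
    rw [hW, mem_filter, mem_product, mem_range, mem_range] at hx
    rw [hT, mem_filter, mem_range]
    exact ⟨by omega, hx.2⟩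
  have hu' : 0 ≤ X ^ (2 * ρ - 1) := Real.rpow_nonneg hX.le _
  set c0 : ℝ := 32 * (X ^ (2 * ρ - 1) * u) with hc0
  have hc00 : 0 ≤ c0 := by positivity
  calc S M Z z0 X K f f' = ∑ x ∈ range N ×ˢ range N, P x.1 x.2 := hsum
    _ ≤ ∑ x ∈ range N ×ˢ range N,
        (if Y / 8 < 2 ^ (x.1 + x.2) ∧ (2:ℝ) ^ (x.1 + x.2) ≤ Y then
          c0 * (F x.1 * G x.2) ^ ρ else 0) := by
        apply sum_le_sum
        intro x _
        refine (hPle x.1 x.2).trans ?_
        split_ifs with hw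
        · refine (hone x.1 x.2 hw.1 hw.2).trans (le_of_eq ?_)
          rw [hc0]; ring
        · exact le_rfl
    _ = ∑ x ∈ W, c0 * (F x.1 * G x.2) ^ ρ := by rw [hW, sum_filter]
    _ = ∑ m ∈ T, ∑ x ∈ W.filter (fun x => x.1 + x.2 = m), c0 * (F x.1 * G x.2) ^ ρ :=
        (sum_fiberwise_of_maps_to hWT _).symm
    _ ≤ ∑ m ∈ T, c0 * ((∑ b ∈ M.divisors, nu M b * f b) * (∑ b ∈ M.divisors, nu M b * f' b)) ^ ρ := by
        apply sum_le_sum
        intro m _
        rw [← mul_sum]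
        apply mul_le_mul_of_nonneg_left _ hc00
        rw [← hsF, ← hsG]
        refine le_trans ?_ (conv_le hρ.le N F G hF0 hG0 m)
        apply sum_le_sum_of_subset_of_nonneg
        · intro x hx
          rw [mem_filter, hW, mem_filter] at hx
          rw [mem_filter]
          exact ⟨hx.1.1, hx.2⟩
        · intro x _ _
          exact Real.rpow_nonneg (mul_nonneg (hF0 _) (hG0 _)) _
    _ = T.card * (c0 * ((∑ b ∈ M.divisors, nu M b * f b) *
          (∑ b ∈ M.divisors, nu M b * f' b)) ^ ρ) := by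
        rw [sum_const, nsmul_eq_mul]
    _ ≤ 3 * (c0 * ((∑ b ∈ M.divisors, nu M b * f b) *
          (∑ b ∈ M.divisors, nu M b * f' b)) ^ ρ) := by
        apply mul_le_mul_of_nonneg_right
        · exact_mod_cast hTc
        · have h1 : 0 ≤ ∑ b ∈ M.divisors, nu M b * f b :=
            sum_nonneg fun b _ => mul_nonneg (nu_nonneg _ _) (hf0 b)
          have h2 : 0 ≤ ∑ b ∈ M.divisors, nu M b * f' b :=
            sum_nonneg fun b _ => mul_nonneg (nu_nonneg _ _) (hf0' b)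
          have := Real.rpow_nonneg (mul_nonneg h1 h2) ρ
          positivity
    _ = _ := by rw [hc0]; ring

/-! ## splitting at one prime -/

/-- slice of the kernel -/
def slc (p v v' : ℕ) (K : ℕ → ℕ → ℝ) : ℕ → ℕ → ℝ := fun b c => K (p ^ v * b) (p ^ v' * c)

/-- slice of a function -/
def slf (p v : ℕ) (f : ℕ → ℝ) : ℕ → ℝ := fun b => f (p ^ v * b)

lemma frm_congr {M : ℕ} {F G : ℕ → ℕ → ℝ} (h : ∀ b, b ∣ M → ∀ c, c ∣ M → F b c = G b c) :
    frm M F = frm M G := by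
  unfold frm
  refine sum_congr rfl fun b hb => sum_congr rfl fun c hc => ?_
  rw [h b (Nat.dvd_of_mem_divisors hb) c (Nat.dvd_of_mem_divisors hc)]

lemma frm_add (M : ℕ) (F G : ℕ → ℕ → ℝ) :
    frm M (fun b c => F b c + G b c) = frm M F + frm M G := by
  unfold frm
  rw [← sum_add_distrib]
  refine sum_congr rfl fun b _ => ?_
  rw [← sum_add_distrib]
  refine sum_congr rfl fun c _ => ?_
  ring

lemma fac_ne {p q : ℕ} (hp : p.Prime) (hpq : q ≠ p) (v : ℕ) {b : ℕ} (hb : b ≠ 0) :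
    (p ^ v * b).factorization q = b.factorization q := by
  rw [Nat.factorization_mul (pow_ne_zero _ hp.ne_zero) hb, Finsupp.add_apply,
    hp.factorization_pow, Finsupp.single_eq_of_ne hpq, zero_add]

lemma fac_eq {p : ℕ} (hp : p.Prime) (v : ℕ) {b : ℕ} (hb : ¬ p ∣ b) :
    (p ^ v * b).factorization p = v := by
  have hb0 : b ≠ 0 := fun h => hb (h ▸ dvd_zero p)
  rw [Nat.factorization_mul (pow_ne_zero _ hp.ne_zero) hb0, Finsupp.add_apply,
    hp.factorization_pow, Finsupp.single_eq_same, Nat.factorization_eq_zero_of_not_dvd hb, add_zero]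

lemma ok_split {p : ℕ} (hp : p.Prime) {Z : Finset ℕ} (hpZ : p ∉ Z) (z0 : ℕ → ℕ) (v v' : ℕ)
    {b c : ℕ} (hb : b ≠ 0) (hc : c ≠ 0) : Ok Z z0 (p ^ v * b) (p ^ v' * c) ↔ Ok Z z0 b c := by
  unfold Ok
  refine forall_congr' fun q => forall_congr' fun hq => ?_
  have hqp : q ≠ p := fun h => hpZ (h ▸ hq)
  rw [fac_ne hp hqp v hb, fac_ne hp hqp v' hc]

lemma ker_split {p : ℕ} (hp : p.Prime) {Z : Finset ℕ} (hpZ : p ∉ Z) (z0 : ℕ → ℕ) (v v' : ℕ)
    (X : ℝ) (K : ℕ → ℕ → ℝ) (f f' : ℕ → ℝ) {b c : ℕ} (hb : ¬ p ∣ b) (hc : ¬ p ∣ c) :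
    ker Z z0 X K f f' (p ^ v * b) (p ^ v' * c) =
      ker Z z0 (X / (p : ℝ) ^ (min v v')) (slc p v v' K) (slf p v f) (slf p v' f') b c := by
  have hb0 : b ≠ 0 := fun h => hb (h ▸ dvd_zero p)
  have hc0 : c ≠ 0 := fun h => hc (h ▸ dvd_zero p)
  have hp0 : (0:ℝ) < (p : ℝ) ^ (min v v') := by
    have : (0:ℝ) < p := by exact_mod_cast hp.pos
    positivity
  have e1 : (X ≤ (Nat.gcd (p ^ v * b) (p ^ v' * c) : ℝ)) ↔
      X / (p : ℝ) ^ (min v v') ≤ (Nat.gcd b c : ℝ) := by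
    rw [gcd_split hp v v' hb hc, div_le_iff₀ hp0]
    push_cast
    rw [mul_comm]
  have e2 : ((Nat.gcd (p ^ v * b) (p ^ v' * c) : ℝ) < 2 * X) ↔
      (Nat.gcd b c : ℝ) < 2 * (X / (p : ℝ) ^ (min v v')) := by
    rw [gcd_split hp v v' hb hc, ← mul_div_assoc, lt_div_iff₀ hp0]
    push_cast
    rw [mul_comm]
  unfold ker
  by_cases h : X / (p : ℝ) ^ (min v v') ≤ (Nat.gcd b c : ℝ) ∧
      (Nat.gcd b c : ℝ) < 2 * (X / (p : ℝ) ^ (min v v')) ∧ Ok Z z0 b c
  · rw [if_pos h, if_pos ⟨e1.2 h.1, e2.2 h.2.1, (ok_split hp hpZ z0 v v' hb0 hc0).2 h.2.2⟩]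
    rfl
  · rw [if_neg h, if_neg]
    intro h'
    exact h ⟨e1.1 h'.1, e2.1 h'.2.1, (ok_split hp hpZ z0 v v' hb0 hc0).1 h'.2.2⟩

/-- active splitting of `S` -/
theorem S_split {p : ℕ} (hp : p.Prime) (a : ℕ) {M1 : ℕ} (hM : 0 < M1) (h : ¬ p ∣ M1)
    {Z : Finset ℕ} (hpZ : p ∉ Z) (z0 : ℕ → ℕ) (X : ℝ) (K : ℕ → ℕ → ℝ) (f f' : ℕ → ℝ) :
    S (p ^ a * M1) Z z0 X K f f' = ∑ v ∈ range (a + 1), ∑ v' ∈ range (a + 1),
      (p : ℝ) ^ (min v v') * nup p a v * nup p a v' *
        S M1 Z z0 (X / (p : ℝ) ^ (min v v')) (slc p v v' K) (slf p v f) (slf p v' f') := by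
  unfold S
  rw [frm_split hp a hM h]
  refine sum_congr rfl fun v _ => sum_congr rfl fun v' _ => ?_
  congr 1
  exact frm_congr fun b hb c hc => ker_split hp hpZ z0 v v' X K f f'
    (fun hc' => h (hc'.trans hb)) (fun hc' => h (hc'.trans hc))

/-- passive splitting of `S` -/
theorem S_pass {p : ℕ} (hp : p.Prime) (a : ℕ) {M1 : ℕ} (hM : 0 < M1) (h : ¬ p ∣ M1)
    {Z : Finset ℕ} (hpZ : p ∉ Z) (z0 : ℕ → ℕ) (X : ℝ) (K : ℕ → ℕ → ℝ) (f f' : ℕ → ℝ) (v0 : ℕ) :
    S (p ^ a * M1) Z z0 X K f f' =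
      S (p ^ a * M1) (insert p Z) (Function.update z0 p v0) X K f f' +
      ∑ v ∈ (range (a + 1)).erase v0, ∑ v' ∈ (range (a + 1)).erase v0,
      (p : ℝ) ^ (min v v') * nup p a v * nup p a v' *
        S M1 Z z0 (X / (p : ℝ) ^ (min v v')) (slc p v v' K) (slf p v f) (slf p v' f') := by
  classical
  set G : ℕ → ℕ → ℝ := fun b c =>
    if b.factorization p ≠ v0 ∧ c.factorization p ≠ v0 then ker Z z0 X K f f' b c else 0 with hG
  have hk : ∀ b c, ker Z z0 X K f f' b c =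
      ker (insert p Z) (Function.update z0 p v0) X K f f' b c + G b c := by
    intro b c
    have hok : Ok (insert p Z) (Function.update z0 p v0) b c ↔
        (b.factorization p = v0 ∨ c.factorization p = v0) ∧ Ok Z z0 b c := by
      unfold Ok
      constructor
      · intro h1
        refine ⟨?_, ?_⟩
        · have := h1 p (mem_insert_self p Z)
          rwa [Function.update_self] at this
        · intro q hq
          have hqp : q ≠ p := fun h => hpZ (h ▸ hq)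
          have := h1 q (mem_insert_of_mem hq)
          rwa [Function.update_of_ne hqp] at this
      · rintro ⟨h1, h2⟩ q hq
        rcases mem_insert.1 hq with rfl | hq
        · rwa [Function.update_self]
        · have hqp : q ≠ p := fun h => hpZ (h ▸ hq)
          rw [Function.update_of_ne hqp]
          exact h2 q hq
    rw [hG]
    simp only
    unfold ker
    rw [hok]
    by_cases h1 : b.factorization p = v0 ∨ c.factorization p = v0
    · rw [if_neg (by tauto : ¬ (b.factorization p ≠ v0 ∧ c.factorization p ≠ v0)), add_zero]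
      simp [h1]
    · push Not at h1
      rw [if_pos h1]
      have : ¬ (b.factorization p = v0 ∨ c.factorization p = v0) := by tauto
      simp [this]
  have e1 : S (p ^ a * M1) Z z0 X K f f' =
      S (p ^ a * M1) (insert p Z) (Function.update z0 p v0) X K f f' + frm (p ^ a * M1) G := by
    unfold S
    rw [← frm_add]
    exact frm_congr fun b _ c _ => hk b c
  rw [e1]
  congr 1
  rw [frm_split hp a hM h]
  have e2 : ∀ v v' : ℕ, frm M1 (fun b c => G (p ^ v * b) (p ^ v' * c)) =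
      if v ≠ v0 ∧ v' ≠ v0 then
        S M1 Z z0 (X / (p : ℝ) ^ (min v v')) (slc p v v' K) (slf p v f) (slf p v' f') else 0 := by
    intro v v'
    split_ifs with hv
    · unfold S
      refine frm_congr fun b hb c hc => ?_
      have hb' : ¬ p ∣ b := fun hc' => h (hc'.trans hb)
      have hc' : ¬ p ∣ c := fun hc' => h (hc'.trans hc)
      rw [hG]
      simp only
      rw [fac_eq hp v hb', fac_eq hp v' hc', if_pos hv]
      exact ker_split hp hpZ z0 v v' X K f f' hb' hc'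
    · have : frm M1 (fun b c => G (p ^ v * b) (p ^ v' * c)) = frm M1 (fun _ _ => 0) := by
        refine frm_congr fun b hb c hc => ?_
        have hb' : ¬ p ∣ b := fun hc' => h (hc'.trans hb)
        have hc' : ¬ p ∣ c := fun hc' => h (hc'.trans hc)
        rw [hG]
        simp only
        rw [fac_eq hp v hb', fac_eq hp v' hc', if_neg hv]
      rw [this]
      unfold frm
      simp
  simp only [e2]
  have e3 : (range (a + 1)).erase v0 = (range (a + 1)).filter (fun v => v ≠ v0) := by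
    ext v; simp only [mem_erase, mem_filter]; tauto
  rw [e3, sum_filter]
  refine sum_congr rfl fun v _ => ?_
  by_cases hv : v = v0
  · simp [hv]
  · rw [if_pos hv, sum_filter]
    refine sum_congr rfl fun v' _ => ?_
    by_cases hv' : v' = v0
    · simp [hv']
    · rw [if_pos ⟨hv, hv'⟩, if_pos hv']

/-- weight of a letter -/
noncomputable def lw (L : ℝ) (p v : ℕ) : ℝ := if v = 0 then 1 else 1 + L / p

lemma lw_pos {L : ℝ} (hL : 0 ≤ L) (p v : ℕ) : 0 < lw L p v := by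
  unfold lw
  split_ifs
  · norm_num
  · have : 0 ≤ L / (p : ℝ) := div_nonneg hL (Nat.cast_nonneg p)
    linarith

lemma one_le_lw {L : ℝ} (hL : 0 ≤ L) (p v : ℕ) : 1 ≤ lw L p v := by
  unfold lw
  split_ifs
  · norm_num
  · have : 0 ≤ L / (p : ℝ) := div_nonneg hL (Nat.cast_nonneg p)
    linarith

lemma wt_split (Lam : ℕ → ℝ) {p : ℕ} (hp : p.Prime) (v : ℕ) {b : ℕ} (hb : ¬ p ∣ b) :
    wt Lam (p ^ v * b) = lw (Lam p) p v * wt Lam b := by
  have hb0 : b ≠ 0 := fun h => hb (h ▸ dvd_zero p)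
  unfold wt lw
  by_cases hv : v = 0
  · simp [hv]
  · rw [Nat.primeFactors_mul (pow_ne_zero _ hp.ne_zero) hb0, Nat.primeFactors_prime_pow hv hp,
      if_neg hv, prod_union, prod_singleton]
    rw [disjoint_singleton_left]
    exact fun h => hb (Nat.dvd_of_mem_primeFactors h)

lemma E_split (Lam : ℕ → ℝ) {p : ℕ} (hp : p.Prime) (a : ℕ) {M1 : ℕ} (hM : 0 < M1) (h : ¬ p ∣ M1)
    (f : ℕ → ℝ) : E Lam (p ^ a * M1) f = ∑ v ∈ range (a + 1),
      nup p a v * lw (Lam p) p v * E Lam M1 (slf p v f) := by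
  unfold E
  rw [sum_split hp a hM h]
  refine sum_congr rfl fun v hv => ?_
  rw [mem_range] at hv
  rw [mul_sum]
  refine sum_congr rfl fun b hb => ?_
  have hbd := Nat.dvd_of_mem_divisors hb
  have hcop : Nat.Coprime (p ^ a) M1 :=
    Nat.Coprime.pow_left a ((Nat.Prime.coprime_iff_not_dvd hp).2 h)
  rw [nu_mul hcop (pow_dvd_pow p (by omega)) hbd, nu_prime_pow hp (by omega),
    wt_split Lam hp v (fun hc' => h (hc'.trans hbd))]
  unfold slf
  ring

lemma E_nonneg {Lam : ℕ → ℝ} (hL : ∀ q, 0 ≤ Lam q) (M : ℕ) {f : ℕ → ℝ} (hf : ∀ b, 0 ≤ f b) :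
    0 ≤ E Lam M f := by
  unfold E
  refine sum_nonneg fun b _ => ?_
  have := nu_nonneg M b
  have := zero_le_one.trans (wt_one_le hL b)
  have := hf b
  positivity

end Crest.Agent.R4C.Corex251
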