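import Crest.Agent.R4C.CrSieve_935

/-!
# Row 4: exact count of the kept pairs with a given offset (helper935)

* `count_avoid` : integers in an interval of length divisible by all primes of `S`, avoiding a set of
  residues modulo each prime of `S`.
* `PC_le` : `PC γ ρ (Kc κ) q q' ≤ ∑_{h ∈ Hf} Wt κ q q' h`.
-/

set_option autoImplicit false
open MeasureTheory Filter Set Topology

namespace Crest.Agent.R4C.CrCountx935

open Crest.Agent.R4.Soft104 Crest.Agent.R4C.CrRedx935 Crest.Agent.R4C.CrLocx935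
  Crest.Agent.R4C.CrPairx935 Crest.Agent.R4C.CrSievex935

/-- integers of `[a, a+L)` avoiding the residues `B p` for `p ∈ S` -/
noncomputable def av (S : Finset ℕ) (B : ∀ p : ℕ, Finset (ZMod p)) (a : ℤ) (L : ℕ) : Finset ℤ :=
  open Classical in (Finset.Ico a (a + L)).filter (fun k => ∀ p ∈ S, (k : ZMod p) ∉ B p)

lemma mem_av {S : Finset ℕ} {B : ∀ p : ℕ, Finset (ZMod p)} {a k : ℤ} {L : ℕ} :
    k ∈ av S B a L ↔ (a ≤ k ∧ k < a + L) ∧ ∀ p ∈ S, (k : ZMod p) ∉ B p := by
  unfold av
  rw [Finset.mem_filter, Finset.mem_Ico]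

lemma av_class {S : Finset ℕ} {r : ℕ} (hS : ∀ p ∈ S, p.Prime) (hr : r.Prime) (hrS : r ∉ S)
    (B : ∀ p : ℕ, Finset (ZMod p)) (a : ℤ) (L' : ℕ) (b : ZMod r) :
    ∃ (B' : ∀ p : ℕ, Finset (ZMod p)) (a' : ℤ), (∀ p ∈ S, (B' p).card = (B p).card) ∧
      (open Classical in ((av S B a (r * L')).filter (fun k : ℤ => (k : ZMod r) = b)).card) =
        (av S B' a' L').card := by
  classical
  have : NeZero r := ⟨hr.ne_zero⟩
  have hr0 : (0 : ℝ) < r := by exact_mod_cast hr.pos
  set f : ℤ := (b.val : ℤ) with hf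
  have hfb : (f : ZMod r) = b := by
    rw [hf]; push_cast; exact ZMod.natCast_zmod_val b
  have hunit : ∀ p ∈ S, (r : ZMod p) ≠ 0 := by
    intro p hp h
    have h2 := (ZMod.natCast_eq_zero_iff r p).1 h
    exact hrS ((Nat.prime_dvd_prime_iff_eq (hS p hp) hr).1 h2 ▸ hp)
  refine ⟨fun p => (B p).image (fun c => (c - (f : ZMod p)) * (r : ZMod p)⁻¹), ⌈((a - f : ℤ) : ℝ) / r⌉,
    ?_, ?_⟩
  · intro p hp
    have : Fact p.Prime := ⟨hS p hp⟩
    refine Finset.card_image_of_injective _ fun c c' h => ?_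
    have h1 : (r : ZMod p)⁻¹ ≠ 0 := inv_ne_zero (hunit p hp)
    have h2 := mul_right_cancel₀ h1 h
    exact sub_left_injective h2
  · symm
    have hceil : ⌈((a - f : ℤ) : ℝ) / r⌉ + L' = ⌈((a + r * L' - f : ℤ) : ℝ) / r⌉ := by
      rw [← Int.ceil_add_natCast]
      congr 1
      push_cast
      field_simp
      ring
    refine Finset.card_bij (fun m _ => f + r * m) ?_ ?_ ?_
    · intro m hm
      rw [mem_av, hceil, Int.ceil_le, Int.lt_ceil] at hm
      rw [Finset.mem_filter, mem_av]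
      refine ⟨⟨⟨?_, ?_⟩, ?_⟩, ?_⟩
      · have := hm.1.1
        rw [div_le_iff₀ hr0] at this
        have h2 : a - f ≤ m * r := by exact_mod_cast this
        linarith
      · have := hm.1.2
        rw [lt_div_iff₀ hr0] at this
        have h2 : m * r < a + r * L' - f := by exact_mod_cast this
        push_cast
        linarith
      · intro p hp
        have : Fact p.Prime := ⟨hS p hp⟩
        have h3 := hm.2 p hp
        intro h4
        apply h3
        rw [Finset.mem_image]
        refine ⟨_, h4, ?_⟩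
        push_cast
        rw [add_sub_cancel_left, mul_comm (r : ZMod p), mul_assoc, mul_inv_cancel₀ (hunit p hp),
          mul_one]
      · push_cast
        rw [hfb, ZMod.natCast_self, zero_mul, add_zero]
    · intro m _ m' _ h
      have hr0' : (r : ℤ) ≠ 0 := by exact_mod_cast hr.ne_zero
      exact mul_left_cancel₀ hr0' (add_left_cancel h)
    · intro k hk
      rw [Finset.mem_filter, mem_av] at hk
      have h1 : ((k - f : ℤ) : ZMod r) = 0 := by
        push_cast
        rw [hk.2, hfb, sub_self]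
      rw [ZMod.intCast_zmod_eq_zero_iff_dvd] at h1
      obtain ⟨m, hm⟩ := h1
      have hk' : k = f + r * m := by linarith
      refine ⟨m, ?_, hk'.symm⟩
      rw [mem_av, hceil, Int.ceil_le, Int.lt_ceil]
      refine ⟨⟨?_, ?_⟩, ?_⟩
      · rw [div_le_iff₀ hr0]
        have h2 := hk.1.1.1
        have : a - f ≤ m * r := by linarith
        exact_mod_cast this
      · rw [lt_div_iff₀ hr0]
        have h2 := hk.1.1.2
        push_cast at h2
        have : m * r < a + r * L' - f := by linarith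
        exact_mod_cast this
      · intro p hp
        have : Fact p.Prime := ⟨hS p hp⟩
        rw [Finset.mem_image]
        rintro ⟨c, hc, hc'⟩
        refine hk.1.2 p hp ?_
        have h3 : (k : ZMod p) = c := by
          rw [hk']
          push_cast
          rw [← hc', mul_comm (r : ZMod p), mul_assoc, inv_mul_cancel₀ (hunit p hp), mul_one]
          ring
        rw [h3]; exact hc

theorem count_avoid (S : Finset ℕ) (hS : ∀ p ∈ S, p.Prime) :
    ∀ (B : ∀ p : ℕ, Finset (ZMod p)) (a : ℤ) (L : ℕ), (∏ p ∈ S, p) ∣ L →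
      ((av S B a L).card : ℝ) = L * ∏ p ∈ S, (1 - ((B p).card : ℝ) / p) := by
  classical
  induction S using Finset.induction_on with
  | empty =>
    intro B a L _
    have h1 : av ∅ B a L = Finset.Ico a (a + L) := by
      ext n; rw [mem_av, Finset.mem_Ico]; simp
    rw [h1, Int.card_Ico]
    simp
  | insert r S hrS ih =>
    intro B a L hL
    have hr : r.Prime := hS r (Finset.mem_insert_self _ _)
    have hr0 : (r : ℝ) ≠ 0 := by exact_mod_cast hr.ne_zero
    have hS' : ∀ p ∈ S, p.Prime := fun p hp => hS p (Finset.mem_insert_of_mem hp)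
    rw [Finset.prod_insert hrS] at hL
    obtain ⟨L', hL'⟩ : ∃ L', L = r * L' := by
      obtain ⟨c, hc⟩ := hL
      exact ⟨(∏ p ∈ S, p) * c, by rw [hc, mul_assoc]⟩
    subst hL'
    have hSL' : (∏ p ∈ S, p) ∣ L' := Nat.dvd_of_mul_dvd_mul_left hr.pos hL
    have h1 : av (insert r S) B a (r * L') =
        (av S B a (r * L')).filter (fun n : ℤ => ¬ (n : ZMod r) ∈ B r) := by
      ext n
      rw [Finset.mem_filter, mem_av, mem_av]
      simp only [Finset.mem_insert, forall_eq_or_imp]
      tauto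
    have h2 : ((av S B a (r * L')).filter (fun n : ℤ => (n : ZMod r) ∈ B r)).card =
        ∑ b ∈ B r, ((av S B a (r * L')).filter (fun k : ℤ => (k : ZMod r) = b)).card := by
      have h := Finset.card_eq_sum_card_fiberwise
        (s := (av S B a (r * L')).filter (fun n : ℤ => (n : ZMod r) ∈ B r))
        (f := fun n : ℤ => (n : ZMod r)) (t := B r)
        (fun n hn => (Finset.mem_filter.1 (Finset.mem_coe.1 hn)).2)
      rw [h]
      refine Finset.sum_congr rfl fun b hb => ?_
      congr 1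
      ext n
      simp only [Finset.mem_filter]
      constructor
      · rintro ⟨⟨h3, _⟩, h4⟩; exact ⟨h3, h4⟩
      · rintro ⟨h3, h4⟩; exact ⟨⟨h3, h4 ▸ hb⟩, h4⟩
    have h3 : ∀ b ∈ B r, (((av S B a (r * L')).filter (fun k : ℤ => (k : ZMod r) = b)).card : ℝ) =
        L' * ∏ p ∈ S, (1 - ((B p).card : ℝ) / p) := by
      intro b _
      obtain ⟨B', a', hB', hcard⟩ := av_class hS' hr hrS B a L' b
      rw [hcard, ih hS' B' a' L' hSL']
      congr 1
      exact Finset.prod_congr rfl fun p hp => by rw [hB' p hp]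
    have h4 := Finset.card_filter_add_card_filter_not (s := av S B a (r * L'))
      (fun n : ℤ => (n : ZMod r) ∈ B r)
    have h5 : (((av S B a (r * L')).filter (fun n : ℤ => (n : ZMod r) ∈ B r)).card : ℝ) +
        ((av S B a (r * L')).filter (fun n : ℤ => ¬ (n : ZMod r) ∈ B r)).card =
        (av S B a (r * L')).card := by exact_mod_cast h4
    have h6 := ih hS' B a (r * L') (dvd_mul_of_dvd_right hSL' r)
    have h7 : (((av S B a (r * L')).filter (fun n : ℤ => (n : ZMod r) ∈ B r)).card : ℝ) =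
        (B r).card * (L' * ∏ p ∈ S, (1 - ((B p).card : ℝ) / p)) := by
      rw [h2]
      push_cast
      rw [Finset.sum_congr rfl h3, Finset.sum_const, nsmul_eq_mul]
    rw [h1, Finset.prod_insert hrS]
    have h8 : (((av S B a (r * L')).filter (fun n : ℤ => ¬ (n : ZMod r) ∈ B r)).card : ℝ) =
        ((r * L' : ℕ) : ℝ) * ∏ p ∈ S, (1 - ((B p).card : ℝ) / p) -
          (B r).card * (L' * ∏ p ∈ S, (1 - ((B p).card : ℝ) / p)) := by linarith
    rw [h8]
    push_cast
    field_simp

/-! ### pairs with a given offset -/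

/-- some prime of `s'` (resp. `s`) kills the offset `h`; here `q = g s'`, `q' = g s` -/
def killed (κ : ℕ → ℕ → ℤ) (q q' s s' : ℕ) (h : ℤ) : Prop :=
  (∃ p ∈ s'.primeFactors, (p : ℤ) ∣ h - s * κ q p) ∨ (∃ p ∈ s.primeFactors, (p : ℤ) ∣ h + s' * κ q' p)

open Classical in
/-- number of forbidden classes at `p ∣ g` -/
noncomputable def nuc (κ : ℕ → ℕ → ℤ) (q q' s s' : ℕ) (h : ℤ) (p : ℕ) : ℕ :=
  if p ∣ s * s' ∨ (p : ℤ) ∣ h - s * κ q p + s' * κ q' p then 1 else 2

open Classical in
/-- exact number of kept pairs with offset `h` -/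
noncomputable def Wt (κ : ℕ → ℕ → ℤ) (q q' g s s' : ℕ) (h : ℤ) : ℝ :=
  if killed κ q q' s s' h then 0
  else g * ∏ p ∈ g.primeFactors, (1 - (nuc κ q q' s s' h p : ℝ) / p)

/-- upper bound for the number of kept pairs with offset `h` -/
theorem fiber_card {κ : ℕ → ℕ → ℤ} {g s s' : ℕ} (hg : 0 < g) (hs : 0 < s) (hs' : 0 < s')
    (hcop : Nat.Coprime s s') (h : ℤ) (T : Finset (ℤ × ℤ))
    (hT : ∀ v ∈ T, 0 ≤ v.1 ∧ v.1 < (g * s' : ℕ) ∧ v.1 ∈ Kc κ (g * s') ∧ v.2 ∈ Kc κ (g * s) ∧
      s * v.1 - s' * v.2 = h) :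
    (T.card : ℝ) ≤ Wt κ (g * s') (g * s) g s s' h := by
  classical
  set q := g * s' with hq
  set q' := g * s with hq'
  have hq0 : q ≠ 0 := by positivity
  have hq0' : q' ≠ 0 := by positivity
  have hs0 : (s : ℤ) ≠ 0 := by exact_mod_cast hs.ne'
  have hs0' : (s' : ℤ) ≠ 0 := by exact_mod_cast hs'.ne'
  have hs'pos : (0 : ℤ) < s' := by exact_mod_cast hs'
  have hpi : ∀ p : ℕ, p.Prime → Prime (p : ℤ) := fun p hp => Nat.prime_iff_prime_int.1 hp
  unfold Wt
  split_ifs with hk
  · -- killed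
    have : T = ∅ := by
      by_contra hne
      obtain ⟨v, hv⟩ := Finset.nonempty_iff_ne_empty.2 hne
      obtain ⟨_, _, h3, h4, h5⟩ := hT v hv
      rcases hk with ⟨p, hp, hd⟩ | ⟨p, hp, hd⟩
      · have hpp := Nat.prime_of_mem_primeFactors hp
        have hps' : p ∣ s' := Nat.dvd_of_mem_primeFactors hp
        have hps : ¬ (p : ℤ) ∣ s := by
          intro hc
          have hc' : p ∣ s := by exact_mod_cast hc
          have := Nat.dvd_gcd hc' hps'
          rw [hcop.gcd_eq_one] at this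
          exact hpp.one_lt.ne' (Nat.dvd_one.1 this)
        have e : h - s * κ q p = s * (v.1 - κ q p) - s' * v.2 := by rw [← h5]; ring
        rw [e] at hd
        have hd2 : (p : ℤ) ∣ s' * v.2 := dvd_mul_of_dvd_left (by exact_mod_cast hps') _
        have hd3 : (p : ℤ) ∣ s * (v.1 - κ q p) := (dvd_sub_left hd2).1 hd
        have hd4 := ((hpi p hpp).dvd_or_dvd hd3).resolve_left hps
        exact h3 p (Nat.mem_primeFactors.2 ⟨hpp, dvd_mul_of_dvd_right hps' g, hq0⟩) hd4
      · have hpp := Nat.prime_of_mem_primeFactors hp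
        have hps : p ∣ s := Nat.dvd_of_mem_primeFactors hp
        have hps' : ¬ (p : ℤ) ∣ s' := by
          intro hc
          have hc' : p ∣ s' := by exact_mod_cast hc
          have := Nat.dvd_gcd hps hc'
          rw [hcop.gcd_eq_one] at this
          exact hpp.one_lt.ne' (Nat.dvd_one.1 this)
        have e : h + s' * κ q' p = s * v.1 - s' * (v.2 - κ q' p) := by rw [← h5]; ring
        rw [e] at hd
        have hd2 : (p : ℤ) ∣ s * v.1 := dvd_mul_of_dvd_left (by exact_mod_cast hps) _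
        have hd3 : (p : ℤ) ∣ s' * (v.2 - κ q' p) := (dvd_sub_right hd2).1 hd
        have hd4 := ((hpi p hpp).dvd_or_dvd hd3).resolve_left hps'
        exact h4 p (Nat.mem_primeFactors.2 ⟨hpp, dvd_mul_of_dvd_right hps g, hq0'⟩) hd4
    simp [this]
  · -- not killed
    rcases T.eq_empty_or_nonempty with rfl | ⟨v₀, hv₀⟩
    · simp only [Finset.card_empty, Nat.cast_zero]
      refine mul_nonneg (by positivity) (Finset.prod_nonneg fun p hp => ?_)
      have hpp := (Nat.prime_of_mem_primeFactors hp).two_le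
      have hp0 : (0 : ℝ) < p := by exact_mod_cast (by omega : 0 < p)
      rw [sub_nonneg, div_le_one hp0]
      have : nuc κ q q' s s' h p ≤ 2 := by unfold nuc; split_ifs <;> norm_num
      exact_mod_cast this.trans hpp
    -- base solution
    obtain ⟨h01, h02, _, _, h05⟩ := hT v₀ hv₀
    set a := v₀.1 with ha
    set b := v₀.2 with hb
    have hpar : ∀ v ∈ T, ∃ k : ℤ, v.1 = a + s' * k ∧ v.2 = b + s * k := by
      intro v hv
      obtain ⟨_, _, _, _, h5⟩ := hT v hv
      have e : (s : ℤ) * (v.1 - a) = s' * (v.2 - b) := by linarith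
      have hd : (s' : ℤ) ∣ s * (v.1 - a) := ⟨_, e⟩
      have hc2 : IsCoprime (s' : ℤ) s := by
        rw [Nat.isCoprime_iff_coprime]; exact hcop.symm
      obtain ⟨k, hk'⟩ := hc2.dvd_of_dvd_mul_left hd
      refine ⟨k, by linarith, ?_⟩
      rw [hk'] at e
      have e2 : (s' : ℤ) * (s * k) = s' * (v.2 - b) := by linarith
      have := mul_left_cancel₀ hs0' e2
      linarith
    -- the classes
    set B : ∀ p : ℕ, Finset (ZMod p) := fun p =>
      (if p ∣ s' then ∅ else {((κ q p - a : ℤ) : ZMod p) * (s' : ZMod p)⁻¹}) ∪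
      (if p ∣ s then ∅ else {((κ q' p - b : ℤ) : ZMod p) * (s : ZMod p)⁻¹}) with hB
    have hBcard : ∀ p ∈ g.primeFactors, (B p).card = nuc κ q q' s s' h p := by
      intro p hp
      have hpp := Nat.prime_of_mem_primeFactors hp
      have : Fact p.Prime := ⟨hpp⟩
      unfold nuc
      by_cases h1 : p ∣ s'
      · have h2 : ¬ p ∣ s := by
          intro hc
          have := Nat.dvd_gcd hc h1
          rw [hcop.gcd_eq_one] at this
          exact hpp.one_lt.ne' (Nat.dvd_one.1 this)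
        rw [if_pos (Or.inl (dvd_mul_of_dvd_right h1 s))]
        simp [hB, h1, h2]
      · by_cases h2 : p ∣ s
        · rw [if_pos (Or.inl (dvd_mul_of_dvd_left h2 s'))]
          simp [hB, h1, h2]
        · have h3 : ¬ p ∣ s * s' := fun hc => ((hpp.dvd_mul).1 hc).elim h2 h1
          have hs1 : (s : ZMod p) ≠ 0 := fun hc => h2 ((ZMod.natCast_eq_zero_iff s p).1 hc)
          have hs1' : (s' : ZMod p) ≠ 0 := fun hc => h1 ((ZMod.natCast_eq_zero_iff s' p).1 hc)
          have key : (((κ q p - a : ℤ) : ZMod p) * (s' : ZMod p)⁻¹ =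
              ((κ q' p - b : ℤ) : ZMod p) * (s : ZMod p)⁻¹) ↔
              (p : ℤ) ∣ h - s * κ q p + s' * κ q' p := by
            rw [← ZMod.intCast_zmod_eq_zero_iff_dvd, ← h05]
            rw [← div_eq_mul_inv, ← div_eq_mul_inv, div_eq_div_iff hs1' hs1]
            push_cast
            constructor
            · intro hc; linear_combination -hc
            · intro hc; linear_combination -hc
          by_cases h4 : (p : ℤ) ∣ h - s * κ q p + s' * κ q' p
          · rw [if_pos (Or.inr h4)]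
            simp only [hB, h1, h2, if_false]
            rw [key.2 h4]
            simp
          · rw [if_neg (by tauto)]
            simp only [hB, h1, h2, if_false]
            rw [Finset.card_union_of_disjoint]
            · simp
            · rw [Finset.disjoint_singleton]
              exact fun hc => h4 (key.1 hc)
    have hcount := count_avoid g.primeFactors (fun p hp => Nat.prime_of_mem_primeFactors hp) B
      (-(a / s')) g (Nat.prod_primeFactors_dvd g)
    rw [Finset.prod_congr rfl fun p hp => by rw [hBcard p hp]] at hcount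
    rw [← hcount]
    have hle : T.card ≤ (av g.primeFactors B (-(a / s')) g).card := by
      refine Finset.card_le_card_of_injOn (fun v => (v.1 - a) / s') ?_ ?_
      · intro v hv
        have hv' := Finset.mem_coe.1 hv
        obtain ⟨k, hk1, hk2⟩ := hpar v hv'
        obtain ⟨h1, h2, h3, h4, _⟩ := hT v hv'
        have ek : (v.1 - a) / (s' : ℤ) = k := by
          rw [hk1, add_sub_cancel_left, Int.mul_ediv_cancel_left _ hs0']
        simp only [Finset.mem_coe]
        rw [ek, mem_av]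
        have ha1 := Int.emod_add_mul_ediv a s'
        have ha2 := Int.emod_nonneg a hs0'
        have ha3 := Int.emod_lt_of_pos a hs'pos
        refine ⟨⟨?_, ?_⟩, ?_⟩
        · by_contra hc
          have hc' : k + 1 ≤ -(a / s') := by omega
          have : (s' : ℤ) * (k + 1) ≤ s' * -(a / s') := mul_le_mul_of_nonneg_left hc' hs'pos.le
          nlinarith
        · by_contra hc
          have hc' : -(a / s') + g ≤ k := by omega
          have h6 : (s' : ℤ) * (-(a / s') + g) ≤ s' * k := mul_le_mul_of_nonneg_left hc' hs'pos.le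
          have h7 : v.1 < (g : ℤ) * s' := by rw [hq] at h2; push_cast at h2; exact h2
          nlinarith
        · intro p hp hmem
          have hpp := Nat.prime_of_mem_primeFactors hp
          have : Fact p.Prime := ⟨hpp⟩
          have hpg := Nat.dvd_of_mem_primeFactors hp
          simp only [hB, Finset.mem_union] at hmem
          rcases hmem with hmem | hmem
          · by_cases h8 : p ∣ s'
            · simp [h8] at hmem
            · simp only [h8, if_false, Finset.mem_singleton] at hmem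
              have hs1' : (s' : ZMod p) ≠ 0 := fun hc => h8 ((ZMod.natCast_eq_zero_iff s' p).1 hc)
              refine h3 p (Nat.mem_primeFactors.2 ⟨hpp, dvd_mul_of_dvd_left hpg s', hq0⟩) ?_
              rw [← ZMod.intCast_zmod_eq_zero_iff_dvd, hk1]
              push_cast
              rw [hmem]
              push_cast
              field_simp
              ring
          · by_cases h8 : p ∣ s
            · simp [h8] at hmem
            · simp only [h8, if_false, Finset.mem_singleton] at hmem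
              have hs1 : (s : ZMod p) ≠ 0 := fun hc => h8 ((ZMod.natCast_eq_zero_iff s p).1 hc)
              refine h4 p (Nat.mem_primeFactors.2 ⟨hpp, dvd_mul_of_dvd_left hpg s, hq0'⟩) ?_
              rw [← ZMod.intCast_zmod_eq_zero_iff_dvd, hk2]
              push_cast
              rw [hmem]
              push_cast
              field_simp
              ring
      · intro v hv v' hv' hvv
        obtain ⟨k, hk1, hk2⟩ := hpar v (Finset.mem_coe.1 hv)
        obtain ⟨k', hk1', hk2'⟩ := hpar v' (Finset.mem_coe.1 hv')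
        simp only at hvv
        rw [hk1, hk1', add_sub_cancel_left, add_sub_cancel_left, Int.mul_ediv_cancel_left _ hs0',
          Int.mul_ediv_cancel_left _ hs0'] at hvv
        subst hvv
        exact Prod.ext (by rw [hk1, hk1']) (by rw [hk2, hk2'])
    exact_mod_cast hle

open Classical in
/-- admissible offsets -/
noncomputable def Hf (γ Δ : ℝ) (s s' : ℕ) : Finset ℤ :=
  (Finset.Icc ⌊-(((s : ℝ) - s') * γ) - Δ⌋ ⌈-(((s : ℝ) - s') * γ) + Δ⌉).filter
    (fun h : ℤ => |((s : ℝ) - s') * γ + h| < Δ)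

lemma mem_Hf {γ Δ : ℝ} {s s' : ℕ} {h : ℤ} : h ∈ Hf γ Δ s s' ↔ |((s : ℝ) - s') * γ + h| < Δ := by
  unfold Hf
  rw [Finset.mem_filter]
  constructor
  · exact fun hh => hh.2
  · intro hh
    refine ⟨?_, hh⟩
    rw [abs_lt] at hh
    rw [Finset.mem_Icc]
    constructor
    · have : ((⌊-(((s : ℝ) - s') * γ) - Δ⌋ : ℤ) : ℝ) ≤ h := (Int.floor_le _).trans (by linarith)
      exact_mod_cast this
    · have : (h : ℝ) ≤ ((⌈-(((s : ℝ) - s') * γ) + Δ⌉ : ℤ) : ℝ) :=
        le_trans (by linarith) (Int.le_ceil _)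
      exact_mod_cast this

/-- **the pair count as a sum over offsets** -/
theorem PC_le {γ ρ : ℝ} {κ : ℕ → ℕ → ℤ} {g s s' : ℕ} (hg : 0 < g) (hs : 0 < s) (hs' : 0 < s')
    (hcop : Nat.Coprime s s') :
    (PC γ ρ (Kc κ) (g * s') (g * s) : ℝ) ≤
      ∑ h ∈ Hf γ (2 * ρ * (g * s * s' : ℕ)) s s', Wt κ (g * s') (g * s) g s s' h := by
  classical
  have hg' : (0 : ℝ) < g := by exact_mod_cast hg
  have hs1 : (0 : ℝ) < s := by exact_mod_cast hs
  have hs1' : (0 : ℝ) < s' := by exact_mod_cast hs'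
  have hfin := Pr_finite (γ := γ) (ρ := ρ) (Kp := Kc κ) (q := g * s') (q' := g * s) (by positivity)
  unfold PC
  rw [Set.ncard_eq_toFinset_card _ hfin]
  have hmap : ∀ v ∈ hfin.toFinset, s * v.1 - s' * v.2 ∈ Hf γ (2 * ρ * (g * s * s' : ℕ)) s s' := by
    intro v hv
    have hv' := (hfin.mem_toFinset.1 hv).2.2.2.2
    rw [mem_Hf]
    have e : ((s : ℝ) - s') * γ + ((s * v.1 - s' * v.2 : ℤ) : ℝ) =
        ((γ + v.1) / ((g * s' : ℕ) : ℝ) - (γ + v.2) / ((g * s : ℕ) : ℝ)) * (g * s * s' : ℕ) := by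
      push_cast
      field_simp
      ring
    rw [e, abs_mul, abs_of_pos (by positivity : (0 : ℝ) < ((g * s * s' : ℕ) : ℝ))]
    exact mul_lt_mul_of_pos_right hv' (by positivity)
  rw [Finset.card_eq_sum_card_fiberwise (f := fun v : ℤ × ℤ => (s : ℤ) * v.1 - s' * v.2)
    (t := Hf γ (2 * ρ * (g * s * s' : ℕ)) s s') (fun v hv => hmap v (Finset.mem_coe.1 hv))]
  push_cast
  refine Finset.sum_le_sum fun h _ => ?_
  refine fiber_card hg hs hs' hcop h _ fun v hv => ?_
  rw [Finset.mem_filter] at hv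
  have hv' := hfin.mem_toFinset.1 hv.1
  exact ⟨hv'.1, hv'.2.1, hv'.2.2.1, hv'.2.2.2.1, hv.2⟩

/-- the offset energy of an ordered pair `(q, q')`; `g = gcd`, `s = q'/g`, `s' = q/g` -/
noncomputable def En (γ ρ : ℝ) (κ : ℕ → ℕ → ℤ) (q q' : ℕ) : ℝ :=
  ∑ h ∈ Hf γ (2 * ρ * (Nat.lcm q q' : ℕ)) (q' / Nat.gcd q q') (q / Nat.gcd q q'),
    Wt κ q q' (Nat.gcd q q') (q' / Nat.gcd q q') (q / Nat.gcd q q') h

theorem PC_le_En {γ ρ : ℝ} {κ : ℕ → ℕ → ℤ} {q q' : ℕ} (hq : 0 < q) (hq' : 0 < q') :
    (PC γ ρ (Kc κ) q q' : ℝ) ≤ En γ ρ κ q q' := by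
  set g := Nat.gcd q q' with hg
  have hg0 : 0 < g := Nat.gcd_pos_of_pos_left _ hq
  obtain ⟨s', hs'⟩ : g ∣ q := Nat.gcd_dvd_left _ _
  obtain ⟨s, hs⟩ : g ∣ q' := Nat.gcd_dvd_right _ _
  have hs0 : 0 < s := Nat.pos_of_ne_zero fun h => by rw [h, mul_zero] at hs; omega
  have hs0' : 0 < s' := Nat.pos_of_ne_zero fun h => by rw [h, mul_zero] at hs'; omega
  have e1 : q' / g = s := by rw [hs]; exact Nat.mul_div_cancel_left _ hg0
  have e2 : q / g = s' := by rw [hs']; exact Nat.mul_div_cancel_left _ hg0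
  have hcop : Nat.Coprime s s' := by
    have := Nat.coprime_div_gcd_div_gcd (m := q) (n := q') hg0
    rw [← hg, e1, e2] at this
    exact this.symm
  have hlcm : Nat.lcm q q' = q' * s' := by
    have h1 := Nat.gcd_mul_lcm q q'
    rw [← hg] at h1
    have h2 : g * Nat.lcm q q' = g * (q' * s') := by rw [h1]; nth_rw 1 [hs']; ring
    exact Nat.eq_of_mul_eq_mul_left hg0 h2
  have h := PC_le (γ := γ) (ρ := ρ) (κ := κ) hg0 hs0 hs0' hcop
  unfold En
  rw [← hg, e1, e2, hlcm]
  rw [← hs', ← hs] at h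
  exact h

/-- **final interface**: forbidden classes, explicit energy -/
def KCw (γ : ℝ) : Prop := ∃ c : ℝ, 0 < c ∧ ∃ C : ℝ, ∃ δ : ℝ, 0 < δ ∧ ∃ P : ℕ,
  ∀ (Q : Finset ℕ) (ρ : ℝ), (∀ q ∈ Q, 0 < q ∧ P ≤ q) → 0 < ρ →
    ρ * ∑ q ∈ Q, (Nat.totient q : ℝ) = 1 → (∀ q ∈ Q, ρ * q ≤ δ) →
    ∃ Q' ⊆ Q, ∃ κ : ℕ → ℕ → ℤ, c ≤ ρ * ∑ q ∈ Q', (Nat.totient q : ℝ) ∧
      ρ * ∑ q ∈ Q', ∑ q' ∈ Q', En γ ρ κ q q' ≤ C

theorem KCc_of_KCw {γ : ℝ} (h : KCw γ) : KCc γ := by
  obtain ⟨c, hc, C, δ, hδ, P, h⟩ := h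
  refine ⟨c, hc, C, δ, hδ, P, fun Q ρ hQ hρ hmass hs => ?_⟩
  obtain ⟨Q', hQ', κ, h1, h2⟩ := h Q ρ hQ hρ hmass hs
  refine ⟨Q', hQ', κ, h1, le_trans ?_ h2⟩
  refine mul_le_mul_of_nonneg_left (Finset.sum_le_sum fun q hq => Finset.sum_le_sum fun q' hq' => ?_)
    hρ.le
  exact PC_le_En (hQ q (hQ' hq)).1 (hQ q' (hQ' hq')).1

theorem main_KCw {γ : ℝ} (h : KCw γ) (ψ : ℕ → ℝ)
    (hψ : ∀ q, 0 ≤ ψ q) (hdiv : ¬ Summable fun q : ℕ => (Nat.totient q : ℝ) / q * ψ q) :
    ∀ᵐ x : ℝ, ∃ᶠ q : ℕ in atTop, |(q : ℝ) * x - γ - round ((q : ℝ) * x - γ)| < ψ q :=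
  main_KCc (KCc_of_KCw h) ψ hψ hdiv

end Crest.Agent.R4C.CrCountx935
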