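import Crest.Agent.R4C.CrRed_935

/-!
# Row 4: local constant radius statement and the full soft reduction (helper935)

* `grow_loc`, `level_loc`, `loc_union_ge` : constant radius at critical mass, seen from a grid set
  `G`, implies the bound for variable radii seen from `G`.
* `CRL γ`, `CRL2 γ` : local constant radius statements (measure / second moment form).
* `main_CR : CR1 γ → CRL γ → (S0004 for γ)`, `main_CR2 : CR1 γ → CRL2 γ → (S0004 for γ)`.
-/

set_option autoImplicit false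
open MeasureTheory Filter Set Topology

namespace Crest.Agent.R4C.CrLocx935

open Crest.Agent.R4.Soft104 Crest.Agent.R4C.CrRedx935

variable {σ : ℝ} {A U G : Set ℝ}

lemma Ly_shift_iter (hσ : σ * σ = 1) {h : ℝ} (hh : 0 < h) (k : ℕ) :
    Ly σ A h k ⊆ (fun x => x - σ * (k * h)) ⁻¹' Ly σ A h 0 := by
  induction k with
  | zero => intro x hx; simpa using hx
  | succ k ih =>
    intro x hx
    have h1 := ih (Ly_shift hσ hh k hx)
    simp only [mem_preimage] at h1 ⊢
    have : x - σ * (((k + 1 : ℕ) : ℝ) * h) = x - σ * h - σ * (k * h) := by push_cast; ring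
    rwa [this]

lemma N_sdiff_subset (hσ : σ * σ = 1) (h : ℝ) (n : ℕ) :
    N σ A (n * h) \ A ⊆ ⋃ k ∈ Finset.range n, Ly σ A h k := by
  induction n with
  | zero =>
    simp only [Nat.cast_zero, zero_mul]
    rw [N_zero hσ, sdiff_self]
    exact empty_subset _
  | succ n ih =>
    rintro x ⟨hx, hxA⟩
    by_cases hx' : x ∈ N σ A (n * h)
    · have := ih ⟨hx', hxA⟩
      simp only [mem_iUnion, Finset.mem_range, exists_prop] at this ⊢
      obtain ⟨k, hk, h⟩ := this
      exact ⟨k, hk.trans (Nat.lt_succ_self n), h⟩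
    · simp only [mem_iUnion, Finset.mem_range, exists_prop]
      refine ⟨n, Nat.lt_succ_self n, ?_, hx'⟩
      push_cast at hx
      exact hx

lemma ne_top_inter (hG : volume G ≠ ⊤) (E : Set ℝ) : volume (G ∩ E) ≠ ⊤ :=
  ne_top_of_le_ne_top hG (measure_mono inter_subset_left)

/-- growth seen from `G`: layers in the `n h`-interior `G'` of `G` are shifted into `G` -/
lemma grow_loc (hσ : σ * σ = 1) (hσ' : |σ| = 1) {G' : Set ℝ} (hG : volume G ≠ ⊤)
    {h : ℝ} (hh : 0 < h) (n : ℕ) (hG' : ∀ x ∈ G', ∀ y, |y - x| ≤ n * h → y ∈ G) :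
    volume.real (G' ∩ (N σ A (n * h) \ A)) ≤ n * volume.real (G ∩ (N σ A h \ A)) := by
  have hsub : G' ⊆ G := fun x hx => hG' x hx x (by simp; positivity)
  have hG'fin : volume G' ≠ ⊤ := ne_top_of_le_ne_top hG (measure_mono hsub)
  have h0 : Ly σ A h 0 = N σ A h \ A := by
    unfold Ly
    simp only [Nat.cast_zero, zero_add, one_mul, zero_mul]
    rw [N_zero hσ]
  have hk : ∀ k ∈ Finset.range n, volume.real (G' ∩ Ly σ A h k) ≤ volume.real (G ∩ (N σ A h \ A)) := by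
    intro k hk
    have hkn : (k : ℝ) ≤ n := by exact_mod_cast (Finset.mem_range.1 hk).le
    have h1 : G' ∩ Ly σ A h k ⊆ (fun x => x + (-(σ * (k * h)))) ⁻¹' (G ∩ (N σ A h \ A)) := by
      rintro x ⟨hx, hxL⟩
      have h2 := Ly_shift_iter hσ hh k hxL
      simp only [mem_preimage] at h2
      rw [h0] at h2
      rw [mem_preimage, ← sub_eq_add_neg]
      refine ⟨hG' x hx _ ?_, h2⟩
      have : x - σ * (k * h) - x = -(σ * (k * h)) := by ring
      rw [this, abs_neg, abs_mul, hσ', one_mul, abs_of_nonneg (by positivity)]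
      gcongr
    refine (measureReal_mono h1 ?_).trans (le_of_eq ?_)
    · rw [measure_preimage_add_right]
      exact ne_top_inter hG _
    · unfold Measure.real
      rw [measure_preimage_add_right]
  calc volume.real (G' ∩ (N σ A (n * h) \ A))
      ≤ volume.real (⋃ k ∈ Finset.range n, G' ∩ Ly σ A h k) := by
        refine measureReal_mono ?_ ?_
        · intro x hx
          have := N_sdiff_subset hσ h n hx.2
          simp only [mem_iUnion] at this ⊢
          obtain ⟨k, hk, hkx⟩ := this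
          exact ⟨k, hk, hx.1, hkx⟩
        · refine ne_top_of_le_ne_top hG'fin (measure_mono ?_)
          exact iUnion₂_subset fun k _ => inter_subset_left
    _ ≤ ∑ k ∈ Finset.range n, volume.real (G' ∩ Ly σ A h k) :=
        measureReal_biUnion_finset_le _ _
    _ ≤ ∑ _k ∈ Finset.range n, volume.real (G ∩ (N σ A h \ A)) := Finset.sum_le_sum hk
    _ = n * volume.real (G ∩ (N σ A h \ A)) := by simp

/-! ### grid sets -/

/-- grid set -/
def Gr (K : ℕ) (I : Finset ℕ) : Set ℝ := ⋃ i ∈ I, J K i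

/-- its interior at distance `t` -/
def Gt (K : ℕ) (I : Finset ℕ) (t : ℝ) : Set ℝ :=
  ⋃ i ∈ I, Ico ((i : ℝ) / K + t) (((i : ℝ) + 1) / K - t)

lemma Gr_meas (K : ℕ) (I : Finset ℕ) : MeasurableSet (Gr K I) :=
  Finset.measurableSet_biUnion _ fun i _ => measurableSet_J _ _

lemma Gt_int {K : ℕ} {I : Finset ℕ} {t : ℝ} : ∀ x ∈ Gt K I t, ∀ y, |y - x| ≤ t → y ∈ Gr K I := by
  intro x hx y hy
  simp only [Gt, mem_iUnion] at hx
  obtain ⟨i, hi, h1, h2⟩ := hx
  rw [abs_le] at hy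
  simp only [Gr, mem_iUnion]
  exact ⟨i, hi, by linarith, by linarith⟩

lemma Gr_sdiff_Gt {K : ℕ} (I : Finset ℕ) {t : ℝ} (ht : 0 ≤ t) :
    volume.real (Gr K I \ Gt K I t) ≤ I.card * (2 * t) := by
  have h1 : Gr K I \ Gt K I t ⊆ ⋃ i ∈ I, (Ico ((i : ℝ) / K) ((i : ℝ) / K + t) ∪
      Ico (((i : ℝ) + 1) / K - t) (((i : ℝ) + 1) / K)) := by
    rintro x ⟨hx, hx'⟩
    simp only [Gr, Gt, mem_iUnion, not_exists] at hx hx'
    obtain ⟨i, hi, h1, h2⟩ := hx
    simp only [mem_iUnion]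
    refine ⟨i, hi, ?_⟩
    have h3 := hx' i hi
    rw [mem_Ico, not_and, not_lt] at h3
    by_cases h4 : (i : ℝ) / K + t ≤ x
    · exact Or.inr ⟨h3 h4, h2⟩
    · exact Or.inl ⟨h1, not_le.1 h4⟩
  have hfin : volume (⋃ i ∈ I, (Ico ((i : ℝ) / K) ((i : ℝ) / K + t) ∪
      Ico (((i : ℝ) + 1) / K - t) (((i : ℝ) + 1) / K))) ≠ ⊤ := by
    refine (measure_biUnion_lt_top I.finite_toSet fun _ _ => ?_).ne
    refine (measure_union_lt_top ?_ ?_) <;> simp
  refine (measureReal_mono h1 hfin).trans ((measureReal_biUnion_finset_le _ _).trans ?_)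
  calc ∑ i ∈ I, volume.real (Ico ((i : ℝ) / K) ((i : ℝ) / K + t) ∪
      Ico (((i : ℝ) + 1) / K - t) (((i : ℝ) + 1) / K)) ≤ ∑ _i ∈ I, (2 * t) := by
        refine Finset.sum_le_sum fun i _ => ?_
        refine (measureReal_union_le _ _).trans ?_
        rw [Real.volume_real_Ico_of_le (by linarith), Real.volume_real_Ico_of_le (by linarith)]
        linarith
    _ = I.card * (2 * t) := by simp

/-- neighbourhoods seen from a grid set -/
lemma Nb_loc {K : ℕ} {I : Finset ℕ} (hfin : volume (Gr K I) ≠ ⊤) {h R : ℝ} (hh : 0 < h) (n : ℕ)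
    (hn : R ≤ n * h) {v : ℝ} (h1 : volume.real (Gr K I ∩ (N 1 A h \ A)) ≤ v)
    (h2 : volume.real (Gr K I ∩ (N (-1) A h \ A)) ≤ v) :
    volume.real (Gr K I ∩ Nb A R) ≤
      volume.real (Gr K I ∩ A) + 2 * n * v + I.card * (2 * (n * h)) := by
  have hn0 : (0 : ℝ) ≤ n := Nat.cast_nonneg n
  set G' := Gt K I (n * h) with hG'
  have hint := Gt_int (K := K) (I := I) (t := n * h)
  have hsub : G' ⊆ Gr K I := fun x hx => hint x hx x (by simp; positivity)
  have hG'fin : volume G' ≠ ⊤ := ne_top_of_le_ne_top hfin (measure_mono hsub)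
  have e1 := grow_loc (σ := 1) (A := A) (by norm_num) (by norm_num) hfin hh n hint
  have e2 := grow_loc (σ := -1) (A := A) (by norm_num) (by norm_num) hfin hh n hint
  have e3 := Gr_sdiff_Gt (K := K) I (t := n * h) (by positivity)
  have hs : Gr K I ∩ Nb A R ⊆ ((Gr K I \ G') ∪ (Gr K I ∩ A)) ∪
      ((G' ∩ (N 1 A (n * h) \ A)) ∪ (G' ∩ (N (-1) A (n * h) \ A))) := by
    rintro x ⟨hx, hxN⟩
    by_cases hx' : x ∈ G'
    · rcases Nb_subset n hn hxN with h | h | h
      · exact Or.inl (Or.inr ⟨hx, h⟩)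
      · exact Or.inr (Or.inl ⟨hx', h⟩)
      · exact Or.inr (Or.inr ⟨hx', h⟩)
    · exact Or.inl (Or.inl ⟨hx, hx'⟩)
  have hfin2 : volume (((Gr K I \ G') ∪ (Gr K I ∩ A)) ∪
      ((G' ∩ (N 1 A (n * h) \ A)) ∪ (G' ∩ (N (-1) A (n * h) \ A)))) ≠ ⊤ := by
    refine ne_top_of_le_ne_top hfin (measure_mono ?_)
    refine union_subset (union_subset sdiff_subset inter_subset_left)
      (union_subset (inter_subset_left.trans hsub) (inter_subset_left.trans hsub))
  calc volume.real (Gr K I ∩ Nb A R) ≤ _ := measureReal_mono hs hfin2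
    _ ≤ volume.real ((Gr K I \ G') ∪ (Gr K I ∩ A)) +
        volume.real ((G' ∩ (N 1 A (n * h) \ A)) ∪ (G' ∩ (N (-1) A (n * h) \ A))) :=
        measureReal_union_le _ _
    _ ≤ (volume.real (Gr K I \ G') + volume.real (Gr K I ∩ A)) +
        (volume.real (G' ∩ (N 1 A (n * h) \ A)) + volume.real (G' ∩ (N (-1) A (n * h) \ A))) :=
        add_le_add (measureReal_union_le _ _) (measureReal_union_le _ _)
    _ ≤ (I.card * (2 * (n * h)) + volume.real (Gr K I ∩ A)) + (n * v + n * v) := by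
        have := mul_le_mul_of_nonneg_left h1 hn0
        have := mul_le_mul_of_nonneg_left h2 hn0
        linarith
    _ = _ := by ring

/-- one level, numbers -/
lemma level_loc {c u v e Φ h R : ℝ} (hc : 0 < c) (hh : 0 < h) (_hv : 0 ≤ v) (hvu : v ≤ u)
    (hΦ : 0 < Φ) (hR : R * Φ = 1) (hu : 16 * u ≤ c) (he : 4 * e ≤ c)
    (H : c ≤ u + 2 * (R / h + 1) * v + e) : Φ * h ≤ 4 * v / c := by
  have h1 : c / 4 ≤ R / h * v := by nlinarith
  have hR' : R = 1 / Φ := by field_simp; linarith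
  rw [hR'] at h1
  have h2 : 1 / Φ / h * v = v / (Φ * h) := by field_simp
  rw [h2, le_div_iff₀ (by positivity)] at h1
  rw [le_div_iff₀ hc]
  linarith

/-- **constant radius at critical mass implies variable radii, seen from a grid set** -/
theorem loc_union_ge {γ c : ℝ} (hc : 0 < c) {K : ℕ} (hK : 0 < K) {I : Finset ℕ}
    (hI : ∀ i ∈ I, i < K) {ψ : ℕ → ℝ} (h0 : ∀ q, 0 ≤ ψ q) {S : Finset ℕ}
    (hS : ∀ q ∈ S, 0 < q) (hr : ∀ q ∈ S, ψ q / q ≤ c / (16 * K))
    (hφ : ∀ q ∈ S, 16 * K / c ≤ (Nat.totient q : ℝ))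
    (H : ∀ Q ⊆ S, ∀ ρ : ℝ, 0 < ρ → ρ * ∑ q ∈ Q, (Nat.totient q : ℝ) = 1 →
      c ≤ volume.real (Gr K I ∩ ⋃ q ∈ Q, Arc γ (ρ * q) q))
    (hW : 1 ≤ ∑ q ∈ S, w ψ q) :
    c ≤ 16 * volume.real (Gr K I ∩ ⋃ q ∈ S, Arc γ (ψ q) q) := by
  classical
  have hK' : (0 : ℝ) < K := by exact_mod_cast hK
  have hfin : volume (Gr K I) ≠ ⊤ := ne_top_of_sub (grid_subset hI)
  set U := ⋃ q ∈ S, Arc γ (ψ q) q with hU
  set u := volume.real (Gr K I ∩ U) with hu'
  by_contra hcon
  rw [not_le] at hcon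
  have hcard : (I.card : ℝ) ≤ K := by
    have : I ⊆ Finset.range K := fun i hi => Finset.mem_range.2 (hI i hi)
    have := Finset.card_le_card this
    rw [Finset.card_range] at this
    exact_mod_cast this
  set S' := S.filter (fun q => 0 < ψ q) with hS'
  set l : ℕ → ℤ := fun q => Int.log 2 (ψ q / q) with hl
  have hrp : ∀ q ∈ S', 0 < ψ q / q := by
    intro q hq
    rw [hS', Finset.mem_filter] at hq
    have : (0 : ℝ) < q := by exact_mod_cast hS q hq.1
    exact div_pos hq.2 this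
  have hlo : ∀ q ∈ S', (2 : ℝ) ^ (l q) ≤ ψ q / q := fun q hq => by
    have := Int.zpow_log_le_self (b := 2) (R := ℝ) (by norm_num) (hrp q hq)
    simpa [hl] using this
  have hhi : ∀ q ∈ S', ψ q / q < (2 : ℝ) ^ (l q + 1) := fun q hq => by
    have := Int.lt_zpow_succ_log_self (b := 2) (R := ℝ) (by norm_num) (ψ q / q)
    simpa [hl] using this
  set v : ℤ → ℝ := fun i => volume.real (Gr K I ∩ D U i) with hv
  have hlev : ∀ i ∈ S'.image l, (∑ q ∈ S'.filter (fun q => l q = i), (Nat.totient q : ℝ)) *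
      (2 : ℝ) ^ (i - 1) ≤ 4 * v i / c := by
    intro i hi
    set Q := S'.filter (fun q => l q = i) with hQ
    have hQS : Q ⊆ S := (Finset.filter_subset _ _).trans (Finset.filter_subset _ _)
    obtain ⟨q₀, hq₀, hlq₀⟩ := Finset.mem_image.1 hi
    have hq₀Q : q₀ ∈ Q := Finset.mem_filter.2 ⟨hq₀, hlq₀⟩
    have h2 : (2 : ℝ) ^ i = 2 * (2 : ℝ) ^ (i - 1) := by
      rw [← zpow_one_add₀ (by norm_num)]; congr 1; ring
    have hh : (0 : ℝ) < (2 : ℝ) ^ (i - 1) := by positivity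
    have hX : X γ Q ⊆ V U ((2 : ℝ) ^ i) := by
      rintro x ⟨q, hq, n, rfl⟩ y hy
      have hq' := Finset.mem_filter.1 hq
      have hq0 := hS q (hQS hq)
      have hq0' : (0 : ℝ) < q := by exact_mod_cast hq0
      have h1 := hlo q hq'.1
      rw [hq'.2] at h1
      have h3 : y ∈ Arc γ (ψ q / q * q) q := (mem_arc hq0).2 ⟨n, hy.trans_le h1⟩
      rw [div_mul_cancel₀ _ hq0'.ne'] at h3
      rw [hU]
      simp only [mem_iUnion]
      exact ⟨q, hQS hq, h3⟩
    set Φ := ∑ q ∈ Q, (Nat.totient q : ℝ) with hΦ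
    have hΦ1 : 16 * K / c ≤ Φ := (hφ q₀ (hQS hq₀Q)).trans
      (Finset.single_le_sum (f := fun q : ℕ => (Nat.totient q : ℝ)) (fun q _ => by positivity) hq₀Q)
    have hΦ0 : 0 < Φ := lt_of_lt_of_le (by positivity) hΦ1
    have hR0 : (0 : ℝ) < 1 / Φ := by positivity
    have hR1 : 1 / Φ ≤ c / (16 * K) := by
      rw [div_le_div_iff₀ hΦ0 (by positivity)]
      rw [div_le_iff₀ hc] at hΦ1
      linarith
    have hh1 : (2 : ℝ) ^ (i - 1) ≤ c / (16 * K) := by
      have e1 := hlo q₀ hq₀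
      rw [hlq₀, h2] at e1
      have e2 := hr q₀ (hQS hq₀Q)
      linarith
    have hn : 1 / Φ ≤ (⌈1 / Φ / (2 : ℝ) ^ (i - 1)⌉₊ : ℝ) * (2 : ℝ) ^ (i - 1) := by
      rw [← div_le_iff₀ hh]
      exact Nat.le_ceil _
    have hn' : (⌈1 / Φ / (2 : ℝ) ^ (i - 1)⌉₊ : ℝ) ≤ 1 / Φ / (2 : ℝ) ^ (i - 1) + 1 :=
      (Nat.ceil_lt_add_one (by positivity)).le
    set n := ⌈1 / Φ / (2 : ℝ) ^ (i - 1)⌉₊ with hndef
    have hnh : (n : ℝ) * (2 : ℝ) ^ (i - 1) ≤ c / (8 * K) := by
      have e1 := mul_le_mul_of_nonneg_right hn' hh.le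
      have e2 : (1 / Φ / (2 : ℝ) ^ (i - 1) + 1) * (2 : ℝ) ^ (i - 1) = 1 / Φ + (2 : ℝ) ^ (i - 1) := by
        field_simp
      rw [e2] at e1
      have e3 : c / (8 * K) = c / (16 * K) + c / (16 * K) := by field_simp; ring
      rw [e3]
      linarith
    have he : 4 * (I.card * (2 * (n * (2 : ℝ) ^ (i - 1)))) ≤ c := by
      have e1 : (I.card : ℝ) * (n * (2 : ℝ) ^ (i - 1)) ≤ K * (c / (8 * K)) := by
        gcongr
      have e2 : (K : ℝ) * (c / (8 * K)) = c / 8 := by field_simp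
      rw [e2] at e1
      linarith
    have hvi : ∀ σ : ℝ, |σ| = 1 → volume.real (Gr K I ∩ (N σ (V U (2 * (2 : ℝ) ^ (i - 1)))
        ((2 : ℝ) ^ (i - 1)) \ V U (2 * (2 : ℝ) ^ (i - 1)))) ≤ v i := by
      intro σ hσ
      refine measureReal_mono (inter_subset_inter_right _ ?_) (ne_top_inter hfin _)
      unfold D
      rw [h2]
      exact sdiff_subset_sdiff_left (N_V_subset hσ)
    have hNb := Nb_loc (A := V U (2 * (2 : ℝ) ^ (i - 1))) hfin hh n hn
      (hvi 1 (by norm_num)) (hvi (-1) (by norm_num))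
    have hH := H Q hQS (1 / Φ) hR0 (by rw [← hΦ]; field_simp)
    rw [← Nb_X fun q hq => hS q (hQS hq)] at hH
    have h3 : Nb (X γ Q) (1 / Φ) ⊆ Nb (V U (2 * (2 : ℝ) ^ (i - 1))) (1 / Φ) := by
      rintro x ⟨a, ha, hx⟩
      exact ⟨a, h2 ▸ hX ha, hx⟩
    have h4 : volume.real (Gr K I ∩ Nb (X γ Q) (1 / Φ)) ≤
        volume.real (Gr K I ∩ Nb (V U (2 * (2 : ℝ) ^ (i - 1))) (1 / Φ)) :=
      measureReal_mono (inter_subset_inter_right _ h3) (ne_top_inter hfin _)
    have h5 : volume.real (Gr K I ∩ V U (2 * (2 : ℝ) ^ (i - 1))) ≤ u :=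
      measureReal_mono (inter_subset_inter_right _ (V_subset (by positivity))) (ne_top_inter hfin _)
    have hv0 : 0 ≤ v i := measureReal_nonneg
    have hvu : v i ≤ u := measureReal_mono (inter_subset_inter_right _ (D_subset i))
      (ne_top_inter hfin _)
    refine level_loc (u := u) (e := I.card * (2 * (n * (2 : ℝ) ^ (i - 1)))) (R := 1 / Φ) hc hh hv0
      hvu hΦ0 (by field_simp) hcon.le he ?_
    have h6 := mul_le_mul_of_nonneg_right hn' hv0
    linarith
  -- total mass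
  have hsumv : ∑ i ∈ S'.image l, v i ≤ u := by
    have hd : Set.PairwiseDisjoint (↑(S'.image l) : Set ℤ) (fun i => Gr K I ∩ D U i) := by
      intro i _ j _ hij
      rcases lt_or_gt_of_ne hij with h | h
      · exact (D_disj h).mono inter_subset_right inter_subset_right
      · exact ((D_disj h).mono inter_subset_right inter_subset_right).symm
    have e : ∑ i ∈ S'.image l, v i = volume.real (⋃ i ∈ S'.image l, Gr K I ∩ D U i) := by
      rw [measureReal_biUnion_finset hd (fun i _ => (Gr_meas K I).inter (D_meas i))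
        (fun i _ => ne_top_inter hfin _)]
    rw [e]
    refine measureReal_mono ?_ (ne_top_inter hfin _)
    exact iUnion₂_subset fun i _ => inter_subset_inter_right _ (D_subset i)
  have hW' : ∑ q ∈ S, w ψ q ≤ 16 * u / c := by
    have e1 : ∑ q ∈ S, w ψ q = ∑ q ∈ S', w ψ q := by
      rw [hS', Finset.sum_filter]
      refine Finset.sum_congr rfl fun q _ => ?_
      split_ifs with h
      · rfl
      · have : ψ q = 0 := le_antisymm (not_lt.1 h) (h0 q)
        simp [w, this]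
    have e2 : ∑ q ∈ S', w ψ q = ∑ i ∈ S'.image l, ∑ q ∈ S'.filter (fun q => l q = i), w ψ q :=
      (Finset.sum_fiberwise_of_maps_to (fun q hq => Finset.mem_image_of_mem l hq) _).symm
    have e3 : ∀ i ∈ S'.image l, ∑ q ∈ S'.filter (fun q => l q = i), w ψ q ≤ 16 * v i / c := by
      intro i hi
      have h1 : ∑ q ∈ S'.filter (fun q => l q = i), w ψ q ≤
          ∑ q ∈ S'.filter (fun q => l q = i), (Nat.totient q : ℝ) * (4 * (2 : ℝ) ^ (i - 1)) := by
        refine Finset.sum_le_sum fun q hq => ?_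
        have hq' := Finset.mem_filter.1 hq
        have h2 := (hhi q hq'.1).le
        rw [hq'.2] at h2
        have h3 : (2 : ℝ) ^ (i + 1) = 4 * (2 : ℝ) ^ (i - 1) := by
          rw [show i + 1 = 2 + (i - 1) by ring, zpow_add₀ (by norm_num)]
          norm_num
        rw [h3] at h2
        calc w ψ q = (Nat.totient q : ℝ) * (ψ q / q) := by unfold w; ring
          _ ≤ _ := mul_le_mul_of_nonneg_left h2 (by positivity)
      refine h1.trans ?_
      rw [← Finset.sum_mul]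
      have h4 := hlev i hi
      calc (∑ q ∈ S'.filter (fun q => l q = i), (Nat.totient q : ℝ)) * (4 * (2 : ℝ) ^ (i - 1))
          = 4 * ((∑ q ∈ S'.filter (fun q => l q = i), (Nat.totient q : ℝ)) * (2 : ℝ) ^ (i - 1)) := by
            ring
        _ ≤ 4 * (4 * v i / c) := by linarith
        _ = _ := by ring
    rw [e1, e2]
    refine (Finset.sum_le_sum e3).trans ?_
    rw [← Finset.sum_div, ← Finset.mul_sum]
    gcongr
  have h1 : (1 : ℝ) ≤ 16 * u / c := hW.trans hW'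
  rw [le_div_iff₀ hc, one_mul] at h1
  linarith

/-! ### one arc, seen from the grid -/

lemma Arc_loc {γ r : ℝ} {q K : ℕ} (i : ℕ) (hK : 0 < K) (hr : 0 ≤ r) (hr2 : r ≤ 1 / 2)
    (hq : 6 * K ≤ q) : r / K ≤ volume.real (Arc γ r q ∩ J K i) := by
  have hK' : (0 : ℝ) < K := by exact_mod_cast hK
  have hq6 : (6 : ℝ) * K ≤ q := by exact_mod_cast hq
  have hq' : (0 : ℝ) < q := by nlinarith
  set a : ℝ := q * i / K - γ + r with ha
  set n₀ : ℤ := ⌈a⌉ with hn₀
  have hn1 : a ≤ n₀ := Int.le_ceil _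
  have hn2 : (n₀ : ℝ) < a + 1 := Int.ceil_lt_add_one _
  set M := ⌊(q : ℝ) / K - 2⌋₊ with hM
  have hqK : (6 : ℝ) ≤ q / K := by rwa [le_div_iff₀ hK']
  have hM1 : (M : ℝ) ≤ q / K - 2 := Nat.floor_le (by linarith)
  have hM2 : (q : ℝ) / K - 3 ≤ M := by
    have := Nat.lt_floor_add_one ((q : ℝ) / K - 2)
    linarith
  set f : ℤ → Set ℝ := fun n => Ioo ((γ + n - r) / q) ((γ + n + r) / q) with hf
  have hfd : Pairwise (Function.onFun Disjoint f) := by
    intro a b hab
    rw [Function.onFun, Set.disjoint_left]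
    rintro x ⟨h1, h2⟩ ⟨h3, h4⟩
    rw [div_lt_iff₀ hq'] at h1 h3
    rw [lt_div_iff₀ hq'] at h2 h4
    rcases lt_or_gt_of_ne hab with h | h
    · have : (a : ℝ) + 1 ≤ b := by exact_mod_cast h
      linarith
    · have : (b : ℝ) + 1 ≤ a := by exact_mod_cast h
      linarith
  have hsub : ∀ n, f n ⊆ Arc γ r q := by
    rintro n x ⟨h1, h2⟩
    rw [div_lt_iff₀ hq'] at h1
    rw [lt_div_iff₀ hq'] at h2
    show |(q : ℝ) * x - γ - round ((q : ℝ) * x - γ)| < r
    refine (round_le _ n).trans_lt ?_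
    rw [abs_lt]
    constructor <;> linarith
  have hsub2 : (⋃ n ∈ Finset.range M, f (n₀ + (n : ℤ))) ⊆ Arc γ r q ∩ J K i := by
    refine iUnion₂_subset fun n hn x hx => ⟨hsub _ hx, ?_, ?_⟩
    · refine le_trans ?_ hx.1.le
      rw [div_le_div_iff₀ hK' hq']
      have hn0 : (0 : ℝ) ≤ n := Nat.cast_nonneg n
      push_cast
      have e : (i : ℝ) * q = (q * i / K) * K := by field_simp
      rw [e]
      refine mul_le_mul_of_nonneg_right ?_ hK'.le
      linarith
    · refine hx.2.trans_le ?_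
      have hn' : (n : ℝ) + 1 ≤ M := by exact_mod_cast Finset.mem_range.1 hn
      rw [div_le_div_iff₀ hq' hK']
      push_cast
      have e : ((i : ℝ) + 1) * q = (q * i / K + q / K) * K := by field_simp
      rw [e]
      refine mul_le_mul_of_nonneg_right ?_ hK'.le
      linarith
  have hfin : volume (Arc γ r q ∩ J K i) ≠ ⊤ := by
    refine ne_top_of_le_ne_top ?_ (measure_mono inter_subset_right)
    rw [volume_J hK]; exact ENNReal.ofReal_ne_top
  have h2 : volume.real (⋃ n ∈ Finset.range M, f (n₀ + (n : ℤ))) = M * (2 * r / q) := by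
    have hne : ∀ n ∈ Finset.range M, volume (f (n₀ + (n : ℤ))) ≠ ⊤ := by
      intro n _; simp [hf]
    rw [measureReal_biUnion_finset (h := hne)]
    · have : ∀ n ∈ Finset.range M, volume.real (f (n₀ + (n : ℤ))) = 2 * r / q := by
        intro n _
        simp only [hf]
        rw [Real.volume_real_Ioo_of_le (by
          refine div_le_div_of_nonneg_right ?_ hq'.le
          linarith)]
        ring
      rw [Finset.sum_congr rfl this]
      simp
    · intro a _ b _ hab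
      refine hfd ?_
      intro h
      exact hab (by exact_mod_cast add_left_cancel h)
    · intro n _; exact measurableSet_Ioo
  refine le_trans ?_ (measureReal_mono hsub2 hfin)
  rw [h2]
  have h3 : ((q : ℝ) / K - 3) * (2 * r / q) ≤ M * (2 * r / q) :=
    mul_le_mul_of_nonneg_right hM2 (by positivity)
  refine le_trans ?_ h3
  have h4 : ((q : ℝ) / K - 3) * (2 * r / q) = 2 * r / K - 6 * r / q := by field_simp; ring
  rw [h4]
  have h5 : 6 * r / q ≤ r / K := by
    rw [div_le_div_iff₀ hq' hK']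
    nlinarith
  have h6 : 2 * r / K = r / K + r / K := by ring
  linarith

lemma Gr_real {K : ℕ} (hK : 0 < K) (I : Finset ℕ) : volume.real (Gr K I) = I.card * (1 / K) :=
  grid_real hK I

lemma Arc_loc_Gr {γ r : ℝ} {q K : ℕ} (I : Finset ℕ) (hK : 0 < K) (hr : 0 ≤ r) (hr2 : r ≤ 1 / 2)
    (hq : 6 * K ≤ q) : r * volume.real (Gr K I) ≤ volume.real (Gr K I ∩ Arc γ r q) := by
  rw [Gr_real hK, inter_comm]
  unfold Gr
  rw [← grid_disj_real hK I _ (measurableSet_arc _ _ _)]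
  calc r * (I.card * (1 / K)) = ∑ _i ∈ I, r / K := by simp; ring
    _ ≤ _ := Finset.sum_le_sum fun i _ => Arc_loc i hK hr hr2 hq

/-! ### the local constant radius statements -/

/-- local constant radius statement (critical mass, rough denominators), measure form -/
def CRL (γ : ℝ) : Prop := ∀ ε : ℝ, 0 < ε → ∃ c : ℝ, 0 < c ∧ ∃ δ : ℝ, 0 < δ ∧
  ∀ (K : ℕ) (I : Finset ℕ), 0 < K → (∀ i ∈ I, i < K) → ε ≤ volume.real (Gr K I) →
    ∃ P : ℕ, ∀ (Q : Finset ℕ) (ρ : ℝ), (∀ q ∈ Q, 0 < q ∧ P ≤ q ∧ Rough P q) → 0 < ρ →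
      ρ * ∑ q ∈ Q, (Nat.totient q : ℝ) = 1 → (∀ q ∈ Q, ρ * q ≤ δ) →
      c ≤ volume.real (Gr K I ∩ ⋃ q ∈ Q, Arc γ (ρ * q) q)

/-- local constant radius statement, second moment form: global second moment, local first
moments. -/
def CRL2 (γ : ℝ) : Prop := ∃ c : ℝ, 0 < c ∧ ∃ C : ℝ, ∃ δ : ℝ, 0 < δ ∧ ∀ K : ℕ, 0 < K → ∃ P : ℕ,
  ∀ (Q : Finset ℕ) (ρ : ℝ), (∀ q ∈ Q, 0 < q ∧ P ≤ q ∧ Rough P q) → 0 < ρ →
    ρ * ∑ q ∈ Q, (Nat.totient q : ℝ) = 1 → (∀ q ∈ Q, ρ * q ≤ δ) →
    ∃ F : ℝ → ℝ, Test F ∧ (∀ x, F x ≠ 0 → ∃ q ∈ Q, x ∈ Arc γ (ρ * q) q) ∧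
      (∫ x in Ico (0 : ℝ) 1, F x ^ 2) ≤ C ∧ ∀ i < K, c / K ≤ ∫ x in J K i, F x

theorem CRL_of_CRL2 {γ : ℝ} (h : CRL2 γ) : CRL γ := by
  obtain ⟨c, hc, C, δ, hδ, h⟩ := h
  intro ε hε
  set C' := max C 1 with hC'
  have hC'0 : 0 < C' := lt_of_lt_of_le one_pos (le_max_right _ _)
  refine ⟨(c * ε) ^ 2 / C', by positivity, δ, hδ, fun K I hK hI hG => ?_⟩
  obtain ⟨P, hP⟩ := h K hK
  refine ⟨P, fun Q ρ hQ hρ hmass hs => ?_⟩
  obtain ⟨F, hF, hsupp, hF2, hloc⟩ := hP Q ρ hQ hρ hmass hs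
  set U := ⋃ q ∈ Q, Arc γ (ρ * q) q with hU
  have hUm : MeasurableSet U := Finset.measurableSet_biUnion _ fun q _ => measurableSet_arc _ _ _
  have hG1 : Gr K I ⊆ Ico (0 : ℝ) 1 := grid_subset hI
  have hA1 : Gr K I ∩ U ⊆ Ico (0 : ℝ) 1 := inter_subset_left.trans hG1
  have h1 : c * ε ≤ ∫ x in Gr K I, F x := by
    calc c * ε ≤ c * volume.real (Gr K I) := mul_le_mul_of_nonneg_left hG hc.le
      _ = ∑ _i ∈ I, c / K := by rw [Gr_real hK]; simp; ring
      _ ≤ ∑ i ∈ I, ∫ x in J K i, F x := Finset.sum_le_sum fun i hi => hloc i (hI i hi)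
      _ = ∫ x in Gr K I, F x := by
        unfold Gr
        rw [integral_biUnion_finset]
        · intro i _; exact measurableSet_J _ _
        · intro i _ j _ hij; exact J_disjoint K hK hij
        · intro i hi; exact hF.integrableOn (J_subset (hI i hi))
  have h2 : ∫ x in Gr K I, F x = ∫ x in Gr K I ∩ U, F x := by
    have : ∫ x in Gr K I, F x = ∫ x in Gr K I, (Gr K I ∩ U).indicator F x := by
      refine setIntegral_congr_fun (Gr_meas K I) fun x hx => ?_
      by_cases hxA : x ∈ Gr K I ∩ U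
      · simp [hxA]
      · simp only [indicator_of_notMem hxA]
        by_contra hFx
        obtain ⟨q, hq, hxq⟩ := hsupp x hFx
        exact hxA ⟨hx, by rw [hU]; simp only [mem_iUnion]; exact ⟨q, hq, hxq⟩⟩
    rw [this, setIntegral_indicator ((Gr_meas K I).inter hUm),
      inter_eq_right.2 inter_subset_left]
  have hl : 0 < c * ε / C' := by positivity
  have h3 := hF.amgm hA1 hl
  rw [← h2] at h3
  have h4 : c * ε / C' / 2 * (∫ x in Ico (0 : ℝ) 1, F x ^ 2) ≤ c * ε / 2 := by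
    calc c * ε / C' / 2 * (∫ x in Ico (0 : ℝ) 1, F x ^ 2) ≤ c * ε / C' / 2 * C' := by
          refine mul_le_mul_of_nonneg_left (hF2.trans (le_max_left _ _)) (by positivity)
      _ = c * ε / 2 := by field_simp
  have h5 : c * ε / 2 ≤ volume.real (Gr K I ∩ U) / (2 * (c * ε / C')) := by linarith
  rw [le_div_iff₀ (by positivity)] at h5
  have h6 : c * ε / 2 * (2 * (c * ε / C')) = (c * ε) ^ 2 / C' := by field_simp
  linarith

/-- totients of rough numbers -/
lemma rough_totient {P q : ℕ} (hq : 2 ≤ q) (h : Rough P q) : (P : ℝ) - 1 ≤ (Nat.totient q : ℝ) := by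
  have hp : (Nat.minFac q).Prime := Nat.minFac_prime (by omega)
  have h1 : P ≤ Nat.minFac q := h _ hp (Nat.minFac_dvd q)
  have h2 : Nat.totient (Nat.minFac q) ∣ Nat.totient q := Nat.totient_dvd_of_dvd (Nat.minFac_dvd q)
  have h3 : Nat.totient (Nat.minFac q) ≤ Nat.totient q :=
    Nat.le_of_dvd (Nat.totient_pos.2 (by omega)) h2
  rw [Nat.totient_prime hp] at h3
  have h4 : P ≤ Nat.totient q + 1 := by omega
  have : (P : ℝ) ≤ (Nat.totient q : ℝ) + 1 := by exact_mod_cast h4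
  linarith

/-- the full measure statement for systems which are divergent on rough numbers of every level -/
def Case2 (γ : ℝ) : Prop := ∀ ψ : ℕ → ℝ, (∀ q, 0 ≤ ψ q) → (∀ q, ψ q ≤ 1 / 2) →
  (∀ P : ℕ, ¬ Summable fun q => open Classical in if Rough P q then w ψ q else 0) →
    volume (Ico (0 : ℝ) 1 \ W γ ψ) = 0

theorem case2_of_CRL {γ : ℝ} (h : CRL γ) : Case2 γ := by
  classical
  intro ψ h0 h2 hdiv
  set Z := Ico (0 : ℝ) 1 \ W γ ψ with hZdef
  have hZm : MeasurableSet Z := measurableSet_Ico.diff (measurableSet_W _ _)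
  have hZ1 : Z ⊆ Ico (0 : ℝ) 1 := sdiff_subset
  by_contra hne
  have hzpos : 0 < volume.real Z := by
    rw [Measure.real, ENNReal.toReal_pos_iff]
    exact ⟨pos_iff_ne_zero.2 hne, lt_top_iff_ne_top.2 (ne_top_of_sub hZ1)⟩
  set z := volume.real Z with hz
  obtain ⟨c, hc, δ, hδ, hCR⟩ := h (z / 2) (by positivity)
  set δ' := min δ (1 / 2) with hδ'
  have hδ'0 : 0 < δ' := lt_min hδ (by norm_num)
  set c' := min c (δ' * (z / 2)) with hc'
  have hc'0 : 0 < c' := lt_min hc (by positivity)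
  set η := min (z / 2) (c' / 32) with hη
  have hη0 : 0 < η := lt_min (by positivity) (by positivity)
  obtain ⟨K₀, hK₀⟩ := exists_grid hZm hZ1 hη0
  set K := max K₀ 1 with hK
  have hKpos : 0 < K := lt_of_lt_of_le one_pos (le_max_right _ _)
  have hKpos' : (0 : ℝ) < K := by exact_mod_cast hKpos
  obtain ⟨I, hI, h1, h2'⟩ := hK₀ K (le_max_left _ _) hKpos
  change volume.real (Gr K I \ Z) ≤ η at h1
  change volume.real (Z \ Gr K I) ≤ η at h2'
  have hG1 : Gr K I ⊆ Ico (0 : ℝ) 1 := grid_subset hI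
  have hGz : z / 2 ≤ volume.real (Gr K I) := by
    have := grid_ge hZ1 hG1 h2'
    have : η ≤ z / 2 := min_le_left _ _
    linarith
  obtain ⟨P, hP⟩ := hCR K I hKpos hI hGz
  set L := ⌈16 * K / c'⌉₊ with hL
  have hL1 : 16 * K / c' ≤ L := Nat.le_ceil _
  set P' := max P (max (6 * K) (L + 2)) with hP'
  have hPP' : P ≤ P' := le_max_left _ _
  have h6P' : 6 * K ≤ P' := (le_max_left _ _).trans (le_max_right _ _)
  have hLP' : L + 2 ≤ P' := (le_max_right _ _).trans (le_max_right _ _)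
  have hLP'' : (L : ℝ) + 2 ≤ P' := by exact_mod_cast hLP'
  have htail : ∀ N, c' / 16 ≤ volume.real (Gr K I ∩ Tail γ ψ N) := by
    intro N
    obtain ⟨S, hS, hSN⟩ := exists_sys h0 h2 (Rough P') (by convert hdiv P') P' N
    set ψ' := cut ψ (Rough P') (1 / (P' + 2)) with hψ'
    have key := loc_union_ge (γ := γ) hc'0 hKpos hI hS.nonneg hS.pos
      (fun q hq => by
        have hq0 : (0 : ℝ) < q := by exact_mod_cast hS.pos q hq
        have hq1 : (P' : ℝ) ≤ q := by exact_mod_cast hS.large q hq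
        have e1 : ψ' q ≤ 1 := (hS.small q).trans (by
          rw [div_le_one (by positivity)]
          have : (0 : ℝ) ≤ P' := by positivity
          linarith)
        rw [div_le_div_iff₀ hq0 (by positivity)]
        have e2 : 16 * K ≤ c' * L := by
          rw [div_le_iff₀ hc'0] at hL1; linarith
        have e3 : c' * L ≤ c' * q := mul_le_mul_of_nonneg_left (by linarith) hc'0.le
        have e4 : ψ' q * (16 * K) ≤ 1 * (16 * K) := mul_le_mul_of_nonneg_right e1 (by positivity)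
        linarith)
      (fun q hq => by
        have e1 := rough_totient (P := P') (q := q) (by
          have := hS.large q hq; omega) (hSN q hq).1
        linarith)
      (fun Q hQ ρ hρ hmass => by
        by_cases hs : ∀ q ∈ Q, ρ * q ≤ δ'
        · refine (min_le_left _ _).trans (hP Q ρ (fun q hq => ?_) hρ hmass
            (fun q hq => (hs q hq).trans (min_le_left _ _)))
          exact ⟨hS.pos q (hQ hq), hPP'.trans (hS.large q (hQ hq)),
            (hSN q (hQ hq)).1.mono hPP'⟩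
        · push Not at hs
          obtain ⟨q, hq, hs⟩ := hs
          have e1 := Arc_loc_Gr (γ := γ) I hKpos hδ'0.le (min_le_right _ _)
            (h6P'.trans (hS.large q (hQ hq)))
          refine (min_le_right _ _).trans ?_
          refine (mul_le_mul_of_nonneg_left hGz hδ'0.le).trans (e1.trans ?_)
          refine measureReal_mono (inter_subset_inter_right _ ?_) (ne_top_inter (ne_top_of_sub hG1) _)
          refine (arc_mono hs.le).trans fun x hx => ?_
          simp only [mem_iUnion]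
          exact ⟨q, hq, hx⟩)
      hS.mass_lo
    have hsub : Gr K I ∩ (⋃ q ∈ S, Arc γ (ψ' q) q) ⊆ Gr K I ∩ Tail γ ψ N := by
      refine inter_subset_inter_right _ fun x hx => ?_
      simp only [mem_iUnion] at hx
      obtain ⟨q, hq, hx⟩ := hx
      exact ⟨q, (hSN q hq).2, arc_mono (cut_le' h0 _ q) hx⟩
    have := measureReal_mono hsub (ne_top_inter (ne_top_of_sub hG1) _)
    linarith
  have hlim := limsup_ge (Gr_meas K I) hG1 htail
  have hle : volume.real (Gr K I ∩ W γ ψ) ≤ η := by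
    refine (measureReal_mono ?_ (ne_top_of_sub (sdiff_subset.trans hG1))).trans h1
    exact fun x hx => ⟨hx.1, fun hxZ => hxZ.2 hx.2⟩
  have hη2 : η ≤ c' / 32 := min_le_right _ _
  linarith

/-- **Soft reduction** with an abstract second case. -/
theorem main' {γ : ℝ} (hFT : FT γ) (hC2 : Case2 γ) (ψ : ℕ → ℝ)
    (hψ : ∀ q, 0 ≤ ψ q) (hdiv : ¬ Summable fun q : ℕ => (Nat.totient q : ℝ) / q * ψ q) :
    ∀ᵐ x : ℝ, ∃ᶠ q : ℕ in atTop, |(q : ℝ) * x - γ - round ((q : ℝ) * x - γ)| < ψ q := by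
  classical
  by_cases hbig : ∃ᶠ q : ℕ in atTop, 1 / 2 < ψ q
  · exact Eventually.of_forall fun x => hbig.mono fun q hq =>
      (abs_sub_round _).trans_lt hq
  rw [not_frequently, eventually_atTop] at hbig
  obtain ⟨Q₀, hQ₀⟩ := hbig
  -- truncate
  set ψ₁ : ℕ → ℝ := fun q => if Q₀ ≤ q then ψ q else 0 with hψ₁
  have h0 : ∀ q, 0 ≤ ψ₁ q := fun q => by
    simp only [hψ₁]; split_ifs; exacts [hψ q, le_rfl]
  have h2 : ∀ q, ψ₁ q ≤ 1 / 2 := fun q => by
    simp only [hψ₁]; split_ifs with h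
    · exact not_lt.1 (hQ₀ q h)
    · norm_num
  have hdiv₁ : ¬ Summable (w ψ₁) := by
    intro hs
    refine hdiv ?_
    refine (summable_congr_atTop ?_).1 hs
    filter_upwards [eventually_ge_atTop Q₀] with q hq
    simp [w, hψ₁, hq]
  have hsub : ∀ x, x ∈ W γ ψ₁ → ∃ᶠ q : ℕ in atTop,
      |(q : ℝ) * x - γ - round ((q : ℝ) * x - γ)| < ψ q := by
    intro x hx
    refine hx.mono fun q hq => ?_
    have hle : ψ₁ q ≤ ψ q := by
      simp only [hψ₁]; split_ifs; exacts [le_rfl, hψ q]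
    exact lt_of_lt_of_le hq hle
  suffices h : ∀ᵐ x : ℝ, x ∈ W γ ψ₁ from h.mono hsub
  by_cases hc : ∀ K₀ : ℕ, ∃ K, K₀ ≤ K ∧ 0 < K ∧ ¬ Summable fun q => if K ∣ q then w ψ₁ q else 0
  · exact ae_of_Ico (case1 hFT h0 h2 hc)
  · push Not at hc
    obtain ⟨B, hB⟩ := hc
    obtain ⟨u, hu, hdu⟩ := exists_u h0 hdiv₁ (B := B) (fun π hπ hBπ => by
      have := hB π hBπ hπ.pos
      convert this)
    have hcore := ae_of_Ico (hC2 (fun r => ψ₁ (u * r)) (fun r => h0 _) (fun r => h2 _) hdu)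
    have hu' : (u : ℝ) ≠ 0 := by exact_mod_cast hu.ne'
    refine (ae_mul hcore hu').mono fun x hx => ?_
    have hx' : ∃ᶠ r : ℕ in atTop, u * x ∈ Arc γ (ψ₁ (u * r)) r := hx
    have htend : Tendsto (fun r : ℕ => u * r) atTop atTop :=
      tendsto_id.const_mul_atTop' hu
    refine htend.frequently (hx'.mono fun r hr => ?_)
    have e : ((u * r : ℕ) : ℝ) * x - γ = (r : ℝ) * (u * x) - γ := by push_cast; ring
    show |((u * r : ℕ) : ℝ) * x - γ - round (((u * r : ℕ) : ℝ) * x - γ)| < ψ₁ (u * r)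
    rw [e]
    exact hr

/-- **full soft reduction of `S0004` to constant radius, critical mass** -/
theorem main_CR {γ : ℝ} (h1 : CR1 γ) (h2 : CRL γ) (ψ : ℕ → ℝ)
    (hψ : ∀ q, 0 ≤ ψ q) (hdiv : ¬ Summable fun q : ℕ => (Nat.totient q : ℝ) / q * ψ q) :
    ∀ᵐ x : ℝ, ∃ᶠ q : ℕ in atTop, |(q : ℝ) * x - γ - round ((q : ℝ) * x - γ)| < ψ q :=
  main' (FT_of_CR1 h1) (case2_of_CRL h2) ψ hψ hdiv

theorem main_CR2 {γ : ℝ} (h1 : CR1 γ) (h2 : CRL2 γ) (ψ : ℕ → ℝ)
    (hψ : ∀ q, 0 ≤ ψ q) (hdiv : ¬ Summable fun q : ℕ => (Nat.totient q : ℝ) / q * ψ q) :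
    ∀ᵐ x : ℝ, ∃ᶠ q : ℕ in atTop, |(q : ℝ) * x - γ - round ((q : ℝ) * x - γ)| < ψ q :=
  main_CR h1 (CRL_of_CRL2 h2) ψ hψ hdiv

end Crest.Agent.R4C.CrLocx935
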