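import Crest.Agent.R4C.CrLoc_935

/-!
# Row 4: kept numerators, pair count ⇒ `CR1` and `CRL2` (helper935)

For every `q` a `q`-periodic set `Kp q` of integers (kept numerators) is given;
`E γ ρ Kp q` is the union of the arcs of radius `ρ` around the kept points `(γ+n)/q`.

* `m_E_ge`, `loc_E_ge` : first moments; `m_E_inter_le` : second moment by the pair count `PC`.
-/

set_option autoImplicit false
open MeasureTheory Filter Set Topology

namespace Crest.Agent.R4C.CrPairx935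

open Crest.Agent.R4.Soft104 Crest.Agent.R4C.CrRedx935 Crest.Agent.R4C.CrLocx935

/-- points close to a kept hit -/
def E (γ ρ : ℝ) (Kp : ℕ → Set ℤ) (q : ℕ) : Set ℝ :=
  {x | |(q : ℝ) * x - γ - round ((q : ℝ) * x - γ)| < ρ * q ∧ round ((q : ℝ) * x - γ) ∈ Kp q}

lemma round_eq_of {y : ℝ} {n : ℤ} (h : |y - n| < 1 / 2) : round y = n := by
  have h1 : |y - round y| ≤ |y - n| := round_le y n
  have h2 : |((round y : ℤ) : ℝ) - n| < 1 := by
    have : ((round y : ℤ) : ℝ) - n = (y - n) - (y - round y) := by ring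
    rw [this]
    calc |(y - n) - (y - round y)| ≤ |y - n| + |y - round y| := abs_sub _ _
      _ < 1 / 2 + 1 / 2 := by linarith
      _ = 1 := by norm_num
  have h3 : |round y - n| < 1 := by exact_mod_cast h2
  have h4 : round y - n = 0 := Int.abs_lt_one_iff.1 h3
  omega

variable {γ ρ : ℝ} {Kp : ℕ → Set ℤ} {q q' : ℕ}

lemma E_subset_Arc : E γ ρ Kp q ⊆ Arc γ (ρ * q) q := fun _ hx => hx.1

lemma qabs (hq : 0 < q) (x : ℝ) (n : ℤ) :
    |(q : ℝ) * x - γ - n| = q * |x - (γ + n) / q| := by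
  have hq' : (0 : ℝ) < q := by exact_mod_cast hq
  rw [← abs_of_pos hq', ← abs_mul, abs_of_pos hq']
  congr 1
  field_simp
  ring

lemma mem_E (hq : 0 < q) (hρ : ρ * q ≤ 1 / 2) {x : ℝ} :
    x ∈ E γ ρ Kp q ↔ ∃ n ∈ Kp q, |x - (γ + n) / q| < ρ := by
  have hq' : (0 : ℝ) < q := by exact_mod_cast hq
  constructor
  · rintro ⟨h1, h2⟩
    refine ⟨_, h2, ?_⟩
    rw [qabs hq] at h1
    nlinarith
  · rintro ⟨n, hn, h⟩
    have h1 : |(q : ℝ) * x - γ - n| < ρ * q := by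
      rw [qabs hq]; nlinarith
    have h2 : round ((q : ℝ) * x - γ) = n := round_eq_of (h1.trans_le hρ)
    refine ⟨?_, ?_⟩
    · rw [h2]; exact h1
    · rw [h2]; exact hn

lemma measurable_round_lin (γ : ℝ) (q : ℕ) :
    Measurable fun x : ℝ => round ((q : ℝ) * x - γ) := by
  have : (fun x : ℝ => round ((q : ℝ) * x - γ)) = fun x : ℝ => ⌊(q : ℝ) * x - γ + 1 / 2⌋ := by
    funext x; rw [round_eq]
  rw [this]
  exact Int.measurable_floor.comp (by fun_prop)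

lemma measurableSet_E (γ ρ : ℝ) (Kp : ℕ → Set ℤ) (q : ℕ) : MeasurableSet (E γ ρ Kp q) := by
  have h1 : E γ ρ Kp q = Arc γ (ρ * q) q ∩ (fun x : ℝ => round ((q : ℝ) * x - γ)) ⁻¹' (Kp q) := by
    ext x; rfl
  rw [h1]
  exact (measurableSet_arc _ _ _).inter (measurable_round_lin γ q (MeasurableSet.of_discrete))

lemma E_per (hK : ∀ n : ℤ, n + q ∈ Kp q ↔ n ∈ Kp q) : Per (E γ ρ Kp q) := by
  have hK' : ∀ (k : ℤ) (n : ℤ), n + k * q ∈ Kp q ↔ n ∈ Kp q := by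
    intro k
    induction k using Int.induction_on with
    | zero => intro n; simp
    | succ k ih =>
      intro n
      rw [← ih n, ← hK (n + k * q)]
      have : n + (k + 1) * (q : ℤ) = n + k * q + q := by ring
      rw [this]
    | pred k ih =>
      intro n
      rw [← ih n, ← hK (n + (-(k : ℤ) - 1) * q)]
      have : n + (-(k : ℤ) - 1) * (q : ℤ) + q = n + -(k : ℤ) * q := by ring
      rw [this]
  intro x k
  have e : (q : ℝ) * (x + k) - γ = ((q : ℝ) * x - γ) + ((k * q : ℤ) : ℝ) := by push_cast; ring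
  have e2 : round ((q : ℝ) * (x + k) - γ) = round ((q : ℝ) * x - γ) + k * q := by
    rw [e, round_add_intCast]
  unfold E
  rw [mem_ofPred_eq, mem_ofPred_eq, e2, hK' k, e]
  push_cast
  have : (q : ℝ) * x - γ + k * q - (round ((q : ℝ) * x - γ) + k * q) =
    (q : ℝ) * x - γ - round ((q : ℝ) * x - γ) := by ring
  rw [this]

/-! ### first moments -/

/-- disjoint balls around a finite set of numerators -/
lemma vol_balls (γ : ℝ) (hq : 0 < q) (hρ0 : 0 ≤ ρ) (hρ : ρ * q ≤ 1 / 2) (T : Finset ℤ) :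
    volume.real (⋃ n ∈ T, Ioo ((γ + n) / q - ρ) ((γ + n) / q + ρ)) = T.card * (2 * ρ) := by
  have hq' : (0 : ℝ) < q := by exact_mod_cast hq
  have hne : ∀ n ∈ T, volume (Ioo ((γ + (n : ℤ)) / q - ρ) ((γ + n) / q + ρ)) ≠ ⊤ := by
    intro n _; simp
  rw [measureReal_biUnion_finset (h := hne)]
  · have : ∀ n ∈ T, volume.real (Ioo ((γ + (n : ℤ)) / q - ρ) ((γ + n) / q + ρ)) = 2 * ρ := by
      intro n _
      rw [Real.volume_real_Ioo_of_le (by linarith)]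
      ring
    rw [Finset.sum_congr rfl this]
    simp
  · intro a _ b _ hab
    rw [Function.onFun, Set.disjoint_left]
    rintro x ⟨h1, h2⟩ ⟨h3, h4⟩
    have key : ∀ u v : ℤ, u < v → x < (γ + u) / q + ρ → (γ + v) / q - ρ < x → False := by
      intro u v huv h5 h6
      have h7 : (u : ℝ) + 1 ≤ v := by exact_mod_cast huv
      have h8 : (γ + v) / q - (γ + u) / q < 2 * ρ := by linarith
      have h9 : (γ + v) / q - (γ + u) / q = (v - u) / q := by ring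
      rw [h9, div_lt_iff₀ hq'] at h8
      nlinarith
    rcases lt_or_gt_of_ne hab with h | h
    · exact key a b h h2 h3
    · exact key b a h h4 h1
  · intro n _; exact measurableSet_Ioo

lemma ball_subset_E (hq : 0 < q) (hρ : ρ * q ≤ 1 / 2) {n : ℤ} (hn : n ∈ Kp q) :
    Ioo ((γ + n) / q - ρ) ((γ + n) / q + ρ) ⊆ E γ ρ Kp q := by
  rintro x ⟨h1, h2⟩
  refine (mem_E hq hρ).2 ⟨n, hn, ?_⟩
  rw [abs_lt]
  constructor <;> linarith

/-- global first moment -/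
lemma m_E_ge (hq : 0 < q) (hρ0 : 0 ≤ ρ) (hρ : ρ * q ≤ 1 / 2)
    (hK : ∀ n : ℤ, n + q ∈ Kp q ↔ n ∈ Kp q) (T : Finset ℤ)
    (hT : ∀ n ∈ T, 0 ≤ n ∧ n < q ∧ n ∈ Kp q) :
    T.card * (2 * ρ) ≤ m (E γ ρ Kp q) := by
  have hq' : (0 : ℝ) < q := by exact_mod_cast hq
  rw [← m_period (measurableSet_E γ ρ Kp q) (E_per hK) (γ / q - ρ), ← vol_balls γ hq hρ0 hρ T]
  refine measureReal_mono ?_ (ne_top _ _ _)
  refine iUnion₂_subset fun n hn x hx => ⟨⟨?_, ?_⟩, ball_subset_E hq hρ (hT n hn).2.2 hx⟩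
  · refine lt_of_le_of_lt ?_ hx.1
    have : (0 : ℝ) ≤ n := by exact_mod_cast (hT n hn).1
    have : γ / q ≤ (γ + n) / q := by gcongr; linarith
    linarith
  · refine hx.2.le.trans ?_
    have h1 : (n : ℝ) + 1 ≤ q := by exact_mod_cast (hT n hn).2.1
    have h2 : (γ + n) / q ≤ (γ + q - 1) / q := by gcongr; linarith
    have h3 : (γ + q - 1) / q = γ / q + 1 - 1 / q := by field_simp
    have h4 : 2 * ρ ≤ 1 / q := by
      rw [le_div_iff₀ hq']; linarith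
    linarith

/-- local first moment -/
lemma loc_E_ge (hq : 0 < q) (hρ0 : 0 ≤ ρ) (hρ : ρ * q ≤ 1 / 2) {K i : ℕ} (hK : 0 < K)
    (T : Finset ℤ)
    (hT : ∀ n ∈ T, (i : ℝ) / K + ρ ≤ (γ + n) / q ∧ (γ + n) / q ≤ ((i : ℝ) + 1) / K - ρ ∧ n ∈ Kp q) :
    T.card * (2 * ρ) ≤ volume.real (J K i ∩ E γ ρ Kp q) := by
  rw [← vol_balls γ hq hρ0 hρ T]
  refine measureReal_mono ?_ ?_
  · refine iUnion₂_subset fun n hn x hx => ⟨⟨?_, ?_⟩, ball_subset_E hq hρ (hT n hn).2.2 hx⟩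
    · have := (hT n hn).1
      have := hx.1
      linarith
    · have := (hT n hn).2.1
      have := hx.2
      linarith
  · refine ne_top_of_le_ne_top ?_ (measure_mono inter_subset_left)
    rw [volume_J hK]; exact ENNReal.ofReal_ne_top

/-! ### second moment -/

/-- close kept pairs; the first numerator modulo `q` -/
def Pr (γ ρ : ℝ) (Kp : ℕ → Set ℤ) (q q' : ℕ) : Set (ℤ × ℤ) :=
  {v | 0 ≤ v.1 ∧ v.1 < q ∧ v.1 ∈ Kp q ∧ v.2 ∈ Kp q' ∧
    |(γ + v.1) / q - (γ + v.2) / q'| < 2 * ρ}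

lemma Pr_finite (hq' : 0 < q') : (Pr γ ρ Kp q q').Finite := by
  have hq'' : (0 : ℝ) < q' := by exact_mod_cast hq'
  refine Set.Finite.subset (s := (Finset.Ico (0 : ℤ) q ×ˢ
    Finset.Icc (⌊-(q' * (|γ| + q + 1 + 2 * |ρ|)) - |γ| - 1⌋)
      (⌈q' * (|γ| + q + 1 + 2 * |ρ|) + |γ| + 1⌉) : Finset (ℤ × ℤ))) (Finset.finite_toSet _) ?_
  rintro ⟨n, n'⟩ ⟨h1, h2, -, -, h3⟩
  simp only at h1 h2 h3
  have hq0 : (0 : ℝ) < q := by
    have : (0 : ℤ) < q := lt_of_le_of_lt h1 h2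
    exact_mod_cast this
  have hq1 : (1 : ℝ) ≤ q := by
    have : (0 : ℤ) < q := lt_of_le_of_lt h1 h2
    have : (1 : ℤ) ≤ q := this
    exact_mod_cast this
  have hn0 : (0 : ℝ) ≤ n := by exact_mod_cast h1
  have hn1 : (n : ℝ) ≤ q := by exact_mod_cast h2.le
  have h4 : |(γ + n) / q| ≤ |γ| + q := by
    rw [abs_div, abs_of_pos hq0, div_le_iff₀ hq0]
    calc |γ + n| ≤ |γ| + |(n : ℝ)| := abs_add_le _ _
      _ ≤ |γ| + q := by rw [abs_of_nonneg hn0]; linarith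
      _ ≤ (|γ| + q) * q := by nlinarith [abs_nonneg γ]
  have h5 : |(γ + n') / q'| ≤ |γ| + q + 1 + 2 * |ρ| := by
    have e : (γ + n') / q' = (γ + n) / q - ((γ + n) / q - (γ + n') / q') := by ring
    rw [e]
    calc |(γ + n) / q - ((γ + n) / q - (γ + n') / q')|
        ≤ |(γ + n) / q| + |(γ + n) / q - (γ + n') / q'| := abs_sub _ _
      _ ≤ |γ| + q + 2 * ρ := add_le_add h4 h3.le
      _ ≤ _ := by linarith [le_abs_self ρ]
  rw [abs_div, abs_of_pos hq'', div_le_iff₀ hq''] at h5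
  have h6 : |(n' : ℝ)| ≤ q' * (|γ| + q + 1 + 2 * |ρ|) + |γ| := by
    have e : (n' : ℝ) = (γ + n') - γ := by ring
    rw [e]
    calc |(γ + n') - γ| ≤ |γ + n'| + |γ| := abs_sub _ _
      _ ≤ _ := by linarith
  rw [abs_le] at h6
  simp only [Finset.coe_product, mem_prod, Finset.mem_coe, Finset.mem_Ico, Finset.mem_Icc]
  refine ⟨⟨h1, h2⟩, ?_, ?_⟩
  · have : ((⌊-(q' * (|γ| + q + 1 + 2 * |ρ|)) - |γ| - 1⌋ : ℤ) : ℝ) ≤ n' := by
      refine (Int.floor_le _).trans ?_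
      linarith [h6.1]
    exact_mod_cast this
  · have : (n' : ℝ) ≤ ((⌈q' * (|γ| + q + 1 + 2 * |ρ|) + |γ| + 1⌉ : ℤ) : ℝ) := by
      refine le_trans ?_ (Int.le_ceil _)
      linarith [h6.2]
    exact_mod_cast this

/-- pair count -/
noncomputable def PC (γ ρ : ℝ) (Kp : ℕ → Set ℤ) (q q' : ℕ) : ℕ := (Pr γ ρ Kp q q').ncard

lemma m_E_inter_le (hq : 0 < q) (hq' : 0 < q') (hρ0 : 0 ≤ ρ) (hρ : ρ * q ≤ 1 / 2)
    (hρ' : ρ * q' ≤ 1 / 2) (hK : ∀ n : ℤ, n + q ∈ Kp q ↔ n ∈ Kp q)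
    (hK' : ∀ n : ℤ, n + q' ∈ Kp q' ↔ n ∈ Kp q') :
    m (E γ ρ Kp q ∩ E γ ρ Kp q') ≤ 2 * ρ * PC γ ρ Kp q q' := by
  classical
  have hq0 : (0 : ℝ) < q := by exact_mod_cast hq
  have hfin := Pr_finite (γ := γ) (ρ := ρ) (Kp := Kp) (q := q) hq'
  have hper : Per (E γ ρ Kp q ∩ E γ ρ Kp q') := fun x n => by
    rw [Set.mem_inter_iff, Set.mem_inter_iff, E_per hK x n, E_per hK' x n]
  rw [← m_period ((measurableSet_E γ ρ Kp q).inter (measurableSet_E γ ρ Kp q')) hper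
    ((γ - 1 / 2) / q)]
  have hsub : Ioc ((γ - 1 / 2) / q) ((γ - 1 / 2) / q + 1) ∩ (E γ ρ Kp q ∩ E γ ρ Kp q') ⊆
      ⋃ v ∈ hfin.toFinset, Ioo ((γ + v.1) / q - ρ) ((γ + v.1) / q + ρ) := by
    rintro x ⟨⟨h1, h2⟩, hx, hx'⟩
    obtain ⟨n, hn, hxn⟩ := (mem_E hq hρ).1 hx
    obtain ⟨n', hn', hxn'⟩ := (mem_E hq' hρ').1 hx'
    have h3 : |(q : ℝ) * x - γ - n| < 1 / 2 := by
      rw [qabs hq]; nlinarith
    rw [abs_lt] at h3
    have e2 : (γ - 1 / 2) / q + 1 = (γ - 1 / 2 + q) / q := by field_simp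
    rw [e2, le_div_iff₀ hq0] at h2
    rw [div_lt_iff₀ hq0] at h1
    have h4 : (-1 : ℝ) < n := by nlinarith
    have h5 : (n : ℝ) < q := by nlinarith
    have h4' : (-1 : ℤ) < n := by exact_mod_cast h4
    have h5' : n < (q : ℤ) := by exact_mod_cast h5
    have hpr : (n, n') ∈ Pr γ ρ Kp q q' := by
      refine ⟨by show 0 ≤ n; omega, h5', hn, hn', ?_⟩
      show |(γ + n) / q - (γ + n') / q'| < 2 * ρ
      have e : (γ + n) / q - (γ + n') / q' = (x - (γ + n') / q') - (x - (γ + n) / q) := by ring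
      rw [e]
      calc |(x - (γ + n') / q') - (x - (γ + n) / q)|
          ≤ |x - (γ + n') / q'| + |x - (γ + n) / q| := abs_sub _ _
        _ < 2 * ρ := by linarith
    simp only [mem_iUnion]
    refine ⟨(n, n'), hfin.mem_toFinset.2 hpr, ?_⟩
    rw [abs_lt] at hxn
    constructor <;> simp only <;> linarith [hxn.1, hxn.2]
  have hfinm : volume (⋃ v ∈ hfin.toFinset, Ioo ((γ + v.1) / q - ρ) ((γ + v.1) / q + ρ)) ≠ ⊤ := by
    refine (measure_biUnion_lt_top (Finset.finite_toSet _) fun _ _ => ?_).ne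
    simp
  refine (measureReal_mono hsub hfinm).trans ((measureReal_biUnion_finset_le _ _).trans ?_)
  have : ∀ v ∈ hfin.toFinset, volume.real (Ioo ((γ + (v.1 : ℤ)) / q - ρ) ((γ + v.1) / q + ρ))
      = 2 * ρ := by
    intro v _
    rw [Real.volume_real_Ioo_of_le (by linarith)]
    ring
  rw [Finset.sum_congr rfl this, Finset.sum_const, nsmul_eq_mul]
  have hcard : hfin.toFinset.card = PC γ ρ Kp q q' := by
    unfold PC
    rw [Set.ncard_eq_toFinset_card _ hfin]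
  rw [hcard]
  linarith

/-! ### the counting function -/

/-- number of kept hits close to `x` -/
noncomputable def F (γ ρ : ℝ) (Kp : ℕ → Set ℤ) (Q : Finset ℕ) (x : ℝ) : ℝ :=
  ∑ q ∈ Q, (E γ ρ Kp q).indicator (fun _ => (1 : ℝ)) x

lemma test_F (γ ρ : ℝ) (Kp : ℕ → Set ℤ) (Q : Finset ℕ) : Test (F γ ρ Kp Q) where
  meas := Finset.measurable_sum _ fun q _ =>
    measurable_const.indicator (measurableSet_E γ ρ Kp q)
  nonneg x := Finset.sum_nonneg fun q _ => indicator_nonneg (fun _ _ => zero_le_one) x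
  bdd := ⟨Q.card, fun x => by
    calc F γ ρ Kp Q x ≤ ∑ _q ∈ Q, (1 : ℝ) := Finset.sum_le_sum fun q _ =>
          indicator_le_self' (fun _ _ => zero_le_one) x |>.trans le_rfl
      _ = Q.card := by simp⟩

lemma supp_F {Q : Finset ℕ} {x : ℝ} (h : F γ ρ Kp Q x ≠ 0) : ∃ q ∈ Q, x ∈ Arc γ (ρ * q) q := by
  obtain ⟨q, hq, h⟩ := Finset.exists_ne_zero_of_sum_ne_zero h
  exact ⟨q, hq, E_subset_Arc (mem_of_indicator_ne_zero h)⟩

lemma int_ind {A B : Set ℝ} (hB : MeasurableSet B) :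
    ∫ x in A, B.indicator (fun _ => (1 : ℝ)) x = volume.real (A ∩ B) := by
  rw [setIntegral_indicator hB, setIntegral_const]
  simp

lemma intble_ind {A B : Set ℝ} (hA : volume A ≠ ⊤) (hB : MeasurableSet B) :
    IntegrableOn (B.indicator (fun _ => (1 : ℝ))) A := by
  refine Integrable.indicator ?_ hB
  exact integrableOn_const hA

lemma int_F {A : Set ℝ} (hA : volume A ≠ ⊤) (Q : Finset ℕ) :
    ∫ x in A, F γ ρ Kp Q x = ∑ q ∈ Q, volume.real (A ∩ E γ ρ Kp q) := by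
  unfold F
  rw [integral_finsetSum _ fun q _ => intble_ind hA (measurableSet_E γ ρ Kp q)]
  exact Finset.sum_congr rfl fun q _ => int_ind (measurableSet_E γ ρ Kp q)

lemma int_F_sq {A : Set ℝ} (hA : volume A ≠ ⊤) (Q : Finset ℕ) :
    ∫ x in A, F γ ρ Kp Q x ^ 2 =
      ∑ q ∈ Q, ∑ q' ∈ Q, volume.real (A ∩ (E γ ρ Kp q ∩ E γ ρ Kp q')) := by
  have e : ∀ x, F γ ρ Kp Q x ^ 2 = ∑ q ∈ Q, ∑ q' ∈ Q,
      (E γ ρ Kp q ∩ E γ ρ Kp q').indicator (fun _ => (1 : ℝ)) x := by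
    intro x
    unfold F
    rw [sq, Finset.sum_mul_sum]
    refine Finset.sum_congr rfl fun q _ => Finset.sum_congr rfl fun q' _ => ?_
    by_cases h : x ∈ E γ ρ Kp q <;> by_cases h' : x ∈ E γ ρ Kp q' <;> simp [h, h']
  simp only [e]
  have hm : ∀ q q' : ℕ, MeasurableSet (E γ ρ Kp q ∩ E γ ρ Kp q') := fun q q' =>
    (measurableSet_E γ ρ Kp q).inter (measurableSet_E γ ρ Kp q')
  rw [integral_finsetSum _ fun q _ => integrable_finsetSum _ fun q' _ => intble_ind hA (hm q q')]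
  refine Finset.sum_congr rfl fun q _ => ?_
  rw [integral_finsetSum _ fun q' _ => intble_ind hA (hm q q')]
  exact Finset.sum_congr rfl fun q' _ => int_ind (hm q q')

/-- second moment by pair count -/
lemma second_moment {Q : Finset ℕ} (hQ : ∀ q ∈ Q, 0 < q) (hρ0 : 0 ≤ ρ)
    (hρ : ∀ q ∈ Q, ρ * q ≤ 1 / 2) (hK : ∀ q ∈ Q, ∀ n : ℤ, n + q ∈ Kp q ↔ n ∈ Kp q) :
    ∫ x in Ico (0 : ℝ) 1, F γ ρ Kp Q x ^ 2 ≤
      2 * (ρ * ∑ q ∈ Q, ∑ q' ∈ Q, (PC γ ρ Kp q q' : ℝ)) := by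
  rw [int_F_sq (by simp), Finset.mul_sum, Finset.mul_sum]
  refine Finset.sum_le_sum fun q hq => ?_
  rw [Finset.mul_sum, Finset.mul_sum]
  refine Finset.sum_le_sum fun q' hq' => ?_
  rw [m_Ico]
  have := m_E_inter_le (γ := γ) (hQ q hq) (hQ q' hq') hρ0 (hρ q hq) (hρ q' hq') (hK q hq) (hK q' hq')
  linarith

/-! ### abstract interfaces -/

/-- residues kept modulo `q` -/
noncomputable def kc (Kp : ℕ → Set ℤ) (q : ℕ) : ℕ := {n : ℤ | 0 ≤ n ∧ n < q ∧ n ∈ Kp q}.ncard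

lemma kc_finite (Kp : ℕ → Set ℤ) (q : ℕ) : {n : ℤ | 0 ≤ n ∧ n < q ∧ n ∈ Kp q}.Finite :=
  (Set.finite_Ico (0 : ℤ) q).subset fun _ hn => ⟨hn.1, hn.2.1⟩

/-- **pair count statement** with abstract kept sets (global) -/
def KC (γ : ℝ) : Prop := ∃ c : ℝ, 0 < c ∧ ∃ C : ℝ, ∃ δ : ℝ, 0 < δ ∧ ∃ P : ℕ,
  ∀ (Q : Finset ℕ) (ρ : ℝ), (∀ q ∈ Q, 0 < q ∧ P ≤ q) → 0 < ρ →
    ρ * ∑ q ∈ Q, (Nat.totient q : ℝ) = 1 → (∀ q ∈ Q, ρ * q ≤ δ) →
    ∃ Q' ⊆ Q, ∃ Kp : ℕ → Set ℤ, (∀ q ∈ Q', ∀ n : ℤ, n + q ∈ Kp q ↔ n ∈ Kp q) ∧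
      c ≤ ρ * ∑ q ∈ Q', (kc Kp q : ℝ) ∧
      ρ * ∑ q ∈ Q', ∑ q' ∈ Q', (PC γ ρ Kp q q' : ℝ) ≤ C

theorem CR1_of_KC {γ : ℝ} (h : KC γ) : CR1 γ := by
  obtain ⟨c, hc, C, δ, hδ, P, h⟩ := h
  set C' := max C 1 with hC'
  have hC'0 : 0 < C' := lt_of_lt_of_le one_pos (le_max_right _ _)
  refine ⟨2 * c ^ 2 / C', by positivity, min δ (1 / 2), lt_min hδ (by norm_num), P,
    fun Q ρ hQ hρ hmass hs => ?_⟩
  obtain ⟨Q', hQ', Kp, hper, h1, h2⟩ := h Q ρ hQ hρ hmass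
    (fun q hq => (hs q hq).trans (min_le_left _ _))
  have hQ'0 : ∀ q ∈ Q', 0 < q := fun q hq => (hQ q (hQ' hq)).1
  have hρ' : ∀ q ∈ Q', ρ * q ≤ 1 / 2 := fun q hq => (hs q (hQ' hq)).trans (min_le_right _ _)
  have hF := test_F γ ρ Kp Q'
  have e2 : ∫ x in Ico (0 : ℝ) 1, F γ ρ Kp Q' x ^ 2 ≤ 2 * C' := by
    refine (second_moment hQ'0 hρ.le hρ' hper).trans ?_
    have := h2.trans (le_max_left C 1)
    linarith
  have e1 : 2 * c ≤ ∫ x in Ico (0 : ℝ) 1, F γ ρ Kp Q' x := by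
    rw [int_F (by simp)]
    calc 2 * c ≤ 2 * (ρ * ∑ q ∈ Q', (kc Kp q : ℝ)) := by linarith
      _ = ∑ q ∈ Q', (kc Kp q : ℝ) * (2 * ρ) := by
          rw [Finset.mul_sum, Finset.mul_sum]
          exact Finset.sum_congr rfl fun q _ => by ring
      _ ≤ _ := Finset.sum_le_sum fun q hq => by
          rw [m_Ico]
          have hfin := kc_finite Kp q
          have := m_E_ge (γ := γ) (Kp := Kp) (hQ'0 q hq) hρ.le (hρ' q hq) (hper q hq) hfin.toFinset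
            (fun n hn => by simpa using hn)
          unfold kc
          rwa [Set.ncard_eq_toFinset_card _ hfin]
  -- Cauchy-Schwarz
  set A := Ico (0 : ℝ) 1 ∩ ⋃ q ∈ Q, Arc γ (ρ * q) q with hA
  have hA1 : A ⊆ Ico (0 : ℝ) 1 := inter_subset_left
  have hAm : MeasurableSet A := measurableSet_Ico.inter
    (Finset.measurableSet_biUnion _ fun q _ => measurableSet_arc _ _ _)
  have e3 : ∫ x in Ico (0 : ℝ) 1, F γ ρ Kp Q' x = ∫ x in A, F γ ρ Kp Q' x := by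
    have : ∫ x in Ico (0 : ℝ) 1, F γ ρ Kp Q' x =
        ∫ x in Ico (0 : ℝ) 1, A.indicator (F γ ρ Kp Q') x := by
      refine setIntegral_congr_fun measurableSet_Ico fun x hx => ?_
      by_cases hxA : x ∈ A
      · simp [hxA]
      · simp only [indicator_of_notMem hxA]
        by_contra hFx
        obtain ⟨q, hq, hxq⟩ := supp_F hFx
        exact hxA ⟨hx, by simp only [mem_iUnion]; exact ⟨q, hQ' hq, hxq⟩⟩
    rw [this, setIntegral_indicator hAm, inter_eq_right.2 hA1]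
  have hl : 0 < c / C' := by positivity
  have h5 := hF.amgm hA1 hl
  rw [← e3] at h5
  have h6 : c / C' / 2 * (∫ x in Ico (0 : ℝ) 1, F γ ρ Kp Q' x ^ 2) ≤ c := by
    calc c / C' / 2 * (∫ x in Ico (0 : ℝ) 1, F γ ρ Kp Q' x ^ 2) ≤ c / C' / 2 * (2 * C') :=
          mul_le_mul_of_nonneg_left e2 (by positivity)
      _ = c := by field_simp
  have h7 : c ≤ volume.real A / (2 * (c / C')) := by linarith
  rw [le_div_iff₀ (by positivity)] at h7
  have h8 : c * (2 * (c / C')) = 2 * c ^ 2 / C' := by field_simp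
  linarith

/-- **pair count statement** with abstract kept sets (local, rough denominators) -/
def KCL (γ : ℝ) : Prop := ∃ c : ℝ, 0 < c ∧ ∃ C : ℝ, ∃ δ : ℝ, 0 < δ ∧ ∀ K : ℕ, 0 < K → ∃ P : ℕ,
  ∀ (Q : Finset ℕ) (ρ : ℝ), (∀ q ∈ Q, 0 < q ∧ P ≤ q ∧ Rough P q) → 0 < ρ →
    ρ * ∑ q ∈ Q, (Nat.totient q : ℝ) = 1 → (∀ q ∈ Q, ρ * q ≤ δ) →
    ∃ Q' ⊆ Q, ∃ Kp : ℕ → Set ℤ, (∀ q ∈ Q', ∀ n : ℤ, n + q ∈ Kp q ↔ n ∈ Kp q) ∧
      (∀ i < K, ∃ T : ℕ → Finset ℤ, (∀ q ∈ Q', ∀ n ∈ T q, (i : ℝ) / K + ρ ≤ (γ + n) / q ∧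
        (γ + n) / q ≤ ((i : ℝ) + 1) / K - ρ ∧ n ∈ Kp q) ∧
        c / K ≤ ρ * ∑ q ∈ Q', ((T q).card : ℝ)) ∧
      ρ * ∑ q ∈ Q', ∑ q' ∈ Q', (PC γ ρ Kp q q' : ℝ) ≤ C

theorem CRL2_of_KCL {γ : ℝ} (h : KCL γ) : CRL2 γ := by
  obtain ⟨c, hc, C, δ, hδ, h⟩ := h
  refine ⟨2 * c, by positivity, 2 * C, min δ (1 / 2), lt_min hδ (by norm_num), fun K hK => ?_⟩
  obtain ⟨P, h⟩ := h K hK
  refine ⟨P, fun Q ρ hQ hρ hmass hs => ?_⟩
  obtain ⟨Q', hQ', Kp, hper, h1, h2⟩ := h Q ρ hQ hρ hmass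
    (fun q hq => (hs q hq).trans (min_le_left _ _))
  have hQ'0 : ∀ q ∈ Q', 0 < q := fun q hq => (hQ q (hQ' hq)).1
  have hρ' : ∀ q ∈ Q', ρ * q ≤ 1 / 2 := fun q hq => (hs q (hQ' hq)).trans (min_le_right _ _)
  refine ⟨F γ ρ Kp Q', test_F γ ρ Kp Q', fun x hx => ?_, ?_, fun i hi => ?_⟩
  · obtain ⟨q, hq, hxq⟩ := supp_F hx
    exact ⟨q, hQ' hq, hxq⟩
  · refine (second_moment hQ'0 hρ.le hρ' hper).trans ?_
    linarith
  · obtain ⟨T, hT, hT2⟩ := h1 i hi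
    rw [int_F (by rw [volume_J hK]; exact ENNReal.ofReal_ne_top)]
    calc 2 * c / K ≤ 2 * (ρ * ∑ q ∈ Q', ((T q).card : ℝ)) := by
          have : 2 * c / K = 2 * (c / K) := by ring
          rw [this]; linarith
      _ = ∑ q ∈ Q', ((T q).card : ℝ) * (2 * ρ) := by
          rw [Finset.mul_sum, Finset.mul_sum]
          exact Finset.sum_congr rfl fun q _ => by ring
      _ ≤ _ := Finset.sum_le_sum fun q hq =>
          loc_E_ge (hQ'0 q hq) hρ.le (hρ' q hq) hK (T q) (hT q hq)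

end Crest.Agent.R4C.CrPairx935
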