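import Crest.Agent.R4.Soft104

/-!
# Row 4: the constant radius statement implies the finite theorem (helper935)

* `m E` : measure of a `1`-periodic set on one period.
* `m_N_sdiff_le`, `m_Nb_le` : growth of neighbourhoods (one-sided layers are shifted injectively).
* `union_ge` : constant radius bounds for all subsets of `S` give the bound for variable radii on `S`.
* `CR γ` : constant radius statement, `FT_of_CR : CR γ → Soft104.FT γ`.
* `CR1 γ` : constant radius statement at critical mass and small `ρ q`; `CR_of_CR1 : CR1 γ → CR γ`.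
-/

set_option autoImplicit false
open MeasureTheory Filter Set Topology
open scoped Pointwise

namespace Crest.Agent.R4C.CrRedx935

open Crest.Agent.R4.Soft104

/-- periodicity -/
def Per (E : Set ℝ) : Prop := ∀ (x : ℝ) (n : ℤ), x + n ∈ E ↔ x ∈ E

/-- measure on one period -/
noncomputable def m (E : Set ℝ) : ℝ := volume.real (Ioc (0 : ℝ) 1 ∩ E)

lemma ne_top (a b : ℝ) (E : Set ℝ) : volume (Ioc a b ∩ E) ≠ ⊤ :=
  ne_top_of_le_ne_top (by simp) (measure_mono inter_subset_left)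

lemma m_nonneg (E : Set ℝ) : 0 ≤ m E := measureReal_nonneg

lemma m_mono {E F : Set ℝ} (h : E ⊆ F) : m E ≤ m F :=
  measureReal_mono (inter_subset_inter_right _ h) (ne_top _ _ _)

lemma m_union_le (E F : Set ℝ) : m (E ∪ F) ≤ m E + m F := by
  unfold m
  rw [inter_union_distrib_left]
  exact measureReal_union_le _ _

lemma m_Ico (E : Set ℝ) : volume.real (Ico (0 : ℝ) 1 ∩ E) = m E := by
  unfold m Measure.real
  congr 1
  refine measure_congr ?_
  exact (Ico_ae_eq_Ioc).inter (ae_eq_refl _)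

lemma m_period {E : Set ℝ} (hE : MeasurableSet E) (hp : Per E) (t : ℝ) :
    volume.real (Ioc t (t + 1) ∩ E) = m E := by
  have h1 := isAddFundamentalDomain_Ioc (T := (1 : ℝ)) one_pos t volume
  have h2 := isAddFundamentalDomain_Ioc (T := (1 : ℝ)) one_pos 0 volume
  have h := h1.measure_set_eq h2 hE (fun g => by
    obtain ⟨g, hg⟩ := g
    obtain ⟨n, rfl⟩ := AddSubgroup.mem_zmultiples_iff.1 hg
    ext x
    simp only [mem_preimage]
    have : ((⟨n • (1 : ℝ), hg⟩ : AddSubgroup.zmultiples (1 : ℝ)) +ᵥ x) = x + n := by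
      rw [AddSubgroup.vadd_def]
      simp [add_comm]
    rw [this]
    exact hp x n)
  unfold m Measure.real
  rw [inter_comm, h, inter_comm, zero_add]

lemma m_shift {E : Set ℝ} (hE : MeasurableSet E) (hp : Per E) (h : ℝ) :
    m ((fun x => x - h) ⁻¹' E) = m E := by
  rw [← m_period hE hp (-h)]
  unfold m Measure.real
  congr 1
  have : Ioc (0 : ℝ) 1 ∩ (fun x => x - h) ⁻¹' E = (fun x => x + (-h)) ⁻¹' (Ioc (-h) (-h + 1) ∩ E) := by
    ext x
    simp only [mem_inter_iff, mem_Ioc, mem_preimage, sub_eq_add_neg]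
    constructor
    · rintro ⟨⟨a, b⟩, c⟩; exact ⟨⟨by linarith, by linarith⟩, c⟩
    · rintro ⟨⟨a, b⟩, c⟩; exact ⟨⟨by linarith, by linarith⟩, c⟩
  rw [this, measure_preimage_add_right]

/-! ### one-sided neighbourhoods -/

/-- one-sided closed neighbourhood (`σ = 1` or `σ = -1`) -/
def N (σ : ℝ) (A : Set ℝ) (s : ℝ) : Set ℝ := {x | ∃ a ∈ A, 0 ≤ σ * (x - a) ∧ σ * (x - a) ≤ s}

variable {σ : ℝ} {A U : Set ℝ}

lemma N_zero (hσ : σ * σ = 1) : N σ A 0 = A := by
  ext x
  constructor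
  · rintro ⟨a, ha, h1, h2⟩
    have h3 : σ * (x - a) = 0 := le_antisymm h2 h1
    have h4 : x - a = 0 := by
      have : σ * (σ * (x - a)) = 0 := by rw [h3, mul_zero]
      rwa [← mul_assoc, hσ, one_mul] at this
    have h5 : x = a := by linarith
    rwa [h5]
  · intro h
    exact ⟨x, h, by simp, by simp⟩

lemma N_mono {s t : ℝ} (h : s ≤ t) : N σ A s ⊆ N σ A t :=
  fun _ ⟨a, ha, h1, h2⟩ => ⟨a, ha, h1, h2.trans h⟩

lemma N_per (hA : Per A) (s : ℝ) : Per (N σ A s) := by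
  intro x n
  constructor
  · rintro ⟨a, ha, h1, h2⟩
    refine ⟨a - n, ?_, ?_, ?_⟩
    · have := (hA (a - n) n)
      rw [sub_add_cancel] at this
      exact this.1 ha
    · have : x - (a - n) = x + n - a := by ring
      rwa [this]
    · have : x - (a - n) = x + n - a := by ring
      rwa [this]
  · rintro ⟨a, ha, h1, h2⟩
    refine ⟨a + n, (hA a n).2 ha, ?_, ?_⟩
    · have : x + n - (a + n) = x - a := by ring
      rwa [this]
    · have : x + n - (a + n) = x - a := by ring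
      rwa [this]

lemma N_closed (hσ : σ * σ = 1) (hA : IsClosed A) (s : ℝ) : IsClosed (N σ A s) := by
  have h : N σ A s = A + (fun t => σ * t) '' Icc 0 s := by
    ext x
    simp only [N, Set.mem_add, mem_image, mem_ofPred_eq]
    constructor
    · rintro ⟨a, ha, h1, h2⟩
      refine ⟨a, ha, x - a, ⟨σ * (x - a), ⟨h1, h2⟩, ?_⟩, by ring⟩
      rw [← mul_assoc, hσ, one_mul]
    · rintro ⟨a, ha, y, ⟨t, ⟨h1, h2⟩, rfl⟩, rfl⟩
      refine ⟨a, ha, ?_, ?_⟩
      · have : σ * (a + σ * t - a) = t := by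
          have : σ * (a + σ * t - a) = (σ * σ) * t := by ring
          rw [this, hσ, one_mul]
        rwa [this]
      · have : σ * (a + σ * t - a) = t := by
          have : σ * (a + σ * t - a) = (σ * σ) * t := by ring
          rw [this, hσ, one_mul]
        rwa [this]
  rw [h]
  exact hA.add_right_of_isCompact (isCompact_Icc.image (by fun_prop))

/-- layers -/
def Ly (σ : ℝ) (A : Set ℝ) (h : ℝ) (k : ℕ) : Set ℝ := N σ A ((k + 1) * h) \ N σ A (k * h)

lemma Ly_shift (hσ : σ * σ = 1) {h : ℝ} (hh : 0 < h) (k : ℕ) :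
    Ly σ A h (k + 1) ⊆ (fun x => x - σ * h) ⁻¹' Ly σ A h k := by
  rintro x ⟨⟨a, ha, h1, h2⟩, h3⟩
  push_cast at h2 h3
  have e : ∀ b : ℝ, σ * (x - σ * h - b) = σ * (x - b) - h := by
    intro b
    have : σ * (x - σ * h - b) = σ * (x - b) - (σ * σ) * h := by ring
    rw [this, hσ, one_mul]
  have h4 : (k + 1) * h < σ * (x - a) := by
    by_contra hc
    exact h3 ⟨a, ha, h1, not_lt.1 hc⟩
  have hk : (0 : ℝ) ≤ k := Nat.cast_nonneg k
  refine ⟨⟨a, ha, ?_, ?_⟩, ?_⟩
  · rw [e]; nlinarith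
  · rw [e]; nlinarith
  · rintro ⟨b, hb, h5, h6⟩
    rw [e] at h5 h6
    refine h3 ⟨b, hb, by linarith, by nlinarith⟩

lemma Ly_meas (hσ : σ * σ = 1) (hA : IsClosed A) (h : ℝ) (k : ℕ) : MeasurableSet (Ly σ A h k) :=
  (N_closed hσ hA _).measurableSet.diff (N_closed hσ hA _).measurableSet

lemma Ly_per (hA : Per A) (h : ℝ) (k : ℕ) : Per (Ly σ A h k) := fun x n => by
  unfold Ly
  rw [Set.mem_sdiff, Set.mem_sdiff, N_per hA _ x n, N_per hA _ x n]

lemma m_Ly_le (hσ : σ * σ = 1) (hA : IsClosed A) (hp : Per A) {h : ℝ} (hh : 0 < h) (k : ℕ) :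
    m (Ly σ A h k) ≤ m (Ly σ A h 0) := by
  induction k with
  | zero => exact le_rfl
  | succ k ih =>
    refine le_trans ?_ ih
    calc m (Ly σ A h (k + 1)) ≤ m ((fun x => x - σ * h) ⁻¹' Ly σ A h k) := m_mono (Ly_shift hσ hh k)
      _ = m (Ly σ A h k) := m_shift (Ly_meas hσ hA h k) (Ly_per hp h k) _

/-- **growth of one-sided neighbourhoods** -/
lemma m_N_sdiff_le (hσ : σ * σ = 1) (hA : IsClosed A) (hp : Per A) {h : ℝ} (hh : 0 < h) (n : ℕ) :
    m (N σ A (n * h) \ A) ≤ n * m (N σ A h \ A) := by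
  have h0 : Ly σ A h 0 = N σ A h \ A := by
    unfold Ly
    simp only [Nat.cast_zero, zero_add, one_mul, zero_mul]
    rw [N_zero hσ]
  induction n with
  | zero =>
    simp only [Nat.cast_zero, zero_mul]
    rw [N_zero hσ, sdiff_self]
    simp [m]
  | succ n ih =>
    have hs : N σ A (((n + 1 : ℕ) : ℝ) * h) \ A ⊆ (N σ A (n * h) \ A) ∪ Ly σ A h n := by
      rintro x ⟨hx, hxA⟩
      by_cases hx' : x ∈ N σ A (n * h)
      · exact Or.inl ⟨hx', hxA⟩
      · exact Or.inr ⟨by push_cast at hx; exact hx, hx'⟩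
    calc m (N σ A (((n + 1 : ℕ) : ℝ) * h) \ A) ≤ m ((N σ A (n * h) \ A) ∪ Ly σ A h n) := m_mono hs
      _ ≤ m (N σ A (n * h) \ A) + m (Ly σ A h n) := m_union_le _ _
      _ ≤ n * m (N σ A h \ A) + m (Ly σ A h 0) := add_le_add ih (m_Ly_le hσ hA hp hh n)
      _ = ((n + 1 : ℕ) : ℝ) * m (N σ A h \ A) := by rw [h0]; push_cast; ring

/-- open neighbourhood -/
def Nb (A : Set ℝ) (R : ℝ) : Set ℝ := {x | ∃ a ∈ A, |x - a| < R}

lemma Nb_subset {R : ℝ} {h : ℝ} (n : ℕ) (hn : R ≤ n * h) :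
    Nb A R ⊆ A ∪ ((N 1 A (n * h) \ A) ∪ (N (-1) A (n * h) \ A)) := by
  rintro x ⟨a, ha, hx⟩
  by_cases hxA : x ∈ A
  · exact Or.inl hxA
  rw [abs_lt] at hx
  rcases le_total a x with h1 | h1
  · exact Or.inr (Or.inl ⟨⟨a, ha, by linarith, by linarith⟩, hxA⟩)
  · exact Or.inr (Or.inr ⟨⟨a, ha, by linarith, by linarith⟩, hxA⟩)

lemma m_Nb_le (hA : IsClosed A) (hp : Per A) {h : ℝ} (hh : 0 < h) {R : ℝ} (n : ℕ)
    (hn : R ≤ n * h) {v : ℝ} (h1 : m (N 1 A h \ A) ≤ v) (h2 : m (N (-1) A h \ A) ≤ v) :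
    m (Nb A R) ≤ m A + 2 * n * v := by
  have e1 := m_N_sdiff_le (σ := 1) (by norm_num) hA hp hh n
  have e2 := m_N_sdiff_le (σ := -1) (by norm_num) hA hp hh n
  have hn0 : (0 : ℝ) ≤ n := Nat.cast_nonneg n
  calc m (Nb A R) ≤ m (A ∪ ((N 1 A (n * h) \ A) ∪ (N (-1) A (n * h) \ A))) :=
        m_mono (Nb_subset n hn)
    _ ≤ m A + m ((N 1 A (n * h) \ A) ∪ (N (-1) A (n * h) \ A)) := m_union_le _ _
    _ ≤ m A + (m (N 1 A (n * h) \ A) + m (N (-1) A (n * h) \ A)) :=
        add_le_add le_rfl (m_union_le _ _)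
    _ ≤ m A + (n * v + n * v) := by
        have := mul_le_mul_of_nonneg_left h1 hn0
        have := mul_le_mul_of_nonneg_left h2 hn0
        linarith
    _ = m A + 2 * n * v := by ring

/-! ### erosions -/

/-- erosion of `U` by `r` -/
def V (U : Set ℝ) (r : ℝ) : Set ℝ := {x | ∀ y, |y - x| < r → y ∈ U}

lemma V_closed (r : ℝ) : IsClosed (V U r) := by
  have : V U r = (Metric.thickening r Uᶜ)ᶜ := by
    ext x
    simp only [V, mem_ofPred_eq, mem_compl_iff, Metric.mem_thickening_iff, not_exists, not_and]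
    constructor
    · intro h y hy hxy
      refine hy (h y ?_)
      rwa [← Real.dist_eq, dist_comm]
    · intro h y hy
      by_contra hc
      refine h y hc ?_
      rwa [dist_comm, Real.dist_eq]
  rw [this]
  exact Metric.isOpen_thickening.isClosed_compl

lemma V_per (hU : Per U) (r : ℝ) : Per (V U r) := by
  intro x n
  constructor
  · intro h y hy
    have := h (y + n) (by rwa [add_sub_add_right_eq_sub])
    exact (hU y n).1 this
  · intro h y hy
    have := h (y - n) (by rwa [show y - (n : ℝ) - x = y - (x + n) by ring])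
    have h2 := (hU (y - n) n)
    rw [sub_add_cancel] at h2
    exact h2.2 this

lemma V_anti {r s : ℝ} (h : r ≤ s) : V U s ⊆ V U r := fun _ hx y hy => hx y (hy.trans_le h)

lemma V_subset {r : ℝ} (hr : 0 < r) : V U r ⊆ U := fun x hx => hx x (by simpa using hr)

lemma N_V_subset (hσ : |σ| = 1) {h : ℝ} : N σ (V U (2 * h)) h ⊆ V U h := by
  rintro x ⟨a, ha, h1, h2⟩ y hy
  refine ha y ?_
  have e : |x - a| = σ * (x - a) := by
    rw [← abs_of_nonneg h1, abs_mul, hσ, one_mul]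
  calc |y - a| = |(y - x) + (x - a)| := by ring_nf
    _ ≤ |y - x| + |x - a| := abs_add_le _ _
    _ < h + h := by rw [e]; linarith
    _ = 2 * h := by ring

/-- **neighbourhoods of an erosion** -/
lemma m_Nb_V_le (hU : Per U) {h : ℝ} (hh : 0 < h) {R : ℝ} (n : ℕ) (hn : R ≤ n * h) :
    m (Nb (V U (2 * h)) R) ≤ m U + 2 * n * m (V U h \ V U (2 * h)) := by
  refine (m_Nb_le (V_closed _) (V_per hU _) hh n hn (v := m (V U h \ V U (2 * h))) ?_ ?_).trans ?_
  · exact m_mono (sdiff_subset_sdiff_left (N_V_subset (by norm_num)))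
  · exact m_mono (sdiff_subset_sdiff_left (N_V_subset (by norm_num)))
  · have := m_mono (V_subset (U := U) (r := 2 * h) (by linarith))
    linarith

/-! ### the constant radius statement -/

lemma mem_arc {γ r : ℝ} {q : ℕ} (hq : 0 < q) {x : ℝ} :
    x ∈ Arc γ (r * q) q ↔ ∃ n : ℤ, |x - (γ + n) / q| < r := by
  have hq' : (0 : ℝ) < q := by exact_mod_cast hq
  have e : ∀ n : ℤ, |(q : ℝ) * x - γ - n| = q * |x - (γ + n) / q| := by
    intro n
    rw [← abs_of_pos hq', ← abs_mul, abs_of_pos hq']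
    congr 1
    field_simp
    ring
  constructor
  · intro h
    refine ⟨round ((q : ℝ) * x - γ), ?_⟩
    have h1 : |(q : ℝ) * x - γ - round ((q : ℝ) * x - γ)| < r * q := h
    rw [e] at h1
    nlinarith
  · rintro ⟨n, hn⟩
    show |(q : ℝ) * x - γ - round ((q : ℝ) * x - γ)| < r * q
    refine (round_le _ n).trans_lt ?_
    rw [e]
    nlinarith

/-- the centres -/
def X (γ : ℝ) (Q : Finset ℕ) : Set ℝ := {x | ∃ q ∈ Q, ∃ n : ℤ, x = (γ + n) / q}

lemma Nb_X {γ ρ : ℝ} {Q : Finset ℕ} (hQ : ∀ q ∈ Q, 0 < q) :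
    Nb (X γ Q) ρ = ⋃ q ∈ Q, Arc γ (ρ * q) q := by
  ext x
  simp only [Nb, X, mem_ofPred_eq, mem_iUnion, exists_prop]
  constructor
  · rintro ⟨a, ⟨q, hq, n, rfl⟩, h⟩
    exact ⟨q, hq, (mem_arc (hQ q hq)).2 ⟨n, h⟩⟩
  · rintro ⟨q, hq, h⟩
    obtain ⟨n, hn⟩ := (mem_arc (hQ q hq)).1 h
    exact ⟨_, ⟨q, hq, n, rfl⟩, hn⟩

/-- **constant radius statement** -/
def CR (γ : ℝ) : Prop := ∃ c : ℝ, 0 < c ∧ ∃ P : ℕ, ∀ (Q : Finset ℕ) (ρ : ℝ),
  (∀ q ∈ Q, 0 < q ∧ P ≤ q) → 0 < ρ →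
    c * min 1 (ρ * ∑ q ∈ Q, (Nat.totient q : ℝ)) ≤
      volume.real (Ico (0 : ℝ) 1 ∩ ⋃ q ∈ Q, Arc γ (ρ * q) q)

/-- one level -/
lemma level {c u v Φ h : ℝ} (hc : 0 < c) (hh : 0 < h) (hv : 0 ≤ v) (hvu : v ≤ u)
    (hΦ : 0 ≤ Φ) (hu : 6 * u < c)
    (H : ∀ R : ℝ, 0 < R → c * min 1 (R * Φ) ≤ u + 2 * (R / h + 1) * v) :
    Φ * h ≤ 5 * v / c := by
  rcases hv.eq_or_lt with rfl | hv
  · rcases hΦ.eq_or_lt with rfl | hΦ
    · simp
    · exfalso
      have := H (1 / Φ) (by positivity)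
      rw [one_div, inv_mul_cancel₀ hΦ.ne', min_self] at this
      simp only [mul_one, mul_zero, add_zero] at this
      linarith
  · have hu0 : 0 < u := hv.trans_le hvu
    have h1 := H (h * u / v) (by positivity)
    have h2 : u + 2 * (h * u / v / h + 1) * v ≤ 5 * u := by
      have : h * u / v / h * v = u := by field_simp
      nlinarith
    have h3 : c * min 1 (h * u / v * Φ) ≤ 5 * u := h1.trans h2
    have h4 : h * u / v * Φ < 1 := by
      by_contra hc'
      rw [min_eq_left (not_lt.1 hc')] at h3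
      linarith
    rw [min_eq_right h4.le] at h3
    rw [le_div_iff₀ hc]
    have h5 : c * (h * u / v * Φ) * v ≤ 5 * u * v := mul_le_mul_of_nonneg_right h3 hv.le
    have h6 : c * (h * u / v * Φ) * v = u * (Φ * h * c) := by field_simp
    rw [h6] at h5
    have h7 : u * (Φ * h * c) ≤ u * (5 * v) := by linarith
    exact le_of_mul_le_mul_left h7 hu0

/-! ### variable radii -/

lemma U_per (γ : ℝ) (ψ : ℕ → ℝ) (S : Finset ℕ) : Per (⋃ q ∈ S, Arc γ (ψ q) q) := by
  intro x n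
  simp only [mem_iUnion]
  have : ∀ q : ℕ, (x + n ∈ Arc γ (ψ q) q ↔ x ∈ Arc γ (ψ q) q) := fun q =>
    arc_add_int (q * n) (by push_cast; ring)
  simp only [this]

/-- the dyadic layers of the erosions are disjoint inside `U` -/
def D (U : Set ℝ) (i : ℤ) : Set ℝ := V U ((2 : ℝ) ^ (i - 1)) \ V U ((2 : ℝ) ^ i)

lemma D_subset (i : ℤ) : D U i ⊆ U := sdiff_subset.trans (V_subset (by positivity))

lemma D_meas (i : ℤ) : MeasurableSet (D U i) :=
  (V_closed _).measurableSet.diff (V_closed _).measurableSet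

lemma D_disj {i j : ℤ} (h : i < j) : Disjoint (D U i) (D U j) := by
  rw [Set.disjoint_left]
  rintro x ⟨_, h1⟩ ⟨h2, _⟩
  exact h1 (V_anti (zpow_le_zpow_right₀ (by norm_num) (by omega)) h2)

lemma sum_m_D_le (I : Finset ℤ) : ∑ i ∈ I, m (D U i) ≤ m U := by
  have hd : Set.PairwiseDisjoint (↑I : Set ℤ) (fun i => Ioc (0 : ℝ) 1 ∩ D U i) := by
    intro i _ j _ hij
    rcases lt_or_gt_of_ne hij with h | h
    · exact (D_disj h).mono inter_subset_right inter_subset_right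
    · exact ((D_disj h).mono inter_subset_right inter_subset_right).symm
  have e : ∑ i ∈ I, m (D U i) = volume.real (⋃ i ∈ I, Ioc (0 : ℝ) 1 ∩ D U i) := by
    rw [measureReal_biUnion_finset hd (fun i _ => measurableSet_Ioc.inter (D_meas i))
      (fun i _ => ne_top _ _ _)]
    rfl
  rw [e]
  refine measureReal_mono ?_ (ne_top _ _ _)
  refine iUnion₂_subset fun i _ => inter_subset_inter_right _ (D_subset i)

/-- **constant radius implies variable radii** -/
theorem union_ge {γ c : ℝ} (hc : 0 < c) {ψ : ℕ → ℝ} (h0 : ∀ q, 0 ≤ ψ q) {S : Finset ℕ}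
    (hS : ∀ q ∈ S, 0 < q)
    (H : ∀ Q ⊆ S, ∀ ρ : ℝ, 0 < ρ → c * min 1 (ρ * ∑ q ∈ Q, (Nat.totient q : ℝ)) ≤
      m (⋃ q ∈ Q, Arc γ (ρ * q) q)) :
    c * min 1 (∑ q ∈ S, w ψ q) ≤ 20 * m (⋃ q ∈ S, Arc γ (ψ q) q) := by
  classical
  set U := ⋃ q ∈ S, Arc γ (ψ q) q with hU
  by_cases hu : 6 * m U < c
  swap
  · have : c * min 1 (∑ q ∈ S, w ψ q) ≤ c * 1 := mul_le_mul_of_nonneg_left (min_le_left _ _) hc.le
    linarith [m_nonneg U]
  set S' := S.filter (fun q => 0 < ψ q) with hS'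
  set l : ℕ → ℤ := fun q => Int.log 2 (ψ q / q) with hl
  have hr : ∀ q ∈ S', 0 < ψ q / q := by
    intro q hq
    rw [hS', Finset.mem_filter] at hq
    have : (0 : ℝ) < q := by exact_mod_cast hS q hq.1
    exact div_pos hq.2 this
  have hlo : ∀ q ∈ S', (2 : ℝ) ^ (l q) ≤ ψ q / q := fun q hq => by
    have := Int.zpow_log_le_self (b := 2) (R := ℝ) (by norm_num) (hr q hq)
    simpa [hl] using this
  have hhi : ∀ q ∈ S', ψ q / q < (2 : ℝ) ^ (l q + 1) := fun q hq => by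
    have := Int.lt_zpow_succ_log_self (b := 2) (R := ℝ) (by norm_num) (ψ q / q)
    simpa [hl] using this
  have hlev : ∀ i : ℤ, (∑ q ∈ S'.filter (fun q => l q = i), (Nat.totient q : ℝ)) *
      (2 : ℝ) ^ (i - 1) ≤ 5 * m (D U i) / c := by
    intro i
    set Q := S'.filter (fun q => l q = i) with hQ
    have hQS : Q ⊆ S := (Finset.filter_subset _ _).trans (Finset.filter_subset _ _)
    have h2 : (2 : ℝ) ^ i = 2 * (2 : ℝ) ^ (i - 1) := by
      rw [← zpow_one_add₀ (by norm_num)]; congr 1; ring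
    have hh : (0 : ℝ) < (2 : ℝ) ^ (i - 1) := by positivity
    have hX : X γ Q ⊆ V U ((2 : ℝ) ^ i) := by
      rintro x ⟨q, hq, n, rfl⟩ y hy
      have hq' := Finset.mem_filter.1 hq
      have hq0 := hS q (hQS hq)
      have hq0' : (0 : ℝ) < q := by exact_mod_cast hq0
      have h1 := hlo q hq'.1
      rw [hq'.2] at h1
      have h3 : y ∈ Arc γ (ψ q / q * q) q := (mem_arc hq0).2 ⟨n, hy.trans_le h1⟩
      rw [div_mul_cancel₀ _ hq0'.ne'] at h3
      rw [hU]
      simp only [mem_iUnion]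
      exact ⟨q, hQS hq, h3⟩
    refine level hc hh (m_nonneg _) (m_mono (D_subset i)) (Finset.sum_nonneg fun _ _ => by positivity)
      hu ?_
    intro R hR
    refine (H Q hQS R hR).trans ?_
    rw [← Nb_X fun q hq => hS q (hQS hq)]
    have h3 : Nb (X γ Q) R ⊆ Nb (V U (2 * (2 : ℝ) ^ (i - 1))) R := by
      rintro x ⟨a, ha, hx⟩
      exact ⟨a, h2 ▸ hX ha, hx⟩
    have hn : R ≤ (⌈R / (2 : ℝ) ^ (i - 1)⌉₊ : ℝ) * (2 : ℝ) ^ (i - 1) := by
      rw [← div_le_iff₀ hh]
      exact Nat.le_ceil _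
    have hn' : (⌈R / (2 : ℝ) ^ (i - 1)⌉₊ : ℝ) ≤ R / (2 : ℝ) ^ (i - 1) + 1 :=
      (Nat.ceil_lt_add_one (by positivity)).le
    refine (m_mono h3).trans ((m_Nb_V_le (U_per γ ψ S) hh _ hn).trans ?_)
    have e : V U ((2 : ℝ) ^ (i - 1)) \ V U (2 * (2 : ℝ) ^ (i - 1)) = D U i := by
      unfold D; rw [h2]
    rw [e]
    have := mul_le_mul_of_nonneg_right hn' (m_nonneg (D U i))
    nlinarith
  -- total mass
  have hW : ∑ q ∈ S, w ψ q ≤ 20 * m U / c := by
    have e1 : ∑ q ∈ S, w ψ q = ∑ q ∈ S', w ψ q := by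
      rw [hS', Finset.sum_filter]
      refine Finset.sum_congr rfl fun q _ => ?_
      split_ifs with h
      · rfl
      · have : ψ q = 0 := le_antisymm (not_lt.1 h) (h0 q)
        simp [w, this]
    have e2 : ∑ q ∈ S', w ψ q = ∑ i ∈ S'.image l, ∑ q ∈ S'.filter (fun q => l q = i), w ψ q :=
      (Finset.sum_fiberwise_of_maps_to (fun q hq => Finset.mem_image_of_mem l hq) _).symm
    have e3 : ∀ i ∈ S'.image l, ∑ q ∈ S'.filter (fun q => l q = i), w ψ q ≤ 20 * m (D U i) / c := by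
      intro i _
      have h1 : ∑ q ∈ S'.filter (fun q => l q = i), w ψ q ≤
          ∑ q ∈ S'.filter (fun q => l q = i), (Nat.totient q : ℝ) * (4 * (2 : ℝ) ^ (i - 1)) := by
        refine Finset.sum_le_sum fun q hq => ?_
        have hq' := Finset.mem_filter.1 hq
        have h2 := (hhi q hq'.1).le
        rw [hq'.2] at h2
        have h3 : (2 : ℝ) ^ (i + 1) = 4 * (2 : ℝ) ^ (i - 1) := by
          rw [show i + 1 = 2 + (i - 1) by ring, zpow_add₀ (by norm_num)]
          norm_num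
        rw [h3] at h2
        calc w ψ q = (Nat.totient q : ℝ) * (ψ q / q) := by unfold w; ring
          _ ≤ _ := mul_le_mul_of_nonneg_left h2 (by positivity)
      refine h1.trans ?_
      rw [← Finset.sum_mul]
      have h4 := hlev i
      calc (∑ q ∈ S'.filter (fun q => l q = i), (Nat.totient q : ℝ)) * (4 * (2 : ℝ) ^ (i - 1))
          = 4 * ((∑ q ∈ S'.filter (fun q => l q = i), (Nat.totient q : ℝ)) * (2 : ℝ) ^ (i - 1)) := by
            ring
        _ ≤ 4 * (5 * m (D U i) / c) := by linarith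
        _ = _ := by ring
    rw [e1, e2]
    refine (Finset.sum_le_sum e3).trans ?_
    rw [← Finset.sum_div, ← Finset.mul_sum]
    have := sum_m_D_le (U := U) (S'.image l)
    gcongr
  calc c * min 1 (∑ q ∈ S, w ψ q) ≤ c * (20 * m U / c) :=
        mul_le_mul_of_nonneg_left ((min_le_right _ _).trans hW) hc.le
    _ = 20 * m U := by field_simp

/-- **the constant radius statement implies the finite theorem** -/
theorem FT_of_CR {γ : ℝ} (h : CR γ) : FT γ := by
  obtain ⟨c, hc, P, h⟩ := h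
  refine ⟨c / 20, by positivity, P, fun ψ S hS => ?_⟩
  have h1 := union_ge hc hS.nonneg (S := S) hS.pos (fun Q hQ ρ hρ => by
    have := h Q ρ (fun q hq => ⟨hS.pos q (hQ hq), hS.large q (hQ hq)⟩) hρ
    rwa [m_Ico] at this)
  rw [min_eq_left hS.mass_lo, mul_one] at h1
  rw [m_Ico]
  linarith

/-! ### reduction to critical mass -/

lemma X_closed (γ : ℝ) {Q : Finset ℕ} (hQ : ∀ q ∈ Q, 0 < q) : IsClosed (X γ Q) := by
  have e : X γ Q = ⋃ q ∈ Q, (fun x : ℝ => (q : ℝ) * x - γ) ⁻¹' (range ((↑) : ℤ → ℝ)) := by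
    ext x
    simp only [X, mem_ofPred_eq, mem_iUnion, mem_preimage, mem_range, exists_prop]
    constructor
    · rintro ⟨q, hq, n, rfl⟩
      have : (q : ℝ) ≠ 0 := by exact_mod_cast (hQ q hq).ne'
      exact ⟨q, hq, n, by field_simp; ring⟩
    · rintro ⟨q, hq, n, hn⟩
      have : (q : ℝ) ≠ 0 := by exact_mod_cast (hQ q hq).ne'
      refine ⟨q, hq, n, ?_⟩
      rw [hn]; field_simp; ring
  rw [e]
  refine Set.Finite.isClosed_biUnion Q.finite_toSet fun q _ => ?_
  exact Int.isClosedEmbedding_coe_real.isClosed_range.preimage (by fun_prop)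

lemma X_per (γ : ℝ) {Q : Finset ℕ} (hQ : ∀ q ∈ Q, 0 < q) : Per (X γ Q) := by
  intro x k
  simp only [X, mem_ofPred_eq]
  constructor
  · rintro ⟨q, hq, n, hn⟩
    have : (q : ℝ) ≠ 0 := by exact_mod_cast (hQ q hq).ne'
    refine ⟨q, hq, n - q * k, ?_⟩
    have h1 : x = (γ + n) / q - k := by rw [← hn]; ring
    rw [h1]; push_cast; field_simp; ring
  · rintro ⟨q, hq, n, hn⟩
    have : (q : ℝ) ≠ 0 := by exact_mod_cast (hQ q hq).ne'
    refine ⟨q, hq, n + q * k, ?_⟩
    rw [hn]; push_cast; field_simp; ring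

lemma m_X (γ : ℝ) (Q : Finset ℕ) : m (X γ Q) = 0 := by
  have hc : (X γ Q).Countable := by
    have e : X γ Q = ⋃ q ∈ Q, range (fun n : ℤ => (γ + n) / q) := by
      ext x
      simp only [X, mem_ofPred_eq, mem_iUnion, mem_range, exists_prop, eq_comm]
    rw [e]
    exact Set.Countable.biUnion Q.countable_toSet fun q _ => countable_range _
  unfold m Measure.real
  rw [measure_mono_null inter_subset_right (hc.measure_zero volume), ENNReal.toReal_zero]

lemma N_subset_Nb (hσ : |σ| = 1) {s R : ℝ} (h : s < R) : N σ A s ⊆ Nb A R := by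
  rintro x ⟨a, ha, h1, h2⟩
  refine ⟨a, ha, ?_⟩
  rw [← abs_of_nonneg h1, abs_mul, hσ, one_mul] at h2
  exact h2.trans_lt h

/-- growth of the neighbourhoods of the centres -/
lemma m_Nb_X_le {γ : ℝ} {Q : Finset ℕ} (hQ : ∀ q ∈ Q, 0 < q) {r R : ℝ} (hr : 0 < r) (hrR : r ≤ R) :
    m (Nb (X γ Q) R) ≤ 6 * (R / r) * m (Nb (X γ Q) r) := by
  have hh : 0 < r / 2 := by positivity
  have hR : 0 < R := hr.trans_le hrR
  set n := ⌈R / (r / 2)⌉₊ with hn
  have hn1 : R ≤ n * (r / 2) := by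
    rw [← div_le_iff₀ hh]; exact Nat.le_ceil _
  have hn2 : (n : ℝ) ≤ 3 * (R / r) := by
    have h1 : (n : ℝ) ≤ R / (r / 2) + 1 := (Nat.ceil_lt_add_one (by positivity)).le
    have h2 : R / (r / 2) = 2 * (R / r) := by field_simp
    have h3 : 1 ≤ R / r := by rwa [one_le_div hr]
    linarith
  have h1 := m_Nb_le (X_closed γ hQ) (X_per γ hQ) hh n hn1 (v := m (Nb (X γ Q) r))
    (m_mono (sdiff_subset.trans (N_subset_Nb (by norm_num) (by linarith))))
    (m_mono (sdiff_subset.trans (N_subset_Nb (by norm_num) (by linarith))))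
  rw [m_X, zero_add] at h1
  refine h1.trans ?_
  have := mul_le_mul_of_nonneg_right hn2 (m_nonneg (Nb (X γ Q) r))
  linarith

/-- constant radius statement at critical mass, small `ρ q` -/
def CR1 (γ : ℝ) : Prop := ∃ c : ℝ, 0 < c ∧ ∃ δ : ℝ, 0 < δ ∧ ∃ P : ℕ, ∀ (Q : Finset ℕ) (ρ : ℝ),
  (∀ q ∈ Q, 0 < q ∧ P ≤ q) → 0 < ρ → ρ * ∑ q ∈ Q, (Nat.totient q : ℝ) = 1 →
    (∀ q ∈ Q, ρ * q ≤ δ) →
    c ≤ volume.real (Ico (0 : ℝ) 1 ∩ ⋃ q ∈ Q, Arc γ (ρ * q) q)

lemma m_Arc {γ r : ℝ} {q : ℕ} (hq : 0 < q) (hr : 0 ≤ r) (hr2 : r ≤ 1 / 2) :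
    2 * r ≤ m (Arc γ r q) := by
  have hq' : (0 : ℝ) < q := by exact_mod_cast hq
  -- disjoint intervals
  set f : ℤ → Set ℝ := fun n => Ioo ((γ + n - r) / q) ((γ + n + r) / q) with hf
  have hfd : Pairwise (Function.onFun Disjoint f) := by
    intro a b hab
    rw [Function.onFun, Set.disjoint_left]
    rintro x ⟨h1, h2⟩ ⟨h3, h4⟩
    rw [div_lt_iff₀ hq'] at h1 h3
    rw [lt_div_iff₀ hq'] at h2 h4
    rcases lt_or_gt_of_ne hab with h | h
    · have : (a : ℝ) + 1 ≤ b := by exact_mod_cast h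
      linarith
    · have : (b : ℝ) + 1 ≤ a := by exact_mod_cast h
      linarith
  have hsub : ∀ n, f n ⊆ Arc γ r q := by
    rintro n x ⟨h1, h2⟩
    rw [div_lt_iff₀ hq'] at h1
    rw [lt_div_iff₀ hq'] at h2
    show |(q : ℝ) * x - γ - round ((q : ℝ) * x - γ)| < r
    refine (round_le _ n).trans_lt ?_
    rw [abs_lt]
    constructor <;> linarith
  -- translate so that the intervals are inside a period
  set t : ℝ := (γ - r) / q with ht
  have h1 := m_period (measurableSet_arc γ r q) (fun x n => by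
    exact arc_add_int (q * n) (by push_cast; ring)) t
  rw [← h1]
  have hsub2 : (⋃ n ∈ Finset.range q, f (n : ℤ)) ⊆ Ioc t (t + 1) ∩ Arc γ r q := by
    refine iUnion₂_subset fun n hn x hx => ⟨⟨?_, ?_⟩, hsub _ hx⟩
    · refine lt_of_le_of_lt ?_ hx.1
      rw [ht]
      have : (0 : ℝ) ≤ n := Nat.cast_nonneg n
      push_cast
      gcongr
      linarith
    · refine hx.2.le.trans ?_
      have hn' : (n : ℝ) + 1 ≤ q := by exact_mod_cast Finset.mem_range.1 hn
      have e : t + 1 = (γ - r + q) / q := by rw [ht]; field_simp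
      rw [e]
      push_cast
      refine div_le_div_of_nonneg_right ?_ hq'.le
      linarith
  have h2 : volume.real (⋃ n ∈ Finset.range q, f (n : ℤ)) = 2 * r := by
    have hne : ∀ n ∈ Finset.range q, volume (f (n : ℤ)) ≠ ⊤ := by
      intro n _; simp [hf]
    rw [measureReal_biUnion_finset (h := hne)]
    · have : ∀ n ∈ Finset.range q, volume.real (f (n : ℤ)) = 2 * r / q := by
        intro n _
        simp only [hf]
        rw [Real.volume_real_Ioo_of_le (by
          refine div_le_div_of_nonneg_right ?_ hq'.le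
          linarith)]
        ring
      rw [Finset.sum_congr rfl this]
      simp only [Finset.sum_const, Finset.card_range, nsmul_eq_mul]
      field_simp
    · intro a _ b _ hab
      exact hfd (by exact_mod_cast hab)
    · intro n _; exact measurableSet_Ioo
  rw [← h2]
  exact measureReal_mono hsub2 (ne_top _ _ _)

/-- **reduction to critical mass** -/
theorem CR_of_CR1 {γ : ℝ} (h : CR1 γ) : CR γ := by
  obtain ⟨c, hc, δ₀, hδ₀, P, h⟩ := h
  set δ := min δ₀ (1 / 2) with hδdef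
  have hδ : 0 < δ := lt_min hδ₀ (by norm_num)
  set c' : ℝ := min c (2 * δ) with hc'
  have hc'0 : 0 < c' := lt_min hc (by positivity)
  -- critical mass without smallness
  have key : ∀ (Q : Finset ℕ) (ρ : ℝ), (∀ q ∈ Q, 0 < q ∧ P ≤ q) → 0 < ρ →
      ρ * ∑ q ∈ Q, (Nat.totient q : ℝ) = 1 → c' ≤ m (Nb (X γ Q) ρ) := by
    intro Q ρ hQ hρ hmass
    rw [Nb_X fun q hq => (hQ q hq).1]
    by_cases hs : ∀ q ∈ Q, ρ * q ≤ δ
    · have := h Q ρ hQ hρ hmass (fun q hq => (hs q hq).trans (min_le_left _ _))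
      rw [m_Ico] at this
      exact (min_le_left _ _).trans this
    · push Not at hs
      obtain ⟨q, hq, hs⟩ := hs
      have h1 := m_Arc (γ := γ) (hQ q hq).1 hδ.le (min_le_right _ _)
      refine (min_le_right _ _).trans (h1.trans (m_mono ?_))
      refine (arc_mono hs.le).trans fun x hx => ?_
      simp only [mem_iUnion]
      exact ⟨q, hq, hx⟩
  refine ⟨c' / 6, by positivity, P, fun Q ρ hQ hρ => ?_⟩
  rw [m_Ico, ← Nb_X fun q hq => (hQ q hq).1]
  set Φ := ∑ q ∈ Q, (Nat.totient q : ℝ) with hΦ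
  have hΦ0 : 0 ≤ Φ := Finset.sum_nonneg fun _ _ => by positivity
  rcases hΦ0.eq_or_lt with h0 | h0
  · rw [← h0]
    simp [m_nonneg]
  have hkey := key Q (1 / Φ) hQ (by positivity) (by rw [← hΦ]; field_simp)
  rcases le_total (ρ * Φ) 1 with h1 | h1
  · have h2 : ρ ≤ 1 / Φ := by rwa [le_div_iff₀ h0]
    have h3 := m_Nb_X_le (γ := γ) (fun q hq => (hQ q hq).1) hρ h2
    rw [min_eq_right h1]
    have h4 : 6 * (1 / Φ / ρ) * m (Nb (X γ Q) ρ) * (ρ * Φ) = 6 * m (Nb (X γ Q) ρ) := by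
      field_simp
    have h5 := mul_le_mul_of_nonneg_right (hkey.trans h3) (by positivity : 0 ≤ ρ * Φ)
    rw [h4] at h5
    linarith
  · rw [min_eq_left h1]
    have h2 : 1 / Φ ≤ ρ := by rwa [div_le_iff₀ h0]
    have h3 : Nb (X γ Q) (1 / Φ) ⊆ Nb (X γ Q) ρ := by
      rintro x ⟨a, ha, hx⟩
      exact ⟨a, ha, hx.trans_le h2⟩
    have := hkey.trans (m_mono h3)
    linarith

theorem FT_of_CR1 {γ : ℝ} (h : CR1 γ) : FT γ := FT_of_CR (CR_of_CR1 h)

end Crest.Agent.R4C.CrRedx935
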