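import Crest.Agent.R4C.CrPair_935

/-!
# Row 4: forbidden classes, Legendre sieve, and the final interface (helper935)

* `sieve` : integers in `[a,b)` avoiding one class modulo each prime of `S`, error `2^|S|`.
* `Kc κ q` : numerators avoiding the class `κ q p` modulo each prime `p ∣ q`; `kc_Kc : = φ(q)`.
* `KCc γ` : **one** pair count statement; `main_KCc : KCc γ → (S0004 for γ)`.
-/

set_option autoImplicit false
open MeasureTheory Filter Set Topology

namespace Crest.Agent.R4C.CrSievex935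

open Crest.Agent.R4.Soft104 Crest.Agent.R4C.CrRedx935 Crest.Agent.R4C.CrLocx935
  Crest.Agent.R4C.CrPairx935

/-- integers in `[a,b)` avoiding the classes `κ p` modulo `p`, `p ∈ S` -/
noncomputable def cnt (S : Finset ℕ) (κ : ℕ → ℤ) (a b : ℝ) : Finset ℤ :=
  open Classical in (Finset.Ico ⌈a⌉ ⌈b⌉).filter (fun n => ∀ p ∈ S, ¬ (p : ℤ) ∣ n - κ p)

lemma mem_cnt {S : Finset ℕ} {κ : ℕ → ℤ} {a b : ℝ} {n : ℤ} :
    n ∈ cnt S κ a b ↔ (a ≤ n ∧ (n : ℝ) < b) ∧ ∀ p ∈ S, ¬ (p : ℤ) ∣ n - κ p := by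
  unfold cnt
  rw [Finset.mem_filter, Finset.mem_Ico, Int.ceil_le, Int.lt_ceil]

lemma cnt_step {S : Finset ℕ} {r : ℕ} (hS : ∀ p ∈ S, p.Prime) (hr : r.Prime) (hrS : r ∉ S)
    (κ : ℕ → ℤ) (a b : ℝ) : ∃ κ' : ℕ → ℤ,
    ((cnt (insert r S) κ a b).card : ℝ) = (cnt S κ a b).card -
      (cnt S κ' ((a - κ r) / r) ((b - κ r) / r)).card := by
  classical
  have hr0 : (0 : ℝ) < r := by exact_mod_cast hr.pos
  have hr0' : (r : ℤ) ≠ 0 := by exact_mod_cast hr.ne_zero
  refine ⟨fun p => Nat.gcdA r p * (κ p - κ r), ?_⟩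
  have hcong : ∀ p ∈ S, ∀ m : ℤ, ((p : ℤ) ∣ κ r + r * m - κ p ↔
      (p : ℤ) ∣ m - Nat.gcdA r p * (κ p - κ r)) := by
    intro p hp m
    have hpr : p ≠ r := fun h => hrS (h ▸ hp)
    have hpp := hS p hp
    have hcop : Nat.Coprime r p := (Nat.coprime_primes hr hpp).2 (Ne.symm hpr)
    have hbez := Nat.gcd_eq_gcd_ab r p
    rw [hcop.gcd_eq_one] at hbez
    have hbez' : (r : ℤ) * Nat.gcdA r p = 1 - p * Nat.gcdB r p := by
      push_cast at hbez; linarith
    have hpr' : ¬ (p : ℤ) ∣ r := by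
      intro h
      have h2 : p ∣ r := by exact_mod_cast h
      exact hpr ((Nat.prime_dvd_prime_iff_eq hpp hr).1 h2)
    have hpi : Prime (p : ℤ) := Nat.prime_iff_prime_int.1 hpp
    have e : κ r + r * m - κ p = r * (m - Nat.gcdA r p * (κ p - κ r)) -
        p * (Nat.gcdB r p * (κ p - κ r)) := by
      have : (r : ℤ) * (m - Nat.gcdA r p * (κ p - κ r)) =
        r * m - (r * Nat.gcdA r p) * (κ p - κ r) := by ring
      rw [this, hbez']; ring
    rw [e]
    constructor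
    · intro h
      have h2 : (p : ℤ) ∣ r * (m - Nat.gcdA r p * (κ p - κ r)) := by
        have := dvd_add h (dvd_mul_right (p : ℤ) (Nat.gcdB r p * (κ p - κ r)))
        simpa using this
      exact (hpi.dvd_or_dvd h2).resolve_left hpr'
    · intro h
      exact dvd_sub (dvd_mul_of_dvd_right h _) (dvd_mul_right _ _)
  have h1 : cnt (insert r S) κ a b = (cnt S κ a b).filter (fun n => ¬ (r : ℤ) ∣ n - κ r) := by
    ext n
    rw [Finset.mem_filter, mem_cnt, mem_cnt]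
    simp only [Finset.mem_insert, forall_eq_or_imp]
    tauto
  have h2 : ((cnt S κ a b).filter (fun n => (r : ℤ) ∣ n - κ r)).card =
      (cnt S (fun p => Nat.gcdA r p * (κ p - κ r)) ((a - κ r) / r) ((b - κ r) / r)).card := by
    symm
    refine Finset.card_bij (fun m _ => κ r + r * m) ?_ ?_ ?_
    · intro m hm
      rw [mem_cnt] at hm
      rw [Finset.mem_filter, mem_cnt]
      refine ⟨⟨⟨?_, ?_⟩, ?_⟩, ?_⟩
      · have := hm.1.1
        rw [div_le_iff₀ hr0] at this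
        push_cast; linarith
      · have := hm.1.2
        rw [lt_div_iff₀ hr0] at this
        push_cast; linarith
      · intro p hp
        rw [hcong p hp]
        exact hm.2 p hp
      · rw [add_sub_cancel_left]; exact dvd_mul_right _ _
    · intro m _ m' _ h
      exact mul_left_cancel₀ hr0' (add_left_cancel h)
    · intro n hn
      rw [Finset.mem_filter, mem_cnt] at hn
      obtain ⟨m, hm⟩ := hn.2
      have hn' : n = κ r + r * m := by linarith
      refine ⟨m, ?_, hn'.symm⟩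
      rw [mem_cnt]
      refine ⟨⟨?_, ?_⟩, ?_⟩
      · rw [div_le_iff₀ hr0]
        have := hn.1.1.1
        rw [hn'] at this
        push_cast at this; linarith
      · rw [lt_div_iff₀ hr0]
        have := hn.1.1.2
        rw [hn'] at this
        push_cast at this; linarith
      · intro p hp
        rw [← hcong p hp, ← hn']
        exact hn.1.2 p hp
  rw [← h2, h1]
  have h3 := Finset.card_filter_add_card_filter_not (s := cnt S κ a b) (fun n => (r : ℤ) ∣ n - κ r)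
  have h4 : (((cnt S κ a b).filter (fun n => (r : ℤ) ∣ n - κ r)).card : ℝ) +
      ((cnt S κ a b).filter (fun n => ¬ (r : ℤ) ∣ n - κ r)).card = (cnt S κ a b).card := by
    exact_mod_cast h3
  linarith

/-- **Legendre sieve** -/
theorem sieve (S : Finset ℕ) (hS : ∀ p ∈ S, p.Prime) : ∀ (κ : ℕ → ℤ) (a b : ℝ), a ≤ b →
    |((cnt S κ a b).card : ℝ) - (b - a) * ∏ p ∈ S, (1 - 1 / (p : ℝ))| ≤ 2 ^ S.card := by
  classical
  induction S using Finset.induction_on with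
  | empty =>
    intro κ a b hab
    have h1 : cnt ∅ κ a b = Finset.Ico ⌈a⌉ ⌈b⌉ := by
      ext n; rw [mem_cnt, Finset.mem_Ico, Int.ceil_le, Int.lt_ceil]; simp
    rw [h1, Int.card_Ico]
    have h2 : ⌈a⌉ ≤ ⌈b⌉ := Int.ceil_mono hab
    have h3 : (((⌈b⌉ - ⌈a⌉).toNat : ℕ) : ℝ) = (⌈b⌉ : ℝ) - ⌈a⌉ := by
      have : (((⌈b⌉ - ⌈a⌉).toNat : ℤ)) = ⌈b⌉ - ⌈a⌉ := Int.toNat_of_nonneg (by omega)
      exact_mod_cast this
    rw [h3]
    simp only [Finset.prod_empty, mul_one, Finset.card_empty, pow_zero]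
    have h4 := Int.le_ceil a
    have h5 := Int.ceil_lt_add_one a
    have h6 := Int.le_ceil b
    have h7 := Int.ceil_lt_add_one b
    rw [abs_le]
    constructor <;> linarith
  | insert r S hrS ih =>
    intro κ a b hab
    have hr : r.Prime := hS r (Finset.mem_insert_self _ _)
    have hr0 : (0 : ℝ) < r := by exact_mod_cast hr.pos
    have hS' : ∀ p ∈ S, p.Prime := fun p hp => hS p (Finset.mem_insert_of_mem hp)
    obtain ⟨κ', hκ'⟩ := cnt_step hS' hr hrS κ a b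
    have h1 := ih hS' κ a b hab
    have h2 := ih hS' κ' ((a - κ r) / r) ((b - κ r) / r) (by gcongr)
    rw [hκ', Finset.prod_insert hrS, Finset.card_insert_of_notMem hrS, pow_succ]
    have e : (b - κ r) / r - (a - κ r) / r = (b - a) / r := by ring
    rw [e] at h2
    rw [abs_le] at h1 h2 ⊢
    have e2 : (b - a) * ((1 - 1 / (r : ℝ)) * ∏ p ∈ S, (1 - 1 / (p : ℝ))) =
        (b - a) * ∏ p ∈ S, (1 - 1 / (p : ℝ)) - (b - a) / r * ∏ p ∈ S, (1 - 1 / (p : ℝ)) := by ring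
    rw [e2]
    constructor <;> linarith [h1.1, h1.2, h2.1, h2.2]

/-- numerators avoiding the class `κ q p` modulo each prime `p ∣ q` -/
def Kc (κ : ℕ → ℕ → ℤ) (q : ℕ) : Set ℤ := {n | ∀ p ∈ q.primeFactors, ¬ (p : ℤ) ∣ n - κ q p}

lemma Kc_per (κ : ℕ → ℕ → ℤ) (q : ℕ) (n : ℤ) : n + q ∈ Kc κ q ↔ n ∈ Kc κ q := by
  unfold Kc
  simp only [mem_ofPred_eq]
  refine forall₂_congr fun p hp => not_congr ?_
  have hpq : (p : ℤ) ∣ q := by exact_mod_cast Nat.dvd_of_mem_primeFactors hp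
  have e : n + q - κ q p = (n - κ q p) + q := by ring
  rw [e]
  exact (Int.dvd_add_left hpq)

/-- Chinese remainder -/
lemma crt (S : Finset ℕ) (hS : ∀ p ∈ S, p.Prime) (κ : ℕ → ℤ) : ∃ a : ℤ, ∀ p ∈ S, (p : ℤ) ∣ a - κ p := by
  classical
  induction S using Finset.induction_on with
  | empty => exact ⟨0, by simp⟩
  | insert r S hrS ih =>
    obtain ⟨a, ha⟩ := ih fun p hp => hS p (Finset.mem_insert_of_mem hp)
    have hr : r.Prime := hS r (Finset.mem_insert_self _ _)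
    have hcop : Nat.Coprime (∏ p ∈ S, p) r := by
      refine Nat.Coprime.prod_left fun p hp => ?_
      exact (Nat.coprime_primes (hS p (Finset.mem_insert_of_mem hp)) hr).2 fun h => hrS (h ▸ hp)
    have hbez := Nat.gcd_eq_gcd_ab (∏ p ∈ S, p) r
    rw [hcop.gcd_eq_one] at hbez
    set D := ∏ p ∈ S, p with hD
    refine ⟨a + D * (Nat.gcdA D r * (κ r - a)), fun p hp => ?_⟩
    rcases Finset.mem_insert.1 hp with rfl | hp
    · refine ⟨Nat.gcdB D p * -(κ p - a), ?_⟩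
      push_cast at hbez
      have : a + (D : ℤ) * (Nat.gcdA D p * (κ p - a)) - κ p =
        -(κ p - a) * (1 - D * Nat.gcdA D p) := by ring
      rw [this, hbez]; ring
    · have hpD : (p : ℤ) ∣ D := by exact_mod_cast Finset.dvd_prod_of_mem (fun p : ℕ => p) hp
      have e : a + (D : ℤ) * (Nat.gcdA D r * (κ r - a)) - κ p =
        (a - κ p) + D * (Nat.gcdA D r * (κ r - a)) := by ring
      rw [e]
      exact dvd_add (ha p hp) (dvd_mul_of_dvd_left hpD _)

lemma kc_Kc (κ : ℕ → ℕ → ℤ) {q : ℕ} (hq : 0 < q) : kc (Kc κ) q = Nat.totient q := by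
  classical
  obtain ⟨a, ha⟩ := crt q.primeFactors (fun p hp => Nat.prime_of_mem_primeFactors hp) (κ q)
  have hq' : (0 : ℤ) < q := by exact_mod_cast hq
  set A : ℕ := ((-a) % q).toNat with hA
  have hA' : (A : ℤ) = (-a) % q := Int.toNat_of_nonneg (Int.emod_nonneg _ hq'.ne')
  have hAa : (q : ℤ) ∣ A + a := by
    rw [hA']
    have := Int.emod_add_mul_ediv (-a) q
    refine ⟨-((-a) / q), ?_⟩
    linarith
  have hmem : ∀ n : ℤ, 0 ≤ n → (n ∈ Kc κ q ↔ Nat.Coprime q (n.toNat + A)) := by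
    intro n hn
    obtain ⟨n, rfl⟩ := Int.eq_ofNat_of_zero_le hn
    rw [Int.toNat_natCast]
    have key : ∀ p ∈ q.primeFactors, ((p : ℤ) ∣ (n : ℤ) - κ q p ↔ p ∣ n + A) := by
      intro p hp
      have hpq : (p : ℤ) ∣ q := by exact_mod_cast Nat.dvd_of_mem_primeFactors hp
      have h1 : ((p ∣ n + A) ↔ (p : ℤ) ∣ ((n + A : ℕ) : ℤ)) := by
        rw [Int.natCast_dvd_natCast]
      rw [h1]
      have e : ((n + A : ℕ) : ℤ) = ((n : ℤ) - κ q p) + ((A + a) - (a - κ q p)) := by push_cast; ring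
      rw [e]
      exact (Int.dvd_add_left (dvd_sub (hpq.trans hAa) (ha p hp))).symm
    constructor
    · intro h
      refine Nat.Coprime.symm (Nat.coprime_of_dvd fun p hp hpn hpq => ?_)
      have hpm : p ∈ q.primeFactors := Nat.mem_primeFactors.2 ⟨hp, hpq, hq.ne'⟩
      exact h p hpm ((key p hpm).2 hpn)
    · intro h p hp hd
      have h1 := (key p hp).1 hd
      have h2 := Nat.dvd_gcd (Nat.dvd_of_mem_primeFactors hp) h1
      rw [h.gcd_eq_one] at h2
      exact (Nat.prime_of_mem_primeFactors hp).one_lt.ne' (Nat.dvd_one.1 h2)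
  unfold kc
  rw [← Nat.filter_coprime_Ico_eq_totient q A, ← Set.ncard_coe_finset]
  refine Set.ncard_congr (fun n _ => n.toNat + A) ?_ ?_ ?_
  · rintro n ⟨h1, h2, h3⟩
    simp only [Finset.coe_filter, Finset.mem_Ico, mem_ofPred_eq]
    exact ⟨⟨by omega, by omega⟩, (hmem n h1).1 h3⟩
  · rintro n n' ⟨h1, _, _⟩ ⟨h1', _, _⟩ h
    omega
  · intro x hx
    simp only [Finset.coe_filter, Finset.mem_Ico, mem_ofPred_eq] at hx
    refine ⟨((x - A : ℕ) : ℤ), ⟨by omega, by omega, ?_⟩, ?_⟩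
    · rw [hmem _ (by omega), Int.toNat_natCast]
      have : x - A + A = x := by omega
      rw [this]
      exact hx.2
    · simp only [Int.toNat_natCast]
      omega

/-! ### the interface -/

/-- **pair count statement with forbidden classes**: one forbidden class `κ q p` for every prime
`p ∣ q` (any choice), on a sub-system `Q'` of positive mass -/
def KCc (γ : ℝ) : Prop := ∃ c : ℝ, 0 < c ∧ ∃ C : ℝ, ∃ δ : ℝ, 0 < δ ∧ ∃ P : ℕ,
  ∀ (Q : Finset ℕ) (ρ : ℝ), (∀ q ∈ Q, 0 < q ∧ P ≤ q) → 0 < ρ →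
    ρ * ∑ q ∈ Q, (Nat.totient q : ℝ) = 1 → (∀ q ∈ Q, ρ * q ≤ δ) →
    ∃ Q' ⊆ Q, ∃ κ : ℕ → ℕ → ℤ, c ≤ ρ * ∑ q ∈ Q', (Nat.totient q : ℝ) ∧
      ρ * ∑ q ∈ Q', ∑ q' ∈ Q', (PC γ ρ (Kc κ) q q' : ℝ) ≤ C

theorem KC_of_KCc {γ : ℝ} (h : KCc γ) : KC γ := by
  obtain ⟨c, hc, C, δ, hδ, P, h⟩ := h
  refine ⟨c, hc, C, δ, hδ, P, fun Q ρ hQ hρ hmass hs => ?_⟩
  obtain ⟨Q', hQ', κ, h1, h2⟩ := h Q ρ hQ hρ hmass hs
  refine ⟨Q', hQ', Kc κ, fun q _ n => Kc_per κ q n, ?_, h2⟩
  refine h1.trans (le_of_eq ?_)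
  congr 1
  exact Finset.sum_congr rfl fun q hq => by rw [kc_Kc κ (hQ q (hQ' hq)).1]

lemma totient_real (q : ℕ) : (Nat.totient q : ℝ) = q * ∏ p ∈ q.primeFactors, (1 - 1 / (p : ℝ)) := by
  have h := Nat.totient_eq_mul_prod_factors q
  have h2 : ((Nat.totient q : ℚ) : ℝ) =
      ((q * ∏ p ∈ q.primeFactors, (1 - (p : ℚ)⁻¹) : ℚ) : ℝ) := by rw [h]
  push_cast at h2
  rw [h2]
  simp only [one_div]

lemma totient_ge_pow {P q : ℕ} (hq : 0 < q) (h : Rough P q) (hP : 1 ≤ P) :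
    (P - 1) ^ q.primeFactors.card ≤ Nat.totient q := by
  rw [Nat.totient_eq_div_primeFactors_mul]
  have h1 : 1 ≤ q / ∏ p ∈ q.primeFactors, p :=
    Nat.div_pos (Nat.le_of_dvd hq (Nat.prod_primeFactors_dvd q))
      (Finset.prod_pos fun p hp => Nat.pos_of_mem_primeFactors hp)
  have h2 : (P - 1) ^ q.primeFactors.card ≤ ∏ p ∈ q.primeFactors, (p - 1) := by
    rw [← Finset.prod_const]
    refine Finset.prod_le_prod' fun p hp => ?_
    have := h p (Nat.prime_of_mem_primeFactors hp) (Nat.dvd_of_mem_primeFactors hp)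
    omega
  calc (P - 1) ^ q.primeFactors.card = 1 * (P - 1) ^ q.primeFactors.card := (one_mul _).symm
    _ ≤ _ := Nat.mul_le_mul h1 h2

/-- local count for rough denominators -/
lemma cnt_ge {γ ρ : ℝ} {K P q : ℕ} (i : ℕ) (hK : 0 < K) (hP : 8 * K + 1 ≤ P) (hPq : P ≤ q)
    (hR : Rough P q) (hρ : ρ ≤ 1 / (8 * K)) (κ : ℕ → ℤ) :
    (Nat.totient q : ℝ) / (2 * K) ≤ ((cnt q.primeFactors κ (q * i / K + ρ * q - γ)
      (q * (i + 1) / K - ρ * q - γ)).card : ℝ) := by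
  have hK' : (0 : ℝ) < K := by exact_mod_cast hK
  have hq2 : 2 ≤ q := by omega
  have hq : 0 < q := by omega
  have hq' : (0 : ℝ) < q := by exact_mod_cast hq
  have hlen : (q : ℝ) * (i + 1) / K - ρ * q - γ - (q * i / K + ρ * q - γ) = q / K - 2 * ρ * q := by
    ring
  have hlen0 : (q : ℝ) / (2 * K) ≤ q / K - 2 * ρ * q := by
    have h1 : 2 * ρ * q ≤ 2 * (1 / (8 * K)) * q := by gcongr
    have h2 : (q : ℝ) / K - 2 * (1 / (8 * K)) * q = (3 / 4) * (q / K) := by field_simp; ring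
    have h3 : (q : ℝ) / (2 * K) = (1 / 2) * (q / K) := by field_simp
    have h4 : (0 : ℝ) < q / K := by positivity
    rw [h3]; linarith
  have hab : (q : ℝ) * i / K + ρ * q - γ ≤ q * (i + 1) / K - ρ * q - γ := by
    have : (0 : ℝ) < q / (2 * K) := by positivity
    linarith
  have hs := sieve q.primeFactors (fun p hp => Nat.prime_of_mem_primeFactors hp) κ _ _ hab
  rw [hlen, abs_le] at hs
  set Pr0 := ∏ p ∈ q.primeFactors, (1 - 1 / (p : ℝ)) with hPr0
  have hφ : (Nat.totient q : ℝ) = q * Pr0 := totient_real q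
  have h1 : (q / K - 2 * ρ * q) * Pr0 = Nat.totient q / K - 2 * ρ * Nat.totient q := by
    rw [hφ]; ring
  rw [h1] at hs
  have hφ0 : (0 : ℝ) ≤ Nat.totient q := by positivity
  have h2 : 2 * ρ * Nat.totient q ≤ Nat.totient q / (4 * K) := by
    calc 2 * ρ * Nat.totient q ≤ 2 * (1 / (8 * K)) * Nat.totient q := by gcongr
      _ = _ := by field_simp; ring
  -- the error term
  set ω := q.primeFactors.card with hω
  have hω1 : 1 ≤ ω := by
    rw [hω, Nat.one_le_iff_ne_zero, Finset.card_ne_zero]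
    exact Nat.nonempty_primeFactors.2 (by omega)
  have h3 : 2 ^ ω * (4 * K) ≤ Nat.totient q := by
    have h4 := totient_ge_pow hq hR (by omega)
    refine le_trans ?_ h4
    obtain ⟨k, hk⟩ : ∃ k, ω = k + 1 := ⟨ω - 1, by omega⟩
    rw [← hω, hk, pow_succ, pow_succ]
    calc 2 ^ k * 2 * (4 * K) = 2 ^ k * (8 * K) := by ring
      _ ≤ (P - 1) ^ k * (P - 1) := by
          refine Nat.mul_le_mul (Nat.pow_le_pow_left (by omega) k) (by omega)
  have h5 : (2 : ℝ) ^ ω ≤ Nat.totient q / (4 * K) := by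
    rw [le_div_iff₀ (by positivity)]
    exact_mod_cast h3
  have h6 : (Nat.totient q : ℝ) / K = 2 * (Nat.totient q / (2 * K)) := by field_simp
  have h7 : (Nat.totient q : ℝ) / (2 * K) = 2 * (Nat.totient q / (4 * K)) := by field_simp; ring
  linarith [hs.1]

theorem KCL_of_KCc {γ : ℝ} (h : KCc γ) : KCL γ := by
  obtain ⟨c, hc, C, δ, hδ, P, h⟩ := h
  refine ⟨c / 2, by positivity, C, δ, hδ, fun K hK => ⟨max P (8 * K + 1),
    fun Q ρ hQ hρ hmass hs => ?_⟩⟩
  have hK' : (0 : ℝ) < K := by exact_mod_cast hK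
  set P' := max P (8 * K + 1) with hP'
  have hPP : P ≤ P' := le_max_left _ _
  have hKP : 8 * K + 1 ≤ P' := le_max_right _ _
  obtain ⟨Q', hQ', κ, h1, h2⟩ := h Q ρ (fun q hq => ⟨(hQ q hq).1, hPP.trans (hQ q hq).2.1⟩)
    hρ hmass hs
  have hρ8 : ρ ≤ 1 / (8 * K) := by
    rcases Finset.eq_empty_or_nonempty Q with rfl | ⟨q, hq⟩
    · simp at hmass
    · have e1 := rough_totient (P := P') (q := q) (by have := (hQ q hq).2.1; omega) (hQ q hq).2.2
      have e2 : (Nat.totient q : ℝ) ≤ ∑ q ∈ Q, (Nat.totient q : ℝ) :=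
        Finset.single_le_sum (f := fun q : ℕ => (Nat.totient q : ℝ)) (fun q _ => by positivity) hq
      have e3 : (8 : ℝ) * K + 1 ≤ P' := by exact_mod_cast hKP
      rw [le_div_iff₀ (by positivity)]
      calc ρ * (8 * K) ≤ ρ * ∑ q ∈ Q, (Nat.totient q : ℝ) := by gcongr; linarith
        _ = 1 := hmass
  refine ⟨Q', hQ', Kc κ, fun q _ n => Kc_per κ q n, fun i hi => ?_, h2⟩
  refine ⟨fun q => cnt q.primeFactors (κ q) (q * i / K + ρ * q - γ)
    (q * (i + 1) / K - ρ * q - γ), fun q hq n hn => ?_, ?_⟩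
  · rw [mem_cnt] at hn
    have hq0 : (0 : ℝ) < q := by exact_mod_cast (hQ q (hQ' hq)).1
    refine ⟨?_, ?_, hn.2⟩
    · rw [le_div_iff₀ hq0]
      have := hn.1.1
      have e : ((i : ℝ) / K + ρ) * q = q * i / K + ρ * q := by ring
      rw [e]; linarith
    · rw [div_le_iff₀ hq0]
      have := hn.1.2
      have e : (((i : ℝ) + 1) / K - ρ) * q = q * (i + 1) / K - ρ * q := by ring
      rw [e]; linarith
  · have e1 : ∀ q ∈ Q', (Nat.totient q : ℝ) / (2 * K) ≤
        ((cnt q.primeFactors (κ q) (q * i / K + ρ * q - γ)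
          (q * (i + 1) / K - ρ * q - γ)).card : ℝ) := fun q hq =>
      cnt_ge i hK hKP (hQ q (hQ' hq)).2.1 (hQ q (hQ' hq)).2.2 hρ8 (κ q)
    calc c / 2 / K = c / (2 * K) := by rw [div_div]
      _ ≤ (ρ * ∑ q ∈ Q', (Nat.totient q : ℝ)) / (2 * K) := by gcongr
      _ = ρ * ∑ q ∈ Q', (Nat.totient q : ℝ) / (2 * K) := by rw [← Finset.sum_div]; ring
      _ ≤ _ := by
          refine mul_le_mul_of_nonneg_left (Finset.sum_le_sum e1) hρ.le

/-- **full reduction of `S0004` to one pair count** -/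
theorem main_KCc {γ : ℝ} (h : KCc γ) (ψ : ℕ → ℝ)
    (hψ : ∀ q, 0 ≤ ψ q) (hdiv : ¬ Summable fun q : ℕ => (Nat.totient q : ℝ) / q * ψ q) :
    ∀ᵐ x : ℝ, ∃ᶠ q : ℕ in atTop, |(q : ℝ) * x - γ - round ((q : ℝ) * x - γ)| < ψ q :=
  main_CR2 (CR1_of_KC (KC_of_KCc h)) (CRL2_of_KCL (KCL_of_KCc h)) ψ hψ hdiv

end Crest.Agent.R4C.CrSievex935
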