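import Crest.Agent.R4C.GWhyp_656

/-!
# Row 4: cut-sum lemma (helper516), for the classes (NC) and (a2) of BLOCK NH (656, note 3754)

Words = finite sets `S ⊆ P` of primes, natural law `GWhx656.law`.  `E` = a set of words, each with a
marked letter `pp S` which has a letter of the word below it.  `ins P E pp S1 ρ` = the letters `p`
which can be inserted (as marked letter) in the rest `S1` directly above the letter `ρ` of `S1`.
If `∑_{p ∈ ins} 1/p ≤ g ρ` then `∑_{S ∈ E} law P S ≤ 2 ∑_{ρ ∈ P} g ρ / ρ`; for `g ρ = A ρ^{-c}` and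
`P ⊆ [y, ∞)` this is `≤ (2/c) A (y-1)^{-c}`.
-/

set_option autoImplicit false

namespace Crest.Agent.R4C.CutSumx516

open Finset Crest.Agent.R4C.GWhx656

/-- removal of a part `τ S` of the word: fibre bound depending on the rest -/
lemma level_var {P : Finset ℕ} (hP : ∀ p ∈ P, 2 ≤ p) (E : Finset (Finset ℕ)) (hE : ∀ S ∈ E, S ⊆ P)
    (τ : Finset ℕ → Finset ℕ) (hτ : ∀ S ∈ E, τ S ⊆ S) (A : Finset ℕ → ℝ)
    (hA : ∀ S0 ⊆ P, ∑ S ∈ E with S \ τ S = S0, ∏ p ∈ τ S, (1 / ((p : ℝ) - 1)) ≤ A S0) :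
    ∑ S ∈ E, law P S ≤ ∑ S0 ∈ P.powerset, law P S0 * A S0 := by
  have h1 : ∀ S ∈ E, law P S = law P (S \ τ S) * ∏ p ∈ τ S, (1 / ((p : ℝ) - 1)) := by
    intro S hS
    rw [← law_union hP ((hτ S hS).trans (hE S hS)) sdiff_disjoint, sdiff_union_of_subset (hτ S hS)]
  rw [sum_congr rfl h1]
  have h2 : ∀ S ∈ E, S \ τ S ∈ P.powerset := fun S hS =>
    mem_powerset.2 (sdiff_subset.trans (hE S hS))
  rw [← sum_fiberwise_of_maps_to h2]
  refine sum_le_sum fun S0 hS0 => ?_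
  have e : ∑ S ∈ E with S \ τ S = S0, law P (S \ τ S) * ∏ p ∈ τ S, (1 / ((p : ℝ) - 1)) =
      law P S0 * ∑ S ∈ E with S \ τ S = S0, ∏ p ∈ τ S, (1 / ((p : ℝ) - 1)) := by
    rw [mul_sum]
    refine sum_congr rfl fun S hS => ?_
    rw [(mem_filter.1 hS).2]
  rw [e]
  exact mul_le_mul_of_nonneg_left (hA S0 (mem_powerset.1 hS0))
    (law_nonneg fun p hp => by have := hP p hp; omega)

/-- mass of the words containing a letter -/
lemma sum_law_mem {P : Finset ℕ} {ρ : ℕ} (hρ : ρ ∈ P) :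
    ∑ S ∈ P.powerset, (if ρ ∈ S then law P S else 0) = 1 / (ρ : ℝ) := by
  classical
  have hins : insert ρ (P.erase ρ) = P := insert_erase hρ
  have hnot : ρ ∉ P.erase ρ := notMem_erase _ _
  rw [← hins, sum_powerset_insert hnot]
  have h1 : ∑ S ∈ (P.erase ρ).powerset, (if ρ ∈ S then law (insert ρ (P.erase ρ)) S else 0) = 0 := by
    refine sum_eq_zero fun S hS => ?_
    rw [if_neg fun h => hnot (mem_powerset.1 hS h)]
  have h2 : ∀ S ∈ (P.erase ρ).powerset,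
      (if ρ ∈ insert ρ S then law (insert ρ (P.erase ρ)) (insert ρ S) else 0) =
        1 / (ρ : ℝ) * law (P.erase ρ) S := by
    intro S hS
    have hρS : ρ ∉ S := fun h => hnot (mem_powerset.1 hS h)
    rw [if_pos (mem_insert_self _ _)]
    unfold law
    have e : insert ρ (P.erase ρ) \ insert ρ S = P.erase ρ \ S := by
      ext q
      simp only [mem_sdiff, mem_insert, mem_erase]
      tauto
    rw [e, prod_insert hρS]
    ring
  rw [h1, sum_congr rfl h2, ← mul_sum, sum_law, zero_add, mul_one]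

/-- natural mean of an additive function of the word -/
lemma sum_law_sum (P : Finset ℕ) (g : ℕ → ℝ) :
    ∑ S ∈ P.powerset, law P S * ∑ ρ ∈ S, g ρ = ∑ ρ ∈ P, g ρ / (ρ : ℝ) := by
  classical
  have h1 : ∀ S ∈ P.powerset, law P S * ∑ ρ ∈ S, g ρ =
      ∑ ρ ∈ P, g ρ * (if ρ ∈ S then law P S else 0) := by
    intro S hS
    have hSP := mem_powerset.1 hS
    rw [mul_sum]
    have e : ∑ ρ ∈ P, g ρ * (if ρ ∈ S then law P S else 0) =
        ∑ ρ ∈ P, (if ρ ∈ S then law P S * g ρ else 0) := by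
      refine sum_congr rfl fun ρ _ => ?_
      split_ifs
      · ring
      · ring
    rw [e, ← sum_filter]
    refine sum_congr ?_ fun _ _ => rfl
    ext ρ
    rw [mem_filter]
    exact ⟨fun h => ⟨hSP h, h⟩, fun h => h.2⟩
  rw [sum_congr rfl h1, sum_comm]
  refine sum_congr rfl fun ρ hρ => ?_
  rw [← mul_sum, sum_law_mem hρ, mul_one_div]

/-- the letters which can be inserted as marked letter directly above `ρ` in the rest `S1` -/
noncomputable def ins (P : Finset ℕ) (E : Finset (Finset ℕ)) (pp : Finset ℕ → ℕ) (S1 : Finset ℕ)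
    (ρ : ℕ) : Finset ℕ := by
  classical
  exact P.filter fun p : ℕ => p ∉ S1 ∧ insert p S1 ∈ E ∧ pp (insert p S1) = p ∧ ρ < p ∧
    ∀ q ∈ S1, q < p → q ≤ ρ

lemma mem_ins {P : Finset ℕ} {E : Finset (Finset ℕ)} {pp : Finset ℕ → ℕ} {S1 : Finset ℕ}
    {ρ p : ℕ} : p ∈ ins P E pp S1 ρ ↔ p ∈ P ∧ p ∉ S1 ∧ insert p S1 ∈ E ∧
      pp (insert p S1) = p ∧ ρ < p ∧ ∀ q ∈ S1, q < p → q ≤ ρ := by
  unfold ins
  rw [mem_filter]

/-- **cut-sum lemma, general rate** -/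
theorem cut_sum_gen {P : Finset ℕ} (hP : ∀ p ∈ P, 2 ≤ p) {E : Finset (Finset ℕ)}
    (hE : ∀ S ∈ E, S ⊆ P) (pp : Finset ℕ → ℕ) (hpp : ∀ S ∈ E, pp S ∈ S)
    (hlow : ∀ S ∈ E, ∃ ρ ∈ S, ρ < pp S) (g : ℕ → ℝ)
    (hg : ∀ S1 ⊆ P, ∀ ρ ∈ S1, ∑ p ∈ ins P E pp S1 ρ, (1 : ℝ) / p ≤ g ρ) :
    ∑ S ∈ E, law P S ≤ 2 * ∑ ρ ∈ P, g ρ / (ρ : ℝ) := by
  classical
  have h0 := level_var hP E hE (fun S => {pp S}) (fun S hS => singleton_subset_iff.2 (hpp S hS))
    (fun S0 => 2 * ∑ ρ ∈ S0, g ρ) ?_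
  · refine h0.trans (le_of_eq ?_)
    rw [← sum_law_sum, mul_sum]
    refine sum_congr rfl fun S0 _ => ?_
    ring
  · intro S0 hS0
    set F := E.filter (fun S => S \ {pp S} = S0) with hF
    have hrec : ∀ S ∈ F, insert (pp S) S0 = S := by
      intro S hS
      have hS' := mem_filter.1 hS
      rw [← hS'.2, sdiff_singleton_eq_erase, insert_erase (hpp S hS'.1)]
    have hinj : ∀ S ∈ F, ∀ S' ∈ F, pp S = pp S' → S = S' := by
      intro S hS S' hS' he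
      rw [← hrec S hS, ← hrec S' hS', he]
    have hsub : F.image pp ⊆ S0.biUnion (fun ρ => ins P E pp S0 ρ) := by
      intro p hp
      obtain ⟨S, hS, rfl⟩ := mem_image.1 hp
      have hS' := mem_filter.1 hS
      obtain ⟨ρ0, hρ0, hρ0'⟩ := hlow S hS'.1
      have hr := hrec S hS
      have hρ0S : ρ0 ∈ S0 := by
        rw [← hS'.2, mem_sdiff, mem_singleton]
        exact ⟨hρ0, hρ0'.ne⟩
      have hne : (S0.filter (· < pp S)).Nonempty := ⟨ρ0, mem_filter.2 ⟨hρ0S, hρ0'⟩⟩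
      have hmax := max'_mem _ hne
      rw [mem_filter] at hmax
      rw [mem_biUnion]
      refine ⟨_, hmax.1, ?_⟩
      rw [mem_ins, hr]
      refine ⟨hE S hS'.1 (hpp S hS'.1), ?_, hS'.1, rfl, hmax.2, fun q hq hqp => ?_⟩
      · rw [← hS'.2, mem_sdiff, mem_singleton]
        exact fun h => h.2 rfl
      · exact le_max' _ _ (mem_filter.2 ⟨hq, hqp⟩)
    have hpos : ∀ p : ℕ, (0 : ℝ) ≤ 1 / (p : ℝ) := fun p => by positivity
    calc ∑ S ∈ F, ∏ p ∈ ({pp S} : Finset ℕ), (1 / ((p : ℝ) - 1))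
        = ∑ S ∈ F, od (pp S) := sum_congr rfl fun S _ => by rw [prod_singleton]; rfl
      _ = ∑ p ∈ F.image pp, od p := (sum_image (f := od) hinj).symm
      _ ≤ ∑ p ∈ F.image pp, 2 * (1 / (p : ℝ)) := by
          refine sum_le_sum fun p hp => od_le ?_
          obtain ⟨S, hS, rfl⟩ := mem_image.1 hp
          have hS' := mem_filter.1 hS
          exact hP _ (hE S hS'.1 (hpp S hS'.1))
      _ ≤ ∑ p ∈ S0.biUnion (fun ρ => ins P E pp S0 ρ), 2 * (1 / (p : ℝ)) :=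
          sum_le_sum_of_subset_of_nonneg hsub fun p _ _ => mul_nonneg zero_le_two (hpos p)
      _ ≤ ∑ ρ ∈ S0, ∑ p ∈ ins P E pp S0 ρ, 2 * (1 / (p : ℝ)) := by
          generalize hR : (fun ρ => ins P E pp S0 ρ) = R
          have : ∀ T : Finset ℕ, ∑ p ∈ T.biUnion R, 2 * (1 / (p : ℝ)) ≤
              ∑ ρ ∈ T, ∑ p ∈ R ρ, 2 * (1 / (p : ℝ)) := by
            intro T
            induction T using Finset.induction_on with
            | empty => simp
            | insert a T ha ih =>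
              rw [biUnion_insert, sum_insert ha]
              refine le_trans ?_ (add_le_add le_rfl ih)
              rw [← sum_union_inter]
              exact le_add_of_nonneg_right (sum_nonneg fun p _ => mul_nonneg zero_le_two (hpos p))
          have h := this S0
          rw [← hR] at h ⊢
          exact h
      _ ≤ ∑ ρ ∈ S0, 2 * g ρ := by
          refine sum_le_sum fun ρ hρ => ?_
          rw [← mul_sum]
          exact mul_le_mul_of_nonneg_left (hg S0 hS0 ρ hρ) zero_le_two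
      _ = 2 * ∑ ρ ∈ S0, g ρ := by rw [mul_sum]

/-! ### sums of negative powers -/

lemma rpow_step {c : ℝ} (hc : 0 < c) {n : ℕ} (hn : 2 ≤ n) :
    c * ((n : ℝ) ^ (-c) / n) ≤ ((n : ℝ) - 1) ^ (-c) - (n : ℝ) ^ (-c) := by
  have hn2 : (2 : ℝ) ≤ n := by exact_mod_cast hn
  have hn0 : (0 : ℝ) < n := by linarith
  have hn1 : (0 : ℝ) < (n : ℝ) - 1 := by linarith
  have e1 : ((n : ℝ) - 1) ^ (-c) = (n : ℝ) ^ (-c) * (1 - 1 / (n : ℝ)) ^ (-c) := by
    rw [← Real.mul_rpow hn0.le]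
    · congr 1
      field_simp
    · have : 1 / (n : ℝ) ≤ 1 := by rw [div_le_one hn0]; linarith
      linarith
  have hx : 0 < 1 - 1 / (n : ℝ) := by
    have : 1 / (n : ℝ) < 1 := by rw [div_lt_one hn0]; linarith
    linarith
  have e2 : 1 + c / n ≤ (1 - 1 / (n : ℝ)) ^ (-c) := by
    rw [Real.rpow_def_of_pos hx]
    have h1 := Real.log_le_sub_one_of_pos hx
    have h2 := Real.add_one_le_exp (Real.log (1 - 1 / (n : ℝ)) * -c)
    have h3 : c / n ≤ Real.log (1 - 1 / (n : ℝ)) * -c := by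
      have : c / n = c * (1 / (n : ℝ)) := by ring
      rw [this]
      nlinarith
    linarith
  have hp : 0 < (n : ℝ) ^ (-c) := Real.rpow_pos_of_pos hn0 _
  rw [e1]
  have h3 : (n : ℝ) ^ (-c) * (1 + c / n) ≤ (n : ℝ) ^ (-c) * (1 - 1 / (n : ℝ)) ^ (-c) :=
    mul_le_mul_of_nonneg_left e2 hp.le
  have h4 : c * ((n : ℝ) ^ (-c) / n) = (n : ℝ) ^ (-c) * (1 + c / n) - (n : ℝ) ^ (-c) := by ring
  rw [h4]
  linarith

/-- `∑_{n ≥ y} n^{-1-c} ≤ (1/c) (y-1)^{-c}` -/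
lemma sum_rpow_le {c : ℝ} (hc : 0 < c) {y : ℝ} (hy : 2 ≤ y) (P : Finset ℕ)
    (hPy : ∀ p ∈ P, y ≤ (p : ℝ)) : ∑ p ∈ P, (p : ℝ) ^ (-c) / p ≤ (y - 1) ^ (-c) / c := by
  set k : ℕ := ⌈y⌉₊ with hk
  have hky : y ≤ k := Nat.le_ceil y
  have hk2 : 2 ≤ k := by
    have : (2 : ℝ) ≤ k := hy.trans hky
    exact_mod_cast this
  have hk1 : (0 : ℝ) < (k : ℝ) - 1 := by linarith
  -- telescoping
  have htel : ∀ N : ℕ, ∑ n ∈ Finset.Ico k (k + N), (n : ℝ) ^ (-c) / n ≤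
      (((k : ℝ) - 1) ^ (-c) - ((k : ℝ) + N - 1) ^ (-c)) / c := by
    intro N
    induction N with
    | zero => simp
    | succ N ih =>
      rw [← add_assoc, Finset.sum_Ico_succ_top (by omega)]
      have h1 := rpow_step hc (n := k + N) (by omega)
      have h2 : ((k + N : ℕ) : ℝ) ^ (-c) / ((k + N : ℕ) : ℝ) ≤
          ((((k + N : ℕ) : ℝ) - 1) ^ (-c) - ((k + N : ℕ) : ℝ) ^ (-c)) / c := by
        rw [le_div_iff₀ hc]
        linarith
      calc _ ≤ (((k : ℝ) - 1) ^ (-c) - ((k : ℝ) + N - 1) ^ (-c)) / c +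
            ((((k + N : ℕ) : ℝ) - 1) ^ (-c) - ((k + N : ℕ) : ℝ) ^ (-c)) / c := add_le_add ih h2
        _ = _ := by
            push_cast
            rw [← add_div]
            congr 1
            ring_nf
  have hsub : P ⊆ Finset.Ico k (k + (P.sup id + 1)) := by
    intro p hp
    rw [Finset.mem_Ico]
    constructor
    · exact Nat.ceil_le.2 (hPy p hp)
    · have : p ≤ P.sup id := Finset.le_sup (f := id) hp
      omega
  calc ∑ p ∈ P, (p : ℝ) ^ (-c) / p ≤ ∑ n ∈ Finset.Ico k (k + (P.sup id + 1)), (n : ℝ) ^ (-c) / n :=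
        sum_le_sum_of_subset_of_nonneg hsub fun n _ _ => by positivity
    _ ≤ (((k : ℝ) - 1) ^ (-c) - ((k : ℝ) + (P.sup id + 1 : ℕ) - 1) ^ (-c)) / c := htel _
    _ ≤ ((k : ℝ) - 1) ^ (-c) / c := by
        refine div_le_div_of_nonneg_right ?_ hc.le
        have : 0 ≤ ((k : ℝ) + (P.sup id + 1 : ℕ) - 1) ^ (-c) := by
          apply Real.rpow_nonneg
          have : (0 : ℝ) ≤ (P.sup id + 1 : ℕ) := Nat.cast_nonneg _
          linarith
        linarith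
    _ ≤ (y - 1) ^ (-c) / c := by
        refine div_le_div_of_nonneg_right ?_ hc.le
        exact Real.rpow_le_rpow_of_nonpos (by linarith) (by linarith) (by linarith)

/-- **cut-sum lemma** -/
theorem cut_sum {c : ℝ} (hc : 0 < c) {P : Finset ℕ} {y A : ℝ} (hy : 2 ≤ y) (hA : 0 ≤ A)
    (hP : ∀ p ∈ P, 2 ≤ p) (hPy : ∀ p ∈ P, y ≤ (p : ℝ)) {E : Finset (Finset ℕ)}
    (hE : ∀ S ∈ E, S ⊆ P) (pp : Finset ℕ → ℕ) (hpp : ∀ S ∈ E, pp S ∈ S)
    (hlow : ∀ S ∈ E, ∃ ρ ∈ S, ρ < pp S)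
    (hg : ∀ S1 ⊆ P, ∀ ρ ∈ S1, ∑ p ∈ ins P E pp S1 ρ, (1 : ℝ) / p ≤ A * (ρ : ℝ) ^ (-c)) :
    ∑ S ∈ E, law P S ≤ (2 / c) * A * (y - 1) ^ (-c) := by
  refine (cut_sum_gen hP hE pp hpp hlow (fun ρ => A * (ρ : ℝ) ^ (-c)) hg).trans ?_
  have h1 := sum_rpow_le hc hy P hPy
  have e : ∑ ρ ∈ P, A * (ρ : ℝ) ^ (-c) / (ρ : ℝ) = A * ∑ ρ ∈ P, (ρ : ℝ) ^ (-c) / ρ := by
    rw [mul_sum]
    refine sum_congr rfl fun ρ _ => ?_
    ring
  rw [e]
  calc 2 * (A * ∑ ρ ∈ P, (ρ : ℝ) ^ (-c) / ρ) ≤ 2 * (A * ((y - 1) ^ (-c) / c)) := by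
        refine mul_le_mul_of_nonneg_left ?_ zero_le_two
        exact mul_le_mul_of_nonneg_left h1 hA
    _ = _ := by ring

end Crest.Agent.R4C.CutSumx516
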