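import Crest.Agent.R4C.Base_935

/-!
# Cutting a divisor of an arbitrary `M` at a set of primes (helper50)

`part S b` = the part of `b` supported on the primes in `S` (all exponents).
`low x b = part (· ≤ x) b`, `upp x b = part (¬ · ≤ x) b`.
Splitting of sums over divisors, of `nu`, of `gcd` and of `frm` at a cut; node masses.
-/

namespace Crest.Agent.R4C.Cutx50

open Finset Crest.Agent.R4C.Basex935

/-- part of `b` on the primes satisfying `S` -/
def part (S : ℕ → Prop) [DecidablePred S] (b : ℕ) : ℕ :=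
  ∏ p ∈ b.primeFactors.filter S, p ^ b.factorization p

section general

variable (S : ℕ → Prop) [DecidablePred S]

lemma part_pos (b : ℕ) : 0 < part S b := by
  unfold part
  refine Finset.prod_pos fun p hp => ?_
  rw [Finset.mem_filter] at hp
  exact pow_pos (Nat.prime_of_mem_primeFactors hp.1).pos _

lemma part_ne (b : ℕ) : part S b ≠ 0 := (part_pos S b).ne'

lemma fact_part (b : ℕ) (p : ℕ) :
    (part S b).factorization p = if S p then b.factorization p else 0 := by
  unfold part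
  rw [Nat.factorization_prod (fun q hq => by
    rw [Finset.mem_filter] at hq
    exact pow_ne_zero _ (Nat.prime_of_mem_primeFactors hq.1).ne_zero)]
  rw [Finset.sum_apply']
  have : ∀ q ∈ b.primeFactors.filter S, (q ^ b.factorization q).factorization p =
      if q = p then b.factorization p else 0 := by
    intro q hq
    rw [Finset.mem_filter] at hq
    rw [(Nat.prime_of_mem_primeFactors hq.1).factorization_pow, Finsupp.single_apply]
    by_cases h : q = p
    · subst h; simp
    · simp [h]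
  rw [Finset.sum_congr rfl this, Finset.sum_ite_eq']
  by_cases h : S p
  · by_cases h2 : p ∈ b.primeFactors
    · simp [h, h2]
    · have : b.factorization p = 0 := by
        rw [← Nat.support_factorization] at h2
        exact Finsupp.notMem_support_iff.1 h2
      simp [h, this]
  · simp [h]

lemma part_mul {b : ℕ} (hb : b ≠ 0) : part S b * part (fun p => ¬ S p) b = b := by
  refine Nat.eq_of_factorization_eq (mul_ne_zero (part_ne _ _) (part_ne _ _)) hb fun p => ?_
  rw [Nat.factorization_mul (part_ne _ _) (part_ne _ _), Finsupp.add_apply, fact_part, fact_part]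
  by_cases h : S p <;> simp [h]

lemma part_dvd_self (b : ℕ) : part S b ∣ b := by
  rcases eq_or_ne b 0 with rfl | hb
  · exact dvd_zero _
  · exact Dvd.intro _ (part_mul S hb)

lemma part_dvd {b M : ℕ} (hM : M ≠ 0) (h : b ∣ M) : part S b ∣ part S M := by
  have hb : b ≠ 0 := fun hc => hM (Nat.eq_zero_of_zero_dvd (hc ▸ h))
  rw [← Nat.factorization_le_iff_dvd (part_ne _ _) (part_ne _ _)]
  intro p
  rw [fact_part, fact_part]
  by_cases hp : S p
  · simp only [hp, if_true]
    exact (Nat.factorization_le_iff_dvd hb hM).2 h p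
  · simp [hp]

lemma prime_dvd_part {b p : ℕ} (hp : p.Prime) (h : p ∣ part S b) : S p := by
  by_contra hc
  have := fact_part S b p
  rw [if_neg hc] at this
  have h2 := (hp.dvd_iff_one_le_factorization (part_ne S b)).1 h
  omega

lemma coprime_part (b c : ℕ) : Nat.Coprime (part S b) (part (fun p => ¬ S p) c) := by
  refine Nat.coprime_of_dvd fun p hp h1 h2 => ?_
  exact (prime_dvd_part (fun p => ¬ S p) hp h2) (prime_dvd_part S hp h1)

/-- elements supported on `S` -/
lemma fact_zero_of_dvd_part {n M p : ℕ} (hn : n ∣ part S M) (hp : ¬ S p) :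
    n.factorization p = 0 := by
  have h1 : n ≠ 0 := fun hc => part_ne S M (Nat.eq_zero_of_zero_dvd (hc ▸ hn))
  have h2 := (Nat.factorization_le_iff_dvd h1 (part_ne S M)).2 hn p
  rw [fact_part, if_neg hp] at h2
  omega

lemma coprime_of_dvd {n T M M' : ℕ} (hn : n ∣ part S M) (hT : T ∣ part (fun p => ¬ S p) M') :
    Nat.Coprime n T :=
  Nat.Coprime.coprime_dvd_left hn (Nat.Coprime.coprime_dvd_right hT (coprime_part S M M'))

lemma part_of_mul {n T M M' : ℕ} (hn : n ∣ part S M) (hT : T ∣ part (fun p => ¬ S p) M') :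
    part S (n * T) = n := by
  have h1 : n ≠ 0 := fun hc => part_ne S M (Nat.eq_zero_of_zero_dvd (hc ▸ hn))
  have h2 : T ≠ 0 := fun hc => part_ne _ M' (Nat.eq_zero_of_zero_dvd (hc ▸ hT))
  refine Nat.eq_of_factorization_eq (part_ne _ _) h1 fun p => ?_
  rw [fact_part, Nat.factorization_mul h1 h2, Finsupp.add_apply]
  by_cases h : S p
  · have := fact_zero_of_dvd_part (fun p => ¬ S p) hT (p := p) (by simpa using h)
    simp [h, this]
  · have := fact_zero_of_dvd_part S hn h
    simp [h, this]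

lemma part_of_mul' {n T M M' : ℕ} (hn : n ∣ part S M) (hT : T ∣ part (fun p => ¬ S p) M') :
    part (fun p => ¬ S p) (n * T) = T := by
  have h1 : n ≠ 0 := fun hc => part_ne S M (Nat.eq_zero_of_zero_dvd (hc ▸ hn))
  have h2 : T ≠ 0 := fun hc => part_ne _ M' (Nat.eq_zero_of_zero_dvd (hc ▸ hT))
  refine Nat.eq_of_factorization_eq (part_ne _ _) h2 fun p => ?_
  rw [fact_part, Nat.factorization_mul h1 h2, Finsupp.add_apply]
  by_cases h : S p
  · have := fact_zero_of_dvd_part (fun p => ¬ S p) hT (p := p) (by simpa using h)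
    simp [h, this]
  · have := fact_zero_of_dvd_part S hn h
    simp [h, this]

/-- **sum over divisors split at the cut** -/
theorem sum_cut {M : ℕ} (hM : 0 < M) (F : ℕ → ℝ) :
    ∑ b ∈ M.divisors, F b =
      ∑ T ∈ (part (fun p => ¬ S p) M).divisors, ∑ n ∈ (part S M).divisors, F (n * T) := by
  classical
  rw [← Finset.sum_product']
  symm
  refine Finset.sum_bij' (fun x _ => x.2 * x.1)
    (fun b _ => (part (fun p => ¬ S p) b, part S b)) ?_ ?_ ?_ ?_ ?_
  · rintro ⟨T, n⟩ hx
    rw [Finset.mem_product, Nat.mem_divisors, Nat.mem_divisors] at hx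
    rw [Nat.mem_divisors]
    refine ⟨?_, hM.ne'⟩
    rw [← part_mul S hM.ne']
    exact Nat.mul_dvd_mul hx.2.1 hx.1.1
  · intro b hb
    rw [Nat.mem_divisors] at hb
    rw [Finset.mem_product, Nat.mem_divisors, Nat.mem_divisors]
    exact ⟨⟨part_dvd _ hM.ne' hb.1, part_ne _ _⟩, ⟨part_dvd _ hM.ne' hb.1, part_ne _ _⟩⟩
  · rintro ⟨T, n⟩ hx
    rw [Finset.mem_product, Nat.mem_divisors, Nat.mem_divisors] at hx
    simp only
    rw [part_of_mul S hx.2.1 hx.1.1, part_of_mul' S hx.2.1 hx.1.1]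
  · intro b hb
    exact part_mul S (Nat.pos_of_mem_divisors hb).ne'
  · intro x _
    rfl

lemma nu_cut {M n T : ℕ} (hM : 0 < M) (hn : n ∣ part S M) (hT : T ∣ part (fun p => ¬ S p) M) :
    nu M (n * T) = nu (part S M) n * nu (part (fun p => ¬ S p) M) T := by
  conv_lhs => rw [← part_mul S hM.ne']
  exact nu_mul (coprime_part S M M) hn hT

lemma gcd_cut {M M' n n' T T' : ℕ} (hn : n ∣ part S M) (hT : T ∣ part (fun p => ¬ S p) M)
    (hn' : n' ∣ part S M') (hT' : T' ∣ part (fun p => ¬ S p) M') :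
    Nat.gcd (n * T) (n' * T') = Nat.gcd n n' * Nat.gcd T T' := by
  have h1 : Nat.Coprime n T' := coprime_of_dvd S hn hT'
  have h2 : Nat.Coprime n' T := coprime_of_dvd S hn' hT
  rw [Nat.Coprime.gcd_mul _ (coprime_of_dvd S hn' hT')]
  rw [Nat.Coprime.gcd_mul_right_cancel n h2.symm, Nat.Coprime.gcd_mul_left_cancel T h1]

/-- **the pair form split at the cut** -/
theorem frm_cut {M : ℕ} (hM : 0 < M) (F : ℕ → ℕ → ℝ) :
    frm M F = ∑ T ∈ (part (fun p => ¬ S p) M).divisors,
      ∑ T' ∈ (part (fun p => ¬ S p) M).divisors,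
        (Nat.gcd T T' : ℝ) * nu (part (fun p => ¬ S p) M) T * nu (part (fun p => ¬ S p) M) T' *
          frm (part S M) (fun n n' => F (n * T) (n' * T')) := by
  unfold frm
  rw [sum_cut S hM]
  refine Finset.sum_congr rfl fun T hT => ?_
  rw [Nat.mem_divisors] at hT
  calc ∑ n ∈ (part S M).divisors, ∑ c ∈ M.divisors,
        (Nat.gcd (n * T) c : ℝ) * nu M (n * T) * nu M c * F (n * T) c
      = ∑ n ∈ (part S M).divisors, ∑ T' ∈ (part (fun p => ¬ S p) M).divisors,
        ∑ n' ∈ (part S M).divisors,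
        (Nat.gcd (n * T) (n' * T') : ℝ) * nu M (n * T) * nu M (n' * T') * F (n * T) (n' * T') :=
        Finset.sum_congr rfl fun n _ => sum_cut S hM _
    _ = ∑ T' ∈ (part (fun p => ¬ S p) M).divisors, ∑ n ∈ (part S M).divisors,
        ∑ n' ∈ (part S M).divisors,
        (Nat.gcd (n * T) (n' * T') : ℝ) * nu M (n * T) * nu M (n' * T') * F (n * T) (n' * T') :=
        Finset.sum_comm
    _ = _ := by
        refine Finset.sum_congr rfl fun T' hT' => ?_
        rw [Nat.mem_divisors] at hT'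
        rw [Finset.mul_sum]
        refine Finset.sum_congr rfl fun n hn => ?_
        rw [Nat.mem_divisors] at hn
        rw [Finset.mul_sum]
        refine Finset.sum_congr rfl fun n' hn' => ?_
        rw [Nat.mem_divisors] at hn'
        rw [nu_cut S hM hn.1 hT.1, nu_cut S hM hn'.1 hT'.1, gcd_cut S hn.1 hT.1 hn'.1 hT'.1]
        push_cast
        ring

end general

/-! ### Cuts at a height `x` -/

/-- part of `b` on the primes `≤ x` -/
def low (x b : ℕ) : ℕ := part (fun p => p ≤ x) b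

/-- part of `b` on the primes `> x` -/
def upp (x b : ℕ) : ℕ := part (fun p => ¬ p ≤ x) b

lemma low_pos (x b : ℕ) : 0 < low x b := part_pos _ _
lemma upp_pos (x b : ℕ) : 0 < upp x b := part_pos _ _

lemma low_mul_upp {b : ℕ} (x : ℕ) (hb : b ≠ 0) : low x b * upp x b = b := part_mul _ hb

lemma fact_low (x b p : ℕ) : (low x b).factorization p = if p ≤ x then b.factorization p else 0 :=
  fact_part _ _ _

lemma fact_upp (x b p : ℕ) :
    (upp x b).factorization p = if ¬ p ≤ x then b.factorization p else 0 :=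
  fact_part (fun p => ¬ p ≤ x) _ _

lemma low_dvd {b M : ℕ} (x : ℕ) (hM : M ≠ 0) (h : b ∣ M) : low x b ∣ low x M := part_dvd _ hM h
lemma upp_dvd {b M : ℕ} (x : ℕ) (hM : M ≠ 0) (h : b ∣ M) : upp x b ∣ upp x M := part_dvd _ hM h

lemma upp_dvd_self (x b : ℕ) : upp x b ∣ b := part_dvd_self _ _
lemma low_dvd_self (x b : ℕ) : low x b ∣ b := part_dvd_self _ _

lemma low_of_mul {x n T M M' : ℕ} (hn : n ∣ low x M) (hT : T ∣ upp x M') : low x (n * T) = n :=
  part_of_mul _ hn hT

lemma upp_of_mul {x n T M M' : ℕ} (hn : n ∣ low x M) (hT : T ∣ upp x M') : upp x (n * T) = T :=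
  part_of_mul' (fun p => p ≤ x) hn hT

/-- nested cuts -/
lemma upp_upp {x y : ℕ} (h : x ≤ y) (b : ℕ) : upp y (upp x b) = upp y b := by
  refine Nat.eq_of_factorization_eq (upp_pos _ _).ne' (upp_pos _ _).ne' fun p => ?_
  rw [fact_upp, fact_upp, fact_upp]
  by_cases h1 : p ≤ y
  · simp [h1]
  · have : ¬ p ≤ x := by omega
    simp [h1, this]

lemma low_low {x y : ℕ} (h : x ≤ y) (b : ℕ) : low x (low y b) = low x b := by
  refine Nat.eq_of_factorization_eq (low_pos _ _).ne' (low_pos _ _).ne' fun p => ?_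
  rw [fact_low, fact_low, fact_low]
  by_cases h1 : p ≤ x
  · have : p ≤ y := by omega
    simp [h1, this]
  · simp [h1]

lemma upp_of_large {x b : ℕ} (hb : b ≠ 0) (h : b ≤ x) : upp x b = 1 := by
  refine Nat.eq_of_factorization_eq (upp_pos _ _).ne' one_ne_zero fun p => ?_
  rw [fact_upp, Nat.factorization_one, Finsupp.zero_apply]
  by_cases h1 : p ≤ x
  · simp [h1]
  · simp only [h1, not_false_eq_true, if_true]
    exact Nat.factorization_eq_zero_of_not_dvd fun hd => by
      have := Nat.le_of_dvd (Nat.pos_of_ne_zero hb) hd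
      omega

lemma low_of_large {x b : ℕ} (hb : b ≠ 0) (h : b ≤ x) : low x b = b := by
  have h1 := low_mul_upp x hb
  rwa [upp_of_large hb h, mul_one] at h1

lemma upp_zero {b : ℕ} (hb : b ≠ 0) : upp 0 b = b := by
  refine Nat.eq_of_factorization_eq (upp_pos _ _).ne' hb fun p => ?_
  rw [fact_upp]
  by_cases h1 : p ≤ 0
  · have : p = 0 := by omega
    subst this
    simp
  · simp [h1]

lemma low_zero {b : ℕ} (hb : b ≠ 0) : low 0 b = 1 := by
  have h1 := low_mul_upp 0 hb
  rw [upp_zero hb] at h1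
  exact Nat.eq_of_mul_eq_mul_right (Nat.pos_of_ne_zero hb) (by rw [h1, one_mul])

theorem sum_low_upp {M : ℕ} (hM : 0 < M) (x : ℕ) (F : ℕ → ℝ) :
    ∑ b ∈ M.divisors, F b = ∑ T ∈ (upp x M).divisors, ∑ n ∈ (low x M).divisors, F (n * T) :=
  sum_cut _ hM F

lemma nu_low_upp {M n T x : ℕ} (hM : 0 < M) (hn : n ∣ low x M) (hT : T ∣ upp x M) :
    nu M (n * T) = nu (low x M) n * nu (upp x M) T := nu_cut _ hM hn hT

theorem frm_low_upp {M : ℕ} (hM : 0 < M) (x : ℕ) (F : ℕ → ℕ → ℝ) :
    frm M F = ∑ T ∈ (upp x M).divisors, ∑ T' ∈ (upp x M).divisors,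
        (Nat.gcd T T' : ℝ) * nu (upp x M) T * nu (upp x M) T' *
          frm (low x M) (fun n n' => F (n * T) (n' * T')) := frm_cut _ hM F

/-- expectation of `f` under `nu M` -/
noncomputable def Ex (M : ℕ) (f : ℕ → ℝ) : ℝ := ∑ b ∈ M.divisors, nu M b * f b

/-- mass of the node `(T, x)`: `T` = the common part above `x`, natural below `x` -/
noncomputable def mass (M : ℕ) (f : ℕ → ℝ) (x T : ℕ) : ℝ := Ex (low x M) (fun n => f (n * T))

lemma Ex_nonneg (M : ℕ) {f : ℕ → ℝ} (hf : ∀ b, 0 ≤ f b) : 0 ≤ Ex M f :=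
  Finset.sum_nonneg fun _ _ => mul_nonneg (nu_nonneg _ _) (hf _)

lemma Ex_mono (M : ℕ) {f g : ℕ → ℝ} (h : ∀ b, b ∣ M → f b ≤ g b) : Ex M f ≤ Ex M g :=
  Finset.sum_le_sum fun b hb =>
    mul_le_mul_of_nonneg_left (h b (Nat.dvd_of_mem_divisors hb)) (nu_nonneg _ _)

lemma Ex_const {M : ℕ} (hM : 0 < M) (c : ℝ) : Ex M (fun _ => c) = c := by
  unfold Ex
  rw [← Finset.sum_mul, sum_nu hM, one_mul]

lemma mass_nonneg (M : ℕ) {f : ℕ → ℝ} (hf : ∀ b, 0 ≤ f b) (x T : ℕ) : 0 ≤ mass M f x T :=
  Ex_nonneg _ fun _ => hf _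

/-- expectation = expectation over the upper part of the node expectations -/
theorem Ex_cut {M : ℕ} (hM : 0 < M) (x : ℕ) (f : ℕ → ℝ) :
    Ex M f = Ex (upp x M) (fun T => mass M f x T) := by
  unfold mass Ex
  rw [sum_low_upp hM x]
  refine Finset.sum_congr rfl fun T hT => ?_
  rw [Nat.mem_divisors] at hT
  rw [Finset.mul_sum]
  refine Finset.sum_congr rfl fun n hn => ?_
  rw [Nat.mem_divisors] at hn
  rw [nu_low_upp hM hn.1 hT.1]
  ring

theorem Ex_cut' {M : ℕ} (hM : 0 < M) (x : ℕ) (f : ℕ → ℝ) (g : ℕ → ℝ) :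
    Ex M (fun b => g (upp x b) * f b) = Ex (upp x M) (fun T => g T * mass M f x T) := by
  rw [Ex_cut hM x]
  unfold Ex
  refine Finset.sum_congr rfl fun T hT => ?_
  rw [Nat.mem_divisors] at hT
  congr 1
  unfold mass Ex
  beta_reduce
  rw [Finset.mul_sum]
  refine Finset.sum_congr rfl fun n hn => ?_
  rw [Nat.mem_divisors] at hn
  rw [upp_of_mul hn.1 hT.1]
  ring

end Crest.Agent.R4C.Cutx50
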