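import Crest.Agent.R4C.GWK_821

/-!
# Row 4: displacement births are rare given the node (note 3568 (2)(a); helper617)

Label-free analytic input.  `θ = (letters above the smallest letter p) γ`, `A/k` its label,
`α` = position of the cell of the node, `D'/L = t p |θ - A/k|`.

`dbirth` : `1 ≤ K0 ≤ t`, `k ≤ t`, `t ^ 4 ≤ X`: the primes `p ∈ (X, X²]` with `‖p θ - α‖ ≤ 1/t` and
`K0 ≤ t p |θ - A/k| ≤ p^(1/4)` have `∑ 1/p ≤ C / K0`.

* `sum_blocks` : from dyadic blocks to `(X, X²]` (any finite set of naturals).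
-/

set_option autoImplicit false

namespace Crest.Agent.R4C.DBirthx617

open Finset Crest.Agent.R4P.BTs18 Crest.Agent.R4C.GWKx821

/-- dyadic blocks to `(X, X²]` -/
theorem sum_blocks {D X : ℝ} (hD : 0 ≤ D) (hX : 16 ≤ X) (F : Finset ℕ)
    (hF : ∀ p ∈ F, X < p ∧ (p:ℝ) ≤ X ^ 2)
    (hbl : ∀ Y : ℝ, X ≤ Y → ∀ G ⊆ F, (∀ p ∈ G, Y < p ∧ (p:ℝ) ≤ 2 * Y) →
      (G.card : ℝ) ≤ D * (Y / Real.log Y)) :
    ∑ p ∈ F, (1:ℝ) / p ≤ 3 * D := by
  classical
  have hX0 : 0 < X := by linarith
  have hlogX : 0 < Real.log X := Real.log_pos (by linarith)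
  set n : ℕ := ⌈Real.logb 2 X⌉₊ with hn
  have hXn : X ≤ 2 ^ n := by
    have h1 := Nat.le_ceil (Real.logb 2 X)
    have h2 : Real.logb 2 X ≤ n := h1
    rw [Real.logb_le_iff_le_rpow (by norm_num) hX0] at h2
    rwa [Real.rpow_natCast] at h2
  have hn1 : (n:ℝ) ≤ 3 * Real.log X := by
    have h1 := Nat.ceil_lt_add_one (Real.logb_nonneg (by norm_num : (1:ℝ) < 2) (by linarith : 1 ≤ X))
    have h2 : Real.logb 2 X = Real.log X / Real.log 2 := rfl
    have h3 : Real.log X / Real.log 2 ≤ 3 / 2 * Real.log X := by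
      rw [div_le_iff₀ (Real.log_pos (by norm_num))]
      have := Real.log_two_gt_d9
      nlinarith
    have h4 : 1 ≤ Real.log X := by
      rw [← Real.log_exp 1]
      exact Real.log_le_log (Real.exp_pos _) (by linarith [Real.exp_one_lt_d9])
    linarith
  have hex : ∀ p ∈ F, ∃ i, (p:ℝ) ≤ 2 ^ (i + 1) * X := by
    intro p hp
    refine ⟨n, ?_⟩
    have h1 := (hF p hp).2
    have h2 : X ^ 2 ≤ 2 ^ n * X := by nlinarith
    have h3 : (2:ℝ) ^ (n + 1) * X = 2 * (2 ^ n * X) := by ring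
    rw [h3]; nlinarith [show 0 ≤ (2:ℝ) ^ n * X by positivity]
  set f : ℕ → ℕ := fun p => if h : ∃ i, (p:ℝ) ≤ 2 ^ (i + 1) * X then Nat.find h else 0 with hf
  have hfs : ∀ p ∈ F, (p:ℝ) ≤ 2 * (2 ^ f p * X) ∧ 2 ^ f p * X < p ∧ f p < n := by
    intro p hp
    have h := hex p hp
    have e : f p = Nat.find h := by rw [hf]; simp only [dif_pos h]
    rw [e]
    have h1 := Nat.find_spec h
    obtain ⟨h2, h3⟩ := hF p hp
    have hn0 : 0 < n := by
      rcases Nat.eq_zero_or_pos n with h0 | h0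
      · rw [h0] at hXn; norm_num at hXn; linarith
      · exact h0
    refine ⟨by rw [pow_succ] at h1; linarith, ?_, ?_⟩
    · rcases Nat.eq_zero_or_pos (Nat.find h) with h0 | h0
      · rw [h0]; simpa using h2
      · have h4 := Nat.find_min h (show Nat.find h - 1 < Nat.find h by omega)
        rw [show Nat.find h - 1 + 1 = Nat.find h by omega] at h4
        exact not_le.1 h4
    · have h4 : Nat.find h ≤ n - 1 := by
        refine Nat.find_min' h ?_
        rw [show n - 1 + 1 = n by omega]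
        calc (p:ℝ) ≤ X ^ 2 := h3
          _ = X * X := by ring
          _ ≤ 2 ^ n * X := mul_le_mul_of_nonneg_right hXn hX0.le
      omega
  have h1 : ∑ p ∈ F, (1:ℝ) / p = ∑ i ∈ Finset.range n, ∑ p ∈ F.filter (fun p => f p = i), (1:ℝ) / p :=
    (Finset.sum_fiberwise_of_maps_to (fun p hp => Finset.mem_range.2 (hfs p hp).2.2) _).symm
  rw [h1]
  have h2 : ∀ i ∈ Finset.range n, ∑ p ∈ F.filter (fun p => f p = i), (1:ℝ) / p ≤
      D * (1 / Real.log X) := by
    intro i _
    have hpi : (1:ℝ) ≤ 2 ^ i := one_le_pow₀ (by norm_num)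
    set Y : ℝ := 2 ^ i * X with hY
    have hYX : X ≤ Y := by rw [hY]; nlinarith
    have hY0 : 0 < Y := by linarith
    have h3 := hbl Y hYX (F.filter (fun p => f p = i)) (Finset.filter_subset _ _) fun p hp => by
        rw [Finset.mem_filter] at hp
        obtain ⟨h4, h5, _⟩ := hfs p hp.1
        rw [hp.2] at h4 h5
        exact ⟨h5, h4⟩
    have h4 : ∑ p ∈ F.filter (fun p => f p = i), (1:ℝ) / p ≤
        (F.filter (fun p => f p = i)).card * (1 / Y) := by
      rw [← nsmul_eq_mul]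
      refine Finset.sum_le_card_nsmul _ _ _ fun p hp => ?_
      rw [Finset.mem_filter] at hp
      have h5 := (hfs p hp.1).2.1
      rw [hp.2] at h5
      exact one_div_le_one_div_of_le hY0 h5.le
    calc _ ≤ _ := h4
      _ ≤ (D * (Y / Real.log Y)) * (1 / Y) :=
          mul_le_mul_of_nonneg_right h3 (by positivity)
      _ = D * (1 / Real.log Y) := by field_simp
      _ ≤ _ := by
          refine mul_le_mul_of_nonneg_left ?_ (by positivity)
          exact one_div_le_one_div_of_le hlogX (Real.log_le_log hX0 hYX)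
  calc _ ≤ ∑ _i ∈ Finset.range n, D * (1 / Real.log X) := Finset.sum_le_sum h2
    _ = n * (D * (1 / Real.log X)) := by
        rw [Finset.sum_const, Finset.card_range, nsmul_eq_mul]
    _ ≤ (3 * Real.log X) * (D * (1 / Real.log X)) :=
        mul_le_mul_of_nonneg_right hn1 (by positivity)
    _ = _ := by field_simp

set_option maxHeartbeats 1600000 in
/-- one dyadic block -/
theorem dbirth_block : ∃ C : ℝ, 0 < C ∧ ∀ (θ α t K0 Y : ℝ) (u : ℤ) (w : ℕ), 1 ≤ w → (w:ℝ) ≤ t →
    1 ≤ K0 → K0 ≤ t → t ^ 4 ≤ Y → 16 ≤ Y →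
    ∀ F : Finset ℕ, (∀ p ∈ F, p.Prime ∧ Y < p ∧ (p:ℝ) ≤ 2 * Y ∧
      (∃ m : ℤ, |(p:ℝ) * θ - α - m| ≤ 1 / t) ∧ K0 ≤ t * p * |θ - u / w| ∧
      t * p * |θ - u / w| ≤ (p:ℝ) ^ (1 / 4 : ℝ)) →
    (F.card : ℝ) ≤ C / K0 * (Y / Real.log Y) := by
  classical
  obtain ⟨C1, hC1, hap⟩ := ap_count
  refine ⟨84 * C1, by positivity, fun θ α t K0 Y u w hw1 hwt hK ht hY hY16 F hF => ?_⟩
  have ht1 : 1 ≤ t := hK.trans ht
  have ht0 : 0 < t := by linarith
  have hK0 : 0 < K0 := by linarith
  have hY0 : 0 < Y := by linarith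
  set s : ℝ := Real.sqrt Y with hs
  set r : ℝ := Real.sqrt s with hr
  have hs2 : s ^ 2 = Y := Real.sq_sqrt hY0.le
  have hs0 : 0 < s := Real.sqrt_pos.2 hY0
  have hr2 : r ^ 2 = s := Real.sq_sqrt hs0.le
  have hr0 : 0 < r := Real.sqrt_pos.2 hs0
  have hr4 : r ^ 4 = Y := by rw [← hs2, ← hr2]; ring
  have hs4 : 4 ≤ s := by
    rw [hs]; exact Real.le_sqrt_of_sq_le (by linarith)
  have hrr : 2 ≤ r := by
    rw [hr]; exact Real.le_sqrt_of_sq_le (by linarith)
  have htr : t ≤ r := by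
    have h1 : t ^ 4 ≤ r ^ 4 := by rw [hr4]; exact hY
    exact le_of_pow_le_pow_left₀ (by norm_num) hr0.le h1
  have hlogY : 0 < Real.log Y := Real.log_pos (by linarith)
  have hlogr : Real.log r = Real.log Y / 4 := by
    rw [← hr4, Real.log_pow]; push_cast; ring
  have hw0 : (0:ℝ) < w := by exact_mod_cast hw1
  have hwr : (w:ℝ) ≤ r := hwt.trans htr
  set β : ℝ := θ - u / w with hβ
  have hθ : θ = u / w + β := by rw [hβ]; ring
  rcases F.eq_empty_or_nonempty with rfl | ⟨p0, hp0⟩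
  · simp only [Finset.card_empty, Nat.cast_zero]; positivity
  have hb : K0 / (2 * Y * t) ≤ |β| := by
    obtain ⟨_, h2, h3, _, h4, _⟩ := hF p0 hp0
    rw [div_le_iff₀ (by positivity)]
    have h5 : t * (p0:ℝ) * |β| ≤ t * (2 * Y) * |β| :=
      mul_le_mul_of_nonneg_right (mul_le_mul_of_nonneg_left h3 ht0.le) (abs_nonneg _)
    linarith
  have hb0 : 0 < |β| := lt_of_lt_of_le (by positivity) hb
  set b : ℝ := |β| with hbdef
  have hφ : (0:ℝ) < Nat.totient w := by exact_mod_cast Nat.totient_pos.2 (by omega)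
  -- upper bound of `b`
  have hbu : t * Y * b ≤ 2 * r := by
    obtain ⟨_, h2, h3, _, _, h4⟩ := hF p0 hp0
    have h5 : t * Y * b ≤ t * p0 * b :=
      mul_le_mul_of_nonneg_right (mul_le_mul_of_nonneg_left h2.le ht0.le) hb0.le
    have h6 : (p0:ℝ) ^ (1 / 4 : ℝ) ≤ 2 * r := by
      have h7 : (p0:ℝ) ≤ (2 * r) ^ 4 := by
        have : (2 * r) ^ 4 = 16 * Y := by rw [mul_pow, hr4]; norm_num
        rw [this]; linarith
      calc (p0:ℝ) ^ (1 / 4 : ℝ) ≤ ((2 * r) ^ 4) ^ (1 / 4 : ℝ) :=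
            Real.rpow_le_rpow (by positivity) h7 (by norm_num)
        _ = 2 * r := by
            rw [← Real.rpow_natCast, ← Real.rpow_mul (by positivity)]
            norm_num
    linarith
  -- 1 / (t b) ≥ r w
  have hrw : r * w ≤ 1 / (t * b) := by
    rw [le_div_iff₀ (by positivity)]
    have h1 : t * b * Y ≤ 2 * r := by linarith
    have h2 : t * b * r ^ 4 ≤ 2 * r := by rw [hr4]; exact h1
    have h3 : t * b * r ^ 3 ≤ 2 := by
      have : t * b * r ^ 3 * r ≤ 2 * r := by nlinarith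
      exact le_of_mul_le_mul_right this hr0
    have h4 : r * w * (t * b) ≤ r * r * (t * b) :=
      mul_le_mul_of_nonneg_right (mul_le_mul_of_nonneg_left hwr hr0.le) (by positivity)
    have h5 : r * r * (t * b) * 2 ≤ t * b * r ^ 3 := by
      have h6 : 0 ≤ t * b * (r * r) := by positivity
      nlinarith
    linarith
  have hw1r : (1:ℝ) ≤ w := by exact_mod_cast hw1
  have hone : 1 ≤ 1 / (t * b) := by nlinarith
  choose! m hm using fun p (hp : p ∈ F) => (hF p hp).2.2.2.1
  set H : ℝ := 2 / (t * b) + 1 with hHdef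
  have hH0 : 0 < H := by positivity
  have e2 : 2 / (t * b) = 2 * (1 / (t * b)) := by ring
  have hH3 : H ≤ 3 * (1 / (t * b)) := by rw [hHdef, e2]; linarith
  have hrH : r * w ≤ H := by rw [hHdef, e2]; linarith [show 0 < 1 / (t * b) by positivity]
  have hwH2 : 2 * (w:ℝ) ≤ H := by nlinarith
  have hlogH : Real.log Y / 4 ≤ Real.log (H / w) := by
    rw [← hlogr]
    refine Real.log_le_log hr0 ?_
    rw [le_div_iff₀ hw0]; linarith
  set R1 : ℝ := C1 / Nat.totient w * (3 * (1 / (t * b)) * 4 / Real.log Y) with hR1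
  have hR10 : 0 ≤ R1 := by positivity
  -- the common equation
  have hkey : ∀ p ∈ F, |(p:ℝ) * β - (α + (m p - (p / w : ℕ) * u : ℤ) -
      ((p % w : ℕ) : ℝ) * (u / w))| ≤ 1 / t := by
    intro p hp
    have h1 := hm p hp
    have hdm := Nat.div_add_mod p w
    obtain ⟨k, hk⟩ : ∃ k, k = p / w := ⟨_, rfl⟩
    rw [← hk] at hdm ⊢
    have e1 : ((p % w : ℕ) : ℝ) = p - k * w := by
      have h2 : ((w * k + p % w : ℕ) : ℝ) = p := by rw [hdm]
      rw [Nat.cast_add, Nat.cast_mul] at h2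
      linarith
    have e3 : (p:ℝ) * β - (α + (m p - (k:ℕ) * u : ℤ) - ((p % w : ℕ) : ℝ) * (u / w)) =
        (p:ℝ) * θ - α - m p := by
      rw [e1, hθ]; push_cast; field_simp; ring
    rw [e3]; exact h1
  have h1 : (F.card : ℝ) ≤ ((Finset.range w).filter w.Coprime).card *
      ((Y * b + 3) * R1) := by
    refine card_le_real F _ (fun p => p % w) (fun p hp => ?_) _ fun c _ => ?_
    · obtain ⟨hpp, hYp, _⟩ := hF p hp
      rw [Finset.mem_filter, Finset.mem_range]
      refine ⟨Nat.mod_lt _ (by omega), ?_⟩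
      have h1 : Nat.Coprime p w := by
        rw [Nat.Prime.coprime_iff_not_dvd hpp]
        intro hd
        have h2 := Nat.le_of_dvd (by omega) hd
        have h3 : (p:ℝ) ≤ w := by exact_mod_cast h2
        have h4 : r ≤ Y := by
          rw [← hr4]
          nlinarith [pow_le_pow_left₀ (by norm_num : (0:ℝ) ≤ 2) hrr 3]
        linarith
      unfold Nat.Coprime at h1 ⊢
      rw [Nat.gcd_comm, ← Nat.gcd_rec, Nat.gcd_comm]
      exact h1
    · set G := F.filter (fun p => p % w = c) with hG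
      set f : ℕ → ℤ := fun p => m p - (p / w : ℕ) * u with hf
      have h2 : (G.card : ℝ) ≤ (G.image f).card * R1 := by
        refine card_le_real G _ f (fun p hp => Finset.mem_image_of_mem _ hp) _ fun j _ => ?_
        set E := G.filter (fun p => f p = j) with hE
        rcases E.eq_empty_or_nonempty with h0 | hne
        · rw [h0]; simpa using hR10
        set p1 := E.min' hne with hp1
        have hp1E : p1 ∈ E := Finset.min'_mem _ _
        have hEF : ∀ p ∈ E, p ∈ F ∧ p % w = c ∧ f p = j := by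
          intro p hp
          rw [hE, Finset.mem_filter, hG, Finset.mem_filter] at hp
          exact ⟨hp.1.1, hp.1.2, hp.2⟩
        obtain ⟨hp1F, hp1c, hp1j⟩ := hEF p1 hp1E
        have h3 := hap w p1 hw1 ((p1:ℝ) - 1) H (by
          have := (hF p1 hp1F).2.1
          linarith) hwH2 E fun p hp => ?_
        · refine h3.trans ?_
          rw [hR1]
          refine mul_le_mul_of_nonneg_left ?_ (by positivity)
          have h4 : 0 < Real.log (H / w) := lt_of_lt_of_le (by positivity) hlogH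
          calc H / Real.log (H / w) ≤ (3 * (1 / (t * b))) / (Real.log Y / 4) :=
                div_le_div₀ (by positivity) hH3 (by positivity) hlogH
            _ = _ := by field_simp
        · obtain ⟨hpF, hpc, hpj⟩ := hEF p hp
          have h4 := hkey p hpF
          have h5 := hkey p1 hp1F
          rw [hpc] at h4
          rw [hp1c] at h5
          have e4 : (m p - (p / w : ℕ) * u : ℤ) = j := hpj
          have e5 : (m p1 - (p1 / w : ℕ) * u : ℤ) = j := hp1j
          rw [e4] at h4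
          rw [e5] at h5
          have h6 : |((p:ℝ) - p1) * β| ≤ 2 / t := by
            have e6 : ((p:ℝ) - p1) * β = ((p:ℝ) * β - (α + j - (c:ℝ) * (u / w))) -
                ((p1:ℝ) * β - (α + j - (c:ℝ) * (u / w))) := by ring
            rw [e6]
            refine (abs_sub _ _).trans ?_
            have e7 : 2 / t = 1 / t + 1 / t := by ring
            rw [e7]
            exact add_le_add h4 h5
          have hle : (p1:ℝ) ≤ p := by exact_mod_cast Finset.min'_le E p hp
          rw [abs_mul, abs_of_nonneg (by linarith : (0:ℝ) ≤ (p:ℝ) - p1)] at h6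
          have h7 : (p:ℝ) - p1 ≤ 2 / (t * b) := by
            rw [le_div_iff₀ (by positivity)]
            rw [le_div_iff₀ ht0] at h6
            linarith
          refine ⟨(hF p hpF).1, by linarith, by rw [hHdef]; linarith, by rw [hpc, hp1c]⟩
      have h3 : ((G.image f).card : ℝ) ≤ Y * b + 3 := by
        have h4 := card_int_le (G.image f) (3 / 2 * Y * β + (c:ℝ) * (u / w) - α)
          (Y * b / 2 + 1 / t) (by positivity) fun j hj => ?_
        · have h5 : 1 / t ≤ 1 := by rw [div_le_one ht0]; exact ht1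
          linarith
        · obtain ⟨p, hp, rfl⟩ := Finset.mem_image.1 hj
          rw [hG, Finset.mem_filter] at hp
          have h5 := hkey p hp.1
          rw [hp.2] at h5
          obtain ⟨_, h6, h7, _⟩ := hF p hp.1
          have h8 : |((p:ℝ) - 3 / 2 * Y) * β| ≤ Y * b / 2 := by
            rw [abs_mul]
            have h9 : |(p:ℝ) - 3 / 2 * Y| ≤ Y / 2 := by
              rw [abs_le]; constructor <;> linarith
            calc |(p:ℝ) - 3 / 2 * Y| * |β| ≤ Y / 2 * b :=
                  mul_le_mul_of_nonneg_right h9 (abs_nonneg _)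
              _ = Y * b / 2 := by ring
          have e6 : ((f p : ℤ) : ℝ) - (3 / 2 * Y * β + (c:ℝ) * (u / w) - α) =
              ((p:ℝ) - 3 / 2 * Y) * β -
              ((p:ℝ) * β - (α + (m p - (p / w : ℕ) * u : ℤ) - (c:ℝ) * (u / w))) := by
            rw [hf]; ring
          rw [e6]
          exact (abs_sub _ _).trans (add_le_add h8 h5)
      exact h2.trans (mul_le_mul_of_nonneg_right h3 hR10)
  rw [← Nat.totient_eq_card_coprime] at h1
  have h2 : 1 / (t * b) ≤ 2 * Y / K0 := by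
    rw [div_le_div_iff₀ (by positivity) hK0]
    rw [div_le_iff₀ (by positivity)] at hb
    linarith
  calc (F.card : ℝ) ≤ Nat.totient w * ((Y * b + 3) * R1) := h1
    _ = 12 * C1 * (Y / t + 3 * (1 / (t * b))) / Real.log Y := by
        rw [hR1]; field_simp; ring
    _ ≤ 12 * C1 * (Y / K0 + 3 * (2 * Y / K0)) / Real.log Y := by
        refine div_le_div_of_nonneg_right ?_ hlogY.le
        refine mul_le_mul_of_nonneg_left ?_ (by positivity)
        have h3 : Y / t ≤ Y / K0 := div_le_div_of_nonneg_left hY0.le hK0 ht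
        linarith
    _ = 84 * C1 / K0 * (Y / Real.log Y) := by field_simp; ring

/-- **displacement births are rare**: primes `p ∈ (X, X²]` with `p θ` in an arc of length `2/t` and
`K0 ≤ t p |θ - u/w| ≤ p^(1/4)`, `w ≤ t` -/
theorem dbirth : ∃ C : ℝ, 0 < C ∧ ∀ (θ α t K0 X : ℝ) (u : ℤ) (w : ℕ), 1 ≤ w → (w:ℝ) ≤ t →
    1 ≤ K0 → K0 ≤ t → t ^ 4 ≤ X → 16 ≤ X →
    ∀ F : Finset ℕ, (∀ p ∈ F, p.Prime ∧ X < p ∧ (p:ℝ) ≤ X ^ 2 ∧
      (∃ m : ℤ, |(p:ℝ) * θ - α - m| ≤ 1 / t) ∧ K0 ≤ t * p * |θ - u / w| ∧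
      t * p * |θ - u / w| ≤ (p:ℝ) ^ (1 / 4 : ℝ)) →
    ∑ p ∈ F, (1:ℝ) / p ≤ C / K0 := by
  obtain ⟨C, hC, hbl⟩ := dbirth_block
  refine ⟨3 * C, by positivity, fun θ α t K0 X u w hw hwt hK ht htX hX F hF => ?_⟩
  have hK0 : 0 < K0 := by linarith
  have h := sum_blocks (D := C / K0) (by positivity) hX F
    (fun p hp => ⟨(hF p hp).2.1, (hF p hp).2.2.1⟩) fun Y hXY G hG hGY => ?_
  · calc _ ≤ 3 * (C / K0) := h
      _ = 3 * C / K0 := by ring
  · exact hbl θ α t K0 Y u w hw hwt hK ht (htX.trans hXY) (hX.trans hXY) G fun p hp => by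
      obtain ⟨h1, _, _, h2, h3, h4⟩ := hF p (hG hp)
      exact ⟨h1, (hGY p hp).1, (hGY p hp).2, h2, h3, h4⟩

end Crest.Agent.R4C.DBirthx617
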