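import Crest.Agent.R4C.NHdef_656
import Crest.Agent.R4C.PureCls_863
import Crest.Agent.R4C.Rule_945

/-!
# Row 4, GW section: dictionary A over `Rule_945` (helper20)

Nominal coins of block NH (note 3754, with the dyadic floor of 3875 (i)) are coins of the rule.

General `F : FL M` (no purity): for a word `b ∣ M` and a number `r`
* `on_of_dep` : `r ≤ cut m`, `dep m b f < K` ⟹ `On K (lam r b · γ) (uu r b / L)`;
* `dep_of_on`, `on_cut_iff`, `TC_of_on`, `elig_of_on` : converse at the cut of a live scale;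
* `cut_ge` : a live scale `m` above the scale of the prefix below `r` has `r ≤ cut m`;
* `on_of_elig`, `Fc_none`, `lamR_none`.

Prefix worlds (`PureCls_863`: core `G`, word `w ∣ PM F G`, node `G · low x w`, `D F G ≤ x`,
`upp x w` squarefree, letters `S = (upp x w).primeFactors`, `t = G · low x w / L`):
* `pt_eq`, `sc_eq`, `scm_eq` : `pt γ S r`, `sc t S r`, `t ∏_{p < r} p` in terms of `b = G w`;
* `cutR P τ = cut ⌊log₂ τ⌋`, `lt_two_pow`, `cutR_le`, `le_cutR`;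
* `on_letter`, `TC_letter`, `elig_letter` : depth of the rule = depth of block NH;
* `missing`, `nc_not_mem` : nominal coins are missing primes of `b`;
* `on_near` : another point of the cell; `pt_congr` : no letter in between;
* `nc_coin` : `q ∈ nc (cutR P) δ γ t Q S r`, `thr b (blk q) < 3 q^δ` ⟹ `lamR b q = none`;
* `nc_coin_or_heavy` : threshold of the text: coin or `3 q^δ ≤ ThS^ε`;
* `label_on` : a label at `q` in the gap before `r` ⟹ `On (3 q^δ)` at `r` or heavy.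
-/

set_option autoImplicit false

namespace Crest.Agent.R4C.DictAx20

open Finset Crest.Agent.R4C.FLDefx935 Crest.Agent.R4C.Cutx50 Crest.Agent.R4C.Rulex945
  Crest.Agent.R4C.NHx656 Crest.Agent.R4C.PureClsx863 Crest.Agent.R4C.S7cx14
  Crest.Agent.R4C.CrCoinx935

section general

variable {M : ℕ} {F : FL M} {P : Par}

/-- **depth of the rule = depth of the point seen from any `r ≤ cut m`** -/
theorem on_of_dep (_hL : 0 < P.L) (hM : 0 < M) {b m r : ℕ} (hb : b ∣ M) {f : ℚ} {K : ℝ}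
    (hr : r ≤ P.cut m) (hK : dep F P m b f < K) :
    On K ((F.lam r b : ℝ) * P.γ) ((F.uu r b : ℝ) / P.L) := by
  have h1 : IsC F (P.cut m) b (k0 F (P.cut m) b f) f := isC_k0 _ _ _
  obtain ⟨hk, hd⟩ := h1
  have h2 : f.den ∣ k0 F (P.cut m) b f * F.lam r b :=
    hd.trans (Nat.mul_dvd_mul_left _ (FL.lam_dvd_lam hr))
  obtain ⟨u, hu⟩ := h2
  set k : ℕ := k0 F (P.cut m) b f with hkdef
  refine ⟨f.num * u, k, hk, ?_⟩
  have hk0 : (k : ℝ) ≠ 0 := by exact_mod_cast hk.ne'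
  have hden : (f.den : ℝ) ≠ 0 := by exact_mod_cast f.den_pos.ne'
  have hfr : (f : ℝ) = (f.num : ℝ) / f.den := by
    exact_mod_cast (Rat.num_div_den f).symm
  have hu' : (k : ℝ) * F.lam r b = f.den * u := by exact_mod_cast hu
  have e1 : ((f.num * u : ℤ) : ℝ) / k = F.lam r b * (f : ℝ) := by
    rw [hfr]
    push_cast
    rw [div_eq_iff hk0]
    field_simp
    linear_combination (f.num : ℝ) * (-hu')
  have hb2 : (F.uu r b : ℝ) * F.lam r b = b := by
    exact_mod_cast FL.uu_mul_lam (F := F) (x := r) hM hb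
  have e2 : (F.uu r b : ℝ) / P.L * |(F.lam r b : ℝ) * P.γ - ((f.num * u : ℤ) : ℝ) / k| =
      (b : ℝ) * |P.γ - f| / P.L := by
    rw [e1, ← mul_sub, abs_mul, Nat.abs_cast]
    calc (F.uu r b : ℝ) / P.L * ((F.lam r b : ℝ) * |P.γ - f|) =
        ((F.uu r b : ℝ) * F.lam r b) * |P.γ - f| / P.L := by ring
      _ = _ := by rw [hb2]
  rw [e2]
  exact hK

/-- **converse at the cut**: a fraction seen from `cut m` is a centre with this depth -/
theorem dep_of_on (_hL : 0 < P.L) (hM : 0 < M) {b m : ℕ} (hb : b ∣ M) {K : ℝ}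
    (h : On K ((F.lam (P.cut m) b : ℝ) * P.γ) ((F.uu (P.cut m) b : ℝ) / P.L)) :
    ∃ f : ℚ, dep F P m b f < K := by
  obtain ⟨a, k, hk, h1⟩ := h
  set l : ℕ := F.lam (P.cut m) b with hl
  have hl0 : 0 < l := FL.lam_pos _ _
  have hk0 : (k : ℝ) ≠ 0 := by exact_mod_cast hk.ne'
  have hl1 : (l : ℝ) ≠ 0 := by exact_mod_cast hl0.ne'
  refine ⟨(a : ℚ) / ((k * l : ℕ) : ℚ), lt_of_le_of_lt ?_ h1⟩
  have hkl : 0 < k * l := Nat.mul_pos hk hl0
  have hden : ((a : ℚ) / ((k * l : ℕ) : ℚ)).den ∣ k * l := by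
    have h2 := Rat.den_dvd a ((k * l : ℕ) : ℤ)
    have h3 : ((a : ℚ) / ((k * l : ℕ) : ℚ)) = Rat.divInt a ((k * l : ℕ) : ℤ) := by
      rw [Rat.divInt_eq_div]
      push_cast
      rfl
    rw [h3]
    exact_mod_cast h2
  have h2 : k0 F (P.cut m) b ((a : ℚ) / ((k * l : ℕ) : ℚ)) ≤ k := k0_le ⟨hk, hden⟩
  have h2' : (k0 F (P.cut m) b ((a : ℚ) / ((k * l : ℕ) : ℚ)) : ℝ) ≤ k := by exact_mod_cast h2
  have hb2 : (F.uu (P.cut m) b : ℝ) * l = b := by
    exact_mod_cast FL.uu_mul_lam (F := F) (x := P.cut m) hM hb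
  have e1 : (b : ℝ) * |P.γ - (((a : ℚ) / ((k * l : ℕ) : ℚ) : ℚ) : ℝ)| / P.L =
      (F.uu (P.cut m) b : ℝ) / P.L * |(l : ℝ) * P.γ - a / k| := by
    have e2 : (((a : ℚ) / ((k * l : ℕ) : ℚ) : ℚ) : ℝ) = (a : ℝ) / (k * l) := by
      push_cast
      rfl
    have e3 : (l : ℝ) * P.γ - a / k = l * (P.γ - (a : ℝ) / (k * l)) := by
      field_simp
    rw [e2, e3, abs_mul, Nat.abs_cast, ← hb2]
    ring
  unfold dep
  rw [e1]
  exact mul_le_mul_of_nonneg_right h2' (zero_le_one.trans (le_max_left _ _))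

/-- **tree centre from `On` at the cut** -/
theorem TC_of_on (hL : 0 < P.L) (hM : 0 < M) {b m : ℕ} (hb : b ∣ M) {K : ℝ}
    (hlive : 2 ^ m * P.L ≤ (F.uu (P.cut m) b : ℝ)) (hK : K ≤ P.E m)
    (h : On K ((F.lam (P.cut m) b : ℝ) * P.γ) ((F.uu (P.cut m) b : ℝ) / P.L)) :
    ∃ f : ℚ, TC F P m b f ∧ dep F P m b f < K := by
  obtain ⟨f, hf⟩ := dep_of_on hL hM hb h
  refine ⟨f, ⟨?_, ?_, hlive⟩, hf⟩
  · exact (k0_le_dep (F := F) (P := P) m b f).trans (hf.le.trans hK)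
  · exact (dis_le_dep (F := F) hL m b f).trans
      (mul_le_mul_of_nonneg_right (hf.le.trans hK) hL.le)

/-- `On` at the cut ⟺ there is a centre of depth `< K` -/
theorem on_cut_iff (hL : 0 < P.L) (hM : 0 < M) {b m : ℕ} (hb : b ∣ M) {K : ℝ} :
    On K ((F.lam (P.cut m) b : ℝ) * P.γ) ((F.uu (P.cut m) b : ℝ) / P.L) ↔
      ∃ f : ℚ, dep F P m b f < K :=
  ⟨dep_of_on hL hM hb, fun ⟨_, hf⟩ => on_of_dep hL hM hb le_rfl hf⟩

/-- **light at the cut ⟹ eligible** at every missing prime of an active block -/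
theorem elig_of_on (hL : 0 < P.L) (hM : 0 < M) {b q m : ℕ} (hb : b ∣ M) {K : ℝ}
    (hm : P.m0 ≤ m) (hq : P.Y (P.blk q) ≤ P.cut m)
    (hlive : 2 ^ m * P.L ≤ (F.uu (P.cut m) b : ℝ)) (hK : K ≤ P.E m)
    (hthr : K ≤ P.thr b (P.blk q))
    (h : On K ((F.lam (P.cut m) b : ℝ) * P.γ) ((F.uu (P.cut m) b : ℝ) / P.L)) :
    elig F P b q m := by
  obtain ⟨f, h1, h2⟩ := TC_of_on hL hM hb hlive hK h
  exact ⟨hm, hq, f, h1, h2.le.trans hthr⟩

/-- a live scale above the scale of the prefix below `r` contains `r` in its cut -/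
theorem cut_ge (hL : 0 < P.L) (hcut : Monotone P.cut) {b m m' r : ℕ} {f : ℚ}
    (hm : (F.uu (r - 1) b : ℝ) / P.L < 2 ^ (m' + 1)) (hlt : P.cut m' < P.cut m)
    (hT : TC F P m b f) : r ≤ P.cut m := by
  by_contra hc
  push Not at hc
  have h1 : P.cut m ≤ r - 1 := by omega
  have h2 : F.uu (P.cut m) b ≤ F.uu (r - 1) b :=
    Nat.le_of_dvd (FL.uu_pos _ _) (FL.uu_dvd_uu h1)
  have h3 : (F.uu (P.cut m) b : ℝ) ≤ F.uu (r - 1) b := by exact_mod_cast h2
  have h4 : (2 : ℝ) ^ m ≤ (F.uu (r - 1) b : ℝ) / P.L := by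
    rw [le_div_iff₀ hL]
    exact hT.scl.trans h3
  have h5 : m' < m := by
    by_contra h6
    exact absurd (hcut (not_lt.1 h6)) (not_le.2 hlt)
  have h6 : (2 : ℝ) ^ (m' + 1) ≤ 2 ^ m := pow_le_pow_right₀ (by norm_num) h5
  linarith

/-- **dictionary A, eligible scales** -/
theorem on_of_elig (hL : 0 < P.L) (hM : 0 < M) (hcut : Monotone P.cut) (hY : StrictMono P.Y)
    {b q m m' r : ℕ} (hb : b ∣ M) (hm : (F.uu (r - 1) b : ℝ) / P.L < 2 ^ (m' + 1))
    (hq : P.cut m' < q) {K : ℝ} (hK : P.thr b (P.blk q) < K) (he : elig F P b q m) :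
    r ≤ P.cut m ∧ On K ((F.lam r b : ℝ) * P.γ) ((F.uu r b : ℝ) / P.L) := by
  obtain ⟨_, h2, f, h3, h4⟩ := he
  have h5 : r ≤ P.cut m :=
    cut_ge hL hcut hm (hq.trans_le ((Par.le_blk hY q).trans h2)) h3
  exact ⟨h5, on_of_dep hL hM hb h5 (lt_of_le_of_lt h4 hK)⟩

/-- no centre at a nominal coin -/
theorem Fc_none (hL : 0 < P.L) (hM : 0 < M) (hcut : Monotone P.cut) (hY : StrictMono P.Y)
    {b q m' r : ℕ} (hb : b ∣ M) (hm : (F.uu (r - 1) b : ℝ) / P.L < 2 ^ (m' + 1))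
    (hq : P.cut m' < q) {K : ℝ} (hK : P.thr b (P.blk q) < K)
    (hno : ¬ On K ((F.lam r b : ℝ) * P.γ) ((F.uu r b : ℝ) / P.L)) : Fc F P b q = none := by
  unfold Fc
  rw [dif_neg]
  intro he
  exact hno (on_of_elig hL hM hcut hY hb hm hq hK he).2

/-- no centre, no label -/
lemma lamR_none_of {b q : ℕ} (h : Fc F P b q = none) : lamR F P b q = none := by
  unfold lamR BoostCx972.labC
  rw [h]
  rfl

/-- a label comes from an eligible scale -/
lemma elig_of_lab {b q : ℕ} {a : ℤ} (h : lamR F P b q = some a) :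
    elig F P b q (mst F P b q) := by
  by_contra hc
  have h1 : Fc F P b q = none := by
    unfold Fc
    rw [dif_neg hc]
  rw [lamR_none_of h1] at h
  exact absurd h (by simp)

/-- **dictionary A, labels**: a label at `q` above the scale of the prefix below `r` -/
theorem on_of_lab (hL : 0 < P.L) (hM : 0 < M) (hcut : Monotone P.cut) (hY : StrictMono P.Y)
    {b q m' r : ℕ} (hb : b ∣ M) (hm : (F.uu (r - 1) b : ℝ) / P.L < 2 ^ (m' + 1))
    (hq : P.cut m' < q) {K : ℝ} (hK : P.thr b (P.blk q) < K) {a : ℤ}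
    (h : lamR F P b q = some a) :
    r ≤ P.cut (mst F P b q) ∧ On K ((F.lam r b : ℝ) * P.γ) ((F.uu r b : ℝ) / P.L) :=
  on_of_elig hL hM hcut hY hb hm hq hK (elig_of_lab h)

/-- **dictionary A, coins** -/
theorem lamR_none (hL : 0 < P.L) (hM : 0 < M) (hcut : Monotone P.cut) (hY : StrictMono P.Y)
    {b q m' r : ℕ} (hb : b ∣ M) (hm : (F.uu (r - 1) b : ℝ) / P.L < 2 ^ (m' + 1))
    (hq : P.cut m' < q) {K : ℝ} (hK : P.thr b (P.blk q) < K)
    (hno : ¬ On K ((F.lam r b : ℝ) * P.γ) ((F.uu r b : ℝ) / P.L)) : lamR F P b q = none :=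
  lamR_none_of (Fc_none hL hM hcut hY hb hm hq hK hno)

end general

/-! ### change of the point inside a cell -/

/-- `On` at a neighbour of the same cell -/
lemma on_near {K y y' τ c : ℝ} (h : On K y τ) (hτ : 0 ≤ τ)
    (hc : 0 ≤ c) (hyy : τ * |y' - y| ≤ c) : On ((1 + c) * K) y' τ := by
  obtain ⟨a, k, hk, h1⟩ := h
  refine ⟨a, k, hk, lt_of_le_of_lt ?_ (mul_lt_mul_of_pos_left h1 (by linarith : (0 : ℝ) < 1 + c))⟩
  have h2 : τ * |y' - a / k| ≤ c + τ * |y - a / k| := by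
    have h3 : |y' - a / k| ≤ |y' - y| + |y - a / k| := by
      have := abs_add_le (y' - y) (y - a / k)
      simpa using this
    calc τ * |y' - a / k| ≤ τ * (|y' - y| + |y - a / k|) := mul_le_mul_of_nonneg_left h3 hτ
      _ ≤ _ := by rw [mul_add]; linarith
  have h4 : max 1 (τ * |y' - a / k|) ≤ (1 + c) * max 1 (τ * |y - a / k|) := by
    have h5 : (1 : ℝ) ≤ max 1 (τ * |y - a / k|) := le_max_left _ _
    have h6 : τ * |y - a / k| ≤ max 1 (τ * |y - a / k|) := le_max_right _ _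
    refine max_le (by nlinarith) ?_
    nlinarith
  calc (k : ℝ) * max 1 (τ * |y' - a / k|) ≤ k * ((1 + c) * max 1 (τ * |y - a / k|)) :=
        mul_le_mul_of_nonneg_left h4 (Nat.cast_nonneg _)
    _ = (1 + c) * (k * max 1 (τ * |y - a / k|)) := by ring

/-- no letter between `r` and `r'` : same point, same scale -/
lemma pt_congr {γ t : ℝ} {S : Finset ℕ} {r r' : ℕ} (h : r ≤ r')
    (hno : ∀ p ∈ S, r < p → r' < p) : pt γ S r = pt γ S r' ∧ sc t S r = sc t S r' := by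
  have e1 : S.filter (r < ·) = S.filter (r' < ·) := by
    ext p
    simp only [Finset.mem_filter]
    constructor
    · rintro ⟨h1, h2⟩; exact ⟨h1, hno p h1 h2⟩
    · rintro ⟨h1, h2⟩; exact ⟨h1, by omega⟩
  have e2 : S.filter (· ≤ r) = S.filter (· ≤ r') := by
    ext p
    simp only [Finset.mem_filter]
    constructor
    · rintro ⟨h1, h2⟩; exact ⟨h1, by omega⟩
    · rintro ⟨h1, h2⟩
      refine ⟨h1, ?_⟩
      by_contra hc
      have := hno p h1 (by omega)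
      omega
  unfold pt sc
  rw [e1, e2]
  exact ⟨rfl, rfl⟩

/-! ### the floor -/

section floor

/-- activation cut of the prefix of scale `τ`: `cut ⌊log₂ τ⌋` -/
noncomputable def cutR (P : Par) (τ : ℝ) : ℝ := (P.cut (Nat.log 2 ⌊τ⌋₊) : ℝ)

lemma lt_two_pow (τ : ℝ) : τ < 2 ^ (Nat.log 2 ⌊τ⌋₊ + 1) := by
  have h1 : ⌊τ⌋₊ < 2 ^ (Nat.log 2 ⌊τ⌋₊ + 1) := Nat.lt_pow_succ_log_self (by norm_num) _
  have h2 : τ < (⌊τ⌋₊ : ℝ) + 1 := Nat.lt_floor_add_one τ
  have h3 : (⌊τ⌋₊ : ℝ) + 1 ≤ 2 ^ (Nat.log 2 ⌊τ⌋₊ + 1) := by exact_mod_cast h1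
  linarith

lemma two_pow_le {τ : ℝ} (h : 1 ≤ τ) : (2 : ℝ) ^ (Nat.log 2 ⌊τ⌋₊) ≤ τ := by
  have h0 : ⌊τ⌋₊ ≠ 0 := (Nat.floor_pos.2 h).ne'
  have h1 : 2 ^ (Nat.log 2 ⌊τ⌋₊) ≤ ⌊τ⌋₊ := Nat.pow_log_le_self 2 h0
  have h2 : (⌊τ⌋₊ : ℝ) ≤ τ := Nat.floor_le (by linarith)
  have h3 : (2 : ℝ) ^ (Nat.log 2 ⌊τ⌋₊) ≤ ⌊τ⌋₊ := by exact_mod_cast h1
  linarith

/-- the cuts of the rule: `cutR τ ≤ τ^A` -/
lemma cutR_le {P : Par} {A : ℕ} (hP : ∀ m, P.cut m = 2 ^ (A * m)) {τ : ℝ} (h : 1 ≤ τ) :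
    cutR P τ ≤ τ ^ A := by
  unfold cutR
  rw [hP]
  push_cast
  rw [mul_comm, pow_mul]
  exact pow_le_pow_left₀ (by positivity) (two_pow_le h) A

/-- the cuts of the rule: `(τ/2)^A ≤ cutR τ` -/
lemma le_cutR {P : Par} {A : ℕ} (hP : ∀ m, P.cut m = 2 ^ (A * m)) {τ : ℝ} (h : 0 ≤ τ) :
    (τ / 2) ^ A ≤ cutR P τ := by
  unfold cutR
  rw [hP]
  push_cast
  rw [mul_comm, pow_mul]
  refine pow_le_pow_left₀ (by positivity) ?_ A
  have h1 := lt_two_pow τ
  rw [pow_succ] at h1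
  linarith

lemma cutR_mono {P : Par} (hcut : Monotone P.cut) : Monotone (cutR P) := by
  intro a b h
  unfold cutR
  exact_mod_cast hcut (Nat.log_mono_right (Nat.floor_mono h))

/-- node of scale index `m0` : the gap starts above its cut -/
lemma le_cutR_of {P : Par} (hcut : Monotone P.cut) {m0 : ℕ} {τ : ℝ} (h : 2 ^ m0 ≤ τ) :
    (P.cut m0 : ℝ) ≤ cutR P τ := by
  unfold cutR
  have h1 : m0 ≤ Nat.log 2 ⌊τ⌋₊ := by
    refine (Nat.le_log_iff_pow_le (by norm_num) ?_).2 ?_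
    · have : 1 ≤ τ := le_trans (one_le_pow₀ (by norm_num)) h
      exact (Nat.floor_pos.2 this).ne'
    · exact Nat.le_floor (by exact_mod_cast h)
  exact_mod_cast hcut h1

end floor

/-! ### letters of a squarefree word -/

section letters

lemma part_sqfree (S : ℕ → Prop) [DecidablePred S] {n : ℕ} (hn : Squarefree n) :
    part S n = ∏ p ∈ n.primeFactors.filter S, p := by
  unfold part
  refine Finset.prod_congr rfl fun p hp => ?_
  have h1 := (Finset.mem_filter.1 hp).1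
  have h2 : n.factorization p ≤ 1 := hn.natFactorization_le_one p
  have h3 : 0 < n.factorization p :=
    (Nat.prime_of_mem_primeFactors h1).factorization_pos_of_dvd hn.ne_zero
      (Nat.dvd_of_mem_primeFactors h1)
  have h4 : n.factorization p = 1 := by omega
  rw [h4, pow_one]

lemma upp_prod {x r w : ℕ} (hsq : Squarefree (upp x w)) (hxr : x ≤ r) :
    upp r w = ∏ p ∈ (upp x w).primeFactors.filter (r < ·), p := by
  rw [← upp_upp hxr]
  unfold upp at hsq ⊢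
  rw [part_sqfree _ hsq]
  refine Finset.prod_congr ?_ fun _ _ => rfl
  ext p
  simp only [Finset.mem_filter, not_le]

lemma low_prod {x r w : ℕ} (hsq : Squarefree (upp x w)) (hxr : x ≤ r) :
    low r w = low x w * ∏ p ∈ (upp x w).primeFactors.filter (· ≤ r), p := by
  have h1 : low r (upp x w) = ∏ p ∈ (upp x w).primeFactors.filter (· ≤ r), p := by
    unfold upp at hsq ⊢
    exact part_sqfree _ hsq
  rw [← h1]
  refine Nat.eq_of_factorization_eq (low_pos _ _).ne'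
    (mul_ne_zero (low_pos _ _).ne' (low_pos _ _).ne') fun p => ?_
  rw [Nat.factorization_mul (low_pos _ _).ne' (low_pos _ _).ne', Finsupp.add_apply, fact_low,
    fact_low, fact_low, fact_upp]
  by_cases h2 : p ≤ x
  · have h3 : p ≤ r := by omega
    simp [h2, h3]
  · by_cases h3 : p ≤ r <;> simp [h2, h3]

end letters

/-! ### prefix worlds -/

section world

variable {M : ℕ} {F : FL M} {P : Par}

/-- scale of the node `G · low x w` -/
noncomputable def tN (P : Par) (x G w : ℕ) : ℝ := ((G * low x w : ℕ) : ℝ) / P.L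

lemma lam_world {G w x r : ℕ} (hM : 0 < M) (hG : G ∈ cores F) (hw : w ∣ PM F G)
    (hx : D F G ≤ x) (hxr : x ≤ r) : F.lam r (G * w) = upp r w := by
  rw [lam_class hM hG hw, lam_core_of_le hM hG (hx.trans hxr), one_mul]

lemma uu_world {G w x r : ℕ} (hM : 0 < M) (hG : G ∈ cores F) (hw : w ∣ PM F G)
    (hx : D F G ≤ x) (hxr : x ≤ r) : F.uu r (G * w) = G * low r w := by
  rw [uu_class hM hG hw, uu_core_of_le hM hG (hx.trans hxr)]

/-- the point seen from `r` -/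
theorem pt_eq {G w x r : ℕ} (hM : 0 < M) (hG : G ∈ cores F) (hw : w ∣ PM F G)
    (hx : D F G ≤ x) (hxr : x ≤ r) (hsq : Squarefree (upp x w)) (γ : ℝ) :
    pt γ (upp x w).primeFactors r = (F.lam r (G * w) : ℝ) * γ := by
  rw [lam_world hM hG hw hx hxr, upp_prod hsq hxr]
  rfl

/-- the scale after `r` -/
theorem sc_eq {G w x r : ℕ} (hM : 0 < M) (hG : G ∈ cores F) (hw : w ∣ PM F G)
    (hx : D F G ≤ x) (hxr : x ≤ r) (hsq : Squarefree (upp x w)) :
    sc (tN P x G w) (upp x w).primeFactors r = (F.uu r (G * w) : ℝ) / P.L := by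
  rw [uu_world hM hG hw hx hxr, low_prod hsq hxr]
  unfold sc tN
  push_cast
  ring

/-- the scale before `r` -/
theorem scm_eq {G w x r : ℕ} (hM : 0 < M) (hG : G ∈ cores F) (hw : w ∣ PM F G)
    (hx : D F G ≤ x) (hxr : x < r) (hsq : Squarefree (upp x w)) :
    tN P x G w * ((∏ p ∈ (upp x w).primeFactors.filter (· < r), p : ℕ) : ℝ) =
      (F.uu (r - 1) (G * w) : ℝ) / P.L := by
  have h1 : x ≤ r - 1 := by omega
  rw [uu_world hM hG hw hx h1, low_prod hsq h1]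
  have h2 : (upp x w).primeFactors.filter (· ≤ r - 1) = (upp x w).primeFactors.filter (· < r) := by
    ext p
    simp only [Finset.mem_filter]
    constructor
    · rintro ⟨h2, h3⟩; exact ⟨h2, by omega⟩
    · rintro ⟨h2, h3⟩; exact ⟨h2, by omega⟩
  rw [h2]
  unfold tN
  push_cast
  ring

/-- **the depth of the rule is the depth of block NH** -/
theorem on_letter (hL : 0 < P.L) (hM : 0 < M) {G w x r m : ℕ} (hG : G ∈ cores F)
    (hw : w ∣ PM F G) (hx : D F G ≤ x) (hxr : x ≤ r) (hsq : Squarefree (upp x w)) {f : ℚ} {K : ℝ}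
    (hr : r ≤ P.cut m) (hK : dep F P m (G * w) f < K) :
    On K (pt P.γ (upp x w).primeFactors r) (sc (tN P x G w) (upp x w).primeFactors r) := by
  rw [pt_eq hM hG hw hx hxr hsq, sc_eq hM hG hw hx hxr hsq]
  exact on_of_dep hL hM (mul_dvd hM hG hw) hr hK

/-- **converse**: `On K` seen from the cut of a live scale is a tree centre -/
theorem TC_letter (hL : 0 < P.L) (hM : 0 < M) {G w x m : ℕ} (hG : G ∈ cores F)
    (hw : w ∣ PM F G) (hx : D F G ≤ x) (hxm : x ≤ P.cut m) (hsq : Squarefree (upp x w)) {K : ℝ}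
    (hlive : 2 ^ m ≤ sc (tN P x G w) (upp x w).primeFactors (P.cut m)) (hK : K ≤ P.E m)
    (h : On K (pt P.γ (upp x w).primeFactors (P.cut m))
      (sc (tN P x G w) (upp x w).primeFactors (P.cut m))) :
    ∃ f : ℚ, TC F P m (G * w) f ∧ dep F P m (G * w) f < K := by
  rw [pt_eq hM hG hw hx hxm hsq, sc_eq hM hG hw hx hxm hsq] at h
  rw [sc_eq hM hG hw hx hxm hsq, le_div_iff₀ hL] at hlive
  exact TC_of_on hL hM (mul_dvd hM hG hw) hlive hK h

/-- **converse, eligibility** -/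
theorem elig_letter (hL : 0 < P.L) (hM : 0 < M) {G w x m q : ℕ} (hG : G ∈ cores F)
    (hw : w ∣ PM F G) (hx : D F G ≤ x) (hxm : x ≤ P.cut m) (hsq : Squarefree (upp x w)) {K : ℝ}
    (hm : P.m0 ≤ m) (hq : P.Y (P.blk q) ≤ P.cut m)
    (hlive : 2 ^ m ≤ sc (tN P x G w) (upp x w).primeFactors (P.cut m)) (hK : K ≤ P.E m)
    (hthr : K ≤ P.thr (G * w) (P.blk q))
    (h : On K (pt P.γ (upp x w).primeFactors (P.cut m))
      (sc (tN P x G w) (upp x w).primeFactors (P.cut m))) : elig F P (G * w) q m := by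
  obtain ⟨f, h1, h2⟩ := TC_letter hL hM hG hw hx hxm hsq hlive hK h
  exact ⟨hm, hq, f, h1, h2.le.trans hthr⟩

/-- a free prime which is not a letter is missing in `b` -/
lemma missing {G w x q : ℕ} (hM : 0 < M) (hG : G ∈ cores F) (hw : w ∣ PM F G) (hq : q.Prime)
    (hxq : x < q) (hqP : q ∣ PM F G) (hqS : q ∉ (upp x w).primeFactors) :
    (G * w).factorization q < M.factorization q := by
  have h1 : 0 < (PM F G).factorization q := hq.factorization_pos_of_dvd (PM_pos G).ne' hqP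
  have h2 : w.factorization q = 0 := by
    have h3 : (upp x w).factorization q = 0 := by
      by_contra h
      apply hqS
      rw [← Nat.support_factorization]
      exact Finsupp.mem_support_iff.2 h
    rw [fact_upp, if_pos (by omega)] at h3
    exact h3
  rw [fact_mul_word hM hG hw, h2, add_zero]
  rw [fact_PM] at h1
  split_ifs at h1 with h4
  · unfold pmE at h1
    split_ifs at h1 with h5
    cases h6 : F.ctr G q with
    | none => simp [h6] at h1
    | some v =>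
      simp only [h6] at h1
      have := G_fact_some hM hG hq h5 h6
      omega
    · exact absurd h1 (lt_irrefl _)
  · exact absurd h1 (lt_irrefl _)

/-- a nominal coin is not a letter (`t ≥ 2`, `cut m = 2^(A m)`, `A ≥ 1`) -/
lemma nc_not_mem {A : ℕ} (hA : 1 ≤ A) (hP : ∀ m, P.cut m = 2 ^ (A * m)) {γ δ t : ℝ} (ht : 2 ≤ t)
    {Q S : Finset ℕ} (hS : ∀ p ∈ S, 1 ≤ p) {r q : ℕ} (hq : q ∈ nc (cutR P) δ γ t Q S r) :
    q ∉ S := by
  classical
  intro hqS
  unfold nc at hq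
  obtain ⟨_, h1, h2, _⟩ := Finset.mem_filter.1 hq
  have h3 : q ≤ ∏ p ∈ S.filter (· < r), p := by
    refine Nat.le_of_dvd (Finset.prod_pos fun p hp => hS p (Finset.mem_filter.1 hp).1) ?_
    exact Finset.dvd_prod_of_mem _ (Finset.mem_filter.2 ⟨hqS, h2⟩)
  have h3' : (q : ℝ) ≤ ((∏ p ∈ S.filter (· < r), p : ℕ) : ℝ) := by exact_mod_cast h3
  have hq1 : (1 : ℝ) ≤ q := by exact_mod_cast hS q hqS
  set z : ℝ := ((∏ p ∈ S.filter (· < r), p : ℕ) : ℝ) with hz
  have h4 : (q : ℝ) ≤ t * z / 2 := by nlinarith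
  have h5 : t * z / 2 ≤ (t * z / 2) ^ A := le_self_pow₀ (hq1.trans h4) (by omega)
  have h6 := le_cutR hP (τ := t * z) (by nlinarith)
  linarith

/-- **nominal coins are coins** (threshold of the rule below `3 q^δ`) -/
theorem nc_coin (hL : 0 < P.L) (hM : 0 < M) (hcut : Monotone P.cut) (hY : StrictMono P.Y)
    {G w x r q : ℕ} (hG : G ∈ cores F) (hw : w ∣ PM F G) (hx : D F G ≤ x) (hxr : x < r)
    (hsq : Squarefree (upp x w)) {δ : ℝ} {Q : Finset ℕ}
    (hq : q ∈ nc (cutR P) δ P.γ (tN P x G w) Q (upp x w).primeFactors r)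
    (hK : P.thr (G * w) (P.blk q) < 3 * (q : ℝ) ^ δ) :
    Fc F P (G * w) q = none ∧ lamR F P (G * w) q = none := by
  classical
  unfold nc at hq
  rw [Finset.mem_filter] at hq
  obtain ⟨_, h1, h2, h3⟩ := hq
  rw [scm_eq hM hG hw hx hxr hsq] at h1
  rw [pt_eq hM hG hw hx hxr.le hsq, sc_eq hM hG hw hx hxr.le hsq] at h3
  have h4 : P.cut (Nat.log 2 ⌊(F.uu (r - 1) (G * w) : ℝ) / P.L⌋₊) < q := by
    unfold cutR at h1
    exact_mod_cast h1
  have h5 := Fc_none hL hM hcut hY (mul_dvd hM hG hw) (lt_two_pow _) h4 hK h3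
  exact ⟨h5, lamR_none_of h5⟩

/-- a label at `q` in the gap before `r` gives `On K` at `r` -/
theorem label_on (hL : 0 < P.L) (hM : 0 < M) (hcut : Monotone P.cut) (hY : StrictMono P.Y)
    {G w x r q : ℕ} (hG : G ∈ cores F) (hw : w ∣ PM F G) (hx : D F G ≤ x) (hxr : x < r)
    (hsq : Squarefree (upp x w))
    (hq : cutR P (tN P x G w * ((∏ p ∈ (upp x w).primeFactors.filter (· < r), p : ℕ) : ℝ)) < q)
    {K : ℝ} (hK : P.thr (G * w) (P.blk q) < K) {a : ℤ} (h : lamR F P (G * w) q = some a) :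
    r ≤ P.cut (mst F P (G * w) q) ∧
      On K (pt P.γ (upp x w).primeFactors r) (sc (tN P x G w) (upp x w).primeFactors r) := by
  rw [pt_eq hM hG hw hx hxr.le hsq, sc_eq hM hG hw hx hxr.le hsq]
  rw [scm_eq hM hG hw hx hxr hsq] at hq
  refine on_of_lab hL hM hcut hY (mul_dvd hM hG hw) (lt_two_pow _) ?_ hK h
  unfold cutR at hq
  exact_mod_cast hq

end world

/-! ### the threshold of the text -/

section text

variable {M : ℕ} {F : FL M} {P : Par}

/-- below the threshold `3 q^δ` or heavy -/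
lemma thrS_lt (f : ℕ → ℝ) {Y : ℕ → ℕ} {δ ε : ℝ} (hδ : 0 ≤ δ) {b q i : ℕ} (hq : 0 < q)
    (hi : Y (i - 1) < q) :
    thrS M f Y δ ε b i < 3 * (q : ℝ) ^ δ ∨ 3 * (q : ℝ) ^ δ ≤ ThS M f Y b i ^ ε := by
  by_cases h : 3 * (q : ℝ) ^ δ ≤ ThS M f Y b i ^ ε
  · exact Or.inr h
  · left
    have hq0 : (0 : ℝ) < q := by exact_mod_cast hq
    have h1 : ((Y (i - 1) : ℕ) : ℝ) ^ δ ≤ (q : ℝ) ^ δ :=
      Real.rpow_le_rpow (Nat.cast_nonneg _) (by exact_mod_cast hi.le) hδ
    have h2 : (0 : ℝ) < (q : ℝ) ^ δ := Real.rpow_pos_of_pos hq0 _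
    refine lt_of_le_of_lt (min_le_left _ _) (max_lt ?_ (not_le.1 h))
    linarith

lemma Y_lt (hY0 : P.Y 0 ≤ 1) {q : ℕ} (hq : 2 ≤ q) : P.Y (P.blk q - 1) < q := by
  rcases Nat.eq_zero_or_pos (P.blk q) with h | h
  · rw [h]
    exact lt_of_le_of_lt hY0 (by omega)
  · exact Par.lt_of_lt_blk (by omega)

/-- **nominal coins are coins or heavy** (threshold of the text) -/
theorem nc_coin_or_heavy (hL : 0 < P.L) (hM : 0 < M) (hcut : Monotone P.cut)
    (hY : StrictMono P.Y) (hY0 : P.Y 0 ≤ 1) {f : ℕ → ℝ} {δ ε : ℝ} (hδ : 0 ≤ δ)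
    (hthr : ∀ b i, P.thr b i = thrS M f P.Y δ ε b i)
    {G w x r q : ℕ} (hG : G ∈ cores F) (hw : w ∣ PM F G) (hx : D F G ≤ x) (hxr : x < r)
    (hsq : Squarefree (upp x w)) {Q : Finset ℕ} (hQ : ∀ p ∈ Q, 2 ≤ p)
    (hq : q ∈ nc (cutR P) δ P.γ (tN P x G w) Q (upp x w).primeFactors r) :
    lamR F P (G * w) q = none ∨ 3 * (q : ℝ) ^ δ ≤ ThS M f P.Y (G * w) (P.blk q) ^ ε := by
  classical
  have h2 : 2 ≤ q := hQ q (Finset.mem_filter.1 (by unfold nc at hq; exact hq)).1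
  rcases thrS_lt (M := M) f (Y := P.Y) (ε := ε) (b := G * w) hδ (by omega : 0 < q)
    (Y_lt hY0 h2) with h | h
  · left
    rw [← hthr] at h
    exact (nc_coin hL hM hcut hY hG hw hx hxr hsq hq h).2
  · exact Or.inr h

/-- **a label in the gap: On at the next letter, or heavy** -/
theorem label_on_or_heavy (hL : 0 < P.L) (hM : 0 < M) (hcut : Monotone P.cut)
    (hY : StrictMono P.Y) (hY0 : P.Y 0 ≤ 1) {f : ℕ → ℝ} {δ ε : ℝ} (hδ : 0 ≤ δ)
    (hthr : ∀ b i, P.thr b i = thrS M f P.Y δ ε b i)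
    {G w x r q : ℕ} (hG : G ∈ cores F) (hw : w ∣ PM F G) (hx : D F G ≤ x) (hxr : x < r)
    (hsq : Squarefree (upp x w)) (hq2 : 2 ≤ q)
    (hq : cutR P (tN P x G w * ((∏ p ∈ (upp x w).primeFactors.filter (· < r), p : ℕ) : ℝ)) < q)
    {a : ℤ} (h : lamR F P (G * w) q = some a) :
    On (3 * (q : ℝ) ^ δ) (pt P.γ (upp x w).primeFactors r)
      (sc (tN P x G w) (upp x w).primeFactors r) ∨
      3 * (q : ℝ) ^ δ ≤ ThS M f P.Y (G * w) (P.blk q) ^ ε := by
  rcases thrS_lt (M := M) f (Y := P.Y) (ε := ε) (b := G * w) hδ (by omega : 0 < q)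
    (Y_lt hY0 hq2) with h1 | h1
  · left
    rw [← hthr] at h1
    exact (label_on hL hM hcut hY hG hw hx hxr hsq hq h1 h).2
  · exact Or.inr h1

end text

end Crest.Agent.R4C.DictAx20
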