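import Crest.Agent.R4C.GWnode_863

/-!
# Row 4, GW section: budget of the weights over the zones of one word (helper252)

* `tele_r` : roots `R` (indices of one word), weights `V ∈ [0,1]`, payments `Y ≤ 1`;
  `V j ≤ V i (1 - Y i)` as soon as `(i, j]` has more than `r` roots: `∑_{i ∈ R} V i Y i ≤ r + 1`.
* `tele_mult` : the same over zones with at most `m` zones per root: `≤ m (r + 1)`.
-/

set_option autoImplicit false

open Finset

namespace Crest.Agent.R4C.FamBudx252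

/-- telescoping with overlap `r` -/
theorem tele_r (R : Finset ℕ) (V Y : ℕ → ℝ) (r : ℕ) (hV0 : ∀ i ∈ R, 0 ≤ V i)
    (hV1 : ∀ i ∈ R, V i ≤ 1) (hY : ∀ i ∈ R, Y i ≤ 1)
    (hd : ∀ i ∈ R, ∀ j ∈ R, i < j → r < (R.filter fun s => i < s ∧ s ≤ j).card →
      V j ≤ V i * (1 - Y i)) :
    ∑ i ∈ R, V i * Y i ≤ r + 1 := by
  classical
  set n := R.card with hn
  set e : Fin n ↪o ℕ := R.orderEmbOfFin rfl with he
  have hmem : ∀ k, e k ∈ R := fun k => R.orderEmbOfFin_mem rfl k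
  set v : ℕ → ℝ := fun k => if h : k < n then V (e ⟨k, h⟩) else 0 with hv
  set y : ℕ → ℝ := fun k => if h : k < n then Y (e ⟨k, h⟩) else 0 with hy
  have hv0 : ∀ k, 0 ≤ v k := by
    intro k
    rw [hv]; dsimp only
    split_ifs with h
    · exact hV0 _ (hmem _)
    · exact le_rfl
  have hv1 : ∀ k, v k ≤ 1 := by
    intro k
    rw [hv]; dsimp only
    split_ifs with h
    · exact hV1 _ (hmem _)
    · exact zero_le_one
  have hsum : ∑ i ∈ R, V i * Y i = ∑ k ∈ range n, v k * y k := by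
    rw [← Fin.sum_univ_eq_sum_range (fun k => v k * y k) n]
    have himg : R = Finset.univ.map e.toEmbedding := by
      rw [he, Finset.map_orderEmbOfFin_univ]
    conv_lhs => rw [himg]
    rw [Finset.sum_map]
    refine Finset.sum_congr rfl fun k _ => ?_
    rw [hv, hy]
    simp only [RelEmbedding.coe_toEmbedding, k.2, dif_pos, Fin.eta]
  rw [hsum]
  have hstep : ∀ k ∈ range n, v k * y k ≤ v k - v (r + 1 + k) := by
    intro k hk
    rw [mem_range] at hk
    by_cases hk2 : r + 1 + k < n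
    · have h1 := hd (e ⟨k, hk⟩) (hmem _) (e ⟨r + 1 + k, hk2⟩) (hmem _)
        (e.strictMono (by rw [Fin.mk_lt_mk]; omega)) (by
          have hinj : Function.Injective (fun t : Fin (r + 1) => e ⟨k + 1 + t, by omega⟩) := by
            intro a b hab
            have := e.injective hab
            rw [Fin.mk.injEq] at this
            exact Fin.ext (by omega)
          have hsub : (Finset.univ.image fun t : Fin (r + 1) => e ⟨k + 1 + t, by omega⟩) ⊆
              R.filter fun s => e ⟨k, hk⟩ < s ∧ s ≤ e ⟨r + 1 + k, hk2⟩ := by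
            intro s hs
            rw [mem_image] at hs
            obtain ⟨t, _, rfl⟩ := hs
            rw [mem_filter]
            refine ⟨hmem _, e.strictMono (by rw [Fin.mk_lt_mk]; omega), e.monotone ?_⟩
            rw [Fin.mk_le_mk]; omega
          have hc := Finset.card_le_card hsub
          rw [Finset.card_image_of_injective _ hinj, Finset.card_univ, Fintype.card_fin] at hc
          omega)
      have e1 : v k = V (e ⟨k, hk⟩) := by rw [hv]; exact dif_pos hk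
      have e2 : y k = Y (e ⟨k, hk⟩) := by rw [hy]; exact dif_pos hk
      have e3 : v (r + 1 + k) = V (e ⟨r + 1 + k, hk2⟩) := by rw [hv]; exact dif_pos hk2
      rw [e1, e2, e3]
      linarith
    · have e3 : v (r + 1 + k) = 0 := by rw [hv]; exact dif_neg hk2
      have e2 : y k = Y (e ⟨k, hk⟩) := by rw [hy]; exact dif_pos hk
      rw [e3, sub_zero, e2]
      exact mul_le_of_le_one_right (hv0 k) (hY _ (hmem _))
  refine (Finset.sum_le_sum hstep).trans ?_
  rw [Finset.sum_sub_distrib]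
  have h1 : ∑ k ∈ range n, v k ≤ ∑ k ∈ range (r + 1 + n), v k :=
    Finset.sum_le_sum_of_subset_of_nonneg
      (fun k hk => mem_range.2 (lt_of_lt_of_le (mem_range.1 hk) (by omega))) fun k _ _ => hv0 k
  have h2 : ∑ k ∈ range (r + 1 + n), v k =
      ∑ k ∈ range (r + 1), v k + ∑ k ∈ range n, v (r + 1 + k) := Finset.sum_range_add v (r + 1) n
  have h3 : ∑ k ∈ range (r + 1), v k ≤ (r + 1 : ℕ) := by
    refine (Finset.sum_le_sum fun k _ => hv1 k).trans ?_
    rw [Finset.sum_const, card_range, nsmul_eq_mul, mul_one]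
  push_cast at h3
  linarith

/-- telescoping over zones, at most `m` zones per root -/
theorem tele_mult {ζ : Type*} (Zs : Finset ζ) (bi : ζ → ℕ) (R : Finset ℕ) (V Y : ℕ → ℝ) (r m : ℕ)
    (hR : ∀ z ∈ Zs, bi z ∈ R) (hm : ∀ i ∈ R, (Zs.filter fun z => bi z = i).card ≤ m)
    (hV0 : ∀ i ∈ R, 0 ≤ V i) (hV1 : ∀ i ∈ R, V i ≤ 1) (hY0 : ∀ i ∈ R, 0 ≤ Y i)
    (hY : ∀ i ∈ R, Y i ≤ 1)
    (hd : ∀ i ∈ R, ∀ j ∈ R, i < j → r < (R.filter fun s => i < s ∧ s ≤ j).card →
      V j ≤ V i * (1 - Y i)) :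
    ∑ z ∈ Zs, V (bi z) * Y (bi z) ≤ m * (r + 1) := by
  classical
  have h1 : ∑ z ∈ Zs, V (bi z) * Y (bi z) = ∑ i ∈ R, ∑ z ∈ Zs with bi z = i, V i * Y i := by
    rw [← Finset.sum_fiberwise_of_maps_to hR]
    refine Finset.sum_congr rfl fun i _ => Finset.sum_congr rfl fun z hz => ?_
    rw [(mem_filter.1 hz).2]
  rw [h1]
  have h2 : ∀ i ∈ R, ∑ z ∈ Zs with bi z = i, V i * Y i ≤ m * (V i * Y i) := by
    intro i hi
    rw [Finset.sum_const, nsmul_eq_mul]
    exact mul_le_mul_of_nonneg_right (by exact_mod_cast hm i hi) (mul_nonneg (hV0 i hi) (hY0 i hi))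
  refine (Finset.sum_le_sum h2).trans ?_
  rw [← Finset.mul_sum]
  exact mul_le_mul_of_nonneg_left (tele_r R V Y r hV0 hV1 hY hd) (Nat.cast_nonneg m)

/-! ### the scalar world of 982, arbitrary weight sequence -/

open Crest.Agent.R4C.Basex935 Crest.Agent.R4C.Cutx50 Crest.Agent.R4C.GWdefx982
open Crest.Agent.R4C.GWnodex863

variable {Z : World}

open Classical in
/-- the birth indices of a word -/
noncomputable def births (Z : World) (w : ℕ) : Finset ℕ :=
  (range (Z.top + 1)).filter fun i => Z.birth i w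

lemma mem_births (h : Z.Ok) {w i : ℕ} (hw : w ∣ Z.N) : i ∈ births Z w ↔ Z.birth i w := by
  classical
  unfold births
  rw [mem_filter, mem_range]
  constructor
  · exact fun h => h.2
  · intro hb
    exact ⟨Nat.lt_succ_of_le (nd_le_top h hw hb.1), hb⟩

lemma nb_spec {i w : ℕ} (hh : Z.hasNb i w) :
    i < Z.nb i w ∧ Z.nb i w ≤ Z.top ∧ Z.birth (Z.nb i w) w := by
  classical
  unfold World.nb
  rw [dif_pos hh]
  exact Nat.find_spec hh

lemma nb_le {i j w : ℕ} (hij : i < j) (hj : j ≤ Z.top) (hb : Z.birth j w) : Z.nb i w ≤ j := by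
  classical
  have hh : Z.hasNb i w := ⟨j, hij, hj, hb⟩
  unfold World.nb
  rw [dif_pos hh]
  exact Nat.find_min' hh ⟨hij, hj, hb⟩

lemma coin_mem {w p : ℕ} (hp : p ∈ PrefixMx882.free Z.N w) :
    0 ≤ (1 - 1 / (p : ℝ)) ∧ (1 - 1 / (p : ℝ)) ≤ 1 := by
  have hpp : p.Prime := by
    unfold PrefixMx882.free at hp
    exact Nat.prime_of_mem_primeFactors (mem_filter.1 hp).1
  have h2 : (1 : ℝ) ≤ p := by exact_mod_cast hpp.one_lt.le
  have h3 : 1 / (p : ℝ) ≤ 1 := by rw [div_le_one (by linarith)]; exact h2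
  have h4 : 0 ≤ 1 / (p : ℝ) := by positivity
  constructor <;> linarith

/-- `Wp` is in `[0,1]` -/
lemma Wp_nonneg (a b w : ℕ) : 0 ≤ Z.Wp a b w := by
  classical
  exact Finset.prod_nonneg fun p hp => (coin_mem (mem_filter.1 hp).1).1

lemma Wp_le_one (a b w : ℕ) : Z.Wp a b w ≤ 1 := by
  classical
  exact Finset.prod_le_one (fun p hp => (coin_mem (mem_filter.1 hp).1).1)
    fun p hp => (coin_mem (mem_filter.1 hp).1).2

/-- larger windows have smaller products -/
lemma Wp_anti {a a' b b' w : ℕ} (ha : a' ≤ a) (hb : b ≤ b') : Z.Wp a' b' w ≤ Z.Wp a b w := by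
  classical
  unfold World.Wp
  rw [← Finset.prod_filter_mul_prod_filter_not (s := (PrefixMx882.free Z.N w).filter fun p =>
    a' < p ∧ p ≤ b' ∧ Z.coin w p) (p := fun p => a < p ∧ p ≤ b)]
  have e : ((PrefixMx882.free Z.N w).filter fun p => a' < p ∧ p ≤ b' ∧ Z.coin w p).filter
      (fun p => a < p ∧ p ≤ b) =
      (PrefixMx882.free Z.N w).filter fun p => a < p ∧ p ≤ b ∧ Z.coin w p := by
    ext p
    simp only [mem_filter]
    constructor
    · rintro ⟨⟨h1, _, _, h2⟩, h3, h4⟩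
      exact ⟨h1, h3, h4, h2⟩
    · rintro ⟨h1, h3, h4, h2⟩
      exact ⟨⟨h1, by omega, by omega, h2⟩, h3, h4⟩
  rw [e]
  refine mul_le_of_le_one_right (Wp_nonneg (Z := Z) a b w) ?_
  exact Finset.prod_le_one (fun p hp => (coin_mem (mem_filter.1 (mem_filter.1 hp).1).1).1)
    fun p hp => (coin_mem (mem_filter.1 (mem_filter.1 hp).1).1).2

/-- `Wp` is multiplicative in the window -/
lemma Wp_mul {a b c w : ℕ} (hab : a ≤ b) (hbc : b ≤ c) :
    Z.Wp a b w * Z.Wp b c w = Z.Wp a c w := by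
  classical
  unfold World.Wp
  rw [← Finset.prod_union]
  · congr 1
    ext p
    simp only [mem_union, mem_filter]
    constructor
    · rintro (⟨h1, h2, h3, h4⟩ | ⟨h1, h2, h3, h4⟩)
      · exact ⟨h1, h2, by omega, h4⟩
      · exact ⟨h1, by omega, h3, h4⟩
    · rintro ⟨h1, h2, h3, h4⟩
      rcases le_or_gt p b with h | h
      · exact Or.inl ⟨h1, h2, h, h4⟩
      · exact Or.inr ⟨h1, h, h3, h4⟩
  · rw [Finset.disjoint_left]
    intro p hp hp'
    have h1 := (mem_filter.1 hp).2.2.1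
    have h2 := (mem_filter.1 hp').2.1
    omega

open Classical in
/-- the payment at the birth index `i` -/
noncomputable def Yi (Z : World) (w i : ℕ) : ℝ :=
  if Z.hasNb i w ∧ Z.hasNb (Z.nb i w) w then
    1 - Z.Wp (Z.cut i) (Z.cut (Z.nb (Z.nb i w) w)) w else 1

lemma Yi_nonneg (w i : ℕ) : 0 ≤ Yi Z w i := by
  unfold Yi
  split_ifs
  · linarith [Wp_le_one (Z := Z) (Z.cut i) (Z.cut (Z.nb (Z.nb i w) w)) w]
  · exact zero_le_one

lemma Yi_le_one (w i : ℕ) : Yi Z w i ≤ 1 := by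
  unfold Yi
  split_ifs
  · linarith [Wp_nonneg (Z := Z) (Z.cut i) (Z.cut (Z.nb (Z.nb i w) w)) w]
  · exact le_rfl

lemma Y_eq (z : Node) (w : ℕ) : Z.Y z w = Yi Z w z.1 := by
  unfold World.Y Yi
  rfl

/-- two births in `(i, j]` -/
lemma two_births (h : Z.Ok) {w i j : ℕ} (hw : w ∣ Z.N)
    (hc : 1 < ((births Z w).filter fun s => i < s ∧ s ≤ j).card) :
    Z.hasNb i w ∧ Z.hasNb (Z.nb i w) w ∧ Z.nb (Z.nb i w) w ≤ j := by
  classical
  obtain ⟨a, ha, b, hb, hne⟩ := Finset.one_lt_card.1 hc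
  have key : ∀ a b : ℕ, a ∈ (births Z w).filter (fun s => i < s ∧ s ≤ j) →
      b ∈ (births Z w).filter (fun s => i < s ∧ s ≤ j) → a < b →
      Z.hasNb i w ∧ Z.hasNb (Z.nb i w) w ∧ Z.nb (Z.nb i w) w ≤ j := by
    intro a b ha hb hab
    rw [mem_filter, mem_births h hw] at ha hb
    have hat := nd_le_top h hw ha.1.1
    have hbt := nd_le_top h hw hb.1.1
    have h1 : Z.hasNb i w := ⟨a, ha.2.1, hat, ha.1⟩
    have h2 : Z.nb i w ≤ a := nb_le ha.2.1 hat ha.1
    have h3 : Z.hasNb (Z.nb i w) w := ⟨b, by omega, hbt, hb.1⟩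
    have h4 : Z.nb (Z.nb i w) w ≤ b := nb_le (by omega) hbt hb.1
    exact ⟨h1, h3, h4.trans hb.2.2⟩
  rcases Nat.lt_or_gt_of_ne hne with hab | hab
  · exact key a b ha hb hab
  · exact key b a hb ha hab

/-- **(F4), arbitrary weight sequence**: `V i` = weight of the word at its birth `i`, `0` below the
index `ix` (last exceptional gap) -/
theorem budget_world (h : Z.Ok) {w : ℕ} (hw : w ∣ Z.N) (V : ℕ → ℝ) (ix : ℕ)
    (hV0 : ∀ i, 0 ≤ V i) (hV1 : ∀ i, V i ≤ 1) (hx : ∀ i, i < ix → V i = 0)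
    (hV : ∀ i j, ix ≤ i → i < j → Z.birth i w → Z.birth j w →
      V j ≤ Z.Wp (Z.cut i) (Z.cut j) w * V i) :
    (∑ z ∈ Z.Zs with w ∈ Z.zd.zone z, V z.1 * Z.Y z w) ≤ 2 := by
  classical
  set R := (births Z w).filter fun i => ix ≤ i with hR
  have hcard : ∀ i, ix ≤ i → ∀ j, R.filter (fun s => i < s ∧ s ≤ j) =
      (births Z w).filter fun s => i < s ∧ s ≤ j := by
    intro i hi j
    ext s
    simp only [hR, mem_filter]
    constructor
    · rintro ⟨⟨h1, _⟩, h2⟩; exact ⟨h1, h2⟩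
    · rintro ⟨h1, h2⟩; exact ⟨⟨h1, by omega⟩, h2⟩
  have hd : ∀ i ∈ R, ∀ j ∈ R, i < j → 1 < (R.filter fun s => i < s ∧ s ≤ j).card →
      V j ≤ V i * (1 - Yi Z w i) := by
    intro i hi j hj hij hc
    rw [hR, mem_filter, mem_births h hw] at hi hj
    rw [hcard i hi.2 j] at hc
    obtain ⟨h1, h2, h3⟩ := two_births h hw hc
    have e : Yi Z w i = 1 - Z.Wp (Z.cut i) (Z.cut (Z.nb (Z.nb i w) w)) w := by
      unfold Yi; rw [if_pos ⟨h1, h2⟩]
    rw [e, sub_sub_cancel]
    refine (hV i j hi.2 hij hi.1 hj.1).trans ?_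
    rw [mul_comm]
    exact mul_le_mul_of_nonneg_left (Wp_anti le_rfl (h.hcut h3)) (hV0 i)
  have h1 := tele_mult ((Z.Zs.filter fun z => w ∈ Z.zd.zone z).filter fun z => ix ≤ z.1)
    (fun z => z.1) R V (Yi Z w) 1 1
    (by
      intro z hz
      rw [mem_filter, mem_filter, mem_zone h] at hz
      rw [hR, mem_filter, mem_births h hw]
      exact ⟨hz.1.2.2.1, hz.2⟩)
    (by
      intro i _
      refine Finset.card_le_one.2 fun a ha b hb => ?_
      rw [mem_filter, mem_filter, mem_filter, mem_zone h] at ha hb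
      rw [← ha.1.1.2.2.2, ← hb.1.1.2.2.2, ha.2, hb.2])
    (fun i _ => hV0 i) (fun i _ => hV1 i) (fun i _ => Yi_nonneg w i) (fun i _ => Yi_le_one w i) hd
  have h2 : (∑ z ∈ Z.Zs with w ∈ Z.zd.zone z, V z.1 * Z.Y z w) =
      ∑ z ∈ (Z.Zs.filter fun z => w ∈ Z.zd.zone z).filter fun z => ix ≤ z.1,
        V z.1 * Yi Z w z.1 := by
    rw [Finset.sum_filter (s := Z.Zs.filter fun z => w ∈ Z.zd.zone z)]
    refine Finset.sum_congr rfl fun z _ => ?_
    split_ifs with hz
    · rw [Y_eq]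
    · rw [hx _ (not_le.1 hz), zero_mul]
  rw [h2]
  refine h1.trans (le_of_eq ?_)
  norm_num

/-- (F4) of note 3976, first half -/
theorem budget_W (h : Z.Ok) {w : ℕ} (hw : w ∣ Z.N) :
    (∑ z ∈ Z.Zs with w ∈ Z.zd.zone z, Z.W z w * Z.Y z w) ≤ 2 := by
  refine le_trans (le_of_eq ?_) (budget_world h hw (fun i => Z.Wp 0 (Z.cut i) w) 0
    (fun i => Wp_nonneg _ _ _) (fun i => Wp_le_one _ _ _) (fun i hi => absurd hi (Nat.not_lt_zero i))
    fun i j _ hij _ _ => ?_)
  · rfl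
  · rw [mul_comm, Wp_mul (Nat.zero_le _) (h.hcut hij.le)]

end Crest.Agent.R4C.FamBudx252
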