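import Crest.Agent.R4C.GWdef_982

/-!
# Row 4, GW section, leaf F1c of 982's skeleton (note 3976): the cells (helper284)

* `nd_congr`, `e_congr`, `first_congr`, `e1_congr`, `Q_congr` : words with equal `low (cut i)`.
* `e1_dvd`, `four_le_e1`, `Q_mul` : `Q i w * mesh = e i w`.
* `dist_of_lab` : two words of one node: `|yy i w - yy i w' - z| < 3 / tt i w` for some integer `z`.
* **`on_cell`** : `On K` at one word of a node gives `On (4 K)` at every word of it.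
* **`linked_lab`** : a linked pair whose gcd is a multiple of the pure gcd lies in one node, for
  `σ = 0` or for `σ = 1/2`.
-/

set_option autoImplicit false

open Finset
open Crest.Agent.R4C.Basex935 Crest.Agent.R4C.Cutx50
open Crest.Agent.R4C.Cellx863 Crest.Agent.R4C.GWdefx982
open Crest.Agent.R4C.NHx656 (On)

namespace Crest.Agent.R4C.GWcellx284

variable {Z : World}

/-! ### words with the same low part -/

lemma low_congr (hZ : Z.Ok) {i j w w' : ℕ} (hij : i ≤ j)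
    (h : low (Z.cut j) w = low (Z.cut j) w') : low (Z.cut i) w = low (Z.cut i) w' := by
  rw [← low_low (hZ.hcut hij) w, h, low_low (hZ.hcut hij) w']

lemma e_congr {i w w' : ℕ} (h : low (Z.cut i) w = low (Z.cut i) w') : Z.e i w = Z.e i w' := by
  unfold World.e; rw [h]

lemma nd_congr {i w w' : ℕ} (h : low (Z.cut i) w = low (Z.cut i) w') : Z.nd i w ↔ Z.nd i w' := by
  unfold World.nd; rw [e_congr h]

lemma first_spec {i w : ℕ} (h : Z.nd i w) : Z.nd (Z.first w) w ∧ Z.first w ≤ i := by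
  classical
  have hex : ∃ i, Z.nd i w := ⟨i, h⟩
  unfold World.first
  rw [dif_pos hex]
  exact ⟨Nat.find_spec hex, Nat.find_min' hex h⟩

lemma first_le_of (hZ : Z.Ok) {i w w' : ℕ} (h : low (Z.cut i) w = low (Z.cut i) w')
    (hnd : Z.nd i w) : Z.first w' ≤ Z.first w := by
  obtain ⟨h1, h2⟩ := first_spec hnd
  exact (first_spec ((nd_congr (low_congr hZ h2 h)).1 h1)).2

lemma first_congr (hZ : Z.Ok) {i w w' : ℕ} (h : low (Z.cut i) w = low (Z.cut i) w')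
    (hnd : Z.nd i w) : Z.first w = Z.first w' :=
  le_antisymm (first_le_of hZ h.symm ((nd_congr h).1 hnd)) (first_le_of hZ h hnd)

lemma e1_congr (hZ : Z.Ok) {i w w' : ℕ} (h : low (Z.cut i) w = low (Z.cut i) w')
    (hnd : Z.nd i w) : Z.e1 w = Z.e1 w' := by
  unfold World.e1
  rw [← first_congr hZ h hnd]
  exact e_congr (low_congr hZ (first_spec hnd).2 h)

lemma Q_congr (hZ : Z.Ok) {i w w' : ℕ} (h : low (Z.cut i) w = low (Z.cut i) w')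
    (hnd : Z.nd i w) : Z.Q i w = Z.Q i w' := by
  unfold World.Q
  rw [e1_congr hZ h hnd, e_congr h]

/-! ### the mesh -/

lemma e_pos (hZ : Z.Ok) (i w : ℕ) : 0 < Z.e i w := Nat.mul_pos hZ.hG (low_pos _ _)

lemma tt_pos (hZ : Z.Ok) (i w : ℕ) : 0 < Z.tt i w := by
  unfold World.tt
  have := e_pos hZ i w
  have h1 := hZ.hL
  have h2 : (0:ℝ) < Z.e i w := by exact_mod_cast this
  positivity

lemma e_dvd (hZ : Z.Ok) {i j : ℕ} (hij : i ≤ j) (w : ℕ) : Z.e i w ∣ Z.e j w := by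
  unfold World.e
  refine Nat.mul_dvd_mul_left _ ?_
  rw [← low_low (hZ.hcut hij) w]
  exact low_dvd_self _ _

lemma e1_dvd (hZ : Z.Ok) {i w : ℕ} (hnd : Z.nd i w) : Z.e1 w ∣ Z.e i w :=
  e_dvd hZ (first_spec hnd).2 w

lemma four_le_e1 (hZ : Z.Ok) {i w : ℕ} (hnd : Z.nd i w) : 4 * Z.L ≤ (Z.e1 w : ℝ) := by
  obtain ⟨⟨h0, h1, _⟩, _⟩ := first_spec hnd
  have h3 : 3 ≤ Z.first w := hZ.hi0.trans h0
  have h4 : (4:ℝ) ≤ 2 ^ Z.first w := by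
    calc (4:ℝ) ≤ 2 ^ 3 := by norm_num
      _ ≤ 2 ^ Z.first w := pow_le_pow_right₀ (by norm_num) h3
  have := hZ.hL
  have h5 : Z.e1 w = Z.e (Z.first w) w := rfl
  rw [h5]
  nlinarith

lemma Q_mul (hZ : Z.Ok) {i w : ℕ} (hnd : Z.nd i w) :
    (Z.Q i w : ℝ) * mesh Z.L (Z.e1 w) = Z.e i w :=
  Qe_mul hZ.hL (four_le_e1 hZ hnd) (e1_dvd hZ hnd)

lemma mesh_pos' (hZ : Z.Ok) {i w : ℕ} (hnd : Z.nd i w) : 0 < mesh Z.L (Z.e1 w) :=
  mesh_pos hZ.hL (four_le_e1 hZ hnd)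

lemma Q_pos (hZ : Z.Ok) {i w : ℕ} (hnd : Z.nd i w) : 0 < Z.Q i w := by
  have h1 := Q_mul hZ hnd
  have h2 : (0:ℝ) < Z.e i w := by exact_mod_cast e_pos hZ i w
  rcases Nat.eq_zero_or_pos (Z.Q i w) with h | h
  · rw [h, Nat.cast_zero, zero_mul] at h1
    linarith
  · exact h

/-! ### points of a node -/

/-- `G0 w = e i w * upp` -/
lemma word_eq {i w : ℕ} (hw : 0 < w) : Z.G0 * w = Z.e i w * upp (Z.cut i) w := by
  unfold World.e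
  rw [mul_assoc, low_mul_upp _ hw.ne']

lemma pos_eq {i w : ℕ} (hw : 0 < w) :
    ((Z.G0 * w : ℕ) : ℝ) * Z.γ = (Z.e i w : ℝ) * Z.yy i w := by
  rw [word_eq (i := i) hw]
  unfold World.yy
  push_cast
  ring

/-- two words with the same label -/
theorem dist_of_cell (hZ : Z.Ok) {i w w' : ℕ} (hw : 0 < w) (hw' : 0 < w') (hnd : Z.nd i w)
    (hlow : low (Z.cut i) w = low (Z.cut i) w')
    (hcel : Z.cel w ≡ Z.cel w' [ZMOD (Z.Q i w : ℤ)]) :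
    ∃ z : ℤ, |Z.yy i w - Z.yy i w' - z| < 3 / Z.tt i w := by
  have hμ := mesh_pos' hZ hnd
  have hμ3 := (mesh_bounds hZ.hL (four_le_e1 hZ hnd)).2
  have he : (0:ℝ) < Z.e i w := by exact_mod_cast e_pos hZ i w
  unfold World.cel at hcel
  rw [← e1_congr hZ hlow hnd] at hcel
  obtain ⟨z, hz⟩ := rp_congr (Q_mul hZ hnd) hcel
  refine ⟨z, ?_⟩
  have a1 := rp_le (γ := Z.γ) (σ := Z.σ) hμ (Z.G0 * w)
  have a2 := lt_rp (γ := Z.γ) (σ := Z.σ) hμ (Z.G0 * w)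
  have b1 := rp_le (γ := Z.γ) (σ := Z.σ) hμ (Z.G0 * w')
  have b2 := lt_rp (γ := Z.γ) (σ := Z.σ) hμ (Z.G0 * w')
  rw [pos_eq (i := i) hw] at a1 a2
  rw [pos_eq (i := i) hw', ← e_congr hlow] at b1 b2
  have key : |(Z.e i w : ℝ) * (Z.yy i w - Z.yy i w' - z)| < 3 * Z.L := by
    have e1 : (Z.e i w : ℝ) * (Z.yy i w - Z.yy i w' - z) =
        (Z.e i w : ℝ) * Z.yy i w - (Z.e i w : ℝ) * Z.yy i w' - z * (Z.e i w : ℝ) := by ring
    rw [e1, abs_lt]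
    constructor <;> linarith
  rw [abs_mul, abs_of_pos he] at key
  unfold World.tt
  have hL := hZ.hL
  rw [div_div_eq_mul_div, lt_div_iff₀ he]
  linarith

/-- **(i) of F1c, one point** -/
lemma on_shift {K y y' τ : ℝ} {z : ℤ} (hτ : 0 < τ) (hd : |y - y' - z| < 3 / τ)
    (h : On K y' τ) : On (4 * K) y τ := by
  obtain ⟨a, k, hk, h1⟩ := h
  have hk0 : (0:ℝ) < k := by exact_mod_cast hk
  refine ⟨a + z * k, k, hk, ?_⟩
  have e1 : y - ((a + z * k : ℤ) : ℝ) / k = (y' - a / k) + (y - y' - z) := by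
    push_cast
    field_simp
    ring
  have h2 : τ * |y - ((a + z * k : ℤ) : ℝ) / k| ≤ τ * |y' - a / k| + 3 := by
    rw [e1]
    have h3 := abs_add_le (y' - a / k) (y - y' - z)
    have h4 : τ * |y - y' - z| ≤ 3 := by
      rw [lt_div_iff₀ hτ] at hd
      linarith
    have h5 : τ * |(y' - a / k) + (y - y' - z)| ≤ τ * (|y' - a / k| + |y - y' - z|) :=
      mul_le_mul_of_nonneg_left h3 hτ.le
    linarith
  have h6 : max 1 (τ * |y - ((a + z * k : ℤ) : ℝ) / k|) ≤ 4 * max 1 (τ * |y' - a / k|) := by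
    have h7 := le_max_left (1:ℝ) (τ * |y' - a / k|)
    have h8 := le_max_right (1:ℝ) (τ * |y' - a / k|)
    refine max_le (by linarith) (by linarith)
  calc (k:ℝ) * max 1 (τ * |y - ((a + z * k : ℤ) : ℝ) / k|)
      ≤ k * (4 * max 1 (τ * |y' - a / k|)) := mul_le_mul_of_nonneg_left h6 hk0.le
    _ = 4 * (k * max 1 (τ * |y' - a / k|)) := by ring
    _ < 4 * K := by linarith

lemma mem_S {ν : Node} {w : ℕ} : w ∈ Z.S ν ↔ (w ∣ Z.N ∧ Z.N ≠ 0) ∧ Z.nd ν.1 w ∧ Z.lab ν.1 w = ν := by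
  classical
  unfold World.S
  rw [mem_filter, Nat.mem_divisors]

lemma low_of_S {ν : Node} {w w' : ℕ} (hw : w ∈ Z.S ν) (hw' : w' ∈ Z.S ν) :
    low (Z.cut ν.1) w = low (Z.cut ν.1) w' := by
  have h := (mem_S.1 hw).2.2.trans (mem_S.1 hw').2.2.symm
  unfold World.lab at h
  exact (Prod.ext_iff.1 (Prod.ext_iff.1 h).2).1

lemma cel_of_S (hZ : Z.Ok) {ν : Node} {w w' : ℕ} (hw : w ∈ Z.S ν) (hw' : w' ∈ Z.S ν) :
    Z.cel w ≡ Z.cel w' [ZMOD (Z.Q ν.1 w : ℤ)] := by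
  have h := (mem_S.1 hw).2.2.trans (mem_S.1 hw').2.2.symm
  unfold World.lab at h
  have h2 := (Prod.ext_iff.1 (Prod.ext_iff.1 h).2).2
  simp only at h2
  rw [← Q_congr hZ (low_of_S hw hw') (mem_S.1 hw).2.1] at h2
  exact h2

lemma pos_of_S {ν : Node} {w : ℕ} (hw : w ∈ Z.S ν) : 0 < w :=
  Nat.pos_of_dvd_of_pos (mem_S.1 hw).1.1 (Nat.pos_of_ne_zero (mem_S.1 hw).1.2)

/-- two words of one node -/
theorem dist_of_S (hZ : Z.Ok) {ν : Node} {w w' : ℕ} (hw : w ∈ Z.S ν) (hw' : w' ∈ Z.S ν) :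
    ∃ z : ℤ, |Z.yy ν.1 w - Z.yy ν.1 w' - z| < 3 / Z.tt ν.1 w :=
  dist_of_cell hZ (pos_of_S hw) (pos_of_S hw') (mem_S.1 hw).2.1 (low_of_S hw hw')
    (cel_of_S hZ hw hw')

lemma tt_of_S {ν : Node} {w w' : ℕ} (hw : w ∈ Z.S ν) (hw' : w' ∈ Z.S ν) :
    Z.tt ν.1 w = Z.tt ν.1 w' := by
  unfold World.tt
  rw [e_congr (low_of_S hw hw')]

/-- **(i) of F1c** -/
theorem on_cell (hZ : Z.Ok) {K : ℝ} {ν : Node} {w w' : ℕ} (hw : w ∈ Z.S ν) (hw' : w' ∈ Z.S ν)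
    (h : On K (Z.yy ν.1 w') (Z.tt ν.1 w')) : On (4 * K) (Z.yy ν.1 w) (Z.tt ν.1 w) := by
  obtain ⟨z, hz⟩ := dist_of_S hZ hw hw'
  refine on_shift (tt_pos hZ _ _) hz ?_
  rw [tt_of_S hw hw']
  exact h

/-- a light node: every word of the node is `On (4 θ)` -/
theorem on_of_light (hZ : Z.Ok) {i w : ℕ} (hwN : w ∣ Z.N) (hnd : Z.nd i w) (h : Z.light i w) :
    On (4 * Z.θ (Z.prev i w)) (Z.yy i w) (Z.tt i w) := by
  obtain ⟨w', hw', hon⟩ := h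
  have hw : w ∈ Z.S (Z.lab i w) := mem_S.2 ⟨⟨hwN, hZ.hN.ne'⟩, hnd, rfl⟩
  exact on_cell (ν := Z.lab i w) hZ hw hw' hon

/-! ### linked pairs -/

/-- the world with another shift of the cells -/
def sh (Z : World) (σ : ℝ) : World := { Z with σ := σ }

lemma sh_ok (hZ : Z.Ok) {σ : ℝ} (hσ : 0 ≤ σ) : (sh Z σ).Ok where
  hN := hZ.hN
  hG := hZ.hG
  hL := hZ.hL
  hcut := hZ.hcut
  hcut2 := hZ.hcut2
  hi0 := hZ.hi0
  htop := hZ.htop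
  hσ := hσ
  hθ := hZ.hθ
  hK1 := hZ.hK1
  hc := hZ.hc

lemma sh_e (σ : ℝ) (i w : ℕ) : (sh Z σ).e i w = Z.e i w := rfl
lemma sh_nd (σ : ℝ) (i w : ℕ) : (sh Z σ).nd i w ↔ Z.nd i w := Iff.rfl
lemma sh_tt (σ : ℝ) (i w : ℕ) : (sh Z σ).tt i w = Z.tt i w := rfl
lemma sh_yy (σ : ℝ) (i w : ℕ) : (sh Z σ).yy i w = Z.yy i w := rfl
lemma sh_e1 (σ : ℝ) (w : ℕ) : (sh Z σ).e1 w = Z.e1 w := rfl
lemma sh_Q (σ : ℝ) (i w : ℕ) : (sh Z σ).Q i w = Z.Q i w := rfl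

/-- **(ii) of F1c** : `b = G0 w`, `c = G0 w'` linked at the gcd `g`, a multiple of the pure gcd
`e i w`, equal low parts: the same node for `σ = 0` or for `σ = 1/2`. -/
theorem linked_lab (hZ : Z.Ok) {i w w' g : ℕ} {h : ℤ} (hw : 0 < w)
    (hnd : Z.nd i w) (hlow : low (Z.cut i) w = low (Z.cut i) w')
    (hg : g = Nat.gcd (Z.G0 * w) (Z.G0 * w')) (he : Z.e i w ∣ g)
    (hl : |(((Z.G0 * w / g : ℕ) : ℝ) - ((Z.G0 * w' / g : ℕ) : ℝ)) * Z.γ + h| < Z.L / g) :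
    (sh Z 0).lab i w = (sh Z 0).lab i w' ∨ (sh Z (1 / 2)).lab i w = (sh Z (1 / 2)).lab i w' := by
  have hg0 : 0 < g := hg ▸ Nat.gcd_pos_of_pos_left _ (Nat.mul_pos hZ.hG hw)
  have hgb : g ∣ Z.G0 * w := hg ▸ Nat.gcd_dvd_left _ _
  have hgc : g ∣ Z.G0 * w' := hg ▸ Nat.gcd_dvd_right _ _
  have h1 := linked_cell' (mesh_pos' hZ hnd) (mesh_bounds hZ.hL (four_le_e1 hZ hnd)).1
    (Q_mul hZ hnd) hg0 he hgb hgc hl
  have key : ∀ σ : ℝ, Nc Z.γ (mesh Z.L (Z.e1 w)) σ (Z.G0 * w) ≡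
      Nc Z.γ (mesh Z.L (Z.e1 w)) σ (Z.G0 * w') [ZMOD (Z.Q i w : ℕ)] →
      (sh Z σ).lab i w = (sh Z σ).lab i w' := by
    intro σ hc
    unfold World.lab
    refine Prod.ext rfl (Prod.ext hlow ?_)
    show (sh Z σ).cel w % ((sh Z σ).Q i w : ℤ) = (sh Z σ).cel w' % ((sh Z σ).Q i w' : ℤ)
    have e1 : (sh Z σ).Q i w' = (sh Z σ).Q i w := (Q_congr hZ hlow hnd).symm
    have e2 : (sh Z σ).cel w = Nc Z.γ (mesh Z.L (Z.e1 w)) σ (Z.G0 * w) := rfl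
    have e3 : (sh Z σ).cel w' = Nc Z.γ (mesh Z.L (Z.e1 w)) σ (Z.G0 * w') := by
      show Nc Z.γ (mesh Z.L (Z.e1 w')) σ (Z.G0 * w') = _
      rw [e1_congr hZ hlow hnd]
    rw [e1, e2, e3]
    exact hc
  rcases h1 with h1 | h1
  · exact Or.inl (key 0 h1)
  · exact Or.inr (key (1 / 2) h1)

/-- (ii) with membership -/
theorem linked_mem (hZ : Z.Ok) {i w w' g : ℕ} {h : ℤ} (hwN : w ∣ Z.N) (hwN' : w' ∣ Z.N)
    (hnd : Z.nd i w) (hlow : low (Z.cut i) w = low (Z.cut i) w')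
    (hg : g = Nat.gcd (Z.G0 * w) (Z.G0 * w')) (he : Z.e i w ∣ g)
    (hl : |(((Z.G0 * w / g : ℕ) : ℝ) - ((Z.G0 * w' / g : ℕ) : ℝ)) * Z.γ + h| < Z.L / g) :
    (w ∈ (sh Z 0).S ((sh Z 0).lab i w) ∧ w' ∈ (sh Z 0).S ((sh Z 0).lab i w)) ∨
      (w ∈ (sh Z (1 / 2)).S ((sh Z (1 / 2)).lab i w) ∧
        w' ∈ (sh Z (1 / 2)).S ((sh Z (1 / 2)).lab i w)) := by
  have hw : 0 < w := Nat.pos_of_dvd_of_pos hwN hZ.hN
  have hnd' : Z.nd i w' := (nd_congr hlow).1 hnd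
  rcases linked_lab hZ hw hnd hlow hg he hl with h1 | h1
  · left
    exact ⟨mem_S.2 ⟨⟨hwN, hZ.hN.ne'⟩, hnd, rfl⟩, mem_S.2 ⟨⟨hwN', hZ.hN.ne'⟩, hnd', h1.symm⟩⟩
  · right
    exact ⟨mem_S.2 ⟨⟨hwN, hZ.hN.ne'⟩, hnd, rfl⟩, mem_S.2 ⟨⟨hwN', hZ.hN.ne'⟩, hnd', h1.symm⟩⟩

end Crest.Agent.R4C.GWcellx284
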