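import Crest.Agent.R4C.Cut_50
import Crest.Agent.R4C.PrefixM_882

/-!
# Natural law toolkit, general `M` (helper69; row 4, leaf of helper935, notes 2740 (A), 2694)

`nu M b = φ(M/b)/M` = law of `gcd (n, M)`, `n` uniform.  `Ex M f = ∑_{b ∣ M} nu M b * f b`.

* `sum_dvd`, `sum_dvd'`, `prob_dvd`, `Ex_dvd` : `P(e ∣ b) = 1/e`, and given `e ∣ b` the cofactor
  `b/e` is natural for `M/e`.
* `Ex_cutS`, `Ex_indep`, `Ex_part`, `Ex_prod` : independence of the exponents.
* `prob_part_eq`, `prob_low_eq` : `P(b_{≤ y} = e) = nu (M_{≤ y}) e = V_e / e`, with the exact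
  conditional law of the rest.
* `Vm` : product over the missing primes; `Vm_mul`, `Vm_cut`, `Vm_part`, `Vm_cofactor`.
* `prob_union`, `Ex_union` : union bound over a list of divisors.
* `Ex_prod_dvd`, `Ex_exp_sum`, `Ex_sum_dvd` : exact moments; `sum_inv_sq_le`;
  `tail_recip` : `P(∑_{p ∣ b, p > y} 1/p > 1) ≤ exp (1 - y)`.
-/

set_option autoImplicit false

open Finset

namespace Crest.Agent.R4C.Lawx69

open Crest.Agent.R4C.Basex935 Crest.Agent.R4C.Cutx50 Crest.Agent.R4C.PrefixMx882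

/-! ### Divisibility by a fixed divisor -/

lemma nu_cofactor {M e b : ℕ} (hM : 0 < M) (he : e ∣ M) :
    nu M (e * b) = 1 / (e : ℝ) * nu (M / e) b := by
  have he0 : 0 < e := Nat.pos_of_dvd_of_pos he hM
  have he0' : (e : ℝ) ≠ 0 := by exact_mod_cast he0.ne'
  have hM0 : (M : ℝ) ≠ 0 := by exact_mod_cast hM.ne'
  unfold nu
  rw [Nat.div_div_eq_div_mul, Nat.cast_div he he0']
  field_simp

/-- image of the divisors of `M / e` -/
lemma filter_dvd_eq {M e : ℕ} (hM : 0 < M) (he : e ∣ M) :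
    M.divisors.filter (fun b => e ∣ b) = (M / e).divisors.image (fun b => e * b) := by
  have he0 : 0 < e := Nat.pos_of_dvd_of_pos he hM
  have hMe : 0 < M / e := Nat.div_pos (Nat.le_of_dvd hM he) he0
  ext b
  simp only [Finset.mem_filter, Nat.mem_divisors, Finset.mem_image]
  constructor
  · rintro ⟨⟨h1, _⟩, c, rfl⟩
    exact ⟨c, ⟨(Nat.dvd_div_iff_mul_dvd he).2 h1, hMe.ne'⟩, rfl⟩
  · rintro ⟨c, ⟨h1, _⟩, rfl⟩
    exact ⟨⟨(Nat.dvd_div_iff_mul_dvd he).1 h1, hM.ne'⟩, Dvd.intro _ rfl⟩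

/-- **natural law given `e ∣ b`** -/
theorem sum_dvd {M e : ℕ} (hM : 0 < M) (he : e ∣ M) (F : ℕ → ℝ) :
    ∑ b ∈ M.divisors with e ∣ b, nu M b * F b =
      1 / (e : ℝ) * ∑ b ∈ (M / e).divisors, nu (M / e) b * F (e * b) := by
  have he0 : 0 < e := Nat.pos_of_dvd_of_pos he hM
  rw [filter_dvd_eq hM he, Finset.sum_image (fun x _ y _ h => Nat.eq_of_mul_eq_mul_left he0 h),
    Finset.mul_sum]
  refine Finset.sum_congr rfl fun b _ => ?_
  rw [nu_cofactor hM he]
  ring

/-- the same, as a function of the cofactor -/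
theorem sum_dvd' {M e : ℕ} (hM : 0 < M) (he : e ∣ M) (F : ℕ → ℝ) :
    ∑ b ∈ M.divisors with e ∣ b, nu M b * F (b / e) =
      1 / (e : ℝ) * ∑ b ∈ (M / e).divisors, nu (M / e) b * F b := by
  have he0 : 0 < e := Nat.pos_of_dvd_of_pos he hM
  rw [sum_dvd hM he (fun b => F (b / e))]
  simp only [Nat.mul_div_cancel_left _ he0]

theorem Ex_dvd {M e : ℕ} (hM : 0 < M) (he : e ∣ M) (F : ℕ → ℝ) :
    Ex M (fun b => if e ∣ b then F b else 0) = 1 / (e : ℝ) * Ex (M / e) (fun b => F (e * b)) := by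
  unfold Ex
  dsimp only
  rw [← sum_dvd hM he, Finset.sum_filter]
  refine Finset.sum_congr rfl fun b _ => ?_
  split_ifs <;> simp

theorem Ex_dvd' {M e : ℕ} (hM : 0 < M) (he : e ∣ M) (F : ℕ → ℝ) :
    Ex M (fun b => if e ∣ b then F (b / e) else 0) = 1 / (e : ℝ) * Ex (M / e) F := by
  have he0 : 0 < e := Nat.pos_of_dvd_of_pos he hM
  rw [Ex_dvd hM he (fun b => F (b / e))]
  simp only [Nat.mul_div_cancel_left _ he0]

/-- `P(e ∣ b) = 1/e` -/
theorem prob_dvd {M e : ℕ} (hM : 0 < M) (he : e ∣ M) :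
    ∑ b ∈ M.divisors with e ∣ b, nu M b = 1 / (e : ℝ) := by
  have he0 : 0 < e := Nat.pos_of_dvd_of_pos he hM
  have hMe : 0 < M / e := Nat.div_pos (Nat.le_of_dvd hM he) he0
  have h := sum_dvd hM he (fun _ => 1)
  simp only [mul_one] at h
  rw [h, sum_nu hMe, mul_one]

/-- `P(e ∣ b) ≤ 1/e` for every `e` -/
theorem prob_dvd_le {M : ℕ} (hM : 0 < M) (e : ℕ) :
    ∑ b ∈ M.divisors with e ∣ b, nu M b ≤ 1 / (e : ℝ) := by
  by_cases he : e ∣ M
  · exact (prob_dvd hM he).le
  · have h0 : M.divisors.filter (fun b => e ∣ b) = ∅ := by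
      refine Finset.filter_eq_empty_iff.2 fun b hb hd => he (hd.trans (Nat.dvd_of_mem_divisors hb))
    rw [h0, Finset.sum_empty]
    positivity

theorem nu_le_inv {M b : ℕ} (hM : 0 < M) (hb : b ∣ M) : nu M b ≤ 1 / (b : ℝ) := by
  rw [← prob_dvd hM hb]
  exact Finset.single_le_sum (f := fun b => nu M b) (fun c _ => nu_nonneg M c)
    (Finset.mem_filter.2 ⟨Nat.mem_divisors.2 ⟨hb, hM.ne'⟩, dvd_refl b⟩)

/-! ### Independence -/

section part

variable (S : ℕ → Prop) [DecidablePred S]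

theorem Ex_cutS {M : ℕ} (hM : 0 < M) (f : ℕ → ℝ) :
    Ex M f = Ex (part (fun p => ¬ S p) M) (fun T => Ex (part S M) (fun n => f (n * T))) := by
  unfold Ex
  rw [sum_cut S hM]
  refine Finset.sum_congr rfl fun T hT => ?_
  rw [Nat.mem_divisors] at hT
  rw [Finset.mul_sum]
  refine Finset.sum_congr rfl fun n hn => ?_
  rw [Nat.mem_divisors] at hn
  rw [nu_cut S hM hn.1 hT.1]
  ring

/-- **independence of the exponents over complementary sets of primes** -/
theorem Ex_indep {M : ℕ} (hM : 0 < M) (f g : ℕ → ℝ) :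
    Ex M (fun b => f (part S b) * g (part (fun p => ¬ S p) b)) =
      Ex (part S M) f * Ex (part (fun p => ¬ S p) M) g := by
  rw [Ex_cutS S hM]
  unfold Ex
  dsimp only
  rw [mul_comm (∑ b ∈ (part S M).divisors, _), Finset.sum_mul]
  refine Finset.sum_congr rfl fun T hT => ?_
  rw [Nat.mem_divisors] at hT
  rw [mul_assoc]
  congr 1
  rw [Finset.mul_sum]
  refine Finset.sum_congr rfl fun n hn => ?_
  rw [Nat.mem_divisors] at hn
  rw [part_of_mul S hn.1 hT.1, part_of_mul' S hn.1 hT.1]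
  ring

/-- marginal law of the part on `S` -/
theorem Ex_part {M : ℕ} (hM : 0 < M) (f : ℕ → ℝ) :
    Ex M (fun b => f (part S b)) = Ex (part S M) f := by
  have h := Ex_indep S hM f (fun _ => 1)
  rw [Ex_const (part_pos _ _), mul_one] at h
  simpa using h

/-- exact conditional law given the part on `S` -/
theorem sum_part_eq {M e : ℕ} (hM : 0 < M) (he : e ∣ part S M) (F : ℕ → ℝ) :
    ∑ b ∈ M.divisors with part S b = e, nu M b * F b =
      nu (part S M) e * Ex (part (fun p => ¬ S p) M) (fun T => F (e * T)) := by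
  have h0 : ∑ b ∈ M.divisors with part S b = e, nu M b * F b =
      Ex M (fun b => if part S b = e then F b else 0) := by
    unfold Ex
    dsimp only
    rw [Finset.sum_filter]
    refine Finset.sum_congr rfl fun b _ => ?_
    split_ifs <;> simp
  rw [h0, Ex_cutS S hM]
  unfold Ex
  dsimp only
  rw [Finset.mul_sum]
  refine Finset.sum_congr rfl fun T hT => ?_
  rw [Nat.mem_divisors] at hT
  rw [Finset.sum_eq_single e]
  · rw [part_of_mul S he hT.1, if_pos rfl]
    ring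
  · intro n hn hne
    rw [Nat.mem_divisors] at hn
    rw [part_of_mul S hn.1 hT.1, if_neg hne, mul_zero]
  · intro h
    exact absurd (Nat.mem_divisors.2 ⟨he, part_ne S M⟩) h

theorem prob_part_eq {M e : ℕ} (hM : 0 < M) (he : e ∣ part S M) :
    ∑ b ∈ M.divisors with part S b = e, nu M b = nu (part S M) e := by
  have h := sum_part_eq S hM he (fun _ => 1)
  rw [Ex_const (part_pos _ _)] at h
  simpa using h

end part

/-- full product formula: the exponents `v_p(b)` are independent with laws `nup p (v_p M)` -/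
theorem Ex_prod {M : ℕ} (hM : 0 < M) (F : ℕ → ℕ → ℝ) :
    Ex M (fun b => ∏ p ∈ M.primeFactors, F p (b.factorization p)) =
      ∏ p ∈ M.primeFactors, ∑ v ∈ range (M.factorization p + 1),
        nup p (M.factorization p) v * F p v := by
  unfold Ex
  rw [← sum_prod (fun p v => nup p (M.factorization p) v * F p v) M hM]
  refine Finset.sum_congr rfl fun b hb => ?_
  rw [Nat.mem_divisors] at hb
  rw [nu_eq_prod M hM b hb.1, ← Finset.prod_mul_distrib]

/-! ### The product over the missing primes -/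

/-- `V_b = ∏_{p ∣ M, v_p(b) < v_p(M)} (1 - 1/p)` -/
noncomputable def Vm (M b : ℕ) : ℝ := ∏ p ∈ free M b, (1 - 1 / (p : ℝ))

lemma Vm_eq {M b : ℕ} (hM : 0 < M) (hb : b ∣ M) : Vm M b = (b : ℝ) * nu M b := (diag hM hb).symm

lemma nu_eq_Vm {M b : ℕ} (hM : 0 < M) (hb : b ∣ M) : nu M b = Vm M b / b := by
  have hb0 : (b : ℝ) ≠ 0 := by exact_mod_cast (Nat.pos_of_dvd_of_pos hb hM).ne'
  rw [Vm_eq hM hb]
  field_simp

lemma Vm_pos {M : ℕ} (b : ℕ) : 0 < Vm M b := by
  refine Finset.prod_pos fun p hp => ?_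
  have hp' := Nat.prime_of_mem_primeFactors (mem_free.1 hp).1
  have : (1 : ℝ) / p < 1 := by
    rw [div_lt_one (by exact_mod_cast hp'.pos)]
    exact_mod_cast hp'.one_lt
  linarith

lemma Vm_le_one (M b : ℕ) : Vm M b ≤ 1 :=
  Finset.prod_le_one (fun p _ => one_sub_nonneg p) fun p _ => one_sub_le_one p

lemma Vm_self (M : ℕ) : Vm M M = 1 := by
  unfold Vm free
  rw [Finset.filter_false_of_mem (fun p _ => lt_irrefl _), Finset.prod_empty]

lemma Vm_eq_totient {M b : ℕ} (hM : 0 < M) (hb : b ∣ M) :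
    Vm M b = ((M / b).totient : ℝ) / ((M / b : ℕ) : ℝ) := by
  have hb0 : (b : ℝ) ≠ 0 := by exact_mod_cast (Nat.pos_of_dvd_of_pos hb hM).ne'
  have hM0 : (M : ℝ) ≠ 0 := by exact_mod_cast hM.ne'
  rw [Vm_eq hM hb]
  unfold nu
  rw [Nat.cast_div hb hb0]
  field_simp

/-- missing primes = primes of `M / b` -/
lemma free_eq {M b : ℕ} (hM : 0 < M) (hb : b ∣ M) : free M b = (M / b).primeFactors := by
  have hb0 : b ≠ 0 := (Nat.pos_of_dvd_of_pos hb hM).ne'
  have hMb : M / b ≠ 0 := (Nat.div_pos (Nat.le_of_dvd hM hb) (Nat.pos_of_ne_zero hb0)).ne'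
  ext p
  rw [mem_free]
  constructor
  · rintro ⟨h1, h2⟩
    have hp := Nat.prime_of_mem_primeFactors h1
    rw [Nat.mem_primeFactors]
    refine ⟨hp, ?_, hMb⟩
    rw [hp.dvd_iff_one_le_factorization hMb, Nat.factorization_div hb]
    simp only [Finsupp.tsub_apply]
    omega
  · intro h
    rw [Nat.mem_primeFactors] at h
    refine ⟨Nat.mem_primeFactors.2 ⟨h.1, h.2.1.trans (Nat.div_dvd_of_dvd hb), hM.ne'⟩, ?_⟩
    have h3 := (h.1.dvd_iff_one_le_factorization hMb).1 h.2.1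
    rw [Nat.factorization_div hb] at h3
    simp only [Finsupp.tsub_apply] at h3
    omega

lemma Vm_mul {M1 M2 b1 b2 : ℕ} (h1 : 0 < M1) (h2 : 0 < M2) (h : Nat.Coprime M1 M2)
    (hb1 : b1 ∣ M1) (hb2 : b2 ∣ M2) : Vm (M1 * M2) (b1 * b2) = Vm M1 b1 * Vm M2 b2 := by
  rw [Vm_eq (Nat.mul_pos h1 h2) (Nat.mul_dvd_mul hb1 hb2), Vm_eq h1 hb1, Vm_eq h2 hb2,
    nu_mul h hb1 hb2]
  push_cast
  ring

/-- the cofactor has the same missing primes -/
lemma Vm_cofactor {M e b : ℕ} (hM : 0 < M) (he : e ∣ M) (hb : b ∣ M / e) :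
    Vm M (e * b) = Vm (M / e) b := by
  have he0 : 0 < e := Nat.pos_of_dvd_of_pos he hM
  have he0' : (e : ℝ) ≠ 0 := by exact_mod_cast he0.ne'
  have hMe : 0 < M / e := Nat.div_pos (Nat.le_of_dvd hM he) he0
  have h1 : e * b ∣ M := (Nat.dvd_div_iff_mul_dvd he).1 hb
  rw [Vm_eq hM h1, Vm_eq hMe hb, nu_cofactor hM he]
  push_cast
  field_simp

/-- more divisible = fewer missing primes -/
lemma Vm_mono {M b c : ℕ} (hM : 0 < M) (hc : c ∣ M) (hbc : b ∣ c) : Vm M b ≤ Vm M c := by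
  unfold Vm
  have hb : b ∣ M := hbc.trans hc
  have hc0 : c ≠ 0 := (Nat.pos_of_dvd_of_pos hc hM).ne'
  have hb0 : b ≠ 0 := (Nat.pos_of_dvd_of_pos hb hM).ne'
  have hsub : free M c ⊆ free M b := by
    intro p hp
    rw [mem_free] at hp ⊢
    exact ⟨hp.1, lt_of_le_of_lt ((Nat.factorization_le_iff_dvd hb0 hc0).2 hbc p) hp.2⟩
  rw [← Finset.prod_sdiff hsub]
  have h1 : ∏ p ∈ free M b \ free M c, (1 - 1 / (p : ℝ)) ≤ 1 :=
    Finset.prod_le_one (fun p _ => one_sub_nonneg p) fun p _ => one_sub_le_one p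
  have h2 : 0 ≤ ∏ p ∈ free M c, (1 - 1 / (p : ℝ)) := Finset.prod_nonneg fun p _ => one_sub_nonneg p
  nlinarith

section part

variable (S : ℕ → Prop) [DecidablePred S]

lemma free_part {M b : ℕ} (hM : 0 < M) : free (part S M) (part S b) = (free M b).filter S := by
  ext p
  rw [Finset.mem_filter, mem_free, mem_free, fact_part, fact_part]
  constructor
  · rintro ⟨h1, h2⟩
    have hp := Nat.prime_of_mem_primeFactors h1
    have hS : S p := prime_dvd_part S hp (Nat.dvd_of_mem_primeFactors h1)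
    rw [if_pos hS, if_pos hS] at h2
    exact ⟨⟨Nat.mem_primeFactors.2 ⟨hp, (Nat.dvd_of_mem_primeFactors h1).trans (part_dvd_self S M),
      hM.ne'⟩, h2⟩, hS⟩
  · rintro ⟨⟨h1, h2⟩, hS⟩
    rw [if_pos hS, if_pos hS]
    have hp := Nat.prime_of_mem_primeFactors h1
    refine ⟨Nat.mem_primeFactors.2 ⟨hp, ?_, part_ne S M⟩, h2⟩
    rw [hp.dvd_iff_one_le_factorization (part_ne S M), fact_part, if_pos hS]
    omega

lemma Vm_part {M b : ℕ} (hM : 0 < M) :
    Vm (part S M) (part S b) = ∏ p ∈ (free M b).filter S, (1 - 1 / (p : ℝ)) := by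
  unfold Vm
  rw [free_part S hM]

lemma Vm_cut {M b : ℕ} (hM : 0 < M) :
    Vm M b = Vm (part S M) (part S b) * Vm (part (fun p => ¬ S p) M) (part (fun p => ¬ S p) b) := by
  rw [Vm_part S hM, Vm_part (fun p => ¬ S p) hM]
  unfold Vm
  rw [Finset.prod_filter_mul_prod_filter_not]

/-- **`P(b_S = e) = V_e / e`** -/
theorem prob_part_eq' {M e : ℕ} (hM : 0 < M) (he : e ∣ part S M) :
    ∑ b ∈ M.divisors with part S b = e, nu M b = Vm (part S M) e / e := by
  rw [prob_part_eq S hM he, nu_eq_Vm (part_pos S M) he]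

end part

/-- `P(b_{≤ y} = e) = V_e / e` -/
theorem prob_low_eq {M e y : ℕ} (hM : 0 < M) (he : e ∣ low y M) :
    ∑ b ∈ M.divisors with low y b = e, nu M b = Vm (low y M) e / e :=
  prob_part_eq' (fun p => p ≤ y) hM he

/-- `V_{low}` in the notation `V (· < ·)` of `PrefixM_882` -/
lemma Vm_low_eq_V {M b x : ℕ} (hM : 0 < M) :
    Vm (low x M) (low x b) = V (fun p q => p < q) M b (x + 1) := by
  unfold low
  rw [Vm_part (fun p => p ≤ x) hM]
  unfold V
  refine Finset.prod_congr (Finset.filter_congr fun p _ => ?_) fun _ _ => rfl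
  omega

/-! ### Union bounds -/

theorem Ex_union {M : ℕ} (hM : 0 < M) (E : Finset ℕ) (hE : ∀ e ∈ E, e ∣ M) {F : ℕ → ℝ}
    (hF : ∀ b, b ∣ M → 0 ≤ F b) :
    ∑ b ∈ M.divisors with (∃ e ∈ E, e ∣ b), nu M b * F b ≤
      ∑ e ∈ E, 1 / (e : ℝ) * Ex (M / e) (fun b => F (e * b)) := by
  classical
  have h1 : ∀ e ∈ E, 1 / (e : ℝ) * Ex (M / e) (fun b => F (e * b)) =
      ∑ b ∈ M.divisors with e ∣ b, nu M b * F b := by
    intro e he
    rw [sum_dvd hM (hE e he)]
    rfl
  rw [Finset.sum_congr rfl h1]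
  calc ∑ b ∈ M.divisors with (∃ e ∈ E, e ∣ b), nu M b * F b
      ≤ ∑ b ∈ M.divisors, ∑ e ∈ E, if e ∣ b then nu M b * F b else 0 := by
        rw [Finset.sum_filter]
        refine Finset.sum_le_sum fun b hb => ?_
        rw [Nat.mem_divisors] at hb
        have h0 : 0 ≤ nu M b * F b := mul_nonneg (nu_nonneg _ _) (hF b hb.1)
        split_ifs with h
        · obtain ⟨e, he, hd⟩ := h
          refine le_trans (le_of_eq ?_) (Finset.single_le_sum
            (f := fun e => if e ∣ b then nu M b * F b else 0)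
            (fun e _ => by split_ifs <;> [exact h0; exact le_rfl]) he)
          simp only [hd, if_true]
        · exact Finset.sum_nonneg fun e _ => by split_ifs <;> [exact h0; exact le_rfl]
    _ = ∑ e ∈ E, ∑ b ∈ M.divisors with e ∣ b, nu M b * F b := by
        rw [Finset.sum_comm]
        refine Finset.sum_congr rfl fun e _ => ?_
        rw [Finset.sum_filter]

/-- **union bound**: `P(∃ e ∈ E, e ∣ b) ≤ ∑_{e ∈ E} 1/e` -/
theorem prob_union {M : ℕ} (hM : 0 < M) (E : Finset ℕ) :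
    ∑ b ∈ M.divisors with (∃ e ∈ E, e ∣ b), nu M b ≤ ∑ e ∈ E, 1 / (e : ℝ) := by
  classical
  calc ∑ b ∈ M.divisors with (∃ e ∈ E, e ∣ b), nu M b
      ≤ ∑ b ∈ M.divisors, ∑ e ∈ E, if e ∣ b then nu M b else 0 := by
        rw [Finset.sum_filter]
        refine Finset.sum_le_sum fun b _ => ?_
        have h0 : 0 ≤ nu M b := nu_nonneg _ _
        split_ifs with h
        · obtain ⟨e, he, hd⟩ := h
          refine le_trans (le_of_eq ?_) (Finset.single_le_sum
            (f := fun e => if e ∣ b then nu M b else 0)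
            (fun e _ => by split_ifs <;> [exact h0; exact le_rfl]) he)
          simp only [hd, if_true]
        · exact Finset.sum_nonneg fun e _ => by split_ifs <;> [exact h0; exact le_rfl]
    _ = ∑ e ∈ E, ∑ b ∈ M.divisors with e ∣ b, nu M b := by
        rw [Finset.sum_comm]
        refine Finset.sum_congr rfl fun e _ => ?_
        rw [Finset.sum_filter]
    _ ≤ _ := Finset.sum_le_sum fun e _ => prob_dvd_le hM e

/-! ### Moments -/

/-- local law of `p ∣ b` -/
lemma local_dvd {p a : ℕ} (ha : 0 < a) (c : ℝ) :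
    ∑ v ∈ range (a + 1), nup p a v * (if v = 0 then 1 else c) = 1 + (c - 1) / (p : ℝ) := by
  have h1 := nup_total p a
  rw [Finset.sum_range_succ'] at h1 ⊢
  have h2 : nup p a 0 = 1 - 1 / (p : ℝ) := by
    unfold nup
    rw [if_pos ha]
    simp
  simp only [Nat.succ_ne_zero, if_false, if_true]
  rw [← Finset.sum_mul]
  rw [h2] at h1 ⊢
  have h3 : ∑ k ∈ range a, nup p a (k + 1) = 1 / (p : ℝ) := by linarith
  rw [h3]
  ring

/-- **exact product moment** -/
theorem Ex_prod_dvd {M : ℕ} (hM : 0 < M) (S : ℕ → Prop) [DecidablePred S] (c : ℕ → ℝ) :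
    Ex M (fun b => ∏ p ∈ b.primeFactors with S p, c p) =
      ∏ p ∈ M.primeFactors with S p, (1 + (c p - 1) / (p : ℝ)) := by
  have h := Ex_prod hM (fun p v => if v = 0 then 1 else if S p then c p else 1)
  have e1 : Ex M (fun b => ∏ p ∈ b.primeFactors with S p, c p) =
      Ex M (fun b => ∏ p ∈ M.primeFactors,
        (if b.factorization p = 0 then 1 else if S p then c p else 1)) := by
    unfold Ex
    refine Finset.sum_congr rfl fun b hb => ?_
    rw [Nat.mem_divisors] at hb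
    congr 1
    have hb0 : b ≠ 0 := fun h => hM.ne' (Nat.eq_zero_of_zero_dvd (h ▸ hb.1))
    dsimp only
    rw [Finset.prod_filter]
    symm
    have hsub : b.primeFactors ⊆ M.primeFactors := Nat.primeFactors_mono hb.1 hM.ne'
    rw [← Finset.prod_subset hsub]
    · refine Finset.prod_congr rfl fun p hp => ?_
      have hp' := Nat.prime_of_mem_primeFactors hp
      have hd := Nat.dvd_of_mem_primeFactors hp
      have := (hp'.dvd_iff_one_le_factorization hb0).1 hd
      rw [if_neg (by omega)]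
    · intro p hp hpn
      have hp' := Nat.prime_of_mem_primeFactors hp
      rw [if_pos]
      refine Nat.factorization_eq_zero_of_not_dvd fun hd => hpn ?_
      exact Nat.mem_primeFactors.2 ⟨hp', hd, hb0⟩
  rw [e1, h, Finset.prod_filter]
  refine Finset.prod_congr rfl fun p hp => ?_
  have hp' := Nat.prime_of_mem_primeFactors hp
  have ha : 0 < M.factorization p :=
    (hp'.dvd_iff_one_le_factorization hM.ne').1 (Nat.dvd_of_mem_primeFactors hp)
  rw [local_dvd ha]
  split_ifs <;> simp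

/-- `E ∏_{p ∣ b, S} (1 + c_p) = ∏_{p ∣ M, S} (1 + c_p / p)` -/
theorem Ex_prod_one_add {M : ℕ} (hM : 0 < M) (S : ℕ → Prop) [DecidablePred S] (c : ℕ → ℝ) :
    Ex M (fun b => ∏ p ∈ b.primeFactors with S p, (1 + c p)) =
      ∏ p ∈ M.primeFactors with S p, (1 + c p / (p : ℝ)) := by
  rw [Ex_prod_dvd hM S (fun p => 1 + c p)]
  refine Finset.prod_congr rfl fun p _ => ?_
  rw [add_sub_cancel_left]

theorem Ex_prod_one_add_le {M : ℕ} (hM : 0 < M) (S : ℕ → Prop) [DecidablePred S] {c : ℕ → ℝ}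
    (hc : ∀ p, 0 ≤ c p) :
    Ex M (fun b => ∏ p ∈ b.primeFactors with S p, (1 + c p)) ≤
      Real.exp (∑ p ∈ M.primeFactors with S p, c p / (p : ℝ)) := by
  rw [Ex_prod_one_add hM, Real.exp_sum]
  refine Finset.prod_le_prod (fun p _ => ?_) fun p _ => ?_
  · have := hc p
    positivity
  · rw [add_comm]
    exact Real.add_one_le_exp _

theorem Ex_exp_sum {M : ℕ} (hM : 0 < M) (S : ℕ → Prop) [DecidablePred S] (g : ℕ → ℝ) :
    Ex M (fun b => Real.exp (∑ p ∈ b.primeFactors with S p, g p)) =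
      ∏ p ∈ M.primeFactors with S p, (1 + (Real.exp (g p) - 1) / (p : ℝ)) := by
  simp only [Real.exp_sum]
  exact Ex_prod_dvd hM S (fun p => Real.exp (g p))

/-- first moment -/
theorem Ex_sum_dvd {M : ℕ} (hM : 0 < M) (S : ℕ → Prop) [DecidablePred S] (g : ℕ → ℝ) :
    Ex M (fun b => ∑ p ∈ b.primeFactors with S p, g p) =
      ∑ p ∈ M.primeFactors with S p, g p / (p : ℝ) := by
  classical
  have e1 : Ex M (fun b => ∑ p ∈ b.primeFactors with S p, g p) =
      Ex M (fun b => ∑ p ∈ M.primeFactors with S p, if p ∣ b then g p else 0) := by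
    unfold Ex
    refine Finset.sum_congr rfl fun b hb => ?_
    rw [Nat.mem_divisors] at hb
    congr 1
    have hb0 : b ≠ 0 := fun h => hM.ne' (Nat.eq_zero_of_zero_dvd (h ▸ hb.1))
    dsimp only
    rw [← Finset.sum_filter, Finset.filter_filter]
    refine Finset.sum_congr ?_ fun _ _ => rfl
    ext p
    simp only [Finset.mem_filter, Nat.mem_primeFactors]
    constructor
    · rintro ⟨⟨h1, h2, _⟩, h3⟩
      exact ⟨⟨h1, h2.trans hb.1, hM.ne'⟩, h3, h2⟩
    · rintro ⟨⟨h1, _, _⟩, h3, h4⟩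
      exact ⟨⟨h1, h4, hb0⟩, h3⟩
  rw [e1]
  unfold Ex
  simp only [Finset.mul_sum]
  rw [Finset.sum_comm]
  refine Finset.sum_congr rfl fun p hp => ?_
  rw [Finset.mem_filter] at hp
  have hd := Nat.dvd_of_mem_primeFactors hp.1
  have h1 := prob_dvd hM hd
  have h2 : ∑ b ∈ M.divisors, nu M b * (if p ∣ b then g p else 0) =
      (∑ b ∈ M.divisors with p ∣ b, nu M b) * g p := by
    rw [Finset.sum_filter, Finset.sum_mul]
    refine Finset.sum_congr rfl fun b _ => ?_
    split_ifs <;> simp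
  rw [h2, h1]
  ring

/-- `∑_{p ∈ P} 1/p² ≤ 1/(2y)` for primes `> y`, `y ≥ 2` -/
lemma sum_inv_sq_le {y : ℕ} (hy : 2 ≤ y) (P : Finset ℕ) (hP : ∀ p ∈ P, p.Prime ∧ y < p) :
    ∑ p ∈ P, 1 / (p : ℝ) ^ 2 ≤ 1 / (2 * (y : ℝ)) := by
  classical
  -- odd numbers `2k+1 > y`
  have key : ∀ N : ℕ, ∀ k0 : ℕ, 1 ≤ k0 →
      ∑ k ∈ Finset.Ico k0 (k0 + N), 1 / ((2 * k + 1 : ℕ) : ℝ) ^ 2 ≤ 1 / (4 * (k0 : ℝ)) := by
    intro N
    have step : ∀ k : ℕ, 1 ≤ k →
        1 / ((2 * k + 1 : ℕ) : ℝ) ^ 2 ≤ 1 / (4 * (k : ℝ)) - 1 / (4 * ((k + 1 : ℕ) : ℝ)) := by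
      intro k hk
      have hk0 : (0 : ℝ) < k := by exact_mod_cast hk
      push_cast
      rw [div_sub_div _ _ (by positivity) (by positivity), div_le_div_iff₀ (by positivity)
        (by positivity)]
      nlinarith
    induction N with
    | zero =>
      intro k0 hk
      simp only [add_zero, Finset.Ico_self, Finset.sum_empty]
      positivity
    | succ N ih =>
      intro k0 hk
      rw [← Finset.sum_Ico_consecutive _ (Nat.le_succ k0) (by omega)]
      have h1 := ih (k0 + 1) (by omega)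
      have h2 := step k0 hk
      have e : k0 + 1 + N = k0 + (N + 1) := by ring
      rw [e] at h1
      have h3 : ∑ k ∈ Finset.Ico k0 (k0.succ), 1 / ((2 * k + 1 : ℕ) : ℝ) ^ 2 =
          1 / ((2 * k0 + 1 : ℕ) : ℝ) ^ 2 := by
        rw [Nat.succ_eq_add_one, Nat.Ico_succ_singleton, Finset.sum_singleton]
      rw [h3]
      have h4 : k0.succ = k0 + 1 := rfl
      rw [h4]
      linarith
  -- every prime of `P` is odd
  set k0 : ℕ := (y + 1) / 2 with hk0
  have hk1 : 1 ≤ k0 := by omega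
  obtain ⟨N, hN⟩ : ∃ N, ∀ p ∈ P, (p - 1) / 2 < k0 + N := by
    refine ⟨∑ p ∈ P, p, fun p hp => ?_⟩
    have : p ≤ ∑ p ∈ P, p := Finset.single_le_sum (f := fun p : ℕ => p) (fun _ _ => Nat.zero_le _) hp
    omega
  have hodd : ∀ p ∈ P, 2 * ((p - 1) / 2) + 1 = p := by
    intro p hp
    obtain ⟨h1, h2⟩ := hP p hp
    have h3 : p % 2 = 1 := by
      rcases h1.eq_two_or_odd with h | h
      · omega
      · exact h
    omega
  have h1 : ∑ p ∈ P, 1 / (p : ℝ) ^ 2 =
      ∑ k ∈ P.image (fun p => (p - 1) / 2), 1 / ((2 * k + 1 : ℕ) : ℝ) ^ 2 := by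
    rw [Finset.sum_image]
    · refine Finset.sum_congr rfl fun p hp => ?_
      rw [hodd p hp]
    · intro p hp q hq h
      have e1 := hodd p hp
      have e2 := hodd q hq
      simp only at h
      omega
  rw [h1]
  calc ∑ k ∈ P.image (fun p => (p - 1) / 2), 1 / ((2 * k + 1 : ℕ) : ℝ) ^ 2
      ≤ ∑ k ∈ Finset.Ico k0 (k0 + N), 1 / ((2 * k + 1 : ℕ) : ℝ) ^ 2 := by
        refine Finset.sum_le_sum_of_subset_of_nonneg ?_ fun _ _ _ => by positivity
        intro k hk
        rw [Finset.mem_image] at hk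
        obtain ⟨p, hp, rfl⟩ := hk
        rw [Finset.mem_Ico]
        have h2 := (hP p hp).2
        have h3 := hodd p hp
        refine ⟨by omega, hN p hp⟩
    _ ≤ 1 / (4 * (k0 : ℝ)) := key N k0 hk1
    _ ≤ 1 / (2 * (y : ℝ)) := by
        have h2 : (y : ℝ) ≤ 2 * k0 := by
          have : y ≤ 2 * k0 := by omega
          exact_mod_cast this
        have hy0 : (0 : ℝ) < y := by
          have : (2 : ℝ) ≤ y := by exact_mod_cast hy
          linarith
        refine one_div_le_one_div_of_le (by positivity) (by linarith)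

/-- the reciprocal sum over the prime factors `> y` -/
noncomputable def rec (y b : ℕ) : ℝ := ∑ p ∈ b.primeFactors with y < p, 1 / (p : ℝ)

lemma rec_nonneg (y b : ℕ) : 0 ≤ rec y b := Finset.sum_nonneg fun _ _ => by positivity

/-- exponential moment -/
theorem Ex_exp_rec {M y : ℕ} (hM : 0 < M) (hy : 2 ≤ y) :
    Ex M (fun b => Real.exp (y * rec y b)) ≤ Real.exp 1 := by
  have hy0 : (0 : ℝ) < y := by
    have : (2 : ℝ) ≤ y := by exact_mod_cast hy
    linarith
  have h := Ex_exp_sum hM (fun p => y < p) (fun p => (y : ℝ) * (1 / (p : ℝ)))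
  have e : Ex M (fun b => Real.exp (y * rec y b)) =
      Ex M (fun b => Real.exp (∑ p ∈ b.primeFactors with y < p, (y : ℝ) * (1 / (p : ℝ)))) := by
    unfold rec
    simp only [Finset.mul_sum]
  rw [e, h]
  have h1 : ∏ p ∈ M.primeFactors with y < p,
        (1 + (Real.exp ((y : ℝ) * (1 / (p : ℝ))) - 1) / (p : ℝ)) ≤
      Real.exp (∑ p ∈ M.primeFactors with y < p, 2 * (y : ℝ) * (1 / (p : ℝ) ^ 2)) := by
    rw [Real.exp_sum]
    refine Finset.prod_le_prod (fun p _ => ?_) fun p hp => ?_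
    · have : 0 ≤ Real.exp ((y : ℝ) * (1 / (p : ℝ))) - 1 := by
        have := Real.add_one_le_exp ((y : ℝ) * (1 / (p : ℝ)))
        have h0 : 0 ≤ (y : ℝ) * (1 / (p : ℝ)) := by positivity
        linarith
      positivity
    · rw [Finset.mem_filter] at hp
      have hp0 : (0 : ℝ) < p := by exact_mod_cast (Nat.prime_of_mem_primeFactors hp.1).pos
      have hyp : (y : ℝ) < p := by exact_mod_cast hp.2
      set x : ℝ := (y : ℝ) * (1 / (p : ℝ)) with hx
      have hx0 : 0 ≤ x := by positivity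
      have hx1 : x ≤ 1 := by
        rw [hx, mul_one_div, div_le_one hp0]
        exact hyp.le
      have h2 : Real.exp x - 1 ≤ 2 * x := by
        have hb := Real.abs_exp_sub_one_sub_id_le (x := x) (by rw [abs_of_nonneg hx0]; exact hx1)
        have := (abs_le.1 hb).2
        nlinarith
      calc 1 + (Real.exp x - 1) / (p : ℝ) ≤ 1 + 2 * x / p := by
            have := div_le_div_of_nonneg_right h2 hp0.le
            linarith
        _ ≤ Real.exp (2 * x / p) := by
            have := Real.add_one_le_exp (2 * x / (p : ℝ))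
            linarith
        _ = Real.exp (2 * (y : ℝ) * (1 / (p : ℝ) ^ 2)) := by
            congr 1
            rw [hx]
            field_simp
  refine h1.trans (Real.exp_le_exp.2 ?_)
  rw [← Finset.mul_sum]
  have h2 := sum_inv_sq_le hy (M.primeFactors.filter (fun p => y < p)) (fun p hp => by
    rw [Finset.mem_filter] at hp
    exact ⟨Nat.prime_of_mem_primeFactors hp.1, hp.2⟩)
  calc 2 * (y : ℝ) * ∑ p ∈ M.primeFactors with y < p, 1 / (p : ℝ) ^ 2
      ≤ 2 * (y : ℝ) * (1 / (2 * (y : ℝ))) := mul_le_mul_of_nonneg_left h2 (by positivity)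
    _ = 1 := by field_simp

/-- **tail of the reciprocal sum** -/
theorem tail_rec {M y : ℕ} (hM : 0 < M) (hy : 2 ≤ y) (s : ℝ) :
    ∑ b ∈ M.divisors with s < rec y b, nu M b ≤ Real.exp (1 - s * y) := by
  have h := Ex_exp_rec hM hy
  have h1 : (∑ b ∈ M.divisors with s < rec y b, nu M b) * Real.exp (s * y) ≤ Real.exp 1 := by
    refine le_trans ?_ h
    unfold Ex
    rw [Finset.sum_mul, Finset.sum_filter]
    refine Finset.sum_le_sum fun b _ => ?_
    split_ifs with hs
    · refine mul_le_mul_of_nonneg_left (Real.exp_le_exp.2 ?_) (nu_nonneg _ _)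
      rw [mul_comm]
      exact mul_le_mul_of_nonneg_left hs.le (Nat.cast_nonneg y)
    · exact mul_nonneg (nu_nonneg _ _) (Real.exp_pos _).le
  rw [Real.exp_sub, le_div_iff₀ (Real.exp_pos _)]
  exact h1

lemma sum_nu_filter_le_one {M : ℕ} (hM : 0 < M) (q : ℕ → Prop) [DecidablePred q] :
    ∑ b ∈ M.divisors with q b, nu M b ≤ 1 := by
  rw [← sum_nu hM]
  exact Finset.sum_le_sum_of_subset_of_nonneg (Finset.filter_subset _ _)
    fun _ _ _ => nu_nonneg _ _

/-- `P(∑_{p ∣ b, p > y} 1/p > 1) ≤ exp (1 - y)` -/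
theorem tail_recip {M : ℕ} (hM : 0 < M) (y : ℕ) :
    ∑ b ∈ M.divisors with 1 < rec y b, nu M b ≤ Real.exp (1 - y) := by
  rcases Nat.lt_or_ge y 2 with hy | hy
  · refine (sum_nu_filter_le_one hM _).trans ?_
    have : (y : ℝ) ≤ 1 := by exact_mod_cast (by omega : y ≤ 1)
    exact Real.one_le_exp (by linarith)
  · have := tail_rec hM hy 1
    rwa [one_mul] at this

/-- deletion of the bad words: `y = ⌈2 log L⌉` costs at most `e / L²` -/
theorem tail_log {M : ℕ} (hM : 0 < M) {L : ℝ} (hL : 0 < L) {y : ℕ} (hy : 2 * Real.log L ≤ y) :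
    ∑ b ∈ M.divisors with 1 < rec y b, nu M b ≤ Real.exp 1 / L ^ 2 := by
  refine (tail_recip hM y).trans ?_
  calc Real.exp (1 - y) ≤ Real.exp (1 - 2 * Real.log L) := Real.exp_le_exp.2 (by linarith)
    _ = Real.exp 1 / L ^ 2 := by
      rw [Real.exp_sub]
      congr 1
      rw [two_mul, Real.exp_add, Real.exp_log hL]
      ring

/-- on good words the anatomy weight `∏ (1 + Λ/p)` is at most `exp Λ` -/
lemma anatomy_le {Λ : ℝ} (hΛ : 0 ≤ Λ) {y b : ℕ} (h : rec y b ≤ 1) :
    ∏ p ∈ b.primeFactors with y < p, (1 + Λ / (p : ℝ)) ≤ Real.exp Λ := by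
  have h1 : ∏ p ∈ b.primeFactors with y < p, (1 + Λ / (p : ℝ)) ≤
      Real.exp (∑ p ∈ b.primeFactors with y < p, Λ / (p : ℝ)) := by
    rw [Real.exp_sum]
    refine Finset.prod_le_prod (fun p _ => by positivity) fun p _ => ?_
    rw [add_comm]
    exact Real.add_one_le_exp _
  refine h1.trans (Real.exp_le_exp.2 ?_)
  have e : ∑ p ∈ b.primeFactors with y < p, Λ / (p : ℝ) = Λ * rec y b := by
    unfold rec
    rw [Finset.mul_sum]
    exact Finset.sum_congr rfl fun p _ => by ring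
  rw [e]
  nlinarith

/-- moments of the anatomy weight: `E ∏_{p ∣ b, p > y} (1 + Λ/p) ≤ exp (Λ / (2y))` -/
theorem Ex_anatomy_le {M y : ℕ} (hM : 0 < M) (hy : 2 ≤ y) {Λ : ℝ} (hΛ : 0 ≤ Λ) :
    Ex M (fun b => ∏ p ∈ b.primeFactors with y < p, (1 + Λ / (p : ℝ))) ≤
      Real.exp (Λ / (2 * y)) := by
  refine (Ex_prod_one_add_le hM (fun p => y < p) (c := fun p => Λ / (p : ℝ))
    (fun p => by positivity)).trans (Real.exp_le_exp.2 ?_)
  have e : ∑ p ∈ M.primeFactors with y < p, Λ / (p : ℝ) / (p : ℝ) =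
      Λ * ∑ p ∈ M.primeFactors with y < p, 1 / (p : ℝ) ^ 2 := by
    rw [Finset.mul_sum]
    refine Finset.sum_congr rfl fun p _ => ?_
    rw [div_div, ← sq]
    ring
  rw [e]
  have h2 := sum_inv_sq_le hy (M.primeFactors.filter (fun p => y < p)) (fun p hp => by
    rw [Finset.mem_filter] at hp
    exact ⟨Nat.prime_of_mem_primeFactors hp.1, hp.2⟩)
  calc Λ * ∑ p ∈ M.primeFactors with y < p, 1 / (p : ℝ) ^ 2 ≤ Λ * (1 / (2 * (y : ℝ))) :=
        mul_le_mul_of_nonneg_left h2 hΛ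
    _ = Λ / (2 * y) := by ring

end Crest.Agent.R4C.Lawx69
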