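import Crest.Agent.R4C.GWdef_982
import Crest.Agent.R4C.Law_69

/-!
# Row 4, GW section, leaf (F1) of helper982's skeleton (helper863)

Combinatorics of the nodes and zones of a prefix world (`GWdef_982`):
`nd_congr`, `first_congr`, `lab_nested`, the data of two words of one node agree (`S_nd`, `S_lab`,
`S_prev`, `S_light`, `S_birth`, `S_bi`, `S_zone`), `mem_Nd`, `Nd_all`, `mem_zone`, `lamNd`,
`A_disj`, `A_sub`, `sum_S_le`, `g_pos`.
-/

set_option autoImplicit false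

open Finset
open Crest.Agent.R4C.Basex935 Crest.Agent.R4C.Cutx50 Crest.Agent.R4C.PrefixMx882
open Crest.Agent.R4C.Cellx863 (Nc mesh Qe Q1 Qe_dvd)
open Crest.Agent.R4C.NHx656 (On)
open Crest.Agent.R4C.GWdefx982

namespace Crest.Agent.R4C.GWnodex863

lemma fg_congr {P Q : ℕ → Prop} [DecidablePred P] [DecidablePred Q] {n : ℕ}
    (h : ∀ i ≤ n, (P i ↔ Q i)) : Nat.findGreatest P n = Nat.findGreatest Q n := by
  rw [Nat.findGreatest_eq_iff]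
  have h2 := (Nat.findGreatest_eq_iff (P := Q) (k := n) (m := Nat.findGreatest Q n)).1 rfl
  refine ⟨h2.1, fun h3 => (h _ h2.1).2 (h2.2.1 h3), fun m hm hmn hP => ?_⟩
  exact h2.2.2 hm hmn ((h m hmn).1 hP)

variable {Z : World}

/-! ### words with a common prefix -/

lemma low_congr (h : Z.Ok) {i i' w w' : ℕ} (hi : i ≤ i')
    (hl : low (Z.cut i') w = low (Z.cut i') w') : low (Z.cut i) w = low (Z.cut i) w' := by
  rw [← low_low (h.hcut hi) w, hl, low_low (h.hcut hi) w']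

lemma e_congr {i w w' : ℕ} (hl : low (Z.cut i) w = low (Z.cut i) w') : Z.e i w = Z.e i w' := by
  unfold World.e; rw [hl]

lemma nd_congr' {i w w' : ℕ} (hl : low (Z.cut i) w = low (Z.cut i) w') :
    Z.nd i w ↔ Z.nd i w' := by
  unfold World.nd; rw [e_congr hl]

/-- (F1) -/
lemma nd_congr (h : Z.Ok) {i i' w w' : ℕ} (hi : i ≤ i')
    (hl : low (Z.cut i') w = low (Z.cut i') w') : Z.nd i w ↔ Z.nd i w' :=
  nd_congr' (low_congr h hi hl)

lemma e_pos (h : Z.Ok) (i w : ℕ) : 0 < Z.e i w := Nat.mul_pos h.hG (low_pos _ _)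

lemma e_dvd (h : Z.Ok) {i i' : ℕ} (hi : i ≤ i') (w : ℕ) : Z.e i w ∣ Z.e i' w := by
  unfold World.e
  refine Nat.mul_dvd_mul_left _ ?_
  rw [← low_low (h.hcut hi) w]
  exact low_dvd_self _ _

lemma e_le (h : Z.Ok) {i i' : ℕ} (hi : i ≤ i') (w : ℕ) : Z.e i w ≤ Z.e i' w :=
  Nat.le_of_dvd (e_pos h _ _) (e_dvd h hi w)

lemma four_le (h : Z.Ok) {i w : ℕ} (hn : Z.nd i w) : 4 * Z.L ≤ Z.e i w := by
  have h1 : (8 : ℝ) ≤ 2 ^ i := by
    calc (8 : ℝ) = 2 ^ 3 := by norm_num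
      _ ≤ 2 ^ i := pow_le_pow_right₀ (by norm_num) (h.hi0.trans hn.1)
  have h2 := hn.2.1
  have h3 := h.hL
  nlinarith

lemma nd_le_top (h : Z.Ok) {i w : ℕ} (hw : w ∣ Z.N) (hn : Z.nd i w) : i ≤ Z.top := by
  have hw0 : 0 < w := Nat.pos_of_dvd_of_pos hw h.hN
  have h1 : Z.e i w ≤ Z.G0 * Z.N := by
    unfold World.e
    exact Nat.mul_le_mul_left _ ((Nat.le_of_dvd hw0 (low_dvd_self _ _)).trans
      (Nat.le_of_dvd h.hN hw))
  have h2 : (Z.e i w : ℝ) ≤ ((Z.G0 * Z.N : ℕ) : ℝ) := by exact_mod_cast h1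
  have h3 : (2 : ℝ) ^ i * Z.L < 2 ^ (Z.top + 1) * Z.L := (hn.2.1.trans h2).trans_lt h.htop
  have h4 := (pow_lt_pow_iff_right₀ (by norm_num : (1 : ℝ) < 2)).1
    (lt_of_mul_lt_mul_right h3 h.hL.le)
  omega

/-- at most one node index for a given value of `e` -/
lemma nd_idx_unique (h : Z.Ok) {i j w w' : ℕ} (hi : Z.nd i w) (hj : Z.nd j w')
    (he : Z.e i w = Z.e j w') : i = j := by
  have h1 := hi.2.1.trans_lt (he ▸ hj.2.2)
  have h2 := hj.2.1.trans_lt (he ▸ hi.2.2)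
  have c1 := (pow_lt_pow_iff_right₀ (by norm_num : (1 : ℝ) < 2)).1
    (lt_of_mul_lt_mul_right h1 h.hL.le)
  have c2 := (pow_lt_pow_iff_right₀ (by norm_num : (1 : ℝ) < 2)).1
    (lt_of_mul_lt_mul_right h2 h.hL.le)
  omega

/-! ### the first node -/

lemma first_spec {w : ℕ} (hex : ∃ i, Z.nd i w) :
    Z.nd (Z.first w) w ∧ ∀ j, Z.nd j w → Z.first w ≤ j := by
  classical
  unfold World.first
  rw [dif_pos hex]
  exact ⟨Nat.find_spec hex, fun j hj => Nat.find_min' hex hj⟩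

lemma first_congr (h : Z.Ok) {i w w' : ℕ} (hn : Z.nd i w)
    (hl : low (Z.cut i) w = low (Z.cut i) w') : Z.first w = Z.first w' := by
  have hn' : Z.nd i w' := (nd_congr' hl).1 hn
  obtain ⟨a1, a2⟩ := first_spec ⟨i, hn⟩
  obtain ⟨b1, b2⟩ := first_spec ⟨i, hn'⟩
  have c1 : Z.first w ≤ i := a2 i hn
  have c2 : Z.first w' ≤ i := b2 i hn'
  have d1 := b2 _ ((nd_congr h c1 hl).1 a1)
  have d2 := a2 _ ((nd_congr h c2 hl).2 b1)
  omega

lemma e1_congr (h : Z.Ok) {i w w' : ℕ} (hn : Z.nd i w)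
    (hl : low (Z.cut i) w = low (Z.cut i) w') : Z.e1 w = Z.e1 w' := by
  unfold World.e1
  rw [← first_congr h hn hl]
  exact e_congr (low_congr h ((first_spec ⟨i, hn⟩).2 i hn) hl)

lemma e1_dvd (h : Z.Ok) {i w : ℕ} (hn : Z.nd i w) : Z.e1 w ∣ Z.e i w :=
  e_dvd h ((first_spec ⟨i, hn⟩).2 i hn) w

lemma e1_four (h : Z.Ok) {i w : ℕ} (hn : Z.nd i w) : 4 * Z.L ≤ Z.e1 w :=
  four_le h (first_spec ⟨i, hn⟩).1

lemma Q_congr (h : Z.Ok) {i w w' : ℕ} (hn : Z.nd i w)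
    (hl : low (Z.cut i) w = low (Z.cut i) w') : Z.Q i w = Z.Q i w' := by
  unfold World.Q
  rw [e1_congr h hn hl, e_congr hl]

lemma Q_dvd (h : Z.Ok) {i i' w : ℕ} (hn : Z.nd i w) (hi : i ≤ i') : Z.Q i w ∣ Z.Q i' w :=
  Qe_dvd (e1_dvd h hn) (e_dvd h hi w)

/-! ### labels -/

lemma lab_fst (i w : ℕ) : (Z.lab i w).1 = i := rfl
lemma lab_low (i w : ℕ) : (Z.lab i w).2.1 = low (Z.cut i) w := rfl

lemma low_of_lab {i w w' : ℕ} (hl : Z.lab i w = Z.lab i w') :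
    low (Z.cut i) w = low (Z.cut i) w' := congrArg (fun ν : Node => ν.2.1) hl

/-- (F1) nested labels -/
theorem lab_nested (h : Z.Ok) {i i' w w' : ℕ} (hn : Z.nd i w) (hn' : Z.nd i' w) (hi : i ≤ i')
    (hl : Z.lab i' w = Z.lab i' w') : Z.lab i w = Z.lab i w' := by
  have hlow' := low_of_lab hl
  have hlow := low_congr h hi hlow'
  have hc : Z.cel w % (Z.Q i' w : ℤ) = Z.cel w' % (Z.Q i' w' : ℤ) :=
    congrArg (fun ν : Node => ν.2.2) hl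
  rw [← Q_congr h hn' hlow'] at hc
  have hc2 : Z.cel w ≡ Z.cel w' [ZMOD (Z.Q i' w : ℤ)] := hc
  have hc3 : Z.cel w ≡ Z.cel w' [ZMOD (Z.Q i w : ℤ)] :=
    hc2.of_dvd (by exact_mod_cast Q_dvd h hn hi)
  unfold World.lab
  rw [hlow, ← Q_congr h hn hlow]
  exact Prod.ext rfl (Prod.ext rfl hc3)

lemma mem_S (h : Z.Ok) {ν : Node} {w : ℕ} :
    w ∈ Z.S ν ↔ w ∣ Z.N ∧ Z.nd ν.1 w ∧ Z.lab ν.1 w = ν := by
  classical
  unfold World.S
  rw [mem_filter, Nat.mem_divisors]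
  have := h.hN.ne'
  tauto

lemma mem_S_lab (h : Z.Ok) {i w : ℕ} (hw : w ∣ Z.N) (hn : Z.nd i w) : w ∈ Z.S (Z.lab i w) :=
  (mem_S h).2 ⟨hw, hn, rfl⟩

section same

variable (h : Z.Ok) {ν : Node} {w w' : ℕ} (hw : w ∈ Z.S ν) (hw' : w' ∈ Z.S ν)
include h hw hw'

lemma S_low_self : low (Z.cut ν.1) w = low (Z.cut ν.1) w' :=
  low_of_lab (((mem_S h).1 hw).2.2.trans ((mem_S h).1 hw').2.2.symm)

lemma S_low {j : ℕ} (hj : j ≤ ν.1) : low (Z.cut j) w = low (Z.cut j) w' :=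
  low_congr h hj (S_low_self h hw hw')

lemma S_e {j : ℕ} (hj : j ≤ ν.1) : Z.e j w = Z.e j w' := e_congr (S_low h hw hw' hj)

lemma S_tt {j : ℕ} (hj : j ≤ ν.1) : Z.tt j w = Z.tt j w' := by
  unfold World.tt; rw [S_e h hw hw' hj]

lemma S_nd {j : ℕ} (hj : j ≤ ν.1) : Z.nd j w ↔ Z.nd j w' := nd_congr' (S_low h hw hw' hj)

lemma S_first : Z.first w = Z.first w' :=
  first_congr h ((mem_S h).1 hw).2.1 (S_low_self h hw hw')

lemma S_e1 : Z.e1 w = Z.e1 w' := e1_congr h ((mem_S h).1 hw).2.1 (S_low_self h hw hw')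

lemma S_lab {j : ℕ} (hj : j ≤ ν.1) (hn : Z.nd j w) : Z.lab j w = Z.lab j w' :=
  lab_nested h hn ((mem_S h).1 hw).2.1 hj
    (((mem_S h).1 hw).2.2.trans ((mem_S h).1 hw').2.2.symm)

lemma S_hasPrev {j : ℕ} (hj : j ≤ ν.1) : Z.hasPrev j w ↔ Z.hasPrev j w' := by
  unfold World.hasPrev
  constructor
  · rintro ⟨i', h1, h2⟩
    exact ⟨i', h1, (S_nd h hw hw' (by omega)).1 h2⟩
  · rintro ⟨i', h1, h2⟩
    exact ⟨i', h1, (S_nd h hw hw' (by omega)).2 h2⟩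

lemma S_prev {j : ℕ} (hj : j ≤ ν.1) : Z.prev j w = Z.prev j w' := by
  classical
  unfold World.prev
  refine fg_congr fun i hi => ?_
  rw [S_nd h hw hw' (hi.trans hj)]

lemma S_light {j : ℕ} (hj : j ≤ ν.1) : Z.light j w ↔ Z.light j w' := by
  unfold World.light
  by_cases hn : Z.nd j w
  · rw [S_lab h hw hw' hj hn, S_prev h hw hw' hj]
  · have key : ∀ u, ¬ Z.nd j u → ¬ ∃ w'' ∈ Z.S (Z.lab j u),
        On (Z.θ (Z.prev j u)) (Z.yy j w'') (Z.tt j w'') := by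
      rintro u hu ⟨w'', h1, _⟩
      obtain ⟨_, h2, h3⟩ := (mem_S h).1 h1
      exact hu ((nd_congr' (low_of_lab h3)).1 h2)
    have h1 := key w hn
    have h2 := key w' fun hc => hn ((S_nd h hw hw' hj).2 hc)
    exact iff_of_false h1 h2

lemma S_birth {j : ℕ} (hj : j ≤ ν.1) : Z.birth j w ↔ Z.birth j w' := by
  unfold World.birth
  rw [S_nd h hw hw' hj, S_hasPrev h hw hw' hj, S_light h hw hw' hj]

lemma S_bi {j : ℕ} (hj : j ≤ ν.1) : Z.bi j w = Z.bi j w' := by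
  classical
  unfold World.bi
  exact fg_congr fun i hi => S_birth h hw hw' (hi.trans hj)

end same

/-! ### births -/

lemma birth_first {w : ℕ} (hex : ∃ i, Z.nd i w) : Z.birth (Z.first w) w := by
  obtain ⟨a1, a2⟩ := first_spec hex
  refine ⟨a1, fun hc => ?_⟩
  obtain ⟨i', h1, h2⟩ := hc.1
  have := a2 i' h2
  omega

lemma bi_le (j w : ℕ) : Z.bi j w ≤ j := by
  classical
  unfold World.bi
  exact Nat.findGreatest_le _

lemma birth_bi {j w : ℕ} (hn : Z.nd j w) : Z.birth (Z.bi j w) w := by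
  classical
  unfold World.bi
  exact Nat.findGreatest_spec (P := fun i' => Z.birth i' w) ((first_spec ⟨j, hn⟩).2 j hn)
    (birth_first ⟨j, hn⟩)

lemma bi_of_birth {j w : ℕ} (hb : Z.birth j w) : Z.bi j w = j := by
  classical
  unfold World.bi
  exact Nat.findGreatest_eq hb

lemma le_bi {i j w : ℕ} (hij : i ≤ j) (hb : Z.birth i w) : i ≤ Z.bi j w := by
  classical
  unfold World.bi
  exact Nat.le_findGreatest hij hb

/-- no birth strictly between the last birth and the node -/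
lemma not_birth_of_bi_lt {i j w : ℕ} (h1 : Z.bi j w < i) (h2 : i ≤ j) : ¬ Z.birth i w := by
  intro hb
  have := le_bi h2 hb
  omega

lemma zone_of_birth {j w : ℕ} (hb : Z.birth j w) : Z.zone j w = Z.lab j w := by
  unfold World.zone
  rw [bi_of_birth hb]

lemma zone_fst (j w : ℕ) : (Z.zone j w).1 = Z.bi j w := rfl

lemma S_zone (h : Z.Ok) {ν : Node} {w w' : ℕ} (hw : w ∈ Z.S ν) (hw' : w' ∈ Z.S ν) {j : ℕ}
    (hj : j ≤ ν.1) (hn : Z.nd j w) : Z.zone j w = Z.zone j w' := by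
  unfold World.zone
  rw [← S_bi h hw hw' hj]
  exact S_lab h hw hw' ((bi_le j w).trans hj) (birth_bi hn).1

/-! ### zones -/

/-- (F1) nodes of a zone -/
theorem mem_Nd (h : Z.Ok) {z ν : Node} :
    ν ∈ Z.Nd z ↔ ∃ w, w ∣ Z.N ∧ Z.nd ν.1 w ∧ Z.lab ν.1 w = ν ∧ Z.zone ν.1 w = z := by
  classical
  unfold World.Nd
  rw [mem_image]
  constructor
  · rintro ⟨⟨i, w⟩, hx, rfl⟩
    rw [mem_filter, mem_product, Nat.mem_divisors] at hx
    exact ⟨w, hx.1.2.1, hx.2.1, rfl, hx.2.2⟩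
  · rintro ⟨w, h1, h2, h3, h4⟩
    refine ⟨(ν.1, w), ?_, h3⟩
    rw [mem_filter, mem_product, Nat.mem_divisors, mem_range]
    exact ⟨⟨Nat.lt_succ_of_le (nd_le_top h h1 h2), h1, h.hN.ne'⟩, h2, h4⟩

lemma mem_Nd_S (h : Z.Ok) {z ν : Node} : ν ∈ Z.Nd z ↔ ∃ w ∈ Z.S ν, Z.zone ν.1 w = z := by
  rw [mem_Nd h]
  constructor
  · rintro ⟨w, h1, h2, h3, h4⟩
    exact ⟨w, (mem_S h).2 ⟨h1, h2, h3⟩, h4⟩
  · rintro ⟨w, h1, h4⟩
    obtain ⟨a, b, c⟩ := (mem_S h).1 h1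
    exact ⟨w, a, b, c, h4⟩

/-- (F1) all words of a node lie in the zone of the node -/
theorem Nd_all (h : Z.Ok) {z ν : Node} (hν : ν ∈ Z.Nd z) {w : ℕ} (hw : w ∈ Z.S ν) :
    Z.zone ν.1 w = z ∧ w ∈ Z.S z ∧ z.1 ≤ ν.1 ∧ Z.birth z.1 w ∧ Z.bi ν.1 w = z.1 := by
  obtain ⟨w', hw', hz⟩ := (mem_Nd_S h).1 hν
  obtain ⟨h1, h2, h3⟩ := (mem_S h).1 hw
  have e1 : Z.zone ν.1 w = z := (S_zone h hw hw' le_rfl h2).trans hz
  have e2 : Z.bi ν.1 w = z.1 := by rw [← e1]; rfl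
  have hb := birth_bi h2
  rw [e2] at hb
  refine ⟨e1, ?_, ?_, hb, e2⟩
  · refine (mem_S h).2 ⟨h1, hb.1, ?_⟩
    have := e1
    unfold World.zone at this
    rwa [e2] at this
  · rw [← e2]; exact bi_le _ _

lemma mem_Nd_zone (h : Z.Ok) {i w : ℕ} (hw : w ∣ Z.N) (hn : Z.nd i w) :
    Z.lab i w ∈ Z.Nd (Z.zone i w) := (mem_Nd h).2 ⟨w, hw, hn, rfl, rfl⟩

lemma mem_Zs (h : Z.Ok) {z : Node} :
    z ∈ Z.Zs ↔ ∃ w, w ∣ Z.N ∧ Z.birth z.1 w ∧ Z.lab z.1 w = z := by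
  classical
  unfold World.Zs
  rw [mem_image]
  constructor
  · rintro ⟨⟨i, w⟩, hx, rfl⟩
    rw [mem_filter, mem_product, Nat.mem_divisors] at hx
    exact ⟨w, hx.1.2.1, hx.2, rfl⟩
  · rintro ⟨w, h1, h2, h3⟩
    refine ⟨(z.1, w), ?_, h3⟩
    rw [mem_filter, mem_product, Nat.mem_divisors, mem_range]
    exact ⟨⟨Nat.lt_succ_of_le (nd_le_top h h1 h2.1), h1, h.hN.ne'⟩, h2⟩

lemma zone_mem_Zs (h : Z.Ok) {i w : ℕ} (hw : w ∣ Z.N) (hn : Z.nd i w) : Z.zone i w ∈ Z.Zs :=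
  (mem_Zs h).2 ⟨w, hw, birth_bi hn, rfl⟩

/-- (F1) the words of a zone -/
theorem mem_zone (h : Z.Ok) {z : Node} {w : ℕ} :
    w ∈ Z.zd.zone z ↔ w ∣ Z.N ∧ Z.birth z.1 w ∧ Z.lab z.1 w = z := by
  show w ∈ (Z.Nd z).biUnion Z.S ↔ _
  rw [mem_biUnion]
  constructor
  · rintro ⟨ν, hν, hw⟩
    obtain ⟨_, h2, _, h4, _⟩ := Nd_all h hν hw
    obtain ⟨a, _, c⟩ := (mem_S h).1 h2
    exact ⟨a, h4, c⟩
  · rintro ⟨h1, h2, h3⟩
    refine ⟨z, ?_, (mem_S h).2 ⟨h1, h2.1, h3⟩⟩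
    exact (mem_Nd h).2 ⟨w, h1, h2.1, h3, (zone_of_birth h2).trans h3⟩

/-- (F1) laminarity -/
theorem lamNd (h : Z.Ok) (z : Node) : GWzonex9.Lam (Z.Nd z) Z.S (fun ν => ν.1) where
  lam := by
    intro ν hν ν' hν' hr hd w' hw'
    rw [not_disjoint_iff] at hd
    obtain ⟨w, hw, hw2⟩ := hd
    obtain ⟨a1, a2, a3⟩ := (mem_S h).1 hw
    obtain ⟨b1, b2, b3⟩ := (mem_S h).1 hw'
    refine (mem_S h).2 ⟨b1, (S_nd h hw2 hw' hr).1 a2, ?_⟩
    rw [← S_lab h hw2 hw' hr a2, a3]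
  inj := by
    intro ν hν ν' hν' hne hr
    have hr' : ν.1 = ν'.1 := hr
    rw [disjoint_left]
    intro w hw hw'
    have h1 := ((mem_S h).1 hw).2.2
    have h2 := ((mem_S h).1 hw').2.2
    rw [← hr'] at h2
    exact hne (h1.symm.trans h2)

lemma A_sub (z ν : Node) : Z.A z ν ⊆ Z.S ν := by
  classical
  unfold World.A
  exact sdiff_subset

/-- (F1) disjointness of the leavers -/
theorem A_disj (h : Z.Ok) (z : Node) : ∀ ν ∈ Z.Nd z, ∀ ν' ∈ Z.Nd z, ν ≠ ν' →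
    Disjoint (Z.A z ν) (Z.A z ν') := by
  classical
  intro ν hν ν' hν' hne
  rw [disjoint_left]
  intro w hw hw'
  have key : ∀ {a b : Node}, b ∈ Z.Nd z → w ∈ Z.A z a → w ∈ Z.A z b → ¬ a.1 < b.1 := by
    intro a b hb ha hb' hlt
    unfold World.A at ha
    rw [mem_sdiff] at ha
    refine ha.2 (mem_biUnion.2 ⟨b, mem_filter.2 ⟨hb, hlt⟩, A_sub z b hb'⟩)
  have h1 := key hν' hw hw'
  have h2 := key hν hw' hw
  exact disjoint_left.1 ((lamNd h z).inj ν hν ν' hν' hne (by show ν.1 = ν'.1; omega))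
    (A_sub z ν hw) (A_sub z ν' hw')

/-- (F1) mass of a node -/
theorem sum_S_le (h : Z.Ok) (ν : Node) : ∑ w ∈ Z.S ν, nu Z.N w ≤ Z.g ν := by
  classical
  rcases (Z.S ν).eq_empty_or_nonempty with he | ⟨w0, hw0⟩
  · rw [he, sum_empty]; exact nu_nonneg _ _
  · obtain ⟨a1, a2, a3⟩ := (mem_S h).1 hw0
    have hd : ν.2.1 ∣ low (Z.cut ν.1) Z.N := by
      rw [← a3]
      exact low_dvd _ h.hN.ne' a1
    have hsub : Z.S ν ⊆ Z.N.divisors.filter fun w => low (Z.cut ν.1) w = ν.2.1 := by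
      intro w hw
      obtain ⟨b1, b2, b3⟩ := (mem_S h).1 hw
      rw [mem_filter, Nat.mem_divisors]
      refine ⟨⟨b1, h.hN.ne'⟩, ?_⟩
      rw [← b3]; rfl
    refine (sum_le_sum_of_subset_of_nonneg hsub fun w _ _ => nu_nonneg _ _).trans ?_
    exact (Lawx69.prob_part_eq (fun p => p ≤ Z.cut ν.1) h.hN hd).le

lemma g_pos_of_S (h : Z.Ok) {ν : Node} {w : ℕ} (hw : w ∈ Z.S ν) : 0 < Z.g ν := by
  obtain ⟨a1, a2, a3⟩ := (mem_S h).1 hw
  unfold World.g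
  refine nu_pos (low_pos _ _) ?_
  rw [← a3]
  exact low_dvd _ h.hN.ne' a1

lemma g_pos (h : Z.Ok) {z ν : Node} (hν : ν ∈ Z.Nd z) : 0 < Z.g ν := by
  obtain ⟨w, hw, _⟩ := (mem_Nd_S h).1 hν
  exact g_pos_of_S h hw

/-! ### zones of one word -/

/-- the zones of a word are the labels of its births -/
lemma zones_of_word (h : Z.Ok) {w : ℕ} (hw : w ∣ Z.N) {z : Node} :
    w ∈ Z.zd.zone z ↔ ∃ i, Z.birth i w ∧ z = Z.lab i w := by
  rw [mem_zone h]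
  constructor
  · rintro ⟨_, h2, h3⟩
    exact ⟨z.1, h2, h3.symm⟩
  · rintro ⟨i, h2, rfl⟩
    exact ⟨hw, h2, rfl⟩

/-- a node of the word `w` with index in `[i, j]`, no birth in `(i, j]`, `i` a birth, lies in the
zone `lab i w` -/
lemma zone_eq_lab {i j w : ℕ} (hb : Z.birth i w) (hij : i ≤ j)
    (hno : ∀ k, i < k → k ≤ j → ¬ Z.birth k w) : Z.zone j w = Z.lab i w := by
  have h1 : Z.bi j w = i := by
    have h2 := le_bi hij hb
    rcases Nat.eq_or_lt_of_le h2 with h3 | h3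
    · exact h3.symm
    · exfalso
      refine hno _ h3 (bi_le j w) ?_
      classical
      unfold World.bi
      exact Nat.findGreatest_spec (P := fun i' => Z.birth i' w) hij hb
  unfold World.zone
  rw [h1]

/-- not a leaver: there is a later node of the same zone containing the word -/
lemma exists_later (h : Z.Ok) {z ν : Node} {w : ℕ} (hw : w ∈ Z.S ν) (hA : w ∉ Z.A z ν) :
    ∃ i', ν.1 < i' ∧ Z.nd i' w ∧ Z.lab i' w ∈ Z.Nd z ∧ Z.zone i' w = z := by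
  classical
  unfold World.A at hA
  rw [mem_sdiff, not_and, not_not] at hA
  have h1 := hA hw
  rw [mem_biUnion] at h1
  obtain ⟨ν', h2, h3⟩ := h1
  rw [mem_filter] at h2
  obtain ⟨b1, b2, b3⟩ := (mem_S h).1 h3
  refine ⟨ν'.1, h2.2, b2, ?_, (Nd_all h h2.1 h3).1⟩
  rw [b3]; exact h2.1

end Crest.Agent.R4C.GWnodex863
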