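import Crest.Agent.R4C.PureCls_863

/-!
# Row 4, GW section, vector case (V0): the high words form prefix worlds (helper863)

`Fy := hiFL hM y F : FL (upp y M)` (helper232's induced structure on the primes `> y`).

* `hlam`, `huu` : `Fy.lam x (upp y b) = F.lam (max y x) b`,
  `F.uu (max y x) b = low y b * Fy.uu x (upp y b)`.
* `hD_le` : `ell X b = 1`, `y ≤ X` ⟹ `D Fy (upp y b) ≤ X`.
* `high_pair` : pure good pair at the cut `X ≥ y`, equal letters on `(y, X]`, different high words
  ⟹ one class `H0` of `Fy`, prefix pair `w, w'`, `gcd (upp y b) (upp y c) = H0 * low X w`.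
* `nu_high`, `sum_high`, `lam_high`, `uu_high`.
-/

set_option autoImplicit false

open Finset
open Crest.Agent.R4C.Basex935 Crest.Agent.R4C.Cutx50 Crest.Agent.R4C.FLDefx935
open Crest.Agent.R4C.PureL2x232 Crest.Agent.R4C.PureClsx863

namespace Crest.Agent.R4C.HighFLx863

variable {M : ℕ} (hM : 0 < M) (F : FL M) {y x b c : ℕ}

lemma hctr (z q : ℕ) : (hiFL hM y F).ctr z q = if y < q then F.ctr z q else some 0 := rfl

lemma hctr_upp {q : ℕ} (hb : b ∣ M) (hq : q.Prime) (hy : y < q) :
    (hiFL hM y F).ctr (upp y b) q = F.ctr b q := by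
  rw [hctr, if_pos hy, ctr_upp F hb hq hy]

lemma mem_pf_upp {p : ℕ} (hy : y < p) :
    p ∈ (upp y M).primeFactors ↔ p ∈ M.primeFactors := by
  rw [← Nat.support_factorization, ← Nat.support_factorization, Finsupp.mem_support_iff,
    Finsupp.mem_support_iff, fact_upp, if_pos (by omega)]

/-- excess word -/
lemma hlam (hb : b ∣ M) : (hiFL hM y F).lam x (upp y b) = F.lam (max y x) b := by
  have hup : 0 < upp y M := upp_pos _ _
  refine Nat.eq_of_factorization_eq (FL.lam_pos _ _).ne' (FL.lam_pos _ _).ne' fun p => ?_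
  rw [FL.fact_lam hup (upp_dvd y hM.ne' hb), FL.fact_lam hM hb]
  by_cases hpp : p.Prime
  · by_cases hy : y < p
    · by_cases hpm : p ∈ M.primeFactors
      · rw [if_pos ((mem_pf_upp hy).2 hpm), if_pos hpm]
        unfold FL.lamE
        have hf : (upp y b).factorization p = b.factorization p := by
          rw [fact_upp, if_pos (by omega)]
        rw [hctr_upp hM F hb hpp hy, hf]
        by_cases hx : x < p
        · rw [if_pos hx, if_pos (max_lt hy hx)]
        · rw [if_neg hx, if_neg (fun h => hx (lt_of_le_of_lt (le_max_right _ _) h))]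
      · rw [if_neg (fun h => hpm ((mem_pf_upp hy).1 h)), if_neg hpm]
    · have h1 : p ∉ (upp y M).primeFactors := by
        rw [← Nat.support_factorization, Finsupp.mem_support_iff, fact_upp, if_neg (by omega)]
        simp
      rw [if_neg h1]
      unfold FL.lamE
      rw [if_neg (fun h => hy (lt_of_le_of_lt (le_max_left y x) h))]
      simp
  · rw [if_neg (fun h => hpp (Nat.prime_of_mem_primeFactors h)),
      if_neg (fun h => hpp (Nat.prime_of_mem_primeFactors h))]

/-- `uu` -/
lemma huu (hb : b ∣ M) :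
    F.uu (max y x) b = low y b * (hiFL hM y F).uu x (upp y b) := by
  have hup : 0 < upp y M := upp_pos _ _
  have hb0 : b ≠ 0 := (Nat.pos_of_dvd_of_pos hb hM).ne'
  have h1 := FL.uu_mul_lam (F := F) (x := max y x) hM hb
  have h2 := FL.uu_mul_lam (F := hiFL hM y F) (x := x) hup (upp_dvd y hM.ne' hb)
  rw [hlam hM F hb] at h2
  have h3 := low_mul_upp y hb0
  have h4 : 0 < F.lam (max y x) b := FL.lam_pos _ _
  have h5 : F.uu (max y x) b * F.lam (max y x) b =
      low y b * (hiFL hM y F).uu x (upp y b) * F.lam (max y x) b := by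
    rw [h1, mul_assoc, h2, h3]
  exact Nat.eq_of_mul_eq_mul_right h4 h5

lemma hlam' (hb : b ∣ M) (hy : y ≤ x) : (hiFL hM y F).lam x (upp y b) = F.lam x b := by
  rw [hlam hM F hb, max_eq_right hy]

lemma huu' (hb : b ∣ M) (hy : y ≤ x) :
    F.uu x b = low y b * (hiFL hM y F).uu x (upp y b) := by
  have h := huu hM F (x := x) (y := y) hb
  rwa [max_eq_right hy] at h

/-- deficits of the high word -/
lemma hdfc {p : ℕ} (hb : b ∣ M) (hp : p.Prime) :
    dfc (hiFL hM y F) (upp y b) p ↔ y < p ∧ dfc F b p := by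
  unfold dfc
  by_cases hy : y < p
  · rw [hctr_upp hM F hb hp hy, fact_upp, if_pos (by omega)]
    simp [hy]
  · rw [hctr, if_neg hy]
    simp only [hy, false_and, iff_false]
    rintro ⟨v, h1, h2⟩
    have h3 : (0 : ℕ) = v := Option.some.inj h1
    omega

/-- no deficit above `X` -/
lemma hD_le {X : ℕ} (hb : b ∣ M) (hX : y ≤ X) (hell : F.ell X b = 1) :
    D (hiFL hM y F) (upp y b) ≤ X := by
  classical
  unfold D
  refine Finset.sup_le fun p hp => ?_
  rw [mem_filter] at hp
  have hpp := Nat.prime_of_mem_primeFactors hp.1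
  obtain ⟨_, v, h1, h2⟩ := (hdfc hM F hb hpp).1 hp.2
  by_contra hc
  have h3 := FL.dvd_ell (F := F) hM hb hpp (not_le.1 hc) h1 h2
  rw [hell] at h3
  exact hpp.one_lt.ne' (Nat.dvd_one.1 h3)

/-- the class and the word of the high part -/
noncomputable def H0 (y b : ℕ) : ℕ := core (hiFL hM y F) (upp y b)
/-- the word of the high part -/
noncomputable def hw (y b : ℕ) : ℕ := wd (hiFL hM y F) (upp y b)

lemma H0_mem (hb : b ∣ M) : H0 hM F y b ∈ cores (hiFL hM y F) :=
  core_mem (upp_pos _ _) (upp_dvd y hM.ne' hb)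

lemma hw_dvd (hb : b ∣ M) : hw hM F y b ∣ PM (hiFL hM y F) (H0 hM F y b) :=
  wd_dvd (upp_pos _ _) (upp_dvd y hM.ne' hb)

lemma H0_mul_hw (hb : b ∣ M) : H0 hM F y b * hw hM F y b = upp y b :=
  core_mul_wd (upp_pos _ _) (upp_dvd y hM.ne' hb)

lemma H0_pos (y b : ℕ) : 0 < H0 hM F y b := core_pos _
lemma hw_pos (y b : ℕ) : 0 < hw hM F y b := wd_pos _

lemma D_H0 (hb : b ∣ M) : D (hiFL hM y F) (H0 hM F y b) = D (hiFL hM y F) (upp y b) :=
  D_core (upp_pos _ _) (upp_dvd y hM.ne' hb)

/-- `b = low y b * (H0 * w)` -/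
lemma eq_mul (hb : b ∣ M) : low y b * (H0 hM F y b * hw hM F y b) = b := by
  have hb0 : b ≠ 0 := (Nat.pos_of_dvd_of_pos hb hM).ne'
  rw [H0_mul_hw hM F hb, low_mul_upp y hb0]

/-- excess word at the cuts `≥ y, D` -/
lemma lam_high {X : ℕ} (hb : b ∣ M) (hX : y ≤ X) (hD : D (hiFL hM y F) (H0 hM F y b) ≤ X) :
    F.lam X b = upp X (hw hM F y b) := by
  have h1 := lam_class (F := hiFL hM y F) (upp_pos _ _) (H0_mem hM F (y := y) hb)
    (hw_dvd hM F hb) X
  rw [lam_core_of_le (upp_pos _ _) (H0_mem hM F hb) hD, one_mul, H0_mul_hw hM F hb,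
    hlam' hM F hb hX] at h1
  exact h1

/-- `uu` at the cuts `≥ y, D` -/
lemma uu_high {X : ℕ} (hb : b ∣ M) (hX : y ≤ X) (hD : D (hiFL hM y F) (H0 hM F y b) ≤ X) :
    F.uu X b = low y b * (H0 hM F y b * low X (hw hM F y b)) := by
  have h1 := uu_class (F := hiFL hM y F) (upp_pos _ _) (H0_mem hM F (y := y) hb)
    (hw_dvd hM F hb) X
  rw [uu_core_of_le (upp_pos _ _) (H0_mem hM F hb) hD, H0_mul_hw hM F hb] at h1
  rw [huu' hM F hb hX, h1]

/-- natural law -/
lemma nu_high (hb : b ∣ M) :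
    nu M b = nu (low y M) (low y b) * (nu0 (hiFL hM y F) (H0 hM F y b) *
      nu (PM (hiFL hM y F) (H0 hM F y b)) (hw hM F y b)) := by
  have hb0 : b ≠ 0 := (Nat.pos_of_dvd_of_pos hb hM).ne'
  conv_lhs => rw [← low_mul_upp y hb0]
  rw [nu_low_upp hM (low_dvd y hM.ne' hb) (upp_dvd y hM.ne' hb)]
  congr 1
  conv_lhs => rw [← H0_mul_hw hM F hb]
  exact nu_class (upp_pos _ _) (H0_mem hM F hb) (hw_dvd hM F hb)

/-- sum over `b = u * (H * w)` -/
theorem sum_high (y : ℕ) (f : ℕ → ℝ) :
    ∑ b ∈ M.divisors, f b = ∑ H ∈ cores (hiFL hM y F), ∑ w ∈ (PM (hiFL hM y F) H).divisors,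
      ∑ u ∈ (low y M).divisors, f (u * (H * w)) := by
  rw [sum_low_upp hM y]
  exact sum_class (F := hiFL hM y F) (upp_pos _ _) (fun T => ∑ n ∈ (low y M).divisors, f (n * T))

/-- data of `u * (H * w)` -/
lemma mk_high {H w u : ℕ} (hH : H ∈ cores (hiFL hM y F)) (hw' : w ∣ PM (hiFL hM y F) H)
    (hu : u ∣ low y M) : u * (H * w) ∣ M ∧ low y (u * (H * w)) = u ∧
      upp y (u * (H * w)) = H * w ∧ H0 hM F y (u * (H * w)) = H ∧ hw hM F y (u * (H * w)) = w := by
  have h1 : H * w ∣ upp y M := mul_dvd (upp_pos _ _) hH hw'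
  have h2 : low y (u * (H * w)) = u := low_of_mul hu h1
  have h3 : upp y (u * (H * w)) = H * w := upp_of_mul hu h1
  refine ⟨?_, h2, h3, ?_, ?_⟩
  · rw [← low_mul_upp y hM.ne']
    exact Nat.mul_dvd_mul hu h1
  · unfold H0
    rw [h3]
    exact core_mul (upp_pos _ _) hH hw'
  · unfold hw
    rw [h3]
    exact wd_mul (upp_pos _ _) hH hw'

/-- letters of the word -/
lemma fact_hw (hb : b ∣ M) (p : ℕ) : (upp y b).factorization p =
    (H0 hM F y b).factorization p + (hw hM F y b).factorization p := by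
  rw [← H0_mul_hw hM F (y := y) hb, Nat.factorization_mul (H0_pos hM F y b).ne'
    (hw_pos hM F y b).ne', Finsupp.add_apply]

/-- **(V0)** a pure good pair at the cut `X`, equal letters on `(y, X]`, different high words -/
theorem high_pair {X : ℕ} (hy : y ≤ X) (hb : b ∣ M) (hc : c ∣ M) (hne : upp y b ≠ upp y c)
    (hg : F.good X b c)
    (hmid : ∀ q, q.Prime → y < q → q ≤ X → b.factorization q = c.factorization q)
    (h1 : F.ell X b = 1) (h2 : F.ell X c = 1) :
    H0 hM F y c = H0 hM F y b ∧ PP (hw hM F y b) (hw hM F y c) ∧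
      low X (hw hM F y b) = low X (hw hM F y c) ∧
      Nat.gcd (hw hM F y b) (hw hM F y c) = low X (hw hM F y b) ∧
      Nat.gcd (upp y b) (upp y c) = H0 hM F y b * low X (hw hM F y b) ∧
      D (hiFL hM y F) (H0 hM F y b) ≤ X := by
  have hpure : PureG (hiFL hM y F) (upp y b) (upp y c) :=
    pureG_upp hM F hy hb hc hne hg hmid h1 h2
  have hcore : H0 hM F y b = H0 hM F y c :=
    pureG_core (upp_pos _ _) (upp_dvd y hM.ne' hb) (upp_dvd y hM.ne' hc) hpure
  have hwc : hw hM F y c ∣ PM (hiFL hM y F) (H0 hM F y b) := by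
    rw [hcore]; exact hw_dvd hM F hc
  have hPP : PP (hw hM F y b) (hw hM F y c) := by
    rw [← pureG_iff (F := hiFL hM y F) (upp_pos _ _) (H0_mem hM F hb) (hw_dvd hM F hb) hwc,
      H0_mul_hw hM F hb]
    rw [show H0 hM F y b * hw hM F y c = upp y c by rw [hcore, H0_mul_hw hM F hc]]
    exact hpure
  have hD : D (hiFL hM y F) (H0 hM F y b) ≤ X := by
    rw [D_H0 hM F hb]; exact hD_le hM F hb hy h1
  -- letters `≤ X` agree
  have hle : ∀ q, q.Prime → q ≤ X →
      (hw hM F y b).factorization q = (hw hM F y c).factorization q := by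
    intro q hq hqX
    have e1 := fact_hw hM F (y := y) hb q
    have e2 := fact_hw hM F (y := y) hc q
    rw [← hcore] at e2
    have e3 : (upp y b).factorization q = (upp y c).factorization q := by
      rw [fact_upp, fact_upp]
      by_cases h : q ≤ y
      · simp [h]
      · rw [if_pos (by omega), if_pos (by omega)]
        exact hmid q hq (by omega) hqX
    omega
  -- above `X` the minimum is `0`
  have hgt : ∀ q, q.Prime → X < q →
      min ((hw hM F y b).factorization q) ((hw hM F y c).factorization q) = 0 := by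
    intro q hq hXq
    have hyq : y < q := by omega
    have e1 := fact_hw hM F (y := y) hb q
    have e2 := fact_hw hM F (y := y) hc q
    rw [← hcore] at e2
    rw [fact_upp, if_pos (by omega)] at e1 e2
    have hst : (hiFL hM y F).ctr (H0 hM F y b) q = F.ctr b q := by
      unfold H0
      rw [ctr_core (upp_pos _ _) (upp_dvd y hM.ne' hb) hq, hctr_upp hM F hb hq hyq]
    cases h3 : F.ctr b q with
    | none =>
      have h4 := fact_word (p := q) (hw_dvd hM F (y := y) hb)
      rw [fact_PM_none (hst.trans h3)] at h4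
      omega
    | some v =>
      have h4 := G_fact_some (upp_pos _ _) (H0_mem hM F (y := y) hb) hq
        (lt_of_le_of_lt hD hXq) (hst.trans h3)
      have h5 := hg.2 q hq hXq v h3
      omega
  have hlow : low X (hw hM F y b) = low X (hw hM F y c) := by
    refine eq_of_fact (low_pos _ _).ne' (low_pos _ _).ne' fun q hq => ?_
    rw [fact_low, fact_low]
    split_ifs with h
    · exact hle q hq h
    · rfl
  have hgcd : Nat.gcd (hw hM F y b) (hw hM F y c) = low X (hw hM F y b) := by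
    have hg0 : Nat.gcd (hw hM F y b) (hw hM F y c) ≠ 0 :=
      (Nat.gcd_pos_of_pos_left _ (hw_pos hM F y b)).ne'
    refine eq_of_fact hg0 (low_pos _ _).ne' fun q hq => ?_
    rw [Nat.factorization_gcd (hw_pos hM F y b).ne' (hw_pos hM F y c).ne', fact_low]
    show min _ _ = _
    split_ifs with h
    · rw [hle q hq h, min_self]
    · exact hgt q hq (not_le.1 h)
  refine ⟨hcore.symm, hPP, hlow, hgcd, ?_, hD⟩
  rw [← H0_mul_hw hM F (y := y) hb, ← H0_mul_hw hM F (y := y) hc, ← hcore, Nat.gcd_mul_left, hgcd]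

omit F in
include hM in
/-- gcd of the pair -/
lemma gcd_high (hb : b ∣ M) (hc : c ∣ M) : Nat.gcd b c =
    Nat.gcd (low y b) (low y c) * Nat.gcd (upp y b) (upp y c) := by
  have hb0 : b ≠ 0 := (Nat.pos_of_dvd_of_pos hb hM).ne'
  have hc0 : c ≠ 0 := (Nat.pos_of_dvd_of_pos hc hM).ne'
  have cop : ∀ {n T : ℕ}, n ∣ low y M → T ∣ upp y M → Nat.Coprime n T := fun hn hT =>
    coprime_of_dvd (fun p => p ≤ y) hn hT
  have h1 : Nat.Coprime (low y b) (upp y c) := cop (low_dvd y hM.ne' hb) (upp_dvd y hM.ne' hc)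
  have h2 : Nat.Coprime (low y c) (upp y b) := cop (low_dvd y hM.ne' hc) (upp_dvd y hM.ne' hb)
  have h4 : Nat.Coprime (low y c) (upp y c) := cop (low_dvd y hM.ne' hc) (upp_dvd y hM.ne' hc)
  calc Nat.gcd b c = Nat.gcd (low y b * upp y b) (low y c * upp y c) := by
        rw [low_mul_upp y hb0, low_mul_upp y hc0]
    _ = Nat.gcd (low y b * upp y b) (low y c) * Nat.gcd (low y b * upp y b) (upp y c) :=
        Nat.Coprime.gcd_mul _ h4
    _ = Nat.gcd (low y b) (low y c) * Nat.gcd (upp y b) (upp y c) := by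
        rw [Nat.Coprime.gcd_mul_right_cancel _ h2.symm, Nat.Coprime.gcd_mul_left_cancel _ h1]

end Crest.Agent.R4C.HighFLx863
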