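import Crest.Agent.R4C.F5b_20
import Crest.Agent.R4C.HighFL_863
import Crest.Agent.R4C.GWnode_863
import Crest.Agent.R4C.GWcell_284
import Crest.Agent.R4C.FamBud_252

/-!
# Row 4, GW section, vector case: nominal coins are actual coins (helper20)

`b = om * (G0 * w)` (`low` word `om ∣ low y M`, class `G0` of `hiFL hM y F`, word `w ∣ PM ..`),
world window `L' = P.L / V`, `V ≤ 2 om`, `om ≤ 2^(s-1) V`.

* `VB F X0 b om G0 w` : `F.lam X b = upp X w`, `F.uu X b = om * (G0 * low X w)` for `X ≥ X0`;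
* `nomC P δ s L' G0 w p` : nominal coin (`B`-free, shift `s`, the block of the next letter dropped);
* `Fc_none_of_nomC` : nominal coin and threshold `≤ q^δ` ⟹ no centre, no label;
* `thr_le_of_not_exc` : the threshold is `≤ q^δ` outside the heavy exceptions (no size factor);
* `VB.of_high` : the instance of `HighFL_863`; `VB.of_core` : the instance of `PureCls_863`.
-/

set_option autoImplicit false

namespace Crest.Agent.R4C.DictVx20

open Finset Crest.Agent.R4C.FLDefx935 Crest.Agent.R4C.Cutx50 Crest.Agent.R4C.Rulex945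
  Crest.Agent.R4C.NHx656 Crest.Agent.R4C.PureClsx863 Crest.Agent.R4C.DictAx20
  Crest.Agent.R4C.NodeMassRx634 Crest.Agent.R4C.NodeMassx634 Crest.Agent.R4C.F5bx20
open Crest.Agent.R4C.FLExx326 (ind ind_nonneg)
open Crest.Agent.R4C.PrefixMx882 (free mem_free)
open Crest.Agent.R4C.PureL2x232 (hiFL)

/-- the word `b` above the cut `X0` : low part `om`, base `G0`, free word `w` -/
structure VB {M : ℕ} (F : FL M) (X0 b om G0 w : ℕ) : Prop where
  hb : b ∣ M
  hw : w ≠ 0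
  lam : ∀ X, X0 ≤ X → F.lam X b = upp X w
  uu : ∀ X, X0 ≤ X → F.uu X b = om * (G0 * low X w)

/-- nominal coin -/
def nomC (P : Par) (δ : ℝ) (s : ℕ) (L' : ℝ) (G0 w p : ℕ) : Prop :=
  ∃ r : ℕ, r.Prime ∧ r ∣ w ∧ p < r ∧
    P.cut (Nat.log 2 ⌊((G0 * low (r - 1) w : ℕ) : ℝ) / L'⌋₊ + s) < p ∧ P.Y (P.blk p) < r ∧
    ¬ On (3 * (p : ℝ) ^ δ) ((upp r w : ℝ) * P.γ) (((G0 * low r w : ℕ) : ℝ) / L')

/-- the low words and the world window -/
structure Sc (P : Par) (s om : ℕ) (L' V : ℝ) : Prop where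
  hL : 0 < P.L
  hV : 0 < V
  hL' : L' = P.L / V
  hs : 1 ≤ s
  lo : V ≤ 2 * om
  hi : (om : ℝ) ≤ 2 ^ (s - 1) * V

/-- change of scale by a factor `2` -/
lemma on_half {K y τ : ℝ} (h : On K y (τ / 2)) : On (2 * K) y τ := by
  obtain ⟨a, k, hk, h1⟩ := h
  refine ⟨a, k, hk, lt_of_le_of_lt ?_ (mul_lt_mul_of_pos_left h1 (by norm_num : (0 : ℝ) < 2))⟩
  have h2 : max 1 (τ * |y - a / k|) ≤ 2 * max 1 (τ / 2 * |y - a / k|) := by
    have h3 : (1 : ℝ) ≤ max 1 (τ / 2 * |y - a / k|) := le_max_left _ _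
    have h4 : τ / 2 * |y - a / k| ≤ max 1 (τ / 2 * |y - a / k|) := le_max_right _ _
    refine max_le (by linarith) (by linarith)
  calc (k : ℝ) * max 1 (τ * |y - a / k|) ≤ k * (2 * max 1 (τ / 2 * |y - a / k|)) :=
        mul_le_mul_of_nonneg_left h2 (Nat.cast_nonneg _)
    _ = _ := by ring

section general

variable {M : ℕ} {F : FL M} {P : Par} {X0 b om G0 w s : ℕ} {L' V δ : ℝ}

/-- the scale of `b` at the prefix below `r` -/
lemma uu_lt (hS : Sc P s om L' V) (h : VB F X0 b om G0 w) {r : ℕ} (hr : X0 ≤ r - 1) :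
    (F.uu (r - 1) b : ℝ) <
      2 ^ (Nat.log 2 ⌊((G0 * low (r - 1) w : ℕ) : ℝ) / L'⌋₊ + s) * P.L := by
  set e : ℕ := G0 * low (r - 1) w with he
  set i := Nat.log 2 ⌊(e : ℝ) / L'⌋₊ with hi
  have h1 : F.uu (r - 1) b = om * e := h.uu _ hr
  have h2 : (e : ℝ) / L' < 2 ^ (i + 1) := lt_two_pow _
  have hL' : 0 < L' := by rw [hS.hL']; exact div_pos hS.hL hS.hV
  have h3 : V * (e : ℝ) < 2 ^ (i + 1) * P.L := by
    rw [div_lt_iff₀ hL', hS.hL', mul_div_assoc', lt_div_iff₀ hS.hV] at h2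
    linarith
  have h4 : ((F.uu (r - 1) b : ℕ) : ℝ) = om * (e : ℝ) := by rw [h1]; push_cast; ring
  rw [h4]
  have h5 : (2 : ℝ) ^ (i + s) = 2 ^ (s - 1) * 2 ^ (i + 1) := by
    rw [← pow_add]; congr 1; have := hS.hs; omega
  calc (om : ℝ) * e ≤ 2 ^ (s - 1) * V * e :=
        mul_le_mul_of_nonneg_right hS.hi (Nat.cast_nonneg _)
    _ = 2 ^ (s - 1) * (V * e) := by ring
    _ < 2 ^ (s - 1) * (2 ^ (i + 1) * P.L) := mul_lt_mul_of_pos_left h3 (by positivity)
    _ = _ := by rw [h5]; ring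

/-- **a nominal coin with a small threshold has no centre** -/
theorem Fc_none_of_nomC (hM : 0 < M) (hcut : Monotone P.cut) (hY : StrictMono P.Y)
    (hS : Sc P s om L' V) (h : VB F X0 b om G0 w) {q : ℕ} (hq : 0 < q) (hX0 : X0 < q)
    (hthr : P.thr b (P.blk q) ≤ (q : ℝ) ^ δ) (hn : nomC P δ s L' G0 w q) :
    Fc F P b q = none ∧ lamR F P b q = none := by
  obtain ⟨r, hrp, hrw, hqr, hcq, _, hno⟩ := hn
  have hX : X0 ≤ r - 1 := by omega
  have hL' : 0 < L' := by rw [hS.hL']; exact div_pos hS.hL hS.hV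
  have key : Fc F P b q = none := by
    unfold Fc
    rw [dif_neg]
    rintro ⟨_, h2, f, h3, h4⟩
    set m := mst F P b q with hm
    have hqm : q ≤ P.cut m := (Par.le_blk hY q).trans h2
    -- `r ≤ cut m`
    have hrm : r ≤ P.cut m := by
      by_contra hc
      have h5 : P.cut m ≤ r - 1 := by omega
      have h6 : F.uu (P.cut m) b ≤ F.uu (r - 1) b :=
        Nat.le_of_dvd (FL.uu_pos _ _) (FL.uu_dvd_uu h5)
      have h7 : (F.uu (P.cut m) b : ℝ) ≤ F.uu (r - 1) b := by exact_mod_cast h6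
      have h8 := (h3.scl.trans h7).trans_lt (uu_lt hS h hX)
      have h9 : (2 : ℝ) ^ m < 2 ^ (Nat.log 2 ⌊((G0 * low (r - 1) w : ℕ) : ℝ) / L'⌋₊ + s) :=
        lt_of_mul_lt_mul_right h8 hS.hL.le
      have h10 : m < Nat.log 2 ⌊((G0 * low (r - 1) w : ℕ) : ℝ) / L'⌋₊ + s :=
        (pow_lt_pow_iff_right₀ (by norm_num : (1 : ℝ) < 2)).1 h9
      have := hcut h10.le
      omega
    have hq0 : (0 : ℝ) < (q : ℝ) ^ δ := Real.rpow_pos_of_pos (by exact_mod_cast hq) _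
    have h5 : dep F P m b f < 3 / 2 * (q : ℝ) ^ δ := lt_of_le_of_lt (h4.trans hthr) (by linarith)
    have h6 := on_of_dep hS.hL hM h.hb hrm h5
    rw [h.lam r (by omega), h.uu r (by omega)] at h6
    -- compare the scales
    have h7 : ((G0 * low r w : ℕ) : ℝ) / L' / 2 ≤ ((om * (G0 * low r w) : ℕ) : ℝ) / P.L := by
      rw [hS.hL', div_div_eq_mul_div, div_div, div_le_div_iff₀ (by linarith [hS.hL]) hS.hL]
      push_cast
      have h8 : (0 : ℝ) ≤ (G0 : ℝ) * (low r w : ℝ) := by positivity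
      have h9 : (G0 : ℝ) * (low r w : ℝ) * V ≤ (G0 : ℝ) * (low r w : ℝ) * (2 * om) :=
        mul_le_mul_of_nonneg_left hS.lo h8
      nlinarith [hS.hL]
    have h8 := on_half (h6.anti h7)
    have h9 : (2 : ℝ) * (3 / 2 * (q : ℝ) ^ δ) = 3 * (q : ℝ) ^ δ := by ring
    rw [h9] at h8
    exact hno h8
  exact ⟨key, lamR_none_of key⟩

end general

section text

variable {M : ℕ} {F : FL M} {P : Par} {A : ℕ} {B : Finset ℕ} {δ ε : ℝ}
  {X0 b om G0 w s : ℕ} {L' V : ℝ}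

/-- **outside the heavy exceptions the threshold at a nominal coin is `≤ q^δ`** -/
theorem thr_le_of_not_exc (hP : ParT M P A B δ ε) (hS : Sc P s om L' V)
    (h : VB F X0 b om G0 w) {q k0 K : ℕ} (hq2 : 2 ≤ q) (hX0 : X0 < q)
    (hn : nomC P δ s L' G0 w q) {hf : ℕ → ℝ} (hh : ∀ k : ℕ, (2 : ℝ) ^ ((1 / (A : ℝ)) * k) ≤ hf k)
    {U : ℝ} (hU : U = δ / ε) (hex : ¬ ExcF F (ind B) P.L hf (HU U) k0 K b)
    (hk0 : ∀ k, q ≤ 2 ^ k → k0 ≤ k) (hK : M ≤ 2 ^ K) (hM : 0 < M) (hwM : w ∣ M) :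
    P.thr b (P.blk q) ≤ (q : ℝ) ^ δ := by
  obtain ⟨r, hrp, hrw, hqr, hcq, hYr, _⟩ := hn
  set i := Nat.log 2 ⌊((G0 * low (r - 1) w : ℕ) : ℝ) / L'⌋₊ with hi
  set k := P.blk q with hk
  have hYk : P.Y k = 2 ^ k := by rw [hP.Y]
  have hqk : q ≤ 2 ^ k := by rw [← hYk]; exact Par.le_blk hP.Y_mono q
  have hkr : 2 ^ k < r := by rw [← hYk]; exact hYr
  have hrM : r ≤ M := Nat.le_of_dvd hM (hrw.trans hwM)
  have h1 : A * (i + s) < k := by
    rw [hP.cut] at hcq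
    exact (Nat.pow_lt_pow_iff_right (by norm_num : 1 < 2)).1 (hcq.trans_le hqk)
  have h2 : k0 ≤ k := hk0 k hqk
  have h3 : k < K :=
    (Nat.pow_lt_pow_iff_right (by norm_num : 1 < 2)).1 (hkr.trans_le (hrM.trans hK))
  have hA0 : (0 : ℝ) < A := by exact_mod_cast hP.hA
  have h4 : (F.uu (2 ^ k) b : ℝ) ≤ hf k * P.L := by
    have e1 : F.uu (2 ^ k) b ≤ F.uu (r - 1) b :=
      Nat.le_of_dvd (FL.uu_pos _ _) (FL.uu_dvd_uu (by omega))
    have e2 : (F.uu (2 ^ k) b : ℝ) ≤ F.uu (r - 1) b := by exact_mod_cast e1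
    have e3 := uu_lt hS h (r := r) (by omega)
    have e4 : (2 : ℝ) ^ (i + s) ≤ hf k := by
      refine le_trans ?_ (hh k)
      rw [← Real.rpow_natCast]
      refine Real.rpow_le_rpow_of_exponent_le (by norm_num) ?_
      rw [one_div, inv_mul_eq_div, le_div_iff₀ hA0]
      have : (A : ℝ) * ((i + s : ℕ) : ℝ) ≤ k := by exact_mod_cast h1.le
      linarith
    exact e2.trans (e3.le.trans (mul_le_mul_of_nonneg_right e4 hP.hL.le))
  subst hU
  have h5 := thr_of_not_exc (f := ind B) (fun b => ind_nonneg B b) hP.hε hex h2 h3 h4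
  rw [hP.thr]
  refine h5.trans ?_
  have h6 : P.Y (k - 1) < q := Y_lt hP.Y0 hq2
  have h6' : 2 ^ (k - 1) < q := by
    rw [hP.Y] at h6; exact h6
  exact Real.rpow_le_rpow (Nat.cast_nonneg _) (by exact_mod_cast h6'.le) hP.hδ

/-- **nominal coins are actual coins, outside the heavy exceptions** -/
theorem coin_of_nomC (hP : ParT M P A B δ ε) (hS : Sc P s om L' V)
    (h : VB F X0 b om G0 w) {q k0 K : ℕ} (hq2 : 2 ≤ q) (hX0 : X0 < q)
    (hn : nomC P δ s L' G0 w q) {hf : ℕ → ℝ} (hh : ∀ k : ℕ, (2 : ℝ) ^ ((1 / (A : ℝ)) * k) ≤ hf k)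
    {U : ℝ} (hU : U = δ / ε) (hex : ¬ ExcF F (ind B) P.L hf (HU U) k0 K b)
    (hk0 : ∀ k, q ≤ 2 ^ k → k0 ≤ k) (hK : M ≤ 2 ^ K) (hM : 0 < M) (hwM : w ∣ M) :
    Fc F P b q = none ∧ lamR F P b q = none :=
  Fc_none_of_nomC hM hP.cut_mono hP.Y_mono hS h (by omega) hX0
    (thr_le_of_not_exc hP hS h hq2 hX0 hn hh hU hex hk0 hK hM hwM) hn

end text

section inst

variable {M : ℕ} {F : FL M}

/-- the scalar worlds (`om = 1`) -/
theorem VB.of_core {G w X0 : ℕ} (hM : 0 < M) (hG : G ∈ cores F) (hw : w ∣ PM F G)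
    (hX : D F G ≤ X0) : VB F X0 (G * w) 1 G w where
  hb := mul_dvd hM hG hw
  hw := (Nat.pos_of_dvd_of_pos hw (PM_pos G)).ne'
  lam _ h := by rw [lam_class hM hG hw, lam_core_of_le hM hG (hX.trans h), one_mul]
  uu _ h := by rw [uu_class hM hG hw, uu_core_of_le hM hG (hX.trans h), one_mul]

/-- the worlds above a cut `y` (`HighFL_863`), word `b` -/
theorem VB.of_high {y b X0 : ℕ} (hM : 0 < M) (hb : b ∣ M) (hy : y ≤ X0)
    (hX : D (hiFL hM y F) (HighFLx863.H0 hM F y b) ≤ X0) :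
    VB F X0 b (low y b) (HighFLx863.H0 hM F y b) (HighFLx863.hw hM F y b) where
  hb := hb
  hw := (HighFLx863.hw_pos hM F y b).ne'
  lam _ h := HighFLx863.lam_high hM F hb (hy.trans h) (hX.trans h)
  uu _ h := HighFLx863.uu_high hM F hb (hy.trans h) (hX.trans h)

end inst

/-! ### nominal coins lie in birth gaps -/

open Crest.Agent.R4C.GWdefx982 Crest.Agent.R4C.GWnodex863

section world

variable {Z : World} {P : Par} {δ : ℝ} {s : ℕ}

/-- the world whose coins are the nominal coins -/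
structure WV (Z : World) (P : Par) (δ : ℝ) (s : ℕ) : Prop where
  cut : Z.cut = P.cut
  γ : Z.γ = P.γ
  coin : ∀ w p, Z.coin w p ↔ nomC P δ s Z.L Z.G0 w p
  /-- light nodes have no nominal coin above them -/
  hθ : ∀ i, Z.i0 ≤ i → ∀ q : ℕ, Z.cut i < q → 4 * Z.θ i ≤ 3 * (q : ℝ) ^ δ

/-- push a depth at a cut down to a letter below the cut -/
lemma on_low {K γ t : ℝ} {G0 w r X : ℕ} (hw : w ≠ 0) (hr : r ≤ X)
    (h : On K ((upp X w : ℝ) * γ) (((G0 * low X w : ℕ) : ℝ) / t)) :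
    On K ((upp r w : ℝ) * γ) (((G0 * low r w : ℕ) : ℝ) / t) := by
  -- `low X w = low r w * m`, `upp r w = m * upp X w`
  obtain ⟨m, hm⟩ : low r w ∣ low X w := by
    rw [← low_low hr w]; exact low_dvd_self _ _
  have h1 := low_mul_upp X hw
  have h2 := low_mul_upp r hw
  have h3 : upp r w = m * upp X w := by
    refine Nat.eq_of_mul_eq_mul_left (low_pos r w) ?_
    rw [h2, ← mul_assoc, ← hm, h1]
  have e1 : ((G0 * low X w : ℕ) : ℝ) / t = ((G0 * low r w : ℕ) : ℝ) / t * m := by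
    rw [hm]; push_cast; ring
  rw [e1] at h
  have h4 := h.push
  rw [h3]
  have e2 : ((m * upp X w : ℕ) : ℝ) * γ = (m : ℝ) * ((upp X w : ℝ) * γ) := by
    push_cast; ring
  rw [e2]
  exact h4

/-- the prefix below `r` is a node -/
theorem node_of_gap (h : Z.Ok) {i w q r : ℕ} (hnd : Z.nd i w) (hq : Z.cut i < q)
    (hqr : q < r)
    (hcq : Z.cut (Nat.log 2 ⌊((Z.G0 * low (r - 1) w : ℕ) : ℝ) / Z.L⌋₊) < q) :
    i ≤ Nat.log 2 ⌊((Z.G0 * low (r - 1) w : ℕ) : ℝ) / Z.L⌋₊ ∧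
      Z.nd (Nat.log 2 ⌊((Z.G0 * low (r - 1) w : ℕ) : ℝ) / Z.L⌋₊) w ∧
      low (Z.cut (Nat.log 2 ⌊((Z.G0 * low (r - 1) w : ℕ) : ℝ) / Z.L⌋₊)) w = low (r - 1) w := by
  set e : ℕ := Z.G0 * low (r - 1) w with he
  set j := Nat.log 2 ⌊(e : ℝ) / Z.L⌋₊ with hj
  have hi1 : 1 ≤ i := by have := h.hi0; have := hnd.1; omega
  have hir : Z.cut i ≤ r - 1 := by omega
  -- `e i w ∣ e`
  obtain ⟨m, hm⟩ : low (Z.cut i) w ∣ low (r - 1) w := by
    rw [← low_low hir w]; exact low_dvd_self _ _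
  have hei : (Z.e i w : ℝ) ≤ e := by
    have : Z.e i w ≤ e := by
      rw [he]; unfold World.e
      exact Nat.mul_le_mul_left _ (Nat.le_of_dvd (low_pos _ _) ⟨m, hm⟩)
    exact_mod_cast this
  have h2i : (2 : ℝ) ^ i ≤ (e : ℝ) / Z.L := by
    rw [le_div_iff₀ h.hL]; exact hnd.2.1.trans hei
  have h1e : 1 ≤ (e : ℝ) / Z.L := le_trans (one_le_pow₀ (by norm_num)) h2i
  have hij : i ≤ j := by
    refine (Nat.le_log_iff_pow_le (by norm_num) (Nat.floor_pos.2 h1e).ne').2 ?_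
    exact Nat.le_floor (by exact_mod_cast h2i)
  have hlo : (2 : ℝ) ^ j ≤ (e : ℝ) / Z.L := two_pow_le h1e
  have hhi : (e : ℝ) / Z.L < 2 ^ (j + 1) := lt_two_pow _
  have hhi' : (e : ℝ) < 2 ^ (j + 1) * Z.L := by rwa [div_lt_iff₀ h.hL] at hhi
  have hlow : low (Z.cut j) w = low (r - 1) w := by
    refine Nat.eq_of_factorization_eq (low_pos _ _).ne' (low_pos _ _).ne' fun p => ?_
    rw [fact_low, fact_low]
    by_cases h1 : p ≤ Z.cut j
    · rw [if_pos h1, if_pos (by omega)]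
    · rw [if_neg h1]
      by_cases h2 : p ≤ r - 1
      · rw [if_pos h2]
        by_contra hne
        have hpp : p.Prime := by
          by_contra hc
          exact hne (Nat.factorization_eq_zero_of_not_prime _ hc).symm
        -- `p` is a letter in `(cut j, r - 1]`
        have hpi : Z.cut i < p := by have := h.hcut hij; omega
        have hpm : p ∣ m := by
          have h3 : p ∣ low (r - 1) w := by
            refine Nat.dvd_of_factorization_pos ?_
            rw [fact_low, if_pos h2]; exact fun h => hne h.symm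
          rw [hm] at h3
          refine (hpp.dvd_mul.1 h3).resolve_left fun h4 => ?_
          have h5 := hpp.factorization_pos_of_dvd (low_pos _ _).ne' h4
          rw [fact_low, if_neg (by omega)] at h5
          exact absurd h5 (lt_irrefl _)
        have hm0 : 0 < m := by
          rcases Nat.eq_zero_or_pos m with h3 | h3
          · rw [h3, mul_zero] at hm
            exact absurd hm (low_pos _ _).ne'
          · exact h3
        have hpm' : p ≤ m := Nat.le_of_dvd hm0 hpm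
        have h3 : (Z.e i w : ℝ) * p ≤ e := by
          have : Z.e i w * p ≤ e := by
            rw [he, hm]; unfold World.e
            rw [mul_assoc]
            exact Nat.mul_le_mul_left _ (Nat.mul_le_mul_left _ hpm')
          exact_mod_cast this
        have h4 : (2 : ℝ) ^ i * p < 2 ^ (j + 1) := by
          have h5 : (2 : ℝ) ^ i * Z.L * p < 2 ^ (j + 1) * Z.L :=
            lt_of_le_of_lt (mul_le_mul_of_nonneg_right hnd.2.1 (Nat.cast_nonneg _))
              (h3.trans_lt hhi')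
          have h6 : (2 : ℝ) ^ i * p * Z.L < 2 ^ (j + 1) * Z.L := by
            calc (2 : ℝ) ^ i * p * Z.L = 2 ^ i * Z.L * p := by ring
              _ < _ := h5
          exact lt_of_mul_lt_mul_right h6 h.hL.le
        have h5 : (p : ℝ) < 2 ^ j := by
          have h6 : (2 : ℝ) ≤ 2 ^ i := by
            calc (2 : ℝ) = 2 ^ 1 := by norm_num
              _ ≤ 2 ^ i := pow_le_pow_right₀ (by norm_num) hi1
          have hp0 : (0 : ℝ) ≤ p := Nat.cast_nonneg _
          rw [pow_succ] at h4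
          nlinarith
        have h6 : p < 2 ^ j := by exact_mod_cast h5
        have := h.hcut2 j
        omega
      · rw [if_neg h2]
  refine ⟨hij, ⟨hnd.1.trans hij, ?_, ?_⟩, hlow⟩
  · unfold World.e
    rw [hlow]
    rwa [le_div_iff₀ h.hL] at hlo
  · unfold World.e
    rw [hlow]
    exact hhi'

/-- **the node after the gap of a nominal coin is a birth** -/
theorem birth_of_nomC (h : Z.Ok) (hZ : WV Z P δ s) {i w q r : ℕ} (hwN : w ∣ Z.N)
    (hnd : Z.nd i w) (hq : Z.cut i < q) (hqr : q < r)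
    (hcq : Z.cut (Nat.log 2 ⌊((Z.G0 * low (r - 1) w : ℕ) : ℝ) / Z.L⌋₊) < q)
    (hno : ¬ On (3 * (q : ℝ) ^ δ) ((upp r w : ℝ) * Z.γ) (((Z.G0 * low r w : ℕ) : ℝ) / Z.L))
    {j : ℕ} (hj : Nat.log 2 ⌊((Z.G0 * low (r - 1) w : ℕ) : ℝ) / Z.L⌋₊ < j) (hndj : Z.nd j w)
    (hnext : ∀ k, Nat.log 2 ⌊((Z.G0 * low (r - 1) w : ℕ) : ℝ) / Z.L⌋₊ < k → k < j →
      ¬ Z.nd k w) : Z.birth j w := by
  have hw0 : w ≠ 0 := (Nat.pos_of_dvd_of_pos hwN h.hN).ne'
  obtain ⟨h1, h2, h3⟩ := node_of_gap h hnd hq hqr hcq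
  set e : ℕ := Z.G0 * low (r - 1) w with he
  set i' := Nat.log 2 ⌊(e : ℝ) / Z.L⌋₊ with hi'
  refine ⟨hndj, ?_⟩
  rintro ⟨hp, hl⟩
  -- `prev j w = i'`
  have hprev : Z.prev j w = i' := by
    classical
    unfold World.prev
    rw [Nat.findGreatest_eq_iff]
    exact ⟨hj.le, fun _ => ⟨hj, h2⟩, fun k hk1 hk2 hk3 => hnext k hk1 hk3.1 hk3.2⟩
  -- `r ≤ cut j`
  have hrj : r ≤ Z.cut j := by
    by_contra hc
    have h4 : Z.cut j ≤ r - 1 := by omega
    have h5 : Z.e j w ≤ e := by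
      rw [he]; unfold World.e
      refine Nat.mul_le_mul_left _ (Nat.le_of_dvd (low_pos _ _) ?_)
      rw [← low_low h4 w]; exact low_dvd_self _ _
    have h6 : (Z.e j w : ℝ) ≤ e := by exact_mod_cast h5
    have h7 : (e : ℝ) < 2 ^ (i' + 1) * Z.L := by
      have := lt_two_pow ((e : ℝ) / Z.L)
      rwa [div_lt_iff₀ h.hL] at this
    have h8 : (2 : ℝ) ^ (i' + 1) ≤ 2 ^ j := pow_le_pow_right₀ (by norm_num) hj
    have h9 := mul_le_mul_of_nonneg_right h8 h.hL.le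
    have := hndj.2.1
    linarith
  have h4 := GWcellx284.on_of_light h hwN hndj hl
  rw [hprev] at h4
  unfold World.yy World.tt World.e at h4
  have h5 := on_low hw0 hrj h4
  have h6 : 4 * Z.θ i' ≤ 3 * (q : ℝ) ^ δ := hZ.hθ i' h2.1 q hcq
  exact hno (h5.mono h6)

/-- **a nominal coin above the birth `bi` of a run of nodes lies above all nodes of the run** -/
theorem above_of_nomC (h : Z.Ok) (hZ : WV Z P δ s) (hcut : Monotone P.cut) {i w q l : ℕ}
    (hwN : w ∣ Z.N) (hnd : Z.nd i w) (hq : Z.cut i < q) (hn : nomC P δ s Z.L Z.G0 w q)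
    (hl : Z.nd l w) (hno : ∀ k, i < k → k ≤ l → ¬ Z.birth k w) : Z.cut (l + s) < q := by
  classical
  obtain ⟨r, hrp, hrw, hqr, hcq, hYr, hon⟩ := hn
  have hw0 : w ≠ 0 := (Nat.pos_of_dvd_of_pos hwN h.hN).ne'
  rw [← hZ.cut] at hcq hcut
  have hcq' : Z.cut (Nat.log 2 ⌊((Z.G0 * low (r - 1) w : ℕ) : ℝ) / Z.L⌋₊) < q :=
    lt_of_le_of_lt (hcut (Nat.le_add_right _ _)) hcq
  obtain ⟨h1, h2, h3⟩ := node_of_gap h hnd hq hqr hcq'
  set i' := Nat.log 2 ⌊((Z.G0 * low (r - 1) w : ℕ) : ℝ) / Z.L⌋₊ with hi'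
  by_cases hli : l ≤ i'
  · exact lt_of_le_of_lt (hcut (by omega)) hcq
  · exfalso
    push Not at hli
    -- the next node after `i'` is a birth
    have hex : ∃ k, i' < k ∧ Z.nd k w := ⟨l, hli, hl⟩
    have hk := Nat.find_spec hex
    have hkl : Nat.find hex ≤ l := Nat.find_min' hex ⟨hli, hl⟩
    have hb : Z.birth (Nat.find hex) w := by
      refine birth_of_nomC h hZ hwN hnd hq hqr hcq' ?_ hk.1 hk.2 ?_
      · rw [hZ.γ]; exact hon
      · intro k hk1 hk2 hk3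
        exact Nat.find_min hex hk2 ⟨hk1, hk3⟩
    exact hno _ (lt_of_le_of_lt h1 hk.1) hkl hb

/-! ### actual coins of `b`, weight sequence -/

/-- the world `Z` with the actual coins of `b` -/
def act (Z : World) (lam : ℕ → ℕ → Option ℤ) (b : ℕ) : World :=
  { Z with coin := fun _ p => lam b p = none }

/-- product of the actual coins of `b` at the free primes of `w` in `(a, X]` -/
noncomputable def Wa (Z : World) (lam : ℕ → ℕ → Option ℤ) (b w a X : ℕ) : ℝ :=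
  (act Z lam b).Wp a X w

lemma Wa_nonneg (lam : ℕ → ℕ → Option ℤ) (b w a X : ℕ) : 0 ≤ Wa Z lam b w a X :=
  FamBudx252.Wp_nonneg _ _ _

lemma Wa_le_one (lam : ℕ → ℕ → Option ℤ) (b w a X : ℕ) : Wa Z lam b w a X ≤ 1 :=
  FamBudx252.Wp_le_one _ _ _

lemma Wa_mul {lam : ℕ → ℕ → Option ℤ} {b w a X Y : ℕ} (h1 : a ≤ X) (h2 : X ≤ Y) :
    Wa Z lam b w a X * Wa Z lam b w X Y = Wa Z lam b w a Y :=
  FamBudx252.Wp_mul h1 h2

/-- if every nominal coin in `(a, X]` is an actual coin -/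
theorem Wa_le_Wp {lam : ℕ → ℕ → Option ℤ} {b w a X : ℕ}
    (h : ∀ q ∈ free Z.N w, a < q → q ≤ X → Z.coin w q → lam b q = none) :
    Wa Z lam b w a X ≤ Z.Wp a X w := by
  classical
  unfold Wa World.Wp
  have hfac : ∀ p ∈ free Z.N w, 0 ≤ 1 - 1 / (p : ℝ) ∧ 1 - 1 / (p : ℝ) ≤ 1 := by
    intro p hp
    have hpp := Nat.prime_of_mem_primeFactors (mem_free.1 hp).1
    have h3 : (2 : ℝ) ≤ p := by exact_mod_cast hpp.two_le
    have h4 : 1 / (p : ℝ) ≤ 1 / 2 := one_div_le_one_div_of_le (by norm_num) h3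
    have h5 : 0 ≤ 1 / (p : ℝ) := by positivity
    constructor <;> linarith
  have hsub : ((free Z.N w).filter fun p => a < p ∧ p ≤ X ∧ Z.coin w p) ⊆
      (free Z.N w).filter fun p => a < p ∧ p ≤ X ∧ lam b p = none := by
    intro q hq
    obtain ⟨h1, h2, h3, h4⟩ := Finset.mem_filter.1 hq
    exact Finset.mem_filter.2 ⟨h1, h2, h3, h q h1 h2 h3 h4⟩
  have e1 : (∏ p ∈ (free (act Z lam b).N w).filter fun p => a < p ∧ p ≤ X ∧
      (act Z lam b).coin w p, (1 - 1 / (p : ℝ))) =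
      ∏ p ∈ (free Z.N w).filter fun p => a < p ∧ p ≤ X ∧ lam b p = none, (1 - 1 / (p : ℝ)) := by
    refine Finset.prod_congr ?_ fun _ _ => rfl
    ext p
    simp only [Finset.mem_filter]
    rfl
  rw [e1, ← Finset.prod_sdiff hsub]
  refine mul_le_of_le_one_left (Finset.prod_nonneg fun p hp => ?_)
    (Finset.prod_le_one (fun p hp => ?_) fun p hp => ?_)
  · exact (hfac p (Finset.mem_filter.1 hp).1).1
  · exact (hfac p (Finset.mem_filter.1 (Finset.mem_sdiff.1 hp).1).1).1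
  · exact (hfac p (Finset.mem_filter.1 (Finset.mem_sdiff.1 hp).1).1).2

/-- last node index of the zone born at `i` -/
noncomputable def lastN (Z : World) (i w : ℕ) : ℕ := by
  classical
  exact Nat.findGreatest (fun l => Z.nd l w ∧ Z.bi l w = i) Z.top

lemma lastN_spec (h : Z.Ok) {i w : ℕ} (hw : w ∣ Z.N) (hb : Z.birth i w) :
    i ≤ lastN Z i w ∧ Z.nd (lastN Z i w) w ∧ Z.bi (lastN Z i w) w = i := by
  classical
  have h1 := Nat.findGreatest_spec (P := fun l => Z.nd l w ∧ Z.bi l w = i) (n := Z.top)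
    (nd_le_top h hw hb.1) ⟨hb.1, bi_of_birth hb⟩
  have h2 := Nat.le_findGreatest (P := fun l => Z.nd l w ∧ Z.bi l w = i) (n := Z.top)
    (nd_le_top h hw hb.1) ⟨hb.1, bi_of_birth hb⟩
  exact ⟨h2, h1.1, h1.2⟩

lemma le_lastN (h : Z.Ok) {l w : ℕ} (hw : w ∣ Z.N) (hl : Z.nd l w) :
    l ≤ lastN Z (Z.bi l w) w := by
  classical
  exact Nat.le_findGreatest (P := fun l' => Z.nd l' w ∧ Z.bi l' w = Z.bi l w)
    (nd_le_top h hw hl) ⟨hl, rfl⟩

lemma lastN_mono (h : Z.Ok) {i j w : ℕ} (hw : w ∣ Z.N) (hi : Z.birth i w) (hj : Z.birth j w)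
    (hij : i < j) : lastN Z i w < lastN Z j w := by
  obtain ⟨h1, h2, h3⟩ := lastN_spec h hw hi
  obtain ⟨h4, _, _⟩ := lastN_spec h hw hj
  have : lastN Z i w < j := by
    by_contra hc
    have := le_bi (not_lt.1 hc) hj
    omega
  omega

open Classical in
/-- weight sequence of the word `w` of `b` : actual coins, `0` in the zones with an exception above
their last node -/
noncomputable def Vw (Z : World) (lam : ℕ → ℕ → Option ℤ) (exc : ℕ → Prop) (a b w i : ℕ) : ℝ :=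
  if Z.birth i w ∧ ¬ exc (lastN Z i w) then Wa Z lam b w a (Z.cut i) else 0

lemma Vw_nonneg (lam : ℕ → ℕ → Option ℤ) (exc : ℕ → Prop) (a b w i : ℕ) :
    0 ≤ Vw Z lam exc a b w i := by
  unfold Vw
  split_ifs
  · exact Wa_nonneg _ _ _ _ _
  · exact le_rfl

lemma Vw_le_one (lam : ℕ → ℕ → Option ℤ) (exc : ℕ → Prop) (a b w i : ℕ) :
    Vw Z lam exc a b w i ≤ 1 := by
  unfold Vw
  split_ifs
  · exact Wa_le_one _ _ _ _ _
  · exact zero_le_one

/-- **the pair weight**: at a node without exception the weight of its zone is the actual product -/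
theorem Vw_eq (h : Z.Ok) {lam : ℕ → ℕ → Option ℤ} {exc : ℕ → Prop}
    (hexc : ∀ l l', l ≤ l' → exc l' → exc l) {a b w l : ℕ} (hw : w ∣ Z.N) (hl : Z.nd l w)
    (hne : ¬ exc l) : Vw Z lam exc a b w (Z.bi l w) = Wa Z lam b w a (Z.cut (Z.bi l w)) := by
  unfold Vw
  rw [if_pos ⟨birth_bi hl, fun hc => hne (hexc _ _ (le_lastN h hw hl) hc)⟩]

/-- at a node without exception the product below the node is at most the weight of its zone -/
theorem Wa_le_Vw (h : Z.Ok) {lam : ℕ → ℕ → Option ℤ} {exc : ℕ → Prop}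
    (hexc : ∀ l l', l ≤ l' → exc l' → exc l) {a b w l : ℕ} (ha : a ≤ Z.cut (Z.bi l w))
    (hw : w ∣ Z.N) (hl : Z.nd l w) (hne : ¬ exc l) :
    Wa Z lam b w a (Z.cut l) ≤ Vw Z lam exc a b w (Z.bi l w) := by
  rw [Vw_eq h hexc hw hl hne, ← Wa_mul ha (h.hcut (bi_le l w))]
  exact mul_le_of_le_one_right (Wa_nonneg _ _ _ _ _) (Wa_le_one _ _ _ _ _)

/-- **budget conditions** (`FamBud_252.budget_world`, three gap version as well) -/
theorem Vw_cond (h : Z.Ok) {lam : ℕ → ℕ → Option ℤ} {exc : ℕ → Prop}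
    (hexc : ∀ l l', l ≤ l' → exc l' → exc l) {a b w : ℕ} (ha : ∀ i, Z.nd i w → a ≤ Z.cut i)
    (hw : w ∣ Z.N)
    (hcoin : ∀ i l, Z.nd i w → Z.nd l w → i ≤ l → (∀ k, i < k → k ≤ l → ¬ Z.birth k w) →
      ¬ exc l → ∀ q ∈ free Z.N w, Z.cut i < q → Z.coin w q → lam b q = none) :
    ∃ ix, (∀ i, i < ix → Vw Z lam exc a b w i = 0) ∧
      ∀ i j, ix ≤ i → i < j → Z.birth i w → Z.birth j w →
        Vw Z lam exc a b w j ≤ Z.Wp (Z.cut i) (Z.cut j) w * Vw Z lam exc a b w i := by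
  classical
  by_cases hex : ∃ i, Z.birth i w ∧ ¬ exc (lastN Z i w)
  · refine ⟨Nat.find hex, fun i hi => ?_, fun i j hi hij hbi hbj => ?_⟩
    · unfold Vw
      rw [if_neg (Nat.find_min hex hi)]
    · obtain ⟨h1, h2⟩ := Nat.find_spec hex
      have h3 : ¬ exc (lastN Z i w) := by
        rcases eq_or_lt_of_le hi with h4 | h4
        · rw [← h4]; exact h2
        · exact fun hc => h2 (hexc _ _ (lastN_mono h hw h1 hbi h4).le hc)
      have h4 : ¬ exc (lastN Z j w) := fun hc => h3 (hexc _ _ (lastN_mono h hw hbi hbj hij).le hc)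
      unfold Vw
      rw [if_pos ⟨hbj, h4⟩, if_pos ⟨hbi, h3⟩, ← Wa_mul (ha i hbi.1) (h.hcut hij.le), mul_comm]
      refine mul_le_mul_of_nonneg_right (Wa_le_Wp ?_) (Wa_nonneg _ _ _ _ _)
      obtain ⟨h5, h6, h7⟩ := lastN_spec h hw hbi
      intro q hq hq1 _ hqc
      refine hcoin i _ hbi.1 h6 h5 (fun k hk1 hk2 hk3 => ?_) h3 q hq hq1 hqc
      have := le_bi hk2 hk3
      omega
  · push Not at hex
    refine ⟨0, fun i hi => absurd hi (Nat.not_lt_zero _), fun i j _ hij hbi hbj => ?_⟩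
    have e : ∀ i, Vw Z lam exc a b w i = 0 := by
      intro i
      unfold Vw
      rw [if_neg]
      rintro ⟨h1, h2⟩
      exact h2 (hex i h1)
    rw [e, e, mul_zero]

end world

/-! ### the dictionary of the vector world, complete -/

section final

variable {M : ℕ} {F : FL M} {P : Par} {A : ℕ} {B : Finset ℕ} {δ ε : ℝ}

/-- exceptions of `b` above the index `l` -/
def excB (F : FL M) (P : Par) (A : ℕ) (B : Finset ℕ) (hf : ℕ → ℝ) (U : ℝ) (K b l : ℕ) : Prop :=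
  ExcF F (ind B) P.L hf (HU U) (A * l + 1) K b

lemma excB_anti {hf : ℕ → ℝ} {U : ℝ} {K b l l' : ℕ} (h : l ≤ l')
    (he : excB F P A B hf U K b l') : excB F P A B hf U K b l := by
  obtain ⟨k, h1, h2⟩ := he
  exact ⟨k, le_trans (by have := Nat.mul_le_mul_left A h; omega) h1, h2⟩

/-- **(D)** : the hypothesis `hcoin` of `Vw_cond` for the actual labels of `b` -/
theorem hcoin_of {Z : World} {s : ℕ} (hP : ParT M P A B δ ε) (h : Z.Ok) (hZ : WV Z P δ s)
    {X0 b om w : ℕ} {V : ℝ} (hS : Sc P s om Z.L V) (hvb : VB F X0 b om Z.G0 w)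
    (hX0 : ∀ i, Z.nd i w → X0 ≤ Z.cut i) (hM : 0 < M) (hwN : w ∣ Z.N) (hwM : w ∣ M)
    {hf : ℕ → ℝ} (hh : ∀ k : ℕ, (2 : ℝ) ^ ((1 / (A : ℝ)) * k) ≤ hf k) {U : ℝ} (hU : U = δ / ε)
    {K : ℕ} (hK : M ≤ 2 ^ K) :
    ∀ i l, Z.nd i w → Z.nd l w → i ≤ l → (∀ k, i < k → k ≤ l → ¬ Z.birth k w) →
      ¬ excB F P A B hf U K b l → ∀ q ∈ free Z.N w, Z.cut i < q → Z.coin w q →
        lamR F P b q = none := by
  intro i l hi hl _ hno hne q hq hiq hc
  have hqp := Nat.prime_of_mem_primeFactors (mem_free.1 hq).1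
  have hn := (hZ.coin w q).1 hc
  have h1 := above_of_nomC h hZ hP.cut_mono hwN hi hiq hn hl hno
  have h2 : X0 < q := lt_of_le_of_lt (hX0 i hi) hiq
  refine (coin_of_nomC hP hS hvb hqp.two_le h2 hn hh hU hne ?_ hK hM hwM).2
  intro k hk
  rw [hZ.cut, hP.cut] at h1
  have h3 := (Nat.pow_lt_pow_iff_right (by norm_num : 1 < 2)).1 (h1.trans_le hk)
  have h4 : A * l ≤ A * (l + s) := Nat.mul_le_mul_left _ (Nat.le_add_right _ _)
  omega

end final

end Crest.Agent.R4C.DictVx20
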