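import Crest.Agent.R4C.FamBud_252
import Crest.Agent.R4C.Budget_966

/-!
# Row 4, GW section, vector case: budget with THREE gaps (helper252; (L3) of the captain's decision)

* `tele_back` : back gaps: `V j ≤ V i (1 - Q j)` for `i < j` gives `∑ V j Q j ≤ 2`.
* `Y3` : `1 - Wp (cut (pz z)) (cut (second next birth))`, `1` if there are fewer than two births.
* `budget3_world` : `∑_z V z.1 * Y3 z w ≤ 4` for any weight sequence `V` given at the births.
* `budget3_kap` : with `min 1 (D / (pz z + 1))` : `≤ 8 + log2 D`.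
-/

set_option autoImplicit false

open Finset

namespace Crest.Agent.R4C.FamBudx252

open Crest.Agent.R4C.Basex935 Crest.Agent.R4C.Cutx50 Crest.Agent.R4C.GWdefx982
open Crest.Agent.R4C.GWnodex863
open Crest.Agent.R4C.Budgetx966 (pz_eq prev_spec prev_zero sum_min zw_of)

/-- telescoping of the back gaps -/
theorem tele_back (R : Finset ℕ) (V Q : ℕ → ℝ) (hV0 : ∀ i ∈ R, 0 ≤ V i)
    (hV1 : ∀ i ∈ R, V i ≤ 1) (hQ0 : ∀ i ∈ R, 0 ≤ Q i) (hQ : ∀ i ∈ R, Q i ≤ 1)
    (hd : ∀ i ∈ R, ∀ j ∈ R, i < j → V j ≤ V i * (1 - Q j)) :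
    ∑ i ∈ R, V i * Q i ≤ 2 := by
  classical
  have key : ∀ s : Finset ℕ, s ⊆ R → s.Nonempty → ∀ m ∈ s, (∀ x ∈ s, x ≤ m) →
      ∑ i ∈ s, V i * Q i ≤ 2 - V m := by
    intro s
    induction s using Finset.induction_on_max with
    | empty => intro _ h; exact absurd h Finset.not_nonempty_empty
    | insert a s ha ih =>
      intro hs _ m hm hmax
      have hma : m = a := by
        rcases mem_insert.1 hm with h | h
        · exact h
        · exact absurd (hmax a (mem_insert_self a s)) (not_le.2 (ha m h))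
      subst hma
      have hnot : m ∉ s := fun h => lt_irrefl _ (ha m h)
      have hmR : m ∈ R := hs (mem_insert_self m s)
      rw [sum_insert hnot]
      rcases s.eq_empty_or_nonempty with he | hne
      · rw [he, sum_empty, add_zero]
        have h1 : V m * Q m ≤ V m := mul_le_of_le_one_right (hV0 m hmR) (hQ m hmR)
        have := hV1 m hmR
        linarith
      · have hss : s ⊆ R := fun x hx => hs (mem_insert_of_mem hx)
        have hm' := s.max'_mem hne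
        have h1 := ih hss hne (s.max' hne) hm' fun x hx => s.le_max' x hx
        have h2 := hd _ (hss hm') m hmR (ha _ hm')
        have h3 := hV0 _ (hss hm')
        have h4 := hQ0 m hmR
        -- `V m Q m ≤ V i Q m ≤ V i - V m`
        have h5 : V m ≤ V (s.max' hne) := h2.trans (mul_le_of_le_one_right h3 (by linarith))
        have h6 : V m * Q m ≤ V (s.max' hne) * Q m := mul_le_mul_of_nonneg_right h5 h4
        have h7 : V (s.max' hne) * (1 - Q m) = V (s.max' hne) - V (s.max' hne) * Q m := by ring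
        linarith
  rcases R.eq_empty_or_nonempty with he | hne
  · rw [he, sum_empty]; norm_num
  · have h1 := key R subset_rfl hne (R.max' hne) (R.max'_mem hne) fun x hx => R.le_max' x hx
    have h2 := hV0 _ (R.max'_mem hne)
    linarith

variable {Z : World}

open Classical in
/-- payment with three gaps -/
noncomputable def Y3 (Z : World) (z : Node) (w : ℕ) : ℝ :=
  if Z.hasNb z.1 w ∧ Z.hasNb (Z.nb z.1 w) w then
    1 - Z.Wp (Z.cut (Z.pz z)) (Z.cut (Z.nb (Z.nb z.1 w) w)) w else 1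

lemma Y3_nonneg (z : Node) (w : ℕ) : 0 ≤ Y3 Z z w := by
  unfold Y3
  split_ifs
  · linarith [Wp_le_one (Z := Z) (Z.cut (Z.pz z)) (Z.cut (Z.nb (Z.nb z.1 w) w)) w]
  · exact zero_le_one

lemma Y3_le_one (z : Node) (w : ℕ) : Y3 Z z w ≤ 1 := by
  unfold Y3
  split_ifs
  · linarith [Wp_nonneg (Z := Z) (Z.cut (Z.pz z)) (Z.cut (Z.nb (Z.nb z.1 w) w)) w]
  · exact le_rfl

lemma prev_lt (h : Z.Ok) {w i : ℕ} (hn : Z.nd i w) : Z.prev i w < i := by
  by_cases hh : Z.hasPrev i w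
  · exact (prev_spec hh).1
  · rw [prev_zero hh]
    have h1 := hn.1
    have h2 := h.hi0
    omega

/-- three gaps `≤` two gaps `+` the back gap -/
lemma Y3_le (h : Z.Ok) {w : ℕ} {z : Node} (hz : w ∈ Z.zd.zone z) :
    Y3 Z z w ≤ Z.Y z w + (1 - Z.Wp (Z.cut (Z.prev z.1 w)) (Z.cut z.1) w) := by
  classical
  have hn := ((mem_zone h).1 hz).2.1.1
  have hq : 0 ≤ 1 - Z.Wp (Z.cut (Z.prev z.1 w)) (Z.cut z.1) w := by
    linarith [Wp_le_one (Z := Z) (Z.cut (Z.prev z.1 w)) (Z.cut z.1) w]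
  unfold Y3 World.Y
  rw [pz_eq h hz]
  split_ifs with hh
  · have h1 := (nb_spec hh.1).1
    have h2 := (nb_spec hh.2).1
    rw [← Wp_mul (h.hcut (prev_lt h hn).le) (h.hcut (h1.le.trans h2.le))]
    have a0 := Wp_nonneg (Z := Z) (Z.cut (Z.prev z.1 w)) (Z.cut z.1) w
    have a1 := Wp_le_one (Z := Z) (Z.cut (Z.prev z.1 w)) (Z.cut z.1) w
    have b0 := Wp_nonneg (Z := Z) (Z.cut z.1) (Z.cut (Z.nb (Z.nb z.1 w) w)) w
    have b1 := Wp_le_one (Z := Z) (Z.cut z.1) (Z.cut (Z.nb (Z.nb z.1 w) w)) w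
    nlinarith
  · linarith

/-- **budget with three gaps**: `V i` = weight of the full word at its birth `i`, `0` below the
index `ix` (last exceptional gap) -/
theorem budget3_world (h : Z.Ok) {w : ℕ} (hw : w ∣ Z.N) (V : ℕ → ℝ) (ix : ℕ)
    (hV0 : ∀ i, 0 ≤ V i) (hV1 : ∀ i, V i ≤ 1) (hx : ∀ i, i < ix → V i = 0)
    (hV : ∀ i j, ix ≤ i → i < j → Z.birth i w → Z.birth j w →
      V j ≤ Z.Wp (Z.cut i) (Z.cut j) w * V i) :
    (∑ z ∈ Z.Zs with w ∈ Z.zd.zone z, V z.1 * Y3 Z z w) ≤ 4 := by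
  classical
  set Q : ℕ → ℝ := fun i => 1 - Z.Wp (Z.cut (Z.prev i w)) (Z.cut i) w with hQ
  have hQ0 : ∀ i, 0 ≤ Q i := fun i => by
    simp only [hQ]; linarith [Wp_le_one (Z := Z) (Z.cut (Z.prev i w)) (Z.cut i) w]
  have hQ1 : ∀ i, Q i ≤ 1 := fun i => by
    simp only [hQ]; linarith [Wp_nonneg (Z := Z) (Z.cut (Z.prev i w)) (Z.cut i) w]
  have h1 : (∑ z ∈ Z.Zs with w ∈ Z.zd.zone z, V z.1 * Y3 Z z w) ≤
      (∑ z ∈ Z.Zs with w ∈ Z.zd.zone z, V z.1 * Z.Y z w) +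
      ∑ z ∈ Z.Zs with w ∈ Z.zd.zone z, V z.1 * Q z.1 := by
    rw [← sum_add_distrib]
    refine sum_le_sum fun z hz => ?_
    rw [← mul_add]
    exact mul_le_mul_of_nonneg_left (Y3_le h (mem_filter.1 hz).2) (hV0 _)
  have h2 := budget_world h hw V ix hV0 hV1 hx hV
  set R := (births Z w).filter fun i => ix ≤ i with hR
  have hb : ∀ i, i ∈ R → Z.birth i w := fun i hi =>
    (mem_births h hw).1 (mem_filter.1 hi).1
  have h3 : ∑ i ∈ R, V i * Q i ≤ 2 := by
    refine tele_back R V Q (fun i _ => hV0 i) (fun i _ => hV1 i) (fun i _ => hQ0 i)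
      (fun i _ => hQ1 i) fun i hi j hj hij => ?_
    refine (hV i j (mem_filter.1 hi).2 hij (hb i hi) (hb j hj)).trans ?_
    rw [mul_comm]
    refine mul_le_mul_of_nonneg_left ?_ (hV0 i)
    simp only [hQ, sub_sub_cancel]
    refine Wp_anti (h.hcut ?_) le_rfl
    have hp : Z.hasPrev j w := ⟨i, hij, (hb i hi).1⟩
    exact (prev_spec hp).2.2 i hij (hb i hi).1
  have h4 : (∑ z ∈ Z.Zs with w ∈ Z.zd.zone z, V z.1 * Q z.1) ≤ ∑ i ∈ R, V i * Q i := by
    have e : (∑ z ∈ Z.Zs with w ∈ Z.zd.zone z, V z.1 * Q z.1) =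
        ∑ z ∈ (Z.Zs.filter fun z => w ∈ Z.zd.zone z).filter fun z => ix ≤ z.1, V z.1 * Q z.1 := by
      rw [Finset.sum_filter (s := Z.Zs.filter fun z => w ∈ Z.zd.zone z)]
      refine Finset.sum_congr rfl fun z _ => ?_
      split_ifs with hz
      · rfl
      · rw [hx _ (not_le.1 hz), zero_mul]
    rw [e]
    have hinj : Set.InjOn (fun z : Node => z.1)
        (↑((Z.Zs.filter fun z => w ∈ Z.zd.zone z).filter fun z => ix ≤ z.1) : Set Node) := by
      intro a ha b hb hab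
      have ha' := mem_coe.1 ha
      have hb' := mem_coe.1 hb
      rw [mem_filter, mem_filter, mem_zone h] at ha' hb'
      have hab' : a.1 = b.1 := hab
      rw [← ha'.1.2.2.2, ← hb'.1.2.2.2, hab']
    rw [← sum_image (g := fun z : Node => z.1) (f := fun i => V i * Q i) hinj]
    refine sum_le_sum_of_subset_of_nonneg (fun i hi => ?_) fun i _ _ =>
      mul_nonneg (hV0 i) (hQ0 i)
    rw [mem_image] at hi
    obtain ⟨z, hz, rfl⟩ := hi
    rw [mem_filter, mem_filter, mem_zone h] at hz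
    rw [hR, mem_filter, mem_births h hw]
    exact ⟨hz.1.2.2.1, hz.2⟩
  linarith

/-- **budget with three gaps and the additive error** `min 1 (D / (pz z + 1))` -/
theorem budget3_kap (h : Z.Ok) {w : ℕ} (hw : w ∣ Z.N) (V : ℕ → ℝ) (ix : ℕ)
    (hV0 : ∀ i, 0 ≤ V i) (hV1 : ∀ i, V i ≤ 1) (hx : ∀ i, i < ix → V i = 0)
    (hV : ∀ i j, ix ≤ i → i < j → Z.birth i w → Z.birth j w →
      V j ≤ Z.Wp (Z.cut i) (Z.cut j) w * V i) {D : ℕ} (hD : 1 ≤ D) :
    (∑ z ∈ Z.Zs with w ∈ Z.zd.zone z,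
      V z.1 * (Y3 Z z w + min 1 ((D : ℝ) / ((Z.pz z : ℝ) + 1)))) ≤ 8 + Nat.log 2 D := by
  classical
  have h1 := budget3_world h hw V ix hV0 hV1 hx hV
  have hT := zw_of h (w := w) (T := Z.Zs.filter fun z => w ∈ Z.zd.zone z)
    fun z hz => mem_filter.1 hz
  have h2 := sum_min h h.hcut2 hT hD
  have h3 : (∑ z ∈ Z.Zs with w ∈ Z.zd.zone z, V z.1 * min 1 ((D : ℝ) / ((Z.pz z : ℝ) + 1))) ≤
      ∑ z ∈ Z.Zs with w ∈ Z.zd.zone z, min (1 : ℝ) ((D : ℝ) / ((Z.prev z.1 w : ℝ) + 1)) := by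
    refine sum_le_sum fun z hz => ?_
    rw [pz_eq h (mem_filter.1 hz).2]
    exact mul_le_of_le_one_left (le_min zero_le_one (by positivity)) (hV1 _)
  have h4 : (∑ z ∈ Z.Zs with w ∈ Z.zd.zone z,
      V z.1 * (Y3 Z z w + min 1 ((D : ℝ) / ((Z.pz z : ℝ) + 1)))) =
      (∑ z ∈ Z.Zs with w ∈ Z.zd.zone z, V z.1 * Y3 Z z w) +
      ∑ z ∈ Z.Zs with w ∈ Z.zd.zone z, V z.1 * min 1 ((D : ℝ) / ((Z.pz z : ℝ) + 1)) := by
    rw [← sum_add_distrib]
    exact sum_congr rfl fun z _ => by ring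
  rw [h4]
  linarith

end Crest.Agent.R4C.FamBudx252
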