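import Crest.Agent.R4C.DictV_20
import Crest.Agent.R4C.FamBud3_252

/-!
# Row 4, GW section, vector case: actual coins, form `ix` (helper20; literal form of helper13)

* `AllAct Z lam b w X` : every (nominal) coin of the world at a free prime of `w` above `X` is an
  actual coin of `b`;
* `Wb Z lam a b w j` : product of the actual coins in `(a, cut j]`, `0` unless `AllAct (cut j)`;
* `Wb_cond` : the hypotheses of `budget3_kap`;  `Wb_budget` : the budget itself;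
* `allAct_of` : `AllAct` above the birth of the zone of a node above which `b` has no exception;
* `Wa_le_Wb` : the pair weight at that node is at most the weight of the zone.
-/

set_option autoImplicit false

namespace Crest.Agent.R4C.DictVx20

open Finset Crest.Agent.R4C.FLDefx935 Crest.Agent.R4C.Cutx50 Crest.Agent.R4C.Rulex945
  Crest.Agent.R4C.NHx656 Crest.Agent.R4C.PureClsx863 Crest.Agent.R4C.DictAx20
  Crest.Agent.R4C.NodeMassRx634 Crest.Agent.R4C.NodeMassx634 Crest.Agent.R4C.F5bx20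
open Crest.Agent.R4C.FLExx326 (ind ind_nonneg)
open Crest.Agent.R4C.PrefixMx882 (free mem_free)
open Crest.Agent.R4C.GWdefx982 Crest.Agent.R4C.GWnodex863 Crest.Agent.R4C.FamBudx252

variable {Z : World}

/-- every coin of the world above `X` is an actual coin of `b` -/
def AllAct (Z : World) (lam : ℕ → ℕ → Option ℤ) (b w X : ℕ) : Prop :=
  ∀ q ∈ free Z.N w, X < q → Z.coin w q → lam b q = none

lemma AllAct.mono {lam : ℕ → ℕ → Option ℤ} {b w X Y : ℕ} (h : AllAct Z lam b w X)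
    (hXY : X ≤ Y) : AllAct Z lam b w Y := fun q hq h1 h2 => h q hq (lt_of_le_of_lt hXY h1) h2

open Classical in
/-- weight sequence: actual coins, `0` below the first cut above which all coins are actual -/
noncomputable def Wb (Z : World) (lam : ℕ → ℕ → Option ℤ) (a b w j : ℕ) : ℝ :=
  if AllAct Z lam b w (Z.cut j) then Wa Z lam b w a (Z.cut j) else 0

lemma Wb_nonneg (lam : ℕ → ℕ → Option ℤ) (a b w j : ℕ) : 0 ≤ Wb Z lam a b w j := by
  unfold Wb
  split_ifs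
  · exact Wa_nonneg _ _ _ _ _
  · exact le_rfl

lemma Wb_le_one (lam : ℕ → ℕ → Option ℤ) (a b w j : ℕ) : Wb Z lam a b w j ≤ 1 := by
  unfold Wb
  split_ifs
  · exact Wa_le_one _ _ _ _ _
  · exact zero_le_one

lemma Wb_eq {lam : ℕ → ℕ → Option ℤ} {a b w j : ℕ} (h : AllAct Z lam b w (Z.cut j)) :
    Wb Z lam a b w j = Wa Z lam b w a (Z.cut j) := by
  unfold Wb
  rw [if_pos h]

/-- **the hypotheses of the budget** -/
theorem Wb_cond (h : Z.Ok) (lam : ℕ → ℕ → Option ℤ) {a b w : ℕ}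
    (ha : ∀ i, Z.nd i w → a ≤ Z.cut i) :
    ∃ ix, (∀ i, i < ix → Wb Z lam a b w i = 0) ∧
      ∀ i j, ix ≤ i → i < j → Z.birth i w → Z.birth j w →
        Wb Z lam a b w j ≤ Z.Wp (Z.cut i) (Z.cut j) w * Wb Z lam a b w i := by
  classical
  by_cases hex : ∃ i, AllAct Z lam b w (Z.cut i)
  · refine ⟨Nat.find hex, fun i hi => ?_, fun i j hi hij hbi _ => ?_⟩
    · unfold Wb
      rw [if_neg (Nat.find_min hex hi)]
    · have h1 : AllAct Z lam b w (Z.cut i) := (Nat.find_spec hex).mono (h.hcut hi)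
      rw [Wb_eq h1, Wb_eq (h1.mono (h.hcut hij.le)), ← Wa_mul (ha i hbi.1) (h.hcut hij.le),
        mul_comm]
      exact mul_le_mul_of_nonneg_right (Wa_le_Wp fun q hq hq1 _ hqc => h1 q hq hq1 hqc)
        (Wa_nonneg _ _ _ _ _)
  · push Not at hex
    have e : ∀ i, Wb Z lam a b w i = 0 := by
      intro i
      unfold Wb
      rw [if_neg (hex i)]
    refine ⟨0, fun i hi => absurd hi (Nat.not_lt_zero _), fun i j _ _ _ _ => ?_⟩
    rw [e, e, mul_zero]

/-- **budget of the actual coins**, three gaps and the additive error -/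
theorem Wb_budget (h : Z.Ok) (lam : ℕ → ℕ → Option ℤ) {a b w : ℕ} (hw : w ∣ Z.N)
    (ha : ∀ i, Z.nd i w → a ≤ Z.cut i) {D : ℕ} (hD : 1 ≤ D) :
    (∑ z ∈ Z.Zs with w ∈ Z.zd.zone z,
      Wb Z lam a b w z.1 * (Y3 Z z w + min 1 ((D : ℝ) / ((Z.pz z : ℝ) + 1)))) ≤
      8 + Nat.log 2 D := by
  obtain ⟨ix, h1, h2⟩ := Wb_cond h lam (b := b) ha
  exact budget3_kap h hw _ ix (fun i => Wb_nonneg _ _ _ _ _) (fun i => Wb_le_one _ _ _ _ _) h1 h2 hD

/-- **all coins above the birth of the zone are actual** -/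
theorem allAct_of {M : ℕ} {F : FL M} {P : Par} {A : ℕ} {B : Finset ℕ} {δ ε : ℝ} {s : ℕ}
    (hP : ParT M P A B δ ε) (h : Z.Ok) (hZ : WV Z P δ s)
    {X0 b om w : ℕ} {V : ℝ} (hS : Sc P s om Z.L V) (hvb : VB F X0 b om Z.G0 w)
    (hX0 : ∀ i, Z.nd i w → X0 ≤ Z.cut i) (hM : 0 < M) (hwN : w ∣ Z.N) (hwM : w ∣ M)
    {hf : ℕ → ℝ} (hh : ∀ k : ℕ, (2 : ℝ) ^ ((1 / (A : ℝ)) * k) ≤ hf k) {U : ℝ} (hU : U = δ / ε)
    {K : ℕ} (hK : M ≤ 2 ^ K) {l : ℕ} (hl : Z.nd l w)
    (hne : ¬ ExcF F (ind B) P.L hf (HU U) (A * l + 1) K b) :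
    AllAct Z (lamR F P) b w (Z.cut (Z.bi l w)) := by
  have hb := birth_bi hl
  exact fun q hq h1 h2 => hcoin_of hP h hZ hS hvb hX0 hM hwN hwM hh hU hK (Z.bi l w) l hb.1 hl
    (bi_le l w) (fun k h3 h4 h5 => by have := le_bi h4 h5; omega) hne q hq h1 h2

/-- **the pair weight** is at most the weight of the zone -/
theorem Wa_le_Wb (h : Z.Ok) {lam : ℕ → ℕ → Option ℤ} {a b w l : ℕ}
    (ha : a ≤ Z.cut (Z.bi l w)) (hA : AllAct Z lam b w (Z.cut (Z.bi l w))) :
    Wa Z lam b w a (Z.cut l) ≤ Wb Z lam a b w (Z.bi l w) := by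
  rw [Wb_eq hA, ← Wa_mul ha (h.hcut (bi_le l w))]
  exact mul_le_of_le_one_right (Wa_nonneg _ _ _ _ _) (Wa_le_one _ _ _ _ _)

end Crest.Agent.R4C.DictVx20
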