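import Crest.Agent.R4C.GWhyp_656

/-!
# Row 4, natural hypothesis of the GW section: depth of a point, letters, positions (helper656)

Block NH (note 3754).  `On K y τ` : the depth of the point `y` at scale `τ` is `< K`, i.e. there is
a fraction `a/k` with `k · max 1 (τ |y - a/k|) < K`.

For a word `S` (finite set of primes), a letter `r ∈ S`:
`pt γ S r = (∏_{p ∈ S, p > r} p) γ`, `sc t S r = t ∏_{p ∈ S, p ≤ r} p`.
`On K` is inherited by smaller letters (`on_down`) and by the whole word (`on_bot`).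
-/

set_option autoImplicit false

namespace Crest.Agent.R4C.NHx656

open Finset Crest.Agent.R4C.GWhx656

/-! ### depth -/

/-- the depth of `y` at scale `τ` is `< K` -/
def On (K y τ : ℝ) : Prop := ∃ (a : ℤ) (k : ℕ), 0 < k ∧ (k : ℝ) * max 1 (τ * |y - a / k|) < K

lemma On.mono {K K' y τ : ℝ} (h : On K y τ) (hK : K ≤ K') : On K' y τ := by
  obtain ⟨a, k, h1, h2⟩ := h
  exact ⟨a, k, h1, h2.trans_le hK⟩

/-- (O1) -/
lemma On.anti {K y τ τ' : ℝ} (h : On K y τ') (hτ : τ ≤ τ') : On K y τ := by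
  obtain ⟨a, k, h1, h2⟩ := h
  refine ⟨a, k, h1, lt_of_le_of_lt ?_ h2⟩
  refine mul_le_mul_of_nonneg_left (max_le_max le_rfl ?_) (Nat.cast_nonneg _)
  exact mul_le_mul_of_nonneg_right hτ (abs_nonneg _)

/-- (O2) -/
lemma On.push {K y τ : ℝ} {m : ℕ} (h : On K y (τ * m)) : On K (m * y) τ := by
  obtain ⟨a, k, h1, h2⟩ := h
  refine ⟨m * a, k, h1, ?_⟩
  have e : (m : ℝ) * y - ((m * a : ℤ) : ℝ) / k = m * (y - a / k) := by
    push_cast; ring
  rw [e, abs_mul, Nat.abs_cast, ← mul_assoc]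
  exact h2

/-- the depth is `≥ 1` -/
lemma On.one_lt {K y τ : ℝ} (h : On K y τ) : 1 < K := by
  obtain ⟨a, k, h1, h2⟩ := h
  have h3 : (1 : ℝ) ≤ k := by exact_mod_cast h1
  nlinarith [le_max_left (1 : ℝ) (τ * |y - a / k|)]

/-- (O3) uniqueness of the fraction -/
lemma frac_unique {K K' y τ τ' : ℝ} {a a' : ℤ} {k k' : ℕ} (hk : 0 < k) (hk' : 0 < k')
    (hτ : 0 < τ) (hτ' : 0 < τ') (h : (k : ℝ) * max 1 (τ * |y - a / k|) < K)
    (h' : (k' : ℝ) * max 1 (τ' * |y - a' / k'|) < K') (hKK : K * K' * (1 / τ + 1 / τ') ≤ 1) :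
    a * k' = a' * k := by
  have hk0 : (0 : ℝ) < k := by exact_mod_cast hk
  have hk0' : (0 : ℝ) < k' := by exact_mod_cast hk'
  have h1 : (k : ℝ) < K := lt_of_le_of_lt (by nlinarith [le_max_left (1 : ℝ) (τ * |y - a / k|)]) h
  have h1' : (k' : ℝ) < K' :=
    lt_of_le_of_lt (by nlinarith [le_max_left (1 : ℝ) (τ' * |y - a' / k'|)]) h'
  have h2 : (k : ℝ) * |y - a / k| < K / τ := by
    rw [lt_div_iff₀ hτ]
    refine lt_of_le_of_lt ?_ h
    calc (k : ℝ) * |y - a / k| * τ = k * (τ * |y - a / k|) := by ring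
      _ ≤ _ := mul_le_mul_of_nonneg_left (le_max_right _ _) hk0.le
  have h2' : (k' : ℝ) * |y - a' / k'| < K' / τ' := by
    rw [lt_div_iff₀ hτ']
    refine lt_of_le_of_lt ?_ h'
    calc (k' : ℝ) * |y - a' / k'| * τ' = k' * (τ' * |y - a' / k'|) := by ring
      _ ≤ _ := mul_le_mul_of_nonneg_left (le_max_right _ _) hk0'.le
  by_contra hne
  have h3 : (1 : ℝ) ≤ |((a * k' - a' * k : ℤ) : ℝ)| := by
    rw [← Int.cast_abs]
    exact_mod_cast Int.one_le_abs (sub_ne_zero.2 hne)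
  have h4 : ((a * k' - a' * k : ℤ) : ℝ) = k * (k' * (y - a' / k')) - k' * (k * (y - a / k)) := by
    push_cast
    field_simp
    ring
  rw [h4] at h3
  have h5 := abs_sub (k * (k' * (y - a' / k'))) (k' * (k * (y - a / k)))
  rw [abs_mul (k : ℝ), abs_mul (k' : ℝ) (y - _), abs_mul (k' : ℝ) (k * _), abs_mul (k : ℝ) (y - _),
    Nat.abs_cast, Nat.abs_cast] at h5
  have hK0 : 0 < K := hk0.trans h1
  have hK0' : 0 < K' := hk0'.trans h1'
  have h6 : (k : ℝ) * (k' * |y - a' / k'|) < K * (K' / τ') :=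
    mul_lt_mul' h1.le h2' (by positivity) hK0
  have h7 : (k' : ℝ) * (k * |y - a / k|) < K' * (K / τ) :=
    mul_lt_mul' h1'.le h2 (by positivity) hK0'
  have h8 : K * (K' / τ') + K' * (K / τ) = K * K' * (1 / τ + 1 / τ') := by ring
  linarith

/-! ### letters -/

/-- the point seen from the letter `r` -/
noncomputable def pt (γ : ℝ) (S : Finset ℕ) (r : ℕ) : ℝ := ((∏ p ∈ S.filter (r < ·), p : ℕ) : ℝ) * γ

/-- the scale after the letter `r` -/
noncomputable def sc (t : ℝ) (S : Finset ℕ) (r : ℕ) : ℝ :=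
  t * ((∏ p ∈ S.filter (· ≤ r), p : ℕ) : ℝ)

lemma pt_sc_split {γ t : ℝ} {S : Finset ℕ} {r r' : ℕ} (h : r ≤ r') :
    pt γ S r = ((∏ p ∈ S.filter (fun p => r < p ∧ p ≤ r'), p : ℕ) : ℝ) * pt γ S r' ∧
      sc t S r' = sc t S r * ((∏ p ∈ S.filter (fun p => r < p ∧ p ≤ r'), p : ℕ) : ℝ) := by
  have e1 : S.filter (r < ·) = S.filter (fun p => r < p ∧ p ≤ r') ∪ S.filter (r' < ·) := by
    ext p
    simp only [mem_filter, mem_union]
    constructor
    · rintro ⟨h1, h2⟩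
      by_cases h3 : p ≤ r'
      · exact Or.inl ⟨h1, h2, h3⟩
      · exact Or.inr ⟨h1, by omega⟩
    · rintro (⟨h1, h2, _⟩ | ⟨h1, h2⟩)
      · exact ⟨h1, h2⟩
      · exact ⟨h1, by omega⟩
  have d1 : Disjoint (S.filter (fun p => r < p ∧ p ≤ r')) (S.filter (r' < ·)) := by
    rw [disjoint_left]
    intro p h1 h2
    have := (mem_filter.1 h1).2
    have := (mem_filter.1 h2).2
    omega
  have e2 : S.filter (· ≤ r') = S.filter (· ≤ r) ∪ S.filter (fun p => r < p ∧ p ≤ r') := by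
    ext p
    simp only [mem_filter, mem_union]
    constructor
    · rintro ⟨h1, h2⟩
      by_cases h3 : p ≤ r
      · exact Or.inl ⟨h1, h3⟩
      · exact Or.inr ⟨h1, by omega, h2⟩
    · rintro (⟨h1, h2⟩ | ⟨h1, _, h2⟩)
      · exact ⟨h1, by omega⟩
      · exact ⟨h1, h2⟩
  have d2 : Disjoint (S.filter (· ≤ r)) (S.filter (fun p => r < p ∧ p ≤ r')) := by
    rw [disjoint_left]
    intro p h1 h2
    have := (mem_filter.1 h1).2
    have := (mem_filter.1 h2).2
    omega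
  unfold pt sc
  constructor
  · rw [e1, prod_union d1]
    push_cast
    ring
  · rw [e2, prod_union d2]
    push_cast
    ring

/-- `On` is inherited by smaller letters -/
lemma on_down {K γ t : ℝ} {S : Finset ℕ} {r r' : ℕ} (h : r ≤ r')
    (hon : On K (pt γ S r') (sc t S r')) : On K (pt γ S r) (sc t S r) := by
  obtain ⟨h1, h2⟩ := pt_sc_split (γ := γ) (t := t) (S := S) h
  rw [h1]
  rw [h2] at hon
  exact hon.push

/-- `On` at any letter gives `On` of the whole word -/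
lemma on_bot {K γ t : ℝ} {S : Finset ℕ} {r : ℕ} (hon : On K (pt γ S r) (sc t S r)) :
    On K (((∏ p ∈ S, p : ℕ) : ℝ) * γ) t := by
  have h1 : (∏ p ∈ S, p) = (∏ p ∈ S.filter (· ≤ r), p) * ∏ p ∈ S.filter (r < ·), p := by
    rw [← prod_union]
    · congr 1
      ext p
      simp only [mem_filter, mem_union]
      constructor
      · intro h
        by_cases h3 : p ≤ r
        · exact Or.inl ⟨h, h3⟩
        · exact Or.inr ⟨h, by omega⟩
      · rintro (⟨h, _⟩ | ⟨h, _⟩) <;> exact h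
    · rw [disjoint_left]
      intro p h1 h2
      have := (mem_filter.1 h1).2
      have := (mem_filter.1 h2).2
      omega
  rw [h1]
  push_cast
  rw [mul_assoc]
  unfold pt at hon
  unfold sc at hon
  have := hon.push
  push_cast at this
  exact this

/-! ### positions -/

/-- smallest letter -/
noncomputable def mn (S : Finset ℕ) : ℕ := sInf (S : Set ℕ)

lemma mn_mem {S : Finset ℕ} (h : S.Nonempty) : mn S ∈ S := by
  have : mn S ∈ (S : Set ℕ) := Nat.sInf_mem (by simpa using h)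
  simpa using this

lemma mn_le {S : Finset ℕ} {p : ℕ} (h : p ∈ S) : mn S ≤ p := Nat.sInf_le (by simpa using h)

/-- threshold of the run: `3 r₁^δ` -/
noncomputable def K1 (δ : ℝ) (S : Finset ℕ) : ℝ := 3 * (mn S : ℝ) ^ δ

/-- first letter at which the run centre is lost (`0` if there is none) -/
noncomputable def ps (δ γ t : ℝ) (S : Finset ℕ) : ℕ :=
  sInf {p : ℕ | p ∈ S ∧ ¬ On (K1 δ S) (pt γ S p) (sc t S p)}

/-- the run is lost at some letter -/
def Lost (δ γ t : ℝ) (S : Finset ℕ) : Prop := ∃ p ∈ S, ¬ On (K1 δ S) (pt γ S p) (sc t S p)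

lemma ps_spec {δ γ t : ℝ} {S : Finset ℕ} (h : Lost δ γ t S) :
    ps δ γ t S ∈ S ∧ ¬ On (K1 δ S) (pt γ S (ps δ γ t S)) (sc t S (ps δ γ t S)) := by
  have h1 : {p : ℕ | p ∈ S ∧ ¬ On (K1 δ S) (pt γ S p) (sc t S p)}.Nonempty := h
  exact Nat.sInf_mem h1

lemma on_of_lt_ps {δ γ t : ℝ} {S : Finset ℕ} {r : ℕ} (hr : r ∈ S) (h : r < ps δ γ t S) :
    On (K1 δ S) (pt γ S r) (sc t S r) := by
  by_contra hn
  exact absurd (Nat.sInf_le (show r ∈ {p : ℕ | p ∈ S ∧ ¬ On (K1 δ S) (pt γ S p) (sc t S p)}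
    from ⟨hr, hn⟩)) (not_le.2 h)

lemma not_on_of_ps_le {δ γ t : ℝ} {S : Finset ℕ} {r : ℕ} (hl : Lost δ γ t S)
    (h : ps δ γ t S ≤ r) : ¬ On (K1 δ S) (pt γ S r) (sc t S r) := fun hon =>
  (ps_spec hl).2 (on_down h hon)

/-- nominal coins of the gap before the letter `r`; `cut` = activation cut (`T ↦ T^A`, any function
with `(τ/2)^A ≤ cut τ ≤ τ^A`) -/
noncomputable def nc (cut : ℝ → ℝ) (δ γ t : ℝ) (P S : Finset ℕ) (r : ℕ) : Finset ℕ := by
  classical
  exact P.filter fun q : ℕ => cut (t * ((∏ p ∈ S.filter (· < r), p : ℕ) : ℝ)) < (q : ℝ) ∧ q < r ∧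
    ¬ On (3 * (q : ℝ) ^ δ) (pt γ S r) (sc t S r)

/-- BAD words of block NH (2): (1a) the run centre does not exist at the first letter and the gap
before it has coin mass `≤ s`, or (2) the run centre is lost at `ps`, and the gap before `ps` is
empty or has coin mass `≤ s` -/
def Bad (cut : ℝ → ℝ) (δ γ t s : ℝ) (P S : Finset ℕ) : Prop :=
  S.Nonempty ∧
  ((¬ On (K1 δ S) (pt γ S (mn S)) (sc t S (mn S)) ∧
      ∑ q ∈ nc cut δ γ t P S (mn S), (1 : ℝ) / q ≤ s) ∨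
   (On (K1 δ S) (pt γ S (mn S)) (sc t S (mn S)) ∧ Lost δ γ t S ∧
      ((ps δ γ t S : ℝ) ≤ cut (t * ((∏ p ∈ S.filter (· < ps δ γ t S), p : ℕ) : ℝ)) ∨
        ∑ q ∈ nc cut δ γ t P S (ps δ γ t S), (1 : ℝ) / q ≤ s)))

end Crest.Agent.R4C.NHx656
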