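import Crest.Agent.R4C.DBirth_617
import Crest.Agent.R4C.NHdef_656

/-!
# Row 4, GW section: DispRare of BLOCK NH (note 3754 (4)); helper617

`OnD K y τ` : `y` has a fraction `a/k` with `k max(1, τ |y - a/k|) < K`.

`disprare` : `τ ≥ 16`, `K ≥ 1`, `K^64 ≤ τ`, `0 ≤ del ≤ 1/8`; `F` primes `> τ^8`, each `p ∈ F` with
`OnD K (p y) τ`, `¬ OnD K y (τ p)` and some `a/k`, `k^2 ≤ τ`, `k max(1, τ p |y - a/k|) < 3 p^del`:
then `∑_{p ∈ F} 1/p ≤ C τ^(-1/8)`.
-/

set_option autoImplicit false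

namespace Crest.Agent.R4C.DispRarex617

open Finset Crest.Agent.R4C.DBirthx617

/-- depth `< K` at scale `τ` -/
def OnD (K y τ : ℝ) : Prop :=
  ∃ (a : ℤ) (k : ℕ), 1 ≤ k ∧ (k:ℝ) * max 1 (τ * |y - a / k|) < K

/-- two fractions are equal or far apart -/
lemma frac_sep {a a' : ℤ} {k k' : ℕ} (hk : 1 ≤ k) (hk' : 1 ≤ k')
    (h : (a:ℝ) / k ≠ a' / k') : 1 / ((k:ℝ) * k') ≤ |(a:ℝ) / k - a' / k'| := by
  have hk0 : (0:ℝ) < k := by exact_mod_cast hk
  have hk0' : (0:ℝ) < k' := by exact_mod_cast hk'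
  have e : (a:ℝ) / k - a' / k' = ((a * k' - a' * k : ℤ) : ℝ) / (k * k') := by
    push_cast; field_simp
  have hne : (a * k' - a' * k : ℤ) ≠ 0 := by
    intro h0
    apply h
    rw [div_eq_div_iff hk0.ne' hk0'.ne']
    have : (a * k' : ℤ) = a' * k := by linarith
    exact_mod_cast this
  have h1 : (1:ℝ) ≤ |((a * k' - a' * k : ℤ) : ℝ)| := by
    rw [← Int.cast_abs]
    exact_mod_cast Int.one_le_abs hne
  rw [e, abs_div, abs_of_pos (mul_pos hk0 hk0')]
  exact div_le_div_of_nonneg_right h1 (by positivity)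

/-- reduced form: `p a / k = a' / k'` with `p` prime `> k` gives `a/k = b/j`, `j ≤ k'` -/
lemma reduce {a a' : ℤ} {k k' p : ℕ} (hk : 1 ≤ k) (hk' : 1 ≤ k') (hp : p.Prime) (hpk : k < p)
    (h : (p:ℝ) * (a / k) = a' / k') : ∃ (b : ℤ) (j : ℕ), 1 ≤ j ∧ j ≤ k' ∧ (a:ℝ) / k = b / j := by
  have hk0 : (k:ℝ) ≠ 0 := by positivity
  have hk0' : (k':ℝ) ≠ 0 := by positivity
  set q : ℚ := (a:ℚ) / k with hq
  have hqr : (q:ℝ) = (a:ℝ) / k := by rw [hq]; push_cast; ring
  refine ⟨q.num, q.den, q.den_pos, ?_, ?_⟩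
  · have hden : q.den ∣ k := by
      have h1 : ((q.den : ℕ) : ℤ) ∣ (k:ℤ) := by
        have h2 := Rat.den_dvd a (k:ℤ)
        have e : Rat.divInt a (k:ℤ) = q := by rw [Rat.divInt_eq_div, hq]; push_cast; rfl
        rwa [e] at h2
      exact_mod_cast h1
    have hpd : Nat.Coprime p q.den := by
      rw [Nat.Prime.coprime_iff_not_dvd hp]
      intro hd
      have := Nat.le_of_dvd (by omega) (hd.trans hden)
      omega
    -- p * num * k' = a' * den
    have h3 : (p:ℝ) * q.num * k' = a' * q.den := by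
      have e1 : (a:ℝ) / k = (q.num : ℝ) / q.den := by rw [← hqr, Rat.cast_def]
      rw [e1] at h
      have hd0 : (q.den : ℝ) ≠ 0 := by
        have := q.den_pos
        positivity
      field_simp at h
      linarith
    have h4 : (p:ℤ) * q.num * k' = a' * q.den := by exact_mod_cast h3
    have h5 : (q.den : ℤ) ∣ (p:ℤ) * q.num * k' := ⟨a', by rw [h4]; ring⟩
    have h6 : IsCoprime (q.den : ℤ) ((p:ℤ) * q.num) := by
      refine IsCoprime.mul_right ?_ ?_
      · exact (Nat.isCoprime_iff_coprime.2 hpd).symm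
      · have h7 := q.reduced
        rw [Int.isCoprime_iff_gcd_eq_one, Int.gcd_comm]
        unfold Nat.Coprime at h7
        rw [Int.gcd_def]
        simpa using h7
    have h7 : (q.den : ℤ) ∣ (k':ℤ) := h6.dvd_of_dvd_mul_left h5
    exact Nat.le_of_dvd (by omega) (by exact_mod_cast h7)
  · rw [← hqr, Rat.cast_def]

set_option maxHeartbeats 1000000 in
/-- **displacement births are rare** (BLOCK NH (4)) -/
theorem disprare : ∃ C : ℝ, 0 < C ∧ ∀ (y τ K del : ℝ), 16 ≤ τ → 1 ≤ K → K ^ 64 ≤ τ →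
    del ≤ 1 / 8 → ∀ F : Finset ℕ, (∀ p ∈ F, p.Prime ∧ τ ^ 8 < p ∧ OnD K (p * y) τ ∧
      ¬ OnD K y (τ * p) ∧ ∃ (a : ℤ) (k : ℕ), 1 ≤ k ∧ (k:ℝ) ^ 2 ≤ τ ∧
        (k:ℝ) * max 1 (τ * p * |y - a / k|) < 3 * (p:ℝ) ^ del) →
    ∑ p ∈ F, (1:ℝ) / p ≤ C * τ ^ (-(1 / 8) : ℝ) := by
  classical
  obtain ⟨C, hC, hdb⟩ := dbirth
  refine ⟨4 * C, by positivity, fun y τ K del hτ hK hKτ hdel F hF => ?_⟩
  have hτ0 : 0 < τ := by linarith
  have hK0 : 0 < K := by linarith
  have hτ1 : 1 ≤ τ := by linarith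
  rcases F.eq_empty_or_nonempty with rfl | ⟨p0, hp0⟩
  · simp only [Finset.sum_empty]; positivity
  -- powers of τ : r = τ^(1/64), τ = r^64
  set r : ℝ := τ ^ (1 / 64 : ℝ) with hr
  have hr0 : 0 < r := Real.rpow_pos_of_pos hτ0 _
  have hr64 : r ^ 64 = τ := by
    rw [hr, ← Real.rpow_natCast, ← Real.rpow_mul hτ0.le]; norm_num
  have hr1 : 1 ≤ r := Real.one_le_rpow hτ1 (by norm_num)
  have hKr : K ≤ r := by
    have : K ^ 64 ≤ r ^ 64 := by rw [hr64]; exact hKτ
    exact le_of_pow_le_pow_left₀ (by norm_num) hr0.le this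
  have hr16 : 2 ≤ r ^ 16 := by
    have h1 : (2:ℝ) ^ 4 ≤ (r ^ 16) ^ 4 := by
      rw [← pow_mul, show 16 * 4 = 64 by norm_num, hr64]; linarith
    exact le_of_pow_le_pow_left₀ (by norm_num) (by positivity) h1
  have hpow : ∀ {m n : ℕ}, m ≤ n → r ^ m ≤ r ^ n := fun h => pow_le_pow_right₀ hr1 h
  -- facts for one prime
  have hp1 : ∀ p ∈ F, r ^ 512 < p := by
    intro p hp
    have := (hF p hp).2.1
    rw [← hr64, ← pow_mul] at this
    exact this
  choose! a k hk1 hk2 hk3 using fun p (hp : p ∈ F) => (hF p hp).2.2.2.2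
  have hk32 : ∀ p ∈ F, (k p : ℝ) ≤ r ^ 32 := by
    intro p hp
    have h1 : (k p : ℝ) ^ 2 ≤ (r ^ 32) ^ 2 := by
      rw [← pow_mul, show 32 * 2 = 64 by norm_num, hr64]; exact hk2 p hp
    exact le_of_pow_le_pow_left₀ (by norm_num) (by positivity) h1
  have hkp : ∀ p ∈ F, k p < p := by
    intro p hp
    have h1 : ((k p : ℕ) : ℝ) < p :=
      lt_of_le_of_lt ((hk32 p hp).trans (hpow (by norm_num))) (hp1 p hp)
    exact_mod_cast h1
  -- 3 p^del ≤ p^(1/4) / r^?
  have hpd : ∀ p ∈ F, 3 * (p:ℝ) ^ del ≤ (p:ℝ) ^ (1 / 4 : ℝ) := by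
    intro p hp
    have hpp : 0 < (p:ℝ) := lt_trans (by positivity) (hp1 p hp)
    have hpge : (1:ℝ) ≤ p := (one_le_pow₀ hr1).trans (hp1 p hp).le
    have h1 : (3:ℝ) ≤ (p:ℝ) ^ (1 / 8 : ℝ) := by
      have h2 : (r ^ 512) ^ (1 / 8 : ℝ) ≤ (p:ℝ) ^ (1 / 8 : ℝ) :=
        Real.rpow_le_rpow (by positivity) (hp1 p hp).le (by norm_num)
      have h3 : (r ^ 512) ^ (1 / 8 : ℝ) = τ := by
        rw [← Real.rpow_natCast, ← Real.rpow_mul hr0.le, ← hr64, ← Real.rpow_natCast]
        norm_num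
      rw [h3] at h2
      linarith
    have h4 : (p:ℝ) ^ del ≤ (p:ℝ) ^ (1 / 8 : ℝ) := Real.rpow_le_rpow_of_exponent_le hpge hdel
    calc 3 * (p:ℝ) ^ del ≤ (p:ℝ) ^ (1 / 8 : ℝ) * (p:ℝ) ^ (1 / 8 : ℝ) :=
          mul_le_mul h1 h4 (by positivity) (by positivity)
      _ = (p:ℝ) ^ (1 / 4 : ℝ) := by rw [← Real.rpow_add hpp]; norm_num
  -- upper bound of the displacement
  have hup : ∀ p ∈ F, τ * p * |y - a p / k p| ≤ (p:ℝ) ^ (1 / 4 : ℝ) := by
    intro p hp
    have h1 := hk3 p hp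
    have h2 : (1:ℝ) ≤ k p := by exact_mod_cast hk1 p hp
    have h3 := le_max_right 1 (τ * p * |y - a p / k p|)
    have h4 := le_max_left 1 (τ * p * |y - a p / k p|)
    have h5 := hpd p hp
    have h6 : 1 * max 1 (τ * p * |y - a p / k p|) ≤ k p * max 1 (τ * p * |y - a p / k p|) :=
      mul_le_mul_of_nonneg_right h2 (by linarith)
    linarith
  -- the fractions coincide
  have hpr : ∀ p ∈ F, (p:ℝ) ^ (1 / 4 : ℝ) * r ^ 384 ≤ p := by
    intro p hp
    have hpp : 0 < (p:ℝ) := lt_trans (by positivity) (hp1 p hp)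
    have h2 : (r ^ 512) ^ (3 / 4 : ℝ) ≤ (p:ℝ) ^ (3 / 4 : ℝ) :=
      Real.rpow_le_rpow (by positivity) (hp1 p hp).le (by norm_num)
    have h3 : (r ^ 512) ^ (3 / 4 : ℝ) = r ^ 384 := by
      rw [← Real.rpow_natCast, ← Real.rpow_mul hr0.le, ← Real.rpow_natCast]
      norm_num
    rw [h3] at h2
    calc (p:ℝ) ^ (1 / 4 : ℝ) * r ^ 384 ≤ (p:ℝ) ^ (1 / 4 : ℝ) * (p:ℝ) ^ (3 / 4 : ℝ) :=
          mul_le_mul_of_nonneg_left h2 (by positivity)
      _ = p := by rw [← Real.rpow_add hpp]; norm_num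
  have hη : ∀ p ∈ F, |y - a p / k p| * r ^ 448 ≤ 1 := by
    intro p hp
    have hpp : 0 < (p:ℝ) := lt_trans (by positivity) (hp1 p hp)
    have h1 := hup p hp
    have h2 := hpr p hp
    have h3 : τ * p * |y - a p / k p| * r ^ 384 ≤ p :=
      (mul_le_mul_of_nonneg_right h1 (by positivity)).trans h2
    have h4 : (|y - a p / k p| * r ^ 448) * p ≤ 1 * p := by
      calc (|y - a p / k p| * r ^ 448) * p = (r ^ 64) * p * |y - a p / k p| * r ^ 384 := by ring
        _ = τ * p * |y - a p / k p| * r ^ 384 := by rw [hr64]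
        _ ≤ 1 * p := by linarith
    exact le_of_mul_le_mul_right h4 hpp
  have heq : ∀ p ∈ F, (a p : ℝ) / k p = a p0 / k p0 := by
    intro p hp
    by_contra hne
    have h1 := frac_sep (hk1 p hp) (hk1 p0 hp0) hne
    have h2 : |(a p : ℝ) / k p - a p0 / k p0| ≤ |y - a p / k p| + |y - a p0 / k p0| := by
      have e : (a p : ℝ) / k p - a p0 / k p0 = (y - a p0 / k p0) - (y - a p / k p) := by ring
      rw [e]
      refine (abs_sub _ _).trans (by linarith)
    have h3 := hη p hp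
    have h4 := hη p0 hp0
    have hkk : (k p : ℝ) * k p0 ≤ r ^ 64 := by
      calc (k p : ℝ) * k p0 ≤ r ^ 32 * r ^ 32 :=
            mul_le_mul (hk32 p hp) (hk32 p0 hp0) (by positivity) (by positivity)
        _ = r ^ 64 := by ring
    have hkk0 : 0 < (k p : ℝ) * k p0 := by
      have h5 : (1:ℝ) ≤ k p := by exact_mod_cast hk1 p hp
      have h6 : (1:ℝ) ≤ k p0 := by exact_mod_cast hk1 p0 hp0
      nlinarith
    have h5 : 1 / r ^ 64 ≤ 1 / ((k p : ℝ) * k p0) := one_div_le_one_div_of_le hkk0 hkk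
    have h6 : 1 / r ^ 64 ≤ |y - a p / k p| + |y - a p0 / k p0| := h5.trans (h1.trans h2)
    rw [div_le_iff₀ (by positivity)] at h6
    have h7 : (|y - a p / k p| + |y - a p0 / k p0|) * r ^ 448 ≤ 2 := by nlinarith
    have h8 : r ^ 384 ≤ 2 := by
      calc r ^ 384 = 1 * r ^ 384 := by ring
        _ ≤ ((|y - a p / k p| + |y - a p0 / k p0|) * r ^ 64) * r ^ 384 :=
            mul_le_mul_of_nonneg_right h6 (by positivity)
        _ = (|y - a p / k p| + |y - a p0 / k p0|) * r ^ 448 := by ring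
        _ ≤ 2 := h7
    have h9 : (2:ℝ) < r ^ 384 := by
      calc (2:ℝ) < 2 * 2 := by norm_num
        _ ≤ r ^ 16 * r ^ 16 := mul_le_mul hr16 hr16 (by norm_num) (by positivity)
        _ = r ^ 32 := by ring
        _ ≤ r ^ 384 := hpow (by norm_num)
    linarith
  set u : ℤ := a p0 with hu
  set w : ℕ := k p0 with hw
  have hw1 : 1 ≤ w := hk1 p0 hp0
  have hwr : (w:ℝ) ≤ r ^ 32 := hk32 p0 hp0
  set η : ℝ := |y - u / w| with hηd
  have hηp : ∀ p ∈ F, τ * p * η ≤ (p:ℝ) ^ (1 / 4 : ℝ) := by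
    intro p hp
    have h1 := hup p hp
    rw [heq p hp] at h1
    exact h1
  -- lower bound of the displacement
  have hlow : ∀ p ∈ F, r ^ 16 ≤ τ * p * η := by
    intro p hp
    obtain ⟨hpp, _, ⟨a', k', hk', hon⟩, hnot, _⟩ := hF p hp
    have hk'0 : (0:ℝ) < k' := by exact_mod_cast hk'
    have hm1 := le_max_left 1 (τ * |p * y - a' / k'|)
    have hm2 := le_max_right 1 (τ * |p * y - a' / k'|)
    have hk'K : (k':ℝ) < K := by nlinarith
    have hd : τ * |p * y - a' / k'| * k' < K := by nlinarith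
    by_cases hE : (p:ℝ) * (u / w) = a' / k'
    · exfalso
      obtain ⟨b, j, hj1, hjk, hbj⟩ := reduce hw1 hk' hpp (by
        have h1 : ((w : ℕ) : ℝ) < p :=
          lt_of_le_of_lt (hwr.trans (hpow (by norm_num))) (hp1 p hp)
        exact_mod_cast h1) hE
      apply hnot
      refine ⟨b, j, hj1, ?_⟩
      have hp0' : (0:ℝ) < p := by exact_mod_cast hpp.pos
      have e1 : τ * p * |y - b / j| = τ * |p * y - a' / k'| := by
        rw [← hbj, ← hE]
        have : (p:ℝ) * y - p * (u / w) = p * (y - u / w) := by ring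
        rw [this, abs_mul, abs_of_pos hp0']
        ring
      rw [e1]
      refine lt_of_le_of_lt ?_ hon
      refine mul_le_mul_of_nonneg_right ?_ (by linarith)
      exact_mod_cast hjk
    · have hE' : (((p:ℤ) * u : ℤ) : ℝ) / w ≠ a' / k' := by
        intro h0; apply hE; rw [← h0]; push_cast; ring
      have h1 := frac_sep hw1 hk' hE'
      have hpp0 : (0:ℝ) < p := by exact_mod_cast hpp.pos
      have h2 : |(((p:ℤ) * u : ℤ) : ℝ) / w - a' / k'| ≤ p * η + |p * y - a' / k'| := by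
        have e : (((p:ℤ) * u : ℤ) : ℝ) / w - a' / k' =
            (p * y - a' / k') - p * (y - u / w) := by push_cast; ring
        rw [e]
        refine (abs_sub _ _).trans ?_
        rw [abs_mul, abs_of_pos hpp0]
        linarith
      have hw0 : (0:ℝ) < w := by exact_mod_cast hw1
      -- multiply by τ w k'
      have h3 : 1 ≤ (p * η + |p * y - a' / k'|) * (w * k') := by
        have h4 := h1.trans h2
        rwa [div_le_iff₀ (by positivity)] at h4
      have h4 : τ ≤ (τ * p * η) * (w * k') + w * (τ * |p * y - a' / k'| * k') := by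
        nlinarith
      have h5 : w * (τ * |p * y - a' / k'| * k') ≤ r ^ 32 * K :=
        mul_le_mul hwr hd.le (by positivity) (by positivity)
      have h6 : (τ * p * η) * (w * k') ≤ (τ * p * η) * (r ^ 32 * K) := by
        refine mul_le_mul_of_nonneg_left ?_ (by positivity)
        exact mul_le_mul hwr hk'K.le (by positivity) (by positivity)
      have h7 : r ^ 32 * K ≤ r ^ 33 := by
        calc r ^ 32 * K ≤ r ^ 32 * r := mul_le_mul_of_nonneg_left hKr (by positivity)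
          _ = r ^ 33 := by ring
      have h8 : (τ * p * η) * (r ^ 32 * K) ≤ (τ * p * η) * r ^ 33 :=
        mul_le_mul_of_nonneg_left h7 (by positivity)
      have h9 : r ^ 64 ≤ (τ * p * η) * r ^ 33 + r ^ 33 := by rw [hr64]; linarith
      have h10 : r ^ 31 ≤ τ * p * η + 1 := by
        have : r ^ 31 * r ^ 33 ≤ (τ * p * η + 1) * r ^ 33 := by
          calc r ^ 31 * r ^ 33 = r ^ 64 := by ring
            _ ≤ _ := by linarith
        exact le_of_mul_le_mul_right this (by positivity)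
      have h11 : r ^ 16 + 1 ≤ r ^ 31 := by
        have h12 : (3 / 2 : ℝ) ≤ r ^ 15 := by
          have h13 : (3 / 2 : ℝ) ^ 16 ≤ (r ^ 15) ^ 16 := by
            calc (3 / 2 : ℝ) ^ 16 ≤ 2 ^ 15 := by norm_num
              _ ≤ (r ^ 16) ^ 15 := pow_le_pow_left₀ (by norm_num) hr16 15
              _ = (r ^ 15) ^ 16 := by ring
          exact le_of_pow_le_pow_left₀ (by norm_num) (by positivity) h13
        have e : r ^ 31 = r ^ 16 * r ^ 15 := by ring
        rw [e]
        nlinarith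
      linarith
  have hη0 : 0 < η := by
    have h1 := hlow p0 hp0
    have h2 : 0 < τ * p0 * η := lt_of_lt_of_le (by positivity) h1
    have h3 : 0 < (p0:ℝ) := lt_trans (by positivity) (hp1 p0 hp0)
    exact (pos_iff_pos_of_mul_pos h2).1 (by positivity)
  -- the window
  set E : ℝ := 1 / (τ * η) with hE
  have hE0 : 0 < E := by positivity
  have hE384 : r ^ 384 ≤ E := by
    have h1 := hηp p0 hp0
    have h2 := hpr p0 hp0
    have h3 : 0 < (p0:ℝ) := lt_trans (by positivity) (hp1 p0 hp0)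
    rw [hE, le_div_iff₀ (by positivity)]
    have h4 : (r ^ 384 * (τ * η)) * p0 ≤ 1 * p0 := by
      calc (r ^ 384 * (τ * η)) * p0 = τ * p0 * η * r ^ 384 := by ring
        _ ≤ (p0:ℝ) ^ (1 / 4 : ℝ) * r ^ 384 := mul_le_mul_of_nonneg_right h1 (by positivity)
        _ ≤ 1 * p0 := by linarith
    exact le_of_mul_le_mul_right h4 h3
  have hE1 : 1 ≤ E := (one_le_pow₀ hr1).trans hE384
  set X : ℝ := r ^ 16 * E / 2 with hX
  have hXE : r ^ 384 ≤ X := by
    have h1 : 2 * E ≤ r ^ 16 * E := mul_le_mul_of_nonneg_right hr16 hE0.le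
    rw [hX]; linarith
  set t : ℝ := τ / K with ht
  have ht0 : 0 < t := by positivity
  have htτ : t ≤ τ := div_le_self hτ0.le hK
  have htX : t ^ 4 ≤ X := by
    calc t ^ 4 ≤ τ ^ 4 := pow_le_pow_left₀ ht0.le htτ 4
      _ = r ^ 256 := by rw [← hr64]; ring
      _ ≤ r ^ 384 := hpow (by norm_num)
      _ ≤ X := hXE
  have hX16 : 16 ≤ X := by
    calc (16:ℝ) ≤ τ := hτ
      _ = r ^ 64 := hr64.symm
      _ ≤ r ^ 384 := hpow (by norm_num)
      _ ≤ X := hXE
  have hwin : ∀ p ∈ F, X < p ∧ (p:ℝ) ≤ X ^ 2 := by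
    intro p hp
    have hpp : 0 < (p:ℝ) := lt_trans (by positivity) (hp1 p hp)
    have h1 := hlow p hp
    have h2 := hηp p hp
    have hτη : 0 < τ * η := by positivity
    have h3 : r ^ 16 * E ≤ p := by
      rw [hE, mul_one_div, div_le_iff₀ hτη]; linarith
    constructor
    · have : 0 < r ^ 16 * E := by positivity
      rw [hX]; linarith
    · have h4 : (τ * p * η) ^ 4 ≤ p := by
        calc (τ * p * η) ^ 4 ≤ ((p:ℝ) ^ (1 / 4 : ℝ)) ^ 4 :=
              pow_le_pow_left₀ (by positivity) h2 4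
          _ = p := by
              rw [← Real.rpow_natCast, ← Real.rpow_mul hpp.le]; norm_num
      have h5 : (p:ℝ) ^ 3 ≤ E ^ 4 := by
        have h6 : (p:ℝ) ^ 3 * (τ * η) ^ 4 ≤ 1 := by
          have h7 : ((p:ℝ) ^ 3 * (τ * η) ^ 4) * (p:ℝ) ≤ 1 * (p:ℝ) := by
            have e7 : ((p:ℝ) ^ 3 * (τ * η) ^ 4) * (p:ℝ) = (τ * (p:ℝ) * η) ^ 4 := by ring
            rw [e7, one_mul]; exact h4
          exact le_of_mul_le_mul_right h7 hpp
        rw [hE, div_pow, one_pow, le_div_iff₀ (by positivity)]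
        exact h6
      have h6 : (p:ℝ) ^ 3 ≤ (X ^ 2) ^ 3 := by
        refine h5.trans ?_
        have e : (X ^ 2) ^ 3 = (r ^ 16) ^ 6 * E ^ 6 / 64 := by rw [hX]; ring
        rw [e]
        have h7 : (64:ℝ) ≤ (r ^ 16) ^ 6 := by
          calc (64:ℝ) = 2 ^ 6 := by norm_num
            _ ≤ (r ^ 16) ^ 6 := pow_le_pow_left₀ (by norm_num) hr16 6
        have h8 : E ^ 4 ≤ E ^ 6 := pow_le_pow_right₀ hE1 (by norm_num)
        have h9 : 64 * E ^ 6 ≤ (r ^ 16) ^ 6 * E ^ 6 :=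
          mul_le_mul_of_nonneg_right h7 (by positivity)
        linarith
      exact le_of_pow_le_pow_left₀ (by norm_num) (by positivity) h6
  -- the classes
  choose! a' k' hk'1 hon using fun p (hp : p ∈ F) => (hF p hp).2.2.1
  set N : ℕ := ⌈K⌉₊ with hN
  have hNK : (N:ℝ) ≤ 2 * K := by
    have := Nat.ceil_lt_add_one hK0.le
    linarith
  have hk'K : ∀ p ∈ F, (k' p : ℝ) < K := by
    intro p hp
    have h1 := hon p hp
    have h2 := le_max_left 1 (τ * |p * y - a' p / k' p|)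
    have h3 : (1:ℝ) ≤ k' p := by exact_mod_cast hk'1 p hp
    nlinarith
  have hd : ∀ p ∈ F, |p * y - a' p / k' p| ≤ 1 / t := by
    intro p hp
    have h1 := hon p hp
    have h2 := le_max_right 1 (τ * |p * y - a' p / k' p|)
    have h3 : (1:ℝ) ≤ k' p := by exact_mod_cast hk'1 p hp
    have h4 : 0 ≤ τ * |p * y - a' p / k' p| := by positivity
    rw [ht, one_div_div, le_div_iff₀ hτ0]
    nlinarith
  set cls : ℕ → ℕ × ℕ := fun p => (k' p, (a' p % (k' p : ℤ)).toNat) with hcls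
  have hmem : ∀ p ∈ F, cls p ∈ Finset.range N ×ˢ Finset.range N := by
    intro p hp
    have h1 : k' p < N := Nat.lt_ceil.2 (hk'K p hp)
    have hkz : (0:ℤ) < k' p := by exact_mod_cast hk'1 p hp
    have h2 : a' p % (k' p : ℤ) < k' p := Int.emod_lt_of_pos _ hkz
    have h3 : 0 ≤ a' p % (k' p : ℤ) := Int.emod_nonneg _ hkz.ne'
    rw [Finset.mem_product, Finset.mem_range, Finset.mem_range]
    refine ⟨h1, ?_⟩
    show (a' p % (k' p : ℤ)).toNat < N
    omega
  have hK16 : K ≤ r ^ 16 := hKr.trans (by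
    calc r = r ^ 1 := (pow_one r).symm
      _ ≤ r ^ 16 := hpow (by norm_num))
  have hcl : ∀ x ∈ Finset.range N ×ˢ Finset.range N,
      ∑ p ∈ F.filter (fun p => cls p = x), (1:ℝ) / p ≤ C / (r ^ 16 / K) := by
    rintro ⟨j, c⟩ _
    refine hdb y ((c:ℝ) / j) t (r ^ 16 / K) X u w hw1 ?_ ?_ ?_ htX hX16 _ fun p hp => ?_
    · rw [ht, le_div_iff₀ hK0]
      calc (w:ℝ) * K ≤ r ^ 32 * r := mul_le_mul hwr hKr hK0.le (by positivity)
        _ = r ^ 33 := by ring
        _ ≤ r ^ 64 := hpow (by norm_num)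
        _ = τ := hr64
    · rw [le_div_iff₀ hK0]; linarith
    · rw [ht]
      refine div_le_div_of_nonneg_right ?_ hK0.le
      rw [← hr64]; exact hpow (by norm_num)
    · rw [Finset.mem_filter] at hp
      obtain ⟨hpF, hpc⟩ := hp
      have hj : k' p = j := congrArg Prod.fst hpc
      have hc : (a' p % (k' p : ℤ)).toNat = c := congrArg Prod.snd hpc
      have hkz : (0:ℤ) < k' p := by exact_mod_cast hk'1 p hpF
      have h3 : 0 ≤ a' p % (k' p : ℤ) := Int.emod_nonneg _ hkz.ne'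
      refine ⟨(hF p hpF).1, (hwin p hpF).1, (hwin p hpF).2, ⟨a' p / (k' p : ℤ), ?_⟩, ?_, ?_⟩
      · have e1 : (a' p : ℝ) = (k' p : ℝ) * ((a' p / (k' p : ℤ) : ℤ) : ℝ) + c := by
          have h4 := Int.mul_ediv_add_emod (a' p) (k' p : ℤ)
          have h5 : ((c:ℕ):ℤ) = a' p % (k' p : ℤ) := by rw [← hc]; omega
          rw [← h5] at h4
          exact_mod_cast h4.symm
        have hk0 : (k' p : ℝ) ≠ 0 := by
          have := hk'1 p hpF
          positivity
        have e2 : (p:ℝ) * y - (c:ℝ) / j - ((a' p / (k' p : ℤ) : ℤ) : ℝ) =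
            p * y - a' p / k' p := by
          rw [e1, ← hj]; field_simp; ring
        rw [e2]
        exact hd p hpF
      · have h4 := hlow p hpF
        have e : t * p * |y - u / w| = (τ * p * η) / K := by rw [ht]; ring
        rw [e]
        exact div_le_div_of_nonneg_right h4 hK0.le
      · have h4 := hηp p hpF
        have e : t * p * |y - u / w| = (τ * p * η) / K := by rw [ht]; ring
        rw [e]
        exact (div_le_self (by positivity) hK).trans h4
  have hsum : ∑ p ∈ F, (1:ℝ) / p ≤ (N:ℝ) ^ 2 * (C / (r ^ 16 / K)) := by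
    rw [← Finset.sum_fiberwise_of_maps_to hmem]
    refine (Finset.sum_le_sum hcl).trans (le_of_eq ?_)
    rw [Finset.sum_const, Finset.card_product, Finset.card_range, nsmul_eq_mul]
    push_cast; ring
  have hτ8 : τ ^ (-(1 / 8) : ℝ) = 1 / r ^ 8 := by
    rw [Real.rpow_neg hτ0.le, ← hr64, ← Real.rpow_natCast r 64, ← Real.rpow_mul hr0.le,
      ← Real.rpow_natCast r 8, one_div]
    norm_num
  rw [hτ8]
  have hNK2 : (N:ℝ) ^ 2 ≤ (2 * K) ^ 2 := pow_le_pow_left₀ (by positivity) hNK 2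
  calc ∑ p ∈ F, (1:ℝ) / p ≤ (N:ℝ) ^ 2 * (C / (r ^ 16 / K)) := hsum
    _ ≤ (2 * K) ^ 2 * (C / (r ^ 16 / K)) := mul_le_mul_of_nonneg_right hNK2 (by positivity)
    _ = 4 * C * K ^ 3 / r ^ 16 := by field_simp; ring
    _ ≤ 4 * C * r ^ 3 / r ^ 16 := by
        refine div_le_div_of_nonneg_right ?_ (by positivity)
        exact mul_le_mul_of_nonneg_left (pow_le_pow_left₀ hK0.le hKr 3) (by positivity)
    _ ≤ 4 * C * r ^ 8 / r ^ 16 := by
        refine div_le_div_of_nonneg_right ?_ (by positivity)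
        exact mul_le_mul_of_nonneg_left (hpow (by norm_num)) (by positivity)
    _ = 4 * C * (1 / r ^ 8) := by field_simp

/-- **DispRare** in the literal form of note 3754 (4), over `NHx656.On` -/
theorem disprare_on : ∃ C c : ℝ, 0 < C ∧ 0 < c ∧ ∀ (y τ K del : ℝ), 16 ≤ τ → 1 ≤ K →
    K ^ 64 ≤ τ → del ≤ 1 / 8 → ∀ F : Finset ℕ, (∀ p ∈ F, p.Prime ∧ τ ^ 8 < p ∧
      NHx656.On K (p * y) τ ∧ ¬ NHx656.On K y (τ * p) ∧
      ∃ (a : ℤ) (k : ℕ), 0 < k ∧ (k:ℝ) ≤ τ ^ (1 / 2 : ℝ) ∧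
        (k:ℝ) * max 1 (τ * p * |y - a / k|) < 3 * (p:ℝ) ^ del) →
    ∑ p ∈ F, (1:ℝ) / p ≤ C * τ ^ (-c) := by
  obtain ⟨C, hC, h⟩ := disprare
  refine ⟨C, 1 / 8, hC, by norm_num, fun y τ K del hτ hK hKτ hdel F hF => ?_⟩
  refine h y τ K del hτ hK hKτ hdel F fun p hp => ?_
  obtain ⟨h1, h2, h3, h4, a, k, h5, h6, h7⟩ := hF p hp
  refine ⟨h1, h2, h3, h4, a, k, h5, ?_, h7⟩
  have hτ0 : 0 ≤ τ := by linarith
  calc (k:ℝ) ^ 2 ≤ (τ ^ (1 / 2 : ℝ)) ^ 2 := pow_le_pow_left₀ (by positivity) h6 2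
    _ = τ := by
        rw [← Real.rpow_natCast, ← Real.rpow_mul hτ0]; norm_num

end Crest.Agent.R4C.DispRarex617
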