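import Crest.Agent.R4C.Base_935

/-!
# Fixed-word energy, general `M` (helper423; 129's 2501 (2)(b))

The word of the pair `(b, c)` is `(s, s') = (b / gcd b c, c / gcd b c)`.  For a FIXED word the
whole pair form costs at most `(s s')^{-1/2} Σ ν f²`; a family `W` of words with weights `w ≥ 0`
costs at most `(Σ_{x ∈ W} w x / √(x.1 x.2)) Σ ν f²`.
-/

namespace Crest.Agent.R4C.FixedWordx423

open Finset Crest.Agent.R4C.Basex935

/-- the word of a pair -/
def wd (b c : ℕ) : ℕ × ℕ := (b / Nat.gcd b c, c / Nat.gcd b c)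

lemma wd_swap (b c : ℕ) : wd c b = (wd b c).swap := by
  simp [wd, Nat.gcd_comm c b]

lemma wd_eq_iff {b c s s' : ℕ} (hb : 0 < b) :
    wd b c = (s, s') ↔ b = Nat.gcd b c * s ∧ c = Nat.gcd b c * s' := by
  have hg : 0 < Nat.gcd b c := Nat.gcd_pos_of_pos_left _ hb
  unfold wd
  rw [Prod.mk.injEq]
  constructor
  · rintro ⟨h1, h2⟩
    exact ⟨by rw [← h1, Nat.mul_div_cancel' (Nat.gcd_dvd_left b c)],
      by rw [← h2, Nat.mul_div_cancel' (Nat.gcd_dvd_right b c)]⟩
  · rintro ⟨h1, h2⟩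
    exact ⟨Nat.div_eq_of_eq_mul_right hg h1, Nat.div_eq_of_eq_mul_right hg h2⟩

/-- words are pairs of coprime numbers -/
lemma wd_coprime {b c : ℕ} (hb : 0 < b) : Nat.Coprime (wd b c).1 (wd b c).2 :=
  Nat.coprime_div_gcd_div_gcd (Nat.gcd_pos_of_pos_left _ hb)

lemma wd_pos {b c : ℕ} (hb : 0 < b) (hc : 0 < c) : 0 < (wd b c).1 ∧ 0 < (wd b c).2 :=
  ⟨Nat.div_pos (Nat.gcd_le_left c hb) (Nat.gcd_pos_of_pos_left _ hb),
    Nat.div_pos (Nat.gcd_le_right b hc) (Nat.gcd_pos_of_pos_left _ hb)⟩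

/-- for fixed `b` and a fixed word there is at most one `c` -/
lemma wd_inj_right {b c c' : ℕ} {x : ℕ × ℕ} (hb : 0 < b) (h : wd b c = x) (h' : wd b c' = x) :
    c = c' := by
  obtain ⟨s, s'⟩ := x
  rw [wd_eq_iff hb] at h h'
  have hs : 0 < s := by
    rcases Nat.eq_zero_or_pos s with h0 | h0
    · rw [h0, mul_zero] at h; omega
    · exact h0
  have e : Nat.gcd b c = Nat.gcd b c' := Nat.eq_of_mul_eq_mul_right hs (h.1.symm.trans h'.1)
  rw [h.2, h'.2, ← e]

/-- for fixed `c` and a fixed word there is at most one `b` -/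
lemma wd_inj_left {b b' c : ℕ} {x : ℕ × ℕ} (hc : 0 < c) (h : wd b c = x) (h' : wd b' c = x) :
    b = b' := by
  refine wd_inj_right (x := x.swap) hc ?_ ?_
  · rw [wd_swap b c, h]
  · rw [wd_swap b' c, h']

lemma nu_le_inv {M c : ℕ} (hM : 0 < M) (hc : c ∣ M) : nu M c ≤ 1 / (c : ℝ) := by
  have hc0 : 0 < c := Nat.pos_of_dvd_of_pos hc hM
  have h1 : (((M / c).totient : ℕ) : ℝ) ≤ ((M / c : ℕ) : ℝ) := by
    exact_mod_cast Nat.totient_le _
  have hM' : (0 : ℝ) < M := by exact_mod_cast hM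
  have hc' : (0 : ℝ) < c := by exact_mod_cast hc0
  unfold nu
  rw [div_le_div_iff₀ hM' hc', one_mul]
  calc (((M / c).totient : ℕ) : ℝ) * c ≤ ((M / c : ℕ) : ℝ) * c := by gcongr
    _ = M := by exact_mod_cast Nat.div_mul_cancel hc

/-- **one side**: `gcd (b, c) ν(c) ≤ 1 / s'`, `s' = c / gcd b c` -/
lemma gcd_nu_le {M b c : ℕ} (hM : 0 < M) (hc : c ∣ M) :
    (Nat.gcd b c : ℝ) * nu M c ≤ 1 / ((wd b c).2 : ℝ) := by
  have hc0 : 0 < c := Nat.pos_of_dvd_of_pos hc hM
  have hg : 0 < Nat.gcd b c := Nat.gcd_pos_of_pos_right _ hc0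
  have hg' : (0 : ℝ) < Nat.gcd b c := by exact_mod_cast hg
  have h := nu_le_inv hM hc
  have e : ((wd b c).2 : ℝ) = (c : ℝ) / Nat.gcd b c := by
    unfold wd
    rw [Nat.cast_div (Nat.gcd_dvd_right b c) hg'.ne']
  rw [e, one_div_div]
  calc (Nat.gcd b c : ℝ) * nu M c ≤ Nat.gcd b c * (1 / (c : ℝ)) := by gcongr
    _ = Nat.gcd b c / c := by ring

/-- for fixed `b`, the total weight of a word is at most `1 / s'` -/
lemma sum_right_le {M b : ℕ} (hM : 0 < M) (hb : 0 < b) (x : ℕ × ℕ) :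
    ∑ c ∈ M.divisors, (if wd b c = x then (Nat.gcd b c : ℝ) * nu M c else 0) ≤
      1 / (x.2 : ℝ) := by
  classical
  by_cases hex : ∃ c ∈ M.divisors, wd b c = x
  · obtain ⟨c0, hc0, h0⟩ := hex
    rw [Finset.sum_eq_single_of_mem c0 hc0]
    · rw [if_pos h0]
      have := gcd_nu_le (b := b) hM (Nat.dvd_of_mem_divisors hc0)
      rwa [h0] at this
    · intro c _ hne
      rw [if_neg]
      intro h
      exact hne (wd_inj_right hb h h0)
  · rw [Finset.sum_eq_zero]
    · positivity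
    · intro c hc
      rw [if_neg]
      intro h
      exact hex ⟨c, hc, h⟩

/-- for fixed `c`, the total weight of a word is at most `1 / s` -/
lemma sum_left_le {M c : ℕ} (hM : 0 < M) (hc : 0 < c) (x : ℕ × ℕ) :
    ∑ b ∈ M.divisors, (if wd b c = x then (Nat.gcd b c : ℝ) * nu M b else 0) ≤
      1 / (x.1 : ℝ) := by
  have h := sum_right_le hM hc x.swap
  simp only [Prod.snd_swap] at h
  refine le_trans (le_of_eq ?_) h
  refine Finset.sum_congr rfl fun b _ => ?_
  have e : (wd b c = x) ↔ (wd c b = x.swap) := by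
    rw [wd_swap b c]
    exact ⟨fun h => by rw [h], fun h => Prod.swap_injective h⟩
  rw [Nat.gcd_comm b c]
  by_cases hw : wd b c = x
  · rw [if_pos hw, if_pos (e.1 hw)]
  · rw [if_neg hw, if_neg (fun h => hw (e.2 h))]

/-- mass of a function -/
noncomputable def mass (M : ℕ) (f : ℕ → ℝ) : ℝ := ∑ b ∈ M.divisors, nu M b * f b ^ 2

lemma mass_nonneg (M : ℕ) (f : ℕ → ℝ) : 0 ≤ mass M f :=
  Finset.sum_nonneg fun b _ => mul_nonneg (nu_nonneg M b) (sq_nonneg _)

/-- the part of the pair form on the word `x` -/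
noncomputable def frmW (M : ℕ) (x : ℕ × ℕ) (F : ℕ → ℕ → ℝ) : ℝ :=
  frm M (fun b c => if wd b c = x then F b c else 0)

lemma frm_mono {M : ℕ} {F G : ℕ → ℕ → ℝ} (h : ∀ b ∈ M.divisors, ∀ c ∈ M.divisors, F b c ≤ G b c) :
    frm M F ≤ frm M G := by
  unfold frm
  refine Finset.sum_le_sum fun b hb => Finset.sum_le_sum fun c hc => ?_
  exact mul_le_mul_of_nonneg_left (h b hb c hc)
    (mul_nonneg (mul_nonneg (Nat.cast_nonneg _) (nu_nonneg _ _)) (nu_nonneg _ _))

lemma frm_nonneg {M : ℕ} {F : ℕ → ℕ → ℝ} (h : ∀ b ∈ M.divisors, ∀ c ∈ M.divisors, 0 ≤ F b c) :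
    0 ≤ frm M F := by
  unfold frm
  refine Finset.sum_nonneg fun b hb => Finset.sum_nonneg fun c hc => ?_
  exact mul_nonneg (mul_nonneg (mul_nonneg (Nat.cast_nonneg _) (nu_nonneg _ _)) (nu_nonneg _ _))
    (h b hb c hc)

/-- **fixed word, bilinear, squared form** -/
theorem word_sq {M : ℕ} (hM : 0 < M) (x : ℕ × ℕ) (f h : ℕ → ℝ) :
    (frmW M x (fun b c => |f b| * |h c|)) ^ 2 ≤
      1 / ((x.1 : ℝ) * x.2) * (mass M f * mass M h) := by
  classical
  unfold frmW frm
  rw [← Finset.sum_product' (s := M.divisors) (t := M.divisors)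
    (f := fun b c => (Nat.gcd b c : ℝ) * nu M b * nu M c *
      (if wd b c = x then |f b| * |h c| else 0))]
  -- the two squares
  set w : ℕ × ℕ → ℝ := fun y =>
    if wd y.1 y.2 = x then (Nat.gcd y.1 y.2 : ℝ) * nu M y.1 * nu M y.2 else 0 with hw
  have hw0 : ∀ y, 0 ≤ w y := by
    intro y
    simp only [hw]
    split_ifs
    · exact mul_nonneg (mul_nonneg (Nat.cast_nonneg _) (nu_nonneg _ _)) (nu_nonneg _ _)
    · exact le_rfl
  have hA : ∑ y ∈ M.divisors ×ˢ M.divisors, w y * f y.1 ^ 2 ≤ 1 / (x.2 : ℝ) * mass M f := by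
    rw [Finset.sum_product]
    unfold mass
    rw [Finset.mul_sum]
    refine Finset.sum_le_sum fun b hb => ?_
    have hb0 : 0 < b := Nat.pos_of_mem_divisors hb
    have h1 := sum_right_le (M := M) hM hb0 x
    calc ∑ c ∈ M.divisors, w (b, c) * f (b, c).1 ^ 2
        = (nu M b * f b ^ 2) *
          ∑ c ∈ M.divisors, (if wd b c = x then (Nat.gcd b c : ℝ) * nu M c else 0) := by
          rw [Finset.mul_sum]
          refine Finset.sum_congr rfl fun c _ => ?_
          simp only [hw]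
          split_ifs <;> ring
      _ ≤ (nu M b * f b ^ 2) * (1 / (x.2 : ℝ)) :=
          mul_le_mul_of_nonneg_left h1 (mul_nonneg (nu_nonneg _ _) (sq_nonneg _))
      _ = _ := by ring
  have hB : ∑ y ∈ M.divisors ×ˢ M.divisors, w y * h y.2 ^ 2 ≤ 1 / (x.1 : ℝ) * mass M h := by
    rw [Finset.sum_product_right]
    unfold mass
    rw [Finset.mul_sum]
    refine Finset.sum_le_sum fun c hc => ?_
    have hc0 : 0 < c := Nat.pos_of_mem_divisors hc
    have h1 := sum_left_le (M := M) hM hc0 x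
    calc ∑ b ∈ M.divisors, w (b, c) * h (b, c).2 ^ 2
        = (nu M c * h c ^ 2) *
          ∑ b ∈ M.divisors, (if wd b c = x then (Nat.gcd b c : ℝ) * nu M b else 0) := by
          rw [Finset.mul_sum]
          refine Finset.sum_congr rfl fun b _ => ?_
          simp only [hw]
          split_ifs <;> ring
      _ ≤ (nu M c * h c ^ 2) * (1 / (x.1 : ℝ)) :=
          mul_le_mul_of_nonneg_left h1 (mul_nonneg (nu_nonneg _ _) (sq_nonneg _))
      _ = _ := by ring
  have hC : (∑ y ∈ M.divisors ×ˢ M.divisors, (Nat.gcd y.1 y.2 : ℝ) * nu M y.1 * nu M y.2 *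
      (if wd y.1 y.2 = x then |f y.1| * |h y.2| else 0)) ^ 2 ≤
      (∑ y ∈ M.divisors ×ˢ M.divisors, w y * f y.1 ^ 2) *
        ∑ y ∈ M.divisors ×ˢ M.divisors, w y * h y.2 ^ 2 := by
    refine Finset.sum_sq_le_sum_mul_sum_of_sq_le_mul _ ?_ ?_ ?_
    · intro y _
      exact mul_nonneg (hw0 y) (sq_nonneg _)
    · intro y _
      exact mul_nonneg (hw0 y) (sq_nonneg _)
    · intro y _
      simp only [hw]
      refine le_of_eq ?_
      split_ifs
      · rw [mul_pow _ (|f y.1| * |h y.2|), mul_pow |f y.1|, sq_abs, sq_abs]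
        ring
      · ring
  refine hC.trans ?_
  calc (∑ y ∈ M.divisors ×ˢ M.divisors, w y * f y.1 ^ 2) *
        ∑ y ∈ M.divisors ×ˢ M.divisors, w y * h y.2 ^ 2
      ≤ (1 / (x.2 : ℝ) * mass M f) * (1 / (x.1 : ℝ) * mass M h) := by
        refine mul_le_mul hA hB ?_ ?_
        · exact Finset.sum_nonneg fun y _ => mul_nonneg (hw0 y) (sq_nonneg _)
        · exact mul_nonneg (by positivity) (mass_nonneg _ _)
    _ = 1 / ((x.1 : ℝ) * x.2) * (mass M f * mass M h) := by
        rw [one_div, one_div, one_div, mul_inv]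
        ring

/-- **fixed word, bilinear form** -/
theorem word_bilin {M : ℕ} (hM : 0 < M) (x : ℕ × ℕ) (f h : ℕ → ℝ) :
    frmW M x (fun b c => |f b| * |h c|) ≤
      1 / √((x.1 : ℝ) * x.2) * (√(mass M f) * √(mass M h)) := by
  have h1 := word_sq hM x f h
  have h2 : frmW M x (fun b c => |f b| * |h c|) ≤
      √(1 / ((x.1 : ℝ) * x.2) * (mass M f * mass M h)) := Real.le_sqrt_of_sq_le h1
  refine h2.trans (le_of_eq ?_)
  rw [Real.sqrt_mul (by positivity), Real.sqrt_mul (mass_nonneg _ _), Real.sqrt_div zero_le_one,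
    Real.sqrt_one]

/-- **fixed word energy** (129's 2501 (2)(b)):
`Σ_{wd (b,c) = (s,s')} gcd ν ν |f b| |f c| ≤ (s s')^{-1/2} Σ ν f²` -/
theorem word_energy {M : ℕ} (hM : 0 < M) (x : ℕ × ℕ) (f : ℕ → ℝ) :
    frmW M x (fun b c => |f b| * |f c|) ≤ 1 / √((x.1 : ℝ) * x.2) * mass M f := by
  have h := word_bilin hM x f f
  rwa [Real.mul_self_sqrt (mass_nonneg _ _)] at h

/-- any pair function dominated on the word -/
theorem word_energy_of_le {M : ℕ} (hM : 0 < M) (x : ℕ × ℕ) (f : ℕ → ℝ) (F : ℕ → ℕ → ℝ)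
    (hF : ∀ b ∈ M.divisors, ∀ c ∈ M.divisors, wd b c = x → F b c ≤ |f b| * |f c|) :
    frmW M x F ≤ 1 / √((x.1 : ℝ) * x.2) * mass M f := by
  refine le_trans ?_ (word_energy hM x f)
  refine frm_mono fun b hb c hc => ?_
  split_ifs with h
  · exact hF b hb c hc h
  · exact le_rfl

lemma frm_sum {ι : Type*} (M : ℕ) (T : Finset ι) (F : ι → ℕ → ℕ → ℝ) :
    ∑ t ∈ T, frm M (F t) = frm M (fun b c => ∑ t ∈ T, F t b c) := by
  unfold frm
  rw [Finset.sum_comm]
  refine Finset.sum_congr rfl fun b _ => ?_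
  rw [Finset.sum_comm]
  refine Finset.sum_congr rfl fun c _ => ?_
  rw [Finset.mul_sum]

lemma frm_const_mul (M : ℕ) (r : ℝ) (F : ℕ → ℕ → ℝ) :
    frm M (fun b c => r * F b c) = r * frm M F := by
  unfold frm
  rw [Finset.mul_sum]
  refine Finset.sum_congr rfl fun b _ => ?_
  rw [Finset.mul_sum]
  refine Finset.sum_congr rfl fun c _ => ?_
  ring

/-- splitting of the pair form over a finite family of words -/
lemma frm_family (M : ℕ) (W : Finset (ℕ × ℕ)) (F : ℕ → ℕ → ℝ) :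
    frm M (fun b c => if wd b c ∈ W then F b c else 0) = ∑ x ∈ W, frmW M x F := by
  unfold frmW
  rw [frm_sum]
  unfold frm
  refine Finset.sum_congr rfl fun b _ => Finset.sum_congr rfl fun c _ => ?_
  congr 1
  simp only [Finset.sum_ite_eq]

/-- **family of words, functions may depend on the word** -/
theorem family_bilin {M : ℕ} (hM : 0 < M) (W : Finset (ℕ × ℕ)) (w : ℕ × ℕ → ℝ)
    (hw : ∀ x ∈ W, 0 ≤ w x) (f h : ℕ × ℕ → ℕ → ℝ) (F : ℕ → ℕ → ℝ)
    (hF : ∀ b ∈ M.divisors, ∀ c ∈ M.divisors, wd b c ∈ W →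
      F b c ≤ w (wd b c) * (|f (wd b c) b| * |h (wd b c) c|)) :
    frm M (fun b c => if wd b c ∈ W then F b c else 0) ≤
      ∑ x ∈ W, w x / √((x.1 : ℝ) * x.2) * (√(mass M (f x)) * √(mass M (h x))) := by
  rw [frm_family]
  refine Finset.sum_le_sum fun x hx => ?_
  calc frmW M x F ≤ frmW M x (fun b c => w x * (|f x b| * |h x c|)) := by
        refine frm_mono fun b hb c hc => ?_
        split_ifs with he
        · have := hF b hb c hc (he ▸ hx)
          rwa [he] at this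
        · exact le_rfl
    _ = w x * frmW M x (fun b c => |f x b| * |h x c|) := by
        unfold frmW
        rw [← frm_const_mul]
        congr 1
        funext b c
        split_ifs <;> ring
    _ ≤ w x * (1 / √((x.1 : ℝ) * x.2) * (√(mass M (f x)) * √(mass M (h x)))) :=
        mul_le_mul_of_nonneg_left (word_bilin hM x (f x) (h x)) (hw x hx)
    _ = _ := by ring

/-- **family of words with weights, one function** -/
theorem family_energy {M : ℕ} (hM : 0 < M) (W : Finset (ℕ × ℕ)) (w : ℕ × ℕ → ℝ)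
    (hw : ∀ x ∈ W, 0 ≤ w x) (f : ℕ → ℝ) (F : ℕ → ℕ → ℝ)
    (hF : ∀ b ∈ M.divisors, ∀ c ∈ M.divisors, wd b c ∈ W →
      F b c ≤ w (wd b c) * (|f b| * |f c|)) :
    frm M (fun b c => if wd b c ∈ W then F b c else 0) ≤
      (∑ x ∈ W, w x / √((x.1 : ℝ) * x.2)) * mass M f := by
  have h := family_bilin hM W w hw (fun _ => f) (fun _ => f) F hF
  rwa [← Finset.sum_mul, Real.mul_self_sqrt (mass_nonneg _ _)] at h

/-- **family of words, summed over all scales**: `e t b c` is the indicator (or any weight) of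
"the pair is linked at the scale `t`", a pair has total weight at most `K` -/
theorem family_scales {ι : Type*} {M : ℕ} (hM : 0 < M) (T : Finset ι) (W : Finset (ℕ × ℕ))
    (e : ι → ℕ → ℕ → ℝ) (K : ℝ) (hK0 : 0 ≤ K)
    (hK : ∀ b ∈ M.divisors, ∀ c ∈ M.divisors, wd b c ∈ W → ∑ t ∈ T, e t b c ≤ K) (f : ℕ → ℝ) :
    ∑ t ∈ T, frm M (fun b c => if wd b c ∈ W then e t b c * (|f b| * |f c|) else 0) ≤
      K * (∑ x ∈ W, 1 / √((x.1 : ℝ) * x.2)) * mass M f := by
  rw [frm_sum]
  have h := family_energy hM W (fun _ => K) (fun _ _ => hK0) f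
    (fun b c => ∑ t ∈ T, e t b c * (|f b| * |f c|)) (fun b hb c hc hx => by
      rw [← Finset.sum_mul]
      exact mul_le_mul_of_nonneg_right (hK b hb c hc hx)
        (mul_nonneg (abs_nonneg _) (abs_nonneg _)))
  calc frm M (fun b c => ∑ t ∈ T, if wd b c ∈ W then e t b c * (|f b| * |f c|) else 0)
      = frm M (fun b c => if wd b c ∈ W then ∑ t ∈ T, e t b c * (|f b| * |f c|) else 0) := by
        congr 1
        funext b c
        split_ifs
        · rfl
        · exact Finset.sum_const_zero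
    _ ≤ _ := h
    _ = _ := by
        rw [Finset.mul_sum]
        congr 1
        refine Finset.sum_congr rfl fun x _ => ?_
        ring

/-- the mass of the indicator of a set `B` of divisors -/
lemma mass_indicator {M : ℕ} (B : Finset ℕ) (hB : B ⊆ M.divisors) :
    mass M (fun b => if b ∈ B then 1 else 0) = ∑ b ∈ B, nu M b := by
  classical
  unfold mass
  rw [← Finset.sum_subset hB]
  · refine Finset.sum_congr rfl fun b hb => ?_
    simp only [hb, if_true]
    ring
  · intro b _ hb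
    simp only [hb, if_false]
    ring

/-- set form: the energy of the pairs of `B` with word in `W` -/
theorem family_set {M : ℕ} (hM : 0 < M) (B : Finset ℕ) (hB : B ⊆ M.divisors)
    (W : Finset (ℕ × ℕ)) :
    ∑ b ∈ B, ∑ c ∈ B, (if wd b c ∈ W then (Nat.gcd b c : ℝ) * nu M b * nu M c else 0) ≤
      (∑ x ∈ W, 1 / √((x.1 : ℝ) * x.2)) * ∑ b ∈ B, nu M b := by
  classical
  have h := family_energy hM W (fun _ => 1) (fun _ _ => zero_le_one)
    (fun b => if b ∈ B then 1 else 0)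
    (fun b c => (if b ∈ B then 1 else 0) * (if c ∈ B then 1 else 0)) (fun b _ c _ _ => by
      split_ifs <;> simp)
  rw [mass_indicator B hB] at h
  refine le_trans (le_of_eq ?_) h
  unfold frm
  rw [← Finset.sum_subset hB]
  · refine Finset.sum_congr rfl fun b hb => ?_
    rw [← Finset.sum_subset hB]
    · refine Finset.sum_congr rfl fun c hc => ?_
      simp only [hb, hc, if_true]
      split_ifs <;> ring
    · intro c _ hc
      simp [hc]
  · intro b _ hb
    refine Finset.sum_eq_zero fun c _ => ?_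
    simp [hb]

/-! ### the same with the product condition

`Σ_{x ∈ W} 1/√(x.1 x.2)` for all words in a box -/

lemma sum_words_le (W : Finset (ℕ × ℕ)) (Z : ℝ) (hZ : 0 < Z)
    (h : ∀ x ∈ W, Z ≤ (x.1 : ℝ) * x.2) :
    ∑ x ∈ W, 1 / √((x.1 : ℝ) * x.2) ≤ W.card / √Z := by
  calc ∑ x ∈ W, 1 / √((x.1 : ℝ) * x.2) ≤ ∑ _x ∈ W, 1 / √Z := by
        refine Finset.sum_le_sum fun x hx => ?_
        exact one_div_le_one_div_of_le (Real.sqrt_pos.2 hZ) (Real.sqrt_le_sqrt (h x hx))
    _ = W.card / √Z := by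
        rw [Finset.sum_const, nsmul_eq_mul]
        ring

end Crest.Agent.R4C.FixedWordx423
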