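import Crest.Agent.R4C.PureFL_232
import Crest.Agent.R4C.FixedWord_423
import Crest.Agent.R4C.S2b_284

/-!
# Row 4, BLOCK S3: pure part with a low kernel; vector version for dominant words (helper520)

* `pure_assembly` : if the low sum of a pair kernel `K` at the cut `y` is `≤ A φ(T) φ(T')` for all
  upper words `T, T'` which are equal or a pure pair (`PureRelC`), and `K ≤ 0` otherwise, then
  `frm M K ≤ 4 A Σ ν(T) φ(T)²` (common assembly lemma of MX (2977 (2)) and VEC (3058 (2))).
* `vec_class` : one class of words (`s₀ s₀' ≥ W`, at most one word for fixed upper words):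
  `≤ 4 W^{-1/2} Σ ν f²`.
* `vec_pure` : all pairs whose low word is DOMINANT (`Dom` of `S2b_284`) and which are good and pure
  above the cut: energy `≤ 14 Σ ν f²`, all scales together.
-/

set_option autoImplicit false

open Finset
open Crest.Agent.R4C.Basex935 Crest.Agent.R4C.FLDefx935
open Crest.Agent.R4C.Cutx50 hiding mass mass_nonneg
open Crest.Agent.R4C.PureL2x232 hiding frm_mono frm_sum

namespace Crest.Agent.R4C.VecPurex520

open Classical in
/-- **common assembly lemma, pure part** -/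
theorem pure_assembly {M : ℕ} (hM : 0 < M) (y : ℕ) {R : ℕ → ℕ → Prop}
    (hR : PureRelC (upp y M) R) (K : ℕ → ℕ → ℝ) {A : ℝ} (hA : 0 ≤ A) (φ : ℕ → ℝ)
    (hφ : ∀ T, 0 ≤ φ T)
    (hK0 : ∀ b c, b ∣ M → c ∣ M → upp y b ≠ upp y c → ¬ R (upp y b) (upp y c) → K b c ≤ 0)
    (hlow : ∀ T T', T ∣ upp y M → T' ∣ upp y M → (T = T' ∨ R T T') →
      frm (low y M) (fun u u' => K (u * T) (u' * T')) ≤ A * (φ T * φ T')) :
    frm M K ≤ 4 * A * ∑ T ∈ (upp y M).divisors, nu (upp y M) T * φ T ^ 2 := by
  have hMu : 0 < upp y M := upp_pos y M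
  rw [frm_low_upp hM y K]
  have key : ∀ T ∈ (upp y M).divisors, ∀ T' ∈ (upp y M).divisors,
      (Nat.gcd T T' : ℝ) * nu (upp y M) T * nu (upp y M) T' *
          frm (low y M) (fun n n' => K (n * T) (n' * T')) ≤
        A * ((Nat.gcd T T' : ℝ) * nu (upp y M) T * nu (upp y M) T' *
          (if R T T' then φ T * φ T' else 0)) +
        A * ((Nat.gcd T T' : ℝ) * nu (upp y M) T * nu (upp y M) T' *
          (if T = T' then φ T * φ T' else 0)) := by
    intro T hT T' hT'
    rw [Nat.mem_divisors] at hT hT'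
    have hw : 0 ≤ (Nat.gcd T T' : ℝ) * nu (upp y M) T * nu (upp y M) T' :=
      mul_nonneg (mul_nonneg (by positivity) (nu_nonneg _ _)) (nu_nonneg _ _)
    have hφφ : 0 ≤ φ T * φ T' := mul_nonneg (hφ _) (hφ _)
    by_cases h : T = T' ∨ R T T'
    · have h1 := hlow T T' hT.1 hT'.1 h
      have h2 : A * (φ T * φ T') ≤ A * (if R T T' then φ T * φ T' else 0) +
          A * (if T = T' then φ T * φ T' else 0) := by
        have hAφ : 0 ≤ A * (φ T * φ T') := mul_nonneg hA hφφ
        rcases h with h | h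
        · rw [if_pos h]
          split_ifs
          · linarith
          · rw [mul_zero]; linarith
        · rw [if_pos h]
          split_ifs
          · linarith
          · rw [mul_zero]; linarith
      calc _ ≤ (Nat.gcd T T' : ℝ) * nu (upp y M) T * nu (upp y M) T' *
            (A * (if R T T' then φ T * φ T' else 0) +
          A * (if T = T' then φ T * φ T' else 0)) := mul_le_mul_of_nonneg_left (h1.trans h2) hw
        _ = _ := by ring
    · push Not at h
      rw [if_neg h.2, if_neg h.1]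
      have h3 : frm (low y M) (fun n n' => K (n * T) (n' * T')) ≤ 0 := by
        unfold frm
        refine Finset.sum_nonpos fun n hn => Finset.sum_nonpos fun n' hn' => ?_
        rw [Nat.mem_divisors] at hn hn'
        have hb : n * T ∣ M := by
          have := Nat.mul_dvd_mul hn.1 hT.1
          rwa [low_mul_upp y hM.ne'] at this
        have hc : n' * T' ∣ M := by
          have := Nat.mul_dvd_mul hn'.1 hT'.1
          rwa [low_mul_upp y hM.ne'] at this
        refine mul_nonpos_of_nonneg_of_nonpos (mul_nonneg (mul_nonneg (by positivity)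
          (nu_nonneg _ _)) (nu_nonneg _ _)) (hK0 _ _ hb hc ?_ ?_)
        · rw [upp_of_mul hn.1 hT.1, upp_of_mul hn'.1 hT'.1]; exact h.1
        · rw [upp_of_mul hn.1 hT.1, upp_of_mul hn'.1 hT'.1]; exact h.2
      have h4 := mul_nonneg_iff_of_pos_left (c := (1:ℝ)) one_pos |>.2 hw
      nlinarith [mul_nonpos_of_nonneg_of_nonpos hw h3]
  refine (Finset.sum_le_sum fun T hT => Finset.sum_le_sum fun T' hT' => key T hT T' hT').trans ?_
  simp only [Finset.sum_add_distrib, ← Finset.mul_sum]
  have e1 : ∑ T ∈ (upp y M).divisors, ∑ T' ∈ (upp y M).divisors,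
      ((Nat.gcd T T' : ℝ) * nu (upp y M) T * nu (upp y M) T' *
          (if R T T' then φ T * φ T' else 0)) ≤
      ∑ T ∈ (upp y M).divisors, nu (upp y M) T * (φ T ^ 2 * (4 - 3 * ((T:ℝ) * nu (upp y M) T))) :=
    pure_energyC hR φ hφ
  have e2 : ∑ T ∈ (upp y M).divisors, ∑ T' ∈ (upp y M).divisors,
      ((Nat.gcd T T' : ℝ) * nu (upp y M) T * nu (upp y M) T' *
          (if T = T' then φ T * φ T' else 0)) =
      ∑ T ∈ (upp y M).divisors, nu (upp y M) T * ((T:ℝ) * nu (upp y M) T) * (φ T * φ T) :=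
    frm_diag (fun T T' => φ T * φ T')
  rw [e2]
  have e3 := add_le_add (mul_le_mul_of_nonneg_left e1 hA) (le_refl (A *
    ∑ T ∈ (upp y M).divisors, nu (upp y M) T * ((T:ℝ) * nu (upp y M) T) * (φ T * φ T)))
  refine e3.trans ?_
  rw [← mul_add, ← Finset.sum_add_distrib, mul_comm (4:ℝ) A, mul_assoc A, Finset.mul_sum _ _ (4:ℝ)]
  refine mul_le_mul_of_nonneg_left (Finset.sum_le_sum fun T _ => ?_) hA
  have h1 := V_nonneg (upp y M) T
  have h2 := nu_nonneg (upp y M) T
  have h3 : 0 ≤ nu (upp y M) T * φ T ^ 2 := mul_nonneg h2 (sq_nonneg _)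
  nlinarith

/-! ### words and cuts -/

open Crest.Agent.R4C.FixedWordx423 Crest.Agent.R4C.S2bx284

lemma part_div_gcd (S : ℕ → Prop) [DecidablePred S] {b c : ℕ} (hb : b ≠ 0) (hc : c ≠ 0) :
    part S (b / Nat.gcd b c) = part S b / Nat.gcd (part S b) (part S c) := by
  have hg : Nat.gcd b c ≠ 0 := Nat.gcd_ne_zero_left hb
  have h1 : b / Nat.gcd b c ≠ 0 :=
    (Nat.div_pos (Nat.gcd_le_left c (Nat.pos_of_ne_zero hb)) (Nat.pos_of_ne_zero hg)).ne'
  have h2 : part S b / Nat.gcd (part S b) (part S c) ≠ 0 :=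
    (Nat.div_pos (Nat.gcd_le_left _ (part_pos S b))
      (Nat.gcd_pos_of_pos_left _ (part_pos S b))).ne'
  refine Nat.eq_of_factorization_eq (part_ne _ _) h2 fun p => ?_
  rw [fact_part, Nat.factorization_div (Nat.gcd_dvd_left b c),
    Nat.factorization_div (Nat.gcd_dvd_left (part S b) (part S c)), Finsupp.tsub_apply,
    Finsupp.tsub_apply, Nat.factorization_gcd hb hc,
    Nat.factorization_gcd (part_ne S b) (part_ne S c), Finsupp.inf_apply, Finsupp.inf_apply,
    fact_part, fact_part]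
  split_ifs <;> simp

lemma wd_low (y : ℕ) {b c : ℕ} (hb : b ≠ 0) (hc : c ≠ 0) :
    wd (low y b) (low y c) = (low y (wd b c).1, low y (wd b c).2) := by
  unfold wd low
  simp only
  rw [part_div_gcd _ hb hc, Nat.gcd_comm b c, part_div_gcd _ hc hb,
    Nat.gcd_comm (part _ c) (part _ b)]

lemma wd_upp (y : ℕ) {b c : ℕ} (hb : b ≠ 0) (hc : c ≠ 0) :
    wd (upp y b) (upp y c) = (upp y (wd b c).1, upp y (wd b c).2) := by
  unfold wd upp
  simp only
  rw [part_div_gcd _ hb hc, Nat.gcd_comm b c, part_div_gcd _ hc hb,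
    Nat.gcd_comm (part _ c) (part _ b)]

lemma fact_wd_fst {b c : ℕ} (hb : b ≠ 0) (hc : c ≠ 0) (q : ℕ) :
    (wd b c).1.factorization q = b.factorization q - min (b.factorization q) (c.factorization q) := by
  unfold wd
  simp only
  rw [Nat.factorization_div (Nat.gcd_dvd_left b c), Finsupp.tsub_apply,
    Nat.factorization_gcd hb hc, Finsupp.inf_apply]

lemma fact_wd_snd {b c : ℕ} (hb : b ≠ 0) (hc : c ≠ 0) (q : ℕ) :
    (wd b c).2.factorization q = c.factorization q - min (b.factorization q) (c.factorization q) := by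
  unfold wd
  simp only
  rw [Nat.factorization_div (Nat.gcd_dvd_right b c), Finsupp.tsub_apply,
    Nat.factorization_gcd hb hc, Finsupp.inf_apply]

/-- mass split at the cut -/
lemma mass_cut {M : ℕ} (hM : 0 < M) (y : ℕ) (f : ℕ → ℝ) :
    mass M f = ∑ T ∈ (upp y M).divisors, nu (upp y M) T * mass (low y M) (fun u => f (u * T)) := by
  unfold mass
  rw [sum_cut (fun p => p ≤ y) hM]
  refine Finset.sum_congr rfl fun T hT => ?_
  rw [Nat.mem_divisors] at hT
  rw [Finset.mul_sum]
  refine Finset.sum_congr rfl fun u hu => ?_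
  rw [Nat.mem_divisors] at hu
  rw [nu_cut (fun p => p ≤ y) hM hu.1 hT.1]
  show nu (low y M) u * nu (upp y M) T * f (u * T) ^ 2 = _
  ring

open Classical in
/-- **one class of words** -/
theorem vec_class {M : ℕ} (hM : 0 < M) (y : ℕ) {R : ℕ → ℕ → Prop}
    (hR : PureRelC (upp y M) R) {W : ℝ} (hW : 0 < W) (P : ℕ → ℕ → Prop) (w : ℕ → ℕ → ℕ × ℕ)
    (hP : ∀ b c, b ∣ M → c ∣ M → P b c → upp y b = upp y c ∨ R (upp y b) (upp y c))
    (hw : ∀ b c, b ∣ M → c ∣ M → P b c → wd (low y b) (low y c) = w (upp y b) (upp y c) ∧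
      W ≤ ((w (upp y b) (upp y c)).1 : ℝ) * (w (upp y b) (upp y c)).2) (f : ℕ → ℝ) :
    frm M (fun b c => if P b c then |f b| * |f c| else 0) ≤ 4 / √W * mass M f := by
  have hA : 0 ≤ 1 / √W := by positivity
  have key := pure_assembly hM y hR (fun b c => if P b c then |f b| * |f c| else 0) hA
    (fun T => √(mass (low y M) (fun u => f (u * T)))) (fun T => Real.sqrt_nonneg _)
    (fun b c hb hc hne hnR => by
      rw [if_neg]
      intro hcon
      rcases hP b c hb hc hcon with h | h
      · exact hne h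
      · exact hnR h)
    (fun T T' hT hT' _ => by
      have hdiv : ∀ u T, u ∣ low y M → T ∣ upp y M → u * T ∣ M := by
        intro u T hu hT
        have := Nat.mul_dvd_mul hu hT
        rwa [low_mul_upp y hM.ne'] at this
      have hmm : 0 ≤ √(mass (low y M) (fun u => f (u * T))) *
          √(mass (low y M) (fun u => f (u * T'))) :=
        mul_nonneg (Real.sqrt_nonneg _) (Real.sqrt_nonneg _)
      by_cases hWw : W ≤ ((w T T').1 : ℝ) * (w T T').2
      · have h1 : frm (low y M) (fun u u' => if P (u * T) (u' * T') then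
            |f (u * T)| * |f (u' * T')| else 0) ≤
            frmW (low y M) (w T T') (fun u u' => |f (u * T)| * |f (u' * T')|) := by
          unfold frmW
          refine frm_mono fun u hu u' hu' => ?_
          rw [Nat.mem_divisors] at hu hu'
          by_cases hPP : P (u * T) (u' * T')
          · have h2 := (hw _ _ (hdiv u T hu.1 hT) (hdiv u' T' hu'.1 hT') hPP).1
            rw [low_of_mul hu.1 hT, low_of_mul hu'.1 hT', upp_of_mul hu.1 hT,
              upp_of_mul hu'.1 hT'] at h2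
            rw [if_pos hPP, if_pos h2]
          · rw [if_neg hPP]
            split_ifs
            · positivity
            · exact le_rfl
        have h3 := word_bilin (low_pos y M) (w T T') (fun u => f (u * T)) (fun u => f (u * T'))
        refine (h1.trans h3).trans (mul_le_mul_of_nonneg_right ?_ hmm)
        have h4 : √W ≤ √(((w T T').1 : ℝ) * (w T T').2) := Real.sqrt_le_sqrt hWw
        exact one_div_le_one_div_of_le (Real.sqrt_pos.2 hW) h4
      · have h1 : frm (low y M) (fun u u' => if P (u * T) (u' * T') then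
            |f (u * T)| * |f (u' * T')| else 0) = 0 := by
          unfold frm
          refine Finset.sum_eq_zero fun u hu => Finset.sum_eq_zero fun u' hu' => ?_
          rw [Nat.mem_divisors] at hu hu'
          have hPP : ¬ P (u * T) (u' * T') := by
            intro hPP
            have h2 := (hw _ _ (hdiv u T hu.1 hT) (hdiv u' T' hu'.1 hT') hPP).2
            rw [upp_of_mul hu.1 hT, upp_of_mul hu'.1 hT'] at h2
            exact hWw h2
          simp only [if_neg hPP, mul_zero]
        rw [h1]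
        exact mul_nonneg hA hmm)
  refine key.trans (le_of_eq ?_)
  rw [mass_cut hM y f]
  have : ∀ T ∈ (upp y M).divisors, nu (upp y M) T *
      √(mass (low y M) (fun u => f (u * T))) ^ 2 =
      nu (upp y M) T * mass (low y M) (fun u => f (u * T)) := by
    intro T _
    rw [Real.sq_sqrt (mass_nonneg _ _)]
  rw [Finset.sum_congr rfl this]
  ring

/-! ### all words together -/

/-- the pair `(b, c)` is good at some cut `z`, without deficits above `z`, and the low part of its
word satisfies `D` (over the high part of the word); the cut is at least twice the product of the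
low word -/
def VP {M : ℕ} (F : FL M) (D : ℕ → ℕ → ℕ → ℕ → Prop) (b c : ℕ) : Prop :=
  ∃ z : ℕ, F.good z b c ∧ F.ell z b = 1 ∧ F.ell z c = 1 ∧
    D (upp z (wd b c).1) (upp z (wd b c).2) (low z (wd b c).1) (low z (wd b c).2) ∧
    2 * (low z (wd b c).1 * low z (wd b c).2) ≤ z

/-- the class of pairs of `VP` with product of the low word in `[2^i, 2^(i+1))` -/
def VPi {M : ℕ} (F : FL M) (D : ℕ → ℕ → ℕ → ℕ → Prop) (i b c : ℕ) : Prop :=
  ∃ z : ℕ, F.good z b c ∧ F.ell z b = 1 ∧ F.ell z c = 1 ∧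
    D (upp z (wd b c).1) (upp z (wd b c).2) (low z (wd b c).1) (low z (wd b c).2) ∧
    2 * (low z (wd b c).1 * low z (wd b c).2) ≤ z ∧
    Nat.log 2 (low z (wd b c).1 * low z (wd b c).2) = i

lemma low_eq_low {y z s : ℕ} (hyz : y ≤ z) (h : low z s ≤ y) : low y s = low z s := by
  rw [← low_low hyz s]
  exact low_of_large (low_pos z s).ne' h

lemma upp_eq_upp {y z s : ℕ} (hs : s ≠ 0) (h : low y s = low z s) : upp y s = upp z s := by
  have h1 := low_mul_upp y hs
  have h2 := low_mul_upp z hs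
  rw [h] at h1
  exact Nat.eq_of_mul_eq_mul_left (low_pos z s) (h1.trans h2.symm)

/-- the class `i` read at the cut `2^(i+1)` -/
lemma vpi_cut {M : ℕ} (hM : 0 < M) (F : FL M) {D : ℕ → ℕ → ℕ → ℕ → Prop} {i b c : ℕ}
    (hb : b ∣ M) (hc : c ∣ M) (h : VPi F D i b c) :
    (upp (2 ^ (i + 1)) b = upp (2 ^ (i + 1)) c ∨
      PureG (hiFL hM (2 ^ (i + 1)) F) (upp (2 ^ (i + 1)) b) (upp (2 ^ (i + 1)) c)) ∧
    D (upp (2 ^ (i + 1)) (wd b c).1) (upp (2 ^ (i + 1)) (wd b c).2)
      (low (2 ^ (i + 1)) (wd b c).1) (low (2 ^ (i + 1)) (wd b c).2) ∧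
    2 ^ i ≤ low (2 ^ (i + 1)) (wd b c).1 * low (2 ^ (i + 1)) (wd b c).2 ∧
    low (2 ^ (i + 1)) (wd b c).1 * low (2 ^ (i + 1)) (wd b c).2 < 2 ^ (i + 1) := by
  obtain ⟨z, hg, hl, hl', hD, hz, hi⟩ := h
  have hb0 : 0 < b := Nat.pos_of_dvd_of_pos hb hM
  have hc0 : 0 < c := Nat.pos_of_dvd_of_pos hc hM
  have hs := wd_pos hb0 hc0
  set y : ℕ := 2 ^ (i + 1) with hy
  set s := (wd b c).1 with hsdef
  set s' := (wd b c).2 with hs'def
  have hp1 : 0 < low z s := low_pos z s
  have hp2 : 0 < low z s' := low_pos z s'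
  have hn0 : low z s * low z s' ≠ 0 := (Nat.mul_pos hp1 hp2).ne'
  have hlo : 2 ^ i ≤ low z s * low z s' := by
    rw [← hi]; exact Nat.pow_log_le_self 2 hn0
  have hup : low z s * low z s' < y := by
    rw [hy, ← hi]; exact Nat.lt_pow_succ_log_self (by norm_num) _
  have hyz : y ≤ z := by
    have : y = 2 * 2 ^ i := by rw [hy, pow_succ]; ring
    omega
  have e1 : low y s = low z s := low_eq_low hyz ((Nat.le_mul_of_pos_right _ hp2).trans hup.le)
  have e2 : low y s' = low z s' := low_eq_low hyz ((Nat.le_mul_of_pos_left _ hp1).trans hup.le)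
  have e3 : upp y s = upp z s := upp_eq_upp hs.1.ne' e1
  have e4 : upp y s' = upp z s' := upp_eq_upp hs.2.ne' e2
  rw [e1, e2, e3, e4]
  refine ⟨?_, hD, hlo, hup⟩
  by_cases hne : upp y b = upp y c
  · exact Or.inl hne
  · refine Or.inr (pureG_upp hM F hyz hb hc hne hg ?_ hl hl')
    intro q _ hyq hqz
    have f1 := congrArg (fun n => n.factorization q) e1
    have f2 := congrArg (fun n => n.factorization q) e2
    simp only [fact_low] at f1 f2
    rw [if_neg (by omega), if_pos hqz, hsdef, fact_wd_fst hb0.ne' hc0.ne'] at f1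
    rw [if_neg (by omega), if_pos hqz, hs'def, fact_wd_snd hb0.ne' hc0.ne'] at f2
    omega

/-- two words over the same high word differ by a factor `≥ 2` -/
def Dbl (D : ℕ → ℕ → ℕ → ℕ → Prop) : Prop :=
  ∀ x x' u v u' v' : ℕ, D x x' u v → D x x' u' v' → (u', v') ≠ (u, v) →
    2 * (u * v) ≤ u' * v' ∨ 2 * (u' * v') ≤ u * v

open Classical in
/-- one class -/
theorem vpi_energy {M : ℕ} (hM : 0 < M) (F : FL M) {D : ℕ → ℕ → ℕ → ℕ → Prop} (hD : Dbl D)
    (i : ℕ) (f : ℕ → ℝ) :
    frm M (fun b c => if VPi F D i b c then |f b| * |f c| else 0) ≤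
      4 / √((2:ℝ) ^ i) * mass M f := by
  set y : ℕ := 2 ^ (i + 1) with hy
  set Q : ℕ → ℕ → ℕ × ℕ → Prop := fun T T' x => ∃ b c, b ∣ M ∧ c ∣ M ∧ VPi F D i b c ∧
    upp y b = T ∧ upp y c = T' ∧ wd (low y b) (low y c) = x with hQ
  have hQD : ∀ T T' x, Q T T' x → D (wd T T').1 (wd T T').2 x.1 x.2 ∧
      2 ^ i ≤ x.1 * x.2 ∧ x.1 * x.2 < 2 ^ (i + 1) := by
    rintro T T' x ⟨b, c, hb, hc, hV, rfl, rfl, rfl⟩
    have hb0 : 0 < b := Nat.pos_of_dvd_of_pos hb hM
    have hc0 : 0 < c := Nat.pos_of_dvd_of_pos hc hM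
    obtain ⟨-, h1, h2, h3⟩ := vpi_cut hM F hb hc hV
    rw [wd_upp y hb0.ne' hc0.ne', wd_low y hb0.ne' hc0.ne']
    exact ⟨h1, h2, h3⟩
  have huniq : ∀ T T' x x', Q T T' x → Q T T' x' → x' = x := by
    intro T T' x x' h h'
    by_contra hne
    obtain ⟨h1, h2, h3⟩ := hQD T T' x h
    obtain ⟨h1', h2', h3'⟩ := hQD T T' x' h'
    have hne' : ((x'.1, x'.2) : ℕ × ℕ) ≠ (x.1, x.2) := hne
    have e : 2 ^ (i + 1) = 2 * 2 ^ i := by rw [pow_succ]; ring
    rcases hD _ _ _ _ _ _ h1 h1' hne' with h4 | h4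
    · omega
    · omega
  refine vec_class hM y (pureRelC_of_FL _ (upp_pos y M) (hiFL hM y F)) (by positivity)
    (VPi F D i) (fun T T' => if h : ∃ x, Q T T' x then h.choose else (1, 1)) ?_ ?_ f
  · intro b c hb hc hV
    exact (vpi_cut hM F hb hc hV).1
  · intro b c hb hc hV
    have hQ1 : Q (upp y b) (upp y c) (wd (low y b) (low y c)) := ⟨b, c, hb, hc, hV, rfl, rfl, rfl⟩
    have hex : ∃ x, Q (upp y b) (upp y c) x := ⟨_, hQ1⟩
    rw [dif_pos hex]
    have h1 := huniq _ _ _ _ hex.choose_spec hQ1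
    refine ⟨h1, ?_⟩
    rw [← h1]
    have h2 := (hQD _ _ _ hQ1).2.1
    exact_mod_cast h2

lemma sum_geo (N : ℕ) : ∑ i ∈ range N, 4 / √((2:ℝ) ^ i) ≤ 14 := by
  have h2 : (7:ℝ) / 5 ≤ √2 := by
    rw [Real.le_sqrt (by norm_num) (by norm_num)]
    norm_num
  have h0 : (0:ℝ) < √2 := by positivity
  have hterm : ∀ i ∈ range N, 4 / √((2:ℝ) ^ i) ≤ 4 * ((5:ℝ) / 7) ^ i := by
    intro i _
    have e : √((2:ℝ) ^ i) = √2 ^ i := by
      rw [Real.sqrt_eq_iff_mul_self_eq (by positivity) (by positivity), ← mul_pow,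
        Real.mul_self_sqrt (by norm_num)]
    rw [e, div_eq_mul_inv, ← inv_pow]
    refine mul_le_mul_of_nonneg_left ?_ (by norm_num)
    refine pow_le_pow_left₀ (by positivity) ?_ i
    rw [inv_le_comm₀ h0 (by norm_num)]
    norm_num
    linarith
  refine (Finset.sum_le_sum hterm).trans ?_
  rw [← Finset.mul_sum]
  have h3 := geom_sum_eq (x := (5:ℝ)/7) (by norm_num) N
  rw [h3]
  have h4 : (0:ℝ) ≤ (5/7) ^ N := by positivity
  have e : ((5:ℝ) / 7) - 1 = -(2/7) := by norm_num
  rw [e, div_neg, ← neg_div, div_eq_mul_inv]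
  norm_num
  linarith

open Classical in
/-- **pure pairs with a word of a doubling family, all words and all scales together** -/
theorem vec_pureD {M : ℕ} (hM : 0 < M) (F : FL M) {D : ℕ → ℕ → ℕ → ℕ → Prop} (hD : Dbl D)
    (f : ℕ → ℝ) :
    frm M (fun b c => if VP F D b c then |f b| * |f c| else 0) ≤ 14 * mass M f := by
  set N : ℕ := Nat.log 2 (M * M) + 1 with hN
  have h1 : frm M (fun b c => if VP F D b c then |f b| * |f c| else 0) ≤
      frm M (fun b c => ∑ i ∈ range N, if VPi F D i b c then |f b| * |f c| else 0) := by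
    refine frm_mono fun b hb c hc => ?_
    rw [Nat.mem_divisors] at hb hc
    have hnn : ∀ i ∈ range N, (0:ℝ) ≤ (if VPi F D i b c then |f b| * |f c| else 0) := by
      intro i _
      split_ifs
      · positivity
      · exact le_rfl
    by_cases hV : VP F D b c
    · rw [if_pos hV]
      obtain ⟨z, hg, hl, hl', hDD, hz⟩ := hV
      have hle : Nat.log 2 (low z (wd b c).1 * low z (wd b c).2) ∈ range N := by
        rw [Finset.mem_range, hN, Nat.lt_succ_iff]
        refine Nat.log_mono_right (Nat.mul_le_mul ?_ ?_)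
        · refine Nat.le_of_dvd hM ((low_dvd_self z _).trans ?_)
          exact (Nat.div_dvd_of_dvd (Nat.gcd_dvd_left b c)).trans hb.1
        · refine Nat.le_of_dvd hM ((low_dvd_self z _).trans ?_)
          exact (Nat.div_dvd_of_dvd (Nat.gcd_dvd_right b c)).trans hc.1
      refine le_trans ?_ (Finset.single_le_sum hnn hle)
      rw [if_pos ⟨z, hg, hl, hl', hDD, hz, rfl⟩]
    · rw [if_neg hV]
      exact Finset.sum_nonneg hnn
  refine h1.trans ?_
  rw [← frm_sum]
  calc ∑ i ∈ range N, frm M (fun b c => if VPi F D i b c then |f b| * |f c| else 0)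
      ≤ ∑ i ∈ range N, 4 / √((2:ℝ) ^ i) * mass M f :=
        Finset.sum_le_sum fun i _ => vpi_energy hM F hD i f
    _ = (∑ i ∈ range N, 4 / √((2:ℝ) ^ i)) * mass M f := by rw [Finset.sum_mul]
    _ ≤ 14 * mass M f := mul_le_mul_of_nonneg_right (sum_geo N) (mass_nonneg _ _)

/-- dominant words at some scale `t > 0` over the targets `x γ, x' γ` -/
def DomD (γ : ℝ) (x x' u v : ℕ) : Prop := ∃ t : ℝ, 0 < t ∧ Dom (x * γ) (x' * γ) t u v

lemma dbl_dom (γ : ℝ) : Dbl (DomD γ) := by
  rintro x x' u v u' v' ⟨t, ht, h⟩ ⟨t', ht', h'⟩ hne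
  rcases le_total t t' with hle | hle
  · exact Or.inl (dom_double ht hle h h' hne)
  · exact Or.inr (dom_double ht' hle h' h (Ne.symm hne))

open Classical in
/-- **VEC, pure part**: all pairs `(b, c)` for which at some cut `z` and scale `t` the low part of
the word is DOMINANT over the high part (S2b_284), with `2 s₀ s₀' ≤ z`, good above `z` and without
deficits above `z`: energy `≤ 14 Σ ν f²`, all `z` and `t` together, any tree, any `f`, any `γ`. -/
theorem vec_pure {M : ℕ} (hM : 0 < M) (F : FL M) (γ : ℝ) (f : ℕ → ℝ) :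
    frm M (fun b c => if VP F (DomD γ) b c then |f b| * |f c| else 0) ≤ 14 * mass M f :=
  vec_pureD hM F (dbl_dom γ) f

end Crest.Agent.R4C.VecPurex520
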