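import Crest.Agent.R4C.BoostAl_100
import Crest.Agent.R4C.NPTot_52
import Crest.Agent.R4C.VecPure_520
import Crest.Agent.R4C.BadW_14
import Crest.Agent.R4C.SpineDef_946

/-!
# Row 4: class `CDomN` (dominant word, non-pure, own scale) of `SplitDef_945` (helper52)

* `bst_ratio` : `bst (primes ≤ Q) ≤ K · bst (primes ≤ X)` if `log Q ≤ 8 log X`;
* `cover_block` : a good non-pure pair at the cut `X` with a short low word is non-pure at a block end
  `Xj j`, `X < (Xj j + 1)^2`, with the same low and high words.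
-/

set_option autoImplicit false

open Finset

namespace Crest.Agent.R4C.DomNx52

open Crest.Agent.R4C.Basex935 Crest.Agent.R4C.Cutx50 Crest.Agent.R4C.FLDefx935
  Crest.Agent.R4C.FixedWordx423 Crest.Agent.R4C.VecPurex520 Crest.Agent.R4C.VecNPx50
  Crest.Agent.R4C.NonPureBlkx559 Crest.Agent.R4C.BoostCx972
open Crest.Agent.R4C.BoostRx398 (bst Bst tf one_le_tf one_le_bst)
open Crest.Agent.R4C.BoostTopx19 (prQ)

/-! ### ratio of the boosts at two cuts -/

lemma mem_prQ {Q p : ℕ} : p ∈ prQ Q ↔ p ≤ Q ∧ p.Prime := by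
  classical
  unfold prQ
  rw [Finset.mem_filter, Finset.mem_range, Nat.lt_succ_iff]

lemma prod_mono_one {f : ℕ → ℝ} {A B : Finset ℕ} (h : A ⊆ B) (h1 : ∀ p ∈ B, 1 ≤ f p) :
    ∏ p ∈ A, f p ≤ ∏ p ∈ B, f p := by
  classical
  rw [← Finset.prod_sdiff h]
  have h2 : 1 ≤ ∏ p ∈ B \ A, f p :=
    Finset.prod_induction _ (fun x : ℝ => 1 ≤ x)
      (fun a b ha hb => one_le_mul_of_one_le_of_one_le ha hb) le_rfl
      (fun p hp => h1 p (Finset.mem_sdiff.1 hp).1)
  have h3 : 1 ≤ ∏ p ∈ A, f p :=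
    Finset.prod_induction _ (fun x : ℝ => 1 ≤ x)
      (fun a b ha hb => one_le_mul_of_one_le_of_one_le ha hb) le_rfl (fun p hp => h1 p (h hp))
  nlinarith

lemma bst_union_le {S T : Finset ℕ} (hS : ∀ p ∈ S, p.Prime) (hT : ∀ p ∈ T, p.Prime)
    (M b c : ℕ) : bst S M b c ≤ Bst (S \ T) * bst T M b c := by
  classical
  unfold BoostRx398.bst BoostRx398.Bst
  set f : ℕ → ℝ := fun p => if b.factorization p = c.factorization p ∧
    b.factorization p < M.factorization p then tf p else 1 with hf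
  have hf1 : ∀ p, p.Prime → 1 ≤ f p := fun p hp => by
    simp only [hf]
    split_ifs
    · exact one_le_tf hp
    · exact le_rfl
  have hf2 : ∀ p, p.Prime → f p ≤ tf p := fun p hp => by
    simp only [hf]
    split_ifs
    · exact le_rfl
    · exact one_le_tf hp
  have e1 : ∏ p ∈ S, f p = (∏ p ∈ S \ T, f p) * ∏ p ∈ S ∩ T, f p := by
    rw [mul_comm]
    exact (Finset.prod_inter_mul_prod_sdiff S T f).symm
  have h1 : ∏ p ∈ S ∩ T, f p ≤ ∏ p ∈ T, f p :=
    prod_mono_one Finset.inter_subset_right fun p hp => hf1 p (hT p hp)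
  have h2 : ∏ p ∈ S \ T, f p ≤ ∏ p ∈ S \ T, tf p :=
    Finset.prod_le_prod (fun p hp => zero_le_one.trans (hf1 p (hS p (Finset.mem_sdiff.1 hp).1)))
      fun p hp => hf2 p (hS p (Finset.mem_sdiff.1 hp).1)
  have h3 : 0 ≤ ∏ p ∈ S ∩ T, f p := Finset.prod_nonneg fun p hp =>
    zero_le_one.trans (hf1 p (hT p (Finset.mem_inter.1 hp).2))
  have h4 : 0 ≤ ∏ p ∈ S \ T, tf p := Finset.prod_nonneg fun p hp =>
    zero_le_one.trans (one_le_tf (hS p (Finset.mem_sdiff.1 hp).1))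
  change ∏ p ∈ S, f p ≤ (∏ p ∈ S \ T, tf p) * ∏ p ∈ T, f p
  rw [e1]
  exact mul_le_mul h2 h1 h3 h4

/-- the constant of `bst_ratio` -/
noncomputable def KR : ℝ := 8 * Real.exp (22 / Real.log 2)

lemma KR_pos : 0 < KR := by unfold KR; positivity

lemma one_le_KR : 1 ≤ KR := by
  unfold KR
  have hl2 : 0 < Real.log 2 := Real.log_pos (by norm_num)
  have := Real.one_le_exp (x := 22 / Real.log 2) (by positivity)
  linarith

/-- **ratio of the boosts** -/
theorem bst_ratio {Q X : ℕ} (hX : 2 ≤ X) (h : Real.log Q ≤ 8 * Real.log X) (M b c : ℕ) :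
    bst (prQ Q) M b c ≤ KR * bst (pr X) M b c := by
  classical
  have hS : ∀ p ∈ prQ Q, p.Prime := fun p hp => (mem_prQ.1 hp).2
  have hT : ∀ p ∈ pr X, p.Prime := fun p hp => (mem_pr.1 hp).2
  refine (bst_union_le hS hT M b c).trans ?_
  have hb0 : 0 ≤ bst (pr X) M b c := zero_le_one.trans (one_le_bst hT M b c)
  refine mul_le_mul_of_nonneg_right ?_ hb0
  have hXr : (2 : ℝ) ≤ X := by exact_mod_cast hX
  have hl2 : 0 < Real.log 2 := Real.log_pos (by norm_num)
  have hlX : Real.log 2 ≤ Real.log X := Real.log_le_log (by norm_num) hXr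
  rcases le_or_gt X Q with hXQ | hXQ
  · have hXQr : (X : ℝ) ≤ Q := by exact_mod_cast hXQ
    have hlQ : 0 < Real.log Q := Real.log_pos (by linarith)
    have hm := (Lib.Mertens.mertens_three X Q hXr hXQr).1
    have hsub : prQ Q \ pr X ⊆ Lib.Mertens.pr X Q := by
      intro p hp
      rw [Finset.mem_sdiff, mem_prQ, mem_pr] at hp
      rw [Lib.Mertens.mem_pr (by positivity) (by positivity)]
      have h1 : X < p := by
        by_contra hcon
        exact hp.2 ⟨not_lt.1 hcon, hp.1.2⟩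
      exact ⟨⟨by exact_mod_cast h1, by exact_mod_cast hp.1.1⟩, hp.1.2⟩
    have hpr : ∀ p ∈ Lib.Mertens.pr X Q, p.Prime := fun p hp =>
      ((Lib.Mertens.mem_pr (by positivity) (by positivity)).1 hp).2
    have h1 : Bst (prQ Q \ pr X) ≤ ∏ p ∈ Lib.Mertens.pr X Q, tf p := by
      unfold BoostRx398.Bst
      exact prod_mono_one hsub fun p hp => one_le_tf (hpr p hp)
    have hprod : 0 < Real.exp (-(22 / Real.log X)) * (Real.log X / Real.log Q) := by
      have : 0 < Real.log X := by linarith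
      positivity
    have h2 : ∏ p ∈ Lib.Mertens.pr X Q, tf p ≤ (Real.exp (-(22 / Real.log X)) *
        (Real.log X / Real.log Q))⁻¹ := by
      unfold BoostRx398.tf
      rw [Finset.prod_inv_distrib]
      exact inv_anti₀ hprod hm
    refine h1.trans (h2.trans ?_)
    rw [mul_inv, inv_div, Real.exp_neg, inv_inv]
    unfold KR
    have h3 : Real.log Q / Real.log X ≤ 8 := by
      rw [div_le_iff₀ (by linarith)]
      exact h
    have h4 : Real.exp (22 / Real.log X) ≤ Real.exp (22 / Real.log 2) := by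
      rw [Real.exp_le_exp]
      exact div_le_div_of_nonneg_left (by norm_num) hl2 hlX
    calc Real.exp (22 / Real.log X) * (Real.log Q / Real.log X) ≤
        Real.exp (22 / Real.log 2) * 8 :=
          mul_le_mul h4 h3 (div_nonneg hlQ.le (by linarith)) (Real.exp_pos _).le
      _ = _ := by ring
  · have he : prQ Q \ pr X = ∅ := by
      rw [Finset.sdiff_eq_empty_iff_subset]
      intro p hp
      rw [mem_prQ] at hp
      rw [mem_pr]
      exact ⟨by omega, hp.2⟩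
    rw [he]
    unfold BoostRx398.Bst
    rw [Finset.prod_empty]
    exact one_le_KR

/-! ### blocks -/

/-- block index of an integer `q ≥ 2` -/
def bj (q : ℕ) : ℕ := Nat.log 2 (Nat.log 2 q)

lemma bj_spec {q : ℕ} (hq : 2 ≤ q) : Xj (bj q) < q ∧ q < (Xj (bj q) + 1) ^ 2 := by
  have h1 : 1 ≤ Nat.log 2 q := by
    rw [Nat.one_le_iff_ne_zero, Ne, Nat.log_eq_zero_iff]
    omega
  have h2 : 2 ^ Nat.log 2 q ≤ q := Nat.pow_log_le_self 2 (by omega)
  have h3 : q < 2 ^ (Nat.log 2 q + 1) := Nat.lt_pow_succ_log_self (by norm_num) q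
  have h4 : 2 ^ bj q ≤ Nat.log 2 q := Nat.pow_log_le_self 2 (by omega)
  have h5 : Nat.log 2 q < 2 ^ (bj q + 1) := Nat.lt_pow_succ_log_self (by norm_num) _
  have e : Xj (bj q) + 1 = 2 ^ 2 ^ bj q := by
    unfold Xj
    exact Nat.sub_add_cancel Nat.one_le_two_pow
  constructor
  · have : 2 ^ 2 ^ bj q ≤ q := (Nat.pow_le_pow_right (by norm_num) h4).trans h2
    omega
  · rw [e, ← pow_mul]
    refine h3.trans_le (Nat.pow_le_pow_right (by norm_num) ?_)
    rw [pow_succ] at h5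
    omega

variable {M : ℕ} {F : FL M}

/-- a deficit prime -/
lemma exists_deficit {x b : ℕ} (h : F.ell x b ≠ 1) : ∃ p v, p.Prime ∧ x < p ∧
    F.ctr b p = some v ∧ b.factorization p < v := by
  by_contra hcon
  push Not at hcon
  apply h
  unfold FL.ell
  refine Finset.prod_eq_one fun p hp => ?_
  have hpp := Nat.prime_of_mem_primeFactors hp
  have h0 : F.ellE x b p = 0 := by
    unfold FL.ellE
    split_ifs with hx
    · rcases hc : F.ctr b p with _ | v
      · rfl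
      · have := hcon p v hpp hx hc
        simp only
        omega
    · rfl
  rw [h0, pow_zero]

lemma ell_ne_one {x b p v : ℕ} (hb : b ∣ M) (hp : p.Prime) (hx : x < p)
    (hc : F.ctr b p = some v) (hlt : b.factorization p < v) : F.ell x b ≠ 1 := by
  intro h1
  have hv := F.le hb hp hc
  have hpM : p ∈ M.primeFactors := by
    rw [← Nat.support_factorization, Finsupp.mem_support_iff]
    omega
  have h2 : (F.ell x b).factorization p = 0 := by rw [h1]; simp
  rw [FL.fact_ell, if_pos hpM] at h2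
  unfold FL.ellE at h2
  rw [if_pos hx, hc] at h2
  simp only at h2
  omega

/-- **reading a non-pure pair at a block end** -/
theorem cover_block (hM : 0 < M) {b c X : ℕ} (hb : b ∣ M) (hc : c ∣ M) (hX : 2 ≤ X)
    (hgood : F.good X b c) (hnp : ¬ (F.ell X b = 1 ∧ F.ell X c = 1))
    (hsm : (4 * (low X (wd b c).1 * low X (wd b c).2) + 1) ^ 2 ≤ X) :
    ∃ j, X < (Xj j + 1) ^ 2 ∧ low (Xj j) (wd b c).1 = low X (wd b c).1 ∧
      low (Xj j) (wd b c).2 = low X (wd b c).2 ∧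
      4 * (low (Xj j) (wd b c).1 * low (Xj j) (wd b c).2) ≤ Xj j ∧
      ¬ (F.ell (Xj j) b = 1 ∧ F.ell (Xj j) c = 1) := by
  classical
  have hb0 : b ≠ 0 := (Nat.pos_of_dvd_of_pos hb hM).ne'
  have hc0 : c ≠ 0 := (Nat.pos_of_dvd_of_pos hc hM).ne'
  -- the deficit primes
  obtain ⟨p, v, hp, hpX, hd⟩ : ∃ p v, p.Prime ∧ X < p ∧
      ((F.ctr b p = some v ∧ b.factorization p < v) ∨
        (F.ctr c p = some v ∧ c.factorization p < v)) := by
    rw [not_and_or] at hnp
    rcases hnp with h | h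
    · obtain ⟨p, v, h1, h2, h3, h4⟩ := exists_deficit h
      exact ⟨p, v, h1, h2, Or.inl ⟨h3, h4⟩⟩
    · obtain ⟨p, v, h1, h2, h3, h4⟩ := exists_deficit h
      exact ⟨p, v, h1, h2, Or.inr ⟨h3, h4⟩⟩
  have hdiff : b.factorization p ≠ c.factorization p := by
    rcases hd with ⟨h1, h2⟩ | ⟨h1, h2⟩
    · have := hgood.2 p hp hpX v h1
      omega
    · have h3 := (FL.good_symm hb hc hgood).2 p hp hpX v h1
      omega
  -- the smallest differing prime above `X`
  have hex : ∃ q, q.Prime ∧ X < q ∧ b.factorization q ≠ c.factorization q := ⟨p, hp, hpX, hdiff⟩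
  set q := Nat.find hex with hqd
  obtain ⟨hq, hXq, hqdiff⟩ : q.Prime ∧ X < q ∧ b.factorization q ≠ c.factorization q :=
    Nat.find_spec hex
  have hmin : ∀ r, r.Prime → X < r → r < q → b.factorization r = c.factorization r := by
    intro r hr hXr hrq
    by_contra hcon
    exact Nat.find_min hex hrq ⟨hr, hXr, hcon⟩
  have hqp : q ≤ p := Nat.find_min' hex ⟨hp, hpX, hdiff⟩
  obtain ⟨h1, h2⟩ := bj_spec (q := q) (by omega)
  set j := bj q with hj
  set u := low X (wd b c).1 with hu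
  set v' := low X (wd b c).2 with hv'
  have hu0 : 0 < u := low_pos _ _
  have hv0 : 0 < v' := low_pos _ _
  have hw := wd_pos (Nat.pos_of_ne_zero hb0) (Nat.pos_of_ne_zero hc0)
  have hsmall : 4 * (u * v') < Xj j := by
    have h3 : (4 * (u * v') + 1) ^ 2 < (Xj j + 1) ^ 2 := by omega
    have h4 := lt_of_pow_lt_pow_left₀ 2 (Nat.zero_le _) h3
    omega
  -- letters of the words
  have hs1 : ∀ r, r.Prime → b.factorization r = c.factorization r →
      (wd b c).1.factorization r = 0 := by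
    intro r _ he
    unfold wd
    simp only
    rw [Nat.factorization_div (Nat.gcd_dvd_left _ _), Finsupp.tsub_apply,
      Nat.factorization_gcd hb0 hc0, Finsupp.inf_apply, he]
    simp
  have hs2 : ∀ r, r.Prime → b.factorization r = c.factorization r →
      (wd b c).2.factorization r = 0 := by
    intro r _ he
    unfold wd
    simp only
    rw [Nat.factorization_div (Nat.gcd_dvd_right _ _), Finsupp.tsub_apply,
      Nat.factorization_gcd hb0 hc0, Finsupp.inf_apply, he]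
    simp
  have key : ∀ s : ℕ, s ≠ 0 → (∀ r, r.Prime → b.factorization r = c.factorization r →
      s.factorization r = 0) → low X s ≤ u * v' → low (Xj j) s = low X s := by
    intro s hs0 hs hle
    refine Nat.eq_of_factorization_eq (low_pos _ _).ne' (low_pos _ _).ne' fun r => ?_
    rw [fact_low, fact_low]
    by_cases hr : r.Prime
    · by_cases a1 : r ≤ Xj j <;> by_cases a2 : r ≤ X
      · rw [if_pos a1, if_pos a2]
      · rw [if_pos a1, if_neg a2]
        exact hs r hr (hmin r hr (by omega) (by omega))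
      · rw [if_neg a1, if_pos a2]
        by_contra hcon
        have h5 : r ∣ low X s := by
          have h6 : (low X s).factorization r ≠ 0 := by
            rw [fact_low, if_pos a2]
            exact fun h => hcon h.symm
          exact (Nat.Prime.dvd_iff_one_le_factorization hr (low_pos _ _).ne').2
            (Nat.one_le_iff_ne_zero.2 h6)
        have h7 := Nat.le_of_dvd (low_pos _ _) h5
        omega
      · rw [if_neg a1, if_neg a2]
    · rw [Nat.factorization_eq_zero_of_not_prime _ hr]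
      simp
  have hle1 : u ≤ u * v' := Nat.le_mul_of_pos_right _ hv0
  have hle2 : v' ≤ u * v' := Nat.le_mul_of_pos_left _ hu0
  have k1 := key (wd b c).1 hw.1.ne' hs1 hle1
  have k2 := key (wd b c).2 hw.2.ne' hs2 hle2
  refine ⟨j, by omega, k1, k2, ?_, ?_⟩
  · rw [k1, k2]
    exact hsmall.le
  · rintro ⟨e1, e2⟩
    rcases hd with ⟨h3, h4⟩ | ⟨h3, h4⟩
    · exact ell_ne_one hb hp (by omega) h3 h4 e1
    · exact ell_ne_one hc hp (by omega) h3 h4 e2

/-! ### offsets and energies -/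

open Crest.Agent.R4C.Bridgex882 Crest.Agent.R4C.CrCoinx935 Crest.Agent.R4C.CrCountx935
  Crest.Agent.R4C.Rulex945 Crest.Agent.R4C.Splitx945 Crest.Agent.R4C.Spinex946
  Crest.Agent.R4C.FLShx326 Crest.Agent.R4C.NPTotx52

/-- one offset for `2 L ≤ gcd` -/
lemma Lnk_card {γ L : ℝ} {b c : ℕ} (hg : 0 < Nat.gcd b c) (h : 2 * L ≤ (Nat.gcd b c : ℝ)) :
    (Lnk γ L b c).card ≤ 1 := by
  rw [Finset.card_le_one]
  intro x hx y hy
  unfold Lnk at hx hy
  rw [mem_Hf] at hx hy
  have hgR : (0 : ℝ) < (Nat.gcd b c : ℕ) := by exact_mod_cast hg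
  have hle : L / (Nat.gcd b c : ℕ) ≤ 1 / 2 := by
    rw [div_le_iff₀ hgR]; linarith
  have h1 : |((x - y : ℤ) : ℝ)| < 1 := by
    push_cast
    rw [abs_lt] at hx hy ⊢
    constructor <;> linarith [hx.1, hx.2, hy.1, hy.2]
  have h2 : |x - y| < 1 := by
    have : ((|x - y| : ℤ) : ℝ) < 1 := by rw [Int.cast_abs]; exact h1
    exact_mod_cast this
  rw [Int.abs_lt_one_iff] at h2
  omega

/-- the sum over the offsets is at most the bound for one of them -/
lemma sum_Lnk_le {γ L : ℝ} {M b c : ℕ} {lam : ℕ → ℕ → Option ℤ} {Q : ℤ → Prop} [DecidablePred Q]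
    {w : ℝ} (hcard : (Lnk γ L b c).card ≤ 1) (hw : 0 ≤ w)
    (h : ∀ h ∈ Lnk γ L b c, Q h → boostB M lam b c h ≤ w) :
    ∑ h ∈ (Lnk γ L b c).filter Q, boostB M lam b c h ≤ w := by
  rcases Finset.eq_empty_or_nonempty ((Lnk γ L b c).filter Q) with he | ⟨x, hx⟩
  · rw [he, Finset.sum_empty]; exact hw
  · have h1 : (Lnk γ L b c).filter Q = {x} := by
      refine Finset.eq_singleton_iff_unique_mem.2 ⟨hx, fun y hy => ?_⟩
      exact Finset.card_le_one.1 hcard _ (Finset.mem_filter.1 hy).1 _ (Finset.mem_filter.1 hx).1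
    rw [h1, Finset.sum_singleton]
    exact h x (Finset.mem_filter.1 hx).1 (Finset.mem_filter.1 hx).2

section EnR

variable {γ L : ℝ} {B : Finset ℕ} {lam : ℕ → ℕ → Option ℤ}

open Classical in
/-- energy of a union of two classes -/
lemma EnR_or (hL : 0 ≤ L) {R R1 R2 : ℕ → ℕ → ℤ → Prop}
    (h : ∀ b ∈ B, ∀ c ∈ B, b ≠ c → ∀ h ∈ Lnk γ L b c, ¬ killedB lam b c h → R b c h →
      R1 b c h ∨ R2 b c h) :
    EnR γ L M B lam R ≤ EnR γ L M B lam R1 + EnR γ L M B lam R2 := by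
  unfold EnR
  rw [← mul_add, ← Finset.sum_add_distrib]
  refine mul_le_mul_of_nonneg_left (Finset.sum_le_sum fun b hb => ?_) hL
  rw [← Finset.sum_add_distrib]
  refine Finset.sum_le_sum fun c hc => ?_
  rw [← mul_add]
  have hg : 0 ≤ (Nat.gcd b c : ℝ) * nu M b * nu M c :=
    mul_nonneg (mul_nonneg (Nat.cast_nonneg _) (nu_nonneg _ _)) (nu_nonneg _ _)
  refine mul_le_mul_of_nonneg_left ?_ hg
  have h1 : (Lnk γ L b c).filter (fun h => ¬ killedB lam b c h ∧ R b c h) ⊆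
      (Lnk γ L b c).filter (fun h => ¬ killedB lam b c h ∧ R1 b c h) ∪
      (Lnk γ L b c).filter (fun h => ¬ killedB lam b c h ∧ R2 b c h) := by
    intro x hx
    rw [Finset.mem_filter] at hx
    rw [Finset.mem_union, Finset.mem_filter, Finset.mem_filter]
    have hne : b ≠ c := fun hh => (Finset.ne_of_mem_erase hc) hh.symm
    rcases h b hb c (Finset.mem_of_mem_erase hc) hne x hx.1 hx.2.1 hx.2.2 with h2 | h2
    · exact Or.inl ⟨hx.1, hx.2.1, h2⟩
    · exact Or.inr ⟨hx.1, hx.2.1, h2⟩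
  have h0 : ∀ x, 0 ≤ boostB M lam b c x := fun x => Spinex946.boostB_nonneg _ _ _ _ _
  refine (Finset.sum_le_sum_of_subset_of_nonneg h1 fun x _ _ => h0 x).trans ?_
  rw [← Finset.sum_union_inter]
  exact le_add_of_nonneg_right (Finset.sum_nonneg fun x _ => h0 x)

open Classical in
/-- energy of a class with one offset and a pointwise bound of the boost -/
lemma EnR_le_W (hM : 0 < M) (hB : B ⊆ M.divisors) (hL : 0 ≤ L) {R : ℕ → ℕ → ℤ → Prop}
    {W : ℕ → ℕ → ℝ} (hW0 : ∀ b ∈ B, ∀ c ∈ B, 0 ≤ W b c)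
    (h1 : ∀ b ∈ B, ∀ c ∈ B, ∀ h ∈ Lnk γ L b c, R b c h → 2 * L ≤ (Nat.gcd b c : ℝ))
    (hW : ∀ b ∈ B, ∀ c ∈ B, b ≠ c → ∀ h ∈ Lnk γ L b c, ¬ killedB lam b c h → R b c h →
      boostB M lam b c h ≤ W b c) :
    EnR γ L M B lam R ≤ L * ∑ b ∈ B, ∑ c ∈ B, (Nat.gcd b c : ℝ) * nu M b * nu M c * W b c := by
  unfold EnR
  refine mul_le_mul_of_nonneg_left (Finset.sum_le_sum fun b hb => ?_) hL
  have hg : ∀ c, 0 ≤ (Nat.gcd b c : ℝ) * nu M b * nu M c := fun c =>
    mul_nonneg (mul_nonneg (Nat.cast_nonneg _) (nu_nonneg _ _)) (nu_nonneg _ _)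
  refine le_trans (Finset.sum_le_sum fun c hc => ?_)
    (Finset.sum_le_sum_of_subset_of_nonneg (Finset.erase_subset b B)
      fun c hc _ => mul_nonneg (hg c) (hW0 b hb c hc))
  refine mul_le_mul_of_nonneg_left ?_ (hg c)
  have hcB := Finset.mem_of_mem_erase hc
  have hne : b ≠ c := fun hh => (Finset.ne_of_mem_erase hc) hh.symm
  by_cases hex : ∃ h ∈ Lnk γ L b c, R b c h
  · obtain ⟨x, hx, hRx⟩ := hex
    have hgp : 0 < Nat.gcd b c := Nat.gcd_pos_of_pos_left _
      (Nat.pos_of_dvd_of_pos (Nat.dvd_of_mem_divisors (hB hb)) hM)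
    exact sum_Lnk_le (Lnk_card hgp (h1 b hb c hcB x hx hRx)) (hW0 b hb c hcB)
      fun y hy hQ => hW b hb c hcB hne y hy hQ.1 hQ.2
  · have he : (Lnk γ L b c).filter (fun h => ¬ killedB lam b c h ∧ R b c h) = ∅ := by
      rw [Finset.filter_eq_empty_iff]
      intro x hx hh
      exact hex ⟨x, hx, hh.2⟩
    rw [he, Finset.sum_empty]
    exact hW0 b hb c hcB

end EnR

/-! ### the three subclasses -/

section sub

variable (F) (P : Par)

/-- short word: good at a block end -/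
def RG (b c : ℕ) (h : ℤ) : Prop := ∃ i j, FarA F P i b c h ∧
  P.cut i < (Xj j + 1) ^ 2 ∧ NPD F (DomD P.γ) j b c

/-- own scale `2^i`, not good at `P.cut i ^ (1/2)` -/
def RB (x : ℕ → ℕ) (b c : ℕ) (h : ℤ) : Prop := ∃ i, FarA F P i b c h ∧ ¬ F.good (x i) b c

/-- own scale `2^i`, dominant word, long -/
def RL (b c : ℕ) (h : ℤ) : Prop := ∃ i, FarA F P i b c h ∧ DomA P i b c ∧
  P.cut i < (4 * (low (P.cut i) (wd b c).1 * low (P.cut i) (wd b c).2) + 1) ^ 2

variable {F P}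

/-- **the cover** -/
theorem CDomN_cover (hM : 0 < M) (hcut : ∀ i, P.m0 ≤ i → 2 ≤ P.cut i) {x : ℕ → ℕ}
    (hx : ∀ i X, P.cut i < (X + 1) ^ 2 → x i ≤ X) {b c : ℕ} (hb : b ∣ M) (hc : c ∣ M) {h : ℤ}
    (hR : CDomN F P b c h) : RG F P b c h ∨ RB F P x b c h ∨ RL F P b c h := by
  obtain ⟨i, hA, hD, hP⟩ := hR
  by_cases hs : (4 * (low (P.cut i) (wd b c).1 * low (P.cut i) (wd b c).2) + 1) ^ 2 ≤ P.cut i
  · obtain ⟨j, h1, h2, h3, h4, h5⟩ := cover_block hM hb hc (hcut i hA.m0) hA.good hP hs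
    have hw := wd_pos (Nat.pos_of_dvd_of_pos hb hM) (Nat.pos_of_dvd_of_pos hc hM)
    by_cases hg : F.good (Xj j) b c
    · refine Or.inl ⟨i, j, hA, h1, ⟨hg, h5, h4⟩, (2 : ℝ) ^ i, by positivity, ?_⟩
      rw [h2, h3, upp_eq_upp hw.1.ne' h2, upp_eq_upp hw.2.ne' h3]
      exact hD.dom
    · exact Or.inr (Or.inl ⟨i, hA, fun hg' => hg (FL.good_mono (hx i _ h1) hg')⟩)
  · exact Or.inr (Or.inr ⟨i, hA, hD, not_le.1 hs⟩)

end sub

/-! ### the good part -/

lemma prQ_eq_pr (Q : ℕ) : prQ Q = pr Q := by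
  ext p
  rw [mem_prQ, mem_pr]

open Classical in
/-- **short words, good at a block end** -/
theorem RG_bound : ∃ C0 : ℝ, 0 < C0 ∧ ∀ (M : ℕ) (F : FL M) (P : Par) (B : Finset ℕ) (A' s : ℝ),
    0 < M → B ⊆ M.divisors → Shares F B A' s → 0 ≤ A' → 3 / 4 ≤ s → 0 < P.L →
    (∀ i, P.Y i = 2 ^ i) →
    (∀ b i, P.thr b i ≤ Real.exp ((P.Y (i - 1) : ℝ) ^ (4 / 5 : ℝ))) →
    (∀ i, P.m0 ≤ i → P.cut i ≤ P.cut (2 * i)) →
    (∀ i, P.m0 ≤ i → P.cut (2 * i) ≤ P.cut i ^ 2) → (∀ i, P.m0 ≤ i → 4 ≤ P.cut i) →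
    1 ≤ P.m0 →
    EnR P.γ P.L M B (lamR F P) (RG F P) ≤ C0 * (1 + A') * (P.L * ∑ b ∈ B, nu M b) := by
  obtain ⟨C, hC, h⟩ := np_total_poly 0
  set K0 : ℝ := Real.exp 1200 * KR with hK0
  have hK0p : 0 < K0 := mul_pos (Real.exp_pos _) KR_pos
  refine ⟨K0 * C, by positivity, ?_⟩
  intro M F P B A' s hM hB hS hA' hs hL hY hthr hcutm hcut2 hcut4 hm0
  set lam := lamR F P with hlam
  -- the sum over the offsets
  set Wt : ℕ → ℕ → ℝ := fun b c => ∑ h ∈ (Lnk P.γ P.L b c).filter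
    (fun h => ¬ killedB lam b c h ∧ RG F P b c h), boostB M lam b c h with hWt
  have hWt0 : ∀ b c, 0 ≤ Wt b c := fun b c =>
    Finset.sum_nonneg fun x _ => Spinex946.boostB_nonneg _ _ _ _ _
  set PP : ℕ → ℕ → ℕ → ℕ → Prop := fun j _ b c => NPD F (DomD P.γ) j b c ∧
    Wt b c / K0 ≤ bst (pr (Xj j)) M b c * PureL2x232.B1 b c with hPP
  have hkey : ∀ b ∈ B, ∀ c ∈ B, Wt b c ≠ 0 → ∃ j, 1 ≤ j ∧ ∃ i, i < 1 ∧ PP j i b c := by
    intro b hb c hc hne
    have hbM := Nat.dvd_of_mem_divisors (hB hb)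
    have hcM := Nat.dvd_of_mem_divisors (hB hc)
    obtain ⟨x, hx, _⟩ := Finset.exists_ne_zero_of_sum_ne_zero hne
    rw [Finset.mem_filter] at hx
    obtain ⟨hx1, hx2, i, j, hA, hij, hNP⟩ := hx
    have hgp : 0 < Nat.gcd b c := Nat.gcd_pos_of_pos_left _ (Nat.pos_of_dvd_of_pos hbM hM)
    have h2i : (2 : ℝ) ≤ 2 ^ i := by
      have : 1 ≤ i := hm0.trans hA.m0
      calc (2 : ℝ) = 2 ^ 1 := by norm_num
        _ ≤ 2 ^ i := pow_le_pow_right₀ (by norm_num) this
    have hg2 : 2 * P.L ≤ (Nat.gcd b c : ℝ) := by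
      have := hA.lo
      nlinarith
    have hj1 : 1 ≤ j := by
      by_contra hcon
      have hj0 : j = 0 := by omega
      have h4 := hcut4 i hA.m0
      rw [hj0] at hij
      have : Xj 0 = 1 := by unfold Xj; norm_num
      rw [this] at hij
      omega
    have hX3 : 3 ≤ Xj j := by
      unfold Xj
      have h5 : 2 ^ 2 ≤ 2 ^ 2 ^ j := Nat.pow_le_pow_right (by norm_num)
        (by calc 2 = 2 ^ 1 := by norm_num
              _ ≤ 2 ^ j := Nat.pow_le_pow_right (by norm_num) hj1)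
      omega
    refine ⟨j, hj1, 0, by norm_num, hNP, ?_⟩
    rw [div_le_iff₀ hK0p]
    have hB1 : 0 ≤ PureL2x232.B1 b c := BoostAlx100.B1_nonneg b c
    have hlogs : Real.log (P.cut (2 * i)) ≤ 8 * Real.log (Xj j) := by
      have h6 : P.cut (2 * i) ≤ (Xj j) ^ 8 := by
        calc P.cut (2 * i) ≤ P.cut i ^ 2 := hcut2 i hA.m0
          _ ≤ ((Xj j + 1) ^ 2) ^ 2 := Nat.pow_le_pow_left hij.le 2
          _ ≤ ((Xj j ^ 2) ^ 2) ^ 2 := by
              refine Nat.pow_le_pow_left (Nat.pow_le_pow_left ?_ 2) 2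
              nlinarith
          _ = (Xj j) ^ 8 := by ring
      have hc0 : 0 < P.cut (2 * i) := by
        have := hcut4 i hA.m0
        have := hcutm i hA.m0
        omega
      calc Real.log (P.cut (2 * i)) ≤ Real.log ((Xj j : ℝ) ^ 8) :=
            Real.log_le_log (by exact_mod_cast hc0) (by exact_mod_cast h6)
        _ = 8 * Real.log (Xj j) := by rw [Real.log_pow]; norm_num
    have hbst := bst_ratio (by omega : 2 ≤ Xj j) hlogs M b c
    have hpt : ∀ y ∈ Lnk P.γ P.L b c, (¬ killedB lam b c y ∧ RG F P b c y) →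
        boostB M lam b c y ≤ bst (pr (Xj j)) M b c * PureL2x232.B1 b c * K0 := by
      intro y hy _
      have hyx : y = x := Finset.card_le_one.1 (Lnk_card hgp hg2) _ hy _ hx1
      subst hyx
      have h7 := BoostAlx100.boost_alQ (F := F) (P := P) hM hbM hcM hL hY hthr
        (Q := P.cut (2 * i)) ((by norm_num : 2 ≤ 4).trans ((hcut4 i hA.m0).trans (hcutm i hA.m0)))
        (FL.good_mono (hcutm i hA.m0) hA.good) hx1 hA.al
        (Or.inr (by linarith))
      refine h7.trans ?_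
      calc Real.exp 1200 * (PureL2x232.B1 b c * bst (prQ (P.cut (2 * i))) M b c)
          ≤ Real.exp 1200 * (PureL2x232.B1 b c * (KR * bst (pr (Xj j)) M b c)) :=
            mul_le_mul_of_nonneg_left (mul_le_mul_of_nonneg_left hbst hB1) (Real.exp_pos _).le
        _ = _ := by rw [hK0]; ring
    refine sum_Lnk_le (Lnk_card hgp hg2) ?_ hpt
    have hb1 : 0 ≤ bst (pr (Xj j)) M b c :=
      zero_le_one.trans (one_le_bst (fun p hp => (mem_pr.1 hp).2) M b c)
    positivity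
  have h1 := h M F B A' s hM hB hS hA' hs 1 le_rfl 1 (fun _ => 1) PP zero_le_one
    (fun j => by norm_num) (fun j _ i _ b c _ _ hp => hp.1.1)
    (fun j _ i _ => uniq_dbl hM (dbl_dom P.γ) (fun b c _ _ hp => ⟨hp.1.2, hp.1.1.size⟩))
    (fun b c => Wt b c / K0) (fun j _ i _ b c _ _ hp => hp.2)
  have hg : ∀ b c, 0 ≤ (Nat.gcd b c : ℝ) * nu M b * nu M c := fun b c =>
    mul_nonneg (mul_nonneg (Nat.cast_nonneg _) (nu_nonneg _ _)) (nu_nonneg _ _)
  have h2 : ∑ b ∈ B, ∑ c ∈ B.erase b, (Nat.gcd b c : ℝ) * nu M b * nu M c * Wt b c ≤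
      K0 * ∑ b ∈ B, ∑ c ∈ B, (if ∃ j, 1 ≤ j ∧ ∃ i, i < 1 ∧ PP j i b c then
        (Nat.gcd b c : ℝ) * nu M b * nu M c * (Wt b c / K0) else 0) := by
    rw [Finset.mul_sum]
    refine Finset.sum_le_sum fun b hb => ?_
    rw [Finset.mul_sum]
    refine le_trans (Finset.sum_le_sum fun c hc => ?_)
      (Finset.sum_le_sum_of_subset_of_nonneg (Finset.erase_subset b B) fun c _ _ => ?_)
    · by_cases hz : Wt b c = 0
      · rw [hz, mul_zero]
        refine mul_nonneg hK0p.le ?_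
        split_ifs
        · simp
        · exact le_rfl
      · rw [if_pos (hkey b hb c (Finset.mem_of_mem_erase hc) hz)]
        refine le_of_eq ?_
        field_simp
    · refine mul_nonneg hK0p.le ?_
      split_ifs
      · exact mul_nonneg (hg b c) (div_nonneg (hWt0 b c) hK0p.le)
      · exact le_rfl
  have hm : 0 ≤ ∑ b ∈ B, nu M b := Finset.sum_nonneg fun b _ => nu_nonneg M b
  have h3 : EnR P.γ P.L M B lam (RG F P) =
      P.L * ∑ b ∈ B, ∑ c ∈ B.erase b, (Nat.gcd b c : ℝ) * nu M b * nu M c * Wt b c := rfl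
  rw [h3]
  calc P.L * ∑ b ∈ B, ∑ c ∈ B.erase b, (Nat.gcd b c : ℝ) * nu M b * nu M c * Wt b c
      ≤ P.L * (K0 * (C * 1 * (1 + A') * (3 / 4 : ℝ) ^ 1 * ∑ b ∈ B, nu M b)) :=
        mul_le_mul_of_nonneg_left (h2.trans (mul_le_mul_of_nonneg_left h1 hK0p.le)) hL.le
    _ ≤ K0 * C * (1 + A') * (P.L * ∑ b ∈ B, nu M b) := by
        have h5 : 0 ≤ K0 * C * (1 + A') * (P.L * ∑ b ∈ B, nu M b) := by positivity
        nlinarith

/-! ### the crude boost at the own scale -/

/-- the full `B1` is `≤ C log X` times its part above `X` -/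
lemma B1_split {X : ℕ} (hX : 2 ≤ X) (b c : ℕ) :
    PureL2x232.B1 b c ≤ CM * Real.log X * B1Levx52.B1 X b c := by
  classical
  unfold PureL2x232.B1 B1Levx52.B1
  set S := (b / Nat.gcd b c * (c / Nat.gcd b c)).primeFactors with hS
  have hSp : ∀ p ∈ S, p.Prime := fun p hp => Nat.prime_of_mem_primeFactors hp
  change ∏ p ∈ S, pf p ≤ CM * Real.log X * ∏ p ∈ S.filter (fun p => X < p), pf p
  rw [← Finset.prod_filter_mul_prod_filter_not S (fun p => X < p), mul_comm]
  refine mul_le_mul_of_nonneg_right ?_ ?_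
  · refine prod_pf_le_mertens (by exact_mod_cast hX) fun p hp => ?_
    rw [Finset.mem_filter] at hp
    exact ⟨hSp p hp.1, by exact_mod_cast not_lt.1 hp.2⟩
  · exact (prod_pf_pos fun p hp => hSp p (Finset.mem_filter.1 hp).1).le

/-- constant of `boost_own` -/
noncomputable def KB : ℝ := Real.exp 1200 * CM ^ 2

lemma KB_nonneg : 0 ≤ KB := by
  have := CM_pos
  unfold KB
  positivity

/-- **the boost of a pair of case A** -/
theorem boost_own {P : Par} {A : ℕ} (hM : 0 < M) (hL : 0 < P.L) (hcut : ∀ m, P.cut m = 2 ^ (A * m))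
    (hA : 1 ≤ A) (hm0 : 1 ≤ P.m0) (hY : ∀ i, P.Y i = 2 ^ i)
    (hthr : ∀ b i, P.thr b i ≤ Real.exp ((P.Y (i - 1) : ℝ) ^ (4 / 5 : ℝ)))
    {b c : ℕ} (hb : b ∣ M) (hc : c ∣ M) {i : ℕ} {h : ℤ} (hF : FarA F P i b c h)
    (hl : h ∈ Lnk P.γ P.L b c) :
    boostB M (lamR F P) b c h ≤ KB * (A : ℝ) ^ 2 * ((i : ℝ) + 1) ^ 2 *
      B1Levx52.B1 (P.cut i) b c := by
  have hi : 1 ≤ i := hm0.trans hF.m0
  have hc2 : 2 ≤ P.cut i := by
    rw [hcut]
    calc 2 = 2 ^ 1 := by norm_num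
      _ ≤ 2 ^ (A * i) := Nat.pow_le_pow_right (by norm_num) (Nat.mul_pos hA hi)
  have hc3 : P.cut i ≤ P.cut (2 * i) := by
    rw [hcut, hcut]
    exact Nat.pow_le_pow_right (by norm_num) (Nat.mul_le_mul_left _ (by omega))
  have h2i : (1 : ℝ) ≤ 2 ^ i := one_le_pow₀ (by norm_num)
  have h1 := BoostAlx100.boost_alQ (F := F) (P := P) hM hb hc hL hY hthr
    (Q := P.cut (2 * i)) (hc2.trans hc3) (FL.good_mono hc3 hF.good) hl hF.al
    (Or.inr (by have := hF.lo; nlinarith))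
  refine h1.trans ?_
  have h2 := BoostAlx100.bst_le_log (hc2.trans hc3) M b c
  have h3 := B1_split hc2 b c
  have hB0 : 0 ≤ B1Levx52.B1 (P.cut i) b c := B1Levx52.B1_nonneg _ _ _
  have hl2 : 0 < Real.log 2 := Real.log_pos (by norm_num)
  have hl2' : Real.log 2 ≤ 7 / 10 := by
    have := Real.log_two_lt_d9
    linarith
  have e1 : Real.log (P.cut i) = (A : ℝ) * i * Real.log 2 := by
    rw [hcut]; push_cast; rw [Real.log_pow]; push_cast; ring
  have e2 : Real.log (P.cut (2 * i)) = 2 * ((A : ℝ) * i * Real.log 2) := by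
    rw [hcut]; push_cast; rw [Real.log_pow]; push_cast; ring
  rw [e1] at h3
  rw [e2] at h2
  have hCM := CM_pos
  have hAi : 0 ≤ (A : ℝ) * i * Real.log 2 := by positivity
  have h4 : PureL2x232.B1 b c * bst (prQ (P.cut (2 * i))) M b c ≤
      (CM * ((A : ℝ) * i * Real.log 2) * B1Levx52.B1 (P.cut i) b c) *
        (CM * (2 * ((A : ℝ) * i * Real.log 2))) :=
    mul_le_mul h3 h2 (BoostAlx100.bst_nonneg _ _ _ _) (by positivity)
  have h5 : Real.log 2 ^ 2 * 2 ≤ 1 := by nlinarith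
  have h6 : (i : ℝ) ^ 2 ≤ ((i : ℝ) + 1) ^ 2 := by
    have : (0 : ℝ) ≤ i := Nat.cast_nonneg i
    nlinarith
  calc Real.exp 1200 * (PureL2x232.B1 b c * bst (prQ (P.cut (2 * i))) M b c)
      ≤ Real.exp 1200 * ((CM * ((A : ℝ) * i * Real.log 2) * B1Levx52.B1 (P.cut i) b c) *
        (CM * (2 * ((A : ℝ) * i * Real.log 2)))) :=
        mul_le_mul_of_nonneg_left h4 (Real.exp_pos _).le
    _ = Real.exp 1200 * CM ^ 2 * (A : ℝ) ^ 2 * (i : ℝ) ^ 2 * B1Levx52.B1 (P.cut i) b c *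
        (Real.log 2 ^ 2 * 2) := by ring
    _ ≤ Real.exp 1200 * CM ^ 2 * (A : ℝ) ^ 2 * (i : ℝ) ^ 2 * B1Levx52.B1 (P.cut i) b c * 1 :=
        mul_le_mul_of_nonneg_left h5 (by positivity)
    _ ≤ KB * (A : ℝ) ^ 2 * ((i : ℝ) + 1) ^ 2 * B1Levx52.B1 (P.cut i) b c := by
        unfold KB
        rw [mul_one]
        exact mul_le_mul_of_nonneg_right (mul_le_mul_of_nonneg_left h6 (by positivity)) hB0

/-! ### the part which is not good at the root of the cut -/

/-- the square root cut -/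
def xh (A i : ℕ) : ℕ := 2 ^ (A * i / 2)

open Classical in
/-- **own scale `2^i`, not good at `2^(A i / 2)`** -/
theorem RB_bound {η c C1 A' : ℝ} {A : ℕ} (hη : 0 < η) (hη1 : η < 1) (hc : 0 < c) (hC1 : 0 ≤ C1)
    (hA' : 0 ≤ A') (hA : 1 ≤ A)
    (ha : η < ((A : ℝ) - 1) / 2 * min c ((1 + η) / 8)) :
    ∃ C0 : ℝ, 0 ≤ C0 ∧ ∀ (M : ℕ) (F : FL M) (P : Par) (B : Finset ℕ) (s : ℝ),
    0 < M → B ⊆ M.divisors → Shares F B A' s → 3 / 4 ≤ s → 0 < P.L →
    (∀ (t : ℝ) (x : ℕ), 0 < t → badEn F B P.L t x ≤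
        C1 * t ^ η * ((x : ℝ) + 1) ^ (-c) * (P.L * ∑ b ∈ B, nu M b) ^ (1 + η)) →
    (∀ i, P.Y i = 2 ^ i) →
    (∀ b i, P.thr b i ≤ Real.exp ((P.Y (i - 1) : ℝ) ^ (4 / 5 : ℝ))) →
    (∀ m, P.cut m = 2 ^ (A * m)) → 1 ≤ P.m0 → (M : ℝ) / P.L ≤ P.N →
    EnR P.γ P.L M B (lamR F P) (RB F P (xh A)) ≤ C0 * (P.L * ∑ b ∈ B, nu M b) ^ (1 + η) := by
  obtain ⟨C, hC, h⟩ := BadWx14.badW_final (η := η) (c := c) (C0 := C1) (A := A')
    (a := ((A : ℝ) - 1) / 2) (β := 0) (K := KB * (A : ℝ) ^ 2) hη hη1 hc hC1 hA'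
    (mul_nonneg KB_nonneg (by positivity)) (by rw [add_zero]; exact ha) 2
  refine ⟨C, hC, ?_⟩
  intro M F P B s hM hB hS hs hL hbad hY hthr hcut hm0 hN
  set S := Finset.range (P.N + 1) with hSd
  set Wt : ℕ → ℕ → ℕ → ℝ := fun σ b c => if (Nat.gcd b c : ℝ) < 2 ^ (σ + 1) * P.L ∧
      ¬ F.good (xh A σ) b c then
    KB * (A : ℝ) ^ 2 * (((σ : ℝ) + 1) ^ 2 * 2 ^ ((0 : ℝ) * (σ : ℝ))) *
      (BadWx14.wB F (xh A σ) b * BadWx14.wB F (xh A σ) c) else 0 with hWt
  have hwB : ∀ x b, 0 ≤ BadWx14.wB F x b := fun x b =>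
    zero_le_one.trans (BadWx14.one_le_wB F x b)
  have hWt0 : ∀ σ b c, 0 ≤ Wt σ b c := by
    intro σ b c
    simp only [hWt]
    split_ifs
    · have := KB_nonneg
      have := hwB (xh A σ) b
      have := hwB (xh A σ) c
      positivity
    · exact le_rfl
  have h1 := h M F B P.L s hM hB hL hs hS hbad (xh A) S Wt ?_ ?_ ?_ ?_
  · refine le_trans ?_ h1
    refine EnR_le_W (W := fun b c => ∑ σ ∈ S, Wt σ b c) hM hB hL.le
      (fun b _ c _ => Finset.sum_nonneg fun σ _ => hWt0 σ b c) ?_ ?_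
    · rintro b _ c _ x _ ⟨i, hF, _⟩
      have h2i : (2 : ℝ) ≤ 2 ^ i := by
        have : 1 ≤ i := hm0.trans hF.m0
        calc (2 : ℝ) = 2 ^ 1 := by norm_num
          _ ≤ 2 ^ i := pow_le_pow_right₀ (by norm_num) this
      have := hF.lo
      nlinarith
    · rintro b hb c hc hne x hx _ ⟨i, hF, hng⟩
      have hbM := Nat.dvd_of_mem_divisors (hB hb)
      have hcM := Nat.dvd_of_mem_divisors (hB hc)
      have h2 := boost_own hM hL hcut hA hm0 hY hthr hbM hcM hF hx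
      have h3 := B1Levx52.B1_le hM hbM hcM hF.good
      have hle : xh A i ≤ P.cut i := by
        rw [hcut]
        exact Nat.pow_le_pow_right (by norm_num) (Nat.div_le_self _ _)
      have h4 : B1Levx52.offW F (P.cut i) b * B1Levx52.offW F (P.cut i) c ≤
          BadWx14.wB F (xh A i) b * BadWx14.wB F (xh A i) c :=
        mul_le_mul (B1Levx52.offW_anti hle b) (B1Levx52.offW_anti hle c)
          (zero_le_one.trans (B1Levx52.one_le_offW _ _)) (hwB _ _)
      have hiN : i ∈ S := by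
        rw [hSd, Finset.mem_range]
        have h5 : (2 : ℝ) ^ i ≤ M / P.L := by
          rw [le_div_iff₀ hL]
          refine hF.lo.trans ?_
          exact_mod_cast Nat.le_of_dvd hM ((Nat.gcd_dvd_left b c).trans hbM)
        have h6 : (i : ℝ) < 2 ^ i := by exact_mod_cast Nat.lt_two_pow_self
        have h7 : (i : ℝ) < P.N := lt_of_lt_of_le h6 (h5.trans hN)
        have : i < P.N := by exact_mod_cast h7
        omega
      refine le_trans ?_ (Finset.single_le_sum (f := fun σ => Wt σ b c)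
        (fun σ _ => hWt0 σ b c) hiN)
      simp only [hWt]
      rw [if_pos ⟨hF.hi, hng⟩, zero_mul, Real.rpow_zero, mul_one]
      refine h2.trans ?_
      refine mul_le_mul_of_nonneg_left (h3.trans h4) ?_
      have := KB_nonneg
      positivity
  · intro σ _
    have e : ((xh A σ : ℕ) : ℝ) = (2 : ℝ) ^ ((A * σ / 2 : ℕ) : ℝ) := by
      unfold xh
      rw [Real.rpow_natCast]
      push_cast
      rfl
    rcases Nat.eq_zero_or_pos σ with h0 | h0
    · rw [h0]
      simp [xh]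
    · have h5 : (1 : ℝ) ≤ σ := by exact_mod_cast h0
      have h6 : ((A : ℝ) * σ - 1) / 2 ≤ ((A * σ / 2 : ℕ) : ℝ) := by
        have h7 : A * σ ≤ 2 * (A * σ / 2) + 1 := by omega
        have h8 : ((A * σ : ℕ) : ℝ) ≤ ((2 * (A * σ / 2) + 1 : ℕ) : ℝ) := by exact_mod_cast h7
        push_cast at h8
        linarith
      have h9 : (2 : ℝ) ^ (((A : ℝ) - 1) / 2 * (σ : ℝ)) ≤ (xh A σ : ℕ) := by
        rw [e]
        refine Real.rpow_le_rpow_of_exponent_le (by norm_num) ?_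
        refine le_trans ?_ h6
        nlinarith
      linarith
  · intro σ _ b _ c' _
    simp only [hWt]
    split_ifs
    · exact le_rfl
    · have := KB_nonneg
      have := hwB (xh A σ) b
      have := hwB (xh A σ) c'
      positivity
  · intro σ _ b _ c' _ hg
    simp only [hWt]
    rw [if_neg (fun hh => hh.2 hg)]
  · intro σ _ b _ c' _ hg
    simp only [hWt]
    rw [if_neg (fun hh => absurd hh.1 (not_lt.2 hg))]

end Crest.Agent.R4C.DomNx52
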