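import Crest.Agent.R4C.Base_935
import Crest.Agent.Lib.Mertens

/-!
# Natural measure of rare boxes (helper473; row 4, note 2736 of helper284, kind (i))

`R : ℕ → ℕ → Prop` is an arbitrary relation on pairs of low words (for 232's file:
`R u v = near (u * ξ - v * ξ') (1/t)`).

* `box_sum`   : a rare box has product measure `≤ 8 / D`.
* `rare_sum`  : all rare dyadic boxes with entries `≤ Z`: `≤ 8 (1 + log₂ Z)² / D`.
* `moment_le` : `∑_{b ∣ M} ν(b) b^{1/log Y} ≤ e^{12}` if all primes of `M` are `≤ Y`, `Y ≥ 16`.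
* `tail_le`   : `∑_{b ∣ M, b > Y^l} ν(b) ≤ e^{12 - l}`.
* `rare_nu`   : the total for two laws `ν_M`, `ν_{M'}`.
-/

set_option autoImplicit false

open Finset

namespace Crest.Agent.R4C.Rarex473

open Crest.Agent.R4C.Basex935

/-! ### (a), (b) boxes -/

open Classical in
/-- the points of the relation `R` in the box `[U,2U) × [V,2V)` -/
noncomputable def boxR (R : ℕ → ℕ → Prop) (U V : ℕ) : Finset (ℕ × ℕ) :=
  ((Finset.Ico U (2 * U)) ×ˢ (Finset.Ico V (2 * V))).filter (fun w => R w.1 w.2)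

/-- the box `[U,2U) × [V,2V)` is rare -/
def RareBox (R : ℕ → ℕ → Prop) (D : ℝ) (U V : ℕ) : Prop :=
  ((boxR R U V).card : ℝ) ≤ 8 * U * V / D

lemma mem_boxR {R : ℕ → ℕ → Prop} {U V : ℕ} {w : ℕ × ℕ} :
    w ∈ boxR R U V ↔ (U ≤ w.1 ∧ w.1 < 2 * U) ∧ (V ≤ w.2 ∧ w.2 < 2 * V) ∧ R w.1 w.2 := by
  classical
  unfold boxR
  rw [Finset.mem_filter, Finset.mem_product, Finset.mem_Ico, Finset.mem_Ico]
  tauto

theorem box_sum {R : ℕ → ℕ → Prop} {D : ℝ} {U V : ℕ} (hU : 1 ≤ U) (hV : 1 ≤ V) (hD : 0 < D)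
    (hr : RareBox R D U V) {μ μ' : ℕ → ℝ} (h0' : ∀ n, 0 ≤ μ' n)
    (h1 : ∀ n, 1 ≤ n → μ n ≤ 1 / (n : ℝ)) (h1' : ∀ n, 1 ≤ n → μ' n ≤ 1 / (n : ℝ)) :
    ∑ w ∈ boxR R U V, μ w.1 * μ' w.2 ≤ 8 / D := by
  have hU0 : (0 : ℝ) < U := by exact_mod_cast hU
  have hV0 : (0 : ℝ) < V := by exact_mod_cast hV
  have hb : ∀ w ∈ boxR R U V, μ w.1 * μ' w.2 ≤ 1 / ((U : ℝ) * V) := by
    intro w hw
    rw [mem_boxR] at hw
    obtain ⟨⟨a1, _⟩, ⟨a2, _⟩, _⟩ := hw
    have b1 : (U : ℝ) ≤ w.1 := by exact_mod_cast a1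
    have b2 : (V : ℝ) ≤ w.2 := by exact_mod_cast a2
    have c1 : μ w.1 ≤ 1 / (U : ℝ) :=
      (h1 _ (hU.trans a1)).trans (one_div_le_one_div_of_le hU0 b1)
    have c2 : μ' w.2 ≤ 1 / (V : ℝ) :=
      (h1' _ (hV.trans a2)).trans (one_div_le_one_div_of_le hV0 b2)
    calc μ w.1 * μ' w.2 ≤ 1 / (U : ℝ) * (1 / (V : ℝ)) :=
          mul_le_mul c1 c2 (h0' _) (by positivity)
      _ = 1 / ((U : ℝ) * V) := by rw [one_div_mul_one_div]
  calc ∑ w ∈ boxR R U V, μ w.1 * μ' w.2 ≤ ∑ _w ∈ boxR R U V, 1 / ((U : ℝ) * V) :=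
        Finset.sum_le_sum hb
    _ = ((boxR R U V).card : ℝ) * (1 / ((U : ℝ) * V)) := by
        rw [Finset.sum_const, nsmul_eq_mul]
    _ ≤ 8 * U * V / D * (1 / ((U : ℝ) * V)) :=
        mul_le_mul_of_nonneg_right hr (by positivity)
    _ = 8 / D := by field_simp

open Classical in
/-- `u`, `v` lie in a rare dyadic box and satisfy the relation -/
noncomputable def rareInd (R : ℕ → ℕ → Prop) (D : ℝ) (u v : ℕ) : ℝ :=
  if R u v ∧ RareBox R D (2 ^ Nat.log 2 u) (2 ^ Nat.log 2 v) then 1 else 0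

lemma rareInd_nonneg (R : ℕ → ℕ → Prop) (D : ℝ) (u v : ℕ) : 0 ≤ rareInd R D u v := by
  unfold rareInd; split_ifs <;> norm_num

lemma rareInd_le_one (R : ℕ → ℕ → Prop) (D : ℝ) (u v : ℕ) : rareInd R D u v ≤ 1 := by
  unfold rareInd; split_ifs <;> norm_num

theorem rare_sum {R : ℕ → ℕ → Prop} {D : ℝ} (hD : 0 < D) (Z : ℕ) {μ μ' : ℕ → ℝ}
    (h0 : ∀ n, 0 ≤ μ n) (h0' : ∀ n, 0 ≤ μ' n)
    (h1 : ∀ n, 1 ≤ n → μ n ≤ 1 / (n : ℝ)) (h1' : ∀ n, 1 ≤ n → μ' n ≤ 1 / (n : ℝ)) :
    ∑ u ∈ Finset.Icc 1 Z, ∑ v ∈ Finset.Icc 1 Z, μ u * μ' v * rareInd R D u v ≤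
      8 * (1 + (Nat.log 2 Z : ℝ)) ^ 2 / D := by
  classical
  set k := Nat.log 2 Z with hk
  -- rewrite the sum as a sum over pairs
  rw [← Finset.sum_product' (s := Finset.Icc 1 Z) (t := Finset.Icc 1 Z)
    (f := fun u v => μ u * μ' v * rareInd R D u v)]
  set S := (Finset.Icc 1 Z) ×ˢ (Finset.Icc 1 Z) with hS
  set B := (Finset.range (k + 1)) ×ˢ (Finset.range (k + 1)) with hB
  have hmaps : ∀ w ∈ S, (Nat.log 2 w.1, Nat.log 2 w.2) ∈ B := by
    intro w hw
    rw [hS, Finset.mem_product, Finset.mem_Icc, Finset.mem_Icc] at hw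
    rw [hB, Finset.mem_product, Finset.mem_range, Finset.mem_range]
    have i1 : Nat.log 2 w.1 ≤ k := Nat.log_mono_right hw.1.2
    have i2 : Nat.log 2 w.2 ≤ k := Nat.log_mono_right hw.2.2
    exact ⟨Nat.lt_succ_of_le i1, Nat.lt_succ_of_le i2⟩
  rw [← Finset.sum_fiberwise_of_maps_to hmaps]
  have hbox : ∀ ij ∈ B, ∑ w ∈ S.filter (fun w => (Nat.log 2 w.1, Nat.log 2 w.2) = ij),
      μ w.1 * μ' w.2 * rareInd R D w.1 w.2 ≤ 8 / D := by
    intro ij _
    by_cases hr : RareBox R D (2 ^ ij.1) (2 ^ ij.2)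
    · have hsub : ∑ w ∈ S.filter (fun w => (Nat.log 2 w.1, Nat.log 2 w.2) = ij),
          μ w.1 * μ' w.2 * rareInd R D w.1 w.2 ≤
          ∑ w ∈ boxR R (2 ^ ij.1) (2 ^ ij.2), μ w.1 * μ' w.2 := by
        have hle : ∀ w ∈ S.filter (fun w => (Nat.log 2 w.1, Nat.log 2 w.2) = ij),
            μ w.1 * μ' w.2 * rareInd R D w.1 w.2 ≤
            if w ∈ boxR R (2 ^ ij.1) (2 ^ ij.2) then μ w.1 * μ' w.2 else 0 := by
          intro w hw
          rw [Finset.mem_filter, hS, Finset.mem_product, Finset.mem_Icc, Finset.mem_Icc] at hw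
          obtain ⟨⟨⟨a1, _⟩, ⟨a2, _⟩⟩, he⟩ := hw
          have e1 : Nat.log 2 w.1 = ij.1 := by rw [← he]
          have e2 : Nat.log 2 w.2 = ij.2 := by rw [← he]
          have hm : (w ∈ boxR R (2 ^ ij.1) (2 ^ ij.2)) ↔ R w.1 w.2 := by
            rw [mem_boxR, ← e1, ← e2]
            have p1 : 2 ^ Nat.log 2 w.1 ≤ w.1 := Nat.pow_log_le_self 2 (by omega)
            have p2 : w.1 < 2 ^ (Nat.log 2 w.1 + 1) := Nat.lt_pow_succ_log_self (by norm_num) _
            have p3 : 2 ^ Nat.log 2 w.2 ≤ w.2 := Nat.pow_log_le_self 2 (by omega)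
            have p4 : w.2 < 2 ^ (Nat.log 2 w.2 + 1) := Nat.lt_pow_succ_log_self (by norm_num) _
            rw [pow_succ] at p2 p4
            constructor
            · rintro ⟨_, _, h⟩; exact h
            · intro h; exact ⟨⟨p1, by omega⟩, ⟨p3, by omega⟩, h⟩
          have hnn : 0 ≤ μ w.1 * μ' w.2 := mul_nonneg (h0 _) (h0' _)
          by_cases hR : R w.1 w.2
          · rw [if_pos (hm.2 hR)]
            calc _ ≤ μ w.1 * μ' w.2 * 1 :=
                  mul_le_mul_of_nonneg_left (rareInd_le_one _ _ _ _) hnn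
              _ = _ := mul_one _
          · rw [if_neg (fun h => hR (hm.1 h))]
            unfold rareInd
            rw [if_neg (fun h => hR h.1), mul_zero]
        refine (Finset.sum_le_sum hle).trans ?_
        rw [← Finset.sum_filter]
        refine Finset.sum_le_sum_of_subset_of_nonneg ?_ ?_
        · intro w hw
          exact (Finset.mem_filter.1 hw).2
        · intro w _ _
          exact mul_nonneg (h0 _) (h0' _)
      exact hsub.trans (box_sum Nat.one_le_two_pow Nat.one_le_two_pow hD hr h0' h1 h1')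
    · have hz : ∀ w ∈ S.filter (fun w => (Nat.log 2 w.1, Nat.log 2 w.2) = ij),
          μ w.1 * μ' w.2 * rareInd R D w.1 w.2 = 0 := by
        intro w hw
        rw [Finset.mem_filter] at hw
        have e1 : Nat.log 2 w.1 = ij.1 := by rw [← hw.2]
        have e2 : Nat.log 2 w.2 = ij.2 := by rw [← hw.2]
        unfold rareInd
        rw [e1, e2, if_neg (fun h => hr h.2), mul_zero]
      rw [Finset.sum_eq_zero hz]
      positivity
  calc _ ≤ ∑ _ij ∈ B, 8 / D := Finset.sum_le_sum hbox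
    _ = 8 * (1 + (k : ℝ)) ^ 2 / D := by
        rw [Finset.sum_const, nsmul_eq_mul, hB, Finset.card_product, Finset.card_range]
        push_cast
        ring

/-! ### (c) the tail of the natural law -/

lemma nu_le_inv {M b : ℕ} (hM : 0 < M) (hb : b ∣ M) : nu M b ≤ 1 / (b : ℝ) := by
  have hb0 : 0 < b := Nat.pos_of_dvd_of_pos hb hM
  have hb0' : (0 : ℝ) < b := by exact_mod_cast hb0
  have hM0 : (0 : ℝ) < M := by exact_mod_cast hM
  unfold nu
  rw [div_le_div_iff₀ hM0 hb0', one_mul]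
  have h1 : Nat.totient (M / b) ≤ M / b := Nat.totient_le _
  have h2 : (Nat.totient (M / b)) * b ≤ M :=
    (Nat.mul_le_mul_right b h1).trans (le_of_eq (Nat.div_mul_cancel hb))
  exact_mod_cast h2

/-- the local generating function of the exponent -/
lemma local_sum (p a : ℕ) (x : ℝ) :
    ∑ v ∈ range (a + 1), nup p a v * x ^ v =
      1 + (x - 1) * (1 / (p : ℝ)) * ∑ j ∈ range a, (1 / (p : ℝ) * x) ^ j := by
  set w : ℝ := 1 / (p : ℝ) with hw
  have key : ∀ a : ℕ, ∑ v ∈ range a, (1 - w) * w ^ v * x ^ v + w ^ a * x ^ a =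
      1 + (x - 1) * w * ∑ j ∈ range a, (w * x) ^ j := by
    intro a
    induction a with
    | zero => simp
    | succ n ih =>
      rw [Finset.sum_range_succ, Finset.sum_range_succ, mul_add]
      have e : ∑ v ∈ range n, (1 - w) * w ^ v * x ^ v =
          1 + (x - 1) * w * ∑ j ∈ range n, (w * x) ^ j - w ^ n * x ^ n := by linarith
      rw [e, mul_pow]
      ring
  rw [Finset.sum_range_succ, ← key a]
  congr 1
  · refine Finset.sum_congr rfl fun v hv => ?_
    have : v < a := Finset.mem_range.1 hv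
    unfold nup
    rw [if_pos this]
  · unfold nup
    rw [if_neg (lt_irrefl a)]

lemma exp_one_lt : Real.exp 1 < 2.7182818286 := Real.exp_one_lt_d9

/-- `x = p^κ`, `κ = 1/log Y`; numerical facts -/
lemma px_facts {Y : ℝ} (hY : 16 ≤ Y) {p : ℕ} (hp : p.Prime) (hpY : (p : ℝ) ≤ Y) :
    1 ≤ (p : ℝ) ^ (1 / Real.log Y) ∧
    (p : ℝ) ^ (1 / Real.log Y) - 1 ≤ 7 / 4 * (Real.log p / Real.log Y) ∧
    1 / (p : ℝ) * (p : ℝ) ^ (1 / Real.log Y) ≤ 7 / 10 := by
  have hp0 : (0 : ℝ) < p := by exact_mod_cast hp.pos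
  have hp2 : (2 : ℝ) ≤ p := by exact_mod_cast hp.two_le
  have hlp : 0 < Real.log p := Real.log_pos (by linarith)
  have hlY16 : Real.log 16 ≤ Real.log Y := Real.log_le_log (by norm_num) hY
  have hl16 : 0 < Real.log 16 := Real.log_pos (by norm_num)
  have hlY : 0 < Real.log Y := hl16.trans_le hlY16
  set u : ℝ := Real.log p / Real.log Y with hu
  have hu0 : 0 < u := div_pos hlp hlY
  have hu1 : u ≤ 1 := by
    rw [hu, div_le_one hlY]
    exact Real.log_le_log hp0 hpY
  have hx : (p : ℝ) ^ (1 / Real.log Y) = Real.exp u := by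
    rw [Real.rpow_def_of_pos hp0, hu]
    congr 1
    ring
  rw [hx]
  have he1 := exp_one_lt
  refine ⟨Real.one_le_exp hu0.le, ?_, ?_⟩
  · -- convexity
    have hc := convexOn_exp.2 (Set.mem_univ (0 : ℝ)) (Set.mem_univ (1 : ℝ))
      (sub_nonneg.2 hu1) hu0.le (by ring : (1 - u) + u = 1)
    simp only [smul_eq_mul, mul_zero, mul_one, zero_add, Real.exp_zero] at hc
    nlinarith
  · have hle : Real.exp u ≤ 2.7182818286 := by
      have := Real.exp_le_exp.2 hu1
      linarith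
    rw [one_div, inv_mul_eq_div, div_le_iff₀ hp0]
    rcases Nat.lt_or_ge p 5 with h5 | h5
    · have h23 : p = 2 ∨ p = 3 := by
        have h2 := hp.two_le
        interval_cases p
        · left; rfl
        · right; rfl
        · exact absurd hp (by norm_num)
      rcases h23 with h2 | h3
      · subst h2
        have h4 : u ≤ 1 / 4 := by
          rw [hu, div_le_iff₀ hlY]
          have : Real.log 16 = 4 * Real.log 2 := by
            rw [show (16 : ℝ) = 2 ^ (4 : ℕ) by norm_num, Real.log_pow]; norm_num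
          push_cast
          linarith
        have h6 : Real.exp u ≤ Real.exp (1 / 4) := Real.exp_le_exp.2 h4
        have h7 : Real.exp (1 / 4) ^ 4 = Real.exp 1 := by
          rw [← Real.exp_nat_mul]; norm_num
        have h8 : Real.exp (1 / 4) ≤ 7 / 5 := by
          by_contra hcon
          push Not at hcon
          have : (7 / 5 : ℝ) ^ 4 < Real.exp (1 / 4) ^ 4 :=
            pow_lt_pow_left₀ hcon (by norm_num) (by norm_num)
          rw [h7] at this
          norm_num at this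
          linarith
        push_cast
        linarith
      · subst h3
        have h4 : u ≤ 1 / 2 := by
          rw [hu, div_le_iff₀ hlY]
          have h9 : Real.log 9 = 2 * Real.log 3 := by
            rw [show (9 : ℝ) = 3 ^ (2 : ℕ) by norm_num, Real.log_pow]; norm_num
          have h10 : Real.log 9 ≤ Real.log 16 := Real.log_le_log (by norm_num) (by norm_num)
          push_cast
          linarith
        have h6 : Real.exp u ≤ Real.exp (1 / 2) := Real.exp_le_exp.2 h4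
        have h7 : Real.exp (1 / 2) ^ 2 = Real.exp 1 := by
          rw [← Real.exp_nat_mul]; norm_num
        have h8 : Real.exp (1 / 2) ≤ 2 := by
          by_contra hcon
          push Not at hcon
          have : (2 : ℝ) ^ 2 < Real.exp (1 / 2) ^ 2 :=
            pow_lt_pow_left₀ hcon (by norm_num) (by norm_num)
          rw [h7] at this
          norm_num at this
          linarith
        push_cast
        linarith
    · have : (5 : ℝ) ≤ p := by exact_mod_cast h5
      linarith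

/-- local factor -/
lemma local_le {Y : ℝ} (hY : 16 ≤ Y) {p : ℕ} (hp : p.Prime) (hpY : (p : ℝ) ≤ Y) (a : ℕ) :
    ∑ v ∈ range (a + 1), nup p a v * ((p : ℝ) ^ (1 / Real.log Y)) ^ v ≤
      Real.exp (6 / Real.log Y * (Real.log p / p)) := by
  have hp0 : (0 : ℝ) < p := by exact_mod_cast hp.pos
  have hlY : 0 < Real.log Y := Real.log_pos (by linarith)
  obtain ⟨h1, h2, h3⟩ := px_facts hY hp hpY
  set x : ℝ := (p : ℝ) ^ (1 / Real.log Y) with hx
  rw [local_sum]
  set w : ℝ := 1 / (p : ℝ) with hw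
  have hw0 : 0 < w := by positivity
  have hwx0 : 0 ≤ w * x := by positivity
  have hgeo : ∑ j ∈ range a, (w * x) ^ j ≤ 10 / 3 := by
    have hlt : w * x < 1 := by linarith
    have h4 : ∑ j ∈ range a, (w * x) ^ j ≤ (1 - w * x)⁻¹ := by
      have := (summable_geometric_of_lt_one hwx0 hlt).sum_le_tsum (range a)
        (fun i _ => pow_nonneg hwx0 i)
      rwa [tsum_geometric_of_lt_one hwx0 hlt] at this
    refine h4.trans ?_
    rw [inv_le_comm₀ (by linarith) (by norm_num)]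
    linarith
  have hlogp : 0 ≤ Real.log p := Real.log_nonneg (by exact_mod_cast hp.one_lt.le)
  have h5 : (x - 1) * w * ∑ j ∈ range a, (w * x) ^ j ≤ 6 / Real.log Y * (Real.log p / p) := by
    have h6 : (x - 1) * w ≤ 7 / 4 * (Real.log p / Real.log Y) * w :=
      mul_le_mul_of_nonneg_right h2 hw0.le
    have h7 : 0 ≤ (x - 1) * w := mul_nonneg (by linarith) hw0.le
    calc (x - 1) * w * ∑ j ∈ range a, (w * x) ^ j
        ≤ (7 / 4 * (Real.log p / Real.log Y) * w) * (10 / 3) :=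
          mul_le_mul h6 hgeo (Finset.sum_nonneg fun j _ => pow_nonneg hwx0 j) (h7.trans h6)
      _ = (35 / 6) / Real.log Y * (Real.log p / p) := by
          rw [hw]; field_simp; ring
      _ ≤ 6 / Real.log Y * (Real.log p / p) := by
          refine mul_le_mul_of_nonneg_right ?_ (by positivity)
          exact div_le_div_of_nonneg_right (by norm_num) hlY.le
  have h8 := Real.add_one_le_exp (6 / Real.log Y * (Real.log p / p))
  linarith

/-- the moment, before Mertens -/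
lemma moment_prod {Y : ℝ} (hY : 16 ≤ Y) : ∀ M : ℕ, 0 < M →
    ((∀ p, p.Prime → p ∣ M → (p : ℝ) ≤ Y) →
      ∑ b ∈ M.divisors, nu M b * (b : ℝ) ^ (1 / Real.log Y) ≤
        Real.exp (6 / Real.log Y * ∑ p ∈ M.primeFactors, Real.log p / p)) := by
  apply ind_max
  · intro _
    simp [nu]
  · intro p a M1 hp ha hM1 hnd hlt ih hprime
    have hcop : Nat.Coprime (p ^ a) M1 :=
      Nat.Coprime.pow_left a ((Nat.Prime.coprime_iff_not_dvd hp).2 hnd)
    have hpa : 0 < p ^ a := pow_pos hp.pos a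
    rw [sum_split hp a hM1 hnd]
    have hpY : (p : ℝ) ≤ Y := hprime p hp ((dvd_pow_self p ha.ne').mul_right M1)
    have ih' := ih (fun r hr hrd => hprime r hr (hrd.mul_left _))
    have hloc := local_le hY hp hpY a
    set κ : ℝ := 1 / Real.log Y with hκ
    have e1 : ∑ v ∈ range (a + 1), ∑ b1 ∈ M1.divisors,
        nu (p ^ a * M1) (p ^ v * b1) * ((p ^ v * b1 : ℕ) : ℝ) ^ κ =
        (∑ v ∈ range (a + 1), nup p a v * ((p : ℝ) ^ κ) ^ v) *
          ∑ b1 ∈ M1.divisors, nu M1 b1 * (b1 : ℝ) ^ κ := by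
      rw [Finset.sum_mul]
      refine Finset.sum_congr rfl fun v hv => ?_
      have hva : v ≤ a := Nat.lt_succ_iff.1 (Finset.mem_range.1 hv)
      rw [Finset.mul_sum]
      refine Finset.sum_congr rfl fun b1 hb1 => ?_
      have hb1d := Nat.dvd_of_mem_divisors hb1
      rw [nu_mul hcop (pow_dvd_pow p hva) hb1d, nu_prime_pow hp hva]
      push_cast
      rw [Real.mul_rpow (by positivity) (by positivity), ← Real.rpow_natCast, ← Real.rpow_natCast,
        ← Real.rpow_mul (by positivity), ← Real.rpow_mul (by positivity), mul_comm (v : ℝ) κ]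
      ring
    rw [e1]
    have hpf : (p ^ a * M1).primeFactors = insert p M1.primeFactors := by
      rw [hcop.primeFactors_mul, Nat.primeFactors_prime_pow ha.ne' hp, Finset.insert_eq]
    have hpn : p ∉ M1.primeFactors := fun h => hnd (Nat.dvd_of_mem_primeFactors h)
    rw [hpf, Finset.sum_insert hpn, mul_add, Real.exp_add]
    refine mul_le_mul hloc ih' (Finset.sum_nonneg fun b _ => ?_) (Real.exp_pos _).le
    exact mul_nonneg (nu_nonneg _ _) (Real.rpow_nonneg (Nat.cast_nonneg _) _)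

/-- **moment of the natural law on `Y`-smooth words** -/
theorem moment_le {Y : ℝ} (hY : 16 ≤ Y) {M : ℕ} (hM : 0 < M)
    (hprime : ∀ p, p.Prime → p ∣ M → (p : ℝ) ≤ Y) :
    ∑ b ∈ M.divisors, nu M b * (b : ℝ) ^ (1 / Real.log Y) ≤ Real.exp 12 := by
  have hlY16 : Real.log 16 ≤ Real.log Y := Real.log_le_log (by norm_num) hY
  have hl4 : Real.log 16 = 2 * Real.log 4 := by
    rw [show (16 : ℝ) = 4 ^ (2 : ℕ) by norm_num, Real.log_pow]; norm_num
  have hl16 : 0 < Real.log 16 := Real.log_pos (by norm_num)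
  have hlY : 0 < Real.log Y := hl16.trans_le hlY16
  refine (moment_prod hY M hM hprime).trans (Real.exp_le_exp.2 ?_)
  have hfl : 1 ≤ ⌊Y⌋₊ := by
    rw [Nat.one_le_floor_iff]; linarith
  have h1 : ∑ p ∈ M.primeFactors, Real.log p / p ≤ Lib.Mertens.A ⌊Y⌋₊ := by
    unfold Lib.Mertens.A
    refine Finset.sum_le_sum_of_subset_of_nonneg ?_ ?_
    · intro p hp
      have hpp := Nat.prime_of_mem_primeFactors hp
      rw [Nat.mem_primesLE]
      exact ⟨Nat.le_floor (hprime p hpp (Nat.dvd_of_mem_primeFactors hp)), hpp⟩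
    · intro p hp _
      have hpp := Nat.prime_of_mem_primesLE hp
      exact div_nonneg (Real.log_nonneg (by exact_mod_cast hpp.one_lt.le)) (Nat.cast_nonneg _)
  have h2 := Lib.Mertens.A_le ⌊Y⌋₊ hfl
  have h3 : Real.log (⌊Y⌋₊ : ℕ) ≤ Real.log Y :=
    Real.log_le_log (by exact_mod_cast hfl) (Nat.floor_le (by linarith))
  have h4 : ∑ p ∈ M.primeFactors, Real.log p / p ≤ 2 * Real.log Y := by
    linarith
  calc 6 / Real.log Y * ∑ p ∈ M.primeFactors, Real.log p / p
      ≤ 6 / Real.log Y * (2 * Real.log Y) :=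
        mul_le_mul_of_nonneg_left h4 (by positivity)
    _ = 12 := by field_simp; norm_num

open Classical in
/-- **Rankin tail**: `P(b > Y^l) ≤ e^{12 - l}` -/
theorem tail_le {Y : ℝ} (hY : 16 ≤ Y) {M : ℕ} (hM : 0 < M)
    (hprime : ∀ p, p.Prime → p ∣ M → (p : ℝ) ≤ Y) (l : ℝ) :
    ∑ b ∈ M.divisors.filter (fun b : ℕ => Y ^ l < (b : ℝ)), nu M b ≤ Real.exp (12 - l) := by
  have hlY : 0 < Real.log Y := Real.log_pos (by linarith)
  have hY0 : 0 < Y := by linarith
  set κ : ℝ := 1 / Real.log Y with hκ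
  have hκ0 : 0 < κ := by positivity
  have hY1 : (Y ^ l) ^ κ = Real.exp l := by
    rw [← Real.rpow_mul hY0.le, Real.rpow_def_of_pos hY0]
    congr 1
    rw [hκ]; field_simp
  have h1 : ∑ b ∈ M.divisors.filter (fun b : ℕ => Y ^ l < (b : ℝ)), nu M b * Real.exp l ≤
      ∑ b ∈ M.divisors, nu M b * (b : ℝ) ^ κ := by
    calc _ ≤ ∑ b ∈ M.divisors.filter (fun b : ℕ => Y ^ l < (b : ℝ)), nu M b * (b : ℝ) ^ κ := by
          refine Finset.sum_le_sum fun b hb => ?_
          refine mul_le_mul_of_nonneg_left ?_ (nu_nonneg _ _)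
          rw [← hY1]
          exact Real.rpow_le_rpow (Real.rpow_nonneg hY0.le _) (Finset.mem_filter.1 hb).2.le hκ0.le
      _ ≤ _ := Finset.sum_le_sum_of_subset_of_nonneg (Finset.filter_subset _ _)
          fun b _ _ => mul_nonneg (nu_nonneg _ _) (Real.rpow_nonneg (Nat.cast_nonneg _) _)
  have h2 := h1.trans (moment_le hY hM hprime)
  rw [← Finset.sum_mul] at h2
  rw [Real.exp_sub, le_div_iff₀ (Real.exp_pos l)]
  exact h2

/-- **natural measure of the rare boxes**, laws `ν_M`, `ν_{M'}` -/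
theorem rare_nu {R : ℕ → ℕ → Prop} {D : ℝ} (hD : 0 < D) {Y : ℝ} (hY : 16 ≤ Y) {M M' : ℕ}
    (hM : 0 < M) (hM' : 0 < M') (hp : ∀ p, p.Prime → p ∣ M → (p : ℝ) ≤ Y)
    (hp' : ∀ p, p.Prime → p ∣ M' → (p : ℝ) ≤ Y) (l : ℝ) :
    ∑ u ∈ M.divisors, ∑ v ∈ M'.divisors, nu M u * nu M' v * rareInd R D u v ≤
      2 * Real.exp (12 - l) + 8 * (1 + (Nat.log 2 ⌊Y ^ l⌋₊ : ℝ)) ^ 2 / D := by
  classical
  have hY0 : 0 < Y := by linarith
  set Z : ℕ := ⌊Y ^ l⌋₊ with hZ
  have hYl : 0 ≤ Y ^ l := Real.rpow_nonneg hY0.le _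
  -- the weights cut at the divisors
  set μ : ℕ → ℝ := fun n => if n ∣ M then nu M n else 0 with hμ
  set μ' : ℕ → ℝ := fun n => if n ∣ M' then nu M' n else 0 with hμ'
  have g0 : ∀ n, 0 ≤ μ n := fun n => by
    simp only [hμ]; split_ifs; exacts [nu_nonneg _ _, le_rfl]
  have g0' : ∀ n, 0 ≤ μ' n := fun n => by
    simp only [hμ']; split_ifs; exacts [nu_nonneg _ _, le_rfl]
  have g1 : ∀ n, 1 ≤ n → μ n ≤ 1 / (n : ℝ) := fun n _ => by
    simp only [hμ]; split_ifs with h; exacts [nu_le_inv hM h, by positivity]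
  have g1' : ∀ n, 1 ≤ n → μ' n ≤ 1 / (n : ℝ) := fun n _ => by
    simp only [hμ']; split_ifs with h; exacts [nu_le_inv hM' h, by positivity]
  have hrs := rare_sum (R := R) hD Z g0 g0' g1 g1'
  have t1 := tail_le hY hM hp l
  have t2 := tail_le hY hM' hp' l
  -- pointwise domination
  have hdom : ∀ u ∈ M.divisors, ∀ v ∈ M'.divisors, nu M u * nu M' v * rareInd R D u v ≤
      (if Y ^ l < (u : ℝ) then nu M u * nu M' v else 0) +
      (if Y ^ l < (v : ℝ) then nu M u * nu M' v else 0) +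
      (if u ∈ Finset.Icc 1 Z ∧ v ∈ Finset.Icc 1 Z then nu M u * nu M' v * rareInd R D u v
        else 0) := by
    intro u hu v hv
    have hn : 0 ≤ nu M u * nu M' v := mul_nonneg (nu_nonneg _ _) (nu_nonneg _ _)
    have hr0 := rareInd_nonneg R D u v
    have hr1 := rareInd_le_one R D u v
    have hx : nu M u * nu M' v * rareInd R D u v ≤ nu M u * nu M' v := by
      calc _ ≤ nu M u * nu M' v * 1 := mul_le_mul_of_nonneg_left hr1 hn
        _ = _ := mul_one _
    have hx0 : 0 ≤ nu M u * nu M' v * rareInd R D u v := mul_nonneg hn hr0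
    by_cases c1 : Y ^ l < (u : ℝ)
    · rw [if_pos c1]
      split_ifs <;> linarith
    · by_cases c2 : Y ^ l < (v : ℝ)
      · rw [if_pos c2]
        split_ifs <;> linarith
      · have hu1 : 1 ≤ u := Nat.pos_of_mem_divisors hu
        have hv1 : 1 ≤ v := Nat.pos_of_mem_divisors hv
        have hu2 : u ≤ Z := Nat.le_floor (not_lt.1 c1)
        have hv2 : v ≤ Z := Nat.le_floor (not_lt.1 c2)
        rw [if_neg c1, if_neg c2, if_pos ⟨Finset.mem_Icc.2 ⟨hu1, hu2⟩,
          Finset.mem_Icc.2 ⟨hv1, hv2⟩⟩]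
        linarith
  have s1 : ∑ u ∈ M.divisors, ∑ v ∈ M'.divisors,
      (if Y ^ l < (u : ℝ) then nu M u * nu M' v else 0) ≤ Real.exp (12 - l) := by
    have : ∀ u ∈ M.divisors, ∑ v ∈ M'.divisors,
        (if Y ^ l < (u : ℝ) then nu M u * nu M' v else 0) =
        (if Y ^ l < (u : ℝ) then nu M u else 0) := by
      intro u _
      split_ifs
      · rw [← Finset.mul_sum, sum_nu hM', mul_one]
      · simp
    rw [Finset.sum_congr rfl this, ← Finset.sum_filter]
    exact t1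
  have s2 : ∑ u ∈ M.divisors, ∑ v ∈ M'.divisors,
      (if Y ^ l < (v : ℝ) then nu M u * nu M' v else 0) ≤ Real.exp (12 - l) := by
    rw [Finset.sum_comm]
    have : ∀ v ∈ M'.divisors, ∑ u ∈ M.divisors,
        (if Y ^ l < (v : ℝ) then nu M u * nu M' v else 0) =
        (if Y ^ l < (v : ℝ) then nu M' v else 0) := by
      intro v _
      split_ifs
      · rw [← Finset.sum_mul, sum_nu hM, one_mul]
      · simp
    rw [Finset.sum_congr rfl this, ← Finset.sum_filter]
    exact t2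
  have s3 : ∑ u ∈ M.divisors, ∑ v ∈ M'.divisors,
      (if u ∈ Finset.Icc 1 Z ∧ v ∈ Finset.Icc 1 Z then nu M u * nu M' v * rareInd R D u v
        else 0) ≤ ∑ u ∈ Finset.Icc 1 Z, ∑ v ∈ Finset.Icc 1 Z, μ u * μ' v * rareInd R D u v := by
    have e : ∀ u ∈ M.divisors, ∑ v ∈ M'.divisors,
        (if u ∈ Finset.Icc 1 Z ∧ v ∈ Finset.Icc 1 Z then nu M u * nu M' v * rareInd R D u v
          else 0) ≤ if u ∈ Finset.Icc 1 Z then
            ∑ v ∈ Finset.Icc 1 Z, μ u * μ' v * rareInd R D u v else 0 := by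
      intro u hu
      by_cases cu : u ∈ Finset.Icc 1 Z
      · rw [if_pos cu]
        simp only [cu, true_and]
        rw [← Finset.sum_filter]
        have hmu : μ u = nu M u := by
          simp only [hμ]; rw [if_pos (Nat.dvd_of_mem_divisors hu)]
        calc _ = ∑ v ∈ M'.divisors.filter (fun v => v ∈ Finset.Icc 1 Z),
              μ u * μ' v * rareInd R D u v := by
              refine Finset.sum_congr rfl fun v hv => ?_
              have hv' := (Finset.mem_filter.1 hv).1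
              have hmv : μ' v = nu M' v := by
                simp only [hμ']; rw [if_pos (Nat.dvd_of_mem_divisors hv')]
              rw [hmu, hmv]
          _ ≤ _ := Finset.sum_le_sum_of_subset_of_nonneg
              (fun v hv => (Finset.mem_filter.1 hv).2)
              (fun v _ _ => mul_nonneg (mul_nonneg (g0 _) (g0' _)) (rareInd_nonneg _ _ _ _))
      · rw [if_neg cu]
        simp [cu]
    refine (Finset.sum_le_sum e).trans ?_
    rw [← Finset.sum_filter]
    refine Finset.sum_le_sum_of_subset_of_nonneg (fun u hu => (Finset.mem_filter.1 hu).2) ?_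
    intro u _ _
    exact Finset.sum_nonneg fun v _ =>
      mul_nonneg (mul_nonneg (g0 _) (g0' _)) (rareInd_nonneg _ _ _ _)
  calc _ ≤ ∑ u ∈ M.divisors, ∑ v ∈ M'.divisors,
        ((if Y ^ l < (u : ℝ) then nu M u * nu M' v else 0) +
        (if Y ^ l < (v : ℝ) then nu M u * nu M' v else 0) +
        (if u ∈ Finset.Icc 1 Z ∧ v ∈ Finset.Icc 1 Z then nu M u * nu M' v * rareInd R D u v
          else 0)) := Finset.sum_le_sum fun u hu => Finset.sum_le_sum fun v hv => hdom u hu v hv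
    _ ≤ _ := by
        simp only [Finset.sum_add_distrib]
        linarith

/-- explicit form: `log₂ ⌊Y^l⌋ ≤ l log Y / log 2` -/
lemma log2_floor_le {Y : ℝ} (hY : 16 ≤ Y) {l : ℝ} (hl : 0 ≤ l) :
    (Nat.log 2 ⌊Y ^ l⌋₊ : ℝ) ≤ l * Real.log Y / Real.log 2 := by
  have hY0 : 0 < Y := by linarith
  have h1 : 1 ≤ Y ^ l := Real.one_le_rpow (by linarith) hl
  have hne : ⌊Y ^ l⌋₊ ≠ 0 := by
    have : 1 ≤ ⌊Y ^ l⌋₊ := (Nat.one_le_floor_iff _).2 h1
    omega
  have h2 : ((2 ^ Nat.log 2 ⌊Y ^ l⌋₊ : ℕ) : ℝ) ≤ Y ^ l :=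
    le_trans (by exact_mod_cast Nat.pow_log_le_self 2 hne) (Nat.floor_le (by linarith))
  have hl2 : 0 < Real.log 2 := Real.log_pos (by norm_num)
  rw [le_div_iff₀ hl2]
  have h3 := Real.log_le_log (by positivity) h2
  rw [Real.log_rpow hY0] at h3
  push_cast at h3
  rwa [Real.log_pow] at h3

/-- **fibred version**: low words `u ∣ M0`, `v ∣ M0'`, rough words `x ∣ M1`, `x' ∣ M1'`; the
relation may depend on the rough words -/
theorem rare_total {R : ℕ → ℕ → ℕ → ℕ → Prop} {D : ℝ} (hD : 0 < D) {Y : ℝ} (hY : 16 ≤ Y)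
    {M0 M0' M1 M1' : ℕ} (hM : 0 < M0) (hM' : 0 < M0') (hM1 : 0 < M1) (hM1' : 0 < M1')
    (hc : Nat.Coprime M0 M1) (hc' : Nat.Coprime M0' M1')
    (hp : ∀ p, p.Prime → p ∣ M0 → (p : ℝ) ≤ Y)
    (hp' : ∀ p, p.Prime → p ∣ M0' → (p : ℝ) ≤ Y) (l : ℝ) :
    ∑ x ∈ M1.divisors, ∑ x' ∈ M1'.divisors, ∑ u ∈ M0.divisors, ∑ v ∈ M0'.divisors,
      nu (M0 * M1) (u * x) * nu (M0' * M1') (v * x') * rareInd (R x x') D u v ≤
      2 * Real.exp (12 - l) + 8 * (1 + (Nat.log 2 ⌊Y ^ l⌋₊ : ℝ)) ^ 2 / D := by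
  set Bd : ℝ := 2 * Real.exp (12 - l) + 8 * (1 + (Nat.log 2 ⌊Y ^ l⌋₊ : ℝ)) ^ 2 / D with hBd
  calc _ = ∑ x ∈ M1.divisors, ∑ x' ∈ M1'.divisors, nu M1 x * nu M1' x' *
        ∑ u ∈ M0.divisors, ∑ v ∈ M0'.divisors, nu M0 u * nu M0' v * rareInd (R x x') D u v := by
        refine Finset.sum_congr rfl fun x hx => Finset.sum_congr rfl fun x' hx' => ?_
        rw [Finset.mul_sum]
        refine Finset.sum_congr rfl fun u hu => ?_
        rw [Finset.mul_sum]
        refine Finset.sum_congr rfl fun v hv => ?_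
        rw [nu_mul hc (Nat.dvd_of_mem_divisors hu) (Nat.dvd_of_mem_divisors hx),
          nu_mul hc' (Nat.dvd_of_mem_divisors hv) (Nat.dvd_of_mem_divisors hx')]
        ring
    _ ≤ ∑ x ∈ M1.divisors, ∑ x' ∈ M1'.divisors, nu M1 x * nu M1' x' * Bd := by
        refine Finset.sum_le_sum fun x _ => Finset.sum_le_sum fun x' _ => ?_
        exact mul_le_mul_of_nonneg_left (rare_nu hD hY hM hM' hp hp' l)
          (mul_nonneg (nu_nonneg _ _) (nu_nonneg _ _))
    _ = Bd := by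
        have e : ∀ x ∈ M1.divisors, ∑ x' ∈ M1'.divisors, nu M1 x * nu M1' x' * Bd =
            nu M1 x * Bd := by
          intro x _
          rw [← Finset.sum_mul, ← Finset.mul_sum, sum_nu hM1', mul_one]
        rw [Finset.sum_congr rfl e, ← Finset.sum_mul, sum_nu hM1, one_mul]

end Crest.Agent.R4C.Rarex473
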