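import Crest.Agent.R4C.LowTau_808
import Crest.Agent.R4C.Rare_473

/-!
# Row 4: "RARE AS A STATEMENT" (note 3174) from 442's THEOREM RARE (helper590)

`RareThm κ A C` = the literal statement of 442's `rare_thm` (hypothesis here).

* `rare_gen`  : low relation of natural density `≤ B (log Y)^b T^{-c}` for all fixed high words,
  `log Y ≤ A₁ log T`: `(log Y)^{C₀} L ∑_{TL ≤ gcd < 2TL} gcd ν ν f f' K
    ≤ C T^{-c/100} ((L ν f)(L ν f'))^κ`, `κ = 1/2 + c/256`;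
* `rare_box`  : 284's / 808's rare boxes (`KRare`, `D ≥ T^{c}`);
* `rare_word` : one word `(u,v)` with `u v ≥ T^{c}` for every pair of high words;
* `rare_deep` : labelled, not short, depth `≥ T^{c}` (`KDeep`).
-/

set_option autoImplicit false

open Finset

namespace Crest.Agent.R4C.RareCorx590

open Basex935 Cutx50 MXlowx808 RelTailx808 RelRarex808 LowTaux808 S2x232

/-- 442's THEOREM RARE as a statement -/
def RareThm (κ A C : ℝ) : Prop :=
  ∀ (M Y : ℕ) (f f' : ℕ → ℝ) (K : ℕ → ℕ → ℝ) (k : ℕ → ℕ → ℕ → ℕ → ℝ) (τ X : ℝ),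
    0 < M → 8 ≤ Y → (∀ b, 0 ≤ f b) → (∀ b, f b ≤ 1) → (∀ b, 0 ≤ f' b) → (∀ b, f' b ≤ 1) →
    (∀ b c, 0 ≤ K b c) → (∀ T T' s t, 0 ≤ k T T' s t) → (∀ T T' s t, k T T' s t ≤ 1) →
    (∀ T T', T ∣ upp Y M → T' ∣ upp Y M → MXlowx808.dens (low Y M) (k T T') ≤ τ) →
    (∀ T T' n n', T ∣ upp Y M → T' ∣ upp Y M → n ∣ low Y M → n' ∣ low Y M →
      K (n * T) (n' * T') ≤ k T T' (n / Nat.gcd n n') (n' / Nat.gcd n n')) →
    τ ≤ 1 → 0 < X →
    ∑ b ∈ M.divisors, ∑ c ∈ M.divisors,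
        (if X ≤ (Nat.gcd b c : ℝ) ∧ (Nat.gcd b c : ℝ) < 2 * X then
          (Nat.gcd b c : ℝ) * nu M b * nu M c * (f b * f' c * K b c) else 0) ≤
      C * Real.log Y ^ A * τ ^ ((1 - κ) / 8) * X ^ (2 * κ - 1) * ((Ex M f) ^ κ * (Ex M f') ^ κ)

lemma dens_le_one {N : ℕ} (hN : 0 < N) {K : ℕ → ℕ → ℝ}
    (hK : ∀ s t, K s t ≤ 1) : MXlowx808.dens N K ≤ 1 := by
  unfold MXlowx808.dens
  calc _ ≤ ∑ s ∈ N.divisors, ∑ t ∈ N.divisors, nu N s * nu N t := by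
        refine sum_le_sum fun s _ => sum_le_sum fun t _ => ?_
        have hn : 0 ≤ nu N s * nu N t := mul_nonneg (nu_nonneg _ _) (nu_nonneg _ _)
        split_ifs
        · calc nu N s * nu N t * K s t ≤ nu N s * nu N t * 1 :=
                mul_le_mul_of_nonneg_left (hK s t) hn
            _ = _ := mul_one _
        · exact hn
    _ = 1 := by
        rw [← Finset.sum_mul_sum, sum_nu hN, one_mul]

/-- a power of the logarithm against a small power -/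
lemma log_pow_le {A₁ p ε : ℝ} (hA : 0 ≤ A₁) (hp : 0 ≤ p) (hε : 0 < ε) :
    ∃ C : ℝ, 0 < C ∧ ∀ l T : ℝ, 1 ≤ l → 1 ≤ T → l ≤ A₁ * Real.log T → l ^ p ≤ C * T ^ ε := by
  set q : ℝ := p + 1 with hq
  have hq0 : 0 < q := by linarith
  refine ⟨(A₁ * (q / ε)) ^ q + 1, by positivity, ?_⟩
  intro l T hl hT hlT
  have h1 : Real.log T ≤ T ^ (ε / q) / (ε / q) :=
    Real.log_le_rpow_div (by linarith) (by positivity)
  have h2 : l ≤ A₁ * (q / ε) * T ^ (ε / q) := by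
    calc l ≤ A₁ * Real.log T := hlT
      _ ≤ A₁ * (T ^ (ε / q) / (ε / q)) := mul_le_mul_of_nonneg_left h1 hA
      _ = _ := by field_simp
  have hT0 : 0 ≤ T := by linarith
  calc l ^ p ≤ l ^ q := Real.rpow_le_rpow_of_exponent_le hl (by linarith)
    _ ≤ (A₁ * (q / ε) * T ^ (ε / q)) ^ q := Real.rpow_le_rpow (by linarith) h2 hq0.le
    _ = (A₁ * (q / ε)) ^ q * T ^ ε := by
        rw [Real.mul_rpow (by positivity) (by positivity), ← Real.rpow_mul hT0]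
        congr 2; field_simp
    _ ≤ ((A₁ * (q / ε)) ^ q + 1) * T ^ ε := by
        refine mul_le_mul_of_nonneg_right (by linarith) (Real.rpow_nonneg hT0 _)

lemma log_ge_one {Y : ℕ} (hY : 8 ≤ Y) : 1 ≤ Real.log Y := by
  have hy8 : (8 : ℝ) ≤ Y := by exact_mod_cast hY
  have : 2 ≤ Real.log Y := log_eight.trans (Real.log_le_log (by norm_num) hy8)
  linarith

/-- **generic form**: low relation of natural density `≤ B (log Y)^b T^{-c}` -/
theorem rare_gen {c A C : ℝ} (hc : 0 < c) (hc1 : c ≤ 1) (hA : 0 ≤ A) (hC : 0 ≤ C)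
    (hR : RareThm (1 / 2 + c / 256) A C) {A₁ B b C₀ : ℝ} (hA₁ : 0 ≤ A₁) (hB : 1 ≤ B) (hb : 0 ≤ b)
    (hC₀ : 0 ≤ C₀) :
    ∃ C' : ℝ, 0 < C' ∧ ∀ (M Y : ℕ) (f f' : ℕ → ℝ) (K : ℕ → ℕ → ℝ) (k : ℕ → ℕ → ℕ → ℕ → ℝ)
      (T L : ℝ), 0 < M → 8 ≤ Y → 1 ≤ T → 0 < L → Real.log Y ≤ A₁ * Real.log T →
      (∀ b, 0 ≤ f b) → (∀ b, f b ≤ 1) → (∀ b, 0 ≤ f' b) → (∀ b, f' b ≤ 1) →
      (∀ b c, 0 ≤ K b c) → (∀ U U' s t, 0 ≤ k U U' s t) → (∀ U U' s t, k U U' s t ≤ 1) →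
      (∀ U U', U ∣ upp Y M → U' ∣ upp Y M →
        MXlowx808.dens (low Y M) (k U U') ≤ B * Real.log Y ^ b * T ^ (-c)) →
      (∀ U U' n n', U ∣ upp Y M → U' ∣ upp Y M → n ∣ low Y M → n' ∣ low Y M →
        K (n * U) (n' * U') ≤ k U U' (n / Nat.gcd n n') (n' / Nat.gcd n n')) →
      Real.log Y ^ C₀ * (L * ∑ b ∈ M.divisors, ∑ c ∈ M.divisors,
        (if T * L ≤ (Nat.gcd b c : ℝ) ∧ (Nat.gcd b c : ℝ) < 2 * (T * L) then
          (Nat.gcd b c : ℝ) * nu M b * nu M c * (f b * f' c * K b c) else 0)) ≤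
      C' * T ^ (-(c / 100)) * ((L * Ex M f) * (L * Ex M f')) ^ (1 / 2 + c / 256) := by
  set κ : ℝ := 1 / 2 + c / 256 with hκ
  have hκ0 : 0 < κ := by rw [hκ]; linarith
  have hκ1 : κ < 1 := by rw [hκ]; linarith
  set e : ℝ := (1 - κ) / 8 with he
  have he0 : 0 < e := by rw [he]; linarith
  obtain ⟨C1, hC1, hlog⟩ := log_pow_le (A₁ := A₁) (p := A + b * e + C₀) (ε := c / 50) hA₁
    (by positivity) (by linarith)
  refine ⟨C * B ^ e * C1 + 1, by positivity, ?_⟩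
  intro M Y f f' K k T L hM hY hT hL hYT hf hf1 hf' hf1' hK hk hk1 hdens hKk
  have hl1 := log_ge_one hY
  have hl0 : 0 < Real.log Y := by linarith
  have hT0 : 0 < T := by linarith
  set τ : ℝ := min 1 (B * Real.log Y ^ b * T ^ (-c)) with hτ
  have hτ0 : 0 ≤ τ := le_min zero_le_one (by positivity)
  have hd : ∀ U U', U ∣ upp Y M → U' ∣ upp Y M → MXlowx808.dens (low Y M) (k U U') ≤ τ :=
    fun U U' h1 h2 => le_min (dens_le_one (low_pos Y M) (hk1 U U')) (hdens U U' h1 h2)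
  have hmain := hR M Y f f' K k τ (T * L) hM hY hf hf1 hf' hf1' hK hk hk1 hd hKk (min_le_left _ _)
    (by positivity)
  have hE : 0 ≤ Ex M f := Ex_nonneg M hf
  have hE' : 0 ≤ Ex M f' := Ex_nonneg M hf'
  -- the power of τ
  have hτe : τ ^ e ≤ B ^ e * Real.log Y ^ (b * e) * T ^ (-(c * e)) := by
    calc τ ^ e ≤ (B * Real.log Y ^ b * T ^ (-c)) ^ e :=
          Real.rpow_le_rpow hτ0 (min_le_right _ _) he0.le
      _ = B ^ e * Real.log Y ^ (b * e) * T ^ (-(c * e)) := by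
          rw [Real.mul_rpow (by positivity) (by positivity), Real.mul_rpow (by linarith)
            (by positivity), ← Real.rpow_mul hl0.le, ← Real.rpow_mul hT0.le]
          congr 2; ring
  -- masses
  have hmass : L * ((T * L) ^ (2 * κ - 1) * ((Ex M f) ^ κ * (Ex M f') ^ κ)) =
      T ^ (2 * κ - 1) * ((L * Ex M f) * (L * Ex M f')) ^ κ := by
    have h1 : ((L * Ex M f) * (L * Ex M f')) ^ κ = L ^ (2 * κ) * ((Ex M f) ^ κ * (Ex M f') ^ κ) := by
      rw [Real.mul_rpow (by positivity) (by positivity), Real.mul_rpow hL.le hE,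
        Real.mul_rpow hL.le hE', show 2 * κ = κ + κ by ring, Real.rpow_add hL κ κ]
      ring
    rw [h1, Real.mul_rpow hT0.le hL.le]
    have h2 : L * L ^ (2 * κ - 1) = L ^ (2 * κ) := by
      calc L * L ^ (2 * κ - 1) = L ^ (1 : ℝ) * L ^ (2 * κ - 1) := by rw [Real.rpow_one]
        _ = L ^ (2 * κ) := by rw [← Real.rpow_add hL]; congr 1; ring
    calc L * (T ^ (2 * κ - 1) * L ^ (2 * κ - 1) * ((Ex M f) ^ κ * (Ex M f') ^ κ))
        = T ^ (2 * κ - 1) * ((L * L ^ (2 * κ - 1)) * ((Ex M f) ^ κ * (Ex M f') ^ κ)) := by ring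
      _ = _ := by rw [h2]
  set mm : ℝ := ((L * Ex M f) * (L * Ex M f')) ^ κ with hmm
  have hmm0 : 0 ≤ mm := Real.rpow_nonneg (by positivity) _
  have hlp := hlog (Real.log Y) T hl1 hT hYT
  -- combine
  have hX : 0 ≤ (T * L) ^ (2 * κ - 1) * ((Ex M f) ^ κ * (Ex M f') ^ κ) := by positivity
  calc Real.log Y ^ C₀ * (L * ∑ b ∈ M.divisors, ∑ c ∈ M.divisors,
        (if T * L ≤ (Nat.gcd b c : ℝ) ∧ (Nat.gcd b c : ℝ) < 2 * (T * L) then
          (Nat.gcd b c : ℝ) * nu M b * nu M c * (f b * f' c * K b c) else 0))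
      ≤ Real.log Y ^ C₀ * (L * (C * Real.log Y ^ A * τ ^ e * (T * L) ^ (2 * κ - 1) *
          ((Ex M f) ^ κ * (Ex M f') ^ κ))) := by
        refine mul_le_mul_of_nonneg_left (mul_le_mul_of_nonneg_left hmain hL.le) (by positivity)
    _ = C * Real.log Y ^ C₀ * Real.log Y ^ A * τ ^ e *
          (L * ((T * L) ^ (2 * κ - 1) * ((Ex M f) ^ κ * (Ex M f') ^ κ))) := by ring
    _ = C * Real.log Y ^ C₀ * Real.log Y ^ A * τ ^ e * (T ^ (2 * κ - 1) * mm) := by rw [hmass]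
    _ ≤ C * Real.log Y ^ C₀ * Real.log Y ^ A *
          (B ^ e * Real.log Y ^ (b * e) * T ^ (-(c * e))) * (T ^ (2 * κ - 1) * mm) := by
        refine mul_le_mul_of_nonneg_right (mul_le_mul_of_nonneg_left hτe (by positivity))
          (by positivity)
    _ = C * B ^ e * Real.log Y ^ (A + b * e + C₀) * (T ^ (-(c * e)) * T ^ (2 * κ - 1)) * mm := by
        rw [Real.rpow_add hl0, Real.rpow_add hl0]; ring
    _ ≤ C * B ^ e * (C1 * T ^ (c / 50)) * (T ^ (-(c * e)) * T ^ (2 * κ - 1)) * mm := by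
        refine mul_le_mul_of_nonneg_right (mul_le_mul_of_nonneg_right
          (mul_le_mul_of_nonneg_left hlp (by positivity)) (by positivity)) hmm0
    _ = C * B ^ e * C1 * (T ^ (c / 50 + -(c * e) + (2 * κ - 1))) * mm := by
        rw [Real.rpow_add hT0, Real.rpow_add hT0]; ring
    _ ≤ C * B ^ e * C1 * T ^ (-(c / 100)) * mm := by
        refine mul_le_mul_of_nonneg_right (mul_le_mul_of_nonneg_left ?_ (by positivity)) hmm0
        refine Real.rpow_le_rpow_of_exponent_le hT ?_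
        rw [he, hκ]
        nlinarith
    _ ≤ (C * B ^ e * C1 + 1) * T ^ (-(c / 100)) * mm := by
        refine mul_le_mul_of_nonneg_right (mul_le_mul_of_nonneg_right (by linarith)
          (by positivity)) hmm0

/-! ### cofactors of `n U`, `n' U'` -/

lemma cof_cut {M Y U U' n n' : ℕ} (hU : U ∣ upp Y M) (hU' : U' ∣ upp Y M)
    (hn : n ∣ low Y M) (hn' : n' ∣ low Y M) :
    (n * U) / Nat.gcd (n * U) (n' * U') = (n / Nat.gcd n n') * (U / Nat.gcd U U') := by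
  have hco : Nat.Coprime (low Y M) (upp Y M) := by
    rw [Nat.coprime_iff_gcd_eq_one]
    by_contra h
    obtain ⟨p, hp, hpd⟩ := Nat.exists_prime_and_dvd h
    have h1 := hpd.trans (Nat.gcd_dvd_left _ _)
    have h2 := hpd.trans (Nat.gcd_dvd_right _ _)
    have h3 := prime_low hp h1
    have h4 : ¬ p ≤ Y := prime_dvd_part (fun p => ¬ p ≤ Y) hp h2
    exact h4 h3
  have c1 : Nat.Coprime n' U' := Nat.Coprime.coprime_dvd_left hn'
    (Nat.Coprime.coprime_dvd_right hU' hco)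
  have c2 : Nat.Coprime U n' := (Nat.Coprime.coprime_dvd_left hn'
    (Nat.Coprime.coprime_dvd_right hU hco)).symm
  have c3 : Nat.Coprime n U' := Nat.Coprime.coprime_dvd_left hn
    (Nat.Coprime.coprime_dvd_right hU' hco)
  have e : Nat.gcd (n * U) (n' * U') = Nat.gcd n n' * Nat.gcd U U' := by
    rw [Nat.Coprime.gcd_mul _ c1, Nat.Coprime.gcd_mul_right_cancel n c2,
      Nat.Coprime.gcd_mul_left_cancel U c3]
  rw [e]
  exact Nat.mul_div_mul_comm (Nat.gcd_dvd_left n n') (Nat.gcd_dvd_left U U')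

lemma low_cof {M Y U U' n n' : ℕ} (hU : U ∣ upp Y M) (hU' : U' ∣ upp Y M)
    (hn : n ∣ low Y M) (hn' : n' ∣ low Y M) :
    low Y ((n * U) / Nat.gcd (n * U) (n' * U')) = n / Nat.gcd n n' ∧
      upp Y ((n * U) / Nat.gcd (n * U) (n' * U')) = U / Nat.gcd U U' := by
  rw [cof_cut hU hU' hn hn']
  have h1 : n / Nat.gcd n n' ∣ low Y M := (Nat.div_dvd_of_dvd (Nat.gcd_dvd_left _ _)).trans hn
  have h2 : U / Nat.gcd U U' ∣ upp Y M := (Nat.div_dvd_of_dvd (Nat.gcd_dvd_left _ _)).trans hU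
  exact ⟨low_of_mul h1 h2, upp_of_mul h1 h2⟩

/-! ### rare boxes -/

open Classical in
/-- rare boxes for fixed targets -/
noncomputable def KRx (ξ ξ' t D : ℝ) (u v : ℕ) : ℝ :=
  if near (u * ξ - v * ξ') (1 / t) ∧ S2bx284.Rare ξ ξ' t D u v then 1 else 0

lemma KRx_nonneg (ξ ξ' t D : ℝ) (u v : ℕ) : 0 ≤ KRx ξ ξ' t D u v := by
  unfold KRx; split_ifs <;> norm_num

lemma KRx_le_one (ξ ξ' t D : ℝ) (u v : ℕ) : KRx ξ ξ' t D u v ≤ 1 := by
  unfold KRx; split_ifs <;> norm_num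

theorem dens_KRx (M : ℕ) {y : ℕ} (hy : 8 ≤ y) {ξ ξ' t D : ℝ} (hD : 1 ≤ D) :
    MXlowx808.dens (low y M) (KRx ξ ξ' t D) ≤
      (2 * Real.exp 14 + 8) * ((1 + 2 * Real.log y * Real.log D) ^ 2 / D) := by
  classical
  have hD0 : 0 < D := by linarith
  have hl : 0 ≤ Real.log D := Real.log_nonneg hD
  obtain ⟨hz, hZ, htail, hlog⟩ := choice hy hl
  set z := Real.exp (Real.log y * Real.log D) with hzdef
  set W := (1 + 2 * Real.log y * Real.log D) ^ 2 with hW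
  have hly := log_ge_one hy
  have hW1 : 1 ≤ W := by
    rw [hW]
    apply one_le_pow₀
    have : 0 ≤ 2 * Real.log y * Real.log D := by positivity
    linarith
  have h := dens_low (M := M) (Z := ⌊z⌋₊) hy hz hZ
    (fun u v => near ((u : ℝ) * ξ - v * ξ') (1 / t) ∧ S2bx284.Rare ξ ξ' t D u v)
    (KRx ξ ξ' t D) (β := 8 * W / D)
    (by
      refine (@Class2x992.rare_mass D t ξ ξ' hD0 ⌊z⌋₊ _
        (fun _ _ => Classical.propDecidable _) fun u v huv => huv).trans ?_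
      exact div_le_div_of_nonneg_right (mul_le_mul_of_nonneg_left hlog (by norm_num)) hD0.le)
    (fun u v _ _ _ => by
      unfold KRx
      split_ifs with h1
      · exact le_rfl
      · exact le_rfl)
  refine h.trans ?_
  rw [htail, Real.exp_neg, Real.exp_log hD0]
  have h1 : D⁻¹ ≤ W / D := by
    rw [div_eq_mul_inv]
    exact le_mul_of_one_le_left (by positivity) hW1
  have h2 : 0 < Real.exp 14 := Real.exp_pos _
  calc 2 * (Real.exp 14 * D⁻¹) + 8 * W / D = 2 * Real.exp 14 * D⁻¹ + 8 * (W / D) := by ring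
    _ ≤ 2 * Real.exp 14 * (W / D) + 8 * (W / D) := by
        have := mul_le_mul_of_nonneg_left h1 (by positivity : 0 ≤ 2 * Real.exp 14)
        linarith
    _ = _ := by ring

/-- `(1 + 2 l log D)² D^{-α} ≤ C l² D^{-α/2}` -/
lemma log_D_le {l D α : ℝ} (hl : 1 ≤ l) (hD : 1 ≤ D) (hα : 0 < α) :
    (1 + 2 * l * Real.log D) ^ 2 * D ^ (-α) ≤ (1 + 8 / α) ^ 2 * l ^ (2 : ℝ) * D ^ (-(α / 2)) := by
  have hD0 : 0 < D := by linarith
  have h1 : Real.log D ≤ D ^ (α / 4) / (α / 4) := Real.log_le_rpow_div hD0.le (by linarith)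
  have h2 : 1 ≤ D ^ (α / 4) := Real.one_le_rpow hD (by linarith)
  have h3 : 1 + 2 * l * Real.log D ≤ (1 + 8 / α) * l * D ^ (α / 4) := by
    have h4 : 2 * l * Real.log D ≤ 2 * l * (D ^ (α / 4) / (α / 4)) :=
      mul_le_mul_of_nonneg_left h1 (by linarith)
    have h5 : 2 * l * (D ^ (α / 4) / (α / 4)) = 8 / α * l * D ^ (α / 4) := by
      field_simp; norm_num
    have h6 : 1 ≤ l * D ^ (α / 4) := by nlinarith
    calc 1 + 2 * l * Real.log D ≤ l * D ^ (α / 4) + 8 / α * l * D ^ (α / 4) := by linarith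
      _ = _ := by ring
  have h0 : 0 ≤ 1 + 2 * l * Real.log D := by
    have : 0 ≤ Real.log D := Real.log_nonneg hD
    positivity
  have h7 := pow_le_pow_left₀ h0 h3 2
  calc (1 + 2 * l * Real.log D) ^ 2 * D ^ (-α)
      ≤ ((1 + 8 / α) * l * D ^ (α / 4)) ^ 2 * D ^ (-α) :=
        mul_le_mul_of_nonneg_right h7 (by positivity)
    _ = (1 + 8 / α) ^ 2 * l ^ 2 * (D ^ (α / 4 * 2) * D ^ (-α)) := by
        rw [mul_pow, mul_pow, Real.rpow_mul hD0.le (α / 4) 2, Real.rpow_two]; ring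
    _ = (1 + 8 / α) ^ 2 * l ^ (2 : ℝ) * D ^ (-(α / 2)) := by
        rw [← Real.rpow_add hD0, Real.rpow_two]
        congr 2; ring

/-- **RARE (boxes)** -/
theorem rare_box {c A C : ℝ} (hc : 0 < c) (hc1 : c ≤ 1) (hA : 0 ≤ A) (hC : 0 ≤ C)
    (hR : RareThm (1 / 2 + c / 2 / 256) A C) {A₁ C₀ : ℝ} (hA₁ : 0 ≤ A₁) (hC₀ : 0 ≤ C₀) :
    ∃ C' : ℝ, 0 < C' ∧ ∀ (M Y : ℕ) (f f' : ℕ → ℝ) (γ t D T L : ℝ), 0 < M → 8 ≤ Y → 1 ≤ T → 0 < L →
      Real.log Y ≤ A₁ * Real.log T → T ^ c ≤ D →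
      (∀ b, 0 ≤ f b) → (∀ b, f b ≤ 1) → (∀ b, 0 ≤ f' b) → (∀ b, f' b ≤ 1) →
      Real.log Y ^ C₀ * (L * ∑ b ∈ M.divisors, ∑ c ∈ M.divisors,
        (if T * L ≤ (Nat.gcd b c : ℝ) ∧ (Nat.gcd b c : ℝ) < 2 * (T * L) then
          (Nat.gcd b c : ℝ) * nu M b * nu M c *
            (f b * f' c * KRare γ t D Y (b / Nat.gcd b c) (c / Nat.gcd b c)) else 0)) ≤
      C' * T ^ (-(c / 200)) * ((L * Ex M f) * (L * Ex M f')) ^ (1 / 2 + c / 2 / 256) := by
  have hc2 : 0 < c / 2 := by linarith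
  set B : ℝ := (2 * Real.exp 14 + 8) * (1 + 8 / 1) ^ 2 with hB
  have hB1 : 1 ≤ B := by
    rw [hB]
    have := Real.exp_pos 14
    nlinarith
  obtain ⟨C', hC', H⟩ := rare_gen (c := c / 2) hc2 (by linarith) hA hC hR (A₁ := A₁) (B := B)
    (b := 2) (C₀ := C₀) hA₁ hB1 (by norm_num) hC₀
  refine ⟨C', hC', ?_⟩
  intro M Y f f' γ t D T L hM hY hT hL hYT hDT hf hf1 hf' hf1'
  have hT0 : 0 < T := by linarith
  have hD1 : 1 ≤ D := (Real.one_le_rpow hT hc.le).trans hDT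
  have hD0 : 0 < D := by linarith
  have hl1 := log_ge_one hY
  have h := H M Y f f' (fun b c => KRare γ t D Y (b / Nat.gcd b c) (c / Nat.gcd b c))
    (fun U U' => KRx ((U / Nat.gcd U U' : ℕ) * γ) ((U' / Nat.gcd U U' : ℕ) * γ) t D) T L hM hY hT hL
    hYT hf hf1 hf' hf1' (fun _ _ => KRare_nonneg _ _ _ _ _ _) (fun _ _ _ _ => KRx_nonneg _ _ _ _ _ _)
    (fun _ _ _ _ => KRx_le_one _ _ _ _ _ _) ?_ ?_
  · rw [show c / 200 = c / 2 / 100 by ring]
    exact h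
  · intro U U' _ _
    refine (dens_KRx M hY hD1).trans ?_
    have h1 := log_D_le hl1 hD1 one_pos
    have e1 : (1 + 2 * Real.log Y * Real.log D) ^ 2 / D =
        (1 + 2 * Real.log Y * Real.log D) ^ 2 * D ^ (-(1 : ℝ)) := by
      rw [Real.rpow_neg_one, div_eq_mul_inv]
    rw [e1]
    have h2 : D ^ (-((1 : ℝ) / 2)) ≤ T ^ (-(c / 2)) := by
      calc D ^ (-((1 : ℝ) / 2)) ≤ (T ^ c) ^ (-((1 : ℝ) / 2)) :=
            Real.rpow_le_rpow_of_nonpos (by positivity) hDT (by norm_num)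
        _ = T ^ (-(c / 2)) := by rw [← Real.rpow_mul hT0.le]; congr 1; ring
    calc (2 * Real.exp 14 + 8) * ((1 + 2 * Real.log Y * Real.log D) ^ 2 * D ^ (-(1 : ℝ)))
        ≤ (2 * Real.exp 14 + 8) * ((1 + 8 / 1) ^ 2 * Real.log Y ^ (2 : ℝ) * D ^ (-((1 : ℝ) / 2))) :=
          mul_le_mul_of_nonneg_left h1 (by positivity)
      _ ≤ (2 * Real.exp 14 + 8) * ((1 + 8 / 1) ^ 2 * Real.log Y ^ (2 : ℝ) * T ^ (-(c / 2))) :=
          mul_le_mul_of_nonneg_left (mul_le_mul_of_nonneg_left h2 (by positivity)) (by positivity)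
      _ = B * Real.log Y ^ (2 : ℝ) * T ^ (-(c / 2)) := by rw [hB]; ring
  · intro U U' n n' hU hU' hn hn'
    obtain ⟨l1, u1⟩ := low_cof hU hU' hn hn'
    obtain ⟨l2, u2⟩ := low_cof hU' hU hn' hn
    rw [Nat.gcd_comm (n' * U') (n * U), Nat.gcd_comm n' n] at l2
    rw [Nat.gcd_comm (n' * U') (n * U), Nat.gcd_comm U' U] at u2
    have hn0 : 0 < n := Nat.pos_of_dvd_of_pos hn (low_pos Y M)
    have hn0' : 0 < n' := Nat.pos_of_dvd_of_pos hn' (low_pos Y M)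
    have hU0 : 0 < U := Nat.pos_of_dvd_of_pos hU (upp_pos Y M)
    have hU0' : 0 < U' := Nat.pos_of_dvd_of_pos hU' (upp_pos Y M)
    have hs : (n * U) / Nat.gcd (n * U) (n' * U') ≠ 0 :=
      (Nat.div_pos (Nat.le_of_dvd (Nat.mul_pos hn0 hU0) (Nat.gcd_dvd_left _ _))
        (Nat.gcd_pos_of_pos_left _ (Nat.mul_pos hn0 hU0))).ne'
    have hs' : (n' * U') / Nat.gcd (n * U) (n' * U') ≠ 0 :=
      (Nat.div_pos (Nat.le_of_dvd (Nat.mul_pos hn0' hU0') (Nat.gcd_dvd_right _ _))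
        (Nat.gcd_pos_of_pos_left _ (Nat.mul_pos hn0 hU0))).ne'
    unfold KRare KRx
    split_ifs with h1 h2
    · exact le_rfl
    · exfalso
      apply h2
      obtain ⟨h3, h4⟩ := h1
      have h5 := near_split (y := Y) hs hs' h3
      rw [l1, u1, l2, u2] at h5
      rw [l1, u1, l2, u2] at h4
      exact ⟨h5, h4⟩
    · norm_num
    · exact le_rfl

/-! ### one word -/

/-- the indicator of one word -/
def KW (w : ℕ × ℕ) (u v : ℕ) : ℝ := if (u, v) = w then 1 else 0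

lemma KW_nonneg (w : ℕ × ℕ) (u v : ℕ) : 0 ≤ KW w u v := by unfold KW; split_ifs <;> norm_num
lemma KW_le_one (w : ℕ × ℕ) (u v : ℕ) : KW w u v ≤ 1 := by unfold KW; split_ifs <;> norm_num

lemma dens_KW {N : ℕ} (hN : 0 < N) (w : ℕ × ℕ) {P : ℝ} (hP : 0 < P)
    (hw : P ≤ (w.1 : ℝ) * w.2) : MXlowx808.dens N (KW w) ≤ 1 / P := by
  unfold MXlowx808.dens
  have hw0 : (0 : ℝ) < (w.1 : ℝ) * w.2 := lt_of_lt_of_le hP hw
  have hterm : ∀ s ∈ N.divisors, ∀ t ∈ N.divisors,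
      (if Nat.Coprime s t then nu N s * nu N t * KW w s t else 0) ≤
        if (s, t) = w then 1 / P else 0 := by
    intro s hs t ht
    have hn : 0 ≤ nu N s * nu N t := mul_nonneg (nu_nonneg _ _) (nu_nonneg _ _)
    by_cases h : (s, t) = w
    · rw [if_pos h]
      have h1 : nu N s * nu N t * KW w s t ≤ 1 / P := by
        unfold KW
        rw [if_pos h, mul_one]
        have e1 : w.1 = s := by rw [← h]
        have e2 : w.2 = t := by rw [← h]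
        rw [e1, e2] at hw
        have hs0 : (0 : ℝ) < s := by exact_mod_cast Nat.pos_of_mem_divisors hs
        have ht0 : (0 : ℝ) < t := by exact_mod_cast Nat.pos_of_mem_divisors ht
        calc nu N s * nu N t ≤ (1 / (s : ℝ)) * (1 / (t : ℝ)) :=
              mul_le_mul (Rarex473.nu_le_inv hN (Nat.dvd_of_mem_divisors hs))
                (Rarex473.nu_le_inv hN (Nat.dvd_of_mem_divisors ht)) (nu_nonneg _ _) (by positivity)
          _ = 1 / ((s : ℝ) * t) := by rw [one_div_mul_one_div]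
          _ ≤ 1 / P := one_div_le_one_div_of_le hP hw
      split_ifs
      · exact h1
      · positivity
    · rw [if_neg h]
      have : KW w s t = 0 := by unfold KW; rw [if_neg h]
      rw [this, mul_zero]
      split_ifs <;> exact le_rfl
  calc _ ≤ ∑ s ∈ N.divisors, ∑ t ∈ N.divisors, (if (s, t) = w then 1 / P else 0) :=
        sum_le_sum fun s hs => sum_le_sum fun t ht => hterm s hs t ht
    _ = ∑ z ∈ N.divisors ×ˢ N.divisors, (if z = w then 1 / P else 0) := by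
        rw [Finset.sum_product]
    _ ≤ 1 / P := by
        rw [Finset.sum_ite_eq']
        split_ifs
        · exact le_rfl
        · positivity

/-- **RARE (one word)**: the low word of the pair is `w U U'`, a function of the two high words,
with product `≥ T^c` -/
theorem rare_word {c A C : ℝ} (hc : 0 < c) (hc1 : c ≤ 1) (hA : 0 ≤ A) (hC : 0 ≤ C)
    (hR : RareThm (1 / 2 + c / 256) A C) {A₁ C₀ : ℝ} (hA₁ : 0 ≤ A₁) (hC₀ : 0 ≤ C₀) :
    ∃ C' : ℝ, 0 < C' ∧ ∀ (M Y : ℕ) (f f' : ℕ → ℝ) (K : ℕ → ℕ → ℝ) (w : ℕ → ℕ → ℕ × ℕ) (T L : ℝ),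
      0 < M → 8 ≤ Y → 1 ≤ T → 0 < L → Real.log Y ≤ A₁ * Real.log T →
      (∀ U U', T ^ c ≤ ((w U U').1 : ℝ) * (w U U').2) →
      (∀ b, 0 ≤ f b) → (∀ b, f b ≤ 1) → (∀ b, 0 ≤ f' b) → (∀ b, f' b ≤ 1) →
      (∀ b c, 0 ≤ K b c) → (∀ b c, K b c ≤ 1) →
      (∀ U U' n n', U ∣ upp Y M → U' ∣ upp Y M → n ∣ low Y M → n' ∣ low Y M →
        K (n * U) (n' * U') ≠ 0 → (n / Nat.gcd n n', n' / Nat.gcd n n') = w U U') →
      Real.log Y ^ C₀ * (L * ∑ b ∈ M.divisors, ∑ c ∈ M.divisors,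
        (if T * L ≤ (Nat.gcd b c : ℝ) ∧ (Nat.gcd b c : ℝ) < 2 * (T * L) then
          (Nat.gcd b c : ℝ) * nu M b * nu M c * (f b * f' c * K b c) else 0)) ≤
      C' * T ^ (-(c / 100)) * ((L * Ex M f) * (L * Ex M f')) ^ (1 / 2 + c / 256) := by
  obtain ⟨C', hC', H⟩ := rare_gen hc hc1 hA hC hR (A₁ := A₁) (B := 1) (b := 0) (C₀ := C₀) hA₁ le_rfl
    le_rfl hC₀
  refine ⟨C', hC', ?_⟩
  intro M Y f f' K w T L hM hY hT hL hYT hw hf hf1 hf' hf1' hK hK1 hKw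
  have hT0 : 0 < T := by linarith
  refine H M Y f f' K (fun U U' => KW (w U U')) T L hM hY hT hL hYT hf hf1 hf' hf1' hK
    (fun _ _ _ _ => KW_nonneg _ _ _) (fun _ _ _ _ => KW_le_one _ _ _) ?_ ?_
  · intro U U' _ _
    refine (dens_KW (low_pos Y M) (w U U') (Real.rpow_pos_of_pos hT0 c) (hw U U')).trans
      (le_of_eq ?_)
    rw [Real.rpow_zero, one_mul, one_mul, Real.rpow_neg hT0.le, one_div]
  · intro U U' n n' hU hU' hn hn'
    by_cases h : K (n * U) (n' * U') = 0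
    · rw [h]; exact KW_nonneg _ _ _
    · have h1 := hKw U U' n n' hU hU' hn hn' h
      simp only [KW]
      rw [if_pos h1]
      exact hK1 _ _

/-! ### deep labelled words -/

/-- **RARE (deep labelled, not short)** -/
theorem rare_deep {c A C : ℝ} (hc : 0 < c) (hc1 : c ≤ 1) (hA : 0 ≤ A) (hC : 0 ≤ C)
    (hR : RareThm (1 / 2 + c / 6 / 256) A C) {A₁ C₀ : ℝ} (hA₁ : 0 ≤ A₁) (hC₀ : 0 ≤ C₀) :
    ∃ C' : ℝ, 0 < C' ∧ ∀ (M Y : ℕ) (f f' : ℕ → ℝ) (γ t E Kd T L : ℝ), 0 < M → 8 ≤ Y → 1 ≤ T → 0 < L →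
      Real.log Y ≤ A₁ * Real.log T → T ^ c ≤ Kd → 64 ≤ Kd → 8 * E ^ 5 ≤ t → 0 ≤ t →
      (∀ b, 0 ≤ f b) → (∀ b, f b ≤ 1) → (∀ b, 0 ≤ f' b) → (∀ b, f' b ≤ 1) →
      Real.log Y ^ C₀ * (L * ∑ b ∈ M.divisors, ∑ c ∈ M.divisors,
        (if T * L ≤ (Nat.gcd b c : ℝ) ∧ (Nat.gcd b c : ℝ) < 2 * (T * L) then
          (Nat.gcd b c : ℝ) * nu M b * nu M c *
            (f b * f' c * KDeep γ t E Kd Y (b / Nat.gcd b c) (c / Nat.gcd b c)) else 0)) ≤
      C' * T ^ (-(c / 600)) * ((L * Ex M f) * (L * Ex M f')) ^ (1 / 2 + c / 6 / 256) := by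
  have hc2 : 0 < c / 6 := by linarith
  set B : ℝ := (2 * Real.exp 14 + 5) * (1 + 8 / (1 / 3)) ^ 2 with hB
  have hB1 : 1 ≤ B := by
    rw [hB]
    have := Real.exp_pos 14
    norm_num
    nlinarith
  obtain ⟨C', hC', H⟩ := rare_gen (c := c / 6) hc2 (by linarith) hA hC hR (A₁ := A₁) (B := B)
    (b := 2) (C₀ := C₀) hA₁ hB1 (by norm_num) hC₀
  refine ⟨C', hC', ?_⟩
  intro M Y f f' γ t E Kd T L hM hY hT hL hYT hDT hKd hEt ht hf hf1 hf' hf1'
  have hT0 : 0 < T := by linarith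
  have hD1 : 1 ≤ Kd := by linarith
  have hl1 := log_ge_one hY
  have h := H M Y f f' (fun b c => KDeep γ t E Kd Y (b / Nat.gcd b c) (c / Nat.gcd b c))
    (fun U U' => KD ((U / Nat.gcd U U' : ℕ) * γ) ((U' / Nat.gcd U U' : ℕ) * γ) t E Kd) T L hM hY
    hT hL hYT hf hf1 hf' hf1' (fun _ _ => KDeep_nonneg _ _ _ _ _ _ _)
    (fun _ _ _ _ => KD_nonneg _ _ _ _ _ _ _)
    (fun _ _ _ _ => KD_le_one _ _ _ _ _ _ _) ?_ ?_
  · rw [show c / 600 = c / 6 / 100 by ring]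
    exact h
  · intro U U' _ _
    refine (dens_KD M hY hEt ht hKd).trans ?_
    have h1 := log_D_le hl1 hD1 (by norm_num : (0 : ℝ) < 1 / 3)
    have h2 : Kd ^ (-((1 : ℝ) / 3 / 2)) ≤ T ^ (-(c / 6)) := by
      calc Kd ^ (-((1 : ℝ) / 3 / 2)) ≤ (T ^ c) ^ (-((1 : ℝ) / 3 / 2)) :=
            Real.rpow_le_rpow_of_nonpos (by positivity) hDT (by norm_num)
        _ = T ^ (-(c / 6)) := by rw [← Real.rpow_mul hT0.le]; congr 1; ring
    have e1 : (-(1 : ℝ) / 3) = -(1 / 3) := by ring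
    rw [e1]
    calc (2 * Real.exp 14 + 5) * ((1 + 2 * Real.log Y * Real.log Kd) ^ 2 * Kd ^ (-((1 : ℝ) / 3)))
        ≤ (2 * Real.exp 14 + 5) * ((1 + 8 / (1 / 3)) ^ 2 * Real.log Y ^ (2 : ℝ) *
            Kd ^ (-((1 : ℝ) / 3 / 2))) :=
          mul_le_mul_of_nonneg_left h1 (by positivity)
      _ ≤ (2 * Real.exp 14 + 5) * ((1 + 8 / (1 / 3)) ^ 2 * Real.log Y ^ (2 : ℝ) *
            T ^ (-(c / 6))) :=
          mul_le_mul_of_nonneg_left (mul_le_mul_of_nonneg_left h2 (by positivity)) (by positivity)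
      _ = B * Real.log Y ^ (2 : ℝ) * T ^ (-(c / 6)) := by rw [hB]; ring
  · intro U U' n n' hU hU' hn hn'
    obtain ⟨l1, u1⟩ := low_cof hU hU' hn hn'
    obtain ⟨l2, u2⟩ := low_cof hU' hU hn' hn
    rw [Nat.gcd_comm (n' * U') (n * U), Nat.gcd_comm n' n] at l2
    rw [Nat.gcd_comm (n' * U') (n * U), Nat.gcd_comm U' U] at u2
    have hn0 : 0 < n := Nat.pos_of_dvd_of_pos hn (low_pos Y M)
    have hn0' : 0 < n' := Nat.pos_of_dvd_of_pos hn' (low_pos Y M)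
    have hU0 : 0 < U := Nat.pos_of_dvd_of_pos hU (upp_pos Y M)
    have hU0' : 0 < U' := Nat.pos_of_dvd_of_pos hU' (upp_pos Y M)
    have hs : (n * U) / Nat.gcd (n * U) (n' * U') ≠ 0 :=
      (Nat.div_pos (Nat.le_of_dvd (Nat.mul_pos hn0 hU0) (Nat.gcd_dvd_left _ _))
        (Nat.gcd_pos_of_pos_left _ (Nat.mul_pos hn0 hU0))).ne'
    have hs' : (n' * U') / Nat.gcd (n * U) (n' * U') ≠ 0 :=
      (Nat.div_pos (Nat.le_of_dvd (Nat.mul_pos hn0' hU0') (Nat.gcd_dvd_right _ _))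
        (Nat.gcd_pos_of_pos_left _ (Nat.mul_pos hn0 hU0))).ne'
    have hp1 : 1 ≤ n / Nat.gcd n n' := Nat.div_pos (Nat.le_of_dvd hn0 (Nat.gcd_dvd_left _ _))
      (Nat.gcd_pos_of_pos_left _ hn0)
    have hp2 : 1 ≤ n' / Nat.gcd n n' := Nat.div_pos (Nat.le_of_dvd hn0' (Nat.gcd_dvd_right _ _))
      (Nat.gcd_pos_of_pos_left _ hn0)
    unfold KDeep KD
    split_ifs with h1 h2
    · exact le_rfl
    · exfalso
      apply h2
      obtain ⟨h3, a, k, a', k', h4, h5, h6⟩ := h1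
      have h7 := near_split (y := Y) hs hs' h3
      rw [l1, u1, l2, u2] at h4 h5 h6 h7
      exact ⟨⟨hp1, hp2, h7⟩, a, k, a', k', h4, h5, h6⟩
    · norm_num
    · exact le_rfl

end Crest.Agent.R4C.RareCorx590
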