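import Crest.Agent.R4C.RareLow_442
import Crest.Agent.R4C.HVWt_19

/-!
# Row 4: THEOREM RARE — energy of a relation of small natural density in the smooth words,
exact masses, arbitrary dependence on the rough words (helper442)

`rare_thm`: `1/2 < κ < 1`; if for every pair `T, T'` of rough words (primes `> Y`) the kernel is
dominated by a function `k T T'` of the coprime smooth cofactors of natural density `≤ τ ≤ 1`, then

`∑_{X ≤ gcd < 2X} gcd ν ν f f' K ≤ C (log Y)^A τ^((1-κ)/8) X^(2κ-1) (ν f)^κ (ν f')^κ`.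

Proof: `low_bound` for the smooth words (decay in both masses), `hvw_b` (exact-scale HVW of
helper19) for the level sets of the rough words, Cauchy–Schwarz over the smooth gcd.
-/

set_option autoImplicit false

open Finset

namespace Crest.Agent.R4C.RareEnx442

open Basex935 Cutx50 MXlowx808 RareLowx442

/-! ### levels -/

/-- dyadic level of a number in `(0,1]` -/
noncomputable def lv (v : ℝ) : ℕ := Nat.log 2 ⌊1 / v⌋₊

lemma lv_le {v : ℝ} (h0 : 0 < v) (h1 : v ≤ 1) : v * 2 ^ lv v ≤ 1 := by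
  have h2 : (1 : ℝ) ≤ 1 / v := by rw [le_div_iff₀ h0]; linarith
  have h3 : ⌊1 / v⌋₊ ≠ 0 := by
    rw [← Nat.one_le_iff_ne_zero, Nat.one_le_floor_iff]
    exact h2
  have h4 : 2 ^ lv v ≤ ⌊1 / v⌋₊ := Nat.pow_log_le_self 2 h3
  have h5 : ((2 ^ lv v : ℕ) : ℝ) ≤ 1 / v :=
    (by exact_mod_cast h4 : ((2 ^ lv v : ℕ) : ℝ) ≤ (⌊1 / v⌋₊ : ℝ)).trans
      (Nat.floor_le (by positivity))
  push_cast at h5
  rw [le_div_iff₀ h0] at h5
  linarith

lemma lt_lv {v : ℝ} (h0 : 0 < v) : 1 < v * 2 ^ (lv v + 1) := by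
  have h4 : ⌊1 / v⌋₊ < 2 ^ (lv v + 1) := Nat.lt_pow_succ_log_self (by norm_num) _
  have h5 : 1 / v < ((2 ^ (lv v + 1) : ℕ) : ℝ) := by
    have h6 : 1 / v < (⌊1 / v⌋₊ : ℝ) + 1 := Nat.lt_floor_add_one _
    have h7 : ((⌊1 / v⌋₊ + 1 : ℕ) : ℝ) ≤ ((2 ^ (lv v + 1) : ℕ) : ℝ) := by
      exact_mod_cast h4
    push_cast at h7 ⊢
    linarith
  push_cast at h5
  rw [div_lt_iff₀ h0] at h5
  linarith

open Classical in
/-- indicator of the level `a` of `V` -/
noncomputable def hl (V : ℕ → ℝ) (a T : ℕ) : ℝ := if 0 < V T ∧ lv (V T) = a then 1 else 0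

lemma hl_nonneg (V : ℕ → ℝ) (a T : ℕ) : 0 ≤ hl V a T := by
  unfold hl; split_ifs <;> norm_num

lemma hl_le_one (V : ℕ → ℝ) (a T : ℕ) : hl V a T ≤ 1 := by
  unfold hl; split_ifs <;> norm_num

lemma hl_self {V : ℕ → ℝ} {T : ℕ} (h : 0 < V T) : hl V (lv (V T)) T = 1 := by
  unfold hl; rw [if_pos ⟨h, rfl⟩]

lemma hl_mul_le (V : ℕ → ℝ) (a T : ℕ) : hl V a T ≤ 2 ^ (a + 1) * (hl V a T * V T) := by
  unfold hl
  split_ifs with h
  · have := lt_lv h.1
    rw [h.2] at this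
    linarith
  · simp

lemma sum_hl_le {V : ℕ → ℝ} (hV : ∀ T, 0 ≤ V T) (L T : ℕ) :
    ∑ a ∈ range L, hl V a T * V T ≤ V T := by
  rw [← sum_mul]
  refine mul_le_of_le_one_left (hV T) ?_
  unfold hl
  by_cases h : 0 < V T
  · calc ∑ a ∈ range L, (if 0 < V T ∧ lv (V T) = a then (1 : ℝ) else 0)
        = ∑ a ∈ range L, (if lv (V T) = a then (1 : ℝ) else 0) := by
          refine sum_congr rfl fun a _ => ?_
          simp [h]
      _ ≤ 1 := by
          rw [sum_ite_eq]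
          split_ifs <;> norm_num
  · have : ∀ a ∈ range L, (if 0 < V T ∧ lv (V T) = a then (1 : ℝ) else 0) = 0 := by
      intro a _
      rw [if_neg]
      exact fun hc => h hc.1
    rw [sum_congr rfl this, sum_const_zero]
    norm_num

/-! ### convolution over the levels -/

lemma conv1 {κ q : ℝ} (hκ : 1 / 2 ≤ κ) (hq0 : 0 ≤ q) (hq1 : q < 1) (R L : ℕ) {m : ℕ → ℝ}
    (hm : ∀ a, 0 ≤ m a) {Z : ℝ} (hZ0 : 0 ≤ Z) (hZ : ∑ a ∈ range L, m a ≤ Z) :
    ∑ k ∈ range R, (∑ a ∈ range L, m a ^ κ * q ^ (Nat.dist k a)) ^ 2 ≤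
      (2 / (1 - q)) ^ 2 * Z ^ (2 * κ) := by
  set Q := 2 / (1 - q) with hQ
  have hQ0 : 0 ≤ Q := div_nonneg two_pos.le (by linarith)
  have h1 : ∀ k ∈ range R, (∑ a ∈ range L, m a ^ κ * q ^ (Nat.dist k a)) ^ 2 ≤
      Q * ∑ a ∈ range L, m a ^ (2 * κ) * q ^ (Nat.dist k a) := by
    intro k _
    have h := sum_sq_le_sum_mul_sum_of_sq_le_mul (range L)
      (r := fun a => m a ^ κ * q ^ (Nat.dist k a)) (f := fun a => q ^ (Nat.dist k a))
      (g := fun a => m a ^ (2 * κ) * q ^ (Nat.dist k a)) (fun a _ => by positivity)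
      (fun a _ => mul_nonneg (Real.rpow_nonneg (hm a) _) (by positivity))
      (fun a _ => by
        have e : m a ^ (2 * κ) = m a ^ κ * m a ^ κ := by
          rw [two_mul, Real.rpow_add_of_nonneg (hm a) (by linarith) (by linarith)]
        simp only [e]
        exact le_of_eq (by ring))
    refine h.trans (mul_le_mul_of_nonneg_right (MStTx590.geomS hq0 hq1 (range L) k) ?_)
    exact sum_nonneg fun a _ => mul_nonneg (Real.rpow_nonneg (hm a) _) (by positivity)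
  calc ∑ k ∈ range R, (∑ a ∈ range L, m a ^ κ * q ^ (Nat.dist k a)) ^ 2
      ≤ ∑ k ∈ range R, Q * ∑ a ∈ range L, m a ^ (2 * κ) * q ^ (Nat.dist k a) := sum_le_sum h1
    _ = Q * ∑ a ∈ range L, m a ^ (2 * κ) * ∑ k ∈ range R, q ^ (Nat.dist a k) := by
        rw [← mul_sum, sum_comm]
        congr 1
        refine sum_congr rfl fun a _ => ?_
        rw [mul_sum]
        refine sum_congr rfl fun k _ => ?_
        rw [Nat.dist_comm]
    _ ≤ Q * ∑ a ∈ range L, m a ^ (2 * κ) * Q := by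
        refine mul_le_mul_of_nonneg_left (sum_le_sum fun a _ => ?_) hQ0
        exact mul_le_mul_of_nonneg_left (MStTx590.geomS hq0 hq1 (range R) a)
          (Real.rpow_nonneg (hm a) _)
    _ = Q ^ 2 * ∑ a ∈ range L, m a ^ (2 * κ) := by
        rw [← sum_mul]; ring
    _ ≤ Q ^ 2 * Z ^ (2 * κ) :=
        mul_le_mul_of_nonneg_left (Multix251.pow_sum_le' hκ hZ0 _ _ hm hZ) (by positivity)

lemma conv2 {κ q : ℝ} (hκ : 1 / 2 ≤ κ) (hq0 : 0 ≤ q) (hq1 : q < 1) (R L : ℕ) {m m' : ℕ → ℝ}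
    (hm : ∀ a, 0 ≤ m a) (hm' : ∀ a, 0 ≤ m' a) {Z Z' : ℝ} (hZ0 : 0 ≤ Z) (hZ0' : 0 ≤ Z')
    (hZ : ∑ a ∈ range L, m a ≤ Z) (hZ' : ∑ a ∈ range L, m' a ≤ Z') :
    ∑ k ∈ range R, (∑ a ∈ range L, m a ^ κ * q ^ (Nat.dist k a)) *
      (∑ a ∈ range L, m' a ^ κ * q ^ (Nat.dist k a)) ≤
      (2 / (1 - q)) ^ 2 * (Z ^ κ * Z' ^ κ) := by
  set Q := 2 / (1 - q) with hQ
  have hQ0 : 0 ≤ Q := div_nonneg two_pos.le (by linarith)
  have h1 := conv1 hκ hq0 hq1 R L hm hZ0 hZ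
  have h2 := conv1 hκ hq0 hq1 R L hm' hZ0' hZ'
  have h3 := sum_mul_sq_le_sq_mul_sq (range R)
    (fun k => ∑ a ∈ range L, m a ^ κ * q ^ (Nat.dist k a))
    (fun k => ∑ a ∈ range L, m' a ^ κ * q ^ (Nat.dist k a))
  have hr : 0 ≤ Q ^ 2 * (Z ^ κ * Z' ^ κ) :=
    mul_nonneg (by positivity) (mul_nonneg (Real.rpow_nonneg hZ0 _) (Real.rpow_nonneg hZ0' _))
  have hl0 : 0 ≤ ∑ k ∈ range R, (∑ a ∈ range L, m a ^ κ * q ^ (Nat.dist k a)) *
      (∑ a ∈ range L, m' a ^ κ * q ^ (Nat.dist k a)) :=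
    sum_nonneg fun k _ => mul_nonneg
      (sum_nonneg fun a _ => mul_nonneg (Real.rpow_nonneg (hm a) _) (by positivity))
      (sum_nonneg fun a _ => mul_nonneg (Real.rpow_nonneg (hm' a) _) (by positivity))
  refine (pow_le_pow_iff_left₀ hl0 hr two_ne_zero).1 ?_
  refine h3.trans ?_
  have e : (Q ^ 2 * (Z ^ κ * Z' ^ κ)) ^ 2 = (Q ^ 2 * Z ^ (2 * κ)) * (Q ^ 2 * Z' ^ (2 * κ)) := by
    have e1 : Z ^ (2 * κ) = Z ^ κ * Z ^ κ := by
      rw [two_mul, Real.rpow_add_of_nonneg hZ0 (by linarith) (by linarith)]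
    have e2 : Z' ^ (2 * κ) = Z' ^ κ * Z' ^ κ := by
      rw [two_mul, Real.rpow_add_of_nonneg hZ0' (by linarith) (by linarith)]
    rw [e1, e2]; ring
  rw [e]
  exact mul_le_mul h1 h2 (sum_nonneg fun _ _ => sq_nonneg _)
    (mul_nonneg (by positivity) (Real.rpow_nonneg hZ0 _))

/-! ### windows -/

lemma win_split {N g : ℕ} (hg : 0 < g) (hgN : g ≤ N) {X h t : ℝ} (hh : 0 < h) (ht : 0 ≤ t) :
    (if X ≤ (g : ℝ) * h ∧ (g : ℝ) * h < 2 * X then t else 0) ≤
      ∑ k ∈ range (N + 1), (if X / 2 ^ k ≤ h ∧ h < 4 * (X / 2 ^ k) then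
        (if (2 : ℝ) ^ k / 2 < g ∧ (g : ℝ) ≤ 2 * (2 ^ k / 2) then t else 0) else 0) := by
  have hn : ∀ k ∈ range (N + 1), 0 ≤ (if X / 2 ^ k ≤ h ∧ h < 4 * (X / 2 ^ k) then
        (if (2 : ℝ) ^ k / 2 < g ∧ (g : ℝ) ≤ 2 * (2 ^ k / 2) then t else 0) else (0 : ℝ)) := by
    intro k _
    split_ifs
    · exact ht
    · exact le_rfl
    · exact le_rfl
  split_ifs with hc
  · set k0 := Nat.clog 2 g with hk0
    have h1 : g ≤ 2 ^ k0 := Nat.le_pow_clog (by norm_num) g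
    have h1' : (g : ℝ) ≤ 2 ^ k0 := by exact_mod_cast h1
    have h2 : (2 : ℝ) ^ k0 / 2 < g := by
      rcases Nat.lt_or_ge 1 g with h | h
      · have h3 : 2 ^ (k0 - 1) < g := Nat.pow_pred_clog_lt_self (b := 2) (by norm_num) h
        have h4 : 0 < k0 := Nat.clog_pos (by norm_num) h
        have h5 : (2 : ℝ) ^ k0 = 2 ^ (k0 - 1) * 2 := by
          rw [← pow_succ]; congr 1; omega
        have h6 : ((2 ^ (k0 - 1) : ℕ) : ℝ) < g := by exact_mod_cast h3
        push_cast at h6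
        rw [h5]; linarith
      · have h1g : g = 1 := by omega
        have hk : k0 = 0 := by rw [hk0, h1g]; simp
        rw [hk, h1g]; norm_num
    have hkN : k0 ∈ range (N + 1) := by
      rw [mem_range]
      have : k0 ≤ g := Nat.clog_le_of_le_pow (Nat.lt_two_pow_self.le)
      omega
    have h3 := single_le_sum hn hkN
    have hg0 : (0 : ℝ) < g := by exact_mod_cast hg
    have hp : (0 : ℝ) < 2 ^ k0 := by positivity
    rw [if_pos, if_pos ⟨h2, by linarith⟩] at h3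
    · exact h3
    · constructor
      · rw [div_le_iff₀ hp]
        calc X ≤ g * h := hc.1
          _ ≤ 2 ^ k0 * h := mul_le_mul_of_nonneg_right h1' hh.le
          _ = h * 2 ^ k0 := mul_comm _ _
      · rw [← mul_div_assoc, lt_div_iff₀ hp]
        have h7 : (2 : ℝ) ^ k0 < 2 * g := by linarith
        calc h * 2 ^ k0 < h * (2 * g) := mul_lt_mul_of_pos_left h7 hh
          _ = 2 * (g * h) := by ring
          _ < 2 * (2 * X) := by linarith [hc.2]
          _ = 4 * X := by ring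
  · exact sum_nonneg hn

lemma er_zero {N : ℕ} {G : ℝ} {g g' : ℕ → ℝ} {K : ℕ → ℕ → ℝ} (hg : ∀ b, 0 ≤ g b)
    (h : Ex N g = 0) : ER N G g g' K = 0 := by
  unfold Ex at h
  rw [sum_eq_zero_iff_of_nonneg fun b _ => mul_nonneg (nu_nonneg _ _) (hg b)] at h
  unfold ER
  refine sum_eq_zero fun b hb => sum_eq_zero fun c _ => ?_
  split_ifs
  · calc _ = (nu N b * g b) * ((Nat.gcd b c : ℝ) * nu N c *
        (g' c * K (b / Nat.gcd b c) (c / Nat.gcd b c))) := by ring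
      _ = 0 := by rw [h b hb, zero_mul]
  · rfl

lemma abs_log_two (j a : ℕ) : |Real.log ((2 : ℝ) ^ j / 2 ^ a)| = (Nat.dist j a : ℝ) * Real.log 2 := by
  have hl : 0 ≤ Real.log 2 := Real.log_nonneg (by norm_num)
  rw [Real.log_div (by positivity) (by positivity), Real.log_pow, Real.log_pow, ← sub_mul,
    abs_mul, abs_of_nonneg hl]
  congr 1
  rcases le_total j a with h | h
  · rw [Nat.dist_eq_sub_of_le h, Nat.cast_sub h, abs_of_nonpos, neg_sub]
    have : (j : ℝ) ≤ a := by exact_mod_cast h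
    linarith
  · rw [Nat.dist_eq_sub_of_le_right h, Nat.cast_sub h, abs_of_nonneg]
    have : (a : ℝ) ≤ j := by exact_mod_cast h
    linarith

lemma two_win {κ Ch : ℝ} (hκ1 : κ < 1) (hCh : 0 < Ch)
    (hh : ∀ (M : ℕ) (X : ℝ) (f f' : ℕ → ℝ), M ≠ 0 → 0 < X →
      (∀ x, 0 ≤ f x) → (∀ x, f x ≤ 1) → (∀ x, 0 ≤ f' x) → (∀ x, f' x ≤ 1) →
      ∑ b ∈ M.divisors, ∑ c ∈ M.divisors,
        (if X ≤ (Nat.gcd b c : ℝ) ∧ (Nat.gcd b c : ℝ) < 2 * X then
          (Nat.gcd b c : ℝ) * nu M b * nu M c * (f b * f' c)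
        else 0) ≤ Ch * X ^ (2 * κ - 1) *
          ((∑ b ∈ M.divisors, nu M b * f b) ^ κ * (∑ b ∈ M.divisors, nu M b * f' b) ^ κ))
    {D : ℕ} (hD : D ≠ 0) {X : ℝ} (hX : 0 < X) {f f' : ℕ → ℝ} (hf : ∀ x, 0 ≤ f x)
    (hf1 : ∀ x, f x ≤ 1) (hf' : ∀ x, 0 ≤ f' x) (hf1' : ∀ x, f' x ≤ 1) :
    ∑ b ∈ D.divisors, ∑ c ∈ D.divisors,
        (if X ≤ (Nat.gcd b c : ℝ) ∧ (Nat.gcd b c : ℝ) < 4 * X then
          (Nat.gcd b c : ℝ) * nu D b * nu D c * (f b * f' c)
        else 0) ≤ 3 * Ch * X ^ (2 * κ - 1) *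
          ((∑ b ∈ D.divisors, nu D b * f b) ^ κ * (∑ b ∈ D.divisors, nu D b * f' b) ^ κ) := by
  have h1 := hh D X f f' hD hX hf hf1 hf' hf1'
  have h2 := hh D (2 * X) f f' hD (by linarith) hf hf1 hf' hf1'
  set A := (∑ b ∈ D.divisors, nu D b * f b) ^ κ * (∑ b ∈ D.divisors, nu D b * f' b) ^ κ with hA
  have hA0 : 0 ≤ A := mul_nonneg
    (Real.rpow_nonneg (sum_nonneg fun b _ => mul_nonneg (nu_nonneg _ _) (hf b)) _)
    (Real.rpow_nonneg (sum_nonneg fun b _ => mul_nonneg (nu_nonneg _ _) (hf' b)) _)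
  have h3 : (2 * X) ^ (2 * κ - 1) ≤ 2 * X ^ (2 * κ - 1) := by
    rw [Real.mul_rpow (by norm_num) hX.le]
    refine mul_le_mul_of_nonneg_right ?_ (by positivity)
    calc (2 : ℝ) ^ (2 * κ - 1) ≤ 2 ^ (1 : ℝ) :=
          Real.rpow_le_rpow_of_exponent_le (by norm_num) (by linarith)
      _ = 2 := Real.rpow_one _
  calc _ ≤ ∑ b ∈ D.divisors, ∑ c ∈ D.divisors,
        (if X ≤ (Nat.gcd b c : ℝ) ∧ (Nat.gcd b c : ℝ) < 2 * X then
          (Nat.gcd b c : ℝ) * nu D b * nu D c * (f b * f' c) else 0) +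
      ∑ b ∈ D.divisors, ∑ c ∈ D.divisors,
        (if 2 * X ≤ (Nat.gcd b c : ℝ) ∧ (Nat.gcd b c : ℝ) < 2 * (2 * X) then
          (Nat.gcd b c : ℝ) * nu D b * nu D c * (f b * f' c) else 0) := by
        rw [← sum_add_distrib]
        refine sum_le_sum fun b _ => ?_
        rw [← sum_add_distrib]
        refine sum_le_sum fun c _ => ?_
        have h0 : 0 ≤ (Nat.gcd b c : ℝ) * nu D b * nu D c * (f b * f' c) :=
          mul_nonneg (mul_nonneg (mul_nonneg (Nat.cast_nonneg _) (nu_nonneg _ _)) (nu_nonneg _ _))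
            (mul_nonneg (hf b) (hf' c))
        by_cases hc : X ≤ (Nat.gcd b c : ℝ) ∧ (Nat.gcd b c : ℝ) < 4 * X
        · rw [if_pos hc]
          by_cases hc2 : (Nat.gcd b c : ℝ) < 2 * X
          · rw [if_pos ⟨hc.1, hc2⟩]
            have : 0 ≤ (if 2 * X ≤ (Nat.gcd b c : ℝ) ∧ (Nat.gcd b c : ℝ) < 2 * (2 * X) then
              (Nat.gcd b c : ℝ) * nu D b * nu D c * (f b * f' c) else 0) := by
              split_ifs
              · exact h0
              · exact le_rfl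
            linarith
          · rw [if_neg (fun h => hc2 h.2), if_pos ⟨not_lt.1 hc2, by linarith [hc.2]⟩, zero_add]
        · rw [if_neg hc]
          refine add_nonneg ?_ ?_
          · split_ifs
            · exact h0
            · exact le_rfl
          · split_ifs
            · exact h0
            · exact le_rfl
    _ ≤ Ch * X ^ (2 * κ - 1) * A + Ch * (2 * X) ^ (2 * κ - 1) * A := add_le_add h1 h2
    _ ≤ Ch * X ^ (2 * κ - 1) * A + Ch * (2 * X ^ (2 * κ - 1)) * A := by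
        have := mul_le_mul_of_nonneg_right (mul_le_mul_of_nonneg_left h3 hCh.le) hA0
        linarith
    _ = 3 * Ch * X ^ (2 * κ - 1) * A := by ring

lemma bb_H {κ B0 Ch X qa qa' na na' m m' : ℝ} (hκ : 1 / 2 < κ) (hκ1 : κ < 1) (j a a' : ℕ)
    (hB : 0 ≤ B0) (hCh : 0 ≤ Ch) (hX : 0 < X) (hqa : 0 ≤ qa) (hqa' : 0 ≤ qa') (hna : 0 ≤ na)
    (hna' : 0 ≤ na') (hm : 0 ≤ m) (hm' : 0 ≤ m') (h1 : na ≤ 2 ^ (a + 1) * m)
    (h2 : na' ≤ 2 ^ (a' + 1) * m') :
    B0 * (2 / 2 ^ j) * (((2 : ℝ) ^ j / 2 ^ a) * ((2 : ℝ) ^ j / 2 ^ a')) ^ κ * (qa * qa') *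
      (3 * Ch * (X / 2 ^ j) ^ (2 * κ - 1) * (na ^ κ * na' ^ κ)) ≤
    24 * B0 * Ch * X ^ (2 * κ - 1) * ((m ^ κ * qa) * (m' ^ κ * qa')) := by
  set J : ℝ := (2 : ℝ) ^ j with hJ
  have hJ0 : 0 < J := by positivity
  have hκ0 : 0 ≤ κ := by linarith
  have e1 : ((J / 2 ^ a) * (J / 2 ^ a')) ^ κ * (na ^ κ * na' ^ κ) ≤ 4 * J ^ (2 * κ) * (m ^ κ * m' ^ κ) := by
    have i1 : J / 2 ^ a * na ≤ J * (2 * m) := by
      calc J / 2 ^ a * na ≤ J / 2 ^ a * (2 ^ (a + 1) * m) :=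
            mul_le_mul_of_nonneg_left h1 (by positivity)
        _ = J * (2 * m) := by rw [pow_succ]; field_simp
    have i2 : J / 2 ^ a' * na' ≤ J * (2 * m') := by
      calc J / 2 ^ a' * na' ≤ J / 2 ^ a' * (2 ^ (a' + 1) * m') :=
            mul_le_mul_of_nonneg_left h2 (by positivity)
        _ = J * (2 * m') := by rw [pow_succ]; field_simp
    calc ((J / 2 ^ a) * (J / 2 ^ a')) ^ κ * (na ^ κ * na' ^ κ)
        = (J / 2 ^ a * na) ^ κ * (J / 2 ^ a' * na') ^ κ := by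
          rw [Real.mul_rpow (by positivity) (by positivity),
            Real.mul_rpow (by positivity) hna, Real.mul_rpow (by positivity) hna']
          ring
      _ ≤ (J * (2 * m)) ^ κ * (J * (2 * m')) ^ κ :=
          mul_le_mul (Real.rpow_le_rpow (by positivity) i1 hκ0)
            (Real.rpow_le_rpow (by positivity) i2 hκ0) (by positivity) (by positivity)
      _ = (2 ^ κ * 2 ^ κ) * (J ^ κ * J ^ κ) * (m ^ κ * m' ^ κ) := by
          rw [Real.mul_rpow hJ0.le (by positivity), Real.mul_rpow hJ0.le (by positivity),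
            Real.mul_rpow (by norm_num) hm, Real.mul_rpow (by norm_num) hm']
          ring
      _ ≤ 4 * J ^ (2 * κ) * (m ^ κ * m' ^ κ) := by
          refine mul_le_mul_of_nonneg_right ?_ (by positivity)
          rw [← Real.rpow_add hJ0, ← two_mul]
          refine mul_le_mul_of_nonneg_right ?_ (by positivity)
          have : (2 : ℝ) ^ κ ≤ 2 := by
            calc (2 : ℝ) ^ κ ≤ 2 ^ (1 : ℝ) :=
                  Real.rpow_le_rpow_of_exponent_le (by norm_num) hκ1.le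
              _ = 2 := Real.rpow_one _
          nlinarith [Real.rpow_nonneg (show (0 : ℝ) ≤ 2 by norm_num) κ]
  have e2 : (X / J) ^ (2 * κ - 1) * J ^ (2 * κ) = X ^ (2 * κ - 1) * J := by
    rw [Real.div_rpow hX.le hJ0.le, div_mul_eq_mul_div, mul_div_assoc, ← Real.rpow_sub hJ0]
    have : 2 * κ - (2 * κ - 1) = 1 := by ring
    rw [this, Real.rpow_one]
  calc B0 * (2 / J) * ((J / 2 ^ a) * (J / 2 ^ a')) ^ κ * (qa * qa') *
      (3 * Ch * (X / J) ^ (2 * κ - 1) * (na ^ κ * na' ^ κ))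
      = (6 * B0 * Ch / J * (X / J) ^ (2 * κ - 1) * (qa * qa')) *
        (((J / 2 ^ a) * (J / 2 ^ a')) ^ κ * (na ^ κ * na' ^ κ)) := by ring
    _ ≤ (6 * B0 * Ch / J * (X / J) ^ (2 * κ - 1) * (qa * qa')) *
        (4 * J ^ (2 * κ) * (m ^ κ * m' ^ κ)) :=
        mul_le_mul_of_nonneg_left e1 (by positivity)
    _ = 24 * B0 * Ch / J * ((X / J) ^ (2 * κ - 1) * J ^ (2 * κ)) * (qa * qa') * (m ^ κ * m' ^ κ) := by
        ring
    _ = _ := by
        rw [e2]
        field_simp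

/-! ### the theorem -/

set_option maxHeartbeats 1600000 in
/-- **THEOREM RARE** -/
theorem rare_thm {κ : ℝ} (hκ : 1 / 2 < κ) (hκ1 : κ < 1) :
    ∃ A C : ℝ, 0 ≤ A ∧ 1 ≤ C ∧ ∀ (M Y : ℕ) (f f' : ℕ → ℝ) (K : ℕ → ℕ → ℝ)
      (k : ℕ → ℕ → ℕ → ℕ → ℝ) (τ X : ℝ), 0 < M → 8 ≤ Y →
      (∀ b, 0 ≤ f b) → (∀ b, f b ≤ 1) → (∀ b, 0 ≤ f' b) → (∀ b, f' b ≤ 1) →
      (∀ T T' s t, 0 ≤ k T T' s t) → (∀ T T' s t, k T T' s t ≤ 1) →
      (∀ T T', T ∣ upp Y M → T' ∣ upp Y M → dens (low Y M) (k T T') ≤ τ) →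
      (∀ T T' n n', T ∣ upp Y M → T' ∣ upp Y M → n ∣ low Y M → n' ∣ low Y M →
        K (n * T) (n' * T') ≤ k T T' (n / Nat.gcd n n') (n' / Nat.gcd n n')) →
      τ ≤ 1 → 0 < X →
      ∑ b ∈ M.divisors, ∑ c ∈ M.divisors,
        (if X ≤ (Nat.gcd b c : ℝ) ∧ (Nat.gcd b c : ℝ) < 2 * X then
          (Nat.gcd b c : ℝ) * nu M b * nu M c * (f b * f' c * K b c) else 0) ≤
      C * Real.log Y ^ A * τ ^ ((1 - κ) / 8) * X ^ (2 * κ - 1) *
        ((Ex M f) ^ κ * (Ex M f') ^ κ) := by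
  obtain ⟨A, C, θ0, hA, hC, hθ0, hlow⟩ := low_bound hκ hκ1
  obtain ⟨Ch, hCh, hh⟩ := ThmRx19.hvw_b hκ hκ1
  have hl2 : 0 < Real.log 2 := Real.log_pos (by norm_num)
  set c1 := 1 + 2 / (θ0 * Real.log 2) with hc1
  have hc11 : 1 ≤ c1 := by
    have : 0 ≤ 2 / (θ0 * Real.log 2) := by positivity
    linarith
  refine ⟨A + 2, 24 * C * (Ch + 1) * c1 ^ 2, by linarith, ?_, ?_⟩
  · have h1 : (1 : ℝ) ≤ 24 * C := by linarith
    have h2 : (1 : ℝ) ≤ Ch + 1 := by linarith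
    exact one_le_mul_of_one_le_of_one_le (one_le_mul_of_one_le_of_one_le h1 h2)
      (one_le_pow₀ hc11)
  intro M Y f f' K k τ X hM hY hf hf1 hf' hf1' hk hk1 hdens hK hτ1 hX
  have hY8 : (8 : ℝ) ≤ Y := by exact_mod_cast hY
  have hly : 2 ≤ Real.log Y :=
    RelTailx808.log_eight.trans (Real.log_le_log (by norm_num) hY8)
  have hly0 : 0 < Real.log Y := by linarith
  set D := upp Y M with hDdef
  set N := low Y M with hNdef
  have hD : 0 < D := upp_pos _ _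
  have hN : 0 < N := low_pos _ _
  have hNY : ∀ p ∈ N.primeFactors, p ≤ Y := fun p hp =>
    prime_dvd_part (fun p => p ≤ Y) (Nat.prime_of_mem_primeFactors hp)
      (Nat.dvd_of_mem_primeFactors hp)
  have hτ0 : 0 ≤ τ := (dens_nonneg N (hk 1 1)).trans (hdens 1 1 (one_dvd _) (one_dvd _))
  set V : ℕ → ℝ := fun T => Ex N (fun n => f (n * T)) with hV
  set V' : ℕ → ℝ := fun T => Ex N (fun n => f' (n * T)) with hV'
  have hV0 : ∀ T, 0 ≤ V T := fun T => Ex_nonneg _ fun _ => hf _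
  have hV0' : ∀ T, 0 ≤ V' T := fun T => Ex_nonneg _ fun _ => hf' _
  have hV1 : ∀ T, V T ≤ 1 := fun T =>
    (Ex_mono N fun b _ => hf1 (b * T)).trans (le_of_eq (Ex_const hN 1))
  have hV1' : ∀ T, V' T ≤ 1 := fun T =>
    (Ex_mono N fun b _ => hf1' (b * T)).trans (le_of_eq (Ex_const hN 1))
  set L := max (D.divisors.sup fun T => lv (V T)) (D.divisors.sup fun T => lv (V' T)) + 1 with hL
  have hLV : ∀ T ∈ D.divisors, lv (V T) ∈ range L := by
    intro T hT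
    rw [mem_range, hL, Nat.lt_succ_iff]
    exact (le_sup (f := fun T => lv (V T)) hT).trans (le_max_left _ _)
  have hLV' : ∀ T ∈ D.divisors, lv (V' T) ∈ range L := by
    intro T hT
    rw [mem_range, hL, Nat.lt_succ_iff]
    exact (le_sup (f := fun T => lv (V' T)) hT).trans (le_max_right _ _)
  -- the decay
  set u := θ0 * Real.log 2 / Real.log Y with hu
  have hu0 : 0 < u := by positivity
  set q := Real.exp (-u) with hq
  have hq0 : 0 < q := Real.exp_pos _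
  have hq1 : q < 1 := by
    rw [hq, Real.exp_neg]
    exact inv_lt_one_of_one_lt₀ (Real.one_lt_exp_iff.2 hu0)
  set B0 := C * Real.log Y ^ A * τ ^ ((1 - κ) / 8) with hB0
  have hB00 : 0 ≤ B0 := by positivity
  set bb : ℕ → ℕ → ℕ → ℝ := fun j a a' => B0 * (2 / 2 ^ j) *
    (((2 : ℝ) ^ j / 2 ^ a) * ((2 : ℝ) ^ j / 2 ^ a')) ^ κ *
      (q ^ (Nat.dist j a) * q ^ (Nat.dist j a')) with hbb
  have hbb0 : ∀ j a a', 0 ≤ bb j a a' := fun j a a' => by
    simp only [hbb]; positivity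
  have stepA : ∀ j T T', T ∈ D.divisors → T' ∈ D.divisors →
      ER N (2 ^ j / 2) (fun n => f (n * T)) (fun n => f' (n * T')) (k T T') ≤
      ∑ a ∈ range L, ∑ a' ∈ range L, hl V a T * hl V' a' T' * bb j a a' := by
    intro j T T' hT hT'
    have hnn : ∀ a a', 0 ≤ hl V a T * hl V' a' T' * bb j a a' := fun a a' =>
      mul_nonneg (mul_nonneg (hl_nonneg _ _ _) (hl_nonneg _ _ _)) (hbb0 _ _ _)
    rcases eq_or_lt_of_le (hV0 T) with h0 | h0
    · rw [er_zero (fun n => hf _) h0.symm]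
      exact sum_nonneg fun a _ => sum_nonneg fun a' _ => hnn a a'
    rcases eq_or_lt_of_le (hV0' T') with h0' | h0'
    · rw [er_swap, er_zero (fun n => hf' _) h0'.symm]
      exact sum_nonneg fun a _ => sum_nonneg fun a' _ => hnn a a'
    have hx := lv_le h0 (hV1 T)
    have hy := lv_le h0' (hV1' T')
    have hTD := Nat.dvd_of_mem_divisors hT
    have hTD' := Nat.dvd_of_mem_divisors hT'
    have hG : (0 : ℝ) < 2 ^ j / 2 := by positivity
    have h1 := hlow N Y (fun n => f (n * T)) (fun n => f' (n * T')) (k T T') τ (2 ^ j / 2)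
      (2 ^ j / 2 ^ lv (V T)) (2 ^ j / 2 ^ lv (V' T')) hN hY hNY (fun _ => hf _) (fun _ => hf1 _)
      (fun _ => hf' _) (fun _ => hf1' _) (hk T T') (hk1 T T') (hdens T T' hTD hTD') hτ1 hG
      (by positivity) (by positivity)
      (by
        have e : (2 : ℝ) ^ j / 2 * V T ≤ 2 ^ j / 2 ^ lv (V T) := by
          rw [le_div_iff₀ (by positivity)]
          calc (2 : ℝ) ^ j / 2 * V T * 2 ^ lv (V T) = 2 ^ j / 2 * (V T * 2 ^ lv (V T)) := by ring
            _ ≤ 2 ^ j / 2 * 1 := mul_le_mul_of_nonneg_left hx (by positivity)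
            _ ≤ 2 ^ j := by linarith [show (0 : ℝ) < 2 ^ j by positivity]
        exact e)
      (by
        have e : (2 : ℝ) ^ j / 2 * V' T' ≤ 2 ^ j / 2 ^ lv (V' T') := by
          rw [le_div_iff₀ (by positivity)]
          calc (2 : ℝ) ^ j / 2 * V' T' * 2 ^ lv (V' T') =
                2 ^ j / 2 * (V' T' * 2 ^ lv (V' T')) := by ring
            _ ≤ 2 ^ j / 2 * 1 := mul_le_mul_of_nonneg_left hy (by positivity)
            _ ≤ 2 ^ j := by linarith [show (0 : ℝ) < 2 ^ j by positivity]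
        exact e)
    have e2 : Real.exp (-(θ0 / Real.log Y) * (|Real.log ((2 : ℝ) ^ j / 2 ^ lv (V T))| +
        |Real.log ((2 : ℝ) ^ j / 2 ^ lv (V' T'))|)) =
        q ^ (Nat.dist j (lv (V T))) * q ^ (Nat.dist j (lv (V' T'))) := by
      rw [abs_log_two, abs_log_two, hq, ← Real.exp_nat_mul, ← Real.exp_nat_mul, ← Real.exp_add]
      congr 1
      rw [hu]; ring
    have e3 : ((2 : ℝ) ^ j / 2)⁻¹ = 2 / 2 ^ j := by rw [inv_div]
    rw [e2, e3] at h1
    have h2 : hl V (lv (V T)) T * hl V' (lv (V' T')) T' * bb j (lv (V T)) (lv (V' T')) ≤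
        ∑ a ∈ range L, ∑ a' ∈ range L, hl V a T * hl V' a' T' * bb j a a' := by
      refine le_trans ?_ (single_le_sum (f := fun a => ∑ a' ∈ range L,
        hl V a T * hl V' a' T' * bb j a a') (fun a _ => sum_nonneg fun a' _ => hnn a a')
        (hLV T hT))
      exact single_le_sum (f := fun a' => hl V (lv (V T)) T * hl V' a' T' * bb j (lv (V T)) a')
        (fun a' _ => hnn _ a') (hLV' T' hT')
    rw [hl_self h0, hl_self h0', one_mul, one_mul] at h2
    exact h1.trans h2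
  -- splitting at the cut
  have hLHS : ∑ b ∈ M.divisors, ∑ c ∈ M.divisors,
        (if X ≤ (Nat.gcd b c : ℝ) ∧ (Nat.gcd b c : ℝ) < 2 * X then
          (Nat.gcd b c : ℝ) * nu M b * nu M c * (f b * f' c * K b c) else 0) =
      frm M (fun b c => if X ≤ (Nat.gcd b c : ℝ) ∧ (Nat.gcd b c : ℝ) < 2 * X then
        f b * f' c * K b c else 0) := by
    unfold frm
    refine sum_congr rfl fun b _ => sum_congr rfl fun c _ => ?_
    dsimp only
    split_ifs
    · rfl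
    · rw [mul_zero]
  have stepB : ∀ T T', T ∈ D.divisors → T' ∈ D.divisors →
      frm N (fun n n' => if X ≤ (Nat.gcd (n * T) (n' * T') : ℝ) ∧
        (Nat.gcd (n * T) (n' * T') : ℝ) < 2 * X then
        f (n * T) * f' (n' * T') * K (n * T) (n' * T') else 0) ≤
      ∑ j ∈ range (N + 1), (if X / 2 ^ j ≤ (Nat.gcd T T' : ℝ) ∧
          (Nat.gcd T T' : ℝ) < 4 * (X / 2 ^ j) then
        ER N (2 ^ j / 2) (fun n => f (n * T)) (fun n => f' (n * T')) (k T T') else 0) := by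
    intro T T' hT hT'
    have hTD := Nat.dvd_of_mem_divisors hT
    have hTD' := Nat.dvd_of_mem_divisors hT'
    have hgT : 0 < Nat.gcd T T' := Nat.gcd_pos_of_pos_left _ (Nat.pos_of_mem_divisors hT)
    have hgT' : (0 : ℝ) < (Nat.gcd T T' : ℕ) := by exact_mod_cast hgT
    have hpt : ∀ n ∈ N.divisors, ∀ n' ∈ N.divisors,
        (Nat.gcd n n' : ℝ) * nu N n * nu N n' * (if X ≤ (Nat.gcd (n * T) (n' * T') : ℝ) ∧
        (Nat.gcd (n * T) (n' * T') : ℝ) < 2 * X then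
        f (n * T) * f' (n' * T') * K (n * T) (n' * T') else 0) ≤
        ∑ j ∈ range (N + 1), (if X / 2 ^ j ≤ (Nat.gcd T T' : ℝ) ∧
          (Nat.gcd T T' : ℝ) < 4 * (X / 2 ^ j) then
          (if (2 : ℝ) ^ j / 2 < (Nat.gcd n n' : ℝ) ∧ (Nat.gcd n n' : ℝ) ≤ 2 * (2 ^ j / 2) then
            (Nat.gcd n n' : ℝ) * nu N n * nu N n' * (f (n * T) * f' (n' * T') *
              k T T' (n / Nat.gcd n n') (n' / Nat.gcd n n')) else 0) else 0) := by
      intro n hn n' hn'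
      have hnN := Nat.dvd_of_mem_divisors hn
      have hnN' := Nat.dvd_of_mem_divisors hn'
      have hg0 : 0 < Nat.gcd n n' := Nat.gcd_pos_of_pos_left _ (Nat.pos_of_mem_divisors hn)
      have hgN : Nat.gcd n n' ≤ N := Nat.le_of_dvd hN ((Nat.gcd_dvd_left _ _).trans hnN)
      have ht : 0 ≤ (Nat.gcd n n' : ℝ) * nu N n * nu N n' * (f (n * T) * f' (n' * T') *
              k T T' (n / Nat.gcd n n') (n' / Nat.gcd n n')) :=
        mul_nonneg (mul_nonneg (mul_nonneg (Nat.cast_nonneg _) (nu_nonneg _ _)) (nu_nonneg _ _))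
          (mul_nonneg (mul_nonneg (hf _) (hf' _)) (hk _ _ _ _))
      refine le_trans ?_ (win_split hg0 hgN hgT' ht (X := X))
      have hgc : Nat.gcd (n * T) (n' * T') = Nat.gcd n n' * Nat.gcd T T' :=
        gcd_cut (fun p => p ≤ Y) hnN hTD hnN' hTD'
      rw [hgc]
      push_cast
      split_ifs
      · refine mul_le_mul_of_nonneg_left ?_
          (mul_nonneg (mul_nonneg (Nat.cast_nonneg _) (nu_nonneg _ _)) (nu_nonneg _ _))
        exact mul_le_mul_of_nonneg_left (hK T T' n n' hTD hTD' hnN hnN')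
          (mul_nonneg (hf _) (hf' _))
      · rw [mul_zero]
    unfold frm
    calc _ ≤ ∑ n ∈ N.divisors, ∑ n' ∈ N.divisors, ∑ j ∈ range (N + 1),
          (if X / 2 ^ j ≤ (Nat.gcd T T' : ℝ) ∧ (Nat.gcd T T' : ℝ) < 4 * (X / 2 ^ j) then
          (if (2 : ℝ) ^ j / 2 < (Nat.gcd n n' : ℝ) ∧ (Nat.gcd n n' : ℝ) ≤ 2 * (2 ^ j / 2) then
            (Nat.gcd n n' : ℝ) * nu N n * nu N n' * (f (n * T) * f' (n' * T') *
              k T T' (n / Nat.gcd n n') (n' / Nat.gcd n n')) else 0) else 0) :=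
          sum_le_sum fun n hn => sum_le_sum fun n' hn' => hpt n hn n' hn'
      _ = ∑ j ∈ range (N + 1), ∑ n ∈ N.divisors, ∑ n' ∈ N.divisors,
          (if X / 2 ^ j ≤ (Nat.gcd T T' : ℝ) ∧ (Nat.gcd T T' : ℝ) < 4 * (X / 2 ^ j) then
          (if (2 : ℝ) ^ j / 2 < (Nat.gcd n n' : ℝ) ∧ (Nat.gcd n n' : ℝ) ≤ 2 * (2 ^ j / 2) then
            (Nat.gcd n n' : ℝ) * nu N n * nu N n' * (f (n * T) * f' (n' * T') *
              k T T' (n / Nat.gcd n n') (n' / Nat.gcd n n')) else 0) else 0) := by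
          rw [sum_congr rfl fun n _ => sum_comm, sum_comm]
      _ = _ := by
          refine sum_congr rfl fun j _ => ?_
          split_ifs
          · rfl
          · simp
  -- masses
  set m : ℕ → ℝ := fun a => ∑ T ∈ D.divisors, nu D T * (hl V a T * V T) with hm
  set m' : ℕ → ℝ := fun a => ∑ T ∈ D.divisors, nu D T * (hl V' a T * V' T) with hm'
  have hm0 : ∀ a, 0 ≤ m a := fun a =>
    sum_nonneg fun T _ => mul_nonneg (nu_nonneg _ _) (mul_nonneg (hl_nonneg _ _ _) (hV0 _))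
  have hm0' : ∀ a, 0 ≤ m' a := fun a =>
    sum_nonneg fun T _ => mul_nonneg (nu_nonneg _ _) (mul_nonneg (hl_nonneg _ _ _) (hV0' _))
  have hEx : Ex M f = Ex D V := Ex_cut hM Y f
  have hEx' : Ex M f' = Ex D V' := Ex_cut hM Y f'
  have hmZ : ∑ a ∈ range L, m a ≤ Ex M f := by
    rw [hEx]
    simp only [hm]
    rw [sum_comm]
    unfold Ex
    refine sum_le_sum fun T _ => ?_
    rw [← mul_sum]
    exact mul_le_mul_of_nonneg_left (sum_hl_le hV0 L T) (nu_nonneg _ _)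
  have hmZ' : ∑ a ∈ range L, m' a ≤ Ex M f' := by
    rw [hEx']
    simp only [hm']
    rw [sum_comm]
    unfold Ex
    refine sum_le_sum fun T _ => ?_
    rw [← mul_sum]
    exact mul_le_mul_of_nonneg_left (sum_hl_le hV0' L T) (nu_nonneg _ _)
  have hna : ∀ a, ∑ T ∈ D.divisors, nu D T * hl V a T ≤ 2 ^ (a + 1) * m a := by
    intro a
    simp only [hm]
    rw [mul_sum]
    refine sum_le_sum fun T _ => ?_
    calc nu D T * hl V a T ≤ nu D T * (2 ^ (a + 1) * (hl V a T * V T)) :=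
          mul_le_mul_of_nonneg_left (hl_mul_le V a T) (nu_nonneg _ _)
      _ = _ := by ring
  have hna' : ∀ a, ∑ T ∈ D.divisors, nu D T * hl V' a T ≤ 2 ^ (a + 1) * m' a := by
    intro a
    simp only [hm']
    rw [mul_sum]
    refine sum_le_sum fun T _ => ?_
    calc nu D T * hl V' a T ≤ nu D T * (2 ^ (a + 1) * (hl V' a T * V' T)) :=
          mul_le_mul_of_nonneg_left (hl_mul_le V' a T) (nu_nonneg _ _)
      _ = _ := by ring
  have hZ0 : 0 ≤ Ex M f := Ex_nonneg _ hf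
  have hZ0' : 0 ≤ Ex M f' := Ex_nonneg _ hf'
  have main1 : frm M (fun b c => if X ≤ (Nat.gcd b c : ℝ) ∧ (Nat.gcd b c : ℝ) < 2 * X then
        f b * f' c * K b c else 0) ≤
      ∑ j ∈ range (N + 1), ∑ a ∈ range L, ∑ a' ∈ range L, bb j a a' *
        ∑ T ∈ D.divisors, ∑ T' ∈ D.divisors,
          (if X / 2 ^ j ≤ (Nat.gcd T T' : ℝ) ∧ (Nat.gcd T T' : ℝ) < 4 * (X / 2 ^ j) then
            (Nat.gcd T T' : ℝ) * nu D T * nu D T' * (hl V a T * hl V' a' T') else 0) := by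
    rw [frm_low_upp hM Y]
    have hpt : ∀ T ∈ D.divisors, ∀ T' ∈ D.divisors,
        (Nat.gcd T T' : ℝ) * nu D T * nu D T' *
          frm N (fun n n' => if X ≤ (Nat.gcd (n * T) (n' * T') : ℝ) ∧
            (Nat.gcd (n * T) (n' * T') : ℝ) < 2 * X then
            f (n * T) * f' (n' * T') * K (n * T) (n' * T') else 0) ≤
        ∑ j ∈ range (N + 1), ∑ a ∈ range L, ∑ a' ∈ range L, bb j a a' *
          (if X / 2 ^ j ≤ (Nat.gcd T T' : ℝ) ∧ (Nat.gcd T T' : ℝ) < 4 * (X / 2 ^ j) then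
            (Nat.gcd T T' : ℝ) * nu D T * nu D T' * (hl V a T * hl V' a' T') else 0) := by
      intro T hT T' hT'
      have hw : 0 ≤ (Nat.gcd T T' : ℝ) * nu D T * nu D T' :=
        mul_nonneg (mul_nonneg (Nat.cast_nonneg _) (nu_nonneg _ _)) (nu_nonneg _ _)
      refine (mul_le_mul_of_nonneg_left (stepB T T' hT hT') hw).trans ?_
      rw [mul_sum]
      refine sum_le_sum fun j _ => ?_
      split_ifs with hc
      · refine (mul_le_mul_of_nonneg_left (stepA j T T' hT hT') hw).trans (le_of_eq ?_)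
        rw [mul_sum]
        refine sum_congr rfl fun a _ => ?_
        rw [mul_sum]
        refine sum_congr rfl fun a' _ => ?_
        ring
      · simp
    refine (sum_le_sum fun T hT => sum_le_sum fun T' hT' => hpt T hT T' hT').trans (le_of_eq ?_)
    calc ∑ T ∈ D.divisors, ∑ T' ∈ D.divisors,
        ∑ j ∈ range (N + 1), ∑ a ∈ range L, ∑ a' ∈ range L, bb j a a' *
          (if X / 2 ^ j ≤ (Nat.gcd T T' : ℝ) ∧ (Nat.gcd T T' : ℝ) < 4 * (X / 2 ^ j) then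
            (Nat.gcd T T' : ℝ) * nu D T * nu D T' * (hl V a T * hl V' a' T') else 0)
        = ∑ j ∈ range (N + 1), ∑ T ∈ D.divisors, ∑ T' ∈ D.divisors,
          ∑ a ∈ range L, ∑ a' ∈ range L, bb j a a' *
          (if X / 2 ^ j ≤ (Nat.gcd T T' : ℝ) ∧ (Nat.gcd T T' : ℝ) < 4 * (X / 2 ^ j) then
            (Nat.gcd T T' : ℝ) * nu D T * nu D T' * (hl V a T * hl V' a' T') else 0) := by
          rw [sum_congr rfl fun T _ => sum_comm, sum_comm]
      _ = ∑ j ∈ range (N + 1), ∑ a ∈ range L, ∑ T ∈ D.divisors, ∑ T' ∈ D.divisors,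
          ∑ a' ∈ range L, bb j a a' *
          (if X / 2 ^ j ≤ (Nat.gcd T T' : ℝ) ∧ (Nat.gcd T T' : ℝ) < 4 * (X / 2 ^ j) then
            (Nat.gcd T T' : ℝ) * nu D T * nu D T' * (hl V a T * hl V' a' T') else 0) := by
          refine sum_congr rfl fun j _ => ?_
          rw [sum_congr rfl fun T _ => sum_comm, sum_comm]
      _ = ∑ j ∈ range (N + 1), ∑ a ∈ range L, ∑ a' ∈ range L, ∑ T ∈ D.divisors,
          ∑ T' ∈ D.divisors, bb j a a' *
          (if X / 2 ^ j ≤ (Nat.gcd T T' : ℝ) ∧ (Nat.gcd T T' : ℝ) < 4 * (X / 2 ^ j) then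
            (Nat.gcd T T' : ℝ) * nu D T * nu D T' * (hl V a T * hl V' a' T') else 0) := by
          refine sum_congr rfl fun j _ => sum_congr rfl fun a _ => ?_
          rw [sum_congr rfl fun T _ => sum_comm, sum_comm]
      _ = _ := by
          refine sum_congr rfl fun j _ => sum_congr rfl fun a _ => sum_congr rfl fun a' _ => ?_
          rw [mul_sum]
          refine sum_congr rfl fun T _ => ?_
          rw [mul_sum]
  have main2 : ∑ j ∈ range (N + 1), ∑ a ∈ range L, ∑ a' ∈ range L, bb j a a' *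
        ∑ T ∈ D.divisors, ∑ T' ∈ D.divisors,
          (if X / 2 ^ j ≤ (Nat.gcd T T' : ℝ) ∧ (Nat.gcd T T' : ℝ) < 4 * (X / 2 ^ j) then
            (Nat.gcd T T' : ℝ) * nu D T * nu D T' * (hl V a T * hl V' a' T') else 0) ≤
      ∑ j ∈ range (N + 1), ∑ a ∈ range L, ∑ a' ∈ range L,
        24 * B0 * Ch * X ^ (2 * κ - 1) *
          ((m a ^ κ * q ^ (Nat.dist j a)) * (m' a' ^ κ * q ^ (Nat.dist j a'))) := by
    refine sum_le_sum fun j _ => sum_le_sum fun a _ => sum_le_sum fun a' _ => ?_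
    have h1 := two_win hκ1 hCh hh hD.ne' (X := X / 2 ^ j) (by positivity)
      (hl_nonneg V a) (hl_le_one V a) (hl_nonneg V' a') (hl_le_one V' a')
    refine (mul_le_mul_of_nonneg_left h1 (hbb0 j a a')).trans ?_
    simp only [hbb]
    exact bb_H hκ hκ1 j a a' hB00 hCh.le hX (by positivity) (by positivity)
      (sum_nonneg fun T _ => mul_nonneg (nu_nonneg _ _) (hl_nonneg _ _ _))
      (sum_nonneg fun T _ => mul_nonneg (nu_nonneg _ _) (hl_nonneg _ _ _)) (hm0 a) (hm0' a')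
      (hna a) (hna' a')
  have main3 : ∑ j ∈ range (N + 1), ∑ a ∈ range L, ∑ a' ∈ range L,
        24 * B0 * Ch * X ^ (2 * κ - 1) *
          ((m a ^ κ * q ^ (Nat.dist j a)) * (m' a' ^ κ * q ^ (Nat.dist j a'))) ≤
      24 * B0 * Ch * X ^ (2 * κ - 1) * ((2 / (1 - q)) ^ 2 * ((Ex M f) ^ κ * (Ex M f') ^ κ)) := by
    have h1 := conv2 hκ.le hq0.le hq1 (N + 1) L hm0 hm0' hZ0 hZ0' hmZ hmZ'
    refine le_trans (le_of_eq ?_) (mul_le_mul_of_nonneg_left h1 (by positivity))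
    rw [mul_sum]
    refine sum_congr rfl fun j _ => ?_
    rw [sum_mul_sum, mul_sum]
    refine sum_congr rfl fun a _ => ?_
    rw [mul_sum]
  have hQ : 2 / (1 - q) ≤ c1 * Real.log Y := by
    have h1q : 0 < 1 - q := by linarith
    have h2 : q ≤ 1 / (1 + u) := by
      rw [hq, Real.exp_neg, ← one_div]
      exact one_div_le_one_div_of_le (by linarith) (by linarith [Real.add_one_le_exp u])
    have h3 : u / (1 + u) ≤ 1 - q := by
      have : u / (1 + u) = 1 - 1 / (1 + u) := by field_simp; ring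
      linarith
    calc 2 / (1 - q) ≤ 2 / (u / (1 + u)) :=
          div_le_div_of_nonneg_left (by norm_num) (by positivity) h3
      _ = 2 + 2 / u := by field_simp; ring
      _ = 2 + 2 / (θ0 * Real.log 2) * Real.log Y := by
          rw [hu]; field_simp
      _ ≤ c1 * Real.log Y := by
          rw [hc1, add_mul, one_mul]
          linarith
  have hQ2 : (2 / (1 - q)) ^ 2 ≤ c1 ^ 2 * Real.log Y ^ (2 : ℝ) := by
    have h0 : 0 ≤ 2 / (1 - q) := div_nonneg two_pos.le (by linarith)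
    calc (2 / (1 - q)) ^ 2 ≤ (c1 * Real.log Y) ^ 2 := pow_le_pow_left₀ h0 hQ 2
      _ = c1 ^ 2 * Real.log Y ^ (2 : ℝ) := by
          rw [mul_pow, ← Real.rpow_natCast (Real.log Y) 2]
          norm_num
  rw [hLHS]
  refine main1.trans (main2.trans (main3.trans ?_))
  have hEE : 0 ≤ (Ex M f) ^ κ * (Ex M f') ^ κ :=
    mul_nonneg (Real.rpow_nonneg hZ0 _) (Real.rpow_nonneg hZ0' _)
  calc 24 * B0 * Ch * X ^ (2 * κ - 1) * ((2 / (1 - q)) ^ 2 * ((Ex M f) ^ κ * (Ex M f') ^ κ))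
      ≤ 24 * B0 * (Ch + 1) * X ^ (2 * κ - 1) * ((c1 ^ 2 * Real.log Y ^ (2 : ℝ)) *
        ((Ex M f) ^ κ * (Ex M f') ^ κ)) := by
        refine mul_le_mul ?_ (mul_le_mul_of_nonneg_right hQ2 hEE)
          (mul_nonneg (sq_nonneg _) hEE) (by positivity)
        refine mul_le_mul_of_nonneg_right ?_ (by positivity)
        exact mul_le_mul_of_nonneg_left (by linarith) (by positivity)
    _ = _ := by
        rw [Real.rpow_add hly0, hB0]
        ring

end Crest.Agent.R4C.RareEnx442
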