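import Crest.Agent.R4C.FarKit_179
import Crest.Agent.R4C.RareCor_590
import Crest.Agent.R4C.RareEn_442

/-!
# Row 4: the class `CRareA` (rare box at the own scale) is bounded (helper179)

* `sum_ker_le`, `Ex_ind`, `pow_le_sqrt`, `sub_mass` : conversion from bilinear bounds for functions
  `f, f' ∈ [0,1]` on a window to the set bounds of `FarKit_179.clsOK_of_sets`;
* `rareThm` : `RareCorx590.RareThm` from `RareEnx442.rare_thm`;
* `clsOK_rareA` : `ClsOK γ CRareA` for every `D m ≥ 2^(c m)`.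
-/

set_option autoImplicit false

open Finset

namespace Crest.Agent.R4C.EnRareAx179

open Crest.Agent.R4C.Basex935 Crest.Agent.R4C.CrCoinx935 Crest.Agent.R4C.CrCountx935
  Crest.Agent.R4C.Bridgex882 Crest.Agent.R4C.FLDefx935 Crest.Agent.R4C.Cutx50
  Crest.Agent.R4C.Rulex945 Crest.Agent.R4C.Splitx945 Crest.Agent.R4C.Spinex946
  Crest.Agent.R4C.FarKitx179
open Crest.Agent.R4C.FLExx326 (ind ind_nonneg)
open Crest.Agent.R4C.RelRarex808 (KRare KRare_nonneg)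
open Crest.Agent.R4C.S2x232 (near)

/-! ### conversions -/

lemma ind_le_one (S : Finset ℕ) (b : ℕ) : ind S b ≤ 1 := by
  unfold ind
  split_ifs <;> norm_num

lemma Ex_ind {M : ℕ} {S : Finset ℕ} (hS : S ⊆ M.divisors) :
    Cutx50.Ex M (ind S) = ∑ b ∈ S, nu M b := by
  classical
  unfold Cutx50.Ex ind
  simp only [mul_ite, mul_one, mul_zero]
  rw [← Finset.sum_filter]
  congr 1
  ext b
  rw [Finset.mem_filter]
  exact ⟨fun h => h.2, fun h => ⟨hS h, h⟩⟩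

/-- kernel over sets `≤` windowed form of indicators -/
lemma sum_ker_le {M : ℕ} {S S' : Finset ℕ} (hS : S ⊆ M.divisors) (hS' : S' ⊆ M.divisors)
    {q W : ℕ → ℕ → Prop} [∀ b c, Decidable (W b c)] {K : ℕ → ℕ → ℝ} (hK0 : ∀ b c, 0 ≤ K b c)
    (h : ∀ b ∈ S, ∀ c ∈ S', q b c → W b c ∧ 1 ≤ K b c) :
    ∑ b ∈ S, ∑ c ∈ S', ker M q b c ≤ ∑ b ∈ M.divisors, ∑ c ∈ M.divisors,
      (if W b c then (Nat.gcd b c : ℝ) * nu M b * nu M c * (ind S b * ind S' c * K b c) else 0) := by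
  have hn : ∀ b c, (0 : ℝ) ≤ (Nat.gcd b c : ℝ) * nu M b * nu M c := fun b c =>
    mul_nonneg (mul_nonneg (Nat.cast_nonneg _) (nu_nonneg _ _)) (nu_nonneg _ _)
  have h0 : ∀ b c, 0 ≤ (if W b c then (Nat.gcd b c : ℝ) * nu M b * nu M c *
      (ind S b * ind S' c * K b c) else 0) := by
    intro b c
    split_ifs
    · exact mul_nonneg (hn b c) (mul_nonneg (mul_nonneg (ind_nonneg _ _) (ind_nonneg _ _))
        (hK0 b c))
    · exact le_rfl
  refine le_trans ?_ (Finset.sum_le_sum_of_subset_of_nonneg hS fun b _ _ =>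
    Finset.sum_nonneg fun c _ => h0 b c)
  refine Finset.sum_le_sum fun b hb => ?_
  refine le_trans ?_ (Finset.sum_le_sum_of_subset_of_nonneg hS' fun c _ _ => h0 b c)
  refine Finset.sum_le_sum fun c hc => ?_
  unfold ker
  by_cases hq : q b c
  · obtain ⟨h1, h2⟩ := h b hb c hc hq
    rw [if_pos hq, if_pos h1]
    have e1 : ind S b = 1 := if_pos hb
    have e2 : ind S' c = 1 := if_pos hc
    rw [e1, e2, one_mul, one_mul]
    exact le_mul_of_one_le_right (hn b c) h2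
  · rw [if_neg hq]
    exact h0 b c

/-- `x^e ≤ √x` for `x ∈ [0,1]`, `e ≥ 1/2` -/
lemma pow_le_sqrt {x e : ℝ} (h0 : 0 ≤ x) (h1 : x ≤ 1) (he : 1 / 2 ≤ e) : x ^ e ≤ √x := by
  rw [Real.sqrt_eq_rpow]
  rcases h0.eq_or_lt with h | h
  · rw [← h, Real.zero_rpow (by linarith), Real.zero_rpow (by norm_num)]
  · exact Real.rpow_le_rpow_of_exponent_ge h h1 he

/-- mass of a subset -/
lemma sub_mass {η L : ℝ} {M : ℕ} {B : Finset ℕ} {F : FL M} (H : Setup η L M B F) {S : Finset ℕ}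
    (hS : S ⊆ B) : 0 ≤ L * ∑ b ∈ S, nu M b ∧ L * ∑ b ∈ S, nu M b ≤ 1 := by
  have h0 := H.hL.le
  refine ⟨mul_nonneg h0 (Finset.sum_nonneg fun b _ => nu_nonneg M b), ?_⟩
  refine le_trans (mul_le_mul_of_nonneg_left ?_ h0) H.mass
  exact Finset.sum_le_sum_of_subset_of_nonneg hS fun b _ _ => nu_nonneg M b

/-- a linked offset gives `near` -/
lemma near_of_Lnk {γ L t : ℝ} {b c : ℕ} {h : ℤ} (hh : h ∈ Lnk γ L b c) (ht : 0 < t)
    (hg : 0 < Nat.gcd b c) (hL : t * L ≤ (Nat.gcd b c : ℕ)) :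
    near ((((b / Nat.gcd b c : ℕ) : ℝ) - ((c / Nat.gcd b c : ℕ) : ℝ)) * γ) (1 / t) := by
  have h1 := mem_Hf.1 hh
  have hgR : (0 : ℝ) < (Nat.gcd b c : ℕ) := by exact_mod_cast hg
  refine ⟨-h, ?_⟩
  have h2 : L / (Nat.gcd b c : ℕ) ≤ 1 / t := by
    rw [div_le_div_iff₀ hgR ht]
    linarith
  push_cast
  rw [sub_neg_eq_add]
  exact h1.trans_le h2

/-- 442's theorem in 590's form -/
theorem rareThm {κ : ℝ} (hκ : 1 / 2 < κ) (hκ1 : κ < 1) :
    ∃ A C : ℝ, 0 ≤ A ∧ 1 ≤ C ∧ RareCorx590.RareThm κ A C := by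
  obtain ⟨A, C, hA, hC, h⟩ := RareEnx442.rare_thm hκ hκ1
  refine ⟨A, C, hA, hC, ?_⟩
  intro M Y f f' K k τ X hM hY hf hf1 hf' hf1' _ hk hk1 hdens hK hτ hX
  exact h M Y f f' K k τ X hM hY hf hf1 hf' hf1' hk hk1 hdens hK hτ hX

/-- **the class `CRareA`** -/
theorem clsOK_rareA {γ : ℝ} {c : ℝ → ℝ} (hc : ∀ cp, 0 < cp → 0 < c cp ∧ c cp ≤ 1)
    {D : ℝ → ℕ → ℝ} (hD : ∀ cp, 0 < cp → ∀ m : ℕ, (2 : ℝ) ^ (c cp * m) ≤ D cp m) :
    ClsOK γ (fun cp _ A m0 L M B F => CRareA F (ParOf cp A m0 γ L M B) (D cp)) := by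
  refine clsOK_of_sets ((Ev.basic.and (Ev.le_m0 fun _ _ _ => 3)).mono ?_)
  rintro cp η A m0 ⟨⟨hcp, _, _, _, _, hA, _⟩, hm0⟩
  have hm3 : 3 ≤ m0 := by exact_mod_cast hm0
  obtain ⟨hc0, hc1⟩ := hc cp hcp
  set c' := c cp with hc'
  have hκ : (1 : ℝ) / 2 < 1 / 2 + c' / 2 / 256 := by linarith
  have hκ1 : 1 / 2 + c' / 2 / 256 < 1 := by linarith
  obtain ⟨A1, C1, hA1, hC1, hR⟩ := rareThm hκ hκ1
  obtain ⟨C', hC', H⟩ := RareCorx590.rare_box hc0 hc1 hA1 (by linarith) hR (A₁ := (A : ℝ))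
    (C₀ := 0) (Nat.cast_nonneg A) le_rfl
  refine ⟨c' / 200, by positivity, C', hC'.le, 0, ?_⟩
  intro L M B F hS
  set P := ParOf cp A m0 γ L M B with hP
  have eL : P.L = L := rfl
  have eγ : P.γ = γ := rfl
  have ecut : ∀ m, P.cut m = 2 ^ (A * m) := fun m => rfl
  have hAR : (1 : ℝ) ≤ A := by exact_mod_cast hA
  refine ⟨fun t b c => ((2 : ℝ) ^ t * L ≤ (Nat.gcd b c : ℝ) ∧
    (Nat.gcd b c : ℝ) < 2 * (2 ^ t * L)) ∧
    near ((((b / Nat.gcd b c : ℕ) : ℝ) - ((c / Nat.gcd b c : ℕ) : ℝ)) * γ) (1 / 2 ^ t) ∧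
    S2bx284.Rare (upp (P.cut t) (b / Nat.gcd b c) * γ) (upp (P.cut t) (c / Nat.gcd b c) * γ)
      (2 ^ t) (D cp t) (low (P.cut t) (b / Nat.gcd b c)) (low (P.cut t) (c / Nat.gcd b c)),
    ?_, ?_⟩
  · intro b hb c hcB hne h hh hk hRr
    obtain ⟨i, hF, hr⟩ := hRr
    have hg : 0 < Nat.gcd b c := Nat.gcd_pos_of_pos_left _ (hS.pos hb)
    have h2i : (1 : ℝ) ≤ 2 ^ i := one_le_pow₀ (by norm_num)
    have hlo : (2 : ℝ) ^ i * L ≤ (Nat.gcd b c : ℕ) := hF.lo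
    refine ⟨i, hF.m0, ⟨⟨hlo, ?_⟩, near_of_Lnk hh (by positivity) hg hlo, hr⟩, ?_, ?_, ?_⟩
    · have := hF.hi
      rw [pow_succ, eL] at this
      linarith
    · refine FL.good_mono ?_ hF.good
      rw [ecut]
      exact Nat.pow_le_pow_right (by norm_num) (Nat.mul_le_mul_left _ (by omega))
    · intro p hp
      refine (hF.al p hp).trans ?_
      rw [ecut]
      exact Nat.pow_le_pow_right (by norm_num) (Nat.mul_le_mul_left _ (by omega))
    · -- `X1 ≤ e ≤ 8 ≤ cut`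
      have hgR : (0 : ℝ) < (Nat.gcd b c : ℕ) := by exact_mod_cast hg
      have h1 : L / (Nat.gcd b c : ℕ) ≤ 1 := by
        rw [div_le_one hgR]
        have := hS.hL
        nlinarith
      unfold X1
      rw [eL, max_eq_left h1, Real.one_rpow]
      have h2 : Real.exp 1 ≤ 8 := by
        have := Real.exp_one_lt_d9
        linarith
      have h3 : (8 : ℕ) ≤ 2 ^ (A * (2 * i + 1)) := by
        calc (8 : ℕ) = 2 ^ 3 := by norm_num
          _ ≤ 2 ^ (A * (2 * i + 1)) := Nat.pow_le_pow_right (by norm_num) (by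
              have : 3 ≤ i := hm3.trans hF.m0
              nlinarith)
      exact h2.trans (by exact_mod_cast h3)
  · intro t ht S S' hSB hSB'
    have hSd := hSB.trans hS.hB
    have hSd' := hSB'.trans hS.hB
    have hY8 : 8 ≤ 2 ^ (A * t) := by
      calc (8 : ℕ) = 2 ^ 3 := by norm_num
        _ ≤ 2 ^ (A * t) := Nat.pow_le_pow_right (by norm_num) (by
            have : 3 ≤ t := hm3.trans ht
            nlinarith)
    have hT1 : (1 : ℝ) ≤ 2 ^ t := one_le_pow₀ (by norm_num)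
    have hlog : Real.log ((2 ^ (A * t) : ℕ) : ℝ) ≤ A * Real.log ((2 : ℝ) ^ t) := by
      rw [Nat.cast_pow, Nat.cast_ofNat, Real.log_pow, Real.log_pow]
      push_cast
      exact le_of_eq (by ring)
    have hTD : ((2 : ℝ) ^ t) ^ c' ≤ D cp t := by
      have := hD cp hcp t
      rwa [mul_comm, Real.rpow_mul (by norm_num), Real.rpow_natCast] at this
    have h1 := H M (2 ^ (A * t)) (ind S) (ind S') γ (2 ^ t) (D cp t) (2 ^ t) L hS.hM hY8 hT1 hS.hL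
      hlog hTD (ind_nonneg S) (ind_le_one S) (ind_nonneg S') (ind_le_one S')
    rw [Real.rpow_zero, one_mul] at h1
    have h2 := sum_ker_le (M := M) hSd hSd'
      (q := fun b c => ((2 : ℝ) ^ t * L ≤ (Nat.gcd b c : ℝ) ∧
        (Nat.gcd b c : ℝ) < 2 * (2 ^ t * L)) ∧
        near ((((b / Nat.gcd b c : ℕ) : ℝ) - ((c / Nat.gcd b c : ℕ) : ℝ)) * γ) (1 / 2 ^ t) ∧
        S2bx284.Rare (upp (P.cut t) (b / Nat.gcd b c) * γ) (upp (P.cut t) (c / Nat.gcd b c) * γ)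
          (2 ^ t) (D cp t) (low (P.cut t) (b / Nat.gcd b c)) (low (P.cut t) (c / Nat.gcd b c)))
      (W := fun b c => (2 : ℝ) ^ t * L ≤ (Nat.gcd b c : ℝ) ∧
        (Nat.gcd b c : ℝ) < 2 * (2 ^ t * L))
      (K := fun b c => KRare γ (2 ^ t) (D cp t) (2 ^ (A * t)) (b / Nat.gcd b c) (c / Nat.gcd b c))
      (fun b c => KRare_nonneg _ _ _ _ _ _)
      (fun b _ c _ hq => ⟨hq.1, by
        unfold KRare
        rw [if_pos ⟨hq.2.1, hq.2.2⟩]⟩)
    refine (mul_le_mul_of_nonneg_left h2 hS.hL.le).trans (h1.trans ?_)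
    rw [Ex_ind hSd, Ex_ind hSd', pow_zero, mul_one]
    obtain ⟨m1, m2⟩ := sub_mass hS hSB
    obtain ⟨m3, m4⟩ := sub_mass hS hSB'
    have h3 := pow_le_sqrt (mul_nonneg m1 m3) (mul_le_one₀ m2 m3 m4)
      (e := 1 / 2 + c' / 2 / 256) (by linarith)
    have e4 : ((2 : ℝ) ^ t) ^ (-(c' / 200)) = (2 : ℝ) ^ (-(c' / 200 * t)) := by
      rw [← Real.rpow_natCast 2 t, ← Real.rpow_mul (by norm_num)]
      congr 1
      ring
    rw [e4]
    exact mul_le_mul_of_nonneg_left h3 (by positivity)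

end Crest.Agent.R4C.EnRareAx179
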