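import Crest.Agent.R4C.HypTW_516
import Crest.Agent.R4C.DictV_20

/-!
# Row 4, GW section: nominal coins of `nc` which are not coins of `DictV_20.nomC` (helper516)

* `window_sum` : primes in `(2^a, 2^b]` have mass `≤ 9 (b - a) / a`;
* `err_of_WV` : in a world with the coins `nomC P δ s` the hypothesis `Err` of `HypTW_516` holds with
  `KE = 18 (s + 1)`;
* `hypT_WV` : `HDx529.HypT Z C1 c (18 (s+1))`.
-/

set_option autoImplicit false

open Finset
open Crest.Agent.R4C.Basex935 Crest.Agent.R4C.Cutx50 Crest.Agent.R4C.PrefixMx882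
open Crest.Agent.R4C.NHx656 Crest.Agent.R4C.GWdefx982 Crest.Agent.R4C.GWbirthx516
open Crest.Agent.R4C.HypTx516 Crest.Agent.R4C.HypTWx516
open Crest.Agent.R4C.Rulex945 (Par)
open Crest.Agent.R4C.DictVx20 (nomC WV)

namespace Crest.Agent.R4C.ErrNx516

/-- primes of a dyadic window -/
lemma window_sum {a b : ℕ} (ha : 1 ≤ a) (hab : a ≤ b) (T : Finset ℕ)
    (hT : ∀ q ∈ T, q.Prime ∧ 2 ^ a < q ∧ q ≤ 2 ^ b) :
    ∑ q ∈ T, (1 : ℝ) / q ≤ 9 * ((b : ℝ) - a) / a := by
  classical
  have ha0 : (0 : ℝ) < a := by exact_mod_cast ha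
  induction b, hab using Nat.le_induction generalizing T with
  | base =>
    have : T = ∅ := by
      rw [eq_empty_iff_forall_notMem]
      intro q hq
      have := hT q hq
      omega
    rw [this]
    simp
  | succ b hab ih =>
    have h1 := ih (T.filter (fun q => q ≤ 2 ^ b)) fun q hq => by
      rw [mem_filter] at hq
      exact ⟨(hT q hq.1).1, (hT q hq.1).2.1, hq.2⟩
    have h2 : ∑ q ∈ T.filter (fun q => ¬ q ≤ 2 ^ b), (1 : ℝ) / q ≤
        6 / Real.log ((2 ^ (b + 1) : ℕ) : ℝ) := by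
      refine F5bx20.sum_half (r := 2 ^ (b + 1)) ?_ _ fun q hq => ?_
      · calc 2 = 2 ^ 1 := by norm_num
          _ ≤ 2 ^ (b + 1) := Nat.pow_le_pow_right (by norm_num) (by omega)
      · rw [mem_filter] at hq
        have h3 := hT q hq.1
        refine ⟨h3.1, ?_, h3.2.2⟩
        rw [pow_succ]
        omega
    have h3 : 6 / Real.log ((2 ^ (b + 1) : ℕ) : ℝ) ≤ 9 / a := by
      have e1 : Real.log ((2 ^ (b + 1) : ℕ) : ℝ) = (b + 1 : ℝ) * Real.log 2 := by
        push_cast
        rw [Real.log_pow]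
        push_cast
        ring
      have h4 := Real.log_two_gt_d9
      have h5 : (a : ℝ) ≤ b := by exact_mod_cast hab
      rw [e1, div_le_div_iff₀ (by positivity) ha0]
      nlinarith
    rw [← sum_filter_add_sum_filter_not T (fun q => q ≤ 2 ^ b)]
    have h6 : 9 * (((b + 1 : ℕ) : ℝ) - a) / a = 9 * ((b : ℝ) - a) / a + 9 / a := by
      push_cast
      ring
    rw [h6]
    exact add_le_add h1 (h2.trans h3)

variable {Z : World} {P : Par} {δ : ℝ} {s A : ℕ}

/-- **the error hypothesis in the world of the nominal coins** -/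
theorem err_of_WV (hZ : Z.Ok) (hW : WV Z P δ s) (hA : 1 ≤ A) (hcut : ∀ k, P.cut k = 2 ^ (A * k))
    (hY : P.Y = fun k => 2 ^ k) : Err Z δ (18 * ((s : ℝ) + 1)) := by
  classical
  intro i w hwN hnd hsq r hr G hG hGc
  have hYm : StrictMono P.Y := by
    rw [hY]
    exact fun a b h => Nat.pow_lt_pow_right (by norm_num) h
  have hrp := Nat.prime_of_mem_primeFactors hr
  have hri : Z.cut i < r := GWbirthx33.lt_of_mem hr
  have hrw : r ∣ w := (Nat.dvd_of_mem_primeFactors hr).trans (upp_dvd_self _ _)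
  have hi1 : 1 ≤ i := by have := hZ.hi0; have := hnd.1; omega
  have hi0 : (0 : ℝ) < i := by exact_mod_cast hi1
  have hZc : ∀ k, Z.cut k = 2 ^ (A * k) := fun k => by rw [hW.cut, hcut]
  set S := (upp (Z.cut i) w).primeFactors with hS
  set τ : ℝ := Z.tt i w * ((∏ p ∈ S.filter (· < r), p : ℕ) : ℝ) with hτ
  have hSp : ∀ p ∈ S, p.Prime := fun p hp => Nat.prime_of_mem_primeFactors hp
  have h1S : (1 : ℝ) ≤ ((∏ p ∈ S.filter (· < r), p : ℕ) : ℝ) := by
    have : 0 < ∏ p ∈ S.filter (· < r), p :=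
      prod_pos fun p hp => (hSp p (mem_filter.1 hp).1).pos
    exact_mod_cast this
  have htt : (2 : ℝ) ^ i ≤ Z.tt i w := GWbirthx516.tt_ge hZ hnd
  have hτ2 : (2 : ℝ) ^ i ≤ τ := by
    have : (0 : ℝ) < Z.tt i w := lt_of_lt_of_le (by positivity) htt
    rw [hτ]
    nlinarith
  -- the prefix below `r`
  have hτe : τ = ((Z.G0 * low (r - 1) w : ℕ) : ℝ) / Z.L := by
    have e1 : low (r - 1) w = low (Z.cut i) w * ∏ p ∈ S.filter (· < r), p := by
      rw [DictAx20.low_prod hsq (by omega : Z.cut i ≤ r - 1)]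
      congr 1
      refine prod_congr ?_ fun _ _ => rfl
      ext p
      simp only [mem_filter]
      have := hrp.pos
      constructor
      · rintro ⟨h1, h2⟩; exact ⟨h1, by omega⟩
      · rintro ⟨h1, h2⟩; exact ⟨h1, by omega⟩
    rw [hτ, e1]
    unfold World.tt World.e
    push_cast
    ring
  have hpt : pt Z.γ S r = (upp r w : ℝ) * P.γ := by
    unfold pt
    rw [← hW.γ, DictAx20.upp_prod hsq hri.le]
  have hsc : sc (Z.tt i w) S r = ((Z.G0 * low r w : ℕ) : ℝ) / Z.L := by
    unfold sc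
    rw [DictAx20.low_prod hsq hri.le]
    unfold World.tt World.e
    push_cast
    ring
  set j := lv τ with hj
  have hij : i ≤ j := by
    have h1 : (1 : ℝ) ≤ τ := le_trans (one_le_pow₀ (by norm_num)) hτ2
    have h2 := lt_lv τ
    have h3 : (2 : ℝ) ^ i < 2 ^ (lv τ + 1) := lt_of_le_of_lt hτ2 h2
    have h4 : i < lv τ + 1 := (pow_lt_pow_iff_right₀ (by norm_num : (1 : ℝ) < 2)).1 h3
    omega
  have hj0 : (0 : ℝ) < j := by
    have : 0 < j := by omega
    exact_mod_cast this
  have hA0 : (0 : ℝ) < A := by exact_mod_cast hA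
  -- a nominal coin outside the window and the block of `r` is a coin
  have key : ∀ q ∈ G, q.Prime ∧ Z.cut j < q ∧ q < r ∧ (q ≤ Z.cut (j + s) ∨ r ≤ 2 * q) := by
    intro q hq
    have h1 := hG hq
    unfold nc at h1
    rw [mem_filter] at h1
    obtain ⟨h2, h3, h4, h5⟩ := h1
    have hqp := Nat.prime_of_mem_primeFactors h2
    have h6 : Z.cut j < q := by
      have : (Z.cut j : ℝ) < q := h3
      exact_mod_cast this
    refine ⟨hqp, h6, h4, ?_⟩
    by_contra hcon
    push Not at hcon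
    obtain ⟨h7, h8⟩ := hcon
    apply hGc q hq
    rw [hW.coin]
    refine ⟨r, hrp, hrw, h4, ?_, ?_, ?_⟩
    · have e : Nat.log 2 ⌊((Z.G0 * low (r - 1) w : ℕ) : ℝ) / Z.L⌋₊ = j := by
        rw [← hτe]
        rfl
      rw [e, ← hW.cut]
      exact h7
    · -- the block of `q`
      have h9 : P.Y (P.blk q - 1) < q :=
        DictAx20.Y_lt (by rw [hY]; norm_num) hqp.two_le
      rw [hY] at h9 ⊢
      simp only at h9 ⊢
      rcases Nat.eq_zero_or_pos (P.blk q) with h10 | h10
      · rw [h10]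
        have := hrp.two_le
        rw [pow_zero]
        omega
      · have e : P.blk q = (P.blk q - 1) + 1 := by omega
        rw [e, pow_succ]
        omega
    · rw [← hpt, ← hsc]
      exact h5
  have hGsub : G ⊆ G.filter (fun q => q ≤ Z.cut (j + s)) ∪ G.filter (fun q => r ≤ 2 * q) := by
    intro q hq
    rw [mem_union, mem_filter, mem_filter]
    rcases (key q hq).2.2.2 with h | h
    · exact Or.inl ⟨hq, h⟩
    · exact Or.inr ⟨hq, h⟩
  have h1 : ∑ q ∈ G.filter (fun q => q ≤ Z.cut (j + s)), (1 : ℝ) / q ≤ 9 * s / i := by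
    have h2 := window_sum (a := A * j) (b := A * (j + s))
      (Nat.mul_pos hA (by omega)) (Nat.mul_le_mul_left _ (by omega))
      (G.filter (fun q => q ≤ Z.cut (j + s))) fun q hq => by
        rw [mem_filter] at hq
        have h3 := key q hq.1
        refine ⟨h3.1, ?_, ?_⟩
        · rw [← hZc]; exact h3.2.1
        · rw [← hZc]; exact hq.2
    refine h2.trans ?_
    have e : 9 * (((A * (j + s) : ℕ) : ℝ) - ((A * j : ℕ) : ℝ)) / ((A * j : ℕ) : ℝ) = 9 * s / j := by
      push_cast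
      field_simp
      ring
    rw [e]
    have hij' : (i : ℝ) ≤ j := by exact_mod_cast hij
    exact div_le_div_of_nonneg_left (by positivity) hi0 hij'
  have h2 : ∑ q ∈ G.filter (fun q => r ≤ 2 * q), (1 : ℝ) / q ≤ 9 / i := by
    have h3 := F5bx20.sum_half hrp.two_le (G.filter (fun q => r ≤ 2 * q)) fun q hq => by
      rw [mem_filter] at hq
      have h4 := key q hq.1
      exact ⟨h4.1, hq.2, h4.2.2.1.le⟩
    refine h3.trans ?_
    have h5 : (2 : ℝ) ^ (A * i) ≤ r := by
      have : Z.cut i ≤ r := hri.le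
      rw [hZc] at this
      exact_mod_cast this
    have h6 : (A : ℝ) * i * Real.log 2 ≤ Real.log r := by
      have := Real.log_le_log (by positivity) h5
      rw [Real.log_pow] at this
      push_cast at this
      exact this
    have h7 : (0.6931471803 : ℝ) < Real.log 2 := Real.log_two_gt_d9
    have h8 : (1 : ℝ) ≤ A := by exact_mod_cast hA
    have h9 : (i : ℝ) * Real.log 2 ≤ Real.log r := by
      refine le_trans ?_ h6
      have : 0 ≤ (i : ℝ) * Real.log 2 := by positivity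
      nlinarith
    rw [div_le_div_iff₀ (by nlinarith) hi0]
    nlinarith
  calc ∑ q ∈ G, (1 : ℝ) / q
      ≤ ∑ q ∈ G.filter (fun q => q ≤ Z.cut (j + s)) ∪ G.filter (fun q => r ≤ 2 * q),
        (1 : ℝ) / q := sum_le_sum_of_subset_of_nonneg hGsub fun _ _ _ => by positivity
    _ ≤ ∑ q ∈ G.filter (fun q => q ≤ Z.cut (j + s)), (1 : ℝ) / q +
        ∑ q ∈ G.filter (fun q => r ≤ 2 * q), (1 : ℝ) / q := by
        rw [← sum_union_inter]
        exact le_add_of_nonneg_right (sum_nonneg fun _ _ => by positivity)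
    _ ≤ 9 * s / i + 9 / i := add_le_add h1 h2
    _ ≤ 18 * ((s : ℝ) + 1) / ((i : ℝ) + 1) := by
        have hi1' : (1 : ℝ) ≤ i := by exact_mod_cast hi1
        rw [← add_div, div_le_div_iff₀ hi0 (by positivity)]
        have : (0 : ℝ) ≤ s := Nat.cast_nonneg _
        nlinarith

/-- **the natural hypothesis per prefix in the world of the nominal coins** -/
theorem hypT_WV (A : ℕ) (hA : 32 ≤ A) : ∃ (C1 c : ℝ) (m : ℕ), 0 < C1 ∧ 0 < c ∧
    ∀ (Z : World) (P : Par) (s : ℕ), Z.Ok → WV Z P (1 / (4 * (A : ℝ))) s →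
      (∀ k, P.cut k = 2 ^ (A * k)) → (P.Y = fun k => 2 ^ k) →
      (∀ k, Z.i0 ≤ k → 3 * ((2 : ℝ) ^ k) ^ (1 / (4 * (A : ℝ))) ≤ Z.θ k) → m ≤ Z.i0 →
      HDx529.HypT Z C1 c (18 * ((s : ℝ) + 1)) := by
  obtain ⟨C1, c, m, hC, hc, h⟩ := hypT_world A hA
  refine ⟨C1, c, m, hC, hc, fun Z P s hZ hW hcut hY hθ hm => ?_⟩
  exact h Z hZ (fun k => by rw [hW.cut, hcut]) hθ hm _ (by positivity)
    (err_of_WV hZ hW (by omega) hcut hY)

end Crest.Agent.R4C.ErrNx516
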