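import Crest.Agent.R4C.F5d_634

/-!
# Row 4, GW section: natural mass of the heavy words in a cell (helper634)

`HvyR F B L A R i b` : some full dyadic block above `2^(A i)` with short prefix (size factor `R`)
is heavy: `ThS > V^(δ/ε)`.
* `exc_cell2` : `exc_cell` for blocks below and above the cut of the cell.
* `exc_row` : `ν(Cell ∩ HvyR (i-1)) ≤ ν(Cell) · C R 2^(-2i)`, cell at the cut `2^(A i)`.
-/

set_option autoImplicit false

open Finset

namespace Crest.Agent.R4C.ExcRowx634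

open Crest.Agent.R4C.Basex935 Crest.Agent.R4C.Cutx50 Crest.Agent.R4C.Lawx69
  Crest.Agent.R4C.FLDefx935 Crest.Agent.R4C.FLShx326 Crest.Agent.R4C.NodeMassx634
  Crest.Agent.R4C.Rulex945 Crest.Agent.R4C.PureClsx863 Crest.Agent.R4C.NodeMassRx634
  Crest.Agent.R4C.Spinex946 Crest.Agent.R4C.F5dx634
open Crest.Agent.R4C.FLExx326 (ind ind_nonneg)

/-! ### exceptions in a cell, blocks below the cut included -/

lemma uu_self {M : ℕ} (hM : 0 < M) {F : FL M} {x b : ℕ} (hb : b ∣ M) (hell : F.ell x b = 1) :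
    F.uu x b = low x b * F.cen x b :=
  (cell_cen hM hb hb le_rfl (self_mem_Cell hM hb hell)).2

lemma uu_cell {M : ℕ} (hM : 0 < M) {F : FL M} {x b c : ℕ} (hb : b ∣ M) (hell : F.ell x b = 1)
    (hc : c ∈ Cell F x b) : F.uu x c = F.uu x b := by
  have hcM : c ∣ M := (mem_Cell.1 hc).1.1
  rw [(cell_cen hM hb hcM le_rfl hc).2, uu_self hM hb hell, ((mem_Cell_iff hM hb hcM).1 hc).1]

open Classical in
/-- heavy exceptions in a cell, general first block -/
theorem exc_cell2 {M : ℕ} (hM : 0 < M) {F : FL M} {B : Finset ℕ} (hB : B ⊆ M.divisors)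
    {A s : ℝ} (hS : NodeShares F B A s) {x0 : ℕ}
    (hq : ∀ q : ℕ, q.Prime → x0 < q → 1 / (q : ℝ) ≤ A * (q : ℝ) ^ (-s))
    {x b : ℕ} (hb : b ∣ M) (hell : F.ell x b = 1) (hx0 : x0 ≤ x) {L : ℝ} (hL : 0 ≤ L)
    {h H : ℕ → ℝ} {k0 : ℕ} (K : ℕ)
    (hu : ∀ k, k0 ≤ k → 2 ^ k < x → (F.uu x b : ℝ) ≤ h k * L) (hh : ∀ k, 0 ≤ h k)
    (hH : ∀ k, 0 < H k) :
    ∑ c ∈ (Cell F x b).filter (fun c => ExcF F (ind B) L h H k0 K c), nu M c ≤
      cm F x b * (L * ∑ c ∈ B, nu M c) *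
        ∑ k ∈ Finset.Ico k0 K, h k / H k * (k + 1 + 1 / Vm (low x M) (low x b)) := by
  set V := Vm (low x M) (low x b) with hVdef
  have hV0 : 0 < V := Vm_pos _
  have hcm := cm_nonneg F x b
  have hB0 : 0 ≤ ∑ c ∈ B, nu M c := Finset.sum_nonneg fun _ _ => nu_nonneg _ _
  let E : ℕ → ℕ → ℕ → Prop := fun k y c => (F.uu y c : ℝ) ≤ h k * L ∧
    H k ≤ (low y c : ℝ) * mass M (ind B) y (upp y c)
  let J : ℕ → ℕ → Prop := fun k c => (F.uu x c : ℝ) ≤ h k * L ∧
    H k * V ≤ (low x c : ℝ) * mass M (ind B) x (upp x c)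
  have hpE : ∀ k l c, 0 ≤ (if x ≤ 2 ^ l ∧ E k (2 ^ l) c then nu M c else 0) := fun k l c => by
    split_ifs
    · exact nu_nonneg _ _
    · exact le_rfl
  have hpJ : ∀ k c, 0 ≤ (if J k c then nu M c else 0) := fun k c => by
    split_ifs
    · exact nu_nonneg _ _
    · exact le_rfl
  have hptw : ∀ c ∈ Cell F x b, (if ExcF F (ind B) L h H k0 K c then nu M c else 0) ≤
      ∑ k ∈ Finset.Ico k0 K, (∑ l ∈ Finset.range (k + 1),
        (if x ≤ 2 ^ l ∧ E k (2 ^ l) c then nu M c else 0) + (if J k c then nu M c else 0)) := by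
    intro c hc
    have hcM : c ∣ M := (mem_Cell.1 hc).1.1
    have hlowc : low x c = low x b := ((mem_Cell_iff hM hb hcM).1 hc).1
    have hpos : ∀ k ∈ Finset.Ico k0 K, 0 ≤ ∑ l ∈ Finset.range (k + 1),
        (if x ≤ 2 ^ l ∧ E k (2 ^ l) c then nu M c else 0) + (if J k c then nu M c else 0) :=
      fun k _ => add_nonneg (Finset.sum_nonneg fun l _ => hpE k l c) (hpJ k c)
    split_ifs with hE
    · obtain ⟨k, hk1, hk2, huk, l, hl, hth⟩ := hE
      refine le_trans ?_ (Finset.single_le_sum hpos (Finset.mem_Ico.2 ⟨hk1, hk2⟩))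
      by_cases hxl : x ≤ 2 ^ l
      · have hul : F.uu (2 ^ l) c ∣ F.uu (2 ^ k) c :=
          FL.uu_dvd_uu (Nat.pow_le_pow_right (by norm_num) hl)
        have hul' : (F.uu (2 ^ l) c : ℝ) ≤ F.uu (2 ^ k) c := by
          exact_mod_cast Nat.le_of_dvd (FL.uu_pos _ _) hul
        have h1 := Finset.single_le_sum (fun l _ => hpE k l c)
          (Finset.mem_range.2 (Nat.lt_succ_of_le hl))
        rw [if_pos ⟨hxl, hul'.trans huk, hth⟩] at h1
        have := hpJ k c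
        linarith
      · have huc : (F.uu x c : ℝ) ≤ h k * L := by
          by_cases hxk : x ≤ 2 ^ k
          · have hul : F.uu x c ∣ F.uu (2 ^ k) c := FL.uu_dvd_uu hxk
            have hul' : (F.uu x c : ℝ) ≤ F.uu (2 ^ k) c := by
              exact_mod_cast Nat.le_of_dvd (FL.uu_pos _ _) hul
            exact hul'.trans huk
          · rw [uu_cell hM hb hell hc]
            exact hu k hk1 (not_le.1 hxk)
        have h2 := low_point hM (ind_nonneg B) hcM (show 2 ^ l ≤ x by omega)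
        rw [hlowc, ← hVdef] at h2
        have h3 : H k * V ≤ (low x c : ℝ) * mass M (ind B) x (upp x c) := by
          rw [hlowc]
          exact (mul_le_mul_of_nonneg_right hth hV0.le).trans h2
        have hJ : J k c := ⟨huc, h3⟩
        rw [if_pos hJ]
        have := Finset.sum_nonneg (s := Finset.range (k + 1)) (fun l _ => hpE k l c)
        linarith
    · exact Finset.sum_nonneg hpos
  have hcell : ∀ k y, x0 ≤ y → x ≤ y → ∑ c ∈ Cell F x b, (if E k y c then nu M c else 0) ≤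
      cm F x b * (L * ∑ c ∈ B, nu M c) * (h k / H k) := by
    intro k y h1 h2
    rw [← Finset.sum_filter]
    exact cell_markov hM hB hS hq hb h1 h2 hL (hh k) (hH k)
  calc ∑ c ∈ (Cell F x b).filter (fun c => ExcF F (ind B) L h H k0 K c), nu M c
      = ∑ c ∈ Cell F x b, (if ExcF F (ind B) L h H k0 K c then nu M c else 0) :=
        Finset.sum_filter _ _
    _ ≤ ∑ c ∈ Cell F x b, ∑ k ∈ Finset.Ico k0 K, (∑ l ∈ Finset.range (k + 1),
        (if x ≤ 2 ^ l ∧ E k (2 ^ l) c then nu M c else 0) + (if J k c then nu M c else 0)) :=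
        Finset.sum_le_sum hptw
    _ = ∑ k ∈ Finset.Ico k0 K, (∑ l ∈ Finset.range (k + 1),
        ∑ c ∈ Cell F x b, (if x ≤ 2 ^ l ∧ E k (2 ^ l) c then nu M c else 0) +
        ∑ c ∈ Cell F x b, (if J k c then nu M c else 0)) := by
        rw [Finset.sum_comm]
        refine Finset.sum_congr rfl fun k _ => ?_
        rw [Finset.sum_add_distrib, Finset.sum_comm]
    _ ≤ ∑ k ∈ Finset.Ico k0 K, (∑ l ∈ Finset.range (k + 1),
        cm F x b * (L * ∑ c ∈ B, nu M c) * (h k / H k) +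
        cm F x b * (L * ∑ c ∈ B, nu M c) * (h k / (H k * V))) := by
        refine Finset.sum_le_sum fun k _ => add_le_add (Finset.sum_le_sum fun l _ => ?_) ?_
        · by_cases hxl : x ≤ 2 ^ l
          · refine le_trans (le_of_eq ?_) (hcell k (2 ^ l) (hx0.trans hxl) hxl)
            refine Finset.sum_congr rfl fun c _ => ?_
            simp only [hxl, true_and]
          · refine le_trans (le_of_eq (Finset.sum_eq_zero fun c _ => ?_)) ?_
            · rw [if_neg (fun h => hxl h.1)]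
            · exact mul_nonneg (mul_nonneg hcm (mul_nonneg hL hB0)) (div_nonneg (hh k) (hH k).le)
        · rw [← Finset.sum_filter]
          exact cell_markov hM hB hS hq hb hx0 le_rfl hL (hh k) (mul_pos (hH k) hV0)
    _ = _ := by
        rw [Finset.mul_sum (Finset.Ico k0 K)]
        refine Finset.sum_congr rfl fun k _ => ?_
        rw [Finset.sum_const, Finset.card_range, nsmul_eq_mul]
        have hk := (hH k).ne'
        push_cast
        field_simp

/-! ### heavy words with a size factor -/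

/-- heavy word, size factor `R` -/
def HvyR {M : ℕ} (F : FL M) (B : Finset ℕ) (L : ℝ) (A : ℕ) (R : ℝ) (i b : ℕ) : Prop :=
  ExcF F (ind B) L (fun k => 2 * R * (2 : ℝ) ^ (1 / (A : ℝ) * k)) (HU (5 / (A : ℝ))) (A * i + 1)
    (M + 1) b

lemma HvyR.mono {M : ℕ} {F : FL M} {B : Finset ℕ} {L : ℝ} {A i j b : ℕ} {R R' : ℝ}
    (h : HvyR F B L A R j b) (hL : 0 ≤ L) (hR : R ≤ R') (hij : i ≤ j) :
    HvyR F B L A R' i b := by
  obtain ⟨k, h1, h2, h3, h4⟩ := h
  refine ⟨k, le_trans (by have := Nat.mul_le_mul_left A hij; omega) h1, h2, h3.trans ?_, h4⟩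
  have : (0 : ℝ) ≤ (2 : ℝ) ^ (1 / (A : ℝ) * k) := by positivity
  refine mul_le_mul_of_nonneg_right ?_ hL
  refine mul_le_mul_of_nonneg_right ?_ this
  linarith

lemma hvyR_one {M : ℕ} {F : FL M} {B : Finset ℕ} {L : ℝ} {A i b : ℕ} :
    HvyR F B L A 1 i b ↔ Hvy F B L A i b := by
  unfold HvyR Hvy
  simp only [mul_one]

open Classical in
/-- **natural mass of the heavy words in a cell** -/
theorem exc_row {A : ℕ} (hA : 1 ≤ A) : ∃ C : ℝ, 0 ≤ C ∧
    ∀ (M : ℕ) (F : FL M) (B : Finset ℕ) (a s : ℝ) (x0 i b : ℕ) (L R : ℝ),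
      0 < M → B ⊆ M.divisors → NodeShares F B a s →
      (∀ q : ℕ, q.Prime → x0 < q → 1 / (q : ℝ) ≤ a * (q : ℝ) ^ (-s)) →
      x0 ≤ 2 ^ (A * i) → 1 ≤ i → b ∣ M → F.ell (2 ^ (A * i)) b = 1 → 0 ≤ L → 0 ≤ R →
      L * ∑ c ∈ B, nu M c ≤ 1 → (F.uu (2 ^ (A * i)) b : ℝ) ≤ R * 2 ^ i * L →
      ∑ c ∈ (Cell F (2 ^ (A * i)) b).filter (fun c => HvyR F B L A R (i - 1) c), nu M c ≤
        cm F (2 ^ (A * i)) b * (C * R * (2 : ℝ) ^ (-(2 * (i : ℝ)))) := by
  have hA0 : (0 : ℝ) < A := by exact_mod_cast hA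
  obtain ⟨C, hC, hsum⟩ := exists_sum (σ := 4 / (A : ℝ)) (D := Real.exp 13 * A) (by positivity)
    (by positivity)
  refine ⟨2 * (2 : ℝ) ^ (5 / (A : ℝ)) * C * 4, by positivity,
    fun M F B a s x0 i b L R hM hB hS hq hx0 hi hb hell hL hR hm hub => ?_⟩
  set x := 2 ^ (A * i) with hx
  set k0 := A * (i - 1) + 1 with hk0
  have hi1 : ((i - 1 : ℕ) : ℝ) = (i : ℝ) - 1 := by
    rw [Nat.cast_sub hi]; norm_num
  have hk0R : (k0 : ℝ) = A * ((i : ℝ) - 1) + 1 := by
    rw [hk0]; push_cast; rw [hi1]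
  have hpowk : ∀ k : ℕ, k0 ≤ k → (2 : ℝ) ^ i ≤ 2 * (2 : ℝ) ^ (1 / (A : ℝ) * k) := by
    intro k hk
    have h1 : (k0 : ℝ) ≤ k := by exact_mod_cast hk
    have h2 : (i : ℝ) ≤ 1 + 1 / (A : ℝ) * k := by
      rw [one_div_mul_eq_div]
      have h3 : (i : ℝ) - 1 ≤ (k : ℝ) / A := by
        rw [le_div_iff₀ hA0]
        rw [hk0R] at h1
        linarith
      linarith
    calc (2 : ℝ) ^ i = (2 : ℝ) ^ (i : ℝ) := (Real.rpow_natCast _ _).symm
      _ ≤ (2 : ℝ) ^ (1 + 1 / (A : ℝ) * k) :=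
          Real.rpow_le_rpow_of_exponent_le (by norm_num) h2
      _ = _ := by rw [Real.rpow_add (by norm_num), Real.rpow_one]
  have h1 := exc_cell2 hM hB hS hq hb hell hx0 hL
    (h := fun k => 2 * R * (2 : ℝ) ^ (1 / (A : ℝ) * k)) (H := HU (5 / (A : ℝ))) (k0 := k0) (M + 1)
    (fun k hk _ => hub.trans (by
      refine mul_le_mul_of_nonneg_right ?_ hL
      have := mul_le_mul_of_nonneg_left (hpowk k hk) hR
      linarith)) (fun k => by positivity) (HU_pos _)
  refine h1.trans ?_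
  have hcm := cm_nonneg F x b
  rw [mul_assoc]
  refine mul_le_mul_of_nonneg_left ?_ hcm
  have hAi : 1 ≤ A * i := Nat.mul_pos hA hi
  have hV := Vm_low_ge hM hb hAi (le_refl x)
  have hDk : Real.exp 13 * ((A * i : ℕ) : ℝ) ≤ Real.exp 13 * A * k0 := by
    rw [hk0R]
    push_cast
    have hiR : (1 : ℝ) ≤ i := by exact_mod_cast hi
    have hAR : (1 : ℝ) ≤ A := by exact_mod_cast hA
    have h2 : (i : ℝ) ≤ A * ((i : ℝ) - 1) + 1 := by nlinarith
    rw [mul_assoc]
    refine mul_le_mul_of_nonneg_left ?_ (Real.exp_pos _).le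
    exact mul_le_mul_of_nonneg_left h2 hA0.le
  have hbig : ∑ k ∈ Finset.Ico k0 (M + 1), 2 * R * (2 : ℝ) ^ (1 / (A : ℝ) * k) /
      HU (5 / (A : ℝ)) k * ((k : ℝ) + 1 + 1 / Vm (low x M) (low x b)) ≤
      2 * (2 : ℝ) ^ (5 / (A : ℝ)) * C * 4 * R * (2 : ℝ) ^ (-(2 * (i : ℝ))) := by
    calc ∑ k ∈ Finset.Ico k0 (M + 1), 2 * R * (2 : ℝ) ^ (1 / (A : ℝ) * k) /
        HU (5 / (A : ℝ)) k * ((k : ℝ) + 1 + 1 / Vm (low x M) (low x b))
        ≤ ∑ k ∈ Finset.Ico k0 (M + 1), (2 * R * (2 : ℝ) ^ (5 / (A : ℝ))) *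
          ((2 : ℝ) ^ (-(4 / (A : ℝ) * k)) * ((k : ℝ) + 1 + Real.exp 13 * A * k0)) := by
          refine Finset.sum_le_sum fun k hk => ?_
          rw [Finset.mem_Ico] at hk
          have hk1 : 1 ≤ k := by omega
          have e : HU (5 / (A : ℝ)) k = (2 : ℝ) ^ (5 / (A : ℝ) * k - 5 / (A : ℝ)) := by
            unfold HU
            push_cast
            rw [← Real.rpow_natCast, ← Real.rpow_mul (by norm_num), Nat.cast_sub hk1]
            congr 1
            push_cast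
            ring
          have h2 : (2 : ℝ) ^ (1 / (A : ℝ) * k) / HU (5 / (A : ℝ)) k =
              (2 : ℝ) ^ (5 / (A : ℝ)) * (2 : ℝ) ^ (-(4 / (A : ℝ) * k)) := by
            rw [e, ← Real.rpow_sub (by norm_num), ← Real.rpow_add (by norm_num)]
            congr 1
            ring
          have h3 : (k : ℝ) + 1 + 1 / Vm (low x M) (low x b) ≤
              (k : ℝ) + 1 + Real.exp 13 * A * k0 := by linarith
          calc 2 * R * (2 : ℝ) ^ (1 / (A : ℝ) * k) / HU (5 / (A : ℝ)) k *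
              ((k : ℝ) + 1 + 1 / Vm (low x M) (low x b))
              = 2 * R * ((2 : ℝ) ^ (1 / (A : ℝ) * k) / HU (5 / (A : ℝ)) k) *
                ((k : ℝ) + 1 + 1 / Vm (low x M) (low x b)) := by ring
            _ ≤ 2 * R * ((2 : ℝ) ^ (1 / (A : ℝ) * k) / HU (5 / (A : ℝ)) k) *
                ((k : ℝ) + 1 + Real.exp 13 * A * k0) :=
                mul_le_mul_of_nonneg_left h3 (by
                  have := HU_pos (5 / (A : ℝ)) k
                  positivity)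
            _ = _ := by rw [h2]; ring
      _ = (2 * R * (2 : ℝ) ^ (5 / (A : ℝ))) * ∑ k ∈ Finset.Ico k0 (M + 1),
          ((2 : ℝ) ^ (-(4 / (A : ℝ) * k)) * ((k : ℝ) + 1 + Real.exp 13 * A * k0)) := by
          rw [Finset.mul_sum]
      _ ≤ (2 * R * (2 : ℝ) ^ (5 / (A : ℝ))) * (C * (2 : ℝ) ^ (-(4 / (A : ℝ) * k0 / 2))) :=
          mul_le_mul_of_nonneg_left (hsum k0 (M + 1)) (by positivity)
      _ ≤ (2 * R * (2 : ℝ) ^ (5 / (A : ℝ))) * (C * (4 * (2 : ℝ) ^ (-(2 * (i : ℝ))))) := by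
          refine mul_le_mul_of_nonneg_left (mul_le_mul_of_nonneg_left ?_ hC) (by positivity)
          have e4 : (4 : ℝ) = (2 : ℝ) ^ (2 : ℝ) := by norm_num
          rw [e4, ← Real.rpow_add (by norm_num)]
          refine Real.rpow_le_rpow_of_exponent_le (by norm_num) ?_
          rw [← e4, hk0R]
          have e5 : 4 / (A : ℝ) * (A * ((i : ℝ) - 1) + 1) / 2 = 2 * ((i : ℝ) - 1) + 2 / A := by
            field_simp
            ring
          rw [e5]
          have : 0 ≤ 2 / (A : ℝ) := by positivity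
          linarith
      _ = _ := by ring
  have hm0 : 0 ≤ L * ∑ c ∈ B, nu M c :=
    mul_nonneg hL (Finset.sum_nonneg fun _ _ => nu_nonneg _ _)
  have hS0 : 0 ≤ ∑ k ∈ Finset.Ico k0 (M + 1), 2 * R * (2 : ℝ) ^ (1 / (A : ℝ) * k) /
      HU (5 / (A : ℝ)) k * ((k : ℝ) + 1 + 1 / Vm (low x M) (low x b)) := by
    refine Finset.sum_nonneg fun k _ => ?_
    have h2 := HU_pos (5 / (A : ℝ)) k
    have h3 := (Vm_pos (M := low x M) (low x b)).le
    positivity
  calc (L * ∑ c ∈ B, nu M c) *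
        ∑ k ∈ Finset.Ico k0 (M + 1), 2 * R * (2 : ℝ) ^ (1 / (A : ℝ) * k) /
        HU (5 / (A : ℝ)) k * ((k : ℝ) + 1 + 1 / Vm (low x M) (low x b))
      ≤ 1 * ∑ k ∈ Finset.Ico k0 (M + 1), 2 * R * (2 : ℝ) ^ (1 / (A : ℝ) * k) /
        HU (5 / (A : ℝ)) k * ((k : ℝ) + 1 + 1 / Vm (low x M) (low x b)) :=
        mul_le_mul_of_nonneg_right hm hS0
    _ ≤ _ := by rw [one_mul]; exact hbig

end Crest.Agent.R4C.ExcRowx634
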