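import Crest.Agent.R4C.GWdef_982

/-!
# (F5)(a) of the scalar GW section (982's skeleton): two later births and few coins imply `Bad`
(helper726)

World `Z` of `GWdef_982`, word `w ∣ N`, node index `i` of `w`, `z = zone i w`.
* `core_of_Y` : the combinatorics (no coins): a later node index `j` with few coins in
  `(cut (bi i w), cut j]`, `mn S ≤ cut j`, and `On K1` at `mn S` implies lost at `ps ≤ cut j`;
* `bad_of_Y_sum` : with the coin count of one gap as hypothesis (20's (b3));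
* `bad_of_Y` : if `upp (cut i) w` is squarefree, `0 ≤ s ≤ 1/2`, `Y z w ≤ s` then the letter set
  `primeFactors (upp (cut i) w)` is `NHx656.Bad` with coin mass `2 s`, at the scale `t = tt i w`,
  the activation cut `τ ↦ cut ⌊log₂ τ⌋`, or some nominal coin of `w` is not an actual coin;
* `bad_of_Y_safe` : only the safe nominal coins are coins, the others have mass `≤ u`.
No hypothesis on cells, no hypothesis `hasPrev`; the only inputs on the constants are `Ext`.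
-/

set_option autoImplicit false

open Finset
open Crest.Agent.R4C.Basex935 Crest.Agent.R4C.Cutx50 Crest.Agent.R4C.PrefixMx882
open Crest.Agent.R4C.NHx656

namespace Crest.Agent.R4C.F5ax726

/-! ### cutting -/

lemma upp_low_comm {x y M : ℕ} : upp y (low x M) = low x (upp y M) := by
  refine Nat.eq_of_factorization_eq (upp_pos _ _).ne' (low_pos _ _).ne' fun p => ?_
  rw [fact_upp, fact_low, fact_low, fact_upp]
  by_cases h1 : p ≤ y <;> by_cases h2 : p ≤ x <;> simp [h1, h2]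

lemma low_split {x y b : ℕ} (h : x ≤ y) : low y b = low x b * low y (upp x b) := by
  have h1 := low_mul_upp x (b := low y b) (low_pos y b).ne'
  rw [low_low h, upp_low_comm] at h1
  exact h1.symm

lemma part_sqf (S : ℕ → Prop) [DecidablePred S] {b : ℕ} (hb : Squarefree b) :
    part S b = ∏ p ∈ b.primeFactors.filter S, p := by
  unfold part
  refine prod_congr rfl fun p hp => ?_
  rw [mem_filter] at hp
  rw [Nat.factorization_eq_one_of_squarefree hb (Nat.prime_of_mem_primeFactors hp.1)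
    (Nat.dvd_of_mem_primeFactors hp.1), pow_one]

end Crest.Agent.R4C.F5ax726

namespace Crest.Agent.R4C.GWdefx982.World

open Crest.Agent.R4C.F5ax726

variable (Z : World)

/-- the letters of `w` above the cut `i` -/
noncomputable def Lt (i w : ℕ) : Finset ℕ := (upp (Z.cut i) w).primeFactors

/-- activation cut at the scale `τ` -/
noncomputable def cutf (τ : ℝ) : ℝ := (Z.cut ⌊Real.logb 2 τ⌋₊ : ℕ)

/-- further hypotheses on the constants of the world -/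
structure Ext (δ : ℝ) : Prop where
  hcut2 : ∀ i, Z.i0 ≤ i → 2 ^ (i + 1) ≤ Z.cut i
  hθK : ∀ i, Z.i0 ≤ i → 3 * ((2 : ℝ) ^ (i + 1)) ^ δ ≤ Z.θ i
  hδ : 0 ≤ δ

variable {Z}

lemma mem_Lt {i w p : ℕ} : p ∈ Z.Lt i w ↔ p.Prime ∧ Z.cut i < p ∧ w.factorization p ≠ 0 := by
  unfold Lt
  rw [← Nat.support_factorization, Finsupp.mem_support_iff, fact_upp]
  constructor
  · intro h
    by_cases h1 : p ≤ Z.cut i
    · simp [h1] at h
    · rw [if_pos h1] at h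
      refine ⟨?_, by omega, h⟩
      by_contra hp
      exact h (Nat.factorization_eq_zero_of_not_prime _ hp)
  · rintro ⟨_, h2, h3⟩
    rw [if_pos (by omega)]
    exact h3

section

variable {i j w : ℕ}

lemma tt_ge (hL : 0 < Z.L) (h : Z.nd i w) : (2 : ℝ) ^ i ≤ Z.tt i w := by
  unfold tt
  rw [le_div_iff₀ hL]
  exact h.2.1

lemma tt_lt (hL : 0 < Z.L) (h : Z.nd i w) : Z.tt i w < (2 : ℝ) ^ (i + 1) := by
  unfold tt
  rw [div_lt_iff₀ hL]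
  exact h.2.2

lemma tt_split (hij : Z.cut i ≤ Z.cut j) (hsq : Squarefree (upp (Z.cut i) w)) :
    Z.tt j w = Z.tt i w * ((∏ p ∈ (Z.Lt i w).filter (· ≤ Z.cut j), p : ℕ) : ℝ) := by
  unfold tt e Lt
  rw [low_split hij]
  have h1 : low (Z.cut j) (upp (Z.cut i) w) =
      ∏ p ∈ (upp (Z.cut i) w).primeFactors.filter (· ≤ Z.cut j), p :=
    part_sqf (fun p => p ≤ Z.cut j) hsq
  rw [h1]
  push_cast
  ring

lemma yy_split (hij : Z.cut i ≤ Z.cut j) (hsq : Squarefree (upp (Z.cut i) w)) :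
    Z.yy j w = ((∏ p ∈ (Z.Lt i w).filter (Z.cut j < ·), p : ℕ) : ℝ) * Z.γ := by
  unfold yy Lt
  rw [← upp_upp hij]
  have h1 : upp (Z.cut j) (upp (Z.cut i) w) =
      ∏ p ∈ (upp (Z.cut i) w).primeFactors.filter (fun p => ¬ p ≤ Z.cut j), p :=
    part_sqf (fun p => ¬ p ≤ Z.cut j) hsq
  rw [h1]
  simp only [not_le]

/-- between two nodes there is a letter -/
lemma exists_letter (hL : 0 < Z.L) (hcut : Monotone Z.cut) (hi : Z.nd i w) (hj : Z.nd j w)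
    (hij : i < j) (hsq : Squarefree (upp (Z.cut i) w)) :
    ((Z.Lt i w).filter (· ≤ Z.cut j)).Nonempty := by
  by_contra hc
  rw [not_nonempty_iff_eq_empty] at hc
  have h1 := tt_split (hcut hij.le) hsq
  rw [hc, prod_empty, Nat.cast_one, mul_one] at h1
  have h2 := tt_ge hL hj
  have h3 := tt_lt hL hi
  have h4 : (2 : ℝ) ^ (i + 1) ≤ 2 ^ j := pow_le_pow_right₀ (by norm_num) hij
  linarith

/-- the node `j` seen from its last letter -/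
lemma at_node (hL : 0 < Z.L) (hcut : Monotone Z.cut) (hi : Z.nd i w) (hj : Z.nd j w)
    (hij : i < j) (hsq : Squarefree (upp (Z.cut i) w)) :
    ∃ r ∈ Z.Lt i w, r ≤ Z.cut j ∧ Z.tt j w = sc (Z.tt i w) (Z.Lt i w) r ∧
      Z.yy j w = pt Z.γ (Z.Lt i w) r := by
  obtain ⟨r, hr, hmax⟩ := exists_max_image _ id (exists_letter hL hcut hi hj hij hsq)
  rw [mem_filter] at hr
  simp only [id] at hmax
  have e1 : (Z.Lt i w).filter (· ≤ Z.cut j) = (Z.Lt i w).filter (· ≤ r) := by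
    ext p
    simp only [mem_filter, and_congr_right_iff]
    intro hp
    constructor
    · intro h
      exact hmax p (mem_filter.2 ⟨hp, h⟩)
    · intro h
      exact h.trans hr.2
  have e2 : (Z.Lt i w).filter (Z.cut j < ·) = (Z.Lt i w).filter (r < ·) := by
    ext p
    simp only [mem_filter, and_congr_right_iff]
    intro hp
    constructor
    · intro h
      exact lt_of_le_of_lt hr.2 h
    · intro h
      by_contra hc
      exact absurd (hmax p (mem_filter.2 ⟨hp, not_lt.1 hc⟩)) (not_le.2 h)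
  refine ⟨r, hr.1, hr.2, ?_, ?_⟩
  · rw [tt_split (hcut hij.le) hsq, e1]
    rfl
  · rw [yy_split (hcut hij.le) hsq, e2]
    rfl

lemma one_le_tt (hL : 0 < Z.L) (hi : Z.nd i w) : 1 ≤ Z.tt i w :=
  le_trans (one_le_pow₀ (by norm_num)) (tt_ge hL hi)

/-- the first letter is at most the scale of a later node -/
lemma mn_lt (hL : 0 < Z.L) (hcut : Monotone Z.cut) (hi : Z.nd i w) (hj : Z.nd j w)
    (hij : i < j) (hsq : Squarefree (upp (Z.cut i) w)) :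
    (mn (Z.Lt i w) : ℝ) < 2 ^ (j + 1) := by
  obtain ⟨r, hr⟩ := exists_letter hL hcut hi hj hij hsq
  have h1 := tt_split (hcut hij.le) hsq
  have h2 : mn (Z.Lt i w) ≤ r := mn_le (mem_filter.1 hr).1
  have h3 : r ≤ ∏ p ∈ (Z.Lt i w).filter (· ≤ Z.cut j), p :=
    Nat.le_of_dvd (prod_pos fun p hp => (mem_Lt.1 (mem_filter.1 hp).1).1.pos) (dvd_prod_of_mem _ hr)
  have h4 : (mn (Z.Lt i w) : ℝ) ≤ ((∏ p ∈ (Z.Lt i w).filter (· ≤ Z.cut j), p : ℕ) : ℝ) := by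
    exact_mod_cast h2.trans h3
  have h5 := one_le_tt hL hi
  have h6 := tt_lt hL hj
  have h7 : (0 : ℝ) ≤ (mn (Z.Lt i w) : ℝ) := Nat.cast_nonneg _
  nlinarith

lemma prev_spec (h : Z.hasPrev j w) : Z.nd (Z.prev j w) w ∧ Z.prev j w < j := by
  classical
  obtain ⟨i', h1, h2⟩ := h
  have h3 := Nat.findGreatest_spec (P := fun i' => i' < j ∧ Z.nd i' w) (n := j) h1.le ⟨h1, h2⟩
  exact ⟨h3.2, h3.1⟩

lemma le_prev (h1 : i < j) (h2 : Z.nd i w) : i ≤ Z.prev j w := by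
  classical
  exact Nat.le_findGreatest (P := fun i' => i' < j ∧ Z.nd i' w) h1.le ⟨h1, h2⟩

lemma mem_S_self (hw : w ∣ Z.N) (hN : 0 < Z.N) (hj : Z.nd j w) : w ∈ Z.S (Z.lab j w) := by
  classical
  unfold S
  rw [mem_filter, Nat.mem_divisors]
  exact ⟨⟨hw, hN.ne'⟩, hj, rfl⟩

/-- a node whose last letter still carries the run centre is not a birth -/
lemma not_birth {δ : ℝ} (hZ : Z.Ok) (hX : Z.Ext δ) (hw : w ∣ Z.N) (hi : Z.nd i w)
    {j₁ j₂ : ℕ} (h1 : i < j₁) (h2 : j₁ < j₂) (hj₁ : Z.nd j₁ w) (hj₂ : Z.nd j₂ w)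
    (hsq : Squarefree (upp (Z.cut i) w))
    (hon : ∀ r ∈ Z.Lt i w, r ≤ Z.cut j₂ →
      On (NHx656.K1 δ (Z.Lt i w)) (pt Z.γ (Z.Lt i w) r) (sc (Z.tt i w) (Z.Lt i w) r)) :
    ¬ Z.birth j₂ w := by
  rintro ⟨_, hb⟩
  refine hb ⟨⟨j₁, h2, hj₁⟩, w, mem_S_self hw hZ.hN hj₂, ?_⟩
  obtain ⟨r, hr, hrc, e1, e2⟩ := at_node hZ.hL hZ.hcut hi hj₂ (h1.trans h2) hsq
  rw [e1, e2]
  refine (hon r hr hrc).mono ?_
  obtain ⟨h3, h4⟩ := prev_spec (Z := Z) (j := j₂) (w := w) ⟨j₁, h2, hj₁⟩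
  have h5 : j₁ ≤ Z.prev j₂ w := le_prev h2 hj₁
  have h6 := mn_lt hZ.hL hZ.hcut hi h3 (h1.trans_le h5) hsq
  refine le_trans ?_ (hX.hθK _ h3.1)
  unfold NHx656.K1
  refine mul_le_mul_of_nonneg_left ?_ (by norm_num)
  exact Real.rpow_le_rpow (Nat.cast_nonneg _) h6.le hX.hδ

lemma bi_lt {j₁ : ℕ} (hb : Z.birth j₁ w) (h : Z.bi i w < j₁) : i < j₁ := by
  classical
  by_contra hc
  have := Nat.le_findGreatest (P := fun i' => Z.birth i' w) (not_lt.1 hc) hb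
  exact absurd h (not_lt.2 this)

lemma nb_spec (h : Z.hasNb i w) : i < Z.nb i w ∧ Z.birth (Z.nb i w) w := by
  classical
  unfold nb
  rw [dif_pos h]
  have h1 := Nat.find_spec h
  exact ⟨h1.1, h1.2.2⟩

/-- letters below the scale are below the activation cut -/
lemma le_cutf {δ : ℝ} (hX : Z.Ext δ) {τ : ℝ} (hτ : (2 : ℝ) ^ Z.i0 ≤ τ) {p : ℕ}
    (hp : (p : ℝ) ≤ τ) : (p : ℝ) ≤ Z.cutf τ := by
  have hτ0 : 0 < τ := lt_of_lt_of_le (by positivity) hτ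
  have h1 : (Z.i0 : ℝ) ≤ Real.logb 2 τ := by
    rw [Real.le_logb_iff_rpow_le (by norm_num) hτ0, Real.rpow_natCast]
    exact hτ
  have h2 : Z.i0 ≤ ⌊Real.logb 2 τ⌋₊ := Nat.le_floor h1
  have h3 := hX.hcut2 _ h2
  have h4 : τ < (2 : ℝ) ^ (⌊Real.logb 2 τ⌋₊ + 1) := by
    have h5 := Nat.lt_floor_add_one (Real.logb 2 τ)
    rw [Real.logb_lt_iff_lt_rpow (by norm_num) hτ0] at h5
    have h6 : ((2 : ℝ) ^ ((⌊Real.logb 2 τ⌋₊ : ℝ) + 1)) = (2 : ℝ) ^ (⌊Real.logb 2 τ⌋₊ + 1) := by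
      rw [← Real.rpow_natCast]
      push_cast
      rfl
    rwa [h6] at h5
  unfold cutf
  have h7 : ((2 : ℝ) ^ (⌊Real.logb 2 τ⌋₊ + 1)) ≤ (Z.cut ⌊Real.logb 2 τ⌋₊ : ℕ) := by
    exact_mod_cast h3
  linarith

lemma cut_le_cutf (hcut : Monotone Z.cut) {τ : ℝ} (hτ : (2 : ℝ) ^ i ≤ τ) :
    (Z.cut i : ℝ) ≤ Z.cutf τ := by
  have hτ0 : 0 < τ := lt_of_lt_of_le (by positivity) hτ
  have h1 : (i : ℝ) ≤ Real.logb 2 τ := by
    rw [Real.le_logb_iff_rpow_le (by norm_num) hτ0, Real.rpow_natCast]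
    exact hτ
  unfold cutf
  exact_mod_cast hcut (Nat.le_floor h1)

end

/-- the coins of one gap are among the coins in `(cut a, cut b]` -/
lemma Wp_le_gap' {δ : ℝ} (hZ : Z.Ok) (hX : Z.Ext δ) {i w a b r : ℕ} (hi : Z.nd i w)
    (ha : a ≤ i) (hrb : r ≤ Z.cut b) {F : Finset ℕ}
    (hF : F ⊆ nc Z.cutf δ Z.γ (Z.tt i w) (Z.Lt i Z.N) (Z.Lt i w) r)
    (hcoin : ∀ q ∈ F, Z.coin w q) :
    Z.Wp (Z.cut a) (Z.cut b) w ≤ ∏ q ∈ F, (1 - 1 / (q : ℝ)) := by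
  classical
  unfold Wp
  have hsub : F ⊆ (free Z.N w).filter fun p => Z.cut a < p ∧ p ≤ Z.cut b ∧ Z.coin w p := by
    intro q hq
    have hc := hcoin q hq
    replace hq := hF hq
    unfold nc at hq
    rw [mem_filter] at hq
    obtain ⟨hqP, h1, h2, _⟩ := hq
    obtain ⟨hqp, hqi, hqN⟩ := mem_Lt.1 hqP
    have hfw : w.factorization q = 0 := by
      by_contra hne
      have hqS : q ∈ Z.Lt i w := mem_Lt.2 ⟨hqp, hqi, hne⟩
      have h3 : q ≤ ∏ p ∈ (Z.Lt i w).filter (· < r), p :=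
        Nat.le_of_dvd (prod_pos fun p hp => (mem_Lt.1 (mem_filter.1 hp).1).1.pos)
          (dvd_prod_of_mem _ (mem_filter.2 ⟨hqS, h2⟩))
      have h4 : (q : ℝ) ≤ ((∏ p ∈ (Z.Lt i w).filter (· < r), p : ℕ) : ℝ) := by exact_mod_cast h3
      have h5 := one_le_tt hZ.hL hi
      have h6 := tt_ge hZ.hL hi
      have h7 : (1 : ℝ) ≤ ((∏ p ∈ (Z.Lt i w).filter (· < r), p : ℕ) : ℝ) := by
        have h8 : (1 : ℝ) ≤ q := by exact_mod_cast hqp.one_lt.le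
        linarith
      have h8 : (2 : ℝ) ^ Z.i0 ≤ 2 ^ i := pow_le_pow_right₀ (by norm_num) hi.1
      have h9 := le_cutf hX (τ := Z.tt i w * ((∏ p ∈ (Z.Lt i w).filter (· < r), p : ℕ) : ℝ))
        (p := q) (by nlinarith) (by nlinarith)
      linarith
    rw [mem_filter]
    refine ⟨?_, ?_, h2.le.trans hrb, hc⟩
    · rw [mem_free, ← Nat.support_factorization, Finsupp.mem_support_iff]
      exact ⟨hqN, by omega⟩
    · exact lt_of_le_of_lt (hZ.hcut ha) hqi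
  rw [← prod_sdiff hsub]
  have h1 : ∏ p ∈ ((free Z.N w).filter fun p => Z.cut a < p ∧ p ≤ Z.cut b ∧ Z.coin w p) \
      F, (1 - 1 / (p : ℝ)) ≤ 1 :=
    prod_le_one (fun p _ => one_sub_nonneg p) fun p _ => one_sub_le_one p
  have h2 : 0 ≤ ∏ q ∈ F, (1 - 1 / (q : ℝ)) := prod_nonneg fun p _ => one_sub_nonneg p
  nlinarith

/-- all nominal coins of the gap before `r` -/
lemma Wp_le_gap {δ : ℝ} (hZ : Z.Ok) (hX : Z.Ext δ) {i w a b r : ℕ} (hi : Z.nd i w)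
    (ha : a ≤ i) (hrb : r ≤ Z.cut b)
    (hcoin : ∀ q ∈ nc Z.cutf δ Z.γ (Z.tt i w) (Z.Lt i Z.N) (Z.Lt i w) r, Z.coin w q) :
    Z.Wp (Z.cut a) (Z.cut b) w ≤
      ∏ q ∈ nc Z.cutf δ Z.γ (Z.tt i w) (Z.Lt i Z.N) (Z.Lt i w) r, (1 - 1 / (q : ℝ)) :=
  Wp_le_gap' hZ hX hi ha hrb subset_rfl hcoin

/-- few coins: `∏ (1 - 1/q) ≥ 1 - s` gives `∑ 1/q ≤ 2 s` -/
lemma sum_le_of_prod {F : Finset ℕ} {s : ℝ} (hs : 0 ≤ s) (hs2 : s ≤ 1 / 2)
    (h : 1 - s ≤ ∏ q ∈ F, (1 - 1 / (q : ℝ))) : ∑ q ∈ F, (1 : ℝ) / q ≤ 2 * s := by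
  have h1 : ∏ q ∈ F, (1 - 1 / (q : ℝ)) ≤ Real.exp (-∑ q ∈ F, (1 : ℝ) / q) := by
    rw [← sum_neg_distrib, Real.exp_sum]
    refine prod_le_prod (fun q _ => one_sub_nonneg q) fun q _ => ?_
    have := Real.add_one_le_exp (-(1 / (q : ℝ)))
    linarith
  have h2 : 1 - s ≤ Real.exp (-∑ q ∈ F, (1 : ℝ) / q) := h.trans h1
  have h3 : 0 < 1 - s := by linarith
  have h4 : Real.log (1 - s) ≤ -∑ q ∈ F, (1 : ℝ) / q := by
    rw [← Real.log_exp (-∑ q ∈ F, (1 : ℝ) / q)]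
    exact Real.log_le_log h3 h2
  have h5 := Real.one_sub_inv_le_log_of_pos h3
  have h6 : (1 - s)⁻¹ ≤ 1 + 2 * s := by
    rw [inv_le_iff_one_le_mul₀ h3]
    nlinarith
  linarith

lemma Wp_mono {a a' b w : ℕ} (h : a ≤ a') : Z.Wp a b w ≤ Z.Wp a' b w := by
  classical
  unfold Wp
  have hsub : ((free Z.N w).filter fun p => a' < p ∧ p ≤ b ∧ Z.coin w p) ⊆
      (free Z.N w).filter fun p => a < p ∧ p ≤ b ∧ Z.coin w p := by
    intro p hp
    rw [mem_filter] at hp ⊢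
    exact ⟨hp.1, lt_of_le_of_lt h hp.2.1, hp.2.2⟩
  rw [← prod_sdiff hsub]
  have h1 : ∏ p ∈ ((free Z.N w).filter fun p => a < p ∧ p ≤ b ∧ Z.coin w p) \
      ((free Z.N w).filter fun p => a' < p ∧ p ≤ b ∧ Z.coin w p), (1 - 1 / (p : ℝ)) ≤ 1 :=
    prod_le_one (fun p _ => one_sub_nonneg p) fun p _ => one_sub_le_one p
  have h2 : 0 ≤ ∏ p ∈ (free Z.N w).filter (fun p => a' < p ∧ p ≤ b ∧ Z.coin w p),
      (1 - 1 / (p : ℝ)) := prod_nonneg fun p _ => one_sub_nonneg p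
  nlinarith

/-- **combinatorial core of (F5)(a)**: `Y z w ≤ s < 1` gives a later node index `j` (the second next
birth) with few coins in `(cut (bi i w), cut j]`, and either the run centre does not exist at the
first letter, or it is lost at `ps ≤ cut j` -/
theorem core_of_Y {δ : ℝ} (hZ : Z.Ok) (hX : Z.Ext δ) {i w : ℕ} (hw : w ∣ Z.N) (hi : Z.nd i w)
    (hsq : Squarefree (upp (Z.cut i) w)) {s : ℝ} (hs : s < 1) (hY : Z.Y (Z.zone i w) w ≤ s) :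
    (Z.Lt i w).Nonempty ∧ ∃ j : ℕ, i < j ∧ 1 - s ≤ Z.Wp (Z.cut (Z.bi i w)) (Z.cut j) w ∧
      mn (Z.Lt i w) ≤ Z.cut j ∧
      (On (NHx656.K1 δ (Z.Lt i w)) (pt Z.γ (Z.Lt i w) (mn (Z.Lt i w)))
          (sc (Z.tt i w) (Z.Lt i w) (mn (Z.Lt i w))) →
        Lost δ Z.γ (Z.tt i w) (Z.Lt i w) ∧ ps δ Z.γ (Z.tt i w) (Z.Lt i w) ≤ Z.cut j) := by
  classical
  have hz1 : (Z.zone i w).1 = Z.bi i w := rfl
  unfold Y at hY
  rw [hz1] at hY
  split_ifs at hY with hnb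
  swap
  · linarith
  obtain ⟨hn1, hn2⟩ := hnb
  obtain ⟨a1, hb1⟩ := nb_spec hn1
  obtain ⟨a2, hb2⟩ := nb_spec hn2
  set j₁ := Z.nb (Z.bi i w) w with hj₁
  set j₂ := Z.nb j₁ w with hj₂
  have hij : i < j₁ := bi_lt hb1 a1
  obtain ⟨r0, hr0⟩ := exists_letter hZ.hL hZ.hcut hi hb1.1 hij hsq
  have hne : (Z.Lt i w).Nonempty := ⟨r0, (mem_filter.1 hr0).1⟩
  refine ⟨hne, j₂, hij.trans a2, by linarith,
    (mn_le (mem_filter.1 hr0).1).trans ((mem_filter.1 hr0).2.trans (hZ.hcut a2.le)), ?_⟩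
  intro _
  constructor
  · by_contra hl
    refine not_birth hZ hX hw hi hij a2 hb1.1 hb2.1 hsq (fun r hr _ => ?_) hb2
    by_contra hc
    exact hl ⟨r, hr, hc⟩
  · by_contra hc
    refine not_birth hZ hX hw hi hij a2 hb1.1 hb2.1 hsq (fun r hr hrc => ?_) hb2
    exact on_of_lt_ps hr (lt_of_le_of_lt hrc (not_le.1 hc))

/-- **(F5)(a), version with the coin count as hypothesis** (`r = mn S` or `r = ps`) -/
theorem bad_of_Y_sum {δ : ℝ} (hZ : Z.Ok) (hX : Z.Ext δ) {i w : ℕ} (hw : w ∣ Z.N) (hi : Z.nd i w)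
    (hsq : Squarefree (upp (Z.cut i) w)) {s s' : ℝ} (hs : s < 1)
    (hY : Z.Y (Z.zone i w) w ≤ s)
    (H : ∀ r ∈ Z.Lt i w, ∀ j, i < j → r ≤ Z.cut j → 1 - Z.Wp (Z.cut i) (Z.cut j) w ≤ s →
      ∑ q ∈ nc Z.cutf δ Z.γ (Z.tt i w) (Z.Lt i Z.N) (Z.Lt i w) r, (1 : ℝ) / q ≤ s') :
    Bad Z.cutf δ Z.γ (Z.tt i w) s' (Z.Lt i Z.N) (Z.Lt i w) := by
  classical
  obtain ⟨hne, j, hij, hW, hm, hp⟩ := core_of_Y hZ hX hw hi hsq hs hY
  have hbi : Z.bi i w ≤ i := Nat.findGreatest_le i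
  have hW2 : 1 - Z.Wp (Z.cut i) (Z.cut j) w ≤ s := by
    have := Wp_mono (Z := Z) (b := Z.cut j) (w := w) (hZ.hcut hbi)
    linarith
  refine ⟨hne, ?_⟩
  by_cases hon : On (NHx656.K1 δ (Z.Lt i w)) (pt Z.γ (Z.Lt i w) (mn (Z.Lt i w)))
      (sc (Z.tt i w) (Z.Lt i w) (mn (Z.Lt i w)))
  · obtain ⟨hl, hpc⟩ := hp hon
    exact Or.inr ⟨hon, hl, Or.inr (H _ (ps_spec hl).1 j hij hpc hW2)⟩
  · exact Or.inl ⟨hon, H _ (mn_mem hne) j hij hm hW2⟩

/-- **(F5)(a)**, 982's literal form: all nominal coins are coins, or an exception -/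
theorem bad_of_Y {δ : ℝ} (hZ : Z.Ok) (hX : Z.Ext δ) {i w : ℕ} (hw : w ∣ Z.N) (hi : Z.nd i w)
    (hsq : Squarefree (upp (Z.cut i) w)) {s : ℝ} (hs : 0 ≤ s) (hs2 : s ≤ 1 / 2)
    (hY : Z.Y (Z.zone i w) w ≤ s) :
    Bad Z.cutf δ Z.γ (Z.tt i w) (2 * s) (Z.Lt i Z.N) (Z.Lt i w) ∨
      ∃ r ∈ Z.Lt i w, ∃ q ∈ nc Z.cutf δ Z.γ (Z.tt i w) (Z.Lt i Z.N) (Z.Lt i w) r,
        ¬ Z.coin w q := by
  by_cases hcoin : ∀ r ∈ Z.Lt i w,
      ∀ q ∈ nc Z.cutf δ Z.γ (Z.tt i w) (Z.Lt i Z.N) (Z.Lt i w) r, Z.coin w q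
  · left
    refine bad_of_Y_sum hZ hX hw hi hsq (by linarith) hY fun r hr j _ hrj hW => ?_
    refine sum_le_of_prod hs hs2 (le_trans (by linarith) (Wp_le_gap hZ hX hi le_rfl hrj
      (hcoin r hr)))
  · right
    push Not at hcoin
    exact hcoin

/-- **(F5)(a)** with safe nominal coins: the safe ones are coins, the others have mass `≤ u` -/
theorem bad_of_Y_safe {δ : ℝ} (hZ : Z.Ok) (hX : Z.Ext δ) {i w : ℕ} (hw : w ∣ Z.N)
    (hi : Z.nd i w) (hsq : Squarefree (upp (Z.cut i) w)) {s u : ℝ} (hs : 0 ≤ s)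
    (hs2 : s ≤ 1 / 2) (hY : Z.Y (Z.zone i w) w ≤ s) (U : ℕ → ℕ → Prop) [∀ r q, Decidable (U r q)]
    (hU : ∀ r ∈ Z.Lt i w, ∀ q ∈ nc Z.cutf δ Z.γ (Z.tt i w) (Z.Lt i Z.N) (Z.Lt i w) r,
      U r q → Z.coin w q)
    (hu : ∀ r ∈ Z.Lt i w, ∑ q ∈ (nc Z.cutf δ Z.γ (Z.tt i w) (Z.Lt i Z.N) (Z.Lt i w) r).filter
      (fun q => ¬ U r q), (1 : ℝ) / q ≤ u) :
    Bad Z.cutf δ Z.γ (Z.tt i w) (2 * s + u) (Z.Lt i Z.N) (Z.Lt i w) := by
  classical
  refine bad_of_Y_sum hZ hX hw hi hsq (by linarith) hY fun r hr j _ hrj hW => ?_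
  rw [← sum_filter_add_sum_filter_not (nc Z.cutf δ Z.γ (Z.tt i w) (Z.Lt i Z.N) (Z.Lt i w) r)
    (fun q => U r q)]
  refine add_le_add ?_ (hu r hr)
  refine sum_le_of_prod hs hs2 (le_trans (by linarith) (Wp_le_gap' hZ hX hi le_rfl hrj
    (filter_subset _ _) fun q hq => ?_))
  rw [mem_filter] at hq
  exact hU r hr q hq.1 hq.2

end Crest.Agent.R4C.GWdefx982.World
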