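import Crest.Agent.R4C.NodeMass_634
import Crest.Agent.R4C.Rule_945
import Crest.Agent.R4C.PureCls_863
import Crest.Agent.R4C.Pivots_80

/-!
# Heavy exceptions of the label rule inside a pure node (helper634; row 4, GW section)

* `thr_of_not_exc` : outside `ExcF` the threshold of the rule is the `B`-free one.
* `exists_x0` : the hypothesis `hq` of `node_mass` for large primes.
* `Vm_low_ge`, `exc_cell_pow` : numeric form of `exc_cell`.
* `Cell_class` : in the prefix world of a core `G` (`PureCls_863`) a cell is a fibre of `low x`.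
* `exc_class` : `exc_cell_pow` in the prefix world.
-/

set_option autoImplicit false

open Finset

namespace Crest.Agent.R4C.NodeMassRx634

open Crest.Agent.R4C.Basex935 Crest.Agent.R4C.Cutx50 Crest.Agent.R4C.Lawx69
  Crest.Agent.R4C.FLDefx935 Crest.Agent.R4C.FLShx326 Crest.Agent.R4C.NodeMassx634
  Crest.Agent.R4C.Rulex945 Crest.Agent.R4C.PureClsx863
open Crest.Agent.R4C.FLExx326 (ind ind_nonneg)
open Crest.Agent.R4C.PrefixMx882 (free mem_free)

/-! ### The threshold of the rule -/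

/-- lower end of the block `k`, to the power `U` -/
noncomputable def HU (U : ℝ) (k : ℕ) : ℝ := (((2 : ℕ) ^ (k - 1) : ℕ) : ℝ) ^ U

lemma HU_pos (U : ℝ) (k : ℕ) : 0 < HU U k := by
  unfold HU
  positivity

/-- **outside the heavy exceptions the threshold is `≤ V^δ`** -/
theorem thr_of_not_exc {M : ℕ} {F : FL M} {f : ℕ → ℝ} (hf : ∀ b, 0 ≤ f b) {L δ ε : ℝ}
    (hε : 0 < ε) {h : ℕ → ℝ} {k0 K c i : ℕ}
    (hn : ¬ ExcF F f L h (HU (δ / ε)) k0 K c) (h1 : k0 ≤ i) (h2 : i < K)
    (h3 : (F.uu (2 ^ i) c : ℝ) ≤ h i * L) :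
    thrS M f (fun i => 2 ^ i) δ ε c i ≤ (((2 : ℕ) ^ (i - 1) : ℕ) : ℝ) ^ δ := by
  unfold thrS
  refine (min_le_left _ _).trans (max_le le_rfl ?_)
  obtain ⟨j, hj, e⟩ := exists_Th M f (fun i => 2 ^ i) c i
  have h4 : ThS M f (fun i => 2 ^ i) c i < HU (δ / ε) i := by
    by_contra hc
    rw [e] at hc
    exact hn ⟨i, h1, h2, h3, j, hj, not_lt.1 hc⟩
  have h5 : 0 ≤ ThS M f (fun i => 2 ^ i) c i := by
    rw [e]
    exact Th_nonneg M hf _ _
  calc ThS M f (fun i => 2 ^ i) c i ^ ε ≤ (HU (δ / ε) i) ^ ε :=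
        Real.rpow_le_rpow h5 h4.le hε.le
    _ = _ := by
        unfold HU
        rw [← Real.rpow_mul (Nat.cast_nonneg _), div_mul_cancel₀ _ hε.ne']

/-! ### Constants -/

/-- large primes satisfy `1/q ≤ A q^(-s)` -/
theorem exists_x0 {A s : ℝ} (hA : 0 < A) (hs : s < 1) :
    ∃ x0 : ℕ, ∀ q : ℕ, q.Prime → x0 < q → 1 / (q : ℝ) ≤ A * (q : ℝ) ^ (-s) := by
  refine ⟨⌈(1 / A) ^ (1 / (1 - s))⌉₊, fun q hq hx => ?_⟩
  have hq0 : (0 : ℝ) < q := by exact_mod_cast hq.pos
  have h1 : (1 / A) ^ (1 / (1 - s)) ≤ q :=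
    (Nat.le_ceil _).trans (by exact_mod_cast hx.le)
  have hs' : 0 < 1 - s := by linarith
  have h2 : 1 / A ≤ (q : ℝ) ^ (1 - s) := by
    calc 1 / A = ((1 / A) ^ (1 / (1 - s))) ^ (1 - s) := by
          rw [← Real.rpow_mul (by positivity), one_div_mul_cancel hs'.ne', Real.rpow_one]
      _ ≤ (q : ℝ) ^ (1 - s) := Real.rpow_le_rpow (by positivity) h1 hs'.le
  have h3 : (q : ℝ) ^ (1 - s) = (q : ℝ) * (q : ℝ) ^ (-s) := by
    rw [show 1 - s = 1 + (-s) by ring, Real.rpow_add hq0, Real.rpow_one]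
  rw [h3, div_le_iff₀ hA] at h2
  rw [div_le_iff₀ hq0]
  linarith

/-- thinning factor of the prefix -/
theorem Vm_low_ge {M : ℕ} (hM : 0 < M) {b x k : ℕ} (hb : b ∣ M) (hk : 1 ≤ k) (hx : x ≤ 2 ^ k) :
    1 / Vm (low x M) (low x b) ≤ Real.exp 13 * k := by
  have hY : (2 : ℝ) ≤ (2 : ℝ) ^ k := by
    calc (2 : ℝ) = 2 ^ 1 := by norm_num
      _ ≤ 2 ^ k := pow_le_pow_right₀ (by norm_num) hk
  have h1 := Crest.Agent.R4C.Pivotsx80.V_ge M b hY
  have h2 : Crest.Agent.R4C.Pivotsx80.V M ((2 : ℝ) ^ k) b ≤ Vm (low x M) (low x b) := by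
    unfold low
    rw [Vm_part (fun p => p ≤ x) hM, free_eq hM hb]
    unfold Crest.Agent.R4C.Pivotsx80.V
    have hsub : (M / b).primeFactors.filter (fun p => p ≤ x) ⊆
        (M / b).primeFactors.filter (fun p : ℕ => (p : ℝ) ≤ (2 : ℝ) ^ k) := by
      intro p hp
      rw [Finset.mem_filter] at hp ⊢
      refine ⟨hp.1, ?_⟩
      exact_mod_cast hp.2.trans hx
    rw [← Finset.prod_sdiff hsub]
    refine mul_le_of_le_one_left ?_ ?_
    · exact Finset.prod_nonneg fun p hp =>
        one_sub_inv_nonneg (Nat.prime_of_mem_primeFactors (Finset.mem_filter.1 hp).1)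
    · refine Finset.prod_le_one (fun p hp => ?_) fun p _ => ?_
      · exact one_sub_inv_nonneg (Nat.prime_of_mem_primeFactors
          (Finset.mem_filter.1 (Finset.mem_sdiff.1 hp).1).1)
      · have : (0 : ℝ) ≤ 1 / (p : ℝ) := by positivity
        linarith
  have hk0 : (0 : ℝ) < k := by exact_mod_cast hk
  have hlog : Real.log ((2 : ℝ) ^ k) ≤ k := by
    rw [Real.log_pow]
    have := Real.log_two_lt_d9
    nlinarith
  have hlog0 : 0 < Real.log ((2 : ℝ) ^ k) := Real.log_pos (by linarith)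
  have h3 : Real.exp (-13) / k ≤ Vm (low x M) (low x b) :=
    (div_le_div_of_nonneg_left (Real.exp_pos _).le hlog0 hlog).trans (h1.trans h2)
  have h4 : 0 < Real.exp (-13) / k := div_pos (Real.exp_pos _) hk0
  calc 1 / Vm (low x M) (low x b) ≤ 1 / (Real.exp (-13) / k) :=
        one_div_le_one_div_of_le h4 h3
    _ = Real.exp 13 * k := by
        rw [one_div_div, Real.exp_neg, div_inv_eq_mul, mul_comm]

/-- numeric sum -/
theorem exists_sum {σ D : ℝ} (hσ : 0 < σ) (hD : 0 ≤ D) : ∃ C : ℝ, 0 ≤ C ∧ ∀ k0 K : ℕ,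
    ∑ k ∈ Finset.Ico k0 K, (2 : ℝ) ^ (-(σ * k)) * ((k : ℝ) + 1 + D * k0) ≤
      C * (2 : ℝ) ^ (-(σ * k0 / 2)) := by
  set r : ℝ := (2 : ℝ) ^ (-(σ / 2)) with hr
  have hr0 : 0 < r := by positivity
  have hr1 : r < 1 := Real.rpow_lt_one_of_one_lt_of_neg (by norm_num) (by linarith)
  have hsum : Summable (fun k : ℕ => ((k : ℝ) + 1) * r ^ k) := by
    have h1 : Summable (fun k : ℕ => (k : ℝ) ^ 1 * r ^ k) :=
      summable_pow_mul_geometric_of_norm_lt_one 1 (by rw [Real.norm_of_nonneg hr0.le]; exact hr1)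
    have h2 := summable_geometric_of_lt_one hr0.le hr1
    refine (h1.add h2).congr fun k => ?_
    ring
  have hpow : ∀ k : ℕ, (2 : ℝ) ^ (-(σ * k)) = r ^ k * r ^ k := by
    intro k
    rw [hr, ← Real.rpow_natCast, ← Real.rpow_mul (by norm_num), ← Real.rpow_add (by norm_num)]
    congr 1
    ring
  have hpow0 : ∀ k : ℕ, (2 : ℝ) ^ (-(σ * k / 2)) = r ^ k := by
    intro k
    rw [hr, ← Real.rpow_natCast, ← Real.rpow_mul (by norm_num)]
    congr 1
    ring
  have ht : 0 ≤ ∑' k : ℕ, ((k : ℝ) + 1) * r ^ k := tsum_nonneg fun k => by positivity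
  refine ⟨(1 + D) * ∑' k : ℕ, ((k : ℝ) + 1) * r ^ k, mul_nonneg (by linarith) ht,
    fun k0 K => ?_⟩
  rw [hpow0]
  calc ∑ k ∈ Finset.Ico k0 K, (2 : ℝ) ^ (-(σ * k)) * ((k : ℝ) + 1 + D * k0)
      ≤ ∑ k ∈ Finset.Ico k0 K, (1 + D) * r ^ k0 * (((k : ℝ) + 1) * r ^ k) := by
        refine Finset.sum_le_sum fun k hk => ?_
        rw [Finset.mem_Ico] at hk
        have hk' : (k0 : ℝ) ≤ k := by exact_mod_cast hk.1
        have h1 : r ^ k ≤ r ^ k0 := pow_le_pow_of_le_one hr0.le hr1.le hk.1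
        have h2 : (k : ℝ) + 1 + D * k0 ≤ (1 + D) * ((k : ℝ) + 1) := by nlinarith
        have h3 : 0 < r ^ k := by positivity
        rw [hpow]
        calc r ^ k * r ^ k * ((k : ℝ) + 1 + D * k0)
            ≤ r ^ k * r ^ k * ((1 + D) * ((k : ℝ) + 1)) :=
              mul_le_mul_of_nonneg_left h2 (by positivity)
          _ = r ^ k * (r ^ k * ((1 + D) * ((k : ℝ) + 1))) := by ring
          _ ≤ r ^ k0 * (r ^ k * ((1 + D) * ((k : ℝ) + 1))) :=
              mul_le_mul_of_nonneg_right h1 (by positivity)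
          _ = _ := by ring
    _ = (1 + D) * r ^ k0 * ∑ k ∈ Finset.Ico k0 K, ((k : ℝ) + 1) * r ^ k := by
        rw [Finset.mul_sum]
    _ ≤ (1 + D) * r ^ k0 * ∑' k : ℕ, ((k : ℝ) + 1) * r ^ k :=
        mul_le_mul_of_nonneg_left (hsum.sum_le_tsum _ fun k _ => by positivity) (by positivity)
    _ = _ := by ring

open Classical in
/-- **heavy exceptions in a cell, numeric form** (`h k = Ch * 2^(a k)`, `H k = (2^(k-1))^U`) -/
theorem exc_cell_pow {a U Ch : ℝ} (haU : a < U) (hCh : 0 ≤ Ch) : ∃ C : ℝ, 0 ≤ C ∧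
    ∀ (M : ℕ) (F : FL M) (B : Finset ℕ) (A s : ℝ) (x0 x b k0 K : ℕ) (L : ℝ),
      0 < M → B ⊆ M.divisors → NodeShares F B A s →
      (∀ q : ℕ, q.Prime → x0 < q → 1 / (q : ℝ) ≤ A * (q : ℝ) ^ (-s)) →
      b ∣ M → x0 ≤ x → x ≤ 2 ^ k0 → 1 ≤ k0 → 0 ≤ L →
      ∑ c ∈ (Cell F x b).filter (fun c =>
          ExcF F (ind B) L (fun k => Ch * (2 : ℝ) ^ (a * k)) (HU U) k0 K c), nu M c ≤
        cm F x b * (L * ∑ c ∈ B, nu M c) * (C * (2 : ℝ) ^ (-((U - a) * k0 / 2))) := by
  obtain ⟨C, hC, hsum⟩ := exists_sum (σ := U - a) (D := Real.exp 13) (by linarith)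
    (Real.exp_pos _).le
  refine ⟨Ch * max 1 ((2 : ℝ) ^ U) * C, by positivity, fun M F B A s x0 x b k0 K L hM hB hS hq hb hx0
    hx hk0 hL => ?_⟩
  refine (exc_cell hM hB hS hq hb hx0 hL K hx (fun k => by positivity) (HU_pos U)).trans ?_
  have hcm : 0 ≤ cm F x b * (L * ∑ c ∈ B, nu M c) :=
    mul_nonneg (cm_nonneg F x b) (mul_nonneg hL (Finset.sum_nonneg fun _ _ => nu_nonneg _ _))
  refine mul_le_mul_of_nonneg_left ?_ hcm
  have hV := Vm_low_ge hM hb hk0 hx
  calc ∑ k ∈ Finset.Ico k0 K, Ch * (2 : ℝ) ^ (a * k) / HU U k *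
        ((k : ℝ) + 1 + 1 / Vm (low x M) (low x b))
      ≤ ∑ k ∈ Finset.Ico k0 K, (Ch * max 1 ((2 : ℝ) ^ U)) *
        ((2 : ℝ) ^ (-((U - a) * k)) * ((k : ℝ) + 1 + Real.exp 13 * k0)) := by
        refine Finset.sum_le_sum fun k hk => ?_
        rw [Finset.mem_Ico] at hk
        have hk1 : 1 ≤ k := hk0.trans hk.1
        have h1 : (2 : ℝ) ^ (a * k) / HU U k ≤
            max 1 ((2 : ℝ) ^ U) * (2 : ℝ) ^ (-((U - a) * k)) := by
          have e : HU U k = (2 : ℝ) ^ (U * k - U) := by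
            unfold HU
            push_cast
            rw [← Real.rpow_natCast, ← Real.rpow_mul (by norm_num), Nat.cast_sub hk1]
            congr 1
            push_cast
            ring
          rw [e, ← Real.rpow_sub (by norm_num)]
          have e2 : a * k - (U * k - U) = U + (-((U - a) * k)) := by ring
          rw [e2, Real.rpow_add (by norm_num)]
          exact mul_le_mul_of_nonneg_right (le_max_right _ _) (by positivity)
        have h2 : (k : ℝ) + 1 + 1 / Vm (low x M) (low x b) ≤ (k : ℝ) + 1 + Real.exp 13 * k0 := by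
          linarith
        have h3 : 0 ≤ (k : ℝ) + 1 + 1 / Vm (low x M) (low x b) := by
          have := (Vm_pos (M := low x M) (low x b)).le
          positivity
        calc Ch * (2 : ℝ) ^ (a * k) / HU U k * ((k : ℝ) + 1 + 1 / Vm (low x M) (low x b))
            = Ch * ((2 : ℝ) ^ (a * k) / HU U k) *
              ((k : ℝ) + 1 + 1 / Vm (low x M) (low x b)) := by ring
          _ ≤ Ch * (max 1 ((2 : ℝ) ^ U) * (2 : ℝ) ^ (-((U - a) * k))) *
              ((k : ℝ) + 1 + Real.exp 13 * k0) :=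
              mul_le_mul (mul_le_mul_of_nonneg_left h1 hCh) h2 h3 (by positivity)
          _ = _ := by ring
    _ = (Ch * max 1 ((2 : ℝ) ^ U)) * ∑ k ∈ Finset.Ico k0 K,
        ((2 : ℝ) ^ (-((U - a) * k)) * ((k : ℝ) + 1 + Real.exp 13 * k0)) := by
        rw [Finset.mul_sum]
    _ ≤ (Ch * max 1 ((2 : ℝ) ^ U)) * (C * (2 : ℝ) ^ (-((U - a) * k0 / 2))) :=
        mul_le_mul_of_nonneg_left (hsum k0 K) (by positivity)
    _ = _ := by ring

/-! ### The prefix world of a core -/

lemma nu0_pos {M : ℕ} {F : FL M} (hM : 0 < M) {G : ℕ} (hG : G ∈ cores F) : 0 < nu0 F G := by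
  have hG0 : 0 < G := Nat.pos_of_dvd_of_pos (mem_cores.1 hG).1.1 hM
  have hR := RR_pos hM hG
  unfold nu0
  have h1 : (0 : ℝ) < ((RR F G).totient : ℝ) := by exact_mod_cast Nat.totient_pos.2 hR
  positivity

/-- cells in the prefix world -/
theorem Cell_class {M : ℕ} {F : FL M} (hM : 0 < M) {G w0 x : ℕ} (hG : G ∈ cores F)
    (hw0 : w0 ∣ PM F G) (hx : D F G ≤ x) :
    Cell F x (G * w0) = ((PM F G).divisors.filter (fun w => low x w = low x w0)).image
      (fun w => G * w) := by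
  classical
  have hb := mul_dvd hM hG hw0
  have hG0 : G ≠ 0 := (Nat.pos_of_dvd_of_pos (mem_cores.1 hG).1.1 hM).ne'
  have hw00 : w0 ≠ 0 := (Nat.pos_of_dvd_of_pos hw0 (PM_pos G)).ne'
  ext c
  rw [Finset.mem_image]
  constructor
  · intro hc
    have hcM : c ∣ M := (mem_Cell.1 hc).1.1
    obtain ⟨h1, h2, h3⟩ := (mem_Cell_iff hM hb hcM).1 hc
    have hlow : ∀ p, p ≤ x → (G * w0).factorization p = c.factorization p := by
      intro p hp
      have h4 : (low x c).factorization p = (low x (G * w0)).factorization p := by rw [h1]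
      rw [fact_low, fact_low, if_pos hp, if_pos hp] at h4
      exact h4.symm
    have hs0 : F.same 0 (G * w0) c := by
      intro q hq _ hn
      by_cases hqx : q ≤ x
      · exact hlow q hqx
      · exact h2 q hq (by omega) hn
    have hell : ∀ p, p ∈ M.primeFactors → x < p → ∀ v, F.ctr c p = some v →
        v ≤ c.factorization p := by
      intro p hp hxp v hv
      have h4 := FL.fact_ell (F := F) (x := x) (b := c) (p := p)
      rw [h3, if_pos hp] at h4
      simp only [Nat.factorization_one, Finsupp.coe_zero, Pi.zero_apply, FL.ellE, if_pos hxp, hv]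
        at h4
      omega
    have hDD : D F (G * w0) = D F c := by
      refine D_congr fun p hp => ?_
      have hpp := Nat.prime_of_mem_primeFactors hp
      have hctr : F.ctr (G * w0) p = F.ctr c p := ctr_of_same hb hcM hs0 hpp
      unfold dfc
      by_cases hpx : p ≤ x
      · rw [hctr, hlow p hpx]
      · constructor
        · rintro ⟨v, h4, h5⟩
          exfalso
          have h6 := le_D hM hb hpp ⟨v, h4, h5⟩
          rw [D_mul hM hG hw0] at h6
          omega
        · rintro ⟨v, h4, h5⟩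
          have := hell p hp (by omega) v h4
          omega
    have hcore : core F c = G := by
      have h4 := core_congr hM hb hcM hs0 hDD (fun p _ hp => by
        rw [D_mul hM hG hw0] at hp
        exact hlow p (hp.trans hx))
      rw [← h4, core_mul hM hG hw0]
    have h5 := core_mul_wd (F := F) hM hcM
    have h6 := wd_dvd (F := F) hM hcM
    rw [hcore] at h5 h6
    refine ⟨wd F c, Finset.mem_filter.2 ⟨Nat.mem_divisors.2 ⟨h6, (PM_pos G).ne'⟩, ?_⟩, h5⟩
    refine Nat.eq_of_factorization_eq (low_pos _ _).ne' (low_pos _ _).ne' fun p => ?_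
    rw [fact_low, fact_low]
    split_ifs with hp
    · have h7 := hlow p hp
      rw [← h5, fact_mul_word hM hG h6, fact_mul_word hM hG hw0] at h7
      omega
    · rfl
  · rintro ⟨w, hw, rfl⟩
    rw [Finset.mem_filter, Nat.mem_divisors] at hw
    obtain ⟨⟨hw1, _⟩, hw2⟩ := hw
    have hcM := mul_dvd hM hG hw1
    rw [mem_Cell_iff hM hb hcM]
    have hlow : ∀ p, p ≤ x → w.factorization p = w0.factorization p := by
      intro p hp
      have h4 : (low x w).factorization p = (low x w0).factorization p := by rw [hw2]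
      rwa [fact_low, fact_low, if_pos hp, if_pos hp] at h4
    refine ⟨?_, ?_, ?_⟩
    · refine Nat.eq_of_factorization_eq (low_pos _ _).ne' (low_pos _ _).ne' fun p => ?_
      rw [fact_low, fact_low]
      split_ifs with hp
      · rw [fact_mul_word hM hG hw1, fact_mul_word hM hG hw0, hlow p hp]
      · rfl
    · intro q hq _ hn
      rw [fact_mul_word hM hG hw1, fact_mul_word hM hG hw0]
      rw [ctr_mul hM hG hw0 hq] at hn
      have h1 := fact_word (p := q) hw1
      have h2 := fact_word (p := q) hw0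
      rw [fact_PM_none hn] at h1 h2
      omega
    · refine Nat.eq_of_factorization_eq (FL.ell_pos _ _).ne' one_ne_zero fun p => ?_
      rw [FL.fact_ell, Nat.factorization_one, Finsupp.zero_apply]
      by_cases hp : p ∈ M.primeFactors
      · have hpp := Nat.prime_of_mem_primeFactors hp
        simp only [hp, if_true, FL.ellE, ctr_mul hM hG hw1 hpp]
        by_cases hxp : x < p
        · simp only [hxp, if_true]
          cases h2 : F.ctr G p with
          | none => rfl
          | some v =>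
            simp only
            have h3 := G_fact_some hM hG hpp (lt_of_le_of_lt hx hxp) h2
            rw [fact_mul_word hM hG hw1]
            omega
        · simp [hxp]
      · rw [if_neg hp]

/-- sums over a cell in the prefix world -/
theorem sum_Cell_class {M : ℕ} {F : FL M} (hM : 0 < M) {G w0 x : ℕ} (hG : G ∈ cores F)
    (hw0 : w0 ∣ PM F G) (hx : D F G ≤ x) (g : ℕ → ℝ) :
    ∑ c ∈ Cell F x (G * w0), nu M c * g c =
      nu0 F G * ∑ w ∈ (PM F G).divisors with low x w = low x w0, nu (PM F G) w * g (G * w) := by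
  rw [Cell_class hM hG hw0 hx, Finset.sum_image, Finset.mul_sum]
  · refine Finset.sum_congr rfl fun w hw => ?_
    rw [nu_class hM hG (Nat.dvd_of_mem_divisors (Finset.mem_filter.1 hw).1)]
    ring
  · intro w _ w' _ h
    have hG0 : 0 < G := Nat.pos_of_dvd_of_pos (mem_cores.1 hG).1.1 hM
    exact Nat.eq_of_mul_eq_mul_left hG0 h

open Classical in
/-- **HEAVY EXCEPTIONS IN THE PREFIX WORLD**: natural probability of `ExcF` given the prefix
`low x w0` of the word -/
theorem exc_class {a U Ch : ℝ} (haU : a < U) (hCh : 0 ≤ Ch) : ∃ C : ℝ, 0 ≤ C ∧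
    ∀ (M : ℕ) (F : FL M) (B : Finset ℕ) (A s : ℝ) (x0 x G w0 k0 K : ℕ) (L : ℝ),
      0 < M → B ⊆ M.divisors → NodeShares F B A s →
      (∀ q : ℕ, q.Prime → x0 < q → 1 / (q : ℝ) ≤ A * (q : ℝ) ^ (-s)) →
      G ∈ cores F → w0 ∣ PM F G → D F G ≤ x → x0 ≤ x → x ≤ 2 ^ k0 → 1 ≤ k0 → 0 ≤ L →
      L * ∑ c ∈ B, nu M c ≤ 1 →
      ∑ w ∈ (PM F G).divisors with low x w = low x w0 ∧
          ExcF F (ind B) L (fun k => Ch * (2 : ℝ) ^ (a * k)) (HU U) k0 K (G * w),
        nu (PM F G) w ≤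
        C * (2 : ℝ) ^ (-((U - a) * k0 / 2)) *
          ∑ w ∈ (PM F G).divisors with low x w = low x w0, nu (PM F G) w := by
  obtain ⟨C, hC, h⟩ := exc_cell_pow haU hCh
  refine ⟨C, hC, fun M F B A s x0 x G w0 k0 K L hM hB hS hq hG hw0 hx hx0 hxk hk0 hL hm => ?_⟩
  have h1 := h M F B A s x0 x (G * w0) k0 K L hM hB hS hq (mul_dvd hM hG hw0) hx0 hxk hk0 hL
  have hn := nu0_pos hM hG
  set P : ℕ → Prop := fun c =>
    ExcF F (ind B) L (fun k => Ch * (2 : ℝ) ^ (a * k)) (HU U) k0 K c with hP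
  have e1 : ∑ c ∈ (Cell F x (G * w0)).filter P, nu M c =
      nu0 F G * ∑ w ∈ (PM F G).divisors with low x w = low x w0 ∧ P (G * w), nu (PM F G) w := by
    have h2 := sum_Cell_class hM hG hw0 hx (fun c => if P c then 1 else 0)
    rw [Finset.sum_filter]
    calc ∑ c ∈ Cell F x (G * w0), (if P c then nu M c else 0)
        = ∑ c ∈ Cell F x (G * w0), nu M c * (if P c then 1 else 0) :=
          Finset.sum_congr rfl fun c _ => by split_ifs <;> simp
      _ = _ := h2
      _ = _ := by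
          rw [← Finset.filter_filter, Finset.sum_filter (fun w => P (G * w))]
          congr 1
          exact Finset.sum_congr rfl fun c _ => by split_ifs <;> simp
  have e2 : cm F x (G * w0) =
      nu0 F G * ∑ w ∈ (PM F G).divisors with low x w = low x w0, nu (PM F G) w := by
    have h2 := sum_Cell_class hM hG hw0 hx (fun _ => 1)
    unfold cm
    simpa using h2
  rw [e1, e2] at h1
  set S := ∑ w ∈ (PM F G).divisors with low x w = low x w0, nu (PM F G) w with hS'
  have hS0 : 0 ≤ S := Finset.sum_nonneg fun _ _ => nu_nonneg _ _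
  have h3 : nu0 F G * ∑ w ∈ (PM F G).divisors with low x w = low x w0 ∧ P (G * w),
      nu (PM F G) w ≤ nu0 F G * (C * (2 : ℝ) ^ (-((U - a) * k0 / 2)) * S) := by
    refine h1.trans ?_
    calc nu0 F G * S * (L * ∑ c ∈ B, nu M c) * (C * (2 : ℝ) ^ (-((U - a) * k0 / 2)))
        ≤ nu0 F G * S * 1 * (C * (2 : ℝ) ^ (-((U - a) * k0 / 2))) := by
          refine mul_le_mul_of_nonneg_right (mul_le_mul_of_nonneg_left hm ?_) (by positivity)
          exact mul_nonneg hn.le hS0
      _ = _ := by ring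
  exact le_of_mul_le_mul_left h3 hn

end Crest.Agent.R4C.NodeMassRx634
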