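import Crest.Agent.R4C.DictA_20
import Crest.Agent.R4C.NodeMassR_634
import Crest.Agent.R4C.F5a_726
import Crest.Agent.R4C.GWinst_982
import Crest.Agent.R4C.SpineDef_946
import Crest.Agent.Lib.Mertens

/-!
# Row 4, GW section, F5 (b): product of the actual coins ⟹ mass of the nominal coins (helper20)

Parameters: `cut m = 2^(A m)`, `Y i = 2^i`, threshold `thrS` with `f = ind B`.
Prefix world of a core `G`, word `w ∣ PM F G`, node index `i` (`2^i L ≤ G low (cut i) w`),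
`S = (upp (cut i) w).primeFactors` (squarefree), `t = tN P (cut i) G w`.

* `sum_half` : primes in `[r/2, r]` have `∑ 1/q ≤ 6 / log r`;
* `nc_safe` : outside `ExcF` (634) a nominal coin `q` whose block lies below `r` is a coin;
* `sum_unsafe` : the nominal coins in the block of `r` have mass `≤ 6 / log r`;
* `lam_nc` : `1 - ∏_{coins in (cut i, cut j]} (1 - 1/q) ≤ s ≤ 1/2`, `r ≤ cut j` ⟹
  `∑_{q ∈ nc} 1/q ≤ 2 s + 6 / log r`;
* `cutf_eq`, `nc_congr`, `lam_nc_world` : the same in the world of a core (`GWinst_982`, `F5a_726`);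
* `bad_of_Y` : F5 (a) + (b);  `parT_ParOf` : the rule of `SpineDef_946`.
-/

set_option autoImplicit false

namespace Crest.Agent.R4C.F5bx20

open Finset Crest.Agent.R4C.FLDefx935 Crest.Agent.R4C.Cutx50 Crest.Agent.R4C.Rulex945
  Crest.Agent.R4C.NHx656 Crest.Agent.R4C.PureClsx863 Crest.Agent.R4C.DictAx20
  Crest.Agent.R4C.NodeMassRx634 Crest.Agent.R4C.NodeMassx634
open Crest.Agent.R4C.FLExx326 (ind ind_nonneg)
open Crest.Agent.R4C.PrefixMx882 (free mem_free)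

/-! ### elementary -/

lemma log_half {r : ℝ} (hr : 4 ≤ r) : Real.log r / 2 ≤ Real.log (r / 2) := by
  have h2 : Real.log (r / 2) = Real.log r - Real.log 2 := Real.log_div (by linarith) (by norm_num)
  have h4 : 2 * Real.log 2 ≤ Real.log r := by
    have e : (2 : ℝ) * Real.log 2 = Real.log (2 ^ 2) := by
      rw [Real.log_pow]; norm_num
    rw [e]
    exact Real.log_le_log (by norm_num) (by linarith)
  rw [h2]; linarith

/-- primes in `[r/2, r]` -/
theorem sum_half {r : ℕ} (hr : 2 ≤ r) (T : Finset ℕ)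
    (hT : ∀ q ∈ T, q.Prime ∧ r ≤ 2 * q ∧ q ≤ r) : ∑ q ∈ T, (1 : ℝ) / q ≤ 6 / Real.log r := by
  have hr0 : (0 : ℝ) < r := by exact_mod_cast (by omega : 0 < r)
  have hlr : 0 < Real.log r := Real.log_pos (by exact_mod_cast (by omega : 1 < r))
  by_cases h4 : 4 ≤ r
  · have h4' : (4 : ℝ) ≤ r := by exact_mod_cast h4
    have hlh := log_half h4'
    have key : ∀ q ∈ T, (1 : ℝ) / q ≤ (4 / (r * Real.log r)) * Real.log q := by
      intro q hq
      obtain ⟨hqp, h1, h2⟩ := hT q hq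
      have h1' : (r : ℝ) / 2 ≤ q := by
        have : (r : ℝ) ≤ 2 * q := by exact_mod_cast h1
        linarith
      have hq0 : (0 : ℝ) < q := by linarith
      have h3 : Real.log r / 2 ≤ Real.log q :=
        hlh.trans (Real.log_le_log (by linarith) h1')
      have h5 : (1 : ℝ) / q ≤ 2 / r := by
        rw [div_le_div_iff₀ hq0 hr0]; linarith
      calc (1 : ℝ) / q ≤ 2 / r := h5
        _ = (4 / (r * Real.log r)) * (Real.log r / 2) := by field_simp; ring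
        _ ≤ _ := mul_le_mul_of_nonneg_left h3 (by positivity)
    have hsub : T ⊆ Nat.primesLE r := by
      intro q hq
      obtain ⟨hqp, _, h2⟩ := hT q hq
      rw [Nat.mem_primesLE]
      exact ⟨h2, hqp⟩
    have h6 : ∑ q ∈ T, Real.log q ≤ Real.log 4 * r := by
      refine le_trans (Finset.sum_le_sum_of_subset_of_nonneg hsub fun q hq _ => ?_)
        (Crest.Agent.Lib.Mertens.theta_nat r)
      rw [Nat.mem_primesLE] at hq
      exact Real.log_nonneg (by exact_mod_cast hq.2.one_le)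
    have hl4 : Real.log 4 ≤ 3 / 2 := by
      have e : Real.log 4 = 2 * Real.log 2 := by
        rw [show (4 : ℝ) = 2 ^ 2 by norm_num, Real.log_pow]; norm_num
      rw [e]
      have := Real.log_two_lt_d9
      linarith
    calc ∑ q ∈ T, (1 : ℝ) / q ≤ ∑ q ∈ T, (4 / (r * Real.log r)) * Real.log q :=
          Finset.sum_le_sum key
      _ = (4 / (r * Real.log r)) * ∑ q ∈ T, Real.log q := by rw [Finset.mul_sum]
      _ ≤ (4 / (r * Real.log r)) * (3 / 2 * r) := by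
          refine mul_le_mul_of_nonneg_left (h6.trans ?_) (by positivity)
          exact mul_le_mul_of_nonneg_right hl4 hr0.le
      _ = 6 / Real.log r := by field_simp; ring
  · have hsub : T ⊆ {2, 3} := by
      intro q hq
      obtain ⟨hqp, _, h2⟩ := hT q hq
      have := hqp.two_le
      have h3 : q = 2 ∨ q = 3 := by omega
      simpa using h3
    have h5 : ∑ q ∈ T, (1 : ℝ) / q ≤ ∑ q ∈ ({2, 3} : Finset ℕ), (1 : ℝ) / q :=
      Finset.sum_le_sum_of_subset_of_nonneg hsub fun q _ _ => by positivity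
    have h6 : ∑ q ∈ ({2, 3} : Finset ℕ), (1 : ℝ) / q ≤ 1 := by
      rw [Finset.sum_pair (by norm_num)]; norm_num
    have h7 : Real.log r ≤ 3 := by
      have h8 : (r : ℝ) ≤ 3 := by exact_mod_cast (by omega : r ≤ 3)
      have := Real.log_le_sub_one_of_pos hr0
      linarith
    have h8 : (1 : ℝ) ≤ 6 / Real.log r := by
      rw [le_div_iff₀ hlr]; linarith
    linarith

/-- `∏ (1 - 1/q) ≥ 1 - s`, `s ≤ 1/2` ⟹ `∑ 1/q ≤ 2 s` -/
theorem sum_le_of_prod {T : Finset ℕ} (hT : ∀ q ∈ T, 2 ≤ q) {s : ℝ} (hs : s ≤ 1 / 2)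
    (h : 1 - ∏ q ∈ T, (1 - 1 / (q : ℝ)) ≤ s) : ∑ q ∈ T, (1 : ℝ) / q ≤ 2 * s := by
  have hpos : ∀ q ∈ T, 0 < 1 - 1 / (q : ℝ) := by
    intro q hq
    have h2 : (2 : ℝ) ≤ q := by exact_mod_cast hT q hq
    have h3 : 1 / (q : ℝ) ≤ 1 / 2 := one_div_le_one_div_of_le (by norm_num) h2
    linarith
  have h1 : ∏ q ∈ T, (1 - 1 / (q : ℝ)) ≤ Real.exp (-∑ q ∈ T, (1 : ℝ) / q) := by
    rw [← Finset.sum_neg_distrib, Real.exp_sum]
    refine Finset.prod_le_prod (fun q hq => (hpos q hq).le) fun q _ => ?_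
    have := Real.add_one_le_exp (-(1 / (q : ℝ)))
    linarith
  have h2 : 1 - s ≤ Real.exp (-∑ q ∈ T, (1 : ℝ) / q) := by linarith
  set σ := ∑ q ∈ T, (1 : ℝ) / q with hσ
  have h0 : 0 ≤ σ := Finset.sum_nonneg fun _ _ => by positivity
  -- `exp (-σ) ≤ 1 / (1 + σ)`
  have h3 : Real.exp (-σ) ≤ 1 / (1 + σ) := by
    rw [Real.exp_neg, inv_eq_one_div]
    refine one_div_le_one_div_of_le (by linarith) ?_
    have := Real.add_one_le_exp σ
    linarith
  have h4 : 1 - s ≤ 1 / (1 + σ) := h2.trans h3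
  rw [le_div_iff₀ (by linarith)] at h4
  -- `(1 - s)(1 + σ) ≤ 1`, so `σ (1 - s) ≤ s`
  nlinarith

/-! ### the threshold below the block of `r` -/

/-- bound of the scales in 634's `ExcF` -/
noncomputable def hA (A : ℕ) (k : ℕ) : ℝ := 2 * (2 : ℝ) ^ ((1 / (A : ℝ)) * k)

section rule

variable {M : ℕ} {F : FL M} {P : Par} {A : ℕ} {B : Finset ℕ} {δ ε : ℝ}

/-- the Par of the text -/
structure ParT (M : ℕ) (P : Par) (A : ℕ) (B : Finset ℕ) (δ ε : ℝ) : Prop where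
  hA : 1 ≤ A
  hL : 0 < P.L
  cut : ∀ m, P.cut m = 2 ^ (A * m)
  Y : P.Y = fun i => 2 ^ i
  thr : ∀ b i, P.thr b i = thrS M (ind B) (fun i => 2 ^ i) δ ε b i
  hδ : 0 ≤ δ
  hε : 0 < ε

namespace ParT

lemma cut_mono (h : ParT M P A B δ ε) : Monotone P.cut := by
  intro a b hab
  rw [h.cut, h.cut]
  exact Nat.pow_le_pow_right (by norm_num) (Nat.mul_le_mul_left _ hab)

lemma Y_mono (h : ParT M P A B δ ε) : StrictMono P.Y := by
  rw [h.Y]
  exact fun a b hab => Nat.pow_lt_pow_right (by norm_num) hab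

lemma Y0 (h : ParT M P A B δ ε) : P.Y 0 ≤ 1 := by
  rw [h.Y]; norm_num

end ParT

/-- **safe blocks** : outside `ExcF` the threshold at `q` is `< 3 q^δ` if the block of `q` is below
the next letter `r` -/
theorem thr_safe (hP : ParT M P A B δ ε) {b r q k0 K : ℕ} {h : ℕ → ℝ} (hh : ∀ k, hA A k ≤ h k)
    {U : ℝ} (hU : U = δ / ε) (hn : ¬ ExcF F (ind B) P.L h (HU U) k0 K b)
    (hq2 : 2 ≤ q) (hk0 : ∀ k, q ≤ 2 ^ k → k0 ≤ k) (hrK : r ≤ 2 ^ K)
    (hq : cutR P ((F.uu (r - 1) b : ℝ) / P.L) < q) (hs : P.Y (P.blk q) < r) :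
    P.thr b (P.blk q) < 3 * (q : ℝ) ^ δ := by
  set k := P.blk q with hk
  have hYk : P.Y k = 2 ^ k := by rw [hP.Y]
  have hqk : q ≤ 2 ^ k := by rw [← hYk]; exact Par.le_blk hP.Y_mono q
  have hkr : 2 ^ k < r := by rw [← hYk]; exact hs
  set m' := Nat.log 2 ⌊(F.uu (r - 1) b : ℝ) / P.L⌋₊ with hm'
  have hcm : P.cut m' < q := by
    unfold cutR at hq
    exact_mod_cast hq
  have h1 : A * m' < k := by
    rw [hP.cut] at hcm
    exact (Nat.pow_lt_pow_iff_right (by norm_num : 1 < 2)).1 (hcm.trans_le hqk)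
  have h2 : k0 ≤ k := hk0 k hqk
  have h3 : k < K := (Nat.pow_lt_pow_iff_right (by norm_num : 1 < 2)).1 (hkr.trans_le hrK)
  have hA0 : (0 : ℝ) < A := by exact_mod_cast hP.hA
  have h4 : (F.uu (2 ^ k) b : ℝ) ≤ hA A k * P.L := by
    have e1 : F.uu (2 ^ k) b ≤ F.uu (r - 1) b :=
      Nat.le_of_dvd (FL.uu_pos _ _) (FL.uu_dvd_uu (by omega))
    have e2 : (F.uu (2 ^ k) b : ℝ) ≤ F.uu (r - 1) b := by exact_mod_cast e1
    have e3 : (F.uu (r - 1) b : ℝ) / P.L < 2 ^ (m' + 1) := lt_two_pow _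
    rw [div_lt_iff₀ hP.hL] at e3
    have e4 : (2 : ℝ) ^ (m' + 1) ≤ hA A k := by
      unfold hA
      rw [pow_succ, mul_comm]
      refine mul_le_mul_of_nonneg_left ?_ (by norm_num)
      rw [← Real.rpow_natCast]
      refine Real.rpow_le_rpow_of_exponent_le (by norm_num) ?_
      rw [one_div, inv_mul_eq_div, le_div_iff₀ hA0]
      have : (A : ℝ) * m' ≤ k := by exact_mod_cast h1.le
      linarith
    exact e2.trans (e3.le.trans (mul_le_mul_of_nonneg_right e4 hP.hL.le))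
  subst hU
  have h5 := thr_of_not_exc (f := ind B) (fun b => ind_nonneg B b) hP.hε hn h2 h3
    (h4.trans (mul_le_mul_of_nonneg_right (hh k) hP.hL.le))
  rw [hP.thr]
  have h6 : P.Y (k - 1) < q := Y_lt hP.Y0 hq2
  have h6' : 2 ^ (k - 1) < q := by
    rw [hP.Y] at h6; exact h6
  have hq0 : (0 : ℝ) < q := by exact_mod_cast (by omega : 0 < q)
  have h7 : (((2 : ℕ) ^ (k - 1) : ℕ) : ℝ) ^ δ ≤ (q : ℝ) ^ δ :=
    Real.rpow_le_rpow (Nat.cast_nonneg _) (by exact_mod_cast h6'.le) hP.hδ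
  have h8 : (0 : ℝ) < (q : ℝ) ^ δ := Real.rpow_pos_of_pos hq0 _
  exact lt_of_le_of_lt (h5.trans h7) (by linarith)

variable {G w i r : ℕ}

/-- hypotheses at a word `w` of the node of index `i` -/
structure AtW (F : FL M) (P : Par) (A : ℕ) (B : Finset ℕ) (δ ε : ℝ) (G w i K : ℕ) : Prop where
  hM : 0 < M
  hG : G ∈ cores F
  hw : w ∣ PM F G
  hx : D F G ≤ P.cut i
  hsq : Squarefree (upp (P.cut i) w)
  hn : (2 : ℝ) ^ i ≤ tN P (P.cut i) G w
  /-- not a heavy exception (`k0 = A i + 1`, 634's F5d; any `h ≥ hA`, `U = δ/ε`) -/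
  hexc : ∃ (h : ℕ → ℝ) (U : ℝ) (k0 : ℕ), (∀ k, hA A k ≤ h k) ∧ U = δ / ε ∧ k0 ≤ A * i + 1 ∧
    ¬ ExcF F (ind B) P.L h (HU U) k0 K (G * w)

lemma one_le_prodS {S : Finset ℕ} (h : ∀ p ∈ S, 1 ≤ p) (s : ℕ → Prop) [DecidablePred s] :
    (1 : ℝ) ≤ ((∏ p ∈ S.filter s, p : ℕ) : ℝ) := by
  have : 1 ≤ ∏ p ∈ S.filter s, p :=
    Nat.one_le_iff_ne_zero.2 (Finset.prod_ne_zero_iff.2 fun p hp =>
      (Nat.one_le_iff_ne_zero.1 (h p (Finset.mem_filter.1 hp).1)))
  exact_mod_cast this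

/-- **(b1)** nominal coins with a safe block are coins -/
theorem nc_safe (hP : ParT M P A B δ ε) {K : ℕ} (h : AtW F P A B δ ε G w i K)
    (hi : 1 ≤ i) (hr : P.cut i < r) (hrK : r ≤ 2 ^ K) {q : ℕ}
    (hq : q ∈ nc (cutR P) δ P.γ (tN P (P.cut i) G w)
      ((PM F G).primeFactors.filter (P.cut i < ·)) (upp (P.cut i) w).primeFactors r)
    (hs : P.Y (P.blk q) < r) :
    q ∈ free (PM F G) w ∧ lamR F P (G * w) q = none := by
  classical
  have hq' := hq
  unfold nc at hq'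
  obtain ⟨hqQ, h1, h2, h3⟩ := Finset.mem_filter.1 hq'
  obtain ⟨hqP, hqi⟩ := Finset.mem_filter.1 hqQ
  have hqp := Nat.prime_of_mem_primeFactors hqP
  have h1' := h1
  rw [scm_eq h.hM h.hG h.hw h.hx hr h.hsq] at h1'
  obtain ⟨hf, U, k0, hh, hU, hk0, hn⟩ := h.hexc
  have hk0' : ∀ k, q ≤ 2 ^ k → k0 ≤ k := by
    intro k hk
    have h4 : 2 ^ (A * i) < 2 ^ k := by rw [← hP.cut]; exact hqi.trans_le hk
    have := (Nat.pow_lt_pow_iff_right (by norm_num : 1 < 2)).1 h4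
    omega
  have hthr := thr_safe hP hh hU hn hqp.two_le hk0' hrK h1' hs
  have h2t : (2 : ℝ) ≤ tN P (P.cut i) G w := by
    refine le_trans ?_ h.hn
    calc (2 : ℝ) = 2 ^ 1 := by norm_num
      _ ≤ 2 ^ i := pow_le_pow_right₀ (by norm_num) hi
  have hnot : q ∉ (upp (P.cut i) w).primeFactors :=
    nc_not_mem hP.hA hP.cut h2t (fun p hp => (Nat.prime_of_mem_primeFactors hp).one_le) hq
  refine ⟨?_, (nc_coin hP.hL h.hM hP.cut_mono hP.Y_mono h.hG h.hw h.hx hr h.hsq hq hthr).2⟩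
  rw [mem_free]
  refine ⟨hqP, ?_⟩
  have h4 : w.factorization q = 0 := by
    have h5 : (upp (P.cut i) w).factorization q = 0 := by
      by_contra hc
      apply hnot
      rw [← Nat.support_factorization]
      exact Finsupp.mem_support_iff.2 hc
    rw [fact_upp, if_pos (by omega)] at h5
    exact h5
  rw [h4]
  exact hqp.factorization_pos_of_dvd (PM_pos G).ne' (Nat.dvd_of_mem_primeFactors hqP)

/-- **(b2)** the block of `r` -/
theorem sum_unsafe (hP : ParT M P A B δ ε) (hr2 : 2 ≤ r) (T : Finset ℕ)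
    (hT : ∀ q ∈ T, q.Prime ∧ q < r ∧ r ≤ P.Y (P.blk q)) : ∑ q ∈ T, (1 : ℝ) / q ≤ 6 / Real.log r := by
  refine sum_half hr2 T fun q hq => ?_
  obtain ⟨h1, h2, h3⟩ := hT q hq
  refine ⟨h1, ?_, h2.le⟩
  have h4 : P.Y (P.blk q - 1) < q := Y_lt hP.Y0 h1.two_le
  rw [hP.Y] at h3 h4
  have h5 : (2 : ℕ) ^ P.blk q ≤ 2 * 2 ^ (P.blk q - 1) := by
    rcases Nat.eq_zero_or_pos (P.blk q) with h | h
    · rw [h]; norm_num
    · rw [← pow_succ']
      exact Nat.pow_le_pow_right (by norm_num) (by omega)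
  simp only at h3 h4
  omega

/-- **(b3)** product of the coins in `(cut i, cut j]` ⟹ mass of the nominal coins before `r` -/
theorem lam_nc (hP : ParT M P A B δ ε) {K : ℕ} (h : AtW F P A B δ ε G w i K)
    (hi : 1 ≤ i) (hr : P.cut i < r) (hrK : r ≤ 2 ^ K) {j : ℕ} (hj : r ≤ P.cut j) {s : ℝ}
    (hs : s ≤ 1 / 2)
    (hW : 1 - ∏ p ∈ (free (PM F G) w).filter fun p => P.cut i < p ∧ p ≤ P.cut j ∧
      lamR F P (G * w) p = none, (1 - 1 / (p : ℝ)) ≤ s) :
    ∑ q ∈ nc (cutR P) δ P.γ (tN P (P.cut i) G w)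
      ((PM F G).primeFactors.filter (P.cut i < ·)) (upp (P.cut i) w).primeFactors r, (1 : ℝ) / q ≤
      2 * s + 6 / Real.log r := by
  classical
  set T := nc (cutR P) δ P.γ (tN P (P.cut i) G w)
      ((PM F G).primeFactors.filter (P.cut i < ·)) (upp (P.cut i) w).primeFactors r with hT
  have hTm : ∀ q ∈ T, q.Prime ∧ P.cut i < q ∧ q < r := by
    intro q hq
    have hq' := hq
    rw [hT] at hq'
    unfold nc at hq'
    obtain ⟨hqQ, _, h2, _⟩ := Finset.mem_filter.1 hq'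
    obtain ⟨hqP, hqi⟩ := Finset.mem_filter.1 hqQ
    exact ⟨Nat.prime_of_mem_primeFactors hqP, hqi, h2⟩
  rw [← Finset.sum_filter_add_sum_filter_not T (fun q => P.Y (P.blk q) < r)]
  have h1 : ∑ q ∈ T.filter (fun q => P.Y (P.blk q) < r), (1 : ℝ) / q ≤ 2 * s := by
    refine sum_le_of_prod (fun q hq => (hTm q (Finset.mem_filter.1 hq).1).1.two_le) hs ?_
    refine le_trans (sub_le_sub_left ?_ 1) hW
    have hsub : T.filter (fun q => P.Y (P.blk q) < r) ⊆
        (free (PM F G) w).filter fun p => P.cut i < p ∧ p ≤ P.cut j ∧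
          lamR F P (G * w) p = none := by
      intro q hq
      obtain ⟨hq1, hq2⟩ := Finset.mem_filter.1 hq
      obtain ⟨_, h3, h4⟩ := hTm q hq1
      obtain ⟨h5, h6⟩ := nc_safe hP h hi hr hrK hq1 hq2
      exact Finset.mem_filter.2 ⟨h5, h3, h4.le.trans hj, h6⟩
    have hfac : ∀ p ∈ (free (PM F G) w).filter fun p => P.cut i < p ∧ p ≤ P.cut j ∧
          lamR F P (G * w) p = none, 0 ≤ 1 - 1 / (p : ℝ) ∧ 1 - 1 / (p : ℝ) ≤ 1 := by
      intro p hp
      have hpp := Nat.prime_of_mem_primeFactors (mem_free.1 (Finset.mem_filter.1 hp).1).1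
      have h3 : (2 : ℝ) ≤ p := by exact_mod_cast hpp.two_le
      have h4 : 1 / (p : ℝ) ≤ 1 / 2 := one_div_le_one_div_of_le (by norm_num) h3
      have h5 : 0 ≤ 1 / (p : ℝ) := by positivity
      constructor <;> linarith
    rw [← Finset.prod_sdiff hsub]
    refine mul_le_of_le_one_left (Finset.prod_nonneg fun p hp => (hfac p (hsub hp)).1)
      (Finset.prod_le_one (fun p hp => (hfac p (Finset.sdiff_subset hp)).1)
        fun p hp => (hfac p (Finset.sdiff_subset hp)).2)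
  have h2 : ∑ q ∈ T.filter (fun q => ¬ P.Y (P.blk q) < r), (1 : ℝ) / q ≤ 6 / Real.log r := by
    refine sum_unsafe hP ?_ _ fun q hq => ?_
    · have : 1 ≤ P.cut i := by rw [hP.cut]; exact Nat.one_le_two_pow
      omega
    · obtain ⟨hq1, hq2⟩ := Finset.mem_filter.1 hq
      obtain ⟨h3, _, h4⟩ := hTm q hq1
      exact ⟨h3, h4, not_lt.1 hq2⟩
  linarith

/-- the error term at the node: `6 / log r ≤ 9 / (A i)` -/
lemma err_le (hP : ParT M P A B δ ε) (hi : 1 ≤ i) (hr : P.cut i < r) :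
    6 / Real.log r ≤ 9 / ((A : ℝ) * i) := by
  have hA0 : (0 : ℝ) < A := by exact_mod_cast hP.hA
  have hi0 : (0 : ℝ) < i := by exact_mod_cast hi
  have h1 : (2 : ℝ) ^ (A * i) ≤ r := by
    have : P.cut i ≤ r := hr.le
    rw [hP.cut] at this
    exact_mod_cast this
  have h2 : (A : ℝ) * i * Real.log 2 ≤ Real.log r := by
    have := Real.log_le_log (by positivity) h1
    rw [Real.log_pow] at this
    push_cast at this
    exact this
  have h3 : (0.6931471803 : ℝ) < Real.log 2 := Real.log_two_gt_d9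
  have h4 : 0 < (A : ℝ) * i := mul_pos hA0 hi0
  rw [div_le_div_iff₀ (by nlinarith) h4]
  nlinarith

/-! ### in the world of a core (`GWinst_982`, `F5a_726`) -/

open Crest.Agent.R4C.GWdefx982 Crest.Agent.R4C.GWinstx982

lemma primeFactors_upp {x n : ℕ} (_hn : n ≠ 0) :
    (upp x n).primeFactors = n.primeFactors.filter (x < ·) := by
  ext p
  rw [← Nat.support_factorization, Finsupp.mem_support_iff, fact_upp, Finset.mem_filter,
    ← Nat.support_factorization, Finsupp.mem_support_iff]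
  by_cases h : p ≤ x
  · simp only [h, not_true_eq_false, if_false, ne_eq, not_lt.2 h, and_false]
  · simp only [h, not_false_eq_true, if_true, ne_eq, not_le.1 h, and_true]

/-- the two floors agree -/
lemma floor_logb {τ : ℝ} (h : 1 ≤ τ) : ⌊Real.logb 2 τ⌋₊ = Nat.log 2 ⌊τ⌋₊ := by
  have h0 : 0 < τ := by linarith
  rw [Nat.floor_eq_iff (Real.logb_nonneg (by norm_num) h)]
  constructor
  · rw [Real.le_logb_iff_rpow_le (by norm_num) h0, Real.rpow_natCast]
    exact two_pow_le h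
  · rw [Real.logb_lt_iff_lt_rpow (by norm_num) h0]
    have := lt_two_pow τ
    calc τ < 2 ^ (Nat.log 2 ⌊τ⌋₊ + 1) := this
      _ = (2 : ℝ) ^ ((Nat.log 2 ⌊τ⌋₊ : ℝ) + 1) := by
          rw [← Real.rpow_natCast]; push_cast; rfl

/-- the cut function of `F5a_726` is `cutR` -/
lemma cutf_eq {σ K1 c : ℝ} {G0 : ℕ} {τ : ℝ} (h : 1 ≤ τ) :
    (inst F P G0 σ K1 c).cutf τ = cutR P τ := by
  unfold World.cutf cutR
  rw [floor_logb h]
  rfl

/-- `nc` with the two cut functions -/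
lemma nc_congr {cut cut' : ℝ → ℝ} (h : ∀ τ, 1 ≤ τ → cut τ = cut' τ) {γ t : ℝ} {Q S : Finset ℕ}
    {r : ℕ} (ht : 1 ≤ t) (hS : ∀ p ∈ S, 1 ≤ p) : nc cut δ γ t Q S r = nc cut' δ γ t Q S r := by
  classical
  unfold nc
  have h1 : 1 ≤ t * ((∏ p ∈ S.filter (· < r), p : ℕ) : ℝ) := by
    have := one_le_prodS hS (· < r)
    nlinarith
  rw [h _ h1]

/-- **F5 (b) in the world of a core** -/
theorem lam_nc_world (hP : ParT M P A B δ ε) (hun : ∀ n, ∃ i, n ≤ P.cut i) {G0 w i K j r : ℕ}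
    {σ K1 c : ℝ} (hM : 0 < M) (hG : G0 ∈ cores F) (hw : w ∣ PM F G0)
    (hnd : (inst F P G0 σ K1 c).nd i w) (hi : 1 ≤ i)
    (hsq : Squarefree (upp (P.cut i) w)) {h : ℕ → ℝ} {U : ℝ} {k0 : ℕ} (hh : ∀ k, hA A k ≤ h k)
    (hU : U = δ / ε) (hk0 : k0 ≤ A * i + 1) (hKM : M ≤ 2 ^ K)
    (hexc : ¬ ExcF F (ind B) P.L h (HU U) k0 K (G0 * w))
    (hr : r ∈ (inst F P G0 σ K1 c).Lt i w) (hj : r ≤ P.cut j) {s : ℝ} (hs : s ≤ 1 / 2)
    (hW : 1 - (inst F P G0 σ K1 c).Wp (P.cut i) (P.cut j) w ≤ s) :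
    ∑ q ∈ nc (inst F P G0 σ K1 c).cutf δ P.γ ((inst F P G0 σ K1 c).tt i w)
      ((inst F P G0 σ K1 c).Lt i (PM F G0)) ((inst F P G0 σ K1 c).Lt i w) r, (1 : ℝ) / q ≤
      2 * s + 9 / ((A : ℝ) * i) := by
  classical
  have hiZ : (inst F P G0 σ K1 c).i0 ≤ i := hnd.1
  have hx : D F G0 ≤ P.cut i :=
    D_le_cut hP.cut_mono hun ((le_max_right _ _).trans hiZ)
  have hn : (2 : ℝ) ^ i ≤ tN P (P.cut i) G0 w := by
    unfold tN
    rw [le_div_iff₀ hP.hL]
    exact hnd.2.1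
  have hr' : r ∈ (upp (P.cut i) w).primeFactors := hr
  have hrp := Nat.prime_of_mem_primeFactors hr'
  have hw0 : w ≠ 0 := (Nat.pos_of_dvd_of_pos hw (PM_pos G0)).ne'
  have hri : P.cut i < r := by
    rw [primeFactors_upp hw0] at hr'
    exact (Finset.mem_filter.1 hr').2
  have hrM : r ≤ M := by
    have h1 : r ∣ w := (Nat.dvd_of_mem_primeFactors hr').trans (upp_dvd_self _ _)
    have h2 : r ∣ G0 * w := h1.mul_left _
    exact Nat.le_of_dvd hM (h2.trans (mul_dvd hM hG hw))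
  have hat : AtW F P A B δ ε G0 w i K :=
    ⟨hM, hG, hw, hx, hsq, hn, h, U, k0, hh, hU, hk0, hexc⟩
  have e0 : (inst F P G0 σ K1 c).Wp (P.cut i) (P.cut j) w =
      ∏ p ∈ (free (PM F G0) w).filter fun p => P.cut i < p ∧ p ≤ P.cut j ∧
        lamR F P (G0 * w) p = none, (1 - 1 / (p : ℝ)) := by
    unfold World.Wp
    refine Finset.prod_congr ?_ fun _ _ => rfl
    ext p
    simp only [Finset.mem_filter]
    rfl
  rw [e0] at hW
  have h1 := lam_nc hP hat hi hri (hrM.trans hKM) hj hs hW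
  have h2 := err_le hP hi hri
  have e1 : nc (inst F P G0 σ K1 c).cutf δ P.γ ((inst F P G0 σ K1 c).tt i w)
      ((inst F P G0 σ K1 c).Lt i (PM F G0)) ((inst F P G0 σ K1 c).Lt i w) r =
      nc (cutR P) δ P.γ (tN P (P.cut i) G0 w)
      ((PM F G0).primeFactors.filter (P.cut i < ·)) (upp (P.cut i) w).primeFactors r := by
    have e2 : (inst F P G0 σ K1 c).Lt i (PM F G0) =
        (PM F G0).primeFactors.filter (P.cut i < ·) := primeFactors_upp (PM_pos G0).ne'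
    rw [e2]
    refine nc_congr (fun τ hτ => cutf_eq hτ) ?_ ?_
    · refine le_trans ?_ hn
      exact one_le_pow₀ (by norm_num)
    · exact fun p hp => (Nat.prime_of_mem_primeFactors hp).one_le
  rw [e1]
  linarith

/-- **F5 (a) + (b)**: small `Y` ⟹ a BAD word of block NH, with `2 s + 9 / (A i)` -/
theorem bad_of_Y (hP : ParT M P A B δ ε) (hun : ∀ n, ∃ i, n ≤ P.cut i) {G0 w i K : ℕ}
    {σ K1 c : ℝ} (hZ : (inst F P G0 σ K1 c).Ok) (hX : (inst F P G0 σ K1 c).Ext δ)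
    (hM : 0 < M) (hG : G0 ∈ cores F) (hw : w ∣ PM F G0)
    (hnd : (inst F P G0 σ K1 c).nd i w) (hsq : Squarefree (upp (P.cut i) w)) {h : ℕ → ℝ} {U : ℝ}
    {k0 : ℕ} (hh : ∀ k, hA A k ≤ h k) (hU : U = δ / ε) (hk0 : k0 ≤ A * i + 1) (hKM : M ≤ 2 ^ K)
    (hexc : ¬ ExcF F (ind B) P.L h (HU U) k0 K (G0 * w)) {s : ℝ} (hs : s ≤ 1 / 2)
    (hY : (inst F P G0 σ K1 c).Y ((inst F P G0 σ K1 c).zone i w) w ≤ s) :
    Bad (inst F P G0 σ K1 c).cutf δ P.γ ((inst F P G0 σ K1 c).tt i w)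
      (2 * s + 9 / ((A : ℝ) * i)) ((inst F P G0 σ K1 c).Lt i (PM F G0))
      ((inst F P G0 σ K1 c).Lt i w) := by
  have hi : 1 ≤ i := by
    have h1 := hZ.hi0
    have h2 := hnd.1
    omega
  refine World.bad_of_Y_sum hZ hX hw hnd hsq (by linarith) hY ?_
  intro r hr j _ hrj hW
  exact lam_nc_world hP hun hM hG hw hnd hi hsq hh hU hk0 hKM hexc hr hrj hs hW

end rule

/-- the rule of the text (`SpineDef_946`) -/
theorem parT_ParOf {cp : ℝ} {A m0 : ℕ} {γ L : ℝ} {M : ℕ} {B : Finset ℕ} (hA : 1 ≤ A)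
    (hL : 0 < L) :
    ParT M (Crest.Agent.R4C.Spinex946.ParOf cp A m0 γ L M B) A B (1 / (4 * (A : ℝ))) (1 / 20) where
  hA := hA
  hL := hL
  cut := fun _ => rfl
  Y := rfl
  thr := fun _ _ => rfl
  hδ := by positivity
  hε := by norm_num

end Crest.Agent.R4C.F5bx20
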