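import Crest.Agent.R4C.NodeMassR_634
import Crest.Agent.R4C.DictA_20
import Crest.Agent.R4C.GWinst_982
import Crest.Agent.R4C.SpineDef_946

/-!
# Leaf (F5d) of the scalar GW section: heavy exceptions in the prefix world of a core (helper634)

* `Hvy F B L A i b` : some full dyadic block above `2^(A i)` with short prefix has `ThS` larger
  than `V^(δ/ε)`.
* `thr_of_nc` : for a word that is not `Hvy`, a nominal coin `q` of the gap before `r` whose block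
  ends below `r` has threshold `≤ (2^(blk q - 1))^δ`; `coin_of_nc` : it is a coin of the rule.
* `f5d` : the words of a node `ν` that are `Hvy` have mass `≤ C 2^(-2 ν.1) g ν`.
* `ev_x0` : the only condition on the constants.
-/

set_option autoImplicit false

open Finset

namespace Crest.Agent.R4C.F5dx634

open Crest.Agent.R4C.Basex935 Crest.Agent.R4C.Cutx50 Crest.Agent.R4C.Lawx69
  Crest.Agent.R4C.FLDefx935 Crest.Agent.R4C.FLShx326 Crest.Agent.R4C.NodeMassx634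
  Crest.Agent.R4C.Rulex945 Crest.Agent.R4C.PureClsx863 Crest.Agent.R4C.NodeMassRx634
  Crest.Agent.R4C.Spinex946 Crest.Agent.R4C.GWdefx982 Crest.Agent.R4C.GWinstx982
  Crest.Agent.R4C.DictAx20 Crest.Agent.R4C.NHx656
open Crest.Agent.R4C.FLExx326 (ind ind_nonneg)

/-- heavy word at the node index `i` -/
def Hvy {M : ℕ} (F : FL M) (B : Finset ℕ) (L : ℝ) (A i b : ℕ) : Prop :=
  ExcF F (ind B) L (fun k => 2 * (2 : ℝ) ^ (1 / (A : ℝ) * k)) (HU (5 / (A : ℝ))) (A * i + 1)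
    (M + 1) b

lemma Hvy.mono {M : ℕ} {F : FL M} {B : Finset ℕ} {L : ℝ} {A i j b : ℕ} (h : Hvy F B L A j b)
    (hij : i ≤ j) : Hvy F B L A i b := by
  obtain ⟨k, h1, h2, h3⟩ := h
  exact ⟨k, le_trans (by have := Nat.mul_le_mul_left A hij; omega) h1, h2, h3⟩

lemma div_eps {A : ℕ} (hA : 1 ≤ A) : (1 / (4 * (A : ℝ))) / (1 / 20) = 5 / (A : ℝ) := by
  have : (A : ℝ) ≠ 0 := by
    have : 0 < A := hA
    exact_mod_cast this.ne'
  field_simp
  norm_num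

section dict

variable {cp γ L : ℝ} {A m0 M : ℕ} {B : Finset ℕ} {F : FL M}

/-- **threshold at the nominal coins of the full blocks** -/
theorem thr_of_nc (hM : 0 < M) (hA : 1 ≤ A) (hL : 0 < L) {G w i r q : ℕ}
    (hG : G ∈ cores F) (hw : w ∣ PM F G) (hx : D F G ≤ 2 ^ (A * i))
    (hlive : (2 : ℝ) ^ i * L ≤ ((G * low (2 ^ (A * i)) w : ℕ) : ℝ))
    (hxr : 2 ^ (A * i) < r) (hsq : Squarefree (upp (2 ^ (A * i)) w)) {δ : ℝ} {Q : Finset ℕ}
    (hQ : ∀ p ∈ Q, 2 ≤ p ∧ p ≤ M)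
    (hq : q ∈ nc (cutR (ParOf cp A m0 γ L M B)) δ γ
      (tN (ParOf cp A m0 γ L M B) (2 ^ (A * i)) G w) Q (upp (2 ^ (A * i)) w).primeFactors r)
    (hqr : 2 ^ ((ParOf cp A m0 γ L M B).blk q) < r) (hn : ¬ Hvy F B L A i (G * w)) :
    (ParOf cp A m0 γ L M B).thr (G * w) ((ParOf cp A m0 γ L M B).blk q) ≤
      (((2 : ℕ) ^ ((ParOf cp A m0 γ L M B).blk q - 1) : ℕ) : ℝ) ^ (1 / (4 * (A : ℝ))) := by
  classical
  set P := ParOf cp A m0 γ L M B with hP
  have hY : StrictMono P.Y := fun a b h => Nat.pow_lt_pow_right (by norm_num) h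
  have hcut : Monotone P.cut := fun a b h =>
    Nat.pow_le_pow_right (by norm_num) (Nat.mul_le_mul_left A h)
  unfold nc at hq
  rw [Finset.mem_filter] at hq
  obtain ⟨hqQ, h1, h2, _⟩ := hq
  have hq2 := hQ q hqQ
  set k := P.blk q with hk
  have hqk : q ≤ 2 ^ k := Par.le_blk hY q
  have hkq : 2 ^ (k - 1) < q := Y_lt (P := P) (by show 2 ^ 0 ≤ 1; norm_num) hq2.1
  have hscm := scm_eq (P := P) hM hG hw hx hxr hsq
  set z : ℝ := ((∏ p ∈ (upp (2 ^ (A * i)) w).primeFactors.filter (· < r), p : ℕ) : ℝ) with hz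
  have hz1 : (1 : ℝ) ≤ z := by
    rw [hz]
    have : 0 < ∏ p ∈ (upp (2 ^ (A * i)) w).primeFactors.filter (· < r), p :=
      Finset.prod_pos fun p hp => (Nat.prime_of_mem_primeFactors (Finset.mem_filter.1 hp).1).pos
    exact_mod_cast this
  have ht : (2 : ℝ) ^ i ≤ tN P (2 ^ (A * i)) G w := by
    unfold tN
    rw [le_div_iff₀ (show (0 : ℝ) < P.L from hL)]
    exact hlive
  set t := tN P (2 ^ (A * i)) G w with htdef
  have hti : (2 : ℝ) ^ i ≤ t * z := by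
    have : (0 : ℝ) ≤ t := le_trans (by positivity) ht
    nlinarith
  -- the block lies above the cut
  have hki : A * i + 1 ≤ k := by
    have h3 : (P.cut i : ℝ) ≤ cutR P (t * z) := le_cutR_of hcut hti
    have h4 : P.cut i < q := by exact_mod_cast lt_of_le_of_lt h3 h1
    have h5 : 2 ^ (A * i) < 2 ^ k := lt_of_lt_of_le h4 hqk
    have := (Nat.pow_lt_pow_iff_right (a := 2) (by norm_num)).1 h5
    omega
  have hkM : k < M + 1 := by
    have h3 : 2 ^ (k - 1) < 2 ^ M := lt_of_lt_of_le hkq (hq2.2.trans Nat.lt_two_pow_self.le)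
    have := (Nat.pow_lt_pow_iff_right (a := 2) (by norm_num)).1 h3
    omega
  have huu : (F.uu (2 ^ k) (G * w) : ℝ) ≤ 2 * (2 : ℝ) ^ (1 / (A : ℝ) * k) * L := by
    have h3 : F.uu (2 ^ k) (G * w) ∣ F.uu (r - 1) (G * w) := FL.uu_dvd_uu (by omega)
    have h4 : (F.uu (2 ^ k) (G * w) : ℝ) ≤ F.uu (r - 1) (G * w) := by
      exact_mod_cast Nat.le_of_dvd (FL.uu_pos _ _) h3
    have h5 := lt_two_pow (t * z)
    set j := Nat.log 2 ⌊t * z⌋₊ with hj
    have h6 : P.cut j < q := by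
      unfold cutR at h1
      exact_mod_cast h1
    have h7 : 2 ^ (A * j) < 2 ^ k := lt_of_lt_of_le h6 hqk
    have h8 : A * j < k := (Nat.pow_lt_pow_iff_right (a := 2) (by norm_num)).1 h7
    have hA0 : (0 : ℝ) < A := by exact_mod_cast hA
    have h9 : (j : ℝ) ≤ 1 / (A : ℝ) * k := by
      rw [one_div_mul_eq_div, le_div_iff₀ hA0]
      have h10 : ((A * j : ℕ) : ℝ) ≤ k := by exact_mod_cast h8.le
      push_cast at h10
      linarith
    have h10 : (2 : ℝ) ^ j ≤ (2 : ℝ) ^ (1 / (A : ℝ) * k) := by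
      rw [← Real.rpow_natCast]
      exact Real.rpow_le_rpow_of_exponent_le (by norm_num) h9
    have h11 : (F.uu (r - 1) (G * w) : ℝ) = t * z * L := by
      rw [hscm]
      show _ = _ / L * L
      rw [div_mul_cancel₀ _ hL.ne']
    rw [h11] at h4
    refine h4.trans (mul_le_mul_of_nonneg_right ?_ hL.le)
    rw [pow_succ] at h5
    linarith
  have hE : HU ((1 / (4 * (A : ℝ))) / (1 / 20)) = HU (5 / (A : ℝ)) := by rw [div_eps hA]
  refine thr_of_not_exc (F := F) (L := L) (h := fun k => 2 * (2 : ℝ) ^ (1 / (A : ℝ) * k))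
    (k0 := A * i + 1) (K := M + 1) (ind_nonneg B) (by norm_num) ?_ hki hkM huu
  rw [hE]
  exact hn

/-- **nominal coins of full blocks are coins** -/
theorem coin_of_nc (hM : 0 < M) (hA : 1 ≤ A) (hL : 0 < L) {G w i r q : ℕ}
    (hG : G ∈ cores F) (hw : w ∣ PM F G) (hx : D F G ≤ 2 ^ (A * i))
    (hlive : (2 : ℝ) ^ i * L ≤ ((G * low (2 ^ (A * i)) w : ℕ) : ℝ))
    (hxr : 2 ^ (A * i) < r) (hsq : Squarefree (upp (2 ^ (A * i)) w)) {Q : Finset ℕ}
    (hQ : ∀ p ∈ Q, 2 ≤ p ∧ p ≤ M)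
    (hq : q ∈ nc (cutR (ParOf cp A m0 γ L M B)) (1 / (4 * (A : ℝ))) γ
      (tN (ParOf cp A m0 γ L M B) (2 ^ (A * i)) G w) Q (upp (2 ^ (A * i)) w).primeFactors r)
    (hqr : 2 ^ ((ParOf cp A m0 γ L M B).blk q) < r) (hn : ¬ Hvy F B L A i (G * w)) :
    lamR F (ParOf cp A m0 γ L M B) (G * w) q = none := by
  classical
  set P := ParOf cp A m0 γ L M B with hP
  have hY : StrictMono P.Y := fun a b h => Nat.pow_lt_pow_right (by norm_num) h
  have hcut : Monotone P.cut := fun a b h =>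
    Nat.pow_le_pow_right (by norm_num) (Nat.mul_le_mul_left A h)
  have hqQ : q ∈ Q := by
    unfold nc at hq
    exact (Finset.mem_filter.1 hq).1
  have hq2 := hQ q hqQ
  have h1 := thr_of_nc hM hA hL hG hw hx hlive hxr hsq hQ hq hqr hn
  have hq0 : (0 : ℝ) < q := by
    have : 0 < q := by omega
    exact_mod_cast this
  have hkq : 2 ^ (P.blk q - 1) < q := Y_lt (P := P) (by show 2 ^ 0 ≤ 1; norm_num) hq2.1
  have h2 : (((2 : ℕ) ^ (P.blk q - 1) : ℕ) : ℝ) ^ (1 / (4 * (A : ℝ))) ≤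
      (q : ℝ) ^ (1 / (4 * (A : ℝ))) :=
    Real.rpow_le_rpow (Nat.cast_nonneg _) (by exact_mod_cast hkq.le) (by positivity)
  have h3 : (0 : ℝ) < (q : ℝ) ^ (1 / (4 * (A : ℝ))) := Real.rpow_pos_of_pos hq0 _
  exact (nc_coin (P := P) hL hM hcut hY hG hw hx hxr hsq hq (by linarith)).2

end dict

/-! ### The mass of the heavy words -/

open Classical in
/-- **(F5d)** -/
theorem f5d {A : ℕ} (hA : 1 ≤ A) : ∃ C : ℝ, 0 ≤ C ∧
    ∀ (η cp γ σ K1 c L : ℝ) (m0 M : ℕ) (B : Finset ℕ) (F : FL M) (x0 : ℕ),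
      Setup η L M B F →
      (∀ q : ℕ, q.Prime → x0 < q → 1 / (q : ℝ) ≤ sA η * (q : ℝ) ^ (-(sE η))) →
      x0 ≤ 2 ^ (A * m0) → ∀ G ∈ cores F, ∀ ν : Node,
      ∑ w ∈ ((inst F (ParOf cp A m0 γ L M B) G σ K1 c).S ν).filter
          (fun w => Hvy F B L A ν.1 (G * w)), nu (PM F G) w ≤
        C * (2 : ℝ) ^ (-(2 * (ν.1 : ℝ))) * (inst F (ParOf cp A m0 γ L M B) G σ K1 c).g ν := by
  have hA0 : (0 : ℝ) < A := by exact_mod_cast hA
  obtain ⟨C, hC, h⟩ := exc_class (a := 1 / (A : ℝ)) (U := 5 / (A : ℝ)) (Ch := 2)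
    (by rw [div_lt_div_iff₀ hA0 hA0]; linarith) (by norm_num)
  refine ⟨C, hC, fun η cp γ σ K1 c L m0 M B F x0 S hq hx0 G hG ν => ?_⟩
  set P := ParOf cp A m0 γ L M B with hP
  set Z := inst F P G σ K1 c with hZ
  have hcut : Monotone P.cut := fun a b h =>
    Nat.pow_le_pow_right (by norm_num) (Nat.mul_le_mul_left A h)
  have hun : ∀ n, ∃ i, n ≤ P.cut i := fun n => ⟨n, by
    show n ≤ 2 ^ (A * n)
    calc n ≤ 2 ^ n := Nat.lt_two_pow_self.le
      _ ≤ 2 ^ (A * n) := Nat.pow_le_pow_right (by norm_num) (Nat.le_mul_of_pos_left n hA)⟩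
  have hg0 : 0 ≤ Z.g ν := nu_nonneg _ _
  rcases (Z.S ν).eq_empty_or_nonempty with he | ⟨w0, hw0⟩
  · rw [he, Finset.filter_empty, Finset.sum_empty]
    exact mul_nonneg (mul_nonneg hC (by positivity)) hg0
  · have hmem : ∀ w, w ∈ Z.S ν → w ∣ PM F G ∧ Z.nd ν.1 w ∧ Z.lab ν.1 w = ν := by
      intro w hw
      unfold World.S at hw
      rw [Finset.mem_filter] at hw
      exact ⟨Nat.dvd_of_mem_divisors hw.1, hw.2.1, hw.2.2⟩
    have hlow : ∀ w, w ∈ Z.S ν → low (P.cut ν.1) w = ν.2.1 := by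
      intro w hw
      have h1 := (hmem w hw).2.2
      have h2 : (Z.lab ν.1 w).2.1 = ν.2.1 := by rw [h1]
      exact h2
    obtain ⟨hw0d, hnd, _⟩ := hmem w0 hw0
    have hi0 : max P.m0 (iD F P G) ≤ ν.1 := hnd.1
    have hDx : D F G ≤ P.cut ν.1 := D_le_cut hcut hun ((le_max_right _ _).trans hi0)
    have hm0 : m0 ≤ ν.1 := (le_max_left _ _).trans hi0
    have hx0' : x0 ≤ P.cut ν.1 := hx0.trans (hcut hm0)
    have h1 := h M F B (sA η) (sE η) x0 (P.cut ν.1) G w0 (A * ν.1 + 1) (M + 1) L S.hM S.hB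
      S.node hq hG hw0d hDx hx0' (Nat.pow_le_pow_right (by norm_num) (Nat.le_succ _))
      (Nat.succ_le_succ (Nat.zero_le _)) S.hL.le S.mass
    have h2 : ∑ w ∈ (PM F G).divisors with low (P.cut ν.1) w = low (P.cut ν.1) w0,
        nu (PM F G) w = Z.g ν := by
      rw [hlow w0 hw0]
      have hdv : ν.2.1 ∣ part (fun p => p ≤ P.cut ν.1) (PM F G) := by
        rw [← hlow w0 hw0]
        exact low_dvd _ (PM_pos G).ne' hw0d
      exact prob_part_eq (fun p => p ≤ P.cut ν.1) (PM_pos G) hdv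
    rw [h2] at h1
    have hexp : (2 : ℝ) ^ (-((5 / (A : ℝ) - 1 / (A : ℝ)) * ((A * ν.1 + 1 : ℕ) : ℝ) / 2)) ≤
        (2 : ℝ) ^ (-(2 * (ν.1 : ℝ))) := by
      refine Real.rpow_le_rpow_of_exponent_le (by norm_num) (neg_le_neg ?_)
      push_cast
      have e : (5 / (A : ℝ) - 1 / (A : ℝ)) * ((A : ℝ) * ν.1 + 1) / 2 = 2 * ν.1 + 2 / A := by
        field_simp
        ring
      rw [e]
      have : 0 ≤ 2 / (A : ℝ) := by positivity
      linarith
    calc ∑ w ∈ (Z.S ν).filter (fun w => Hvy F B L A ν.1 (G * w)), nu (PM F G) w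
        ≤ ∑ w ∈ (PM F G).divisors with low (P.cut ν.1) w = low (P.cut ν.1) w0 ∧
          ExcF F (ind B) L (fun k => 2 * (2 : ℝ) ^ (1 / (A : ℝ) * k)) (HU (5 / (A : ℝ)))
            (A * ν.1 + 1) (M + 1) (G * w), nu (PM F G) w := by
          refine Finset.sum_le_sum_of_subset_of_nonneg ?_ fun w _ _ => nu_nonneg _ _
          intro w hw
          rw [Finset.mem_filter] at hw ⊢
          refine ⟨Nat.mem_divisors.2 ⟨(hmem w hw.1).1, (PM_pos G).ne'⟩, ?_, hw.2⟩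
          rw [hlow w hw.1, hlow w0 hw0]
      _ ≤ C * (2 : ℝ) ^ (-((5 / (A : ℝ) - 1 / (A : ℝ)) * ((A * ν.1 + 1 : ℕ) : ℝ) / 2)) *
          Z.g ν := h1
      _ ≤ _ := mul_le_mul_of_nonneg_right (mul_le_mul_of_nonneg_left hexp hC) hg0

/-- the condition on the constants -/
theorem ev_x0 : Ev (fun _ η A m0 => ∃ x0 : ℕ,
    (∀ q : ℕ, q.Prime → x0 < q → 1 / (q : ℝ) ≤ sA η * (q : ℝ) ^ (-(sE η))) ∧
      x0 ≤ 2 ^ (A * m0)) := by
  have h1 : Ev (fun _ η A m0 => η < 1 → 1 ≤ A → ∃ x0 : ℕ,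
      (∀ q : ℕ, q.Prime → x0 < q → 1 / (q : ℝ) ≤ sA η * (q : ℝ) ^ (-(sE η))) ∧
        x0 ≤ 2 ^ (A * m0)) := by
    refine Ev.of_m0 fun cp η A _ hη => ?_
    by_cases h : η < 1 ∧ 1 ≤ A
    · have hT := (tree_spec hη h.1).1
      obtain ⟨x0, hx0⟩ := exists_x0 hT.A_pos hT.s_lt
      refine ⟨x0, fun m0 hm0 _ _ => ⟨x0, hx0, ?_⟩⟩
      calc x0 ≤ m0 := hm0
        _ ≤ 2 ^ m0 := Nat.lt_two_pow_self.le
        _ ≤ 2 ^ (A * m0) :=
          Nat.pow_le_pow_right (by norm_num) (Nat.le_mul_of_pos_left m0 h.2)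
    · exact ⟨0, fun m0 _ h1 h2 => absurd ⟨h1, h2⟩ h⟩
  refine (h1.and Ev.basic).mono ?_
  rintro cp η A m0 ⟨h2, h3⟩
  exact h2 h3.2.2.2.2.1 h3.2.2.2.2.2.1

end Crest.Agent.R4C.F5dx634
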