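import Crest.Agent.R4C.FLamB_326
import Crest.Agent.R4C.FLDef_935

/-!
# Row 4: the F-Λ structure exists (Lemma 1 of 2743 in helper935's interface)

`flam_strong : 0 < η → η < 1 → FLamStrong η` and `flam_statement : … → FLamStatement η`.
-/

set_option autoImplicit false

open Finset

namespace Crest.Agent.R4C.FLExx326

open Crest.Agent.R4C.Basex935 Crest.Agent.R4C.Multix251 Crest.Agent.R4C.FLamx326
  Crest.Agent.R4C.FLDefx935

/-- the primes of `M` in decreasing order -/
def PL (M : ℕ) : List ℕ := ((List.range (M + 1)).reverse).filter (fun p => p ∈ M.primeFactors)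

lemma mem_PL {M p : ℕ} : p ∈ PL M ↔ p ∈ M.primeFactors := by
  unfold PL
  rw [List.mem_filter, List.mem_reverse, List.mem_range]
  constructor
  · intro h
    simpa using h.2
  · intro h
    refine ⟨?_, by simpa using h⟩
    have h1 := Nat.dvd_of_mem_primeFactors h
    have h2 : M ≠ 0 := fun h0 => by rw [h0] at h; simp at h
    have := Nat.le_of_dvd (Nat.pos_of_ne_zero h2) h1
    omega

lemma PL_pairwise (M : ℕ) : (PL M).Pairwise (fun a b => b < a) := by
  unfold PL
  refine List.Pairwise.filter _ ?_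
  rw [List.pairwise_reverse]
  exact List.pairwise_lt_range

lemma PL_nodup (M : ℕ) : (PL M).Nodup :=
  (PL_pairwise M).imp (fun h => (ne_of_lt h).symm)

/-- a decreasing list is cut at `x` by filtering -/
lemma split_list (x : ℕ) : ∀ l : List ℕ, l.Pairwise (fun a b => b < a) →
    l = l.filter (fun p => x < p) ++ l.filter (fun p => ¬ x < p) := by
  intro l
  induction l with
  | nil => intro _; simp
  | cons a l ih =>
    intro h
    rw [List.pairwise_cons] at h
    by_cases hx : x < a
    · rw [List.filter_cons_of_pos (by simpa using hx),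
        List.filter_cons_of_neg (by simpa using hx), List.cons_append, ← ih h.2]
    · have h1 : l.filter (fun p => x < p) = [] := by
        rw [List.filter_eq_nil_iff]
        intro b hb
        have := h.1 b hb
        simp only [decide_eq_true_eq]
        omega
      have h2 : l.filter (fun p => ¬ x < p) = l := by
        rw [List.filter_eq_self]
        intro b hb
        have := h.1 b hb
        simp only [decide_eq_true_eq]
        omega
      rw [List.filter_cons_of_neg (by simpa using hx),
        List.filter_cons_of_pos (by simpa using hx), h1, h2]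
      rfl

/-- centres are letters of `M` -/
lemma cen_le {M : ℕ} (hM : 0 < M) {x f : ℕ → ℝ} (hf : ∀ b, 0 ≤ f b) {p v : ℕ}
    (h : cen M x f p = some v) : v ≤ M.factorization p := by
  classical
  by_contra hv
  push Not at hv
  have h1 := cen_some h
  have h2 : Ex M (off f p v) = Ex M f := by
    unfold Ex
    refine sum_congr rfl fun b hb => ?_
    have h3 := letter_le hM (Nat.dvd_of_mem_divisors hb) p
    unfold off
    rw [if_neg (by omega)]
  have h4 : Ex M (off f p 0) ≤ Ex M f := by
    have := Ex_off (M := M) f p 0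
    have h5 := Ex_nonneg (M := M) (res_nonneg hf p 0)
    linarith
  have h5 : Ex M (off f p 0) ≤ x p * Ex M f := by
    rw [h2] at h1
    exact h4.trans h1
  unfold cen at h
  have hex : ∃ v0, Ex M (off f p v0) ≤ x p * Ex M f := ⟨0, h5⟩
  rw [dif_pos hex, Option.some.injEq] at h
  have h6 : Nat.find hex ≤ 0 := Nat.find_min' hex h5
  omega

lemma st_le {M : ℕ} (hM : 0 < M) {x : ℕ → ℝ} (ps : List ℕ) :
    ∀ {f : ℕ → ℝ}, (∀ b, 0 ≤ f b) → ∀ {b r v : ℕ}, st M x ps f b r = some v →
      v ≤ M.factorization r := by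
  induction ps with
  | nil => intro f _ b r v h; simp [st] at h
  | cons p ps ih =>
    intro f hf b r v h
    by_cases hr : r = p
    · subst hr
      rw [st_self] at h
      exact cen_le hM hf h
    · cases hc : cen M x f p with
      | some v0 =>
        rw [st_some hc b hr] at h
        exact ih hf h
      | none =>
        rw [st_none hc b hr] at h
        exact ih (res_nonneg hf p _) h

lemma st_coh {M : ℕ} {x : ℕ → ℝ} {p : ℕ} (ps : List ℕ) :
    ps.Pairwise (fun a b => b < a) → p ∈ ps → ∀ {f : ℕ → ℝ} {b c : ℕ},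
      (∀ q ∈ ps, p < q → st M x ps f b q = none → b.factorization q = c.factorization q) →
      st M x ps f b p = st M x ps f c p := by
  induction ps with
  | nil => intro _ h; exact absurd h List.not_mem_nil
  | cons q qs ih =>
    intro hpw hp f b c h
    rw [List.pairwise_cons] at hpw
    by_cases hpq : p = q
    · rw [hpq, st_self, st_self]
    have hp' : p ∈ qs := (List.mem_cons.1 hp).resolve_left hpq
    have hlt : p < q := hpw.1 p hp'
    cases hc : cen M x f q with
    | some v0 =>
      rw [st_some hc b hpq, st_some hc c hpq]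
      refine ih hpw.2 hp' fun r hr hpr hst => ?_
      have hrq : r ≠ q := (hpw.1 r hr).ne
      refine h r (List.mem_cons_of_mem _ hr) hpr ?_
      rw [st_some hc b hrq]
      exact hst
    | none =>
      have e : b.factorization q = c.factorization q :=
        h q List.mem_cons_self hlt (by rw [st_self]; exact hc)
      rw [st_none hc b hpq, st_none hc c hpq, ← e]
      refine ih hpw.2 hp' fun r hr hpr hst => ?_
      have hrq : r ≠ q := (hpw.1 r hr).ne
      refine h r (List.mem_cons_of_mem _ hr) hpr ?_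
      rw [st_none hc b hrq]
      exact hst

open Classical in
/-- the status function -/
noncomputable def stat (M : ℕ) (x : ℕ → ℝ) (f : ℕ → ℝ) (b p : ℕ) : Option ℕ :=
  if p ∈ M.primeFactors then st M x (PL M) f b p else some 0

/-- the F-Λ structure of a function `f ≥ 0` -/
noncomputable def mkFL {M : ℕ} (hM : 0 < M) (x : ℕ → ℝ) (f : ℕ → ℝ) (hf : ∀ b, 0 ≤ f b) :
    FL M where
  ctr := stat M x f
  coh := by
    intro b c p _ _ _ h
    unfold stat
    by_cases hp : p ∈ M.primeFactors
    · rw [if_pos hp, if_pos hp]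
      refine st_coh (PL M) (PL_pairwise M) (mem_PL.2 hp) fun q hq hpq hst => ?_
      have hq' := mem_PL.1 hq
      refine h q (Nat.prime_of_mem_primeFactors hq') hpq ?_
      unfold stat
      rw [if_pos hq']
      exact hst
    · rw [if_neg hp, if_neg hp]
  le := by
    intro b p v _ _ h
    unfold stat at h
    by_cases hp : p ∈ M.primeFactors
    · rw [if_pos hp] at h
      exact st_le hM _ hf h
    · rw [if_neg hp, Option.some.injEq] at h
      omega

/-- good pairs of the tree cut at `x` are good pairs of `mkFL` -/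
lemma good_of_Good {M : ℕ} (hM : 0 < M) {x : ℕ → ℝ} {f : ℕ → ℝ} (hf : ∀ b, 0 ≤ f b)
    {z b c : ℕ} (hb : b ∣ M) (hg : Good M x ((PL M).filter (fun p => z < p)) f b c) :
    (mkFL hM x f hf).good z b c := by
  have hsp := split_list z (PL M) (PL_pairwise M)
  have key : ∀ q, q ∈ M.primeFactors → z < q → q ∈ (PL M).filter (fun p => z < p) ∧
      st M x (PL M) f b q = st M x ((PL M).filter (fun p => z < p)) f b q := by
    intro q hq hz
    have h1 : q ∈ (PL M).filter (fun p => z < p) := by
      rw [List.mem_filter]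
      exact ⟨mem_PL.2 hq, by simpa using hz⟩
    refine ⟨h1, ?_⟩
    conv_lhs => rw [hsp]
    exact st_append_left _ _ f b q h1
  constructor
  · intro q _ hz h
    change stat M x f b q = none at h
    unfold stat at h
    by_cases hq : q ∈ M.primeFactors
    · rw [if_pos hq] at h
      obtain ⟨h1, h2⟩ := key q hq hz
      rw [h2] at h
      exact (good_letters _ hg q h1).1 h
    · rw [if_neg hq] at h
      simp at h
  · intro q _ hz v h
    change stat M x f b q = some v at h
    unfold stat at h
    by_cases hq : q ∈ M.primeFactors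
    · rw [if_pos hq] at h
      obtain ⟨h1, h2⟩ := key q hq hz
      rw [h2] at h
      exact (good_letters _ hg q h1).2 v h
    · rw [if_neg hq, Option.some.injEq] at h
      left
      rw [← h]
      exact FL.fact_zero hM hb hq

open Classical in
/-- indicator -/
noncomputable def ind (B : Finset ℕ) (b : ℕ) : ℝ := if b ∈ B then 1 else 0

lemma ind_nonneg (B : Finset ℕ) (b : ℕ) : 0 ≤ ind B b := by
  unfold ind; split_ifs <;> norm_num

lemma ind_le_one (B : Finset ℕ) (b : ℕ) : ind B b ≤ 1 := by
  unfold ind; split_ifs <;> norm_num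

lemma Ex_ind {M : ℕ} {B : Finset ℕ} (hB : B ⊆ M.divisors) :
    Ex M (ind B) = ∑ b ∈ B, nu M b := by
  classical
  unfold Ex ind
  rw [← sum_subset hB]
  · refine sum_congr rfl fun b hb => ?_
    rw [if_pos hb, mul_one]
  · intro b _ hb
    rw [if_neg hb, mul_zero]

/-- bad energy of `mkFL` against the tree -/
lemma badEn_le {M : ℕ} (hM : 0 < M) {B : Finset ℕ} (hB : B ⊆ M.divisors) (x : ℕ → ℝ)
    {L t : ℝ} (hL : 0 < L) (z : ℕ) :
    badEn (mkFL hM x (ind B) (ind_nonneg B)) B L t z ≤
      L * En M (t * L) (bad M x ((PL M).filter (fun p => z < p)) (ind B)) := by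
  classical
  unfold badEn
  refine mul_le_mul_of_nonneg_left ?_ hL.le
  unfold En frm
  have h0 : ∀ b c : ℕ, 0 ≤ (Nat.gcd b c : ℝ) * nu M b * nu M c *
      (if t * L ≤ (Nat.gcd b c : ℝ) ∧ (Nat.gcd b c : ℝ) < 2 * (t * L) then
        bad M x ((PL M).filter (fun p => z < p)) (ind B) b c else 0) := by
    intro b c
    have h1 := nu_nonneg M b
    have h2 := nu_nonneg M c
    have h3 := bad_nonneg (M := M) (x := x) (ps := (PL M).filter (fun p => z < p))
      (ind_nonneg B) b c
    split_ifs
    · positivity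
    · simp
  calc ∑ b ∈ B, ∑ c ∈ B, (if t * L ≤ (Nat.gcd b c : ℝ) ∧ (Nat.gcd b c : ℝ) < 2 * t * L ∧
          ¬ (mkFL hM x (ind B) (ind_nonneg B)).good z b c then
          (Nat.gcd b c : ℝ) * nu M b * nu M c else 0)
      ≤ ∑ b ∈ B, ∑ c ∈ B, (Nat.gcd b c : ℝ) * nu M b * nu M c *
        (if t * L ≤ (Nat.gcd b c : ℝ) ∧ (Nat.gcd b c : ℝ) < 2 * (t * L) then
        bad M x ((PL M).filter (fun p => z < p)) (ind B) b c else 0) := by
        refine sum_le_sum fun b hb => sum_le_sum fun c hc => ?_
        by_cases h : t * L ≤ (Nat.gcd b c : ℝ) ∧ (Nat.gcd b c : ℝ) < 2 * t * L ∧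
          ¬ (mkFL hM x (ind B) (ind_nonneg B)).good z b c
        · rw [if_pos h, if_pos ⟨h.1, by rw [← mul_assoc]; exact h.2.1⟩]
          have hng : ¬ Good M x ((PL M).filter (fun p => z < p)) (ind B) b c := fun hg =>
            h.2.2 (good_of_Good hM (ind_nonneg B) (Nat.dvd_of_mem_divisors (hB hb)) hg)
          have e : bad M x ((PL M).filter (fun p => z < p)) (ind B) b c = 1 := by
            have e1 : ind B b = 1 := by unfold ind; rw [if_pos hb]
            have e2 : ind B c = 1 := by unfold ind; rw [if_pos hc]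
            unfold bad
            rw [if_neg hng, e1, e2, mul_one]
          rw [e, mul_one]
        · rw [if_neg h]
          exact h0 b c
    _ ≤ ∑ b ∈ M.divisors, ∑ c ∈ B, (Nat.gcd b c : ℝ) * nu M b * nu M c *
        (if t * L ≤ (Nat.gcd b c : ℝ) ∧ (Nat.gcd b c : ℝ) < 2 * (t * L) then
        bad M x ((PL M).filter (fun p => z < p)) (ind B) b c else 0) :=
        sum_le_sum_of_subset_of_nonneg hB fun b _ _ => sum_nonneg fun c _ => h0 b c
    _ ≤ _ := sum_le_sum fun b _ => sum_le_sum_of_subset_of_nonneg hB fun c _ _ => h0 b c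

/-- **Lemma 1 of 2743 in 935's interface, strong form.** -/
theorem flam_strong {η : ℝ} (hη : 0 < η) (hη1 : η < 1) : FLamStrong η := by
  have hκ : 1 / 2 < (1 + η) / 2 := by linarith
  have hκ1 : (1 + η) / 2 < 1 := by linarith
  obtain ⟨C0, c, y0, hC0, hc, hy0, h⟩ := bad_energy hκ hκ1
  obtain ⟨C1, hC1, hH⟩ := hvw_ex hκ hκ1
  have e1 : 2 * ((1 + η) / 2) - 1 = η := by ring
  have e2 : 2 * ((1 + η) / 2) = 1 + η := by ring
  refine ⟨c, hc, C0 * 2 ^ c + C1 * (y0 + 1) ^ c, by positivity, fun M B L hM hB hL => ?_⟩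
  refine ⟨mkFL hM (xth ((1 + η) / 2)) (ind B) (ind_nonneg B), fun t z ht => ?_⟩
  refine (badEn_le hM hB (xth ((1 + η) / 2)) hL z).trans ?_
  set ps := (PL M).filter (fun p => z < p) with hps
  set E := Ex M (ind B) with hE
  have hE0 : 0 ≤ E := Ex_nonneg (ind_nonneg B)
  rw [← Ex_ind hB, ← hE]
  have hz0 : (0 : ℝ) ≤ z := Nat.cast_nonneg z
  have hz1 : (0 : ℝ) < (z : ℝ) + 1 := by positivity
  have hpos : 0 ≤ ((z : ℝ) + 1) ^ (-c) := Real.rpow_nonneg hz1.le _
  have key : En M (t * L) (bad M (xth ((1 + η) / 2)) ps (ind B)) ≤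
      (C0 * 2 ^ c + C1 * (y0 + 1) ^ c) * ((t * L) ^ η * ((z : ℝ) + 1) ^ (-c) * E ^ (1 + η)) := by
    have hX0 : 0 ≤ (t * L) ^ η := Real.rpow_nonneg (by positivity) _
    have hE1 : 0 ≤ E ^ (1 + η) := Real.rpow_nonneg hE0 _
    rcases le_or_gt y0 (z : ℝ) with hz | hz
    · have h1 := h M (t * L) z ps (ind B) hM (by positivity) hz
        ((PL_nodup M).filter _)
        (fun p hp => by
          rw [hps, List.mem_filter] at hp
          exact Nat.prime_of_mem_primeFactors (mem_PL.1 hp.1))
        (fun p hp => by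
          rw [hps, List.mem_filter] at hp
          have := hp.2
          simp only [decide_eq_true_eq] at this
          exact_mod_cast this)
        (ind_nonneg B) (ind_le_one B)
      rw [e1, e2, ← hE] at h1
      have h2 : (z : ℝ) ^ (-c) ≤ 2 ^ c * ((z : ℝ) + 1) ^ (-c) := by
        have h3 : ((z : ℝ) + 1) / 2 ≤ z := by linarith
        calc (z : ℝ) ^ (-c) ≤ (((z : ℝ) + 1) / 2) ^ (-c) :=
              Real.rpow_le_rpow_of_nonpos (by positivity) h3 (by linarith)
          _ = 2 ^ c * ((z : ℝ) + 1) ^ (-c) := by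
              rw [Real.div_rpow hz1.le (by norm_num), Real.rpow_neg (by norm_num : (0 : ℝ) ≤ 2),
                div_inv_eq_mul, mul_comm]
      have h4 : 0 ≤ C1 * (y0 + 1) ^ c := by positivity
      calc En M (t * L) (bad M (xth ((1 + η) / 2)) ps (ind B))
          ≤ C0 * (t * L) ^ η * (z : ℝ) ^ (-c) * E ^ (1 + η) := h1
        _ ≤ C0 * (t * L) ^ η * (2 ^ c * ((z : ℝ) + 1) ^ (-c)) * E ^ (1 + η) := by gcongr
        _ = (C0 * 2 ^ c) * ((t * L) ^ η * ((z : ℝ) + 1) ^ (-c) * E ^ (1 + η)) := by ring
        _ ≤ _ := by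
            refine mul_le_mul_of_nonneg_right (by linarith) (by positivity)
    · have h1 := hH M hM (t * L) (by positivity) (ind B) (ind B) (ind_nonneg B) (ind_le_one B)
        (ind_nonneg B) (ind_le_one B)
      have h2 : En M (t * L) (bad M (xth ((1 + η) / 2)) ps (ind B)) ≤
          En M (t * L) (fun b c => ind B b * ind B c) :=
        En_mono fun b c _ _ => bad_le (ind_nonneg B) b c
      have h3 : (E * E) ^ ((1 + η) / 2) = E ^ (1 + η) := by
        have e4 : ((2 : ℕ) : ℝ) * ((1 + η) / 2) = 1 + η := by push_cast; ring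
        rw [← pow_two, ← Real.rpow_natCast E 2, ← Real.rpow_mul hE0, e4]
      rw [e1, ← hE, h3] at h1
      have h4 : 1 ≤ (y0 + 1) ^ c * ((z : ℝ) + 1) ^ (-c) := by
        have h5 : (y0 + 1) ^ (-c) ≤ ((z : ℝ) + 1) ^ (-c) :=
          Real.rpow_le_rpow_of_nonpos hz1 (by linarith) (by linarith)
        have h6 : (y0 + 1) ^ c * (y0 + 1) ^ (-c) = 1 := by
          rw [← Real.rpow_add (by linarith)]
          simp
        calc (1 : ℝ) = (y0 + 1) ^ c * (y0 + 1) ^ (-c) := h6.symm
          _ ≤ _ := mul_le_mul_of_nonneg_left h5 (by positivity)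
      have h5 : 0 ≤ C0 * 2 ^ c := by positivity
      calc En M (t * L) (bad M (xth ((1 + η) / 2)) ps (ind B))
          ≤ C1 * (t * L) ^ η * E ^ (1 + η) := h2.trans h1
        _ = C1 * ((t * L) ^ η * E ^ (1 + η)) * 1 := by ring
        _ ≤ C1 * ((t * L) ^ η * E ^ (1 + η)) * ((y0 + 1) ^ c * ((z : ℝ) + 1) ^ (-c)) := by
            refine mul_le_mul_of_nonneg_left h4 (by positivity)
        _ = (C1 * (y0 + 1) ^ c) * ((t * L) ^ η * ((z : ℝ) + 1) ^ (-c) * E ^ (1 + η)) := by ring
        _ ≤ _ := by
            refine mul_le_mul_of_nonneg_right (by linarith) (by positivity)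
  have e3 : L * (L ^ η * E ^ (1 + η)) = (L * E) ^ (1 + η) := by
    rw [Real.mul_rpow hL.le hE0, Real.rpow_add hL, Real.rpow_one]
    ring
  calc L * En M (t * L) (bad M (xth ((1 + η) / 2)) ps (ind B))
      ≤ L * ((C0 * 2 ^ c + C1 * (y0 + 1) ^ c) *
          ((t * L) ^ η * ((z : ℝ) + 1) ^ (-c) * E ^ (1 + η))) :=
        mul_le_mul_of_nonneg_left key hL.le
    _ = (C0 * 2 ^ c + C1 * (y0 + 1) ^ c) * t ^ η * ((z : ℝ) + 1) ^ (-c) *
          (L * (L ^ η * E ^ (1 + η))) := by
        rw [Real.mul_rpow ht.le hL.le]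
        ring
    _ = _ := by rw [e3]

theorem flam_statement {η : ℝ} (hη : 0 < η) (hη1 : η < 1) : FLamStatement η :=
  FLamStatement_of_strong hη (flam_strong hη hη1)

end Crest.Agent.R4C.FLExx326
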