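import Crest.Agent.R4C.FLamE_326
import Crest.Agent.R4C.HVWt_19

/-!
# Row 4: the F-Λ tree (helper514, note 2743): Lemma 1 with explicit thresholds, general `M`

* `bad_energy` : pairs with a bad prime `> y` at scale `X ≤ gcd < 2X` cost
  `≤ C X^η y^(-c) (E f)^(1+η)`, `η = 2κ-1`;
* `bad_energy_t` : window form, `y = t^A`: `≤ C t^(-1) m^(1+η)`;
* `good_append`, `node_append`, `st_append`: cutting the list of primes;
* `gcd_dvd_uu` : for a good pair `gcd b c ∣ u(b)`, `u(b)` = the centre-capped part of `b`.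
-/

set_option autoImplicit false

open Finset

namespace Crest.Agent.R4C.FLamx326

open Crest.Agent.R4C.Basex935 Crest.Agent.R4C.Multix251

theorem hvw_ex {κ : ℝ} (hκ : 1 / 2 < κ) (hκ1 : κ < 1) : ∃ C : ℝ, 0 < C ∧ HVW κ C := by
  obtain ⟨C, hC, h⟩ := ThmRx19.hvw_b hκ hκ1
  refine ⟨C, hC, ?_⟩
  intro M hM X hX f g hf hf1 hg hg1
  have h1 := h M X f g hM.ne' hX hf hf1 hg hg1
  have h2 : En M X (fun b c => f b * g c) = ∑ b ∈ M.divisors, ∑ c ∈ M.divisors,
        (if X ≤ (Nat.gcd b c : ℝ) ∧ (Nat.gcd b c : ℝ) < 2 * X then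
          (Nat.gcd b c : ℝ) * nu M b * nu M c * (f b * g c)
        else 0) := by
    unfold En frm
    refine sum_congr rfl fun b _ => sum_congr rfl fun c _ => ?_
    by_cases hXg : X ≤ (Nat.gcd b c : ℝ) ∧ (Nat.gcd b c : ℝ) < 2 * X
    · simp only [if_pos hXg]
    · simp only [if_neg hXg, mul_zero]
  rw [h2]
  refine h1.trans (le_of_eq ?_)
  unfold Ex
  rw [← Real.mul_rpow]
  · exact sum_nonneg fun b _ => mul_nonneg (nu_nonneg M b) (hf b)
  · exact sum_nonneg fun b _ => mul_nonneg (nu_nonneg M b) (hg b)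

/-- the exponent `δ` -/
noncomputable def dl (κ : ℝ) : ℝ := (1 - κ) * (2 * κ - 1) / (4 * κ)

lemma dl_pos {κ : ℝ} (hκ : 1 / 2 < κ) (hκ1 : κ < 1) : 0 < dl κ := by
  unfold dl
  have h1 : 0 < 1 - κ := by linarith
  have h2 : 0 < 2 * κ - 1 := by linarith
  positivity

lemma dl_lt {κ : ℝ} (hκ : 1 / 2 < κ) (hκ1 : κ < 1) : dl κ < 1 - κ := by
  unfold dl
  have h1 : 0 < 1 - κ := by linarith
  rw [div_lt_iff₀ (by linarith)]
  nlinarith

/-- the threshold for passive primes, `A0 p^{-(1-δ')}` -/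
noncomputable def xth (κ : ℝ) (p : ℕ) : ℝ := x1 κ (dl κ) (1 / (p : ℝ))

lemma xth_nonneg {κ : ℝ} (hκ : 1 / 2 < κ) (p : ℕ) : 0 ≤ xth κ p := by
  unfold xth x1
  exact mul_nonneg (A0_pos (by linarith)).le (Real.rpow_nonneg (by positivity) _)

lemma xth_pow {κ : ℝ} (hκ : 1 / 2 < κ) (hκ1 : κ < 1) {p : ℕ} (hp : 0 < p) :
    xth κ p ^ (2 * κ) = A0 κ ^ (2 * κ) * (p : ℝ) ^ (-(κ + 1 / 2)) := by
  unfold xth x1
  have hp0 : (0 : ℝ) < p := by exact_mod_cast hp
  rw [Real.mul_rpow (A0_pos (by linarith)).le (Real.rpow_nonneg (by positivity) _),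
    ← Real.rpow_mul (by positivity)]
  congr 1
  rw [one_div, Real.inv_rpow hp0.le, ← Real.rpow_neg hp0.le]
  congr 1
  unfold dl
  have h1 : 1 - κ ≠ 0 := by linarith
  have h2 : κ ≠ 0 := by linarith
  field_simp
  ring

/-- sum of `n^{-s}` over a nodup list of integers `> y` -/
lemma sum_list_rpow {s : ℝ} (hs : 1 < s) :
    ∃ Z : ℝ, 0 < Z ∧ ∀ (y : ℝ), 1 ≤ y → ∀ ps : List ℕ, ps.Nodup → (∀ p ∈ ps, y < (p : ℝ)) →
      (ps.map (fun p : ℕ => (p : ℝ) ^ (-s))).sum ≤ Z * y ^ (-((s - 1) / 2)) := by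
  have hsum : Summable (fun n : ℕ => (n : ℝ) ^ (-((s + 1) / 2))) :=
    Real.summable_nat_rpow.2 (by linarith)
  refine ⟨∑' n : ℕ, (n : ℝ) ^ (-((s + 1) / 2)) + 1, ?_, ?_⟩
  · have : 0 ≤ ∑' n : ℕ, (n : ℝ) ^ (-((s + 1) / 2)) :=
      tsum_nonneg fun n => Real.rpow_nonneg (Nat.cast_nonneg n) _
    linarith
  intro y hy ps hnd hps
  classical
  have h1 : (ps.map (fun p : ℕ => (p : ℝ) ^ (-s))).sum =
      ∑ p ∈ ps.toFinset, (p : ℝ) ^ (-s) := (List.sum_toFinset _ hnd).symm
  rw [h1]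
  have h2 : ∀ p ∈ ps.toFinset, (p : ℝ) ^ (-s) ≤
      (p : ℝ) ^ (-((s + 1) / 2)) * y ^ (-((s - 1) / 2)) := by
    intro p hp
    rw [List.mem_toFinset] at hp
    have hyp := hps p hp
    have hp0 : (0 : ℝ) < p := by linarith
    have h3 : (p : ℝ) ^ (-s) = (p : ℝ) ^ (-((s + 1) / 2)) * (p : ℝ) ^ (-((s - 1) / 2)) := by
      rw [← Real.rpow_add hp0]
      congr 1
      ring
    rw [h3]
    refine mul_le_mul_of_nonneg_left ?_ (Real.rpow_nonneg hp0.le _)
    exact Real.rpow_le_rpow_of_nonpos (by linarith) hyp.le (by linarith)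
  have h4 : 0 ≤ y ^ (-((s - 1) / 2)) := Real.rpow_nonneg (by linarith) _
  calc ∑ p ∈ ps.toFinset, (p : ℝ) ^ (-s)
      ≤ ∑ p ∈ ps.toFinset, (p : ℝ) ^ (-((s + 1) / 2)) * y ^ (-((s - 1) / 2)) := sum_le_sum h2
    _ = (∑ p ∈ ps.toFinset, (p : ℝ) ^ (-((s + 1) / 2))) * y ^ (-((s - 1) / 2)) := by
        rw [sum_mul]
    _ ≤ (∑' n : ℕ, (n : ℝ) ^ (-((s + 1) / 2)) + 1) * y ^ (-((s - 1) / 2)) := by
        refine mul_le_mul_of_nonneg_right ?_ h4
        have := hsum.sum_le_tsum ps.toFinset (fun n _ => Real.rpow_nonneg (Nat.cast_nonneg n) _)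
        linarith

/-- **LEMMA 1 of 2743**: energy of the pairs having a bad prime `> y` -/
theorem bad_energy {κ : ℝ} (hκ : 1 / 2 < κ) (hκ1 : κ < 1) :
    ∃ C c y0 : ℝ, 0 < C ∧ 0 < c ∧ 1 ≤ y0 ∧
      ∀ (M : ℕ) (X y : ℝ) (ps : List ℕ) (f : ℕ → ℝ), 0 < M → 0 < X → y0 ≤ y →
        ps.Nodup → (∀ p ∈ ps, p.Prime) → (∀ p ∈ ps, y < (p : ℝ)) →
        (∀ b, 0 ≤ f b) → (∀ b, f b ≤ 1) →
        En M X (bad M (xth κ) ps f) ≤ C * X ^ (2 * κ - 1) * y ^ (-c) * Ex M f ^ (2 * κ) := by
  obtain ⟨C, hC, hH⟩ := hvw_ex hκ hκ1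
  obtain ⟨w0, hw0, hmul⟩ := multi_range hκ hκ1 (dl_lt hκ hκ1)
  obtain ⟨Z, hZ, hsum⟩ := sum_list_rpow (s := κ + 1 / 2) (by linarith)
  have hdl := dl_pos hκ hκ1
  have hA : 0 < A0 κ := A0_pos (by linarith)
  have hA2 : 0 < A0 κ ^ (2 * κ) := Real.rpow_pos_of_pos hA _
  refine ⟨C * (A0 κ ^ (2 * κ) * Z + 1), min ((κ + 1 / 2 - 1) / 2) (dl κ), max 1 (1 / w0), ?_, ?_,
    le_max_left _ _, ?_⟩
  · positivity
  · exact lt_min (by linarith) hdl
  intro M X y ps f hM hX hy hnd hpr hps hf hf1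
  set c := min ((κ + 1 / 2 - 1) / 2) (dl κ) with hc
  have hy1 : 1 ≤ y := (le_max_left _ _).trans hy
  have hyw : 1 / w0 ≤ y := (le_max_right _ _).trans hy
  have hy0 : 0 < y := by linarith
  have hple : ∀ p ∈ ps, (1 : ℝ) / p ≤ 1 / y := fun p hp =>
    one_div_le_one_div_of_le hy0 (hps p hp).le
  have hpw : ∀ p ∈ ps, (0 : ℝ) < 1 / p ∧ (1 : ℝ) / p ≤ w0 := by
    intro p hp
    have hp0 : (0 : ℝ) < p := lt_trans hy0 (hps p hp)
    refine ⟨by positivity, (hple p hp).trans ?_⟩
    rw [div_le_iff₀ hy0]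
    rw [div_le_iff₀ hw0] at hyw
    linarith
  have hmain := bad_energy_pot (κ := κ) (δ := dl κ) (D := (1 / y) ^ dl κ) hH hC.le hκ hκ1
    hdl hM hX (x := xth κ) (xth_nonneg hκ) ps hpr (fun p _ => le_rfl)
    (fun p hp => Real.rpow_le_rpow (hpw p hp).1.le (hple p hp) hdl.le)
    (fun p hp n y' z h1 h2 h3 h4 => hmul (1 / (p : ℝ)) (hpw p hp).1 (hpw p hp).2 n y' z h1 h2 h3 h4)
    f hf hf1
  have hV : 0 ≤ V M (xth κ) κ ps f := V_nonneg ps hf
  have hE : 0 ≤ Ex M f ^ (2 * κ) := Real.rpow_nonneg (Ex_nonneg hf) _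
  have hX1 : 0 ≤ C * X ^ (2 * κ - 1) := mul_nonneg hC.le (Real.rpow_nonneg hX.le _)
  have hD0 : 0 ≤ (1 / y) ^ dl κ := Real.rpow_nonneg (by positivity) _
  have hDc : (1 / y) ^ dl κ ≤ y ^ (-c) := by
    rw [one_div, Real.inv_rpow hy0.le, ← Real.rpow_neg hy0.le]
    exact Real.rpow_le_rpow_of_exponent_le hy1 (by linarith [min_le_right ((κ + 1 / 2 - 1) / 2) (dl κ)])
  have hS : (ps.map (fun p => xth κ p ^ (2 * κ))).sum ≤ A0 κ ^ (2 * κ) * Z * y ^ (-c) := by
    have e1 : (ps.map (fun p => xth κ p ^ (2 * κ))) =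
        ps.map (fun p : ℕ => A0 κ ^ (2 * κ) * (p : ℝ) ^ (-(κ + 1 / 2))) := by
      apply List.map_congr_left
      intro p hp
      exact xth_pow hκ hκ1 (hpr p hp).pos
    rw [e1, List.sum_map_mul_left, mul_assoc]
    refine mul_le_mul_of_nonneg_left ((hsum y hy1 ps hnd hps).trans ?_) hA2.le
    refine mul_le_mul_of_nonneg_left ?_ hZ.le
    exact Real.rpow_le_rpow_of_exponent_le hy1 (by linarith [min_le_left ((κ + 1 / 2 - 1) / 2) (dl κ)])
  refine hmain.trans ?_
  have h1 : (ps.map (fun p => xth κ p ^ (2 * κ))).sum * Ex M f ^ (2 * κ) +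
      (1 / y) ^ dl κ * (Ex M f ^ (2 * κ) - V M (xth κ) κ ps f) ≤
      (A0 κ ^ (2 * κ) * Z + 1) * y ^ (-c) * Ex M f ^ (2 * κ) := by
    have h2 : (ps.map (fun p => xth κ p ^ (2 * κ))).sum * Ex M f ^ (2 * κ) ≤
        A0 κ ^ (2 * κ) * Z * y ^ (-c) * Ex M f ^ (2 * κ) := mul_le_mul_of_nonneg_right hS hE
    have h3 : (1 / y) ^ dl κ * (Ex M f ^ (2 * κ) - V M (xth κ) κ ps f) ≤
        (1 / y) ^ dl κ * Ex M f ^ (2 * κ) := mul_le_mul_of_nonneg_left (by linarith) hD0
    have h4 : (1 / y) ^ dl κ * Ex M f ^ (2 * κ) ≤ y ^ (-c) * Ex M f ^ (2 * κ) :=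
      mul_le_mul_of_nonneg_right hDc hE
    nlinarith
  calc C * X ^ (2 * κ - 1) * ((ps.map (fun p => xth κ p ^ (2 * κ))).sum * Ex M f ^ (2 * κ) +
      (1 / y) ^ dl κ * (Ex M f ^ (2 * κ) - V M (xth κ) κ ps f))
      ≤ C * X ^ (2 * κ - 1) * ((A0 κ ^ (2 * κ) * Z + 1) * y ^ (-c) * Ex M f ^ (2 * κ)) :=
        mul_le_mul_of_nonneg_left h1 hX1
    _ = _ := by ring

/-- window form: `X = t L`, `m = L E f`, bad primes `> t^A` -/
theorem bad_energy_t {κ : ℝ} (hκ : 1 / 2 < κ) (hκ1 : κ < 1) :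
    ∃ C A t0 : ℝ, 0 < C ∧ 1 ≤ A ∧ 1 ≤ t0 ∧
      ∀ (M : ℕ) (L t : ℝ) (ps : List ℕ) (f : ℕ → ℝ), 0 < M → 0 < L → t0 ≤ t →
        ps.Nodup → (∀ p ∈ ps, p.Prime) → (∀ p ∈ ps, t ^ A < (p : ℝ)) →
        (∀ b, 0 ≤ f b) → (∀ b, f b ≤ 1) →
        L * En M (t * L) (bad M (xth κ) ps f) ≤ C * t⁻¹ * (L * Ex M f) ^ (2 * κ) := by
  obtain ⟨C, c, y0, hC, hc, hy0, h⟩ := bad_energy hκ hκ1
  refine ⟨C, max 1 (2 * κ / c), y0, hC, le_max_left _ _, hy0, ?_⟩
  intro M L t ps f hM hL ht hnd hpr hps hf hf1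
  set A := max 1 (2 * κ / c) with hA
  have ht1 : 1 ≤ t := hy0.trans ht
  have ht0 : 0 < t := by linarith
  have hA1 : 1 ≤ A := le_max_left _ _
  have hAc : 2 * κ ≤ A * c := by
    have : 2 * κ / c ≤ A := le_max_right _ _
    rwa [div_le_iff₀ hc] at this
  have hyA : y0 ≤ t ^ A := ht.trans (by
    calc t = t ^ (1 : ℝ) := (Real.rpow_one t).symm
      _ ≤ t ^ A := Real.rpow_le_rpow_of_exponent_le ht1 hA1)
  have h1 := h M (t * L) (t ^ A) ps f hM (by positivity) hyA hnd hpr hps hf hf1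
  have hE := Ex_nonneg (M := M) hf
  have e1 : (t ^ A) ^ (-c) = t ^ (-(A * c)) := by
    rw [← Real.rpow_mul ht0.le]
    congr 1
    ring
  have e2 : (t * L) ^ (2 * κ - 1) = t ^ (2 * κ - 1) * L ^ (2 * κ - 1) :=
    Real.mul_rpow ht0.le hL.le
  have e3 : (L * Ex M f) ^ (2 * κ) = L ^ (2 * κ) * Ex M f ^ (2 * κ) := Real.mul_rpow hL.le hE
  have e4 : L * L ^ (2 * κ - 1) = L ^ (2 * κ) := by
    rw [← Real.rpow_one_add' hL.le (by linarith)]
    congr 1
    ring
  have e5 : t ^ (2 * κ - 1) * t ^ (-(A * c)) ≤ t⁻¹ := by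
    rw [← Real.rpow_add ht0, ← Real.rpow_neg_one t]
    exact Real.rpow_le_rpow_of_exponent_le ht1 (by linarith)
  have hL2 : 0 ≤ L ^ (2 * κ) * Ex M f ^ (2 * κ) :=
    mul_nonneg (Real.rpow_nonneg hL.le _) (Real.rpow_nonneg hE _)
  calc L * En M (t * L) (bad M (xth κ) ps f)
      ≤ L * (C * (t * L) ^ (2 * κ - 1) * (t ^ A) ^ (-c) * Ex M f ^ (2 * κ)) :=
        mul_le_mul_of_nonneg_left h1 hL.le
    _ = C * (t ^ (2 * κ - 1) * t ^ (-(A * c))) * (L * L ^ (2 * κ - 1) * Ex M f ^ (2 * κ)) := by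
        rw [e1, e2]; ring
    _ ≤ C * t⁻¹ * (L ^ (2 * κ) * Ex M f ^ (2 * κ)) := by
        rw [e4]
        exact mul_le_mul_of_nonneg_right (mul_le_mul_of_nonneg_left e5 hC.le) hL2
    _ = _ := by rw [e3]

/-! ### Cutting the list -/

theorem node_append {M : ℕ} {x : ℕ → ℝ} (ps qs : List ℕ) :
    ∀ (f : ℕ → ℝ) (b : ℕ), node M x (ps ++ qs) f b = node M x qs (node M x ps f b) b := by
  induction ps with
  | nil => intro f b; rfl
  | cons p ps ih =>
    intro f b
    rw [List.cons_append]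
    cases h : cen M x f p with
    | some v0 => rw [node_some h, node_some h]; exact ih f b
    | none => rw [node_none h, node_none h]; exact ih _ b

theorem good_append {M : ℕ} {x : ℕ → ℝ} (ps qs : List ℕ) :
    ∀ (f : ℕ → ℝ) (b c : ℕ), Good M x (ps ++ qs) f b c ↔
      (Good M x ps f b c ∧ Good M x qs (node M x ps f b) b c) := by
  induction ps with
  | nil => intro f b c; simp [Good, node]
  | cons p ps ih =>
    intro f b c
    rw [List.cons_append]
    cases h : cen M x f p with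
    | some v0 =>
      rw [good_some h, good_some h, node_some h, ih f b c, and_assoc]
    | none =>
      rw [good_none h, good_none h, node_none h, ih _ b c, and_assoc]

theorem st_append_left {M : ℕ} {x : ℕ → ℝ} (ps qs : List ℕ) :
    ∀ (f : ℕ → ℝ) (b r : ℕ), r ∈ ps → st M x (ps ++ qs) f b r = st M x ps f b r := by
  induction ps with
  | nil => intro f b r hr; exact absurd hr List.not_mem_nil
  | cons p ps ih =>
    intro f b r hr
    rw [List.cons_append]
    by_cases hrp : r = p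
    · rw [hrp, st_self, st_self]
    have hr' : r ∈ ps := (List.mem_cons.1 hr).resolve_left hrp
    cases h : cen M x f p with
    | some v0 => rw [st_some h b hrp, st_some h b hrp]; exact ih f b r hr'
    | none => rw [st_none h b hrp, st_none h b hrp]; exact ih _ b r hr'

theorem st_append_right {M : ℕ} {x : ℕ → ℝ} (ps qs : List ℕ) :
    ∀ (f : ℕ → ℝ) (b r : ℕ), r ∉ ps →
      st M x (ps ++ qs) f b r = st M x qs (node M x ps f b) b r := by
  induction ps with
  | nil => intro f b r _; rfl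
  | cons p ps ih =>
    intro f b r hr
    rw [List.cons_append]
    have hrp : r ≠ p := fun h => hr (h ▸ List.mem_cons_self)
    have hr' : r ∉ ps := fun h => hr (List.mem_cons_of_mem _ h)
    cases h : cen M x f p with
    | some v0 => rw [st_some h b hrp, node_some h]; exact ih f b r hr'
    | none => rw [st_none h b hrp, node_none h]; exact ih _ b r hr'

theorem st_not_mem {M : ℕ} {x : ℕ → ℝ} (ps : List ℕ) :
    ∀ (f : ℕ → ℝ) (b r : ℕ), r ∉ ps → st M x ps f b r = none := by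
  induction ps with
  | nil => intro f b r _; rfl
  | cons p ps ih =>
    intro f b r hr
    have hrp : r ≠ p := fun h => hr (h ▸ List.mem_cons_self)
    have hr' : r ∉ ps := fun h => hr (List.mem_cons_of_mem _ h)
    cases h : cen M x f p with
    | some v0 => rw [st_some h b hrp]; exact ih f b r hr'
    | none => rw [st_none h b hrp]; exact ih _ b r hr'

/-- the node keeps `b` itself and is dominated by `f` -/
theorem node_self {M : ℕ} {x : ℕ → ℝ} (ps : List ℕ) :
    ∀ (f : ℕ → ℝ) (b : ℕ), node M x ps f b b = f b := by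
  induction ps with
  | nil => intro f b; rfl
  | cons p ps ih =>
    intro f b
    cases h : cen M x f p with
    | some v0 => rw [node_some h]; exact ih f b
    | none =>
      rw [node_none h, ih]
      unfold res
      rw [if_pos rfl]

theorem node_le {M : ℕ} {x : ℕ → ℝ} (ps : List ℕ) :
    ∀ {f : ℕ → ℝ}, (∀ b, 0 ≤ f b) → ∀ b c, node M x ps f b c ≤ f c := by
  induction ps with
  | nil => intro f _ b c; exact le_rfl
  | cons p ps ih =>
    intro f hf b c
    cases h : cen M x f p with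
    | some v0 => rw [node_some h]; exact ih hf b c
    | none =>
      rw [node_none h]
      refine (ih (res_nonneg hf p _) b c).trans ?_
      unfold res
      split_ifs
      · exact le_rfl
      · exact hf c

theorem node_nonneg {M : ℕ} {x : ℕ → ℝ} (ps : List ℕ) :
    ∀ {f : ℕ → ℝ}, (∀ b, 0 ≤ f b) → ∀ b c, 0 ≤ node M x ps f b c := by
  induction ps with
  | nil => intro f hf b c; exact hf c
  | cons p ps ih =>
    intro f hf b c
    cases h : cen M x f p with
    | some v0 => rw [node_some h]; exact ih hf b c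
    | none => rw [node_none h]; exact ih (res_nonneg hf p _) b c

/-- two words with the same node values: `c` in the node of `b` has the same branched letters -/
theorem node_ne_zero {M : ℕ} {x : ℕ → ℝ} (ps : List ℕ) :
    ∀ {f : ℕ → ℝ} {b c : ℕ}, node M x ps f b c ≠ 0 →
      node M x ps f b = node M x ps f c ∧ (∀ r, st M x ps f b r = st M x ps f c r) ∧
      ∀ r ∈ ps, st M x ps f b r = none → b.factorization r = c.factorization r := by
  induction ps with
  | nil =>
    intro f b c _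
    exact ⟨rfl, fun _ => rfl, fun r hr => absurd hr List.not_mem_nil⟩
  | cons p ps ih =>
    intro f b c hne
    cases h : cen M x f p with
    | some v0 =>
      rw [node_some h] at hne
      obtain ⟨h1, h2, h3⟩ := ih hne
      refine ⟨by rw [node_some h, node_some h]; exact h1, fun r => ?_, fun r hr hst => ?_⟩
      · by_cases hr : r = p
        · rw [hr, st_self, st_self]
        · rw [st_some h b hr, st_some h c hr]; exact h2 r
      · by_cases hrp : r = p
        · rw [hrp, st_self, h] at hst; simp at hst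
        · rw [st_some h b hrp] at hst
          exact h3 r ((List.mem_cons.1 hr).resolve_left hrp) hst
    | none =>
      rw [node_none h] at hne
      have hc : b.factorization p = c.factorization p := by
        by_contra hcon
        apply hne
        -- the restriction vanishes at `c`
        have key : ∀ (qs : List ℕ) (g : ℕ → ℝ) (b' : ℕ), g c = 0 → node M x qs g b' c = 0 := by
          intro qs
          induction qs with
          | nil => intro g b' hg; exact hg
          | cons q qs ihq =>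
            intro g b' hg
            cases h' : cen M x g q with
            | some v0 => rw [node_some h']; exact ihq g b' hg
            | none =>
              rw [node_none h']
              apply ihq
              unfold res
              split_ifs
              · exact hg
              · rfl
        apply key
        unfold res
        rw [if_neg (fun h => hcon h.symm)]
      obtain ⟨h1, h2, h3⟩ := ih hne
      rw [hc] at h1 h2 h3
      refine ⟨by rw [node_none h, node_none h, hc]; exact h1, fun r => ?_, fun r hr hst => ?_⟩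
      · by_cases hr : r = p
        · rw [hr, st_self, st_self]
        · rw [st_none h b hr, st_none h c hr, hc]; exact h2 r
      · by_cases hrp : r = p
        · rw [hrp]; exact hc
        · rw [st_none h b hrp, hc] at hst
          exact h3 r ((List.mem_cons.1 hr).resolve_left hrp) hst

/-! ### The capped part `u(b)` and `Λ(b)` -/

/-- capped exponent of `b` at `r` -/
noncomputable def cap (M : ℕ) (x : ℕ → ℝ) (ps : List ℕ) (f : ℕ → ℝ) (b r : ℕ) : ℕ :=
  match st M x ps f b r with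
  | some v0 => min (b.factorization r) v0
  | none => b.factorization r

/-- `u(b)`: `b` with the exponents at passive primes capped by the centre -/
noncomputable def uu (M : ℕ) (x : ℕ → ℝ) (ps : List ℕ) (f : ℕ → ℝ) (b : ℕ) : ℕ :=
  ∏ r ∈ b.primeFactors, r ^ cap M x ps f b r

lemma cap_le {M : ℕ} {x : ℕ → ℝ} (ps : List ℕ) (f : ℕ → ℝ) (b r : ℕ) :
    cap M x ps f b r ≤ b.factorization r := by
  unfold cap
  split
  · exact min_le_left _ _
  · exact le_rfl

lemma uu_ne_zero {M : ℕ} {x : ℕ → ℝ} (ps : List ℕ) (f : ℕ → ℝ) (b : ℕ) :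
    uu M x ps f b ≠ 0 := by
  unfold uu
  rw [prod_ne_zero_iff]
  intro r hr
  exact pow_ne_zero _ (Nat.prime_of_mem_primeFactors hr).ne_zero

lemma uu_fact {M : ℕ} {x : ℕ → ℝ} (ps : List ℕ) (f : ℕ → ℝ) (b r : ℕ) :
    (uu M x ps f b).factorization r = if r.Prime then cap M x ps f b r else 0 := by
  split_ifs with hr
  · unfold uu
    rw [Nat.factorization_prod_apply (fun s hs => pow_ne_zero _
      (Nat.prime_of_mem_primeFactors hs).ne_zero)]
    have h1 : ∀ s ∈ b.primeFactors, (s ^ cap M x ps f b s).factorization r =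
        if s = r then cap M x ps f b s else 0 := by
      intro s hs
      rw [(Nat.prime_of_mem_primeFactors hs).factorization_pow, Finsupp.single_apply]
    rw [sum_congr rfl h1, sum_ite_eq']
    split_ifs with h2
    · rfl
    · have h3 : b.factorization r = 0 := by
        rw [← Finsupp.notMem_support_iff, Nat.support_factorization]
        exact h2
      have := cap_le (M := M) (x := x) ps f b r
      omega
  · exact Nat.factorization_eq_zero_of_not_prime _ hr

theorem uu_dvd {M : ℕ} {x : ℕ → ℝ} (ps : List ℕ) (f : ℕ → ℝ) {b : ℕ} (hb : b ≠ 0) :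
    uu M x ps f b ∣ b := by
  rw [← Nat.factorization_le_iff_dvd (uu_ne_zero ps f b) hb]
  intro r
  rw [uu_fact]
  split_ifs
  · exact cap_le ps f b r
  · exact Nat.zero_le _

/-- for a good pair, `gcd b c ∣ u(b)` -/
theorem gcd_dvd_uu {M : ℕ} {x : ℕ → ℝ} (ps : List ℕ) {f : ℕ → ℝ} {b c : ℕ}
    (hb : b ≠ 0) (hc : c ≠ 0) (hg : Good M x ps f b c) : Nat.gcd b c ∣ uu M x ps f b := by
  have hg0 : Nat.gcd b c ≠ 0 := (Nat.gcd_pos_of_pos_left _ (Nat.pos_of_ne_zero hb)).ne'
  rw [← Nat.factorization_le_iff_dvd hg0 (uu_ne_zero ps f b)]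
  intro r
  rw [uu_fact, Nat.factorization_gcd hb hc, Finsupp.inf_apply]
  by_cases hr : r.Prime
  · rw [if_pos hr]
    unfold cap
    by_cases hrp : r ∈ ps
    · obtain ⟨_, h2⟩ := good_letters ps hg r hrp
      cases hs : st M x ps f b r with
      | none => simp
      | some v0 =>
        have h3 := h2 v0 hs
        simp only [le_inf_iff]
        refine ⟨inf_le_left, ?_⟩
        rcases h3 with h3 | h3
        · rw [← h3]; exact inf_le_left
        · rw [← h3]; exact inf_le_right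
    · rw [st_not_mem ps f b r hrp]
      exact inf_le_left
  · rw [Nat.factorization_eq_zero_of_not_prime _ hr]
    simp

/-- extending the list only shrinks `u` -/
theorem uu_append_dvd {M : ℕ} {x : ℕ → ℝ} (ps qs : List ℕ) (f : ℕ → ℝ) (b : ℕ) :
    uu M x (ps ++ qs) f b ∣ uu M x ps f b := by
  rw [← Nat.factorization_le_iff_dvd (uu_ne_zero _ f b) (uu_ne_zero _ f b)]
  intro r
  rw [uu_fact, uu_fact]
  split_ifs with hr
  · by_cases hrp : r ∈ ps
    · unfold cap
      rw [st_append_left ps qs f b r hrp]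
    · have : cap M x ps f b r = b.factorization r := by
        unfold cap; rw [st_not_mem ps f b r hrp]
      rw [this]
      exact cap_le _ f b r
  · exact le_rfl

end Crest.Agent.R4C.FLamx326
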