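import Crest.Agent.R4C.FLam_326

/-!
# Row 4: the F-Λ tree, energy of the bad pairs (helper514, note 2743, Lemma 1), general `M`
-/

set_option autoImplicit false

open Finset

namespace Crest.Agent.R4C.FLamx326

open Crest.Agent.R4C.Basex935 Crest.Agent.R4C.Multix251

/-- indicator of the bad pairs, weighted by `f` -/
noncomputable def bad (M : ℕ) (x : ℕ → ℝ) (ps : List ℕ) (f : ℕ → ℝ) (b c : ℕ) : ℝ := by
  classical
  exact if Good M x ps f b c then 0 else f b * f c

lemma bad_nonneg {M : ℕ} {x : ℕ → ℝ} {ps : List ℕ} {f : ℕ → ℝ} (hf : ∀ b, 0 ≤ f b) (b c : ℕ) :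
    0 ≤ bad M x ps f b c := by
  classical
  unfold bad
  split_ifs
  · exact le_rfl
  · exact mul_nonneg (hf b) (hf c)

lemma bad_le {M : ℕ} {x : ℕ → ℝ} {ps : List ℕ} {f : ℕ → ℝ} (hf : ∀ b, 0 ≤ f b) (b c : ℕ) :
    bad M x ps f b c ≤ f b * f c := by
  classical
  unfold bad
  split_ifs
  · exact mul_nonneg (hf b) (hf c)
  · exact le_rfl

lemma bad_nil {M : ℕ} {x : ℕ → ℝ} {f : ℕ → ℝ} (b c : ℕ) : bad M x [] f b c = 0 := by
  classical
  unfold bad
  rw [if_pos]
  trivial

/-- passive prime -/
lemma bad_some {M : ℕ} {x : ℕ → ℝ} {ps : List ℕ} {f : ℕ → ℝ} (hf : ∀ b, 0 ≤ f b) {p v0 : ℕ}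
    (h : cen M x f p = some v0) (b c : ℕ) :
    bad M x (p :: ps) f b c ≤ off f p v0 b * off f p v0 c + bad M x ps f b c := by
  classical
  have h0 := mul_nonneg (off_nonneg hf p v0 b) (off_nonneg hf p v0 c)
  have h1 := bad_nonneg (M := M) (x := x) (ps := ps) hf b c
  have h2 := mul_nonneg (hf b) (hf c)
  by_cases hg : Good M x (p :: ps) f b c
  · have : bad M x (p :: ps) f b c = 0 := by unfold bad; rw [if_pos hg]
    linarith
  · have e : bad M x (p :: ps) f b c = f b * f c := by unfold bad; rw [if_neg hg]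
    rw [good_some h] at hg
    by_cases hb : b.factorization p = v0 ∨ c.factorization p = v0
    · have hg' : ¬ Good M x ps f b c := fun h3 => hg ⟨hb, h3⟩
      have : bad M x ps f b c = f b * f c := by unfold bad; rw [if_neg hg']
      linarith
    · push Not at hb
      have : off f p v0 b * off f p v0 c = f b * f c := by
        unfold off; rw [if_neg hb.1, if_neg hb.2]
      linarith

/-- branched prime -/
lemma bad_none {M : ℕ} (hM : 0 < M) {x : ℕ → ℝ} {ps : List ℕ} {f : ℕ → ℝ} (hf : ∀ b, 0 ≤ f b)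
    {p : ℕ} (h : cen M x f p = none) {b c : ℕ} (hb : b ∣ M) (hc : c ∣ M) :
    bad M x (p :: ps) f b c ≤
      ∑ v ∈ range (M.factorization p + 1),
        ∑ v' ∈ (range (M.factorization p + 1)).filter (· ≠ v), res f p v b * res f p v' c +
      ∑ v ∈ range (M.factorization p + 1), bad M x ps (res f p v) b c := by
  classical
  have hbr : b.factorization p ∈ range (M.factorization p + 1) := by
    rw [mem_range]; have := letter_le hM hb p; omega
  have hcr : c.factorization p ∈ range (M.factorization p + 1) := by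
    rw [mem_range]; have := letter_le hM hc p; omega
  have h0 : 0 ≤ ∑ v ∈ range (M.factorization p + 1),
        ∑ v' ∈ (range (M.factorization p + 1)).filter (· ≠ v), res f p v b * res f p v' c :=
    sum_nonneg fun v _ => sum_nonneg fun v' _ =>
      mul_nonneg (res_nonneg hf p v b) (res_nonneg hf p v' c)
  have h1 : 0 ≤ ∑ v ∈ range (M.factorization p + 1), bad M x ps (res f p v) b c :=
    sum_nonneg fun v _ => bad_nonneg (res_nonneg hf p v) b c
  by_cases hg : Good M x (p :: ps) f b c
  · have : bad M x (p :: ps) f b c = 0 := by unfold bad; rw [if_pos hg]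
    linarith
  · have e : bad M x (p :: ps) f b c = f b * f c := by unfold bad; rw [if_neg hg]
    rw [good_none h] at hg
    by_cases hl : b.factorization p = c.factorization p
    · have hg' : ¬ Good M x ps (res f p (b.factorization p)) b c := fun h3 => hg ⟨hl, h3⟩
      have h2 : bad M x ps (res f p (b.factorization p)) b c ≤
          ∑ v ∈ range (M.factorization p + 1), bad M x ps (res f p v) b c :=
        single_le_sum (f := fun v => bad M x ps (res f p v) b c)
          (fun v _ => bad_nonneg (res_nonneg hf p v) b c) hbr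
      have h3 : bad M x ps (res f p (b.factorization p)) b c = f b * f c := by
        unfold bad
        rw [if_neg hg']
        unfold res
        rw [if_pos rfl, if_pos hl.symm]
      linarith
    · have h2 : res f p (b.factorization p) b * res f p (c.factorization p) c ≤
          ∑ v ∈ range (M.factorization p + 1),
            ∑ v' ∈ (range (M.factorization p + 1)).filter (· ≠ v),
              res f p v b * res f p v' c := by
        refine le_trans ?_ (single_le_sum (f := fun v =>
          ∑ v' ∈ (range (M.factorization p + 1)).filter (· ≠ v), res f p v b * res f p v' c)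
          (fun v _ => sum_nonneg fun v' _ =>
            mul_nonneg (res_nonneg hf p v b) (res_nonneg hf p v' c)) hbr)
        exact single_le_sum (f := fun v' => res f p (b.factorization p) b * res f p v' c)
          (fun v' _ => mul_nonneg (res_nonneg hf p _ b) (res_nonneg hf p v' c))
          (mem_filter.2 ⟨hcr, fun h => hl h.symm⟩)
      have h3 : res f p (b.factorization p) b * res f p (c.factorization p) c = f b * f c := by
        unfold res; rw [if_pos rfl, if_pos rfl]
      linarith

/-- one prime: the crossing energy of a branched prime is paid by the drop of `∑ (E f_v)^{2κ}` -/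
lemma branch_ineq {κ δ : ℝ} (hκ : 1 / 2 < κ) (hκ1 : κ < 1) (hδ0 : 0 < δ)
    {w D : ℝ} (hw : 0 < w) (hw1 : w ≤ 1) (hD : w ^ δ ≤ D)
    (hmul : ∀ (n : ℕ) (x y : ℕ → ℝ),
      (∀ v ∈ range n, 0 ≤ x v) → (∀ v ∈ range n, 0 ≤ y v) →
      ∑ v ∈ range n, x v = 1 → ∑ v ∈ range n, y v = 1 →
      (∃ v0 < n, 1 - x v0 ≤ x1 κ δ w ∧ 1 - y v0 ≤ x1 κ δ w ∧
        ∑ v ∈ (range n).erase v0, (x v * y v) ^ κ
          + ∑ v ∈ (range n).erase v0, ∑ v' ∈ ((range n).erase v0).filter (· ≠ v),
              om κ δ w ^ (Nat.dist v v') * (x v * y v') ^ κ ≤ 3 * x1 κ δ w ^ (2 * κ)) ∨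
        ∑ v ∈ range n, (x v * y v) ^ κ
          + ∑ v ∈ range n, ∑ v' ∈ (range n).filter (· ≠ v),
              om κ δ w ^ (Nat.dist v v') * (x v * y v') ^ κ ≤ 1 - κ / 2 * x1 κ δ w)
    {n : ℕ} {E : ℝ} {e : ℕ → ℝ} (hE : 0 < E) (he : ∀ v, 0 ≤ e v)
    (hsum : ∑ v ∈ range n, e v = E)
    (hbr : ∀ v0 < n, x1 κ δ w * E < E - e v0) :
    ∑ v ∈ range n, ∑ v' ∈ (range n).filter (· ≠ v),
        (w ^ (1 - κ)) ^ (Nat.dist v v') * (e v * e v') ^ κ ≤
      D * (E ^ (2 * κ) - ∑ v ∈ range n, e v ^ (2 * κ)) := by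
  have hx0 : ∀ v ∈ range n, 0 ≤ e v / E := fun v _ => div_nonneg (he v) hE.le
  have hs1 : ∑ v ∈ range n, e v / E = 1 := by
    rw [← sum_div, hsum, div_self hE.ne']
  have hE2 : 0 < E ^ (2 * κ) := Real.rpow_pos_of_pos hE _
  rcases hmul n (fun v => e v / E) (fun v => e v / E) hx0 hx0 hs1 hs1 with h | h
  · exfalso
    obtain ⟨v0, hv0, h1, _⟩ := h
    have h2 := hbr v0 hv0
    have h3 : E - e v0 ≤ x1 κ δ w * E := by
      have : 1 - e v0 / E = (E - e v0) / E := by field_simp
      rw [this, div_le_iff₀ hE] at h1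
      exact h1
    linarith
  · have hx1 : 0 < x1 κ δ w := x1_pos (by linarith) hw
    have hpw : ∀ v v', (e v / E * (e v' / E)) ^ κ = (e v * e v') ^ κ / E ^ (2 * κ) := by
      intro v v'
      have : e v / E * (e v' / E) = (e v * e v') / (E ^ 2) := by
        field_simp
      rw [this, Real.div_rpow (mul_nonneg (he v) (he v')) (by positivity)]
      congr 1
      rw [← Real.rpow_natCast E 2, ← Real.rpow_mul hE.le]
      norm_num
    have hdg : ∀ v, (e v / E * (e v / E)) ^ κ = e v ^ (2 * κ) / E ^ (2 * κ) := by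
      intro v
      rw [hpw v v]
      congr 1
      rw [← sq, ← Real.rpow_natCast (e v) 2, ← Real.rpow_mul (he v)]
      norm_num
    have hD0 : 0 ≤ D := le_trans (Real.rpow_nonneg hw.le _) hD
    have hw01 : w ^ δ ≤ 1 := Real.rpow_le_one hw.le hw1 hδ0.le
    have hwd : 0 ≤ w ^ δ := Real.rpow_nonneg hw.le _
    have hom : 0 ≤ om κ δ w := (om_pos hw).le
    have hterm : ∀ v, ∀ v' ∈ (range n).filter (· ≠ v),
        (w ^ (1 - κ)) ^ (Nat.dist v v') * (e v * e v') ^ κ ≤
        D * (E ^ (2 * κ) * (om κ δ w ^ (Nat.dist v v') * ((e v / E * (e v' / E)) ^ κ))) := by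
      intro v v' hv'
      rw [mem_filter] at hv'
      have hd : 1 ≤ Nat.dist v v' := Nat.dist_pos_of_ne (fun h => hv'.2 h.symm)
      have h1 : w ^ (1 - κ) = w ^ δ * om κ δ w := by
        unfold om
        rw [← Real.rpow_add hw]
        congr 1
        ring
      have h2 : (w ^ δ) ^ (Nat.dist v v') ≤ w ^ δ := by
        calc (w ^ δ) ^ (Nat.dist v v') ≤ (w ^ δ) ^ 1 := pow_le_pow_of_le_one hwd hw01 hd
          _ = w ^ δ := pow_one _
      rw [hpw, h1, mul_pow]
      have h3 : E ^ (2 * κ) * (om κ δ w ^ (Nat.dist v v') * ((e v * e v') ^ κ / E ^ (2 * κ))) =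
          om κ δ w ^ (Nat.dist v v') * (e v * e v') ^ κ := by
        field_simp
      rw [h3, mul_assoc]
      refine mul_le_mul_of_nonneg_right (h2.trans hD) ?_
      exact mul_nonneg (pow_nonneg hom _) (Real.rpow_nonneg (mul_nonneg (he v) (he v')) _)
    calc ∑ v ∈ range n, ∑ v' ∈ (range n).filter (· ≠ v),
          (w ^ (1 - κ)) ^ (Nat.dist v v') * (e v * e v') ^ κ
        ≤ ∑ v ∈ range n, ∑ v' ∈ (range n).filter (· ≠ v),
          D * (E ^ (2 * κ) * (om κ δ w ^ (Nat.dist v v') * ((e v / E * (e v' / E)) ^ κ))) :=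
          sum_le_sum fun v _ => sum_le_sum fun v' hv' => hterm v v' hv'
      _ = D * (E ^ (2 * κ) * ∑ v ∈ range n, ∑ v' ∈ (range n).filter (· ≠ v),
          om κ δ w ^ (Nat.dist v v') * ((e v / E * (e v' / E)) ^ κ)) := by
          rw [mul_sum, mul_sum]
          refine sum_congr rfl fun v _ => ?_
          rw [mul_sum, mul_sum]
      _ ≤ D * (E ^ (2 * κ) * (1 - ∑ v ∈ range n, (e v / E * (e v / E)) ^ κ)) := by
          refine mul_le_mul_of_nonneg_left (mul_le_mul_of_nonneg_left ?_ hE2.le) hD0
          have : 0 < κ / 2 * x1 κ δ w := mul_pos (by linarith) hx1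
          linarith
      _ = D * (E ^ (2 * κ) - ∑ v ∈ range n, e v ^ (2 * κ)) := by
          congr 1
          rw [mul_sub, mul_one, mul_sum]
          congr 1
          refine sum_congr rfl fun v _ => ?_
          rw [hdg]
          field_simp


/-- **energy of the bad pairs**, potential form -/
theorem bad_energy_pot {κ δ C D : ℝ} (hH : HVW κ C) (hC : 0 ≤ C) (hκ : 1 / 2 < κ) (hκ1 : κ < 1)
    (hδ0 : 0 < δ) {M : ℕ} (hM : 0 < M) {X : ℝ} (hX : 0 < X) {x : ℕ → ℝ}
    (hx0 : ∀ p, 0 ≤ x p) (ps : List ℕ) :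
    (∀ p ∈ ps, p.Prime) → (∀ p ∈ ps, x1 κ δ (1 / (p : ℝ)) ≤ x p) →
    (∀ p ∈ ps, (1 / (p : ℝ)) ^ δ ≤ D) →
    (∀ p ∈ ps, ∀ (n : ℕ) (y z : ℕ → ℝ),
      (∀ v ∈ range n, 0 ≤ y v) → (∀ v ∈ range n, 0 ≤ z v) →
      ∑ v ∈ range n, y v = 1 → ∑ v ∈ range n, z v = 1 →
      (∃ v0 < n, 1 - y v0 ≤ x1 κ δ (1 / (p : ℝ)) ∧ 1 - z v0 ≤ x1 κ δ (1 / (p : ℝ)) ∧
        ∑ v ∈ (range n).erase v0, (y v * z v) ^ κ
          + ∑ v ∈ (range n).erase v0, ∑ v' ∈ ((range n).erase v0).filter (· ≠ v),
              om κ δ (1 / (p : ℝ)) ^ (Nat.dist v v') * (y v * z v') ^ κ ≤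
            3 * x1 κ δ (1 / (p : ℝ)) ^ (2 * κ)) ∨
        ∑ v ∈ range n, (y v * z v) ^ κ
          + ∑ v ∈ range n, ∑ v' ∈ (range n).filter (· ≠ v),
              om κ δ (1 / (p : ℝ)) ^ (Nat.dist v v') * (y v * z v') ^ κ ≤
            1 - κ / 2 * x1 κ δ (1 / (p : ℝ))) →
    ∀ f : ℕ → ℝ, (∀ b, 0 ≤ f b) → (∀ b, f b ≤ 1) →
      En M X (bad M x ps f) ≤ C * X ^ (2 * κ - 1) *
        ((ps.map (fun p => x p ^ (2 * κ))).sum * Ex M f ^ (2 * κ) +
          D * (Ex M f ^ (2 * κ) - V M x κ ps f)) := by
  classical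
  induction ps with
  | nil =>
    intro _ _ _ _ f _ _
    have h1 : En M X (bad M x [] f) = 0 := by
      have : bad M x [] f = fun _ _ => 0 := by
        funext b c
        exact bad_nil b c
      rw [this]
      unfold En frm
      simp
    rw [h1]
    simp [V]
  | cons p ps ih =>
    intro hpr hxp hDp hmul f hf hf1
    have ih' := ih (fun q hq => hpr q (List.mem_cons_of_mem _ hq))
      (fun q hq => hxp q (List.mem_cons_of_mem _ hq))
      (fun q hq => hDp q (List.mem_cons_of_mem _ hq))
      (fun q hq => hmul q (List.mem_cons_of_mem _ hq))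
    have hp : p.Prime := hpr p List.mem_cons_self
    have hp0 : (0 : ℝ) < p := by exact_mod_cast hp.pos
    have hw : (0 : ℝ) < 1 / p := by positivity
    have hw1 : (1 : ℝ) / p ≤ 1 := by
      rw [div_le_one hp0]
      exact_mod_cast hp.one_lt.le
    have hE0 : 0 ≤ Ex M f := Ex_nonneg hf
    have hX1 : 0 ≤ C * X ^ (2 * κ - 1) := mul_nonneg hC (Real.rpow_nonneg hX.le _)
    have hD0 : 0 ≤ D := le_trans (Real.rpow_nonneg hw.le _) (hDp p List.mem_cons_self)
    set S : ℝ := (ps.map (fun p => x p ^ (2 * κ))).sum with hS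
    have hS0 : 0 ≤ S := by
      rw [hS]
      apply List.sum_nonneg
      intro y hy
      rw [List.mem_map] at hy
      obtain ⟨q, _, rfl⟩ := hy
      exact Real.rpow_nonneg (hx0 q) _
    have hmap : ((p :: ps).map (fun p => x p ^ (2 * κ))).sum = x p ^ (2 * κ) + S := by
      rw [List.map_cons, List.sum_cons]
    rw [hmap]
    cases h : cen M x f p with
    | some v0 =>
      rw [V_some h]
      have h1 : En M X (bad M x (p :: ps) f) ≤
          En M X (fun b c => off f p v0 b * off f p v0 c) + En M X (bad M x ps f) := by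
        rw [← En_add]
        exact En_mono fun b c _ _ => bad_some hf h b c
      have h2 := hH M hM X hX (off f p v0) (off f p v0) (off_nonneg hf p v0)
        (off_le_one hf1 p v0) (off_nonneg hf p v0) (off_le_one hf1 p v0)
      have h3 := ih' f hf hf1
      have hO0 : 0 ≤ Ex M (off f p v0) := Ex_nonneg (off_nonneg hf p v0)
      have h4 : (Ex M (off f p v0) * Ex M (off f p v0)) ^ κ ≤ x p ^ (2 * κ) * Ex M f ^ (2 * κ) := by
        rw [← sq, ← Real.rpow_natCast _ 2, ← Real.rpow_mul hO0, ← Real.mul_rpow (hx0 p) hE0]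
        have : ((2 : ℕ) : ℝ) * κ = 2 * κ := by norm_num
        rw [this]
        exact Real.rpow_le_rpow hO0 (cen_some h) (by linarith)
      have h5 : C * X ^ (2 * κ - 1) * (Ex M (off f p v0) * Ex M (off f p v0)) ^ κ ≤
          C * X ^ (2 * κ - 1) * (x p ^ (2 * κ) * Ex M f ^ (2 * κ)) :=
        mul_le_mul_of_nonneg_left h4 hX1
      calc En M X (bad M x (p :: ps) f)
          ≤ C * X ^ (2 * κ - 1) * (x p ^ (2 * κ) * Ex M f ^ (2 * κ)) +
            C * X ^ (2 * κ - 1) * (S * Ex M f ^ (2 * κ) +
              D * (Ex M f ^ (2 * κ) - V M x κ ps f)) := by linarith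
        _ = _ := by ring
    | none =>
      rw [V_none h]
      set n := M.factorization p + 1 with hn
      have hEpos : 0 < Ex M f := by
        rcases hE0.lt_or_eq with h1 | h1
        · exact h1
        · exfalso
          have h2 := cen_none h 0
          have h3 := Ex_off (M := M) f p 0
          have h4 : 0 ≤ Ex M (res f p 0) := Ex_nonneg (res_nonneg hf p 0)
          rw [← h1, mul_zero] at h2
          linarith
      have hsplit : ∑ v ∈ range n, Ex M (res f p v) = Ex M f := (Ex_split hM f p).symm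
      have he : ∀ v, 0 ≤ Ex M (res f p v) := fun v => Ex_nonneg (res_nonneg hf p v)
      have h1 : En M X (bad M x (p :: ps) f) ≤
          ∑ v ∈ range n, ∑ v' ∈ (range n).filter (· ≠ v),
            En M X (fun b c => res f p v b * res f p v' c) +
          ∑ v ∈ range n, En M X (bad M x ps (res f p v)) := by
        calc En M X (bad M x (p :: ps) f)
            ≤ En M X (fun b c => ∑ v ∈ range n, ∑ v' ∈ (range n).filter (· ≠ v),
                res f p v b * res f p v' c + ∑ v ∈ range n, bad M x ps (res f p v) b c) :=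
              En_mono fun b c hb hc => bad_none hM hf h hb hc
          _ = _ := by
              rw [En_add, En_sum, En_sum M X (range n) (fun v b c => bad M x ps (res f p v) b c)]
              congr 1
              refine sum_congr rfl fun v _ => ?_
              rw [En_sum]
      have h2 : ∑ v ∈ range n, ∑ v' ∈ (range n).filter (· ≠ v),
            En M X (fun b c => res f p v b * res f p v' c) ≤
          C * X ^ (2 * κ - 1) * (D * (Ex M f ^ (2 * κ) -
            ∑ v ∈ range n, Ex M (res f p v) ^ (2 * κ))) := by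
        calc ∑ v ∈ range n, ∑ v' ∈ (range n).filter (· ≠ v),
              En M X (fun b c => res f p v b * res f p v' c)
            ≤ ∑ v ∈ range n, ∑ v' ∈ (range n).filter (· ≠ v),
              C * X ^ (2 * κ - 1) * (((1 / (p : ℝ)) ^ (1 - κ)) ^ (Nat.dist v v') *
                (Ex M (res f p v) * Ex M (res f p v')) ^ κ) :=
              sum_le_sum fun v _ => sum_le_sum fun v' _ =>
                cross_bound hH hκ1 hC hM hX hf hf1 hf hf1 hp v v'
          _ = C * X ^ (2 * κ - 1) * ∑ v ∈ range n, ∑ v' ∈ (range n).filter (· ≠ v),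
              ((1 / (p : ℝ)) ^ (1 - κ)) ^ (Nat.dist v v') *
                (Ex M (res f p v) * Ex M (res f p v')) ^ κ := by
              rw [mul_sum]
              refine sum_congr rfl fun v _ => ?_
              rw [mul_sum]
          _ ≤ _ := by
              refine mul_le_mul_of_nonneg_left ?_ hX1
              refine branch_ineq hκ hκ1 hδ0 hw hw1 (hDp p List.mem_cons_self)
                (hmul p List.mem_cons_self) hEpos he hsplit ?_
              intro v0 _
              have h3 := cen_none h v0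
              have h4 := Ex_off (M := M) f p v0
              have h5 : x1 κ δ (1 / (p : ℝ)) * Ex M f ≤ x p * Ex M f :=
                mul_le_mul_of_nonneg_right (hxp p List.mem_cons_self) hE0
              linarith
      have h3 : ∑ v ∈ range n, En M X (bad M x ps (res f p v)) ≤
          C * X ^ (2 * κ - 1) * (S * ∑ v ∈ range n, Ex M (res f p v) ^ (2 * κ) +
            D * (∑ v ∈ range n, Ex M (res f p v) ^ (2 * κ) -
              ∑ v ∈ range n, V M x κ ps (res f p v))) := by
        calc ∑ v ∈ range n, En M X (bad M x ps (res f p v))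
            ≤ ∑ v ∈ range n, C * X ^ (2 * κ - 1) * (S * Ex M (res f p v) ^ (2 * κ) +
              D * (Ex M (res f p v) ^ (2 * κ) - V M x κ ps (res f p v))) :=
              sum_le_sum fun v _ => ih' (res f p v) (res_nonneg hf p v) (res_le_one hf1 p v)
          _ = _ := by
              rw [← mul_sum, sum_add_distrib, ← mul_sum, ← mul_sum, sum_sub_distrib]
      have h4 : ∑ v ∈ range n, Ex M (res f p v) ^ (2 * κ) ≤ Ex M f ^ (2 * κ) := by
        have h5 : ∀ v ∈ range n, Ex M (res f p v) ^ (2 * κ) ≤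
            Ex M (res f p v) * Ex M f ^ (2 * κ - 1) := by
          intro v hv
          have h6 : Ex M (res f p v) ≤ Ex M f := by
            rw [← hsplit]
            exact single_le_sum (f := fun v => Ex M (res f p v)) (fun v _ => he v) hv
          rcases (he v).lt_or_eq with h7 | h7
          · have h8 : Ex M (res f p v) ^ (2 * κ) =
                Ex M (res f p v) * Ex M (res f p v) ^ (2 * κ - 1) := by
              rw [← Real.rpow_one_add' h7.le (by linarith)]
              congr 1
              ring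
            rw [h8]
            exact mul_le_mul_of_nonneg_left (Real.rpow_le_rpow h7.le h6 (by linarith)) h7.le
          · rw [← h7, Real.zero_rpow (by linarith), zero_mul]
        calc ∑ v ∈ range n, Ex M (res f p v) ^ (2 * κ)
            ≤ ∑ v ∈ range n, Ex M (res f p v) * Ex M f ^ (2 * κ - 1) := sum_le_sum h5
          _ = Ex M f * Ex M f ^ (2 * κ - 1) := by rw [← sum_mul, hsplit]
          _ = Ex M f ^ (2 * κ) := by
              rw [← Real.rpow_one_add' hE0 (by linarith)]
              congr 1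
              ring
      have h5 : S * ∑ v ∈ range n, Ex M (res f p v) ^ (2 * κ) ≤
          (x p ^ (2 * κ) + S) * Ex M f ^ (2 * κ) := by
        have h6 : S * ∑ v ∈ range n, Ex M (res f p v) ^ (2 * κ) ≤ S * Ex M f ^ (2 * κ) :=
          mul_le_mul_of_nonneg_left h4 hS0
        have h7 : 0 ≤ x p ^ (2 * κ) * Ex M f ^ (2 * κ) :=
          mul_nonneg (Real.rpow_nonneg (hx0 p) _) (Real.rpow_nonneg hE0 _)
        linarith
      calc En M X (bad M x (p :: ps) f)
          ≤ C * X ^ (2 * κ - 1) * (D * (Ex M f ^ (2 * κ) -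
              ∑ v ∈ range n, Ex M (res f p v) ^ (2 * κ))) +
            C * X ^ (2 * κ - 1) * (S * ∑ v ∈ range n, Ex M (res f p v) ^ (2 * κ) +
            D * (∑ v ∈ range n, Ex M (res f p v) ^ (2 * κ) -
              ∑ v ∈ range n, V M x κ ps (res f p v))) := by linarith
        _ = C * X ^ (2 * κ - 1) * (S * ∑ v ∈ range n, Ex M (res f p v) ^ (2 * κ) +
            D * (Ex M f ^ (2 * κ) - ∑ v ∈ range n, V M x κ ps (res f p v))) := by ring
        _ ≤ _ := by
            refine mul_le_mul_of_nonneg_left ?_ hX1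
            linarith

end Crest.Agent.R4C.FLamx326
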