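import Crest.Agent.R4C.Multi_251

/-!
# Row 4: the one-prime inequality, form with existence of constants

`κ ∈ (1/2,1)`, `0 < δ < 1-κ`, `om w = w^(1-κ-δ)` (`w = 1/p`), `x1 w = A0 * w^(1-δ/(1-κ))`,
`A0 = (32/κ)^(1/(1-κ))`.
-/

set_option autoImplicit false

open Finset

namespace Crest.Agent.R4C.Multix251

/-- `Adm κ ω` for all small `ω` -/
theorem adm_ex {κ : ℝ} (h1 : 1/2 < κ) (h2 : κ < 1) :
    ∃ ω0 > 0, ∀ ω, 0 < ω → ω ≤ ω0 → Adm κ ω := by
  have hk : 0 < κ := by linarith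
  have hη : 0 < 2 * κ - 1 := by linarith
  have hk8 : (0:ℝ) < κ / 8 := by positivity
  set E := (κ / 8) ^ (1 / (2 * κ - 1)) with hE
  have hE0 : 0 < E := by positivity
  refine ⟨min (1/32) (min (κ / 128) (min ((2 * κ - 1) / 1024) ((2 * κ - 1) * E / 16))), ?_, ?_⟩
  · refine lt_min (by norm_num) (lt_min (by positivity) (lt_min (by positivity) (by positivity)))
  intro ω h0 hω
  rw [le_min_iff, le_min_iff, le_min_iff] at hω
  obtain ⟨a, b, c, d⟩ := hω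
  refine ⟨h1, h2, h0, a, ?_, ?_, ?_⟩
  · rw [div_le_iff₀ hk]; linarith
  · rw [div_le_iff₀ hη]; linarith
  · have e : 16 * ω / (2 * κ - 1) ≤ E := by
      rw [div_le_iff₀ hη]; linarith
    calc (16 * ω / (2 * κ - 1)) ^ (2 * κ - 1) ≤ E ^ (2 * κ - 1) :=
          Real.rpow_le_rpow (by positivity) e hη.le
      _ = κ / 8 := by
          rw [hE, ← Real.rpow_mul hk8.le, one_div_mul_cancel hη.ne', Real.rpow_one]

/-- `A0 = (32/κ)^(1/(1-κ))` -/
noncomputable def A0 (κ : ℝ) : ℝ := (32 / κ) ^ (1 / (1 - κ))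

lemma A0_pos {κ : ℝ} (h : 0 < κ) : 0 < A0 κ := by unfold A0; positivity

lemma Z1_eq {κ δ w : ℝ} (h1 : 0 < κ) (h2 : κ < 1) (hw : 0 < w) :
    Z1 κ (w ^ (1 - κ - δ)) = A0 κ * w ^ (1 - δ / (1 - κ)) := by
  have h3 : 0 < 1 - κ := by linarith
  unfold Z1 A0
  have hw1 : 0 ≤ w ^ (1 - κ - δ) := Real.rpow_nonneg hw.le _
  rw [mul_div_right_comm, Real.mul_rpow (by positivity) hw1, ← Real.rpow_mul hw.le]
  congr 2
  field_simp

/-- the same, as the threshold function `x1` -/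
noncomputable def x1 (κ δ w : ℝ) : ℝ := A0 κ * w ^ (1 - δ / (1 - κ))

noncomputable def om (κ δ w : ℝ) : ℝ := w ^ (1 - κ - δ)

lemma om_pos {κ δ w : ℝ} (hw : 0 < w) : 0 < om κ δ w := Real.rpow_pos_of_pos hw _

lemma x1_pos {κ δ w : ℝ} (hκ : 0 < κ) (hw : 0 < w) : 0 < x1 κ δ w :=
  mul_pos (A0_pos hκ) (Real.rpow_pos_of_pos hw _)

/-- admissibility for small `w` -/
theorem adm_om_ex {κ δ : ℝ} (h1 : 1/2 < κ) (h2 : κ < 1) (hδ : δ < 1 - κ) :
    ∃ w0 > 0, ∀ w, 0 < w → w ≤ w0 → Adm κ (om κ δ w) := by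
  obtain ⟨ω0, hω0, H⟩ := adm_ex h1 h2
  have he : 0 < 1 - κ - δ := by linarith
  refine ⟨ω0 ^ (1 / (1 - κ - δ)), Real.rpow_pos_of_pos hω0 _, fun w hw hw0 => ?_⟩
  refine H _ (om_pos hw) ?_
  unfold om
  calc w ^ (1 - κ - δ) ≤ (ω0 ^ (1 / (1 - κ - δ))) ^ (1 - κ - δ) :=
        Real.rpow_le_rpow hw.le hw0 he.le
    _ = ω0 := by rw [← Real.rpow_mul hω0.le, one_div_mul_cancel he.ne', Real.rpow_one]

/-- **Lemma M, requested form (817)**; `x`, `y` nonneg on `range n` only.  Everything about the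
prime: either a common centre, or a gain `κ/2 * x1`.  Moreover in the first case the blocks with
both exponents `≠ v0` cost at most `3 x1^(2κ)`. -/
theorem multi_range {κ δ : ℝ} (h1 : 1/2 < κ) (h2 : κ < 1) (hδ : δ < 1 - κ) :
    ∃ w0 > 0, ∀ w, 0 < w → w ≤ w0 → ∀ (n : ℕ) (x y : ℕ → ℝ),
      (∀ v ∈ range n, 0 ≤ x v) → (∀ v ∈ range n, 0 ≤ y v) →
      ∑ v ∈ range n, x v = 1 → ∑ v ∈ range n, y v = 1 →
      (∃ v0 < n, 1 - x v0 ≤ x1 κ δ w ∧ 1 - y v0 ≤ x1 κ δ w ∧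
        ∑ v ∈ (range n).erase v0, (x v * y v) ^ κ
          + ∑ v ∈ (range n).erase v0, ∑ v' ∈ ((range n).erase v0).filter (· ≠ v),
              om κ δ w ^ (Nat.dist v v') * (x v * y v') ^ κ ≤ 3 * x1 κ δ w ^ (2 * κ)) ∨
        ∑ v ∈ range n, (x v * y v) ^ κ
          + ∑ v ∈ range n, ∑ v' ∈ (range n).filter (· ≠ v),
              om κ δ w ^ (Nat.dist v v') * (x v * y v') ^ κ ≤ 1 - κ / 2 * x1 κ δ w := by
  obtain ⟨w0, hw0, H⟩ := adm_om_ex h1 h2 hδ
  refine ⟨w0, hw0, fun w hw hww n x y hx hy hx1 hy1 => ?_⟩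
  have hA := H w hw hww
  have hZe : Z1 κ (om κ δ w) = x1 κ δ w := Z1_eq (by linarith) h2 hw
  set x' : ℕ → ℝ := fun v => |x v| with hx'
  set y' : ℕ → ℝ := fun v => |y v| with hy'
  have ex : ∀ v ∈ range n, x' v = x v := fun v hv => abs_of_nonneg (hx v hv)
  have ey : ∀ v ∈ range n, y' v = y v := fun v hv => abs_of_nonneg (hy v hv)
  have ed : ∀ s : Finset ℕ, s ⊆ range n → diag κ s x' y' = ∑ v ∈ s, (x v * y v) ^ κ := by
    intro s hs
    unfold diag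
    refine sum_congr rfl fun v hv => ?_
    rw [ex v (hs hv), ey v (hs hv)]
  have ec : ∀ s : Finset ℕ, s ⊆ range n → cross κ (om κ δ w) s s x' y' =
      ∑ v ∈ s, ∑ v' ∈ s.filter (· ≠ v), om κ δ w ^ (Nat.dist v v') * (x v * y v') ^ κ := by
    intro s hs
    unfold cross
    refine sum_congr rfl fun v hv => sum_congr rfl fun v' hv' => ?_
    rw [ex v (hs hv), ey v' (hs (mem_filter.1 hv').1)]
  have h := multi hA (range n) x' y' (fun v => abs_nonneg _) (fun v => abs_nonneg _)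
    (by rw [sum_congr rfl ex, hx1]) (by rw [sum_congr rfl ey, hy1])
  rw [hZe] at h
  rcases h with ⟨v0, hv0, hX, hY⟩ | h
  · left
    refine ⟨v0, mem_range.1 hv0, ?_, ?_, ?_⟩
    · have := add_sum_erase (range n) x' hv0
      rw [sum_congr rfl ex, hx1, ex v0 hv0] at this
      linarith
    · have := add_sum_erase (range n) y' hv0
      rw [sum_congr rfl ey, hy1, ey v0 hv0] at this
      linarith
    · have := removed_le h1.le hA.ω0.le (by linarith [hA.ω1]) (range n) x' y'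
        (fun v => abs_nonneg _) (fun v => abs_nonneg _) v0 hX hY
      rwa [ed _ (erase_subset _ _), ec _ (erase_subset _ _)] at this
  · right
    rwa [ed _ subset_rfl, ec _ subset_rfl] at h

end Crest.Agent.R4C.Multix251
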