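import Crest.Agent.R4C.Base_935
import Crest.Agent.R4C.MultiB_251

/-!
# Row 4: the F-Λ tree (helper514, note 2743, Lemma 1), general `M`

The primes of a list `ps` are read one after the other.  At a prime `p` and a node (= a function
`f` on the divisors of `M`, restricted to the letters of the branched primes) either some letter
`v0` carries all but a share `x1 p` of the mass (`p` is PASSIVE with centre `v0`: nothing happens)
or the node BRANCHES according to the letter `v_p(b)`.

`Good` pairs: same letters at the branched primes, and at the passive primes at least one of the two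
letters is the centre.  `bad_energy`: the pairs which are not good cost
`≤ C X^η (E f)^(1+η) (∑ x1(p)^(1+η) + max p^(-δ))`.
-/

set_option autoImplicit false

open Finset

namespace Crest.Agent.R4C.FLamx326

open Crest.Agent.R4C.Basex935 Crest.Agent.R4C.Multix251

/-- expectation under the exact type law -/
noncomputable def Ex (M : ℕ) (f : ℕ → ℝ) : ℝ := ∑ b ∈ M.divisors, nu M b * f b

/-- pair energy at scale `X ≤ gcd < 2X` -/
noncomputable def En (M : ℕ) (X : ℝ) (F : ℕ → ℕ → ℝ) : ℝ :=
  frm M (fun b c => if X ≤ (Nat.gcd b c : ℝ) ∧ (Nat.gcd b c : ℝ) < 2 * X then F b c else 0)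

/-- the input: two function exact-gcd HVW at a fixed scale -/
def HVW (κ C : ℝ) : Prop :=
  ∀ M : ℕ, 0 < M → ∀ X : ℝ, 0 < X → ∀ f g : ℕ → ℝ,
    (∀ b, 0 ≤ f b) → (∀ b, f b ≤ 1) → (∀ b, 0 ≤ g b) → (∀ b, g b ≤ 1) →
    En M X (fun b c => f b * g c) ≤ C * X ^ (2 * κ - 1) * (Ex M f * Ex M g) ^ κ

/-- restriction to the letter `v` at `p` -/
def res (f : ℕ → ℝ) (p v : ℕ) : ℕ → ℝ := fun b => if b.factorization p = v then f b else 0

/-- restriction to the letters `≠ v` at `p` -/
def off (f : ℕ → ℝ) (p v : ℕ) : ℕ → ℝ := fun b => if b.factorization p = v then 0 else f b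

lemma res_nonneg {f : ℕ → ℝ} (hf : ∀ b, 0 ≤ f b) (p v b : ℕ) : 0 ≤ res f p v b := by
  unfold res; split_ifs <;> simp [hf]

lemma res_le_one {f : ℕ → ℝ} (hf : ∀ b, f b ≤ 1) (p v b : ℕ) : res f p v b ≤ 1 := by
  unfold res; split_ifs <;> simp [hf]

lemma off_nonneg {f : ℕ → ℝ} (hf : ∀ b, 0 ≤ f b) (p v b : ℕ) : 0 ≤ off f p v b := by
  unfold off; split_ifs <;> simp [hf]

lemma off_le_one {f : ℕ → ℝ} (hf : ∀ b, f b ≤ 1) (p v b : ℕ) : off f p v b ≤ 1 := by
  unfold off; split_ifs <;> simp [hf]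

lemma Ex_nonneg {M : ℕ} {f : ℕ → ℝ} (hf : ∀ b, 0 ≤ f b) : 0 ≤ Ex M f :=
  sum_nonneg fun b _ => mul_nonneg (nu_nonneg M b) (hf b)

lemma frm_nonneg {M : ℕ} {F : ℕ → ℕ → ℝ} (hF : ∀ b c, 0 ≤ F b c) : 0 ≤ frm M F := by
  unfold frm
  refine sum_nonneg fun b _ => sum_nonneg fun c _ => ?_
  have := nu_nonneg M b
  have := nu_nonneg M c
  have := hF b c
  positivity

lemma frm_mono {M : ℕ} {F G : ℕ → ℕ → ℝ}
    (h : ∀ b c, b ∣ M → c ∣ M → F b c ≤ G b c) : frm M F ≤ frm M G := by
  unfold frm
  refine sum_le_sum fun b hb => sum_le_sum fun c hc => ?_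
  have := nu_nonneg M b
  have := nu_nonneg M c
  exact mul_le_mul_of_nonneg_left
    (h b c (Nat.dvd_of_mem_divisors hb) (Nat.dvd_of_mem_divisors hc)) (by positivity)

lemma frm_add (M : ℕ) (F G : ℕ → ℕ → ℝ) :
    frm M (fun b c => F b c + G b c) = frm M F + frm M G := by
  unfold frm
  rw [← sum_add_distrib]
  refine sum_congr rfl fun b _ => ?_
  rw [← sum_add_distrib]
  refine sum_congr rfl fun c _ => ?_
  ring

lemma frm_sum (M : ℕ) {ι : Type*} (s : Finset ι) (F : ι → ℕ → ℕ → ℝ) :
    frm M (fun b c => ∑ i ∈ s, F i b c) = ∑ i ∈ s, frm M (F i) := by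
  classical
  induction s using Finset.induction_on with
  | empty =>
    unfold frm
    simp
  | insert i s hi ih =>
    rw [sum_insert hi, ← ih, ← frm_add]
    congr 1
    funext b c
    rw [sum_insert hi]

lemma En_nonneg {M : ℕ} {X : ℝ} {F : ℕ → ℕ → ℝ} (hF : ∀ b c, 0 ≤ F b c) : 0 ≤ En M X F := by
  refine frm_nonneg fun b c => ?_
  split_ifs <;> simp [hF]

lemma En_mono {M : ℕ} {X : ℝ} {F G : ℕ → ℕ → ℝ}
    (h : ∀ b c, b ∣ M → c ∣ M → F b c ≤ G b c) : En M X F ≤ En M X G := by
  refine frm_mono fun b c hb hc => ?_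
  split_ifs
  · exact h b c hb hc
  · exact le_rfl

lemma En_add (M : ℕ) (X : ℝ) (F G : ℕ → ℕ → ℝ) :
    En M X (fun b c => F b c + G b c) = En M X F + En M X G := by
  unfold En
  rw [← frm_add]
  congr 1
  funext b c
  split_ifs <;> simp

lemma En_sum (M : ℕ) (X : ℝ) {ι : Type*} (s : Finset ι) (F : ι → ℕ → ℕ → ℝ) :
    En M X (fun b c => ∑ i ∈ s, F i b c) = ∑ i ∈ s, En M X (F i) := by
  unfold En
  rw [← frm_sum]
  congr 1
  funext b c
  split_ifs <;> simp

/-- letters at `p` of a divisor of `M` -/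
lemma letter_le {M b : ℕ} (hM : 0 < M) (hb : b ∣ M) (p : ℕ) :
    b.factorization p ≤ M.factorization p :=
  (Nat.factorization_le_iff_dvd (Nat.pos_of_dvd_of_pos hb hM).ne' hM.ne').2 hb p

lemma Ex_split {M : ℕ} (hM : 0 < M) (f : ℕ → ℝ) (p : ℕ) :
    Ex M f = ∑ v ∈ range (M.factorization p + 1), Ex M (res f p v) := by
  unfold Ex
  rw [sum_comm]
  refine sum_congr rfl fun b hb => ?_
  rw [← mul_sum]
  congr 1
  unfold res
  rw [sum_ite_eq]
  rw [if_pos]
  rw [mem_range]
  have := letter_le hM (Nat.dvd_of_mem_divisors hb) p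
  omega

lemma Ex_off {M : ℕ} (f : ℕ → ℝ) (p v : ℕ) : Ex M f = Ex M (res f p v) + Ex M (off f p v) := by
  unfold Ex
  rw [← sum_add_distrib]
  refine sum_congr rfl fun b _ => ?_
  unfold res off
  split_ifs <;> ring


lemma nup_pos {p : ℕ} (hp : p.Prime) (a v : ℕ) : 0 < nup p a v := by
  have h2 : (2 : ℝ) ≤ p := by exact_mod_cast hp.two_le
  have h : (1 : ℝ) / p ≤ 1 / 2 := by
    apply one_div_le_one_div_of_le (by norm_num) h2
  have h0 : (0 : ℝ) < 1 / p := by positivity
  unfold nup
  split_ifs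
  · have : (0 : ℝ) < 1 - 1 / p := by linarith
    positivity
  · positivity

lemma fact_pow_mul {p : ℕ} (hp : p.Prime) {b : ℕ} (hb : ¬ p ∣ b) (v : ℕ) :
    (p ^ v * b).factorization p = v := by
  have hb0 : b ≠ 0 := fun h => hb (h ▸ dvd_zero p)
  rw [Nat.factorization_mul (pow_ne_zero _ hp.ne_zero) hb0, Finsupp.add_apply,
    hp.factorization_pow, Finsupp.single_eq_same, Nat.factorization_eq_zero_of_not_dvd hb, add_zero]

lemma alg_key {κ : ℝ} {P m X Y : ℝ} (hP : 0 < P) (hm : 0 < m) (hX : 0 < X) :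
    P * m * ((X / P) ^ (2 * κ - 1) * Y ^ κ) =
      X ^ (2 * κ - 1) * (P ^ 2 * m) ^ (1 - κ) * (m ^ κ * Y ^ κ) := by
  have h1 : (X / P) ^ (2 * κ - 1) = X ^ (2 * κ - 1) / P ^ (2 * κ - 1) :=
    Real.div_rpow hX.le hP.le _
  have h2 : (P ^ 2 * m) ^ (1 - κ) = P ^ (2 * (1 - κ)) * m ^ (1 - κ) := by
    rw [Real.mul_rpow (by positivity) hm.le, ← Real.rpow_natCast P 2, ← Real.rpow_mul hP.le]
    norm_num
  have h3 : P ^ (2 * (1 - κ)) = P / P ^ (2 * κ - 1) := by
    rw [show 2 * (1 - κ) = 1 - (2 * κ - 1) by ring, Real.rpow_sub hP, Real.rpow_one]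
  have h4 : m ^ (1 - κ) * m ^ κ = m := by
    rw [← Real.rpow_add hm]; norm_num
  have h5 : P ^ (2 * κ - 1) ≠ 0 := (Real.rpow_pos_of_pos hP _).ne'
  rw [h1, h2, h3]
  have h6 : X ^ (2 * κ - 1) * (P / P ^ (2 * κ - 1) * m ^ (1 - κ)) * (m ^ κ * Y ^ κ) =
      X ^ (2 * κ - 1) * (P / P ^ (2 * κ - 1)) * (m ^ (1 - κ) * m ^ κ) * Y ^ κ := by ring
  rw [h6, h4]
  field_simp

/-- crossing pairs: letters `v`, `v'` at `p` gain `p^{-(1-κ)|v-v'|}` -/
theorem cross_bound {κ C : ℝ} (hH : HVW κ C) (hκ1 : κ < 1) (hC : 0 ≤ C)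
    {M : ℕ} (hM : 0 < M) {X : ℝ} (hX : 0 < X) {f g : ℕ → ℝ}
    (hf : ∀ b, 0 ≤ f b) (hf1 : ∀ b, f b ≤ 1) (hg : ∀ b, 0 ≤ g b) (hg1 : ∀ b, g b ≤ 1)
    {p : ℕ} (hp : p.Prime) (v v' : ℕ) :
    En M X (fun b c => res f p v b * res g p v' c) ≤
      C * X ^ (2 * κ - 1) * (((1 / (p : ℝ)) ^ (1 - κ)) ^ (Nat.dist v v') *
        (Ex M (res f p v) * Ex M (res g p v')) ^ κ) := by
  classical
  obtain ⟨a, M1, hnd, hMe⟩ := Nat.exists_eq_pow_mul_and_not_dvd hM.ne' p hp.ne_one
  have hM1 : 0 < M1 := by
    rcases Nat.eq_zero_or_pos M1 with h | h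
    · rw [h] at hnd; exact absurd (dvd_zero _) hnd
    · exact h
  have hp0 : (0 : ℝ) < p := by exact_mod_cast hp.pos
  have hnn : ∀ w, ¬ p ∣ w → ∀ u, (p ^ u * w).factorization p = u := fun w hw u =>
    fact_pow_mul hp hw u
  have hnd' : ∀ b ∈ M1.divisors, ¬ p ∣ b := fun b hb h =>
    hnd (h.trans (Nat.dvd_of_mem_divisors hb))
  have rhs0 : 0 ≤ C * X ^ (2 * κ - 1) * (((1 / (p : ℝ)) ^ (1 - κ)) ^ (Nat.dist v v') *
        (Ex M (res f p v) * Ex M (res g p v')) ^ κ) := by
    have h1 := Ex_nonneg (M := M) (res_nonneg hf p v)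
    have h2 := Ex_nonneg (M := M) (res_nonneg hg p v')
    have h3 : 0 ≤ (Ex M (res f p v) * Ex M (res g p v')) ^ κ :=
      Real.rpow_nonneg (mul_nonneg h1 h2) _
    have h4 : 0 ≤ X ^ (2 * κ - 1) := Real.rpow_nonneg hX.le _
    positivity
  have e1 : En M X (fun b c => res f p v b * res g p v' c) =
      ∑ u ∈ range (a + 1), ∑ u' ∈ range (a + 1), if u = v ∧ u' = v' then
        (p : ℝ) ^ (min v v') * nup p a v * nup p a v' *
        En M1 (X / (p : ℝ) ^ (min v v')) (fun b c => f (p ^ v * b) * g (p ^ v' * c)) else 0 := by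
    unfold En
    rw [hMe, frm_split hp a hM1 hnd]
    refine sum_congr rfl fun u _ => sum_congr rfl fun u' _ => ?_
    split_ifs with h
    · obtain ⟨rfl, rfl⟩ := h
      congr 1
      unfold frm
      refine sum_congr rfl fun b hb => sum_congr rfl fun c hc => ?_
      congr 1
      have hPm : (0 : ℝ) < (p : ℝ) ^ (min u u') := by positivity
      have e2 : ((Nat.gcd (p ^ u * b) (p ^ u' * c) : ℕ) : ℝ) =
          (p : ℝ) ^ (min u u') * (Nat.gcd b c : ℝ) := by
        rw [gcd_split hp u u' (hnd' b hb) (hnd' c hc)]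
        push_cast
        ring
      have e3 : (X ≤ ((Nat.gcd (p ^ u * b) (p ^ u' * c) : ℕ) : ℝ) ∧
          ((Nat.gcd (p ^ u * b) (p ^ u' * c) : ℕ) : ℝ) < 2 * X) ↔
          (X / (p : ℝ) ^ (min u u') ≤ (Nat.gcd b c : ℝ) ∧
            (Nat.gcd b c : ℝ) < 2 * (X / (p : ℝ) ^ (min u u'))) := by
        rw [e2, div_le_iff₀ hPm, ← mul_div_assoc, lt_div_iff₀ hPm, mul_comm (Nat.gcd b c : ℝ)]
      have e4 : res f p u (p ^ u * b) = f (p ^ u * b) := by
        unfold res; rw [if_pos (hnn b (hnd' b hb) u)]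
      have e5 : res g p u' (p ^ u' * c) = g (p ^ u' * c) := by
        unfold res; rw [if_pos (hnn c (hnd' c hc) u')]
      dsimp only
      by_cases h6 : X / (p : ℝ) ^ (min u u') ≤ (Nat.gcd b c : ℝ) ∧
            (Nat.gcd b c : ℝ) < 2 * (X / (p : ℝ) ^ (min u u'))
      · rw [if_pos h6, if_pos (e3.2 h6), e4, e5]
      · rw [if_neg h6, if_neg (fun h => h6 (e3.1 h))]
    · have : frm M1 (fun b c => (fun b c => if X ≤ (Nat.gcd b c : ℝ) ∧ (Nat.gcd b c : ℝ) < 2 * X
          then (fun b c => res f p v b * res g p v' c) b c else 0) (p ^ u * b) (p ^ u' * c)) = 0 := by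
        unfold frm
        refine sum_eq_zero fun b hb => sum_eq_zero fun c hc => ?_
        have h7 : res f p v (p ^ u * b) * res g p v' (p ^ u' * c) = 0 := by
          unfold res
          rw [hnn b (hnd' b hb) u, hnn c (hnd' c hc) u']
          by_cases h8 : u = v
          · rw [if_neg (fun h9 => h ⟨h8, h9⟩), mul_zero]
          · rw [if_neg h8, zero_mul]
        simp only [h7, ite_self, mul_zero]
      rw [this, mul_zero]
  by_cases hva : v ∈ range (a + 1) ∧ v' ∈ range (a + 1)
  · obtain ⟨hv, hv'⟩ := hva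
    have e2 : En M X (fun b c => res f p v b * res g p v' c) =
        (p : ℝ) ^ (min v v') * nup p a v * nup p a v' *
        En M1 (X / (p : ℝ) ^ (min v v')) (fun b c => f (p ^ v * b) * g (p ^ v' * c)) := by
      rw [e1, sum_eq_single v, sum_eq_single v', if_pos ⟨rfl, rfl⟩]
      · intro b _ hb
        rw [if_neg (fun h => hb h.2)]
      · intro h; exact absurd hv' h
      · intro b _ hb
        refine sum_eq_zero fun c _ => ?_
        rw [if_neg (fun h => hb h.1)]
      · intro h; exact absurd hv h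
    have eE : ∀ (F : ℕ → ℝ) (u : ℕ), u ∈ range (a + 1) →
        Ex M (res F p u) = nup p a u * Ex M1 (fun b => F (p ^ u * b)) := by
      intro F u hu
      unfold Ex
      rw [hMe, sum_split hp a hM1 hnd, sum_eq_single u]
      · rw [mul_sum]
        refine sum_congr rfl fun b hb => ?_
        have hcop : Nat.Coprime (p ^ a) M1 :=
          Nat.Coprime.pow_left a ((Nat.Prime.coprime_iff_not_dvd hp).2 hnd)
        rw [mem_range] at hu
        rw [nu_mul hcop (pow_dvd_pow p (by omega)) (Nat.dvd_of_mem_divisors hb),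
          nu_prime_pow hp (by omega)]
        unfold res
        rw [if_pos (hnn b (hnd' b hb) u)]
        ring
      · intro w _ hw
        refine sum_eq_zero fun b hb => ?_
        unfold res
        rw [if_neg (by rw [hnn b (hnd' b hb) w]; exact hw), mul_zero]
      · intro h; exact absurd hu h
    rw [e2, eE f v hv, eE g v' hv']
    set P : ℝ := (p : ℝ) ^ (min v v') with hPdef
    have hP : 0 < P := by positivity
    set n := nup p a v with hn
    set n' := nup p a v' with hn'
    have hnp : 0 < n := nup_pos hp a v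
    have hnp' : 0 < n' := nup_pos hp a v'
    have hE1 : 0 ≤ Ex M1 (fun b => f (p ^ v * b)) := Ex_nonneg fun b => hf _
    have hE2 : 0 ≤ Ex M1 (fun b => g (p ^ v' * b)) := Ex_nonneg fun b => hg _
    set E1 := Ex M1 (fun b => f (p ^ v * b)) with hE1d
    set E2 := Ex M1 (fun b => g (p ^ v' * b)) with hE2d
    have hmain := hH M1 hM1 (X / P) (by positivity) (fun b => f (p ^ v * b))
      (fun b => g (p ^ v' * b)) (fun b => hf _) (fun b => hf1 _) (fun b => hg _) (fun b => hg1 _)
    have hnle : P ^ 2 * (n * n') ≤ (1 / (p : ℝ)) ^ (Nat.dist v v') := by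
      rw [mem_range] at hv hv'
      have h1 : n ≤ (1 / (p : ℝ)) ^ v := nup_le hp.pos a v (by omega)
      have h2 : n' ≤ (1 / (p : ℝ)) ^ v' := nup_le hp.pos a v' (by omega)
      have h3 : n * n' ≤ (1 / (p : ℝ)) ^ v * (1 / (p : ℝ)) ^ v' :=
        mul_le_mul h1 h2 hnp'.le (by positivity)
      calc P ^ 2 * (n * n') ≤ P ^ 2 * ((1 / (p : ℝ)) ^ v * (1 / (p : ℝ)) ^ v') :=
            mul_le_mul_of_nonneg_left h3 (by positivity)
        _ = (1 / (p : ℝ)) ^ (Nat.dist v v') := by
            rw [← pow_add, hPdef, ← pow_mul]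
            have h4 : v + v' = min v v' * 2 + Nat.dist v v' := by
              rcases le_total v v' with h | h
              · rw [min_eq_left h, Nat.dist_eq_sub_of_le h]; omega
              · rw [min_eq_right h, Nat.dist_comm, Nat.dist_eq_sub_of_le h]; omega
            rw [h4, pow_add, ← mul_assoc]
            have h5 : (p : ℝ) ^ (min v v' * 2) * (1 / (p : ℝ)) ^ (min v v' * 2) = 1 := by
              rw [← mul_pow, mul_one_div_cancel hp0.ne', one_pow]
            rw [h5, one_mul]
    have hX1 : 0 ≤ X ^ (2 * κ - 1) := Real.rpow_nonneg hX.le _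
    calc P * n * n' * En M1 (X / P) (fun b c => f (p ^ v * b) * g (p ^ v' * c))
        ≤ P * n * n' * (C * (X / P) ^ (2 * κ - 1) * (E1 * E2) ^ κ) :=
          mul_le_mul_of_nonneg_left hmain (by positivity)
      _ = C * (P * (n * n') * ((X / P) ^ (2 * κ - 1) * (E1 * E2) ^ κ)) := by ring
      _ = C * (X ^ (2 * κ - 1) * (P ^ 2 * (n * n')) ^ (1 - κ) *
            ((n * n') ^ κ * (E1 * E2) ^ κ)) := by
          rw [alg_key hP (by positivity) hX]
      _ ≤ C * (X ^ (2 * κ - 1) * ((1 / (p : ℝ)) ^ (Nat.dist v v')) ^ (1 - κ) *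
            ((n * n') ^ κ * (E1 * E2) ^ κ)) := by
          have h1 : (P ^ 2 * (n * n')) ^ (1 - κ) ≤ ((1 / (p : ℝ)) ^ (Nat.dist v v')) ^ (1 - κ) :=
            Real.rpow_le_rpow (by positivity) hnle (by linarith)
          have h2 : 0 ≤ (n * n') ^ κ * (E1 * E2) ^ κ :=
            mul_nonneg (Real.rpow_nonneg (by positivity) _) (Real.rpow_nonneg (by positivity) _)
          gcongr
      _ = C * X ^ (2 * κ - 1) * (((1 / (p : ℝ)) ^ (1 - κ)) ^ (Nat.dist v v') *
            (n * E1 * (n' * E2)) ^ κ) := by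
          have h1 : ((1 / (p : ℝ)) ^ (Nat.dist v v')) ^ (1 - κ) =
              ((1 / (p : ℝ)) ^ (1 - κ)) ^ (Nat.dist v v') := by
            rw [← Real.rpow_natCast, ← Real.rpow_natCast, ← Real.rpow_mul (by positivity),
              ← Real.rpow_mul (by positivity), mul_comm]
          have h2 : (n * E1 * (n' * E2)) ^ κ = (n * n') ^ κ * (E1 * E2) ^ κ := by
            rw [← Real.mul_rpow (by positivity) (by positivity)]
            congr 1
            ring
          rw [h1, h2]
          ring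
  · have e3 : En M X (fun b c => res f p v b * res g p v' c) = 0 := by
      rw [e1]
      refine sum_eq_zero fun u hu => sum_eq_zero fun u' hu' => ?_
      rw [if_neg]
      rintro ⟨rfl, rfl⟩
      exact hva ⟨hu, hu'⟩
    rw [e3]
    exact rhs0


/-! ### The tree -/

/-- the centre of `p` at the node `f` (`none` = the node branches) -/
noncomputable def cen (M : ℕ) (x : ℕ → ℝ) (f : ℕ → ℝ) (p : ℕ) : Option ℕ := by
  classical
  exact if h : ∃ v0, Ex M (off f p v0) ≤ x p * Ex M f then some (Nat.find h) else none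

lemma cen_some {M : ℕ} {x f : ℕ → ℝ} {p v0 : ℕ} (h : cen M x f p = some v0) :
    Ex M (off f p v0) ≤ x p * Ex M f := by
  classical
  unfold cen at h
  split_ifs at h with h1
  rw [Option.some.injEq] at h
  rw [← h]
  exact Nat.find_spec h1

lemma cen_none {M : ℕ} {x f : ℕ → ℝ} {p : ℕ} (h : cen M x f p = none) (v0 : ℕ) :
    x p * Ex M f < Ex M (off f p v0) := by
  classical
  unfold cen at h
  split_ifs at h with h1
  push Not at h1
  exact h1 v0

/-- good pairs -/
def Good (M : ℕ) (x : ℕ → ℝ) : List ℕ → (ℕ → ℝ) → ℕ → ℕ → Prop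
  | [], _, _, _ => True
  | p :: ps, f, b, c =>
    match cen M x f p with
    | some v0 => (b.factorization p = v0 ∨ c.factorization p = v0) ∧ Good M x ps f b c
    | none => b.factorization p = c.factorization p ∧
        Good M x ps (res f p (b.factorization p)) b c

/-- the node of `b` -/
noncomputable def node (M : ℕ) (x : ℕ → ℝ) : List ℕ → (ℕ → ℝ) → ℕ → (ℕ → ℝ)
  | [], f, _ => f
  | p :: ps, f, b =>
    match cen M x f p with
    | some _ => node M x ps f b
    | none => node M x ps (res f p (b.factorization p)) b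

/-- the status (centre / branched = `none`) of the prime `r` along the path of `b` -/
noncomputable def st (M : ℕ) (x : ℕ → ℝ) : List ℕ → (ℕ → ℝ) → ℕ → ℕ → Option ℕ
  | [], _, _, _ => none
  | p :: ps, f, b, r =>
    if r = p then cen M x f p else
    match cen M x f p with
    | some _ => st M x ps f b r
    | none => st M x ps (res f p (b.factorization p)) b r

/-- the potential `∑_leaves (E f_leaf)^{2κ}` -/
noncomputable def V (M : ℕ) (x : ℕ → ℝ) (κ : ℝ) : List ℕ → (ℕ → ℝ) → ℝ
  | [], f => Ex M f ^ (2 * κ)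
  | p :: ps, f =>
    match cen M x f p with
    | some _ => V M x κ ps f
    | none => ∑ v ∈ range (M.factorization p + 1), V M x κ ps (res f p v)

lemma good_some {M : ℕ} {x f : ℕ → ℝ} {p v0 : ℕ} {ps : List ℕ} (h : cen M x f p = some v0)
    (b c : ℕ) : Good M x (p :: ps) f b c ↔
      ((b.factorization p = v0 ∨ c.factorization p = v0) ∧ Good M x ps f b c) := by
  simp [Good, h]

lemma good_none {M : ℕ} {x f : ℕ → ℝ} {p : ℕ} {ps : List ℕ} (h : cen M x f p = none)
    (b c : ℕ) : Good M x (p :: ps) f b c ↔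
      (b.factorization p = c.factorization p ∧
        Good M x ps (res f p (b.factorization p)) b c) := by
  simp [Good, h]

lemma node_some {M : ℕ} {x f : ℕ → ℝ} {p v0 : ℕ} {ps : List ℕ} (h : cen M x f p = some v0)
    (b : ℕ) : node M x (p :: ps) f b = node M x ps f b := by
  simp [node, h]

lemma node_none {M : ℕ} {x f : ℕ → ℝ} {p : ℕ} {ps : List ℕ} (h : cen M x f p = none)
    (b : ℕ) : node M x (p :: ps) f b = node M x ps (res f p (b.factorization p)) b := by
  simp [node, h]

lemma st_self {M : ℕ} {x f : ℕ → ℝ} {p : ℕ} {ps : List ℕ} (b : ℕ) :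
    st M x (p :: ps) f b p = cen M x f p := by
  simp [st]

lemma st_some {M : ℕ} {x f : ℕ → ℝ} {p v0 : ℕ} {ps : List ℕ} (h : cen M x f p = some v0)
    (b : ℕ) {r : ℕ} (hr : r ≠ p) : st M x (p :: ps) f b r = st M x ps f b r := by
  simp [st, h, hr]

lemma st_none {M : ℕ} {x f : ℕ → ℝ} {p : ℕ} {ps : List ℕ} (h : cen M x f p = none)
    (b : ℕ) {r : ℕ} (hr : r ≠ p) :
    st M x (p :: ps) f b r = st M x ps (res f p (b.factorization p)) b r := by
  simp [st, h, hr]

lemma V_some {M : ℕ} {x f : ℕ → ℝ} {κ : ℝ} {p v0 : ℕ} {ps : List ℕ}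
    (h : cen M x f p = some v0) : V M x κ (p :: ps) f = V M x κ ps f := by
  simp [V, h]

lemma V_none {M : ℕ} {x f : ℕ → ℝ} {κ : ℝ} {p : ℕ} {ps : List ℕ}
    (h : cen M x f p = none) : V M x κ (p :: ps) f =
      ∑ v ∈ range (M.factorization p + 1), V M x κ ps (res f p v) := by
  simp [V, h]

lemma V_nonneg {M : ℕ} {x : ℕ → ℝ} {κ : ℝ} (ps : List ℕ) :
    ∀ {f : ℕ → ℝ}, (∀ b, 0 ≤ f b) → 0 ≤ V M x κ ps f := by
  induction ps with
  | nil => intro f hf; exact Real.rpow_nonneg (Ex_nonneg hf) _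
  | cons p ps ih =>
    intro f hf
    cases h : cen M x f p with
    | some v0 => rw [V_some h]; exact ih hf
    | none => rw [V_none h]; exact sum_nonneg fun v _ => ih (res_nonneg hf p v)

/-! ### Structure of good pairs -/

/-- both members of a good pair stay in the same node -/
theorem good_node {M : ℕ} {x : ℕ → ℝ} (ps : List ℕ) :
    ∀ {f : ℕ → ℝ} {b c : ℕ}, Good M x ps f b c → node M x ps f b = node M x ps f c := by
  induction ps with
  | nil => intro f b c _; rfl
  | cons p ps ih =>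
    intro f b c hg
    cases h : cen M x f p with
    | some v0 =>
      rw [good_some h] at hg
      rw [node_some h, node_some h]
      exact ih hg.2
    | none =>
      rw [good_none h] at hg
      rw [node_none h, node_none h, ← hg.1]
      exact ih hg.2

/-- the status of a prime is the same for both members of a good pair -/
theorem good_st {M : ℕ} {x : ℕ → ℝ} (ps : List ℕ) :
    ∀ {f : ℕ → ℝ} {b c : ℕ}, Good M x ps f b c → ∀ r, st M x ps f b r = st M x ps f c r := by
  induction ps with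
  | nil => intro f b c _ r; rfl
  | cons p ps ih =>
    intro f b c hg r
    by_cases hr : r = p
    · rw [hr, st_self, st_self]
    cases h : cen M x f p with
    | some v0 =>
      rw [good_some h] at hg
      rw [st_some h b hr, st_some h c hr]
      exact ih hg.2 r
    | none =>
      rw [good_none h] at hg
      rw [st_none h b hr, st_none h c hr, ← hg.1]
      exact ih hg.2 r

/-- branched prime: same letter; passive prime: one of the letters is the centre -/
theorem good_letters {M : ℕ} {x : ℕ → ℝ} (ps : List ℕ) :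
    ∀ {f : ℕ → ℝ} {b c : ℕ}, Good M x ps f b c → ∀ r ∈ ps,
      (st M x ps f b r = none → b.factorization r = c.factorization r) ∧
      (∀ v0, st M x ps f b r = some v0 → b.factorization r = v0 ∨ c.factorization r = v0) := by
  induction ps with
  | nil => intro f b c _ r hr; exact absurd hr (List.not_mem_nil)
  | cons p ps ih =>
    intro f b c hg r hr
    by_cases hrp : r = p
    · subst hrp
      rw [st_self]
      cases h : cen M x f r with
      | some v0 =>
        rw [good_some h] at hg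
        refine ⟨fun h1 => by simp at h1, fun v h1 => ?_⟩
        rw [Option.some.injEq] at h1
        rw [← h1]
        exact hg.1
      | none =>
        rw [good_none h] at hg
        exact ⟨fun _ => hg.1, fun v h1 => by simp at h1⟩
    · have hr' : r ∈ ps := by
        rcases List.mem_cons.1 hr with h | h
        · exact absurd h hrp
        · exact h
      cases h : cen M x f p with
      | some v0 =>
        rw [good_some h] at hg
        rw [st_some h b hrp]
        exact ih hg.2 r hr'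
      | none =>
        rw [good_none h] at hg
        rw [st_none h b hrp]
        exact ih hg.2 r hr'

end Crest.Agent.R4C.FLamx326
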