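import Crest.Agent.R4C.FamBud3_252

/-!
# Row 4, GW section, vector case: budget for the weight of the ACTUAL coins (helper252)

13's literal weight: `VA Z Act w j` = product of the actual coins `≤ cut j` of the full word if every
nominal coin `> cut j` of the world word `w` is an actual coin, `0` otherwise.

* `budget_act` : `∑_z VA (z.1) (Y3 z w + min 1 (D / (pz z + 1))) ≤ 8 + log2 D`.
-/

set_option autoImplicit false

open Finset

namespace Crest.Agent.R4C.FamBudx252

open Crest.Agent.R4C.Basex935 Crest.Agent.R4C.Cutx50 Crest.Agent.R4C.GWdefx982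
open Crest.Agent.R4C.GWnodex863

/-- every nominal coin above `cut j` is in `Act` -/
def Good (Z : World) (Act : Finset ℕ) (w j : ℕ) : Prop :=
  ∀ q ∈ PrefixMx882.free Z.N w, Z.coin w q → Z.cut j < q → q ∈ Act

open Classical in
/-- weight of the actual coins up to `cut j` -/
noncomputable def VA (Z : World) (Act : Finset ℕ) (w j : ℕ) : ℝ :=
  if Good Z Act w j then ∏ p ∈ Act with p ≤ Z.cut j, (1 - 1 / (p : ℝ)) else 0

variable {Z : World}

lemma Good.mono (h : Z.Ok) {Act : Finset ℕ} {w i j : ℕ} (hg : Good Z Act w i) (hij : i ≤ j) :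
    Good Z Act w j := fun q hq hc hlt => hg q hq hc (lt_of_le_of_lt (h.hcut hij) hlt)

lemma fac_mem {p : ℕ} (hp : 1 ≤ p) : 0 ≤ (1 - 1 / (p : ℝ)) ∧ (1 - 1 / (p : ℝ)) ≤ 1 := by
  have h2 : (1 : ℝ) ≤ p := by exact_mod_cast hp
  have h3 : 1 / (p : ℝ) ≤ 1 := by rw [div_le_one (by linarith)]; exact h2
  have h4 : 0 ≤ 1 / (p : ℝ) := by positivity
  constructor <;> linarith

lemma VA_nonneg {Act : Finset ℕ} (hA : ∀ p ∈ Act, 1 ≤ p) (w j : ℕ) : 0 ≤ VA Z Act w j := by
  classical
  unfold VA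
  split_ifs
  · exact prod_nonneg fun p hp => (fac_mem (hA p (mem_filter.1 hp).1)).1
  · exact le_rfl

lemma VA_le_one {Act : Finset ℕ} (hA : ∀ p ∈ Act, 1 ≤ p) (w j : ℕ) : VA Z Act w j ≤ 1 := by
  classical
  unfold VA
  split_ifs
  · exact prod_le_one (fun p hp => (fac_mem (hA p (mem_filter.1 hp).1)).1)
      fun p hp => (fac_mem (hA p (mem_filter.1 hp).1)).2
  · exact zero_le_one

/-- from one index to a later one the weight loses the nominal coins -/
lemma VA_step (h : Z.Ok) {Act : Finset ℕ} (hA : ∀ p ∈ Act, 1 ≤ p) {w i j : ℕ}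
    (hg : Good Z Act w i) (hij : i ≤ j) :
    VA Z Act w j ≤ Z.Wp (Z.cut i) (Z.cut j) w * VA Z Act w i := by
  classical
  unfold VA
  rw [if_pos hg, if_pos (hg.mono h hij)]
  have e : (∏ p ∈ Act with p ≤ Z.cut j, (1 - 1 / (p : ℝ))) =
      (∏ p ∈ Act with p ≤ Z.cut i, (1 - 1 / (p : ℝ))) *
      ∏ p ∈ Act with Z.cut i < p ∧ p ≤ Z.cut j, (1 - 1 / (p : ℝ)) := by
    rw [← prod_union]
    · congr 1
      ext p
      simp only [mem_union, mem_filter]
      constructor
      · rintro ⟨h1, h2⟩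
        rcases le_or_gt p (Z.cut i) with h3 | h3
        · exact Or.inl ⟨h1, h3⟩
        · exact Or.inr ⟨h1, h3, h2⟩
      · rintro (⟨h1, h2⟩ | ⟨h1, _, h2⟩)
        · exact ⟨h1, h2.trans (h.hcut hij)⟩
        · exact ⟨h1, h2⟩
    · rw [disjoint_left]
      intro p hp hp'
      have h1 := (mem_filter.1 hp).2
      have h2 := (mem_filter.1 hp').2.1
      omega
  rw [e, mul_comm]
  refine mul_le_mul_of_nonneg_right ?_
    (prod_nonneg fun p hp => (fac_mem (hA p (mem_filter.1 hp).1)).1)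
  unfold World.Wp
  have hsub : (PrefixMx882.free Z.N w).filter
      (fun p => Z.cut i < p ∧ p ≤ Z.cut j ∧ Z.coin w p) ⊆
      Act.filter fun p => Z.cut i < p ∧ p ≤ Z.cut j := by
    intro p hp
    rw [mem_filter] at hp ⊢
    exact ⟨hg p hp.1 hp.2.2.2 hp.2.1, hp.2.1, hp.2.2.1⟩
  rw [← prod_sdiff hsub]
  refine mul_le_of_le_one_left
    (prod_nonneg fun p hp => (fac_mem (hA p (mem_filter.1 (hsub hp)).1)).1) ?_
  exact prod_le_one
    (fun p hp => (fac_mem (hA p (mem_filter.1 (mem_sdiff.1 hp).1).1)).1)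
    fun p hp => (fac_mem (hA p (mem_filter.1 (mem_sdiff.1 hp).1).1)).2

/-- **budget of the actual coins** -/
theorem budget_act (h : Z.Ok) {w : ℕ} (hw : w ∣ Z.N) {Act : Finset ℕ} (hA : ∀ p ∈ Act, 1 ≤ p)
    {D : ℕ} (hD : 1 ≤ D) :
    (∑ z ∈ Z.Zs with w ∈ Z.zd.zone z,
      VA Z Act w z.1 * (Y3 Z z w + min 1 ((D : ℝ) / ((Z.pz z : ℝ) + 1)))) ≤
      8 + Nat.log 2 D := by
  classical
  by_cases hex : ∃ j, Good Z Act w j
  · refine budget3_kap h hw (fun j => VA Z Act w j) (Nat.find hex)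
      (fun j => VA_nonneg hA w j) (fun j => VA_le_one hA w j) (fun i hi => ?_)
      (fun i j hi hij _ _ => VA_step h hA ((Nat.find_spec hex).mono h hi) hij.le) hD
    unfold VA
    rw [if_neg (Nat.find_min hex hi)]
  · have h0 : ∀ j, VA Z Act w j = 0 := fun j => by
      unfold VA
      rw [if_neg fun hg => hex ⟨j, hg⟩]
    rw [sum_eq_zero fun z _ => by rw [h0, zero_mul]]
    positivity

/-- the three gap part alone -/
theorem budget_act3 (h : Z.Ok) {w : ℕ} (hw : w ∣ Z.N) {Act : Finset ℕ} (hA : ∀ p ∈ Act, 1 ≤ p) :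
    (∑ z ∈ Z.Zs with w ∈ Z.zd.zone z, VA Z Act w z.1 * Y3 Z z w) ≤ 4 := by
  classical
  by_cases hex : ∃ j, Good Z Act w j
  · refine budget3_world h hw (fun j => VA Z Act w j) (Nat.find hex)
      (fun j => VA_nonneg hA w j) (fun j => VA_le_one hA w j) (fun i hi => ?_)
      (fun i j hi hij _ _ => VA_step h hA ((Nat.find_spec hex).mono h hi) hij.le)
    unfold VA
    rw [if_neg (Nat.find_min hex hi)]
  · have h0 : ∀ j, VA Z Act w j = 0 := fun j => by
      unfold VA
      rw [if_neg fun hg => hex ⟨j, hg⟩]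
    rw [sum_eq_zero fun z _ => by rw [h0, zero_mul]]
    norm_num

end Crest.Agent.R4C.FamBudx252
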