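import Crest.Agent.R4C.LBoxDef_662
import Crest.Agent.R4C.BoostAl_100

/-!
# Row 4, CLASS (L): ARROW D, the boost of a boxed pair (helper208)

`arrD` : for a pair `LB` of class (L) in the box `x`, with high words `z0, z0'`:
`boostB ≤ C (v+1)^2 (mx+1)^4 offW_1(b) offW_1(c) bst(Qt)` with an absolute constant `C`;
`tgtD` : the target `TgtD` of `LBoxDef_662`.

Parts: `BoostAl_100.boost_alQ` at `Q = cut (2 t)`;  common primes `≤ Y v` and differing primes
`≤ Y v`: Mertens (`v + 1` each);  common primes in `(Y v, cut t]`: `Qt`;  in `(cut t, cut (2 t)]`: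
constant;  differing primes in `(Y v, cut t]` divide the two denominators `k0` (field `topk`);
differing primes `> cut t` are off-centre (`B1Lev_52.B1_le`).
-/

set_option autoImplicit false

open Finset

namespace Crest.Agent.R4C.LBstx208

open Crest.Agent.R4C.Basex935 Crest.Agent.R4C.Cutx50 Crest.Agent.R4C.FLDefx935
  Crest.Agent.R4C.Rulex945 Crest.Agent.R4C.Splitx945 Crest.Agent.R4C.Bridgex882
  Crest.Agent.R4C.CrCoinx935 Crest.Agent.R4C.Spinex946
  Crest.Agent.R4C.LBoxDefx662 Crest.Agent.R4C.BoostTopx19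
open Crest.Agent.R4C.BoostCx972 (pf pf_pos one_le_pf prod_pf_pos prod_pf_mono prod_pf_union
  one_le_prod_pf prod_pf_le_mertens prod_pf_le_log CM CM_pos)
open Crest.Agent.R4C.B1Levx52 (offW one_le_offW offW_anti)

/-- primes `≤ 2^v`: `∏ (1-1/p)⁻¹ ≤ CM (v+1)` -/
lemma prod_pf_le_v {S : Finset ℕ} {v : ℕ} (hS : ∀ p ∈ S, p.Prime ∧ p ≤ 2 ^ v) :
    ∏ p ∈ S, pf p ≤ CM * ((v : ℝ) + 1) := by
  have h1 : ∏ p ∈ S, pf p ≤ CM * Real.log ((2 : ℝ) ^ (v + 1)) := by
    refine prod_pf_le_mertens ?_ fun p hp => ⟨(hS p hp).1, ?_⟩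
    · calc (2 : ℝ) = 2 ^ 1 := by norm_num
        _ ≤ 2 ^ (v + 1) := pow_le_pow_right₀ (by norm_num) (by omega)
    · have h2 : p ≤ 2 ^ (v + 1) :=
        (hS p hp).2.trans (Nat.pow_le_pow_right (by norm_num) (by omega))
      exact_mod_cast h2
  refine h1.trans (mul_le_mul_of_nonneg_left ?_ CM_pos.le)
  rw [Real.log_pow]
  push_cast
  have h2 : Real.log 2 ≤ 1 := by
    have := Real.log_two_lt_d9
    linarith
  have h3 : (0 : ℝ) ≤ (v : ℝ) + 1 := by positivity
  nlinarith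

/-- constant for the primes in `(X, X^2]` -/
noncomputable def CB : ℝ := 2 * Real.exp (22 / Real.log 2)

lemma CB_pos : 0 < CB := by
  unfold CB
  positivity

/-- primes in `(X, Q]`, `log Q ≤ 2 log X` -/
lemma prod_pf_le_win {S : Finset ℕ} {X Q : ℕ} (hX : 2 ≤ X) (hlog : Real.log Q ≤ 2 * Real.log X)
    (hS : ∀ p ∈ S, p.Prime ∧ X < p ∧ p ≤ Q) : ∏ p ∈ S, pf p ≤ CB := by
  have hl2 : 0 < Real.log 2 := Real.log_pos (by norm_num)
  rcases S.eq_empty_or_nonempty with h0 | ⟨p0, hp0⟩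
  · rw [h0, Finset.prod_empty]
    unfold CB
    have := Real.one_le_exp (x := 22 / Real.log 2) (by positivity)
    linarith
  have hXQ : X ≤ Q := (hS p0 hp0).2.1.le.trans (hS p0 hp0).2.2
  have hX' : (2 : ℝ) ≤ X := by exact_mod_cast hX
  have hXQ' : (X : ℝ) ≤ Q := by exact_mod_cast hXQ
  have hlX : 0 < Real.log X := Real.log_pos (by linarith)
  have hlQ : 0 < Real.log Q := Real.log_pos (by linarith)
  have hpr : ∀ p ∈ Lib.Mertens.pr (X : ℝ) Q, p.Prime := fun p hp =>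
    ((Lib.Mertens.mem_pr (by linarith) (by linarith)).1 hp).2
  have hsub : S ⊆ Lib.Mertens.pr X Q := by
    intro p hp
    obtain ⟨h1, h2, h3⟩ := hS p hp
    rw [Lib.Mertens.mem_pr (by linarith) (by linarith)]
    exact ⟨⟨by exact_mod_cast h2, by exact_mod_cast h3⟩, h1⟩
  have hm := (Lib.Mertens.mertens_three X Q hX' hXQ').1
  have hprod : 0 < Real.exp (-(22 / Real.log X)) * (Real.log X / Real.log Q) := by positivity
  have h1 : ∏ p ∈ Lib.Mertens.pr (X : ℝ) Q, pf p ≤ (Real.exp (-(22 / Real.log X)) *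
      (Real.log X / Real.log Q))⁻¹ := by
    unfold pf
    rw [Finset.prod_inv_distrib]
    exact inv_anti₀ hprod hm
  refine (prod_pf_mono hsub hpr).trans (h1.trans ?_)
  rw [mul_inv, inv_div, Real.exp_neg, inv_inv]
  have h3 : Real.log Q / Real.log X ≤ 2 := by
    rw [div_le_iff₀ hlX]
    exact hlog
  have h4 : Real.exp (22 / Real.log X) ≤ Real.exp (22 / Real.log 2) := by
    rw [Real.exp_le_exp]
    exact div_le_div_of_nonneg_left (by norm_num) hl2 (Real.log_le_log (by norm_num) hX')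
  unfold CB
  calc Real.exp (22 / Real.log X) * (Real.log Q / Real.log X)
      ≤ Real.exp (22 / Real.log 2) * 2 :=
        mul_le_mul h4 h3 (by positivity) (Real.exp_pos _).le
    _ = _ := by ring

/-- `HighW_899.bst` is a product of `pf` -/
lemma bst_eq_pf (Q : Finset ℕ) : HighWx899.bst Q = ∏ p ∈ Q, pf p := rfl

variable {M : ℕ} {F : FL M} {P : Par}

open Classical in
/-- **the common primes** -/
lemma common_le (hM : 0 < M) {b c y t Q z0 z0' k k' : ℕ} {v : ℕ} (hb : b ∣ M) (hc : c ∣ M)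
    (hy : y = 2 ^ v) (hX : 2 ≤ P.cut t) (hlog : Real.log Q ≤ 2 * Real.log (P.cut t))
    (e1 : upp y b = k * z0) (e2 : upp y c = k' * z0') :
    BoostRx398.bst (prQ Q) M b c ≤
      CB * (CM * ((v : ℝ) + 1)) * HighWx899.bst (Qt (M := M) P y t z0 z0') := by
  rw [bst_eq, bst_eq_pf]
  set S := (prQ Q).filter (fun p => b.factorization p = c.factorization p ∧
      b.factorization p < M.factorization p) with hS
  have hSp : ∀ p ∈ S, p.Prime ∧ p ≤ Q ∧ b.factorization p = c.factorization p ∧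
      b.factorization p < M.factorization p := by
    intro p hp
    rw [hS, mem_filter] at hp
    obtain ⟨h1, h2, h3⟩ := hp
    unfold prQ at h1
    rw [mem_filter, mem_range] at h1
    exact ⟨h1.2, by omega, h2, h3⟩
  have hQp : ∀ p ∈ Qt (M := M) P y t z0 z0', p.Prime := by
    intro p hp
    unfold Qt at hp
    exact Nat.prime_of_mem_primeFactors (mem_filter.1 hp).1
  have hb0 : b ≠ 0 := (Nat.pos_of_dvd_of_pos hb hM).ne'
  have hc0 : c ≠ 0 := (Nat.pos_of_dvd_of_pos hc hM).ne'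
  have hz0 : z0 ≠ 0 := by
    rintro rfl
    rw [mul_zero] at e1
    exact (upp_pos y b).ne' e1
  have hz0' : z0' ≠ 0 := by
    rintro rfl
    rw [mul_zero] at e2
    exact (upp_pos y c).ne' e2
  have hk0 : k ≠ 0 := by
    rintro rfl
    rw [zero_mul] at e1
    exact (upp_pos y b).ne' e1
  have hk0' : k' ≠ 0 := by
    rintro rfl
    rw [zero_mul] at e2
    exact (upp_pos y c).ne' e2
  have hsub : S ⊆ (S.filter (fun p => P.cut t < p)) ∪
      ((S.filter (fun p => p ≤ y)) ∪ Qt (M := M) P y t z0 z0') := by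
    intro p hp
    obtain ⟨h1, h2, h3, h4⟩ := hSp p hp
    rw [mem_union, mem_union]
    by_cases h5 : P.cut t < p
    · exact Or.inl (mem_filter.2 ⟨hp, h5⟩)
    right
    by_cases h6 : p ≤ y
    · exact Or.inl (mem_filter.2 ⟨hp, h6⟩)
    right
    have f1 : (upp y M).factorization p = M.factorization p := by
      rw [fact_upp, if_pos h6]
    have f2 : z0.factorization p ≤ b.factorization p := by
      have : (upp y b).factorization p = b.factorization p := by rw [fact_upp, if_pos h6]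
      rw [← this, e1, Nat.factorization_mul hk0 hz0, Finsupp.add_apply]
      omega
    have f3 : z0'.factorization p ≤ c.factorization p := by
      have : (upp y c).factorization p = c.factorization p := by rw [fact_upp, if_pos h6]
      rw [← this, e2, Nat.factorization_mul hk0' hz0', Finsupp.add_apply]
      omega
    unfold Qt
    rw [mem_filter]
    refine ⟨?_, not_lt.1 h5, by omega, by omega⟩
    rw [← Nat.support_factorization, Finsupp.mem_support_iff, f1]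
    omega
  have hA : ∀ p ∈ S.filter (fun p => P.cut t < p), p.Prime := fun p hp =>
    (hSp p (mem_filter.1 hp).1).1
  have hB : ∀ p ∈ S.filter (fun p => p ≤ y), p.Prime := fun p hp =>
    (hSp p (mem_filter.1 hp).1).1
  have hBC : ∀ p ∈ (S.filter (fun p => p ≤ y)) ∪ Qt (M := M) P y t z0 z0', p.Prime := fun p hp =>
    (mem_union.1 hp).elim (hB p) (hQp p)
  refine (prod_pf_mono hsub fun p hp => (mem_union.1 hp).elim (hA p) (hBC p)).trans
    ((prod_pf_union hA hBC).trans ?_)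
  have g1 : ∏ p ∈ S.filter (fun p => P.cut t < p), pf p ≤ CB :=
    prod_pf_le_win hX hlog fun p hp => by
      rw [mem_filter] at hp
      exact ⟨(hSp p hp.1).1, hp.2, (hSp p hp.1).2.1⟩
  have g2 : ∏ p ∈ S.filter (fun p => p ≤ y), pf p ≤ CM * ((v : ℝ) + 1) :=
    prod_pf_le_v fun p hp => by
      rw [mem_filter] at hp
      exact ⟨(hSp p hp.1).1, hy ▸ hp.2⟩
  have g3 := prod_pf_union hB hQp
  have p3 : 0 ≤ ∏ p ∈ Qt (M := M) P y t z0 z0', pf p := (prod_pf_pos hQp).le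
  have p4 : 0 ≤ ∏ p ∈ (S.filter (fun p => p ≤ y)) ∪ Qt (M := M) P y t z0 z0', pf p :=
    (prod_pf_pos hBC).le
  calc (∏ p ∈ S.filter (fun p => P.cut t < p), pf p) *
        ∏ p ∈ (S.filter (fun p => p ≤ y)) ∪ Qt (M := M) P y t z0 z0', pf p
      ≤ CB * ((∏ p ∈ S.filter (fun p => p ≤ y), pf p) *
        ∏ p ∈ Qt (M := M) P y t z0 z0', pf p) :=
        mul_le_mul g1 g3 p4 CB_pos.le
    _ ≤ CB * ((CM * ((v : ℝ) + 1)) * ∏ p ∈ Qt (M := M) P y t z0 z0', pf p) :=
        mul_le_mul_of_nonneg_left (mul_le_mul_of_nonneg_right g2 p3) CB_pos.le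
    _ = _ := by ring

/-- primes dividing a denominator `k0` of depth `< 2^(n+1)` -/
lemma k0_prod {t b n : ℕ} {f : ℚ} (hd : dep F P t b f < 2 ^ (n + 1)) :
    ∏ p ∈ (k0 F (P.cut t) b f).primeFactors, pf p ≤ (n : ℝ) + 2 := by
  refine (prod_pf_le_log (k0_pos _ _ _).ne').trans ?_
  have h1 : (k0 F (P.cut t) b f : ℝ) ≤ 2 ^ (n + 1) :=
    (k0_le_dep (F := F) (P := P) t b f).trans hd.le
  have h0 : (0 : ℝ) < k0 F (P.cut t) b f := by
    exact_mod_cast k0_pos (F := F) (P.cut t) b f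
  have h2 : Real.logb 2 (k0 F (P.cut t) b f) ≤ Real.logb 2 ((2 : ℝ) ^ (n + 1)) :=
    Real.logb_le_logb_of_le (by norm_num) h0 h1
  rw [Real.logb_pow, Real.logb_self_eq_one (by norm_num), mul_one] at h2
  push_cast at h2
  linarith

open Classical in
/-- **the differing primes**: those in `(2^v, cut t]` divide the denominators -/
lemma differ_le (hM : 0 < M) {b c t v n n' : ℕ} {f f' : ℚ}
    (hb : b ∣ M) (hc : c ∣ M) (hX : 1 ≤ P.cut t) (hgood : F.good (P.cut t) b c)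
    (hk : ∀ q : ℕ, q.Prime → 2 ^ v < q → q ≤ P.cut t →
      (q ∣ b / Nat.gcd b c → q ∣ k0 F (P.cut t) b f) ∧
      (q ∣ c / Nat.gcd b c → q ∣ k0 F (P.cut t) c f'))
    (hd : dep F P t b f < 2 ^ (n + 1)) (hd' : dep F P t c f' < 2 ^ (n' + 1)) :
    PureL2x232.B1 b c ≤ (offW F 1 b * offW F 1 c) *
      ((CM * ((v : ℝ) + 1)) * (((n : ℝ) + 2) * ((n' : ℝ) + 2))) := by
  have hb0 : 0 < b := Nat.pos_of_dvd_of_pos hb hM
  have hg : 0 < Nat.gcd b c := Nat.gcd_pos_of_pos_left _ hb0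
  set D : Finset ℕ := ((b / Nat.gcd b c) * (c / Nat.gcd b c)).primeFactors with hD
  have hDp : ∀ q ∈ D, q.Prime := fun q hq => Nat.prime_of_mem_primeFactors hq
  have e1 : PureL2x232.B1 b c = ∏ q ∈ D, pf q := rfl
  set K := (k0 F (P.cut t) b f).primeFactors with hK
  set K' := (k0 F (P.cut t) c f').primeFactors with hK'
  have hKp : ∀ q ∈ K, q.Prime := fun q hq => Nat.prime_of_mem_primeFactors hq
  have hKp' : ∀ q ∈ K', q.Prime := fun q hq => Nat.prime_of_mem_primeFactors hq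
  have hsub : D ⊆ (D.filter (fun q => P.cut t < q)) ∪ ((D.filter (fun q => q ≤ 2 ^ v)) ∪
      (K ∪ K')) := by
    intro q hq
    rw [mem_union, mem_union, mem_union]
    by_cases h5 : P.cut t < q
    · exact Or.inl (mem_filter.2 ⟨hq, h5⟩)
    right
    by_cases h6 : q ≤ 2 ^ v
    · exact Or.inl (mem_filter.2 ⟨hq, h6⟩)
    right
    have hqp := hDp q hq
    have h7 := hk q hqp (by omega) (not_lt.1 h5)
    have h8 : q ∣ (b / Nat.gcd b c) * (c / Nat.gcd b c) := Nat.dvd_of_mem_primeFactors hq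
    rcases hqp.dvd_mul.1 h8 with h9 | h9
    · exact Or.inl (Nat.mem_primeFactors.2 ⟨hqp, h7.1 h9, (k0_pos _ _ _).ne'⟩)
    · exact Or.inr (Nat.mem_primeFactors.2 ⟨hqp, h7.2 h9, (k0_pos _ _ _).ne'⟩)
  have hA : ∀ q ∈ D.filter (fun q => P.cut t < q), q.Prime := fun q hq =>
    hDp q (mem_filter.1 hq).1
  have hB : ∀ q ∈ D.filter (fun q => q ≤ 2 ^ v), q.Prime := fun q hq =>
    hDp q (mem_filter.1 hq).1
  have hKK : ∀ q ∈ K ∪ K', q.Prime := fun q hq => (mem_union.1 hq).elim (hKp q) (hKp' q)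
  have hBK : ∀ q ∈ (D.filter (fun q => q ≤ 2 ^ v)) ∪ (K ∪ K'), q.Prime := fun q hq =>
    (mem_union.1 hq).elim (hB q) (hKK q)
  have g1 : ∏ q ∈ D.filter (fun q => P.cut t < q), pf q ≤ offW F 1 b * offW F 1 c := by
    have h1 : B1Levx52.B1 (P.cut t) b c ≤ offW F (P.cut t) b * offW F (P.cut t) c :=
      B1Levx52.B1_le hM hb hc hgood
    have h2 : B1Levx52.B1 (P.cut t) b c = ∏ q ∈ D.filter (fun q => P.cut t < q), pf q := rfl
    rw [← h2]
    refine h1.trans ?_
    have a1 := one_le_offW (F := F) (P.cut t) b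
    have a2 := one_le_offW (F := F) (P.cut t) c
    have a3 := one_le_offW (F := F) 1 b
    exact mul_le_mul (offW_anti (F := F) hX b) (offW_anti (F := F) hX c) (by linarith)
      (by linarith)
  have g2 : ∏ q ∈ D.filter (fun q => q ≤ 2 ^ v), pf q ≤ CM * ((v : ℝ) + 1) :=
    prod_pf_le_v fun q hq => by
      rw [mem_filter] at hq
      exact ⟨hDp q hq.1, hq.2⟩
  have g3 : ∏ q ∈ K, pf q ≤ (n : ℝ) + 2 := k0_prod hd
  have g4 : ∏ q ∈ K', pf q ≤ (n' : ℝ) + 2 := k0_prod hd'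
  have p4 : 0 < ∏ q ∈ K', pf q := prod_pf_pos hKp'
  have p5 : 0 < ∏ q ∈ K ∪ K', pf q := prod_pf_pos hKK
  have hw : 0 ≤ offW F 1 b * offW F 1 c := by
    have a1 := one_le_offW (F := F) 1 b
    have a2 := one_le_offW (F := F) 1 c
    positivity
  have hv : 0 ≤ CM * ((v : ℝ) + 1) := mul_nonneg CM_pos.le (by positivity)
  rw [e1]
  refine (prod_pf_mono hsub fun q hq => (mem_union.1 hq).elim (hA q) (hBK q)).trans
    ((prod_pf_union hA hBK).trans ?_)
  refine mul_le_mul g1 ?_ (prod_pf_pos hBK).le hw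
  refine (prod_pf_union hB hKK).trans (mul_le_mul g2 ?_ p5.le hv)
  exact (prod_pf_union hKp hKp').trans (mul_le_mul g3 g4 p4.le (by positivity))

/-- the constant of `boost_word` -/
noncomputable def CW : ℝ := Real.exp 1200 * (CB * CM ^ 2)

lemma CW_pos : 0 < CW := by
  unfold CW
  have := CB_pos
  have := CM_pos
  positivity

/-- **the boost of a pair of the level `t` whose explained differing primes are `≤ 2^v`**
(arbitrary cut `y = 2^v`, high words `upp y b = k z0`, `upp y c = k' z0'`) -/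
theorem boost_word (hM : 0 < M) (hL : 0 < P.L) (hY : ∀ i, P.Y i = 2 ^ i) {A : ℕ} (hA : 1 ≤ A)
    (hcut : ∀ m, P.cut m = 2 ^ (A * m))
    (hthr : ∀ b i, P.thr b i ≤ Real.exp ((P.Y (i - 1) : ℝ) ^ (4 / 5 : ℝ)))
    {b c t v n n' k k' z0 z0' : ℕ} {h : ℤ} {f f' : ℚ} (hb : b ∣ M) (hc : c ∣ M) (ht : 1 ≤ t)
    (hl : h ∈ Lnk P.γ P.L b c) (hgood : F.good (P.cut t) b c) (hal : AlLe F P b c h (P.cut (2 * t)))
    (hX1 : X1 P b c ≤ P.cut t)
    (hk : ∀ q : ℕ, q.Prime → 2 ^ v < q → q ≤ P.cut t →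
      (q ∣ b / Nat.gcd b c → q ∣ k0 F (P.cut t) b f) ∧
      (q ∣ c / Nat.gcd b c → q ∣ k0 F (P.cut t) c f'))
    (hd : dep F P t b f < 2 ^ (n + 1)) (hd' : dep F P t c f' < 2 ^ (n' + 1))
    (e1 : upp (2 ^ v) b = k * z0) (e2 : upp (2 ^ v) c = k' * z0') :
    boostB M (lamR F P) b c h ≤ CW * ((v : ℝ) + 1) ^ 2 * (((n : ℝ) + 2) * ((n' : ℝ) + 2)) *
      (offW F 1 b * offW F 1 c) * HighWx899.bst (Qt (M := M) P (2 ^ v) t z0 z0') := by
  classical
  have hAt : 1 ≤ A * t := Nat.one_le_iff_ne_zero.2 (by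
    have h1 : A ≠ 0 := by omega
    have h2 : t ≠ 0 := by omega
    exact Nat.mul_ne_zero h1 h2)
  have hX2 : 2 ≤ P.cut t := by
    rw [hcut]
    calc 2 = 2 ^ 1 := by norm_num
      _ ≤ 2 ^ (A * t) := Nat.pow_le_pow_right (by norm_num) hAt
  have hle : P.cut t ≤ P.cut (2 * t) := by
    rw [hcut, hcut]
    exact Nat.pow_le_pow_right (by norm_num) (Nat.mul_le_mul_left _ (by omega))
  have hlog : Real.log (P.cut (2 * t) : ℕ) ≤ 2 * Real.log (P.cut t : ℕ) := by
    rw [hcut, hcut, Nat.cast_pow, Nat.cast_ofNat, Nat.cast_pow, Nat.cast_ofNat, Real.log_pow,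
      Real.log_pow]
    push_cast
    exact le_of_eq (by ring)
  have h1 := BoostAlx100.boost_alQ hM hb hc hL hY hthr (Q := P.cut (2 * t)) (hX2.trans hle)
    (FL.good_mono hle hgood) hl hal
    (Or.inl (hX1.trans (by exact_mod_cast hle)))
  have h2 := common_le (P := P) (v := v) hM hb hc rfl hX2 hlog e1 e2
  have h3 := differ_le hM hb hc (by omega) hgood hk hd hd'
  have w0 : 0 ≤ offW F 1 b * offW F 1 c := by
    have a1 := one_le_offW (F := F) 1 b
    have a2 := one_le_offW (F := F) 1 c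
    positivity
  have hCM := CM_pos
  have hCB := CB_pos
  have hbst : 0 ≤ HighWx899.bst (Qt (M := M) P (2 ^ v) t z0 z0') := by
    rw [bst_eq_pf]
    exact (prod_pf_pos fun p hp => by
      unfold Qt at hp
      exact Nat.prime_of_mem_primeFactors (mem_filter.1 hp).1).le
  have hb0 := BoostAlx100.bst_nonneg (P.cut (2 * t)) M b c
  refine h1.trans ?_
  calc Real.exp 1200 * (PureL2x232.B1 b c * BoostRx398.bst (prQ (P.cut (2 * t))) M b c)
      ≤ Real.exp 1200 * (((offW F 1 b * offW F 1 c) *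
          ((CM * ((v : ℝ) + 1)) * (((n : ℝ) + 2) * ((n' : ℝ) + 2)))) *
          (CB * (CM * ((v : ℝ) + 1)) *
            HighWx899.bst (Qt (M := M) P (2 ^ v) t z0 z0'))) := by
        refine mul_le_mul_of_nonneg_left (mul_le_mul h3 h2 hb0 ?_) (Real.exp_pos _).le
        exact mul_nonneg w0 (by positivity)
    _ = _ := by
        unfold CW
        ring

/-- **ARROW D** -/
theorem arrD (hM : 0 < M) (hL : 0 < P.L) (hY : ∀ i, P.Y i = 2 ^ i) {A : ℕ} (hA : 1 ≤ A)
    (hcut : ∀ m, P.cut m = 2 ^ (A * m)) (hm0 : 1 ≤ P.m0)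
    (hthr : ∀ b i, P.thr b i ≤ Real.exp ((P.Y (i - 1) : ℝ) ^ (4 / 5 : ℝ)))
    (w : ℕ → ℝ) (δ : ℝ) (jB : ℕ → ℕ) : ArrD F P w δ jB 1 (4 * CW) := by
  classical
  intro x t b c h f f' p hb hc hl hlb z0 z0' e1 e2 _
  have hlp := hlb.lp
  have hYm : StrictMono P.Y := fun a b hab => by
    rw [hY, hY]
    exact Nat.pow_lt_pow_right (by norm_num) hab
  have hpv : p ≤ 2 ^ x.v := by
    have := Par.le_blk hYm p
    rwa [hlb.blk, hY] at this
  rw [hY] at e1 e2 ⊢
  have h1 := boost_word (P := P) (F := F) (n := x.n) (n' := x.n') hM hL hY hA hcut hthr hb hc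
    (hm0.trans hlp.m0) hl hlp.good hlp.al hlp.near.le
    (fun q hq h1 h2 => hlp.topk q hq (by omega) h2) hlb.dn1 hlb.dn1' e1 e2
  have hmx : ((x.n : ℝ) + 2) * ((x.n' : ℝ) + 2) ≤ 4 * ((x.mx : ℝ) + 1) ^ 4 := by
    have a1 : (x.n : ℝ) ≤ x.mx := by exact_mod_cast le_max_left _ _
    have a2 : (x.n' : ℝ) ≤ x.mx := by exact_mod_cast le_max_right _ _
    have a3 : (0 : ℝ) ≤ x.n := Nat.cast_nonneg _
    have a4 : (0 : ℝ) ≤ x.n' := Nat.cast_nonneg _
    have a5 : (0 : ℝ) ≤ x.mx := Nat.cast_nonneg _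
    have a6 : ((x.n : ℝ) + 2) * ((x.n' : ℝ) + 2) ≤ (2 * ((x.mx : ℝ) + 1)) *
        (2 * ((x.mx : ℝ) + 1)) := mul_le_mul (by linarith) (by linarith) (by linarith)
          (by linarith)
    have a7 : (1 : ℝ) ≤ ((x.mx : ℝ) + 1) ^ 2 := one_le_pow₀ (by linarith)
    have a8 : 0 ≤ ((x.mx : ℝ) + 1) ^ 2 := by positivity
    nlinarith
  have w0 : 0 ≤ offW F 1 b * offW F 1 c := by
    have a1 := one_le_offW (F := F) 1 b
    have a2 := one_le_offW (F := F) 1 c
    positivity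
  have hCW := CW_pos
  have hbst : 0 ≤ HighWx899.bst (Qt (M := M) P (2 ^ x.v) t z0 z0') := by
    rw [bst_eq_pf]
    exact (prod_pf_pos fun p hp => by
      unfold Qt at hp
      exact Nat.prime_of_mem_primeFactors (mem_filter.1 hp).1).le
  refine h1.trans ?_
  calc CW * ((x.v : ℝ) + 1) ^ 2 * (((x.n : ℝ) + 2) * ((x.n' : ℝ) + 2)) *
        (offW F 1 b * offW F 1 c) * HighWx899.bst (Qt (M := M) P (2 ^ x.v) t z0 z0')
      ≤ CW * ((x.v : ℝ) + 1) ^ 2 * (4 * ((x.mx : ℝ) + 1) ^ 4) *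
        (offW F 1 b * offW F 1 c) * HighWx899.bst (Qt (M := M) P (2 ^ x.v) t z0 z0') := by
        refine mul_le_mul_of_nonneg_right (mul_le_mul_of_nonneg_right
          (mul_le_mul_of_nonneg_left hmx (by positivity)) w0) hbst
    _ = _ := by ring

/-- **target D** -/
theorem tgtD (γ : ℝ) : TgtD γ := by
  refine Ev.basic.mono ?_
  rintro cp η A m0 ⟨_, _, _, _, _, hA, hm0⟩
  refine ⟨4 * CW, mul_pos (by norm_num) CW_pos, fun L M B F S => ?_⟩
  exact arrD (P := ParOf cp A m0 γ L M B) S.hM S.hL (fun _ => rfl) hA (fun _ => rfl) hm0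
    (fun _ _ => min_le_right _ _) _ _ _

end Crest.Agent.R4C.LBstx208
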