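import Crest.Agent.R4C.ArrC_7
import Crest.Agent.R4C.LArrA_500

/-!
# Row 4, class (L): TARGET C, unconditional (helper7)
-/

set_option autoImplicit false

namespace Crest.Agent.R4C.TgtCx7

/-- **TARGET C** -/
theorem tgtC (γ : ℝ) : LBoxDefx662.TgtC γ := ArrCx7.tgtC (LArrAx500.tgtA γ)

end Crest.Agent.R4C.TgtCx7
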