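import Crest.Agent.R4C.Cover_946
import Crest.Agent.R4C.ClsNear_350
import Crest.Agent.R4C.ClsBad_250
import Crest.Agent.R4C.EnRareA_179
import Crest.Agent.R4C.ClsTw_100
import Crest.Agent.R4C.ClsUD_208
import Crest.Agent.R4C.ClsHvy_281
import Crest.Agent.R4C.ClsNP_16
import Crest.Agent.R4C.ClsDomN_52
import Crest.Agent.R4C.ClsLow_662
import Crest.Agent.R4C.TgtC_7
import Crest.Agent.R4C.LBst_208
import Crest.Agent.R4C.TgtS_398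
import Crest.Agent.R4C.ClsDomP_244

/-!
# Row 4: S0004 from the class bounds which are still open (helper946, integration file)
-/

set_option autoImplicit false

open MeasureTheory Filter

namespace Crest.Agent.R4C.Finx946

open Crest.Agent.R4C.Spinex946 Crest.Agent.R4C.Splitx945 Crest.Agent.R4C.Rulex945
  Crest.Agent.R4C.FLDefx935 Crest.Agent.R4C.HyOfx281 Crest.Agent.R4C.Coverx946

theorem near (γ : ℝ) : ClsOK γ (cNear γ) := Crest.Agent.R4C.ClsNearx350.clsOK_near γ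

theorem bad (γ : ℝ) : ClsOK γ (cBad γ) := Crest.Agent.R4C.ClsBadx250.cBad_ok γ

theorem rareA (γ : ℝ) : ClsOK γ (cRareA γ) := by
  refine Crest.Agent.R4C.EnRareAx179.clsOK_rareA (γ := γ) (c := fun cp => min (cp / 16) 1)
    (D := DD) (fun cp hcp => ⟨lt_min (by positivity) one_pos, min_le_right _ _⟩)
    (fun cp hcp m => ?_)
  unfold DD
  refine Real.rpow_le_rpow_of_exponent_le (by norm_num) ?_
  have h1 : min (cp / 16) 1 ≤ cp / 16 := min_le_left _ _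
  have h2 : (0 : ℝ) ≤ m := Nat.cast_nonneg m
  calc min (cp / 16) 1 * (m : ℝ) ≤ cp / 16 * m := mul_le_mul_of_nonneg_right h1 h2
    _ = cp * m / 16 := by ring

theorem tw (γ : ℝ) : ClsOK γ (cTw γ) := Crest.Agent.R4C.ClsTwx100.clsTw_ok γ

theorem ud (γ : ℝ) : ClsOK γ (cUD γ) := Crest.Agent.R4C.ClsUDx208.cls_ud γ

theorem hvy (γ : ℝ) : ClsOK γ (cHvy γ) := Crest.Agent.R4C.ClsHvyx281.cls_hvy γ

theorem np (γ : ℝ) : ClsOK γ (cNP γ) := Crest.Agent.R4C.ClsNPx16.cls_np γ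

theorem domN (γ : ℝ) : ClsOK γ (cDomN γ) := Crest.Agent.R4C.ClsDomNx52.clsDomN_ok γ

theorem low_of (γ : ℝ) (hS : Crest.Agent.R4C.LBoxDefx662.TgtS γ) : ClsOK γ (nH γ (cLow γ)) :=
  Crest.Agent.R4C.ClsLowx662.cls_low_CDS γ (Crest.Agent.R4C.TgtCx7.tgtC γ)
    (Crest.Agent.R4C.LBstx208.tgtD γ) hS

/-- S0004 from the open classes -/
theorem fin {γ : ℝ} (hLow : ClsOK γ (nH γ (cLow γ))) (hDomP : ClsOK γ (nH γ (cDomP γ)))
    (ψ : ℕ → ℝ) (hψ : ∀ q, 0 ≤ ψ q)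
    (hdiv : ¬ Summable fun q : ℕ => (Nat.totient q : ℝ) / q * ψ q) :
    ∀ᵐ x : ℝ, ∃ᶠ q : ℕ in atTop, |(q : ℝ) * x - γ - round ((q : ℝ) * x - γ)| < ψ q :=
  top10 (near γ) (bad γ) (hvy γ) (nH_ok (tw γ)) (nH_ok (np γ)) hLow (nH_ok (rareA γ)) (nH_ok (ud γ))
    hDomP (nH_ok (domN γ)) ψ hψ hdiv

/-- S0004 from the smooth case of class (L) and the class `CDomP` -/
theorem finS {γ : ℝ} (hS : Crest.Agent.R4C.LBoxDefx662.TgtS γ)
    (hDomP : ClsOK γ (nH γ (cDomP γ))) (ψ : ℕ → ℝ) (hψ : ∀ q, 0 ≤ ψ q)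
    (hdiv : ¬ Summable fun q : ℕ => (Nat.totient q : ℝ) / q * ψ q) :
    ∀ᵐ x : ℝ, ∃ᶠ q : ℕ in atTop, |(q : ℝ) * x - γ - round ((q : ℝ) * x - γ)| < ψ q :=
  fin (low_of γ hS) hDomP ψ hψ hdiv

/-- **class (L)** -/
theorem low (γ : ℝ) : ClsOK γ (nH γ (cLow γ)) := low_of γ (Crest.Agent.R4C.TgtSx398.tgtS γ)

/-- S0004 from the class `CDomP` -/
theorem fin1 {γ : ℝ} (hDomP : ClsOK γ (nH γ (cDomP γ))) (ψ : ℕ → ℝ) (hψ : ∀ q, 0 ≤ ψ q)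
    (hdiv : ¬ Summable fun q : ℕ => (Nat.totient q : ℝ) / q * ψ q) :
    ∀ᵐ x : ℝ, ∃ᶠ q : ℕ in atTop, |(q : ℝ) * x - γ - round ((q : ℝ) * x - γ)| < ψ q :=
  fin (low γ) hDomP ψ hψ hdiv

/-- S0004 from the vector part of `CDomP`, the kill and the natural hypothesis (244's parts) -/
theorem fin3 {γ : ℝ} (hV : ClsOK γ (nH γ (Crest.Agent.R4C.ClsDomPx244.clsDomPV γ)))
    (hK : Crest.Agent.R4C.ClsScx244.KillOK γ) (hH : Crest.Agent.R4C.ClsScx244.HypOK γ)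
    (ψ : ℕ → ℝ) (hψ : ∀ q, 0 ≤ ψ q)
    (hdiv : ¬ Summable fun q : ℕ => (Nat.totient q : ℝ) / q * ψ q) :
    ∀ᵐ x : ℝ, ∃ᶠ q : ℕ in atTop, |(q : ℝ) * x - γ - round ((q : ℝ) * x - γ)| < ψ q :=
  fin1 (Crest.Agent.R4C.ClsDomPx244.cls_domP hV hK hH) ψ hψ hdiv

end Crest.Agent.R4C.Finx946
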