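import Crest.Agent.R4C.GWdef_982

/-!
# Row 4, GW section: assembly of the scalar case from the facts F1, F4, F5 (helper982)

* `Facts Z C1 T` : laminarity, masses, budget, natural hypothesis;
* `zd_ok` : `ZD.Ok`; `gw_zones` : the abstract lemma for the world `Z`;
* `gw_pairs` : a nonnegative pair weight `K` such that every pair with `K w w' ≠ 0` lies in a common
  node, one of the two words leaves the zone there, and
  `K w w' ≤ Cw * (nu w * nu w' / g) * min (W z w) (W z w')`, has total `≤ 32 Cw C1 T Σ_B nu`.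
-/

set_option autoImplicit false

open Finset
open Crest.Agent.R4C.Basex935 Crest.Agent.R4C.Cutx50 Crest.Agent.R4C.PrefixMx882
open Crest.Agent.R4C.GWdefx982

namespace Crest.Agent.R4C.GWasmx982

variable (Z : World)

/-- the natural hypothesis (F5) -/
def HYP (C1 : ℝ) : Prop := ∀ z ∈ Z.Zs, ∀ ν ∈ Z.Nd z, ∀ s : ℝ, 0 ≤ s → s ≤ 1 →
  ∑ w ∈ (Z.S ν).filter (fun w => Z.Y z w ≤ s), nu Z.N w ≤ C1 * (s + Z.kap z) * Z.g ν

open Classical in
/-- the facts used by the assembly -/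
structure Facts (C1 T : ℝ) : Prop where
  lam : ∀ z ∈ Z.Zs, GWzonex9.Lam (Z.Nd z) Z.S (fun ν => ν.1)
  mass : ∀ z ∈ Z.Zs, ∀ ν ∈ Z.Nd z, ∑ w ∈ Z.S ν, nu Z.N w ≤ Z.g ν
  gpos : ∀ z ∈ Z.Zs, ∀ ν ∈ Z.Nd z, 0 < Z.g ν
  budget : ∀ w ∈ Z.N.divisors,
    ∑ z ∈ Z.Zs.filter (fun z => w ∈ Z.zd.zone z), Z.W z w * (Z.Y z w + Z.kap z) ≤ T
  hyp : HYP Z C1

variable {Z}

/-! ### coins -/

lemma Wp_nonneg (a b w : ℕ) : 0 ≤ Z.Wp a b w := by
  classical
  unfold World.Wp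
  refine prod_nonneg fun p hp => ?_
  have h1 := (mem_filter.1 hp).1
  unfold free at h1
  have hpp := Nat.prime_of_mem_primeFactors (mem_filter.1 h1).1
  have h2 : (1 : ℝ) ≤ p := by exact_mod_cast hpp.one_lt.le
  have h3 : (1 : ℝ) / p ≤ 1 := by rw [div_le_one (by linarith)]; exact h2
  linarith

lemma Wp_le_one (a b w : ℕ) : Z.Wp a b w ≤ 1 := by
  classical
  unfold World.Wp
  refine prod_le_one (fun p hp => ?_) fun p hp => ?_
  · have h1 := (mem_filter.1 hp).1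
    unfold free at h1
    have hpp := Nat.prime_of_mem_primeFactors (mem_filter.1 h1).1
    have h2 : (1 : ℝ) ≤ p := by exact_mod_cast hpp.one_lt.le
    have h3 : (1 : ℝ) / p ≤ 1 := by rw [div_le_one (by linarith)]; exact h2
    linarith
  · have h4 : (0 : ℝ) ≤ 1 / (p : ℝ) := by positivity
    linarith

lemma Y_nonneg (z : Node) (w : ℕ) : 0 ≤ Z.Y z w := by
  unfold World.Y
  split_ifs
  · have := Wp_le_one (Z := Z) (Z.cut z.1) (Z.cut (Z.nb (Z.nb z.1 w) w)) w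
    linarith
  · norm_num

lemma kap_nonneg (hZ : Z.Ok) (z : Node) : 0 ≤ Z.kap z := by
  unfold World.kap
  have := hZ.hK1
  positivity

/-! ### the abstract lemma -/

open Classical in
/-- the masses -/
noncomputable def fN (Z : World) (w : ℕ) : ℝ := if w ∈ Z.N.divisors then nu Z.N w else 0

lemma fN_nonneg (w : ℕ) : 0 ≤ fN Z w := by
  unfold fN
  split_ifs
  · exact nu_nonneg _ _
  · exact le_rfl

lemma fN_le (w : ℕ) : fN Z w ≤ nu Z.N w := by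
  unfold fN
  split_ifs
  · exact le_rfl
  · exact nu_nonneg _ _

lemma A_disj {z : Node} (hL : GWzonex9.Lam (Z.Nd z) Z.S (fun ν => ν.1)) :
    ∀ n ∈ Z.Nd z, ∀ n' ∈ Z.Nd z, n ≠ n' → Disjoint (Z.A z n) (Z.A z n') := by
  classical
  have key : ∀ n ∈ Z.Nd z, ∀ n' ∈ Z.Nd z, n.1 < n'.1 → Disjoint (Z.A z n) (Z.A z n') := by
    intro n _ n' hn' hlt
    rw [disjoint_left]
    intro w h1 h2
    unfold World.A at h1 h2
    rw [mem_sdiff] at h1 h2
    apply h1.2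
    rw [mem_biUnion]
    exact ⟨n', mem_filter.2 ⟨hn', hlt⟩, h2.1⟩
  intro n hn n' hn' hne
  rcases lt_trichotomy n.1 n'.1 with h | h | h
  · exact key n hn n' hn' h
  · refine (hL.inj n hn n' hn' hne h).mono ?_ ?_
    · unfold World.A; exact sdiff_subset
    · unfold World.A; exact sdiff_subset
  · exact (key n' hn' n hn h).symm

theorem zd_ok {C1 T : ℝ} (hZ : Z.Ok) (hC1 : 1 ≤ C1) (h : Facts Z C1 T) {B : Finset ℕ}
    (hB : B ⊆ Z.N.divisors) : Z.zd.Ok B (fN Z) C1 where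
  hf := fN_nonneg
  hC := hC1
  lam := fun z hz => h.lam z hz
  hAd := fun z hz => A_disj (h.lam z hz)
  hAS := fun z _ n _ => by
    show Z.A z n ⊆ Z.S n
    unfold World.A
    exact sdiff_subset
  hY := fun z _ w => Y_nonneg z w
  hg := fun z hz n hn => h.gpos z hz n hn
  hκ := fun z _ => kap_nonneg hZ z
  hm := fun z hz n hn => by
    classical
    refine le_trans ?_ (h.mass z hz n hn)
    refine (sum_le_sum fun w _ => fN_le w).trans ?_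
    exact sum_le_sum_of_subset_of_nonneg inter_subset_left fun w _ _ => nu_nonneg _ _
  hyp := fun z hz n hn s h0 h1 => by
    classical
    refine le_trans ?_ (h.hyp z hz n hn s h0 h1)
    refine (sum_le_sum fun w _ => fN_le w).trans ?_
    exact sum_le_sum_of_subset_of_nonneg (filter_subset_filter _ inter_subset_left)
      fun w _ _ => nu_nonneg _ _
  hW0 := fun z _ w => Wp_nonneg _ _ _
  hW1 := fun z _ w => Wp_le_one _ _ _

/-- **the abstract lemma for the world** -/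
theorem gw_zones {C1 T : ℝ} (hZ : Z.Ok) (hC1 : 1 ≤ C1) (h : Facts Z C1 T) {B : Finset ℕ}
    (hB : B ⊆ Z.N.divisors) :
    ∑ z ∈ Z.Zs, ∑ n ∈ Z.Nd z, (∑ b ∈ Z.A z n ∩ B, ∑ c ∈ Z.S n ∩ B,
      fN Z b * fN Z c * min (Z.W z b) (Z.W z c)) / Z.g n ≤ 16 * C1 * T * ∑ w ∈ B, fN Z w :=
  GWmzx9.gw_scalar Z.zd B (fN Z) C1 T (zd_ok hZ hC1 h hB) fun w hw => by
    classical
    refine le_trans (le_of_eq ?_) (h.budget w (hB hw))
    refine sum_congr ?_ fun _ _ => rfl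
    ext z
    simp only [mem_filter]
    rfl

lemma fN_eq {B : Finset ℕ} (hB : B ⊆ Z.N.divisors) {w : ℕ} (hw : w ∈ B) : fN Z w = nu Z.N w := by
  unfold fN
  rw [if_pos (hB hw)]

open Classical in
/-- **pair form** -/
theorem gw_pairs {C1 T Cw : ℝ} (hZ : Z.Ok) (hC1 : 1 ≤ C1) (hCw : 0 ≤ Cw) (h : Facts Z C1 T)
    {B : Finset ℕ} (hB : B ⊆ Z.N.divisors) (K : ℕ → ℕ → ℝ)
    (hK : ∀ w ∈ B, ∀ w' ∈ B, K w w' ≤ 0 ∨ ∃ z ∈ Z.Zs, ∃ ν ∈ Z.Nd z, w ∈ Z.S ν ∧ w' ∈ Z.S ν ∧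
      (w ∈ Z.A z ν ∨ w' ∈ Z.A z ν) ∧
      K w w' ≤ Cw * (nu Z.N w * nu Z.N w' / Z.g ν) * min (Z.W z w) (Z.W z w')) :
    ∑ w ∈ B, ∑ w' ∈ B, K w w' ≤ 32 * Cw * C1 * T * ∑ w ∈ B, nu Z.N w := by
  -- one ordered contribution
  set G : Node → Node → ℕ → ℕ → ℝ := fun z ν w w' =>
    if w ∈ Z.A z ν ∩ B ∧ w' ∈ Z.S ν ∩ B then
      fN Z w * fN Z w' * min (Z.W z w) (Z.W z w') / Z.g ν else 0 with hG
  have hG0 : ∀ z ∈ Z.Zs, ∀ ν ∈ Z.Nd z, ∀ w w', 0 ≤ G z ν w w' := by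
    intro z hz ν hν w w'
    simp only [hG]
    split_ifs
    · have h1 := h.gpos z hz ν hν
      have h2 : 0 ≤ min (Z.W z w) (Z.W z w') := le_min (Wp_nonneg _ _ _) (Wp_nonneg _ _ _)
      have h3 := fN_nonneg (Z := Z) w
      have h4 := fN_nonneg (Z := Z) w'
      positivity
    · exact le_rfl
  have hpt : ∀ w ∈ B, ∀ w' ∈ B, K w w' ≤
      Cw * (∑ z ∈ Z.Zs, ∑ ν ∈ Z.Nd z, G z ν w w') +
        Cw * (∑ z ∈ Z.Zs, ∑ ν ∈ Z.Nd z, G z ν w' w) := by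
    intro w hw w' hw'
    have hs0 : ∀ u v, 0 ≤ ∑ z ∈ Z.Zs, ∑ ν ∈ Z.Nd z, G z ν u v := fun u v =>
      sum_nonneg fun z hz => sum_nonneg fun ν hν => hG0 z hz ν hν u v
    rcases hK w hw w' hw' with h1 | ⟨z, hz, ν, hν, hS, hS', hA, hle⟩
    · have := mul_nonneg hCw (hs0 w w')
      have := mul_nonneg hCw (hs0 w' w)
      linarith
    · have hsingle : ∀ u v, G z ν u v ≤ ∑ z ∈ Z.Zs, ∑ ν ∈ Z.Nd z, G z ν u v := by
        intro u v
        have a1 : G z ν u v ≤ ∑ ν ∈ Z.Nd z, G z ν u v :=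
          single_le_sum (f := fun ν => G z ν u v) (fun ν hν => hG0 z hz ν hν u v) hν
        have a2 : ∑ ν ∈ Z.Nd z, G z ν u v ≤ ∑ z ∈ Z.Zs, ∑ ν ∈ Z.Nd z, G z ν u v :=
          single_le_sum (f := fun z => ∑ ν ∈ Z.Nd z, G z ν u v)
            (fun z hz => sum_nonneg fun ν hν => hG0 z hz ν hν u v) hz
        exact a1.trans a2
      rcases hA with hA | hA
      · have e1 : G z ν w w' = nu Z.N w * nu Z.N w' * min (Z.W z w) (Z.W z w') / Z.g ν := by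
          simp only [hG]
          rw [if_pos ⟨mem_inter.2 ⟨hA, hw⟩, mem_inter.2 ⟨hS', hw'⟩⟩, fN_eq hB hw, fN_eq hB hw']
        have e2 : Cw * (nu Z.N w * nu Z.N w' / Z.g ν) * min (Z.W z w) (Z.W z w') =
            Cw * G z ν w w' := by rw [e1]; ring
        have h3 := mul_le_mul_of_nonneg_left (hsingle w w') hCw
        have h4 := mul_nonneg hCw (hs0 w' w)
        linarith
      · have e1 : G z ν w' w = nu Z.N w' * nu Z.N w * min (Z.W z w') (Z.W z w) / Z.g ν := by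
          simp only [hG]
          rw [if_pos ⟨mem_inter.2 ⟨hA, hw'⟩, mem_inter.2 ⟨hS, hw⟩⟩, fN_eq hB hw, fN_eq hB hw']
        have e2 : Cw * (nu Z.N w * nu Z.N w' / Z.g ν) * min (Z.W z w) (Z.W z w') =
            Cw * G z ν w' w := by rw [e1, min_comm]; ring
        have h3 := mul_le_mul_of_nonneg_left (hsingle w' w) hCw
        have h4 := mul_nonneg hCw (hs0 w w')
        linarith
  -- total of the ordered contributions
  have htot : ∑ w ∈ B, ∑ w' ∈ B, (∑ z ∈ Z.Zs, ∑ ν ∈ Z.Nd z, G z ν w w') ≤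
      16 * C1 * T * ∑ w ∈ B, fN Z w := by
    refine le_trans (le_of_eq ?_) (gw_zones hZ hC1 h hB)
    have e1 : ∑ w ∈ B, ∑ w' ∈ B, (∑ z ∈ Z.Zs, ∑ ν ∈ Z.Nd z, G z ν w w') =
        ∑ z ∈ Z.Zs, ∑ ν ∈ Z.Nd z, ∑ w ∈ B, ∑ w' ∈ B, G z ν w w' := by
      rw [sum_congr rfl fun w _ => sum_comm, sum_comm]
      refine sum_congr rfl fun z _ => ?_
      rw [sum_congr rfl fun w _ => sum_comm, sum_comm]
    rw [e1]
    refine sum_congr rfl fun z _ => sum_congr rfl fun ν _ => ?_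
    rw [sum_div]
    have e2 : ∑ w ∈ B, ∑ w' ∈ B, G z ν w w' =
        ∑ w ∈ B.filter (fun w => w ∈ Z.A z ν ∩ B), ∑ w' ∈ B.filter (fun w' => w' ∈ Z.S ν ∩ B),
          fN Z w * fN Z w' * min (Z.W z w) (Z.W z w') / Z.g ν := by
      rw [sum_filter]
      refine sum_congr rfl fun w _ => ?_
      by_cases hw : w ∈ Z.A z ν ∩ B
      · rw [if_pos hw, sum_filter]
        refine sum_congr rfl fun w' _ => ?_
        simp only [hG]
        by_cases hw' : w' ∈ Z.S ν ∩ B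
        · rw [if_pos ⟨hw, hw'⟩, if_pos hw']
        · rw [if_neg (fun hc => hw' hc.2), if_neg hw']
      · rw [if_neg hw]
        refine sum_eq_zero fun w' _ => ?_
        simp only [hG]
        rw [if_neg (fun hc => hw hc.1)]
    have e3 : B.filter (fun w => w ∈ Z.A z ν ∩ B) = Z.A z ν ∩ B := by
      ext w
      rw [mem_filter, mem_inter]
      exact ⟨fun hx => hx.2, fun hx => ⟨hx.2, hx⟩⟩
    have e4 : B.filter (fun w' => w' ∈ Z.S ν ∩ B) = Z.S ν ∩ B := by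
      ext w
      rw [mem_filter, mem_inter]
      exact ⟨fun hx => hx.2, fun hx => ⟨hx.2, hx⟩⟩
    rw [e2, e3, e4]
    refine sum_congr rfl fun w _ => ?_
    rw [sum_div]
  have hfin : ∑ w ∈ B, fN Z w = ∑ w ∈ B, nu Z.N w := sum_congr rfl fun w hw => fN_eq hB hw
  rw [hfin] at htot
  have hswap : ∑ w ∈ B, ∑ w' ∈ B, (∑ z ∈ Z.Zs, ∑ ν ∈ Z.Nd z, G z ν w' w) =
      ∑ w ∈ B, ∑ w' ∈ B, (∑ z ∈ Z.Zs, ∑ ν ∈ Z.Nd z, G z ν w w') := sum_comm
  calc ∑ w ∈ B, ∑ w' ∈ B, K w w'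
      ≤ ∑ w ∈ B, ∑ w' ∈ B, (Cw * (∑ z ∈ Z.Zs, ∑ ν ∈ Z.Nd z, G z ν w w') +
        Cw * (∑ z ∈ Z.Zs, ∑ ν ∈ Z.Nd z, G z ν w' w)) :=
        sum_le_sum fun w hw => sum_le_sum fun w' hw' => hpt w hw w' hw'
    _ = Cw * (∑ w ∈ B, ∑ w' ∈ B, (∑ z ∈ Z.Zs, ∑ ν ∈ Z.Nd z, G z ν w w')) +
        Cw * (∑ w ∈ B, ∑ w' ∈ B, (∑ z ∈ Z.Zs, ∑ ν ∈ Z.Nd z, G z ν w' w)) := by
        rw [mul_sum, mul_sum, ← sum_add_distrib]
        refine sum_congr rfl fun w _ => ?_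
        rw [mul_sum, mul_sum, ← sum_add_distrib]
    _ = 2 * (Cw * (∑ w ∈ B, ∑ w' ∈ B, (∑ z ∈ Z.Zs, ∑ ν ∈ Z.Nd z, G z ν w w'))) := by
        rw [hswap]; ring
    _ ≤ 2 * (Cw * (16 * C1 * T * ∑ w ∈ B, nu Z.N w)) := by
        have := mul_le_mul_of_nonneg_left htot hCw
        linarith
    _ = _ := by ring

end Crest.Agent.R4C.GWasmx982
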