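import Crest.Agent.R4C.GWbirth_516

/-!
# Row 4, GW section: (F5)(a) for the gaps above a node (helper516), vector case

`bad_of_W` : for a node `i` of `w` and ANY two births `b1 < b2` of `w` after `i`: if
`1 - Wp (cut i) (cut b2) w ≤ s ≤ 1/2` and the nominal coins which are not coins have mass `≤ u` then the
word above the node is `Bad` with `2 s + u`.
(`Y z w ≤ s`, three-gap payments `1 - Wp (cut (pz z)) (cut (second next birth)) w ≤ s` and second-order
events all reduce to this, `Wp_anti`.)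
-/

set_option autoImplicit false

open Finset
open Crest.Agent.R4C.Basex935 Crest.Agent.R4C.Cutx50 Crest.Agent.R4C.PrefixMx882
open Crest.Agent.R4C.NHx656 Crest.Agent.R4C.GWdefx982 Crest.Agent.R4C.GWbirthx516

namespace Crest.Agent.R4C.GWbirth2x516

variable {Z : World} {i : ℕ} {w : ℕ}

/-- a longer interval has fewer survivors -/
lemma Wp_anti {a a' b b' : ℕ} (ha : a ≤ a') (hb : b' ≤ b) : Z.Wp a b w ≤ Z.Wp a' b' w := by
  classical
  unfold World.Wp
  refine prod_mono_sub fun q hq => ?_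
  rw [mem_filter] at hq ⊢
  exact ⟨hq.1, lt_of_le_of_lt ha hq.2.1, hq.2.2.1.trans hb, hq.2.2.2⟩

/-- **(F5)(a) for a node and two later births** -/
theorem bad_of_W (hZ : Z.Ok) (hcut2 : ∀ k, 2 ^ k ≤ Z.cut k) {δ : ℝ} (hδ : 0 ≤ δ)
    (hθ : ∀ k, Z.i0 ≤ k → 3 * ((2 : ℝ) ^ k) ^ δ ≤ Z.θ k) (hwN : w ∣ Z.N)
    (hsq : Squarefree (upp (Z.cut i) w)) (hi : Z.nd i w) {b1 b2 : ℕ} (hib1 : i < b1)
    (hnd1 : Z.nd b1 w) (hb12 : b1 < b2) (hbirth2 : Z.birth b2 w) {u : ℝ}
    (hcoin : ∀ r ∈ (upp (Z.cut i) w).primeFactors,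
      ∀ G ⊆ nc (cutR Z.cut) δ Z.γ (Z.tt i w) (upp (Z.cut i) Z.N).primeFactors
        (upp (Z.cut i) w).primeFactors r, (∀ q ∈ G, ¬ Z.coin w q) → ∑ q ∈ G, (1 : ℝ) / q ≤ u)
    {s : ℝ} (hs : s ≤ 1 / 2) (hY : 1 - Z.Wp (Z.cut i) (Z.cut b2) w ≤ s) :
    Bad (cutR Z.cut) δ Z.γ (Z.tt i w) (2 * s + u) (upp (Z.cut i) Z.N).primeFactors
      (upp (Z.cut i) w).primeFactors := by
  classical
  have hw : w ≠ 0 := (Nat.pos_of_dvd_of_pos hwN hZ.hN).ne'
  set S := (upp (Z.cut i) w).primeFactors with hS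
  set t := Z.tt i w with ht
  have hi1 : 1 ≤ i := by have := hZ.hi0; have := hi.1; omega
  have ht1 : (2 : ℝ) ^ i ≤ t := tt_ge hZ hi
  have ht2 : t < (2 : ℝ) ^ (i + 1) := tt_lt hZ hi
  have h2i : (2 : ℝ) ≤ 2 ^ i := by
    calc (2 : ℝ) = 2 ^ 1 := by norm_num
      _ ≤ 2 ^ i := pow_le_pow_right₀ (by norm_num) hi1
  have hSp : ∀ p ∈ S, p.Prime := fun p hp => Nat.prime_of_mem_primeFactors hp
  have hnd2 : Z.nd b2 w := hbirth2.1
  have hib2 : i < b2 := hib1.trans hb12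
  obtain ⟨hmnS, hmn1, _⟩ := mn_le_pow hZ hw hsq hi hnd1 hib1
  rw [← hS] at hmnS hmn1
  -- from the product to the sum
  have key : ∀ F : Finset ℕ, (∀ q ∈ F, q ∈ (upp (Z.cut i) Z.N).primeFactors ∧ ¬ q ∣ w ∧
      q ≤ Z.cut b2) → (∀ G ⊆ F, (∀ q ∈ G, ¬ Z.coin w q) → ∑ q ∈ G, (1 : ℝ) / q ≤ u) →
      ∑ q ∈ F, (1 : ℝ) / q ≤ 2 * s + u := by
    intro F hF hFu
    have h0 : ∑ q ∈ F.filter (fun q => Z.coin w q), (1 : ℝ) / q ≤ 2 * s := by
      refine prod_to_sum (fun q hq =>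
        (Nat.prime_of_mem_primeFactors (hF q (mem_filter.1 hq).1).1).two_le) hs ?_
      have hsub : F.filter (fun q => Z.coin w q) ⊆
          (free Z.N w).filter fun p => Z.cut i < p ∧ p ≤ Z.cut b2 ∧ Z.coin w p := by
        intro q hq
        obtain ⟨hqF, h4⟩ := mem_filter.1 hq
        obtain ⟨h1, h2, h3⟩ := hF q hqF
        rw [pf_upp, mem_filter] at h1
        rw [mem_filter, mem_free]
        refine ⟨⟨h1.1, ?_⟩, h1.2, h3, h4⟩
        rw [Nat.factorization_eq_zero_of_not_dvd h2]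
        exact (Nat.prime_of_mem_primeFactors h1.1).factorization_pos_of_dvd hZ.hN.ne'
          (Nat.dvd_of_mem_primeFactors h1.1)
      have h1 := prod_mono_sub hsub
      unfold World.Wp at hY
      linarith
    have h1 : ∑ q ∈ F.filter (fun q => ¬ Z.coin w q), (1 : ℝ) / q ≤ u :=
      hFu _ (filter_subset _ _) fun q hq => (mem_filter.1 hq).2
    rw [← sum_filter_add_sum_filter_not F (fun q => Z.coin w q)]
    exact add_le_add h0 h1
  -- a prime above the cut which is not a letter of `S` does not divide `w`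
  have hndvd : ∀ q ∈ (upp (Z.cut i) Z.N).primeFactors, q ∉ S → ¬ q ∣ w := by
    intro q hq hqS hdvd
    rw [pf_upp, mem_filter] at hq
    apply hqS
    rw [hS, pf_upp, mem_filter]
    exact ⟨Nat.mem_primeFactors.2 ⟨Nat.prime_of_mem_primeFactors hq.1, hdvd, hw⟩, hq.2⟩
  refine ⟨⟨_, hmnS⟩, ?_⟩
  by_cases hon : On (K1 δ S) (pt Z.γ S (mn S)) (sc t S (mn S))
  · -- the run exists
    right
    have hlost : Lost δ Z.γ t S := by
      by_contra hnl
      unfold Lost at hnl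
      push Not at hnl
      obtain ⟨r, hr, hrj, e1, e2⟩ := exists_last hZ hw hsq hi hnd2 hib2
      have h1 := hnl r hr
      rw [e1, e2] at h1
      exact not_birth hZ hwN hsq hδ hθ hi hnd1 hib1 hnd2 hb12 h1 hbirth2
    refine ⟨hon, hlost, ?_⟩
    set p := ps δ Z.γ t S with hp
    obtain ⟨hpS, hoff⟩ := ps_spec hlost
    rw [← hp] at hpS hoff
    set tJ : ℝ := t * ((∏ q ∈ S.filter (· < p), q : ℕ) : ℝ) with htJ
    by_cases hmat : (p : ℝ) ≤ cutR Z.cut tJ
    · exact Or.inl hmat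
    right
    rw [not_le] at hmat
    have hmat' : Z.cut (lv tJ) < p := by
      unfold cutR at hmat
      exact_mod_cast hmat
    -- `b2` is later than the index of `t_J`
    have hb2J : lv tJ < b2 := by
      by_contra hcon
      rw [not_lt] at hcon
      obtain ⟨r, hr, hrj, e1, e2⟩ := exists_last hZ hw hsq hi hnd2 hib2
      have hrp : r < p := lt_of_le_of_lt (hrj.trans (hZ.hcut hcon)) hmat'
      have h1 := on_of_lt_ps hr hrp
      rw [← hS] at e1 e2
      rw [e1, e2] at h1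
      exact not_birth hZ hwN hsq hδ hθ hi hnd1 hib1 hnd2 hb12 h1 hbirth2
    have hpb2 : p ≤ Z.cut b2 := by
      by_contra hcon
      rw [not_le] at hcon
      have h1 := tt_cut hw hZ.hcut hsq hib2.le
      rw [← hS, ← ht] at h1
      have h2 : (∏ q ∈ S.filter (· ≤ Z.cut b2), q) ≤ ∏ q ∈ S.filter (· < p), q := by
        refine Nat.le_of_dvd (Finset.prod_pos fun q hq => (hSp q (mem_filter.1 hq).1).pos)
          (prod_dvd_prod_of_subset _ _ _ fun q hq => ?_)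
        rw [mem_filter] at hq ⊢
        exact ⟨hq.1, lt_of_le_of_lt hq.2 hcon⟩
      have h3 : Z.tt b2 w ≤ tJ := by
        rw [h1, htJ]
        exact mul_le_mul_of_nonneg_left (by exact_mod_cast h2) (by linarith)
      have h4 := tt_ge hZ hnd2
      have h5 := lt_lv tJ
      have h6 : (2 : ℝ) ^ (lv tJ + 1) ≤ 2 ^ b2 := pow_le_pow_right₀ (by norm_num) hb2J
      linarith
    refine key _ (fun q hq => ?_) (hcoin p hpS)
    unfold nc at hq
    rw [mem_filter] at hq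
    obtain ⟨hqP, hq1, hq2, _⟩ := hq
    have hqS : q ∉ S := by
      intro hqS
      have h1 : (q : ℝ) ≤ ((∏ q ∈ S.filter (· < p), q : ℕ) : ℝ) := by
        exact_mod_cast le_prod_of_mem (fun q hq => (hSp q (mem_filter.1 hq).1).one_lt.le)
          (mem_filter.2 ⟨hqS, hq2⟩)
      have h2 : 2 * (q : ℝ) ≤ tJ := by
        rw [htJ]
        exact mul_le_mul (h2i.trans ht1) h1 (Nat.cast_nonneg _) (by linarith)
      have h3 := lt_lv tJ
      have h4 : (2 : ℝ) ^ (lv tJ + 1) = 2 * 2 ^ lv tJ := by ring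
      have h5 : (q : ℝ) < 2 ^ lv tJ := by linarith
      have h6 : ((2 ^ lv tJ : ℕ) : ℝ) ≤ (Z.cut (lv tJ) : ℝ) := by exact_mod_cast hcut2 _
      push_cast at h6
      have h7 : cutR Z.cut tJ < (q : ℝ) := hq1
      unfold cutR at h7
      linarith
    exact ⟨hqP, hndvd q hqP hqS, hq2.le.trans hpb2⟩
  · -- no run centre at the first letter
    left
    refine ⟨hon, key _ (fun q hq => ?_) (hcoin (mn S) hmnS)⟩
    unfold nc at hq
    rw [mem_filter] at hq
    obtain ⟨hqP, _, hq2, _⟩ := hq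
    have hqS : q ∉ S := fun h => by have := mn_le h; omega
    exact ⟨hqP, hndvd q hqP hqS, hq2.le.trans (hmn1.trans (hZ.hcut hb12.le))⟩

/-- `Y z w < 1`: two births after the node `i` of the zone `z` -/
lemma births_of_Y {z : Node} (hz : z.1 = Z.bi i w) (hY : Z.Y z w < 1) :
    ∃ b1 b2, i < b1 ∧ Z.birth b1 w ∧ b1 < b2 ∧ Z.birth b2 w ∧ b2 ≤ Z.top ∧
      Z.Y z w = 1 - Z.Wp (Z.cut z.1) (Z.cut b2) w ∧ z.1 ≤ i := by
  classical
  have hnb : Z.hasNb z.1 w ∧ Z.hasNb (Z.nb z.1 w) w := by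
    by_contra hcon
    unfold World.Y at hY
    rw [if_neg hcon] at hY
    exact lt_irrefl _ hY
  have hY' := hY
  unfold World.Y at hY'
  rw [if_pos hnb] at hY'
  obtain ⟨hnb1, hnb2⟩ := hnb
  have hb1 := nb_spec hnb1
  have hb2 := nb_spec hnb2
  refine ⟨Z.nb z.1 w, Z.nb (Z.nb z.1 w) w, ?_, hb1.2.2, hb2.1, hb2.2.2, hb2.2.1, ?_, ?_⟩
  · by_contra hcon
    have h1 : Z.bi i w < Z.nb z.1 w := by rw [← hz]; exact hb1.1
    exact Nat.findGreatest_is_greatest (P := fun i' => Z.birth i' w) h1 (not_lt.1 hcon) hb1.2.2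
  · unfold World.Y
    rw [if_pos ⟨hnb1, hnb2⟩]
  · rw [hz]; exact Nat.findGreatest_le i

end Crest.Agent.R4C.GWbirth2x516
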