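import Crest.Agent.R4C.GWdef_982

/-!
# Row 4, GW section, leaf (F5)(a): births and the bad words of block NH (helper33)

World `Z` of `GWdef_982`, a word `w`, a node index `i` of `w` with `upp (cut i) w` squarefree,
`X = (upp (cut i) w).primeFactors`, `t = tt i w`.

* `low_prod`, `upp_prod`, `yy_eq`, `tt_eq` : for `cut i ≤ cut j`, `yy j w = pt γ X (cut j)` and
  `tt j w = sc t X (cut j)`;
* `pt_last` : `pt`, `sc` at a cut are those at the last letter below the cut;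
* `on_push` : (O2) along the cuts, any word;
* `not_on_later` : a birth with a previous node has depth `≥ θ (prev)` at every later cut;
* `births_after` : `Y z w < 1` (`z` the zone of `(i, w)`): two births after `i`, and either
  (1a) the run centre does not exist at the first letter, or (2) it is lost at a letter
  `ps ≤ cut (second next birth)`;
* `bad_of_Y` : `Y z w ≤ s ≤ 1/2` and nominal coins are coins ⟹ `Bad (2 s)`;
* `bad_of_gap`, `bad_of_Y'` : the same from the loss between `cut i` and the second birth after any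
  node `i`, nominal coins except those of sets `D r` (mass `≤ s'`) are coins ⟹ `Bad (2 s + s')`.
-/

set_option autoImplicit false

open Finset
open Crest.Agent.R4C.Basex935 Crest.Agent.R4C.Cutx50 Crest.Agent.R4C.PrefixMx882
open Crest.Agent.R4C.NHx656

namespace Crest.Agent.R4C.GWbirthx33

open Crest.Agent.R4C.GWdefx982

/-! ### letters -/

lemma part_sqfree (S : ℕ → Prop) [DecidablePred S] {n : ℕ} (hn : Squarefree n) :
    part S n = ∏ p ∈ n.primeFactors.filter S, p := by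
  unfold part
  refine Finset.prod_congr rfl fun p hp => ?_
  have h1 := (Finset.mem_filter.1 hp).1
  have h2 : n.factorization p ≤ 1 := hn.natFactorization_le_one p
  have h3 : 0 < n.factorization p :=
    (Nat.prime_of_mem_primeFactors h1).factorization_pos_of_dvd hn.ne_zero
      (Nat.dvd_of_mem_primeFactors h1)
  have h4 : n.factorization p = 1 := by omega
  rw [h4, pow_one]

lemma upp_prod {x r w : ℕ} (hsq : Squarefree (upp x w)) (hxr : x ≤ r) :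
    upp r w = ∏ p ∈ (upp x w).primeFactors.filter (r < ·), p := by
  rw [← upp_upp hxr]
  unfold upp at hsq ⊢
  rw [part_sqfree _ hsq]
  refine Finset.prod_congr ?_ fun _ _ => rfl
  ext p
  simp only [Finset.mem_filter, not_le]

lemma low_prod {x r w : ℕ} (hsq : Squarefree (upp x w)) (hxr : x ≤ r) :
    low r w = low x w * ∏ p ∈ (upp x w).primeFactors.filter (· ≤ r), p := by
  have h1 : low r (upp x w) = ∏ p ∈ (upp x w).primeFactors.filter (· ≤ r), p := by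
    unfold upp at hsq ⊢
    exact part_sqfree _ hsq
  rw [← h1]
  refine Nat.eq_of_factorization_eq (low_pos _ _).ne'
    (mul_ne_zero (low_pos _ _).ne' (low_pos _ _).ne') fun p => ?_
  rw [Nat.factorization_mul (low_pos _ _).ne' (low_pos _ _).ne', Finsupp.add_apply, fact_low,
    fact_low, fact_low, fact_upp]
  by_cases h2 : p ≤ x
  · have h3 : p ≤ r := by omega
    simp [h2, h3]
  · by_cases h3 : p ≤ r <;> simp [h2, h3]

lemma lt_of_mem {x w p : ℕ} (h : p ∈ (upp x w).primeFactors) : x < p := by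
  have h1 := Nat.prime_of_mem_primeFactors h
  have h2 := Nat.dvd_of_mem_primeFactors h
  unfold upp at h2
  exact not_le.1 (prime_dvd_part _ h1 h2)

/-- `pt`, `sc` at `y` are `pt`, `sc` at the last letter `≤ y` -/
lemma pt_last {γ t : ℝ} {X : Finset ℕ} {y : ℕ} (h : (X.filter (· ≤ y)).Nonempty) :
    ∃ q ∈ X, q ≤ y ∧ (∀ p ∈ X, p ≤ y → p ≤ q) ∧ pt γ X y = pt γ X q ∧ sc t X y = sc t X q := by
  obtain ⟨q, hq, hmax⟩ : ∃ q ∈ X.filter (· ≤ y), ∀ p ∈ X.filter (· ≤ y), p ≤ q :=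
    ⟨(X.filter (· ≤ y)).max' h, Finset.max'_mem _ h, fun p hp => Finset.le_max' _ p hp⟩
  obtain ⟨hqX, hqy⟩ := mem_filter.1 hq
  have hm : ∀ p ∈ X, p ≤ y → p ≤ q := fun p hp hpy => hmax p (mem_filter.2 ⟨hp, hpy⟩)
  refine ⟨q, hqX, hqy, hm, ?_, ?_⟩
  · have e : X.filter (y < ·) = X.filter (q < ·) := by
      ext p
      simp only [mem_filter]
      constructor
      · rintro ⟨h1, h2⟩
        exact ⟨h1, lt_of_le_of_lt hqy h2⟩
      · rintro ⟨h1, h2⟩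
        refine ⟨h1, ?_⟩
        by_contra hcon
        exact absurd (hm p h1 (not_lt.1 hcon)) (not_le.2 h2)
    unfold pt
    rw [e]
  · have e : X.filter (· ≤ y) = X.filter (· ≤ q) := by
      ext p
      simp only [mem_filter]
      constructor
      · rintro ⟨h1, h2⟩
        exact ⟨h1, hm p h1 h2⟩
      · rintro ⟨h1, h2⟩
        exact ⟨h1, h2.trans hqy⟩
    unfold sc
    rw [e]

section world

variable {Z : World}

lemma yy_eq {i j w : ℕ} (hsq : Squarefree (upp (Z.cut i) w)) (hij : Z.cut i ≤ Z.cut j) :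
    Z.yy j w = pt Z.γ (upp (Z.cut i) w).primeFactors (Z.cut j) := by
  unfold World.yy pt
  rw [upp_prod hsq hij]

lemma tt_eq {i j w : ℕ} (hsq : Squarefree (upp (Z.cut i) w)) (hij : Z.cut i ≤ Z.cut j) :
    Z.tt j w = sc (Z.tt i w) (upp (Z.cut i) w).primeFactors (Z.cut j) := by
  unfold World.tt World.e sc
  rw [low_prod hsq hij]
  push_cast
  ring

/-- (O2) along the cuts -/
lemma on_push {i j w : ℕ} {K : ℝ} (hij : Z.cut i ≤ Z.cut j) (h : On K (Z.yy j w) (Z.tt j w)) :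
    On K (Z.yy i w) (Z.tt i w) := by
  have h1 : (Z.yy i w) = ((upp (Z.cut i) (low (Z.cut j) w) : ℕ) : ℝ) * Z.yy j w := by
    have e : upp (Z.cut i) w = upp (Z.cut i) (low (Z.cut j) w) * upp (Z.cut j) w := by
      refine Nat.eq_of_factorization_eq (upp_pos _ _).ne'
        (mul_ne_zero (upp_pos _ _).ne' (upp_pos _ _).ne') fun p => ?_
      rw [Nat.factorization_mul (upp_pos _ _).ne' (upp_pos _ _).ne', Finsupp.add_apply, fact_upp,
        fact_upp, fact_upp, fact_low]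
      by_cases h2 : p ≤ Z.cut i
      · have h3 : p ≤ Z.cut j := h2.trans hij
        simp [h2, h3]
      · by_cases h3 : p ≤ Z.cut j <;> simp [h2, h3]
    unfold World.yy
    rw [e]
    push_cast
    ring
  have h2 : Z.tt j w = Z.tt i w * ((upp (Z.cut i) (low (Z.cut j) w) : ℕ) : ℝ) := by
    have e : low (Z.cut j) w = low (Z.cut i) w * upp (Z.cut i) (low (Z.cut j) w) := by
      have h3 := low_mul_upp (Z.cut i) (low_pos (Z.cut j) w).ne'
      rw [low_low hij] at h3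
      exact h3.symm
    unfold World.tt World.e
    rw [e]
    have h4 : upp (Z.cut i) (low (Z.cut i) w * upp (Z.cut i) (low (Z.cut j) w)) =
        upp (Z.cut i) (low (Z.cut j) w) := by rw [← e]
    rw [h4]
    push_cast
    ring
  rw [h2] at h
  rw [h1]
  exact h.push

/-- a word of a node lies in its node -/
lemma mem_S {i w : ℕ} (hZ : Z.Ok) (hw : w ∣ Z.N) (hn : Z.nd i w) : w ∈ Z.S (Z.lab i w) := by
  classical
  unfold World.S
  rw [mem_filter]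
  exact ⟨Nat.mem_divisors.2 ⟨hw, hZ.hN.ne'⟩, hn, rfl⟩

/-- **a birth with a previous node is deep at every later cut** -/
theorem not_on_later (hZ : Z.Ok) {b i w : ℕ} (hw : w ∣ Z.N) (hb : Z.birth b w)
    (hp : Z.hasPrev b w) (hbi : b ≤ i) : ¬ On (Z.θ (Z.prev b w)) (Z.yy i w) (Z.tt i w) := by
  intro h
  exact hb.2 ⟨hp, w, mem_S hZ hw hb.1, on_push (hZ.hcut hbi) h⟩

/-- scale of a node -/
lemma tt_bounds (hZ : Z.Ok) {i w : ℕ} (h : Z.nd i w) : (2 : ℝ) ^ i ≤ Z.tt i w ∧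
    Z.tt i w < 2 ^ (i + 1) := by
  have hL := hZ.hL
  unfold World.tt
  constructor
  · rw [le_div_iff₀ hL]; exact h.2.1
  · rw [div_lt_iff₀ hL]; exact h.2.2

lemma prev_spec {i w : ℕ} (h : Z.hasPrev i w) : Z.prev i w < i ∧ Z.nd (Z.prev i w) w ∧
    ∀ j, j < i → Z.nd j w → j ≤ Z.prev i w := by
  classical
  obtain ⟨j, hj, hn⟩ := h
  have h1 := Nat.findGreatest_spec (P := fun i' => i' < i ∧ Z.nd i' w) hj.le ⟨hj, hn⟩
  refine ⟨?_, ?_, fun j' hj' hn' => ?_⟩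
  · unfold World.prev; exact h1.1
  · unfold World.prev; exact h1.2
  · unfold World.prev
    exact Nat.le_findGreatest hj'.le ⟨hj', hn'⟩

lemma bi_le (i w : ℕ) : Z.bi i w ≤ i := by
  classical
  unfold World.bi
  exact Nat.findGreatest_le _

lemma le_bi {i j w : ℕ} (hj : j ≤ i) (h : Z.birth j w) : j ≤ Z.bi i w := by
  classical
  unfold World.bi
  exact Nat.le_findGreatest hj h

lemma nb_spec {i w : ℕ} (h : Z.hasNb i w) : i < Z.nb i w ∧ Z.nb i w ≤ Z.top ∧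
    Z.birth (Z.nb i w) w := by
  classical
  unfold World.nb
  rw [dif_pos h]
  exact Nat.find_spec h

/-- the run centre is lost before a later birth -/
theorem lost_of_birth (hZ : Z.Ok) {δ : ℝ} (hθ : ∀ j, Z.i0 ≤ j → ∀ r : ℕ, r ≤ 2 ^ (j + 1) →
    3 * (r : ℝ) ^ δ ≤ Z.θ j) {i b1 b2 w : ℕ} (hw : w ∣ Z.N)
    (hsq : Squarefree (upp (Z.cut i) w)) (hi : Z.nd i w) (h1 : i < b1) (h2 : b1 < b2)
    (hn1 : Z.nd b1 w) (hb2 : Z.birth b2 w) (hr1 : mn (upp (Z.cut i) w).primeFactors ≤ Z.cut b1)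
    (hr1m : mn (upp (Z.cut i) w).primeFactors ∈ (upp (Z.cut i) w).primeFactors) :
    ∃ p ∈ (upp (Z.cut i) w).primeFactors, p ≤ Z.cut b2 ∧
      ¬ On (K1 δ (upp (Z.cut i) w).primeFactors) (pt Z.γ (upp (Z.cut i) w).primeFactors p)
        (sc (Z.tt i w) (upp (Z.cut i) w).primeFactors p) := by
  classical
  set X := (upp (Z.cut i) w).primeFactors with hX
  by_contra hcon
  push Not at hcon
  have hij : Z.cut i ≤ Z.cut b2 := hZ.hcut (by omega)
  have h12 : Z.cut b1 ≤ Z.cut b2 := hZ.hcut h2.le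
  have hne : (X.filter (· ≤ Z.cut b2)).Nonempty :=
    ⟨mn X, mem_filter.2 ⟨hr1m, hr1.trans h12⟩⟩
  obtain ⟨q, hqX, hq1, _, hq2, hq3⟩ := pt_last (γ := Z.γ) (t := Z.tt i w) hne
  have hon := hcon q hqX hq1
  rw [← hq2, ← hq3, ← yy_eq hsq hij, ← tt_eq hsq hij] at hon
  have hprev : Z.hasPrev b2 w := ⟨b1, h2, hn1⟩
  obtain ⟨p1, p2, p3⟩ := prev_spec hprev
  have hp4 := p3 b1 h2 hn1
  -- `r₁ ≤ 2^(prev+1)`
  have hmn : ((mn X : ℕ) : ℝ) ≤ Z.tt (Z.prev b2 w) w := by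
    have hcp : Z.cut i ≤ Z.cut (Z.prev b2 w) := hZ.hcut (by omega)
    rw [tt_eq hsq hcp]
    unfold sc
    have hdvd : mn X ∣ ∏ p ∈ X.filter (· ≤ Z.cut (Z.prev b2 w)), p :=
      Finset.dvd_prod_of_mem _ (mem_filter.2 ⟨hr1m, hr1.trans (hZ.hcut hp4)⟩)
    have hpos : 0 < ∏ p ∈ X.filter (· ≤ Z.cut (Z.prev b2 w)), p :=
      Finset.prod_pos fun p hp => (Nat.prime_of_mem_primeFactors (mem_filter.1 hp).1).pos
    have hle : ((mn X : ℕ) : ℝ) ≤ ((∏ p ∈ X.filter (· ≤ Z.cut (Z.prev b2 w)), p : ℕ) : ℝ) := by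
      exact_mod_cast Nat.le_of_dvd hpos hdvd
    have ht : (1 : ℝ) ≤ Z.tt i w := le_trans (one_le_pow₀ (by norm_num)) (tt_bounds hZ hi).1
    have h0 : (0 : ℝ) ≤ ((mn X : ℕ) : ℝ) := Nat.cast_nonneg _
    nlinarith
  have hmn2 : mn X ≤ 2 ^ (Z.prev b2 w + 1) := by
    have := hmn.trans (tt_bounds hZ p2).2.le
    exact_mod_cast this
  have hK : K1 δ X ≤ Z.θ (Z.prev b2 w) := hθ _ p2.1 _ hmn2
  exact hb2.2 ⟨hprev, w, mem_S hZ hw hb2.1, hon.mono hK⟩

/-- the first letter is below the cut of every later node -/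
lemma mn_le_cut (hZ : Z.Ok) {i b1 w : ℕ} (hsq : Squarefree (upp (Z.cut i) w)) (hi : Z.nd i w)
    (h1 : i < b1) (hn1 : Z.nd b1 w) :
    mn (upp (Z.cut i) w).primeFactors ≤ Z.cut b1 ∧
      mn (upp (Z.cut i) w).primeFactors ∈ (upp (Z.cut i) w).primeFactors := by
  classical
  set X := (upp (Z.cut i) w).primeFactors with hX
  have hij : Z.cut i ≤ Z.cut b1 := hZ.hcut h1.le
  have hne : (X.filter (· ≤ Z.cut b1)).Nonempty := by
    by_contra hcon
    rw [Finset.not_nonempty_iff_eq_empty] at hcon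
    have e1 := tt_eq (Z := Z) hsq hij
    unfold sc at e1
    rw [← hX, hcon, Finset.prod_empty, Nat.cast_one, mul_one] at e1
    have h2 := (tt_bounds hZ hi).2
    have h3 := (tt_bounds hZ hn1).1
    have h4 : (2 : ℝ) ^ (i + 1) ≤ 2 ^ b1 := pow_le_pow_right₀ (by norm_num) h1
    rw [e1] at h3
    linarith
  obtain ⟨q, hq⟩ := hne
  rw [mem_filter] at hq
  exact ⟨(mn_le hq.1).trans hq.2, mn_mem ⟨q, hq.1⟩⟩

/-- monotonicity of the coin products -/
lemma Wp_le {a b a' b' w : ℕ} (ha : a ≤ a') (hb : b' ≤ b) : Z.Wp a b w ≤ Z.Wp a' b' w := by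
  classical
  unfold World.Wp
  have hf : ∀ p ∈ free Z.N w, 0 ≤ 1 - 1 / (p : ℝ) ∧ 1 - 1 / (p : ℝ) ≤ 1 := by
    intro p hp
    have hpp := Nat.prime_of_mem_primeFactors (mem_free.1 hp).1
    have h1 : (1 : ℝ) ≤ p := by exact_mod_cast hpp.one_le
    have h2 : 1 / (p : ℝ) ≤ 1 := by rw [div_le_one (by linarith)]; exact h1
    have h3 : 0 ≤ 1 / (p : ℝ) := by positivity
    constructor <;> linarith
  have hsub : ((free Z.N w).filter fun p => a' < p ∧ p ≤ b' ∧ Z.coin w p) ⊆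
      (free Z.N w).filter fun p => a < p ∧ p ≤ b ∧ Z.coin w p := by
    intro p hp
    rw [mem_filter] at hp ⊢
    exact ⟨hp.1, lt_of_le_of_lt ha hp.2.1, hp.2.2.1.trans hb, hp.2.2.2⟩
  exact Finset.prod_le_prod_of_subset_of_le_one hsub
    (fun p hp => (hf p (mem_filter.1 hp).1).1) fun p hp _ => (hf p (mem_filter.1 hp).1).2

/-- node index read off the scale -/
lemma log_tt (hZ : Z.Ok) {i w : ℕ} (h : Z.nd i w) : Nat.log 2 ⌊Z.tt i w⌋₊ = i := by
  obtain ⟨h1, h2⟩ := tt_bounds hZ h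
  refine (Nat.log_eq_iff (Or.inr ⟨by norm_num, ?_⟩)).2 ⟨?_, ?_⟩
  · have h3 : (1 : ℝ) ≤ Z.tt i w := le_trans (one_le_pow₀ (by norm_num)) h1
    exact (Nat.floor_pos.2 h3).ne'
  · exact Nat.le_floor (by exact_mod_cast h1)
  · exact (Nat.floor_lt (by linarith [one_le_pow₀ (M₀ := ℝ) (n := i) (by norm_num : (1:ℝ) ≤ 2)])).2
      (by exact_mod_cast h2)

/-- **(F5)(a)** : births after a node -/
theorem births_after (hZ : Z.Ok) {δ : ℝ} (hθ : ∀ j, Z.i0 ≤ j → ∀ r : ℕ, r ≤ 2 ^ (j + 1) →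
    3 * (r : ℝ) ^ δ ≤ Z.θ j) {i w : ℕ} (hw : w ∣ Z.N) (hsq : Squarefree (upp (Z.cut i) w))
    (hi : Z.nd i w) {z : Node} (hz : z.1 = Z.bi i w) (hY : Z.Y z w < 1) :
    ∃ b1 b2, i < b1 ∧ b1 < b2 ∧ Z.birth b1 w ∧ Z.birth b2 w ∧
      Z.Y z w = 1 - Z.Wp (Z.cut z.1) (Z.cut b2) w ∧
      mn (upp (Z.cut i) w).primeFactors ∈ (upp (Z.cut i) w).primeFactors ∧
      mn (upp (Z.cut i) w).primeFactors ≤ Z.cut b1 ∧
      Lost δ Z.γ (Z.tt i w) (upp (Z.cut i) w).primeFactors ∧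
      ps δ Z.γ (Z.tt i w) (upp (Z.cut i) w).primeFactors ≤ Z.cut b2 := by
  classical
  have hb : Z.hasNb z.1 w ∧ Z.hasNb (Z.nb z.1 w) w := by
    by_contra hcon
    unfold World.Y at hY
    rw [if_neg hcon] at hY
    exact lt_irrefl _ hY
  obtain ⟨hb1, hb2⟩ := hb
  obtain ⟨p1, _, p3⟩ := nb_spec hb1
  obtain ⟨q1, _, q3⟩ := nb_spec hb2
  have hi1 : i < Z.nb z.1 w := by
    by_contra hcon
    have h1 := le_bi (not_lt.1 hcon) p3
    omega
  obtain ⟨r1, r2⟩ := mn_le_cut hZ hsq hi hi1 p3.1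
  obtain ⟨p, hpX, hp1, hp2⟩ := lost_of_birth hZ hθ hw hsq hi hi1 q1 p3.1 q3 r1 r2
  refine ⟨Z.nb z.1 w, Z.nb (Z.nb z.1 w) w, hi1, q1, p3, q3, ?_, r2, r1, ⟨p, hpX, hp2⟩, ?_⟩
  · unfold World.Y
    rw [if_pos ⟨hb1, hb2⟩]
  · refine le_trans ?_ hp1
    exact Nat.sInf_le (show p ∈ {p : ℕ | p ∈ (upp (Z.cut i) w).primeFactors ∧ _} from ⟨hpX, hp2⟩)

/-- activation cut of a real scale -/
noncomputable def cutT (Z : World) (τ : ℝ) : ℝ := (Z.cut (Nat.log 2 ⌊τ⌋₊) : ℝ)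

/-- small loss ⟹ small coin mass -/
lemma mass_le_of_Wp {a b w : ℕ} {s : ℝ} (hs : s ≤ 1 / 2) (h : 1 - Z.Wp a b w ≤ s)
    {Q : Finset ℕ} (hQ : ∀ q ∈ Q, q ∈ free Z.N w ∧ a < q ∧ q ≤ b ∧ Z.coin w q) :
    ∑ q ∈ Q, (1 : ℝ) / q ≤ 2 * s := by
  classical
  have hf : ∀ p ∈ free Z.N w, 0 ≤ 1 - 1 / (p : ℝ) ∧ 1 - 1 / (p : ℝ) ≤ 1 := by
    intro p hp
    have hpp := Nat.prime_of_mem_primeFactors (mem_free.1 hp).1
    have h1 : (1 : ℝ) ≤ p := by exact_mod_cast hpp.one_le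
    have h2 : 1 / (p : ℝ) ≤ 1 := by rw [div_le_one (by linarith)]; exact h1
    have h3 : 0 ≤ 1 / (p : ℝ) := by positivity
    constructor <;> linarith
  have h1 : Z.Wp a b w ≤ ∏ q ∈ Q, (1 - 1 / (q : ℝ)) := by
    unfold World.Wp
    refine Finset.prod_le_prod_of_subset_of_le_one (fun q hq => ?_)
      (fun p hp => (hf p (mem_filter.1 hp).1).1) fun p hp _ => (hf p (mem_filter.1 hp).1).2
    obtain ⟨h2, h3, h4, h5⟩ := hQ q hq
    exact mem_filter.2 ⟨h2, h3, h4, h5⟩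
  have h2 : ∏ q ∈ Q, (1 - 1 / (q : ℝ)) ≤ Real.exp (-∑ q ∈ Q, (1 : ℝ) / q) := by
    rw [← Finset.sum_neg_distrib, Real.exp_sum]
    refine Finset.prod_le_prod (fun q hq => (hf q (hQ q hq).1).1) fun q _ => ?_
    have := Real.add_one_le_exp (-((1 : ℝ) / q))
    linarith
  have h3 : 1 - s ≤ Real.exp (-∑ q ∈ Q, (1 : ℝ) / q) := by linarith
  have h4 : 1 - s ≥ 1 / 2 := by linarith
  -- `exp (-x) ≥ 1 - s` gives `x ≤ -log (1 - s) ≤ 2 s`
  have h5 : Real.exp (-(2 * s)) ≤ 1 - s ∨ s < 0 := by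
    by_cases hs0 : s < 0
    · exact Or.inr hs0
    · left
      push Not at hs0
      have h6 : Real.exp (-(2 * s)) = (Real.exp (2 * s))⁻¹ := Real.exp_neg _
      have h7 : 1 + 2 * s ≤ Real.exp (2 * s) := by linarith [Real.add_one_le_exp (2 * s)]
      rw [h6, inv_le_comm₀ (Real.exp_pos _) (by linarith)]
      refine le_trans ?_ h7
      rw [inv_le_iff_one_le_mul₀ (by linarith)]
      nlinarith
  rcases h5 with h5 | h5
  · have h6 := h5.trans h3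
    rw [Real.exp_le_exp] at h6
    linarith
  · have h6 : Real.exp (-∑ q ∈ Q, (1 : ℝ) / q) ≤ 1 := by
      rw [Real.exp_le_one_iff]
      have : 0 ≤ ∑ q ∈ Q, (1 : ℝ) / q := Finset.sum_nonneg fun q _ => by positivity
      linarith
    linarith

/-- **(F5)(a), second form** (12's V5): two births `b1 < b2` after the node `i`, small loss between
`cut i` and `cut b2`; the coins of the set `D r` may be missing -/
theorem bad_of_gap (hZ : Z.Ok) {δ : ℝ} (hθ : ∀ j, Z.i0 ≤ j → ∀ r : ℕ, r ≤ 2 ^ (j + 1) →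
    3 * (r : ℝ) ^ δ ≤ Z.θ j) {i w : ℕ} (hw : w ∣ Z.N) (hsq : Squarefree (upp (Z.cut i) w))
    (hi : Z.nd i w) {b1 b2 : ℕ} (h1 : i < b1) (h2 : b1 < b2) (hn1 : Z.nd b1 w)
    (hb2 : Z.birth b2 w) {s s' : ℝ} (hs : s ≤ 1 / 2)
    (hY : 1 - Z.Wp (Z.cut i) (Z.cut b2) w ≤ s) {P : Finset ℕ} {D : ℕ → Finset ℕ}
    (hD : ∀ r ∈ (upp (Z.cut i) w).primeFactors, ∑ q ∈ D r, (1 : ℝ) / q ≤ s')
    (hcoin : ∀ r ∈ (upp (Z.cut i) w).primeFactors,
      ∀ q ∈ nc (cutT Z) δ Z.γ (Z.tt i w) P (upp (Z.cut i) w).primeFactors r,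
        q ∉ D r → q ∈ free Z.N w ∧ Z.coin w q) :
    Bad (cutT Z) δ Z.γ (Z.tt i w) (2 * s + s') P (upp (Z.cut i) w).primeFactors := by
  classical
  obtain ⟨h7, h6⟩ := mn_le_cut hZ hsq hi h1 hn1
  obtain ⟨p, hpX, hp1, hp2⟩ := lost_of_birth hZ hθ hw hsq hi h1 h2 hn1 hb2 h7 h6
  set X := (upp (Z.cut i) w).primeFactors with hX
  have h8 : Lost δ Z.γ (Z.tt i w) X := ⟨p, hpX, hp2⟩
  have h9 : ps δ Z.γ (Z.tt i w) X ≤ Z.cut b2 := by
    refine le_trans ?_ hp1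
    exact Nat.sInf_le (show p ∈ {p : ℕ | p ∈ X ∧ _} from ⟨hpX, hp2⟩)
  have ht := tt_bounds hZ hi
  have ht1 : (1 : ℝ) ≤ Z.tt i w := le_trans (one_le_pow₀ (by norm_num)) ht.1
  -- the gap before a letter `r ≤ cut b2`
  have key : ∀ r ∈ X, r ≤ Z.cut b2 →
      ∑ q ∈ nc (cutT Z) δ Z.γ (Z.tt i w) P X r, (1 : ℝ) / q ≤ 2 * s + s' := by
    intro r hr hrb
    set NC := nc (cutT Z) δ Z.γ (Z.tt i w) P X r with hNC
    have e1 : ∑ q ∈ NC, (1 : ℝ) / q = ∑ q ∈ NC.filter (fun q => q ∉ D r), (1 : ℝ) / q +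
        ∑ q ∈ NC.filter (fun q => ¬ q ∉ D r), (1 : ℝ) / q :=
      (Finset.sum_filter_add_sum_filter_not _ _ _).symm
    have e2 : ∑ q ∈ NC.filter (fun q => ¬ q ∉ D r), (1 : ℝ) / q ≤ s' := by
      refine le_trans (Finset.sum_le_sum_of_subset_of_nonneg ?_ fun q _ _ => by positivity)
        (hD r hr)
      intro q hq
      have := (mem_filter.1 hq).2
      exact not_not.1 this
    have e3 : ∑ q ∈ NC.filter (fun q => q ∉ D r), (1 : ℝ) / q ≤ 2 * s := by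
      refine mass_le_of_Wp hs hY fun q hq => ?_
      obtain ⟨hq, hqD⟩ := mem_filter.1 hq
      obtain ⟨c1, c2⟩ := hcoin r hr q hq hqD
      rw [hNC] at hq
      unfold nc at hq
      rw [mem_filter] at hq
      obtain ⟨_, g1, g2, _⟩ := hq
      refine ⟨c1, ?_, by omega, c2⟩
      unfold cutT at g1
      have g3 : Z.cut i ≤
          Z.cut (Nat.log 2 ⌊Z.tt i w * ((∏ p ∈ X.filter (· < r), p : ℕ) : ℝ)⌋₊) := by
        refine hZ.hcut ?_
        calc i = Nat.log 2 ⌊Z.tt i w⌋₊ := (log_tt hZ hi).symm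
          _ ≤ _ := by
            refine Nat.log_mono_right (Nat.floor_mono ?_)
            have hpos : 0 < ∏ p ∈ X.filter (· < r), p :=
              Finset.prod_pos fun p hp => (Nat.prime_of_mem_primeFactors (mem_filter.1 hp).1).pos
            have : (1 : ℝ) ≤ ((∏ p ∈ X.filter (· < r), p : ℕ) : ℝ) := by exact_mod_cast hpos
            nlinarith
      have g5 : Z.cut (Nat.log 2 ⌊Z.tt i w * ((∏ p ∈ X.filter (· < r), p : ℕ) : ℝ)⌋₊) < q := by
        exact_mod_cast g1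
      omega
    linarith
  refine ⟨⟨_, h6⟩, ?_⟩
  by_cases hon : On (K1 δ X) (pt Z.γ X (mn X)) (sc (Z.tt i w) X (mn X))
  · right
    exact ⟨hon, h8, Or.inr (key _ (ps_spec h8).1 h9)⟩
  · left
    exact ⟨hon, key _ h6 (h7.trans (hZ.hcut h2.le))⟩

/-- **(F5)(a), general form** : small `Y` ⟹ bad word of block NH, the coins in `D r` missing -/
theorem bad_of_Y' (hZ : Z.Ok) {δ : ℝ} (hθ : ∀ j, Z.i0 ≤ j → ∀ r : ℕ, r ≤ 2 ^ (j + 1) →
    3 * (r : ℝ) ^ δ ≤ Z.θ j) {i w : ℕ} (hw : w ∣ Z.N) (hsq : Squarefree (upp (Z.cut i) w))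
    (hi : Z.nd i w) {z : Node} (hz : z.1 = Z.bi i w) {s s' : ℝ} (hs : s ≤ 1 / 2)
    (hY : Z.Y z w ≤ s) {P : Finset ℕ} {D : ℕ → Finset ℕ}
    (hD : ∀ r ∈ (upp (Z.cut i) w).primeFactors, ∑ q ∈ D r, (1 : ℝ) / q ≤ s')
    (hcoin : ∀ r ∈ (upp (Z.cut i) w).primeFactors,
      ∀ q ∈ nc (cutT Z) δ Z.γ (Z.tt i w) P (upp (Z.cut i) w).primeFactors r,
        q ∉ D r → q ∈ free Z.N w ∧ Z.coin w q) :
    Bad (cutT Z) δ Z.γ (Z.tt i w) (2 * s + s') P (upp (Z.cut i) w).primeFactors := by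
  obtain ⟨b1, b2, h1, h2, h3, h4, h5, _⟩ :=
    births_after hZ hθ hw hsq hi hz (by linarith)
  have hzi : z.1 ≤ i := by rw [hz]; exact bi_le _ _
  refine bad_of_gap hZ hθ hw hsq hi h1 h2 h3.1 h4 hs ?_ hD hcoin
  have := Wp_le (Z := Z) (w := w) (hZ.hcut hzi) (le_refl (Z.cut b2))
  rw [h5] at hY
  linarith

/-- **(F5)(a), final form** : small `Y` ⟹ bad word of block NH -/
theorem bad_of_Y (hZ : Z.Ok) {δ : ℝ} (hθ : ∀ j, Z.i0 ≤ j → ∀ r : ℕ, r ≤ 2 ^ (j + 1) →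
    3 * (r : ℝ) ^ δ ≤ Z.θ j) {i w : ℕ} (hw : w ∣ Z.N) (hsq : Squarefree (upp (Z.cut i) w))
    (hi : Z.nd i w) {z : Node} (hz : z.1 = Z.bi i w) {s : ℝ} (hs : s ≤ 1 / 2)
    (hY : Z.Y z w ≤ s) {P : Finset ℕ}
    (hcoin : ∀ r ∈ (upp (Z.cut i) w).primeFactors,
      ∀ q ∈ nc (cutT Z) δ Z.γ (Z.tt i w) P (upp (Z.cut i) w).primeFactors r,
        q ∈ free Z.N w ∧ Z.coin w q) :
    Bad (cutT Z) δ Z.γ (Z.tt i w) (2 * s) P (upp (Z.cut i) w).primeFactors := by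
  have h := bad_of_Y' hZ hθ hw hsq hi hz hs hY (P := P) (D := fun _ => ∅) (s' := 0)
    (fun r _ => by simp) (fun r hr q hq _ => hcoin r hr q hq)
  rwa [add_zero] at h

/-- first births after a node: `b1` = first birth `> i`, `b2` = first birth `> b1` -/
theorem wp_pz {i b2 w : ℕ} {z : Node} (hZ : Z.Ok) (h : z.1 ≤ i) :
    Z.Wp (Z.cut z.1) (Z.cut b2) w ≤ Z.Wp (Z.cut i) (Z.cut b2) w :=
  Wp_le (hZ.hcut h) le_rfl

end world

end Crest.Agent.R4C.GWbirthx33
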