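import Crest.Agent.R4C.GWhyp_656

/-!
# Row 4: `gwhyp` with two classes of positions (helper656)

`HypU'` : the position is determined by the word without the top `i` letters of `lo`, separately for
words where these are all letters of `lo` and for words where they are not (helper9's exception).
Conclusion: `∑_{S∈E} law P S ≤ 4 s + C(α) κ`.
-/

set_option autoImplicit false

namespace Crest.Agent.R4C.GWhBx656

open Finset Crest.Agent.R4C.GWhx656

/-- (U) in two classes -/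
def HypU' (E : Finset (Finset ℕ)) (r : Finset ℕ → ℕ) : Prop :=
  ∀ S ∈ E, ∀ S' ∈ E, ∀ T T' : Finset ℕ, IsTop T (lo r S) → IsTop T' (lo r S') → T.Nonempty →
    T.card = T'.card → (T = lo r S ↔ T' = lo r S') → S \ T = S' \ T' → r S = r S'

lemma HypK.anti {P : Finset ℕ} {E E' : Finset (Finset ℕ)} {r : Finset ℕ → ℕ} {y κ : ℝ}
    (hK : HypK P E r y κ) (h : E' ⊆ E) : HypK P E' r y κ := by
  intro S1 X hX
  refine (sum_le_sum_of_subset_of_nonneg ?_ fun ρ _ _ => by positivity).trans (hK S1 X hX)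
  intro ρ hρ
  rw [mem_cand] at hρ ⊢
  exact ⟨hρ.1, hρ.2.1, hρ.2.2.1, hρ.2.2.2.1, h hρ.2.2.2.2.1, hρ.2.2.2.2.2⟩

lemma levelK' {P : Finset ℕ} (hP : ∀ p ∈ P, p.Prime) {y κ : ℝ} (hy9 : 9 ≤ y)
    (hPy : ∀ p ∈ P, y ≤ (p : ℝ)) (hκ : 0 ≤ κ) {E : Finset (Finset ℕ)} (hE : ∀ S ∈ E, S ⊆ P)
    {r : Finset ℕ → ℕ} (hK : HypK P E r y κ) (Z : Finset ℕ → ℝ) {C1 : ℝ}
    (hC1 : 0 < C1)
    (hwd : ∀ (e X Z : ℝ) (W : Finset ℕ), 0 < e → e ≤ 1 → 9 ≤ X →
      e * Real.log Z ≤ Real.log X → (∀ p ∈ W, p.Prime ∧ X ≤ (p : ℝ) ∧ (p : ℝ) ≤ Z) →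
      ∑ p ∈ W, (1 : ℝ) / p ≤ 1 + C1 * (Real.log (1 / e) + 1))
    (e : ℝ) (he0 : 0 < e) (he1 : e ≤ 1) (k N : ℕ) (hN : 1 ≤ e * 2 ^ N)
    (Ek : Finset (Finset ℕ)) (hEk : Ek ⊆ E) (τ : Finset ℕ → Finset ℕ)
    (hU : ∀ S ∈ Ek, ∀ S' ∈ Ek, S \ τ S = S' \ τ S' → r S = r S')
    (hτ : ∀ S ∈ Ek, IsTop (τ S) (lo r S)) (hcard : ∀ S ∈ Ek, (τ S).card = k + 1)
    (hlow : ∀ S ∈ Ek, ∀ p ∈ τ S, e * Real.log (Z (up r S)) ≤ Real.log p)
    (hZ : ∀ S ∈ Ek, ∀ p ∈ lo r S, (p : ℝ) ≤ Z (up r S)) :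
    ∑ S ∈ Ek, law P S ≤ (2 * ((N + 1) * κ)) *
      ((2 * (1 + C1 * (Real.log (1 / e) + 1))) ^ k / (k.factorial : ℝ)) := by
  classical
  have hP2 : ∀ p ∈ P, 2 ≤ p := fun p hp => (hP p hp).two_le
  have hle : 0 ≤ Real.log (1 / e) := Real.log_nonneg (by rw [le_div_iff₀ he0]; linarith)
  set x : ℝ := 2 * (1 + C1 * (Real.log (1 / e) + 1)) with hx
  have hx0 : 0 ≤ x := by positivity
  refine level hP2 Ek (fun S hS => hE S (hEk hS)) τ
    (fun S hS => (hτ S hS).1.trans (filter_subset _ _)) _ fun S0 => ?_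
  set F := Ek.filter (fun S => S \ τ S = S0) with hF
  rcases F.eq_empty_or_nonempty with hFe | ⟨S1, hS1⟩
  · have : ∑ S ∈ F, ∏ p ∈ τ S, (1 / ((p : ℝ) - 1)) = 0 := by rw [hFe, sum_empty]
    rw [this]
    positivity
  · have hS1' := mem_filter.1 hS1
    have hne : ∀ S ∈ Ek, (τ S).Nonempty := fun S hS => by
      rw [← card_pos, hcard S hS]; omega
    have hup : ∀ S ∈ F, up r S = up r S1 := by
      intro S hS
      have hS' := mem_filter.1 hS
      have h1 : r S = r S1 := hU S hS'.1 S1 hS1'.1 (by rw [hS'.2, hS1'.2])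
      rw [up_eq (hτ S hS'.1).1, up_eq (hτ S1 hS1'.1).1, hS'.2, hS1'.2, h1]
    set Z0 := Z (up r S1) with hZ0
    obtain ⟨p1, hp1⟩ := hne S1 hS1'.1
    have hp1P : p1 ∈ P := hE S1 (hEk hS1'.1) (filter_subset _ _ ((hτ S1 hS1'.1).1 hp1))
    have hZ0p : (p1 : ℝ) ≤ Z0 := hZ S1 hS1'.1 p1 ((hτ S1 hS1'.1).1 hp1)
    have hZ09 : 9 ≤ Z0 := hy9.trans ((hPy p1 hp1P).trans hZ0p)
    have hlZ0 : 0 ≤ Real.log Z0 := Real.log_nonneg (by linarith)
    set X : ℝ := max y (Real.exp (e * Real.log Z0)) with hX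
    have hXy : y ≤ X := le_max_left _ _
    have hXe : Real.exp (e * Real.log Z0) ≤ X := le_max_right _ _
    have hXN : Z0 ≤ X ^ (2 ^ N) := by
      calc Z0 = Real.exp (Real.log Z0) := (Real.exp_log (by linarith)).symm
        _ ≤ Real.exp ((2 ^ N : ℕ) * (e * Real.log Z0)) := by
            rw [Real.exp_le_exp]
            push_cast
            nlinarith
        _ = (Real.exp (e * Real.log Z0)) ^ (2 ^ N) := by rw [Real.exp_nat_mul]
        _ ≤ X ^ (2 ^ N) := pow_le_pow_left₀ (Real.exp_pos _).le hXe _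
    have hfib := fibre hP2 hE (by linarith) hK τ k N X Z0 hXy hXN F
      ((filter_subset _ _).trans hEk) (fun S hS => hτ S (mem_filter.1 hS).1)
      (fun S hS => hcard S (mem_filter.1 hS).1) (fun S hS p hp => by
        have hS' := (mem_filter.1 hS).1
        have hpP : p ∈ P := hE S (hEk hS') (filter_subset _ _ ((hτ S hS').1 hp))
        have h1 := hlow S hS' p hp
        have h2 := hZ S hS' p ((hτ S hS').1 hp)
        rw [hup S hS, ← hZ0] at h1 h2
        refine ⟨max_le (hPy p hpP) ?_, h2⟩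
        have hp0 : (0 : ℝ) < p := by exact_mod_cast (hP p hpP).pos
        rw [← Real.exp_log hp0]
        exact Real.exp_le_exp.2 h1) S0 (fun S hS => (mem_filter.1 hS).2)
    refine hfib.trans (mul_le_mul_of_nonneg_left ?_ (by positivity))
    set W := P.filter fun p : ℕ => X ≤ (p : ℝ) ∧ (p : ℝ) ≤ Z0 with hW
    have hod : ∀ p ∈ W, 0 ≤ od p := fun p hp =>
      od_nonneg (by have := hP2 p (mem_filter.1 hp).1; omega)
    have h1 := esymm_le od k W hod
    have h2 : ∑ p ∈ W, od p ≤ x := by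
      calc ∑ p ∈ W, od p ≤ ∑ p ∈ W, 2 * (1 / (p : ℝ)) :=
            sum_le_sum fun p hp => od_le (hP2 p (mem_filter.1 hp).1)
        _ = 2 * ∑ p ∈ W, (1 : ℝ) / p := by rw [mul_sum]
        _ ≤ x := by
            rw [hx]
            refine mul_le_mul_of_nonneg_left ?_ zero_le_two
            refine hwd e X Z0 W he0 he1 (hy9.trans hXy) ?_ fun p hp =>
              ⟨hP p (mem_filter.1 hp).1, (mem_filter.1 hp).2⟩
            rw [← Real.log_exp (e * Real.log Z0)]
            exact Real.log_le_log (Real.exp_pos _) hXe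
    have h3 : (∑ p ∈ W, od p) ^ k ≤ x ^ k := pow_le_pow_left₀ (sum_nonneg hod) h2 _
    rw [le_div_iff₀ (by positivity), mul_comm]
    exact h1.trans h3

/-- (A1): the largest letter lies in the window `(Z, Y)` of small mass -/
lemma levelA1' {P : Finset ℕ} (hP : ∀ p ∈ P, p.Prime) {s : ℝ} (hs : 0 ≤ s)
    {E : Finset (Finset ℕ)} (hE : ∀ S ∈ E, S ⊆ P)
    {r : Finset ℕ → ℕ} (Z Y : Finset ℕ → ℝ)
    (E1 : Finset (Finset ℕ)) (hE1 : E1 ⊆ E)
    (hU : ∀ S ∈ E1, ∀ S' ∈ E1, ∀ ρ ρ' : ℕ, IsTop {ρ} (lo r S) → IsTop {ρ'} (lo r S') →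
      S \ {ρ} = S' \ {ρ'} → r S = r S')
    (h : ∀ S ∈ E1, (∃ ρ ∈ lo r S, (∀ q ∈ lo r S, q ≤ ρ) ∧ Z (up r S) < ρ ∧ (ρ : ℝ) < Y (up r S)) ∧
      ∑ p ∈ P.filter (fun p : ℕ => Z (up r S) < (p : ℝ) ∧ (p : ℝ) < Y (up r S)), (1 : ℝ) / p ≤ s) :
    ∑ S ∈ E1, law P S ≤ 2 * s := by
  classical
  have hP2 : ∀ p ∈ P, 2 ≤ p := fun p hp => (hP p hp).two_le
  choose! m hm1 hm2 hm3 hm4 using fun S hS => (h S hS).1
  have htop : ∀ S ∈ E1, IsTop {m S} (lo r S) := by
    intro S hS
    refine ⟨singleton_subset_iff.2 (hm1 S hS), fun p hp q hq => ?_⟩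
    rw [mem_singleton] at hp
    rw [mem_sdiff, mem_singleton] at hq
    subst hp
    exact lt_of_le_of_ne (hm2 S hS q hq.1) hq.2
  have hmS : ∀ S ∈ E1, m S ∈ S := fun S hS => filter_subset _ _ (hm1 S hS)
  refine level hP2 E1 (fun S hS => hE S (hE1 hS)) (fun S => {m S})
    (fun S hS => singleton_subset_iff.2 (hmS S hS)) _ fun S0 => ?_
  set F := E1.filter (fun S => S \ {m S} = S0) with hF
  rcases F.eq_empty_or_nonempty with hFe | ⟨S1, hS1⟩
  · have : ∑ S ∈ F, ∏ p ∈ ({m S} : Finset ℕ), (1 / ((p : ℝ) - 1)) = 0 := by rw [hFe, sum_empty]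
    rw [this]
    positivity
  · have hS1' := mem_filter.1 hS1
    have hup : ∀ S ∈ F, up r S = up r S1 := by
      intro S hS
      have hS' := mem_filter.1 hS
      have h1 : r S = r S1 := hU S hS'.1 S1 hS1'.1 (m S) (m S1) (htop S hS'.1) (htop S1 hS1'.1)
        (by rw [hS'.2, hS1'.2])
      rw [up_eq (htop S hS'.1).1, up_eq (htop S1 hS1'.1).1, hS'.2, hS1'.2, h1]
    have hrec : ∀ S ∈ F, insert (m S) S0 = S := by
      intro S hS
      have hS' := mem_filter.1 hS
      rw [← hS'.2, sdiff_singleton_eq_erase, insert_erase (hmS S hS'.1)]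
    have hinj : ∀ S ∈ F, ∀ S' ∈ F, m S = m S' → S = S' := by
      intro S hS S' hS' he
      rw [← hrec S hS, ← hrec S' hS', he]
    have hsub : F.image m ⊆ P.filter (fun p : ℕ => Z (up r S1) < (p : ℝ) ∧
        (p : ℝ) < Y (up r S1)) := by
      intro ρ hρ
      obtain ⟨S, hS, rfl⟩ := mem_image.1 hρ
      have hS' := (mem_filter.1 hS).1
      rw [mem_filter]
      have h1 := hm3 S hS'
      have h2 := hm4 S hS'
      rw [hup S hS] at h1 h2
      exact ⟨hE S (hE1 hS') (hmS S hS'), h1, h2⟩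
    calc ∑ S ∈ F, ∏ p ∈ ({m S} : Finset ℕ), (1 / ((p : ℝ) - 1))
        = ∑ S ∈ F, od (m S) := sum_congr rfl fun S _ => by rw [prod_singleton]; rfl
      _ = ∑ ρ ∈ F.image m, od ρ := (sum_image (f := od) hinj).symm
      _ ≤ ∑ ρ ∈ F.image m, 2 * (1 / (ρ : ℝ)) := by
          refine sum_le_sum fun ρ hρ => od_le ?_
          exact hP2 ρ (mem_filter.1 (hsub hρ)).1
      _ ≤ ∑ ρ ∈ P.filter (fun p : ℕ => Z (up r S1) < (p : ℝ) ∧ (p : ℝ) < Y (up r S1)),
          2 * (1 / (ρ : ℝ)) := sum_le_sum_of_subset_of_nonneg hsub fun _ _ _ => by positivity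
      _ ≤ 2 * s := by
          rw [← mul_sum]
          exact mul_le_mul_of_nonneg_left (h S1 hS1'.1).2 zero_le_two

/-- **natural-law bound behind the GW hypothesis** -/
theorem gwhyp' (α : ℝ) (hα : 0 < α) (hα1 : α ≤ 1) : ∃ C : ℝ, 0 < C ∧
    ∀ (P : Finset ℕ) (y s κ : ℝ) (E : Finset (Finset ℕ)) (r : Finset ℕ → ℕ)
      (Z Y : Finset ℕ → ℝ), 9 ≤ y → 0 ≤ s → 0 ≤ κ →
      (∀ p ∈ P, p.Prime) → (∀ p ∈ P, y ≤ (p : ℝ)) → (∀ S ∈ E, S ⊆ P) →
      HypU' E r → HypK P E r y κ →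
      (∀ S ∈ E, ((∃ ρ ∈ lo r S, (∀ q ∈ lo r S, q ≤ ρ) ∧ Z (up r S) < ρ ∧ (ρ : ℝ) < Y (up r S)) ∧
          ∑ p ∈ P.filter (fun p : ℕ => Z (up r S) < (p : ℝ) ∧ (p : ℝ) < Y (up r S)), (1 : ℝ) / p ≤ s) ∨
        ((lo r S).Nonempty ∧ (∀ q ∈ lo r S, (q : ℝ) ≤ Z (up r S)) ∧
          α * Real.log (Z (up r S)) ≤ ∑ q ∈ lo r S, Real.log q)) →
      ∑ S ∈ E, law P S ≤ 4 * s + C * κ := by
  classical
  obtain ⟨C1, hC1, hwd⟩ := window_sum
  set A1 : ℝ := 2 * C1 with hA1
  set ε : ℝ := 1 / (1 + 6 * A1) with hε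
  have hA1p : 0 < A1 := by positivity
  have hεp : 0 < ε := by positivity
  set q : ℝ := Real.exp (-ε) with hq
  have hq0 : 0 < q := Real.exp_pos _
  have hq1 : q < 1 := by rw [hq, Real.exp_lt_one_iff]; linarith
  set u : ℝ := 1 / (α * (1 - q)) with hu
  have hd0 : 0 < α * (1 - q) := mul_pos hα (by linarith)
  have hd1 : α * (1 - q) ≤ 1 := by nlinarith
  have hu1 : 1 ≤ u := by rw [hu, le_div_iff₀ hd0]; linarith
  set A0 : ℝ := 2 * (1 + C1 * (Real.log u + 1)) with hA0
  have hlu : 0 ≤ Real.log u := Real.log_nonneg hu1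
  have hA0p : 0 < A0 := by positivity
  set K0 : ℝ := 4 * u * Real.exp (6 * A0) with hK0
  refine ⟨4 * K0, by positivity, ?_⟩
  intro P y s κ E r Z Y hy hs hκ hP hPy hE hU hK hcase
  have hP2 : ∀ p ∈ P, 2 ≤ p := fun p hp => (hP p hp).two_le
  -- the two cases
  set E1 := E.filter (fun S => (∃ ρ ∈ lo r S, (∀ q ∈ lo r S, q ≤ ρ) ∧ Z (up r S) < ρ ∧
      (ρ : ℝ) < Y (up r S)) ∧
    ∑ p ∈ P.filter (fun p : ℕ => Z (up r S) < (p : ℝ) ∧ (p : ℝ) < Y (up r S)), (1 : ℝ) / p ≤ s) with hE1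
  set E2 := E.filter (fun S => ((lo r S).Nonempty ∧ (∀ q ∈ lo r S, (q : ℝ) ≤ Z (up r S)) ∧
          α * Real.log (Z (up r S)) ≤ ∑ q ∈ lo r S, Real.log q)) with hE2
  have hlaw0 : ∀ S, 0 ≤ law P S := fun S =>
    law_nonneg fun p hp => by have := hP2 p hp; omega
  have hcover : E ⊆ E1 ∪ E2 := by
    intro S hS
    rw [mem_union, mem_filter, mem_filter]
    rcases hcase S hS with h | h
    · exact Or.inl ⟨hS, h⟩
    · exact Or.inr ⟨hS, h⟩
  have hb1 : ∑ S ∈ E1, law P S ≤ 4 * s := by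
    have hsplit := sum_filter_add_sum_filter_not E1 (fun S => (lo r S).card = 1) (fun S => law P S)
    have ha : ∑ S ∈ E1.filter (fun S => (lo r S).card = 1), law P S ≤ 2 * s := by
      refine levelA1' hP hs hE Z Y _ ((filter_subset _ _).trans (filter_subset _ _)) ?_
        fun S hS => (mem_filter.1 (mem_filter.1 hS).1).2
      intro S hS S' hS' ρ ρ' h1 h2 h3
      obtain ⟨h4, h5⟩ := mem_filter.1 hS
      obtain ⟨h4', h5'⟩ := mem_filter.1 hS'
      refine hU S (mem_filter.1 h4).1 S' (mem_filter.1 h4').1 {ρ} {ρ'} h1 h2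
        (singleton_nonempty _) (by rw [card_singleton, card_singleton]) ?_ h3
      have e1 : ({ρ} : Finset ℕ) = lo r S :=
        eq_of_subset_of_card_le h1.1 (by rw [h5, card_singleton])
      have e2 : ({ρ'} : Finset ℕ) = lo r S' :=
        eq_of_subset_of_card_le h2.1 (by rw [h5', card_singleton])
      exact ⟨fun _ => e2, fun _ => e1⟩
    have hb : ∑ S ∈ E1.filter (fun S => ¬ (lo r S).card = 1), law P S ≤ 2 * s := by
      refine levelA1' hP hs hE Z Y _ ((filter_subset _ _).trans (filter_subset _ _)) ?_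
        fun S hS => (mem_filter.1 (mem_filter.1 hS).1).2
      intro S hS S' hS' ρ ρ' h1 h2 h3
      obtain ⟨h4, h5⟩ := mem_filter.1 hS
      obtain ⟨h4', h5'⟩ := mem_filter.1 hS'
      refine hU S (mem_filter.1 h4).1 S' (mem_filter.1 h4').1 {ρ} {ρ'} h1 h2
        (singleton_nonempty _) (by rw [card_singleton, card_singleton]) ?_ h3
      constructor
      · intro h
        exact absurd (by rw [← h, card_singleton]) h5
      · intro h
        exact absurd (by rw [← h, card_singleton]) h5'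
    linarith
  -- (A2)
  have htop : ∀ S ∈ E2, ∃ T, IsTop T (lo r S) ∧ T.Nonempty ∧
      ∀ p ∈ T, α * (1 - q) * q ^ (T.card - 1) * Real.log (Z (up r S)) ≤ Real.log p := by
    intro S hS
    obtain ⟨hSE, h1, h2, h3⟩ := mem_filter.1 hS
    exact exists_top hα hq0 hq1 (lo r S)
      (fun p hp => hP2 p (hE S hSE (filter_subset _ _ hp))) h1 h2 h3
  choose! τ hτ1 hτ2 hτ3 using htop
  have hmaps : ∀ S ∈ E2, (τ S).card - 1 ∈ range (P.card + 1) := by
    intro S hS
    have h1 := (mem_filter.1 hS).1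
    have h2 : τ S ⊆ P := (hτ1 S hS).1.trans ((filter_subset _ _).trans (hE S h1))
    have h3 := card_le_card h2
    rw [mem_range]
    omega
  have hb2 : ∑ S ∈ E2, law P S ≤ 4 * K0 * κ := by
    rw [← sum_fiberwise_of_maps_to hmaps]
    have hk : ∀ k ∈ range (P.card + 1), ∑ S ∈ E2 with (τ S).card - 1 = k, law P S ≤
        2 * (K0 * κ * (1 / 2) ^ k) := by
      intro k _
      set e : ℝ := α * (1 - q) * q ^ k with he
      have hqk : 0 < q ^ k := pow_pos hq0 _
      have hqk1 : q ^ k ≤ 1 := pow_le_one₀ hq0.le hq1.le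
      have he0 : 0 < e := by positivity
      have he1 : e ≤ 1 := by
        rw [he]
        calc α * (1 - q) * q ^ k ≤ 1 * 1 := mul_le_mul hd1 hqk1 hqk.le zero_le_one
          _ = 1 := one_mul 1
      have hinve : 1 / e = u * Real.exp (ε * k) := by
        have h1 : q ^ k = (Real.exp (ε * k))⁻¹ := by
          rw [hq, ← Real.exp_nat_mul, ← Real.exp_neg]
          congr 1
          ring
        rw [he, h1, hu, one_div, mul_inv, inv_inv, one_div]
      have hle : Real.log (1 / e) = Real.log u + ε * k := by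
        have : 1 / e = u * Real.exp (ε * k) := hinve
        rw [this, Real.log_mul (by positivity) (Real.exp_pos _).ne', Real.log_exp]
      have hinv1 : 1 ≤ 1 / e := by rw [le_div_iff₀ he0]; linarith
      set N : ℕ := ⌈Real.log (1 / e) / Real.log 2⌉₊ with hN
      have hl2 : 0 < Real.log 2 := Real.log_pos (by norm_num)
      have hl2' : 1 / 2 ≤ Real.log 2 := by linarith [Real.log_two_gt_d9]
      have hNle : Real.log (1 / e) ≤ N * Real.log 2 := by
        have := Nat.le_ceil (Real.log (1 / e) / Real.log 2)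
        rwa [div_le_iff₀ hl2] at this
      have hN1 : 1 ≤ e * 2 ^ N := by
        have h1 : 1 / e ≤ 2 ^ N := by
          rw [← Real.log_le_log_iff (by positivity) (by positivity), Real.log_pow]
          exact hNle
        rw [div_le_iff₀ he0] at h1
        linarith
      have hN2 : (N : ℝ) + 1 ≤ 2 * (1 / e) := by
        have h1 : (N : ℝ) < Real.log (1 / e) / Real.log 2 + 1 :=
          Nat.ceil_lt_add_one (div_nonneg (Real.log_nonneg hinv1) hl2.le)
        have h2 : Real.log (1 / e) / Real.log 2 ≤ 2 * Real.log (1 / e) := by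
          rw [div_le_iff₀ hl2]
          nlinarith [Real.log_nonneg hinv1]
        have h3 : Real.log (1 / e) ≤ 1 / e - 1 := Real.log_le_sub_one_of_pos (by positivity)
        linarith
      have hlvg : ∀ (Q : Finset ℕ → Prop) (_ : DecidablePred Q), (∀ S ∈ E2, ∀ S' ∈ E2, Q S → Q S' →
          (τ S).card - 1 = k → (τ S').card - 1 = k → (τ S = lo r S ↔ τ S' = lo r S')) →
          ∑ S ∈ (E2.filter (fun S => (τ S).card - 1 = k)).filter Q, law P S ≤
          (2 * ((N + 1) * κ)) *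
          ((2 * (1 + C1 * (Real.log (1 / e) + 1))) ^ k / (k.factorial : ℝ)) := by
        intro Q _ hQ
        refine levelK' hP hy hPy hκ hE hK Z hC1 hwd e he0 he1 k N hN1
          ((E2.filter (fun S => (τ S).card - 1 = k)).filter Q)
          ((filter_subset _ _).trans ((filter_subset _ _).trans (filter_subset _ _))) τ
          ?_
          (fun S hS => hτ1 S (mem_filter.1 (mem_filter.1 hS).1).1)
          (fun S hS => by
            obtain ⟨h1, h2⟩ := mem_filter.1 (mem_filter.1 hS).1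
            have h3 := card_pos.2 (hτ2 S h1)
            omega)
          (fun S hS p hp => by
            obtain ⟨h1, h2⟩ := mem_filter.1 (mem_filter.1 hS).1
            have h3 := hτ3 S h1 p hp
            rwa [h2] at h3)
          (fun S hS => (mem_filter.1 (mem_filter.1 (mem_filter.1 hS).1).1).2.2.1)
        intro S hS S' hS' h
        obtain ⟨h1, h2⟩ := mem_filter.1 (mem_filter.1 hS).1
        obtain ⟨h1', h2'⟩ := mem_filter.1 (mem_filter.1 hS').1
        have h3 := card_pos.2 (hτ2 S h1)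
        have h3' := card_pos.2 (hτ2 S' h1')
        exact hU S (mem_filter.1 h1).1 S' (mem_filter.1 h1').1 (τ S) (τ S') (hτ1 S h1)
          (hτ1 S' h1') (hτ2 S h1) (by omega)
          (hQ S h1 S' h1' (mem_filter.1 hS).2 (mem_filter.1 hS').2 h2 h2') h
      have hlv : ∑ S ∈ E2 with (τ S).card - 1 = k, law P S ≤ 2 * ((2 * ((N + 1) * κ)) *
          ((2 * (1 + C1 * (Real.log (1 / e) + 1))) ^ k / (k.factorial : ℝ))) := by
        have h1 := hlvg (fun S => τ S = lo r S) inferInstance (fun S _ S' _ h h' _ _ => ⟨fun _ => h', fun _ => h⟩)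
        have h2 := hlvg (fun S => ¬ τ S = lo r S) inferInstance
          (fun S _ S' _ h h' _ _ => ⟨fun h3 => absurd h3 h, fun h3 => absurd h3 h'⟩)
        have h3 := sum_filter_add_sum_filter_not (E2.filter (fun S => (τ S).card - 1 = k))
          (fun S => τ S = lo r S) (fun S => law P S)
        rw [← h3, two_mul]
        exact add_le_add h1 h2
      refine hlv.trans ?_
      set x : ℝ := 2 * (1 + C1 * (Real.log (1 / e) + 1)) with hx
      have hxe : x = A0 + A1 * (ε * k) := by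
        rw [hx, hle, hA0, hA1]; ring
      have hx0 : 0 ≤ x := by
        have := Real.log_nonneg hinv1
        positivity
      have h1 : x ^ k / (k.factorial : ℝ) ≤ (1 / 6) ^ k * Real.exp (6 * x) := by
        have h2 := Real.pow_div_factorial_le_exp (6 * x) (by positivity) k
        rw [mul_pow] at h2
        have h3 : x ^ k / (k.factorial : ℝ) = (1 / 6) ^ k * (6 ^ k * x ^ k / (k.factorial : ℝ)) := by
          rw [div_pow, one_pow]
          field_simp
        rw [h3]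
        exact mul_le_mul_of_nonneg_left h2 (by positivity)
      have h4 : 1 / e = u * Real.exp (ε * k) := hinve
      have h5 : Real.exp (6 * x) * Real.exp (ε * k) = Real.exp (6 * A0) * Real.exp 1 ^ k := by
        rw [← Real.exp_nat_mul, ← Real.exp_add, ← Real.exp_add]
        congr 1
        rw [hxe]
        have : ε * (1 + 6 * A1) = 1 := by rw [hε]; field_simp
        linear_combination (k : ℝ) * this
      have h6 : (1 / 6 : ℝ) ^ k * Real.exp 1 ^ k ≤ (1 / 2) ^ k := by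
        rw [← mul_pow]
        refine pow_le_pow_left₀ (by positivity) ?_ _
        have := Real.exp_one_lt_d9
        linarith
      calc 2 * (2 * ((↑N + 1) * κ) * (x ^ k / (k.factorial : ℝ)))
          ≤ 2 * (2 * ((2 * (1 / e)) * κ) * ((1 / 6) ^ k * Real.exp (6 * x))) := by
            refine mul_le_mul_of_nonneg_left ?_ zero_le_two
            refine mul_le_mul ?_ h1 (by positivity) (by positivity)
            have := mul_le_mul_of_nonneg_right hN2 hκ
            linarith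
        _ = 2 * (4 * u * κ * ((1 / 6) ^ k * (Real.exp (6 * x) * Real.exp (ε * k)))) := by
            rw [h4]; ring
        _ = 2 * (K0 * κ * ((1 / 6) ^ k * Real.exp 1 ^ k)) := by
            rw [h5, hK0]; ring
        _ ≤ 2 * (K0 * κ * (1 / 2) ^ k) := mul_le_mul_of_nonneg_left
            (mul_le_mul_of_nonneg_left h6 (by positivity)) zero_le_two
    calc ∑ k ∈ range (P.card + 1), ∑ S ∈ E2 with (τ S).card - 1 = k, law P S
        ≤ ∑ k ∈ range (P.card + 1), 2 * (K0 * κ * (1 / 2) ^ k) := sum_le_sum hk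
      _ = 2 * K0 * κ * ∑ k ∈ range (P.card + 1), (1 / 2 : ℝ) ^ k := by
          rw [mul_sum]
          exact sum_congr rfl fun k _ => by ring
      _ ≤ 2 * K0 * κ * 2 := by
          refine mul_le_mul_of_nonneg_left ?_ (by positivity)
          have h := geom_sum_eq (x := (1 / 2 : ℝ)) (by norm_num) (P.card + 1)
          rw [h]
          have h2 : (0 : ℝ) < (1 / 2) ^ (P.card + 1) := by positivity
          rw [div_le_iff_of_neg (by norm_num)]
          linarith
      _ = 4 * K0 * κ := by ring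
  calc ∑ S ∈ E, law P S ≤ ∑ S ∈ E1 ∪ E2, law P S :=
        sum_le_sum_of_subset_of_nonneg hcover fun S _ _ => hlaw0 S
    _ ≤ ∑ S ∈ E1, law P S + ∑ S ∈ E2, law P S := by
        rw [← sum_union_inter]
        exact le_add_of_nonneg_right (sum_nonneg fun S _ => hlaw0 S)
    _ ≤ 4 * s + 4 * K0 * κ := add_le_add hb1 hb2


end Crest.Agent.R4C.GWhBx656
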