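import Crest.Agent.R4C.NHdef_656
import Crest.Agent.R4C.GWhypB_656

/-!
# Row 4, block NH (3)(U): uniqueness of the position (helper656)
-/

set_option autoImplicit false

namespace Crest.Agent.R4C.NHx656

open Finset Crest.Agent.R4C.GWhx656 Crest.Agent.R4C.GWhBx656

variable {δ γ t : ℝ} {S S' T T' : Finset ℕ}

/-- the run exists at the first letter and is lost later -/
def Run (δ γ t : ℝ) (S : Finset ℕ) : Prop :=
  S.Nonempty ∧ On (K1 δ S) (pt γ S (mn S)) (sc t S (mn S)) ∧ Lost δ γ t S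

lemma Run.lt (h : Run δ γ t S) : mn S < ps δ γ t S := by
  obtain ⟨h1, h2, h3⟩ := h
  obtain ⟨h4, h5⟩ := ps_spec h3
  refine lt_of_le_of_ne (mn_le h4) fun he => ?_
  rw [← he] at h5
  exact h5 h2

lemma Run.mn_mem_lo (h : Run δ γ t S) : mn S ∈ lo (ps δ γ t) S :=
  mem_filter.2 ⟨mn_mem h.1, h.lt⟩

lemma mn_not_mem_top (h : Run δ γ t S) (hT : IsTop T (lo (ps δ γ t) S))
    (hp : T ≠ lo (ps δ γ t) S) : mn S ∉ T := by
  intro hm
  apply hp
  refine Subset.antisymm hT.1 fun q hq => ?_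
  by_contra hqT
  have h1 := hT.2 (mn S) hm q (mem_sdiff.2 ⟨hq, hqT⟩)
  have h2 := mn_le (mem_filter.1 hq).1
  omega

lemma mn_eq (h : Run δ γ t S) (h' : Run δ γ t S') (hT : IsTop T (lo (ps δ γ t) S))
    (hT' : IsTop T' (lo (ps δ γ t) S')) (hp : T ≠ lo (ps δ γ t) S)
    (hp' : T' ≠ lo (ps δ γ t) S') (he : S \ T = S' \ T') : mn S = mn S' := by
  have h1 : mn S ∈ S \ T := mem_sdiff.2 ⟨mn_mem h.1, mn_not_mem_top h hT hp⟩
  have h2 : mn S' ∈ S' \ T' := mem_sdiff.2 ⟨mn_mem h'.1, mn_not_mem_top h' hT' hp'⟩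
  have h3 : mn S' ≤ mn S := mn_le (mem_sdiff.1 (he ▸ h1)).1
  have h4 : mn S ≤ mn S' := mn_le (mem_sdiff.1 (he ▸ h2)).1
  omega

/-- one direction of uniqueness, proper top segments -/
lemma U_aux (ht : 0 ≤ t) (h : Run δ γ t S) (h' : Run δ γ t S')
    (hT : IsTop T (lo (ps δ γ t) S)) (hT' : IsTop T' (lo (ps δ γ t) S'))
    (hp : T ≠ lo (ps δ γ t) S) (hp' : T' ≠ lo (ps δ γ t) S') (hc : T.card = T'.card)
    (he : S \ T = S' \ T') : ¬ ps δ γ t S < ps δ γ t S' := by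
  intro hlt
  set p := ps δ γ t S with hpdef
  set p' := ps δ γ t S' with hpdef'
  obtain ⟨hpS, hnon⟩ := ps_spec h.2.2
  rw [← hpdef] at hpS hnon
  have hTp : ∀ x ∈ T, x < p := fun x hx => (mem_filter.1 (hT.1 hx)).2
  have hTp' : ∀ x ∈ T', x < p' := fun x hx => (mem_filter.1 (hT'.1 hx)).2
  have hpT : p ∉ T := fun hx => lt_irrefl _ (hTp p hx)
  have hpS' : p ∈ S' \ T' := he ▸ mem_sdiff.2 ⟨hpS, hpT⟩
  have hplo' : p ∈ lo (ps δ γ t) S' := mem_filter.2 ⟨(mem_sdiff.1 hpS').1, hlt⟩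
  have hT'gt : ∀ x ∈ T', p < x := fun x hx =>
    hT'.2 x hx p (mem_sdiff.2 ⟨hplo', (mem_sdiff.1 hpS').2⟩)
  have hK : K1 δ S = K1 δ S' := by
    unfold K1
    rw [mn_eq h h' hT hT' hp hp' he]
  -- the last letters below `p'`
  have hA : (S.filter (· < p')).Nonempty := ⟨p, mem_filter.2 ⟨hpS, hlt⟩⟩
  have hB : (S'.filter (· < p')).Nonempty := ⟨p, mem_filter.2 ⟨(mem_sdiff.1 hpS').1, hlt⟩⟩
  set r := (S.filter (· < p')).max' hA with hr
  set r' := (S'.filter (· < p')).max' hB with hr'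
  have hrm := mem_filter.1 (max'_mem _ hA)
  have hrm' := mem_filter.1 (max'_mem _ hB)
  rw [← hr] at hrm
  rw [← hr'] at hrm'
  have hpr : p ≤ r := le_max' _ _ (mem_filter.2 ⟨hpS, hlt⟩)
  have hon' := on_of_lt_ps hrm'.1 hrm'.2
  -- letters `≥ p'` agree
  have e1 : S'.filter (r' < ·) = S'.filter (p' ≤ ·) := by
    ext x
    simp only [mem_filter]
    constructor
    · rintro ⟨h1, h2⟩
      refine ⟨h1, ?_⟩
      by_contra h3
      have := le_max' _ _ (mem_filter.2 ⟨h1, not_le.1 h3⟩ : x ∈ S'.filter (· < p'))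
      rw [← hr'] at this
      omega
    · rintro ⟨h1, h2⟩
      exact ⟨h1, lt_of_lt_of_le hrm'.2 h2⟩
  have e2 : S.filter (r < ·) = S.filter (p' ≤ ·) := by
    ext x
    simp only [mem_filter]
    constructor
    · rintro ⟨h1, h2⟩
      refine ⟨h1, ?_⟩
      by_contra h3
      have := le_max' _ _ (mem_filter.2 ⟨h1, not_le.1 h3⟩ : x ∈ S.filter (· < p'))
      rw [← hr] at this
      omega
    · rintro ⟨h1, h2⟩
      exact ⟨h1, lt_of_lt_of_le hrm.2 h2⟩
  have e3 : S.filter (p' ≤ ·) = S'.filter (p' ≤ ·) := by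
    ext x
    simp only [mem_filter]
    constructor
    · rintro ⟨h1, h2⟩
      have h3 : x ∉ T := fun hx => by have := hTp x hx; omega
      exact ⟨(mem_sdiff.1 (he ▸ mem_sdiff.2 ⟨h1, h3⟩)).1, h2⟩
    · rintro ⟨h1, h2⟩
      have h3 : x ∉ T' := fun hx => by have := hTp' x hx; omega
      exact ⟨(mem_sdiff.1 (he ▸ mem_sdiff.2 ⟨h1, h3⟩ : x ∈ S \ T)).1, h2⟩
  have hpt : pt γ S r = pt γ S' r' := by
    unfold pt
    rw [e2, e3, e1]
  -- the products below `p'`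
  have f1 : S.filter (· ≤ r) = (S \ T).filter (· < p') ∪ T := by
    ext x
    simp only [mem_filter, mem_union, mem_sdiff]
    constructor
    · rintro ⟨h1, h2⟩
      by_cases h3 : x ∈ T
      · exact Or.inr h3
      · exact Or.inl ⟨⟨h1, h3⟩, lt_of_le_of_lt h2 hrm.2⟩
    · rintro (⟨⟨h1, _⟩, h2⟩ | h1)
      · exact ⟨h1, le_max' _ _ (mem_filter.2 ⟨h1, h2⟩)⟩
      · have hxp : x < p' := (hTp x h1).trans hlt
        exact ⟨(mem_filter.1 (hT.1 h1)).1, le_max' _ _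
          (mem_filter.2 ⟨(mem_filter.1 (hT.1 h1)).1, hxp⟩)⟩
  have f2 : S'.filter (· ≤ r') = (S \ T).filter (· < p') ∪ T' := by
    rw [he]
    ext x
    simp only [mem_filter, mem_union, mem_sdiff]
    constructor
    · rintro ⟨h1, h2⟩
      by_cases h3 : x ∈ T'
      · exact Or.inr h3
      · exact Or.inl ⟨⟨h1, h3⟩, lt_of_le_of_lt h2 hrm'.2⟩
    · rintro (⟨⟨h1, _⟩, h2⟩ | h1)
      · exact ⟨h1, le_max' _ _ (mem_filter.2 ⟨h1, h2⟩)⟩
      · exact ⟨(mem_filter.1 (hT'.1 h1)).1, le_max' _ _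
          (mem_filter.2 ⟨(mem_filter.1 (hT'.1 h1)).1, hTp' x h1⟩)⟩
  have d1 : Disjoint ((S \ T).filter (· < p')) T := by
    rw [disjoint_left]
    intro x h1 h2
    exact (mem_sdiff.1 (mem_filter.1 h1).1).2 h2
  have d2 : Disjoint ((S \ T).filter (· < p')) T' := by
    rw [he, disjoint_left]
    intro x h1 h2
    exact (mem_sdiff.1 (mem_filter.1 h1).1).2 h2
  have hprod : ∏ x ∈ T, x ≤ ∏ x ∈ T', x := by
    calc ∏ x ∈ T, x ≤ p ^ T.card := prod_le_pow_card _ _ _ fun x hx => (hTp x hx).le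
      _ = p ^ T'.card := by rw [hc]
      _ ≤ ∏ x ∈ T', x := pow_card_le_prod _ _ _ fun x hx => (hT'gt x hx).le
  have hsc : sc t S r ≤ sc t S' r' := by
    unfold sc
    rw [f1, f2, prod_union d1, prod_union d2]
    refine mul_le_mul_of_nonneg_left ?_ ht
    exact_mod_cast Nat.mul_le_mul_left _ hprod
  have hon : On (K1 δ S) (pt γ S r) (sc t S r) := by
    rw [hK, hpt]
    exact hon'.anti hsc
  exact hnon (on_down hpr hon)

/-- **(U)** for any family of runs -/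
theorem hypU (ht : 0 ≤ t) (E : Finset (Finset ℕ)) (hE : ∀ S ∈ E, Run δ γ t S) :
    HypU' E (ps δ γ t) := by
  intro S hS S' hS' T T' hT hT' hne hc hiff he
  have h := hE S hS
  have h' := hE S' hS'
  by_cases hp : T = lo (ps δ γ t) S
  · have hp' := hiff.1 hp
    -- the position is the smallest letter of the remainder
    have key : ∀ {S T : Finset ℕ}, Run δ γ t S → T = lo (ps δ γ t) S →
        ps δ γ t S ∈ S \ T ∧ ∀ x ∈ S \ T, ps δ γ t S ≤ x := by
      intro S T h hp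
      subst hp
      refine ⟨mem_sdiff.2 ⟨(ps_spec h.2.2).1, fun hx => lt_irrefl _ (mem_filter.1 hx).2⟩, ?_⟩
      intro x hx
      by_contra h3
      exact (mem_sdiff.1 hx).2 (mem_filter.2 ⟨(mem_sdiff.1 hx).1, not_le.1 h3⟩)
    obtain ⟨k1, k2⟩ := key h hp
    obtain ⟨k1', k2'⟩ := key h' hp'
    have := k2 _ (he ▸ k1')
    have := k2' _ (he ▸ k1)
    omega
  · have hp' : T' ≠ lo (ps δ γ t) S' := fun h => hp (hiff.2 h)
    have h1 := U_aux ht h h' hT hT' hp hp' hc he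
    have h2 := U_aux ht h' h hT' hT hp' hp hc.symm he.symm
    omega

end Crest.Agent.R4C.NHx656
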