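import Crest.Agent.R4C.GWdef_982
import Crest.Agent.R4C.NHU_656

/-!
# Row 4, GW section, leaf (F5)(a) of 982's skeleton (note 3976): combinatorics of the births (helper516)

World `Z` of `GWdef_982`, `w` a word with node index `i`, `t = Z.tt i w`,
`S = (upp (cut i) w).primeFactors` (squarefree above the cut), `P` = the primes `> cut i` of `N`,
`cutR τ = cut (log₂ ⌊τ⌋)`.

* `swallow` : a later node contains the first letter `mn S`, and `mn S ≤ 2^j`;
* `not_birth` : a node which is not the next node and at which the run threshold `K1 δ S` holds is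
  not a birth;
* `bad_of_Y` : if the loss `Y z w` up to the second next birth is `≤ s ≤ 1/2` then `S` is a bad word of
  block NH (`NHx656.Bad cutR δ γ t (2 s) P S`), provided the nominal coins are coins.
-/

set_option autoImplicit false

open Finset
open Crest.Agent.R4C.Basex935 Crest.Agent.R4C.Cutx50 Crest.Agent.R4C.PrefixMx882
open Crest.Agent.R4C.NHx656 Crest.Agent.R4C.GWdefx982

namespace Crest.Agent.R4C.GWbirthx516

/-! ### words above a cut -/

lemma pf_upp (y u : ℕ) : (upp y u).primeFactors = u.primeFactors.filter (y < ·) := by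
  ext p
  rw [← Nat.support_factorization, Finsupp.mem_support_iff, fact_upp, mem_filter,
    ← Nat.support_factorization, Finsupp.mem_support_iff]
  by_cases h : p ≤ y
  · have : ¬ y < p := by omega
    simp [h, this]
  · have : y < p := by omega
    simp [h, this]

lemma upp_sq {y u : ℕ} (hsq : Squarefree u) : upp y u = ∏ p ∈ u.primeFactors.filter (y < ·), p := by
  have h1 : Squarefree (upp y u) := hsq.squarefree_of_dvd (upp_dvd_self y u)
  rw [← Nat.prod_primeFactors_of_squarefree h1, pf_upp]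

variable {x y w : ℕ}

lemma upp_cut (hsq : Squarefree (upp x w)) (hxy : x ≤ y) :
    upp y w = ∏ p ∈ (upp x w).primeFactors.filter (y < ·), p := by
  rw [← upp_upp hxy, upp_sq hsq]

lemma low_cut (hw : w ≠ 0) (hsq : Squarefree (upp x w)) (hxy : x ≤ y) :
    low y w = low x w * ∏ p ∈ (upp x w).primeFactors.filter (· ≤ y), p := by
  have h1 := low_mul_upp x hw
  have h2 := low_mul_upp y hw
  have h3 : upp x w = (∏ p ∈ (upp x w).primeFactors.filter (· ≤ y), p) * upp y w := by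
    rw [upp_cut hsq hxy]
    conv_lhs => rw [← Nat.prod_primeFactors_of_squarefree hsq]
    rw [← prod_filter_mul_prod_filter_not (upp x w).primeFactors (fun p => p ≤ y)]
    congr 1
    refine prod_congr ?_ fun _ _ => rfl
    ext p
    simp only [mem_filter, not_le]
  have h4 : 0 < upp y w := upp_pos _ _
  have h5 : low y w * upp y w = low x w *
      (∏ p ∈ (upp x w).primeFactors.filter (· ≤ y), p) * upp y w := by
    rw [h2, mul_assoc, ← h3, h1]
  exact Nat.eq_of_mul_eq_mul_right h4 h5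

/-! ### coins -/

lemma prod_to_sum {F : Finset ℕ} (hF : ∀ q ∈ F, 2 ≤ q) {s : ℝ} (hs : s ≤ 1 / 2)
    (h : 1 - s ≤ ∏ q ∈ F, (1 - 1 / (q : ℝ))) : ∑ q ∈ F, (1 : ℝ) / q ≤ 2 * s := by
  have h1 : ∏ q ∈ F, (1 - 1 / (q : ℝ)) ≤ Real.exp (-∑ q ∈ F, (1 : ℝ) / q) := by
    rw [← sum_neg_distrib, Real.exp_sum]
    refine prod_le_prod (fun q hq => ?_) fun q _ => ?_
    · have h2 : (2 : ℝ) ≤ q := by exact_mod_cast hF q hq
      have h3 : 1 / (q : ℝ) ≤ 1 := by rw [div_le_one (by linarith)]; linarith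
      linarith
    · have := Real.add_one_le_exp (-((1 : ℝ) / q))
      linarith
  have h2 : 0 < 1 - s := by linarith
  have h3 := Real.log_le_log h2 (h.trans h1)
  rw [Real.log_exp] at h3
  have h4 := Real.one_sub_inv_le_log_of_pos h2
  have h5 : (1 - s)⁻¹ - 1 ≤ 2 * s := by
    have hs0 : 0 ≤ s := by
      have h6 : ∏ q ∈ F, (1 - 1 / (q : ℝ)) ≤ 1 := by
        refine prod_le_one (fun q hq => ?_) fun q _ => ?_
        · have h2 : (2 : ℝ) ≤ q := by exact_mod_cast hF q hq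
          have h3 : 1 / (q : ℝ) ≤ 1 := by rw [div_le_one (by linarith)]; linarith
          linarith
        · have : (0 : ℝ) ≤ 1 / q := by positivity
          linarith
      linarith
    have h6 : (1 - s)⁻¹ ≤ 1 + 2 * s := by
      rw [inv_le_comm₀ h2 (by linarith), inv_le_iff_one_le_mul₀ (by linarith)]
      nlinarith
    linarith
  linarith

lemma prod_mono_sub {F G : Finset ℕ} (h : F ⊆ G) :
    ∏ q ∈ G, (1 - 1 / (q : ℝ)) ≤ ∏ q ∈ F, (1 - 1 / (q : ℝ)) := by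
  rw [← prod_sdiff h]
  have h1 : 0 ≤ ∏ q ∈ F, (1 - 1 / (q : ℝ)) := prod_nonneg fun q _ => one_sub_nonneg q
  have h2 : ∏ q ∈ G \ F, (1 - 1 / (q : ℝ)) ≤ 1 :=
    prod_le_one (fun q _ => one_sub_nonneg q) fun q _ => one_sub_le_one q
  exact mul_le_of_le_one_left h1 h2

/-! ### the real cut -/

/-- index of a real scale -/
noncomputable def lv (τ : ℝ) : ℕ := Nat.log 2 ⌊τ⌋₊

/-- cut of a real scale -/
noncomputable def cutR (cut : ℕ → ℕ) (τ : ℝ) : ℝ := (cut (lv τ) : ℝ)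

lemma lv_le {τ : ℝ} (h : 1 ≤ τ) : (2 : ℝ) ^ lv τ ≤ τ := by
  have h1 : ⌊τ⌋₊ ≠ 0 := by
    have := Nat.le_floor (n := 1) (a := τ) (by simpa using h)
    omega
  have h2 : 2 ^ lv τ ≤ ⌊τ⌋₊ := Nat.pow_log_le_self 2 h1
  calc (2 : ℝ) ^ lv τ ≤ (⌊τ⌋₊ : ℝ) := by exact_mod_cast h2
    _ ≤ τ := Nat.floor_le (by linarith)

lemma lt_lv (τ : ℝ) : τ < (2 : ℝ) ^ (lv τ + 1) := by
  have h2 : ⌊τ⌋₊ < 2 ^ (lv τ + 1) := Nat.lt_pow_succ_log_self (by norm_num) _
  calc τ < (⌊τ⌋₊ : ℝ) + 1 := Nat.lt_floor_add_one τ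
    _ ≤ (2 : ℝ) ^ (lv τ + 1) := by exact_mod_cast h2

/-! ### the world -/

section world

variable {Z : World} {i j : ℕ}

lemma tt_cut (hw : w ≠ 0) (hcut : Monotone Z.cut) (hsq : Squarefree (upp (Z.cut i) w))
    (hij : i ≤ j) : Z.tt j w = Z.tt i w *
      ((∏ p ∈ (upp (Z.cut i) w).primeFactors.filter (· ≤ Z.cut j), p : ℕ) : ℝ) := by
  unfold World.tt World.e
  rw [low_cut hw hsq (hcut hij)]
  push_cast
  ring

lemma yy_cut (hcut : Monotone Z.cut) (hsq : Squarefree (upp (Z.cut i) w)) (hij : i ≤ j) :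
    Z.yy j w = ((∏ p ∈ (upp (Z.cut i) w).primeFactors.filter (Z.cut j < ·), p : ℕ) : ℝ) * Z.γ := by
  unfold World.yy
  rw [upp_cut hsq (hcut hij)]

lemma tt_ge (hZ : Z.Ok) (h : Z.nd i w) : (2 : ℝ) ^ i ≤ Z.tt i w := by
  unfold World.tt
  rw [le_div_iff₀ hZ.hL]
  exact h.2.1

lemma tt_lt (hZ : Z.Ok) (h : Z.nd i w) : Z.tt i w < (2 : ℝ) ^ (i + 1) := by
  unfold World.tt
  rw [div_lt_iff₀ hZ.hL]
  exact h.2.2

/-- a later node contains a letter -/
lemma swallow (hZ : Z.Ok) (hw : w ≠ 0) (hsq : Squarefree (upp (Z.cut i) w)) (hi : Z.nd i w)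
    (hj : Z.nd j w) (hij : i < j) : ∃ r ∈ (upp (Z.cut i) w).primeFactors, r ≤ Z.cut j := by
  by_contra hcon
  push Not at hcon
  have h1 := tt_cut hw hZ.hcut hsq hij.le
  have h2 : (upp (Z.cut i) w).primeFactors.filter (· ≤ Z.cut j) = ∅ := by
    rw [filter_eq_empty_iff]
    intro p hp
    exact not_le.2 (hcon p hp)
  rw [h2, prod_empty, Nat.cast_one, mul_one] at h1
  have h3 := tt_lt hZ hi
  have h4 := tt_ge hZ hj
  have h5 : (2 : ℝ) ^ (i + 1) ≤ 2 ^ j := pow_le_pow_right₀ (by norm_num) hij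
  linarith

lemma le_prod_of_mem {S : Finset ℕ} (hS : ∀ p ∈ S, 1 ≤ p) {q : ℕ} (hq : q ∈ S) :
    q ≤ ∏ p ∈ S, p :=
  Nat.le_of_dvd (Finset.prod_pos fun p hp => hS p hp) (dvd_prod_of_mem (fun p => p) hq)

/-- the first letter is `≤ 2^j` at every later node -/
lemma mn_le_pow (hZ : Z.Ok) (hw : w ≠ 0) (hsq : Squarefree (upp (Z.cut i) w)) (hi : Z.nd i w)
    (hj : Z.nd j w) (hij : i < j) :
    mn (upp (Z.cut i) w).primeFactors ∈ (upp (Z.cut i) w).primeFactors ∧
      mn (upp (Z.cut i) w).primeFactors ≤ Z.cut j ∧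
      (mn (upp (Z.cut i) w).primeFactors : ℝ) ≤ 2 ^ j := by
  obtain ⟨r, hr, hrj⟩ := swallow hZ hw hsq hi hj hij
  have h1 : mn (upp (Z.cut i) w).primeFactors ∈ (upp (Z.cut i) w).primeFactors := mn_mem ⟨r, hr⟩
  have h2 : mn (upp (Z.cut i) w).primeFactors ≤ Z.cut j := (mn_le hr).trans hrj
  refine ⟨h1, h2, ?_⟩
  have h3 : (mn (upp (Z.cut i) w).primeFactors : ℝ) ≤
      ((∏ p ∈ (upp (Z.cut i) w).primeFactors.filter (· ≤ Z.cut j), p : ℕ) : ℝ) := by
    exact_mod_cast le_prod_of_mem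
      (fun p hp => (Nat.prime_of_mem_primeFactors (mem_filter.1 hp).1).one_lt.le)
      (mem_filter.2 ⟨h1, h2⟩)
  have h4 := tt_cut hw hZ.hcut hsq hij.le
  have h5 := tt_ge hZ hi
  have h6 := tt_lt hZ hj
  have hi3 : 1 ≤ i := by have := hZ.hi0; have := hi.1; omega
  have h7 : (2 : ℝ) ≤ 2 ^ i := by
    calc (2 : ℝ) = 2 ^ 1 := by norm_num
      _ ≤ 2 ^ i := pow_le_pow_right₀ (by norm_num) hi3
  have h8 : (2 : ℝ) * (mn (upp (Z.cut i) w).primeFactors : ℝ) ≤ Z.tt j w := by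
    rw [h4]
    exact mul_le_mul (h7.trans h5) h3 (Nat.cast_nonneg _) (by linarith)
  have h9 : (2 : ℝ) ^ (j + 1) = 2 * 2 ^ j := by ring
  linarith

/-- the point and the scale at the last letter below the cut -/
lemma pt_eq (hw : w ≠ 0) (hcut : Monotone Z.cut) (hsq : Squarefree (upp (Z.cut i) w))
    (hij : i ≤ j) {r : ℕ} (hr : r ≤ Z.cut j)
    (hmax : ∀ q ∈ (upp (Z.cut i) w).primeFactors, q ≤ Z.cut j → q ≤ r) :
    pt Z.γ (upp (Z.cut i) w).primeFactors r = Z.yy j w ∧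
      sc (Z.tt i w) (upp (Z.cut i) w).primeFactors r = Z.tt j w := by
  have e1 : (upp (Z.cut i) w).primeFactors.filter (r < ·) =
      (upp (Z.cut i) w).primeFactors.filter (Z.cut j < ·) := by
    ext q
    simp only [mem_filter]
    constructor
    · rintro ⟨h1, h2⟩
      refine ⟨h1, ?_⟩
      by_contra h3
      have := hmax q h1 (not_lt.1 h3)
      omega
    · rintro ⟨h1, h2⟩
      exact ⟨h1, lt_of_le_of_lt hr h2⟩
  have e2 : (upp (Z.cut i) w).primeFactors.filter (· ≤ r) =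
      (upp (Z.cut i) w).primeFactors.filter (· ≤ Z.cut j) := by
    ext q
    simp only [mem_filter]
    exact ⟨fun h => ⟨h.1, h.2.trans hr⟩, fun h => ⟨h.1, hmax q h.1 h.2⟩⟩
  constructor
  · rw [yy_cut hcut hsq hij]
    unfold pt
    rw [e1]
  · rw [tt_cut hw hcut hsq hij]
    unfold sc
    rw [e2]

/-- the last letter below the cut of a later node -/
lemma exists_last (hZ : Z.Ok) (hw : w ≠ 0) (hsq : Squarefree (upp (Z.cut i) w)) (hi : Z.nd i w)
    (hj : Z.nd j w) (hij : i < j) : ∃ r ∈ (upp (Z.cut i) w).primeFactors, r ≤ Z.cut j ∧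
      pt Z.γ (upp (Z.cut i) w).primeFactors r = Z.yy j w ∧
      sc (Z.tt i w) (upp (Z.cut i) w).primeFactors r = Z.tt j w := by
  obtain ⟨r0, hr0, hr0j⟩ := swallow hZ hw hsq hi hj hij
  have hne : ((upp (Z.cut i) w).primeFactors.filter (· ≤ Z.cut j)).Nonempty :=
    ⟨r0, mem_filter.2 ⟨hr0, hr0j⟩⟩
  have hm := mem_filter.1 (max'_mem _ hne)
  refine ⟨_, hm.1, hm.2, pt_eq hw hZ.hcut hsq hij.le hm.2 fun q hq hqj =>
    le_max' _ _ (mem_filter.2 ⟨hq, hqj⟩)⟩

/-- a node which is not the next node and at which the run threshold holds is not a birth -/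
lemma not_birth (hZ : Z.Ok) (hwN : w ∣ Z.N) (hsq : Squarefree (upp (Z.cut i) w)) {δ : ℝ}
    (hδ : 0 ≤ δ) (hθ : ∀ k, Z.i0 ≤ k → 3 * ((2 : ℝ) ^ k) ^ δ ≤ Z.θ k) (hi : Z.nd i w)
    {j' : ℕ} (hj : Z.nd j w) (hij : i < j) (hj' : Z.nd j' w) (hjj : j < j')
    (hon : On (K1 δ (upp (Z.cut i) w).primeFactors) (Z.yy j' w) (Z.tt j' w)) :
    ¬ Z.birth j' w := by
  classical
  have hw : w ≠ 0 := (Nat.pos_of_dvd_of_pos hwN hZ.hN).ne'
  intro hb
  apply hb.2
  refine ⟨⟨j, hjj, hj⟩, w, ?_, ?_⟩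
  · unfold World.S
    rw [mem_filter]
    exact ⟨Nat.mem_divisors.2 ⟨hwN, hZ.hN.ne'⟩, hj', rfl⟩
  · have h1 : j ≤ Z.prev j' w := by
      unfold World.prev
      exact Nat.le_findGreatest hjj.le ⟨hjj, hj⟩
    have h2 : Z.nd (Z.prev j' w) w := by
      have h3 := Nat.findGreatest_spec (P := fun i' => i' < j' ∧ Z.nd i' w) hjj.le ⟨hjj, hj⟩
      exact h3.2
    have h3 := (mn_le_pow hZ hw hsq hi h2 (lt_of_lt_of_le hij h1)).2.2
    refine hon.mono (le_trans ?_ (hθ _ h2.1))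
    unfold K1
    exact mul_le_mul_of_nonneg_left (Real.rpow_le_rpow (Nat.cast_nonneg _) h3 hδ) (by norm_num)

lemma nb_spec {k : ℕ} (h : Z.hasNb k w) :
    k < Z.nb k w ∧ Z.nb k w ≤ Z.top ∧ Z.birth (Z.nb k w) w := by
  classical
  have e : Z.nb k w = Nat.find h := by
    unfold World.nb
    rw [dif_pos h]
  rw [e]
  exact Nat.find_spec h

/-- **(F5)(a)**: small loss up to the second next birth makes the word above the node bad -/
theorem bad_of_Y (hZ : Z.Ok) (hcut2 : ∀ k, 2 ^ k ≤ Z.cut k) {δ : ℝ} (hδ : 0 ≤ δ)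
    (hθ : ∀ k, Z.i0 ≤ k → 3 * ((2 : ℝ) ^ k) ^ δ ≤ Z.θ k) (hwN : w ∣ Z.N)
    (hsq : Squarefree (upp (Z.cut i) w)) (hi : Z.nd i w) {z : Node} (hz : Z.zone i w = z)
    (hcoin : ∀ r ∈ (upp (Z.cut i) w).primeFactors,
      ∀ q ∈ nc (cutR Z.cut) δ Z.γ (Z.tt i w) (upp (Z.cut i) Z.N).primeFactors
        (upp (Z.cut i) w).primeFactors r, Z.coin w q)
    {s : ℝ} (hs : s ≤ 1 / 2) (hY : Z.Y z w ≤ s) :
    Bad (cutR Z.cut) δ Z.γ (Z.tt i w) (2 * s) (upp (Z.cut i) Z.N).primeFactors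
      (upp (Z.cut i) w).primeFactors := by
  classical
  have hw : w ≠ 0 := (Nat.pos_of_dvd_of_pos hwN hZ.hN).ne'
  have hz1 : z.1 = Z.bi i w := by rw [← hz]; rfl
  have hzi : z.1 ≤ i := by rw [hz1]; exact Nat.findGreatest_le i
  set S := (upp (Z.cut i) w).primeFactors with hS
  set t := Z.tt i w with ht
  have hi1 : 1 ≤ i := by have := hZ.hi0; have := hi.1; omega
  have ht1 : (2 : ℝ) ^ i ≤ t := tt_ge hZ hi
  have ht2 : t < (2 : ℝ) ^ (i + 1) := tt_lt hZ hi
  have h2i : (2 : ℝ) ≤ 2 ^ i := by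
    calc (2 : ℝ) = 2 ^ 1 := by norm_num
      _ ≤ 2 ^ i := pow_le_pow_right₀ (by norm_num) hi1
  have hSp : ∀ p ∈ S, p.Prime := fun p hp => Nat.prime_of_mem_primeFactors hp
  -- the two next births
  have hnb : Z.hasNb z.1 w ∧ Z.hasNb (Z.nb z.1 w) w := by
    by_contra hcon
    unfold World.Y at hY
    rw [if_neg hcon] at hY
    linarith
  unfold World.Y at hY
  rw [if_pos hnb] at hY
  obtain ⟨hnb1, hnb2⟩ := hnb
  have hb1 := nb_spec hnb1
  have hb2 := nb_spec hnb2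
  set b1 := Z.nb z.1 w with hb1def
  set b2 := Z.nb b1 w with hb2def
  have hib1 : i < b1 := by
    by_contra hcon
    have h1 : Z.bi i w < b1 := hz1 ▸ hb1.1
    exact Nat.findGreatest_is_greatest (P := fun i' => Z.birth i' w) h1 (not_lt.1 hcon) hb1.2.2
  have hnd1 : Z.nd b1 w := hb1.2.2.1
  have hnd2 : Z.nd b2 w := hb2.2.2.1
  have hib2 : i < b2 := hib1.trans hb2.1
  obtain ⟨hmnS, hmn1, _⟩ := mn_le_pow hZ hw hsq hi hnd1 hib1
  rw [← hS] at hmnS hmn1
  -- from the product to the sum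
  have key : ∀ F : Finset ℕ, (∀ q ∈ F, q ∈ (upp (Z.cut i) Z.N).primeFactors ∧ ¬ q ∣ w ∧
      q ≤ Z.cut b2 ∧ Z.coin w q) → ∑ q ∈ F, (1 : ℝ) / q ≤ 2 * s := by
    intro F hF
    refine prod_to_sum (fun q hq => (Nat.prime_of_mem_primeFactors (hF q hq).1).two_le) hs ?_
    have hsub : F ⊆ (free Z.N w).filter fun p => Z.cut z.1 < p ∧ p ≤ Z.cut b2 ∧ Z.coin w p := by
      intro q hq
      obtain ⟨h1, h2, h3, h4⟩ := hF q hq
      rw [pf_upp, mem_filter] at h1
      rw [mem_filter, mem_free]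
      refine ⟨⟨h1.1, ?_⟩, lt_of_le_of_lt (hZ.hcut hzi) h1.2, h3, h4⟩
      rw [Nat.factorization_eq_zero_of_not_dvd h2]
      exact (Nat.prime_of_mem_primeFactors h1.1).factorization_pos_of_dvd hZ.hN.ne'
        (Nat.dvd_of_mem_primeFactors h1.1)
    have h1 := prod_mono_sub hsub
    unfold World.Wp at hY
    linarith
  -- a prime above the cut which is not a letter of `S` does not divide `w`
  have hndvd : ∀ q ∈ (upp (Z.cut i) Z.N).primeFactors, q ∉ S → ¬ q ∣ w := by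
    intro q hq hqS hdvd
    rw [pf_upp, mem_filter] at hq
    apply hqS
    rw [hS, pf_upp, mem_filter]
    exact ⟨Nat.mem_primeFactors.2 ⟨Nat.prime_of_mem_primeFactors hq.1, hdvd, hw⟩, hq.2⟩
  refine ⟨⟨_, hmnS⟩, ?_⟩
  by_cases hon : On (K1 δ S) (pt Z.γ S (mn S)) (sc t S (mn S))
  · -- the run exists
    right
    have hlost : Lost δ Z.γ t S := by
      by_contra hnl
      unfold Lost at hnl
      push Not at hnl
      obtain ⟨r, hr, hrj, e1, e2⟩ := exists_last hZ hw hsq hi hnd2 hib2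
      have h1 := hnl r hr
      rw [e1, e2] at h1
      exact not_birth hZ hwN hsq hδ hθ hi hnd1 hib1 hnd2 hb2.1 h1 hb2.2.2
    refine ⟨hon, hlost, ?_⟩
    set p := ps δ Z.γ t S with hp
    obtain ⟨hpS, hoff⟩ := ps_spec hlost
    rw [← hp] at hpS hoff
    set tJ : ℝ := t * ((∏ q ∈ S.filter (· < p), q : ℕ) : ℝ) with htJ
    by_cases hmat : (p : ℝ) ≤ cutR Z.cut tJ
    · exact Or.inl hmat
    right
    rw [not_le] at hmat
    have hmat' : Z.cut (lv tJ) < p := by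
      unfold cutR at hmat
      exact_mod_cast hmat
    -- `b2` is later than the index of `t_J`
    have hb2J : lv tJ < b2 := by
      by_contra hcon
      rw [not_lt] at hcon
      obtain ⟨r, hr, hrj, e1, e2⟩ := exists_last hZ hw hsq hi hnd2 hib2
      have hrp : r < p := lt_of_le_of_lt (hrj.trans (hZ.hcut hcon)) hmat'
      have h1 := on_of_lt_ps hr hrp
      rw [← hS] at e1 e2
      rw [e1, e2] at h1
      exact not_birth hZ hwN hsq hδ hθ hi hnd1 hib1 hnd2 hb2.1 h1 hb2.2.2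
    have hpb2 : p ≤ Z.cut b2 := by
      by_contra hcon
      rw [not_le] at hcon
      have h1 := tt_cut hw hZ.hcut hsq hib2.le
      rw [← hS, ← ht] at h1
      have h2 : (∏ q ∈ S.filter (· ≤ Z.cut b2), q) ≤ ∏ q ∈ S.filter (· < p), q := by
        refine Nat.le_of_dvd (Finset.prod_pos fun q hq => (hSp q (mem_filter.1 hq).1).pos)
          (prod_dvd_prod_of_subset _ _ _ fun q hq => ?_)
        rw [mem_filter] at hq ⊢
        exact ⟨hq.1, lt_of_le_of_lt hq.2 hcon⟩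
      have h3 : Z.tt b2 w ≤ tJ := by
        rw [h1, htJ]
        exact mul_le_mul_of_nonneg_left (by exact_mod_cast h2) (by linarith)
      have h4 := tt_ge hZ hnd2
      have h5 := lt_lv tJ
      have h6 : (2 : ℝ) ^ (lv tJ + 1) ≤ 2 ^ b2 := pow_le_pow_right₀ (by norm_num) hb2J
      linarith
    refine key _ fun q hq => ?_
    have hqc := hcoin p hpS q hq
    unfold nc at hq
    rw [mem_filter] at hq
    obtain ⟨hqP, hq1, hq2, _⟩ := hq
    have hqS : q ∉ S := by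
      intro hqS
      have h1 : (q : ℝ) ≤ ((∏ q ∈ S.filter (· < p), q : ℕ) : ℝ) := by
        exact_mod_cast le_prod_of_mem (fun q hq => (hSp q (mem_filter.1 hq).1).one_lt.le)
          (mem_filter.2 ⟨hqS, hq2⟩)
      have h2 : 2 * (q : ℝ) ≤ tJ := by
        rw [htJ]
        exact mul_le_mul (h2i.trans ht1) h1 (Nat.cast_nonneg _) (by linarith)
      have h3 := lt_lv tJ
      have h4 : (2 : ℝ) ^ (lv tJ + 1) = 2 * 2 ^ lv tJ := by ring
      have h5 : (q : ℝ) < 2 ^ lv tJ := by linarith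
      have h6 : ((2 ^ lv tJ : ℕ) : ℝ) ≤ (Z.cut (lv tJ) : ℝ) := by exact_mod_cast hcut2 _
      push_cast at h6
      have h7 : cutR Z.cut tJ < (q : ℝ) := hq1
      unfold cutR at h7
      linarith
    exact ⟨hqP, hndvd q hqP hqS, hq2.le.trans hpb2, hqc⟩
  · -- no run centre at the first letter
    left
    refine ⟨hon, key _ fun q hq => ?_⟩
    have hqc := hcoin (mn S) hmnS q hq
    unfold nc at hq
    rw [mem_filter] at hq
    obtain ⟨hqP, _, hq2, _⟩ := hq
    have hqS : q ∉ S := fun h => by have := mn_le h; omega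
    exact ⟨hqP, hndvd q hqP hqS, hq2.le.trans (hmn1.trans (hZ.hcut hb2.1.le)), hqc⟩

end world

end Crest.Agent.R4C.GWbirthx516
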