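import Crest.Agent.R4C.GWlam_50

/-!
# Row 4, GW section, vector case: from the graph form of the zone charge to the class of words
(helper252; notes 3941 (LEMMA V), 4004, 3703)

The zone index of the changer (`i ∈ Z`) and of the partner (`j ∈ Z'`) are different; the set bound
`hV` (conclusion of LEMMA V for the sets `T i`, `T' j`, which may depend on the zone) is for the sum
over all pairs of zones at once.

* `class_key` : one pair of zones, row bound with the full low boost.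
* `rel_total` : the class `w.1 ≥ A`, `w.2 ≥ B` : `8 C T √(D / (A B)) √(Ex f) √(Ex g)`.
-/

set_option autoImplicit false

open Finset
open Crest.Agent.R4C.Basex935 Crest.Agent.R4C.Cutx50 Crest.Agent.R4C.HeavyLx50
open Crest.Agent.R4C.BoostRx398 (bst tf one_le_tf)
open Crest.Agent.R4C.FixedWordx423 (wd wd_pos wd_inj_right wd_inj_left wd_swap)
open Crest.Agent.R4C.VecNPx50 Crest.Agent.R4C.GWlayx50

namespace Crest.Agent.R4C.GWrelLayx252

open Classical in
/-- **one kernel, row bound**: the low word is a function `w` of the high parts, `w.1 ≥ A`,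
`w.2 ≥ B` -/
theorem class_key {M : ℕ} (hM : 0 < M) (y : ℕ) (S : Finset ℕ) {k : ℕ → ℕ → ℝ}
    (hk : ∀ z z', 0 ≤ k z z') {A B : ℝ} (hA : 1 ≤ A) (hB : 1 ≤ B) (P : ℕ → ℕ → Prop)
    (w : ℕ → ℕ → ℕ × ℕ)
    (hw : ∀ b c, b ∣ M → c ∣ M → P b c → wd (low y b) (low y c) = w (upp y b) (upp y c) ∧
      A ≤ (w (upp y b) (upp y c)).1 ∧ B ≤ (w (upp y b) (upp y c)).2)
    {F G : ℕ → ℝ} (hF : ∀ b, 0 ≤ F b) (hG : ∀ b, 0 ≤ G b) :
    frm M (fun b c => if P b c then
        k (upp y b) (upp y c) * bst S (low y M) (low y b) (low y c) * min (F b) (G c) else 0) ≤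
      frm (upp y M) (fun z z' => k z z' *
        min (1 / B * Ex (low y M) (fun u => F (u * z)))
          (1 / A * Ex (low y M) (fun u => G (u * z')))) := by
  have hA0 : 0 < A := by linarith
  have hB0 : 0 < B := by linarith
  set M0 := low y M with hM0
  set M1 := upp y M with hM1
  have hM0p : 0 < M0 := low_pos y M
  have hM1p : 0 < M1 := upp_pos y M
  set Vf : ℕ → ℝ := fun z => Ex M0 (fun u => F (u * z)) with hVf
  set Vg : ℕ → ℝ := fun z => Ex M0 (fun u => G (u * z)) with hVg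
  have hVf0 : ∀ z, 0 ≤ Vf z := fun z => Ex_nonneg _ fun _ => hF _
  have hVg0 : ∀ z, 0 ≤ Vg z := fun z => Ex_nonneg _ fun _ => hG _
  rw [frm_low_upp hM y]
  unfold frm
  refine Finset.sum_le_sum fun z hz => Finset.sum_le_sum fun z' hz' => ?_
  have hzd := Nat.dvd_of_mem_divisors hz
  have hzd' := Nat.dvd_of_mem_divisors hz'
  refine mul_le_mul_of_nonneg_left ?_
    (mul_nonneg (mul_nonneg (by positivity) (nu_nonneg _ _)) (nu_nonneg _ _))
  have hdiv : ∀ u T, u ∣ M0 → T ∣ M1 → u * T ∣ M := by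
    intro u T hu hT
    have := Nat.mul_dvd_mul hu hT
    rwa [low_mul_upp y hM.ne'] at this
  by_cases hex : ∃ u u', u ∣ M0 ∧ u' ∣ M0 ∧ P (u * z) (u' * z')
  · obtain ⟨u1, u1', hu1, hu1', hP1⟩ := hex
    have hww := hw _ _ (hdiv _ _ hu1 hzd) (hdiv _ _ hu1' hzd') hP1
    rw [upp_of_mul hu1 hzd, upp_of_mul hu1' hzd'] at hww
    set x := w z z' with hx
    have hin : frm M0 (fun n n' => if P (n * z) (n' * z') then
          k (upp y (n * z)) (upp y (n' * z')) * bst S M0 (low y (n * z)) (low y (n' * z')) *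
            min (F (n * z)) (G (n' * z')) else 0) ≤
        k z z' * frm M0 (fun u u' => if wd u u' = x then
          bst S M0 u u' * min (F (u * z)) (G (u' * z')) else 0) := by
      unfold frm
      rw [Finset.mul_sum]
      refine Finset.sum_le_sum fun u hu => ?_
      rw [Finset.mul_sum]
      refine Finset.sum_le_sum fun u' hu' => ?_
      have hud := Nat.dvd_of_mem_divisors hu
      have hud' := Nat.dvd_of_mem_divisors hu'
      have hwt : 0 ≤ (Nat.gcd u u' : ℝ) * nu M0 u * nu M0 u' :=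
        mul_nonneg (mul_nonneg (by positivity) (nu_nonneg _ _)) (nu_nonneg _ _)
      beta_reduce
      by_cases hPP : P (u * z) (u' * z')
      · have h2 := (hw _ _ (hdiv _ _ hud hzd) (hdiv _ _ hud' hzd') hPP).1
        rw [low_of_mul hud hzd, low_of_mul hud' hzd', upp_of_mul hud hzd,
          upp_of_mul hud' hzd'] at h2
        rw [if_pos hPP, if_pos h2, low_of_mul hud hzd, low_of_mul hud' hzd',
          upp_of_mul hud hzd, upp_of_mul hud' hzd']
        exact le_of_eq (by ring)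
      · rw [if_neg hPP, mul_zero]
        refine mul_nonneg (hk _ _) (mul_nonneg hwt ?_)
        split_ifs
        · exact mul_nonneg (bst_nonneg _ _ _ _) (le_min (hF _) (hG _))
        · exact le_rfl
    refine hin.trans (mul_le_mul_of_nonneg_left (le_min ?_ ?_) (hk _ _))
    · refine (low_right_min hM0p S x (F := fun u => F (u * z)) (G := fun u => G (u * z'))
        (fun _ => hF _)).trans ?_
      rw [div_eq_mul_one_div, mul_comm]
      refine mul_le_mul_of_nonneg_right ?_ (hVf0 z)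
      exact one_div_le_one_div_of_le hB0 hww.2.2
    · refine (low_left_min hM0p S x (F := fun u => F (u * z)) (G := fun u => G (u * z'))
        (fun _ => hG _)).trans ?_
      rw [div_eq_mul_one_div, mul_comm]
      refine mul_le_mul_of_nonneg_right ?_ (hVg0 z')
      exact one_div_le_one_div_of_le hA0 hww.2.1
  · push Not at hex
    have h0 : frm M0 (fun n n' => if P (n * z) (n' * z') then
          k (upp y (n * z)) (upp y (n' * z')) * bst S M0 (low y (n * z)) (low y (n' * z')) *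
            min (F (n * z)) (G (n' * z')) else 0) = 0 := by
      unfold frm
      refine Finset.sum_eq_zero fun u hu => Finset.sum_eq_zero fun u' hu' => ?_
      beta_reduce
      rw [if_neg (hex u u' (Nat.dvd_of_mem_divisors hu) (Nat.dvd_of_mem_divisors hu')), mul_zero]
    refine (le_of_eq h0).trans ?_
    exact mul_nonneg (hk _ _) (le_min (mul_nonneg (by positivity) (hVf0 z))
      (mul_nonneg (by positivity) (hVg0 z')))

/-- the conclusion of LEMMA V for sets depending on the zone: `D` = the loss `1 + log Δ` -/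
def VBd (M : ℕ) {ι ι' : Type*} (Z : Finset ι) (Z' : Finset ι') (k : ι → ι' → ℕ → ℕ → ℝ)
    (C D : ℝ) (X : ι → ℕ → ℝ) (X' : ι' → ℕ → ℝ) : Prop :=
  ∀ (T : ι → Finset ℕ) (T' : ι' → Finset ℕ), (∀ i, T i ⊆ M.divisors) →
    (∀ j, T' j ⊆ M.divisors) → ∀ l : ℝ, 0 < l →
    ∑ i ∈ Z, ∑ j ∈ Z', ∑ z ∈ T i, ∑ z' ∈ T' j,
        (Nat.gcd z z' : ℝ) * nu M z * nu M z' * k i j z z' ≤
      C * (1 / l * (∑ i ∈ Z, ∑ z ∈ T i, nu M z * X i z) +
        l * (D * ∑ j ∈ Z', ∑ z ∈ T' j, nu M z * X' j z))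

lemma exists_level' {κ : Type*} (s : Finset κ) (t : Finset ℕ) (R : κ → ℕ → ℝ) :
    ∃ K : ℕ, ∀ K' ≥ K, ∀ i ∈ s, ∀ z ∈ t, R i z ≤ 0 ∨ (1 / 2 : ℝ) ^ K' < R i z := by
  choose f hf using fun i => exists_level t (R i)
  exact ⟨s.sup f, fun K' hK' i hi z hz => hf i K' ((Finset.le_sup hi).trans hK') z hz⟩

lemma lay_total {κ : Type*} (K : ℕ) (s : Finset κ) (M : ℕ) {Y R : κ → ℕ → ℝ}
    (hY : ∀ i z, 0 ≤ Y i z) (hR : ∀ i z, 0 ≤ R i z) :
    ∑ n ∈ range K, (1 / 2 : ℝ) ^ n * ∑ i ∈ s, ∑ z ∈ M.divisors, nu M z * Y i z * lay n (R i z) ≤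
      4 * ∑ i ∈ s, ∑ z ∈ M.divisors, nu M z * Y i z * R i z := by
  have e : ∑ n ∈ range K, (1 / 2 : ℝ) ^ n * ∑ i ∈ s, ∑ z ∈ M.divisors,
      nu M z * Y i z * lay n (R i z) =
      ∑ i ∈ s, ∑ z ∈ M.divisors, nu M z * Y i z * ∑ n ∈ range K, (1 / 2 : ℝ) ^ n *
        lay n (R i z) := by
    simp only [Finset.mul_sum]
    rw [Finset.sum_comm]
    refine Finset.sum_congr rfl fun i _ => ?_
    rw [Finset.sum_comm]
    exact Finset.sum_congr rfl fun z _ => Finset.sum_congr rfl fun n _ => by ring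
  rw [e, Finset.mul_sum]
  refine Finset.sum_le_sum fun i _ => ?_
  rw [Finset.mul_sum]
  refine Finset.sum_le_sum fun z _ => ?_
  have h := mul_le_mul_of_nonneg_left (sum_lay_le K (hR i z))
    (mul_nonneg (nu_nonneg M z) (hY i z))
  linarith

/-- **layer cake for the graph form** -/
theorem vb_layer {M : ℕ} (hM : 0 < M) {ι ι' : Type*} (Z : Finset ι) (Z' : Finset ι')
    {k : ι → ι' → ℕ → ℕ → ℝ} (hk : ∀ i j z z', 0 ≤ k i j z z') {C D : ℝ} (hC : 0 ≤ C)
    (hD : 0 ≤ D) {X : ι → ℕ → ℝ} {X' : ι' → ℕ → ℝ} (hX : ∀ i z, 0 ≤ X i z)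
    (hX' : ∀ j z, 0 ≤ X' j z) (hV : VBd M Z Z' k C D X X')
    {P : ι → ℕ → ℝ} {Q : ι' → ℕ → ℝ} (hP0 : ∀ i b, 0 ≤ P i b) (hQ0 : ∀ j b, 0 ≤ Q j b)
    (hP1 : ∀ i b, P i b ≤ 1) {l : ℝ} (hl : 0 < l) :
    ∑ i ∈ Z, ∑ j ∈ Z', frm M (fun z z' => k i j z z' * min (P i z) (Q j z')) ≤
      C * (1 / l * (4 * ∑ i ∈ Z, ∑ z ∈ M.divisors, nu M z * X i z * P i z) +
        l * (D * (4 * ∑ j ∈ Z', ∑ z ∈ M.divisors, nu M z * X' j z * Q j z))) := by
  classical
  obtain ⟨K1, hK1⟩ := exists_level' Z M.divisors P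
  obtain ⟨K2, hK2⟩ := exists_level' Z' M.divisors Q
  set K := max K1 K2 with hK
  have hs1 : ∀ i ∈ Z, ∀ j ∈ Z', frm M (fun z z' => k i j z z' * min (P i z) (Q j z')) ≤
      ∑ n ∈ range K, (1 / 2 : ℝ) ^ n *
        frm M (fun z z' => k i j z z' * (lay n (P i z) * lay n (Q j z'))) := by
    intro i hi j hj
    have e : ∀ n ∈ range K, (1 / 2 : ℝ) ^ n *
        frm M (fun z z' => k i j z z' * (lay n (P i z) * lay n (Q j z'))) =
        frm M (fun z z' => k i j z z' * ((1 / 2 : ℝ) ^ n * (lay n (P i z) * lay n (Q j z')))) := by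
      intro n _
      unfold frm
      rw [Finset.mul_sum]
      refine Finset.sum_congr rfl fun b _ => ?_
      rw [Finset.mul_sum]
      exact Finset.sum_congr rfl fun c _ => by ring
    rw [Finset.sum_congr rfl e, frm_sum]
    refine frm_mono fun z z' hz hz' => ?_
    rw [← Finset.mul_sum]
    refine mul_le_mul_of_nonneg_left ?_ (hk i j z z')
    exact min_le_lay (hP1 i z)
      (hK1 K (le_max_left _ _) i hi z (Nat.mem_divisors.2 ⟨hz, hM.ne'⟩))
      (hK2 K (le_max_right _ _) j hj z' (Nat.mem_divisors.2 ⟨hz', hM.ne'⟩))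
  have hs2 : ∑ i ∈ Z, ∑ j ∈ Z', frm M (fun z z' => k i j z z' * min (P i z) (Q j z')) ≤
      ∑ n ∈ range K, (1 / 2 : ℝ) ^ n * ∑ i ∈ Z, ∑ j ∈ Z',
        frm M (fun z z' => k i j z z' * (lay n (P i z) * lay n (Q j z'))) := by
    refine (Finset.sum_le_sum fun i hi => Finset.sum_le_sum fun j hj => hs1 i hi j hj).trans ?_
    have e : ∀ i ∈ Z, ∑ j ∈ Z', ∑ n ∈ range K, (1 / 2 : ℝ) ^ n *
        frm M (fun z z' => k i j z z' * (lay n (P i z) * lay n (Q j z'))) =
        ∑ n ∈ range K, ∑ j ∈ Z', (1 / 2 : ℝ) ^ n *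
        frm M (fun z z' => k i j z z' * (lay n (P i z) * lay n (Q j z'))) := fun i _ =>
      Finset.sum_comm
    rw [Finset.sum_congr rfl e, Finset.sum_comm]
    refine le_of_eq (Finset.sum_congr rfl fun n _ => ?_)
    rw [Finset.mul_sum]
    exact Finset.sum_congr rfl fun i _ => by rw [Finset.mul_sum]
  refine hs2.trans ?_
  have hset : ∀ n, ∑ i ∈ Z, ∑ j ∈ Z',
        frm M (fun z z' => k i j z z' * (lay n (P i z) * lay n (Q j z'))) ≤
      C * (1 / l * (∑ i ∈ Z, ∑ z ∈ M.divisors, nu M z * X i z * lay n (P i z)) +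
        l * (D * ∑ j ∈ Z', ∑ z ∈ M.divisors, nu M z * X' j z * lay n (Q j z))) := by
    intro n
    have h3 := hV (fun i => M.divisors.filter (fun z => (1 / 2 : ℝ) ^ (n + 1) < P i z))
      (fun j => M.divisors.filter (fun z => (1 / 2 : ℝ) ^ (n + 1) < Q j z))
      (fun i => Finset.filter_subset _ _) (fun j => Finset.filter_subset _ _) l hl
    have e1 : ∀ i ∈ Z, ∀ j ∈ Z', frm M (fun z z' => k i j z z' *
        (lay n (P i z) * lay n (Q j z'))) =
        ∑ z ∈ M.divisors.filter (fun z => (1 / 2 : ℝ) ^ (n + 1) < P i z),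
          ∑ z' ∈ M.divisors.filter (fun z => (1 / 2 : ℝ) ^ (n + 1) < Q j z),
          (Nat.gcd z z' : ℝ) * nu M z * nu M z' * k i j z z' := fun i _ j _ =>
      frm_sets M (k i j) (fun z => (1 / 2 : ℝ) ^ (n + 1) < P i z)
        (fun z => (1 / 2 : ℝ) ^ (n + 1) < Q j z)
    have e2 : ∀ (m : ℕ → ℝ) (R : ℕ → ℝ), ∑ z ∈ M.divisors.filter
        (fun z => (1 / 2 : ℝ) ^ (n + 1) < R z), m z = ∑ z ∈ M.divisors, m z * lay n (R z) := by
      intro m R
      rw [Finset.sum_filter]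
      refine Finset.sum_congr rfl fun z _ => ?_
      unfold lay
      split_ifs <;> simp
    rw [Finset.sum_congr rfl fun i hi => Finset.sum_congr rfl fun j hj => e1 i hi j hj]
    refine h3.trans (le_of_eq ?_)
    simp only [e2]
  have hA := lay_total K Z M hX hP0
  have hB := lay_total K Z' M hX' hQ0
  calc ∑ n ∈ range K, (1 / 2 : ℝ) ^ n * ∑ i ∈ Z, ∑ j ∈ Z',
        frm M (fun z z' => k i j z z' * (lay n (P i z) * lay n (Q j z')))
      ≤ ∑ n ∈ range K, (1 / 2 : ℝ) ^ n *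
        (C * (1 / l * (∑ i ∈ Z, ∑ z ∈ M.divisors, nu M z * X i z * lay n (P i z)) +
        l * (D * ∑ j ∈ Z', ∑ z ∈ M.divisors, nu M z * X' j z * lay n (Q j z)))) :=
        Finset.sum_le_sum fun n _ => mul_le_mul_of_nonneg_left (hset n) (by positivity)
    _ = C * (1 / l * (∑ n ∈ range K, (1 / 2 : ℝ) ^ n *
          ∑ i ∈ Z, ∑ z ∈ M.divisors, nu M z * X i z * lay n (P i z)) +
        l * (D * ∑ n ∈ range K, (1 / 2 : ℝ) ^ n *
          ∑ j ∈ Z', ∑ z ∈ M.divisors, nu M z * X' j z * lay n (Q j z))) := by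
        rw [Finset.mul_sum, Finset.mul_sum, Finset.mul_sum, ← Finset.sum_add_distrib,
          Finset.mul_sum]
        exact Finset.sum_congr rfl fun n _ => by ring
    _ ≤ _ := by
        refine mul_le_mul_of_nonneg_left (add_le_add ?_ ?_) hC
        · exact mul_le_mul_of_nonneg_left hA (by positivity)
        · exact mul_le_mul_of_nonneg_left (mul_le_mul_of_nonneg_left hB hD) hl.le

open Classical in
/-- **the vector class over all pairs of zones** -/
theorem rel_total {M : ℕ} (hM : 0 < M) (y : ℕ) (S : Finset ℕ) {ι ι' : Type*} (Z : Finset ι)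
    (Z' : Finset ι') {k : ι → ι' → ℕ → ℕ → ℝ} (hk : ∀ i j z z', 0 ≤ k i j z z') {C D : ℝ}
    (hC : 0 ≤ C) (hD : 0 ≤ D) {X : ι → ℕ → ℝ} {X' : ι' → ℕ → ℝ} (hX : ∀ i z, 0 ≤ X i z)
    (hX' : ∀ j z, 0 ≤ X' j z) (hV : VBd (upp y M) Z Z' k C D X X')
    {A B : ℝ} (hA : 1 ≤ A) (hB : 1 ≤ B) (P : ι → ι' → ℕ → ℕ → Prop)
    (w : ι → ι' → ℕ → ℕ → ℕ × ℕ)
    (hw : ∀ i ∈ Z, ∀ j ∈ Z', ∀ b c, b ∣ M → c ∣ M → P i j b c →
      wd (low y b) (low y c) = w i j (upp y b) (upp y c) ∧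
      A ≤ (w i j (upp y b) (upp y c)).1 ∧ B ≤ (w i j (upp y b) (upp y c)).2)
    {W : ι → ℕ → ℝ} {W' : ι' → ℕ → ℝ} (hW0 : ∀ i b, 0 ≤ W i b) (hW1 : ∀ i b, W i b ≤ 1)
    (hW0' : ∀ j b, 0 ≤ W' j b)
    {f g : ℕ → ℝ} (hf0 : ∀ b, 0 ≤ f b) (hg0 : ∀ b, 0 ≤ g b) (hf1 : ∀ b, f b ≤ 1)
    {T : ℝ} (hT0 : 0 ≤ T)
    (hT : ∀ b, b ∣ M → ∑ i ∈ Z, X i (upp y b) * W i b ≤ T)
    (hT' : ∀ b, b ∣ M → ∑ j ∈ Z', X' j (upp y b) * W' j b ≤ T) :
    ∑ i ∈ Z, ∑ j ∈ Z', frm M (fun b c => if P i j b c then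
        k i j (upp y b) (upp y c) * bst S (low y M) (low y b) (low y c) *
          min (W i b * f b) (W' j c * g c) else 0) ≤
      8 * C * T * √(D / (A * B)) * (√(Ex M f) * √(Ex M g)) := by
  have hA0 : 0 < A := by linarith
  have hB0 : 0 < B := by linarith
  have hM0p : 0 < low y M := low_pos y M
  have hM1p : 0 < upp y M := upp_pos y M
  set Vf : ι → ℕ → ℝ := fun i z => Ex (low y M) (fun u => W i (u * z) * f (u * z)) with hVf
  set Vg : ι' → ℕ → ℝ := fun j z => Ex (low y M) (fun u => W' j (u * z) * g (u * z)) with hVg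
  have hVf0 : ∀ i z, 0 ≤ Vf i z := fun i z =>
    Ex_nonneg _ fun _ => mul_nonneg (hW0 _ _) (hf0 _)
  have hVg0 : ∀ j z, 0 ≤ Vg j z := fun j z =>
    Ex_nonneg _ fun _ => mul_nonneg (hW0' _ _) (hg0 _)
  have hVf1 : ∀ i z, Vf i z ≤ 1 := fun i z =>
    (Ex_mono _ fun b _ => mul_le_one₀ (hW1 i (b * z)) (hf0 (b * z)) (hf1 (b * z))).trans
      (le_of_eq (Ex_const hM0p 1))
  -- one pair of zones
  have h1 : ∑ i ∈ Z, ∑ j ∈ Z', frm M (fun b c => if P i j b c then
        k i j (upp y b) (upp y c) * bst S (low y M) (low y b) (low y c) *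
          min (W i b * f b) (W' j c * g c) else 0) ≤
      ∑ i ∈ Z, ∑ j ∈ Z', frm (upp y M) (fun z z' => k i j z z' *
        min (1 / B * Vf i z) (1 / A * Vg j z')) :=
    Finset.sum_le_sum fun i hi => Finset.sum_le_sum fun j hj =>
      class_key hM y S (hk i j) hA hB (P i j) (w i j) (hw i hi j hj)
        (F := fun b => W i b * f b) (G := fun b => W' j b * g b)
        (fun b => mul_nonneg (hW0 _ _) (hf0 _)) (fun b => mul_nonneg (hW0' _ _) (hg0 _))
  have hB1 : 1 / B ≤ 1 := by rw [div_le_one hB0]; exact hB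
  have hP1 : ∀ i z, 1 / B * Vf i z ≤ 1 := fun i z =>
    mul_le_one₀ hB1 (hVf0 i z) (hVf1 i z)
  -- masses
  have hmass : ∀ (Y : ℕ → ℝ) (U : ℕ → ℝ) (a : ℝ),
      ∑ z ∈ (upp y M).divisors, nu (upp y M) z * Y z *
        (a * Ex (low y M) (fun u => U (u * z))) =
      a * Ex M (fun b => Y (upp y b) * U b) := by
    intro Y U a
    rw [← mu_eq_Ex hM y Y U]
    unfold mu
    rw [Finset.mul_sum]
    exact Finset.sum_congr rfl fun z _ => by ring
  have ha : 4 * ∑ i ∈ Z, ∑ z ∈ (upp y M).divisors, nu (upp y M) z * X i z * (1 / B * Vf i z) ≤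
      4 * (1 / B * (T * Ex M f)) := by
    refine mul_le_mul_of_nonneg_left ?_ (by norm_num)
    rw [Finset.sum_congr rfl fun i _ => hmass (X i) (fun b => W i b * f b) (1 / B),
      ← Finset.mul_sum]
    refine mul_le_mul_of_nonneg_left ?_ (by positivity)
    rw [Ex_sum, ← Ex_mul_left]
    refine Ex_mono _ fun b hb => ?_
    calc ∑ i ∈ Z, X i (upp y b) * (W i b * f b) = (∑ i ∈ Z, X i (upp y b) * W i b) * f b := by
          rw [Finset.sum_mul]; exact Finset.sum_congr rfl fun i _ => by ring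
      _ ≤ T * f b := mul_le_mul_of_nonneg_right (hT b hb) (hf0 b)
  have hb : 4 * ∑ j ∈ Z', ∑ z ∈ (upp y M).divisors, nu (upp y M) z * X' j z * (1 / A * Vg j z) ≤
      4 * (1 / A * (T * Ex M g)) := by
    refine mul_le_mul_of_nonneg_left ?_ (by norm_num)
    rw [Finset.sum_congr rfl fun j _ => hmass (X' j) (fun b => W' j b * g b) (1 / A),
      ← Finset.mul_sum]
    refine mul_le_mul_of_nonneg_left ?_ (by positivity)
    rw [Ex_sum, ← Ex_mul_left]
    refine Ex_mono _ fun b hb => ?_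
    calc ∑ j ∈ Z', X' j (upp y b) * (W' j b * g b) = (∑ j ∈ Z', X' j (upp y b) * W' j b) * g b := by
          rw [Finset.sum_mul]; exact Finset.sum_congr rfl fun j _ => by ring
      _ ≤ T * g b := mul_le_mul_of_nonneg_right (hT' b hb) (hg0 b)
  have hEf : 0 ≤ Ex M f := Ex_nonneg _ hf0
  have hEg : 0 ≤ Ex M g := Ex_nonneg _ hg0
  have h2 : ∀ l : ℝ, 0 < l → ∑ i ∈ Z, ∑ j ∈ Z', frm (upp y M) (fun z z' => k i j z z' *
        min (1 / B * Vf i z) (1 / A * Vg j z')) ≤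
      C * (1 / l * (4 * (1 / B * (T * Ex M f))) + l * (D * (4 * (1 / A * (T * Ex M g))))) := by
    intro l hl
    refine (vb_layer hM1p Z Z' hk hC hD hX hX' hV
      (P := fun i z => 1 / B * Vf i z) (Q := fun j z => 1 / A * Vg j z)
      (fun i z => mul_nonneg (by positivity) (hVf0 i z))
      (fun j z => mul_nonneg (by positivity) (hVg0 j z)) hP1 hl).trans ?_
    refine mul_le_mul_of_nonneg_left (add_le_add ?_ ?_) hC
    · exact mul_le_mul_of_nonneg_left ha (by positivity)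
    · exact mul_le_mul_of_nonneg_left (mul_le_mul_of_nonneg_left hb hD) hl.le
  refine h1.trans ((le_two_sqrt_of_lam hC (by positivity) (by positivity) h2).trans
    (le_of_eq ?_))
  have e : 4 * (1 / B * (T * Ex M f)) * (D * (4 * (1 / A * (T * Ex M g)))) =
      (4 * T) ^ 2 * ((D / (A * B)) * (Ex M f * Ex M g)) := by
    field_simp
  rw [e, Real.sqrt_mul (by positivity), Real.sqrt_sq (by positivity),
    Real.sqrt_mul (by positivity), Real.sqrt_mul hEf]
  ring

end Crest.Agent.R4C.GWrelLayx252
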