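import Crest.Agent.R4C.GWrelH_482
import Crest.Agent.R4C.GWrelLay_252
import Crest.Agent.R4C.PureCls_863

/-!
# Row 4, GW section, vector case: sum over the cores (helper482)

`F : FL M` (in the application `M` = the upper part of the modulus and `F` = the restricted
structure).  For every core `G` a graph of zones over the words `w ∣ PM F G` with the two-parameter
bound (conclusion of LEMMA V, sets depending on the zone)

`∑_{i,j} ∑_{w ∈ S i, w' ∈ S' j} ν_N w ν_N w' κ_G i j w w' ≤ C ((1/l) ∑ ν_N X_G + l D ∑ ν_N X'_G)`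

gives the graph bound `GBd` / `VBd` for `M` itself, with zones `(G, i)`, kernel
`kk = κ_G i j (wd b) (wd c) / (VR G · gcd (wd b) (wd c))` on the pairs with `core b = core c = G`.
-/

set_option autoImplicit false

open Finset
open Crest.Agent.R4C.Basex935 Crest.Agent.R4C.Cutx50 Crest.Agent.R4C.FLDefx935
open Crest.Agent.R4C.PureClsx863 Crest.Agent.R4C.GWrelHx482
open Crest.Agent.R4C.BoostRx398 (bst)

namespace Crest.Agent.R4C.GWcorex482

variable {M : ℕ} (F : FL M) {ι ι' : Type*}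

open Classical in
/-- the kernel on the numbers -/
noncomputable def kk (κ : ℕ → ι → ι' → ℕ → ℕ → ℝ) (i : Σ _ : ℕ, ι) (j : Σ _ : ℕ, ι')
    (b c : ℕ) : ℝ :=
  if i.1 = j.1 ∧ core F b = i.1 ∧ core F c = i.1 then
    κ i.1 i.2 j.2 (wd F b) (wd F c) / (VR F i.1 * (Nat.gcd (wd F b) (wd F c) : ℝ)) else 0

open Classical in
/-- the densities on the numbers -/
noncomputable def XX (X : ℕ → ι → ℕ → ℝ) (i : Σ _ : ℕ, ι) (b : ℕ) : ℝ :=
  if core F b = i.1 then X i.1 i.2 (wd F b) else 0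

variable {F}

lemma kk_nonneg {κ : ℕ → ι → ι' → ℕ → ℕ → ℝ} (hκ : ∀ G i j w w', 0 ≤ κ G i j w w')
    (i : Σ _ : ℕ, ι) (j : Σ _ : ℕ, ι') (b c : ℕ) : 0 ≤ kk F κ i j b c := by
  unfold kk
  split_ifs
  · exact div_nonneg (hκ _ _ _ _ _) (mul_nonneg (VR_nonneg _) (Nat.cast_nonneg _))
  · exact le_rfl

lemma XX_nonneg {X : ℕ → ι → ℕ → ℝ} (hX : ∀ G i w, 0 ≤ X G i w) (i : Σ _ : ℕ, ι) (b : ℕ) :
    0 ≤ XX F X i b := by
  unfold XX
  split_ifs
  · exact hX _ _ _
  · exact le_rfl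

lemma VR_pos {G : ℕ} (hM : 0 < M) (hG : G ∈ cores F) : 0 < VR F G := by
  have hR := RR_pos hM hG
  unfold VR
  have h1 : (0 : ℝ) < RR F G := by exact_mod_cast hR
  have h2 : (0 : ℝ) < (RR F G).totient := by exact_mod_cast Nat.totient_pos.2 hR
  positivity

/-- numbers of a class in a set -/
lemma sum_core {G : ℕ} (hM : 0 < M) (hG : G ∈ cores F) (S : Finset ℕ) (hS : S ⊆ M.divisors)
    (f : ℕ → ℝ) : ∑ b ∈ S with core F b = G, f b =
      ∑ w ∈ (PM F G).divisors with G * w ∈ S, f (G * w) := by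
  classical
  have hG0 : 0 < G := Nat.pos_of_dvd_of_pos (mem_cores.1 hG).1.1 hM
  have e : S.filter (fun b => core F b = G) =
      ((PM F G).divisors.filter (fun w => G * w ∈ S)).image (fun w => G * w) := by
    ext b
    rw [Finset.mem_filter, Finset.mem_image]
    constructor
    · rintro ⟨h1, h2⟩
      have hb := Nat.dvd_of_mem_divisors (hS h1)
      have h3 := core_mul_wd (F := F) hM hb
      have h4 := wd_dvd (F := F) hM hb
      rw [h2] at h3 h4
      refine ⟨wd F b, Finset.mem_filter.2 ⟨Nat.mem_divisors.2 ⟨h4, (PM_pos G).ne'⟩, ?_⟩, h3⟩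
      rw [h3]; exact h1
    · rintro ⟨w, hw, rfl⟩
      rw [Finset.mem_filter] at hw
      exact ⟨hw.2, core_mul hM hG (Nat.dvd_of_mem_divisors hw.1)⟩
  rw [e, Finset.sum_image]
  intro w _ w' _ h
  exact Nat.eq_of_mul_eq_mul_left hG0 h

/-- densities of a class -/
lemma dens_class {G : ℕ} (hM : 0 < M) (hG : G ∈ cores F) {κ' : Type*} (Y : ℕ → κ' → ℕ → ℝ)
    (T : Finset ℕ) (hT : T ⊆ M.divisors) (i : κ') :
    ∑ z ∈ T, nu M z * XX F Y ⟨G, i⟩ z =
      nu0 F G * ∑ w ∈ (PM F G).divisors.filter (fun w => G * w ∈ T),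
        nu (PM F G) w * Y G i w := by
  classical
  have e1 : ∑ z ∈ T, nu M z * XX F Y ⟨G, i⟩ z =
      ∑ z ∈ T with core F z = G, nu M z * Y G i (wd F z) := by
    rw [Finset.sum_filter]
    refine Finset.sum_congr rfl fun z _ => ?_
    unfold XX
    split_ifs <;> simp
  rw [e1, sum_core hM hG _ hT, Finset.mul_sum]
  refine Finset.sum_congr rfl fun w hw => ?_
  have hw' := Nat.dvd_of_mem_divisors (Finset.mem_filter.1 hw).1
  rw [nu_class hM hG hw', wd_mul hM hG hw']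
  ring

/-- **SUM OVER THE CORES** -/
theorem gbd_of_cores (hM : 0 < M) {Zs : ℕ → Finset ι} {Zs' : ℕ → Finset ι'}
    {κ : ℕ → ι → ι' → ℕ → ℕ → ℝ} {C D : ℝ}
    {X : ℕ → ι → ℕ → ℝ} {X' : ℕ → ι' → ℕ → ℝ}
    (h : ∀ G ∈ cores F, ∀ (S : ι → Finset ℕ) (S' : ι' → Finset ℕ),
      (∀ i, S i ⊆ (PM F G).divisors) → (∀ j, S' j ⊆ (PM F G).divisors) → ∀ l : ℝ, 0 < l →
      ∑ i ∈ Zs G, ∑ j ∈ Zs' G, ∑ w ∈ S i, ∑ w' ∈ S' j,
          nu (PM F G) w * nu (PM F G) w' * κ G i j w w' ≤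
        C * (1 / l * (∑ i ∈ Zs G, ∑ w ∈ S i, nu (PM F G) w * X G i w) +
          l * D * ∑ j ∈ Zs' G, ∑ w' ∈ S' j, nu (PM F G) w' * X' G j w')) :
    GBd M ((cores F).sigma Zs) ((cores F).sigma Zs') (kk F κ) C D
      (fun i z => nu M z * XX F X i z) (fun j z => nu M z * XX F X' j z) := by
  classical
  intro S S' hS hS' l hl
  -- words of the sets
  set R : ℕ → ι → Finset ℕ := fun G i => (PM F G).divisors.filter (fun w => G * w ∈ S ⟨G, i⟩)
    with hR
  set R' : ℕ → ι' → Finset ℕ := fun G j => (PM F G).divisors.filter (fun w => G * w ∈ S' ⟨G, j⟩)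
    with hR'
  -- left side
  have hleft : ∀ G ∈ cores F, ∀ i : ι, ∀ G' ∈ cores F, ∀ j : ι',
      ∑ z ∈ S ⟨G, i⟩, ∑ z' ∈ S' ⟨G', j⟩,
        (Nat.gcd z z' : ℝ) * nu M z * nu M z' * kk F κ ⟨G, i⟩ ⟨G', j⟩ z z' =
      if G = G' then nu0 F G * ∑ w ∈ R G i, ∑ w' ∈ R' G' j,
        nu (PM F G) w * nu (PM F G) w' * κ G i j w w' else 0 := by
    intro G hG i G' hG' j
    by_cases hGG : G = G'
    · subst hGG
      rw [if_pos rfl]
      have e1 : ∑ z ∈ S ⟨G, i⟩, ∑ z' ∈ S' ⟨G, j⟩,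
          (Nat.gcd z z' : ℝ) * nu M z * nu M z' * kk F κ ⟨G, i⟩ ⟨G, j⟩ z z' =
          ∑ z ∈ S ⟨G, i⟩ with core F z = G, ∑ z' ∈ S' ⟨G, j⟩ with core F z' = G,
            (Nat.gcd z z' : ℝ) * nu M z * nu M z' *
              (κ G i j (wd F z) (wd F z') / (VR F G * (Nat.gcd (wd F z) (wd F z') : ℝ))) := by
        rw [Finset.sum_filter]
        refine Finset.sum_congr rfl fun z _ => ?_
        by_cases hz : core F z = G
        · rw [if_pos hz, Finset.sum_filter]
          refine Finset.sum_congr rfl fun z' _ => ?_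
          by_cases hz' : core F z' = G
          · rw [if_pos hz']
            unfold kk
            rw [if_pos ⟨rfl, hz, hz'⟩]
          · rw [if_neg hz']
            unfold kk
            rw [if_neg (fun h => hz' h.2.2), mul_zero]
        · rw [if_neg hz]
          refine Finset.sum_eq_zero fun z' _ => ?_
          unfold kk
          rw [if_neg (fun h => hz h.2.1), mul_zero]
      rw [e1, sum_core hM hG _ (hS _), Finset.mul_sum]
      refine Finset.sum_congr rfl fun w hw => ?_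
      rw [sum_core hM hG _ (hS' _), Finset.mul_sum]
      refine Finset.sum_congr rfl fun w' hw' => ?_
      have hwd := Nat.dvd_of_mem_divisors (Finset.mem_filter.1 hw).1
      have hwd' := Nat.dvd_of_mem_divisors (Finset.mem_filter.1 hw').1
      rw [nu_class hM hG hwd, nu_class hM hG hwd', wd_mul hM hG hwd, wd_mul hM hG hwd',
        Nat.gcd_mul_left]
      have hV : VR F G ≠ 0 := (VR_pos hM hG).ne'
      have hw0 : 0 < w := Nat.pos_of_dvd_of_pos hwd (PM_pos G)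
      have hg : (Nat.gcd w w' : ℝ) ≠ 0 := by
        exact_mod_cast (Nat.gcd_pos_of_pos_left _ hw0).ne'
      have h1 := mul_nu0 (F := F) hM hG
      push_cast
      calc (G : ℝ) * (Nat.gcd w w' : ℝ) * (nu0 F G * nu (PM F G) w) *
            (nu0 F G * nu (PM F G) w') * (κ G i j w w' / (VR F G * (Nat.gcd w w' : ℝ)))
          = ((G : ℝ) * nu0 F G) * nu0 F G * (nu (PM F G) w * nu (PM F G) w' * κ G i j w w') *
            ((Nat.gcd w w' : ℝ) / (VR F G * (Nat.gcd w w' : ℝ))) := by ring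
        _ = nu0 F G * (nu (PM F G) w * nu (PM F G) w' * κ G i j w w') := by
            rw [h1]
            field_simp
    · rw [if_neg hGG]
      refine Finset.sum_eq_zero fun z _ => Finset.sum_eq_zero fun z' _ => ?_
      unfold kk
      rw [if_neg (fun h => hGG h.1), mul_zero]
  have e2 : ∑ i ∈ (cores F).sigma Zs, ∑ j ∈ (cores F).sigma Zs', ∑ z ∈ S i, ∑ z' ∈ S' j,
        (Nat.gcd z z' : ℝ) * nu M z * nu M z' * kk F κ i j z z' =
      ∑ G ∈ cores F, nu0 F G * ∑ i ∈ Zs G, ∑ j ∈ Zs' G, ∑ w ∈ R G i, ∑ w' ∈ R' G j,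
        nu (PM F G) w * nu (PM F G) w' * κ G i j w w' := by
    rw [Finset.sum_sigma]
    refine Finset.sum_congr rfl fun G hG => ?_
    rw [Finset.mul_sum]
    refine Finset.sum_congr rfl fun i _ => ?_
    rw [Finset.sum_sigma, Finset.sum_eq_single G]
    · rw [Finset.mul_sum]
      refine Finset.sum_congr rfl fun j _ => ?_
      rw [hleft G hG i G hG j, if_pos rfl]
    · intro G' hG' hne
      refine Finset.sum_eq_zero fun j _ => ?_
      rw [hleft G hG i G' hG' j, if_neg (fun h => hne h.symm)]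
    · intro hn
      exact absurd hG hn
  rw [e2]
  have e3 : ∑ i ∈ (cores F).sigma Zs, ∑ z ∈ S i, nu M z * XX F X i z =
      ∑ G ∈ cores F, nu0 F G * ∑ i ∈ Zs G, ∑ w ∈ R G i, nu (PM F G) w * X G i w := by
    rw [Finset.sum_sigma]
    refine Finset.sum_congr rfl fun G hG => ?_
    rw [Finset.mul_sum]
    exact Finset.sum_congr rfl fun i _ => dens_class hM hG X _ (hS _) i
  have e4 : ∑ j ∈ (cores F).sigma Zs', ∑ z ∈ S' j, nu M z * XX F X' j z =
      ∑ G ∈ cores F, nu0 F G * ∑ j ∈ Zs' G, ∑ w ∈ R' G j, nu (PM F G) w * X' G j w := by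
    rw [Finset.sum_sigma]
    refine Finset.sum_congr rfl fun G hG => ?_
    rw [Finset.mul_sum]
    exact Finset.sum_congr rfl fun j _ => dens_class hM hG X' _ (hS' _) j
  rw [e3, e4]
  have e5 : ∀ G ∈ cores F, nu0 F G * ∑ i ∈ Zs G, ∑ j ∈ Zs' G, ∑ w ∈ R G i, ∑ w' ∈ R' G j,
        nu (PM F G) w * nu (PM F G) w' * κ G i j w w' ≤
      nu0 F G * (C * (1 / l * (∑ i ∈ Zs G, ∑ w ∈ R G i, nu (PM F G) w * X G i w) +
          l * D * ∑ j ∈ Zs' G, ∑ w' ∈ R' G j, nu (PM F G) w' * X' G j w')) := fun G hG =>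
    mul_le_mul_of_nonneg_left (h G hG (R G) (R' G) (fun i => Finset.filter_subset _ _)
      (fun j => Finset.filter_subset _ _) l hl) (nu0_nonneg G)
  refine (Finset.sum_le_sum e5).trans (le_of_eq ?_)
  rw [Finset.mul_sum, Finset.mul_sum, ← Finset.sum_add_distrib, Finset.mul_sum]
  exact Finset.sum_congr rfl fun G _ => by ring

/-- the same in 252's form -/
theorem vbd_of_cores (hM : 0 < M) {Zs : ℕ → Finset ι} {Zs' : ℕ → Finset ι'}
    {κ : ℕ → ι → ι' → ℕ → ℕ → ℝ} {C D : ℝ}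
    {X : ℕ → ι → ℕ → ℝ} {X' : ℕ → ι' → ℕ → ℝ}
    (h : ∀ G ∈ cores F, ∀ (S : ι → Finset ℕ) (S' : ι' → Finset ℕ),
      (∀ i, S i ⊆ (PM F G).divisors) → (∀ j, S' j ⊆ (PM F G).divisors) → ∀ l : ℝ, 0 < l →
      ∑ i ∈ Zs G, ∑ j ∈ Zs' G, ∑ w ∈ S i, ∑ w' ∈ S' j,
          nu (PM F G) w * nu (PM F G) w' * κ G i j w w' ≤
        C * (1 / l * (∑ i ∈ Zs G, ∑ w ∈ S i, nu (PM F G) w * X G i w) +
          l * D * ∑ j ∈ Zs' G, ∑ w' ∈ S' j, nu (PM F G) w' * X' G j w')) :
    GWrelLayx252.VBd M ((cores F).sigma Zs) ((cores F).sigma Zs') (kk F κ) C D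
      (XX F X) (XX F X') := by
  intro S S' hS hS' l hl
  have := gbd_of_cores (F := F) hM h S S' hS hS' l hl
  refine this.trans (le_of_eq ?_)
  ring

open Classical in
/-- **class of words over the worlds of all cores of the upper part**: per-core conclusion of
LEMMA V, low word = function of the high parts on the class, weights and budgets per core, and every
pair of the class is charged to one pair of zones of its core. -/
theorem core_total (hM : 0 < M) (y : ℕ) (St : Finset ℕ) (F1 : FL (upp y M))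
    {Zs : ℕ → Finset ι} {Zs' : ℕ → Finset ι'}
    {κ : ℕ → ι → ι' → ℕ → ℕ → ℝ} (hκ : ∀ G i j w w', 0 ≤ κ G i j w w')
    {C D : ℝ} (hC : 0 ≤ C) (hD : 0 ≤ D)
    {X : ℕ → ι → ℕ → ℝ} {X' : ℕ → ι' → ℕ → ℝ} (hX : ∀ G i w, 0 ≤ X G i w)
    (hX' : ∀ G j w, 0 ≤ X' G j w)
    (h : ∀ G ∈ cores F1, ∀ (S : ι → Finset ℕ) (S' : ι' → Finset ℕ),
      (∀ i, S i ⊆ (PM F1 G).divisors) → (∀ j, S' j ⊆ (PM F1 G).divisors) → ∀ l : ℝ, 0 < l →
      ∑ i ∈ Zs G, ∑ j ∈ Zs' G, ∑ w ∈ S i, ∑ w' ∈ S' j,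
          nu (PM F1 G) w * nu (PM F1 G) w' * κ G i j w w' ≤
        C * (1 / l * (∑ i ∈ Zs G, ∑ w ∈ S i, nu (PM F1 G) w * X G i w) +
          l * D * ∑ j ∈ Zs' G, ∑ w' ∈ S' j, nu (PM F1 G) w' * X' G j w'))
    {A B : ℝ} (hA : 1 ≤ A) (hB : 1 ≤ B) (P : ℕ → ℕ → Prop) (wrd : ℕ → ℕ → ℕ × ℕ)
    (hw : ∀ b c, b ∣ M → c ∣ M → P b c →
      FixedWordx423.wd (low y b) (low y c) = wrd (upp y b) (upp y c) ∧
      A ≤ (wrd (upp y b) (upp y c)).1 ∧ B ≤ (wrd (upp y b) (upp y c)).2)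
    {W : ℕ → ι → ℕ → ℝ} {W' : ℕ → ι' → ℕ → ℝ} (hW0 : ∀ G i b, 0 ≤ W G i b)
    (hW1 : ∀ G i b, W G i b ≤ 1) (hW0' : ∀ G j b, 0 ≤ W' G j b)
    {f g : ℕ → ℝ} (hf0 : ∀ b, 0 ≤ f b) (hg0 : ∀ b, 0 ≤ g b) (hf1 : ∀ b, f b ≤ 1)
    {T : ℝ} (hT0 : 0 ≤ T)
    (hT : ∀ b, b ∣ M → ∑ i ∈ Zs (core F1 (upp y b)),
      X (core F1 (upp y b)) i (wd F1 (upp y b)) * W (core F1 (upp y b)) i b ≤ T)
    (hT' : ∀ b, b ∣ M → ∑ j ∈ Zs' (core F1 (upp y b)),
      X' (core F1 (upp y b)) j (wd F1 (upp y b)) * W' (core F1 (upp y b)) j b ≤ T)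
    (K : ℕ → ℕ → ℝ)
    (hK : ∀ b c, b ∣ M → c ∣ M → 0 < K b c → P b c ∧
      core F1 (upp y b) = core F1 (upp y c) ∧
      ∃ i ∈ Zs (core F1 (upp y b)), ∃ j ∈ Zs' (core F1 (upp y b)),
        K b c ≤ κ (core F1 (upp y b)) i j (wd F1 (upp y b)) (wd F1 (upp y c)) /
            (VR F1 (core F1 (upp y b)) *
              (Nat.gcd (wd F1 (upp y b)) (wd F1 (upp y c)) : ℝ)) *
          bst St (low y M) (low y b) (low y c) *
          min (W (core F1 (upp y b)) i b * f b) (W' (core F1 (upp y b)) j c * g c)) :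
    frm M K ≤ 8 * C * T * √D / √(A * B) * (√(Ex M f) * √(Ex M g)) := by
  have hup := upp_pos y M
  have hE := gbd_of_cores (F := F1) hup h
  have key := graph_total hM y St (Z := (cores F1).sigma Zs) (Z' := (cores F1).sigma Zs')
    (k := kk F1 κ) (kk_nonneg hκ) hC hD (X := XX F1 X) (X' := XX F1 X') (XX_nonneg hX)
    (XX_nonneg hX') hE hA hB (fun _ _ b c => P b c) (fun _ _ => wrd)
    (fun _ _ _ _ b c hb hc hP => hw b c hb hc hP)
    (W := fun i b => W i.1 i.2 b) (W' := fun j b => W' j.1 j.2 b)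
    (fun _ _ => hW0 _ _ _) (fun _ _ => hW1 _ _ _) (fun _ _ => hW0' _ _ _) hf0 hg0 hf1 hT0
    (fun b hb => ?_) (fun b hb => ?_)
  · refine le_trans ?_ key
    -- the pairs are charged to one pair of zones
    have e1 : ∀ i ∈ (cores F1).sigma Zs,
        ∑ j ∈ (cores F1).sigma Zs', frm M (fun b c => if P b c then
          kk F1 κ i j (upp y b) (upp y c) * bst St (low y M) (low y b) (low y c) *
            min (W i.1 i.2 b * f b) (W' j.1 j.2 c * g c) else 0) =
        frm M (fun b c => ∑ j ∈ (cores F1).sigma Zs', if P b c then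
          kk F1 κ i j (upp y b) (upp y c) * bst St (low y M) (low y b) (low y c) *
            min (W i.1 i.2 b * f b) (W' j.1 j.2 c * g c) else 0) := fun i _ =>
      HeavyLx50.frm_sum _ M _
    rw [Finset.sum_congr rfl e1, HeavyLx50.frm_sum]
    refine HeavyLx50.frm_mono fun b c hb hc => ?_
    have hbst : 0 ≤ bst St (low y M) (low y b) (low y c) := VecNPx50.bst_nonneg _ _ _ _
    have hterm : ∀ i ∈ (cores F1).sigma Zs, ∀ j ∈ (cores F1).sigma Zs',
        0 ≤ (if P b c then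
          kk F1 κ i j (upp y b) (upp y c) * bst St (low y M) (low y b) (low y c) *
            min (W i.1 i.2 b * f b) (W' j.1 j.2 c * g c) else 0) := by
      intro i _ j _
      split_ifs
      · exact mul_nonneg (mul_nonneg (kk_nonneg hκ _ _ _ _) hbst)
          (le_min (mul_nonneg (hW0 _ _ _) (hf0 _)) (mul_nonneg (hW0' _ _ _) (hg0 _)))
      · exact le_rfl
    rcases le_or_gt (K b c) 0 with h0 | h0
    · exact h0.trans (Finset.sum_nonneg fun i hi => Finset.sum_nonneg fun j hj => hterm i hi j hj)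
    · obtain ⟨hP, hcc, i, hi, j, hj, hle⟩ := hK b c hb hc h0
      have hub : upp y b ∣ upp y M := upp_dvd y hM.ne' hb
      have hG := core_mem (F := F1) hup hub
      set G := core F1 (upp y b) with hGdef
      have hi' : (⟨G, i⟩ : Σ _ : ℕ, ι) ∈ (cores F1).sigma Zs := Finset.mem_sigma.2 ⟨hG, hi⟩
      have hj' : (⟨G, j⟩ : Σ _ : ℕ, ι') ∈ (cores F1).sigma Zs' := Finset.mem_sigma.2 ⟨hG, hj⟩
      refine le_trans ?_ (Finset.single_le_sum
        (fun i hi => Finset.sum_nonneg fun j hj => hterm i hi j hj) hi')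
      refine le_trans ?_ (Finset.single_le_sum (fun j hj => hterm _ hi' j hj) hj')
      rw [if_pos hP]
      refine hle.trans (le_of_eq ?_)
      unfold kk
      rw [if_pos ⟨rfl, hGdef.symm, hcc.symm⟩]
  · have hub : upp y b ∣ upp y M := upp_dvd y hM.ne' hb
    have hG := core_mem (F := F1) hup hub
    rw [Finset.sum_sigma, Finset.sum_eq_single (core F1 (upp y b))]
    · refine le_trans (le_of_eq (Finset.sum_congr rfl fun i _ => ?_)) (hT b hb)
      unfold XX
      rw [if_pos rfl]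
    · intro G _ hne
      refine Finset.sum_eq_zero fun i _ => ?_
      unfold XX
      rw [if_neg (fun h => hne h.symm), zero_mul]
    · intro hn; exact absurd hG hn
  · have hub : upp y b ∣ upp y M := upp_dvd y hM.ne' hb
    have hG := core_mem (F := F1) hup hub
    rw [Finset.sum_sigma, Finset.sum_eq_single (core F1 (upp y b))]
    · refine le_trans (le_of_eq (Finset.sum_congr rfl fun i _ => ?_)) (hT' b hb)
      unfold XX
      rw [if_pos rfl]
    · intro G _ hne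
      refine Finset.sum_eq_zero fun i _ => ?_
      unfold XX
      rw [if_neg (fun h => hne h.symm), zero_mul]
    · intro hn; exact absurd hG hn

end Crest.Agent.R4C.GWcorex482
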