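import Crest.Agent.R4C.GWzone_9

/-!
# Row 4, GW section: all zones, word-dependent W, telescoping  (helper9, note 3599)

`zone_W`   : one zone with word-dependent weight `W ∈ [0,1]` (constant in the zone), `min(W b, W c)`.
`zones_W`  : sum over the zones.
`gw_scalar`: scalar corollary (`B1 = B2`, `lam = 1`) with a budget per word.
`tele`     : `W_{j+1} ≤ W_j (1 - y_j)`, `W_0 ≤ 1` ⟹ `∑_j W_j (y_j + y_{j+1}) ≤ 3`.
-/

set_option autoImplicit false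
set_option linter.unusedSectionVars false

open Finset MeasureTheory

noncomputable section

namespace Crest.Agent.R4C.GWmzx9

open Crest.Agent.R4C.GWzonex9

variable {Ω N Z : Type*} [DecidableEq Ω] [DecidableEq N]

lemma ind_two (a b : ℝ) :
    (fun x : ℝ => (if x < a then (1:ℝ) else 0) * (if x < b then (1:ℝ) else 0)) =
      (fun x : ℝ => if x < min a b then (1:ℝ) else 0) := by
  funext x
  by_cases h1 : x < a <;> by_cases h2 : x < b <;> simp [h1, h2]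

lemma int_two (a b : ℝ) (ha0 : 0 ≤ a) (ha1 : a ≤ 1) (hb0 : 0 ≤ b) :
    ∫ x in Set.Ioc (0:ℝ) 1, ((if x < a then (1:ℝ) else 0) * (if x < b then (1:ℝ) else 0)) =
      min a b := by
  rw [ind_two]
  exact int_lt _ (le_min ha0 hb0) ((min_le_left _ _).trans ha1)

lemma integrable_two (a b : ℝ) :
    IntegrableOn (fun x : ℝ => (if x < a then (1:ℝ) else 0) * (if x < b then (1:ℝ) else 0))
      (Set.Ioc 0 1) := by
  rw [ind_two]
  exact integrable_lt _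

/-- the statement of `zone_charge` for the alive words at threshold `x` -/
lemma zone_at {Nd : Finset N} {S : N → Finset Ω} {rk : N → ℕ} (hL : Lam Nd S rk)
    (B1 B2 : Finset Ω) (A : N → Finset Ω) (hA : ∀ n ∈ Nd, A n ⊆ S n ∩ B1)
    (hAd : ∀ n ∈ Nd, ∀ n' ∈ Nd, n ≠ n' → Disjoint (A n) (A n'))
    (f Y : Ω → ℝ) (hf : ∀ w, 0 ≤ f w) (hY : ∀ w, 0 ≤ Y w) (g : N → ℝ) (hg : ∀ n ∈ Nd, 0 < g n)
    (C1 κ : ℝ) (hC : 1 ≤ C1) (hκ : 0 ≤ κ)
    (hm1 : ∀ n ∈ Nd, ∑ w ∈ S n ∩ B1, f w ≤ g n) (hm2 : ∀ n ∈ Nd, ∑ w ∈ S n ∩ B2, f w ≤ g n)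
    (hyp1 : ∀ n ∈ Nd, ∀ s, 0 ≤ s → s ≤ 1 →
      ∑ w ∈ S n ∩ B1 with Y w ≤ s, f w ≤ C1 * (s + κ) * g n)
    (hyp2 : ∀ n ∈ Nd, ∀ s, 0 ≤ s → s ≤ 1 →
      ∑ w ∈ S n ∩ B2 with Y w ≤ s, f w ≤ C1 * (s + κ) * g n)
    (W : Ω → ℝ) (x lam : ℝ) (hlam : 0 < lam) :
    ∑ n ∈ Nd, (∑ b ∈ A n, ∑ c ∈ S n ∩ B2, f b * f c *
        ((if x < W b then (1:ℝ) else 0) * (if x < W c then (1:ℝ) else 0))) / g n ≤
      8 * C1 * ((∑ w ∈ (Nd.biUnion S) ∩ B1, f w * (Y w + κ) *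
          (if x < W w then (1:ℝ) else 0)) / lam +
        lam * ∑ w ∈ (Nd.biUnion S) ∩ B2, f w * (Y w + κ) * (if x < W w then (1:ℝ) else 0)) := by
  classical
  set p : Ω → Prop := fun w => x < W w with hp
  have sub : ∀ (T B : Finset Ω), T ∩ B.filter p ⊆ T ∩ B := fun T B =>
    inter_subset_inter_left (filter_subset _ _)
  have key := zone_charge hL (B1.filter p) (B2.filter p) (fun n => (A n).filter p)
    (fun n hn w hw => by
      rw [mem_filter] at hw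
      have := hA n hn hw.1
      rw [mem_inter] at this ⊢
      exact ⟨this.1, mem_filter.2 ⟨this.2, hw.2⟩⟩)
    (fun n hn n' hn' hne => (hAd n hn n' hn' hne).mono (filter_subset _ _) (filter_subset _ _))
    f Y hf hY g hg C1 κ hC hκ
    (fun n hn => (sum_le_sum_of_subset_of_nonneg (sub _ _) fun w _ _ => hf w).trans (hm1 n hn))
    (fun n hn => (sum_le_sum_of_subset_of_nonneg (sub _ _) fun w _ _ => hf w).trans (hm2 n hn))
    (fun n hn s h0 h1 => (sum_le_sum_of_subset_of_nonneg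
      (filter_subset_filter _ (sub _ _)) fun w _ _ => hf w).trans (hyp1 n hn s h0 h1))
    (fun n hn s h0 h1 => (sum_le_sum_of_subset_of_nonneg
      (filter_subset_filter _ (sub _ _)) fun w _ _ => hf w).trans (hyp2 n hn s h0 h1))
    lam hlam
  have e1 : ∀ n ∈ Nd, (∑ b ∈ A n, ∑ c ∈ S n ∩ B2, f b * f c *
        ((if x < W b then (1:ℝ) else 0) * (if x < W c then (1:ℝ) else 0))) / g n =
      (∑ w ∈ (A n).filter p, f w) * (∑ w ∈ S n ∩ B2.filter p, f w) / g n := by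
    intro n _
    congr 1
    rw [inter_filter, sum_filter, sum_filter, sum_mul_sum]
    refine sum_congr rfl fun b _ => sum_congr rfl fun c _ => ?_
    split_ifs <;> simp
  have e2 : ∀ B : Finset Ω, ∑ w ∈ (Nd.biUnion S) ∩ B, f w * (Y w + κ) *
      (if x < W w then (1:ℝ) else 0) = ∑ w ∈ (Nd.biUnion S) ∩ B.filter p, f w * (Y w + κ) := by
    intro B
    rw [inter_filter, sum_filter]
    refine sum_congr rfl fun w _ => ?_
    split_ifs <;> simp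
  rw [sum_congr rfl e1, e2 B1, e2 B2]
  exact key

/-- one zone, word-dependent weights -/
theorem zone_W {Nd : Finset N} {S : N → Finset Ω} {rk : N → ℕ} (hL : Lam Nd S rk)
    (B1 B2 : Finset Ω) (A : N → Finset Ω) (hA : ∀ n ∈ Nd, A n ⊆ S n ∩ B1)
    (hAd : ∀ n ∈ Nd, ∀ n' ∈ Nd, n ≠ n' → Disjoint (A n) (A n'))
    (f Y : Ω → ℝ) (hf : ∀ w, 0 ≤ f w) (hY : ∀ w, 0 ≤ Y w) (g : N → ℝ) (hg : ∀ n ∈ Nd, 0 < g n)
    (C1 κ : ℝ) (hC : 1 ≤ C1) (hκ : 0 ≤ κ)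
    (hm1 : ∀ n ∈ Nd, ∑ w ∈ S n ∩ B1, f w ≤ g n) (hm2 : ∀ n ∈ Nd, ∑ w ∈ S n ∩ B2, f w ≤ g n)
    (hyp1 : ∀ n ∈ Nd, ∀ s, 0 ≤ s → s ≤ 1 →
      ∑ w ∈ S n ∩ B1 with Y w ≤ s, f w ≤ C1 * (s + κ) * g n)
    (hyp2 : ∀ n ∈ Nd, ∀ s, 0 ≤ s → s ≤ 1 →
      ∑ w ∈ S n ∩ B2 with Y w ≤ s, f w ≤ C1 * (s + κ) * g n)
    (W : Ω → ℝ) (hW0 : ∀ w, 0 ≤ W w) (hW1 : ∀ w, W w ≤ 1)
    (lam : ℝ) (hlam : 0 < lam) :
    ∑ n ∈ Nd, (∑ b ∈ A n, ∑ c ∈ S n ∩ B2, f b * f c * min (W b) (W c)) / g n ≤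
      8 * C1 * ((∑ w ∈ (Nd.biUnion S) ∩ B1, f w * (Y w + κ) * W w) / lam +
        lam * ∑ w ∈ (Nd.biUnion S) ∩ B2, f w * (Y w + κ) * W w) := by
  classical
  have hpt := zone_at hL B1 B2 A hA hAd f Y hf hY g hg C1 κ hC hκ hm1 hm2 hyp1 hyp2 W
  -- left side
  have hLint : ∀ n, Integrable (fun x : ℝ => (∑ b ∈ A n, ∑ c ∈ S n ∩ B2, f b * f c *
        ((if x < W b then (1:ℝ) else 0) * (if x < W c then (1:ℝ) else 0))) / g n)
        (volume.restrict (Set.Ioc 0 1)) := by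
    intro n
    apply Integrable.div_const
    exact integrable_finsetSum _ fun b _ => integrable_finsetSum _ fun c _ =>
      (integrable_two _ _).const_mul _
  have hLeq : ∀ n, ∫ x in Set.Ioc (0:ℝ) 1, (∑ b ∈ A n, ∑ c ∈ S n ∩ B2, f b * f c *
        ((if x < W b then (1:ℝ) else 0) * (if x < W c then (1:ℝ) else 0))) / g n =
      (∑ b ∈ A n, ∑ c ∈ S n ∩ B2, f b * f c * min (W b) (W c)) / g n := by
    intro n
    rw [integral_div]
    congr 1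
    rw [integral_finsetSum _ fun b _ => integrable_finsetSum _ fun c _ =>
      (integrable_two _ _).const_mul _]
    refine sum_congr rfl fun b _ => ?_
    rw [integral_finsetSum _ fun c _ => (integrable_two _ _).const_mul _]
    refine sum_congr rfl fun c _ => ?_
    rw [integral_const_mul, int_two _ _ (hW0 b) (hW1 b) (hW0 c)]
  -- right side
  have hRint : ∀ B : Finset Ω, Integrable (fun x : ℝ => ∑ w ∈ (Nd.biUnion S) ∩ B,
      f w * (Y w + κ) * (if x < W w then (1:ℝ) else 0)) (volume.restrict (Set.Ioc 0 1)) :=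
    fun B => integrable_finsetSum _ fun w _ => (integrable_lt _).const_mul _
  have hReq : ∀ B : Finset Ω, ∫ x in Set.Ioc (0:ℝ) 1, ∑ w ∈ (Nd.biUnion S) ∩ B,
      f w * (Y w + κ) * (if x < W w then (1:ℝ) else 0) =
      ∑ w ∈ (Nd.biUnion S) ∩ B, f w * (Y w + κ) * W w := by
    intro B
    rw [integral_finsetSum _ fun w _ => (integrable_lt _).const_mul _]
    refine sum_congr rfl fun w _ => ?_
    rw [integral_const_mul, int_lt _ (hW0 w) (hW1 w)]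
  have hmono := integral_mono (μ := volume.restrict (Set.Ioc (0:ℝ) 1))
    (integrable_finsetSum Nd fun n _ => hLint n)
    ((((hRint B1).div_const lam).add ((hRint B2).const_mul lam)).const_mul (8 * C1))
    (fun x => hpt x lam hlam)
  rw [integral_finsetSum _ fun n _ => hLint n, sum_congr rfl fun n _ => hLeq n] at hmono
  refine hmono.trans (le_of_eq ?_)
  rw [integral_const_mul]
  congr 1
  have h1 : ∫ x in Set.Ioc (0:ℝ) 1, ((fun x : ℝ => (∑ w ∈ (Nd.biUnion S) ∩ B1,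
      f w * (Y w + κ) * (if x < W w then (1:ℝ) else 0)) / lam) x +
      (fun x : ℝ => lam * ∑ w ∈ (Nd.biUnion S) ∩ B2,
      f w * (Y w + κ) * (if x < W w then (1:ℝ) else 0)) x) =
      (∑ w ∈ (Nd.biUnion S) ∩ B1, f w * (Y w + κ) * W w) / lam +
        lam * ∑ w ∈ (Nd.biUnion S) ∩ B2, f w * (Y w + κ) * W w := by
    rw [integral_add ((hRint B1).div_const lam) ((hRint B2).const_mul lam), integral_div,
      integral_const_mul, hReq B1, hReq B2]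
  exact h1

/-- data of the zones -/
structure ZD (Ω N Z : Type*) [DecidableEq Ω] [DecidableEq N] where
  Zs : Finset Z
  Nd : Z → Finset N
  S : Z → N → Finset Ω
  A : Z → N → Finset Ω
  rk : Z → N → ℕ
  g : Z → N → ℝ
  Y : Z → Ω → ℝ
  κ : Z → ℝ
  W : Z → Ω → ℝ

/-- the words of a zone -/
def ZD.zone (D : ZD Ω N Z) (z : Z) : Finset Ω := (D.Nd z).biUnion (D.S z)

/-- the hypotheses (for a target set `B` of words) -/
structure ZD.Ok (D : ZD Ω N Z) (B : Finset Ω) (f : Ω → ℝ) (C1 : ℝ) : Prop where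
  hf : ∀ w, 0 ≤ f w
  hC : 1 ≤ C1
  lam : ∀ z ∈ D.Zs, Lam (D.Nd z) (D.S z) (D.rk z)
  hAd : ∀ z ∈ D.Zs, ∀ n ∈ D.Nd z, ∀ n' ∈ D.Nd z, n ≠ n' → Disjoint (D.A z n) (D.A z n')
  hAS : ∀ z ∈ D.Zs, ∀ n ∈ D.Nd z, D.A z n ⊆ D.S z n
  hY : ∀ z ∈ D.Zs, ∀ w, 0 ≤ D.Y z w
  hg : ∀ z ∈ D.Zs, ∀ n ∈ D.Nd z, 0 < D.g z n
  hκ : ∀ z ∈ D.Zs, 0 ≤ D.κ z
  hm : ∀ z ∈ D.Zs, ∀ n ∈ D.Nd z, ∑ w ∈ D.S z n ∩ B, f w ≤ D.g z n
  hyp : ∀ z ∈ D.Zs, ∀ n ∈ D.Nd z, ∀ s, 0 ≤ s → s ≤ 1 →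
      ∑ w ∈ D.S z n ∩ B with D.Y z w ≤ s, f w ≤ C1 * (s + D.κ z) * D.g z n
  hW0 : ∀ z ∈ D.Zs, ∀ w, 0 ≤ D.W z w
  hW1 : ∀ z ∈ D.Zs, ∀ w, D.W z w ≤ 1

/-- all zones, bilinear: `B1, B2 ⊆ B`. -/
theorem zones_W (D : ZD Ω N Z) (B B1 B2 : Finset Ω) (f : Ω → ℝ) (C1 : ℝ) (h : D.Ok B f C1)
    (h1 : B1 ⊆ B) (h2 : B2 ⊆ B) (lam : ℝ) (hlam : 0 < lam) :
    ∑ z ∈ D.Zs, ∑ n ∈ D.Nd z, (∑ b ∈ D.A z n ∩ B1, ∑ c ∈ D.S z n ∩ B2,
        f b * f c * min (D.W z b) (D.W z c)) / D.g z n ≤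
      8 * C1 * ((∑ z ∈ D.Zs, ∑ w ∈ D.zone z ∩ B1, f w * (D.Y z w + D.κ z) * D.W z w) / lam +
        lam * ∑ z ∈ D.Zs, ∑ w ∈ D.zone z ∩ B2, f w * (D.Y z w + D.κ z) * D.W z w) := by
  classical
  have hf := h.hf
  have key : ∀ z ∈ D.Zs, ∑ n ∈ D.Nd z, (∑ b ∈ D.A z n ∩ B1, ∑ c ∈ D.S z n ∩ B2,
        f b * f c * min (D.W z b) (D.W z c)) / D.g z n ≤
      8 * C1 * ((∑ w ∈ D.zone z ∩ B1, f w * (D.Y z w + D.κ z) * D.W z w) / lam +
        lam * ∑ w ∈ D.zone z ∩ B2, f w * (D.Y z w + D.κ z) * D.W z w) := by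
    intro z hz
    have sub : ∀ (T : Finset Ω) {B' : Finset Ω}, B' ⊆ B → T ∩ B' ⊆ T ∩ B := fun T B' hB' =>
      inter_subset_inter_left hB'
    exact zone_W (h.lam z hz) B1 B2 (fun n => D.A z n ∩ B1)
      (fun n hn => inter_subset_inter_right (h.hAS z hz n hn))
      (fun n hn n' hn' hne => (h.hAd z hz n hn n' hn' hne).mono inter_subset_left
        inter_subset_left)
      f (D.Y z) hf (h.hY z hz) (D.g z) (h.hg z hz) C1 (D.κ z) h.hC (h.hκ z hz)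
      (fun n hn => (sum_le_sum_of_subset_of_nonneg (sub _ h1) fun w _ _ => hf w).trans
        (h.hm z hz n hn))
      (fun n hn => (sum_le_sum_of_subset_of_nonneg (sub _ h2) fun w _ _ => hf w).trans
        (h.hm z hz n hn))
      (fun n hn s h0 h1' => (sum_le_sum_of_subset_of_nonneg
        (filter_subset_filter _ (sub _ h1)) fun w _ _ => hf w).trans (h.hyp z hz n hn s h0 h1'))
      (fun n hn s h0 h1' => (sum_le_sum_of_subset_of_nonneg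
        (filter_subset_filter _ (sub _ h2)) fun w _ _ => hf w).trans (h.hyp z hz n hn s h0 h1'))
      (D.W z) (h.hW0 z hz) (h.hW1 z hz) lam hlam
  refine (sum_le_sum key).trans (le_of_eq ?_)
  rw [← mul_sum, sum_add_distrib, ← sum_div, ← mul_sum]

/-- scalar corollary with a budget per word -/
theorem gw_scalar (D : ZD Ω N Z) (B : Finset Ω) (f : Ω → ℝ) (C1 T : ℝ) (h : D.Ok B f C1)
    (hT : ∀ w ∈ B, ∑ z ∈ D.Zs with w ∈ D.zone z, D.W z w * (D.Y z w + D.κ z) ≤ T) :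
    ∑ z ∈ D.Zs, ∑ n ∈ D.Nd z, (∑ b ∈ D.A z n ∩ B, ∑ c ∈ D.S z n ∩ B,
        f b * f c * min (D.W z b) (D.W z c)) / D.g z n ≤
      16 * C1 * T * ∑ w ∈ B, f w := by
  classical
  have hC0 : 0 < C1 := by have := h.hC; linarith
  have key := zones_W D B B B f C1 h Subset.rfl Subset.rfl 1 one_pos
  have hE : ∑ z ∈ D.Zs, ∑ w ∈ D.zone z ∩ B, f w * (D.Y z w + D.κ z) * D.W z w ≤
      T * ∑ w ∈ B, f w := by
    have e1 : ∀ z ∈ D.Zs, ∑ w ∈ D.zone z ∩ B, f w * (D.Y z w + D.κ z) * D.W z w =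
        ∑ w ∈ B, if w ∈ D.zone z then f w * (D.Y z w + D.κ z) * D.W z w else 0 := by
      intro z _
      rw [← sum_filter]
      congr 1
      ext w
      simp [and_comm]
    rw [sum_congr rfl e1, sum_comm, mul_sum]
    refine sum_le_sum fun w hw => ?_
    rw [← sum_filter]
    have e2 : ∑ z ∈ D.Zs with w ∈ D.zone z, f w * (D.Y z w + D.κ z) * D.W z w =
        f w * ∑ z ∈ D.Zs with w ∈ D.zone z, D.W z w * (D.Y z w + D.κ z) := by
      rw [mul_sum]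
      exact sum_congr rfl fun z _ => by ring
    rw [e2, mul_comm T]
    exact mul_le_mul_of_nonneg_left (hT w hw) (h.hf w)
  refine key.trans ?_
  rw [div_one, one_mul]
  have := mul_le_mul_of_nonneg_left hE (by positivity : (0:ℝ) ≤ 8 * C1)
  linarith

/-- telescoping -/
lemma tele (W y : ℕ → ℝ) (hy0 : ∀ j, 0 ≤ y j) (hy1 : ∀ j, y j ≤ 1) (hW : ∀ j, 0 ≤ W j)
    (hW0 : W 0 ≤ 1) (hstep : ∀ j, W (j+1) ≤ W j * (1 - y j)) (J : ℕ) :
    ∑ j ∈ range J, W j * (y j + y (j+1)) ≤ 3 := by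
  have key : ∀ j, W j * (y j + y (j+1)) ≤ (W j - W (j+1)) + ((W j - W (j+1)) + (W (j+1) - W (j+2))) := by
    intro j
    have h1 := hstep j
    have h2 := hstep (j+1)
    have h3 : 0 ≤ W j - W (j+1) := by
      have : W j * y j ≥ 0 := mul_nonneg (hW j) (hy0 j)
      nlinarith
    have h4 : (W j - W (j+1)) * y (j+1) ≤ (W j - W (j+1)) * 1 :=
      mul_le_mul_of_nonneg_left (hy1 _) h3
    nlinarith
  calc ∑ j ∈ range J, W j * (y j + y (j+1))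
      ≤ ∑ j ∈ range J, ((W j - W (j+1)) + ((W j - W (j+1)) + (W (j+1) - W (j+2)))) :=
        sum_le_sum fun j _ => key j
    _ = (W 0 - W J) + ((W 0 - W J) + (W 1 - W (J+1))) := by
        rw [sum_add_distrib, sum_add_distrib, sum_range_sub', sum_range_sub' (fun j => W (j+1))]
    _ ≤ 3 := by
        have h1 := hW J
        have h2 := hW (J+1)
        have h3 := hstep 0
        have h4 : 0 ≤ W 0 * y 0 := mul_nonneg (hW 0) (hy0 0)
        simp only [zero_add] at h3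
        nlinarith

end Crest.Agent.R4C.GWmzx9
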