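import Crest.Agent.R4C.Cell_863
import Crest.Agent.R4C.GWmz_9
import Crest.Agent.R4C.NHdef_656

/-!
# Row 4, GW section, scalar case: nodes, cells, births, zones of a prefix world (helper982)

World: base `G0`, words `w ∣ N` (`b = G0 * w`), `e i w = G0 * low (cut i) w`, scale
`tt i w = e i w / L`, point `yy i w = upp (cut i) w * γ`.

* `nd i w`        : `i` is a node index of `w`: `i0 ≤ i`, `2^i L ≤ e i w < 2^(i+1) L`;
* `lab i w`       : the node `(i, low (cut i) w, cell)`, cells of `Cell_863` (nested);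
* `S ν`           : the words of the node `ν`;
* `prev i w`, `light i w`, `birth i w`, `bi i w` (last birth `≤ i`), `zone i w = lab (bi i w) w`;
* `Zs`, `Nd z`, `A z ν` : zones, nodes of a zone, words that leave the zone at `ν`;
* `Wp a b w`, `W z w`, `Y z w` : coins;  `zd` : the `ZD` of `GWmz_9`.
-/

set_option autoImplicit false

open Finset
open Crest.Agent.R4C.Basex935 Crest.Agent.R4C.Cutx50 Crest.Agent.R4C.PrefixMx882
open Crest.Agent.R4C.Cellx863 (Nc mesh Qe)
open Crest.Agent.R4C.NHx656 (On)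

namespace Crest.Agent.R4C.GWdefx982

/-- nodes -/
abbrev Node := ℕ × ℕ × ℤ

/-- a prefix world -/
structure World where
  /-- modulus of the words -/
  N : ℕ
  /-- base -/
  G0 : ℕ
  /-- window -/
  L : ℝ
  /-- cuts -/
  cut : ℕ → ℕ
  /-- the shift -/
  γ : ℝ
  /-- first index -/
  i0 : ℕ
  /-- bound of the indices -/
  top : ℕ
  /-- light threshold at the scale `2^i` -/
  θ : ℕ → ℝ
  /-- shift of the cells (`0` or `1/2`) -/
  σ : ℝ
  /-- `coin w p` : the word `w` has a coin at the missing prime `p` -/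
  coin : ℕ → ℕ → Prop
  /-- constant of `κ` -/
  K1 : ℝ
  /-- exponent (not used by `kap`) -/
  c : ℝ

namespace World

variable (Z : World)

/-- the pure gcd at the cut `i` -/
def e (i w : ℕ) : ℕ := Z.G0 * low (Z.cut i) w

/-- scale of `w` at the cut `i` -/
noncomputable def tt (i w : ℕ) : ℝ := (Z.e i w : ℝ) / Z.L

/-- point of `w` at the cut `i` -/
noncomputable def yy (i w : ℕ) : ℝ := (upp (Z.cut i) w : ℝ) * Z.γ

/-- node index -/
def nd (i w : ℕ) : Prop :=
  Z.i0 ≤ i ∧ (2 : ℝ) ^ i * Z.L ≤ Z.e i w ∧ (Z.e i w : ℝ) < 2 ^ (i + 1) * Z.L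

open Classical in
/-- first node index -/
noncomputable def first (w : ℕ) : ℕ := if h : ∃ i, Z.nd i w then Nat.find h else 0

/-- the first node -/
noncomputable def e1 (w : ℕ) : ℕ := Z.e (Z.first w) w

/-- number of cells at the node `i` -/
noncomputable def Q (i w : ℕ) : ℕ := Qe Z.L (Z.e1 w) (Z.e i w)

/-- number of the cell of `w` (a static integer) -/
noncomputable def cel (w : ℕ) : ℤ := Nc Z.γ (mesh Z.L (Z.e1 w)) Z.σ (Z.G0 * w)

/-- the node of index `i` of `w` -/
noncomputable def lab (i w : ℕ) : Node := (i, low (Z.cut i) w, Z.cel w % (Z.Q i w : ℤ))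

open Classical in
/-- the words of a node -/
noncomputable def S (ν : Node) : Finset ℕ :=
  Z.N.divisors.filter fun w => Z.nd ν.1 w ∧ Z.lab ν.1 w = ν

/-- there is a lower node -/
def hasPrev (i w : ℕ) : Prop := ∃ i', i' < i ∧ Z.nd i' w

open Classical in
/-- index of the previous node (`0` if none) -/
noncomputable def prev (i w : ℕ) : ℕ := Nat.findGreatest (fun i' => i' < i ∧ Z.nd i' w) i

/-- some word of the cell has depth `< θ` (scale of the previous node) -/
def light (i w : ℕ) : Prop :=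
  ∃ w' ∈ Z.S (Z.lab i w), On (Z.θ (Z.prev i w)) (Z.yy i w') (Z.tt i w')

/-- birth node -/
def birth (i w : ℕ) : Prop := Z.nd i w ∧ ¬ (Z.hasPrev i w ∧ Z.light i w)

open Classical in
/-- last birth index `≤ i` -/
noncomputable def bi (i w : ℕ) : ℕ := Nat.findGreatest (fun i' => Z.birth i' w) i

/-- the zone of the node `(i, w)` = its birth node -/
noncomputable def zone (i w : ℕ) : Node := Z.lab (Z.bi i w) w

open Classical in
/-- the zones -/
noncomputable def Zs : Finset Node :=
  ((range (Z.top + 1) ×ˢ Z.N.divisors).filter fun x => Z.birth x.1 x.2).image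
    fun x => Z.lab x.1 x.2

open Classical in
/-- the nodes of a zone -/
noncomputable def Nd (z : Node) : Finset Node :=
  ((range (Z.top + 1) ×ˢ Z.N.divisors).filter fun x => Z.nd x.1 x.2 ∧ Z.zone x.1 x.2 = z).image
    fun x => Z.lab x.1 x.2

open Classical in
/-- the words that leave the zone `z` at its node `ν` -/
noncomputable def A (z ν : Node) : Finset ℕ :=
  Z.S ν \ ((Z.Nd z).filter fun ν' => ν.1 < ν'.1).biUnion Z.S

open Classical in
/-- product of the coins of `w` in `(a, b]` -/
noncomputable def Wp (a b w : ℕ) : ℝ :=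
  ∏ p ∈ (free Z.N w).filter fun p => a < p ∧ p ≤ b ∧ Z.coin w p, (1 - 1 / (p : ℝ))

/-- coins below the birth node of the zone -/
noncomputable def W (z : Node) (w : ℕ) : ℝ := Z.Wp 0 (Z.cut z.1) w

/-- there is a later birth -/
def hasNb (i w : ℕ) : Prop := ∃ i', i < i' ∧ i' ≤ Z.top ∧ Z.birth i' w

open Classical in
/-- next birth index -/
noncomputable def nb (i w : ℕ) : ℕ := if h : Z.hasNb i w then Nat.find h else 0

open Classical in
/-- loss of coins up to the second next birth (`1` if there is none) -/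
noncomputable def Y (z : Node) (w : ℕ) : ℝ :=
  if Z.hasNb z.1 w ∧ Z.hasNb (Z.nb z.1 w) w then
    1 - Z.Wp (Z.cut z.1) (Z.cut (Z.nb (Z.nb z.1 w) w)) w else 1

open Classical in
/-- index of the node before the birth node `z` (`0` if none) -/
noncomputable def pz (z : Node) : ℕ := if h : (Z.S z).Nonempty then Z.prev z.1 h.choose else 0

/-- the additive error of the natural hypothesis (`K1` for the first zone) -/
noncomputable def kap (z : Node) : ℝ := Z.K1 / ((Z.pz z : ℝ) + 1)

/-- natural mass of the prefix class of a node -/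
noncomputable def g (ν : Node) : ℝ := nu (low (Z.cut ν.1) Z.N) ν.2.1

/-- the data of the abstract GW lemma -/
noncomputable def zd : GWmzx9.ZD ℕ Node Node where
  Zs := Z.Zs
  Nd := Z.Nd
  S := fun _ ν => Z.S ν
  A := Z.A
  rk := fun _ ν => ν.1
  g := fun _ ν => Z.g ν
  Y := Z.Y
  κ := Z.kap
  W := Z.W

/-- hypotheses on the world -/
structure Ok : Prop where
  hN : 0 < Z.N
  hG : 0 < Z.G0
  hL : 0 < Z.L
  hcut : Monotone Z.cut
  hcut2 : ∀ i, 2 ^ i ≤ Z.cut i
  hi0 : 3 ≤ Z.i0
  /-- all node indices are `≤ top` -/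
  htop : ((Z.G0 * Z.N : ℕ) : ℝ) < 2 ^ (Z.top + 1) * Z.L
  hσ : 0 ≤ Z.σ
  hθ : ∀ i, Z.i0 ≤ i → 1 < Z.θ i
  hK1 : 1 ≤ Z.K1
  hc : 0 < Z.c

end World

end Crest.Agent.R4C.GWdefx982
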