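import Crest.Agent.R4C.KyCls_971

/-!
# Row 4: `B1` off the `K_y` event, low words (helper971)  (= (F6) of the GW section)

For a pair of level `t` (`LevT F P t b c h`), off `CKyP`, `x = P.cut t ≥ t`, low words
`u = low x (b/g)`, `v = low x (c/g)`:

* `B1_off_low` : `B1 b c ≤ exp 2 * ∏_{p ∣ u v} pf p`;
* `B1_off_one` : `u = v = 1` ⟹ `B1 b c ≤ exp 2`;
* `boost_off_low`, `boost_off_one` : the same for `boostB`, with `bst (prQ (P.cut (2 t)))` kept;
* `prod_pf_rpow` : `∏_{p ∣ n} pf p ≤ C n^ε`.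
-/

set_option autoImplicit false

open Finset

namespace Crest.Agent.R4C.KyPurex971

open Crest.Agent.R4C.Basex935 Crest.Agent.R4C.FLDefx935 Crest.Agent.R4C.BoostCx972
  Crest.Agent.R4C.CrCoinx935 Crest.Agent.R4C.CrCountx935 Crest.Agent.R4C.Bridgex882
  Crest.Agent.R4C.Rulex945 Crest.Agent.R4C.Sharedx11 Crest.Agent.R4C.Cutx50
  Crest.Agent.R4C.Splitx945 Crest.Agent.R4C.Spinex946 Crest.Agent.R4C.Kyx952
  Crest.Agent.R4C.Topx971 Crest.Agent.R4C.KyClsx971

/-- primes of a low part -/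
lemma dvd_low {x n p : ℕ} (hn : n ≠ 0) (hp : p.Prime) (hx : p ≤ x) (h : p ∣ n) : p ∣ low x n := by
  refine Nat.dvd_of_factorization_pos ?_
  rw [fact_low, if_pos hx]
  exact (hp.factorization_pos_of_dvd hn h).ne'

lemma pf_eq (p : ℕ) : pf p = (1 - 1 / (p : ℝ))⁻¹ := rfl

/-- low part of `B1` by the low words -/
lemma B1lo_le_low {b c x : ℕ} (hb : 0 < b) (hc : 0 < c) {y : ℝ} (hy : y ≤ x) :
    B1lo y b c ≤ ∏ p ∈ (low x (b / Nat.gcd b c) * low x (c / Nat.gcd b c)).primeFactors, pf p := by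
  classical
  have hg : 0 < Nat.gcd b c := Nat.gcd_pos_of_pos_left _ hb
  have hs : b / Nat.gcd b c ≠ 0 :=
    (Nat.div_pos (Nat.le_of_dvd hb (Nat.gcd_dvd_left _ _)) hg).ne'
  have hs' : c / Nat.gcd b c ≠ 0 :=
    (Nat.div_pos (Nat.le_of_dvd hc (Nat.gcd_dvd_right _ _)) hg).ne'
  unfold B1lo
  simp only [← pf_eq]
  refine prod_pf_mono ?_ fun p hp => Nat.prime_of_mem_primeFactors hp
  intro p hp
  rw [mem_filter] at hp
  have hpp := Nat.prime_of_mem_primeFactors hp.1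
  have hpx : p ≤ x := by
    have : (p : ℝ) ≤ x := hp.2.trans hy
    exact_mod_cast this
  have hd := Nat.dvd_of_mem_primeFactors hp.1
  unfold cof at hd
  rw [Nat.mem_primeFactors]
  refine ⟨hpp, ?_, (Nat.mul_pos (low_pos _ _) (low_pos _ _)).ne'⟩
  rcases (Nat.Prime.dvd_mul hpp).1 hd with h | h
  · exact Dvd.dvd.mul_right (dvd_low hs hpp hpx h) _
  · exact Dvd.dvd.mul_left (dvd_low hs' hpp hpx h) _

section off

variable {M : ℕ} {F : FL M} {P : Par} {b c t : ℕ} {h : ℤ}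

/-- **`B1` off the event: the low words** -/
theorem B1_off_low (H : LevT F P t b c h) (hn : ¬ CKyP F P b c h) (hb : 0 < b) (hc : 0 < c)
    (ht : t ≤ P.cut t) : B1 b c ≤ Real.exp 2 *
      ∏ p ∈ (low (P.cut t) (b / Nat.gcd b c) * low (P.cut t) (c / Nat.gcd b c)).primeFactors,
        pf p := by
  refine (B1_off_ky_lo H hn).trans (mul_le_mul_of_nonneg_left ?_ (Real.exp_pos _).le)
  exact B1lo_le_low hb hc (by exact_mod_cast ht)

/-- **`B1` off the event, low words `1`** -/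
theorem B1_off_one (H : LevT F P t b c h) (hn : ¬ CKyP F P b c h) (hb : 0 < b) (hc : 0 < c)
    (ht : t ≤ P.cut t) (h1 : low (P.cut t) (b / Nat.gcd b c) = 1)
    (h2 : low (P.cut t) (c / Nat.gcd b c) = 1) : B1 b c ≤ Real.exp 2 := by
  have h3 := B1_off_low H hn hb hc ht
  rw [h1, h2] at h3
  simpa using h3

end off

section par

variable {M : ℕ} {F : FL M} {cp γ L : ℝ} {A m0 : ℕ} {B : Finset ℕ}

lemma t_le_cut (hA : 1 ≤ A) (t : ℕ) : t ≤ (ParOf cp A m0 γ L M B).cut t := by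
  rw [cut_eq]
  have h1 : t < 2 ^ t := Nat.lt_two_pow_self
  have h2 : 2 ^ t ≤ 2 ^ (A * t) := Nat.pow_le_pow_right (by norm_num) (Nat.le_mul_of_pos_left _ hA)
  omega

/-- **boost off the event: low words and `bst` kept** -/
theorem boost_off_low (hM : 0 < M) {b c : ℕ} (hb : b ∣ M) (hc : c ∣ M) (hL : 0 < L) (hA : 1 ≤ A)
    {t : ℕ} (ht : 1 ≤ t) {h : ℤ} (hl : h ∈ Lnk γ L b c)
    (H : LevT F (ParOf cp A m0 γ L M B) t b c h) (hn : ¬ CKyP F (ParOf cp A m0 γ L M B) b c h) :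
    boostB M (lamOf cp A m0 γ L M B F) b c h ≤ Real.exp 1200 * Real.exp 2 *
      (∏ p ∈ (low ((ParOf cp A m0 γ L M B).cut t) (b / Nat.gcd b c) *
        low ((ParOf cp A m0 γ L M B).cut t) (c / Nat.gcd b c)).primeFactors, pf p) *
      BoostRx398.bst (BoostTopx19.prQ ((ParOf cp A m0 γ L M B).cut (2 * t))) M b c := by
  refine (boost_lev_bst hM hb hc hL hA ht hl H).trans ?_
  have h1 := B1_off_low H hn (Nat.pos_of_dvd_of_pos hb hM) (Nat.pos_of_dvd_of_pos hc hM)
    (t_le_cut hA t)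
  have h2 := BoostAlx100.bst_nonneg ((ParOf cp A m0 γ L M B).cut (2 * t)) M b c
  refine (mul_le_mul_of_nonneg_left (mul_le_mul_of_nonneg_right h1 h2)
    (Real.exp_pos 1200).le).trans (le_of_eq ?_)
  ring

/-- **boost off the event, low words `1`, `bst` kept** -/
theorem boost_off_one (hM : 0 < M) {b c : ℕ} (hb : b ∣ M) (hc : c ∣ M) (hL : 0 < L) (hA : 1 ≤ A)
    {t : ℕ} (ht : 1 ≤ t) {h : ℤ} (hl : h ∈ Lnk γ L b c)
    (H : LevT F (ParOf cp A m0 γ L M B) t b c h) (hn : ¬ CKyP F (ParOf cp A m0 γ L M B) b c h)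
    (h1 : low ((ParOf cp A m0 γ L M B).cut t) (b / Nat.gcd b c) = 1)
    (h2 : low ((ParOf cp A m0 γ L M B).cut t) (c / Nat.gcd b c) = 1) :
    boostB M (lamOf cp A m0 γ L M B F) b c h ≤ Real.exp 1200 * Real.exp 2 *
      BoostRx398.bst (BoostTopx19.prQ ((ParOf cp A m0 γ L M B).cut (2 * t))) M b c := by
  have h3 := boost_off_low hM hb hc hL hA ht hl H hn
  rw [h1, h2] at h3
  simpa using h3

end par

/-! ### `n / φ n` is at most `C n^ε` -/

/-- `∏_{p ∣ n} pf p ≤ C n^ε` -/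
theorem prod_pf_rpow {ε : ℝ} (hε : 0 < ε) : ∃ C : ℝ, 1 ≤ C ∧ ∀ n : ℕ, n ≠ 0 →
    ∏ p ∈ n.primeFactors, pf p ≤ C * (n : ℝ) ^ ε := by
  classical
  -- `p ^ ε ≥ 2` for `p ≥ p0`
  obtain ⟨p0, hp0⟩ : ∃ p0 : ℕ, (2 : ℝ) ^ (1 / ε) ≤ p0 := exists_nat_ge _
  have hpf : ∀ p : ℕ, p.Prime → pf p ≤ 2 := by
    intro p hp
    rw [pf_eq]
    have h2 : (2 : ℝ) ≤ p := by exact_mod_cast hp.two_le
    have h3 : 1 / (p : ℝ) ≤ 1 / 2 := one_div_le_one_div_of_le (by norm_num) h2
    rw [inv_le_comm₀ (by linarith) (by norm_num)]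
    linarith
  refine ⟨2 ^ p0, one_le_pow₀ (by norm_num), fun n hn => ?_⟩
  rw [← Finset.prod_filter_mul_prod_filter_not n.primeFactors (fun p => p < p0)]
  have h1 : ∏ p ∈ n.primeFactors.filter (fun p => p < p0), pf p ≤ 2 ^ p0 := by
    calc ∏ p ∈ n.primeFactors.filter (fun p => p < p0), pf p ≤
        ∏ _p ∈ n.primeFactors.filter (fun p => p < p0), (2 : ℝ) :=
          prod_le_prod (fun p hp => (pf_pos (Nat.prime_of_mem_primeFactors
            (mem_filter.1 hp).1)).le) fun p hp =>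
            hpf p (Nat.prime_of_mem_primeFactors (mem_filter.1 hp).1)
      _ = 2 ^ (n.primeFactors.filter (fun p => p < p0)).card := by rw [prod_const]
      _ ≤ 2 ^ p0 := by
          refine pow_le_pow_right₀ (by norm_num) ?_
          calc (n.primeFactors.filter (fun p => p < p0)).card ≤ (range p0).card := by
                refine card_le_card fun p hp => ?_
                rw [mem_range]
                exact (mem_filter.1 hp).2
            _ = p0 := card_range _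
  have h2 : ∏ p ∈ n.primeFactors.filter (fun p => ¬ p < p0), pf p ≤ (n : ℝ) ^ ε := by
    have h3 : ∀ p ∈ n.primeFactors.filter (fun p => ¬ p < p0), pf p ≤ (p : ℝ) ^ ε := by
      intro p hp
      rw [mem_filter] at hp
      have hpp := Nat.prime_of_mem_primeFactors hp.1
      refine (hpf p hpp).trans ?_
      have h4 : (2 : ℝ) ^ (1 / ε) ≤ p := hp0.trans (by exact_mod_cast not_lt.1 hp.2)
      calc (2 : ℝ) = ((2 : ℝ) ^ (1 / ε)) ^ ε := by
            rw [← Real.rpow_mul (by norm_num), one_div_mul_cancel hε.ne', Real.rpow_one]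
        _ ≤ (p : ℝ) ^ ε := Real.rpow_le_rpow (by positivity) h4 hε.le
    refine (prod_le_prod (fun p hp => (pf_pos (Nat.prime_of_mem_primeFactors
      (mem_filter.1 hp).1)).le) h3).trans ?_
    rw [Real.finsetProd_rpow _ _ (fun p _ => by positivity)]
    refine Real.rpow_le_rpow (by positivity) ?_ hε.le
    have h5 : ∏ p ∈ n.primeFactors.filter (fun p => ¬ p < p0), p ≤ n := by
      refine (prod_le_prod_of_subset_of_one_le' (filter_subset _ _) fun p hp _ =>
        (Nat.prime_of_mem_primeFactors hp).one_lt.le).trans ?_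
      exact Nat.le_of_dvd (Nat.pos_of_ne_zero hn) (Nat.prod_primeFactors_dvd n)
    have h6 : ((∏ p ∈ n.primeFactors.filter (fun p => ¬ p < p0), p : ℕ) : ℝ) ≤ n := by
      exact_mod_cast h5
    rwa [Nat.cast_prod] at h6
  refine mul_le_mul h1 h2 ?_ (by positivity)
  exact (prod_pf_pos fun p hp => Nat.prime_of_mem_primeFactors (mem_filter.1 hp).1).le

end Crest.Agent.R4C.KyPurex971
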