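import Crest.Agent.R4C.GWasm_982
import Crest.Agent.R4C.GWinst_982
import Crest.Agent.R4C.GWcell_284
import Crest.Agent.R4C.GWnode_863
import Crest.Agent.R4C.KyPure_971
import Crest.Agent.R4C.Cover_946

/-!
# Row 4, GW section, scalar case: the class `CDomP1` (low words `(1,1)`) from the leaves (helper982)

* `Pr1 F P i b c h` : pure pair of case A, own scale `2^i`, low word `(1,1)`;
* `CDomP1`, `clsDomP1`;
* `KillP` (leaf F2), `WtP` (leaf F3), `Facts` (leaves F1, F4, F5);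
* `core_bound` : the bound of one core;
* **`cls_of_leaves`** : `ClsOK γ (clsDomP1 γ)` from the leaves.
-/

set_option autoImplicit false

open Finset

namespace Crest.Agent.R4C.GWfinx982

open Crest.Agent.R4C.Basex935 Crest.Agent.R4C.FLDefx935 Crest.Agent.R4C.BoostCx972
  Crest.Agent.R4C.CrCoinx935 Crest.Agent.R4C.CrCountx935 Crest.Agent.R4C.Bridgex882
  Crest.Agent.R4C.PrefixMx882 Crest.Agent.R4C.Cutx50 Crest.Agent.R4C.Rulex945
  Crest.Agent.R4C.Sharedx11 Crest.Agent.R4C.Splitx945 Crest.Agent.R4C.PureClsx863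
  Crest.Agent.R4C.Spinex946 Crest.Agent.R4C.GWdefx982 Crest.Agent.R4C.GWinstx982
  Crest.Agent.R4C.GWasmx982 Crest.Agent.R4C.KyClsx971 Crest.Agent.R4C.PureL2x232
open Crest.Agent.R4C.FLExx326 (ind)

section pair

variable {M : ℕ} (F : FL M) (P : Par)

/-- pure pair of case A, own scale `2^i`, low word `(1,1)` -/
structure Pr1 (i b c : ℕ) (h : ℤ) : Prop where
  far : FarA F P i b c h
  pure : Pure F (P.cut i) b c
  lb : low (P.cut i) (b / Nat.gcd b c) = 1
  lc : low (P.cut i) (c / Nat.gcd b c) = 1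

/-- the class -/
def CDomP1 (b c : ℕ) (h : ℤ) : Prop := ∃ i, Pr1 F P i b c h

variable {F P}

lemma low_eq_low {i b c : ℕ} {h : ℤ} (hM : 0 < M) (hb : b ∣ M) (hc : c ∣ M)
    (H : Pr1 F P i b c h) : low (P.cut i) b = low (P.cut i) c := by
  have hb0 := Nat.pos_of_dvd_of_pos hb hM
  have hc0 := Nat.pos_of_dvd_of_pos hc hM
  have hg : 0 < Nat.gcd b c := Nat.gcd_pos_of_pos_left _ hb0
  have e1 : low (P.cut i) (Nat.gcd b c * (b / Nat.gcd b c)) = low (P.cut i) (Nat.gcd b c) := by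
    rw [Sharedx11.low_mul _ hg.ne' (Nat.div_pos (Nat.gcd_le_left _ hb0) hg).ne', H.lb, mul_one]
  have e2 : low (P.cut i) (Nat.gcd b c * (c / Nat.gcd b c)) = low (P.cut i) (Nat.gcd b c) := by
    rw [Sharedx11.low_mul _ hg.ne' (Nat.div_pos (Nat.gcd_le_right _ hc0) hg).ne', H.lc, mul_one]
  rw [gs_left] at e1
  rw [gs_right] at e2
  rw [e1, e2]

lemma D_le_of_ell {x b : ℕ} (hM : 0 < M) (hb : b ∣ M) (h : F.ell x b = 1) : D F b ≤ x := by
  classical
  unfold D
  refine Finset.sup_le fun p hp => ?_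
  rw [mem_filter] at hp
  have hpp := Nat.prime_of_mem_primeFactors hp.1
  obtain ⟨v, hv, hlt⟩ := hp.2
  by_contra hcon
  have h1 := FL.dvd_ell (F := F) hM hb hpp (not_le.1 hcon) hv hlt
  rw [h] at h1
  exact hpp.one_lt.ne' (Nat.dvd_one.1 h1)

lemma pureG_of_pr {i b c : ℕ} {h : ℤ} (hM : 0 < M) (hb : b ∣ M) (hc : c ∣ M) (hne : b ≠ c)
    (H : Pr1 F P i b c h) : PureG F b c :=
  pureG_of_good F hb hc hM hne H.far.good (low_eq_low hM hb hc H) H.pure.1 H.pure.2

lemma uu_eq_gcd {i b c : ℕ} {h : ℤ} (hM : 0 < M) (hb : b ∣ M) (hc : c ∣ M)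
    (H : Pr1 F P i b c h) : F.uu (P.cut i) b = Nat.gcd b c := by
  rw [Splitx945.uu_eq hM hb hc H.far.good, H.lb, H.pure.2, mul_one, mul_one]

/-- everything about a pair in the world of its core -/
structure PW (G0 : ℕ) (σ K1 : ℝ) (i w w' : ℕ) : Prop where
  D_le : D F G0 ≤ P.cut i
  nd : (inst F P G0 σ K1 1).nd i w
  low : low (P.cut i) w = low (P.cut i) w'
  e : (inst F P G0 σ K1 1).e i w = Nat.gcd (G0 * w) (G0 * w')

lemma pw_of_pr {G0 i w w' : ℕ} {h : ℤ} {σ K1 : ℝ} (hM : 0 < M) (hG : G0 ∈ cores F)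
    (hw : w ∣ PM F G0) (hw' : w' ∣ PM F G0) (hcut : Monotone P.cut) (hun : ∀ n, ∃ i, n ≤ P.cut i)
    (H : Pr1 F P i (G0 * w) (G0 * w') h) : PW (F := F) (P := P) G0 σ K1 i w w' := by
  have hb := mul_dvd hM hG hw
  have hc := mul_dvd hM hG hw'
  have hG0 : 0 < G0 := Nat.pos_of_dvd_of_pos (mem_cores.1 hG).1.1 hM
  have hw0 : 0 < w := Nat.pos_of_dvd_of_pos hw (PM_pos G0)
  have hw0' : 0 < w' := Nat.pos_of_dvd_of_pos hw' (PM_pos G0)
  have h1 : D F G0 ≤ P.cut i := by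
    have := D_le_of_ell hM hb H.pure.1
    rwa [D_mul hM hG hw] at this
  have h2 := uu_eq_gcd hM hb hc H
  have h3 : (inst F P G0 σ K1 1).e i w = Nat.gcd (G0 * w) (G0 * w') := by
    rw [← h2, uu_inst hM hG hw h1]
    rfl
  refine ⟨h1, ?_, ?_, h3⟩
  · rw [nd_iff hM hG hw hcut hun, h2]
    exact ⟨H.far.m0, h1, H.far.lo, H.far.hi⟩
  · have h4 := low_eq_low hM hb hc H
    rw [Sharedx11.low_mul _ hG0.ne' hw0.ne', Sharedx11.low_mul _ hG0.ne' hw0'.ne'] at h4
    exact Nat.eq_of_mul_eq_mul_left (low_pos _ _) h4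

end pair

/-! ### the leaves -/

section leaves

variable {M : ℕ} (F : FL M) (P : Par) (B : Finset ℕ)

/-- leaf F2: an unkilled pair which is not in the heavy class leaves the zone at its node -/
def KillP (K1 : ℝ) : Prop :=
  ∀ G0 ∈ cores F, ∀ w w' : ℕ, w ∣ PM F G0 → w' ∣ PM F G0 → w ≠ w' → G0 * w ∈ B → G0 * w' ∈ B →
    ∀ h ∈ Lnk P.γ P.L (G0 * w) (G0 * w'), ¬ killedB (lamR F P) (G0 * w) (G0 * w') h →
    ∀ i, Pr1 F P i (G0 * w) (G0 * w') h → ¬ CHvy F P (ind B) (1 / 20) (G0 * w) (G0 * w') h →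
    ∀ σ : ℝ, 0 ≤ σ → w ∈ (inst F P G0 σ K1 1).S ((inst F P G0 σ K1 1).lab i w) →
      w' ∈ (inst F P G0 σ K1 1).S ((inst F P G0 σ K1 1).lab i w) →
      w ∈ (inst F P G0 σ K1 1).A ((inst F P G0 σ K1 1).zone i w) ((inst F P G0 σ K1 1).lab i w) ∨
      w' ∈ (inst F P G0 σ K1 1).A ((inst F P G0 σ K1 1).zone i w) ((inst F P G0 σ K1 1).lab i w)

/-- leaf F3: the weight, off the `K_y` event -/
def WtP (Cw : ℝ) : Prop :=
  ∀ G0 ∈ cores F, ∀ w w' : ℕ, w ∣ PM F G0 → w' ∣ PM F G0 → w ≠ w' →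
    ∀ h ∈ Lnk P.γ P.L (G0 * w) (G0 * w'), ∀ i, Pr1 F P i (G0 * w) (G0 * w') h →
    ¬ CKyP F P (G0 * w) (G0 * w') h →
    VR F G0 * (Nat.gcd w w' : ℝ) * nu (low (P.cut i) (PM F G0)) (low (P.cut i) w) *
      boostB M (lamR F P) (G0 * w) (G0 * w') h ≤
      Cw * min ((inst F P G0 0 1 1).Wp 0 (P.cut i) w) ((inst F P G0 0 1 1).Wp 0 (P.cut i) w')

end leaves

/-! ### one core -/

section core

variable {M : ℕ} {F : FL M} {P : Par} {B : Finset ℕ}

/-- the class off the heavy class and off the `K_y` event -/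
def R1 (F : FL M) (P : Par) (B : Finset ℕ) (b c : ℕ) (h : ℤ) : Prop :=
  CDomP1 F P b c h ∧ ¬ CKyP F P b c h ∧ ¬ CHvy F P (ind B) (1 / 20) b c h

lemma Wp_mono_right {Z : World} {a b b' w : ℕ} (h : b ≤ b') : Z.Wp a b' w ≤ Z.Wp a b w := by
  classical
  unfold World.Wp
  have hsub : ((free Z.N w).filter fun p => a < p ∧ p ≤ b ∧ Z.coin w p) ⊆
      (free Z.N w).filter fun p => a < p ∧ p ≤ b' ∧ Z.coin w p := by
    intro p hp
    rw [mem_filter] at hp ⊢
    exact ⟨hp.1, hp.2.1, hp.2.2.1.trans h, hp.2.2.2⟩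
  have hfac : ∀ p ∈ (free Z.N w).filter (fun p => a < p ∧ p ≤ b' ∧ Z.coin w p),
      (0 : ℝ) ≤ 1 - 1 / (p : ℝ) ∧ 1 - 1 / (p : ℝ) ≤ 1 := by
    intro p hp
    have h1 := (mem_filter.1 hp).1
    unfold free at h1
    have hpp := Nat.prime_of_mem_primeFactors (mem_filter.1 h1).1
    have h2 : (1 : ℝ) ≤ p := by exact_mod_cast hpp.one_lt.le
    have h3 : (1 : ℝ) / p ≤ 1 := by rw [div_le_one (by linarith)]; exact h2
    have h4 : (0 : ℝ) ≤ 1 / (p : ℝ) := by positivity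
    constructor <;> linarith
  rw [← prod_sdiff hsub]
  have h1 : ∏ p ∈ ((free Z.N w).filter fun p => a < p ∧ p ≤ b' ∧ Z.coin w p) \
      (free Z.N w).filter (fun p => a < p ∧ p ≤ b ∧ Z.coin w p), (1 - 1 / (p : ℝ)) ≤ 1 :=
    prod_le_one (fun p hp => (hfac p (mem_sdiff.1 hp).1).1) fun p hp => (hfac p (mem_sdiff.1 hp).1).2
  have h2 : 0 ≤ ∏ p ∈ (free Z.N w).filter (fun p => a < p ∧ p ≤ b ∧ Z.coin w p),
      (1 - 1 / (p : ℝ)) := prod_nonneg fun p hp => (hfac p (hsub hp)).1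
  calc _ ≤ 1 * ∏ p ∈ (free Z.N w).filter (fun p => a < p ∧ p ≤ b ∧ Z.coin w p),
      (1 - 1 / (p : ℝ)) := mul_le_mul_of_nonneg_right h1 h2
    _ = _ := one_mul _

open Classical in
/-- pair weights of the class -/
noncomputable def KK (F : FL M) (P : Par) (B : Finset ℕ) (b c : ℕ) : ℝ :=
  if b ∈ B ∧ c ∈ B then (if b ≠ c then oS P.γ P.L M (lamR F P) (R1 F P B) b c else 0) else 0

lemma KK_nonneg (b c : ℕ) : 0 ≤ KK F P B b c := by
  unfold KK
  split_ifs
  · exact oS_nonneg _ _ _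
  · exact le_rfl
  · exact le_rfl

/-- a pair with nonzero weight -/
lemma KK_pos (hL : 0 < P.L) (hm0 : 1 ≤ P.m0) {b c : ℕ} (h : KK F P B b c ≠ 0) :
    (b ∈ B ∧ c ∈ B) ∧ b ≠ c ∧ ∃ x ∈ Lnk P.γ P.L b c, ¬ killedB (lamR F P) b c x ∧ R1 F P B b c x ∧
      KK F P B b c ≤ boostB M (lamR F P) b c x := by
  classical
  unfold KK at h ⊢
  by_cases h1 : b ∈ B ∧ c ∈ B
  · by_cases h2 : b ≠ c
    · rw [if_pos h1, if_pos h2] at h ⊢
      refine ⟨h1, h2, ?_⟩
      have h3 : ∃ x ∈ (Lnk P.γ P.L b c).filter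
          (fun h => ¬ killedB (lamR F P) b c h ∧ R1 F P B b c h), True := by
        by_contra hcon
        push Not at hcon
        apply h
        unfold oS
        exact Finset.sum_eq_zero fun x hx => (hcon x hx).elim
      obtain ⟨x, hx, -⟩ := h3
      rw [mem_filter] at hx
      obtain ⟨hx1, hx2, hx3⟩ := hx
      refine ⟨x, hx1, hx2, hx3, ?_⟩
      obtain ⟨⟨i, hi⟩, _⟩ := hx3
      have hg : 2 * P.L ≤ (Nat.gcd b c : ℝ) := by
        have h4 := hi.far.lo
        have h5 : (2 : ℝ) ≤ 2 ^ i := by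
          calc (2 : ℝ) = 2 ^ 1 := by norm_num
            _ ≤ 2 ^ i := pow_le_pow_right₀ (by norm_num) (hm0.trans hi.far.m0)
        nlinarith
      have hcard := Lnk_card_le_one (γ := P.γ) hL hg
      refine (oS_le_one (γ := P.γ) (M := M) (lam := lamR F P) (R := R1 F P B) hL hg
        (w := boostB M (lamR F P) b c x) fun y hy _ _ => ?_).trans ?_
      · rw [Finset.card_le_one.1 hcard y hy x hx1]
      · split_ifs
        · exact le_rfl
        · exact boostB_nonneg _ _ _ _ _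
    · rw [if_pos h1, if_neg h2] at h
      exact absurd rfl h
  · rw [if_neg h1] at h
    exact absurd rfl h

open Classical in
/-- the pair `w, w'` lies in a common node of the world with the shift `σ` -/
def InN (F : FL M) (P : Par) (B : Finset ℕ) (G0 : ℕ) (K1 σ : ℝ) (w w' : ℕ) : Prop :=
  ∃ i, ∃ x ∈ Lnk P.γ P.L (G0 * w) (G0 * w'),
    ¬ killedB (lamR F P) (G0 * w) (G0 * w') x ∧ Pr1 F P i (G0 * w) (G0 * w') x ∧
    ¬ CKyP F P (G0 * w) (G0 * w') x ∧ ¬ CHvy F P (ind B) (1 / 20) (G0 * w) (G0 * w') x ∧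
    KK F P B (G0 * w) (G0 * w') ≤ boostB M (lamR F P) (G0 * w) (G0 * w') x ∧
    w ∈ (inst F P G0 σ K1 1).S ((inst F P G0 σ K1 1).lab i w) ∧
    w' ∈ (inst F P G0 σ K1 1).S ((inst F P G0 σ K1 1).lab i w)

/-- every pair with nonzero weight is in a common node for one of the two shifts -/
lemma inN_of_KK (hM : 0 < M) (hL : 0 < P.L) (hm0 : 1 ≤ P.m0) {G0 w w' : ℕ} (hG : G0 ∈ cores F)
    (hw : w ∣ PM F G0) (hw' : w' ∣ PM F G0) (hcut : Monotone P.cut)
    (hun : ∀ n, ∃ i, n ≤ P.cut i) {K1 : ℝ} (hok : (inst F P G0 0 K1 1).Ok)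
    (h : KK F P B (G0 * w) (G0 * w') ≠ 0) :
    InN F P B G0 K1 0 w w' ∨ InN F P B G0 K1 (1 / 2) w w' := by
  obtain ⟨_, _, x, hx, hk, ⟨⟨i, hi⟩, hky, hhv⟩, hle⟩ := KK_pos hL hm0 h
  have H := pw_of_pr (F := F) (P := P) (σ := 0) (K1 := K1) hM hG hw hw' hcut hun hi
  have hlk : |(((G0 * w / Nat.gcd (G0 * w) (G0 * w') : ℕ) : ℝ) -
      ((G0 * w' / Nat.gcd (G0 * w) (G0 * w') : ℕ) : ℝ)) * P.γ + x| <
      P.L / (Nat.gcd (G0 * w) (G0 * w') : ℕ) := by
    unfold Lnk at hx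
    rw [mem_Hf] at hx
    exact hx
  have h1 := GWcellx284.linked_mem (Z := inst F P G0 0 K1 1) hok (i := i) (w := w) (w' := w')
    (g := Nat.gcd (G0 * w) (G0 * w')) (h := x) hw hw' H.nd H.low rfl (by rw [H.e]) hlk
  rcases h1 with ⟨h2, h3⟩ | ⟨h2, h3⟩
  · exact Or.inl ⟨i, x, hx, hk, hi, hky, hhv, hle, h2, h3⟩
  · exact Or.inr ⟨i, x, hx, hk, hi, hky, hhv, hle, h2, h3⟩

open Classical in
/-- the words of the class `G0` with `G0 * w ∈ B` -/
noncomputable def BG (F : FL M) (B : Finset ℕ) (G0 : ℕ) : Finset ℕ :=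
  (PM F G0).divisors.filter fun w => G0 * w ∈ B

open Classical in
/-- the pair kernel of one core and one shift -/
noncomputable def Kc (F : FL M) (P : Par) (B : Finset ℕ) (G0 : ℕ) (K1 σ : ℝ) (w w' : ℕ) : ℝ :=
  if InN F P B G0 K1 σ w w' then
    VR F G0 * ((Nat.gcd w w' : ℝ) * nu (PM F G0) w * nu (PM F G0) w' *
      KK F P B (G0 * w) (G0 * w')) else 0

/-- one core, one shift -/
theorem core_shift (hM : 0 < M) {G0 : ℕ} (hG : G0 ∈ cores F)
    (hcut : Monotone P.cut) (hun : ∀ n, ∃ i, n ≤ P.cut i) {K1 C1 T Cw σ : ℝ} (hσ : 0 ≤ σ)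
    (hok : (inst F P G0 σ K1 1).Ok) (hC1 : 1 ≤ C1) (hCw : 0 ≤ Cw)
    (hF : Facts (inst F P G0 σ K1 1) C1 T) (hK : KillP F P B K1) (hW : WtP F P Cw) :
    ∑ w ∈ BG F B G0, ∑ w' ∈ BG F B G0, Kc F P B G0 K1 σ w w' ≤
      32 * Cw * C1 * T * ∑ w ∈ BG F B G0, nu (PM F G0) w := by
  classical
  refine gw_pairs (Z := inst F P G0 σ K1 1) hok hC1 hCw hF (B := BG F B G0)
    (filter_subset _ _) (Kc F P B G0 K1 σ) fun w hwB w' hwB' => ?_
  unfold BG at hwB hwB'
  rw [mem_filter, Nat.mem_divisors] at hwB hwB'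
  have hw := hwB.1.1
  have hw' := hwB'.1.1
  by_cases hin : InN F P B G0 K1 σ w w'
  · by_cases h0 : KK F P B (G0 * w) (G0 * w') = 0
    · left
      unfold Kc
      rw [if_pos hin, h0]
      simp
    · right
      obtain ⟨i, x, hx, hk, hi, hky, hhv, hle, hS, hS'⟩ := hin
      have hin : InN F P B G0 K1 σ w w' := ⟨i, x, hx, hk, hi, hky, hhv, hle, hS, hS'⟩
      have hne : w ≠ w' := by
        rintro rfl
        apply h0
        unfold KK
        simp
      have H := pw_of_pr (F := F) (P := P) (σ := σ) (K1 := K1) hM hG hw hw' hcut hun hi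
      refine ⟨_, GWnodex863.zone_mem_Zs hok hw H.nd, _, GWnodex863.mem_Nd_zone hok hw H.nd, hS, hS',
        hK G0 hG w w' hw hw' hne hwB.2 hwB'.2 x hx hk i hi hhv σ hσ hS hS', ?_⟩
      have hg : 0 < (inst F P G0 σ K1 1).g ((inst F P G0 σ K1 1).lab i w) :=
        GWnodex863.g_pos_of_S hok hS
      have hgeq : (inst F P G0 σ K1 1).g ((inst F P G0 σ K1 1).lab i w) =
          nu (low (P.cut i) (PM F G0)) (low (P.cut i) w) := rfl
      have hwt := hW G0 hG w w' hw hw' hne x hx i hi hky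
      rw [← hgeq] at hwt
      have hWp : ∀ u : ℕ, (inst F P G0 0 1 1).Wp 0 (P.cut i) u ≤
          (inst F P G0 σ K1 1).W ((inst F P G0 σ K1 1).zone i w) u := by
        intro u
        refine (Wp_mono_right (Z := inst F P G0 0 1 1) (a := 0) (w := u)
          (hcut (GWnodex863.bi_le (Z := inst F P G0 σ K1 1) i w))).trans (le_of_eq rfl)
      have hmin : min ((inst F P G0 0 1 1).Wp 0 (P.cut i) w)
          ((inst F P G0 0 1 1).Wp 0 (P.cut i) w') ≤
          min ((inst F P G0 σ K1 1).W ((inst F P G0 σ K1 1).zone i w) w)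
            ((inst F P G0 σ K1 1).W ((inst F P G0 σ K1 1).zone i w) w') :=
        min_le_min (hWp w) (hWp w')
      set g := (inst F P G0 σ K1 1).g ((inst F P G0 σ K1 1).lab i w) with hgdef
      have hn : 0 ≤ nu (PM F G0) w * nu (PM F G0) w' := mul_nonneg (nu_nonneg _ _) (nu_nonneg _ _)
      have hVR := VR_nonneg (F := F) G0
      unfold Kc
      rw [if_pos hin]
      have hgc : (0 : ℝ) ≤ (Nat.gcd w w' : ℝ) := Nat.cast_nonneg _
      calc VR F G0 * ((Nat.gcd w w' : ℝ) * nu (PM F G0) w * nu (PM F G0) w' *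
            KK F P B (G0 * w) (G0 * w'))
          ≤ VR F G0 * ((Nat.gcd w w' : ℝ) * nu (PM F G0) w * nu (PM F G0) w' *
            boostB M (lamR F P) (G0 * w) (G0 * w') x) := by
            refine mul_le_mul_of_nonneg_left (mul_le_mul_of_nonneg_left hle ?_) hVR
            rw [mul_assoc]
            exact mul_nonneg hgc hn
        _ = (nu (PM F G0) w * nu (PM F G0) w' / g) * (VR F G0 * (Nat.gcd w w' : ℝ) * g *
            boostB M (lamR F P) (G0 * w) (G0 * w') x) := by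
            field_simp
        _ ≤ (nu (PM F G0) w * nu (PM F G0) w' / g) * (Cw *
            min ((inst F P G0 0 1 1).Wp 0 (P.cut i) w)
              ((inst F P G0 0 1 1).Wp 0 (P.cut i) w')) :=
            mul_le_mul_of_nonneg_left hwt (div_nonneg hn hg.le)
        _ ≤ (nu (PM F G0) w * nu (PM F G0) w' / g) * (Cw *
            min ((inst F P G0 σ K1 1).W ((inst F P G0 σ K1 1).zone i w) w)
            ((inst F P G0 σ K1 1).W ((inst F P G0 σ K1 1).zone i w) w')) :=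
            mul_le_mul_of_nonneg_left (mul_le_mul_of_nonneg_left hmin hCw) (div_nonneg hn hg.le)
        _ = _ := by
          show _ = Cw * (nu (PM F G0) w * nu (PM F G0) w' / g) * _
          ring
  · left
    unfold Kc
    rw [if_neg hin]

open Classical in
/-- **one core** -/
theorem core_bound (hM : 0 < M) (hL : 0 < P.L) (hm0 : 1 ≤ P.m0) {G0 : ℕ} (hG : G0 ∈ cores F)
    (hcut : Monotone P.cut) (hun : ∀ n, ∃ i, n ≤ P.cut i) {K1 C1 T Cw : ℝ}
    (hok : ∀ σ : ℝ, 0 ≤ σ → (inst F P G0 σ K1 1).Ok) (hC1 : 1 ≤ C1) (hCw : 0 ≤ Cw)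
    (hF : ∀ σ : ℝ, σ = 0 ∨ σ = 1 / 2 → Facts (inst F P G0 σ K1 1) C1 T)
    (hK : KillP F P B K1) (hW : WtP F P Cw) :
    VR F G0 * frm (PM F G0) (fun w w' => if PP w w' then KK F P B (G0 * w) (G0 * w') else 0) ≤
      64 * Cw * C1 * T * Ex (PM F G0) (fun w => ind B (G0 * w)) := by
  classical
  have hBG : BG F B G0 ⊆ (PM F G0).divisors := filter_subset _ _
  -- the total of the pair kernels
  have h1 := core_shift (F := F) (P := P) (B := B) hM hG hcut hun (le_refl (0 : ℝ))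
    (hok 0 le_rfl) hC1 hCw (hF 0 (Or.inl rfl)) hK hW
  have h2 := core_shift (F := F) (P := P) (B := B) hM hG hcut hun (by norm_num : (0 : ℝ) ≤ 1 / 2)
    (hok _ (by norm_num)) hC1 hCw (hF _ (Or.inr rfl)) hK hW
  have hEx : Ex (PM F G0) (fun w => ind B (G0 * w)) = ∑ w ∈ BG F B G0, nu (PM F G0) w := by
    unfold Ex BG FLExx326.ind
    rw [sum_filter]
    refine sum_congr rfl fun w _ => ?_
    by_cases hb : G0 * w ∈ B
    · simp [hb]
    · simp [hb]
  rw [hEx]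
  have hKc0 : ∀ σ w w', 0 ≤ Kc F P B G0 K1 σ w w' := by
    intro σ w w'
    unfold Kc
    split_ifs
    · exact mul_nonneg (VR_nonneg _) (mul_nonneg (pref_nonneg _ _ _) (KK_nonneg _ _))
    · exact le_rfl
  have key : VR F G0 * frm (PM F G0)
      (fun w w' => if PP w w' then KK F P B (G0 * w) (G0 * w') else 0) ≤
      ∑ w ∈ BG F B G0, ∑ w' ∈ BG F B G0,
        (Kc F P B G0 K1 0 w w' + Kc F P B G0 K1 (1 / 2) w w') := by
    unfold frm
    rw [mul_sum]
    have hz : ∀ w ∈ (PM F G0).divisors, ∀ w' ∈ (PM F G0).divisors,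
        VR F G0 * ((Nat.gcd w w' : ℝ) * nu (PM F G0) w * nu (PM F G0) w' *
          (if PP w w' then KK F P B (G0 * w) (G0 * w') else 0)) ≤
        if w ∈ BG F B G0 ∧ w' ∈ BG F B G0 then
          (Kc F P B G0 K1 0 w w' + Kc F P B G0 K1 (1 / 2) w w') else 0 := by
      intro w hw w' hw'
      have hwd := Nat.dvd_of_mem_divisors hw
      have hwd' := Nat.dvd_of_mem_divisors hw'
      have hp0 : 0 ≤ VR F G0 * ((Nat.gcd w w' : ℝ) * nu (PM F G0) w * nu (PM F G0) w') :=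
        mul_nonneg (VR_nonneg _) (pref_nonneg _ _ _)
      by_cases h0 : KK F P B (G0 * w) (G0 * w') = 0
      · rw [h0]
        simp only [ite_self, mul_zero]
        split_ifs
        · exact add_nonneg (hKc0 _ _ _) (hKc0 _ _ _)
        · exact le_rfl
      · have hin := inN_of_KK (F := F) (P := P) (B := B) hM hL hm0 hG hwd hwd' hcut hun
          (hok 0 le_rfl) h0
        have hB := (KK_pos hL hm0 h0).1
        have hcond : w ∈ BG F B G0 ∧ w' ∈ BG F B G0 :=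
          ⟨mem_filter.2 ⟨hw, hB.1⟩, mem_filter.2 ⟨hw', hB.2⟩⟩
        rw [if_pos hcond]
        have hle : VR F G0 * ((Nat.gcd w w' : ℝ) * nu (PM F G0) w * nu (PM F G0) w' *
            (if PP w w' then KK F P B (G0 * w) (G0 * w') else 0)) ≤
            VR F G0 * ((Nat.gcd w w' : ℝ) * nu (PM F G0) w * nu (PM F G0) w' *
            KK F P B (G0 * w) (G0 * w')) := by
          refine mul_le_mul_of_nonneg_left (mul_le_mul_of_nonneg_left ?_ (pref_nonneg _ _ _))
            (VR_nonneg _)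
          split_ifs
          · exact le_rfl
          · exact KK_nonneg _ _
        refine hle.trans ?_
        rcases hin with hin | hin
        · have e1 : Kc F P B G0 K1 0 w w' = VR F G0 * ((Nat.gcd w w' : ℝ) * nu (PM F G0) w *
              nu (PM F G0) w' * KK F P B (G0 * w) (G0 * w')) := by
            unfold Kc; rw [if_pos hin]
          rw [e1]
          have := hKc0 (1 / 2) w w'
          linarith
        · have e1 : Kc F P B G0 K1 (1 / 2) w w' = VR F G0 * ((Nat.gcd w w' : ℝ) *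
              nu (PM F G0) w * nu (PM F G0) w' * KK F P B (G0 * w) (G0 * w')) := by
            unfold Kc; rw [if_pos hin]
          rw [e1]
          have := hKc0 0 w w'
          linarith
    calc ∑ w ∈ (PM F G0).divisors, VR F G0 * ∑ w' ∈ (PM F G0).divisors,
          ((Nat.gcd w w' : ℝ) * nu (PM F G0) w * nu (PM F G0) w' *
            (if PP w w' then KK F P B (G0 * w) (G0 * w') else 0))
        ≤ ∑ w ∈ (PM F G0).divisors, ∑ w' ∈ (PM F G0).divisors,
          (if w ∈ BG F B G0 ∧ w' ∈ BG F B G0 then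
          (Kc F P B G0 K1 0 w w' + Kc F P B G0 K1 (1 / 2) w w') else 0) := by
          refine sum_le_sum fun w hw => ?_
          rw [mul_sum]
          exact sum_le_sum fun w' hw' => hz w hw w' hw'
      _ = _ := by
          rw [← sum_subset hBG (f := fun w => ∑ w' ∈ (PM F G0).divisors,
            (if w ∈ BG F B G0 ∧ w' ∈ BG F B G0 then
            (Kc F P B G0 K1 0 w w' + Kc F P B G0 K1 (1 / 2) w w') else 0))]
          · refine sum_congr rfl fun w hw => ?_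
            rw [← sum_subset hBG]
            · exact sum_congr rfl fun w' hw' => by rw [if_pos ⟨hw, hw'⟩]
            · intro w' _ hw'
              rw [if_neg fun h => hw' h.2]
          · intro w _ hw
            exact sum_eq_zero fun w' _ => by rw [if_neg fun h => hw h.1]
  refine key.trans ?_
  simp only [sum_add_distrib]
  linarith

end core

/-! ### the class -/

/-- the class in the form of the spine -/
def clsDomP1 (γ : ℝ) : Cls := fun cp _ A m0 L M B F b c h =>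
  CDomP1 F (ParOf cp A m0 γ L M B) b c h

open Classical in
/-- **the class off the heavy class and the `K_y` event, one value of the constants** -/
theorem en_bound {M : ℕ} {F : FL M} {P : Par} {B : Finset ℕ} (hM : 0 < M) (hL : 0 < P.L)
    (hB : B ⊆ M.divisors) (hmass : P.L * ∑ b ∈ B, nu M b ≤ 1) (hm0 : 1 ≤ P.m0)
    (hcut : Monotone P.cut) (hun : ∀ n, ∃ i, n ≤ P.cut i) {K1 C1 T Cw : ℝ}
    (hok : ∀ G0 ∈ cores F, ∀ σ : ℝ, 0 ≤ σ → (inst F P G0 σ K1 1).Ok) (hC1 : 1 ≤ C1)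
    (hCw : 0 ≤ Cw) (hT : 0 ≤ T)
    (hF : ∀ G0 ∈ cores F, ∀ σ : ℝ, σ = 0 ∨ σ = 1 / 2 → Facts (inst F P G0 σ K1 1) C1 T)
    (hK : KillP F P B K1) (hW : WtP F P Cw) :
    EnR P.γ P.L M B (lamR F P) (R1 F P B) ≤ 64 * Cw * C1 * T := by
  classical
  have h1 := EnR_le_frm (γ := P.γ) (lam := lamR F P) (M := M) (B := B) (R := R1 F P B) hL.le hB
    (W := fun b c => if b ≠ c then oS P.γ P.L M (lamR F P) (R1 F P B) b c else 0)
    (fun b _ => by simp) (fun b _ c _ hne => by rw [if_pos hne])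
  have h2 : frm M (fun b c => if b ∈ B ∧ c ∈ B then
      (if b ≠ c then oS P.γ P.L M (lamR F P) (R1 F P B) b c else 0) else 0) ≤
      frm M (fun b c => if PureG F b c then KK F P B b c else 0) := by
    refine PureL2x232.frm_mono fun b c hbM hcM => ?_
    by_cases h0 : KK F P B b c = 0
    · have e : (if b ∈ B ∧ c ∈ B then
          (if b ≠ c then oS P.γ P.L M (lamR F P) (R1 F P B) b c else 0) else 0) = KK F P B b c := rfl
      rw [e, h0]
      simp
    · obtain ⟨_, hne, x, _, _, ⟨⟨i, hi⟩, _⟩, _⟩ := KK_pos hL hm0 h0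
      rw [if_pos (pureG_of_pr hM hbM hcM hne hi)]
      exact le_rfl
  have h3 := transfer F hM (KK F P B) (ind B) (64 * Cw * C1 * T) fun G0 hG =>
    core_bound hM hL hm0 hG hcut hun (hok G0 hG) hC1 hCw (hF G0 hG) hK hW
  have h4 : Ex M (ind B) = ∑ b ∈ B, nu M b := FLExx326.Ex_ind hB
  have hC : 0 ≤ 64 * Cw * C1 * T := by positivity
  calc EnR P.γ P.L M B (lamR F P) (R1 F P B)
      ≤ P.L * (64 * Cw * C1 * T * Ex M (ind B)) :=
        h1.trans (mul_le_mul_of_nonneg_left (h2.trans h3) hL.le)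
    _ = 64 * Cw * C1 * T * (P.L * ∑ b ∈ B, nu M b) := by rw [h4]; ring
    _ ≤ 64 * Cw * C1 * T := mul_le_of_le_one_right hC hmass

/-- **the class from the leaves** -/
theorem cls_of_leaves {γ : ℝ} (H : Ev fun cp η A m0 => ∃ K1 C1 T Cw : ℝ, 1 ≤ K1 ∧ 1 ≤ C1 ∧
    0 ≤ T ∧ 0 ≤ Cw ∧ ∀ (L : ℝ) (M : ℕ) (B : Finset ℕ) (F : FL M), Setup η L M B F →
      (∀ G0 ∈ cores F, ∀ σ : ℝ, σ = 0 ∨ σ = 1 / 2 →
        Facts (inst F (ParOf cp A m0 γ L M B) G0 σ K1 1) C1 T) ∧
      KillP F (ParOf cp A m0 γ L M B) B K1 ∧ WtP F (ParOf cp A m0 γ L M B) Cw) :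
    ClsOK γ (Coverx946.nH γ (clsDomP1 γ)) := by
  refine ClsOK_off ?_
  unfold ClsOK
  refine ((Ev.basic.and (Ev.le_m0 fun cp _ _ => max 3 (5 / cp))).and H).mono ?_
  rintro cp η A m0 ⟨⟨⟨hcp, _, _, _, _, hA, _⟩, hm⟩, K1, C1, T, Cw, hK1, hC1, hT, hCw, H⟩
  refine ⟨64 * Cw * C1 * T, fun L M B F S => ?_⟩
  obtain ⟨hF, hK, hW⟩ := H L M B F S
  set P := ParOf cp A m0 γ L M B with hP
  have hm3 : 3 ≤ m0 := by
    have : (3 : ℝ) ≤ m0 := (le_max_left _ _).trans hm
    exact_mod_cast this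
  have hcut : Monotone P.cut := cut_mono'
  have hcut2 : ∀ i, 2 ^ i ≤ P.cut i := fun i => by
    show 2 ^ i ≤ 2 ^ (A * i)
    exact Nat.pow_le_pow_right (by norm_num) (Nat.le_mul_of_pos_left _ hA)
  have hun : ∀ n, ∃ i, n ≤ P.cut i := fun n =>
    ⟨n, Nat.lt_two_pow_self.le.trans (hcut2 n)⟩
  have hE : ∀ i, P.m0 ≤ i → 16 < P.E i := by
    intro i hi
    show (16 : ℝ) < (2 : ℝ) ^ (cp * i)
    have h1 : (m0 : ℝ) ≤ i := by exact_mod_cast hi
    have h2 : 5 / cp ≤ i := ((le_max_right _ _).trans hm).trans h1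
    have h3 : 5 ≤ cp * i := by
      rw [div_le_iff₀ hcp] at h2
      linarith
    calc (16 : ℝ) < 2 ^ (5 : ℝ) := by norm_num
      _ ≤ 2 ^ (cp * i) := Real.rpow_le_rpow_of_exponent_le (by norm_num) h3
  have hok : ∀ G0 ∈ cores F, ∀ σ : ℝ, 0 ≤ σ → (inst F P G0 σ K1 1).Ok := fun G0 hG σ hσ =>
    inst_ok S.hM hG S.hL hcut hcut2 hm3 (Nat.le_ceil _) hσ hE hK1 one_pos
  have h1 := en_bound (F := F) (P := P) (B := B) S.hM S.hL S.hB S.mass (by show 1 ≤ m0; omega)
    hcut hun hok hC1 hCw hT hF hK hW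
  refine le_trans (EnR_mono S.hL.le fun b _ c _ _ x _ _ hx => ?_) h1
  exact ⟨hx.1.2, hx.2, hx.1.1⟩

end Crest.Agent.R4C.GWfinx982
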