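import Crest.Agent.R4P.BTs_18
import Crest.Agent.R4C.Base_935

/-!
# Row 4: hypothesis of the GW lemma, abstract natural-law form (helper656)

Words = finite sets `S ⊆ P` of primes `≥ y`; `law P S = ∏_{p∈S} 1/p ∏_{p∈P\S} (1-1/p)`.
`E` = a set of words, each with a position `r S`; `lo r S` = the letters below `r S`
(this is `H = G_{j+1}/G_j`), `up r S` = the other letters (`F'`).

* (U) the position is determined by the word without the top `i` letters of `lo r S` (every `i ≥ 1`);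
* (E) either the largest letter of `lo` lies in `(Z,Y)` and `∑_{Z<p<Y} 1/p ≤ s`, or all letters of
  `lo` are `≤ Z` and `∑_{p ∈ lo} log p ≥ α log Z` (`Z, Y` functions of `up r S`);
* (K) for a fixed rest the largest letter of `lo` has density `≤ κ` on every block `[X, X²]`.

Conclusion: `∑_{S∈E} law P S ≤ 2 s + C(α) κ`.
-/

set_option autoImplicit false

namespace Crest.Agent.R4C.GWhx656

open Finset

/-! ### the natural law -/

/-- natural law on the words -/
noncomputable def law (P S : Finset ℕ) : ℝ :=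
  (∏ p ∈ S, (1 / (p : ℝ))) * ∏ p ∈ P \ S, (1 - 1 / (p : ℝ))

lemma law_nonneg {P S : Finset ℕ} (hP : ∀ p ∈ P, 1 ≤ p) : 0 ≤ law P S := by
  unfold law
  refine mul_nonneg (prod_nonneg fun p _ => by positivity) (prod_nonneg fun p hp => ?_)
  have h1 : (1 : ℝ) ≤ p := by exact_mod_cast hP p (mem_sdiff.1 hp).1
  have h2 : 1 / (p : ℝ) ≤ 1 := by rw [div_le_one (by linarith)]; exact h1
  linarith

lemma sum_law (P : Finset ℕ) : ∑ S ∈ P.powerset, law P S = 1 := by
  have h := Finset.prod_add (fun p : ℕ => 1 / (p : ℝ)) (fun p : ℕ => 1 - 1 / (p : ℝ)) P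
  have h2 : ∏ p ∈ P, (1 / (p : ℝ) + (1 - 1 / (p : ℝ))) = 1 :=
    prod_eq_one fun p _ => by ring
  rw [h2] at h
  exact h.symm

/-- adding letters: odds `1/(p-1)` -/
lemma law_union {P S T : Finset ℕ} (hP : ∀ p ∈ P, 2 ≤ p) (hT : T ⊆ P)
    (hd : Disjoint S T) : law P (S ∪ T) = law P S * ∏ p ∈ T, (1 / ((p : ℝ) - 1)) := by
  unfold law
  have e1 : P \ S = (P \ (S ∪ T)) ∪ T := by
    ext p
    simp only [mem_sdiff, mem_union]
    constructor
    · rintro ⟨h1, h2⟩
      by_cases h3 : p ∈ T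
      · exact Or.inr h3
      · exact Or.inl ⟨h1, by tauto⟩
    · rintro (⟨h1, h2⟩ | h1)
      · exact ⟨h1, by tauto⟩
      · exact ⟨hT h1, fun h => disjoint_left.1 hd h h1⟩
  have hd2 : Disjoint (P \ (S ∪ T)) T := by
    rw [disjoint_left]
    intro p h1 h2
    exact (mem_sdiff.1 h1).2 (mem_union_right _ h2)
  rw [prod_union hd, e1, prod_union hd2]
  have e2 : ∏ p ∈ T, (1 / (p : ℝ)) = (∏ p ∈ T, (1 - 1 / (p : ℝ))) * ∏ p ∈ T, (1 / ((p : ℝ) - 1)) := by
    rw [← prod_mul_distrib]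
    refine prod_congr rfl fun p hp => ?_
    have h1 : (2 : ℝ) ≤ p := by exact_mod_cast hP p (hT hp)
    have h2 : (p : ℝ) ≠ 0 := by linarith
    have h3 : (p : ℝ) - 1 ≠ 0 := by linarith
    field_simp
  rw [e2]
  ring

/-- removal of a part `τ S` of the word: fibrewise bound -/
lemma level {P : Finset ℕ} (hP : ∀ p ∈ P, 2 ≤ p) (E : Finset (Finset ℕ)) (hE : ∀ S ∈ E, S ⊆ P)
    (τ : Finset ℕ → Finset ℕ) (hτ : ∀ S ∈ E, τ S ⊆ S) (A : ℝ)
    (hA : ∀ S0, ∑ S ∈ E with S \ τ S = S0, ∏ p ∈ τ S, (1 / ((p : ℝ) - 1)) ≤ A) :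
    ∑ S ∈ E, law P S ≤ A := by
  have h1 : ∀ S ∈ E, law P S = law P (S \ τ S) * ∏ p ∈ τ S, (1 / ((p : ℝ) - 1)) := by
    intro S hS
    rw [← law_union hP ((hτ S hS).trans (hE S hS)) sdiff_disjoint, sdiff_union_of_subset (hτ S hS)]
  rw [sum_congr rfl h1]
  have h2 : ∀ S ∈ E, S \ τ S ∈ P.powerset := fun S hS =>
    mem_powerset.2 (sdiff_subset.trans (hE S hS))
  rw [← sum_fiberwise_of_maps_to h2]
  calc ∑ S0 ∈ P.powerset, ∑ S ∈ E with S \ τ S = S0,
        law P (S \ τ S) * ∏ p ∈ τ S, (1 / ((p : ℝ) - 1))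
      = ∑ S0 ∈ P.powerset, law P S0 * ∑ S ∈ E with S \ τ S = S0,
        ∏ p ∈ τ S, (1 / ((p : ℝ) - 1)) := by
        refine sum_congr rfl fun S0 _ => ?_
        rw [mul_sum]
        refine sum_congr rfl fun S hS => ?_
        rw [(mem_filter.1 hS).2]
    _ ≤ ∑ S0 ∈ P.powerset, law P S0 * A :=
        sum_le_sum fun S0 _ => mul_le_mul_of_nonneg_left (hA S0)
          (law_nonneg fun p hp => by have := hP p hp; omega)
    _ = A := by rw [← sum_mul, sum_law, one_mul]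

/-! ### elementary symmetric sums -/

lemma esymm_le (a : ℕ → ℝ) : ∀ (k : ℕ) (W : Finset ℕ), (∀ p ∈ W, 0 ≤ a p) →
    (k.factorial : ℝ) * ∑ T ∈ W.powersetCard k, ∏ p ∈ T, a p ≤ (∑ p ∈ W, a p) ^ k := by
  intro k
  induction k with
  | zero => intro W _; simp
  | succ k ih =>
    intro W ha
    have h0 : 0 ≤ ∑ p ∈ W, a p := sum_nonneg ha
    -- `(k+1) e_{k+1} = ∑_p a_p e_k(W \ p) ≤ ...`
    have key : ((k + 1 : ℕ) : ℝ) * ∑ T ∈ W.powersetCard (k + 1), ∏ p ∈ T, a p ≤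
        (∑ p ∈ W, a p) * ∑ T ∈ W.powersetCard k, ∏ p ∈ T, a p := by
      have e1 : ((k + 1 : ℕ) : ℝ) * ∑ T ∈ W.powersetCard (k + 1), ∏ p ∈ T, a p =
          ∑ T ∈ W.powersetCard (k + 1), ∑ q ∈ T, a q * ∏ p ∈ T.erase q, a p := by
        rw [mul_sum]
        refine sum_congr rfl fun T hT => ?_
        rw [mem_powersetCard] at hT
        have : ∀ q ∈ T, a q * ∏ p ∈ T.erase q, a p = ∏ p ∈ T, a p := fun q hq =>
          mul_prod_erase T a hq
        rw [sum_congr rfl this, sum_const, hT.2, nsmul_eq_mul]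
      rw [e1, sum_mul_sum]
      have e2 : ∀ T ∈ W.powersetCard (k + 1), ∑ q ∈ T, a q * ∏ p ∈ T.erase q, a p =
          ∑ q ∈ W, if q ∈ T then a q * ∏ p ∈ T.erase q, a p else 0 := by
        intro T hT
        rw [mem_powersetCard] at hT
        rw [← sum_filter]
        refine sum_congr ?_ fun _ _ => rfl
        ext q
        simp only [mem_filter]
        exact ⟨fun h => ⟨hT.1 h, h⟩, fun h => h.2⟩
      rw [sum_congr rfl e2, sum_comm]
      refine sum_le_sum fun q hq => ?_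
      rw [← sum_filter]
      have hinj : ∀ T ∈ (W.powersetCard (k + 1)).filter (fun T => q ∈ T),
          ∀ T' ∈ (W.powersetCard (k + 1)).filter (fun T => q ∈ T),
          T.erase q = T'.erase q → T = T' := by
        intro T hT T' hT' he
        rw [mem_filter] at hT hT'
        rw [← insert_erase hT.2, ← insert_erase hT'.2, he]
      calc ∑ T ∈ W.powersetCard (k + 1) with q ∈ T, a q * ∏ p ∈ T.erase q, a p
          = ∑ T' ∈ ((W.powersetCard (k + 1)).filter (fun T => q ∈ T)).image (fun T => T.erase q),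
            a q * ∏ p ∈ T', a p :=
            (sum_image (f := fun T' : Finset ℕ => a q * ∏ p ∈ T', a p) hinj).symm
        _ ≤ ∑ T ∈ W.powersetCard k, a q * ∏ p ∈ T, a p := by
            refine sum_le_sum_of_subset_of_nonneg ?_ ?_
            · intro T' hT'
              obtain ⟨T, hT, rfl⟩ := mem_image.1 hT'
              rw [mem_filter, mem_powersetCard] at hT
              rw [mem_powersetCard]
              refine ⟨(erase_subset _ _).trans hT.1.1, ?_⟩
              rw [card_erase_of_mem hT.2, hT.1.2]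
              omega
            · intro T hT _
              rw [mem_powersetCard] at hT
              exact mul_nonneg (ha q hq) (prod_nonneg fun p hp => ha p (hT.1 hp))
    calc (((k + 1).factorial : ℕ) : ℝ) * ∑ T ∈ W.powersetCard (k + 1), ∏ p ∈ T, a p
        = (k.factorial : ℝ) * (((k + 1 : ℕ) : ℝ) *
          ∑ T ∈ W.powersetCard (k + 1), ∏ p ∈ T, a p) := by
          rw [Nat.factorial_succ]; push_cast; ring
      _ ≤ (k.factorial : ℝ) * ((∑ p ∈ W, a p) * ∑ T ∈ W.powersetCard k, ∏ p ∈ T, a p) :=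
          mul_le_mul_of_nonneg_left key (by positivity)
      _ = (∑ p ∈ W, a p) * ((k.factorial : ℝ) * ∑ T ∈ W.powersetCard k, ∏ p ∈ T, a p) := by ring
      _ ≤ (∑ p ∈ W, a p) * (∑ p ∈ W, a p) ^ k := mul_le_mul_of_nonneg_left (ih W ha) h0
      _ = _ := by rw [pow_succ]; ring

/-! ### positions -/

/-- letters below the position -/
def lo (r : Finset ℕ → ℕ) (S : Finset ℕ) : Finset ℕ := S.filter (· < r S)

/-- letters from the position on -/
def up (r : Finset ℕ → ℕ) (S : Finset ℕ) : Finset ℕ := S.filter (r S ≤ ·)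

/-- `T` is a top segment of `H` -/
def IsTop (T H : Finset ℕ) : Prop := T ⊆ H ∧ ∀ p ∈ T, ∀ q ∈ H \ T, q < p

/-- (U) uniqueness of the position, given the word without the top letters of `lo` -/
def HypU (E : Finset (Finset ℕ)) (r : Finset ℕ → ℕ) : Prop :=
  ∀ S ∈ E, ∀ S' ∈ E, ∀ T T' : Finset ℕ, IsTop T (lo r S) → IsTop T' (lo r S') → T.Nonempty →
    T.card = T'.card → S \ T = S' \ T' → r S = r S'

/-- the admissible largest letters for a fixed rest `S1`, block `[X, X²]` -/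
noncomputable def cand (P : Finset ℕ) (E : Finset (Finset ℕ)) (r : Finset ℕ → ℕ) (S1 : Finset ℕ)
    (X X' : ℝ) : Finset ℕ := by
  classical
  exact P.filter fun ρ : ℕ => X ≤ (ρ : ℝ) ∧ (ρ : ℝ) ≤ X' ∧ ρ ∉ S1 ∧ insert ρ S1 ∈ E ∧
    ρ < r (insert ρ S1) ∧ ∀ q ∈ S1, q < r (insert ρ S1) → q < ρ

/-- (K) density of the largest letter -/
def HypK (P : Finset ℕ) (E : Finset (Finset ℕ)) (r : Finset ℕ → ℕ) (y κ : ℝ) : Prop :=
  ∀ (S1 : Finset ℕ) (X : ℝ), y ≤ X → ∑ ρ ∈ cand P E r S1 X (X ^ 2), (1 : ℝ) / ρ ≤ κ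

lemma mem_cand {P : Finset ℕ} {E : Finset (Finset ℕ)} {r : Finset ℕ → ℕ} {S1 : Finset ℕ}
    {X X' : ℝ} {ρ : ℕ} : ρ ∈ cand P E r S1 X X' ↔ ρ ∈ P ∧ X ≤ (ρ : ℝ) ∧ (ρ : ℝ) ≤ X' ∧ ρ ∉ S1 ∧
      insert ρ S1 ∈ E ∧ ρ < r (insert ρ S1) ∧ ∀ q ∈ S1, q < r (insert ρ S1) → q < ρ := by
  unfold cand
  rw [mem_filter]

/-- `N` blocks -/
lemma cand_blocks {P : Finset ℕ} {E : Finset (Finset ℕ)} {r : Finset ℕ → ℕ} {y κ : ℝ}
    (hy : 1 ≤ y) (hK : HypK P E r y κ) (S1 : Finset ℕ) :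
    ∀ (N : ℕ) (X : ℝ), y ≤ X → ∑ ρ ∈ cand P E r S1 X (X ^ (2 ^ N)), (1 : ℝ) / ρ ≤ (N + 1) * κ := by
  have hpos : ∀ X X', ∀ ρ ∈ cand P E r S1 X X', (0 : ℝ) ≤ 1 / ρ := fun _ _ ρ _ => by positivity
  intro N
  induction N with
  | zero =>
    intro X hX
    have h1 : cand P E r S1 X (X ^ (2 ^ 0)) ⊆ cand P E r S1 X (X ^ 2) := by
      intro ρ hρ
      rw [mem_cand] at hρ ⊢
      refine ⟨hρ.1, hρ.2.1, hρ.2.2.1.trans ?_, hρ.2.2.2⟩
      rw [pow_zero, pow_one]
      nlinarith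
    have h2 := sum_le_sum_of_subset_of_nonneg h1 (f := fun ρ : ℕ => (1 : ℝ) / ρ)
      fun ρ hρ _ => hpos _ _ ρ hρ
    refine h2.trans ((hK S1 X hX).trans ?_)
    simp
  | succ N ih =>
    intro X hX
    have hX1 : 1 ≤ X := hy.trans hX
    have h1 : cand P E r S1 X (X ^ (2 ^ (N + 1))) ⊆
        cand P E r S1 X (X ^ 2) ∪ cand P E r S1 (X ^ 2) ((X ^ 2) ^ (2 ^ N)) := by
      intro ρ hρ
      rw [mem_cand] at hρ
      rw [mem_union, mem_cand, mem_cand]
      rcases le_total (ρ : ℝ) (X ^ 2) with h | h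
      · exact Or.inl ⟨hρ.1, hρ.2.1, h, hρ.2.2.2⟩
      · refine Or.inr ⟨hρ.1, h, ?_, hρ.2.2.2⟩
        rw [← pow_mul, ← pow_succ']
        exact hρ.2.2.1
    calc ∑ ρ ∈ cand P E r S1 X (X ^ (2 ^ (N + 1))), (1 : ℝ) / ρ
        ≤ ∑ ρ ∈ cand P E r S1 X (X ^ 2) ∪ cand P E r S1 (X ^ 2) ((X ^ 2) ^ (2 ^ N)),
          (1 : ℝ) / ρ := sum_le_sum_of_subset_of_nonneg h1 fun ρ _ _ => by positivity
      _ ≤ ∑ ρ ∈ cand P E r S1 X (X ^ 2), (1 : ℝ) / ρ +
          ∑ ρ ∈ cand P E r S1 (X ^ 2) ((X ^ 2) ^ (2 ^ N)), (1 : ℝ) / ρ := by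
          rw [← sum_union_inter]
          exact le_add_of_nonneg_right (sum_nonneg fun ρ _ => by positivity)
      _ ≤ κ + (N + 1) * κ := add_le_add (hK S1 X hX) (ih (X ^ 2) (by nlinarith))
      _ = _ := by push_cast; ring

/-- `a_p = 1/(p-1)` -/
noncomputable def od (p : ℕ) : ℝ := 1 / ((p : ℝ) - 1)

lemma od_nonneg {p : ℕ} (hp : 1 ≤ p) : 0 ≤ od p := by
  have h1 : (1 : ℝ) ≤ p := by exact_mod_cast hp
  unfold od
  apply div_nonneg zero_le_one
  linarith

lemma od_le {p : ℕ} (hp : 2 ≤ p) : od p ≤ 2 * (1 / (p : ℝ)) := by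
  have h1 : (2 : ℝ) ≤ p := by exact_mod_cast hp
  unfold od
  rw [mul_one_div, div_le_div_iff₀ (by linarith) (by linarith)]
  linarith

/-- the inner sum over one fibre: `i = k + 1` letters removed, all in the window `[X, Z0]` -/
lemma fibre {P : Finset ℕ} (hP : ∀ p ∈ P, 2 ≤ p) {E : Finset (Finset ℕ)} (hE : ∀ S ∈ E, S ⊆ P)
    {r : Finset ℕ → ℕ} {y κ : ℝ} (hy : 1 ≤ y) (hK : HypK P E r y κ)
    (τ : Finset ℕ → Finset ℕ) (k N : ℕ) (X X' : ℝ) (hX : y ≤ X) (hN : X' ≤ X ^ (2 ^ N))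
    (F : Finset (Finset ℕ)) (hF : F ⊆ E) (hτ : ∀ S ∈ F, IsTop (τ S) (lo r S))
    (hcard : ∀ S ∈ F, (τ S).card = k + 1) (hwin : ∀ S ∈ F, ∀ p ∈ τ S, X ≤ (p : ℝ) ∧ (p : ℝ) ≤ X')
    (S0 : Finset ℕ) (hS0 : ∀ S ∈ F, S \ τ S = S0) :
    ∑ S ∈ F, ∏ p ∈ τ S, od p ≤ (2 * ((N + 1) * κ)) *
      ∑ T ∈ (P.filter fun p : ℕ => X ≤ (p : ℝ) ∧ (p : ℝ) ≤ X').powersetCard k, ∏ p ∈ T, od p := by
  classical
  set W := P.filter fun p : ℕ => X ≤ (p : ℝ) ∧ (p : ℝ) ≤ X' with hW
  -- largest letter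
  have hne : ∀ S ∈ F, (τ S).Nonempty := fun S hS => by
    rw [← card_pos, hcard S hS]; omega
  let m : Finset ℕ → ℕ := fun S => if h : (τ S).Nonempty then (τ S).max' h else 0
  have hm1 : ∀ S ∈ F, m S ∈ τ S := fun S hS => by
    simp only [m, dif_pos (hne S hS)]
    exact max'_mem _ _
  have hm2 : ∀ S ∈ F, ∀ q ∈ τ S, q ≤ m S := fun S hS q hq => by
    simp only [m, dif_pos (hne S hS)]
    exact le_max' _ _ hq
  have hτS : ∀ S ∈ F, τ S ⊆ S := fun S hS => (hτ S hS).1.trans (filter_subset _ _)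
  have hodP : ∀ p ∈ P, 0 ≤ od p := fun p hp => od_nonneg (by have := hP p hp; omega)
  have hmaps : ∀ S ∈ F, (τ S).erase (m S) ∈ W.powersetCard k := by
    intro S hS
    rw [mem_powersetCard]
    refine ⟨fun q hq => ?_, ?_⟩
    · have h1 := mem_of_mem_erase hq
      rw [hW, mem_filter]
      exact ⟨hE S (hF hS) (hτS S hS h1), hwin S hS q h1⟩
    · rw [card_erase_of_mem (hm1 S hS), hcard S hS]
      omega
  rw [← sum_fiberwise_of_maps_to hmaps, mul_sum]
  refine sum_le_sum fun T hT => ?_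
  have e1 : ∀ S ∈ F.filter (fun S => (τ S).erase (m S) = T),
      ∏ p ∈ τ S, od p = (∏ p ∈ T, od p) * od (m S) := by
    intro S hS
    rw [mem_filter] at hS
    rw [← mul_prod_erase (τ S) od (hm1 S hS.1), hS.2, mul_comm]
  rw [sum_congr rfl e1, ← mul_sum, mul_comm]
  have hT0 : 0 ≤ ∏ p ∈ T, od p := prod_nonneg fun p hp =>
    hodP p (mem_filter.1 ((mem_powersetCard.1 hT).1 hp)).1
  refine mul_le_mul_of_nonneg_right ?_ hT0
  -- `S = insert (m S) (S0 ∪ T)`
  have hrec : ∀ S ∈ F.filter (fun S => (τ S).erase (m S) = T), insert (m S) (S0 ∪ T) = S := by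
    intro S hS
    rw [mem_filter] at hS
    rw [← hS.2, ← hS0 S hS.1]
    ext q
    simp only [mem_insert, mem_union, mem_sdiff, mem_erase]
    constructor
    · rintro (rfl | h | h)
      · exact hτS S hS.1 (hm1 S hS.1)
      · exact h.1
      · exact hτS S hS.1 h.2
    · intro h
      by_cases h1 : q ∈ τ S
      · by_cases h2 : q = m S
        · exact Or.inl h2
        · exact Or.inr (Or.inr ⟨h2, h1⟩)
      · exact Or.inr (Or.inl ⟨h, h1⟩)
  have hinj : ∀ S ∈ F.filter (fun S => (τ S).erase (m S) = T),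
      ∀ S' ∈ F.filter (fun S => (τ S).erase (m S) = T), m S = m S' → S = S' := by
    intro S hS S' hS' he
    rw [← hrec S hS, ← hrec S' hS', he]
  have hsub : (F.filter (fun S => (τ S).erase (m S) = T)).image m ⊆
      cand P E r (S0 ∪ T) X (X ^ (2 ^ N)) := by
    intro ρ hρ
    obtain ⟨S, hS, rfl⟩ := mem_image.1 hρ
    have hr := hrec S hS
    have hS' := hS
    rw [mem_filter] at hS'
    obtain ⟨hSF, hST⟩ := hS'
    have hw := hwin S hSF (m S) (hm1 S hSF)
    rw [mem_cand, hr]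
    refine ⟨hE S (hF hSF) (hτS S hSF (hm1 S hSF)), hw.1, hw.2.trans hN, ?_, hF hSF, ?_, ?_⟩
    · rw [mem_union, not_or]
      constructor
      · rw [← hS0 S hSF, mem_sdiff, not_and, not_not]
        exact fun _ => hm1 S hSF
      · rw [← hST]
        exact notMem_erase _ _
    · exact (mem_filter.1 ((hτ S hSF).1 (hm1 S hSF))).2
    · intro q hq hqr
      rw [mem_union] at hq
      rcases hq with hq | hq
      · rw [← hS0 S hSF, mem_sdiff] at hq
        exact (hτ S hSF).2 (m S) (hm1 S hSF) q (mem_sdiff.2 ⟨mem_filter.2 ⟨hq.1, hqr⟩, hq.2⟩)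
      · rw [← hST, mem_erase] at hq
        exact lt_of_le_of_ne (hm2 S hSF q hq.2) hq.1
  calc ∑ S ∈ F.filter (fun S => (τ S).erase (m S) = T), od (m S)
      = ∑ ρ ∈ (F.filter (fun S => (τ S).erase (m S) = T)).image m, od ρ :=
        (sum_image (f := od) hinj).symm
    _ ≤ ∑ ρ ∈ (F.filter (fun S => (τ S).erase (m S) = T)).image m, 2 * (1 / (ρ : ℝ)) := by
        refine sum_le_sum fun ρ hρ => od_le ?_
        exact hP ρ (mem_cand.1 (hsub hρ)).1
    _ ≤ ∑ ρ ∈ cand P E r (S0 ∪ T) X (X ^ (2 ^ N)), 2 * (1 / (ρ : ℝ)) :=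
        sum_le_sum_of_subset_of_nonneg hsub fun _ _ _ => by positivity
    _ ≤ 2 * ((N + 1) * κ) := by
        rw [← mul_sum]
        exact mul_le_mul_of_nonneg_left (cand_blocks hy hK (S0 ∪ T) N X hX) zero_le_two

/-! ### existence of a top segment with large letters -/

lemma sum_log_le (a : ℕ → ℝ) (H : Finset ℕ) (hH : ∀ p ∈ H, 1 ≤ p)
    (h : ∀ T, IsTop T H → T.Nonempty → ∃ p ∈ T, Real.log p < a (T.card - 1)) :
    ∑ p ∈ H, Real.log p ≤ ∑ i ∈ range H.card, a i := by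
  induction H using Finset.induction_on_min with
  | empty => simp
  | insert m H' hm ih =>
    have hmH : m ∉ H' := fun h => lt_irrefl m (hm m h)
    have ih' := ih (fun p hp => hH p (mem_insert_of_mem hp)) (by
      intro T hT hne
      refine h T ⟨hT.1.trans (subset_insert _ _), fun p hp q hq => ?_⟩ hne
      rw [mem_sdiff, mem_insert] at hq
      rcases hq.1 with rfl | hq1
      · exact hm p (hT.1 hp)
      · exact hT.2 p hp q (mem_sdiff.2 ⟨hq1, hq.2⟩))
    obtain ⟨p, hp, hpl⟩ := h (insert m H') ⟨subset_rfl, fun p _ q hq => by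
      rw [sdiff_self] at hq; exact absurd hq (notMem_empty _)⟩ (insert_nonempty _ _)
    rw [card_insert_of_notMem hmH, Nat.add_sub_cancel] at hpl
    rw [sum_insert hmH, card_insert_of_notMem hmH, sum_range_succ, add_comm]
    refine add_le_add ih' ?_
    have h1 : m ≤ p := by
      rcases mem_insert.1 hp with rfl | hp
      · exact le_rfl
      · exact (hm p hp).le
    have h2 : 1 ≤ m := hH m (mem_insert_self _ _)
    have h3 : Real.log m ≤ Real.log p := Real.log_le_log (by exact_mod_cast h2) (by exact_mod_cast h1)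
    linarith

/-- geometric thresholds -/
lemma exists_top {α q Z : ℝ} (hα : 0 < α) (hq0 : 0 < q) (hq1 : q < 1) (H : Finset ℕ)
    (hH : ∀ p ∈ H, 2 ≤ p) (hne : H.Nonempty) (hZ : ∀ p ∈ H, (p : ℝ) ≤ Z)
    (hs : α * Real.log Z ≤ ∑ p ∈ H, Real.log p) :
    ∃ T, IsTop T H ∧ T.Nonempty ∧
      ∀ p ∈ T, α * (1 - q) * q ^ (T.card - 1) * Real.log Z ≤ Real.log p := by
  by_contra hcon
  push Not at hcon
  obtain ⟨p0, hp0⟩ := hne
  have hZ1 : 0 < Real.log Z := by
    have h1 : (2 : ℝ) ≤ p0 := by exact_mod_cast hH p0 hp0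
    exact Real.log_pos (by linarith [hZ p0 hp0])
  have h1 := sum_log_le (fun i => α * (1 - q) * q ^ i * Real.log Z) H
    (fun p hp => by have := hH p hp; omega) hcon
  have h2 : ∑ i ∈ range H.card, α * (1 - q) * q ^ i * Real.log Z =
      α * Real.log Z * (1 - q ^ H.card) := by
    have e := mul_neg_geom_sum q H.card
    have : ∑ i ∈ range H.card, α * (1 - q) * q ^ i * Real.log Z =
        α * Real.log Z * ((1 - q) * ∑ i ∈ range H.card, q ^ i) := by
      rw [mul_sum, mul_sum]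
      exact sum_congr rfl fun i _ => by ring
    rw [this, e]
  rw [h2] at h1
  have h3 : 0 < q ^ H.card := pow_pos hq0 _
  have h4 : 0 < α * Real.log Z * q ^ H.card := by positivity
  nlinarith

/-- reciprocal sums in a window `[X, Z]`, `e log Z ≤ log X` -/
lemma window_sum : ∃ C1 : ℝ, 0 < C1 ∧ ∀ (e X Z : ℝ) (W : Finset ℕ), 0 < e → e ≤ 1 → 9 ≤ X →
    e * Real.log Z ≤ Real.log X → (∀ p ∈ W, p.Prime ∧ X ≤ (p : ℝ) ∧ (p : ℝ) ≤ Z) →
    ∑ p ∈ W, (1 : ℝ) / p ≤ 1 + C1 * (Real.log (1 / e) + 1) := by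
  classical
  obtain ⟨C, hC, h⟩ := R4P.BTs18.ap_sum
  refine ⟨C, hC, fun e X Z W he he1 hX9 hX hW => ?_⟩
  have hX0 : 0 < X := by linarith
  have hlX : 1 ≤ Real.log X := by
    have h1 : Real.log (Real.exp 1) ≤ Real.log X :=
      Real.log_le_log (Real.exp_pos 1) (by linarith [Real.exp_one_lt_d9])
    rwa [Real.log_exp] at h1
  have hle : 0 ≤ Real.log (1 / e) := Real.log_nonneg (by rw [le_div_iff₀ he]; linarith)
  by_cases hXZ : X ≤ Z
  · have hsplit : W ⊆ W.filter (fun p : ℕ => (p : ℝ) = X) ∪ W.filter (fun p : ℕ => X < (p : ℝ)) := by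
      intro p hp
      rw [mem_union, mem_filter, mem_filter]
      rcases eq_or_lt_of_le (hW p hp).2.1 with h1 | h1
      · exact Or.inl ⟨hp, h1.symm⟩
      · exact Or.inr ⟨hp, h1⟩
    have h1 : ∑ p ∈ W.filter (fun p : ℕ => (p : ℝ) = X), (1 : ℝ) / p ≤ 1 := by
      have hc : (W.filter (fun p : ℕ => (p : ℝ) = X)).card ≤ 1 := by
        rw [card_le_one]
        intro a ha b hb
        have h1 := (mem_filter.1 ha).2
        have h2 := (mem_filter.1 hb).2
        exact_mod_cast h1.trans h2.symm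
      calc ∑ p ∈ W.filter (fun p : ℕ => (p : ℝ) = X), (1 : ℝ) / p
          ≤ (W.filter (fun p : ℕ => (p : ℝ) = X)).card • (1 : ℝ) := by
            refine sum_le_card_nsmul _ _ _ fun p hp => ?_
            rw [(mem_filter.1 hp).2, div_le_one hX0]
            linarith
        _ ≤ 1 := by
            rw [nsmul_eq_mul, mul_one]
            exact_mod_cast hc
    have h2 := h 1 0 le_rfl X Z hX9 (by norm_num; linarith) hXZ
      (W.filter (fun p : ℕ => X < (p : ℝ))) (fun p hp => by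
        obtain ⟨hp1, hp2⟩ := mem_filter.1 hp
        exact ⟨(hW p hp1).1, hp2, (hW p hp1).2.2, by simp [Nat.mod_one]⟩)
    have h3 : Real.log (Real.log Z / Real.log X) ≤ Real.log (1 / e) := by
      have hlZ : 0 < Real.log Z := by
        have := Real.log_le_log hX0 hXZ
        linarith
      refine Real.log_le_log (by positivity) ?_
      rw [div_le_div_iff₀ (by linarith) he]
      linarith
    have h4 : 1 / Real.log X ≤ 1 := by rw [div_le_one (by linarith)]; exact hlX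
    have h5 : ∑ p ∈ W.filter (fun p : ℕ => X < (p : ℝ)), (1 : ℝ) / p ≤
        C * (Real.log (1 / e) + 1) := by
      refine h2.trans ?_
      rw [Nat.totient_one, Nat.cast_one, div_one]
      exact mul_le_mul_of_nonneg_left (by linarith) hC.le
    calc ∑ p ∈ W, (1 : ℝ) / p
        ≤ ∑ p ∈ W.filter (fun p : ℕ => (p : ℝ) = X) ∪ W.filter (fun p : ℕ => X < (p : ℝ)),
          (1 : ℝ) / p := sum_le_sum_of_subset_of_nonneg hsplit fun _ _ _ => by positivity
      _ ≤ ∑ p ∈ W.filter (fun p : ℕ => (p : ℝ) = X), (1 : ℝ) / p +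
          ∑ p ∈ W.filter (fun p : ℕ => X < (p : ℝ)), (1 : ℝ) / p := by
          rw [← sum_union_inter]
          exact le_add_of_nonneg_right (sum_nonneg fun _ _ => by positivity)
      _ ≤ _ := add_le_add h1 h5
  · have hWe : W = ∅ := by
      rw [eq_empty_iff_forall_notMem]
      intro p hp
      exact hXZ ((hW p hp).2.1.trans (hW p hp).2.2)
    rw [hWe, sum_empty]
    positivity

/-! ### the levels -/

lemma up_eq {r : Finset ℕ → ℕ} {S T : Finset ℕ} (hT : T ⊆ lo r S) :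
    up r S = (S \ T).filter (r S ≤ ·) := by
  unfold up
  ext q
  simp only [mem_filter, mem_sdiff]
  constructor
  · rintro ⟨h1, h2⟩
    refine ⟨⟨h1, fun h => ?_⟩, h2⟩
    have := (mem_filter.1 (hT h)).2
    omega
  · rintro ⟨⟨h1, _⟩, h2⟩
    exact ⟨h1, h2⟩

lemma same_up {E : Finset (Finset ℕ)} {r : Finset ℕ → ℕ} (hU : HypU E r) {S S' T T' : Finset ℕ}
    (hS : S ∈ E) (hS' : S' ∈ E) (hT : IsTop T (lo r S)) (hT' : IsTop T' (lo r S'))
    (hne : T.Nonempty) (hc : T.card = T'.card) (he : S \ T = S' \ T') :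
    r S = r S' ∧ up r S = up r S' := by
  have h1 := hU S hS S' hS' T T' hT hT' hne hc he
  refine ⟨h1, ?_⟩
  rw [up_eq hT.1, up_eq hT'.1, he, h1]

lemma levelK {P : Finset ℕ} (hP : ∀ p ∈ P, p.Prime) {y κ : ℝ} (hy9 : 9 ≤ y)
    (hPy : ∀ p ∈ P, y ≤ (p : ℝ)) (hκ : 0 ≤ κ) {E : Finset (Finset ℕ)} (hE : ∀ S ∈ E, S ⊆ P)
    {r : Finset ℕ → ℕ} (hU : HypU E r) (hK : HypK P E r y κ) (Z : Finset ℕ → ℝ) {C1 : ℝ}
    (hC1 : 0 < C1)
    (hwd : ∀ (e X Z : ℝ) (W : Finset ℕ), 0 < e → e ≤ 1 → 9 ≤ X →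
      e * Real.log Z ≤ Real.log X → (∀ p ∈ W, p.Prime ∧ X ≤ (p : ℝ) ∧ (p : ℝ) ≤ Z) →
      ∑ p ∈ W, (1 : ℝ) / p ≤ 1 + C1 * (Real.log (1 / e) + 1))
    (e : ℝ) (he0 : 0 < e) (he1 : e ≤ 1) (k N : ℕ) (hN : 1 ≤ e * 2 ^ N)
    (Ek : Finset (Finset ℕ)) (hEk : Ek ⊆ E) (τ : Finset ℕ → Finset ℕ)
    (hτ : ∀ S ∈ Ek, IsTop (τ S) (lo r S)) (hcard : ∀ S ∈ Ek, (τ S).card = k + 1)
    (hlow : ∀ S ∈ Ek, ∀ p ∈ τ S, e * Real.log (Z (up r S)) ≤ Real.log p)
    (hZ : ∀ S ∈ Ek, ∀ p ∈ lo r S, (p : ℝ) ≤ Z (up r S)) :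
    ∑ S ∈ Ek, law P S ≤ (2 * ((N + 1) * κ)) *
      ((2 * (1 + C1 * (Real.log (1 / e) + 1))) ^ k / (k.factorial : ℝ)) := by
  classical
  have hP2 : ∀ p ∈ P, 2 ≤ p := fun p hp => (hP p hp).two_le
  have hle : 0 ≤ Real.log (1 / e) := Real.log_nonneg (by rw [le_div_iff₀ he0]; linarith)
  set x : ℝ := 2 * (1 + C1 * (Real.log (1 / e) + 1)) with hx
  have hx0 : 0 ≤ x := by positivity
  refine level hP2 Ek (fun S hS => hE S (hEk hS)) τ
    (fun S hS => (hτ S hS).1.trans (filter_subset _ _)) _ fun S0 => ?_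
  set F := Ek.filter (fun S => S \ τ S = S0) with hF
  rcases F.eq_empty_or_nonempty with hFe | ⟨S1, hS1⟩
  · have : ∑ S ∈ F, ∏ p ∈ τ S, (1 / ((p : ℝ) - 1)) = 0 := by rw [hFe, sum_empty]
    rw [this]
    positivity
  · have hS1' := mem_filter.1 hS1
    have hne : ∀ S ∈ Ek, (τ S).Nonempty := fun S hS => by
      rw [← card_pos, hcard S hS]; omega
    have hup : ∀ S ∈ F, up r S = up r S1 := by
      intro S hS
      have hS' := mem_filter.1 hS
      exact (same_up hU (hEk hS'.1) (hEk hS1'.1) (hτ S hS'.1) (hτ S1 hS1'.1) (hne S hS'.1)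
        (by rw [hcard S hS'.1, hcard S1 hS1'.1]) (by rw [hS'.2, hS1'.2])).2
    set Z0 := Z (up r S1) with hZ0
    obtain ⟨p1, hp1⟩ := hne S1 hS1'.1
    have hp1P : p1 ∈ P := hE S1 (hEk hS1'.1) (filter_subset _ _ ((hτ S1 hS1'.1).1 hp1))
    have hZ0p : (p1 : ℝ) ≤ Z0 := hZ S1 hS1'.1 p1 ((hτ S1 hS1'.1).1 hp1)
    have hZ09 : 9 ≤ Z0 := hy9.trans ((hPy p1 hp1P).trans hZ0p)
    have hlZ0 : 0 ≤ Real.log Z0 := Real.log_nonneg (by linarith)
    set X : ℝ := max y (Real.exp (e * Real.log Z0)) with hX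
    have hXy : y ≤ X := le_max_left _ _
    have hXe : Real.exp (e * Real.log Z0) ≤ X := le_max_right _ _
    have hXN : Z0 ≤ X ^ (2 ^ N) := by
      calc Z0 = Real.exp (Real.log Z0) := (Real.exp_log (by linarith)).symm
        _ ≤ Real.exp ((2 ^ N : ℕ) * (e * Real.log Z0)) := by
            rw [Real.exp_le_exp]
            push_cast
            nlinarith
        _ = (Real.exp (e * Real.log Z0)) ^ (2 ^ N) := by rw [Real.exp_nat_mul]
        _ ≤ X ^ (2 ^ N) := pow_le_pow_left₀ (Real.exp_pos _).le hXe _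
    have hfib := fibre hP2 hE (by linarith) hK τ k N X Z0 hXy hXN F
      ((filter_subset _ _).trans hEk) (fun S hS => hτ S (mem_filter.1 hS).1)
      (fun S hS => hcard S (mem_filter.1 hS).1) (fun S hS p hp => by
        have hS' := (mem_filter.1 hS).1
        have hpP : p ∈ P := hE S (hEk hS') (filter_subset _ _ ((hτ S hS').1 hp))
        have h1 := hlow S hS' p hp
        have h2 := hZ S hS' p ((hτ S hS').1 hp)
        rw [hup S hS, ← hZ0] at h1 h2
        refine ⟨max_le (hPy p hpP) ?_, h2⟩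
        have hp0 : (0 : ℝ) < p := by exact_mod_cast (hP p hpP).pos
        rw [← Real.exp_log hp0]
        exact Real.exp_le_exp.2 h1) S0 (fun S hS => (mem_filter.1 hS).2)
    refine hfib.trans (mul_le_mul_of_nonneg_left ?_ (by positivity))
    set W := P.filter fun p : ℕ => X ≤ (p : ℝ) ∧ (p : ℝ) ≤ Z0 with hW
    have hod : ∀ p ∈ W, 0 ≤ od p := fun p hp =>
      od_nonneg (by have := hP2 p (mem_filter.1 hp).1; omega)
    have h1 := esymm_le od k W hod
    have h2 : ∑ p ∈ W, od p ≤ x := by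
      calc ∑ p ∈ W, od p ≤ ∑ p ∈ W, 2 * (1 / (p : ℝ)) :=
            sum_le_sum fun p hp => od_le (hP2 p (mem_filter.1 hp).1)
        _ = 2 * ∑ p ∈ W, (1 : ℝ) / p := by rw [mul_sum]
        _ ≤ x := by
            rw [hx]
            refine mul_le_mul_of_nonneg_left ?_ zero_le_two
            refine hwd e X Z0 W he0 he1 (hy9.trans hXy) ?_ fun p hp =>
              ⟨hP p (mem_filter.1 hp).1, (mem_filter.1 hp).2⟩
            rw [← Real.log_exp (e * Real.log Z0)]
            exact Real.log_le_log (Real.exp_pos _) hXe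
    have h3 : (∑ p ∈ W, od p) ^ k ≤ x ^ k := pow_le_pow_left₀ (sum_nonneg hod) h2 _
    rw [le_div_iff₀ (by positivity), mul_comm]
    exact h1.trans h3

/-- (A1): the largest letter lies in the window `(Z, Y)` of small mass -/
lemma levelA1 {P : Finset ℕ} (hP : ∀ p ∈ P, p.Prime) {s : ℝ} (hs : 0 ≤ s)
    {E : Finset (Finset ℕ)} (hE : ∀ S ∈ E, S ⊆ P)
    {r : Finset ℕ → ℕ} (hU : HypU E r) (Z Y : Finset ℕ → ℝ)
    (E1 : Finset (Finset ℕ)) (hE1 : E1 ⊆ E)
    (h : ∀ S ∈ E1, (∃ ρ ∈ lo r S, (∀ q ∈ lo r S, q ≤ ρ) ∧ Z (up r S) < ρ ∧ (ρ : ℝ) < Y (up r S)) ∧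
      ∑ p ∈ P.filter (fun p : ℕ => Z (up r S) < (p : ℝ) ∧ (p : ℝ) < Y (up r S)), (1 : ℝ) / p ≤ s) :
    ∑ S ∈ E1, law P S ≤ 2 * s := by
  classical
  have hP2 : ∀ p ∈ P, 2 ≤ p := fun p hp => (hP p hp).two_le
  choose! m hm1 hm2 hm3 hm4 using fun S hS => (h S hS).1
  have htop : ∀ S ∈ E1, IsTop {m S} (lo r S) := by
    intro S hS
    refine ⟨singleton_subset_iff.2 (hm1 S hS), fun p hp q hq => ?_⟩
    rw [mem_singleton] at hp
    rw [mem_sdiff, mem_singleton] at hq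
    subst hp
    exact lt_of_le_of_ne (hm2 S hS q hq.1) hq.2
  have hmS : ∀ S ∈ E1, m S ∈ S := fun S hS => filter_subset _ _ (hm1 S hS)
  refine level hP2 E1 (fun S hS => hE S (hE1 hS)) (fun S => {m S})
    (fun S hS => singleton_subset_iff.2 (hmS S hS)) _ fun S0 => ?_
  set F := E1.filter (fun S => S \ {m S} = S0) with hF
  rcases F.eq_empty_or_nonempty with hFe | ⟨S1, hS1⟩
  · have : ∑ S ∈ F, ∏ p ∈ ({m S} : Finset ℕ), (1 / ((p : ℝ) - 1)) = 0 := by rw [hFe, sum_empty]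
    rw [this]
    positivity
  · have hS1' := mem_filter.1 hS1
    have hup : ∀ S ∈ F, up r S = up r S1 := by
      intro S hS
      have hS' := mem_filter.1 hS
      exact (same_up hU (hE1 hS'.1) (hE1 hS1'.1) (htop S hS'.1) (htop S1 hS1'.1)
        (singleton_nonempty _) (by rw [card_singleton, card_singleton])
        (by rw [hS'.2, hS1'.2])).2
    have hrec : ∀ S ∈ F, insert (m S) S0 = S := by
      intro S hS
      have hS' := mem_filter.1 hS
      rw [← hS'.2, sdiff_singleton_eq_erase, insert_erase (hmS S hS'.1)]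
    have hinj : ∀ S ∈ F, ∀ S' ∈ F, m S = m S' → S = S' := by
      intro S hS S' hS' he
      rw [← hrec S hS, ← hrec S' hS', he]
    have hsub : F.image m ⊆ P.filter (fun p : ℕ => Z (up r S1) < (p : ℝ) ∧
        (p : ℝ) < Y (up r S1)) := by
      intro ρ hρ
      obtain ⟨S, hS, rfl⟩ := mem_image.1 hρ
      have hS' := (mem_filter.1 hS).1
      rw [mem_filter]
      have h1 := hm3 S hS'
      have h2 := hm4 S hS'
      rw [hup S hS] at h1 h2
      exact ⟨hE S (hE1 hS') (hmS S hS'), h1, h2⟩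
    calc ∑ S ∈ F, ∏ p ∈ ({m S} : Finset ℕ), (1 / ((p : ℝ) - 1))
        = ∑ S ∈ F, od (m S) := sum_congr rfl fun S _ => by rw [prod_singleton]; rfl
      _ = ∑ ρ ∈ F.image m, od ρ := (sum_image (f := od) hinj).symm
      _ ≤ ∑ ρ ∈ F.image m, 2 * (1 / (ρ : ℝ)) := by
          refine sum_le_sum fun ρ hρ => od_le ?_
          exact hP2 ρ (mem_filter.1 (hsub hρ)).1
      _ ≤ ∑ ρ ∈ P.filter (fun p : ℕ => Z (up r S1) < (p : ℝ) ∧ (p : ℝ) < Y (up r S1)),
          2 * (1 / (ρ : ℝ)) := sum_le_sum_of_subset_of_nonneg hsub fun _ _ _ => by positivity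
      _ ≤ 2 * s := by
          rw [← mul_sum]
          exact mul_le_mul_of_nonneg_left (h S1 hS1'.1).2 zero_le_two

/-- **natural-law bound behind the GW hypothesis** -/
theorem gwhyp (α : ℝ) (hα : 0 < α) (hα1 : α ≤ 1) : ∃ C : ℝ, 0 < C ∧
    ∀ (P : Finset ℕ) (y s κ : ℝ) (E : Finset (Finset ℕ)) (r : Finset ℕ → ℕ)
      (Z Y : Finset ℕ → ℝ), 9 ≤ y → 0 ≤ s → 0 ≤ κ →
      (∀ p ∈ P, p.Prime) → (∀ p ∈ P, y ≤ (p : ℝ)) → (∀ S ∈ E, S ⊆ P) →
      HypU E r → HypK P E r y κ →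
      (∀ S ∈ E, ((∃ ρ ∈ lo r S, (∀ q ∈ lo r S, q ≤ ρ) ∧ Z (up r S) < ρ ∧ (ρ : ℝ) < Y (up r S)) ∧
          ∑ p ∈ P.filter (fun p : ℕ => Z (up r S) < (p : ℝ) ∧ (p : ℝ) < Y (up r S)), (1 : ℝ) / p ≤ s) ∨
        ((lo r S).Nonempty ∧ (∀ q ∈ lo r S, (q : ℝ) ≤ Z (up r S)) ∧
          α * Real.log (Z (up r S)) ≤ ∑ q ∈ lo r S, Real.log q)) →
      ∑ S ∈ E, law P S ≤ 2 * s + C * κ := by
  classical
  obtain ⟨C1, hC1, hwd⟩ := window_sum
  set A1 : ℝ := 2 * C1 with hA1
  set ε : ℝ := 1 / (1 + 6 * A1) with hε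
  have hA1p : 0 < A1 := by positivity
  have hεp : 0 < ε := by positivity
  set q : ℝ := Real.exp (-ε) with hq
  have hq0 : 0 < q := Real.exp_pos _
  have hq1 : q < 1 := by rw [hq, Real.exp_lt_one_iff]; linarith
  set u : ℝ := 1 / (α * (1 - q)) with hu
  have hd0 : 0 < α * (1 - q) := mul_pos hα (by linarith)
  have hd1 : α * (1 - q) ≤ 1 := by nlinarith
  have hu1 : 1 ≤ u := by rw [hu, le_div_iff₀ hd0]; linarith
  set A0 : ℝ := 2 * (1 + C1 * (Real.log u + 1)) with hA0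
  have hlu : 0 ≤ Real.log u := Real.log_nonneg hu1
  have hA0p : 0 < A0 := by positivity
  set K0 : ℝ := 4 * u * Real.exp (6 * A0) with hK0
  refine ⟨2 * K0, by positivity, ?_⟩
  intro P y s κ E r Z Y hy hs hκ hP hPy hE hU hK hcase
  have hP2 : ∀ p ∈ P, 2 ≤ p := fun p hp => (hP p hp).two_le
  -- the two cases
  set E1 := E.filter (fun S => (∃ ρ ∈ lo r S, (∀ q ∈ lo r S, q ≤ ρ) ∧ Z (up r S) < ρ ∧
      (ρ : ℝ) < Y (up r S)) ∧
    ∑ p ∈ P.filter (fun p : ℕ => Z (up r S) < (p : ℝ) ∧ (p : ℝ) < Y (up r S)), (1 : ℝ) / p ≤ s) with hE1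
  set E2 := E.filter (fun S => ((lo r S).Nonempty ∧ (∀ q ∈ lo r S, (q : ℝ) ≤ Z (up r S)) ∧
          α * Real.log (Z (up r S)) ≤ ∑ q ∈ lo r S, Real.log q)) with hE2
  have hlaw0 : ∀ S, 0 ≤ law P S := fun S =>
    law_nonneg fun p hp => by have := hP2 p hp; omega
  have hcover : E ⊆ E1 ∪ E2 := by
    intro S hS
    rw [mem_union, mem_filter, mem_filter]
    rcases hcase S hS with h | h
    · exact Or.inl ⟨hS, h⟩
    · exact Or.inr ⟨hS, h⟩
  have hb1 : ∑ S ∈ E1, law P S ≤ 2 * s :=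
    levelA1 hP hs hE hU Z Y E1 (filter_subset _ _) fun S hS => (mem_filter.1 hS).2
  -- (A2)
  have htop : ∀ S ∈ E2, ∃ T, IsTop T (lo r S) ∧ T.Nonempty ∧
      ∀ p ∈ T, α * (1 - q) * q ^ (T.card - 1) * Real.log (Z (up r S)) ≤ Real.log p := by
    intro S hS
    obtain ⟨hSE, h1, h2, h3⟩ := mem_filter.1 hS
    exact exists_top hα hq0 hq1 (lo r S)
      (fun p hp => hP2 p (hE S hSE (filter_subset _ _ hp))) h1 h2 h3
  choose! τ hτ1 hτ2 hτ3 using htop
  have hmaps : ∀ S ∈ E2, (τ S).card - 1 ∈ range (P.card + 1) := by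
    intro S hS
    have h1 := (mem_filter.1 hS).1
    have h2 : τ S ⊆ P := (hτ1 S hS).1.trans ((filter_subset _ _).trans (hE S h1))
    have h3 := card_le_card h2
    rw [mem_range]
    omega
  have hb2 : ∑ S ∈ E2, law P S ≤ 2 * K0 * κ := by
    rw [← sum_fiberwise_of_maps_to hmaps]
    have hk : ∀ k ∈ range (P.card + 1), ∑ S ∈ E2 with (τ S).card - 1 = k, law P S ≤
        K0 * κ * (1 / 2) ^ k := by
      intro k _
      set e : ℝ := α * (1 - q) * q ^ k with he
      have hqk : 0 < q ^ k := pow_pos hq0 _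
      have hqk1 : q ^ k ≤ 1 := pow_le_one₀ hq0.le hq1.le
      have he0 : 0 < e := by positivity
      have he1 : e ≤ 1 := by
        rw [he]
        calc α * (1 - q) * q ^ k ≤ 1 * 1 := mul_le_mul hd1 hqk1 hqk.le zero_le_one
          _ = 1 := one_mul 1
      have hinve : 1 / e = u * Real.exp (ε * k) := by
        have h1 : q ^ k = (Real.exp (ε * k))⁻¹ := by
          rw [hq, ← Real.exp_nat_mul, ← Real.exp_neg]
          congr 1
          ring
        rw [he, h1, hu, one_div, mul_inv, inv_inv, one_div]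
      have hle : Real.log (1 / e) = Real.log u + ε * k := by
        have : 1 / e = u * Real.exp (ε * k) := hinve
        rw [this, Real.log_mul (by positivity) (Real.exp_pos _).ne', Real.log_exp]
      have hinv1 : 1 ≤ 1 / e := by rw [le_div_iff₀ he0]; linarith
      set N : ℕ := ⌈Real.log (1 / e) / Real.log 2⌉₊ with hN
      have hl2 : 0 < Real.log 2 := Real.log_pos (by norm_num)
      have hl2' : 1 / 2 ≤ Real.log 2 := by linarith [Real.log_two_gt_d9]
      have hNle : Real.log (1 / e) ≤ N * Real.log 2 := by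
        have := Nat.le_ceil (Real.log (1 / e) / Real.log 2)
        rwa [div_le_iff₀ hl2] at this
      have hN1 : 1 ≤ e * 2 ^ N := by
        have h1 : 1 / e ≤ 2 ^ N := by
          rw [← Real.log_le_log_iff (by positivity) (by positivity), Real.log_pow]
          exact hNle
        rw [div_le_iff₀ he0] at h1
        linarith
      have hN2 : (N : ℝ) + 1 ≤ 2 * (1 / e) := by
        have h1 : (N : ℝ) < Real.log (1 / e) / Real.log 2 + 1 :=
          Nat.ceil_lt_add_one (div_nonneg (Real.log_nonneg hinv1) hl2.le)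
        have h2 : Real.log (1 / e) / Real.log 2 ≤ 2 * Real.log (1 / e) := by
          rw [div_le_iff₀ hl2]
          nlinarith [Real.log_nonneg hinv1]
        have h3 : Real.log (1 / e) ≤ 1 / e - 1 := Real.log_le_sub_one_of_pos (by positivity)
        linarith
      have hlv := levelK hP hy hPy hκ hE hU hK Z hC1 hwd e he0 he1 k N hN1
        (E2.filter (fun S => (τ S).card - 1 = k)) ((filter_subset _ _).trans (filter_subset _ _)) τ
        (fun S hS => hτ1 S (mem_filter.1 hS).1)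
        (fun S hS => by
          obtain ⟨h1, h2⟩ := mem_filter.1 hS
          have h3 := card_pos.2 (hτ2 S h1)
          omega)
        (fun S hS p hp => by
          obtain ⟨h1, h2⟩ := mem_filter.1 hS
          have h3 := hτ3 S h1 p hp
          rwa [h2] at h3)
        (fun S hS => (mem_filter.1 (mem_filter.1 hS).1).2.2.1)
      refine hlv.trans ?_
      set x : ℝ := 2 * (1 + C1 * (Real.log (1 / e) + 1)) with hx
      have hxe : x = A0 + A1 * (ε * k) := by
        rw [hx, hle, hA0, hA1]; ring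
      have hx0 : 0 ≤ x := by
        have := Real.log_nonneg hinv1
        positivity
      have h1 : x ^ k / (k.factorial : ℝ) ≤ (1 / 6) ^ k * Real.exp (6 * x) := by
        have h2 := Real.pow_div_factorial_le_exp (6 * x) (by positivity) k
        rw [mul_pow] at h2
        have h3 : x ^ k / (k.factorial : ℝ) = (1 / 6) ^ k * (6 ^ k * x ^ k / (k.factorial : ℝ)) := by
          rw [div_pow, one_pow]
          field_simp
        rw [h3]
        exact mul_le_mul_of_nonneg_left h2 (by positivity)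
      have h4 : 1 / e = u * Real.exp (ε * k) := hinve
      have h5 : Real.exp (6 * x) * Real.exp (ε * k) = Real.exp (6 * A0) * Real.exp 1 ^ k := by
        rw [← Real.exp_nat_mul, ← Real.exp_add, ← Real.exp_add]
        congr 1
        rw [hxe]
        have : ε * (1 + 6 * A1) = 1 := by rw [hε]; field_simp
        linear_combination (k : ℝ) * this
      have h6 : (1 / 6 : ℝ) ^ k * Real.exp 1 ^ k ≤ (1 / 2) ^ k := by
        rw [← mul_pow]
        refine pow_le_pow_left₀ (by positivity) ?_ _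
        have := Real.exp_one_lt_d9
        linarith
      calc 2 * ((↑N + 1) * κ) * (x ^ k / (k.factorial : ℝ))
          ≤ 2 * ((2 * (1 / e)) * κ) * ((1 / 6) ^ k * Real.exp (6 * x)) := by
            refine mul_le_mul ?_ h1 (by positivity) (by positivity)
            have := mul_le_mul_of_nonneg_right hN2 hκ
            linarith
        _ = 4 * u * κ * ((1 / 6) ^ k * (Real.exp (6 * x) * Real.exp (ε * k))) := by
            rw [h4]; ring
        _ = K0 * κ * ((1 / 6) ^ k * Real.exp 1 ^ k) := by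
            rw [h5, hK0]; ring
        _ ≤ K0 * κ * (1 / 2) ^ k := mul_le_mul_of_nonneg_left h6 (by positivity)
    calc ∑ k ∈ range (P.card + 1), ∑ S ∈ E2 with (τ S).card - 1 = k, law P S
        ≤ ∑ k ∈ range (P.card + 1), K0 * κ * (1 / 2) ^ k := sum_le_sum hk
      _ = K0 * κ * ∑ k ∈ range (P.card + 1), (1 / 2 : ℝ) ^ k := by rw [mul_sum]
      _ ≤ K0 * κ * 2 := by
          refine mul_le_mul_of_nonneg_left ?_ (by positivity)
          have h := geom_sum_eq (x := (1 / 2 : ℝ)) (by norm_num) (P.card + 1)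
          rw [h]
          have h2 : (0 : ℝ) < (1 / 2) ^ (P.card + 1) := by positivity
          rw [div_le_iff_of_neg (by norm_num)]
          linarith
      _ = 2 * K0 * κ := by ring
  calc ∑ S ∈ E, law P S ≤ ∑ S ∈ E1 ∪ E2, law P S :=
        sum_le_sum_of_subset_of_nonneg hcover fun S _ _ => hlaw0 S
    _ ≤ ∑ S ∈ E1, law P S + ∑ S ∈ E2, law P S := by
        rw [← sum_union_inter]
        exact le_add_of_nonneg_right (sum_nonneg fun S _ => hlaw0 S)
    _ ≤ 2 * s + 2 * K0 * κ := add_le_add hb1 hb2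

/-! ### general `M` -/

lemma nu_le_law {M b : ℕ} (hM : 0 < M) (hb : b ∣ M) (hsq : Squarefree b) :
    Basex935.nu M b ≤ law M.primeFactors b.primeFactors := by
  have hb0 : 0 < b := Nat.pos_of_dvd_of_pos hb hM
  obtain ⟨n, rfl⟩ := hb
  have hn0 : 0 < n := Nat.pos_of_mul_pos_left hM
  have e1 : (b * n) / b = n := Nat.mul_div_cancel_left n hb0
  have hφ : (Nat.totient n : ℝ) = n * ∏ p ∈ n.primeFactors, (1 - 1 / (p : ℝ)) := by
    have h := Nat.totient_eq_mul_prod_factors n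
    have h2 : ((Nat.totient n : ℚ) : ℝ) = ((n * ∏ p ∈ n.primeFactors, (1 - (p : ℚ)⁻¹) : ℚ) : ℝ) := by
      rw [h]
    push_cast at h2
    simpa [one_div] using h2
  have hbp : (b : ℝ) = ∏ p ∈ b.primeFactors, (p : ℝ) := by
    have h := Nat.prod_primeFactors_of_squarefree hsq
    rw [← Nat.cast_prod, h]
  have hb' : (b : ℝ) ≠ 0 := by exact_mod_cast hb0.ne'
  have hn' : (n : ℝ) ≠ 0 := by exact_mod_cast hn0.ne'
  have e2 : Basex935.nu (b * n) b = (∏ p ∈ b.primeFactors, (1 / (p : ℝ))) *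
      ∏ p ∈ n.primeFactors, (1 - 1 / (p : ℝ)) := by
    unfold Basex935.nu
    rw [e1, hφ, prod_div_distrib, prod_const_one, ← hbp]
    push_cast
    field_simp
  rw [e2]
  unfold law
  refine mul_le_mul_of_nonneg_left ?_ (prod_nonneg fun p _ => by positivity)
  have hsub : (b * n).primeFactors \ b.primeFactors ⊆ n.primeFactors := by
    intro p hp
    rw [mem_sdiff, Nat.mem_primeFactors, Nat.mem_primeFactors, not_and, not_and] at hp
    rw [Nat.mem_primeFactors]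
    obtain ⟨⟨h1, h2, h3⟩, h4⟩ := hp
    refine ⟨h1, ?_, hn0.ne'⟩
    rcases (Nat.Prime.dvd_mul h1).1 h2 with h | h
    · exact absurd hb0.ne' (h4 h1 h)
    · exact h
  rw [← prod_sdiff hsub]
  have h01 : ∀ p ∈ n.primeFactors, 0 ≤ 1 - 1 / (p : ℝ) ∧ 1 - 1 / (p : ℝ) ≤ 1 := by
    intro p hp
    have h1 : (1 : ℝ) ≤ p := by exact_mod_cast (Nat.prime_of_mem_primeFactors hp).one_lt.le
    have h2 : 1 / (p : ℝ) ≤ 1 := by rw [div_le_one (by linarith)]; exact h1
    have h3 : 0 ≤ 1 / (p : ℝ) := by positivity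
    constructor <;> linarith
  calc (∏ p ∈ n.primeFactors \ ((b * n).primeFactors \ b.primeFactors), (1 - 1 / (p : ℝ))) *
        ∏ p ∈ (b * n).primeFactors \ b.primeFactors, (1 - 1 / (p : ℝ))
      ≤ 1 * ∏ p ∈ (b * n).primeFactors \ b.primeFactors, (1 - 1 / (p : ℝ)) := by
        refine mul_le_mul_of_nonneg_right ?_ (prod_nonneg fun p hp => (h01 p (hsub hp)).1)
        exact prod_le_one (fun p hp => (h01 p (sdiff_subset hp)).1)
          fun p hp => (h01 p (sdiff_subset hp)).2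
    _ = _ := one_mul _

/-- **natural-law bound, `nu M` of `Base_935`**; words are squarefree divisors of `M` -/
theorem gwhyp_nu (α : ℝ) (hα : 0 < α) (hα1 : α ≤ 1) : ∃ C : ℝ, 0 < C ∧
    ∀ (M : ℕ) (y s κ : ℝ) (E : Finset (Finset ℕ)) (r : Finset ℕ → ℕ)
      (Z Y : Finset ℕ → ℝ), 0 < M → 9 ≤ y → 0 ≤ s → 0 ≤ κ →
      (∀ p ∈ M.primeFactors, y ≤ (p : ℝ)) → (∀ S ∈ E, S ⊆ M.primeFactors) →
      HypU E r → HypK M.primeFactors E r y κ →
      (∀ S ∈ E, ((∃ ρ ∈ lo r S, (∀ q ∈ lo r S, q ≤ ρ) ∧ Z (up r S) < ρ ∧ (ρ : ℝ) < Y (up r S)) ∧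
          ∑ p ∈ M.primeFactors.filter (fun p : ℕ => Z (up r S) < (p : ℝ) ∧ (p : ℝ) < Y (up r S)),
            (1 : ℝ) / p ≤ s) ∨
        ((lo r S).Nonempty ∧ (∀ q ∈ lo r S, (q : ℝ) ≤ Z (up r S)) ∧
          α * Real.log (Z (up r S)) ≤ ∑ q ∈ lo r S, Real.log q)) →
      ∑ S ∈ E, Basex935.nu M (∏ p ∈ S, p) ≤ 2 * s + C * κ := by
  obtain ⟨C, hC, h⟩ := gwhyp α hα hα1
  refine ⟨C, hC, fun M y s κ E r Z Y hM hy hs hκ hPy hE hU hK hcase => ?_⟩
  refine le_trans (sum_le_sum fun S hS => ?_) (h M.primeFactors y s κ E r Z Y hy hs hκ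
    (fun p hp => Nat.prime_of_mem_primeFactors hp) hPy hE hU hK hcase)
  have hSp : ∀ p ∈ S, p.Prime := fun p hp => Nat.prime_of_mem_primeFactors (hE S hS hp)
  have e1 : (∏ p ∈ S, p).primeFactors = S := Nat.primeFactors_prod hSp
  have hd : ∏ p ∈ S, p ∣ M :=
    (prod_dvd_prod_of_subset S M.primeFactors (fun p => p) (hE S hS)).trans
      (Nat.prod_primeFactors_dvd M)
  have hsq : Squarefree (∏ p ∈ S, p) := by
    refine Finset.squarefree_prod_of_pairwise_isCoprime (fun p hp q hq hpq => ?_)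
      fun p hp => (hSp p hp).prime.squarefree
    exact Nat.coprime_iff_isRelPrime.1 ((Nat.coprime_primes (hSp p hp) (hSp q hq)).2 hpq)
  have := nu_le_law hM hd hsq
  rwa [e1] at this

/-- mass of the multiples of `d` -/
lemma sum_nu_mult {M d : ℕ} (hM : 0 < M) (hd : d ∣ M) :
    ∑ b ∈ M.divisors with d ∣ b, Basex935.nu M b = 1 / (d : ℝ) := by
  have hd0 : 0 < d := Nat.pos_of_dvd_of_pos hd hM
  obtain ⟨n, rfl⟩ := hd
  have hn0 : 0 < n := Nat.pos_of_mul_pos_left hM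
  have e1 : (d * n).divisors.filter (fun b => d ∣ b) = n.divisors.image (fun b => d * b) := by
    ext b
    rw [mem_filter, mem_image, Nat.mem_divisors]
    constructor
    · rintro ⟨⟨h1, h2⟩, c, rfl⟩
      exact ⟨c, Nat.mem_divisors.2 ⟨Nat.dvd_of_mul_dvd_mul_left hd0 h1, hn0.ne'⟩, rfl⟩
    · rintro ⟨c, hc, rfl⟩
      exact ⟨⟨Nat.mul_dvd_mul_left d (Nat.mem_divisors.1 hc).1, hM.ne'⟩, dvd_mul_right _ _⟩
  rw [e1, sum_image (fun a _ b _ h => Nat.eq_of_mul_eq_mul_left hd0 h)]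
  have h1 := Basex935.sum_nu hn0
  have e2 : ∀ c ∈ n.divisors, Basex935.nu (d * n) (d * c) = 1 / (d : ℝ) * Basex935.nu n c := by
    intro c hc
    unfold Basex935.nu
    rw [Nat.mul_div_mul_left _ _ hd0]
    have hd' : (d : ℝ) ≠ 0 := by exact_mod_cast hd0.ne'
    have hn' : (n : ℝ) ≠ 0 := by exact_mod_cast hn0.ne'
    push_cast
    field_simp
  rw [sum_congr rfl e2, ← mul_sum, h1, mul_one]

/-- the non-squarefree divisors are rare -/
lemma sum_nu_nonsq {M : ℕ} (hM : 0 < M) :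
    ∑ b ∈ M.divisors with ¬ Squarefree b, Basex935.nu M b ≤
      ∑ p ∈ M.primeFactors, (1 : ℝ) / (p : ℝ) ^ 2 := by
  classical
  calc ∑ b ∈ M.divisors with ¬ Squarefree b, Basex935.nu M b
      ≤ ∑ b ∈ M.primeFactors.biUnion (fun p => M.divisors.filter (fun b => p ^ 2 ∣ b)),
        Basex935.nu M b := by
        refine sum_le_sum_of_subset_of_nonneg ?_ fun b _ _ => Basex935.nu_nonneg M b
        intro b hb
        rw [mem_filter] at hb
        obtain ⟨hbM, hsq⟩ := hb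
        have hb0 : b ≠ 0 := fun h => by
          rw [h] at hbM
          exact (Nat.mem_divisors.1 hbM).2 (Nat.eq_zero_of_zero_dvd (Nat.mem_divisors.1 hbM).1)
        rw [Nat.squarefree_iff_prime_squarefree] at hsq
        push Not at hsq
        obtain ⟨p, hp, hpb⟩ := hsq
        rw [mem_biUnion]
        refine ⟨p, ?_, mem_filter.2 ⟨hbM, by rwa [sq]⟩⟩
        exact Nat.mem_primeFactors.2 ⟨hp, ((dvd_mul_right p p).trans hpb).trans
          (Nat.mem_divisors.1 hbM).1, hM.ne'⟩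
    _ ≤ ∑ p ∈ M.primeFactors, ∑ b ∈ M.divisors.filter (fun b => p ^ 2 ∣ b),
        Basex935.nu M b := by
        generalize M.primeFactors = Q
        induction Q using Finset.induction_on with
        | empty => simp
        | insert p Q hp ih =>
          rw [biUnion_insert, sum_insert hp]
          refine le_trans ?_ (add_le_add le_rfl ih)
          rw [← sum_union_inter]
          exact le_add_of_nonneg_right (sum_nonneg fun b _ => Basex935.nu_nonneg M b)
    _ ≤ ∑ p ∈ M.primeFactors, (1 : ℝ) / (p : ℝ) ^ 2 := by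
        refine sum_le_sum fun p hp => ?_
        by_cases h : p ^ 2 ∣ M
        · rw [sum_nu_mult hM h]
          push_cast
          exact le_rfl
        · rw [sum_eq_zero_iff_of_nonneg (fun b _ => Basex935.nu_nonneg M b) |>.2]
          · positivity
          · intro b hb
            rw [mem_filter] at hb
            exact absurd (hb.2.trans (Nat.mem_divisors.1 hb.1).1) h

end Crest.Agent.R4C.GWhx656
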