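import Crest.Agent.R4C.GWrel_8
import Crest.Agent.R4C.GWmz_9

/-!
# LEMMA V with word dependent weights (helper8)

`node_W`     : `node_charge` of `GWrel_8` with the weight `min (W z w) (W' z' w')`, `0 ≤ W, W' ≤ 1`.
`node_sqrt`  : optimised in `ρ` : `≤ 2 √(a E b E')`.
`H2_of_mult` : field `H2` from a bound for the mass of a set and a multiplicity bound.
`H1_of_mult` : field `H1` from a bound for the mass of a set and a multiplicity bound.
`Ok_mono`    : `GN.Ok` is monotone in `f`, `f'`.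
-/

set_option autoImplicit false
set_option linter.unusedSectionVars false

open Finset MeasureTheory Crest.Agent.R4C.GWzonex9 Crest.Agent.R4C.GWmzx9
open Crest.Agent.R4C.GWrelx8

noncomputable section

namespace Crest.Agent.R4C.GWrelWx8

/-! ### layer cake calculus -/

/-- `Φ` is integrable on `(0,1]` with integral `I` -/
structure LC (Φ : ℝ → ℝ) (I : ℝ) : Prop where
  int : Integrable Φ (volume.restrict (Set.Ioc 0 1))
  eq : ∫ x in Set.Ioc (0:ℝ) 1, Φ x = I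

lemma LC.sum {ι : Type*} {s : Finset ι} {Φ : ι → ℝ → ℝ} {I : ι → ℝ}
    (h : ∀ i ∈ s, LC (Φ i) (I i)) : LC (fun x => ∑ i ∈ s, Φ i x) (∑ i ∈ s, I i) := by
  refine ⟨integrable_finsetSum s fun i hi => (h i hi).int, ?_⟩
  rw [integral_finsetSum s fun i hi => (h i hi).int]
  exact sum_congr rfl fun i hi => (h i hi).eq

lemma LC.cmul {Φ : ℝ → ℝ} {I : ℝ} (h : LC Φ I) (c : ℝ) : LC (fun x => c * Φ x) (c * I) :=
  ⟨h.int.const_mul c, by rw [integral_const_mul, h.eq]⟩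

lemma LC.add {Φ Ψ : ℝ → ℝ} {I J : ℝ} (h : LC Φ I) (h' : LC Ψ J) :
    LC (fun x => Φ x + Ψ x) (I + J) :=
  ⟨h.int.add h'.int, by rw [integral_add h.int h'.int, h.eq, h'.eq]⟩

lemma LC.congr {Φ Ψ : ℝ → ℝ} {I J : ℝ} (h : LC Φ I) (e : ∀ x, Ψ x = Φ x) (e' : J = I) :
    LC Ψ J := by
  have : Ψ = Φ := funext e
  rw [this, e']; exact h

lemma LC.mono {Φ Ψ : ℝ → ℝ} {I J : ℝ} (h : LC Φ I) (h' : LC Ψ J) (hle : ∀ x, Φ x ≤ Ψ x) :
    I ≤ J := by
  rw [← h.eq, ← h'.eq]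
  exact integral_mono h.int h'.int fun x => hle x

lemma LC.one {W : ℝ} (h0 : 0 ≤ W) (h1 : W ≤ 1) :
    LC (fun x => if x < W then (1:ℝ) else 0) W :=
  ⟨integrable_lt W, int_lt W h0 h1⟩

lemma LC.two {a b : ℝ} (ha0 : 0 ≤ a) (ha1 : a ≤ 1) (hb0 : 0 ≤ b) :
    LC (fun x => (if x < a then (1:ℝ) else 0) * (if x < b then (1:ℝ) else 0)) (min a b) :=
  ⟨integrable_two a b, int_two a b ha0 ha1 hb0⟩

variable {Z N Ω : Type*} [DecidableEq Z] [DecidableEq N] [DecidableEq Ω]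

/-- `GN.Ok` is monotone in the weights -/
lemma Ok_mono {G : GN Z N Ω} {f f' h h' : Z → Ω → ℝ} {C1 Δ : ℝ} (hG : G.Ok f f' C1 Δ)
    (h0 : ∀ z w, 0 ≤ h z w) (h0' : ∀ z w, 0 ≤ h' z w) (hh : ∀ z w, h z w ≤ f z w)
    (hh' : ∀ z w, h' z w ≤ f' z w) : G.Ok h h' C1 Δ where
  C0 := hG.C0
  Δ1 := hG.Δ1
  lam := hG.lam
  g0 := hG.g0
  gR := hG.gR
  f0 := h0
  f0' := h0'
  y0 := hG.y0
  y0' := hG.y0'
  deg := hG.deg
  H0 := fun z' hz' n' hn' t ht =>
    (sum_le_sum fun w _ => hh' z' w).trans (hG.H0 z' hz' n' hn' t ht)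
  H1 := fun z hz n hn t ht =>
    (sum_le_sum fun z' _ => sum_le_sum fun n' _ => sum_le_sum fun w _ => hh' z' w).trans
      (hG.H1 z hz n hn t ht)
  H2 := fun z' hz' m hm t ht =>
    (sum_le_sum fun n' _ => sum_le_sum fun z _ => sum_le_sum fun n _ =>
      sum_le_sum fun w _ => hh z w).trans (hG.H2 z' hz' m hm t ht)

/-- energy of the changers -/
def EA (G : GN Z N Ω) (f : Z → Ω → ℝ) (W : Z → Ω → ℝ) : ℝ :=
  ∑ z ∈ G.Zs, ∑ n ∈ G.Nd z, ∑ w ∈ G.A z n, f z w * G.y z w * W z w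

/-- energy of the partners -/
def ES (G : GN Z N Ω) (f' : Z → Ω → ℝ) (W' : Z → Ω → ℝ) : ℝ :=
  ∑ z' ∈ G.Zs, ∑ w' ∈ (G.Nd z').biUnion (G.S z'), f' z' w' * G.y' z' w' * W' z' w'

/-- the cost with the weight `min W W'` -/
def Cost (G : GN Z N Ω) (f f' : Z → Ω → ℝ) (W W' : Z → Ω → ℝ) : ℝ :=
  ∑ z ∈ G.Zs, ∑ n ∈ G.Nd z, ∑ w ∈ G.A z n, ∑ z' ∈ G.Zs, ∑ n' ∈ G.Out z n z',
    ∑ w' ∈ G.S z' n', f z w * f' z' w' * min (W z w) (W' z' w') / G.g n

/-- **LEMMA V with word dependent weights** -/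
theorem node_W (G : GN Z N Ω) (f f' : Z → Ω → ℝ) {C1 Δ ρ : ℝ} (hG : G.Ok f f' C1 Δ)
    (hρ : 0 < ρ) {k : ℕ} (hk : C1 * Δ ≤ 2 ^ k) (W W' : Z → Ω → ℝ)
    (hW0 : ∀ z w, 0 ≤ W z w) (hW1 : ∀ z w, W z w ≤ 1)
    (hW0' : ∀ z w, 0 ≤ W' z w) (hW1' : ∀ z w, W' z w ≤ 1) :
    Cost G f f' W W' ≤
      (2 * C1 + 4) * ρ * EA G f W + 2 * C1 * (k + 4) / ρ * ES G f' W' := by
  classical
  -- the inequality at the threshold `x`
  have hpt : ∀ x : ℝ,
      ∑ z ∈ G.Zs, ∑ n ∈ G.Nd z, ∑ w ∈ G.A z n, ∑ z' ∈ G.Zs, ∑ n' ∈ G.Out z n z',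
        ∑ w' ∈ G.S z' n', f z w * f' z' w' / G.g n *
          ((if x < W z w then (1:ℝ) else 0) * (if x < W' z' w' then (1:ℝ) else 0)) ≤
      (2 * C1 + 4) * ρ * ∑ z ∈ G.Zs, ∑ n ∈ G.Nd z, ∑ w ∈ G.A z n,
          f z w * G.y z w * (if x < W z w then (1:ℝ) else 0) +
        2 * C1 * (k + 4) / ρ * ∑ z' ∈ G.Zs, ∑ w' ∈ (G.Nd z').biUnion (G.S z'),
          f' z' w' * G.y' z' w' * (if x < W' z' w' then (1:ℝ) else 0) := by
    intro x
    have i0 : ∀ a : ℝ, 0 ≤ (if x < a then (1:ℝ) else 0) := fun a => by split_ifs <;> norm_num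
    have i1 : ∀ a : ℝ, (if x < a then (1:ℝ) else 0) ≤ 1 := fun a => by split_ifs <;> norm_num
    have h := node_charge G (fun z w => f z w * (if x < W z w then (1:ℝ) else 0))
      (fun z w => f' z w * (if x < W' z w then (1:ℝ) else 0)) (C1 := C1) (Δ := Δ)
      (Ok_mono hG (fun z w => mul_nonneg (hG.f0 z w) (i0 _))
        (fun z w => mul_nonneg (hG.f0' z w) (i0 _))
        (fun z w => mul_le_of_le_one_right (hG.f0 z w) (i1 _))
        (fun z w => mul_le_of_le_one_right (hG.f0' z w) (i1 _))) hρ hk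
    refine le_trans (le_of_eq ?_) (h.trans (le_of_eq ?_))
    · refine sum_congr rfl fun z _ => sum_congr rfl fun n _ => sum_congr rfl fun w _ =>
        sum_congr rfl fun z' _ => sum_congr rfl fun n' _ => sum_congr rfl fun w' _ => ?_
      ring
    · congr 1
      · congr 1
        refine sum_congr rfl fun z _ => sum_congr rfl fun n _ => sum_congr rfl fun w _ => ?_
        ring
      · congr 1
        refine sum_congr rfl fun z _ => sum_congr rfl fun w _ => ?_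
        ring
  refine LC.mono (Φ := fun x => ∑ z ∈ G.Zs, ∑ n ∈ G.Nd z, ∑ w ∈ G.A z n, ∑ z' ∈ G.Zs,
      ∑ n' ∈ G.Out z n z', ∑ w' ∈ G.S z' n', f z w * f' z' w' / G.g n *
          ((if x < W z w then (1:ℝ) else 0) * (if x < W' z' w' then (1:ℝ) else 0))) ?_ ?_ hpt
  · unfold Cost
    refine LC.sum fun z _ => LC.sum fun n _ => LC.sum fun w _ => LC.sum fun z' _ =>
      LC.sum fun n' _ => LC.sum fun w' _ => ?_
    refine ((LC.two (hW0 z w) (hW1 z w) (hW0' z' w')).cmul (f z w * f' z' w' / G.g n)).congr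
      (fun x => rfl) (by ring)
  · unfold EA ES
    refine LC.add (LC.cmul ?_ _) (LC.cmul ?_ _)
    · exact LC.sum fun z _ => LC.sum fun n _ => LC.sum fun w _ =>
        (LC.one (hW0 z w) (hW1 z w)).cmul _
    · exact LC.sum fun z _ => LC.sum fun w _ => (LC.one (hW0' z w) (hW1' z w)).cmul _

lemma EA_nonneg {G : GN Z N Ω} {f f' : Z → Ω → ℝ} {C1 Δ : ℝ} (hG : G.Ok f f' C1 Δ)
    {W : Z → Ω → ℝ} (hW0 : ∀ z w, 0 ≤ W z w) : 0 ≤ EA G f W :=
  sum_nonneg fun z _ => sum_nonneg fun n _ => sum_nonneg fun w _ =>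
    mul_nonneg (mul_nonneg (hG.f0 z w) (hG.y0 z w).le) (hW0 z w)

lemma ES_nonneg {G : GN Z N Ω} {f f' : Z → Ω → ℝ} {C1 Δ : ℝ} (hG : G.Ok f f' C1 Δ)
    {W' : Z → Ω → ℝ} (hW0' : ∀ z w, 0 ≤ W' z w) : 0 ≤ ES G f' W' :=
  sum_nonneg fun z _ => sum_nonneg fun w _ =>
    mul_nonneg (mul_nonneg (hG.f0' z w) (hG.y0' z w).le) (hW0' z w)

/-- `x ≤ a ρ + b / ρ` for all `ρ > 0` implies `x ≤ 2 √(a b)` -/
lemma le_two_sqrt {x a b : ℝ} (ha : 0 ≤ a) (hb : 0 ≤ b) (h : ∀ ρ : ℝ, 0 < ρ → x ≤ a * ρ + b / ρ) :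
    x ≤ 2 * Real.sqrt (a * b) := by
  rcases eq_or_lt_of_le ha with ha0 | ha0
  · -- a = 0
    rw [← ha0, zero_mul, Real.sqrt_zero, mul_zero]
    by_contra hx
    have hx := not_le.1 hx
    have h1 := h ((b + 1) / (x / 2)) (by positivity)
    rw [← ha0, zero_mul, zero_add] at h1
    have h2 : b / ((b + 1) / (x / 2)) = (x / 2) * (b / (b + 1)) := by
      field_simp
    have h3 : b / (b + 1) ≤ 1 := by
      rw [div_le_one (by positivity)]; linarith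
    rw [h2] at h1
    nlinarith
  · rcases eq_or_lt_of_le hb with hb0 | hb0
    · rw [← hb0, mul_zero, Real.sqrt_zero, mul_zero]
      by_contra hx
      have hx := not_le.1 hx
      have h1 := h (x / (2 * a)) (by positivity)
      rw [← hb0, zero_div, add_zero] at h1
      have h2 : a * (x / (2 * a)) = x / 2 := by field_simp
      rw [h2] at h1
      linarith
    · have hs : 0 < Real.sqrt (b / a) := Real.sqrt_pos.2 (by positivity)
      have h1 := h (Real.sqrt (b / a)) hs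
      have h2 : a * Real.sqrt (b / a) = Real.sqrt (a * b) := by
        have : a * b = a ^ 2 * (b / a) := by field_simp
        rw [this, Real.sqrt_mul (by positivity), Real.sqrt_sq ha]
      have h3 : b / Real.sqrt (b / a) = Real.sqrt (a * b) := by
        rw [div_eq_iff hs.ne', ← Real.sqrt_mul (by positivity)]
        have : a * b * (b / a) = b ^ 2 := by field_simp
        rw [this, Real.sqrt_sq hb]
      rw [h2, h3] at h1
      linarith

/-- **LEMMA V, square root form** -/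
theorem node_sqrt (G : GN Z N Ω) (f f' : Z → Ω → ℝ) {C1 Δ : ℝ} (hG : G.Ok f f' C1 Δ)
    {k : ℕ} (hk : C1 * Δ ≤ 2 ^ k) (W W' : Z → Ω → ℝ)
    (hW0 : ∀ z w, 0 ≤ W z w) (hW1 : ∀ z w, W z w ≤ 1)
    (hW0' : ∀ z w, 0 ≤ W' z w) (hW1' : ∀ z w, W' z w ≤ 1) :
    Cost G f f' W W' ≤
      2 * Real.sqrt ((2 * C1 + 4) * (2 * C1 * (k + 4)) * (EA G f W * ES G f' W')) := by
  have hC := hG.C0
  have hE := EA_nonneg hG hW0
  have hE' := ES_nonneg hG hW0'
  have h := le_two_sqrt (x := Cost G f f' W W') (a := (2 * C1 + 4) * EA G f W)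
    (b := 2 * C1 * (k + 4) * ES G f' W') (by positivity) (by positivity) (fun ρ hρ => by
      have := node_W G f f' hG hρ hk W W' hW0 hW1 hW0' hW1'
      refine this.trans (le_of_eq ?_)
      ring)
  refine h.trans (le_of_eq ?_)
  congr 2
  ring

/-- sums over (node, ..) pairs of masses of sets, multiplicity `μ` -/
lemma sum_mult {ι Ω : Type*} [DecidableEq Ω] (I : Finset ι) (T : ι → Finset Ω) (U : Finset Ω)
    (h : ι → Ω → ℝ) (F : Ω → ℝ) (μ : ℝ) (hF : ∀ w ∈ U, 0 ≤ F w)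
    (hh : ∀ i ∈ I, ∀ w ∈ T i, h i w ≤ F w) (hT : ∀ i ∈ I, T i ⊆ U)
    (hμ : ∀ w ∈ U, ((I.filter (fun i => w ∈ T i)).card : ℝ) ≤ μ) :
    ∑ i ∈ I, ∑ w ∈ T i, h i w ≤ μ * ∑ w ∈ U, F w := by
  classical
  have e1 : ∑ i ∈ I, ∑ w ∈ T i, h i w ≤ ∑ i ∈ I, ∑ w ∈ U, if w ∈ T i then F w else 0 := by
    refine sum_le_sum fun i hi => ?_
    rw [← sum_filter]
    have : U.filter (fun w => w ∈ T i) = T i := by
      ext w
      simp only [mem_filter]
      exact ⟨fun h => h.2, fun h => ⟨hT i hi h, h⟩⟩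
    rw [this]
    exact sum_le_sum fun w hw => hh i hi w hw
  refine e1.trans ?_
  rw [sum_comm, mul_sum]
  refine sum_le_sum fun w hw => ?_
  rw [← sum_filter, sum_const, nsmul_eq_mul]
  exact mul_le_mul_of_nonneg_right (hμ w hw) (hF w hw)

open Classical in
/-- pairs (node below `m`, linked changer node) in which `w` is a changer with loss `≤ t` -/
def GN.pairs2 (G : GN Z N Ω) (z' : Z) (m : N) (t : ℝ) (w : Ω) : Finset ((_ : N) × (_ : Z) × N) :=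
  ((G.Bl z' m).sigma fun n' => G.Zs.sigma fun z => G.In z' n' z).filter
    (fun x => w ∈ G.A x.2.1 x.2.2 ∧ G.y x.2.1 w ≤ t)

open Classical in
/-- linked partner nodes in which `w` lies with loss `≤ t` -/
def GN.pairs1 (G : GN Z N Ω) (z : Z) (n : N) (t : ℝ) (w : Ω) : Finset ((_ : Z) × N) :=
  (G.Zs.sigma fun z' => G.Out z n z').filter
    (fun x => w ∈ G.S x.1 x.2 ∧ G.y' x.1 w ≤ t)

/-- field `H2` at `(z', m)`, `t` from a set bound and a multiplicity bound -/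
lemma H2_of_mult (G : GN Z N Ω) (f : Z → Ω → ℝ) (F : Ω → ℝ) (hF : ∀ w, 0 ≤ F w)
    (hf : ∀ z w, f z w ≤ F w) {z' : Z} {m : N} {t μ c : ℝ} (hμ0 : 0 ≤ μ) (U : Finset Ω)
    (hU : ∀ w, (GN.pairs2 G z' m t w).Nonempty → w ∈ U)
    (hμ : ∀ w ∈ U, ((GN.pairs2 G z' m t w).card : ℝ) ≤ μ)
    (hc : ∑ w ∈ U, F w ≤ c) :
    ∑ n' ∈ G.Bl z' m, ∑ z ∈ G.Zs, ∑ n ∈ G.In z' n' z,
      ∑ w ∈ (G.A z n).filter (fun w => G.y z w ≤ t), f z w ≤ μ * c := by
  classical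
  set I : Finset ((_ : N) × (_ : Z) × N) :=
    (G.Bl z' m).sigma fun n' => G.Zs.sigma fun z => G.In z' n' z with hI
  have e0 : ∑ n' ∈ G.Bl z' m, ∑ z ∈ G.Zs, ∑ n ∈ G.In z' n' z,
      ∑ w ∈ (G.A z n).filter (fun w => G.y z w ≤ t), f z w =
      ∑ x ∈ I, ∑ w ∈ (G.A x.2.1 x.2.2).filter (fun w => G.y x.2.1 w ≤ t), f x.2.1 w := by
    rw [hI, sum_sigma]
    refine sum_congr rfl fun n' _ => ?_
    rw [sum_sigma]
  rw [e0]
  have hmem : ∀ x ∈ I, ∀ w ∈ (G.A x.2.1 x.2.2).filter (fun w => G.y x.2.1 w ≤ t),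
      x ∈ GN.pairs2 G z' m t w := by
    intro x hx w hw
    unfold GN.pairs2
    rw [mem_filter] at hw ⊢
    exact ⟨hx, hw⟩
  refine (sum_mult I (fun x => (G.A x.2.1 x.2.2).filter (fun w => G.y x.2.1 w ≤ t)) U
    (fun x w => f x.2.1 w) F μ (fun w _ => hF w) (fun x _ w _ => hf _ w) ?_ ?_).trans
    (mul_le_mul_of_nonneg_left hc hμ0)
  · intro x hx w hw
    exact hU w ⟨x, hmem x hx w hw⟩
  · intro w hw
    refine le_trans ?_ (hμ w hw)
    have : I.filter (fun x => w ∈ (G.A x.2.1 x.2.2).filter (fun w => G.y x.2.1 w ≤ t)) ⊆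
        GN.pairs2 G z' m t w := by
      intro x hx
      rw [mem_filter] at hx
      exact hmem x hx.1 w hx.2
    exact_mod_cast card_le_card this

/-- field `H1` at `(z, n)`, `t` from a set bound and a multiplicity bound -/
lemma H1_of_mult (G : GN Z N Ω) (f' : Z → Ω → ℝ) (F : Ω → ℝ) (hF : ∀ w, 0 ≤ F w)
    (hf : ∀ z w, f' z w ≤ F w) {z : Z} {n : N} {t μ c : ℝ} (hμ0 : 0 ≤ μ) (U : Finset Ω)
    (hU : ∀ w, (GN.pairs1 G z n t w).Nonempty → w ∈ U)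
    (hμ : ∀ w ∈ U, ((GN.pairs1 G z n t w).card : ℝ) ≤ μ)
    (hc : ∑ w ∈ U, F w ≤ c) :
    ∑ z' ∈ G.Zs, ∑ n' ∈ G.Out z n z',
      ∑ w ∈ (G.S z' n').filter (fun w => G.y' z' w ≤ t), f' z' w ≤ μ * c := by
  classical
  set I : Finset ((_ : Z) × N) := G.Zs.sigma fun z' => G.Out z n z' with hI
  have e0 : ∑ z' ∈ G.Zs, ∑ n' ∈ G.Out z n z',
      ∑ w ∈ (G.S z' n').filter (fun w => G.y' z' w ≤ t), f' z' w =
      ∑ x ∈ I, ∑ w ∈ (G.S x.1 x.2).filter (fun w => G.y' x.1 w ≤ t), f' x.1 w := by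
    rw [hI, sum_sigma]
  rw [e0]
  have hmem : ∀ x ∈ I, ∀ w ∈ (G.S x.1 x.2).filter (fun w => G.y' x.1 w ≤ t),
      x ∈ GN.pairs1 G z n t w := by
    intro x hx w hw
    unfold GN.pairs1
    rw [mem_filter] at hw ⊢
    exact ⟨hx, hw⟩
  refine (sum_mult I (fun x => (G.S x.1 x.2).filter (fun w => G.y' x.1 w ≤ t)) U
    (fun x w => f' x.1 w) F μ (fun w _ => hF w) (fun x _ w _ => hf _ w) ?_ ?_).trans
    (mul_le_mul_of_nonneg_left hc hμ0)
  · intro x hx w hw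
    exact hU w ⟨x, hmem x hx w hw⟩
  · intro w hw
    refine le_trans ?_ (hμ w hw)
    have : I.filter (fun x => w ∈ (G.S x.1 x.2).filter (fun w => G.y' x.1 w ≤ t)) ⊆
        GN.pairs1 G z n t w := by
      intro x hx
      rw [mem_filter] at hx
      exact hmem x hx.1 w hx.2
    exact_mod_cast card_le_card this

end Crest.Agent.R4C.GWrelWx8
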