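import Crest.Agent.R4C.VDef_24
import Crest.Agent.R4C.GWrelW_8

/-!
# Row 4, GW section, vector case: one world, both orders (helper24)

`core_set` : the set bound of one world for the kernel `kap2` from `GN.Ok` of the relation and of
the transposed relation (LEMMA V, `GWrelx8.node_charge`), in the form of 482's `core_total`.
-/

set_option autoImplicit false

open Finset
open Crest.Agent.R4C.Basex935 Crest.Agent.R4C.GWdefx982 Crest.Agent.R4C.VDefx24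
open Crest.Agent.R4C.HDx529 (Y3 kapV gn)
open Crest.Agent.R4C.GWrelx8

namespace Crest.Agent.R4C.GWinstVx24

variable {Z : World}

open Classical in
/-- the payment on the words of the zone -/
noncomputable def XX (Z : World) (KV : ℝ) (z : Node) (w : ℕ) : ℝ :=
  if w ∈ (Z.Nd z).biUnion Z.S then Y3 Z z w + kapV Z KV z else 0

open Classical in
/-- kernel, changer first -/
noncomputable def k1 (Z : World) (R : Node → Node → Prop) (z z' : Node) (w w' : ℕ) : ℝ :=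
  ∑ ν ∈ Z.Nd z, ∑ ν' ∈ Z.Nd z', if R ν ν' ∧ w ∈ Z.A z ν ∧ w' ∈ Z.S ν' then 1 / Z.g ν else 0

lemma sum_ite_swap {P Q : Finset ℕ} (φ : ℕ → ℝ) :
    ∑ w ∈ P, (if w ∈ Q then φ w else 0) = ∑ w ∈ Q, (if w ∈ P then φ w else 0) := by
  classical
  rw [sum_ite_mem, sum_ite_mem, inter_comm]

open Classical in
lemma A_sub (z ν : Node) : Z.A z ν ⊆ Z.S ν := by
  unfold World.A
  exact sdiff_subset

open Classical in
lemma A_disj' {z : Node} (hL : GWzonex9.Lam (Z.Nd z) Z.S (fun ν => ν.1)) :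
    Set.PairwiseDisjoint (↑(Z.Nd z) : Set Node) (Z.A z) := by
  have key : ∀ n ∈ Z.Nd z, ∀ n' ∈ Z.Nd z, n.1 < n'.1 → Disjoint (Z.A z n) (Z.A z n') := by
    intro n _ n' hn' hlt
    rw [disjoint_left]
    intro w h1 h2
    unfold World.A at h1 h2
    rw [mem_sdiff] at h1 h2
    apply h1.2
    rw [mem_biUnion]
    exact ⟨n', mem_filter.2 ⟨hn', hlt⟩, h2.1⟩
  intro n hn n' hn' hne
  have hn := mem_coe.1 hn
  have hn' := mem_coe.1 hn'
  rcases lt_trichotomy n.1 n'.1 with h | h | h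
  · exact key n hn n' hn' h
  · exact (hL.inj n hn n' hn' hne h).mono (A_sub z n) (A_sub z n')
  · exact (key n' hn' n hn h).symm

open Classical in
/-- one order -/
theorem dir_bound {R : Node → Node → Prop} {KV C1 Δ ρ : ℝ} {k : ℕ}
    (h : (gn Z R KV).Ok (fun _ => nu Z.N) (fun _ => nu Z.N) C1 Δ) (hk : C1 * Δ ≤ 2 ^ k)
    (hρ : 0 < ρ) (S S' : Node → Finset ℕ) :
    ∑ z ∈ Z.Zs, ∑ z' ∈ Z.Zs, ∑ w ∈ S z, ∑ w' ∈ S' z', nu Z.N w * nu Z.N w' * k1 Z R z z' w w' ≤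
      (2 * C1 + 4) * ρ * ∑ z ∈ Z.Zs, ∑ w ∈ S z, nu Z.N w * XX Z KV z w +
      2 * C1 * (k + 4) / ρ * ∑ z' ∈ Z.Zs, ∑ w' ∈ S' z', nu Z.N w' * XX Z KV z' w' := by
  set f : Node → ℕ → ℝ := fun z w => if w ∈ S z then nu Z.N w else 0 with hf
  set f' : Node → ℕ → ℝ := fun z w => if w ∈ S' z then nu Z.N w else 0 with hf'
  have hf0 : ∀ z w, 0 ≤ f z w := by
    intro z w; simp only [hf]; split_ifs
    · exact nu_nonneg _ _
    · exact le_rfl
  have hf0' : ∀ z w, 0 ≤ f' z w := by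
    intro z w; simp only [hf']; split_ifs
    · exact nu_nonneg _ _
    · exact le_rfl
  have hfl : ∀ z w, f z w ≤ nu Z.N w := by
    intro z w; simp only [hf]; split_ifs
    · exact le_rfl
    · exact nu_nonneg _ _
  have hfl' : ∀ z w, f' z w ≤ nu Z.N w := by
    intro z w; simp only [hf']; split_ifs
    · exact le_rfl
    · exact nu_nonneg _ _
  have hok := GWrelWx8.Ok_mono h hf0 hf0' hfl hfl'
  have hC1 := h.C0
  have hy0 : ∀ z w, 0 ≤ Y3 Z z w + kapV Z KV z := fun z w => (h.y0 z w).le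
  have key := node_charge (gn Z R KV) f f' hok hρ hk
  -- the left side
  set T : Node → Node → Node → Node → ℝ := fun z ν z' ν' =>
    if R ν ν' then (∑ w ∈ Z.A z ν, f z w) * (∑ w' ∈ Z.S ν', f' z' w') / Z.g ν else 0 with hT
  have e1 : ∀ z z', ∑ w ∈ S z, ∑ w' ∈ S' z', nu Z.N w * nu Z.N w' * k1 Z R z z' w w' =
      ∑ ν ∈ Z.Nd z, ∑ ν' ∈ Z.Nd z', T z ν z' ν' := by
    intro z z'
    unfold k1
    simp only [mul_sum]
    rw [sum_congr rfl fun w _ => sum_comm, sum_comm]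
    refine sum_congr rfl fun ν _ => ?_
    rw [sum_congr rfl fun w _ => sum_comm, sum_comm]
    refine sum_congr rfl fun ν' _ => ?_
    simp only [hT]
    by_cases hR : R ν ν'
    · rw [if_pos hR]
      have a1 : ∑ w ∈ Z.A z ν, f z w = ∑ w ∈ S z, (if w ∈ Z.A z ν then nu Z.N w else 0) := by
        simp only [hf]
        exact sum_ite_swap _
      have a2 : ∑ w' ∈ Z.S ν', f' z' w' = ∑ w' ∈ S' z', (if w' ∈ Z.S ν' then nu Z.N w' else 0) := by
        simp only [hf']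
        exact sum_ite_swap _
      rw [a1, a2, sum_mul_sum, sum_div]
      refine sum_congr rfl fun w _ => ?_
      rw [sum_div]
      refine sum_congr rfl fun w' _ => ?_
      by_cases h1 : w ∈ Z.A z ν
      · by_cases h2 : w' ∈ Z.S ν'
        · rw [if_pos ⟨hR, h1, h2⟩, if_pos h1, if_pos h2]; ring
        · rw [if_neg (fun hc => h2 hc.2.2), if_neg h2]; simp
      · rw [if_neg (fun hc => h1 hc.2.1), if_neg h1]; simp
    · rw [if_neg hR]
      refine sum_eq_zero fun w _ => sum_eq_zero fun w' _ => ?_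
      rw [if_neg (fun hc => hR hc.1), mul_zero]
  have e2 : ∑ z ∈ Z.Zs, ∑ z' ∈ Z.Zs, ∑ w ∈ S z, ∑ w' ∈ S' z',
      nu Z.N w * nu Z.N w' * k1 Z R z z' w w' =
      ∑ z ∈ Z.Zs, ∑ ν ∈ Z.Nd z, ∑ z' ∈ Z.Zs, ∑ ν' ∈ Z.Nd z', T z ν z' ν' := by
    refine sum_congr rfl fun z _ => ?_
    rw [sum_congr rfl fun z' _ => e1 z z', sum_comm]
  have e3 : ∑ z ∈ (gn Z R KV).Zs, ∑ n ∈ (gn Z R KV).Nd z, ∑ w ∈ (gn Z R KV).A z n,
      ∑ z' ∈ (gn Z R KV).Zs, ∑ n' ∈ (gn Z R KV).Out z n z',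
      ∑ w' ∈ (gn Z R KV).S z' n', f z w * f' z' w' / (gn Z R KV).g n =
      ∑ z ∈ Z.Zs, ∑ ν ∈ Z.Nd z, ∑ z' ∈ Z.Zs, ∑ ν' ∈ Z.Nd z', T z ν z' ν' := by
    refine sum_congr rfl fun z _ => sum_congr rfl fun ν _ => ?_
    rw [sum_comm]
    refine sum_congr rfl fun z' _ => ?_
    have b1 : ∀ w, ∑ n' ∈ (gn Z R KV).Out z ν z', ∑ w' ∈ (gn Z R KV).S z' n',
        f z w * f' z' w' / (gn Z R KV).g ν = ∑ ν' ∈ Z.Nd z',
        (if R ν ν' then ∑ w' ∈ Z.S ν', f z w * f' z' w' / Z.g ν else 0) := by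
      intro w
      unfold GN.Out
      rw [sum_filter]
      rfl
    rw [sum_congr rfl fun w _ => b1 w, sum_comm]
    refine sum_congr rfl fun ν' _ => ?_
    simp only [hT]
    by_cases hR : R ν ν'
    · simp only [if_pos hR]
      rw [sum_mul_sum, sum_div]
      refine sum_congr rfl fun w _ => ?_
      rw [sum_div]
    · simp only [if_neg hR]
      exact sum_const_zero
  rw [e2, ← e3]
  refine key.trans (add_le_add ?_ ?_)
  · refine mul_le_mul_of_nonneg_left ?_ (by positivity)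
    refine sum_le_sum fun z hz => ?_
    have hd := A_disj' (Z := Z) (h.lam z hz)
    have c1 : ∑ n ∈ (gn Z R KV).Nd z, ∑ w ∈ (gn Z R KV).A z n, f z w * (gn Z R KV).y z w =
        ∑ w ∈ (Z.Nd z).biUnion (Z.A z), f z w * (Y3 Z z w + kapV Z KV z) := by
      rw [sum_biUnion hd]
      rfl
    rw [c1]
    have c2 : ∑ w ∈ (Z.Nd z).biUnion (Z.A z), f z w * (Y3 Z z w + kapV Z KV z) =
        ∑ w ∈ S z, (if w ∈ (Z.Nd z).biUnion (Z.A z) then
          nu Z.N w * (Y3 Z z w + kapV Z KV z) else 0) := by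
      rw [sum_ite_swap]
      refine sum_congr rfl fun w _ => ?_
      simp only [hf]
      split_ifs
      · rfl
      · rw [zero_mul]
    rw [c2]
    refine sum_le_sum fun w _ => ?_
    unfold XX
    by_cases h1 : w ∈ (Z.Nd z).biUnion (Z.A z)
    · have h2 : w ∈ (Z.Nd z).biUnion Z.S := by
        rw [mem_biUnion] at h1 ⊢
        obtain ⟨ν, hν, hw⟩ := h1
        exact ⟨ν, hν, A_sub z ν hw⟩
      rw [if_pos h1, if_pos h2]
    · rw [if_neg h1]
      split_ifs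
      · exact mul_nonneg (nu_nonneg _ _) (hy0 z w)
      · rw [mul_zero]
  · refine mul_le_mul_of_nonneg_left (le_of_eq ?_) (by positivity)
    refine sum_congr rfl fun z _ => ?_
    have c2 : ∑ w ∈ ((gn Z R KV).Nd z).biUnion ((gn Z R KV).S z),
        f' z w * (gn Z R KV).y' z w =
        ∑ w ∈ S' z, (if w ∈ (Z.Nd z).biUnion Z.S then
          nu Z.N w * (Y3 Z z w + kapV Z KV z) else 0) := by
      rw [sum_ite_swap]
      refine sum_congr rfl fun w _ => ?_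
      simp only [hf']
      split_ifs
      · rfl
      · rw [zero_mul]
    refine Eq.trans (Eq.trans ?_ c2) ?_
    · exact sum_congr rfl fun w _ => rfl
    · refine sum_congr rfl fun w _ => ?_
      unfold XX
      split_ifs
      · rfl
      · rw [mul_zero]

lemma g_nonneg (ν : Node) : 0 ≤ Z.g ν := nu_nonneg _ _

lemma kap2_nonneg (R : Node → Node → Prop) (z z' : Node) (w w' : ℕ) : 0 ≤ kap2 Z R z z' w w' := by
  classical
  unfold kap2
  refine sum_nonneg fun ν _ => sum_nonneg fun ν' _ => ?_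
  split_ifs
  · exact div_nonneg zero_le_one (g_nonneg ν)
  · exact le_rfl

/-- the two orders -/
lemma kap2_le {R : Node → Node → Prop} {z z' : Node}
    (hg : ∀ ν ∈ Z.Nd z, ∀ ν' ∈ Z.Nd z', R ν ν' → Z.g ν = Z.g ν') (w w' : ℕ) :
    kap2 Z R z z' w w' ≤ k1 Z R z z' w w' + k1 Z (fun ν ν' => R ν' ν) z' z w' w := by
  classical
  unfold kap2 k1
  rw [sum_comm (s := Z.Nd z') (t := Z.Nd z), ← sum_add_distrib]
  refine sum_le_sum fun ν hν => ?_
  rw [← sum_add_distrib]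
  refine sum_le_sum fun ν' hν' => ?_
  have p1 : 0 ≤ 1 / Z.g ν := div_nonneg zero_le_one (g_nonneg ν)
  have p2 : 0 ≤ 1 / Z.g ν' := div_nonneg zero_le_one (g_nonneg ν')
  by_cases h : R ν ν' ∧ ((w ∈ Z.A z ν ∧ w' ∈ Z.S ν') ∨ (w ∈ Z.S ν ∧ w' ∈ Z.A z' ν'))
  · rw [if_pos h]
    obtain ⟨hR, h | h⟩ := h
    · rw [if_pos ⟨hR, h.1, h.2⟩]
      split_ifs
      · linarith
      · linarith
    · rw [if_pos (show R ν ν' ∧ w' ∈ Z.A z' ν' ∧ w ∈ Z.S ν from ⟨hR, h.2, h.1⟩),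
        hg ν hν ν' hν' hR]
      split_ifs
      · linarith
      · linarith
  · rw [if_neg h]
    have q1 : 0 ≤ (if R ν ν' ∧ w ∈ Z.A z ν ∧ w' ∈ Z.S ν' then 1 / Z.g ν else 0) := by
      split_ifs
      · exact p1
      · exact le_rfl
    have q2 : 0 ≤ (if R ν ν' ∧ w' ∈ Z.A z' ν' ∧ w ∈ Z.S ν then 1 / Z.g ν' else 0) := by
      split_ifs
      · exact p2
      · exact le_rfl
    linarith

lemma XX_nonneg {R : Node → Node → Prop} {KV C1 Δ : ℝ}
    (h : (gn Z R KV).Ok (fun _ => nu Z.N) (fun _ => nu Z.N) C1 Δ) (z : Node) (w : ℕ) :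
    0 ≤ XX Z KV z w := by
  unfold XX
  split_ifs
  · exact (h.y0 z w).le
  · exact le_rfl

open Classical in
/-- **one world, both orders** -/
theorem core_set {R : Node → Node → Prop} {KV C1 Δ : ℝ} {k : ℕ}
    (h1 : (gn Z R KV).Ok (fun _ => nu Z.N) (fun _ => nu Z.N) C1 Δ)
    (h2 : (gn Z (fun ν ν' => R ν' ν) KV).Ok (fun _ => nu Z.N) (fun _ => nu Z.N) C1 Δ)
    (hk : C1 * Δ ≤ 2 ^ k) (S S' : Node → Finset ℕ) {l : ℝ} (hl : 0 < l) :
    ∑ z ∈ Z.Zs, ∑ z' ∈ Z.Zs, ∑ w ∈ S z, ∑ w' ∈ S' z', nu Z.N w * nu Z.N w' * kap2 Z R z z' w w' ≤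
      (4 * C1 + 4) * (1 / l * (∑ z ∈ Z.Zs, ∑ w ∈ S z, nu Z.N w * XX Z KV z w) +
      l * (k + 4) * ∑ z' ∈ Z.Zs, ∑ w' ∈ S' z', nu Z.N w' * XX Z KV z' w') := by
  have hC1 := h1.C0
  have hk4 : (0 : ℝ) < (k : ℝ) + 4 := by positivity
  set E := ∑ z ∈ Z.Zs, ∑ w ∈ S z, nu Z.N w * XX Z KV z w with hE
  set E' := ∑ z' ∈ Z.Zs, ∑ w' ∈ S' z', nu Z.N w' * XX Z KV z' w' with hE'
  have hE0 : 0 ≤ E := sum_nonneg fun z _ => sum_nonneg fun w _ =>
    mul_nonneg (nu_nonneg _ _) (XX_nonneg h1 z w)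
  have hE0' : 0 ≤ E' := sum_nonneg fun z _ => sum_nonneg fun w _ =>
    mul_nonneg (nu_nonneg _ _) (XX_nonneg h1 z w)
  have b1 := dir_bound h1 hk (ρ := 1 / l) (by positivity) S S'
  have b2 := dir_bound h2 hk (ρ := l * (k + 4)) (by positivity) S' S
  rw [← hE, ← hE'] at b1 b2
  have hle : ∑ z ∈ Z.Zs, ∑ z' ∈ Z.Zs, ∑ w ∈ S z, ∑ w' ∈ S' z',
      nu Z.N w * nu Z.N w' * kap2 Z R z z' w w' ≤
      ∑ z ∈ Z.Zs, ∑ z' ∈ Z.Zs, ∑ w ∈ S z, ∑ w' ∈ S' z',
        nu Z.N w * nu Z.N w' * k1 Z R z z' w w' +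
      ∑ z' ∈ Z.Zs, ∑ z ∈ Z.Zs, ∑ w' ∈ S' z', ∑ w ∈ S z,
        nu Z.N w' * nu Z.N w * k1 Z (fun ν ν' => R ν' ν) z' z w' w := by
    rw [sum_comm (s := Z.Zs) (t := Z.Zs) (f := fun z' z => ∑ w' ∈ S' z', ∑ w ∈ S z,
        nu Z.N w' * nu Z.N w * k1 Z (fun ν ν' => R ν' ν) z' z w' w), ← sum_add_distrib]
    refine sum_le_sum fun z hz => ?_
    rw [← sum_add_distrib]
    refine sum_le_sum fun z' hz' => ?_
    rw [sum_comm (s := S' z') (t := S z), ← sum_add_distrib]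
    refine sum_le_sum fun w _ => ?_
    rw [← sum_add_distrib]
    refine sum_le_sum fun w' _ => ?_
    have h3 := kap2_le (Z := Z) (R := R) (z := z) (z' := z')
      (fun ν hν ν' hν' hR => h1.gR z hz ν hν z' hz' ν' hν' hR) w w'
    have h4 : 0 ≤ nu Z.N w * nu Z.N w' := mul_nonneg (nu_nonneg _ _) (nu_nonneg _ _)
    have h5 := mul_le_mul_of_nonneg_left h3 h4
    refine h5.trans (le_of_eq ?_)
    ring
  refine hle.trans ((add_le_add b1 b2).trans ?_)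
  have e1 : 2 * C1 * (k + 4) / (1 / l) * E' = 2 * C1 * (l * (k + 4)) * E' := by
    field_simp
  have e2 : 2 * C1 * (k + 4) / (l * (k + 4)) * E = 2 * C1 * (1 / l) * E := by
    field_simp
  rw [e1, e2]
  refine le_of_eq ?_
  ring

end Crest.Agent.R4C.GWinstVx24
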