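import Crest.Agent.R4C.GWinstV1_24
import Crest.Agent.R4C.GWcore_482

/-!
# Row 4, GW section, vector case: one class and one scale `2^s`, all cores (helper24)

`win_total` : 482's `core_total` for the worlds `vw .. s G`.
-/

set_option autoImplicit false

open Finset
open Crest.Agent.R4C.Basex935 Crest.Agent.R4C.Cutx50 Crest.Agent.R4C.PrefixMx882
open Crest.Agent.R4C.FLDefx935 Crest.Agent.R4C.Rulex945 Crest.Agent.R4C.PureClsx863
open Crest.Agent.R4C.PureL2x232 (hiFL)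
open Crest.Agent.R4C.GWdefx982 Crest.Agent.R4C.VDefx24
open Crest.Agent.R4C.HDx529 (Y3 kapV gn)
open Crest.Agent.R4C.HighFLx863 (H0 hw)

namespace Crest.Agent.R4C.GWinstVx24

lemma fac01 {N w p : ℕ} (h : p ∈ free N w) : (1 : ℕ) ≤ p :=
  (Nat.prime_of_mem_primeFactors (mem_free.1 h).1).one_lt.le

lemma Wp_le_one' (Z : World) (a b w : ℕ) : Z.Wp a b w ≤ 1 := by
  classical
  unfold World.Wp
  refine prod_le_one (fun p hp => ?_) fun p hp => ?_
  · have h2 : (1 : ℝ) ≤ p := by exact_mod_cast fac01 (mem_filter.1 hp).1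
    have h3 : (1 : ℝ) / p ≤ 1 := by rw [div_le_one (by linarith)]; exact h2
    linarith
  · have h4 : (0 : ℝ) ≤ 1 / (p : ℝ) := by positivity
    linarith

lemma Y3_nonneg (Z : World) (z : Node) (w : ℕ) : 0 ≤ Y3 Z z w := by
  classical
  unfold Y3
  split_ifs
  · have := Wp_le_one' Z (Z.cut (Z.pz z)) (Z.cut (Z.nb (Z.nb z.1 w) w)) w
    linarith
  · norm_num

lemma kapV_nonneg (Z : World) {KV : ℝ} (h : 0 ≤ KV) (z : Node) : 0 ≤ kapV Z KV z := by
  unfold kapV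
  exact le_min zero_le_one (by positivity)

lemma XX_nonneg' (Z : World) {KV : ℝ} (h : 0 ≤ KV) (z : Node) (w : ℕ) : 0 ≤ XX Z KV z w := by
  classical
  unfold XX
  split_ifs
  · exact add_nonneg (Y3_nonneg Z z w) (kapV_nonneg Z h z)
  · exact le_rfl

variable {M : ℕ}

lemma Wb_nonneg (F : FL M) (P : Par) (Z : World) (y : ℕ) (z : Node) (w b : ℕ) :
    0 ≤ Wb F P Z y z w b := by
  classical
  unfold Wb Act
  exact FamBudx252.VA_nonneg (fun p hp => fac01 (mem_filter.1 hp).1) _ _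

lemma Wb_le_one (F : FL M) (P : Par) (Z : World) (y : ℕ) (z : Node) (w b : ℕ) :
    Wb F P Z y z w b ≤ 1 := by
  classical
  unfold Wb Act
  exact FamBudx252.VA_le_one (fun p hp => fac01 (mem_filter.1 hp).1) _ _

open Classical in
/-- **one class, one scale, all cores** -/
theorem win_total (hM : 0 < M) (F : FL M) (P : Par) (δ : ℝ) (a a' s : ℕ) {C1 Δ KV T : ℝ} {k : ℕ}
    (hC1 : 1 ≤ C1) (hKV : 0 ≤ KV) (hk : C1 * Δ ≤ 2 ^ k) (hT0 : 0 ≤ T)
    (hok : ∀ G ∈ cores (hiFL hM (yc a a') F), ∀ Z : World, Z = vw hM F P δ a a' s G →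
      (gn Z (RR Z a a') KV).Ok (fun _ => nu Z.N) (fun _ => nu Z.N) C1 Δ ∧
      (gn Z (fun ν ν' => RR Z a a' ν' ν) KV).Ok (fun _ => nu Z.N) (fun _ => nu Z.N) C1 Δ)
    (hT : ∀ b, b ∣ M → ∀ (Z : World) (w : ℕ), Z = vw hM F P δ a a' s (H0 hM F (yc a a') b) →
      w = hw hM F (yc a a') b →
      ∑ z ∈ Z.Zs.filter (fun z => w ∈ (Z.Nd z).biUnion Z.S),
        (Y3 Z z w + kapV Z KV z) * Wb F P Z (yc a a') z w b ≤ T)
    (Q : ℕ → ℕ → Prop) (wrd : ℕ → ℕ → ℕ × ℕ)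
    (hq : ∀ b c, b ∣ M → c ∣ M → Q b c →
      FixedWordx423.wd (low (yc a a') b) (low (yc a a') c) =
        wrd (upp (yc a a') b) (upp (yc a a') c) ∧
      (2 : ℝ) ^ a ≤ (wrd (upp (yc a a') b) (upp (yc a a') c)).1 ∧
      (2 : ℝ) ^ a' ≤ (wrd (upp (yc a a') b) (upp (yc a a') c)).2)
    {f g : ℕ → ℝ} (hf0 : ∀ b, 0 ≤ f b) (hg0 : ∀ b, 0 ≤ g b) (hf1 : ∀ b, f b ≤ 1)
    (K : ℕ → ℕ → ℝ)
    (hK : ∀ b c, b ∣ M → c ∣ M → 0 < K b c → Q b c ∧
      H0 hM F (yc a a') b = H0 hM F (yc a a') c ∧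
      ∀ Z : World, Z = vw hM F P δ a a' s (H0 hM F (yc a a') b) →
      ∃ z ∈ Z.Zs, ∃ z' ∈ Z.Zs, K b c ≤
        kap2 Z (RR Z a a') z z' (hw hM F (yc a a') b) (hw hM F (yc a a') c) /
            (VR (hiFL hM (yc a a') F) (H0 hM F (yc a a') b) *
              (Nat.gcd (hw hM F (yc a a') b) (hw hM F (yc a a') c) : ℝ)) *
          BoostRx398.bst (BoostTopx19.prQ (yc a a')) (low (yc a a') M) (low (yc a a') b)
            (low (yc a a') c) *
          min (Wb F P Z (yc a a') z (hw hM F (yc a a') b) b * f b)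
            (Wb F P Z (yc a a') z' (hw hM F (yc a a') c) c * g c)) :
    frm M K ≤ 8 * (4 * C1 + 4) * T * √((k : ℝ) + 4) / √((2 : ℝ) ^ a * 2 ^ a') *
      (√(Ex M f) * √(Ex M g)) := by
  set y := yc a a' with hy
  have hC : (0 : ℝ) ≤ 4 * C1 + 4 := by linarith
  have hD : (0 : ℝ) ≤ (k : ℝ) + 4 := by positivity
  refine GWcorex482.core_total hM y (BoostTopx19.prQ y) (hiFL hM y F)
    (Zs := fun G => (vw hM F P δ a a' s G).Zs) (Zs' := fun G => (vw hM F P δ a a' s G).Zs)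
    (κ := fun G z z' w w' => kap2 (vw hM F P δ a a' s G) (RR (vw hM F P δ a a' s G) a a') z z' w w')
    (fun G i j w w' => kap2_nonneg _ _ _ _ _) hC hD
    (X := fun G z w => XX (vw hM F P δ a a' s G) KV z w)
    (X' := fun G z w => XX (vw hM F P δ a a' s G) KV z w)
    (fun G i w => XX_nonneg' _ hKV _ _) (fun G i w => XX_nonneg' _ hKV _ _) ?_
    (one_le_pow₀ (by norm_num)) (one_le_pow₀ (by norm_num)) Q wrd hq
    (W := fun G z b => Wb F P (vw hM F P δ a a' s G) y z (PureClsx863.wd (hiFL hM y F) (upp y b)) b)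
    (W' := fun G z b => Wb F P (vw hM F P δ a a' s G) y z (PureClsx863.wd (hiFL hM y F) (upp y b)) b)
    (fun G i b => Wb_nonneg _ _ _ _ _ _ _) (fun G i b => Wb_le_one _ _ _ _ _ _ _)
    (fun G i b => Wb_nonneg _ _ _ _ _ _ _) hf0 hg0 hf1 hT0 ?_ ?_ K ?_
  · intro G hG S S' _ _ l hl
    obtain ⟨h1, h2⟩ := hok G hG _ rfl
    exact core_set h1 h2 hk S S' hl
  · intro b hb
    have h1 := hT b hb _ _ rfl rfl
    refine le_trans (le_of_eq ?_) h1
    rw [sum_filter]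
    refine sum_congr rfl fun z _ => ?_
    show XX _ KV z _ * _ = _
    unfold XX
    by_cases h2 : hw hM F y b ∈
        ((vw hM F P δ a a' s (H0 hM F y b)).Nd z).biUnion (vw hM F P δ a a' s (H0 hM F y b)).S
    · rw [if_pos h2]
      exact congrArg₂ (· * ·) (if_pos h2) rfl
    · rw [if_neg h2]
      exact (congrArg₂ (· * ·) (if_neg h2) rfl).trans (zero_mul _)
  · intro b hb
    have h1 := hT b hb _ _ rfl rfl
    refine le_trans (le_of_eq ?_) h1
    rw [sum_filter]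
    refine sum_congr rfl fun z _ => ?_
    show XX _ KV z _ * _ = _
    unfold XX
    by_cases h2 : hw hM F y b ∈
        ((vw hM F P δ a a' s (H0 hM F y b)).Nd z).biUnion (vw hM F P δ a a' s (H0 hM F y b)).S
    · rw [if_pos h2]
      exact congrArg₂ (· * ·) (if_pos h2) rfl
    · rw [if_neg h2]
      exact (congrArg₂ (· * ·) (if_neg h2) rfl).trans (zero_mul _)
  · intro b c hb hc hpos
    obtain ⟨h1, h2, h3⟩ := hK b c hb hc hpos
    obtain ⟨z, hz, z', hz', h4⟩ := h3 _ rfl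
    exact ⟨h1, h2, z, hz, z', hz', h4⟩

end Crest.Agent.R4C.GWinstVx24
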