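import Crest.Agent.R4C.BoxKit_179

/-!
# Row 4, GW section, vector case: the sum over the classes and windows (helper179)

* `cs_sum` : `∑_s √(m(S s) m(S' s)) ≤ K m(B)` if every `b` lies in at most `K` of the sets;
* `clsOK_of_wins` : `ClsOK` from a cover by classes `p` and windows `s`, energy
  `≤ E p · √(m(S p s) m(S' p s))`, `∑ E` bounded;
* `clsOK_of_dyadic` : classes `(a, a')`, windows `(U, κ)`, `κ < K`,
  `S = {b ∈ B : 2^(U+a) ≤ low y b < 2^(U+a+2)}`, `y = 2^(a+a'+2)`;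
* `clsOK_of_dyadic_poly` : the same with the gain `(1 + a + a')^k 2^(-(a+a')/2)`;
* `clsOK_of_ab`, `clsOK_of_ab_poly` : classes `(a, a')` only, right side `m(B)`.
-/

set_option autoImplicit false

open Finset

namespace Crest.Agent.R4C.VOutx179

open Crest.Agent.R4C.Basex935 Crest.Agent.R4C.CrCoinx935 Crest.Agent.R4C.CrCountx935
  Crest.Agent.R4C.Bridgex882 Crest.Agent.R4C.FLDefx935 Crest.Agent.R4C.Cutx50
  Crest.Agent.R4C.Rulex945 Crest.Agent.R4C.Spinex946 Crest.Agent.R4C.FarKitx179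
  Crest.Agent.R4C.BoxKitx179

/-- Cauchy over windows of bounded multiplicity -/
lemma cs_sum {σ : Type} (J : Finset σ) (B : Finset ℕ) (S S' : σ → Finset ℕ)
    (hS : ∀ s ∈ J, S s ⊆ B) (hS' : ∀ s ∈ J, S' s ⊆ B) {ν : ℕ → ℝ} (hν : ∀ b, 0 ≤ ν b) {K : ℝ}
    (hK : 0 ≤ K) (hm : ∀ b ∈ B, (({s ∈ J | b ∈ S s}.card : ℕ) : ℝ) ≤ K)
    (hm' : ∀ b ∈ B, (({s ∈ J | b ∈ S' s}.card : ℕ) : ℝ) ≤ K) {L : ℝ} (hL : 0 ≤ L) :
    ∑ s ∈ J, √((L * ∑ b ∈ S s, ν b) * (L * ∑ c ∈ S' s, ν c)) ≤ K * (L * ∑ b ∈ B, ν b) := by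
  classical
  have tot : ∀ (T : σ → Finset ℕ), (∀ s ∈ J, T s ⊆ B) →
      (∀ b ∈ B, (({s ∈ J | b ∈ T s}.card : ℕ) : ℝ) ≤ K) →
      ∑ s ∈ J, L * ∑ b ∈ T s, ν b ≤ K * (L * ∑ b ∈ B, ν b) := by
    intro T hT hmT
    rw [← Finset.mul_sum]
    have e1 : ∑ s ∈ J, ∑ b ∈ T s, ν b = ∑ b ∈ B, (({s ∈ J | b ∈ T s}.card : ℕ) : ℝ) * ν b := by
      have e2 : ∀ s ∈ J, ∑ b ∈ T s, ν b = ∑ b ∈ B, if b ∈ T s then ν b else 0 := by
        intro s hs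
        rw [← Finset.sum_filter]
        refine Finset.sum_congr ?_ fun _ _ => rfl
        ext b
        rw [Finset.mem_filter]
        exact ⟨fun h => ⟨hT s hs h, h⟩, fun h => h.2⟩
      rw [Finset.sum_congr rfl e2, Finset.sum_comm]
      refine Finset.sum_congr rfl fun b _ => ?_
      rw [← Finset.sum_filter, Finset.sum_const, nsmul_eq_mul]
    rw [e1]
    have e3 : ∑ b ∈ B, (({s ∈ J | b ∈ T s}.card : ℕ) : ℝ) * ν b ≤ K * ∑ b ∈ B, ν b := by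
      rw [Finset.mul_sum]
      exact Finset.sum_le_sum fun b hb => mul_le_mul_of_nonneg_right (hmT b hb) (hν b)
    calc L * ∑ b ∈ B, (({s ∈ J | b ∈ T s}.card : ℕ) : ℝ) * ν b ≤ L * (K * ∑ b ∈ B, ν b) :=
          mul_le_mul_of_nonneg_left e3 hL
      _ = _ := by ring
  have hx : ∀ s, 0 ≤ L * ∑ b ∈ S s, ν b := fun s =>
    mul_nonneg hL (Finset.sum_nonneg fun b _ => hν b)
  have hx' : ∀ s, 0 ≤ L * ∑ b ∈ S' s, ν b := fun s =>
    mul_nonneg hL (Finset.sum_nonneg fun b _ => hν b)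
  have hB : 0 ≤ K * (L * ∑ b ∈ B, ν b) :=
    mul_nonneg hK (mul_nonneg hL (Finset.sum_nonneg fun b _ => hν b))
  have t1 := tot S hS hm
  have t2 := tot S' hS' hm'
  calc ∑ s ∈ J, √((L * ∑ b ∈ S s, ν b) * (L * ∑ c ∈ S' s, ν c))
      ≤ ∑ s ∈ J, ((L * ∑ b ∈ S s, ν b) + (L * ∑ c ∈ S' s, ν c)) / 2 := by
        refine Finset.sum_le_sum fun s _ => ?_
        rw [Real.sqrt_le_left (by linarith [hx s, hx' s])]
        nlinarith [sq_nonneg ((L * ∑ b ∈ S s, ν b) - (L * ∑ c ∈ S' s, ν c))]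
    _ = (∑ s ∈ J, L * ∑ b ∈ S s, ν b + ∑ s ∈ J, L * ∑ c ∈ S' s, ν c) / 2 := by
        rw [← Finset.sum_add_distrib, Finset.sum_div]
    _ ≤ _ := by linarith

open Classical in
/-- **`ClsOK` from classes and windows** -/
theorem clsOK_of_wins {ι σ : Type} {γ : ℝ} {R : Cls} (H : Ev fun cp η A m0 =>
    ∃ C' K : ℝ, 0 ≤ C' ∧ 0 ≤ K ∧ ∃ (ok : ι → Prop) (okw : σ → Prop) (E : ι → ℝ), (∀ p, 0 ≤ E p) ∧
      (∀ T : Finset ι, (∀ p ∈ T, ok p) → ∑ p ∈ T, E p ≤ C') ∧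
      ∀ (L : ℝ) (M : ℕ) (B : Finset ℕ) (F : FL M), Setup η L M B F →
      ∃ (q : ι → σ → ℕ → ℕ → ℤ → Prop) (S S' : ι → σ → Finset ℕ),
      (∀ p s, S p s ⊆ B) ∧ (∀ p s, S' p s ⊆ B) ∧
      (∀ p, ok p → ∀ J : Finset σ, (∀ s ∈ J, okw s) → ∀ b ∈ B,
        (({s ∈ J | b ∈ S p s}.card : ℕ) : ℝ) ≤ K) ∧
      (∀ p, ok p → ∀ J : Finset σ, (∀ s ∈ J, okw s) → ∀ b ∈ B,
        (({s ∈ J | b ∈ S' p s}.card : ℕ) : ℝ) ≤ K) ∧
      (∀ b ∈ B, ∀ c ∈ B, b ≠ c → ∀ h ∈ Lnk γ L b c,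
        ¬ killedB (lamOf cp A m0 γ L M B F) b c h → R cp η A m0 L M B F b c h →
        ∃ p s, ok p ∧ okw s ∧ q p s b c h) ∧
      (∀ p s, ok p → okw s → EnR γ L M B (lamOf cp A m0 γ L M B F) (q p s) ≤
        E p * √((L * ∑ b ∈ S p s, nu M b) * (L * ∑ c ∈ S' p s, nu M c)))) : ClsOK γ R := by
  refine H.mono ?_
  rintro cp η A m0 ⟨C', K, hC', hK, ok, okw, E, hE, hsum, H⟩
  refine ⟨C' * K, ?_⟩
  intro L M B F hS
  obtain ⟨q, S, S', hSB, hSB', hm, hm', hcov, hbd⟩ := H L M B F hS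
  obtain ⟨T, hT, h1⟩ := EnR_le_boxes (ι := ι × σ) (γ := γ) (M := M) (B := B)
    (lam := lamOf cp A m0 γ L M B F) (R := R cp η A m0 L M B F) hS.hL.le
    (q := fun x => q x.1 x.2) (fun x => ok x.1 ∧ okw x.2) (fun b hb c hc hne h hh hk hr => by
      obtain ⟨p, s, h1, h2, h3⟩ := hcov b hb c hc hne h hh hk hr
      exact ⟨(p, s), ⟨h1, h2⟩, h3⟩)
  have hL := hS.hL.le
  set P := T.image Prod.fst with hP
  set J := T.image Prod.snd with hJ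
  have hPok : ∀ p ∈ P, ok p := by
    intro p hp
    obtain ⟨x, hx, rfl⟩ := Finset.mem_image.1 hp
    exact (hT x hx).1
  have hJok : ∀ s ∈ J, okw s := by
    intro s hs
    obtain ⟨x, hx, rfl⟩ := Finset.mem_image.1 hs
    exact (hT x hx).2
  have hsub : T ⊆ P ×ˢ J := fun x hx => Finset.mem_product.2
    ⟨Finset.mem_image_of_mem _ hx, Finset.mem_image_of_mem _ hx⟩
  have hm0 : 0 ≤ L * ∑ b ∈ B, nu M b := hS.mass_nonneg
  have h2 : ∑ x ∈ T, EnR γ L M B (lamOf cp A m0 γ L M B F) (q x.1 x.2) ≤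
      ∑ x ∈ P ×ˢ J, E x.1 * √((L * ∑ b ∈ S x.1 x.2, nu M b) * (L * ∑ c ∈ S' x.1 x.2, nu M c)) := by
    refine (Finset.sum_le_sum fun x hx => hbd x.1 x.2 (hT x hx).1 (hT x hx).2).trans ?_
    exact Finset.sum_le_sum_of_subset_of_nonneg hsub fun x _ _ =>
      mul_nonneg (hE _) (Real.sqrt_nonneg _)
  have h3 : ∑ x ∈ P ×ˢ J, E x.1 * √((L * ∑ b ∈ S x.1 x.2, nu M b) *
      (L * ∑ c ∈ S' x.1 x.2, nu M c)) ≤ ∑ p ∈ P, E p * (K * (L * ∑ b ∈ B, nu M b)) := by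
    rw [Finset.sum_product]
    refine Finset.sum_le_sum fun p hp => ?_
    dsimp only
    rw [← Finset.mul_sum]
    refine mul_le_mul_of_nonneg_left ?_ (hE p)
    exact cs_sum J B (S p) (S' p) (fun s _ => hSB p s) (fun s _ => hSB' p s)
      (nu_nonneg M) hK (hm p (hPok p hp) J hJok) (hm' p (hPok p hp) J hJok) hL
  have h4 := hsum P hPok
  have h5 : K * (L * ∑ b ∈ B, nu M b) ≤ K :=
    (mul_le_mul_of_nonneg_left hS.mass hK).trans (le_of_eq (mul_one K))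
  have h6 : 0 ≤ K * (L * ∑ b ∈ B, nu M b) := mul_nonneg hK hm0
  calc EnR γ L M B (lamOf cp A m0 γ L M B F) (R cp η A m0 L M B F)
      ≤ ∑ x ∈ T, EnR γ L M B (lamOf cp A m0 γ L M B F) (q x.1 x.2) := h1
    _ ≤ _ := h2
    _ ≤ ∑ p ∈ P, E p * (K * (L * ∑ b ∈ B, nu M b)) := h3
    _ = (∑ p ∈ P, E p) * (K * (L * ∑ b ∈ B, nu M b)) := by rw [Finset.sum_mul]
    _ ≤ C' * K := mul_le_mul h4 h5 h6 hC'

/-! ### dyadic windows -/

/-- the members of the window -/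
def win (B : Finset ℕ) (y U a : ℕ) : Finset ℕ :=
  B.filter fun b => 2 ^ (U + a) ≤ low y b ∧ low y b < 2 ^ (U + a + 2)

lemma win_sub (B : Finset ℕ) (y U a : ℕ) : win B y U a ⊆ B := Finset.filter_subset _ _

lemma win_card (J : Finset ℕ) (n a : ℕ) :
    {U ∈ J | 2 ^ (U + a) ≤ n ∧ n < 2 ^ (U + a + 2)}.card ≤ 2 := by
  have h : {U ∈ J | 2 ^ (U + a) ≤ n ∧ n < 2 ^ (U + a + 2)} ⊆
      {Nat.log 2 n - a, Nat.log 2 n - (a + 1)} := by
    intro U hU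
    obtain ⟨_, h1, h2⟩ := Finset.mem_filter.1 hU
    have hn : n ≠ 0 := by
      have := Nat.pos_of_ne_zero (pow_ne_zero (U + a) (two_ne_zero (α := ℕ)))
      omega
    have h3 : U + a ≤ Nat.log 2 n := (Nat.le_log_iff_pow_le (by norm_num) hn).2 h1
    have h4 : Nat.log 2 n < U + a + 2 := (Nat.log_lt_iff_lt_pow (by norm_num) hn).2 h2
    rw [Finset.mem_insert, Finset.mem_singleton]
    omega
  exact (Finset.card_le_card h).trans (Finset.card_le_two)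

/-- windows `(U, κ)`, `κ < K`: multiplicity `≤ 2 K` -/
lemma win_mult {K : ℕ} (J : Finset (ℕ × ℕ)) (hJ : ∀ s ∈ J, s.2 < K) (B : Finset ℕ) (y a b : ℕ) :
    (({s ∈ J | b ∈ win B y s.1 a}.card : ℕ) : ℝ) ≤ 2 * K := by
  classical
  have h : {s ∈ J | b ∈ win B y s.1 a} ⊆
      {U ∈ J.image Prod.fst | 2 ^ (U + a) ≤ low y b ∧ low y b < 2 ^ (U + a + 2)} ×ˢ range K := by
    intro s hs
    obtain ⟨h1, h2⟩ := Finset.mem_filter.1 hs
    have h3 := (Finset.mem_filter.1 h2).2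
    rw [Finset.mem_product, Finset.mem_filter, Finset.mem_range]
    exact ⟨⟨Finset.mem_image_of_mem _ h1, h3⟩, hJ s h1⟩
  have h1 := Finset.card_le_card h
  rw [Finset.card_product, Finset.card_range] at h1
  have h2 := win_card (J.image Prod.fst) (low y b) a
  have h3 : {s ∈ J | b ∈ win B y s.1 a}.card ≤ 2 * K := h1.trans (Nat.mul_le_mul_right K h2)
  exact_mod_cast h3

/-- `r = 2^(-1/4)` -/
noncomputable def rr : ℝ := (2 : ℝ) ^ (-(1 / 4) : ℝ)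

lemma rr_pos : 0 < rr := Real.rpow_pos_of_pos (by norm_num) _

lemma rr_lt : rr < 1 := Real.rpow_lt_one_of_one_lt_of_neg (by norm_num) (by norm_num)

lemma rr_pow (n : ℕ) : ((2 : ℝ) ^ n) ^ (-(1 / 4) : ℝ) = rr ^ n := by
  unfold rr
  rw [← Real.rpow_natCast, ← Real.rpow_natCast, ← Real.rpow_mul (by norm_num),
    ← Real.rpow_mul (by norm_num), mul_comm]

lemma rr_sum (T : Finset (ℕ × ℕ)) : ∑ p ∈ T, rr ^ (p.1 + p.2) ≤ (1 / (1 - rr)) ^ 2 := by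
  have h0 := rr_pos
  have h1 := rr_lt
  have hsub : T ⊆ T.image Prod.fst ×ˢ T.image Prod.snd := fun x hx => Finset.mem_product.2
    ⟨Finset.mem_image_of_mem _ hx, Finset.mem_image_of_mem _ hx⟩
  have geo : ∀ J : Finset ℕ, ∑ n ∈ J, rr ^ n ≤ 1 / (1 - rr) := by
    intro J
    rw [one_div, ← tsum_geometric_of_lt_one h0.le h1]
    exact (summable_geometric_of_lt_one h0.le h1).sum_le_tsum _ fun n _ => by positivity
  calc ∑ p ∈ T, rr ^ (p.1 + p.2) ≤ ∑ p ∈ T.image Prod.fst ×ˢ T.image Prod.snd, rr ^ (p.1 + p.2) :=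
        Finset.sum_le_sum_of_subset_of_nonneg hsub fun _ _ _ => by positivity
    _ = (∑ a ∈ T.image Prod.fst, rr ^ a) * ∑ a' ∈ T.image Prod.snd, rr ^ a' := by
        rw [Finset.sum_product, Finset.sum_mul_sum]
        exact Finset.sum_congr rfl fun a _ => Finset.sum_congr rfl fun a' _ => pow_add _ _ _
    _ ≤ (1 / (1 - rr)) * (1 / (1 - rr)) := mul_le_mul (geo _) (geo _)
        (Finset.sum_nonneg fun _ _ => by positivity) (by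
          have : 0 < 1 - rr := by linarith
          positivity)
    _ = _ := by ring

/-- polynomial factors are absorbed -/
lemma exists_poly (k : ℕ) : ∃ C0 : ℝ, 0 ≤ C0 ∧ ∀ n : ℕ,
    (1 + (n : ℝ)) ^ k * ((2 : ℝ) ^ n) ^ (-(1 / 2) : ℝ) ≤ C0 * ((2 : ℝ) ^ n) ^ (-(1 / 4) : ℝ) := by
  set s : ℝ := (2 : ℝ) ^ (1 / (4 * ((k : ℝ) + 1))) with hs
  have hk : (0 : ℝ) < 4 * ((k : ℝ) + 1) := by positivity
  have h1 : 1 < s := Real.one_lt_rpow (by norm_num) (by positivity)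
  have h2 : s ≤ 2 := by
    calc s ≤ (2 : ℝ) ^ (1 : ℝ) := by
          refine Real.rpow_le_rpow_of_exponent_le (by norm_num) ?_
          rw [div_le_one hk]
          have : (0 : ℝ) ≤ k := Nat.cast_nonneg k
          linarith
      _ = 2 := Real.rpow_one 2
  have h3 : 0 < s - 1 := by linarith
  refine ⟨(1 / (s - 1)) ^ (k + 1), by positivity, fun n => ?_⟩
  have hb : (s - 1) * (1 + (n : ℝ)) ≤ s ^ n := by
    have := one_add_mul_le_pow (a := s - 1) (by linarith) n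
    have e : 1 + (s - 1) = s := by ring
    rw [e] at this
    linarith
  have hb2 : 1 + (n : ℝ) ≤ 1 / (s - 1) * s ^ n := by
    rw [div_mul_eq_mul_div, one_mul, le_div_iff₀ h3]
    linarith
  have hn1 : (1 : ℝ) ≤ 1 + n := by
    have : (0 : ℝ) ≤ n := Nat.cast_nonneg n
    linarith
  have e1 : (s ^ n) ^ (k + 1) = ((2 : ℝ) ^ n) ^ (1 / 4 : ℝ) := by
    have e2 : (s ^ n) ^ (k + 1) = s ^ ((n * (k + 1) : ℕ) : ℝ) := by
      rw [Real.rpow_natCast, pow_mul]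
    have e3 : ((2 : ℝ) ^ n) ^ (1 / 4 : ℝ) = (2 : ℝ) ^ ((n : ℝ) * (1 / 4)) := by
      rw [← Real.rpow_natCast, ← Real.rpow_mul (by norm_num : (0 : ℝ) ≤ 2)]
    rw [e2, e3, hs, ← Real.rpow_mul (by norm_num : (0 : ℝ) ≤ 2)]
    congr 1
    push_cast
    field_simp
  have h4 : (1 + (n : ℝ)) ^ k ≤ (1 / (s - 1)) ^ (k + 1) * ((2 : ℝ) ^ n) ^ (1 / 4 : ℝ) := by
    calc (1 + (n : ℝ)) ^ k ≤ (1 + (n : ℝ)) ^ (k + 1) := pow_le_pow_right₀ hn1 (Nat.le_succ k)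
      _ ≤ (1 / (s - 1) * s ^ n) ^ (k + 1) := pow_le_pow_left₀ (by linarith) hb2 _
      _ = _ := by rw [mul_pow, e1]
  have hp : (0 : ℝ) < (2 : ℝ) ^ n := by positivity
  calc (1 + (n : ℝ)) ^ k * ((2 : ℝ) ^ n) ^ (-(1 / 2) : ℝ)
      ≤ (1 / (s - 1)) ^ (k + 1) * ((2 : ℝ) ^ n) ^ (1 / 4 : ℝ) * ((2 : ℝ) ^ n) ^ (-(1 / 2) : ℝ) :=
        mul_le_mul_of_nonneg_right h4 (Real.rpow_nonneg hp.le _)
    _ = (1 / (s - 1)) ^ (k + 1) * ((2 : ℝ) ^ n) ^ (-(1 / 4) : ℝ) := by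
        rw [mul_assoc, ← Real.rpow_add hp]
        norm_num

open Classical in
/-- **dyadic classes** `(a, a')`, windows `(U, κ)`, `κ < K` -/
theorem clsOK_of_dyadic {γ : ℝ} {R : Cls} (K : ℕ) (H : Ev fun cp η A m0 => ∃ C : ℝ, 0 ≤ C ∧
      ∀ (L : ℝ) (M : ℕ) (B : Finset ℕ) (F : FL M), Setup η L M B F →
      ∃ q : ℕ → ℕ → ℕ → ℕ → ℕ → ℕ → ℤ → Prop,
      (∀ b ∈ B, ∀ c ∈ B, b ≠ c → ∀ h ∈ Lnk γ L b c,
        ¬ killedB (lamOf cp A m0 γ L M B F) b c h → R cp η A m0 L M B F b c h →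
        ∃ a a' U κ, κ < K ∧ q a a' U κ b c h) ∧
      (∀ a a' U κ, κ < K → EnR γ L M B (lamOf cp A m0 γ L M B F) (q a a' U κ) ≤
        C * ((2 : ℝ) ^ (a + a')) ^ (-(1 / 4) : ℝ) *
          √((L * ∑ b ∈ win B (2 ^ (a + a' + 2)) U a, nu M b) *
            (L * ∑ c ∈ win B (2 ^ (a + a' + 2)) U a', nu M c)))) : ClsOK γ R := by
  refine clsOK_of_wins (ι := ℕ × ℕ) (σ := ℕ × ℕ) (H.mono ?_)
  rintro cp η A m0 ⟨C, hC, H⟩
  refine ⟨C * (1 / (1 - rr)) ^ 2, 2 * K, mul_nonneg hC (sq_nonneg _), by positivity, fun _ => True,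
    fun s => s.2 < K, fun p => C * ((2 : ℝ) ^ (p.1 + p.2)) ^ (-(1 / 4) : ℝ), ?_, ?_, ?_⟩
  · exact fun p => mul_nonneg hC (Real.rpow_nonneg (by positivity) _)
  · intro T _
    rw [← Finset.mul_sum]
    refine mul_le_mul_of_nonneg_left ?_ hC
    simp only [rr_pow]
    exact rr_sum T
  · intro L M B F hS
    obtain ⟨q, hcov, hbd⟩ := H L M B F hS
    refine ⟨fun p s => q p.1 p.2 s.1 s.2, fun p s => win B (2 ^ (p.1 + p.2 + 2)) s.1 p.1,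
      fun p s => win B (2 ^ (p.1 + p.2 + 2)) s.1 p.2, fun p s => win_sub _ _ _ _,
      fun p s => win_sub _ _ _ _, ?_, ?_, ?_, ?_⟩
    · exact fun p _ J hJ b _ => win_mult J hJ B _ _ b
    · exact fun p _ J hJ b _ => win_mult J hJ B _ _ b
    · intro b hb c hc hne h hh hk hr
      obtain ⟨a, a', U, κ, h1, h2⟩ := hcov b hb c hc hne h hh hk hr
      exact ⟨(a, a'), (U, κ), trivial, h1, h2⟩
    · exact fun p s _ hs => hbd p.1 p.2 s.1 s.2 hs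

open Classical in
/-- the same with the gain `(1 + a + a')^k 2^(-(a+a')/2)` -/
theorem clsOK_of_dyadic_poly {γ : ℝ} {R : Cls} (K k : ℕ) (H : Ev fun cp η A m0 => ∃ C : ℝ, 0 ≤ C ∧
      ∀ (L : ℝ) (M : ℕ) (B : Finset ℕ) (F : FL M), Setup η L M B F →
      ∃ q : ℕ → ℕ → ℕ → ℕ → ℕ → ℕ → ℤ → Prop,
      (∀ b ∈ B, ∀ c ∈ B, b ≠ c → ∀ h ∈ Lnk γ L b c,
        ¬ killedB (lamOf cp A m0 γ L M B F) b c h → R cp η A m0 L M B F b c h →
        ∃ a a' U κ, κ < K ∧ q a a' U κ b c h) ∧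
      (∀ a a' U κ, κ < K → EnR γ L M B (lamOf cp A m0 γ L M B F) (q a a' U κ) ≤
        C * ((1 + ((a + a' : ℕ) : ℝ)) ^ k * ((2 : ℝ) ^ (a + a')) ^ (-(1 / 2) : ℝ)) *
          √((L * ∑ b ∈ win B (2 ^ (a + a' + 2)) U a, nu M b) *
            (L * ∑ c ∈ win B (2 ^ (a + a' + 2)) U a', nu M c)))) : ClsOK γ R := by
  obtain ⟨C0, hC0, hk⟩ := exists_poly k
  refine clsOK_of_dyadic K (H.mono ?_)
  rintro cp η A m0 ⟨C, hC, H⟩
  refine ⟨C * C0, mul_nonneg hC hC0, fun L M B F hS => ?_⟩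
  obtain ⟨q, hcov, hbd⟩ := H L M B F hS
  refine ⟨q, hcov, fun a a' U κ hκ => (hbd a a' U κ hκ).trans ?_⟩
  refine mul_le_mul_of_nonneg_right ?_ (Real.sqrt_nonneg _)
  calc C * ((1 + ((a + a' : ℕ) : ℝ)) ^ k * ((2 : ℝ) ^ (a + a')) ^ (-(1 / 2) : ℝ))
      ≤ C * (C0 * ((2 : ℝ) ^ (a + a')) ^ (-(1 / 4) : ℝ)) :=
        mul_le_mul_of_nonneg_left (hk (a + a')) hC
    _ = _ := by ring

open Classical in
/-- classes `(a, a')` only -/
theorem clsOK_of_ab {γ : ℝ} {R : Cls} (H : Ev fun cp η A m0 => ∃ C : ℝ, 0 ≤ C ∧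
      ∀ (L : ℝ) (M : ℕ) (B : Finset ℕ) (F : FL M), Setup η L M B F →
      ∃ q : ℕ → ℕ → ℕ → ℕ → ℤ → Prop,
      (∀ b ∈ B, ∀ c ∈ B, b ≠ c → ∀ h ∈ Lnk γ L b c,
        ¬ killedB (lamOf cp A m0 γ L M B F) b c h → R cp η A m0 L M B F b c h →
        ∃ a a', q a a' b c h) ∧
      (∀ a a', EnR γ L M B (lamOf cp A m0 γ L M B F) (q a a') ≤
        C * ((2 : ℝ) ^ (a + a')) ^ (-(1 / 4) : ℝ) * (L * ∑ b ∈ B, nu M b))) : ClsOK γ R := by
  refine clsOK_of_wins (ι := ℕ × ℕ) (σ := Unit) (H.mono ?_)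
  rintro cp η A m0 ⟨C, hC, H⟩
  refine ⟨C * (1 / (1 - rr)) ^ 2, 1, mul_nonneg hC (sq_nonneg _), by norm_num, fun _ => True,
    fun _ => True, fun p => C * ((2 : ℝ) ^ (p.1 + p.2)) ^ (-(1 / 4) : ℝ), ?_, ?_, ?_⟩
  · exact fun p => mul_nonneg hC (Real.rpow_nonneg (by positivity) _)
  · intro T _
    rw [← Finset.mul_sum]
    refine mul_le_mul_of_nonneg_left ?_ hC
    simp only [rr_pow]
    exact rr_sum T
  · intro L M B F hS
    obtain ⟨q, hcov, hbd⟩ := H L M B F hS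
    have hcard : ∀ (J : Finset Unit) (b : ℕ), (({s ∈ J | b ∈ B}.card : ℕ) : ℝ) ≤ 1 := by
      intro J b
      have h1 : {s ∈ J | b ∈ B}.card ≤ 1 := Finset.card_le_one_iff_subset_singleton.2
        ⟨(), fun s _ => Finset.mem_singleton.2 rfl⟩
      exact_mod_cast h1
    refine ⟨fun p _ => q p.1 p.2, fun _ _ => B, fun _ _ => B, fun _ _ => Finset.Subset.refl _,
      fun _ _ => Finset.Subset.refl _, fun p _ J _ b _ => hcard J b, fun p _ J _ b _ => hcard J b,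
      ?_, ?_⟩
    · intro b hb c hc hne h hh hk hr
      obtain ⟨a, a', h1⟩ := hcov b hb c hc hne h hh hk hr
      exact ⟨(a, a'), (), trivial, trivial, h1⟩
    · intro p s _ _
      rw [Real.sqrt_mul_self hS.mass_nonneg]
      exact hbd p.1 p.2

open Classical in
/-- classes `(a, a')` only, gain `(1 + a + a')^k 2^(-(a+a')/2)` -/
theorem clsOK_of_ab_poly {γ : ℝ} {R : Cls} (k : ℕ) (H : Ev fun cp η A m0 => ∃ C : ℝ, 0 ≤ C ∧
      ∀ (L : ℝ) (M : ℕ) (B : Finset ℕ) (F : FL M), Setup η L M B F →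
      ∃ q : ℕ → ℕ → ℕ → ℕ → ℤ → Prop,
      (∀ b ∈ B, ∀ c ∈ B, b ≠ c → ∀ h ∈ Lnk γ L b c,
        ¬ killedB (lamOf cp A m0 γ L M B F) b c h → R cp η A m0 L M B F b c h →
        ∃ a a', q a a' b c h) ∧
      (∀ a a', EnR γ L M B (lamOf cp A m0 γ L M B F) (q a a') ≤
        C * ((1 + ((a + a' : ℕ) : ℝ)) ^ k * ((2 : ℝ) ^ (a + a')) ^ (-(1 / 2) : ℝ)) *
          (L * ∑ b ∈ B, nu M b))) : ClsOK γ R := by
  obtain ⟨C0, hC0, hk⟩ := exists_poly k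
  refine clsOK_of_ab (H.mono ?_)
  rintro cp η A m0 ⟨C, hC, H⟩
  refine ⟨C * C0, mul_nonneg hC hC0, fun L M B F hS => ?_⟩
  obtain ⟨q, hcov, hbd⟩ := H L M B F hS
  refine ⟨q, hcov, fun a a' => (hbd a a').trans ?_⟩
  refine mul_le_mul_of_nonneg_right ?_ hS.mass_nonneg
  calc C * ((1 + ((a + a' : ℕ) : ℝ)) ^ k * ((2 : ℝ) ^ (a + a')) ^ (-(1 / 2) : ℝ))
      ≤ C * (C0 * ((2 : ℝ) ^ (a + a')) ^ (-(1 / 4) : ℝ)) :=
        mul_le_mul_of_nonneg_left (hk (a + a')) hC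
    _ = _ := by ring

end Crest.Agent.R4C.VOutx179
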