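import Crest.Agent.R4C.VDef_24
import Crest.Agent.R4C.VOut_179
import Crest.Agent.R4C.SpineKit_946

/-!
# Row 4, GW section, vector case: from the totals of the classes `(a, a', e)` to `ClsOK` (helper179)

Over `VDef_24`.

* `far_unique` : a far pair has at most one linked offset;
* `Wv` : boosted offset sum of the class divided by `offW b * offW c` (`0` for `b = c`),
  `Wv_cases` : it is `0` or the boost of one offset of the class divided by the weights;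
* `TTot` : the set bound of one class; `clsV` : the union of the classes;
* `cls_vec_of_total : TTot γ X0 → ClsOK γ (clsV γ)`.
-/

set_option autoImplicit false

open Finset

namespace Crest.Agent.R4C.VTopx179

open Crest.Agent.R4C.Basex935 Crest.Agent.R4C.CrCoinx935 Crest.Agent.R4C.CrCountx935
  Crest.Agent.R4C.Bridgex882 Crest.Agent.R4C.FLDefx935 Crest.Agent.R4C.Cutx50
  Crest.Agent.R4C.Rulex945 Crest.Agent.R4C.Splitx945 Crest.Agent.R4C.Spinex946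
  Crest.Agent.R4C.FarKitx179 Crest.Agent.R4C.BoxKitx179 Crest.Agent.R4C.VDefx24
open Crest.Agent.R4C.B1Levx52 (offW one_le_offW)

/-! ### one offset -/

/-- a far pair has at most one linked offset -/
lemma far_unique {M : ℕ} {F : FL M} {P : Par} {i b c : ℕ} {h h' : ℤ} (hL : 0 < P.L)
    (h2 : 1 ≤ P.m0) (hf : FarA F P i b c h) (hl : h ∈ Lnk P.γ P.L b c)
    (hl' : h' ∈ Lnk P.γ P.L b c) : h = h' := by
  unfold Lnk at hl hl'
  rw [mem_Hf] at hl hl'
  have h3 : (2 : ℝ) ^ 1 ≤ 2 ^ i := pow_le_pow_right₀ (by norm_num) (h2.trans hf.m0)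
  have h4 : 2 * P.L ≤ (Nat.gcd b c : ℝ) := by
    have := hf.lo
    have h5 : (2 : ℝ) ^ 1 * P.L ≤ 2 ^ i * P.L := mul_le_mul_of_nonneg_right h3 hL.le
    linarith
  have hg : (0 : ℝ) < (Nat.gcd b c : ℝ) := by linarith
  have h6 : P.L / (Nat.gcd b c : ℝ) ≤ 1 / 2 := by
    rw [div_le_iff₀ hg]
    linarith
  have h7 : |((h : ℝ) - (h' : ℝ))| < 1 := by
    have e : (h : ℝ) - h' = ((((b / Nat.gcd b c : ℕ) : ℝ) - ((c / Nat.gcd b c : ℕ) : ℝ)) * P.γ + h) -
        ((((b / Nat.gcd b c : ℕ) : ℝ) - ((c / Nat.gcd b c : ℕ) : ℝ)) * P.γ + h') := by ring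
    rw [e]
    refine (abs_sub _ _).trans_lt ?_
    linarith
  have h8 : |h - h'| < 1 := by exact_mod_cast h7
  have h9 := Int.abs_lt_one_iff.1 h8
  omega

/-! ### the kernel of a class -/

open Classical in
/-- boosted offset sum of the class `q` divided by the off-centre weights, `0` on the diagonal -/
noncomputable def Wv {M : ℕ} (F : FL M) (P : Par) (X0 : ℕ) (q : ℕ → ℕ → ℤ → Prop) (b c : ℕ) : ℝ :=
  if b = c then 0 else oS P.γ P.L M (lamR F P) q b c / (offW F X0 b * offW F X0 c)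

variable {M : ℕ} {F : FL M} {P : Par} {X0 : ℕ} {q : ℕ → ℕ → ℤ → Prop}

lemma offW_pos (b : ℕ) : 0 < offW F X0 b := lt_of_lt_of_le one_pos (one_le_offW X0 b)

lemma Wv_nonneg (b c : ℕ) : 0 ≤ Wv F P X0 q b c := by
  unfold Wv
  split_ifs
  · exact le_rfl
  · exact div_nonneg (oS_nonneg _ _ _) (mul_nonneg (offW_pos b).le (offW_pos c).le)

/-- the offset sum is one boost -/
lemma oS_one {b c : ℕ} {h : ℤ} (hu : ∀ h' ∈ Lnk P.γ P.L b c, ¬ killedB (lamR F P) b c h' →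
      q b c h' → h' = h) (hl : h ∈ Lnk P.γ P.L b c) (hk : ¬ killedB (lamR F P) b c h)
    (hq : q b c h) : oS P.γ P.L M (lamR F P) q b c = boostB M (lamR F P) b c h := by
  classical
  unfold oS
  have e : (Lnk P.γ P.L b c).filter (fun h => ¬ killedB (lamR F P) b c h ∧ q b c h) = {h} := by
    ext h'
    rw [Finset.mem_filter, Finset.mem_singleton]
    constructor
    · rintro ⟨h1, h2, h3⟩
      exact hu h' h1 h2 h3
    · rintro rfl
      exact ⟨hl, hk, hq⟩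
  rw [e, Finset.sum_singleton]

lemma oS_zero {b c : ℕ} (h0 : ∀ h ∈ Lnk P.γ P.L b c, ¬ killedB (lamR F P) b c h → ¬ q b c h) :
    oS P.γ P.L M (lamR F P) q b c = 0 := by
  classical
  unfold oS
  refine Finset.sum_eq_zero fun h hh => ?_
  rw [Finset.mem_filter] at hh
  exact absurd hh.2.2 (h0 h hh.1 hh.2.1)

/-- `Wv` is `0` or one boost divided by the weights -/
lemma Wv_cases {b c : ℕ} (hu : ∀ h ∈ Lnk P.γ P.L b c, ∀ h' ∈ Lnk P.γ P.L b c,
      q b c h → q b c h' → h = h') : Wv F P X0 q b c = 0 ∨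
    (b ≠ c ∧ ∃ h ∈ Lnk P.γ P.L b c, ¬ killedB (lamR F P) b c h ∧ q b c h ∧
      Wv F P X0 q b c = boostB M (lamR F P) b c h / (offW F X0 b * offW F X0 c)) := by
  by_cases hbc : b = c
  · left
    unfold Wv
    rw [if_pos hbc]
  · by_cases hex : ∃ h ∈ Lnk P.γ P.L b c, ¬ killedB (lamR F P) b c h ∧ q b c h
    · obtain ⟨h, h1, h2, h3⟩ := hex
      right
      refine ⟨hbc, h, h1, h2, h3, ?_⟩
      unfold Wv
      rw [if_neg hbc, oS_one (fun h' h4 _ h5 => hu h' h4 h h1 h5 h3) h1 h2 h3]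
    · left
      unfold Wv
      rw [if_neg hbc, oS_zero (fun h h1 h2 h3 => hex ⟨h, h1, h2, h3⟩), zero_div]

/-- the offsets of the class `VC` are unique -/
lemma VC_unique {Q : ℕ → ℕ → ℕ → ℤ → Prop} {a a' e b c : ℕ} (hL : 0 < P.L) (h1 : 1 ≤ P.m0) :
    ∀ h ∈ Lnk P.γ P.L b c, ∀ h' ∈ Lnk P.γ P.L b c,
      VC F P Q a a' e b c h → VC F P Q a a' e b c h' → h = h' := by
  rintro h hl h' hl' ⟨i, hi⟩ _
  exact far_unique hL h1 hi.1 hl hl'

/-! ### the targets -/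

/-- **class total**: set bound of the class `(a, a', e)` -/
def TTot (γ : ℝ) (X0 : ℕ) : Prop := Ev fun cp η A m0 => ∃ (C : ℝ) (k : ℕ), 0 ≤ C ∧
  ∀ (L : ℝ) (M : ℕ) (B : Finset ℕ) (F : FL M), Setup η L M B F → ∀ (a a' e : ℕ)
    (S S' : Finset ℕ), S ⊆ B → S' ⊆ B →
    ∑ b ∈ S, ∑ c ∈ S', (Nat.gcd b c : ℝ) * nu M b * nu M c *
      Wv F (ParOf cp A m0 γ L M B) X0
        (VC F (ParOf cp A m0 γ L M B) (QQ cp A m0 γ L M B F) a a' e) b c ≤
      C * (1 + ((a + a' : ℕ) : ℝ)) ^ k * ((2 : ℝ) ^ (a + a')) ^ (-(1 / 4) : ℝ) *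
        √((∑ b ∈ S, nu M b) * ∑ c ∈ S', nu M c)

/-- the union of the classes -/
def clsV (γ : ℝ) : Cls := fun cp _ A m0 L M B F b c h =>
  ∃ a a' e, e ≤ 1 ∧ VC F (ParOf cp A m0 γ L M B) (QQ cp A m0 γ L M B F) a a' e b c h

/-! ### numerics -/

lemma sum_geo3 {r : ℝ} (h0 : 0 < r) (h1 : r < 1) (T : Finset (ℕ × ℕ × ℕ))
    (hT : ∀ x ∈ T, x.2.2 ≤ 1) : ∑ x ∈ T, r ^ (x.1 + x.2.1) ≤ 2 * (1 / (1 - r)) ^ 2 := by
  have hr : 0 < 1 - r := by linarith
  have geo : ∀ J : Finset ℕ, ∑ n ∈ J, r ^ n ≤ 1 / (1 - r) := by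
    intro J
    rw [one_div, ← tsum_geometric_of_lt_one h0.le h1]
    exact (summable_geometric_of_lt_one h0.le h1).sum_le_tsum _ fun n _ => by positivity
  set J := T.image Prod.fst with hJ
  set J' := T.image (fun x => x.2.1) with hJ'
  have hsub : T ⊆ J ×ˢ (J' ×ˢ range 2) := by
    intro x hx
    rw [Finset.mem_product, Finset.mem_product, Finset.mem_range]
    have := hT x hx
    exact ⟨Finset.mem_image_of_mem _ hx, Finset.mem_image_of_mem (fun x : ℕ × ℕ × ℕ => x.2.1) hx,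
      by omega⟩
  calc ∑ x ∈ T, r ^ (x.1 + x.2.1) ≤ ∑ x ∈ J ×ˢ (J' ×ˢ range 2), r ^ (x.1 + x.2.1) :=
        Finset.sum_le_sum_of_subset_of_nonneg hsub fun _ _ _ => by positivity
    _ = 2 * ((∑ a ∈ J, r ^ a) * ∑ a' ∈ J', r ^ a') := by
        rw [Finset.sum_product, Finset.sum_mul_sum, Finset.mul_sum]
        refine Finset.sum_congr rfl fun a _ => ?_
        rw [Finset.sum_product, Finset.mul_sum]
        refine Finset.sum_congr rfl fun a' _ => ?_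
        dsimp only
        rw [Finset.sum_const, Finset.card_range, nsmul_eq_mul, pow_add]
        norm_num
    _ ≤ 2 * ((1 / (1 - r)) * (1 / (1 - r))) := by
        refine mul_le_mul_of_nonneg_left ?_ (by norm_num)
        exact mul_le_mul (geo _) (geo _) (Finset.sum_nonneg fun _ _ => by positivity)
          (by positivity)
    _ = _ := by ring

/-- polynomial factors are absorbed, exponents `β < α` -/
lemma exists_poly2 (k : ℕ) {α β : ℝ} (h : β < α) : ∃ C0 : ℝ, 0 ≤ C0 ∧ ∀ n : ℕ,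
    (1 + (n : ℝ)) ^ k * ((2 : ℝ) ^ n) ^ (-α) ≤ C0 * ((2 : ℝ) ^ n) ^ (-β) := by
  set d : ℝ := (α - β) / ((k : ℝ) + 1) with hd
  have hk : (0 : ℝ) < (k : ℝ) + 1 := by positivity
  have hd0 : 0 < d := div_pos (by linarith) hk
  set s : ℝ := (2 : ℝ) ^ d with hs
  have h1 : 1 < s := Real.one_lt_rpow (by norm_num) hd0
  have h3 : 0 < s - 1 := by linarith
  set t : ℝ := min 1 (s - 1) with ht
  have ht0 : 0 < t := lt_min one_pos h3
  refine ⟨(1 / t) ^ (k + 1), by positivity, fun n => ?_⟩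
  have hn0 : (0 : ℝ) ≤ n := Nat.cast_nonneg n
  have hb : t * (1 + (n : ℝ)) ≤ s ^ n := by
    have h4 := one_add_mul_le_pow (a := s - 1) (by linarith) n
    have e : 1 + (s - 1) = s := by ring
    rw [e] at h4
    have h5 : t ≤ 1 := min_le_left _ _
    have h6 : t * n ≤ (n : ℝ) * (s - 1) := by
      rw [mul_comm]
      exact mul_le_mul_of_nonneg_left (min_le_right _ _) hn0
    nlinarith
  have hb2 : 1 + (n : ℝ) ≤ 1 / t * s ^ n := by
    rw [div_mul_eq_mul_div, one_mul, le_div_iff₀ ht0]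
    linarith
  have hn1 : (1 : ℝ) ≤ 1 + n := by linarith
  have e1 : (s ^ n) ^ (k + 1) = ((2 : ℝ) ^ n) ^ (α - β) := by
    have e2 : (s ^ n) ^ (k + 1) = s ^ ((n * (k + 1) : ℕ) : ℝ) := by
      rw [Real.rpow_natCast, pow_mul]
    have e3 : ((2 : ℝ) ^ n) ^ (α - β) = (2 : ℝ) ^ ((n : ℝ) * (α - β)) := by
      rw [← Real.rpow_natCast, ← Real.rpow_mul (by norm_num : (0 : ℝ) ≤ 2)]
    rw [e2, e3, hs, ← Real.rpow_mul (by norm_num : (0 : ℝ) ≤ 2)]
    congr 1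
    rw [hd]
    push_cast
    field_simp
  have h4 : (1 + (n : ℝ)) ^ k ≤ (1 / t) ^ (k + 1) * ((2 : ℝ) ^ n) ^ (α - β) := by
    calc (1 + (n : ℝ)) ^ k ≤ (1 + (n : ℝ)) ^ (k + 1) := pow_le_pow_right₀ hn1 (Nat.le_succ k)
      _ ≤ (1 / t * s ^ n) ^ (k + 1) := pow_le_pow_left₀ (by linarith) hb2 _
      _ = _ := by rw [mul_pow, e1]
  have hp : (0 : ℝ) < (2 : ℝ) ^ n := by positivity
  calc (1 + (n : ℝ)) ^ k * ((2 : ℝ) ^ n) ^ (-α)
      ≤ (1 / t) ^ (k + 1) * ((2 : ℝ) ^ n) ^ (α - β) * ((2 : ℝ) ^ n) ^ (-α) :=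
        mul_le_mul_of_nonneg_right h4 (Real.rpow_nonneg hp.le _)
    _ = (1 / t) ^ (k + 1) * ((2 : ℝ) ^ n) ^ (-β) := by
        rw [mul_assoc, ← Real.rpow_add hp]
        congr 2
        ring

/-- `r = 2^(-1/8)` -/
noncomputable def r8 : ℝ := (2 : ℝ) ^ (-(1 / 8) : ℝ)

lemma r8_pos : 0 < r8 := Real.rpow_pos_of_pos (by norm_num) _

lemma r8_lt : r8 < 1 := Real.rpow_lt_one_of_one_lt_of_neg (by norm_num) (by norm_num)

lemma r8_pow (n : ℕ) : ((2 : ℝ) ^ n) ^ (-(1 / 8) : ℝ) = r8 ^ n := by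
  unfold r8
  rw [← Real.rpow_natCast, ← Real.rpow_natCast, ← Real.rpow_mul (by norm_num),
    ← Real.rpow_mul (by norm_num), mul_comm]

/-! ### the theorem -/

open Classical in
/-- **totals of the classes give `ClsOK`** -/
theorem cls_vec_of_total {γ : ℝ} {X0 : ℕ} (H : TTot γ X0) : ClsOK γ (clsV γ) := by
  refine clsOK_of_boxes (ι := ℕ × ℕ × ℕ) X0 ((H.and Ev.basic).mono ?_)
  rintro cp η A m0 ⟨⟨C, k, hC, H⟩, hcp, _, hη, _, hη1, hA, hm0⟩
  obtain ⟨C0, hC0, hpoly⟩ := exists_poly2 k (show (1 / 8 : ℝ) < 1 / 4 by norm_num)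
  refine ⟨C * C0 * (2 * (1 / (1 - r8)) ^ 2), by
      have := sq_nonneg (1 / (1 - r8))
      positivity, fun x => x.2.2 ≤ 1,
    fun x => C * (1 + ((x.1 + x.2.1 : ℕ) : ℝ)) ^ k *
      ((2 : ℝ) ^ (x.1 + x.2.1)) ^ (-(1 / 4) : ℝ), fun x => ?_, ?_, ?_⟩
  · exact mul_nonneg (mul_nonneg hC (by positivity)) (Real.rpow_nonneg (by positivity) _)
  · intro T hT
    calc ∑ x ∈ T, C * (1 + ((x.1 + x.2.1 : ℕ) : ℝ)) ^ k *
          ((2 : ℝ) ^ (x.1 + x.2.1)) ^ (-(1 / 4) : ℝ)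
        ≤ ∑ x ∈ T, C * C0 * r8 ^ (x.1 + x.2.1) := by
          refine Finset.sum_le_sum fun x _ => ?_
          have h1 := hpoly (x.1 + x.2.1)
          have h2 : ((2 : ℝ) ^ (x.1 + x.2.1)) ^ (-(1 / 8) : ℝ) = r8 ^ (x.1 + x.2.1) := r8_pow _
          rw [h2] at h1
          calc _ = C * ((1 + ((x.1 + x.2.1 : ℕ) : ℝ)) ^ k *
                ((2 : ℝ) ^ (x.1 + x.2.1)) ^ (-(1 / 4) : ℝ)) := by ring
            _ ≤ C * (C0 * r8 ^ (x.1 + x.2.1)) := mul_le_mul_of_nonneg_left h1 hC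
            _ = _ := by ring
      _ = C * C0 * ∑ x ∈ T, r8 ^ (x.1 + x.2.1) := by rw [Finset.mul_sum]
      _ ≤ _ := mul_le_mul_of_nonneg_left (sum_geo3 r8_pos r8_lt T hT) (mul_nonneg hC hC0)
  · intro L M B F hS
    set P := ParOf cp A m0 γ L M B with hP
    have hm1 : 1 ≤ P.m0 := by
      show 1 ≤ m0
      omega
    refine ⟨fun x => VC F P (QQ cp A m0 γ L M B F) x.1 x.2.1 x.2.2,
      fun x => Wv F P X0 (VC F P (QQ cp A m0 γ L M B F) x.1 x.2.1 x.2.2),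
      fun x b c => Wv_nonneg b c, ?_, ?_, ?_, ?_⟩
    · rintro b _ c _ _ h _ _ ⟨a, a', e, he, hv⟩
      exact ⟨(a, a', e), he, hv⟩
    · intro x _ b _ c _ _ h₁ hh₁ h₂ hh₂ _ _ hq₁ hq₂
      exact VC_unique hS.hL hm1 h₁ hh₁ h₂ hh₂ hq₁ hq₂
    · intro x _ b _ c _ hne h hh hk hq
      have h1 : oS P.γ P.L M (lamR F P) (VC F P (QQ cp A m0 γ L M B F) x.1 x.2.1 x.2.2) b c =
          boostB M (lamR F P) b c h :=
        oS_one (fun h' h4 _ h5 => VC_unique hS.hL hm1 h' h4 h hh h5 hq) hh hk hq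
      show boostB M (lamR F P) b c h ≤ _
      dsimp only
      unfold Wv
      rw [if_neg hne, h1]
      have o1 := offW_pos (F := F) (X0 := X0) b
      have o2 := offW_pos (F := F) (X0 := X0) c
      exact le_of_eq (by field_simp)
    · intro x _ S S' hSB hSB'
      have h1 := H L M B F hS x.1 x.2.1 x.2.2 S S' hSB hSB'
      have h2 : ∑ b ∈ S, ∑ c ∈ S', kerW γ L M (lamOf cp A m0 γ L M B F)
          (VC F P (QQ cp A m0 γ L M B F) x.1 x.2.1 x.2.2)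
          (Wv F P X0 (VC F P (QQ cp A m0 γ L M B F) x.1 x.2.1 x.2.2)) b c ≤
          ∑ b ∈ S, ∑ c ∈ S', (Nat.gcd b c : ℝ) * nu M b * nu M c *
            Wv F P X0 (VC F P (QQ cp A m0 γ L M B F) x.1 x.2.1 x.2.2) b c := by
        refine Finset.sum_le_sum fun b _ => Finset.sum_le_sum fun c _ => ?_
        unfold kerW
        split_ifs
        · exact le_rfl
        · exact mul_nonneg (gn M b c) (Wv_nonneg b c)
      have e1 : (L * ∑ b ∈ S, nu M b) * (L * ∑ c ∈ S', nu M c) =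
          L ^ 2 * ((∑ b ∈ S, nu M b) * ∑ c ∈ S', nu M c) := by ring
      have hL := hS.hL.le
      rw [e1, Real.sqrt_mul (by positivity), Real.sqrt_sq hL]
      calc L * ∑ b ∈ S, ∑ c ∈ S', kerW γ L M (lamOf cp A m0 γ L M B F)
            (VC F P (QQ cp A m0 γ L M B F) x.1 x.2.1 x.2.2)
            (Wv F P X0 (VC F P (QQ cp A m0 γ L M B F) x.1 x.2.1 x.2.2)) b c
          ≤ L * (C * (1 + ((x.1 + x.2.1 : ℕ) : ℝ)) ^ k *
            ((2 : ℝ) ^ (x.1 + x.2.1)) ^ (-(1 / 4) : ℝ) *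
            √((∑ b ∈ S, nu M b) * ∑ c ∈ S', nu M c)) :=
            mul_le_mul_of_nonneg_left (h2.trans h1) hL
        _ = _ := by ring

end Crest.Agent.R4C.VTopx179
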