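import Crest.Agent.R4C.GWinstV2_24
import Crest.Agent.R4C.VTop_179

/-!
# Row 4, GW section, vector case: the total of one class (helper24)

* `vcl_vp` : the pair data of helper19 for the pairs of the class;
* `wrd` : the low word as a function of the high words (`word_unique`);
* `card_win` : at most three scales `s` for each `b`;
* **`ttot`** : `TOk γ → TBud γ → TPair γ X0 → TTot γ X0`;
* **`cls_vec`** : `ClsOK γ (clsV γ)` from the three targets.
-/

set_option autoImplicit false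

open Finset
open Crest.Agent.R4C.Basex935 Crest.Agent.R4C.Cutx50 Crest.Agent.R4C.PrefixMx882
open Crest.Agent.R4C.FLDefx935 Crest.Agent.R4C.Rulex945 Crest.Agent.R4C.PureClsx863
open Crest.Agent.R4C.PureL2x232 (hiFL)
open Crest.Agent.R4C.GWdefx982 Crest.Agent.R4C.VDefx24 Crest.Agent.R4C.VTopx179
open Crest.Agent.R4C.Splitx945 Crest.Agent.R4C.Spinex946 Crest.Agent.R4C.Bridgex882
open Crest.Agent.R4C.CrCoinx935 Crest.Agent.R4C.CrCountx935
open Crest.Agent.R4C.HDx529 (Y3 kapV gn)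
open Crest.Agent.R4C.HighFLx863 (H0 hw)
open Crest.Agent.R4C.B1Levx52 (offW one_le_offW)

namespace Crest.Agent.R4C.GWinstVx24

/-! ### numerics -/

lemma exists_pow8 : ∃ m1 : ℕ, ∀ i : ℕ, m1 ≤ i → 4 * (i + 1) ^ 8 ≤ 2 ^ i := by
  have h1 : Filter.Tendsto (fun n : ℕ => ((n : ℝ)) ^ 8 * (1 / 2 : ℝ) ^ n) Filter.atTop (nhds 0) :=
    tendsto_pow_const_mul_const_pow_of_abs_lt_one 8 (by norm_num)
  have h2 := (h1.eventually (gt_mem_nhds (show (0 : ℝ) < 1 / 8 by norm_num)))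
  rw [Filter.eventually_atTop] at h2
  obtain ⟨m, hm⟩ := h2
  refine ⟨m, fun i hi => ?_⟩
  have h3 := hm (i + 1) (by omega)
  have h4 : (1 / 2 : ℝ) ^ (i + 1) = 1 / 2 ^ (i + 1) := by rw [one_div_pow]
  rw [h4, mul_one_div, div_lt_iff₀ (by positivity)] at h3
  have h5 : (4 : ℝ) * ((i : ℝ) + 1) ^ 8 ≤ 2 ^ i := by
    have e2 : (2 : ℝ) ^ (i + 1) = 2 ^ i * 2 := pow_succ _ _
    rw [e2] at h3
    push_cast at h3
    linarith
  exact_mod_cast h5

lemma ev_pow8 : Ev (fun _ _ A m0 => 1 ≤ A → ∀ i, m0 ≤ i → 4 * (i + 1) ^ 8 ≤ 2 ^ (A * i)) := by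
  obtain ⟨m1, h⟩ := exists_pow8
  refine Ev.of_m0 fun cp η A _ _ => ⟨m1, fun m0 hm hA i hi => ?_⟩
  refine (h i (hm.trans hi)).trans (Nat.pow_le_pow_right (by norm_num) ?_)
  exact Nat.le_mul_of_pos_left i hA

open Classical in
/-- at most three scales -/
lemma card_win (a y b N : ℕ) : ((range N).filter fun s => win a s y b).card ≤ 3 := by
  rcases ((range N).filter fun s => win a s y b).eq_empty_or_nonempty with h | h
  · rw [h]; simp
  · set s0 := ((range N).filter fun s => win a s y b).min' h with hs0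
    have hm := min'_mem _ h
    rw [← hs0, mem_filter] at hm
    have hsub : (range N).filter (fun s => win a s y b) ⊆ Ico s0 (s0 + 3) := by
      intro s hs
      rw [mem_Ico]
      refine ⟨min'_le _ s hs, ?_⟩
      by_contra hc
      push Not at hc
      rw [mem_filter] at hs
      have h1 := hs.2.1
      have h2 := hm.2.2
      have h3 : 2 ^ (a + s0 + 3) ≤ 2 ^ (a + s) := Nat.pow_le_pow_right (by norm_num) (by omega)
      have h4 : 2 ^ (a + s0 + 3) = 2 * 2 ^ (a + s0 + 2) := by ring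
      omega
    calc _ ≤ (Ico s0 (s0 + 3)).card := card_le_card hsub
      _ = 3 := by simp

variable {M : ℕ}

/-- pair data for the class -/
lemma vcl_vp (hM : 0 < M) (F : FL M) (P : Par) {Q : ℕ → ℕ → ℕ → ℤ → Prop} {a a' e i b c : ℕ}
    {h : ℤ} (hb : b ∣ M) (hc : c ∣ M) (hL : 0 < P.L) (h8 : 4 * (i + 1) ^ 8 ≤ P.cut i)
    (hl : h ∈ Lnk P.γ P.L b c) (hV : VCi F P Q a a' e i b c h) :
    VecPairx19.VP hM F P (yc a a') i (H0 hM F (yc a a') b) (hw hM F (yc a a') b)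
      (hw hM F (yc a a') c) (low (P.cut i) (b / Nat.gcd b c)) (low (P.cut i) (c / Nat.gcd b c))
      (Nat.gcd (low (yc a a') b) (low (yc a a') c)) b c h := by
  obtain ⟨hfar, _, hpure, hsm, hcl, _⟩ := hV
  refine VecPairx19.exists_vp_cls hM F P hb hc hL hfar hpure hl hcl ?_
  have h1 : low (P.cut i) (b / Nat.gcd b c) * low (P.cut i) (c / Nat.gcd b c) < (i + 1) ^ 8 := by
    exact_mod_cast hsm
  omega

/-- the low word over a pair of high words -/
def IsWrd (F : FL M) (P : Par) (Q : ℕ → ℕ → ℕ → ℤ → Prop) (a a' e z z' : ℕ) (x : ℕ × ℕ) : Prop :=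
  ∃ b c h, b ∣ M ∧ c ∣ M ∧ h ∈ Lnk P.γ P.L b c ∧ VC F P Q a a' e b c h ∧
    upp (yc a a') b = z ∧ upp (yc a a') c = z' ∧
    x = FixedWordx423.wd (low (yc a a') b) (low (yc a a') c)

open Classical in
/-- the low word as a function of the high words -/
noncomputable def wrd (F : FL M) (P : Par) (Q : ℕ → ℕ → ℕ → ℤ → Prop) (a a' e z z' : ℕ) : ℕ × ℕ :=
  if h : ∃ x, IsWrd F P Q a a' e z z' x then h.choose else (1, 1)

lemma isWrd_unique (hM : 0 < M) {F : FL M} {P : Par} {Q : ℕ → ℕ → ℕ → ℤ → Prop} {a a' e z z' : ℕ}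
    {x x1 : ℕ × ℕ} (hL : 0 < P.L) (h8 : ∀ i, P.m0 ≤ i → 4 * (i + 1) ^ 8 ≤ P.cut i)
    (h : IsWrd F P Q a a' e z z' x) (h1 : IsWrd F P Q a a' e z z' x1) : x = x1 := by
  obtain ⟨b, c, h, hb, hc, hl, ⟨i, hV⟩, e1, e2, rfl⟩ := h
  obtain ⟨b1, c1, h', hb1, hc1, hl1, ⟨i1, hV1⟩, e1', e2', rfl⟩ := h1
  have v := vcl_vp hM F P hb hc hL (h8 i hV.1.m0) hl hV
  have v1 := vcl_vp hM F P hb1 hc1 hL (h8 i1 hV1.1.m0) hl1 hV1
  obtain ⟨q1, q2⟩ := VecPairx19.word_unique v hV.2.1 v1 hV1.2.1 (e1.trans e1'.symm)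
    (e2.trans e2'.symm) (by rw [hV.2.2.2.2.1.2.2, hV1.2.2.2.2.1.2.2])
  rw [v.wd_eq, v1.wd_eq, q1, q2]

lemma wrd_eq (hM : 0 < M) {F : FL M} {P : Par} {Q : ℕ → ℕ → ℕ → ℤ → Prop} {a a' e b c : ℕ}
    {h : ℤ} (hL : 0 < P.L) (h8 : ∀ i, P.m0 ≤ i → 4 * (i + 1) ^ 8 ≤ P.cut i)
    (hb : b ∣ M) (hc : c ∣ M) (hl : h ∈ Lnk P.γ P.L b c) (hV : VC F P Q a a' e b c h) :
    FixedWordx423.wd (low (yc a a') b) (low (yc a a') c) =
      wrd F P Q a a' e (upp (yc a a') b) (upp (yc a a') c) := by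
  classical
  have hex : ∃ x, IsWrd F P Q a a' e (upp (yc a a') b) (upp (yc a a') c) x :=
    ⟨_, b, c, h, hb, hc, hl, hV, rfl, rfl, rfl⟩
  unfold wrd
  rw [dif_pos hex]
  exact isWrd_unique hM hL h8 ⟨b, c, h, hb, hc, hl, hV, rfl, rfl, rfl⟩ hex.choose_spec

lemma wrd_bounds (hM : 0 < M) {F : FL M} {P : Par} {Q : ℕ → ℕ → ℕ → ℤ → Prop} {a a' e b c : ℕ}
    {h : ℤ} (hL : 0 < P.L) (h8 : ∀ i, P.m0 ≤ i → 4 * (i + 1) ^ 8 ≤ P.cut i)
    (hb : b ∣ M) (hc : c ∣ M) (hl : h ∈ Lnk P.γ P.L b c) (hV : VC F P Q a a' e b c h) :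
    (2 : ℝ) ^ a ≤ (wrd F P Q a a' e (upp (yc a a') b) (upp (yc a a') c)).1 ∧
      (2 : ℝ) ^ a' ≤ (wrd F P Q a a' e (upp (yc a a') b) (upp (yc a a') c)).2 := by
  rw [← wrd_eq hM hL h8 hb hc hl hV]
  obtain ⟨i, hVi⟩ := hV
  have v := vcl_vp hM F P hb hc hL (h8 i hVi.1.m0) hl hVi
  rw [v.wd_eq]
  obtain ⟨b1, _, b3, _⟩ := hVi.2.2.2.2.1.bounds
  constructor
  · show (2 : ℝ) ^ a ≤ ((low (P.cut i) (b / Nat.gcd b c) : ℕ) : ℝ)
    exact_mod_cast b1
  · show (2 : ℝ) ^ a' ≤ ((low (P.cut i) (c / Nat.gcd b c) : ℕ) : ℝ)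
    exact_mod_cast b3

lemma Ex_ind {S : Finset ℕ} (hS : S ⊆ M.divisors) (p : ℕ → Prop) [DecidablePred p] :
    Ex M (fun b => if b ∈ S ∧ p b then 1 else 0) = ∑ b ∈ S, nu M b * (if p b then 1 else 0) := by
  classical
  unfold Ex
  have e : ∀ b ∈ M.divisors, nu M b * (if b ∈ S ∧ p b then (1 : ℝ) else 0) =
      if b ∈ S then nu M b * (if p b then 1 else 0) else 0 := by
    intro b _
    by_cases h1 : b ∈ S
    · by_cases h2 : p b
      · simp [h1, h2]
      · simp [h1, h2]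
    · simp [h1]
  rw [sum_congr rfl e, sum_ite_mem, inter_eq_right.2 hS]

open Classical in
/-- sum over the scales -/
lemma sum_win {S : Finset ℕ} (hS : S ⊆ M.divisors) (a y N : ℕ) :
    ∑ s ∈ range N, Ex M (fun b => if b ∈ S ∧ win a s y b then 1 else 0) ≤
      3 * ∑ b ∈ S, nu M b := by
  have e : ∀ s ∈ range N, Ex M (fun b => if b ∈ S ∧ win a s y b then 1 else 0) =
      ∑ b ∈ S, nu M b * (if win a s y b then 1 else 0) := fun s _ => Ex_ind hS _
  rw [sum_congr rfl e, sum_comm, mul_sum]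
  refine sum_le_sum fun b _ => ?_
  rw [← mul_sum]
  have h1 : ∑ s ∈ range N, (if win a s y b then (1 : ℝ) else 0) ≤ 3 := by
    rw [← sum_filter, sum_const, nsmul_eq_mul, mul_one]
    exact_mod_cast card_win a y b N
  have h2 := mul_le_mul_of_nonneg_left h1 (nu_nonneg M b)
  linarith

open Classical in
/-- **the total of one class** -/
theorem ttot {γ : ℝ} {X0 : ℕ} (hOk : TOk γ) (hBud : TBud γ) (hPair : TPair γ X0) :
    TTot γ X0 := by
  refine ((((hOk.and hBud).and hPair).and Ev.basic).and ev_pow8).mono ?_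
  rintro cp η A m0 ⟨⟨⟨⟨⟨C1, KV, kk, hC1, hKV, hOk⟩, hBud⟩, Cw, hCw, hPair⟩, hcp, _, hη, _, hη1,
    hA, hm0⟩, h8'⟩
  obtain ⟨T, hT0, hBud⟩ := hBud KV kk hKV
  obtain ⟨kC, hkC⟩ : ∃ kC : ℕ, C1 ≤ 2 ^ kC := by
    obtain ⟨n, hn⟩ := pow_unbounded_of_one_lt C1 (show (1 : ℝ) < 2 by norm_num)
    exact ⟨n, hn.le⟩
  set C' : ℝ := Cw + 1 with hC'
  have hC'0 : 0 < C' := by linarith
  refine ⟨C' * (8 * (4 * C1 + 4) * T * ((kC : ℝ) + kk + 4)) * 3, 2, by positivity,
    fun L M B F hS a a' e S S' hSB hSB' => ?_⟩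
  set P := ParOf cp A m0 γ L M B with hP
  set q := VC F P (QQ cp A m0 γ L M B F) a a' e with hq
  set y := yc a a' with hy
  have hM := hS.hM
  have hLp : 0 < P.L := hS.hL
  have hm1 : 1 ≤ P.m0 := by
    show 1 ≤ m0
    omega
  have h8 : ∀ i, P.m0 ≤ i → 4 * (i + 1) ^ 8 ≤ P.cut i := h8' hA
  have hSM : S ⊆ M.divisors := hSB.trans hS.hB
  have hSM' : S' ⊆ M.divisors := hSB'.trans hS.hB
  set R : ℝ := (2 : ℝ) ^ ((a + a' : ℝ) / 4) with hR
  have hR0 : 0 < R := Real.rpow_pos_of_pos (by norm_num) _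
  -- good pairs at the scale `s`
  set Ps : ℕ → ℕ → ℕ → Prop := fun s b c => b ∈ S ∧ c ∈ S' ∧ b ≠ c ∧ ∃ h ∈ Lnk γ L b c,
    ¬ killedB (lamOf cp A m0 γ L M B F) b c h ∧ q b c h ∧ H0 hM F y b = H0 hM F y c ∧
    win a s y b ∧ win a' s y c ∧
    ∀ (Z : World) (w w' : ℕ), Z = vw hM F P (1 / (4 * A)) a a' s (H0 hM F y b) →
        w = hw hM F y b → w' = hw hM F y c →
        ∃ z ∈ Z.Zs, ∃ z' ∈ Z.Zs,
        boostB M (lamOf cp A m0 γ L M B F) b c h ≤
          Cw * R * (offW F X0 b * offW F X0 c) *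
          (kap2 Z (RR Z a a') z z' w w' /
            (VR (hiFL hM y F) (H0 hM F y b) * (Nat.gcd w w' : ℝ)) *
          BoostRx398.bst (BoostTopx19.prQ y) (low y M) (low y b) (low y c) *
          min (Wb F P Z y z w b) (Wb F P Z y z' w' c)) with hPs
  set K : ℕ → ℕ → ℕ → ℝ := fun s b c => if Ps s b c then Wv F P X0 q b c / (C' * R) else 0 with hK
  have hK0 : ∀ s b c, 0 ≤ K s b c := by
    intro s b c
    simp only [hK]
    split_ifs
    · exact div_nonneg (Wv_nonneg _ _) (by positivity)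
    · exact le_rfl
  -- one scale
  have hwin : ∀ s, frm M (K s) ≤ 8 * (4 * C1 + 4) * (T * (1 + a + a')) *
      √(((kC + kk * (a + a' + 1) : ℕ) : ℝ) + 4) / √((2 : ℝ) ^ a * 2 ^ a') *
      (√(Ex M (fun b => if b ∈ S ∧ win a s y b then 1 else 0)) *
        √(Ex M (fun b => if b ∈ S' ∧ win a' s y b then 1 else 0))) := by
    intro s
    refine win_total hM F P (1 / (4 * A)) a a' s (C1 := C1) (Δ := 2 ^ (kk * (a + a' + 1)))
      (KV := KV * 2 ^ (kk * (a + a'))) (T := T * (1 + a + a')) hC1 (by positivity) ?_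
      (by positivity) (fun G hG Z hZ => hOk L M B F hS a a' s G hG Z hZ)
      (fun b hb Z w hZ hw' => hBud L M B F hS a a' s b hb Z w hZ hw')
      (fun b c => b ∈ B ∧ c ∈ B ∧ ∃ h ∈ Lnk γ L b c, q b c h)
      (wrd F P (QQ cp A m0 γ L M B F) a a' e) ?_
      (fun b => by split_ifs <;> norm_num) (fun b => by split_ifs <;> norm_num)
      (fun b => by split_ifs <;> norm_num) (K s) ?_
    · rw [pow_add]
      exact mul_le_mul_of_nonneg_right hkC (by positivity)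
    · rintro b c hb hc ⟨_, _, h, hl, hq'⟩
      exact ⟨wrd_eq hM hLp h8 hb hc hl hq', wrd_bounds hM hLp h8 hb hc hl hq'⟩
    · intro b c hb hc hpos
      have hps : Ps s b c := by
        by_contra hcon
        simp only [hK] at hpos
        rw [if_neg hcon] at hpos
        exact lt_irrefl _ hpos
      obtain ⟨hbS, hcS, hne, h, hl, hnk, hqh, hH, hwb, hwc, hZ⟩ := hps
      refine ⟨⟨hSB hbS, hSB' hcS, h, hl, hqh⟩, hH, fun Z hZe => ?_⟩
      obtain ⟨z, hz, z', hz', hle⟩ := hZ Z _ _ hZe rfl rfl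
      refine ⟨z, hz, z', hz', ?_⟩
      have hu := VC_unique (F := F) (P := P) (Q := QQ cp A m0 γ L M B F) (a := a) (a' := a')
        (e := e) (b := b) (c := c) hLp hm1
      have hWv : Wv F P X0 q b c = boostB M (lamR F P) b c h / (offW F X0 b * offW F X0 c) := by
        unfold Wv
        rw [if_neg hne, oS_one (fun h' h1 _ h2 => hu h' h1 h hl h2 hqh) hl hnk hqh]
      have hps' : Ps s b c := ⟨hbS, hcS, hne, h, hl, hnk, hqh, hH, hwb, hwc, hZ⟩
      have o1 := offW_pos (F := F) (X0 := X0) b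
      have o2 := offW_pos (F := F) (X0 := X0) c
      have o12 : 0 < offW F X0 b * offW F X0 c := mul_pos o1 o2
      rw [if_pos (⟨hbS, hwb⟩ : b ∈ S ∧ win a s y b), if_pos (⟨hcS, hwc⟩ : c ∈ S' ∧ win a' s y c),
        mul_one, mul_one]
      show (if Ps s b c then Wv F P X0 q b c / (C' * R) else 0) ≤ _
      rw [if_pos hps', hWv]
      set V : ℝ := kap2 Z (RR Z a a') z z' (hw hM F y b) (hw hM F y c) /
            (VR (hiFL hM y F) (H0 hM F y b) * (Nat.gcd (hw hM F y b) (hw hM F y c) : ℝ)) *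
          BoostRx398.bst (BoostTopx19.prQ y) (low y M) (low y b) (low y c) *
          min (Wb F P Z y z (hw hM F y b) b) (Wb F P Z y z' (hw hM F y c) c) with hV
      have hb0 : 0 ≤ boostB M (lamR F P) b c h := boostB_nonneg _ _ _ _ _
      have hV0 : 0 ≤ V := by
        have hv1 : 0 ≤ VR (hiFL hM y F) (H0 hM F y b) := VR_nonneg _
        refine mul_nonneg (mul_nonneg (div_nonneg (kap2_nonneg _ _ _ _ _)
          (mul_nonneg hv1 (Nat.cast_nonneg _))) (VecNPx50.bst_nonneg _ _ _ _))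
          (le_min (Wb_nonneg _ _ _ _ _ _ _) (Wb_nonneg _ _ _ _ _ _ _))
      rw [div_div, div_le_iff₀ (by positivity)]
      have hle' : boostB M (lamR F P) b c h ≤ Cw * R * (offW F X0 b * offW F X0 c) * V := hle
      refine hle'.trans ?_
      have h1 : Cw * (R * (offW F X0 b * offW F X0 c) * V) ≤
          C' * (R * (offW F X0 b * offW F X0 c) * V) :=
        mul_le_mul_of_nonneg_right (by linarith) (by positivity)
      calc Cw * R * (offW F X0 b * offW F X0 c) * V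
          = Cw * (R * (offW F X0 b * offW F X0 c) * V) := by ring
        _ ≤ C' * (R * (offW F X0 b * offW F X0 c) * V) := h1
        _ = _ := by ring
  -- the sum over the scales dominates
  have hsum : ∑ b ∈ S, ∑ c ∈ S', (Nat.gcd b c : ℝ) * nu M b * nu M c * Wv F P X0 q b c ≤
      C' * R * ∑ s ∈ range (M + 1), frm M (K s) := by
    have e1 : ∀ s, ∑ b ∈ S, ∑ c ∈ S', (Nat.gcd b c : ℝ) * nu M b * nu M c * K s b c ≤
        frm M (K s) := by
      intro s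
      unfold frm
      have hnn : ∀ b c, 0 ≤ (Nat.gcd b c : ℝ) * nu M b * nu M c * K s b c := fun b c =>
        mul_nonneg (BoxKitx179.gn M b c) (hK0 s b c)
      calc ∑ b ∈ S, ∑ c ∈ S', (Nat.gcd b c : ℝ) * nu M b * nu M c * K s b c
          ≤ ∑ b ∈ S, ∑ c ∈ M.divisors, (Nat.gcd b c : ℝ) * nu M b * nu M c * K s b c :=
            sum_le_sum fun b _ => sum_le_sum_of_subset_of_nonneg hSM' fun c _ _ => hnn b c
        _ ≤ ∑ b ∈ M.divisors, ∑ c ∈ M.divisors, (Nat.gcd b c : ℝ) * nu M b * nu M c * K s b c :=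
            sum_le_sum_of_subset_of_nonneg hSM fun b _ _ => sum_nonneg fun c _ => hnn b c
    have e2 : ∑ s ∈ range (M + 1), ∑ b ∈ S, ∑ c ∈ S',
        (Nat.gcd b c : ℝ) * nu M b * nu M c * K s b c ≤ ∑ s ∈ range (M + 1), frm M (K s) :=
      sum_le_sum fun s _ => e1 s
    refine le_trans ?_ (mul_le_mul_of_nonneg_left e2 (by positivity : (0 : ℝ) ≤ C' * R))
    have e3 : ∑ s ∈ range (M + 1), ∑ b ∈ S, ∑ c ∈ S',
        (Nat.gcd b c : ℝ) * nu M b * nu M c * K s b c =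
        ∑ b ∈ S, ∑ c ∈ S', (Nat.gcd b c : ℝ) * nu M b * nu M c *
          ∑ s ∈ range (M + 1), K s b c := by
      rw [sum_comm]
      refine sum_congr rfl fun b _ => ?_
      rw [sum_comm]
      refine sum_congr rfl fun c _ => ?_
      rw [mul_sum]
    rw [e3, mul_sum]
    refine sum_le_sum fun b hb => ?_
    rw [mul_sum]
    refine sum_le_sum fun c hc => ?_
    rw [mul_left_comm]
    refine mul_le_mul_of_nonneg_left ?_ (BoxKitx179.gn M b c)
    rcases Wv_cases (F := F) (P := P) (X0 := X0) (q := q) (b := b) (c := c)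
      (VC_unique hLp hm1) with h0 | ⟨hne, h, hl, hnk, hqh, hW⟩
    · rw [h0]
      exact mul_nonneg (by positivity) (sum_nonneg fun s _ => hK0 s b c)
    · obtain ⟨hH, s, hwb, hwc, hZ⟩ := hPair L M B F hS a a' e b (hSB hb) c (hSB' hc) hne h hl hnk hqh
      have hps : Ps s b c := ⟨hb, hc, hne, h, hl, hnk, hqh, hH, hwb, hwc, hZ⟩
      have hs : s ∈ range (M + 1) := by
        rw [mem_range]
        by_contra hcon
        push Not at hcon
        have h1 : 2 ^ (a + s) ≤ 2 * low y b := hwb.1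
        have hbM := hS.dvd (hSB hb)
        have h2 : low y b ≤ M := (Nat.le_of_dvd (Nat.pos_of_dvd_of_pos hbM hM)
          (low_dvd_self y b)).trans (Nat.le_of_dvd hM hbM)
        have h3 : 2 ^ (M + 1) ≤ 2 ^ (a + s) := Nat.pow_le_pow_right (by norm_num) (by omega)
        have h4 : M < 2 ^ M := Nat.lt_two_pow_self
        have h5 : 2 ^ (M + 1) = 2 * 2 ^ M := by ring
        omega
      have h1 := single_le_sum (f := fun s => K s b c) (fun s _ => hK0 s b c) hs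
      have h2 : K s b c = Wv F P X0 q b c / (C' * R) := if_pos hps
      have h3 := mul_le_mul_of_nonneg_left (h2 ▸ h1) (by positivity : 0 ≤ C' * R)
      rw [mul_div_cancel₀ _ (by positivity)] at h3
      exact h3
  -- numbers
  set mS := ∑ b ∈ S, nu M b with hmS
  set mS' := ∑ c ∈ S', nu M c with hmS'
  have hm0' : 0 ≤ mS := sum_nonneg fun b _ => nu_nonneg M b
  have hm0'' : 0 ≤ mS' := sum_nonneg fun b _ => nu_nonneg M b
  set D : ℝ := 8 * (4 * C1 + 4) * (T * (1 + a + a')) *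
      √(((kC + kk * (a + a' + 1) : ℕ) : ℝ) + 4) / √((2 : ℝ) ^ a * 2 ^ a') with hD
  have hD0 : 0 ≤ D := by positivity
  have hs1 : ∑ s ∈ range (M + 1), frm M (K s) ≤ D * (3 * √(mS * mS')) := by
    refine (sum_le_sum fun s _ => hwin s).trans ?_
    rw [← mul_sum]
    refine mul_le_mul_of_nonneg_left ?_ hD0
    refine (Real.sum_sqrt_mul_sqrt_le (range (M + 1))
      (fun s => Ex_nonneg M fun b => by split_ifs <;> norm_num)
      (fun s => Ex_nonneg M fun b => by split_ifs <;> norm_num)).trans ?_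
    have h1 := Real.sqrt_le_sqrt (sum_win hSM a y (M + 1))
    have h2 := Real.sqrt_le_sqrt (sum_win hSM' a' y (M + 1))
    refine (mul_le_mul h1 h2 (Real.sqrt_nonneg _) (Real.sqrt_nonneg _)).trans (le_of_eq ?_)
    rw [← hmS, ← hmS', ← Real.sqrt_mul (by positivity)]
    have e1 : 3 * mS * (3 * mS') = 3 ^ 2 * (mS * mS') := by ring
    rw [e1, Real.sqrt_mul (by positivity), Real.sqrt_sq (by norm_num)]
  refine hsum.trans ((mul_le_mul_of_nonneg_left hs1 (by positivity)).trans ?_)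
  set n : ℕ := a + a' with hn
  have hn0 : (0 : ℝ) ≤ (n : ℝ) := Nat.cast_nonneg n
  have hsq : √(((kC + kk * (n + 1) : ℕ) : ℝ) + 4) ≤ ((kC : ℝ) + kk + 4) * (1 + n) := by
    rw [Real.sqrt_le_left (by positivity)]
    push_cast
    have h1 : (kC : ℝ) + kk * (n + 1) + 4 ≤ ((kC : ℝ) + kk + 4) * (1 + n) := by
      have : (0 : ℝ) ≤ (kC : ℝ) * n := by positivity
      nlinarith
    have h2 : (1 : ℝ) ≤ ((kC : ℝ) + kk + 4) * (1 + n) := by
      have h3 : (0 : ℝ) ≤ kC := Nat.cast_nonneg _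
      have h4 : (0 : ℝ) ≤ kk := Nat.cast_nonneg _
      nlinarith
    nlinarith
  have hpow : (2 : ℝ) ^ a * 2 ^ a' = 2 ^ n := by rw [hn, pow_add]
  have hp0 : (0 : ℝ) < (2 : ℝ) ^ n := by positivity
  have hRn : R = ((2 : ℝ) ^ n) ^ (1 / 4 : ℝ) := by
    rw [hR, ← Real.rpow_natCast, ← Real.rpow_mul (by norm_num)]
    congr 1
    rw [hn]
    push_cast
    ring
  have hRS : R / √((2 : ℝ) ^ n) = ((2 : ℝ) ^ n) ^ (-(1 / 4) : ℝ) := by
    rw [hRn, Real.sqrt_eq_rpow, ← Real.rpow_sub hp0]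
    norm_num
  have haa : (1 : ℝ) + a + a' = 1 + n := by rw [hn]; push_cast; ring
  have hDle : R * D ≤ 8 * (4 * C1 + 4) * T * ((kC : ℝ) + kk + 4) * (1 + (n : ℝ)) ^ 2 *
      ((2 : ℝ) ^ n) ^ (-(1 / 4) : ℝ) := by
    rw [hD, hpow, haa]
    have h1 : R * (8 * (4 * C1 + 4) * (T * (1 + (n : ℝ))) * √(((kC + kk * (n + 1) : ℕ) : ℝ) + 4) /
        √((2 : ℝ) ^ n)) = 8 * (4 * C1 + 4) * (T * (1 + (n : ℝ))) *
        √(((kC + kk * (n + 1) : ℕ) : ℝ) + 4) * (R / √((2 : ℝ) ^ n)) := by ring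
    rw [h1, hRS]
    have h2 : 0 ≤ ((2 : ℝ) ^ n) ^ (-(1 / 4) : ℝ) := Real.rpow_nonneg hp0.le _
    refine mul_le_mul_of_nonneg_right ?_ h2
    calc 8 * (4 * C1 + 4) * (T * (1 + (n : ℝ))) * √(((kC + kk * (n + 1) : ℕ) : ℝ) + 4)
        ≤ 8 * (4 * C1 + 4) * (T * (1 + (n : ℝ))) * (((kC : ℝ) + kk + 4) * (1 + n)) :=
          mul_le_mul_of_nonneg_left hsq (by positivity)
      _ = _ := by ring
  have hsqrt := Real.sqrt_nonneg (mS * mS')
  calc C' * R * (D * (3 * √(mS * mS'))) = C' * 3 * √(mS * mS') * (R * D) := by ring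
    _ ≤ C' * 3 * √(mS * mS') * (8 * (4 * C1 + 4) * T * ((kC : ℝ) + kk + 4) * (1 + (n : ℝ)) ^ 2 *
      ((2 : ℝ) ^ n) ^ (-(1 / 4) : ℝ)) := mul_le_mul_of_nonneg_left hDle (by positivity)
    _ = _ := by ring

/-- **the vector class from the three targets** -/
theorem cls_vec {γ : ℝ} {X0 : ℕ} (hOk : TOk γ) (hBud : TBud γ) (hPair : TPair γ X0) :
    ClsOK γ (clsV γ) := cls_vec_of_total (ttot hOk hBud hPair)

end Crest.Agent.R4C.GWinstVx24
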