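import Crest.Agent.R4C.GWlay_50

/-!
# Row 4, GW section: from the two-parameter form of the zone charge to the Hölder form (helper50)

* `HBd_of_lam` : `setform ≤ C ((1/λ) m(S) + λ m'(S'))` for all `λ > 0` gives `HBd` with `θ = 1/2`.
* `zones_total` : the vector class over all zones.
-/

set_option autoImplicit false

open Finset
open Crest.Agent.R4C.Basex935 Crest.Agent.R4C.Cutx50 Crest.Agent.R4C.HeavyLx50
open Crest.Agent.R4C.BoostRx398 (bst tf one_le_tf)
open Crest.Agent.R4C.FixedWordx423 (wd wd_pos wd_inj_right wd_inj_left wd_swap)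
open Crest.Agent.R4C.VecNPx50

namespace Crest.Agent.R4C.GWlayx50

lemma hf_half {a b : ℝ} (ha : 0 ≤ a) : hf (1 / 2) a b = 2 * √(a * b) := by
  unfold hf
  rw [Real.sqrt_mul ha, Real.sqrt_eq_rpow, Real.sqrt_eq_rpow]
  norm_num
  ring

lemma le_two_sqrt_of_lam {X C a b : ℝ} (hC : 0 ≤ C) (ha : 0 ≤ a) (hb : 0 ≤ b)
    (h : ∀ l : ℝ, 0 < l → X ≤ C * (1 / l * a + l * b)) : X ≤ C * (2 * √(a * b)) := by
  rcases eq_or_lt_of_le ha with ha0 | ha0
  · rw [← ha0, zero_mul, Real.sqrt_zero, mul_zero, mul_zero]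
    refine le_of_forall_pos_le_add fun e he => ?_
    have hCb : 0 < C * b + 1 := by positivity
    have h1 := h (e / (C * b + 1)) (by positivity)
    rw [← ha0, mul_zero, zero_add] at h1
    refine h1.trans ?_
    rw [zero_add]
    have : C * (e / (C * b + 1) * b) = e * ((C * b) / (C * b + 1)) := by ring
    rw [this]
    have h2 : (C * b) / (C * b + 1) ≤ 1 := by
      rw [div_le_one hCb]; linarith
    calc e * ((C * b) / (C * b + 1)) ≤ e * 1 := mul_le_mul_of_nonneg_left h2 he.le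
      _ = e := mul_one e
  rcases eq_or_lt_of_le hb with hb0 | hb0
  · rw [← hb0, mul_zero, Real.sqrt_zero, mul_zero, mul_zero]
    refine le_of_forall_pos_le_add fun e he => ?_
    have hCa : 0 < C * a + 1 := by positivity
    have h1 := h ((C * a + 1) / e) (by positivity)
    rw [← hb0, mul_zero, add_zero] at h1
    refine h1.trans ?_
    rw [zero_add]
    have : C * (1 / ((C * a + 1) / e) * a) = e * ((C * a) / (C * a + 1)) := by
      rw [one_div_div]; ring
    rw [this]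
    have h2 : (C * a) / (C * a + 1) ≤ 1 := by
      rw [div_le_one hCa]; linarith
    calc e * ((C * a) / (C * a + 1)) ≤ e * 1 := mul_le_mul_of_nonneg_left h2 he.le
      _ = e := mul_one e
  have hsa : 0 < √a := Real.sqrt_pos.2 ha0
  have hsb : 0 < √b := Real.sqrt_pos.2 hb0
  refine (h (√a / √b) (by positivity)).trans (le_of_eq ?_)
  congr 1
  rw [one_div_div, Real.sqrt_mul ha]
  have e1 : √b / √a * a = √a * √b := by
    rw [div_mul_eq_mul_div, div_eq_iff hsa.ne']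
    calc √b * a = √b * (√a * √a) := by rw [Real.mul_self_sqrt ha]
      _ = _ := by ring
  have e2 : √a / √b * b = √a * √b := by
    rw [div_mul_eq_mul_div, div_eq_iff hsb.ne']
    calc √a * b = √a * (√b * √b) := by rw [Real.mul_self_sqrt hb]
      _ = _ := by ring
  rw [e1, e2]; ring

/-- **the two-parameter form gives the Hölder form with `θ = 1/2`** -/
theorem HBd_of_lam {M : ℕ} {k : ℕ → ℕ → ℝ} {C : ℝ} (hC : 0 ≤ C) {m m' : ℕ → ℝ}
    (hm : ∀ z, 0 ≤ m z) (hm' : ∀ z, 0 ≤ m' z)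
    (h : ∀ S S' : Finset ℕ, S ⊆ M.divisors → S' ⊆ M.divisors → ∀ l : ℝ, 0 < l →
      ∑ z ∈ S, ∑ z' ∈ S', (Nat.gcd z z' : ℝ) * nu M z * nu M z' * k z z' ≤
        C * (1 / l * (∑ z ∈ S, m z) + l * ∑ z ∈ S', m' z)) :
    HBd M k C (1 / 2) m m' := by
  intro S S' hS hS'
  have ha : 0 ≤ ∑ z ∈ S, m z := Finset.sum_nonneg fun z _ => hm z
  have hb : 0 ≤ ∑ z ∈ S', m' z := Finset.sum_nonneg fun z _ => hm' z
  rw [hf_half ha]
  exact le_two_sqrt_of_lam hC ha hb (h S S' hS hS')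

/-- mass identity: density `ν X` against the low mean of `F` -/
lemma mu_eq_Ex {M : ℕ} (hM : 0 < M) (y : ℕ) (X F : ℕ → ℝ) :
    mu (upp y M) (fun z => nu (upp y M) z * X z) (fun z => Ex (low y M) (fun u => F (u * z))) =
      Ex M (fun b => X (upp y b) * F b) := by
  have h : Ex (upp y M) (fun z => Ex (low y M) (fun u => X (upp y (u * z)) * F (u * z))) =
      Ex M (fun b => X (upp y b) * F b) := Ex_mass hM y (fun b => X (upp y b) * F b)
  rw [← h]
  unfold mu
  have e : Ex (upp y M) (fun z => Ex (low y M) (fun u => X (upp y (u * z)) * F (u * z))) =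
      ∑ z ∈ (upp y M).divisors, nu (upp y M) z *
        Ex (low y M) (fun u => X (upp y (u * z)) * F (u * z)) := rfl
  rw [e]
  refine Finset.sum_congr rfl fun z hz => ?_
  have hzd := Nat.dvd_of_mem_divisors hz
  have e2 : Ex (low y M) (fun u => X (upp y (u * z)) * F (u * z)) =
      X z * Ex (low y M) (fun u => F (u * z)) := by
    rw [← Ex_mul_left]
    unfold Ex
    refine Finset.sum_congr rfl fun u hu => ?_
    beta_reduce
    rw [upp_of_mul (Nat.dvd_of_mem_divisors hu) hzd]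
  rw [e2]; ring

open Classical in
/-- **the vector class over all zones** : per zone `z ∈ Z` a set bound for the high parts with
density `ν X_z`, weights `W_z ≤ 1`, and `∑_z X_z (upp b) W_z b ≤ T` -/
theorem zones_total {M : ℕ} (hM : 0 < M) (y : ℕ) (S : Finset ℕ) {ι : Type*} (Z : Finset ι)
    {k : ι → ℕ → ℕ → ℝ} (hk : ∀ i z z', 0 ≤ k i z z') {C : ℝ} (hC : 0 ≤ C)
    {X X' : ι → ℕ → ℝ} (hX : ∀ i z, 0 ≤ X i z) (hX' : ∀ i z, 0 ≤ X' i z)
    (hE : ∀ i ∈ Z, HBd (upp y M) (k i) C (1 / 2) (fun z => nu (upp y M) z * X i z)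
      (fun z => nu (upp y M) z * X' i z))
    {A B : ℝ} (hA : 1 ≤ A) (hB : 1 ≤ B) (P : ι → ℕ → ℕ → Prop) (w : ι → ℕ → ℕ → ℕ × ℕ)
    (hw : ∀ i ∈ Z, ∀ b c, b ∣ M → c ∣ M → P i b c →
      wd (low y b) (low y c) = w i (upp y b) (upp y c) ∧
      A ≤ (w i (upp y b) (upp y c)).1 ∧ B ≤ (w i (upp y b) (upp y c)).2)
    {W : ι → ℕ → ℝ} (hW0 : ∀ i b, 0 ≤ W i b) (hW1 : ∀ i b, W i b ≤ 1)
    {f g : ℕ → ℝ} (hf0 : ∀ b, 0 ≤ f b) (hg0 : ∀ b, 0 ≤ g b) (hf1 : ∀ b, f b ≤ 1)
    {T : ℝ} (hT0 : 0 ≤ T)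
    (hT : ∀ b, b ∣ M → ∑ i ∈ Z, X i (upp y b) * W i b ≤ T)
    (hT' : ∀ b, b ∣ M → ∑ i ∈ Z, X' i (upp y b) * W i b ≤ T) :
    ∑ i ∈ Z, frm M (fun b c => if P i b c then
        k i (upp y b) (upp y c) * bst S (low y M) (low y b) (low y c) *
          min (W i b * f b) (W i c * g c) else 0) ≤
      8 * C * T / √(A * B) * (√(Ex M f) * √(Ex M g)) := by
  have hA0 : 0 < A := by linarith
  have hB0 : 0 < B := by linarith
  set a : ι → ℝ := fun i => Ex M (fun b => X i (upp y b) * (W i b * f b)) with ha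
  set a' : ι → ℝ := fun i => Ex M (fun b => X' i (upp y b) * (W i b * g b)) with ha'
  have ha0 : ∀ i, 0 ≤ a i := fun i =>
    Ex_nonneg _ fun b => mul_nonneg (hX _ _) (mul_nonneg (hW0 _ _) (hf0 _))
  have ha0' : ∀ i, 0 ≤ a' i := fun i =>
    Ex_nonneg _ fun b => mul_nonneg (hX' _ _) (mul_nonneg (hW0 _ _) (hg0 _))
  have hone : ∀ i ∈ Z, frm M (fun b c => if P i b c then
        k i (upp y b) (upp y c) * bst S (low y M) (low y b) (low y c) *
          min (W i b * f b) (W i c * g c) else 0) ≤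
      8 * C / √(A * B) * (√(a i) * √(a' i)) := by
    intro i hi
    have h := hb_class hM y S (hk i) hC (by norm_num : (0 : ℝ) < 1 / 2) (by norm_num)
      (fun z => mul_nonneg (nu_nonneg _ _) (hX i z)) (fun z => mul_nonneg (nu_nonneg _ _) (hX' i z))
      (hE i hi) hA hB (P i) (w i) (hw i hi) (F := fun b => W i b * f b) (G := fun b => W i b * g b)
      (fun b => mul_nonneg (hW0 _ _) (hf0 _)) (fun b => mul_nonneg (hW0 _ _) (hg0 _))
      (fun b => mul_le_one₀ (hW1 _ _) (hf0 _) (hf1 _))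
    refine h.trans (le_of_eq ?_)
    rw [mu_eq_Ex hM y (X i) (fun b => W i b * f b), mu_eq_Ex hM y (X' i) (fun b => W i b * g b)]
    change 4 * C * hf (1 / 2) (1 / B * a i) (1 / A * a' i) = _
    rw [hf_half (mul_nonneg (by positivity) (ha0 i))]
    have e : 1 / B * a i * (1 / A * a' i) = (a i * a' i) / (A * B) := by
      field_simp
    rw [e, Real.sqrt_div (mul_nonneg (ha0 i) (ha0' i)), Real.sqrt_mul (ha0 i)]
    ring
  refine (Finset.sum_le_sum hone).trans ?_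
  rw [← Finset.mul_sum]
  have hcs : ∑ i ∈ Z, √(a i) * √(a' i) ≤ √(∑ i ∈ Z, a i) * √(∑ i ∈ Z, a' i) := by
    have h := Real.sum_sqrt_mul_sqrt_le Z (f := a) (g := a') ha0 ha0'
    exact h
  have hsum : ∀ (Y : ι → ℕ → ℝ) (r : ℕ → ℝ), (∀ b, 0 ≤ r b) →
      (∀ b, b ∣ M → ∑ i ∈ Z, Y i (upp y b) * W i b ≤ T) →
      ∑ i ∈ Z, Ex M (fun b => Y i (upp y b) * (W i b * r b)) ≤ T * Ex M r := by
    intro Y r hr hY
    rw [Ex_sum, ← Ex_mul_left]
    refine Ex_mono _ fun b hb => ?_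
    calc ∑ i ∈ Z, Y i (upp y b) * (W i b * r b) = (∑ i ∈ Z, Y i (upp y b) * W i b) * r b := by
          rw [Finset.sum_mul]; exact Finset.sum_congr rfl fun i _ => by ring
      _ ≤ T * r b := mul_le_mul_of_nonneg_right (hY b hb) (hr b)
  have h1 := hsum X f hf0 hT
  have h2 := hsum X' g hg0 hT'
  have hcoef : 0 ≤ 8 * C / √(A * B) := by positivity
  calc 8 * C / √(A * B) * ∑ i ∈ Z, √(a i) * √(a' i)
      ≤ 8 * C / √(A * B) * (√(T * Ex M f) * √(T * Ex M g)) := by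
        refine mul_le_mul_of_nonneg_left (hcs.trans ?_) hcoef
        exact mul_le_mul (Real.sqrt_le_sqrt h1) (Real.sqrt_le_sqrt h2) (Real.sqrt_nonneg _)
          (Real.sqrt_nonneg _)
    _ = 8 * C / √(A * B) * ((√T * √T) * (√(Ex M f) * √(Ex M g))) := by
        rw [Real.sqrt_mul hT0, Real.sqrt_mul hT0]; ring
    _ = _ := by rw [Real.mul_self_sqrt hT0]; ring

end Crest.Agent.R4C.GWlayx50
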