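import Crest.Agent.R4C.VecNPw_50

/-!
# Row 4, GW section: from SETS to the vector case (helper50, note 3703)

* `holder_rpow` : `∑ f^θ g^{1-θ} ≤ (∑ f)^θ (∑ g)^{1-θ}`.
* `HBd M k C θ m m'` : bilinear set bound
  `∑_{z ∈ S, z' ∈ S'} gcd ν ν k z z' ≤ C (m(S)^θ m'(S')^{1-θ} + m(S)^{1-θ} m'(S')^θ)`.
* `hb_layer` : the same with the kernel `min (P z) (Q z')`, constant `4 C`.
* `low_right_min` / `low_left_min` : row bound with the full boost for the kernel `min (F u) (G u')`.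
* `hb_class` : pairs whose low word is a function of the upper words, `w.1 ≥ A`, `w.2 ≥ B` :
  gain `A^{-(1-θ)} B^{-θ}` (resp. exchanged).
-/

set_option autoImplicit false

open Finset
open Crest.Agent.R4C.Basex935 Crest.Agent.R4C.Cutx50 Crest.Agent.R4C.HeavyLx50
open Crest.Agent.R4C.BoostRx398 (bst tf one_le_tf)
open Crest.Agent.R4C.FixedWordx423 (wd wd_pos wd_inj_right wd_inj_left wd_swap)
open Crest.Agent.R4C.VecNPx50

namespace Crest.Agent.R4C.GWlayx50

/-- Hölder with exponents `θ, 1 - θ` -/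
lemma holder_rpow {ι : Type*} (s : Finset ι) {f g : ι → ℝ} {θ : ℝ} (h0 : 0 < θ) (h1 : θ < 1)
    (hf : ∀ i ∈ s, 0 ≤ f i) (hg : ∀ i ∈ s, 0 ≤ g i) :
    ∑ i ∈ s, f i ^ θ * g i ^ (1 - θ) ≤ (∑ i ∈ s, f i) ^ θ * (∑ i ∈ s, g i) ^ (1 - θ) := by
  have h2 : 0 < 1 - θ := by linarith
  have hpq : (1 / θ).HolderConjugate (1 / (1 - θ)) := by
    rw [Real.holderConjugate_iff]
    refine ⟨?_, ?_⟩
    · rw [lt_div_iff₀ h0]; linarith
    · rw [one_div, one_div, inv_inv, inv_inv]; ring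
  have h := Real.inner_le_Lp_mul_Lq_of_nonneg s hpq (f := fun i => f i ^ θ)
    (g := fun i => g i ^ (1 - θ)) (fun i hi => Real.rpow_nonneg (hf i hi) _)
    (fun i hi => Real.rpow_nonneg (hg i hi) _)
  refine h.trans (le_of_eq ?_)
  have e1 : ∑ i ∈ s, (f i ^ θ) ^ (1 / θ) = ∑ i ∈ s, f i :=
    Finset.sum_congr rfl fun i hi => by
      rw [← Real.rpow_mul (hf i hi), mul_one_div_cancel h0.ne', Real.rpow_one]
  have e2 : ∑ i ∈ s, (g i ^ (1 - θ)) ^ (1 / (1 - θ)) = ∑ i ∈ s, g i :=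
    Finset.sum_congr rfl fun i hi => by
      rw [← Real.rpow_mul (hg i hi), mul_one_div_cancel h2.ne', Real.rpow_one]
  rw [e1, e2, one_div_one_div, one_div_one_div]

/-- mass of a function with respect to the density `m` -/
noncomputable def mu (M : ℕ) (m P : ℕ → ℝ) : ℝ := ∑ z ∈ M.divisors, m z * P z

/-- the symmetric Hölder form -/
noncomputable def hf (θ a b : ℝ) : ℝ := a ^ θ * b ^ (1 - θ) + a ^ (1 - θ) * b ^ θ

lemma hf_mono {θ a b a' b' : ℝ} (h0 : 0 < θ) (h1 : θ < 1) (ha : 0 ≤ a) (hb : 0 ≤ b)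
    (haa : a ≤ a') (hbb : b ≤ b') : hf θ a b ≤ hf θ a' b' := by
  have h2 : 0 < 1 - θ := by linarith
  have ha' : 0 ≤ a' := ha.trans haa
  have hb' : 0 ≤ b' := hb.trans hbb
  unfold hf
  refine add_le_add ?_ ?_
  · exact mul_le_mul (Real.rpow_le_rpow ha haa h0.le) (Real.rpow_le_rpow hb hbb h2.le)
      (Real.rpow_nonneg hb _) (Real.rpow_nonneg ha' _)
  · exact mul_le_mul (Real.rpow_le_rpow ha haa h2.le) (Real.rpow_le_rpow hb hbb h0.le)
      (Real.rpow_nonneg hb _) (Real.rpow_nonneg ha' _)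

/-- bilinear set bound of Hölder type -/
def HBd (M : ℕ) (k : ℕ → ℕ → ℝ) (C θ : ℝ) (m m' : ℕ → ℝ) : Prop :=
  ∀ S S' : Finset ℕ, S ⊆ M.divisors → S' ⊆ M.divisors →
    ∑ z ∈ S, ∑ z' ∈ S', (Nat.gcd z z' : ℝ) * nu M z * nu M z' * k z z' ≤
      C * hf θ (∑ z ∈ S, m z) (∑ z ∈ S', m' z)

lemma frm_sets (M : ℕ) (k : ℕ → ℕ → ℝ) (p q : ℕ → Prop) [DecidablePred p] [DecidablePred q] :
    frm M (fun z z' => k z z' * ((if p z then (1 : ℝ) else 0) * (if q z' then 1 else 0))) =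
      ∑ z ∈ M.divisors.filter p, ∑ z' ∈ M.divisors.filter q,
        (Nat.gcd z z' : ℝ) * nu M z * nu M z' * k z z' := by
  unfold frm
  rw [Finset.sum_filter]
  refine Finset.sum_congr rfl fun z _ => ?_
  by_cases hz : p z
  · rw [if_pos hz, Finset.sum_filter]
    refine Finset.sum_congr rfl fun z' _ => ?_
    by_cases hz' : q z'
    · rw [if_pos hz']; simp [hz, hz']
    · rw [if_neg hz']; simp [hz']
  · rw [if_neg hz]
    exact Finset.sum_eq_zero fun z' _ => by simp [hz]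

/-- **layer cake for Hölder set bounds** -/
theorem hb_layer {M : ℕ} (hM : 0 < M) {k : ℕ → ℕ → ℝ} (hk : ∀ z z', 0 ≤ k z z') {C θ : ℝ}
    (hC : 0 ≤ C) (h0 : 0 < θ) (h1 : θ < 1) {m m' : ℕ → ℝ} (hm : ∀ z, 0 ≤ m z)
    (hm' : ∀ z, 0 ≤ m' z) (hE : HBd M k C θ m m') {P Q : ℕ → ℝ}
    (hP0 : ∀ b, 0 ≤ P b) (hQ0 : ∀ b, 0 ≤ Q b) (hP1 : ∀ b, P b ≤ 1) :
    frm M (fun z z' => k z z' * min (P z) (Q z')) ≤ 4 * C * hf θ (mu M m P) (mu M m' Q) := by
  classical
  have h2 : 0 < 1 - θ := by linarith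
  obtain ⟨K1, hK1⟩ := exists_level M.divisors P
  obtain ⟨K2, hK2⟩ := exists_level M.divisors Q
  set K := max K1 K2 with hK
  have hs1 : frm M (fun z z' => k z z' * min (P z) (Q z')) ≤
      ∑ i ∈ range K, (1 / 2 : ℝ) ^ i *
        frm M (fun z z' => k z z' * (lay i (P z) * lay i (Q z'))) := by
    have e : ∀ i ∈ range K, (1 / 2 : ℝ) ^ i *
        frm M (fun z z' => k z z' * (lay i (P z) * lay i (Q z'))) =
        frm M (fun z z' => k z z' * ((1 / 2 : ℝ) ^ i * (lay i (P z) * lay i (Q z')))) := by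
      intro i _
      unfold frm
      rw [Finset.mul_sum]
      refine Finset.sum_congr rfl fun b _ => ?_
      rw [Finset.mul_sum]
      exact Finset.sum_congr rfl fun c _ => by ring
    rw [Finset.sum_congr rfl e, frm_sum]
    refine frm_mono fun z z' hz hz' => ?_
    rw [← Finset.mul_sum]
    refine mul_le_mul_of_nonneg_left ?_ (hk z z')
    exact min_le_lay (hP1 z)
      (hK1 K (le_max_left _ _) z (Nat.mem_divisors.2 ⟨hz, hM.ne'⟩))
      (hK2 K (le_max_right _ _) z' (Nat.mem_divisors.2 ⟨hz', hM.ne'⟩))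
  refine hs1.trans ?_
  -- masses of the layers
  set a : ℕ → ℝ := fun i => ∑ z ∈ M.divisors, m z * lay i (P z) with ha
  set b : ℕ → ℝ := fun i => ∑ z ∈ M.divisors, m' z * lay i (Q z) with hb
  have ha0 : ∀ i, 0 ≤ a i := fun i =>
    Finset.sum_nonneg fun z _ => mul_nonneg (hm z) (lay_nonneg _ _)
  have hb0 : ∀ i, 0 ≤ b i := fun i =>
    Finset.sum_nonneg fun z _ => mul_nonneg (hm' z) (lay_nonneg _ _)
  have hset : ∀ i, frm M (fun z z' => k z z' * (lay i (P z) * lay i (Q z'))) ≤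
      C * hf θ (a i) (b i) := by
    intro i
    have e1 := frm_sets M k (fun z => (1 / 2 : ℝ) ^ (i + 1) < P z)
      (fun z => (1 / 2 : ℝ) ^ (i + 1) < Q z)
    have e2 : ∀ (m : ℕ → ℝ) (R : ℕ → ℝ), ∑ z ∈ M.divisors.filter
        (fun z => (1 / 2 : ℝ) ^ (i + 1) < R z), m z = ∑ z ∈ M.divisors, m z * lay i (R z) := by
      intro m R
      rw [Finset.sum_filter]
      refine Finset.sum_congr rfl fun z _ => ?_
      unfold lay
      split_ifs <;> simp
    have h3 := hE _ _ (Finset.filter_subset (fun z => (1 / 2 : ℝ) ^ (i + 1) < P z) M.divisors)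
      (Finset.filter_subset (fun z => (1 / 2 : ℝ) ^ (i + 1) < Q z) M.divisors)
    rw [← e1, e2 m P, e2 m' Q] at h3
    exact h3
  have hterm : ∀ i ∈ range K, (1 / 2 : ℝ) ^ i *
      frm M (fun z z' => k z z' * (lay i (P z) * lay i (Q z'))) ≤
      C * (((1 / 2 : ℝ) ^ i * a i) ^ θ * ((1 / 2 : ℝ) ^ i * b i) ^ (1 - θ) +
        ((1 / 2 : ℝ) ^ i * b i) ^ θ * ((1 / 2 : ℝ) ^ i * a i) ^ (1 - θ)) := by
    intro i _
    have h4 : (0 : ℝ) < (1 / 2 : ℝ) ^ i := by positivity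
    have e : ∀ x y : ℝ, 0 ≤ x → 0 ≤ y →
        ((1 / 2 : ℝ) ^ i * x) ^ θ * ((1 / 2 : ℝ) ^ i * y) ^ (1 - θ) =
        (1 / 2 : ℝ) ^ i * (x ^ θ * y ^ (1 - θ)) := by
      intro x y hx hy
      rw [Real.mul_rpow h4.le hx, Real.mul_rpow h4.le hy]
      have e3 : ((1 / 2 : ℝ) ^ i) ^ θ * ((1 / 2 : ℝ) ^ i) ^ (1 - θ) = (1 / 2 : ℝ) ^ i := by
        rw [← Real.rpow_add h4]
        have : θ + (1 - θ) = 1 := by ring
        rw [this, Real.rpow_one]
      calc ((1 / 2 : ℝ) ^ i) ^ θ * x ^ θ * (((1 / 2 : ℝ) ^ i) ^ (1 - θ) * y ^ (1 - θ))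
          = (((1 / 2 : ℝ) ^ i) ^ θ * ((1 / 2 : ℝ) ^ i) ^ (1 - θ)) * (x ^ θ * y ^ (1 - θ)) := by ring
        _ = _ := by rw [e3]
    rw [e _ _ (ha0 i) (hb0 i), e _ _ (hb0 i) (ha0 i)]
    calc (1 / 2 : ℝ) ^ i * frm M (fun z z' => k z z' * (lay i (P z) * lay i (Q z')))
        ≤ (1 / 2 : ℝ) ^ i * (C * hf θ (a i) (b i)) := mul_le_mul_of_nonneg_left (hset i) h4.le
      _ = _ := by unfold hf; ring
  refine (Finset.sum_le_sum hterm).trans ?_
  rw [← Finset.mul_sum, Finset.sum_add_distrib]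
  have hsum : ∀ (n R : ℕ → ℝ), (∀ z, 0 ≤ n z) → (∀ z, 0 ≤ R z) →
      ∑ i ∈ range K, (1 / 2 : ℝ) ^ i * ∑ z ∈ M.divisors, n z * lay i (R z) ≤ 4 * mu M n R := by
    intro n R hn hR
    unfold mu
    simp only [Finset.mul_sum]
    rw [Finset.sum_comm]
    refine Finset.sum_le_sum fun z _ => ?_
    have h5 := sum_lay_le K (hR z)
    calc ∑ i ∈ range K, (1 / 2 : ℝ) ^ i * (n z * lay i (R z))
        = n z * ∑ i ∈ range K, (1 / 2 : ℝ) ^ i * lay i (R z) := by
          rw [Finset.mul_sum]; exact Finset.sum_congr rfl fun i _ => by ring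
      _ ≤ n z * (4 * R z) := mul_le_mul_of_nonneg_left h5 (hn z)
      _ = 4 * (n z * R z) := by ring
  have hA := hsum m P hm hP0
  have hB := hsum m' Q hm' hQ0
  have hA0 : ∀ i ∈ range K, 0 ≤ (1 / 2 : ℝ) ^ i * a i := fun i _ => mul_nonneg (by positivity) (ha0 i)
  have hB0 : ∀ i ∈ range K, 0 ≤ (1 / 2 : ℝ) ^ i * b i := fun i _ => mul_nonneg (by positivity) (hb0 i)
  have h6 := holder_rpow (range K) h0 h1 hA0 hB0
  have h7 := holder_rpow (range K) h0 h1 hB0 hA0
  have hmu0 : 0 ≤ mu M m P := Finset.sum_nonneg fun z _ => mul_nonneg (hm z) (hP0 z)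
  have hmu0' : 0 ≤ mu M m' Q := Finset.sum_nonneg fun z _ => mul_nonneg (hm' z) (hQ0 z)
  have hSA : 0 ≤ ∑ i ∈ range K, (1 / 2 : ℝ) ^ i * a i := Finset.sum_nonneg hA0
  have hSB : 0 ≤ ∑ i ∈ range K, (1 / 2 : ℝ) ^ i * b i := Finset.sum_nonneg hB0
  have h8 := hf_mono h0 h1 hSA hSB hA hB
  have e4 : ∀ x y : ℝ, 0 ≤ x → 0 ≤ y → hf θ (4 * x) (4 * y) = 4 * hf θ x y := by
    intro x y hx hy
    unfold hf
    rw [Real.mul_rpow (by norm_num) hx, Real.mul_rpow (by norm_num) hy,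
      Real.mul_rpow (by norm_num) hx, Real.mul_rpow (by norm_num) hy]
    have e5 : (4 : ℝ) ^ θ * (4 : ℝ) ^ (1 - θ) = 4 := by
      rw [← Real.rpow_add (by norm_num)]
      have : θ + (1 - θ) = 1 := by ring
      rw [this, Real.rpow_one]
    calc 4 ^ θ * x ^ θ * (4 ^ (1 - θ) * y ^ (1 - θ)) + 4 ^ (1 - θ) * x ^ (1 - θ) * (4 ^ θ * y ^ θ)
        = ((4 : ℝ) ^ θ * (4 : ℝ) ^ (1 - θ)) * (x ^ θ * y ^ (1 - θ) + x ^ (1 - θ) * y ^ θ) := by ring
      _ = _ := by rw [e5]
  rw [e4 _ _ hmu0 hmu0'] at h8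
  calc C * (∑ i ∈ range K, ((1 / 2 : ℝ) ^ i * a i) ^ θ * ((1 / 2 : ℝ) ^ i * b i) ^ (1 - θ) +
        ∑ i ∈ range K, ((1 / 2 : ℝ) ^ i * b i) ^ θ * ((1 / 2 : ℝ) ^ i * a i) ^ (1 - θ))
      ≤ C * hf θ (∑ i ∈ range K, (1 / 2 : ℝ) ^ i * a i) (∑ i ∈ range K, (1 / 2 : ℝ) ^ i * b i) := by
        refine mul_le_mul_of_nonneg_left ?_ hC
        unfold hf
        refine add_le_add h6 (h7.trans (le_of_eq ?_))
        ring
    _ ≤ C * (4 * hf θ (mu M m P) (mu M m' Q)) := mul_le_mul_of_nonneg_left h8 hC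
    _ = _ := by ring

/-! ### the row bound with the full boost, kernel `min` -/

open Classical in
lemma low_right_min {M : ℕ} (hM : 0 < M) (S : Finset ℕ) (x : ℕ × ℕ) {F G : ℕ → ℝ}
    (hF : ∀ b, 0 ≤ F b) :
    frm M (fun u u' => if wd u u' = x then bst S M u u' * min (F u) (G u') else 0) ≤
      Ex M F / (x.2 : ℝ) := by
  refine le_trans (frm_mono (G := fun u u' => if wd u u' = x then
    bst S M u u' * (F u * (fun _ => (1 : ℝ)) u') else 0) fun u u' _ _ => ?_)
    (low_right hM S x hF (G := fun _ => 1) fun _ => le_rfl)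
  beta_reduce
  split_ifs
  · exact mul_le_mul_of_nonneg_left ((min_le_left _ _).trans (le_of_eq (mul_one _).symm))
      (bst_nonneg _ _ _ _)
  · exact le_rfl

open Classical in
lemma low_left_min {M : ℕ} (hM : 0 < M) (S : Finset ℕ) (x : ℕ × ℕ) {F G : ℕ → ℝ}
    (hG : ∀ b, 0 ≤ G b) :
    frm M (fun u u' => if wd u u' = x then bst S M u u' * min (F u) (G u') else 0) ≤
      Ex M G / (x.1 : ℝ) := by
  refine le_trans (frm_mono (G := fun u u' => if wd u u' = x then
    bst S M u u' * ((fun _ => (1 : ℝ)) u * G u') else 0) fun u u' _ _ => ?_)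
    (low_left hM S x (F := fun _ => 1) hG fun _ => le_rfl)
  beta_reduce
  split_ifs
  · exact mul_le_mul_of_nonneg_left ((min_le_right _ _).trans (le_of_eq (one_mul _).symm))
      (bst_nonneg _ _ _ _)
  · exact le_rfl

lemma mu_mul (M : ℕ) (m P : ℕ → ℝ) (a : ℝ) : mu M m (fun z => a * P z) = a * mu M m P := by
  unfold mu
  rw [Finset.mul_sum]
  exact Finset.sum_congr rfl fun z _ => by ring

open Classical in
/-- **one class of words over a Hölder set bound for the high parts**: the low word is a function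
`w` of the high parts, `w.1 ≥ A`, `w.2 ≥ B`; the low boost `bst` is paid exactly by the row bound;
`F`, `G` = test function times weight (any functions with values in `[0,1]`). -/
theorem hb_class {M : ℕ} (hM : 0 < M) (y : ℕ) (S : Finset ℕ) {k : ℕ → ℕ → ℝ}
    (hk : ∀ z z', 0 ≤ k z z') {C θ : ℝ} (hC : 0 ≤ C) (h0 : 0 < θ) (h1 : θ < 1) {m m' : ℕ → ℝ}
    (hm : ∀ z, 0 ≤ m z) (hm' : ∀ z, 0 ≤ m' z) (hE : HBd (upp y M) k C θ m m')
    {A B : ℝ} (hA : 1 ≤ A) (hB : 1 ≤ B) (P : ℕ → ℕ → Prop) (w : ℕ → ℕ → ℕ × ℕ)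
    (hw : ∀ b c, b ∣ M → c ∣ M → P b c → wd (low y b) (low y c) = w (upp y b) (upp y c) ∧
      A ≤ (w (upp y b) (upp y c)).1 ∧ B ≤ (w (upp y b) (upp y c)).2)
    {F G : ℕ → ℝ} (hF : ∀ b, 0 ≤ F b) (hG : ∀ b, 0 ≤ G b) (hF1 : ∀ b, F b ≤ 1) :
    frm M (fun b c => if P b c then
        k (upp y b) (upp y c) * bst S (low y M) (low y b) (low y c) * min (F b) (G c) else 0) ≤
      4 * C * hf θ (1 / B * mu (upp y M) m (fun z => Ex (low y M) (fun u => F (u * z))))
        (1 / A * mu (upp y M) m' (fun z => Ex (low y M) (fun u => G (u * z)))) := by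
  have hA0 : 0 < A := by linarith
  have hB0 : 0 < B := by linarith
  set M0 := low y M with hM0
  set M1 := upp y M with hM1
  have hM0p : 0 < M0 := low_pos y M
  have hM1p : 0 < M1 := upp_pos y M
  set Vf : ℕ → ℝ := fun z => Ex M0 (fun u => F (u * z)) with hVf
  set Vg : ℕ → ℝ := fun z => Ex M0 (fun u => G (u * z)) with hVg
  have hVf0 : ∀ z, 0 ≤ Vf z := fun z => Ex_nonneg _ fun _ => hF _
  have hVg0 : ∀ z, 0 ≤ Vg z := fun z => Ex_nonneg _ fun _ => hG _
  have hVf1 : ∀ z, Vf z ≤ 1 := fun z =>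
    (Ex_mono _ fun b _ => hF1 (b * z)).trans (le_of_eq (Ex_const hM0p 1))
  have hkey : frm M (fun b c => if P b c then
        k (upp y b) (upp y c) * bst S M0 (low y b) (low y c) * min (F b) (G c) else 0) ≤
      frm M1 (fun z z' => k z z' * min (1 / B * Vf z) (1 / A * Vg z')) := by
    rw [frm_low_upp hM y]
    unfold frm
    refine Finset.sum_le_sum fun z hz => Finset.sum_le_sum fun z' hz' => ?_
    have hzd := Nat.dvd_of_mem_divisors hz
    have hzd' := Nat.dvd_of_mem_divisors hz'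
    refine mul_le_mul_of_nonneg_left ?_
      (mul_nonneg (mul_nonneg (by positivity) (nu_nonneg _ _)) (nu_nonneg _ _))
    have hdiv : ∀ u T, u ∣ M0 → T ∣ M1 → u * T ∣ M := by
      intro u T hu hT
      have := Nat.mul_dvd_mul hu hT
      rwa [low_mul_upp y hM.ne'] at this
    by_cases hex : ∃ u u', u ∣ M0 ∧ u' ∣ M0 ∧ P (u * z) (u' * z')
    · obtain ⟨u1, u1', hu1, hu1', hP1⟩ := hex
      have hww := hw _ _ (hdiv _ _ hu1 hzd) (hdiv _ _ hu1' hzd') hP1
      rw [upp_of_mul hu1 hzd, upp_of_mul hu1' hzd'] at hww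
      set x := w z z' with hx
      have hin : frm M0 (fun n n' => if P (n * z) (n' * z') then
            k (upp y (n * z)) (upp y (n' * z')) * bst S M0 (low y (n * z)) (low y (n' * z')) *
              min (F (n * z)) (G (n' * z')) else 0) ≤
          k z z' * frm M0 (fun u u' => if wd u u' = x then
            bst S M0 u u' * min (F (u * z)) (G (u' * z')) else 0) := by
        unfold frm
        rw [Finset.mul_sum]
        refine Finset.sum_le_sum fun u hu => ?_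
        rw [Finset.mul_sum]
        refine Finset.sum_le_sum fun u' hu' => ?_
        have hud := Nat.dvd_of_mem_divisors hu
        have hud' := Nat.dvd_of_mem_divisors hu'
        have hwt : 0 ≤ (Nat.gcd u u' : ℝ) * nu M0 u * nu M0 u' :=
          mul_nonneg (mul_nonneg (by positivity) (nu_nonneg _ _)) (nu_nonneg _ _)
        beta_reduce
        by_cases hPP : P (u * z) (u' * z')
        · have h2 := (hw _ _ (hdiv _ _ hud hzd) (hdiv _ _ hud' hzd') hPP).1
          rw [low_of_mul hud hzd, low_of_mul hud' hzd', upp_of_mul hud hzd,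
            upp_of_mul hud' hzd'] at h2
          rw [if_pos hPP, if_pos h2, low_of_mul hud hzd, low_of_mul hud' hzd',
            upp_of_mul hud hzd, upp_of_mul hud' hzd']
          exact le_of_eq (by ring)
        · rw [if_neg hPP, mul_zero]
          refine mul_nonneg (hk _ _) (mul_nonneg hwt ?_)
          split_ifs
          · exact mul_nonneg (bst_nonneg _ _ _ _) (le_min (hF _) (hG _))
          · exact le_rfl
      refine hin.trans (mul_le_mul_of_nonneg_left (le_min ?_ ?_) (hk _ _))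
      · refine (low_right_min hM0p S x (F := fun u => F (u * z)) (G := fun u => G (u * z'))
          (fun _ => hF _)).trans ?_
        rw [div_eq_mul_one_div, mul_comm]
        refine mul_le_mul_of_nonneg_right ?_ (hVf0 z)
        exact one_div_le_one_div_of_le hB0 hww.2.2
      · refine (low_left_min hM0p S x (F := fun u => F (u * z)) (G := fun u => G (u * z'))
          (fun _ => hG _)).trans ?_
        rw [div_eq_mul_one_div, mul_comm]
        refine mul_le_mul_of_nonneg_right ?_ (hVg0 z')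
        exact one_div_le_one_div_of_le hA0 hww.2.1
    · push Not at hex
      have h0 : frm M0 (fun n n' => if P (n * z) (n' * z') then
            k (upp y (n * z)) (upp y (n' * z')) * bst S M0 (low y (n * z)) (low y (n' * z')) *
              min (F (n * z)) (G (n' * z')) else 0) = 0 := by
        unfold frm
        refine Finset.sum_eq_zero fun u hu => Finset.sum_eq_zero fun u' hu' => ?_
        beta_reduce
        rw [if_neg (hex u u' (Nat.dvd_of_mem_divisors hu) (Nat.dvd_of_mem_divisors hu')), mul_zero]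
      refine (le_of_eq h0).trans ?_
      exact mul_nonneg (hk _ _) (le_min (mul_nonneg (by positivity) (hVf0 z))
        (mul_nonneg (by positivity) (hVg0 z')))
  refine hkey.trans ?_
  have hlay := hb_layer hM1p hk hC h0 h1 hm hm' hE
    (P := fun z => 1 / B * Vf z) (Q := fun z => 1 / A * Vg z)
    (fun b => mul_nonneg (by positivity) (hVf0 b)) (fun b => mul_nonneg (by positivity) (hVg0 b))
    (fun b => by
      have h1 : 1 / B ≤ 1 := by rw [div_le_one hB0]; exact hB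
      calc 1 / B * Vf b ≤ 1 * 1 := mul_le_mul h1 (hVf1 b) (hVf0 b) zero_le_one
        _ = 1 := one_mul 1)
  refine hlay.trans (le_of_eq ?_)
  rw [mu_mul, mu_mul]

end Crest.Agent.R4C.GWlayx50
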