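import Crest.Agent.R4C.GWnode_863

/-!
# Row 4, GW section, leaf (F2a) of helper982's skeleton (helper262)

`w ∈ S ν`, `ν ∈ Nd z`, `w ∉ A z ν` (the word does not leave the zone `z` at its node `ν`): the next
node `j` of `w` after `ν` exists, is not a birth, and `On (4 θ ν.1)` holds at `(yy j w, tt j w)`.
The cell lemma (F1c (i)) is a hypothesis in `leave`; `prev_eq`, `exists_next`, `not_birth_next` are
free of it.
-/

set_option autoImplicit false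

open Finset
open Crest.Agent.R4C.Cutx50
open Crest.Agent.R4C.NHx656 (On)
open Crest.Agent.R4C.GWdefx982 Crest.Agent.R4C.GWnodex863

namespace Crest.Agent.R4C.GWleavex262

variable {Z : World}

/-- the previous node of the node `j`, if there is no node in between -/
lemma prev_eq {i j w : ℕ} (hij : i < j) (hi : Z.nd i w) (hgap : ∀ k, i < k → k < j → ¬ Z.nd k w) :
    Z.prev j w = i := by
  classical
  unfold World.prev
  rw [Nat.findGreatest_eq_iff]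
  refine ⟨hij.le, fun _ => ⟨hij, hi⟩, fun n hn _ hP => ?_⟩
  exact hgap n hn hP.1 hP.2

/-- there is a first node between `i` and `i'` -/
lemma exists_next {i i' w : ℕ} (hii : i < i') (hn : Z.nd i' w) :
    ∃ j, i < j ∧ j ≤ i' ∧ Z.nd j w ∧ ∀ k, i < k → k < j → ¬ Z.nd k w := by
  classical
  have hex : ∃ j, i < j ∧ Z.nd j w := ⟨i', hii, hn⟩
  refine ⟨Nat.find hex, (Nat.find_spec hex).1, Nat.find_min' hex ⟨hii, hn⟩, (Nat.find_spec hex).2,
    fun k h1 h2 h3 => ?_⟩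
  exact Nat.find_min hex h2 ⟨h1, h3⟩

/-- a word which does not leave the zone at the node `ν` is in a later node of the zone -/
lemma later_of_not_A {z ν : Node} {w : ℕ} (hw : w ∈ Z.S ν) (hA : w ∉ Z.A z ν) :
    ∃ ν' ∈ Z.Nd z, ν.1 < ν'.1 ∧ w ∈ Z.S ν' := by
  classical
  unfold World.A at hA
  rw [mem_sdiff, not_and, not_not] at hA
  obtain ⟨ν', h1, h2⟩ := mem_biUnion.1 (hA hw)
  rw [mem_filter] at h1
  exact ⟨ν', h1.1, h1.2, h2⟩

/-- the next node is not a birth -/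
theorem next_of_not_A (h : Z.Ok) {z ν : Node} {w : ℕ} (hν : ν ∈ Z.Nd z) (hw : w ∈ Z.S ν)
    (hA : w ∉ Z.A z ν) :
    ∃ j, ν.1 < j ∧ Z.nd j w ∧ (∀ k, ν.1 < k → k < j → ¬ Z.nd k w) ∧ ¬ Z.birth j w ∧
      Z.prev j w = ν.1 ∧ Z.light j w := by
  obtain ⟨ν', h1, h2, h3⟩ := later_of_not_A hw hA
  have hnν : Z.nd ν.1 w := ((mem_S h).1 hw).2.1
  have hnν' : Z.nd ν'.1 w := ((mem_S h).1 h3).2.1
  obtain ⟨j, j1, j2, j3, j4⟩ := exists_next h2 hnν'
  obtain ⟨_, _, b3, _, _⟩ := Nd_all h hν hw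
  obtain ⟨_, _, _, _, c5⟩ := Nd_all h h1 h3
  have hnb : ¬ Z.birth j w := by
    refine not_birth_of_bi_lt (j := ν'.1) ?_ j2
    rw [c5]
    omega
  refine ⟨j, j1, j3, j4, hnb, prev_eq j1 hnν j4, ?_⟩
  unfold World.birth at hnb
  by_contra hl
  exact hnb ⟨j3, fun hc => hl hc.2⟩

/-- **(F2a)** -/
theorem leave (h : Z.Ok)
    (hcell : ∀ (K : ℝ) (ν : Node) (w w' : ℕ), w ∈ Z.S ν → w' ∈ Z.S ν →
      On K (Z.yy ν.1 w') (Z.tt ν.1 w') → On (4 * K) (Z.yy ν.1 w) (Z.tt ν.1 w))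
    {z ν : Node} {w : ℕ} (hν : ν ∈ Z.Nd z) (hw : w ∈ Z.S ν) (hA : w ∉ Z.A z ν) :
    ∃ j, ν.1 < j ∧ Z.nd j w ∧ (∀ k, ν.1 < k → k < j → ¬ Z.nd k w) ∧ ¬ Z.birth j w ∧
      On (4 * Z.θ ν.1) (Z.yy j w) (Z.tt j w) := by
  obtain ⟨j, j1, j2, j3, j4, j5, w', hw', hon⟩ := next_of_not_A h hν hw hA
  refine ⟨j, j1, j2, j3, j4, ?_⟩
  rw [j5] at hon
  have hwj : w ∈ Z.S (Z.lab j w) := mem_S_lab h ((mem_S h).1 hw).1 j2
  exact hcell _ (Z.lab j w) w w' hwj hw' hon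

end Crest.Agent.R4C.GWleavex262
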