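import Crest.Agent.R4C.GWlam_50

/-!
# Row 4, GW section, vector case: from LEMMA V (graph of zones) to the vector class (helper482)

LEMMA V (helper8, note 3941) bounds the charge of a GRAPH of zones (left zones `i ∈ Z`, right zones
`j ∈ Z'`) for sets `S i`, `S' j` of high words that may DEPEND ON THE ZONE:

* `GBd` : `∑_{i,j} ∑_{z ∈ S i, z' ∈ S' j} gcd ν ν k_{ij} ≤
  C ((1/l) ∑_i m_i(S i) + l D ∑_j m'_j(S' j))` for all `l > 0`;
* `gb_layer` : the same with the kernels `min (P i z) (Q j z')`, constant `4 C`;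
* `row_class` : row bound with the full low boost for one pair of zones;
* `gb_class` : pairs whose low word is a function of the high words, `w.1 ≥ A`, `w.2 ≥ B`;
* `graph_total` : word-dependent weights `W i b`, `W' j c ∈ [0,1]`, budgets
  `∑_i X i (upp b) W i b ≤ T`: total `8 C T √(D/(AB)) √(Ex f) √(Ex g)`.
-/

set_option autoImplicit false

open Finset
open Crest.Agent.R4C.Basex935 Crest.Agent.R4C.Cutx50 Crest.Agent.R4C.HeavyLx50
open Crest.Agent.R4C.BoostRx398 (bst tf one_le_tf)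
open Crest.Agent.R4C.FixedWordx423 (wd wd_pos wd_inj_right wd_inj_left wd_swap)
open Crest.Agent.R4C.VecNPx50 Crest.Agent.R4C.GWlayx50

namespace Crest.Agent.R4C.GWrelHx482

variable {ι ι' : Type*}

/-- graph set bound in the two-parameter form; the sets depend on the zones -/
def GBd (M : ℕ) (Z : Finset ι) (Z' : Finset ι') (k : ι → ι' → ℕ → ℕ → ℝ) (C D : ℝ)
    (m : ι → ℕ → ℝ) (m' : ι' → ℕ → ℝ) : Prop :=
  ∀ (S : ι → Finset ℕ) (S' : ι' → Finset ℕ), (∀ i, S i ⊆ M.divisors) →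
    (∀ j, S' j ⊆ M.divisors) → ∀ l : ℝ, 0 < l →
    ∑ i ∈ Z, ∑ j ∈ Z', ∑ z ∈ S i, ∑ z' ∈ S' j,
        (Nat.gcd z z' : ℝ) * nu M z * nu M z' * k i j z z' ≤
      C * (1 / l * (∑ i ∈ Z, ∑ z ∈ S i, m i z) + l * D * ∑ j ∈ Z', ∑ z' ∈ S' j, m' j z')

lemma exists_level2 (s : Finset ℕ) (Z : Finset ι) (P : ι → ℕ → ℝ) :
    ∃ K : ℕ, ∀ K' ≥ K, ∀ i ∈ Z, ∀ z ∈ s, P i z ≤ 0 ∨ (1 / 2 : ℝ) ^ K' < P i z := by
  classical
  induction Z using Finset.induction_on with
  | empty => exact ⟨0, fun _ _ i hi => absurd hi (Finset.notMem_empty i)⟩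
  | insert a Z _ ih =>
    obtain ⟨K, hK⟩ := ih
    obtain ⟨K2, hK2⟩ := exists_level s (P a)
    refine ⟨max K K2, fun K' hK' i hi z hz => ?_⟩
    rcases Finset.mem_insert.1 hi with rfl | hi
    · exact hK2 K' (le_trans (le_max_right _ _) hK') z hz
    · exact hK K' (le_trans (le_max_left _ _) hK') i hi z hz

lemma layer_sum (M K : ℕ) {κ : Type*} (Y : Finset κ) (n R : κ → ℕ → ℝ)
    (hn : ∀ i z, 0 ≤ n i z) (hR : ∀ i z, 0 ≤ R i z) :
    ∑ q ∈ range K, (1 / 2 : ℝ) ^ q * ∑ i ∈ Y, ∑ z ∈ M.divisors, n i z * lay q (R i z) ≤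
      4 * ∑ i ∈ Y, mu M (n i) (R i) := by
  unfold mu
  simp only [Finset.mul_sum]
  rw [Finset.sum_comm]
  refine Finset.sum_le_sum fun i _ => ?_
  rw [Finset.sum_comm]
  refine Finset.sum_le_sum fun z _ => ?_
  have h5 := sum_lay_le K (hR i z)
  calc ∑ q ∈ range K, (1 / 2 : ℝ) ^ q * (n i z * lay q (R i z))
      = n i z * ∑ q ∈ range K, (1 / 2 : ℝ) ^ q * lay q (R i z) := by
        rw [Finset.mul_sum]; exact Finset.sum_congr rfl fun q _ => by ring
    _ ≤ n i z * (4 * R i z) := mul_le_mul_of_nonneg_left h5 (hn i z)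
    _ = 4 * (n i z * R i z) := by ring

/-- the budget of one side -/
lemma budget_sum {M : ℕ} (hM : 0 < M) (y : ℕ) {T : ℝ} {κ : Type*} (Y : Finset κ)
    (X W : κ → ℕ → ℝ) (r : ℕ → ℝ) (hr : ∀ b, 0 ≤ r b)
    (hY : ∀ b, b ∣ M → ∑ i ∈ Y, X i (upp y b) * W i b ≤ T) :
    ∑ i ∈ Y, mu (upp y M) (fun z => nu (upp y M) z * X i z)
      (fun z => Ex (low y M) (fun u => (W i (u * z) * r (u * z)))) ≤ T * Ex M r := by
  have e : ∀ i ∈ Y, mu (upp y M) (fun z => nu (upp y M) z * X i z)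
      (fun z => Ex (low y M) (fun u => (W i (u * z) * r (u * z)))) =
      Ex M (fun b => X i (upp y b) * (W i b * r b)) := fun i _ =>
    mu_eq_Ex hM y (X i) (fun b => W i b * r b)
  rw [Finset.sum_congr rfl e, Ex_sum, ← Ex_mul_left]
  refine Ex_mono _ fun b hb => ?_
  calc ∑ i ∈ Y, X i (upp y b) * (W i b * r b) = (∑ i ∈ Y, X i (upp y b) * W i b) * r b := by
        rw [Finset.sum_mul]; exact Finset.sum_congr rfl fun i _ => by ring
    _ ≤ T * r b := mul_le_mul_of_nonneg_right (hY b hb) (hr b)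

/-- **layer cake over a graph of zones** -/
theorem gb_layer {M : ℕ} (hM : 0 < M) {Z : Finset ι} {Z' : Finset ι'}
    {k : ι → ι' → ℕ → ℕ → ℝ} (hk : ∀ i j z z', 0 ≤ k i j z z') {C D : ℝ} (hC : 0 ≤ C)
    (hD : 0 ≤ D) {m : ι → ℕ → ℝ} {m' : ι' → ℕ → ℝ} (hm : ∀ i z, 0 ≤ m i z)
    (hm' : ∀ j z, 0 ≤ m' j z) (hE : GBd M Z Z' k C D m m') {P : ι → ℕ → ℝ} {Q : ι' → ℕ → ℝ}
    (hP0 : ∀ i b, 0 ≤ P i b) (hQ0 : ∀ j b, 0 ≤ Q j b) (hP1 : ∀ i b, P i b ≤ 1)
    (l : ℝ) (hl : 0 < l) :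
    ∑ i ∈ Z, ∑ j ∈ Z', frm M (fun z z' => k i j z z' * min (P i z) (Q j z')) ≤
      4 * C * (1 / l * (∑ i ∈ Z, mu M (m i) (P i)) + l * D * ∑ j ∈ Z', mu M (m' j) (Q j)) := by
  classical
  obtain ⟨K1, hK1⟩ := exists_level2 M.divisors Z P
  obtain ⟨K2, hK2⟩ := exists_level2 M.divisors Z' Q
  set K := max K1 K2 with hK
  have hs1 : ∀ i ∈ Z, ∀ j ∈ Z', frm M (fun z z' => k i j z z' * min (P i z) (Q j z')) ≤
      ∑ n ∈ range K, (1 / 2 : ℝ) ^ n *
        frm M (fun z z' => k i j z z' * (lay n (P i z) * lay n (Q j z'))) := by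
    intro i hi j hj
    have e : ∀ n ∈ range K, (1 / 2 : ℝ) ^ n *
        frm M (fun z z' => k i j z z' * (lay n (P i z) * lay n (Q j z'))) =
        frm M (fun z z' => k i j z z' * ((1 / 2 : ℝ) ^ n * (lay n (P i z) * lay n (Q j z')))) := by
      intro n _
      unfold frm
      rw [Finset.mul_sum]
      refine Finset.sum_congr rfl fun b _ => ?_
      rw [Finset.mul_sum]
      exact Finset.sum_congr rfl fun c _ => by ring
    rw [Finset.sum_congr rfl e, frm_sum]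
    refine frm_mono fun z z' hz hz' => ?_
    rw [← Finset.mul_sum]
    refine mul_le_mul_of_nonneg_left ?_ (hk i j z z')
    exact min_le_lay (hP1 i z)
      (hK1 K (le_max_left _ _) i hi z (Nat.mem_divisors.2 ⟨hz, hM.ne'⟩))
      (hK2 K (le_max_right _ _) j hj z' (Nat.mem_divisors.2 ⟨hz', hM.ne'⟩))
  refine (Finset.sum_le_sum fun i hi => Finset.sum_le_sum fun j hj => hs1 i hi j hj).trans ?_
  -- masses of the layers
  set a : ℕ → ℝ := fun n => ∑ i ∈ Z, ∑ z ∈ M.divisors, m i z * lay n (P i z) with ha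
  set b : ℕ → ℝ := fun n => ∑ j ∈ Z', ∑ z ∈ M.divisors, m' j z * lay n (Q j z) with hb
  have hset : ∀ n, ∑ i ∈ Z, ∑ j ∈ Z',
      frm M (fun z z' => k i j z z' * (lay n (P i z) * lay n (Q j z'))) ≤
      C * (1 / l * a n + l * D * b n) := by
    intro n
    have h3 := hE (fun i => M.divisors.filter (fun z => (1 / 2 : ℝ) ^ (n + 1) < P i z))
      (fun j => M.divisors.filter (fun z => (1 / 2 : ℝ) ^ (n + 1) < Q j z))
      (fun i => Finset.filter_subset _ _) (fun j => Finset.filter_subset _ _) l hl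
    have e1 : ∀ i j, frm M (fun z z' => k i j z z' * (lay n (P i z) * lay n (Q j z'))) =
        ∑ z ∈ M.divisors.filter (fun z => (1 / 2 : ℝ) ^ (n + 1) < P i z),
          ∑ z' ∈ M.divisors.filter (fun z => (1 / 2 : ℝ) ^ (n + 1) < Q j z),
          (Nat.gcd z z' : ℝ) * nu M z * nu M z' * k i j z z' := fun i j =>
      frm_sets M (k i j) (fun z => (1 / 2 : ℝ) ^ (n + 1) < P i z)
        (fun z => (1 / 2 : ℝ) ^ (n + 1) < Q j z)
    have e2 : ∀ (m R : ℕ → ℝ), ∑ z ∈ M.divisors.filter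
        (fun z => (1 / 2 : ℝ) ^ (n + 1) < R z), m z = ∑ z ∈ M.divisors, m z * lay n (R z) := by
      intro m R
      rw [Finset.sum_filter]
      refine Finset.sum_congr rfl fun z _ => ?_
      unfold lay
      split_ifs <;> simp
    simp only [e1]
    refine h3.trans (le_of_eq ?_)
    simp only [e2, ha, hb]
  have hswap : ∑ i ∈ Z, ∑ j ∈ Z', ∑ n ∈ range K, (1 / 2 : ℝ) ^ n *
        frm M (fun z z' => k i j z z' * (lay n (P i z) * lay n (Q j z'))) =
      ∑ n ∈ range K, (1 / 2 : ℝ) ^ n * ∑ i ∈ Z, ∑ j ∈ Z',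
        frm M (fun z z' => k i j z z' * (lay n (P i z) * lay n (Q j z'))) := by
    simp only [Finset.mul_sum]
    rw [Finset.sum_congr rfl fun i _ => Finset.sum_comm, Finset.sum_comm]
  rw [hswap]
  have hterm : ∑ n ∈ range K, (1 / 2 : ℝ) ^ n * ∑ i ∈ Z, ∑ j ∈ Z',
        frm M (fun z z' => k i j z z' * (lay n (P i z) * lay n (Q j z'))) ≤
      ∑ n ∈ range K, (1 / 2 : ℝ) ^ n * (C * (1 / l * a n + l * D * b n)) :=
    Finset.sum_le_sum fun n _ => mul_le_mul_of_nonneg_left (hset n) (by positivity)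
  refine hterm.trans ?_
  have hA := layer_sum M K Z m P hm hP0
  have hB := layer_sum M K Z' m' Q hm' hQ0
  have e5 : ∑ n ∈ range K, (1 / 2 : ℝ) ^ n * (C * (1 / l * a n + l * D * b n)) =
      C * (1 / l * (∑ n ∈ range K, (1 / 2 : ℝ) ^ n * a n) +
        l * D * ∑ n ∈ range K, (1 / 2 : ℝ) ^ n * b n) := by
    rw [Finset.mul_sum, Finset.mul_sum, ← Finset.sum_add_distrib, Finset.mul_sum]
    exact Finset.sum_congr rfl fun n _ => by ring
  rw [e5]
  have h1 : 0 ≤ 1 / l := by positivity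
  have h2 : 0 ≤ l * D := by positivity
  calc C * (1 / l * (∑ n ∈ range K, (1 / 2 : ℝ) ^ n * a n) +
        l * D * ∑ n ∈ range K, (1 / 2 : ℝ) ^ n * b n)
      ≤ C * (1 / l * (4 * ∑ i ∈ Z, mu M (m i) (P i)) +
        l * D * (4 * ∑ j ∈ Z', mu M (m' j) (Q j))) := by
        refine mul_le_mul_of_nonneg_left (add_le_add ?_ ?_) hC
        · exact mul_le_mul_of_nonneg_left hA h1
        · exact mul_le_mul_of_nonneg_left hB h2
    _ = _ := by ring

open Classical in
/-- **row bound with the full low boost for one pair of zones** (first half of 50's `hb_class`) -/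
theorem row_class {M : ℕ} (hM : 0 < M) (y : ℕ) (S : Finset ℕ) {k : ℕ → ℕ → ℝ}
    (hk : ∀ z z', 0 ≤ k z z')
    {A B : ℝ} (hA : 1 ≤ A) (hB : 1 ≤ B) (P : ℕ → ℕ → Prop) (w : ℕ → ℕ → ℕ × ℕ)
    (hw : ∀ b c, b ∣ M → c ∣ M → P b c → wd (low y b) (low y c) = w (upp y b) (upp y c) ∧
      A ≤ (w (upp y b) (upp y c)).1 ∧ B ≤ (w (upp y b) (upp y c)).2)
    {F G : ℕ → ℝ} (hF : ∀ b, 0 ≤ F b) (hG : ∀ b, 0 ≤ G b) :
    frm M (fun b c => if P b c then
        k (upp y b) (upp y c) * bst S (low y M) (low y b) (low y c) * min (F b) (G c) else 0) ≤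
      frm (upp y M) (fun z z' => k z z' *
        min (1 / B * Ex (low y M) (fun u => F (u * z))) (1 / A * Ex (low y M) (fun u => G (u * z')))) := by
  have hA0 : 0 < A := by linarith
  have hB0 : 0 < B := by linarith
  set M0 := low y M with hM0
  set M1 := upp y M with hM1
  have hM0p : 0 < M0 := low_pos y M
  have hM1p : 0 < M1 := upp_pos y M
  set Vf : ℕ → ℝ := fun z => Ex M0 (fun u => F (u * z)) with hVf
  set Vg : ℕ → ℝ := fun z => Ex M0 (fun u => G (u * z)) with hVg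
  have hVf0 : ∀ z, 0 ≤ Vf z := fun z => Ex_nonneg _ fun _ => hF _
  have hVg0 : ∀ z, 0 ≤ Vg z := fun z => Ex_nonneg _ fun _ => hG _
  rw [frm_low_upp hM y]
  unfold frm
  refine Finset.sum_le_sum fun z hz => Finset.sum_le_sum fun z' hz' => ?_
  have hzd := Nat.dvd_of_mem_divisors hz
  have hzd' := Nat.dvd_of_mem_divisors hz'
  refine mul_le_mul_of_nonneg_left ?_
    (mul_nonneg (mul_nonneg (by positivity) (nu_nonneg _ _)) (nu_nonneg _ _))
  have hdiv : ∀ u T, u ∣ M0 → T ∣ M1 → u * T ∣ M := by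
    intro u T hu hT
    have := Nat.mul_dvd_mul hu hT
    rwa [low_mul_upp y hM.ne'] at this
  by_cases hex : ∃ u u', u ∣ M0 ∧ u' ∣ M0 ∧ P (u * z) (u' * z')
  · obtain ⟨u1, u1', hu1, hu1', hP1⟩ := hex
    have hww := hw _ _ (hdiv _ _ hu1 hzd) (hdiv _ _ hu1' hzd') hP1
    rw [upp_of_mul hu1 hzd, upp_of_mul hu1' hzd'] at hww
    set x := w z z' with hx
    have hin : frm M0 (fun n n' => if P (n * z) (n' * z') then
          k (upp y (n * z)) (upp y (n' * z')) * bst S M0 (low y (n * z)) (low y (n' * z')) *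
            min (F (n * z)) (G (n' * z')) else 0) ≤
        k z z' * frm M0 (fun u u' => if wd u u' = x then
          bst S M0 u u' * min (F (u * z)) (G (u' * z')) else 0) := by
      unfold frm
      rw [Finset.mul_sum]
      refine Finset.sum_le_sum fun u hu => ?_
      rw [Finset.mul_sum]
      refine Finset.sum_le_sum fun u' hu' => ?_
      have hud := Nat.dvd_of_mem_divisors hu
      have hud' := Nat.dvd_of_mem_divisors hu'
      have hwt : 0 ≤ (Nat.gcd u u' : ℝ) * nu M0 u * nu M0 u' :=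
        mul_nonneg (mul_nonneg (by positivity) (nu_nonneg _ _)) (nu_nonneg _ _)
      beta_reduce
      by_cases hPP : P (u * z) (u' * z')
      · have h2 := (hw _ _ (hdiv _ _ hud hzd) (hdiv _ _ hud' hzd') hPP).1
        rw [low_of_mul hud hzd, low_of_mul hud' hzd', upp_of_mul hud hzd,
          upp_of_mul hud' hzd'] at h2
        rw [if_pos hPP, if_pos h2, low_of_mul hud hzd, low_of_mul hud' hzd',
          upp_of_mul hud hzd, upp_of_mul hud' hzd']
        exact le_of_eq (by ring)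
      · rw [if_neg hPP, mul_zero]
        refine mul_nonneg (hk _ _) (mul_nonneg hwt ?_)
        split_ifs
        · exact mul_nonneg (bst_nonneg _ _ _ _) (le_min (hF _) (hG _))
        · exact le_rfl
    refine hin.trans (mul_le_mul_of_nonneg_left (le_min ?_ ?_) (hk _ _))
    · refine (low_right_min hM0p S x (F := fun u => F (u * z)) (G := fun u => G (u * z'))
        (fun _ => hF _)).trans ?_
      rw [div_eq_mul_one_div, mul_comm]
      refine mul_le_mul_of_nonneg_right ?_ (hVf0 z)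
      exact one_div_le_one_div_of_le hB0 hww.2.2
    · refine (low_left_min hM0p S x (F := fun u => F (u * z)) (G := fun u => G (u * z'))
        (fun _ => hG _)).trans ?_
      rw [div_eq_mul_one_div, mul_comm]
      refine mul_le_mul_of_nonneg_right ?_ (hVg0 z')
      exact one_div_le_one_div_of_le hA0 hww.2.1
  · push Not at hex
    have h0 : frm M0 (fun n n' => if P (n * z) (n' * z') then
          k (upp y (n * z)) (upp y (n' * z')) * bst S M0 (low y (n * z)) (low y (n' * z')) *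
            min (F (n * z)) (G (n' * z')) else 0) = 0 := by
      unfold frm
      refine Finset.sum_eq_zero fun u hu => Finset.sum_eq_zero fun u' hu' => ?_
      beta_reduce
      rw [if_neg (hex u u' (Nat.dvd_of_mem_divisors hu) (Nat.dvd_of_mem_divisors hu')), mul_zero]
    refine (le_of_eq h0).trans ?_
    exact mul_nonneg (hk _ _) (le_min (mul_nonneg (by positivity) (hVf0 z))
      (mul_nonneg (by positivity) (hVg0 z')))

open Classical in
/-- **one class of words over a graph of zones** -/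
theorem gb_class {M : ℕ} (hM : 0 < M) (y : ℕ) (S : Finset ℕ) {Z : Finset ι} {Z' : Finset ι'}
    {k : ι → ι' → ℕ → ℕ → ℝ} (hk : ∀ i j z z', 0 ≤ k i j z z') {C D : ℝ} (hC : 0 ≤ C)
    (hD : 0 ≤ D) {m : ι → ℕ → ℝ} {m' : ι' → ℕ → ℝ} (hm : ∀ i z, 0 ≤ m i z)
    (hm' : ∀ j z, 0 ≤ m' j z) (hE : GBd (upp y M) Z Z' k C D m m')
    {A B : ℝ} (hA : 1 ≤ A) (hB : 1 ≤ B) (P : ι → ι' → ℕ → ℕ → Prop)
    (w : ι → ι' → ℕ → ℕ → ℕ × ℕ)
    (hw : ∀ i ∈ Z, ∀ j ∈ Z', ∀ b c, b ∣ M → c ∣ M → P i j b c →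
      wd (low y b) (low y c) = w i j (upp y b) (upp y c) ∧
      A ≤ (w i j (upp y b) (upp y c)).1 ∧ B ≤ (w i j (upp y b) (upp y c)).2)
    {F : ι → ℕ → ℝ} {G : ι' → ℕ → ℝ} (hF : ∀ i b, 0 ≤ F i b) (hG : ∀ j b, 0 ≤ G j b)
    (hF1 : ∀ i b, F i b ≤ 1) (l : ℝ) (hl : 0 < l) :
    ∑ i ∈ Z, ∑ j ∈ Z', frm M (fun b c => if P i j b c then
        k i j (upp y b) (upp y c) * bst S (low y M) (low y b) (low y c) *
          min (F i b) (G j c) else 0) ≤
      4 * C * (1 / l * (1 / B * ∑ i ∈ Z, mu (upp y M) (m i)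
          (fun z => Ex (low y M) (fun u => F i (u * z)))) +
        l * D * (1 / A * ∑ j ∈ Z', mu (upp y M) (m' j)
          (fun z => Ex (low y M) (fun u => G j (u * z))))) := by
  have hB0 : 0 < B := by linarith
  have hA0 : 0 < A := by linarith
  have h1 : ∑ i ∈ Z, ∑ j ∈ Z', frm M (fun b c => if P i j b c then
        k i j (upp y b) (upp y c) * bst S (low y M) (low y b) (low y c) *
          min (F i b) (G j c) else 0) ≤
      ∑ i ∈ Z, ∑ j ∈ Z', frm (upp y M) (fun z z' => k i j z z' *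
        min (1 / B * Ex (low y M) (fun u => F i (u * z)))
          (1 / A * Ex (low y M) (fun u => G j (u * z')))) :=
    Finset.sum_le_sum fun i hi => Finset.sum_le_sum fun j hj =>
      row_class hM y S (hk i j) hA hB (P i j) (w i j) (hw i hi j hj) (hF i) (hG j)
  refine h1.trans ?_
  have hV1 : ∀ i z, Ex (low y M) (fun u => F i (u * z)) ≤ 1 := fun i z =>
    (Ex_mono _ fun b _ => hF1 i (b * z)).trans (le_of_eq (Ex_const (low_pos y M) 1))
  have hlay := gb_layer (upp_pos y M) hk hC hD hm hm' hE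
    (P := fun i z => 1 / B * Ex (low y M) (fun u => F i (u * z)))
    (Q := fun j z => 1 / A * Ex (low y M) (fun u => G j (u * z)))
    (fun i b => mul_nonneg (by positivity) (Ex_nonneg _ fun _ => hF _ _))
    (fun j b => mul_nonneg (by positivity) (Ex_nonneg _ fun _ => hG _ _))
    (fun i b => by
      have h1 : 1 / B ≤ 1 := by rw [div_le_one hB0]; exact hB
      calc 1 / B * Ex (low y M) (fun u => F i (u * b)) ≤ 1 * 1 :=
            mul_le_mul h1 (hV1 i b) (Ex_nonneg _ fun _ => hF _ _) zero_le_one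
        _ = 1 := one_mul 1) l hl
  refine hlay.trans (le_of_eq ?_)
  simp only [mu_mul, ← Finset.mul_sum]

open Classical in
/-- **the vector class over a graph of zones**: densities `ν X_i`, `ν X'_j`, weights `W i b`,
`W' j c ∈ [0,1]`, budgets `T` -/
theorem graph_total {M : ℕ} (hM : 0 < M) (y : ℕ) (S : Finset ℕ) {Z : Finset ι} {Z' : Finset ι'}
    {k : ι → ι' → ℕ → ℕ → ℝ} (hk : ∀ i j z z', 0 ≤ k i j z z') {C D : ℝ} (hC : 0 ≤ C)
    (hD : 0 ≤ D) {X : ι → ℕ → ℝ} {X' : ι' → ℕ → ℝ} (hX : ∀ i z, 0 ≤ X i z)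
    (hX' : ∀ j z, 0 ≤ X' j z)
    (hE : GBd (upp y M) Z Z' k C D (fun i z => nu (upp y M) z * X i z)
      (fun j z => nu (upp y M) z * X' j z))
    {A B : ℝ} (hA : 1 ≤ A) (hB : 1 ≤ B) (P : ι → ι' → ℕ → ℕ → Prop)
    (w : ι → ι' → ℕ → ℕ → ℕ × ℕ)
    (hw : ∀ i ∈ Z, ∀ j ∈ Z', ∀ b c, b ∣ M → c ∣ M → P i j b c →
      wd (low y b) (low y c) = w i j (upp y b) (upp y c) ∧
      A ≤ (w i j (upp y b) (upp y c)).1 ∧ B ≤ (w i j (upp y b) (upp y c)).2)
    {W : ι → ℕ → ℝ} {W' : ι' → ℕ → ℝ} (hW0 : ∀ i b, 0 ≤ W i b) (hW1 : ∀ i b, W i b ≤ 1)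
    (hW0' : ∀ j b, 0 ≤ W' j b)
    {f g : ℕ → ℝ} (hf0 : ∀ b, 0 ≤ f b) (hg0 : ∀ b, 0 ≤ g b) (hf1 : ∀ b, f b ≤ 1)
    {T : ℝ} (hT0 : 0 ≤ T)
    (hT : ∀ b, b ∣ M → ∑ i ∈ Z, X i (upp y b) * W i b ≤ T)
    (hT' : ∀ b, b ∣ M → ∑ j ∈ Z', X' j (upp y b) * W' j b ≤ T) :
    ∑ i ∈ Z, ∑ j ∈ Z', frm M (fun b c => if P i j b c then
        k i j (upp y b) (upp y c) * bst S (low y M) (low y b) (low y c) *
          min (W i b * f b) (W' j c * g c) else 0) ≤
      8 * C * T * √D / √(A * B) * (√(Ex M f) * √(Ex M g)) := by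
  have hA0 : 0 < A := by linarith
  have hB0 : 0 < B := by linarith
  have hEf : 0 ≤ Ex M f := Ex_nonneg _ hf0
  have hEg : 0 ≤ Ex M g := Ex_nonneg _ hg0
  have key : ∀ l : ℝ, 0 < l → ∑ i ∈ Z, ∑ j ∈ Z', frm M (fun b c => if P i j b c then
        k i j (upp y b) (upp y c) * bst S (low y M) (low y b) (low y c) *
          min (W i b * f b) (W' j c * g c) else 0) ≤
      (4 * C) * (1 / l * (1 / B * (T * Ex M f)) + l * (D * (1 / A * (T * Ex M g)))) := by
    intro l hl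
    have h := gb_class hM y S hk hC hD
      (m := fun i z => nu (upp y M) z * X i z) (m' := fun j z => nu (upp y M) z * X' j z)
      (fun i z => mul_nonneg (nu_nonneg _ _) (hX i z))
      (fun j z => mul_nonneg (nu_nonneg _ _) (hX' j z)) hE hA hB P w hw
      (F := fun i b => W i b * f b) (G := fun j b => W' j b * g b)
      (fun i b => mul_nonneg (hW0 _ _) (hf0 _)) (fun j b => mul_nonneg (hW0' _ _) (hg0 _))
      (fun i b => mul_le_one₀ (hW1 _ _) (hf0 _) (hf1 _)) l hl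
    refine h.trans ?_
    rw [mul_assoc l D]
    refine mul_le_mul_of_nonneg_left (add_le_add ?_ ?_) (by positivity)
    · refine mul_le_mul_of_nonneg_left ?_ (by positivity)
      exact mul_le_mul_of_nonneg_left (budget_sum hM y Z X W f hf0 hT) (by positivity)
    · refine mul_le_mul_of_nonneg_left ?_ hl.le
      refine mul_le_mul_of_nonneg_left ?_ hD
      exact mul_le_mul_of_nonneg_left (budget_sum hM y Z' X' W' g hg0 hT') (by positivity)
  have h2 := le_two_sqrt_of_lam (by positivity : (0:ℝ) ≤ 4 * C)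
    (by positivity : (0:ℝ) ≤ 1 / B * (T * Ex M f))
    (by positivity : (0:ℝ) ≤ D * (1 / A * (T * Ex M g))) key
  refine h2.trans (le_of_eq ?_)
  have e1 : 1 / B * (T * Ex M f) * (D * (1 / A * (T * Ex M g))) =
      (T * T) * (D * (Ex M f * Ex M g)) / (A * B) := by
    field_simp
  rw [e1, Real.sqrt_div (by positivity), Real.sqrt_mul (by positivity),
    Real.sqrt_mul_self hT0, Real.sqrt_mul hD, Real.sqrt_mul hEf]
  ring

end Crest.Agent.R4C.GWrelHx482
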