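import Crest.Agent.R4C.GWzone_9

/-!
# LEMMA V: bilinear antichain lemma for a GRAPH of nodes (helper8, note 3941; relation on nodes: 972)

The vector (Dom word) case of the GW section: the changer `w` sits in the node `(z, n)`, its partner
`w'` in ANOTHER node `(z', n')` over the same prefix (`R z n z' n'`).

Data `GN`: zones `Zs`, nodes `Nd z`, words `S z n` (laminar in `n`), changers `A z n`, mass `g n > 0` of
the prefix (equal for related nodes), relation `R`, losses `y`, `y'` (> 0) of changers / partners.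
Hypotheses `GN.Ok f f' C1 Δ` (`f`, `f' ≥ 0` zone dependent weights):
`deg` : `#{(z', n') : R z n z' n'} ≤ Δ`;
`H0`  : `f'{w ∈ S z' n' : y' ≤ t} ≤ C1 t g n'`;
`H1`  : `∑_{(z', n') ~ (z, n)} f'{w ∈ S z' n' : y' ≤ t} ≤ C1 t g n`;
`H2`  : for a node `m` of the partner zone `z'`:
        `∑_{n' ∈ Nd z' below m} ∑_{(z, n) ~ (z', n')} f{w ∈ A z n : y ≤ t} ≤ C1 t g m`.

Conclusion (`node_charge`), for every `ρ > 0`, `C1 Δ ≤ 2^k`:
`∑_{(z,n)} ∑_{w ∈ A z n} ∑_{(z',n') ~ (z,n)} ∑_{w' ∈ S z' n'} f f' / g n ≤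
   (2 C1 + 4) ρ E(f) + 2 C1 (k+4) ρ⁻¹ E(f')`.
`node_W`    : the same with word dependent weights `min (W z w) (W' z' w')`.
`node_sqrt` : optimised in `ρ`.
`H2_of_mult`: `H2` from a set bound and a multiplicity bound.
-/

set_option autoImplicit false
set_option linter.unusedSectionVars false

open Finset MeasureTheory Crest.Agent.R4C.GWzonex9

noncomputable section

namespace Crest.Agent.R4C.GWrelx8

/-! ### dyadic classes -/

/-- dyadic class: `Y (1/2)^(cl+1) < y ≤ Y (1/2)^cl` -/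
def cl (Y y : ℝ) : ℕ := ⌊Real.logb 2 (Y / y)⌋₊

lemma cl_spec {Y y : ℝ} (hy : 0 < y) (h : y ≤ Y) :
    Y * (1 / 2) ^ (cl Y y + 1) < y ∧ y ≤ Y * (1 / 2) ^ (cl Y y) := by
  have hY : 0 < Y := lt_of_lt_of_le hy h
  have h1 : 1 ≤ Y / y := by rwa [le_div_iff₀ hy, one_mul]
  have h0 : 0 < Y / y := by linarith
  have hl : 0 ≤ Real.logb 2 (Y / y) := Real.logb_nonneg (by norm_num) h1
  have a1 : ((cl Y y : ℕ) : ℝ) ≤ Real.logb 2 (Y / y) := Nat.floor_le hl
  have a2 : Real.logb 2 (Y / y) < (cl Y y : ℕ) + 1 := Nat.lt_floor_add_one _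
  have b1 : (2 : ℝ) ^ (cl Y y) ≤ Y / y := by
    rw [← Real.rpow_natCast]
    exact (Real.le_logb_iff_rpow_le (by norm_num) h0).1 a1
  have b2 : Y / y < (2 : ℝ) ^ (cl Y y + 1) := by
    rw [← Real.rpow_natCast]
    push_cast
    exact (Real.logb_lt_iff_lt_rpow (by norm_num) h0).1 a2
  constructor
  · rw [one_div, inv_pow, ← div_eq_mul_inv, div_lt_iff₀ (by positivity)]
    rw [div_lt_iff₀ hy] at b2
    linarith
  · rw [one_div, inv_pow, ← div_eq_mul_inv, le_div_iff₀ (by positivity)]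
    rw [le_div_iff₀ hy] at b1
    linarith

lemma sum_geom_lt (J : Finset ℕ) {c : ℝ} (hc : 0 < c) :
    ∑ i ∈ J.filter (fun i => (2 : ℝ) ^ i < c), (2 : ℝ) ^ i ≤ 2 * c := by
  rcases (J.filter (fun i => (2 : ℝ) ^ i < c)).eq_empty_or_nonempty with h | h
  · rw [h, sum_empty]; linarith
  · set n := (J.filter (fun i => (2 : ℝ) ^ i < c)).max' h with hn
    have hmem : n ∈ J.filter (fun i => (2 : ℝ) ^ i < c) := max'_mem _ h
    have h2 : (2 : ℝ) ^ n < c := (mem_filter.1 hmem).2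
    have hsub : J.filter (fun i => (2 : ℝ) ^ i < c) ⊆ range (n + 1) := by
      intro i hi
      have := le_max' _ i hi
      rw [mem_range]
      omega
    calc ∑ i ∈ J.filter (fun i => (2 : ℝ) ^ i < c), (2 : ℝ) ^ i
        ≤ ∑ i ∈ range (n + 1), (2 : ℝ) ^ i :=
          sum_le_sum_of_subset_of_nonneg hsub fun i _ _ => by positivity
      _ = 2 ^ (n + 1) - 1 := by
          rw [geom_sum_eq (by norm_num)]; norm_num
      _ ≤ 2 * c := by rw [pow_succ]; linarith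

lemma sqrt_half_le : Real.sqrt (1 / 2) ≤ 3 / 4 := by
  rw [Real.sqrt_le_left (by norm_num)]
  norm_num

lemma sum_sqrt (J : Finset ℕ) {K : ℝ} {n : ℕ} (h : K ≤ 2 ^ n) :
    ∑ b ∈ J, min 1 (Real.sqrt (K * (1 / 2) ^ b)) ≤ n + 4 := by
  classical
  rw [← sum_filter_add_sum_filter_not J (fun b => b < n)]
  have h1 : ∑ b ∈ J.filter (fun b => b < n), min 1 (Real.sqrt (K * (1 / 2) ^ b)) ≤ n := by
    calc ∑ b ∈ J.filter (fun b => b < n), min 1 (Real.sqrt (K * (1 / 2) ^ b))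
        ≤ ∑ b ∈ J.filter (fun b => b < n), (1 : ℝ) := sum_le_sum fun b _ => min_le_left _ _
      _ = ((J.filter (fun b => b < n)).card : ℝ) := by rw [sum_const, nsmul_eq_mul, mul_one]
      _ ≤ ((range n).card : ℝ) := by
          have : J.filter (fun b => b < n) ⊆ range n := fun b hb =>
            mem_range.2 (mem_filter.1 hb).2
          exact_mod_cast card_le_card this
      _ = n := by rw [card_range]
  set r := Real.sqrt (1 / 2) with hr
  have hr0 : 0 ≤ r := Real.sqrt_nonneg _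
  have hr1 : r ≤ 3 / 4 := sqrt_half_le
  have h2 : ∑ b ∈ J.filter (fun b => ¬ b < n), min 1 (Real.sqrt (K * (1 / 2) ^ b)) ≤ 4 := by
    have e1 : ∀ b ∈ J.filter (fun b => ¬ b < n), min 1 (Real.sqrt (K * (1 / 2) ^ b)) ≤
        r ^ (b - n) := by
      intro b hb
      have hb' : n ≤ b := not_lt.1 (mem_filter.1 hb).2
      refine (min_le_right _ _).trans ?_
      have e2 : K * (1 / 2) ^ b ≤ (1 / 2 : ℝ) ^ (b - n) := by
        have e3 : (1 / 2 : ℝ) ^ b = (1 / 2) ^ (b - n) * (1 / 2) ^ n := by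
          rw [← pow_add]; congr 1; omega
        have e4 : K * (1 / 2 : ℝ) ^ n ≤ 1 := by
          calc K * (1 / 2 : ℝ) ^ n ≤ 2 ^ n * (1 / 2) ^ n :=
                mul_le_mul_of_nonneg_right h (by positivity)
            _ = 1 := by rw [← mul_pow]; norm_num
        calc K * (1 / 2) ^ b = (K * (1 / 2) ^ n) * (1 / 2) ^ (b - n) := by rw [e3]; ring
          _ ≤ 1 * (1 / 2) ^ (b - n) := mul_le_mul_of_nonneg_right e4 (by positivity)
          _ = _ := one_mul _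
      calc Real.sqrt (K * (1 / 2) ^ b) ≤ Real.sqrt ((1 / 2 : ℝ) ^ (b - n)) :=
            Real.sqrt_le_sqrt e2
        _ = r ^ (b - n) := by rw [hr, Real.sqrt_eq_rpow, Real.sqrt_eq_rpow,
            ← Real.rpow_natCast, ← Real.rpow_natCast, ← Real.rpow_mul (by norm_num),
            ← Real.rpow_mul (by norm_num), mul_comm]
    refine (sum_le_sum e1).trans ?_
    have hinj : Set.InjOn (fun b => b - n) (J.filter (fun b => ¬ b < n) : Set ℕ) := by
      intro a ha b hb hab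
      have h1 := (mem_filter.1 (mem_coe.1 ha)).2
      have h2 := (mem_filter.1 (mem_coe.1 hb)).2
      simp only at hab
      omega
    have e5 : ∑ b ∈ J.filter (fun b => ¬ b < n), r ^ (b - n) =
        ∑ j ∈ (J.filter (fun b => ¬ b < n)).image (fun b => b - n), r ^ j := by
      rw [sum_image hinj]
    rw [e5]
    calc ∑ j ∈ (J.filter (fun b => ¬ b < n)).image (fun b => b - n), r ^ j ≤ ∑' j : ℕ, r ^ j :=
          (summable_geometric_of_lt_one hr0 (by linarith)).sum_le_tsum _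
            (fun j _ => pow_nonneg hr0 j)
      _ = (1 - r)⁻¹ := tsum_geometric_of_lt_one hr0 (by linarith)
      _ ≤ 4 := by
          rw [inv_le_comm₀ (by linarith) (by norm_num)]
          linarith
  linarith


lemma sum_biUnion_le' {ι Ω : Type*} [DecidableEq Ω] (s : Finset ι) (t : ι → Finset Ω)
    (F : Ω → ℝ) (hF : ∀ w, 0 ≤ F w) :
    ∑ w ∈ s.biUnion t, F w ≤ ∑ i ∈ s, ∑ w ∈ t i, F w := by
  classical
  induction s using Finset.induction_on with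
  | empty => simp
  | insert a s ha ih =>
    rw [biUnion_insert, sum_insert ha]
    have h1 : ∑ w ∈ t a ∪ s.biUnion t, F w ≤ ∑ w ∈ t a, F w + ∑ w ∈ s.biUnion t, F w := by
      have := sum_union_inter (s₁ := t a) (s₂ := s.biUnion t) (f := F)
      have h2 : 0 ≤ ∑ w ∈ t a ∩ s.biUnion t, F w := sum_nonneg fun w _ => hF w
      linarith
    linarith

/-! ### one changer -/

/-- threshold for the changer against the class `i` of the partners of density `d` -/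
def TT (Y ρ Δ : ℝ) (i : ℕ) (d : ℝ) : ℝ :=
  Y * (1 / 2) ^ i / (2 * ρ) * min 1 (Real.sqrt (Δ * d / (Y * (1 / 2) ^ i)))

lemma TT_mono {Y ρ Δ : ℝ} (hY : 0 < Y) (hρ : 0 < ρ) (hΔ : 0 ≤ Δ) (i : ℕ) {d d' : ℝ}
    (h : d ≤ d') : TT Y ρ Δ i d ≤ TT Y ρ Δ i d' := by
  unfold TT
  refine mul_le_mul_of_nonneg_left ?_ (by positivity)
  refine min_le_min le_rfl (Real.sqrt_le_sqrt ?_)
  exact div_le_div_of_nonneg_right (mul_le_mul_of_nonneg_left h hΔ) (by positivity)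

lemma TT_pos {Y ρ Δ : ℝ} (hY : 0 < Y) (hρ : 0 < ρ) (hΔ : 0 < Δ) (i : ℕ) {d : ℝ}
    (h : 0 < d) : 0 < TT Y ρ Δ i d := by
  unfold TT
  refine mul_pos (by positivity) (lt_min one_pos (Real.sqrt_pos.2 (by positivity)))

lemma lt_TT {Y ρ Δ y d : ℝ} (hY : 0 < Y) (hρ : 0 < ρ) (hy : 0 < y) {i : ℕ}
    (h1 : 2 * ρ * y < Y * (1 / 2) ^ i) (h2 : (2 * ρ * y) ^ 2 < Δ * d * (Y * (1 / 2) ^ i)) :
    y < TT Y ρ Δ i d := by
  unfold TT
  set τ : ℝ := Y * (1 / 2) ^ i with hτ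
  have hτ0 : 0 < τ := by positivity
  have e1 : y = (2 * ρ * y) / (2 * ρ) := by field_simp
  have e2 : τ / (2 * ρ) * min 1 (Real.sqrt (Δ * d / τ)) =
      (τ * min 1 (Real.sqrt (Δ * d / τ))) / (2 * ρ) := by ring
  rw [e2, e1]
  refine div_lt_div_of_pos_right ?_ (by positivity)
  rw [mul_min_of_nonneg _ _ hτ0.le, mul_one]
  refine lt_min h1 ?_
  have e4 : τ * Real.sqrt (Δ * d / τ) = Real.sqrt (Δ * d * τ) := by
    have : Δ * d * τ = τ ^ 2 * (Δ * d / τ) := by field_simp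
    rw [this, Real.sqrt_mul (by positivity), Real.sqrt_sq hτ0.le]
  rw [e4]
  exact Real.lt_sqrt_of_sq_lt h2

lemma node_split {Z : Type*} (Rl : Finset Z) (J : Finset ℕ) (D : Z → ℕ → ℝ)
    (hD : ∀ z i, 0 ≤ D z i) {Y y ρ C1 Δ : ℝ} (hY : 0 < Y) (hy : 0 < y) (hρ : 0 < ρ)
    (hΔ : (Rl.card : ℝ) ≤ Δ) (hΔ1 : 1 ≤ Δ)
    (ha : ∑ z ∈ Rl, ∑ i ∈ J.filter (fun i => Y * (1 / 2) ^ i ≤ 2 * ρ * y), D z i ≤
      2 * C1 * ρ * y) :
    ∑ z ∈ Rl, ∑ i ∈ J, D z i ≤ (2 * C1 + 4) * ρ * y +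
      ∑ z ∈ Rl, ∑ i ∈ J, if y < TT Y ρ Δ i (D z i) then D z i else 0 := by
  classical
  have hΔ0 : 0 < Δ := by linarith
  have hp : 0 < 2 * ρ * y := by positivity
  have key : ∀ z i, D z i ≤ (if Y * (1 / 2) ^ i ≤ 2 * ρ * y then D z i else 0) +
      (if 2 * ρ * y < Y * (1 / 2) ^ i then (2 * ρ * y) ^ 2 / (Δ * (Y * (1 / 2) ^ i)) else 0) +
      (if y < TT Y ρ Δ i (D z i) then D z i else 0) := by
    intro z i
    have hτ0 : 0 < Y * (1 / 2 : ℝ) ^ i := by positivity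
    have n3 : 0 ≤ (if y < TT Y ρ Δ i (D z i) then D z i else 0) := by
      split_ifs
      · exact hD z i
      · exact le_rfl
    have n2 : 0 ≤ (if 2 * ρ * y < Y * (1 / 2) ^ i then
        (2 * ρ * y) ^ 2 / (Δ * (Y * (1 / 2) ^ i)) else 0) := by
      split_ifs
      · positivity
      · exact le_rfl
    by_cases h1 : Y * (1 / 2) ^ i ≤ 2 * ρ * y
    · rw [if_pos h1]; linarith
    · have h1' := not_le.1 h1
      rw [if_neg h1, if_pos h1', zero_add]
      by_cases h2 : (2 * ρ * y) ^ 2 < Δ * D z i * (Y * (1 / 2) ^ i)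
      · rw [if_pos (lt_TT hY hρ hy h1' h2)]
        have : 0 ≤ (2 * ρ * y) ^ 2 / (Δ * (Y * (1 / 2) ^ i)) := by positivity
        linarith
      · have h2' := not_lt.1 h2
        have h3 : D z i ≤ (2 * ρ * y) ^ 2 / (Δ * (Y * (1 / 2) ^ i)) := by
          rw [le_div_iff₀ (by positivity)]
          linarith
        linarith
  have hsum : ∑ z ∈ Rl, ∑ i ∈ J, D z i ≤
      ∑ z ∈ Rl, ∑ i ∈ J, (if Y * (1 / 2) ^ i ≤ 2 * ρ * y then D z i else 0) +
      ∑ z ∈ Rl, ∑ i ∈ J, (if 2 * ρ * y < Y * (1 / 2) ^ i then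
        (2 * ρ * y) ^ 2 / (Δ * (Y * (1 / 2) ^ i)) else 0) +
      ∑ z ∈ Rl, ∑ i ∈ J, (if y < TT Y ρ Δ i (D z i) then D z i else 0) := by
    rw [← sum_add_distrib, ← sum_add_distrib]
    refine sum_le_sum fun z _ => ?_
    rw [← sum_add_distrib, ← sum_add_distrib]
    exact sum_le_sum fun i _ => key z i
  have e1 : ∑ z ∈ Rl, ∑ i ∈ J, (if Y * (1 / 2) ^ i ≤ 2 * ρ * y then D z i else 0) ≤
      2 * C1 * ρ * y := by
    refine le_trans (le_of_eq ?_) ha
    refine sum_congr rfl fun z _ => ?_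
    rw [sum_filter]
  have e2 : ∑ i ∈ J, (if 2 * ρ * y < Y * (1 / 2) ^ i then
      (2 * ρ * y) ^ 2 / (Δ * (Y * (1 / 2) ^ i)) else 0) ≤ 4 * ρ * y / Δ := by
    have e3 : ∀ i ∈ J, (if 2 * ρ * y < Y * (1 / 2) ^ i then
        (2 * ρ * y) ^ 2 / (Δ * (Y * (1 / 2) ^ i)) else 0) =
        (2 * ρ * y) ^ 2 / (Δ * Y) * (if (2 : ℝ) ^ i < Y / (2 * ρ * y) then (2 : ℝ) ^ i else 0) := by
      intro i _
      have h2i : (1 / 2 : ℝ) ^ i = 1 / 2 ^ i := by rw [one_div, inv_pow, one_div]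
      have hiff : 2 * ρ * y < Y * (1 / 2) ^ i ↔ (2 : ℝ) ^ i < Y / (2 * ρ * y) := by
        rw [h2i, mul_one_div, lt_div_iff₀ (by positivity), lt_div_iff₀ hp, mul_comm]
      by_cases h : (2 : ℝ) ^ i < Y / (2 * ρ * y)
      · rw [if_pos h, if_pos (hiff.2 h), h2i]
        field_simp
      · rw [if_neg h, if_neg (fun h' => h (hiff.1 h')), mul_zero]
    rw [sum_congr rfl e3, ← mul_sum, ← sum_filter]
    have h4 := sum_geom_lt J (c := Y / (2 * ρ * y)) (by positivity)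
    calc (2 * ρ * y) ^ 2 / (Δ * Y) * ∑ i ∈ J.filter (fun i => (2 : ℝ) ^ i < Y / (2 * ρ * y)),
        (2 : ℝ) ^ i ≤ (2 * ρ * y) ^ 2 / (Δ * Y) * (2 * (Y / (2 * ρ * y))) :=
          mul_le_mul_of_nonneg_left h4 (by positivity)
      _ = 4 * ρ * y / Δ := by field_simp; ring
  have e5 : ∑ z ∈ Rl, ∑ i ∈ J, (if 2 * ρ * y < Y * (1 / 2) ^ i then
      (2 * ρ * y) ^ 2 / (Δ * (Y * (1 / 2) ^ i)) else 0) ≤ 4 * ρ * y := by
    rw [sum_const, nsmul_eq_mul]
    have h0 : 0 ≤ ∑ i ∈ J, (if 2 * ρ * y < Y * (1 / 2) ^ i then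
      (2 * ρ * y) ^ 2 / (Δ * (Y * (1 / 2) ^ i)) else 0) := by
      refine sum_nonneg fun i _ => ?_
      split_ifs
      · positivity
      · exact le_rfl
    calc (Rl.card : ℝ) * _ ≤ Δ * (4 * ρ * y / Δ) :=
          mul_le_mul hΔ e2 h0 hΔ0.le
      _ = 4 * ρ * y := by field_simp
  have e6 : (2 * C1 + 4) * ρ * y = 2 * C1 * ρ * y + 4 * ρ * y := by ring
  rw [e6]
  linarith


/-! ### one partner zone, one class -/

/-- sum over the nodes of a partner zone, by the dyadic classes of its density -/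
lemma level_sum {Ω E : Type*} [DecidableEq Ω] [DecidableEq E] {Nd : Finset E}
    {S : E → Finset Ω} {rk : E → ℕ} (hL : Lam Nd S rk) (F : Ω → ℝ) (hF : ∀ w, 0 ≤ F w)
    (g : E → ℝ) (hg : ∀ e ∈ Nd, 0 < g e) (a : E → ℝ → ℝ) (ha0 : ∀ e t, 0 ≤ a e t)
    (ham : ∀ e t t', t ≤ t' → a e t ≤ a e t') {Y ρ C1 Δ : ℝ} {n i : ℕ} (hY : 0 < Y)
    (hρ : 0 < ρ) (hC : 0 < C1) (hΔ : 0 < Δ) (hn : C1 * Δ ≤ 2 ^ n)
    (hDm : ∀ e ∈ Nd, (∑ w ∈ S e, F w) / g e ≤ C1 * (Y * (1 / 2) ^ i))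
    (hkey : ∀ θ t : ℝ, 0 < θ → 0 < t →
      ∑ e ∈ Nd.filter (fun e => θ < (∑ w ∈ S e, F w) / g e), a e t ≤
        ∑ e ∈ First Nd S rk (fun e => θ < (∑ w ∈ S e, F w) / g e), C1 * t * g e) :
    ∑ e ∈ Nd, (∑ w ∈ S e, F w) / g e * a e (TT Y ρ Δ i ((∑ w ∈ S e, F w) / g e)) ≤
      C1 * (n + 4) * (Y * (1 / 2) ^ i) / ρ * ∑ w ∈ Nd.biUnion S, F w := by
  classical
  set τ : ℝ := Y * (1 / 2) ^ i with hτ
  have hτ0 : 0 < τ := by positivity
  set Dm : ℝ := C1 * τ with hDmd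
  have hDm0 : 0 < Dm := by positivity
  set D : E → ℝ := fun e => (∑ w ∈ S e, F w) / g e with hDdef
  have hD0 : ∀ e ∈ Nd, 0 ≤ D e := fun e he =>
    div_nonneg (sum_nonneg fun w _ => hF w) (hg e he).le
  -- classes
  set Np := Nd.filter (fun e => 0 < D e) with hNp
  set J := Np.image (fun e => cl Dm (D e)) with hJ
  have h1 : ∑ e ∈ Nd, D e * a e (TT Y ρ Δ i (D e)) = ∑ e ∈ Np, D e * a e (TT Y ρ Δ i (D e)) := by
    rw [hNp, sum_filter]
    refine sum_congr rfl fun e he => ?_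
    by_cases h : 0 < D e
    · rw [if_pos h]
    · have : D e = 0 := le_antisymm (not_lt.1 h) (hD0 e he)
      rw [if_neg h, this, zero_mul]
  have h2 : ∑ e ∈ Np, D e * a e (TT Y ρ Δ i (D e)) =
      ∑ b ∈ J, ∑ e ∈ Np.filter (fun e => cl Dm (D e) = b), D e * a e (TT Y ρ Δ i (D e)) := by
    rw [hJ]
    exact (sum_fiberwise_of_maps_to (fun e he => mem_image_of_mem _ he) _).symm
  set M := ∑ w ∈ Nd.biUnion S, F w with hM
  have hM0 : 0 ≤ M := sum_nonneg fun w _ => hF w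
  have h3 : ∀ b ∈ J, ∑ e ∈ Np.filter (fun e => cl Dm (D e) = b), D e * a e (TT Y ρ Δ i (D e)) ≤
      2 * C1 * TT Y ρ Δ i (Dm * (1 / 2) ^ b) * M := by
    intro b _
    set Db : ℝ := Dm * (1 / 2) ^ b with hDb
    have hDb0 : 0 < Db := by positivity
    set Tb := TT Y ρ Δ i Db with hTb
    have hTb0 : 0 < Tb := TT_pos hY hρ hΔ i hDb0
    have h4 : ∑ e ∈ Np.filter (fun e => cl Dm (D e) = b), D e * a e (TT Y ρ Δ i (D e)) ≤
        ∑ e ∈ Nd.filter (fun e => Db / 2 < D e), Db * a e Tb := by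
      have hsub : Np.filter (fun e => cl Dm (D e) = b) ⊆ Nd.filter (fun e => Db / 2 < D e) := by
        intro e he
        rw [mem_filter, hNp, mem_filter] at he
        rw [mem_filter]
        refine ⟨he.1.1, ?_⟩
        have h5 := (cl_spec he.1.2 (hDm e he.1.1)).1
        rw [he.2] at h5
        have e6 : Db / 2 = C1 * τ * (1 / 2) ^ (b + 1) := by
          rw [hDb, hDmd, pow_succ]; ring
        rw [e6]; exact h5
      calc ∑ e ∈ Np.filter (fun e => cl Dm (D e) = b), D e * a e (TT Y ρ Δ i (D e))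
          ≤ ∑ e ∈ Np.filter (fun e => cl Dm (D e) = b), Db * a e Tb := by
            refine sum_le_sum fun e he => ?_
            rw [mem_filter, hNp, mem_filter] at he
            have h5 := (cl_spec he.1.2 (hDm e he.1.1)).2
            rw [he.2] at h5
            have h6 : D e ≤ Db := h5
            exact mul_le_mul h6 (ham e _ _ (TT_mono hY hρ hΔ.le i h6)) (ha0 _ _) hDb0.le
        _ ≤ ∑ e ∈ Nd.filter (fun e => Db / 2 < D e), Db * a e Tb :=
            sum_le_sum_of_subset_of_nonneg hsub fun e _ _ => mul_nonneg hDb0.le (ha0 _ _)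
    refine h4.trans ?_
    rw [← mul_sum]
    have h5 := hkey (Db / 2) Tb (by positivity) hTb0
    have h6 : ∑ e ∈ First Nd S rk (fun e => Db / 2 < D e), C1 * Tb * g e ≤
        C1 * Tb * (2 / Db) * M := by
      have h7 : ∀ e ∈ First Nd S rk (fun e => Db / 2 < D e), C1 * Tb * g e ≤
          C1 * Tb * (2 / Db) * ∑ w ∈ S e, F w := by
        intro e he
        unfold First at he
        rw [mem_filter] at he
        have hge := hg e he.1
        have h8 : Db / 2 < (∑ w ∈ S e, F w) / g e := he.2.1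
        rw [lt_div_iff₀ hge] at h8
        have h9 : g e ≤ 2 / Db * ∑ w ∈ S e, F w := by
          rw [div_mul_eq_mul_div, le_div_iff₀ hDb0]
          linarith
        calc C1 * Tb * g e ≤ C1 * Tb * (2 / Db * ∑ w ∈ S e, F w) :=
              mul_le_mul_of_nonneg_left h9 (by positivity)
          _ = _ := by ring
      refine (sum_le_sum h7).trans ?_
      rw [← mul_sum]
      refine mul_le_mul_of_nonneg_left ?_ (by positivity)
      have hpf : Set.PairwiseDisjoint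
          (↑(First Nd S rk (fun e => Db / 2 < D e)) : Set E) S := by
        intro e he e' he' hne
        exact first_disj hL _ e (by simpa using he) e' (by simpa using he') hne
      rw [← sum_biUnion hpf]
      refine sum_le_sum_of_subset_of_nonneg ?_ fun w _ _ => hF w
      intro w hw
      rw [mem_biUnion] at hw ⊢
      obtain ⟨e, he, hw⟩ := hw
      unfold First at he
      exact ⟨e, (mem_filter.1 he).1, hw⟩
    calc Db * ∑ e ∈ Nd.filter (fun e => Db / 2 < D e), a e Tb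
        ≤ Db * (C1 * Tb * (2 / Db) * M) := mul_le_mul_of_nonneg_left (h5.trans h6) hDb0.le
      _ = 2 * C1 * Tb * M := by field_simp
  rw [h1, h2]
  refine (sum_le_sum h3).trans ?_
  have h10 : ∀ b ∈ J, 2 * C1 * TT Y ρ Δ i (Dm * (1 / 2) ^ b) * M =
      C1 * τ / ρ * M * min 1 (Real.sqrt (C1 * Δ * (1 / 2) ^ b)) := by
    intro b _
    unfold TT
    rw [← hτ]
    have e1 : Δ * (Dm * (1 / 2) ^ b) / τ = C1 * Δ * (1 / 2) ^ b := by
      rw [hDmd]; field_simp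
    rw [e1]
    field_simp
  rw [sum_congr rfl h10, ← mul_sum]
  have h11 := sum_sqrt J (K := C1 * Δ) (n := n) hn
  calc C1 * τ / ρ * M * ∑ b ∈ J, min 1 (Real.sqrt (C1 * Δ * (1 / 2) ^ b))
      ≤ C1 * τ / ρ * M * (n + 4) := mul_le_mul_of_nonneg_left h11 (by positivity)
    _ = C1 * (n + 4) * τ / ρ * M := by ring


/-! ### the graph of nodes -/

/-- data: zones, nodes, words, changers, rank, prefix mass, relation, losses -/
structure GN (Z N Ω : Type*) where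
  /-- zones -/
  Zs : Finset Z
  /-- nodes of the zone -/
  Nd : Z → Finset N
  /-- words of the node -/
  S : Z → N → Finset Ω
  /-- changers of the node -/
  A : Z → N → Finset Ω
  /-- level -/
  rk : N → ℕ
  /-- mass of the prefix -/
  g : N → ℝ
  /-- linked nodes (changer, partner) -/
  R : Z → N → Z → N → Prop
  /-- loss of a changer -/
  y : Z → Ω → ℝ
  /-- loss of a partner -/
  y' : Z → Ω → ℝ

variable {Z N Ω : Type*} [DecidableEq Z] [DecidableEq N] [DecidableEq Ω]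

open Classical in
/-- nodes of `z'` linked with `(z, n)` -/
def GN.Out (G : GN Z N Ω) (z : Z) (n : N) (z' : Z) : Finset N :=
  (G.Nd z').filter (fun n' => G.R z n z' n')

open Classical in
/-- nodes of `z` linked with `(z', n')` -/
def GN.In (G : GN Z N Ω) (z' : Z) (n' : N) (z : Z) : Finset N :=
  (G.Nd z).filter (fun n => G.R z n z' n')

open Classical in
/-- nonempty nodes of `z'` below `m` -/
def GN.Bl (G : GN Z N Ω) (z' : Z) (m : N) : Finset N :=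
  (G.Nd z').filter (fun n' => G.rk m ≤ G.rk n' ∧ G.S z' n' ⊆ G.S z' m ∧ (G.S z' n').Nonempty)

/-- hypotheses -/
structure GN.Ok (G : GN Z N Ω) (f f' : Z → Ω → ℝ) (C1 Δ : ℝ) : Prop where
  C0 : 0 < C1
  Δ1 : 1 ≤ Δ
  lam : ∀ z ∈ G.Zs, Lam (G.Nd z) (G.S z) G.rk
  g0 : ∀ z ∈ G.Zs, ∀ n ∈ G.Nd z, 0 < G.g n
  gR : ∀ z ∈ G.Zs, ∀ n ∈ G.Nd z, ∀ z' ∈ G.Zs, ∀ n' ∈ G.Nd z', G.R z n z' n' → G.g n = G.g n'
  f0 : ∀ z w, 0 ≤ f z w
  f0' : ∀ z w, 0 ≤ f' z w
  y0 : ∀ z w, 0 < G.y z w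
  y0' : ∀ z w, 0 < G.y' z w
  deg : ∀ z ∈ G.Zs, ∀ n ∈ G.Nd z, ∑ z' ∈ G.Zs, ((G.Out z n z').card : ℝ) ≤ Δ
  H0 : ∀ z' ∈ G.Zs, ∀ n' ∈ G.Nd z', ∀ t : ℝ, 0 < t →
    ∑ w ∈ (G.S z' n').filter (fun w => G.y' z' w ≤ t), f' z' w ≤ C1 * t * G.g n'
  H1 : ∀ z ∈ G.Zs, ∀ n ∈ G.Nd z, ∀ t : ℝ, 0 < t →
    ∑ z' ∈ G.Zs, ∑ n' ∈ G.Out z n z', ∑ w ∈ (G.S z' n').filter (fun w => G.y' z' w ≤ t),
      f' z' w ≤ C1 * t * G.g n
  H2 : ∀ z' ∈ G.Zs, ∀ m ∈ G.Nd z', ∀ t : ℝ, 0 < t →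
    ∑ n' ∈ G.Bl z' m, ∑ z ∈ G.Zs, ∑ n ∈ G.In z' n' z,
      ∑ w ∈ (G.A z n).filter (fun w => G.y z w ≤ t), f z w ≤ C1 * t * G.g m

lemma GN.swap (G : GN Z N Ω) (X : Z → N → Z → N → ℝ) :
    ∑ z ∈ G.Zs, ∑ n ∈ G.Nd z, ∑ z' ∈ G.Zs, ∑ n' ∈ G.Out z n z', X z n z' n' =
      ∑ z' ∈ G.Zs, ∑ n' ∈ G.Nd z', ∑ z ∈ G.Zs, ∑ n ∈ G.In z' n' z, X z n z' n' := by
  classical
  have h1 : ∀ z ∈ G.Zs, ∑ n ∈ G.Nd z, ∑ z' ∈ G.Zs, ∑ n' ∈ G.Out z n z', X z n z' n' =
      ∑ z' ∈ G.Zs, ∑ n ∈ G.Nd z, ∑ n' ∈ G.Out z n z', X z n z' n' := fun z _ => sum_comm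
  have h2 : ∀ z' ∈ G.Zs, ∑ n' ∈ G.Nd z', ∑ z ∈ G.Zs, ∑ n ∈ G.In z' n' z, X z n z' n' =
      ∑ z ∈ G.Zs, ∑ n' ∈ G.Nd z', ∑ n ∈ G.In z' n' z, X z n z' n' := fun z _ => sum_comm
  rw [sum_congr rfl h1, sum_congr rfl h2, sum_comm]
  refine sum_congr rfl fun z' _ => sum_congr rfl fun z _ => ?_
  refine sum_comm' fun n n' => ?_
  simp only [GN.Out, GN.In, mem_filter]
  tauto

/-- **LEMMA V** -/
theorem node_charge (G : GN Z N Ω) (f f' : Z → Ω → ℝ) {C1 Δ ρ : ℝ} (hG : G.Ok f f' C1 Δ)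
    (hρ : 0 < ρ) {k : ℕ} (hk : C1 * Δ ≤ 2 ^ k) :
    ∑ z ∈ G.Zs, ∑ n ∈ G.Nd z, ∑ w ∈ G.A z n, ∑ z' ∈ G.Zs, ∑ n' ∈ G.Out z n z',
      ∑ w' ∈ G.S z' n', f z w * f' z' w' / G.g n ≤
    (2 * C1 + 4) * ρ * ∑ z ∈ G.Zs, ∑ n ∈ G.Nd z, ∑ w ∈ G.A z n, f z w * G.y z w +
    2 * C1 * (k + 4) / ρ * ∑ z' ∈ G.Zs, ∑ w' ∈ (G.Nd z').biUnion (G.S z'),
      f' z' w' * G.y' z' w' := by
  classical
  have hC := hG.C0
  have hΔ1 := hG.Δ1
  have hΔ0 : 0 < Δ := by linarith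
  -- upper bound for the losses
  obtain ⟨Y, hY0, hY⟩ : ∃ Y : ℝ, 0 < Y ∧ ∀ z ∈ G.Zs, ∀ n ∈ G.Nd z, ∀ w ∈ G.S z n,
      G.y' z w ≤ Y := by
    refine ⟨1 + ∑ z ∈ G.Zs, ∑ n ∈ G.Nd z, ∑ w ∈ G.S z n, G.y' z w, ?_, ?_⟩
    · have : 0 ≤ ∑ z ∈ G.Zs, ∑ n ∈ G.Nd z, ∑ w ∈ G.S z n, G.y' z w :=
        sum_nonneg fun z _ => sum_nonneg fun n _ => sum_nonneg fun w _ => (hG.y0' z w).le
      linarith
    · intro z hz n hn w hw
      have h1 : G.y' z w ≤ ∑ w ∈ G.S z n, G.y' z w :=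
        single_le_sum (f := fun w => G.y' z w) (fun w _ => (hG.y0' z w).le) hw
      have h2 : ∑ w ∈ G.S z n, G.y' z w ≤ ∑ n ∈ G.Nd z, ∑ w ∈ G.S z n, G.y' z w :=
        single_le_sum (f := fun n => ∑ w ∈ G.S z n, G.y' z w)
          (fun n _ => sum_nonneg fun w _ => (hG.y0' z w).le) hn
      have h3 : ∑ n ∈ G.Nd z, ∑ w ∈ G.S z n, G.y' z w ≤
          ∑ z ∈ G.Zs, ∑ n ∈ G.Nd z, ∑ w ∈ G.S z n, G.y' z w :=
        single_le_sum (f := fun z => ∑ n ∈ G.Nd z, ∑ w ∈ G.S z n, G.y' z w)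
          (fun z _ => sum_nonneg fun n _ => sum_nonneg fun w _ => (hG.y0' z w).le) hz
      linarith
  set J : Finset ℕ := G.Zs.biUnion fun z => (G.Nd z).biUnion fun n =>
    (G.S z n).image fun w => cl Y (G.y' z w) with hJ
  have hJm : ∀ z ∈ G.Zs, ∀ n ∈ G.Nd z, ∀ w ∈ G.S z n, cl Y (G.y' z w) ∈ J := by
    intro z hz n hn w hw
    rw [hJ, mem_biUnion]
    exact ⟨z, hz, mem_biUnion.2 ⟨n, hn, mem_image_of_mem _ hw⟩⟩
  set F : Z → ℕ → Ω → ℝ := fun z i w => if cl Y (G.y' z w) = i then f' z w else 0 with hF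
  have hF0 : ∀ z i w, 0 ≤ F z i w := by
    intro z i w
    simp only [hF]
    split_ifs
    · exact hG.f0' z w
    · exact le_rfl
  set D : Z → N → ℕ → ℝ := fun z n i => (∑ w ∈ G.S z n, F z i w) / G.g n with hD
  have hD0 : ∀ z' ∈ G.Zs, ∀ n' ∈ G.Nd z', ∀ i, 0 ≤ D z' n' i := fun z' hz' n' hn' i =>
    div_nonneg (sum_nonneg fun w _ => hF0 z' i w) (hG.g0 z' hz' n' hn').le
  have hOut : ∀ z n z' n', n' ∈ G.Out z n z' → n' ∈ G.Nd z' ∧ G.R z n z' n' := by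
    intro z n z' n' h
    unfold GN.Out at h
    exact mem_filter.1 h
  -- step 1: decomposition
  have s1 : ∀ z ∈ G.Zs, ∀ n ∈ G.Nd z, ∀ w ∈ G.A z n,
      ∑ z' ∈ G.Zs, ∑ n' ∈ G.Out z n z', ∑ w' ∈ G.S z' n', f z w * f' z' w' / G.g n =
      f z w * ∑ z' ∈ G.Zs, ∑ n' ∈ G.Out z n z', ∑ i ∈ J, D z' n' i := by
    intro z hz n hn w _
    rw [mul_sum]
    refine sum_congr rfl fun z' hz' => ?_
    rw [mul_sum]
    refine sum_congr rfl fun n' hn' => ?_
    obtain ⟨hn1, hR⟩ := hOut z n z' n' hn'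
    have e1 : ∑ w' ∈ G.S z' n', f' z' w' = ∑ i ∈ J, ∑ w' ∈ G.S z' n', F z' i w' := by
      rw [sum_comm]
      refine sum_congr rfl fun w' hw' => ?_
      simp only [hF]
      rw [sum_ite_eq, if_pos (hJm z' hz' n' hn1 w' hw')]
    have e2 : ∑ w' ∈ G.S z' n', f z w * f' z' w' / G.g n =
        f z w * ((∑ w' ∈ G.S z' n', f' z' w') / G.g n) := by
      rw [sum_div, mul_sum]
      exact sum_congr rfl fun w' _ => by ring
    rw [e2, e1, sum_div, hG.gR z hz n hn z' hz' n' hn1 hR]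
  -- step 2: node split
  have s2 : ∀ z ∈ G.Zs, ∀ n ∈ G.Nd z, ∀ w ∈ G.A z n,
      ∑ z' ∈ G.Zs, ∑ n' ∈ G.Out z n z', ∑ i ∈ J, D z' n' i ≤ (2 * C1 + 4) * ρ * G.y z w +
        ∑ z' ∈ G.Zs, ∑ n' ∈ G.Out z n z', ∑ i ∈ J,
          if G.y z w < TT Y ρ Δ i (D z' n' i) then D z' n' i else 0 := by
    intro z hz n hn w hw
    have hge := hG.g0 z hz n hn
    have hdeg : (((G.Zs.sigma fun z' => G.Out z n z').card : ℕ) : ℝ) ≤ Δ := by
      rw [card_sigma]
      push_cast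
      exact hG.deg z hz n hn
    -- nonneg version of the densities
    have hsp := node_split (G.Zs.sigma fun z' => G.Out z n z') J
      (fun x i => |D x.1 x.2 i|) (fun x i => abs_nonneg _) hY0 (hG.y0 z w) hρ hdeg hΔ1
      (C1 := C1) ?_
    · have habs : ∀ z' ∈ G.Zs, ∀ n' ∈ G.Out z n z', ∀ i, |D z' n' i| = D z' n' i :=
        fun z' hz' n' hn' i => abs_of_nonneg (hD0 z' hz' n' (hOut z n z' n' hn').1 i)
      rw [sum_sigma, sum_sigma] at hsp
      have c1 : ∑ z' ∈ G.Zs, ∑ n' ∈ G.Out z n z', ∑ i ∈ J, |D z' n' i| =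
          ∑ z' ∈ G.Zs, ∑ n' ∈ G.Out z n z', ∑ i ∈ J, D z' n' i :=
        sum_congr rfl fun z' hz' => sum_congr rfl fun n' hn' => sum_congr rfl fun i _ =>
          habs z' hz' n' hn' i
      have c2 : ∑ z' ∈ G.Zs, ∑ n' ∈ G.Out z n z', ∑ i ∈ J,
          (if G.y z w < TT Y ρ Δ i |D z' n' i| then |D z' n' i| else 0) =
          ∑ z' ∈ G.Zs, ∑ n' ∈ G.Out z n z', ∑ i ∈ J,
          (if G.y z w < TT Y ρ Δ i (D z' n' i) then D z' n' i else 0) :=
        sum_congr rfl fun z' hz' => sum_congr rfl fun n' hn' => sum_congr rfl fun i _ => by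
          rw [habs z' hz' n' hn' i]
      rw [← c1, ← c2]
      exact hsp
    · rw [sum_sigma]
      have e1 : ∀ z' ∈ G.Zs, ∀ n' ∈ G.Out z n z',
          ∑ i ∈ J.filter (fun i => Y * (1 / 2) ^ i ≤ 2 * ρ * G.y z w),
          |D z' n' i| ≤ (∑ w' ∈ (G.S z' n').filter (fun w' => G.y' z' w' ≤ 2 * ρ * G.y z w),
            f' z' w') / G.g n := by
        intro z' hz' n' hn'
        obtain ⟨hn1, hR⟩ := hOut z n z' n' hn'
        have habs : ∀ i, |D z' n' i| = D z' n' i := fun i => abs_of_nonneg (hD0 z' hz' n' hn1 i)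
        simp only [habs]
        rw [hG.gR z hz n hn z' hz' n' hn1 hR]
        simp only [hD]
        rw [← sum_div]
        refine div_le_div_of_nonneg_right ?_ (hG.g0 z' hz' n' hn1).le
        rw [sum_comm, sum_filter]
        refine sum_le_sum fun w' hw' => ?_
        simp only [hF]
        rw [sum_ite_eq]
        by_cases h : cl Y (G.y' z' w') ∈ J.filter (fun i => Y * (1 / 2) ^ i ≤ 2 * ρ * G.y z w)
        · rw [if_pos h]
          have h2 := (mem_filter.1 h).2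
          have h3 := (cl_spec (hG.y0' z' w') (hY z' hz' n' hn1 w' hw')).2
          rw [if_pos (h3.trans h2)]
        · rw [if_neg h]
          split_ifs
          · exact hG.f0' _ _
          · exact le_rfl
      refine (sum_le_sum fun z' hz' => sum_le_sum fun n' hn' => e1 z' hz' n' hn').trans ?_
      have e2 : ∑ z' ∈ G.Zs, ∑ n' ∈ G.Out z n z',
          (∑ w' ∈ (G.S z' n').filter (fun w' => G.y' z' w' ≤ 2 * ρ * G.y z w), f' z' w') / G.g n =
          (∑ z' ∈ G.Zs, ∑ n' ∈ G.Out z n z',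
          ∑ w' ∈ (G.S z' n').filter (fun w' => G.y' z' w' ≤ 2 * ρ * G.y z w), f' z' w') / G.g n := by
        rw [sum_div]
        exact sum_congr rfl fun z' _ => by rw [sum_div]
      rw [e2, div_le_iff₀ hge]
      have h4 := hG.H1 z hz n hn (2 * ρ * G.y z w) (by have := hG.y0 z w; positivity)
      calc _ ≤ C1 * (2 * ρ * G.y z w) * G.g n := h4
        _ = 2 * C1 * ρ * G.y z w * G.g n := by ring
  -- step 3: the third part, swapped
  set X : Z → N → Z → N → ℝ := fun z n z' n' => ∑ w ∈ G.A z n, f z w *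
    ∑ i ∈ J, (if G.y z w < TT Y ρ Δ i (D z' n' i) then D z' n' i else 0) with hX
  have s3 : ∑ z ∈ G.Zs, ∑ n ∈ G.Nd z, ∑ w ∈ G.A z n, ∑ z' ∈ G.Zs, ∑ n' ∈ G.Out z n z',
      ∑ w' ∈ G.S z' n', f z w * f' z' w' / G.g n ≤
      (2 * C1 + 4) * ρ * ∑ z ∈ G.Zs, ∑ n ∈ G.Nd z, ∑ w ∈ G.A z n, f z w * G.y z w +
      ∑ z ∈ G.Zs, ∑ n ∈ G.Nd z, ∑ z' ∈ G.Zs, ∑ n' ∈ G.Out z n z', X z n z' n' := by
    rw [mul_sum, ← sum_add_distrib]
    refine sum_le_sum fun z hz => ?_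
    rw [mul_sum, ← sum_add_distrib]
    refine sum_le_sum fun n hn => ?_
    have e1 : ∑ z' ∈ G.Zs, ∑ n' ∈ G.Out z n z', X z n z' n' =
        ∑ w ∈ G.A z n, f z w * ∑ z' ∈ G.Zs, ∑ n' ∈ G.Out z n z', ∑ i ∈ J,
        (if G.y z w < TT Y ρ Δ i (D z' n' i) then D z' n' i else 0) := by
      simp only [hX]
      have e2 : ∀ z' ∈ G.Zs, ∑ n' ∈ G.Out z n z', ∑ w ∈ G.A z n, f z w *
          ∑ i ∈ J, (if G.y z w < TT Y ρ Δ i (D z' n' i) then D z' n' i else 0) =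
          ∑ w ∈ G.A z n, ∑ n' ∈ G.Out z n z', f z w *
          ∑ i ∈ J, (if G.y z w < TT Y ρ Δ i (D z' n' i) then D z' n' i else 0) :=
        fun z' _ => sum_comm
      rw [sum_congr rfl e2, sum_comm]
      exact sum_congr rfl fun w _ => by
        rw [mul_sum]
        exact sum_congr rfl fun z' _ => by rw [mul_sum]
    rw [e1, mul_sum, ← sum_add_distrib]
    refine sum_le_sum fun w hw => ?_
    rw [s1 z hz n hn w hw]
    calc f z w * ∑ z' ∈ G.Zs, ∑ n' ∈ G.Out z n z', ∑ i ∈ J, D z' n' i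
        ≤ f z w * ((2 * C1 + 4) * ρ * G.y z w + ∑ z' ∈ G.Zs, ∑ n' ∈ G.Out z n z', ∑ i ∈ J,
          if G.y z w < TT Y ρ Δ i (D z' n' i) then D z' n' i else 0) :=
          mul_le_mul_of_nonneg_left (s2 z hz n hn w hw) (hG.f0 z w)
      _ = _ := by ring
  refine s3.trans ?_
  refine add_le_add le_rfl ?_
  rw [G.swap X, mul_sum]
  refine sum_le_sum fun z' hz' => ?_
  -- step 4: one partner zone
  set a : N → ℝ → ℝ := fun n' t => ∑ z ∈ G.Zs, ∑ n ∈ G.In z' n' z,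
    ∑ w ∈ (G.A z n).filter (fun w => G.y z w < t), f z w with ha
  have s5 : ∑ n' ∈ G.Nd z', ∑ z ∈ G.Zs, ∑ n ∈ G.In z' n' z, X z n z' n' =
      ∑ i ∈ J, ∑ n' ∈ G.Nd z', D z' n' i * a n' (TT Y ρ Δ i (D z' n' i)) := by
    rw [sum_comm (s := J)]
    refine sum_congr rfl fun n' _ => ?_
    simp only [ha, hX]
    have e1 : ∀ z n, ∑ w ∈ G.A z n, f z w * ∑ i ∈ J,
          (if G.y z w < TT Y ρ Δ i (D z' n' i) then D z' n' i else 0) =
        ∑ i ∈ J, D z' n' i * ∑ w ∈ (G.A z n).filter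
          (fun w => G.y z w < TT Y ρ Δ i (D z' n' i)), f z w := by
      intro z n
      have e2 : ∀ i ∈ J, D z' n' i * ∑ w ∈ (G.A z n).filter
          (fun w => G.y z w < TT Y ρ Δ i (D z' n' i)), f z w =
          ∑ w ∈ G.A z n, f z w *
            (if G.y z w < TT Y ρ Δ i (D z' n' i) then D z' n' i else 0) := by
        intro i _
        rw [mul_sum, sum_filter]
        refine sum_congr rfl fun w _ => ?_
        split_ifs
        · ring
        · ring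
      rw [sum_congr rfl e2, sum_comm]
      exact sum_congr rfl fun w _ => by rw [mul_sum]
    have e3 : ∀ z ∈ G.Zs, ∑ n ∈ G.In z' n' z, ∑ w ∈ G.A z n, f z w * ∑ i ∈ J,
          (if G.y z w < TT Y ρ Δ i (D z' n' i) then D z' n' i else 0) =
        ∑ i ∈ J, ∑ n ∈ G.In z' n' z, D z' n' i * ∑ w ∈ (G.A z n).filter
          (fun w => G.y z w < TT Y ρ Δ i (D z' n' i)), f z w := by
      intro z _
      rw [sum_congr rfl fun n _ => e1 z n, sum_comm]
    rw [sum_congr rfl e3, sum_comm]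
    refine sum_congr rfl fun i _ => ?_
    rw [mul_sum]
    exact sum_congr rfl fun z _ => by rw [mul_sum]
  rw [s5]
  have s6 : ∀ i ∈ J, ∑ n' ∈ G.Nd z', D z' n' i * a n' (TT Y ρ Δ i (D z' n' i)) ≤
      C1 * (k + 4) * (Y * (1 / 2) ^ i) / ρ * ∑ w ∈ (G.Nd z').biUnion (G.S z'), F z' i w := by
    intro i _
    refine level_sum (hG.lam z' hz') (F z' i) (hF0 z' i) G.g (hG.g0 z' hz') a ?_ ?_ hY0 hρ hC
      hΔ0 hk ?_ ?_
    · intro n' t
      exact sum_nonneg fun z _ => sum_nonneg fun n _ => sum_nonneg fun w _ => hG.f0 z w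
    · intro n' t t' htt
      refine sum_le_sum fun z _ => sum_le_sum fun n _ =>
        sum_le_sum_of_subset_of_nonneg ?_ fun w _ _ => hG.f0 z w
      intro w hw
      rw [mem_filter] at hw ⊢
      exact ⟨hw.1, hw.2.trans_le htt⟩
    · intro n' hn'
      rw [div_le_iff₀ (hG.g0 z' hz' n' hn')]
      refine le_trans ?_ (hG.H0 z' hz' n' hn' (Y * (1 / 2) ^ i) (by positivity))
      rw [sum_filter]
      refine sum_le_sum fun w hw => ?_
      simp only [hF]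
      by_cases h : cl Y (G.y' z' w) = i
      · rw [if_pos h]
        have h3 := (cl_spec (hG.y0' z' w) (hY z' hz' n' hn' w hw)).2
        rw [h] at h3
        rw [if_pos h3]
      · rw [if_neg h]
        split_ifs
        · exact hG.f0' _ _
        · exact le_rfl
    · intro θ t hθ ht
      set Q : N → Prop := fun n' => θ < (∑ w ∈ G.S z' n', F z' i w) / G.g n' with hQ
      have ha0 : ∀ n', 0 ≤ a n' t := fun n' =>
        sum_nonneg fun z _ => sum_nonneg fun n _ => sum_nonneg fun w _ => hG.f0 z w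
      have e2 : ∑ n' ∈ (G.Nd z').filter Q, a n' t ≤
          ∑ m ∈ First (G.Nd z') (G.S z') G.rk Q, ∑ n' ∈ G.Bl z' m, a n' t := by
        refine le_trans (sum_le_sum_of_subset_of_nonneg ?_ fun n' _ _ => ha0 n')
          (sum_biUnion_le' (First (G.Nd z') (G.S z') G.rk Q) (fun m => G.Bl z' m)
            (fun n' => a n' t) ha0)
        intro n' hn'
        rw [mem_filter] at hn'
        obtain ⟨hn1, hQn⟩ := hn'
        obtain ⟨w', hw'⟩ : (G.S z' n').Nonempty := by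
          by_contra hne
          rw [not_nonempty_iff_eq_empty] at hne
          have h1 : θ < (∑ w ∈ G.S z' n', F z' i w) / G.g n' := hQn
          rw [hne, sum_empty, zero_div] at h1
          linarith
        obtain ⟨m, hm, hw'm⟩ := first_cover (hG.lam z' hz') Q hn1 hQn hw'
        have hm' := hm
        unfold First at hm'
        rw [mem_filter] at hm'
        have hrk : G.rk m ≤ G.rk n' := by
          by_contra hlt
          have h2 := hm'.2.2 n' hn1 hQn (not_le.1 hlt)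
          exact (disjoint_left.1 h2) hw' hw'm
        have hsub : G.S z' n' ⊆ G.S z' m :=
          (hG.lam z' hz').lam m hm'.1 n' hn1 hrk
            (fun hd => (disjoint_left.1 hd) hw'm hw')
        rw [mem_biUnion]
        refine ⟨m, hm, ?_⟩
        unfold GN.Bl
        rw [mem_filter]
        exact ⟨hn1, hrk, hsub, ⟨w', hw'⟩⟩
      refine e2.trans ?_
      refine sum_le_sum fun m hm => ?_
      have hm' : m ∈ G.Nd z' := by
        unfold First at hm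
        exact (mem_filter.1 hm).1
      refine le_trans ?_ (hG.H2 z' hz' m hm' t ht)
      refine sum_le_sum fun n' _ => ?_
      simp only [ha]
      refine sum_le_sum fun z _ => sum_le_sum fun n _ =>
        sum_le_sum_of_subset_of_nonneg ?_ fun w _ _ => hG.f0 z w
      intro w hw
      rw [mem_filter] at hw ⊢
      exact ⟨hw.1, hw.2.le⟩
  refine (sum_le_sum s6).trans ?_
  have s7 : ∑ i ∈ J, C1 * (k + 4) * (Y * (1 / 2) ^ i) / ρ *
      ∑ w ∈ (G.Nd z').biUnion (G.S z'), F z' i w =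
      C1 * (k + 4) / ρ * ∑ w ∈ (G.Nd z').biUnion (G.S z'), ∑ i ∈ J,
        (Y * (1 / 2) ^ i) * F z' i w := by
    rw [sum_comm, mul_sum]
    refine sum_congr rfl fun i _ => ?_
    rw [← mul_sum]
    ring
  rw [s7]
  have s8 : ∑ w ∈ (G.Nd z').biUnion (G.S z'), ∑ i ∈ J, (Y * (1 / 2) ^ i) * F z' i w ≤
      2 * ∑ w ∈ (G.Nd z').biUnion (G.S z'), f' z' w * G.y' z' w := by
    rw [mul_sum]
    refine sum_le_sum fun w hw => ?_
    rw [mem_biUnion] at hw
    obtain ⟨n', hn', hwn⟩ := hw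
    simp only [hF, mul_ite, mul_zero]
    rw [sum_ite_eq, if_pos (hJm z' hz' n' hn' w hwn)]
    have h3 := (cl_spec (hG.y0' z' w) (hY z' hz' n' hn' w hwn)).1
    have h4 : Y * (1 / 2) ^ (cl Y (G.y' z' w)) ≤ 2 * G.y' z' w := by
      rw [pow_succ] at h3
      nlinarith
    have := hG.f0' z' w
    nlinarith
  have hpos : 0 ≤ C1 * (k + 4) / ρ := by positivity
  calc C1 * (k + 4) / ρ * ∑ w ∈ (G.Nd z').biUnion (G.S z'), ∑ i ∈ J,
        (Y * (1 / 2) ^ i) * F z' i w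
      ≤ C1 * (k + 4) / ρ * (2 * ∑ w ∈ (G.Nd z').biUnion (G.S z'), f' z' w * G.y' z' w) :=
        mul_le_mul_of_nonneg_left s8 hpos
    _ = 2 * C1 * (k + 4) / ρ * ∑ w ∈ (G.Nd z').biUnion (G.S z'), f' z' w * G.y' z' w := by ring

end Crest.Agent.R4C.GWrelx8
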