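import Crest.Agent.R4C.BoostAl_100
import Crest.Agent.R4C.CellLaw_276
import Crest.Agent.R4C.GWdef_982
import Crest.Agent.R4C.SpineDef_946
import Crest.Agent.Lib.Mertens

/-!
# Row 4, GW section, leaf (F3): the weight of a far pair (helper360)

For a pair good at `x`, all aligned primes `≤ Q`, `L ≤ gcd`, `2 ≤ x ≤ Q`, `y ≤ x`, equal letters
at the primes of `(y, x]` (`Vw`, `Wc` : products over the missing primes of `b` in `(y, x]`,
`Wc` only over those without a label):

* `boost_lab`, `boost_far_lab` : `boostB ≤ exp 200 · E22 (log Q / log x) · B1 · ∏_{common missing, both labelled ≤ x}`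
* **`weight_pair`** : `Vw y x b · boostB ≤ C · B1 · bst (prQ y) · min (Wc b) (Wc c)`.
* **`weight_class`** : scalar form in the world of a class (`PM F G`), low word `(1, 1)`;
* **`weight_low`** : the same with low words `u, u'` (parts `≤ y`), full low boost `bst (prQ y)`,
  coins in `(y, x]`, class of `hiFL hM y F`.
-/

set_option autoImplicit false

namespace Crest.Agent.R4C.GWwtx360

open Finset Crest.Agent.R4C.Basex935 Crest.Agent.R4C.FLDefx935 Crest.Agent.R4C.BoostCx972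
  Crest.Agent.R4C.CrCoinx935 Crest.Agent.R4C.CrCountx935 Crest.Agent.R4C.Bridgex882
  Crest.Agent.R4C.PrefixMx882 Crest.Agent.R4C.Rulex945 Crest.Agent.R4C.Sharedx11
  Crest.Agent.R4C.Splitx945 Crest.Agent.R4C.BoostTopx19 Crest.Agent.R4C.BoostAlx100
  Crest.Agent.R4C.NearBoostx60

/-! ### Mertens on a window -/

lemma pf_pos {p : ℕ} (hp : p.Prime) : 0 < pf p := by
  unfold pf
  have h2 : (2 : ℝ) ≤ p := by exact_mod_cast hp.two_le
  have : 1 / (p : ℝ) ≤ 1 / 2 := one_div_le_one_div_of_le (by norm_num) h2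
  exact inv_pos.2 (by linarith)

lemma one_le_pf {p : ℕ} (hp : p.Prime) : 1 ≤ pf p := by
  unfold pf
  have h2 : (2 : ℝ) ≤ p := by exact_mod_cast hp.two_le
  have h3 : 1 / (p : ℝ) ≤ 1 / 2 := one_div_le_one_div_of_le (by norm_num) h2
  have h4 : 0 ≤ 1 / (p : ℝ) := by positivity
  exact (one_le_inv₀ (by linarith)).2 (by linarith)

lemma pf_mul {p : ℕ} (hp : p.Prime) : pf p * (1 - 1 / (p : ℝ)) = 1 := by
  unfold pf
  have h2 : (2 : ℝ) ≤ p := by exact_mod_cast hp.two_le
  have : 1 / (p : ℝ) ≤ 1 / 2 := one_div_le_one_div_of_le (by norm_num) h2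
  exact inv_mul_cancel₀ (by linarith)

lemma prod_pf_mono {S T : Finset ℕ} (hT : ∀ p ∈ T, p.Prime) (h : S ⊆ T) :
    ∏ p ∈ S, pf p ≤ ∏ p ∈ T, pf p := by
  rw [← prod_sdiff h]
  refine le_mul_of_one_le_left (prod_nonneg fun p hp => (pf_pos (hT p (h hp))).le) ?_
  have h1 : ∏ p ∈ T \ S, (1 : ℝ) ≤ ∏ p ∈ T \ S, pf p :=
    prod_le_prod (fun _ _ => zero_le_one) fun p hp => one_le_pf (hT p (mem_sdiff.1 hp).1)
  rwa [prod_const_one] at h1

/-- Mertens on a window -/
lemma prod_window {a b : ℕ} (ha : 2 ≤ a) (hab : a ≤ b) {Q : Finset ℕ} (hQ : ∀ q ∈ Q, q.Prime)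
    (h1 : ∀ q ∈ Q, a < q) (h2 : ∀ q ∈ Q, q ≤ b) :
    ∏ p ∈ Q, pf p ≤ Real.exp (22 / Real.log 2) * (Real.log b / Real.log a) := by
  have ha' : (2 : ℝ) ≤ a := by exact_mod_cast ha
  have hab' : (a : ℝ) ≤ b := by exact_mod_cast hab
  have h3 := (Crest.Agent.Lib.Mertens.mertens_three a b ha' hab').1
  have hla : 0 < Real.log a := Real.log_pos (by linarith)
  have hlb : 0 < Real.log b := Real.log_pos (by linarith)
  have hl2 : 0 < Real.log 2 := Real.log_pos (by norm_num)
  have hpr : ∀ p ∈ Crest.Agent.Lib.Mertens.pr a b, p.Prime := fun p hp =>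
    ((Crest.Agent.Lib.Mertens.mem_pr (by linarith) (by linarith)).1 hp).2
  have hsub : Q ⊆ Crest.Agent.Lib.Mertens.pr a b := by
    intro q hq
    rw [Crest.Agent.Lib.Mertens.mem_pr (by linarith) (by linarith)]
    exact ⟨⟨by exact_mod_cast h1 q hq, by exact_mod_cast h2 q hq⟩, hQ q hq⟩
  refine (prod_pf_mono hpr hsub).trans ?_
  have e : ∏ p ∈ Crest.Agent.Lib.Mertens.pr a b, pf p =
      (∏ p ∈ Crest.Agent.Lib.Mertens.pr a b, (1 - 1 / (p : ℝ)))⁻¹ := by
    unfold pf
    exact Finset.prod_inv_distrib _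
  rw [e]
  have h4 : 0 < Real.exp (-(22 / Real.log a)) * (Real.log a / Real.log b) := by positivity
  refine (inv_anti₀ h4 h3).trans ?_
  have e2 : (Real.exp (-(22 / Real.log a)) * (Real.log a / Real.log b))⁻¹ =
      Real.exp (22 / Real.log a) * (Real.log b / Real.log a) := by
    rw [Real.exp_neg]
    field_simp
  rw [e2]
  refine mul_le_mul_of_nonneg_right (Real.exp_le_exp.2 ?_) (by positivity)
  exact div_le_div_of_nonneg_left (by norm_num) hl2 (Real.log_le_log (by norm_num) ha')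

/-! ### the boost -/

section boost

variable {M : ℕ} {F : FL M} {P : Par}

/-- common missing primes -/
def Com (M b c p : ℕ) : Prop :=
  b.factorization p = c.factorization p ∧ b.factorization p < M.factorization p

open Classical in
/-- common missing primes `≤ x`, labelled on both sides -/
noncomputable def LabS (F : FL M) (P : Par) (x b c : ℕ) : Finset ℕ :=
  (prQ x).filter fun p => Com M b c p ∧ lamR F P b p ≠ none ∧ lamR F P c p ≠ none

lemma mem_prQ {x p : ℕ} : p ∈ prQ x ↔ p ≤ x ∧ p.Prime := by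
  unfold prQ
  rw [mem_filter, mem_range]
  constructor
  · rintro ⟨h1, h2⟩; exact ⟨by omega, h2⟩
  · rintro ⟨h1, h2⟩; exact ⟨by omega, h2⟩

lemma com_of_free (hM : 0 < M) {b c p : ℕ} (hb : b ∣ M) (hc : c ∣ M)
    (hp : p ∈ free M b ∪ free M c) (h1 : ¬ p ∣ b / Nat.gcd b c) (h2 : ¬ p ∣ c / Nat.gcd b c) :
    Com M b c p := by
  have hb0 : 0 < b := Nat.pos_of_dvd_of_pos hb hM
  have hc0 : 0 < c := Nat.pos_of_dvd_of_pos hc hM
  have e := fact_cof hb0 hc0 h1 h2
  refine ⟨e, ?_⟩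
  rw [mem_union, mem_free, mem_free] at hp
  rcases hp with hp | hp
  · exact hp.2
  · rw [e]; exact hp.2

set_option maxHeartbeats 800000 in
open Classical in
/-- **the boost of a pair**, near or far (`κ = 10` if `X1 ≤ Q`: `BoostTopx19.Lam_near`) -/
theorem boost_lab (hM : 0 < M) {b c : ℕ} (hb : b ∣ M) (hc : c ∣ M) (hL : 0 < P.L)
    (hY : ∀ i, P.Y i = 2 ^ i)
    (hthr : ∀ b i, P.thr b i ≤ Real.exp ((P.Y (i - 1) : ℝ) ^ (4 / 5 : ℝ))) {x Q : ℕ} (hx : 2 ≤ x)
    (hxQ : x ≤ Q) (hgood : F.good x b c) {h : ℤ} (hl : h ∈ Lnk P.γ P.L b c)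
    (hal : AlLe F P b c h Q) {κ : ℝ} (hκ : Lam P.L (Nat.gcd b c : ℕ) / Q ≤ κ) :
    boostB M (lamR F P) b c h ≤ Real.exp (100 * (1 + κ)) * (Real.exp (22 / Real.log 2) *
      (Real.log Q / Real.log x)) * PureL2x232.B1 b c * ∏ p ∈ LabS F P x b c, pf p := by
  have hb0 : 0 < b := Nat.pos_of_dvd_of_pos hb hM
  have hc0 : 0 < c := Nat.pos_of_dvd_of_pos hc hM
  set g := Nat.gcd b c with hg
  have hg0 : 0 < g := Nat.gcd_pos_of_pos_left c hb0
  have hgR : (0 : ℝ) < g := by exact_mod_cast hg0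
  set s := b / g with hs
  set s' := c / g with hs'
  have hgs : g * s = b := Nat.mul_div_cancel' (Nat.gcd_dvd_left b c)
  have hgs' : g * s' = c := Nat.mul_div_cancel' (Nat.gcd_dvd_right b c)
  have hs0 : 0 < s := Nat.pos_of_ne_zero fun h0 => by rw [h0, mul_zero] at hgs; omega
  have hs0' : 0 < s' := Nat.pos_of_ne_zero fun h0 => by rw [h0, mul_zero] at hgs'; omega
  set lam := lamR F P with hlam
  have hUp : ∀ p ∈ free M b ∪ free M c, p.Prime := fun p hp => prime_of_free hp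
  set S := (free M b ∪ free M c).filter fun p => chargedB lam b c h p with hS
  have hSp : ∀ p ∈ S, p.Prime := fun p hp => hUp p (mem_filter.1 hp).1
  have e0 : boostB M lam b c h = ∏ p ∈ S, pf p := by
    unfold boostB
    rw [hS, prod_filter]
    rfl
  set D := S.filter fun p => p ∣ s ∨ p ∣ s' with hD
  set R := S.filter fun p => ¬ (p ∣ s ∨ p ∣ s') with hR
  set R1 := R.filter fun p => p ≤ x with hR1
  set R2 := R.filter fun p => ¬ p ≤ x with hR2
  set R3 := R2.filter fun p => p ≤ Q with hR3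
  set R4 := R2.filter fun p => ¬ p ≤ Q with hR4
  have e1 : ∏ p ∈ S, pf p = (∏ p ∈ D, pf p) * ((∏ p ∈ R1, pf p) *
      ((∏ p ∈ R3, pf p) * ∏ p ∈ R4, pf p)) := by
    rw [hR3, hR4, prod_filter_mul_prod_filter_not R2 (fun p => p ≤ Q) pf, hR1, hR2,
      prod_filter_mul_prod_filter_not R (fun p => p ≤ x) pf, hD, hR,
      prod_filter_mul_prod_filter_not S (fun p => p ∣ s ∨ p ∣ s') pf]
  have hRS : ∀ p ∈ R, p ∈ S := fun p hp => (mem_filter.1 hp).1
  -- differing primes
  have hDle : ∏ p ∈ D, pf p ≤ PureL2x232.B1 b c := by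
    have hsub : D ⊆ (s * s').primeFactors := by
      intro p hp
      rw [hD, mem_filter] at hp
      have hpp := hSp p hp.1
      rw [Nat.mem_primeFactors]
      refine ⟨hpp, ?_, (Nat.mul_pos hs0 hs0').ne'⟩
      rcases hp.2 with h1 | h1
      · exact h1.mul_right _
      · exact h1.mul_left _
    exact prod_pf_mono (fun p hp => Nat.prime_of_mem_primeFactors hp) hsub
  -- low common primes
  have hR1le : ∏ p ∈ R1, pf p ≤ ∏ p ∈ LabS F P x b c, pf p := by
    refine prod_pf_mono (fun p hp => ?_) ?_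
    · unfold LabS at hp
      exact (mem_prQ.1 (mem_filter.1 hp).1).2
    · intro p hp
      rw [hR1, mem_filter] at hp
      obtain ⟨hp1, hpx⟩ := hp
      rw [hR, mem_filter] at hp1
      obtain ⟨hp2, hns⟩ := hp1
      push Not at hns
      have hpp := hSp p hp2
      rw [hS, mem_filter] at hp2
      unfold LabS
      rw [mem_filter]
      refine ⟨mem_prQ.2 ⟨hpx, hpp⟩, com_of_free hM hb hc hp2.1 hns.1 hns.2, ?_⟩
      rcases hp2.2 with h1 | h1 | h1
      · exact absurd h1.1 hns.2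
      · exact absurd h1.1 hns.1
      · obtain ⟨_, _, a, a', h2, h3, _⟩ := h1
        rw [← hlam]
        exact ⟨by rw [h2]; exact Option.some_ne_none _, by rw [h3]; exact Option.some_ne_none _⟩
  -- window
  have hR3le : ∏ p ∈ R3, pf p ≤ Real.exp (22 / Real.log 2) * (Real.log Q / Real.log x) := by
    refine prod_window hx hxQ (fun p hp => ?_) (fun p hp => ?_) (fun p hp => ?_)
    · exact hSp p (hRS p (mem_filter.1 (mem_filter.1 hp).1).1)
    · exact not_le.1 (mem_filter.1 (mem_filter.1 hp).1).2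
    · exact (mem_filter.1 hp).2
  -- high primes
  have hR4le : ∏ p ∈ R4, pf p ≤ Real.exp (100 * (1 + κ)) := by
    have hQ2 : (2 : ℝ) ≤ Q := by exact_mod_cast hx.trans hxQ
    have hfl : ⌊(Q : ℝ)⌋₊ = Q := Nat.floor_natCast Q
    have h1 := P2_far (F := F) (P := P) hM hb hc hL hY hthr (X := (Q : ℝ)) hQ2
      (by rw [hfl]; exact FL.good_mono hxQ hgood) hl
      (fun p hp => by exact_mod_cast setE_le hM hb hc hal p hp)
    rw [hfl] at h1
    have h3 : Real.exp (100 * (1 + Lam P.L g / Q)) ≤ Real.exp (100 * (1 + κ)) :=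
      Real.exp_le_exp.2 (by linarith)
    refine le_trans ?_ (h1.trans h3)
    have hprime : ∀ p ∈ (P2 M (lamR F P) b c).filter (fun p : ℕ => (Q : ℝ) < (p : ℝ) ∧
        (p : ℤ) ∣ h - res (lamR F P) b c p), p.Prime := fun p hp => by
      have := (mem_filter.1 hp).1
      unfold P2 at this
      exact hUp p (mem_filter.1 this).1
    refine prod_pf_mono hprime ?_
    intro p hp
    rw [hR4, mem_filter] at hp
    obtain ⟨hp1, hpQ⟩ := hp
    rw [hR2, mem_filter] at hp1
    obtain ⟨hp1, _⟩ := hp1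
    rw [hR, mem_filter] at hp1
    obtain ⟨hp2, hns⟩ := hp1
    push Not at hns
    rw [hS, mem_filter] at hp2
    rcases hp2.2 with h5 | h5 | h5
    · exact absurd h5.1 hns.2
    · exact absurd h5.1 hns.1
    · obtain ⟨_, _, a, a', h6, h7, h8⟩ := h5
      rw [mem_filter]
      refine ⟨?_, by exact_mod_cast not_le.1 hpQ, ?_⟩
      · unfold P2
        rw [mem_filter]
        exact ⟨hp2.1, hns.1, hns.2, by rw [← hlam, h6]; exact Option.some_ne_none _,
          by rw [← hlam, h7]; exact Option.some_ne_none _⟩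
      · unfold res
        rw [← hg, ← hs, ← hs', if_neg hns.2, if_neg hns.1, ← hlam, h6, h7, Option.getD_some,
          Option.getD_some]
        have e : h - ((s : ℤ) * a - (s' : ℤ) * a') = h - (s : ℤ) * a + (s' : ℤ) * a' := by ring
        rw [e]
        exact h8
  have hpos : ∀ T : Finset ℕ, (∀ p ∈ T, p ∈ S) → 0 ≤ ∏ p ∈ T, pf p := fun T hT =>
    prod_nonneg fun p hp => (pf_pos (hSp p (hT p hp))).le
  have p1 : 0 ≤ ∏ p ∈ D, pf p := hpos D fun p hp => (mem_filter.1 hp).1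
  have p2 : 0 ≤ ∏ p ∈ R1, pf p := hpos R1 fun p hp => hRS p (mem_filter.1 hp).1
  have p3 : 0 ≤ ∏ p ∈ R3, pf p := hpos R3 fun p hp =>
    hRS p (mem_filter.1 (mem_filter.1 hp).1).1
  have p4 : 0 ≤ ∏ p ∈ R4, pf p := hpos R4 fun p hp =>
    hRS p (mem_filter.1 (mem_filter.1 hp).1).1
  rw [e0, e1]
  calc (∏ p ∈ D, pf p) * ((∏ p ∈ R1, pf p) * ((∏ p ∈ R3, pf p) * ∏ p ∈ R4, pf p))
      ≤ PureL2x232.B1 b c * ((∏ p ∈ LabS F P x b c, pf p) *
        ((Real.exp (22 / Real.log 2) * (Real.log Q / Real.log x)) *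
          Real.exp (100 * (1 + κ)))) := by
        refine mul_le_mul hDle ?_ (by positivity) (p1.trans hDle)
        refine mul_le_mul hR1le ?_ (by positivity) (p2.trans hR1le)
        exact mul_le_mul hR3le hR4le p4 (p3.trans hR3le)
    _ = _ := by ring

/-- **the boost of a far pair** -/
theorem boost_far_lab (hM : 0 < M) {b c : ℕ} (hb : b ∣ M) (hc : c ∣ M) (hL : 0 < P.L)
    (hY : ∀ i, P.Y i = 2 ^ i)
    (hthr : ∀ b i, P.thr b i ≤ Real.exp ((P.Y (i - 1) : ℝ) ^ (4 / 5 : ℝ))) {x Q : ℕ} (hx : 2 ≤ x)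
    (hxQ : x ≤ Q) (hgood : F.good x b c) {h : ℤ} (hl : h ∈ Lnk P.γ P.L b c)
    (hal : AlLe F P b c h Q) (hLg : P.L ≤ (Nat.gcd b c : ℕ)) :
    boostB M (lamR F P) b c h ≤ Real.exp 200 * (Real.exp (22 / Real.log 2) *
      (Real.log Q / Real.log x)) * PureL2x232.B1 b c * ∏ p ∈ LabS F P x b c, pf p := by
  have hgR : (0 : ℝ) < (Nat.gcd b c : ℕ) := by
    exact_mod_cast Nat.gcd_pos_of_pos_left c (Nat.pos_of_dvd_of_pos hb hM)
  have h1 := boost_lab hM hb hc hL hY hthr hx hxQ hgood hl hal (κ := 1)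
    (Lam_far hgR hLg (hx.trans hxQ))
  have e : (100 : ℝ) * (1 + 1) = 200 := by norm_num
  rwa [e] at h1

/-! ### coins -/

open Classical in
/-- full product over the missing primes of `b` in `(y, x]` -/
noncomputable def Vw (M y x b : ℕ) : ℝ :=
  ∏ p ∈ (free M b).filter (fun p => y < p ∧ p ≤ x), (1 - 1 / (p : ℝ))

open Classical in
/-- product over the coins of `b` in `(y, x]` -/
noncomputable def Wc (F : FL M) (P : Par) (y x b : ℕ) : ℝ :=
  ∏ p ∈ (free M b).filter (fun p => y < p ∧ p ≤ x ∧ lamR F P b p = none), (1 - 1 / (p : ℝ))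

lemma fac_pos {p : ℕ} (hp : p.Prime) : 0 < 1 - 1 / (p : ℝ) := by
  have h2 : (2 : ℝ) ≤ p := by exact_mod_cast hp.two_le
  have : 1 / (p : ℝ) ≤ 1 / 2 := one_div_le_one_div_of_le (by norm_num) h2
  linarith

lemma fac_le_one (p : ℕ) : 1 - 1 / (p : ℝ) ≤ 1 := by
  have : 0 ≤ 1 / (p : ℝ) := by positivity
  linarith

lemma prod_fac_anti {S T : Finset ℕ} (hT : ∀ p ∈ T, p.Prime) (h : S ⊆ T) :
    ∏ p ∈ T, (1 - 1 / (p : ℝ)) ≤ ∏ p ∈ S, (1 - 1 / (p : ℝ)) := by
  rw [← prod_sdiff h]
  refine mul_le_of_le_one_left (prod_nonneg fun p hp => (fac_pos (hT p (h hp))).le) ?_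
  exact prod_le_one (fun p hp => (fac_pos (hT p (mem_sdiff.1 hp).1)).le) fun p _ => fac_le_one p

lemma prod_fac_nonneg {T : Finset ℕ} (hT : ∀ p ∈ T, p.Prime) :
    0 ≤ ∏ p ∈ T, (1 - 1 / (p : ℝ)) := prod_nonneg fun p hp => (fac_pos (hT p hp)).le

lemma prime_free {b p : ℕ} (hp : p ∈ free M b) : p.Prime :=
  Nat.prime_of_mem_primeFactors (mem_free.1 hp).1

lemma Wc_nonneg (y x b : ℕ) : 0 ≤ Wc F P y x b :=
  prod_fac_nonneg fun _ hp => prime_free (mem_filter.1 hp).1

open Classical in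
/-- one side: `Vw · ∏_{LabS} ≤ bst (prQ y) · Wc` -/
lemma Vw_mul_le {b c y x : ℕ} {T : Finset ℕ}
    (hT : ∀ p ∈ T, p.Prime ∧ p ≤ x ∧ Com M b c p ∧ lamR F P b p ≠ none) :
    Vw M y x b * ∏ p ∈ T, pf p ≤ BoostRx398.bst (prQ y) M b c * Wc F P y x b := by
  -- split `T` at `y`
  rw [← prod_filter_mul_prod_filter_not T (fun p => p ≤ y) pf]
  have h1 : ∏ p ∈ T.filter (fun p => p ≤ y), pf p ≤ BoostRx398.bst (prQ y) M b c := by
    rw [bst_eq]
    refine prod_pf_mono (fun p hp => (mem_prQ.1 (mem_filter.1 hp).1).2) ?_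
    intro p hp
    rw [mem_filter] at hp
    obtain ⟨h2, h3, h4, h5⟩ := hT p hp.1
    rw [mem_filter]
    exact ⟨mem_prQ.2 ⟨hp.2, h2⟩, h4⟩
  set T' := T.filter (fun p => ¬ p ≤ y) with hT'
  have hfree : T' ⊆ (free M b).filter (fun p => y < p ∧ p ≤ x) := by
    intro p hp
    rw [hT', mem_filter] at hp
    obtain ⟨h2, h3, h4, h5⟩ := hT p hp.1
    rw [mem_filter, mem_free]
    refine ⟨⟨?_, h4.2⟩, not_le.1 hp.2, h3⟩
    have h6 : 0 < M.factorization p := lt_of_le_of_lt (Nat.zero_le _) h4.2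
    rw [← Nat.support_factorization, Finsupp.mem_support_iff]
    omega
  have hpr : ∀ p ∈ (free M b).filter (fun p => y < p ∧ p ≤ x), p.Prime := fun p hp =>
    prime_free (mem_filter.1 hp).1
  have h2 : Vw M y x b * ∏ p ∈ T', pf p ≤ Wc F P y x b := by
    have e1 : (∏ p ∈ T', (1 - 1 / (p : ℝ))) * ∏ p ∈ T', pf p = 1 := by
      rw [← prod_mul_distrib]
      exact prod_eq_one fun p hp => by rw [mul_comm]; exact pf_mul (hpr p (hfree hp))
    unfold Vw
    rw [← prod_sdiff hfree, mul_assoc, e1, mul_one]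
    refine prod_fac_anti (fun p hp => hpr p (mem_sdiff.1 hp).1) ?_
    intro p hp
    rw [mem_filter] at hp
    rw [mem_sdiff, mem_filter]
    refine ⟨⟨hp.1, hp.2.1, hp.2.2.1⟩, fun h3 => ?_⟩
    rw [hT', mem_filter] at h3
    exact (hT p h3.1).2.2.2 hp.2.2.2
  have h3 : 0 ≤ Vw M y x b * ∏ p ∈ T', pf p :=
    mul_nonneg (prod_fac_nonneg hpr) (prod_nonneg fun p hp => (pf_pos (hpr p (hfree hp))).le)
  calc Vw M y x b * ((∏ p ∈ T.filter (fun p => p ≤ y), pf p) * ∏ p ∈ T', pf p)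
      = (∏ p ∈ T.filter (fun p => p ≤ y), pf p) * (Vw M y x b * ∏ p ∈ T', pf p) := by ring
    _ ≤ _ := mul_le_mul h1 h2 h3 (le_trans (prod_nonneg fun p hp =>
        (pf_pos (hT p (mem_filter.1 hp).1).1).le) h1)

open Classical in
lemma Vw_congr {b c y x : ℕ}
    (h : ∀ p, p.Prime → y < p → p ≤ x → b.factorization p = c.factorization p) :
    Vw M y x b = Vw M y x c := by
  unfold Vw
  refine prod_congr ?_ fun _ _ => rfl
  ext p
  simp only [mem_filter, mem_free]
  constructor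
  · rintro ⟨⟨h1, h2⟩, h3, h4⟩
    exact ⟨⟨h1, by rw [← h p (Nat.prime_of_mem_primeFactors h1) h3 h4]; exact h2⟩, h3, h4⟩
  · rintro ⟨⟨h1, h2⟩, h3, h4⟩
    exact ⟨⟨h1, by rw [h p (Nat.prime_of_mem_primeFactors h1) h3 h4]; exact h2⟩, h3, h4⟩

lemma bst_symm (y : ℕ) (b c : ℕ) :
    BoostRx398.bst (prQ y) M b c = BoostRx398.bst (prQ y) M c b := by
  unfold BoostRx398.bst
  refine prod_congr rfl fun p _ => ?_
  by_cases h : b.factorization p = c.factorization p
  · rw [h]
  · rw [if_neg (fun h1 => h h1.1), if_neg (fun h1 => h h1.1.symm)]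

/-- **THE WEIGHT OF A FAR PAIR** -/
theorem weight_pair (hM : 0 < M) {b c : ℕ} (hb : b ∣ M) (hc : c ∣ M) (hL : 0 < P.L)
    (hY : ∀ i, P.Y i = 2 ^ i)
    (hthr : ∀ b i, P.thr b i ≤ Real.exp ((P.Y (i - 1) : ℝ) ^ (4 / 5 : ℝ))) {y x Q : ℕ}
    (hx : 2 ≤ x) (hxQ : x ≤ Q) (hgood : F.good x b c) {h : ℤ}
    (hl : h ∈ Lnk P.γ P.L b c) (hal : AlLe F P b c h Q) (hLg : P.L ≤ (Nat.gcd b c : ℕ))
    (heq : ∀ p, p.Prime → y < p → p ≤ x → b.factorization p = c.factorization p) :
    Vw M y x b * boostB M (lamR F P) b c h ≤ Real.exp 200 * (Real.exp (22 / Real.log 2) *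
      (Real.log Q / Real.log x)) * PureL2x232.B1 b c * (BoostRx398.bst (prQ y) M b c *
        min (Wc F P y x b) (Wc F P y x c)) := by
  classical
  have h1 := boost_far_lab hM hb hc hL hY hthr hx hxQ hgood hl hal hLg
  have hV : 0 ≤ Vw M y x b := prod_fac_nonneg fun _ hp => prime_free (mem_filter.1 hp).1
  have hlx : 0 < Real.log x := Real.log_pos (by exact_mod_cast (by omega : 1 < x))
  have hlQ : 0 < Real.log Q := Real.log_pos (by exact_mod_cast (by omega : 1 < Q))
  have hB1 : 0 ≤ PureL2x232.B1 b c := B1_nonneg b c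
  have hC : 0 ≤ Real.exp 200 * (Real.exp (22 / Real.log 2) *
      (Real.log Q / Real.log x)) * PureL2x232.B1 b c := by positivity
  refine (mul_le_mul_of_nonneg_left h1 hV).trans ?_
  rw [mul_left_comm]
  refine mul_le_mul_of_nonneg_left ?_ hC
  have hmem : ∀ p ∈ LabS F P x b c, p.Prime ∧ p ≤ x ∧ Com M b c p ∧
      lamR F P b p ≠ none ∧ lamR F P c p ≠ none := by
    intro p hp
    unfold LabS at hp
    rw [mem_filter] at hp
    have h2 := mem_prQ.1 hp.1
    exact ⟨h2.2, h2.1, hp.2.1, hp.2.2.1, hp.2.2.2⟩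
  have h2 : Vw M y x b * ∏ p ∈ LabS F P x b c, pf p ≤
      BoostRx398.bst (prQ y) M b c * Wc F P y x b :=
    Vw_mul_le fun p hp => by
      obtain ⟨h3, h4, h5, h6, h7⟩ := hmem p hp
      exact ⟨h3, h4, h5, h6⟩
  have h3 : Vw M y x b * ∏ p ∈ LabS F P x b c, pf p ≤
      BoostRx398.bst (prQ y) M b c * Wc F P y x c := by
    rw [Vw_congr heq, bst_symm]
    exact Vw_mul_le fun p hp => by
      obtain ⟨h3, h4, h5, h6, h7⟩ := hmem p hp
      exact ⟨h3, h4, ⟨h5.1.symm, by rw [← h5.1]; exact h5.2⟩, h7⟩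
  have hbst : 0 ≤ BoostRx398.bst (prQ y) M b c := bst_nonneg _ _ _ _
  rw [mul_min_of_nonneg _ _ hbst]
  exact le_min h2 h3

end boost

/-! ### the world of a class -/

section world

open Crest.Agent.R4C.Cutx50 Crest.Agent.R4C.PureClsx863 Crest.Agent.R4C.PureL2x232

variable {M : ℕ} {F : FL M} {P : Par}

lemma prod_mul_le_union {S T : Finset ℕ} (hS : ∀ p ∈ S, p.Prime) (hT : ∀ p ∈ T, p.Prime) :
    (∏ p ∈ S, (1 - 1 / (p : ℝ))) * ∏ p ∈ T, (1 - 1 / (p : ℝ)) ≤
      ∏ p ∈ S ∪ T, (1 - 1 / (p : ℝ)) := by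
  classical
  rw [← prod_union_inter]
  refine mul_le_of_le_one_right (prod_fac_nonneg fun p hp => ?_) ?_
  · rcases mem_union.1 hp with h | h
    · exact hS p h
    · exact hT p h
  · exact prod_le_one (fun p hp => (fac_pos (hS p (mem_inter.1 hp).1)).le) fun p _ => fac_le_one p

/-- `VR` is the product over the missing primes of the full word -/
lemma VR_eq (hM : 0 < M) {G : ℕ} (hG : G ∈ cores F) :
    VR F G = ∏ p ∈ free M (G * PM F G), (1 - 1 / (p : ℝ)) := by
  have h1 := mul_dvd (F := F) hM hG (w := PM F G) dvd_rfl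
  rw [← PrefixMx882.diag hM h1, nu_class hM hG dvd_rfl]
  have h2 : nu (PM F G) (PM F G) = 1 / (PM F G : ℝ) := by
    unfold nu
    rw [Nat.div_self (PM_pos G), Nat.totient_one, Nat.cast_one]
  have h3 : (PM F G : ℝ) ≠ 0 := by exact_mod_cast (PM_pos (F := F) G).ne'
  rw [h2, ← mul_nu0 hM hG]
  push_cast
  field_simp

open Classical in
/-- `VR · V_n ≤ Vw` -/
lemma VR_mul_le (hM : 0 < M) {G w x y : ℕ} (hG : G ∈ cores F) (hw : w ∣ PM F G) :
    VR F G * ((low x w : ℝ) * nu (low x (PM F G)) (low x w)) ≤ Vw M y x (G * w) := by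
  have hN := PM_pos (F := F) G
  have hw0 : w ≠ 0 := (Nat.pos_of_dvd_of_pos hw hN).ne'
  have hl : low x w ∣ low x (PM F G) := low_dvd x hN.ne' hw
  rw [PrefixMx882.diag (low_pos x _) hl, VR_eq hM hG]
  refine (prod_mul_le_union (fun p hp => prime_free hp) (fun p hp => prime_free hp)).trans ?_
  unfold Vw
  refine prod_fac_anti (fun p hp => ?_) ?_
  · rcases mem_union.1 hp with h | h
    · exact prime_free h
    · exact prime_free h
  · intro p hp
    rw [mem_filter, mem_free] at hp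
    obtain ⟨⟨h1, h2⟩, h3, h4⟩ := hp
    rw [mem_union, mem_free, mem_free]
    by_cases h5 : (G * PM F G).factorization p < M.factorization p
    · exact Or.inl ⟨h1, h5⟩
    · right
      rw [fact_mul_word hM hG dvd_rfl] at h5
      rw [fact_mul_word hM hG hw] at h2
      have h6 : w.factorization p < (PM F G).factorization p := by omega
      refine ⟨?_, ?_⟩
      · rw [← Nat.support_factorization, Finsupp.mem_support_iff, fact_low, if_pos h4]
        omega
      · rw [fact_low, fact_low, if_pos h4, if_pos h4]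
        exact h6

open Classical in
/-- coins of the word -/
noncomputable def Ww (N : ℕ) (coin : ℕ → Prop) (y x w : ℕ) : ℝ :=
  ∏ p ∈ (free N w).filter (fun p => y < p ∧ p ≤ x ∧ coin p), (1 - 1 / (p : ℝ))

/-- coins of `GWdef_982` -/
lemma Wp_eq (Z : GWdefx982.World) (a b w : ℕ) : Z.Wp a b w = Ww Z.N (Z.coin w) a b w := rfl

/-- the constant for `x = 2^(A i)`, `Q = 2^(A (2 i))` -/
lemma log_ratio {A i : ℕ} (hA : 1 ≤ A) (hi : 1 ≤ i) :
    Real.log ((2 ^ (A * (2 * i)) : ℕ) : ℝ) / Real.log ((2 ^ (A * i) : ℕ) : ℝ) = 2 := by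
  have h1 : 0 < Real.log 2 := Real.log_pos (by norm_num)
  have h2 : (1 : ℝ) ≤ A := by exact_mod_cast hA
  have h3 : (1 : ℝ) ≤ i := by exact_mod_cast hi
  push_cast
  rw [Real.log_pow, Real.log_pow]
  push_cast
  have h4 : (A : ℝ) * i * Real.log 2 ≠ 0 := by positivity
  field_simp

/-- `gcd ν ν` of a pair of a class -/
lemma gnn_class (hM : 0 < M) {G w w' x : ℕ} (hG : G ∈ cores F) (hw : w ∣ PM F G)
    (hw' : w' ∣ PM F G) (hgcd : Nat.gcd w w' = low x w) :
    (Nat.gcd (G * w) (G * w') : ℝ) * nu M (G * w) * nu M (G * w') =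
      nu0 F G * (nu (PM F G) w * nu (PM F G) w' / nu (low x (PM F G)) (low x w)) *
        (VR F G * ((low x w : ℝ) * nu (low x (PM F G)) (low x w))) := by
  have hN := PM_pos (F := F) G
  have hl : low x w ∣ low x (PM F G) := low_dvd x hN.ne' hw
  have hg : 0 < nu (low x (PM F G)) (low x w) := nu_pos (low_pos x _) hl
  rw [nu_class hM hG hw, nu_class hM hG hw', Nat.gcd_mul_left, hgcd, ← mul_nu0 hM hG]
  push_cast
  field_simp

set_option maxHeartbeats 800000 in
open Classical in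
/-- **(F3), scalar form**: pairs of one class, low word `(1, 1)` -/
theorem weight_class (hM : 0 < M) (hL : 0 < P.L) (hY : ∀ i, P.Y i = 2 ^ i)
    (hthr : ∀ b i, P.thr b i ≤ Real.exp ((P.Y (i - 1) : ℝ) ^ (4 / 5 : ℝ))) {G w w' x Q : ℕ}
    (hG : G ∈ cores F) (hw : w ∣ PM F G) (hw' : w' ∣ PM F G) (hlow : low x w = low x w')
    (hgcd : Nat.gcd w w' = low x w) (hx : 2 ≤ x) (hxQ : x ≤ Q)
    (hgood : F.good x (G * w) (G * w')) {h : ℤ} (hl : h ∈ Lnk P.γ P.L (G * w) (G * w'))
    (hal : AlLe F P (G * w) (G * w') h Q) (hLg : P.L ≤ (Nat.gcd (G * w) (G * w') : ℕ)) :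
    (Nat.gcd (G * w) (G * w') : ℝ) * nu M (G * w) * nu M (G * w') *
        boostB M (lamR F P) (G * w) (G * w') h ≤
      Real.exp 200 * (Real.exp (22 / Real.log 2) * (Real.log Q / Real.log x)) *
        PureL2x232.B1 (G * w) (G * w') *
        (nu0 F G * (nu (PM F G) w * nu (PM F G) w' / nu (low x (PM F G)) (low x w)) *
          min (Ww (PM F G) (fun p => lamR F P (G * w) p = none) 0 x w)
            (Ww (PM F G) (fun p => lamR F P (G * w') p = none) 0 x w')) := by
  have hN := PM_pos (F := F) G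
  have hb := mul_dvd hM hG hw
  have hc := mul_dvd hM hG hw'
  have hG0 : G ≠ 0 := (Nat.pos_of_dvd_of_pos (mem_cores.1 hG).1.1 hM).ne'
  have heq : ∀ p, p.Prime → 0 < p → p ≤ x →
      (G * w).factorization p = (G * w').factorization p := by
    intro p _ _ hpx
    rw [fact_mul_word hM hG hw, fact_mul_word hM hG hw']
    have h1 : (low x w).factorization p = (low x w').factorization p := by rw [hlow]
    rw [fact_low, fact_low, if_pos hpx, if_pos hpx] at h1
    omega
  have h1 := weight_pair (y := 0) hM hb hc hL hY hthr hx hxQ hgood hl hal hLg heq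
  have e0 : BoostRx398.bst (prQ 0) M (G * w) (G * w') = 1 := by
    rw [bst_eq]
    refine prod_eq_one fun p hp => ?_
    have := mem_prQ.1 (mem_filter.1 hp).1
    have h2 := this.2.pos
    omega
  rw [e0, one_mul] at h1
  -- coins of the word are coins of `b`
  have hW : ∀ v, v ∣ PM F G → Wc F P 0 x (G * v) ≤
      Ww (PM F G) (fun p => lamR F P (G * v) p = none) 0 x v := by
    intro v hv
    unfold Wc Ww
    refine prod_fac_anti (fun p hp => prime_free (mem_filter.1 hp).1) ?_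
    intro p hp
    simp only [mem_filter, mem_free] at hp ⊢
    obtain ⟨⟨h2, h3⟩, h4⟩ := hp
    refine ⟨⟨?_, ?_⟩, h4⟩
    · have h5 := Nat.mem_primeFactors.1 h2
      rw [Nat.mem_primeFactors]
      exact ⟨h5.1, h5.2.1.trans (dvd_trans (Dvd.intro_left _ rfl) (mul_PM_dvd hM hG)), hM.ne'⟩
    · rw [fact_mul_word hM hG hv]
      have h6 := (Nat.factorization_le_iff_dvd (mul_ne_zero hG0 hN.ne') hM.ne').2
        (mul_PM_dvd (F := F) hM hG) p
      rw [fact_mul_word hM hG dvd_rfl] at h6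
      omega
  have hmin : min (Wc F P 0 x (G * w)) (Wc F P 0 x (G * w')) ≤
      min (Ww (PM F G) (fun p => lamR F P (G * w) p = none) 0 x w)
        (Ww (PM F G) (fun p => lamR F P (G * w') p = none) 0 x w') :=
    min_le_min (hW w hw) (hW w' hw')
  rw [gnn_class hM hG hw hw' hgcd]
  have hbo := Spinex946.boostB_nonneg M (lamR F P) (G * w) (G * w') h
  have hK : 0 ≤ nu0 F G * (nu (PM F G) w * nu (PM F G) w' / nu (low x (PM F G)) (low x w)) :=
    mul_nonneg (nu0_nonneg _) (div_nonneg (mul_nonneg (nu_nonneg _ _) (nu_nonneg _ _))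
      (nu_nonneg _ _))
  have hlx : 0 < Real.log x := Real.log_pos (by exact_mod_cast (by omega : 1 < x))
  have hlQ : 0 < Real.log Q := Real.log_pos (by exact_mod_cast (by omega : 1 < Q))
  have hB1 : 0 ≤ PureL2x232.B1 (G * w) (G * w') := B1_nonneg _ _
  have hC : 0 ≤ Real.exp 200 * (Real.exp (22 / Real.log 2) *
      (Real.log Q / Real.log x)) * PureL2x232.B1 (G * w) (G * w') := by positivity
  have h2 : VR F G * ((low x w : ℝ) * nu (low x (PM F G)) (low x w)) *
      boostB M (lamR F P) (G * w) (G * w') h ≤ Vw M 0 x (G * w) *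
      boostB M (lamR F P) (G * w) (G * w') h :=
    mul_le_mul_of_nonneg_right (VR_mul_le hM hG hw) hbo
  have h3 := h2.trans (h1.trans (mul_le_mul_of_nonneg_left hmin hC))
  calc _ = nu0 F G * (nu (PM F G) w * nu (PM F G) w' / nu (low x (PM F G)) (low x w)) *
        (VR F G * ((low x w : ℝ) * nu (low x (PM F G)) (low x w)) *
          boostB M (lamR F P) (G * w) (G * w') h) := by ring
    _ ≤ nu0 F G * (nu (PM F G) w * nu (PM F G) w' / nu (low x (PM F G)) (low x w)) * _ :=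
        mul_le_mul_of_nonneg_left h3 hK
    _ = _ := by ring

/-! ### low words -/

lemma gcd_cut (hM : 0 < M) {b c : ℕ} (hb : b ∣ M) (hc : c ∣ M) (y : ℕ) :
    Nat.gcd b c = Nat.gcd (low y b) (low y c) * Nat.gcd (upp y b) (upp y c) := by
  have hb0 : b ≠ 0 := (Nat.pos_of_dvd_of_pos hb hM).ne'
  have hc0 : c ≠ 0 := (Nat.pos_of_dvd_of_pos hc hM).ne'
  have h1 : Nat.gcd (low y b) (low y c) ≠ 0 := (Nat.gcd_pos_of_pos_left _ (low_pos y b)).ne'
  have h2 : Nat.gcd (upp y b) (upp y c) ≠ 0 := (Nat.gcd_pos_of_pos_left _ (upp_pos y b)).ne'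
  refine eq_of_fact (Nat.gcd_pos_of_pos_left _ (Nat.pos_of_ne_zero hb0)).ne' (mul_ne_zero h1 h2)
    fun p _ => ?_
  rw [Nat.factorization_mul h1 h2, Nat.factorization_gcd hb0 hc0,
    Nat.factorization_gcd (low_pos y b).ne' (low_pos y c).ne',
    Nat.factorization_gcd (upp_pos y b).ne' (upp_pos y c).ne', Finsupp.add_apply,
    Finsupp.inf_apply, Finsupp.inf_apply, Finsupp.inf_apply, fact_low, fact_low, fact_upp,
    fact_upp]
  by_cases h : p ≤ y
  · simp [h]
  · simp [h]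

open Classical in
lemma Vw_upp {b y x : ℕ} : Vw (upp y M) y x (upp y b) = Vw M y x b := by
  unfold Vw
  refine prod_congr ?_ fun _ _ => rfl
  ext p
  simp only [mem_filter, mem_free]
  constructor
  · rintro ⟨⟨h1, h2⟩, h3, h4⟩
    rw [fact_upp, fact_upp, if_pos (by omega), if_pos (by omega)] at h2
    refine ⟨⟨?_, h2⟩, h3, h4⟩
    rw [← Nat.support_factorization, Finsupp.mem_support_iff]
    omega
  · rintro ⟨⟨h1, h2⟩, h3, h4⟩
    refine ⟨⟨?_, ?_⟩, h3, h4⟩
    · rw [← Nat.support_factorization, Finsupp.mem_support_iff, fact_upp, if_pos (by omega)]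
      omega
    · rw [fact_upp, fact_upp, if_pos (by omega), if_pos (by omega)]
      exact h2

set_option maxHeartbeats 1600000 in
open Classical in
/-- **(F3) with low words**: `b = u z`, `c = u' z'`, `u, u'` = parts `≤ y`, `z, z'` in one class of
`hiFL hM y F`; the low boost is the full boost `bst (prQ y)` -/
theorem weight_low (hM : 0 < M) (hL : 0 < P.L) (hY : ∀ i, P.Y i = 2 ^ i)
    (hthr : ∀ b i, P.thr b i ≤ Real.exp ((P.Y (i - 1) : ℝ) ^ (4 / 5 : ℝ))) {b c y G z z' x Q : ℕ}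
    (hb : b ∣ M) (hc : c ∣ M)
    (hG : G ∈ cores (hiFL hM y F)) (hz : z ∣ PM (hiFL hM y F) G) (hz' : z' ∣ PM (hiFL hM y F) G)
    (eb : upp y b = G * z) (ec : upp y c = G * z') (hlow : low x z = low x z')
    (hgcd : Nat.gcd z z' = low x z) (hx : 2 ≤ x) (hxQ : x ≤ Q)
    (hgood : F.good x b c) {h : ℤ} (hl : h ∈ Lnk P.γ P.L b c)
    (hal : AlLe F P b c h Q) (hLg : P.L ≤ (Nat.gcd b c : ℕ)) :
    (Nat.gcd b c : ℝ) * nu M b * nu M c * boostB M (lamR F P) b c h ≤
      Real.exp 200 * (Real.exp (22 / Real.log 2) * (Real.log Q / Real.log x)) *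
        PureL2x232.B1 b c *
        (((Nat.gcd (low y b) (low y c) : ℝ) * nu (low y M) (low y b) * nu (low y M) (low y c) *
          BoostRx398.bst (prQ y) M b c) *
        (nu0 (hiFL hM y F) G * (nu (PM (hiFL hM y F) G) z * nu (PM (hiFL hM y F) G) z' /
            nu (low x (PM (hiFL hM y F) G)) (low x z)) *
          min (Ww (PM (hiFL hM y F) G) (fun p => lamR F P b p = none) y x z)
            (Ww (PM (hiFL hM y F) G) (fun p => lamR F P c p = none) y x z'))) := by
  set F' := hiFL hM y F with hF'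
  have hMy : 0 < upp y M := upp_pos y M
  have hN := PM_pos (F := F') G
  have hb0 : b ≠ 0 := (Nat.pos_of_dvd_of_pos hb hM).ne'
  have hc0 : c ≠ 0 := (Nat.pos_of_dvd_of_pos hc hM).ne'
  have hG0 : G ≠ 0 := (Nat.pos_of_dvd_of_pos (mem_cores.1 hG).1.1 hMy).ne'
  have heq : ∀ p, p.Prime → y < p → p ≤ x → b.factorization p = c.factorization p := by
    intro p _ hyp hpx
    have h1 : (low x z).factorization p = (low x z').factorization p := by rw [hlow]
    rw [fact_low, fact_low, if_pos hpx, if_pos hpx] at h1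
    have h2 : (upp y b).factorization p = b.factorization p := by
      rw [fact_upp, if_pos (by omega)]
    have h3 : (upp y c).factorization p = c.factorization p := by
      rw [fact_upp, if_pos (by omega)]
    rw [← h2, ← h3, eb, ec, fact_mul_word hMy hG hz, fact_mul_word hMy hG hz', h1]
  have h1 := weight_pair (y := y) hM hb hc hL hY hthr hx hxQ hgood hl hal hLg heq
  -- coins
  have hW : ∀ (d v : ℕ), d ∣ M → v ∣ PM F' G → upp y d = G * v → Wc F P y x d ≤
      Ww (PM F' G) (fun p => lamR F P d p = none) y x v := by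
    intro d v hd hv ed
    unfold Wc Ww
    refine prod_fac_anti (fun p hp => prime_free (mem_filter.1 hp).1) ?_
    intro p hp
    simp only [mem_filter, mem_free] at hp ⊢
    obtain ⟨⟨h2, h3⟩, h4, h5, h6⟩ := hp
    have h7 := (Nat.factorization_le_iff_dvd (mul_ne_zero hG0 hN.ne') hMy.ne').2
      (mul_PM_dvd (F := F') hMy hG) p
    rw [fact_mul_word hMy hG dvd_rfl, fact_upp, if_pos (by omega)] at h7
    have h8 : d.factorization p = G.factorization p + v.factorization p := by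
      rw [← fact_mul_word hMy hG hv, ← ed, fact_upp, if_pos (by omega)]
    refine ⟨⟨?_, ?_⟩, h4, h5, h6⟩
    · rw [← Nat.support_factorization, Finsupp.mem_support_iff]
      omega
    · omega
  have hmin : min (Wc F P y x b) (Wc F P y x c) ≤
      min (Ww (PM F' G) (fun p => lamR F P b p = none) y x z)
        (Ww (PM F' G) (fun p => lamR F P c p = none) y x z') :=
    min_le_min (hW b z hb hz eb) (hW c z' hc hz' ec)
  -- masses
  have e1 : (Nat.gcd b c : ℝ) * nu M b * nu M c =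
      ((Nat.gcd (low y b) (low y c) : ℝ) * nu (low y M) (low y b) * nu (low y M) (low y c)) *
      (nu0 F' G * (nu (PM F' G) z * nu (PM F' G) z' / nu (low x (PM F' G)) (low x z)) *
        (VR F' G * ((low x z : ℝ) * nu (low x (PM F' G)) (low x z)))) := by
    rw [← gnn_class hMy hG hz hz' hgcd, ← eb, ← ec, gcd_cut hM hb hc y]
    have e2 : nu M b = nu (low y M) (low y b) * nu (upp y M) (upp y b) := by
      conv_lhs => rw [← low_mul_upp y hb0]
      exact nu_low_upp hM (low_dvd y hM.ne' hb) (upp_dvd y hM.ne' hb)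
    have e3 : nu M c = nu (low y M) (low y c) * nu (upp y M) (upp y c) := by
      conv_lhs => rw [← low_mul_upp y hc0]
      exact nu_low_upp hM (low_dvd y hM.ne' hc) (upp_dvd y hM.ne' hc)
    rw [e2, e3]
    push_cast
    ring
  rw [e1]
  set gl := (Nat.gcd (low y b) (low y c) : ℝ) * nu (low y M) (low y b) * nu (low y M) (low y c)
    with hgl
  set K := nu0 F' G * (nu (PM F' G) z * nu (PM F' G) z' / nu (low x (PM F' G)) (low x z)) with hK
  set bo := boostB M (lamR F P) b c h with hbo'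
  set bs := BoostRx398.bst (prQ y) M b c with hbs
  set mn' := min (Ww (PM F' G) (fun p => lamR F P b p = none) y x z)
    (Ww (PM F' G) (fun p => lamR F P c p = none) y x z') with hmn
  have hbo : 0 ≤ bo := Spinex946.boostB_nonneg M (lamR F P) b c h
  have hK0 : 0 ≤ K :=
    mul_nonneg (nu0_nonneg _) (div_nonneg (mul_nonneg (nu_nonneg _ _) (nu_nonneg _ _))
      (nu_nonneg _ _))
  have hgl0 : 0 ≤ gl := mul_nonneg (mul_nonneg (by positivity) (nu_nonneg _ _)) (nu_nonneg _ _)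
  have hbs0 : 0 ≤ bs := bst_nonneg _ _ _ _
  have hlx : 0 < Real.log x := Real.log_pos (by exact_mod_cast (by omega : 1 < x))
  have hlQ : 0 < Real.log Q := Real.log_pos (by exact_mod_cast (by omega : 1 < Q))
  have hB1 : 0 ≤ PureL2x232.B1 b c := B1_nonneg _ _
  have hC : 0 ≤ Real.exp 200 * (Real.exp (22 / Real.log 2) *
      (Real.log Q / Real.log x)) * PureL2x232.B1 b c := by positivity
  have h2 : VR F' G * ((low x z : ℝ) * nu (low x (PM F' G)) (low x z)) * bo ≤
      Vw M y x b * bo := by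
    refine mul_le_mul_of_nonneg_right ?_ hbo
    have h3 := VR_mul_le (x := x) (y := y) hMy hG hz
    rw [← eb, Vw_upp] at h3
    exact h3
  have h3 := h2.trans (h1.trans (mul_le_mul_of_nonneg_left
    (mul_le_mul_of_nonneg_left hmin hbs0) hC))
  calc gl * (K * (VR F' G * ((low x z : ℝ) * nu (low x (PM F' G)) (low x z)))) * bo
      = (gl * K) * (VR F' G * ((low x z : ℝ) * nu (low x (PM F' G)) (low x z)) * bo) := by ring
    _ ≤ (gl * K) * _ := mul_le_mul_of_nonneg_left h3 (mul_nonneg hgl0 hK0)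
    _ = _ := by ring

end world

end Crest.Agent.R4C.GWwtx360
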