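import Mathlib

/-!
# Row 4, GW section: ANTICHAIN LEMMA (zones, persisters, word-dependent W, prefix normalisation)

helper9, note 3599.  One zone = a laminar family of nodes `S n` (sets of words, `n ∈ Nd`, rank `rk`),
each inside a prefix fibre of mass `g n`.  A word changes at most at one node of the zone
(`A n ⊆ S n ∩ B1`, pairwise disjoint).  Hypothesis (prefix-normalised):
`ν{w ∈ n ∩ B_i : Y w ≤ s} ≤ C1 (s + κ) g n`.  Then for every `lam > 0`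

`∑_n ν(A n) ν(S n ∩ B2) / g n ≤ 8 C1 (E1 / lam + lam E2)`, `E_i = ∑_{w ∈ B_i in the zone} ν w (Y w + κ)`.
-/

set_option autoImplicit false
set_option linter.unusedSectionVars false

open Finset MeasureTheory

noncomputable section

namespace Crest.Agent.R4C.GWzonex9

/-! ### integrals of indicators -/

lemma ind_lt (W : ℝ) :
    (fun x : ℝ => if x < W then (1:ℝ) else 0) = (Set.Iio W).indicator (fun _ => (1:ℝ)) := by
  funext x
  by_cases hx : x < W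
  · simp [hx]
  · simp [hx]

lemma int_lt (W : ℝ) (h0 : 0 ≤ W) (h1 : W ≤ 1) :
    ∫ x in Set.Ioc (0:ℝ) 1, (if x < W then (1:ℝ) else 0) = W := by
  rw [ind_lt, setIntegral_indicator measurableSet_Iio, setIntegral_const, smul_eq_mul, mul_one]
  have h2 : (Set.Ioc (0:ℝ) 1 ∩ Set.Iio W : Set ℝ) = Set.Ioo 0 W := by
    ext x
    simp only [Set.mem_inter_iff, Set.mem_Ioc, Set.mem_Iio, Set.mem_Ioo]
    constructor
    · rintro ⟨⟨a, _⟩, c⟩; exact ⟨a, c⟩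
    · rintro ⟨a, c⟩; exact ⟨⟨a, by linarith⟩, c⟩
  rw [h2]
  simp [Measure.real, h0]

lemma integrable_lt (W : ℝ) :
    IntegrableOn (fun x : ℝ => if x < W then (1:ℝ) else 0) (Set.Ioc 0 1) := by
  rw [ind_lt]
  apply Integrable.indicator _ measurableSet_Iio
  exact integrableOn_const (by simp)

lemma ind_le (W : ℝ) :
    (fun x : ℝ => if x ≤ W then (1:ℝ) else 0) = (Set.Iic W).indicator (fun _ => (1:ℝ)) := by
  funext x
  by_cases hx : x ≤ W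
  · simp [hx]
  · simp [hx]

lemma int_le (W : ℝ) (h0 : 0 ≤ W) :
    ∫ x in Set.Ioc (0:ℝ) 1, (if x ≤ W then (1:ℝ) else 0) ≤ W := by
  rw [ind_le, setIntegral_indicator measurableSet_Iic, setIntegral_const, smul_eq_mul, mul_one]
  have h2 : (Set.Ioc (0:ℝ) 1 ∩ Set.Iic W : Set ℝ) ⊆ Set.Ioc 0 W := by
    rintro x ⟨⟨a, _⟩, c⟩
    exact ⟨a, c⟩
  calc volume.real (Set.Ioc (0:ℝ) 1 ∩ Set.Iic W : Set ℝ) ≤ volume.real (Set.Ioc 0 W) :=
        measureReal_mono h2 (by simp)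
    _ = W := by simp [Measure.real, h0]

lemma integrable_le (W : ℝ) :
    IntegrableOn (fun x : ℝ => if x ≤ W then (1:ℝ) else 0) (Set.Ioc 0 1) := by
  rw [ind_le]
  apply Integrable.indicator _ measurableSet_Iic
  exact integrableOn_const (by simp)

variable {Ω N Z : Type*} [DecidableEq Ω] [DecidableEq N]

/-- laminar family of nodes -/
structure Lam (Nd : Finset N) (S : N → Finset Ω) (rk : N → ℕ) : Prop where
  lam : ∀ n ∈ Nd, ∀ n' ∈ Nd, rk n ≤ rk n' → ¬ Disjoint (S n) (S n') → S n' ⊆ S n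
  inj : ∀ n ∈ Nd, ∀ n' ∈ Nd, n ≠ n' → rk n = rk n' → Disjoint (S n) (S n')

open Classical in
/-- first nodes with property `P` -/
def First (Nd : Finset N) (S : N → Finset Ω) (rk : N → ℕ) (P : N → Prop) : Finset N :=
  Nd.filter fun n => P n ∧ ∀ n' ∈ Nd, P n' → rk n' < rk n → Disjoint (S n') (S n)

lemma first_disj {Nd : Finset N} {S : N → Finset Ω} {rk : N → ℕ} (hL : Lam Nd S rk)
    (P : N → Prop) : ∀ n ∈ First Nd S rk P, ∀ n' ∈ First Nd S rk P, n ≠ n' →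
      Disjoint (S n) (S n') := by
  classical
  intro n hn n' hn' hne
  unfold First at hn hn'
  rw [mem_filter] at hn hn'
  rcases lt_trichotomy (rk n) (rk n') with h | h | h
  · exact hn'.2.2 n hn.1 hn.2.1 h
  · exact hL.inj n hn.1 n' hn'.1 hne h
  · exact (hn.2.2 n' hn'.1 hn'.2.1 h).symm

lemma first_cover {Nd : Finset N} {S : N → Finset Ω} {rk : N → ℕ} (hL : Lam Nd S rk)
    (P : N → Prop) {n : N} (hn : n ∈ Nd) (hP : P n) {w : Ω} (hw : w ∈ S n) :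
    ∃ m ∈ First Nd S rk P, w ∈ S m := by
  classical
  let C := Nd.filter fun m => P m ∧ w ∈ S m
  have hC : C.Nonempty := ⟨n, by simp [C, hn, hP, hw]⟩
  obtain ⟨m, hm, hmin⟩ := exists_min_image C rk hC
  have hm' : m ∈ Nd ∧ P m ∧ w ∈ S m := by simpa [C] using hm
  refine ⟨m, ?_, hm'.2.2⟩
  unfold First
  rw [mem_filter]
  refine ⟨hm'.1, hm'.2.1, fun n' hn' hPn' hlt => ?_⟩
  by_contra hnd
  have hsub := hL.lam n' hn' m hm'.1 hlt.le hnd
  have : n' ∈ C := by simp [C, hn', hPn', hsub hm'.2.2]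
  have := hmin n' this
  omega

/-- words changing at a `P`-node lie in the first `P`-nodes -/
lemma charge_first {Nd : Finset N} {S : N → Finset Ω} {rk : N → ℕ} (hL : Lam Nd S rk)
    (P : N → Prop) [DecidablePred P] (B1 : Finset Ω) (A : N → Finset Ω)
    (hA : ∀ n ∈ Nd, A n ⊆ S n ∩ B1)
    (hAd : ∀ n ∈ Nd, ∀ n' ∈ Nd, n ≠ n' → Disjoint (A n) (A n'))
    (f : Ω → ℝ) (hf : ∀ w, 0 ≤ f w) :
    ∑ n ∈ Nd.filter P, ∑ w ∈ A n, f w ≤
      ∑ n ∈ First Nd S rk P, ∑ w ∈ S n ∩ B1, f w := by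
  classical
  have hpd : Set.PairwiseDisjoint (↑(Nd.filter P) : Set N) A := by
    intro n hn n' hn' hne
    have h1 : n ∈ Nd.filter P := by simpa using hn
    have h2 : n' ∈ Nd.filter P := by simpa using hn'
    exact hAd n (mem_filter.1 h1).1 n' (mem_filter.1 h2).1 hne
  have hpf : Set.PairwiseDisjoint (↑(First Nd S rk P) : Set N) (fun n => S n ∩ B1) := by
    intro n hn n' hn' hne
    exact (first_disj hL P n (by simpa using hn) n' (by simpa using hn') hne).mono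
      inter_subset_left inter_subset_left
  rw [← sum_biUnion hpd, ← sum_biUnion hpf]
  refine sum_le_sum_of_subset_of_nonneg ?_ fun w _ _ => hf w
  intro w hw
  rw [mem_biUnion] at hw ⊢
  obtain ⟨n, hn, hwn⟩ := hw
  rw [mem_filter] at hn
  have h1 := hA n hn.1 hwn
  rw [mem_inter] at h1
  obtain ⟨m, hm, hwm⟩ := first_cover hL P hn.1 hn.2 h1.1
  exact ⟨m, hm, mem_inter.2 ⟨hwm, h1.2⟩⟩

lemma sum_first_le {Nd : Finset N} {S : N → Finset Ω} {rk : N → ℕ} (hL : Lam Nd S rk)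
    (P : N → Prop) (B : Finset Ω) (f : Ω → ℝ) (hf : ∀ w, 0 ≤ f w) :
    ∑ n ∈ First Nd S rk P, ∑ w ∈ S n ∩ B, f w ≤ ∑ w ∈ (Nd.biUnion S) ∩ B, f w := by
  classical
  have hpf : Set.PairwiseDisjoint (↑(First Nd S rk P) : Set N) (fun n => S n ∩ B) := by
    intro n hn n' hn' hne
    exact (first_disj hL P n (by simpa using hn) n' (by simpa using hn') hne).mono
      inter_subset_left inter_subset_left
  rw [← sum_biUnion hpf]
  refine sum_le_sum_of_subset_of_nonneg ?_ fun w _ _ => hf w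
  intro w hw
  rw [mem_biUnion] at hw
  obtain ⟨n, hn, hwn⟩ := hw
  rw [mem_inter] at hwn ⊢
  refine ⟨mem_biUnion.2 ⟨n, ?_, hwn.1⟩, hwn.2⟩
  unfold First at hn
  exact (mem_filter.1 hn).1

/-- half of the mass of a node has large `Y` (or `κ` is large) -/
lemma half_mass (T : Finset Ω) (f Y : Ω → ℝ) (hf : ∀ w, 0 ≤ f w) (C1 κ g t : ℝ)
    (hC : 1 ≤ C1) (hg : 0 < g) (ht : 0 ≤ t)
    (hm1 : ∑ w ∈ T, f w ≤ g) (hm2 : t * g < ∑ w ∈ T, f w)
    (hyp : ∀ s, 0 ≤ s → s ≤ 1 → ∑ w ∈ T with Y w ≤ s, f w ≤ C1 * (s + κ) * g) :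
    ∑ w ∈ T, f w ≤ 2 * ∑ w ∈ T, f w *
      (if t / (4 * C1) ≤ Y w ∨ t / (4 * C1) ≤ κ then (1:ℝ) else 0) := by
  classical
  have hC0 : 0 < C1 := by linarith
  set m := ∑ w ∈ T, f w with hm
  have hmpos : 0 < m := lt_of_le_of_lt (by positivity) hm2
  set s := m / (4 * C1 * g) with hs
  have hs0 : 0 ≤ s := by positivity
  have hs1 : s ≤ 1 := by
    rw [hs, div_le_one (by positivity)]
    nlinarith
  have hts : t / (4 * C1) ≤ s := by
    rw [hs, div_le_div_iff₀ (by positivity) (by positivity)]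
    nlinarith
  by_cases hκ : s ≤ κ
  · have h1 : ∀ w ∈ T, f w * (if t / (4 * C1) ≤ Y w ∨ t / (4 * C1) ≤ κ then (1:ℝ) else 0) = f w := by
      intro w _
      rw [if_pos (Or.inr (hts.trans hκ)), mul_one]
    rw [sum_congr rfl h1, ← hm]
    linarith
  · push Not at hκ
    have h2 := hyp s hs0 hs1
    have h3 : C1 * (s + κ) * g ≤ m / 2 := by
      have h4 : C1 * (s + κ) * g ≤ C1 * (s + s) * g := by
        apply mul_le_mul_of_nonneg_right _ hg.le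
        apply mul_le_mul_of_nonneg_left _ hC0.le
        linarith
      have h5 : C1 * (s + s) * g = m / 2 := by
        rw [hs]; field_simp; ring
      linarith
    have h6 : m = ∑ w ∈ T with Y w ≤ s, f w + ∑ w ∈ T with ¬ Y w ≤ s, f w := by
      rw [hm, sum_filter_add_sum_filter_not]
    have h7 : ∑ w ∈ T with ¬ Y w ≤ s, f w ≤ ∑ w ∈ T, f w *
        (if t / (4 * C1) ≤ Y w ∨ t / (4 * C1) ≤ κ then (1:ℝ) else 0) := by
      rw [sum_filter]
      refine sum_le_sum fun w _ => ?_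
      by_cases h8 : Y w ≤ s
      · simp only [h8, not_true_eq_false, if_false]
        apply mul_nonneg (hf w)
        split_ifs <;> norm_num
      · simp only [h8, not_false_eq_true, if_true]
        push Not at h8
        rw [if_pos (Or.inl (hts.trans h8.le)), mul_one]
    linarith

/-- the bound at one threshold `u` -/
lemma level_bound {Nd : Finset N} {S : N → Finset Ω} {rk : N → ℕ} (hL : Lam Nd S rk)
    (B1 B2 : Finset Ω) (A : N → Finset Ω) (hA : ∀ n ∈ Nd, A n ⊆ S n ∩ B1)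
    (hAd : ∀ n ∈ Nd, ∀ n' ∈ Nd, n ≠ n' → Disjoint (A n) (A n'))
    (f Y : Ω → ℝ) (hf : ∀ w, 0 ≤ f w) (g : N → ℝ) (hg : ∀ n ∈ Nd, 0 < g n) (C1 κ : ℝ)
    (hC : 1 ≤ C1)
    (hm1 : ∀ n ∈ Nd, ∑ w ∈ S n ∩ B1, f w ≤ g n) (hm2 : ∀ n ∈ Nd, ∑ w ∈ S n ∩ B2, f w ≤ g n)
    (hyp1 : ∀ n ∈ Nd, ∀ s, 0 ≤ s → s ≤ 1 →
      ∑ w ∈ S n ∩ B1 with Y w ≤ s, f w ≤ C1 * (s + κ) * g n)
    (hyp2 : ∀ n ∈ Nd, ∀ s, 0 ≤ s → s ≤ 1 →
      ∑ w ∈ S n ∩ B2 with Y w ≤ s, f w ≤ C1 * (s + κ) * g n)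
    (lam u : ℝ) (hlam : 0 < lam) (hu : 0 < u) :
    ∑ n ∈ Nd with u < (∑ w ∈ S n ∩ B2, f w) / g n, ∑ w ∈ A n, f w ≤
      2 * (∑ w ∈ (Nd.biUnion S) ∩ B1, f w *
        (if lam * u / (4 * C1) ≤ Y w ∨ lam * u / (4 * C1) ≤ κ then (1:ℝ) else 0)) +
      2 * lam * (∑ w ∈ (Nd.biUnion S) ∩ B2, f w *
        (if u / (4 * C1) ≤ Y w ∨ u / (4 * C1) ≤ κ then (1:ℝ) else 0)) := by
  classical
  set P : N → Prop := fun n => u < (∑ w ∈ S n ∩ B2, f w) / g n with hP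
  have h1 := charge_first hL P B1 A hA hAd f hf
  set F1 : Ω → ℝ := fun w => f w *
    (if lam * u / (4 * C1) ≤ Y w ∨ lam * u / (4 * C1) ≤ κ then (1:ℝ) else 0) with hF1
  set F2 : Ω → ℝ := fun w => f w *
    (if u / (4 * C1) ≤ Y w ∨ u / (4 * C1) ≤ κ then (1:ℝ) else 0) with hF2
  have hF1' : ∀ w, 0 ≤ F1 w := fun w => mul_nonneg (hf w) (by split_ifs <;> norm_num)
  have hF2' : ∀ w, 0 ≤ F2 w := fun w => mul_nonneg (hf w) (by split_ifs <;> norm_num)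
  have h2 : ∀ n ∈ First Nd S rk P, ∑ w ∈ S n ∩ B1, f w ≤
      2 * ∑ w ∈ S n ∩ B1, F1 w + 2 * lam * ∑ w ∈ S n ∩ B2, F2 w := by
    intro n hn
    unfold First at hn
    rw [mem_filter] at hn
    have hnN := hn.1
    have hPn : u < (∑ w ∈ S n ∩ B2, f w) / g n := hn.2.1
    have hgn := hg n hnN
    rw [lt_div_iff₀ hgn] at hPn
    have e1 : 0 ≤ ∑ w ∈ S n ∩ B1, F1 w := sum_nonneg fun w _ => hF1' w
    have e2 : 0 ≤ ∑ w ∈ S n ∩ B2, F2 w := sum_nonneg fun w _ => hF2' w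
    by_cases hc : lam * u * g n < ∑ w ∈ S n ∩ B1, f w
    · have h3 := half_mass (S n ∩ B1) f Y hf C1 κ (g n) (lam * u) hC hgn (by positivity)
        (hm1 n hnN) hc (hyp1 n hnN)
      have : 0 ≤ 2 * lam * ∑ w ∈ S n ∩ B2, F2 w := by positivity
      linarith
    · push Not at hc
      have h3 := half_mass (S n ∩ B2) f Y hf C1 κ (g n) u hC hgn hu.le
        (hm2 n hnN) hPn (hyp2 n hnN)
      have h4 : ∑ w ∈ S n ∩ B1, f w ≤ lam * ∑ w ∈ S n ∩ B2, f w := by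
        calc ∑ w ∈ S n ∩ B1, f w ≤ lam * u * g n := hc
          _ = lam * (u * g n) := by ring
          _ ≤ lam * ∑ w ∈ S n ∩ B2, f w := mul_le_mul_of_nonneg_left hPn.le hlam.le
      have h5 : lam * ∑ w ∈ S n ∩ B2, f w ≤ lam * (2 * ∑ w ∈ S n ∩ B2, F2 w) :=
        mul_le_mul_of_nonneg_left h3 hlam.le
      linarith
  calc ∑ n ∈ Nd with P n, ∑ w ∈ A n, f w ≤ ∑ n ∈ First Nd S rk P, ∑ w ∈ S n ∩ B1, f w := h1
    _ ≤ ∑ n ∈ First Nd S rk P, (2 * ∑ w ∈ S n ∩ B1, F1 w + 2 * lam * ∑ w ∈ S n ∩ B2, F2 w) :=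
        sum_le_sum h2
    _ = 2 * ∑ n ∈ First Nd S rk P, ∑ w ∈ S n ∩ B1, F1 w +
        2 * lam * ∑ n ∈ First Nd S rk P, ∑ w ∈ S n ∩ B2, F2 w := by
        rw [sum_add_distrib, ← mul_sum, ← mul_sum]
    _ ≤ _ := by
        have h6 := sum_first_le hL P B1 F1 hF1'
        have h7 := sum_first_le hL P B2 F2 hF2'
        have h8 : 2 * lam * ∑ n ∈ First Nd S rk P, ∑ w ∈ S n ∩ B2, F2 w ≤
            2 * lam * ∑ w ∈ (Nd.biUnion S) ∩ B2, F2 w :=
          mul_le_mul_of_nonneg_left h7 (by positivity)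
        linarith

lemma int_or (a b c : ℝ) (ha : 0 ≤ a) (hb : 0 ≤ b) (hc : 0 < c) :
    ∫ u in Set.Ioc (0:ℝ) 1, (if c * u ≤ a ∨ c * u ≤ b then (1:ℝ) else 0) ≤ (a + b) / c ∧
    IntegrableOn (fun u : ℝ => if c * u ≤ a ∨ c * u ≤ b then (1:ℝ) else 0) (Set.Ioc 0 1) := by
  have h1 : (fun u : ℝ => if c * u ≤ a ∨ c * u ≤ b then (1:ℝ) else 0) =
      (fun u : ℝ => if u ≤ max a b / c then (1:ℝ) else 0) := by
    funext u
    have : (c * u ≤ a ∨ c * u ≤ b) ↔ u ≤ max a b / c := by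
      rw [le_div_iff₀ hc, mul_comm u c, le_max_iff]
    simp only [this]
  rw [h1]
  refine ⟨?_, integrable_le _⟩
  refine (int_le _ (by positivity)).trans ?_
  apply div_le_div_of_nonneg_right _ hc.le
  exact max_le (by linarith) (by linarith)

/-- ANTICHAIN LEMMA, one zone, bilinear. -/
theorem zone_charge {Nd : Finset N} {S : N → Finset Ω} {rk : N → ℕ} (hL : Lam Nd S rk)
    (B1 B2 : Finset Ω) (A : N → Finset Ω) (hA : ∀ n ∈ Nd, A n ⊆ S n ∩ B1)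
    (hAd : ∀ n ∈ Nd, ∀ n' ∈ Nd, n ≠ n' → Disjoint (A n) (A n'))
    (f Y : Ω → ℝ) (hf : ∀ w, 0 ≤ f w) (hY : ∀ w, 0 ≤ Y w) (g : N → ℝ) (hg : ∀ n ∈ Nd, 0 < g n)
    (C1 κ : ℝ) (hC : 1 ≤ C1) (hκ : 0 ≤ κ)
    (hm1 : ∀ n ∈ Nd, ∑ w ∈ S n ∩ B1, f w ≤ g n) (hm2 : ∀ n ∈ Nd, ∑ w ∈ S n ∩ B2, f w ≤ g n)
    (hyp1 : ∀ n ∈ Nd, ∀ s, 0 ≤ s → s ≤ 1 →
      ∑ w ∈ S n ∩ B1 with Y w ≤ s, f w ≤ C1 * (s + κ) * g n)
    (hyp2 : ∀ n ∈ Nd, ∀ s, 0 ≤ s → s ≤ 1 →
      ∑ w ∈ S n ∩ B2 with Y w ≤ s, f w ≤ C1 * (s + κ) * g n)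
    (lam : ℝ) (hlam : 0 < lam) :
    ∑ n ∈ Nd, (∑ w ∈ A n, f w) * (∑ w ∈ S n ∩ B2, f w) / g n ≤
      8 * C1 * ((∑ w ∈ (Nd.biUnion S) ∩ B1, f w * (Y w + κ)) / lam +
        lam * ∑ w ∈ (Nd.biUnion S) ∩ B2, f w * (Y w + κ)) := by
  classical
  have hC0 : 0 < C1 := by linarith
  -- left side as an integral
  have hL1 : ∀ n ∈ Nd, (∑ w ∈ A n, f w) * (∑ w ∈ S n ∩ B2, f w) / g n =
      ∫ u in Set.Ioc (0:ℝ) 1, (∑ w ∈ A n, f w) *
        (if u < (∑ w ∈ S n ∩ B2, f w) / g n then (1:ℝ) else 0) := by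
    intro n hn
    have hgn := hg n hn
    rw [integral_const_mul, int_lt _ (div_nonneg (sum_nonneg fun w _ => hf w) hgn.le)
      ((div_le_one hgn).2 (hm2 n hn))]
    ring
  rw [sum_congr rfl hL1, ← integral_finsetSum _ fun n _ => (integrable_lt _).const_mul _]
  -- right side
  have hint1 : ∀ w, ∫ u in Set.Ioc (0:ℝ) 1,
      (if lam / (4 * C1) * u ≤ Y w ∨ lam / (4 * C1) * u ≤ κ then (1:ℝ) else 0) ≤
        (Y w + κ) / (lam / (4 * C1)) := fun w => (int_or _ _ _ (hY w) hκ (by positivity)).1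
  have hint2 : ∀ w, ∫ u in Set.Ioc (0:ℝ) 1,
      (if 1 / (4 * C1) * u ≤ Y w ∨ 1 / (4 * C1) * u ≤ κ then (1:ℝ) else 0) ≤
        (Y w + κ) / (1 / (4 * C1)) := fun w => (int_or _ _ _ (hY w) hκ (by positivity)).1
  set G : ℝ → ℝ := fun u => 2 * (∑ w ∈ (Nd.biUnion S) ∩ B1, f w *
        (if lam / (4 * C1) * u ≤ Y w ∨ lam / (4 * C1) * u ≤ κ then (1:ℝ) else 0)) +
      2 * lam * (∑ w ∈ (Nd.biUnion S) ∩ B2, f w *
        (if 1 / (4 * C1) * u ≤ Y w ∨ 1 / (4 * C1) * u ≤ κ then (1:ℝ) else 0)) with hG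
  have hI1 : IntegrableOn (fun u : ℝ => ∑ w ∈ (Nd.biUnion S) ∩ B1, f w *
        (if lam / (4 * C1) * u ≤ Y w ∨ lam / (4 * C1) * u ≤ κ then (1:ℝ) else 0))
        (Set.Ioc 0 1) := by
    apply integrable_finsetSum
    intro w _
    exact ((int_or (Y w) κ (lam / (4 * C1)) (hY w) hκ (by positivity)).2).const_mul _
  have hI2 : IntegrableOn (fun u : ℝ => ∑ w ∈ (Nd.biUnion S) ∩ B2, f w *
        (if 1 / (4 * C1) * u ≤ Y w ∨ 1 / (4 * C1) * u ≤ κ then (1:ℝ) else 0))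
        (Set.Ioc 0 1) := by
    apply integrable_finsetSum
    intro w _
    exact ((int_or (Y w) κ (1 / (4 * C1)) (hY w) hκ (by positivity)).2).const_mul _
  have hle : ∫ u in Set.Ioc (0:ℝ) 1, (∑ n ∈ Nd, (∑ w ∈ A n, f w) *
        (if u < (∑ w ∈ S n ∩ B2, f w) / g n then (1:ℝ) else 0)) ≤
      ∫ u in Set.Ioc (0:ℝ) 1, G u := by
    refine setIntegral_mono_on ?_ ?_ measurableSet_Ioc ?_
    · exact integrable_finsetSum _ fun n _ => (integrable_lt _).const_mul _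
    · exact (hI1.const_mul 2).add (hI2.const_mul (2 * lam))
    · intro u hu
      have h1 := level_bound hL B1 B2 A hA hAd f Y hf g hg C1 κ hC hm1 hm2 hyp1 hyp2 lam u hlam hu.1
      have e1 : lam / (4 * C1) * u = lam * u / (4 * C1) := by ring
      have e2 : 1 / (4 * C1) * u = u / (4 * C1) := by ring
      have e3 : ∑ n ∈ Nd, (∑ w ∈ A n, f w) *
          (if u < (∑ w ∈ S n ∩ B2, f w) / g n then (1:ℝ) else 0) =
          ∑ n ∈ Nd with u < (∑ w ∈ S n ∩ B2, f w) / g n, ∑ w ∈ A n, f w := by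
        rw [sum_filter]
        refine sum_congr rfl fun n _ => ?_
        split_ifs <;> simp
      simp only [hG, e1, e2]
      rw [e3]
      exact h1
  refine hle.trans ?_
  have hGint : ∫ u in Set.Ioc (0:ℝ) 1, G u =
      2 * (∑ w ∈ (Nd.biUnion S) ∩ B1, f w * ∫ u in Set.Ioc (0:ℝ) 1,
        (if lam / (4 * C1) * u ≤ Y w ∨ lam / (4 * C1) * u ≤ κ then (1:ℝ) else 0)) +
      2 * lam * (∑ w ∈ (Nd.biUnion S) ∩ B2, f w * ∫ u in Set.Ioc (0:ℝ) 1,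
        (if 1 / (4 * C1) * u ≤ Y w ∨ 1 / (4 * C1) * u ≤ κ then (1:ℝ) else 0)) := by
    simp only [hG]
    rw [integral_add (hI1.const_mul 2) (hI2.const_mul (2 * lam)), integral_const_mul,
      integral_const_mul,
      integral_finsetSum _ fun w _ =>
        ((int_or (Y w) κ (lam / (4 * C1)) (hY w) hκ (by positivity)).2).const_mul _,
      integral_finsetSum _ fun w _ =>
        ((int_or (Y w) κ (1 / (4 * C1)) (hY w) hκ (by positivity)).2).const_mul _]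
    simp only [integral_const_mul]
  rw [hGint]
  have hs1 : ∑ w ∈ (Nd.biUnion S) ∩ B1, f w * ∫ u in Set.Ioc (0:ℝ) 1,
        (if lam / (4 * C1) * u ≤ Y w ∨ lam / (4 * C1) * u ≤ κ then (1:ℝ) else 0) ≤
      (4 * C1 / lam) * ∑ w ∈ (Nd.biUnion S) ∩ B1, f w * (Y w + κ) := by
    rw [mul_sum]
    refine sum_le_sum fun w _ => ?_
    calc f w * _ ≤ f w * ((Y w + κ) / (lam / (4 * C1))) :=
          mul_le_mul_of_nonneg_left (hint1 w) (hf w)
      _ = 4 * C1 / lam * (f w * (Y w + κ)) := by field_simp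
  have hs2 : ∑ w ∈ (Nd.biUnion S) ∩ B2, f w * ∫ u in Set.Ioc (0:ℝ) 1,
        (if 1 / (4 * C1) * u ≤ Y w ∨ 1 / (4 * C1) * u ≤ κ then (1:ℝ) else 0) ≤
      (4 * C1) * ∑ w ∈ (Nd.biUnion S) ∩ B2, f w * (Y w + κ) := by
    rw [mul_sum]
    refine sum_le_sum fun w _ => ?_
    calc f w * _ ≤ f w * ((Y w + κ) / (1 / (4 * C1))) :=
          mul_le_mul_of_nonneg_left (hint2 w) (hf w)
      _ = 4 * C1 * (f w * (Y w + κ)) := by field_simp
  have hs3 := mul_le_mul_of_nonneg_left hs2 (by positivity : (0:ℝ) ≤ 2 * lam)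
  calc _ ≤ 2 * ((4 * C1 / lam) * ∑ w ∈ (Nd.biUnion S) ∩ B1, f w * (Y w + κ)) +
        2 * lam * ((4 * C1) * ∑ w ∈ (Nd.biUnion S) ∩ B2, f w * (Y w + κ)) := by linarith
    _ = _ := by field_simp; ring

end Crest.Agent.R4C.GWzonex9
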