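import Crest.Agent.R4C.Cell_863
import Crest.Agent.R4C.NHdef_656
import Crest.Agent.R4C.Rule_945

/-!
# Row 4, GW section: the dictionary between the rule (grid cuts) and the depth `On` (helper529)

`F : FL M`, `P : Par` (cuts `P.cut m`), `b ∣ M`; `h m = F.uu (P.cut m) b` = scale of `b` at the index `m`.

* `dpx F γ L x b f` : depth of the fraction `f` at the cut `x` (`dep F P m b f` is the one at `P.cut m`);
  `dpx_mono` : it grows with the cut.
* `OnF F γ L K x b` : some fraction has depth `< K` at the cut `x`;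
  `on_iff` : `On K (lam x b * γ) (uu x b / L) ↔ OnF F γ L K x b`;  `OnF.anti` = (O2).
* `uu_const`, `mul_dvd_uu` : `uu` does not change when no excess letter is crossed, and is multiplied by the
  crossed letters.
* `GapI F P m b` : `m` is a gap index of `b` (`2^m L ≤ uu (cut m) b < 2^(m+1) L`).
* (R1) `live_cut` : an index `m' > i` that is live for `b` has `r ≤ cut m'`, `r` = next letter;
  `fc_on` : a centre used at `q ∈ (cut i, r)` gives `OnF` at every cut `x ≤ cut (m1 r)`, in particular at `r`;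
  `coin_of_not_on` : `¬ On` at `r` gives a coin at `(b, q)`.
* (R2) `exists_next` : the next gap index `j`, `r ≤ cut j`, all indices between are not gap indices;
  `run_le` : the letters of `b` in `(r, cut j]` lie below the cut of the scale of their prefix;
  `elig_of_on`, `fc_of_on` : a fraction of small depth at the cut `cut j'` (any live `j'`) is eligible at all
  `q ≤ cut j'`, hence used, or the member uses another centre (conflict).
-/

set_option autoImplicit false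

open Finset
open Crest.Agent.R4C.FLDefx935 Crest.Agent.R4C.Basex935 Crest.Agent.R4C.Cutx50
  Crest.Agent.R4C.S7cx14 Crest.Agent.R4C.Rulex945 Crest.Agent.R4C.NHx656
  Crest.Agent.R4C.BoostCx972 Crest.Agent.R4C.CrCoinx935

namespace Crest.Agent.R4C.GapRulex529

variable {M : ℕ} {F : FL M}

/-! ### depth at a cut -/

/-- depth of the fraction `f` at the cut `x` -/
noncomputable def dpx (F : FL M) (γ L : ℝ) (x b : ℕ) (f : ℚ) : ℝ :=
  (k0 F x b f : ℝ) * max 1 ((b : ℝ) * |γ - f| / L)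

lemma dep_eq (P : Par) (m b : ℕ) (f : ℚ) : dep F P m b f = dpx F P.γ P.L (P.cut m) b f := rfl

lemma dpx_mono {γ L : ℝ} {x y b : ℕ} (hxy : x ≤ y) (f : ℚ) :
    dpx F γ L x b f ≤ dpx F γ L y b f := by
  unfold dpx
  refine mul_le_mul_of_nonneg_right ?_ (zero_le_one.trans (le_max_left _ _))
  exact_mod_cast Nat.le_of_dvd (k0_pos y b f) (k0_mono hxy f)

/-- `On` in the language of the rule -/
def OnF (F : FL M) (γ L K : ℝ) (x b : ℕ) : Prop := ∃ f : ℚ, dpx F γ L x b f < K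

lemma OnF.anti {γ L K : ℝ} {x y b : ℕ} (h : OnF F γ L K y b) (hxy : x ≤ y) :
    OnF F γ L K x b := by
  obtain ⟨f, hf⟩ := h
  exact ⟨f, (dpx_mono hxy f).trans_lt hf⟩

lemma OnF.mono {γ L K K' : ℝ} {x b : ℕ} (h : OnF F γ L K x b) (hK : K ≤ K') :
    OnF F γ L K' x b := by
  obtain ⟨f, hf⟩ := h
  exact ⟨f, hf.trans_le hK⟩

lemma scale_eq {γ L : ℝ} {x b : ℕ} (hM : 0 < M) (hb : b ∣ M) (f : ℝ) :
    (F.uu x b : ℝ) / L * |(F.lam x b : ℝ) * γ - (F.lam x b : ℝ) * f| = (b : ℝ) * |γ - f| / L := by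
  have h1 : (b : ℝ) = (F.uu x b : ℝ) * F.lam x b := by
    exact_mod_cast (FL.uu_mul_lam (F := F) (x := x) hM hb).symm
  have h2 : (0 : ℝ) ≤ F.lam x b := Nat.cast_nonneg _
  rw [← mul_sub, abs_mul, abs_of_nonneg h2]
  conv_rhs => rw [h1]
  ring

/-- the dictionary -/
theorem on_iff {γ L K : ℝ} {x b : ℕ} (hM : 0 < M) (hb : b ∣ M) :
    On K ((F.lam x b : ℝ) * γ) ((F.uu x b : ℝ) / L) ↔ OnF F γ L K x b := by
  have hl : 0 < F.lam x b := FL.lam_pos x b
  have hlR : (0 : ℝ) < F.lam x b := by exact_mod_cast hl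
  constructor
  · rintro ⟨a, k, hk, h⟩
    have hkR : (0 : ℝ) < k := by exact_mod_cast hk
    set f : ℚ := (a : ℚ) / ((k * F.lam x b : ℕ) : ℚ) with hf
    have hden : f.den ∣ k * F.lam x b := by
      have h1 := Rat.den_dvd a ((k * F.lam x b : ℕ) : ℤ)
      have h2 : Rat.divInt a ((k * F.lam x b : ℕ) : ℤ) = f := by
        rw [hf, Rat.divInt_eq_div]; push_cast; ring
      rw [h2] at h1
      exact_mod_cast h1
    have hk0 : k0 F x b f ≤ k := k0_le ⟨hk, hden⟩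
    refine ⟨f, lt_of_le_of_lt ?_ h⟩
    unfold dpx
    have e1 : (F.lam x b : ℝ) * (f : ℝ) = (a : ℝ) / k := by
      rw [hf]
      push_cast
      field_simp
    have e2 := scale_eq (F := F) (γ := γ) (L := L) (x := x) hM hb (f : ℝ)
    rw [e1] at e2
    rw [← e2]
    exact mul_le_mul_of_nonneg_right (by exact_mod_cast hk0)
      (zero_le_one.trans (le_max_left _ _))
  · rintro ⟨f, h⟩
    obtain ⟨r, hr⟩ := (isC_k0 (F := F) x b f).2
    refine ⟨f.num * r, k0 F x b f, k0_pos x b f, ?_⟩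
    unfold dpx at h
    have hkR : (0 : ℝ) < k0 F x b f := by exact_mod_cast k0_pos (F := F) x b f
    have hdR : (f.den : ℝ) ≠ 0 := by exact_mod_cast f.den_pos.ne'
    have e0 : (k0 F x b f : ℝ) * F.lam x b = (f.den : ℝ) * r := by exact_mod_cast hr
    have e1 : (((f.num * r : ℤ)) : ℝ) / (k0 F x b f : ℝ) = (F.lam x b : ℝ) * (f : ℝ) := by
      rw [div_eq_iff hkR.ne']
      have e3 : (f : ℝ) = (f.num : ℝ) / (f.den : ℝ) := by
        exact_mod_cast (congrArg (fun q : ℚ => (q : ℝ)) (Rat.num_div_den f)).symm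
      rw [e3]
      push_cast
      calc (f.num : ℝ) * r = (f.num : ℝ) / f.den * (f.den * r) := by field_simp
        _ = (f.num : ℝ) / f.den * (k0 F x b f * F.lam x b) := by rw [e0]
        _ = _ := by ring
    rw [e1, scale_eq (F := F) hM hb (f : ℝ)]
    exact h

/-! ### change of the scale with the cut -/

lemma lam_const {x y b : ℕ} (hM : 0 < M) (hb : b ∣ M) (hxy : x ≤ y)
    (h : ∀ p, p.Prime → x < p → p ≤ y → ¬ p ∣ F.lam x b) : F.lam y b = F.lam x b := by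
  refine Nat.eq_of_factorization_eq (FL.lam_pos _ _).ne' (FL.lam_pos _ _).ne' fun p => ?_
  by_cases hp : p.Prime
  · by_cases hy : y < p
    · rw [FL.fact_lam hM hb, FL.fact_lam hM hb]
      unfold FL.lamE
      rw [if_pos hy, if_pos (lt_of_le_of_lt hxy hy)]
    · have h1 : (F.lam y b).factorization p = 0 := by
        rw [FL.fact_lam hM hb]
        unfold FL.lamE
        rw [if_neg hy]
        split_ifs <;> rfl
      rw [h1]
      by_cases hx : x < p
      · exact (Nat.factorization_eq_zero_of_not_dvd (h p hp hx (not_lt.1 hy))).symm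
      · rw [FL.fact_lam hM hb]
        unfold FL.lamE
        rw [if_neg hx]
        split_ifs <;> rfl
  · rw [Nat.factorization_eq_zero_of_not_prime _ hp, Nat.factorization_eq_zero_of_not_prime _ hp]

lemma uu_const {x y b : ℕ} (hM : 0 < M) (hb : b ∣ M) (hxy : x ≤ y)
    (h : ∀ p, p.Prime → x < p → p ≤ y → ¬ p ∣ F.lam x b) : F.uu y b = F.uu x b := by
  have h1 := FL.uu_mul_lam (F := F) (x := y) hM hb
  have h2 := FL.uu_mul_lam (F := F) (x := x) hM hb
  rw [lam_const hM hb hxy h] at h1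
  exact Nat.eq_of_mul_eq_mul_right (FL.lam_pos x b) (h1.trans h2.symm)

/-- the crossed letters multiply `uu` -/
lemma mul_dvd_uu {x y b r : ℕ} (hM : 0 < M) (hb : b ∣ M) (hxy : x ≤ y) (hr : r.Prime)
    (hry : r ≤ y) (hrl : r ∣ F.lam x b) : F.uu x b * r ∣ F.uu y b := by
  obtain ⟨t, ht⟩ := FL.lam_dvd_lam (F := F) (b := b) hxy
  have h1 := FL.uu_mul_lam (F := F) (x := y) hM hb
  have h2 := FL.uu_mul_lam (F := F) (x := x) hM hb
  have h3 : F.uu y b = F.uu x b * t := by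
    refine Nat.eq_of_mul_eq_mul_right (FL.lam_pos (F := F) y b) ?_
    calc F.uu y b * F.lam y b = F.uu x b * F.lam x b := h1.trans h2.symm
      _ = F.uu x b * t * F.lam y b := by rw [ht]; ring
  have h4 : ¬ r ∣ F.lam y b := by
    intro hc
    have := (FL.prime_dvd_lam hM hb hr hc).1
    omega
  have h5 : r ∣ t := by
    rw [ht] at hrl
    exact (hr.dvd_mul.1 hrl).resolve_left h4
  rw [h3]
  exact Nat.mul_dvd_mul_left _ h5

/-! ### gap indices -/

/-- gap index -/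
def GapI (F : FL M) (P : Par) (m b : ℕ) : Prop :=
  (2 : ℝ) ^ m * P.L ≤ F.uu (P.cut m) b ∧ (F.uu (P.cut m) b : ℝ) < (2 : ℝ) ^ (m + 1) * P.L

/-- `r` is the next (excess) letter of `b` above the cut `x` -/
structure Nxt (F : FL M) (x b r : ℕ) : Prop where
  prime : r.Prime
  lt : x < r
  dvd : r ∣ F.lam x b
  no : ∀ p, p.Prime → x < p → p < r → ¬ p ∣ F.lam x b

lemma exists_nxt {x b : ℕ} (hM : 0 < M) (hb : b ∣ M) (h : F.lam x b ≠ 1) :
    ∃ r, Nxt F x b r := by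
  classical
  have h0 : ∃ r, r.Prime ∧ r ∣ F.lam x b := by
    obtain ⟨p, hp, hd⟩ := Nat.exists_prime_and_dvd h
    exact ⟨p, hp, hd⟩
  refine ⟨Nat.find h0, (Nat.find_spec h0).1, (FL.prime_dvd_lam hM hb (Nat.find_spec h0).1
    (Nat.find_spec h0).2).1, (Nat.find_spec h0).2, fun p hp _ hlt hd => ?_⟩
  exact Nat.find_min h0 hlt ⟨hp, hd⟩

variable {P : Par}

/-- (R1) an index above a gap index is live only if its cut contains the next letter -/
theorem live_cut (hM : 0 < M) (hL : 0 < P.L) (hcut : Monotone P.cut) {b i m r : ℕ} (hb : b ∣ M)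
    (hg : (F.uu (P.cut i) b : ℝ) < (2 : ℝ) ^ (i + 1) * P.L) (him : i < m)
    (hr : ∀ p, p.Prime → P.cut i < p → p < r → ¬ p ∣ F.lam (P.cut i) b)
    (hl : (2 : ℝ) ^ m * P.L ≤ F.uu (P.cut m) b) : r ≤ P.cut m := by
  by_contra hc
  have h1 : F.uu (P.cut m) b = F.uu (P.cut i) b :=
    uu_const hM hb (hcut him.le) fun p hp h2 h3 => hr p hp h2 (by omega)
  rw [h1] at hl
  have h2 : (2 : ℝ) ^ (i + 1) ≤ 2 ^ m := pow_le_pow_right₀ (by norm_num) him
  have h3 := mul_le_mul_of_nonneg_right h2 hL.le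
  linarith

/-- (R1) a centre used in the gap has an index whose cut contains the next letter -/
theorem fc_spec (hM : 0 < M) (hL : 0 < P.L) (hcut : Monotone P.cut) (hY : StrictMono P.Y)
    {b i q r : ℕ} {f : ℚ} (hb : b ∣ M)
    (hg : (F.uu (P.cut i) b : ℝ) < (2 : ℝ) ^ (i + 1) * P.L)
    (hr : ∀ p, p.Prime → P.cut i < p → p < r → ¬ p ∣ F.lam (P.cut i) b)
    (hq : P.cut i < q) (hf : Fc F P b q = some f) :
    ∃ m, i < m ∧ P.m0 ≤ m ∧ r ≤ P.cut m ∧ P.Y (P.blk q) ≤ P.cut m ∧ TC F P m b f ∧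
      dep F P m b f ≤ P.thr b (P.blk q) := by
  obtain ⟨h1, h2, h3, h4⟩ := Fc_spec hf
  have h5 : q ≤ P.Y (P.blk q) := Par.le_blk hY q
  have h6 : i < mst F P b q := by
    by_contra hc
    have := hcut (not_lt.1 hc)
    omega
  exact ⟨_, h6, h1, live_cut hM hL hcut hb hg h6 hr h3.scl, h2, h3, h4⟩

/-- (R1) ... hence `OnF` at every cut `x` below the first index whose cut contains `r` -/
theorem fc_on (hM : 0 < M) (hL : 0 < P.L) (hcut : Monotone P.cut) (hY : StrictMono P.Y)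
    {b i q r x m1 : ℕ} {f : ℚ} {K : ℝ} (hb : b ∣ M)
    (hg : (F.uu (P.cut i) b : ℝ) < (2 : ℝ) ^ (i + 1) * P.L)
    (hr : ∀ p, p.Prime → P.cut i < p → p < r → ¬ p ∣ F.lam (P.cut i) b)
    (hq : P.cut i < q) (hf : Fc F P b q = some f) (hm1 : ∀ m, r ≤ P.cut m → m1 ≤ m)
    (hx : x ≤ P.cut m1) (hK : P.thr b (P.blk q) < K) :
    dpx F P.γ P.L x b f < K := by
  obtain ⟨m, _, _, h3, _, _, h6⟩ := fc_spec hM hL hcut hY hb hg hr hq hf
  rw [dep_eq] at h6
  exact ((dpx_mono (hx.trans (hcut (hm1 m h3))) f).trans h6).trans_lt hK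

/-- (R1) at the letter `r` itself -/
theorem fc_on_letter (hM : 0 < M) (hL : 0 < P.L) (hcut : Monotone P.cut) (hY : StrictMono P.Y)
    {b i q r : ℕ} {f : ℚ} {K : ℝ} (hb : b ∣ M)
    (hg : (F.uu (P.cut i) b : ℝ) < (2 : ℝ) ^ (i + 1) * P.L)
    (hr : ∀ p, p.Prime → P.cut i < p → p < r → ¬ p ∣ F.lam (P.cut i) b)
    (hq : P.cut i < q) (hf : Fc F P b q = some f) (hK : P.thr b (P.blk q) < K) :
    dpx F P.γ P.L r b f < K := by
  obtain ⟨m, _, _, h3, _, _, h6⟩ := fc_spec hM hL hcut hY hb hg hr hq hf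
  rw [dep_eq] at h6
  exact ((dpx_mono h3 f).trans h6).trans_lt hK

/-- (R1) nominal coins are coins -/
theorem coin_of_not_on (hM : 0 < M) (hL : 0 < P.L) (hcut : Monotone P.cut) (hY : StrictMono P.Y)
    {b i q r : ℕ} {K : ℝ} (hb : b ∣ M)
    (hg : (F.uu (P.cut i) b : ℝ) < (2 : ℝ) ^ (i + 1) * P.L)
    (hr : ∀ p, p.Prime → P.cut i < p → p < r → ¬ p ∣ F.lam (P.cut i) b)
    (hq : P.cut i < q) (hK : P.thr b (P.blk q) < K)
    (hon : ¬ On K ((F.lam r b : ℝ) * P.γ) ((F.uu r b : ℝ) / P.L)) : Fc F P b q = none := by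
  cases h : Fc F P b q with
  | none => rfl
  | some f =>
    exact absurd ((on_iff hM hb).2 ⟨f, fc_on_letter hM hL hcut hY hb hg hr hq h hK⟩) hon

/-! ### the next gap index -/

/-- first index whose cut contains `r` -/
noncomputable def m1 (P : Par) (r : ℕ) : ℕ := sInf {m | r ≤ P.cut m}

lemma m1_spec (hcg : ∀ m, 2 ^ m ≤ P.cut m) (r : ℕ) : r ≤ P.cut (m1 P r) := by
  have h : ({m | r ≤ P.cut m} : Set ℕ).Nonempty :=
    ⟨r, (Nat.lt_two_pow_self).le.trans (hcg r)⟩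
  exact Nat.sInf_mem h

lemma m1_le {r m : ℕ} (h : r ≤ P.cut m) : m1 P r ≤ m := Nat.sInf_le h

lemma lt_m1 {r m : ℕ} (h : m < m1 P r) : P.cut m < r := by
  by_contra hc
  exact absurd (m1_le (not_lt.1 hc)) (not_le.2 h)

/-- (R2) the first index whose cut contains the next letter is live -/
theorem live_m1 (hM : 0 < M) (hL : 0 < P.L) (hcut : Monotone P.cut)
    (hcg : ∀ m, 2 ^ m ≤ P.cut m) {b i r : ℕ} (hb : b ∣ M) (hi : 1 ≤ i)
    (hg : (2 : ℝ) ^ i * P.L ≤ F.uu (P.cut i) b) (hr : Nxt F (P.cut i) b r) :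
    i < m1 P r ∧ (2 : ℝ) ^ m1 P r * P.L ≤ F.uu (P.cut (m1 P r)) b := by
  have h1 : r ≤ P.cut (m1 P r) := m1_spec hcg r
  have h2 : i < m1 P r := by
    by_contra hc
    have := hcut (not_lt.1 hc)
    have := hr.lt
    omega
  refine ⟨h2, ?_⟩
  have h3 : F.uu (P.cut i) b * r ∣ F.uu (P.cut (m1 P r)) b :=
    mul_dvd_uu hM hb (hcut h2.le) hr.prime h1 hr.dvd
  have h4 : ((F.uu (P.cut i) b * r : ℕ) : ℝ) ≤ F.uu (P.cut (m1 P r)) b := by
    exact_mod_cast Nat.le_of_dvd (FL.uu_pos _ _) h3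
  have h5 : P.cut (m1 P r - 1) < r := lt_m1 (by omega)
  have h6 : 2 ^ (m1 P r - 1) ≤ P.cut (m1 P r - 1) := hcg _
  have h7 : ((2 ^ (m1 P r - 1) : ℕ) : ℝ) ≤ r := by exact_mod_cast (h6.trans h5.le)
  have h8 : (2 : ℝ) ^ m1 P r = 2 ^ 1 * 2 ^ (m1 P r - 1) := by
    rw [← pow_add]; congr 1; omega
  have h9 : (2 : ℝ) ^ 1 ≤ 2 ^ i := pow_le_pow_right₀ (by norm_num) hi
  push_cast at h4 h7
  calc (2 : ℝ) ^ m1 P r * P.L = (2 ^ 1 * P.L) * 2 ^ (m1 P r - 1) := by rw [h8]; ring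
    _ ≤ (2 ^ i * P.L) * r :=
        mul_le_mul (mul_le_mul_of_nonneg_right h9 hL.le) h7 (by positivity) (by positivity)
    _ ≤ (F.uu (P.cut i) b : ℝ) * r := mul_le_mul_of_nonneg_right hg (Nat.cast_nonneg _)
    _ ≤ _ := h4

/-- no gap index before the cut contains the next letter -/
lemma not_gap_lt (hM : 0 < M) (hL : 0 < P.L) (hcut : Monotone P.cut) {b i m r : ℕ} (hb : b ∣ M)
    (hg : (F.uu (P.cut i) b : ℝ) < (2 : ℝ) ^ (i + 1) * P.L) (hr : Nxt F (P.cut i) b r)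
    (h1 : i < m) (h2 : m < m1 P r) : ¬ (2 : ℝ) ^ m * P.L ≤ F.uu (P.cut m) b := fun hl =>
  absurd (live_cut hM hL hcut hb hg h1 hr.no hl) (not_le.2 (lt_m1 h2))

/-- (R2) **the next gap index** -/
theorem exists_next (hM : 0 < M) (hL : 0 < P.L) (hcut : Monotone P.cut)
    (hcg : ∀ m, 2 ^ m ≤ P.cut m) {b i r : ℕ} (hb : b ∣ M) (hi : 1 ≤ i)
    (hg : GapI F P i b) (hr : Nxt F (P.cut i) b r) :
    ∃ j, i < j ∧ m1 P r ≤ j ∧ r ≤ P.cut j ∧ GapI F P j b ∧
      (∀ m, m1 P r ≤ m → m ≤ j → (2 : ℝ) ^ m * P.L ≤ F.uu (P.cut m) b) ∧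
      (∀ m, i < m → m < j → ¬ GapI F P m b) := by
  classical
  obtain ⟨h1, h2⟩ := live_m1 hM hL hcut hcg hb hi hg.1 hr
  -- some index `≥ m1` has `uu < 2^(m+1) L`
  have hex : ∃ m, m1 P r ≤ m ∧ (F.uu (P.cut m) b : ℝ) < (2 : ℝ) ^ (m + 1) * P.L := by
    obtain ⟨n, hn⟩ := pow_unbounded_of_one_lt ((M : ℝ) / P.L) (by norm_num : (1 : ℝ) < 2)
    refine ⟨max (m1 P r) n, le_max_left _ _, ?_⟩
    have h3 : (F.uu (P.cut (max (m1 P r) n)) b : ℝ) ≤ M := by
      exact_mod_cast Nat.le_of_dvd hM ((FL.uu_dvd hM hb).trans hb)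
    have h4 : (2 : ℝ) ^ n ≤ 2 ^ (max (m1 P r) n + 1) :=
      pow_le_pow_right₀ (by norm_num) (by omega)
    rw [div_lt_iff₀ hL] at hn
    have h5 := mul_le_mul_of_nonneg_right h4 hL.le
    linarith
  set j := Nat.find hex with hj
  obtain ⟨h3, h4⟩ := Nat.find_spec hex
  have hmin : ∀ m, m1 P r ≤ m → m < j → (2 : ℝ) ^ (m + 1) * P.L ≤ F.uu (P.cut m) b := by
    intro m hm hmj
    by_contra hc
    exact Nat.find_min hex hmj ⟨hm, not_le.1 hc⟩
  have hlive : ∀ m, m1 P r ≤ m → m ≤ j → (2 : ℝ) ^ m * P.L ≤ F.uu (P.cut m) b := by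
    intro m hm hmj
    rcases Nat.lt_or_ge (m1 P r) m with h5 | h5
    · obtain ⟨k, rfl⟩ : ∃ k, m = k + 1 := ⟨m - 1, by omega⟩
      have h6 := hmin k (by omega) (by omega)
      refine h6.trans ?_
      exact_mod_cast Nat.le_of_dvd (FL.uu_pos _ _) (FL.uu_dvd_uu (F := F) (b := b)
        (hcut (Nat.le_succ k)))
    · have : m = m1 P r := le_antisymm h5 hm
      rw [this]; exact h2
  refine ⟨j, lt_of_lt_of_le h1 h3, h3, (m1_spec hcg r).trans (hcut h3), ⟨hlive j h3 le_rfl, h4⟩,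
    hlive, ?_⟩
  intro m hm hmj hgm
  rcases Nat.lt_or_ge m (m1 P r) with h5 | h5
  · exact not_gap_lt hM hL hcut hb hg.2 hr hm h5 hgm.1
  · exact absurd hgm.2 (not_lt.2 (hmin m h5 hmj))

/-- (R2) **run lemma** : the letters `p ≠ r` of `b` in `(cut i, cut j]` are at most the cut of the scale of
their prefix (`uu y b`, `y < p` any cut above the smaller letters). -/
theorem run_le (hM : 0 < M) (hL : 0 < P.L) (hcut : Monotone P.cut) (hcg : ∀ m, 2 ^ m ≤ P.cut m)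
    {b i j r p y m : ℕ} (hb : b ∣ M) (hi : 1 ≤ i) (hg : GapI F P i b) (hr : Nxt F (P.cut i) b r)
    (hnog : ∀ m, i < m → m < j → ¬ GapI F P m b) (hpj : p ≤ P.cut j) (hy1 : r ≤ y)
    (hy3 : ∀ q, q.Prime → y < q → q < p → ¬ q ∣ F.lam (P.cut i) b)
    (hy4 : ∀ q, q.Prime → P.cut i < q → q ≤ y → q ∣ F.lam (P.cut i) b →
      F.uu (P.cut i) b * q ∣ F.uu y b)
    (hm1 : (2 : ℝ) ^ m * P.L ≤ F.uu y b) (hm2 : (F.uu y b : ℝ) < (2 : ℝ) ^ (m + 1) * P.L) :
    p ≤ P.cut m := by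
  by_contra hc
  have hc' : P.cut m < p := not_le.1 hc
  -- the letters of `b` up to `y` are at most `cut m`
  have hlet : ∀ q, q.Prime → P.cut i < q → q ≤ y → q ∣ F.lam (P.cut i) b → q ≤ P.cut m := by
    intro q hq h1 h2 h3
    have h4 : ((F.uu (P.cut i) b * q : ℕ) : ℝ) ≤ F.uu y b := by
      exact_mod_cast Nat.le_of_dvd (FL.uu_pos _ _) (hy4 q hq h1 h2 h3)
    push_cast at h4
    have h5 : (2 : ℝ) ^ i * P.L * q ≤ F.uu y b :=
      (mul_le_mul_of_nonneg_right hg.1 (Nat.cast_nonneg _)).trans h4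
    have h6 : (2 : ℝ) ^ i * q < 2 ^ (m + 1) := by
      have : (2 : ℝ) ^ i * q * P.L < 2 ^ (m + 1) * P.L := by linarith
      exact lt_of_mul_lt_mul_right this hL.le
    have h7 : (2 : ℝ) ^ 1 * q ≤ 2 ^ i * q :=
      mul_le_mul_of_nonneg_right (pow_le_pow_right₀ (by norm_num) hi) (Nat.cast_nonneg _)
    have h8 : (q : ℝ) < 2 ^ m := by
      rw [pow_succ] at h6
      linarith
    have h9 : q < 2 ^ m := by exact_mod_cast h8
    exact h9.le.trans (hcg m)
  have him : i < m := by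
    have h1 := hlet r hr.prime hr.lt hy1 hr.dvd
    by_contra h2
    have h3 := hcut (not_lt.1 h2)
    have h4 := hr.lt
    omega
  have hmj : m < j := by
    by_contra h2
    have h3 := hcut (not_lt.1 h2)
    omega
  -- no letter between `y` and `cut m`
  have hcy : F.uu (P.cut m) b = F.uu y b := by
    rcases le_total y (P.cut m) with h1 | h1
    · refine uu_const hM hb h1 fun q hq h2 h3 h4 => ?_
      exact hy3 q hq h2 (lt_of_le_of_lt h3 hc') (h4.trans (FL.lam_dvd_lam (hr.lt.le.trans hy1)))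
    · symm
      refine uu_const hM hb h1 fun q hq h2 h3 h4 => ?_
      have h5 : q ∣ F.lam (P.cut i) b := h4.trans (FL.lam_dvd_lam (hcut him.le))
      have h6 : P.cut i < q := lt_of_le_of_lt (hcut him.le) h2
      have := hlet q hq h6 h3 h5
      omega
  refine hnog m him hmj ⟨?_, ?_⟩
  · rw [hcy]; exact hm1
  · rw [hcy]; exact hm2

/-- the hypothesis `hy4` of `run_le` holds for every `y` -/
lemma hy4_of {x y b : ℕ} (hM : 0 < M) (hb : b ∣ M) (hxy : x ≤ y) : ∀ q, q.Prime → x < q → q ≤ y →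
    q ∣ F.lam x b → F.uu x b * q ∣ F.uu y b := fun _ hq _ h2 h3 => mul_dvd_uu hM hb hxy hq h2 h3

/-! ### shallow fractions are eligible -/

/-- a fraction of small depth at a live index is a tree centre -/
lemma tc_of_dep (hL : 0 < P.L) {b j : ℕ} {f : ℚ}
    (hl : (2 : ℝ) ^ j * P.L ≤ F.uu (P.cut j) b) (hE : dep F P j b f ≤ P.E j) :
    TC F P j b f :=
  ⟨(k0_le_dep j b f).trans hE,
    (dis_le_dep hL j b f).trans (mul_le_mul_of_nonneg_right hE hL.le), hl⟩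

/-- (R2) ... hence eligible at every `q` of an active block -/
theorem elig_of_dep (hL : 0 < P.L) (hY : StrictMono P.Y) (hbe : ∀ m, ∃ n, P.cut m = P.Y n)
    {b j q : ℕ} {f : ℚ} (hm0 : P.m0 ≤ j) (hl : (2 : ℝ) ^ j * P.L ≤ F.uu (P.cut j) b)
    (hE : dep F P j b f ≤ P.E j) (hq : q ≤ P.cut j) (ht : dep F P j b f ≤ P.thr b (P.blk q)) :
    elig F P b q j := by
  obtain ⟨n, hn⟩ := hbe j
  exact ⟨hm0, Par.act_of_le hY hn hq, f, tc_of_dep hL hl hE, ht⟩

/-- (R2) the centre used at `q` is `f`, or the item uses a centre of a larger scale (conflict) -/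
theorem fc_of_dep (hL : 0 < P.L) (hM : 0 < M) (hN : (M : ℝ) / P.L ≤ P.N) (hY : StrictMono P.Y)
    (hbe : ∀ m, ∃ n, P.cut m = P.Y n) (hcut : Monotone P.cut)
    (hE3 : ∀ m, P.m0 ≤ m → 2 * P.E m ^ 3 < 2 ^ m) {b j q : ℕ} {f : ℚ} (hb : b ∣ M)
    (hm0 : P.m0 ≤ j) (hl : (2 : ℝ) ^ j * P.L ≤ F.uu (P.cut j) b)
    (hE : dep F P j b f ≤ P.E j) (hq : q ≤ P.cut j) (ht : dep F P j b f ≤ P.thr b (P.blk q)) :
    Fc F P b q = some f ∨ ∃ m₂ f₂, j < m₂ ∧ f ≠ f₂ ∧ TC F P m₂ b f₂ ∧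
      dep F P m₂ b f₂ ≤ P.thr b (P.blk q) ∧ Fc F P b q = some f₂ ∧
      (2 : ℝ) ^ j ≤ 2 * dep F P j b f * P.thr b (P.blk q) := by
  obtain ⟨n, hn⟩ := hbe j
  have hT := tc_of_dep (F := F) hL hl hE
  rcases case_of hL hM hN hE3 hb hm0 hT (Par.act_of_le hY hn hq) with
    h1 | h1 | ⟨m₂, f₂, h1, h2, h3, h4, h5, _⟩
  · exact Or.inl h1
  · exact absurd ht (not_le.2 h1)
  · right
    refine ⟨m₂, f₂, h1, h2, h3, h4, h5, ?_⟩
    have h6 := conflict_scale hL hM hcut hb h1.le hT h2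
    refine h6.trans ?_
    have h7 : 0 ≤ 2 * dep F P j b f := by
      have := one_le_dep (F := F) (P := P) j b f
      linarith
    exact mul_le_mul_of_nonneg_left h4 h7

/-- (R2) used centre and label : if moreover `q` is a prime that does not divide the denominator the
label exists -/
theorem lab_of_dep (hL : 0 < P.L) (hM : 0 < M) (hN : (M : ℝ) / P.L ≤ P.N) (hY : StrictMono P.Y)
    (hbe : ∀ m, ∃ n, P.cut m = P.Y n) (hcut : Monotone P.cut)
    (hE3 : ∀ m, P.m0 ≤ m → 2 * P.E m ^ 3 < 2 ^ m) {b j q : ℕ} {f : ℚ} (hb : b ∣ M)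
    (hm0 : P.m0 ≤ j) (hl : (2 : ℝ) ^ j * P.L ≤ F.uu (P.cut j) b)
    (hE : dep F P j b f ≤ P.E j) (hq : q ≤ P.cut j) (ht : dep F P j b f ≤ P.thr b (P.blk q))
    (hnc : 2 * dep F P j b f * P.thr b (P.blk q) < (2 : ℝ) ^ j) :
    Fc F P b q = some f := by
  rcases fc_of_dep hL hM hN hY hbe hcut hE3 hb hm0 hl hE hq ht with h | ⟨_, _, _, _, _, _, _, h⟩
  · exact h
  · exact absurd h (not_le.2 hnc)

/-! ### prefix worlds -/

section world

open Crest.Agent.R4C.PureClsx863 Crest.Agent.R4C.Cellx863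

variable {G w : ℕ}

lemma uu_world (hM : 0 < M) (hG : G ∈ cores F) (hw : w ∣ PM F G) {x : ℕ} (hx : D F G ≤ x) :
    F.uu x (G * w) = G * low x w := by
  rw [uu_class hM hG hw, uu_core_of_le hM hG hx]

lemma lam_world (hM : 0 < M) (hG : G ∈ cores F) (hw : w ∣ PM F G) {x : ℕ} (hx : D F G ≤ x) :
    F.lam x (G * w) = upp x w := by
  rw [lam_class hM hG hw, lam_core_of_le hM hG hx, one_mul]

/-- the dictionary in a prefix world -/
theorem on_world {γ L K : ℝ} (hM : 0 < M) (hG : G ∈ cores F) (hw : w ∣ PM F G) {x : ℕ}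
    (hx : D F G ≤ x) :
    On K ((upp x w : ℝ) * γ) (((G * low x w : ℕ) : ℝ) / L) ↔ OnF F γ L K x (G * w) := by
  rw [← on_iff (F := F) hM (PureClsx863.mul_dvd hM hG hw), uu_world hM hG hw hx,
    lam_world hM hG hw hx]

/-- gap index = gap node of 863 -/
theorem gap_world (hM : 0 < M) (hL : 0 < P.L) (hG : G ∈ cores F) (hw : w ∣ PM F G) {m : ℕ}
    (hx : D F G ≤ P.cut m) (hg : GapI F P m (G * w)) :
    Gap P.cut P.L G w (G * low (P.cut m) w) ∧ lev P.L (G * low (P.cut m) w) = m := by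
  obtain ⟨h1, h2⟩ := hg
  rw [uu_world hM hG hw hx] at h1 h2
  have h3 := lev_eq hL h1 h2
  refine ⟨?_, h3⟩
  unfold Gap
  rw [h3]

end world

end Crest.Agent.R4C.GapRulex529
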