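import Crest.Agent.R4C.VDef_24
import Crest.Agent.R4C.DictW_20

/-!
# Row 4, GW section, vector case: weight side of `VDef_24.TPair` (helper20)

In the literal terms of `VDef_24` (`Z = vw .. (H0 b)`, `w = hw b`, window `win`):

* `wv_vw` : the world of `VDef_24` is a world with nominal coins (`DictV_20.WV`);
* `yc_le` : `yc a a' ≤ cut i` for `i ≥ iA a a'`, `i ≥ 1`, `10 ≤ A`;
* `good_birth` : outside `HvyR (l-1)` all nominal coins above the birth of the zone of the node `l`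
  are actual coins of `b`;
* `act_le_Wb` : the product of the actual coins of `b` in `(y, cut l]` is `≤ Wb` of the zone.
-/

set_option autoImplicit false

open Finset
open Crest.Agent.R4C.Basex935 Crest.Agent.R4C.Cutx50 Crest.Agent.R4C.PrefixMx882
open Crest.Agent.R4C.FLDefx935 Crest.Agent.R4C.Rulex945 Crest.Agent.R4C.PureClsx863
open Crest.Agent.R4C.PureL2x232 (hiFL)
open Crest.Agent.R4C.GWdefx982 Crest.Agent.R4C.NHx656
open Crest.Agent.R4C.Splitx945 Crest.Agent.R4C.Spinex946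
open Crest.Agent.R4C.VDefx24
open Crest.Agent.R4C.DictVx20 (WV VB Sc AllAct allAct_of)

namespace Crest.Agent.R4C.GoodVx20

variable {cp : ℝ} {A m0 : ℕ} {γ L : ℝ} {M : ℕ} {B : Finset ℕ} {F : FL M}

lemma pow_quarter {A i q : ℕ} (hA : 1 ≤ A) (hq : 2 ^ (A * i) ≤ q) :
    (2 : ℝ) ^ ((1 / 4 : ℝ) * i) ≤ (q : ℝ) ^ (1 / (4 * (A : ℝ))) := by
  have hA0 : (0 : ℝ) < A := by exact_mod_cast hA
  have h1 : ((2 : ℝ) ^ ((A : ℝ) * i)) ≤ q := by
    have : ((2 ^ (A * i) : ℕ) : ℝ) ≤ q := by exact_mod_cast hq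
    rw [← Nat.cast_mul, Real.rpow_natCast]
    exact_mod_cast this
  have h2 := Real.rpow_le_rpow (by positivity) h1 (by positivity : (0 : ℝ) ≤ 1 / (4 * (A : ℝ)))
  rw [← Real.rpow_mul (by norm_num)] at h2
  refine le_trans (le_of_eq ?_) h2
  congr 1
  field_simp

/-- **the world of `VDef_24` has nominal coins** -/
theorem wv_vw (hM : 0 < M) (hA : 1 ≤ A) (hcp : cp ≤ 1 / 4) {a a' s G : ℕ} :
    WV (vw hM F (ParOf cp A m0 γ L M B) (1 / (4 * A)) a a' s G) (ParOf cp A m0 γ L M B)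
      (1 / (4 * A)) (a + a' + 3) where
  cut := rfl
  γ := rfl
  coin := fun _ _ => Iff.rfl
  hθ := by
    intro i _ q hq
    have hq' : 2 ^ (A * i) ≤ q := le_of_lt hq
    show 4 * ((2 : ℝ) ^ (cp * i) / 16) ≤ 3 * (q : ℝ) ^ (1 / (4 * (A : ℝ)))
    have h1 := pow_quarter hA hq'
    have h2 : (2 : ℝ) ^ (cp * i) ≤ (2 : ℝ) ^ ((1 / 4 : ℝ) * i) :=
      Real.rpow_le_rpow_of_exponent_le (by norm_num)
        (mul_le_mul_of_nonneg_right hcp (Nat.cast_nonneg _))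
    have h3 : (0 : ℝ) ≤ (q : ℝ) ^ (1 / (4 * (A : ℝ))) := Real.rpow_nonneg (Nat.cast_nonneg _) _
    linarith

lemma iA_spec (a a' : ℕ) : 2 ^ (a + a') < (iA a a' + 1) ^ 8 := by
  have h : ({i : ℕ | 2 ^ (a + a') < (i + 1) ^ 8} : Set ℕ).Nonempty := by
    refine ⟨2 ^ (a + a'), ?_⟩
    show 2 ^ (a + a') < (2 ^ (a + a') + 1) ^ 8
    calc 2 ^ (a + a') < 2 ^ (a + a') + 1 := Nat.lt_succ_self _
      _ = (2 ^ (a + a') + 1) ^ 1 := (pow_one _).symm
      _ ≤ _ := Nat.pow_le_pow_right (Nat.succ_pos _) (by norm_num)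
  exact Nat.sInf_mem h

/-- the low cut is below the first cut of the world -/
lemma yc_le {a a' i A : ℕ} (hA : 10 ≤ A) (hi : 1 ≤ i) (h : iA a a' ≤ i) :
    yc a a' ≤ 2 ^ (A * i) := by
  have h1 := iA_spec a a'
  have h2 : (iA a a' + 1) ^ 8 ≤ (i + 1) ^ 8 := Nat.pow_le_pow_left (by omega) 8
  have h3 : i + 1 ≤ 2 ^ i := Nat.lt_two_pow_self
  have h4 : (i + 1) ^ 8 ≤ (2 ^ i) ^ 8 := Nat.pow_le_pow_left h3 8
  have h5 : (4 : ℕ) ≤ 2 ^ (2 * i) := by
    calc (4 : ℕ) = 2 ^ 2 := by norm_num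
      _ ≤ _ := Nat.pow_le_pow_right (by norm_num) (by omega)
  unfold yc
  calc 2 ^ (a + a' + 2) = 2 ^ (a + a') * 4 := by rw [pow_add]; norm_num
    _ ≤ (2 ^ i) ^ 8 * 2 ^ (2 * i) := Nat.mul_le_mul (h1.le.trans (h2.trans h4)) h5
    _ = 2 ^ (10 * i) := by rw [← pow_mul, ← pow_add]; congr 1; ring
    _ ≤ 2 ^ (A * i) := Nat.pow_le_pow_right (by norm_num) (Nat.mul_le_mul_right _ hA)

lemma hf_ge {A k : ℕ} {R : ℝ} (hA : 1 ≤ A) (hR : 1 ≤ R) :
    (2 : ℝ) ^ ((1 / (A : ℝ)) * k) ≤ 2 * R * 2 ^ (k / A) := by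
  have hA0 : (0 : ℝ) < A := by exact_mod_cast hA
  have h1 : (1 / (A : ℝ)) * k ≤ ((k / A + 1 : ℕ) : ℝ) := by
    rw [one_div, inv_mul_eq_div, div_le_iff₀ hA0]
    have h2 : k < (k / A + 1) * A := by
      have h3 := Nat.div_add_mod k A
      have h4 := Nat.mod_lt k hA
      calc k = A * (k / A) + k % A := h3.symm
        _ < A * (k / A) + A := by omega
        _ = _ := by ring
    exact_mod_cast h2.le
  calc (2 : ℝ) ^ ((1 / (A : ℝ)) * k) ≤ (2 : ℝ) ^ (((k / A + 1 : ℕ) : ℝ)) :=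
        Real.rpow_le_rpow_of_exponent_le (by norm_num) h1
    _ = 2 * 1 * 2 ^ (k / A) := by rw [Real.rpow_natCast, pow_succ]; ring
    _ ≤ _ := by
        refine mul_le_mul_of_nonneg_right ?_ (by positivity)
        linarith

/-- the data of one word -/
theorem sc_vw (hL : 0 < L) {a a' s y b : ℕ} (h1 : 2 ^ s ≤ 2 * low y b)
    (h2 : low y b < 2 ^ (a + a' + s + 2)) :
    Sc (ParOf cp A m0 γ L M B) (a + a' + 3) (low y b) (L / 2 ^ s) (2 ^ s) where
  hL := hL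
  hV := by positivity
  hL' := rfl
  hs := by omega
  lo := by exact_mod_cast h1
  hi := by
    have h3 : ((low y b : ℕ) : ℝ) ≤ ((2 ^ (a + a' + s + 2) : ℕ) : ℝ) := by exact_mod_cast h2.le
    refine h3.trans (le_of_eq ?_)
    push_cast
    rw [← pow_add]
    congr 1
    omega

lemma win_lo {a s y b : ℕ} (h : win a s y b) : 2 ^ s ≤ 2 * low y b :=
  le_trans (Nat.pow_le_pow_right (by norm_num) (by omega)) h.1

lemma win_hi {a s y b : ℕ} (a' : ℕ) (h : win a s y b) : low y b < 2 ^ (a + a' + s + 2) :=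
  lt_of_lt_of_le h.2 (Nat.pow_le_pow_right (by norm_num) (by omega))

lemma win_hi' {a' s y b : ℕ} (a : ℕ) (h : win a' s y b) : low y b < 2 ^ (a + a' + s + 2) :=
  lt_of_lt_of_le h.2 (Nat.pow_le_pow_right (by norm_num) (by omega))

/-- **all nominal coins above the birth of the zone are actual coins of `b`** -/
theorem good_birth (hM : 0 < M) (hL : 0 < L) (hA : 10 ≤ A) (hcp : cp ≤ 1 / 4) {a a' s b l : ℕ}
    (hb : b ∣ M) {Z : World}
    (hZ : Z = vw hM F (ParOf cp A m0 γ L M B) (1 / (4 * A)) a a' s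
      (HighFLx863.H0 hM F (yc a a') b)) (hok : Z.Ok)
    (h1 : 2 ^ s ≤ 2 * low (yc a a') b) (h2 : low (yc a a') b < 2 ^ (a + a' + s + 2))
    (hl : Z.nd l (HighFLx863.hw hM F (yc a a') b)) {R : ℝ} (hR : 1 ≤ R)
    (hne : ¬ HvyR F B L A R (l - 1) b) :
    AllAct Z (lamR F (ParOf cp A m0 γ L M B)) b (HighFLx863.hw hM F (yc a a') b)
      (Z.cut (Z.bi l (HighFLx863.hw hM F (yc a a') b))) := by
  have hA1 : 1 ≤ A := by omega
  set P := ParOf cp A m0 γ L M B with hP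
  set w := HighFLx863.hw hM F (yc a a') b with hwd
  set G := HighFLx863.H0 hM F (yc a a') b with hGd
  have hpt : Crest.Agent.R4C.F5bx20.ParT M P A B (1 / (4 * (A : ℝ))) (1 / 20) :=
    Crest.Agent.R4C.F5bx20.parT_ParOf hA1 hL
  have hi0 : Z.i0 = max P.m0 (max (GWinstx982.iD (hiFL hM (yc a a') F) P G) (iA a a')) := by
    rw [hZ]; rfl
  have hcutZ : Z.cut = P.cut := by rw [hZ]; rfl
  have hun : ∀ n, ∃ i, n ≤ P.cut i := by
    intro n
    refine ⟨n, ?_⟩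
    show n ≤ 2 ^ (A * n)
    exact (Nat.lt_two_pow_self (n := n)).le.trans
      (Nat.pow_le_pow_right (by norm_num) (Nat.le_mul_of_pos_left n (by omega)))
  have hi3 : 1 ≤ Z.i0 := by have := hok.hi0; omega
  have hy : yc a a' ≤ P.cut Z.i0 :=
    yc_le hA hi3 (by rw [hi0]; exact (le_max_right _ _).trans (le_max_right _ _))
  have hD : D (hiFL hM (yc a a') F) G ≤ P.cut Z.i0 :=
    GWinstx982.D_le_cut hpt.cut_mono hun
      (by rw [hi0]; exact (le_max_left _ _).trans (le_max_right _ _))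
  have hvb : VB F (P.cut Z.i0) b (low (yc a a') b) Z.G0 w := by
    have e : Z.G0 = G := by rw [hZ]; rfl
    rw [e]
    exact Crest.Agent.R4C.DictVx20.VB.of_high hM hb hy hD
  have hwN : w ∣ Z.N := by
    have e : Z.N = PM (hiFL hM (yc a a') F) G := by rw [hZ]; rfl
    rw [e]
    exact HighFLx863.hw_dvd hM F hb
  have hup : 0 < upp (yc a a') M := upp_pos _ _
  have hwM : w ∣ M :=
    (Dvd.intro_left _ (HighFLx863.H0_mul_hw hM F hb)).trans
      ((upp_dvd (yc a a') hM.ne' hb).trans (Dvd.intro_left _ (low_mul_upp (yc a a') hM.ne')))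
  have hS : Sc P (a + a' + 3) (low (yc a a') b) Z.L (2 ^ s) := by
    have e : Z.L = L / 2 ^ s := by rw [hZ]; rfl
    rw [e]
    exact sc_vw hL h1 h2
  have hwv : WV Z P (1 / (4 * (A : ℝ))) (a + a' + 3) := by
    rw [hZ]
    exact wv_vw hM hA1 hcp
  refine allAct_of hpt hok hwv hS hvb (fun i hi => by
      rw [hcutZ]; exact hpt.cut_mono hi.1) hM hwN hwM
    (hf := fun k => 2 * R * 2 ^ (k / A)) (fun k => hf_ge hA1 hR) (U := 5 / (A : ℝ)) ?_
    (K := M + 1) ?_ hl ?_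
  · have : (A : ℝ) ≠ 0 := by exact_mod_cast (by omega : A ≠ 0)
    field_simp
    norm_num
  · exact (Nat.lt_two_pow_self (n := M)).le.trans (Nat.pow_le_pow_right (by norm_num) (by omega))
  · rintro ⟨k, hk1, hk2⟩
    refine hne ⟨k, le_trans ?_ hk1, hk2⟩
    have : A * (l - 1) ≤ A * l := Nat.mul_le_mul_left _ (Nat.sub_le _ _)
    omega

/-- **`Good` of `FamBudA_252` at the birth of the zone** -/
theorem good_birth' (hM : 0 < M) (hL : 0 < L) (hA : 10 ≤ A) (hcp : cp ≤ 1 / 4) {a a' s b l : ℕ}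
    (hb : b ∣ M) {Z : World}
    (hZ : Z = vw hM F (ParOf cp A m0 γ L M B) (1 / (4 * A)) a a' s
      (HighFLx863.H0 hM F (yc a a') b)) (hok : Z.Ok)
    (h1 : 2 ^ s ≤ 2 * low (yc a a') b) (h2 : low (yc a a') b < 2 ^ (a + a' + s + 2))
    (hl : Z.nd l (HighFLx863.hw hM F (yc a a') b)) {R : ℝ} (hR : 1 ≤ R)
    (hne : ¬ HvyR F B L A R (l - 1) b) :
    FamBudx252.Good Z (Act F (ParOf cp A m0 γ L M B) Z.N (yc a a')
        (HighFLx863.hw hM F (yc a a') b) b)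
      (HighFLx863.hw hM F (yc a a') b) (Z.bi l (HighFLx863.hw hM F (yc a a') b)) := by
  classical
  intro q hq hc hlt
  have h3 := good_birth hM hL hA hcp hb hZ hok h1 h2 hl hR hne q hq hlt hc
  have hb1 := (GWnodex863.birth_bi (Z := Z) hl).1.1
  have hcutZ : Z.cut = (ParOf cp A m0 γ L M B).cut := by rw [hZ]; rfl
  have hi0 : iA a a' ≤ Z.i0 := by
    rw [hZ]
    exact (le_max_right _ _).trans (le_max_right _ _)
  have hy : yc a a' ≤ Z.cut (Z.bi l (HighFLx863.hw hM F (yc a a') b)) := by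
    rw [hcutZ]
    exact yc_le hA (by have := hok.hi0; omega) (hi0.trans hb1)
  unfold Act
  exact mem_filter.2 ⟨hq, lt_of_le_of_lt hy hlt, h3⟩

/-- **the pair weight is at most the weight of the zone** -/
theorem act_le_Wb (hM : 0 < M) (hL : 0 < L) (hA : 10 ≤ A) (hcp : cp ≤ 1 / 4) {a a' s b l : ℕ}
    (hb : b ∣ M) {Z : World}
    (hZ : Z = vw hM F (ParOf cp A m0 γ L M B) (1 / (4 * A)) a a' s
      (HighFLx863.H0 hM F (yc a a') b)) (hok : Z.Ok)
    (h1 : 2 ^ s ≤ 2 * low (yc a a') b) (h2 : low (yc a a') b < 2 ^ (a + a' + s + 2))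
    {w : ℕ} (hw : w = HighFLx863.hw hM F (yc a a') b)
    (hl : Z.nd l w) {R : ℝ} (hR : 1 ≤ R)
    (hne : ¬ HvyR F B L A R (l - 1) b) :
    ∏ p ∈ (free Z.N w).filter (fun p => yc a a' < p ∧ p ≤ Z.cut l ∧
        lamR F (ParOf cp A m0 γ L M B) b p = none), (1 - 1 / (p : ℝ)) ≤
      Wb F (ParOf cp A m0 γ L M B) Z (yc a a') (Z.zone l w) w b := by
  classical
  subst hw
  have hg := good_birth' hM hL hA hcp hb hZ hok h1 h2 hl hR hne
  unfold Wb
  have e : (Z.zone l (HighFLx863.hw hM F (yc a a') b)).1 =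
      Z.bi l (HighFLx863.hw hM F (yc a a') b) := rfl
  rw [e]
  unfold FamBudx252.VA
  rw [if_pos hg]
  set w := HighFLx863.hw hM F (yc a a') b with hwd
  have hcut : Z.cut (Z.bi l w) ≤ Z.cut l := hok.hcut (GWnodex863.bi_le l w)
  have hsub : ((Act F (ParOf cp A m0 γ L M B) Z.N (yc a a') w b).filter
      fun p => p ≤ Z.cut (Z.bi l w)) ⊆
      (free Z.N w).filter (fun p => yc a a' < p ∧ p ≤ Z.cut l ∧
        lamR F (ParOf cp A m0 γ L M B) b p = none) := by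
    intro p hp
    obtain ⟨h3, h4⟩ := mem_filter.1 hp
    unfold Act at h3
    obtain ⟨h5, h6, h7⟩ := mem_filter.1 h3
    exact mem_filter.2 ⟨h5, h6, h4.trans hcut, h7⟩
  have hfac : ∀ p ∈ (free Z.N w).filter (fun p => yc a a' < p ∧ p ≤ Z.cut l ∧
        lamR F (ParOf cp A m0 γ L M B) b p = none),
      0 ≤ 1 - 1 / (p : ℝ) ∧ 1 - 1 / (p : ℝ) ≤ 1 := by
    intro p hp
    have hpp := Nat.prime_of_mem_primeFactors (mem_free.1 (mem_filter.1 hp).1).1
    exact FamBudx252.fac_mem hpp.one_lt.le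
  rw [← prod_sdiff hsub]
  refine mul_le_of_le_one_left (prod_nonneg fun p hp => (hfac p (hsub hp)).1) ?_
  exact prod_le_one (fun p hp => (hfac p (mem_sdiff.1 hp).1).1)
    fun p hp => (hfac p (mem_sdiff.1 hp).1).2

end Crest.Agent.R4C.GoodVx20
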