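import Crest.Agent.R4C.NHdef_656

/-!
# Row 4, GW section, vector case: depth of linked points, runs (helper617)

* `on_link` : `τ |u y - v y' - m| ≤ c`, `On K' y' τ` ⟹ `On ((u+v+c) K') y τ`;
* `on_run` : `p` prime, `On K1 (p y) t`, `On K2 y (t p)`, `K2 ≤ p`, `2 K1 K2 ≤ t` ⟹ `On K1 y (t p)`
  (the depth is constant, or jumps above `min(p, t/(2 K1))`);
* words: `on_before_ps`, `not_on_ps`.
-/

set_option autoImplicit false

namespace Crest.Agent.R4C.LinkOnx617

open Finset Crest.Agent.R4C.GWhx656 Crest.Agent.R4C.NHx656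

/-- depth of linked points -/
lemma on_link {K' y y' τ c : ℝ} {u v : ℕ} {m : ℤ} (hu : 1 ≤ u) (hτ : 0 < τ)
    (hl : τ * |u * y - v * y' - m| ≤ c) (h : On K' y' τ) : On ((u + v + c) * K') y τ := by
  obtain ⟨a, k, hk, hlt⟩ := h
  have hk0 : (0:ℝ) < k := by exact_mod_cast hk
  have hu0 : (0:ℝ) < u := by exact_mod_cast hu
  have hv0 : (0:ℝ) ≤ v := Nat.cast_nonneg v
  have hc : 0 ≤ c := le_trans (by positivity) hl
  have hmx1 : 1 ≤ max 1 (τ * |y' - a / k|) := le_max_left _ _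
  have hmx2 : τ * |y' - a / k| ≤ max 1 (τ * |y' - a / k|) := le_max_right _ _
  refine ⟨v * a + m * k, u * k, Nat.mul_pos (by omega) hk, ?_⟩
  have e1 : (u:ℝ) * (y - ((v * a + m * k : ℤ) : ℝ) / ((u * k : ℕ) : ℝ)) =
      (u * y - v * y' - m) + v * (y' - a / k) := by
    push_cast
    field_simp
    ring
  have e2 : (u:ℝ) * |y - ((v * a + m * k : ℤ) : ℝ) / ((u * k : ℕ) : ℝ)| ≤
      |u * y - v * y' - m| + v * |y' - a / k| := by
    have h1 : (u:ℝ) * |y - ((v * a + m * k : ℤ) : ℝ) / ((u * k : ℕ) : ℝ)| =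
        |(u:ℝ) * (y - ((v * a + m * k : ℤ) : ℝ) / ((u * k : ℕ) : ℝ))| := by
      rw [abs_mul, abs_of_pos hu0]
    rw [h1, e1]
    refine (abs_add_le _ _).trans ?_
    rw [abs_mul, abs_of_nonneg hv0]
  have e3 : (u:ℝ) * (τ * |y - ((v * a + m * k : ℤ) : ℝ) / ((u * k : ℕ) : ℝ)|) ≤
      c + v * max 1 (τ * |y' - a / k|) := by
    calc (u:ℝ) * (τ * |y - ((v * a + m * k : ℤ) : ℝ) / ((u * k : ℕ) : ℝ)|)
        = τ * ((u:ℝ) * |y - ((v * a + m * k : ℤ) : ℝ) / ((u * k : ℕ) : ℝ)|) := by ring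
      _ ≤ τ * (|u * y - v * y' - m| + v * |y' - a / k|) := mul_le_mul_of_nonneg_left e2 hτ.le
      _ = τ * |u * y - v * y' - m| + v * (τ * |y' - a / k|) := by ring
      _ ≤ c + v * max 1 (τ * |y' - a / k|) :=
          add_le_add hl (mul_le_mul_of_nonneg_left hmx2 hv0)
  have e4 : (u:ℝ) * max 1 (τ * |y - ((v * a + m * k : ℤ) : ℝ) / ((u * k : ℕ) : ℝ)|) ≤
      (u + v + c) * max 1 (τ * |y' - a / k|) := by
    rw [mul_max_of_nonneg _ _ hu0.le]
    refine max_le ?_ (e3.trans ?_)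
    · nlinarith
    · nlinarith
  calc ((u * k : ℕ) : ℝ) * max 1 (τ * |y - ((v * a + m * k : ℤ) : ℝ) / ((u * k : ℕ) : ℝ)|)
      = k * ((u:ℝ) * max 1 (τ * |y - ((v * a + m * k : ℤ) : ℝ) / ((u * k : ℕ) : ℝ)|)) := by
        rw [Nat.cast_mul]; ring
    _ ≤ k * ((u + v + c) * max 1 (τ * |y' - a / k|)) := mul_le_mul_of_nonneg_left e4 hk0.le
    _ = (u + v + c) * (k * max 1 (τ * |y' - a / k|)) := by ring
    _ < (u + v + c) * K' := mul_lt_mul_of_pos_left hlt (by positivity)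

/-- a fraction witnessing `On` can be taken in lowest terms -/
lemma on_reduced {K y τ : ℝ} (h : On K y τ) : ∃ (a : ℤ) (k : ℕ), 0 < k ∧ Int.gcd a k = 1 ∧
    (k : ℝ) * max 1 (τ * |y - a / k|) < K := by
  obtain ⟨a, k, hk, hlt⟩ := h
  have hk0 : (k:ℝ) ≠ 0 := by positivity
  set q : ℚ := (a:ℚ) / k with hq
  have hqr : (q:ℝ) = (a:ℝ) / k := by rw [hq]; push_cast; ring
  have hqe : (q.num : ℝ) / (q.den : ℝ) = (a:ℝ) / k := by
    rw [← hqr]
    exact_mod_cast (Rat.num_div_den q)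
  have hden : q.den ∣ k := by
    have h1 : ((q.den : ℕ) : ℤ) ∣ (k:ℤ) := by
      have h2 := Rat.den_dvd a (k:ℤ)
      have e : Rat.divInt a (k:ℤ) = q := by rw [Rat.divInt_eq_div, hq]; push_cast; rfl
      rwa [e] at h2
    exact_mod_cast h1
  refine ⟨q.num, q.den, q.den_pos, ?_, ?_⟩
  · have := q.reduced
    unfold Int.gcd
    rw [Int.natAbs_natCast]
    exact this
  · rw [hqe]
    refine lt_of_le_of_lt ?_ hlt
    refine mul_le_mul_of_nonneg_right ?_ (by positivity)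
    exact_mod_cast Nat.le_of_dvd hk hden

/-- the depth is constant along a letter, or jumps -/
lemma on_run {K1 K2 y t : ℝ} {p : ℕ} (hp : p.Prime) (ht : 0 < t) (hK2 : K2 ≤ p)
    (hKK : 2 * K1 * K2 ≤ t) (h1 : On K1 (p * y) t) (h2 : On K2 y (t * p)) : On K1 y (t * p) := by
  obtain ⟨a1, k1, hk1, hl1⟩ := h1
  obtain ⟨a, k, hk, hg, hl⟩ := on_reduced h2
  have hp0 : (0:ℝ) < p := by exact_mod_cast hp.pos
  have hkp : k < p := by
    have h3 : (k:ℝ) < p := by
      have h4 : (0:ℝ) < k := by exact_mod_cast hk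
      nlinarith [le_max_left (1:ℝ) (t * p * |y - a / k|)]
    exact_mod_cast h3
  have hk0 : (0:ℝ) < k := by exact_mod_cast hk
  have hk10 : (0:ℝ) < k1 := by exact_mod_cast hk1
  -- the fraction `p a / k` at `p y`
  have e1 : t * |(p:ℝ) * y - ((p * a : ℤ) : ℝ) / k| = t * p * |y - a / k| := by
    have e : (p:ℝ) * y - ((p * a : ℤ) : ℝ) / k = p * (y - a / k) := by
      push_cast; ring
    rw [e, abs_mul, abs_of_pos hp0]; ring
  have hl' : (k:ℝ) * max 1 (t * |(p:ℝ) * y - ((p * a : ℤ) : ℝ) / k|) < K2 := by rw [e1]; exact hl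
  have hu := frac_unique hk1 hk ht ht hl1 hl' (by
    rw [← two_mul, mul_one_div, ← mul_div_assoc, div_le_one ht]
    linarith)
  -- `k ∣ k1`
  have hdv : (k:ℤ) ∣ (k1:ℤ) := by
    have h3 : (k:ℤ) ∣ (p * a) * k1 := ⟨a1, by linarith⟩
    have hc1 : IsCoprime (k:ℤ) (a:ℤ) := by
      rw [Int.isCoprime_iff_gcd_eq_one, Int.gcd_comm]; exact hg
    have hc2 : IsCoprime (k:ℤ) (p:ℤ) := by
      rw [Nat.isCoprime_iff_coprime, Nat.coprime_comm, Nat.Prime.coprime_iff_not_dvd hp]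
      intro hd
      have := Nat.le_of_dvd hk hd
      omega
    exact (hc2.mul_right hc1).dvd_of_dvd_mul_left h3
  have hkk1 : (k:ℝ) ≤ k1 := by
    have := Nat.le_of_dvd hk1 (Int.natCast_dvd_natCast.1 hdv)
    exact_mod_cast this
  refine ⟨a, k, hk, ?_⟩
  have e2 : ((p * a : ℤ) : ℝ) / k = a1 / k1 := by
    rw [div_eq_div_iff hk0.ne' hk10.ne']
    have h5 : ((a1 * k : ℤ) : ℝ) = ((p * a * k1 : ℤ) : ℝ) := by exact_mod_cast hu
    push_cast at h5 ⊢
    linarith
  rw [← e1, e2]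
  refine lt_of_le_of_lt (mul_le_mul_of_nonneg_right hkk1 ?_) hl1
  exact le_trans zero_le_one (le_max_left _ _)

/-- jump form -/
lemma not_on_of_jump {K1 K2 y t : ℝ} {p : ℕ} (hp : p.Prime) (ht : 0 < t) (hK2 : K2 ≤ p)
    (hKK : 2 * K1 * K2 ≤ t) (h1 : On K1 (p * y) t) (h2 : ¬ On K1 y (t * p)) :
    ¬ On K2 y (t * p) := fun h => h2 (on_run hp ht hK2 hKK h1 h)

/-! ### words -/

/-- scale below the letter `p` -/
noncomputable def bsc (t : ℝ) (S : Finset ℕ) (p : ℕ) : ℝ :=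
  t * ((∏ q ∈ S.filter (· < p), q : ℕ) : ℝ)

lemma sc_eq_bsc {t : ℝ} {S : Finset ℕ} {p : ℕ} (hp : p ∈ S) : sc t S p = bsc t S p * p := by
  have e : S.filter (· ≤ p) = insert p (S.filter (· < p)) := by
    ext q
    simp only [mem_filter, mem_insert]
    constructor
    · rintro ⟨h1, h2⟩
      rcases h2.lt_or_eq with h | h
      · exact Or.inr ⟨h1, h⟩
      · exact Or.inl h
    · rintro (rfl | ⟨h1, h2⟩)
      · exact ⟨hp, le_rfl⟩
      · exact ⟨h1, h2.le⟩
  have hn : p ∉ S.filter (· < p) := by simp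
  unfold sc bsc
  rw [e, prod_insert hn]
  push_cast
  ring

lemma le_bsc {t : ℝ} {S : Finset ℕ} {p : ℕ} (hS : ∀ q ∈ S, 1 ≤ q) (ht : 0 ≤ t) :
    t ≤ bsc t S p := by
  have h1 : 1 ≤ ∏ q ∈ S.filter (· < p), q :=
    Nat.one_le_iff_ne_zero.2 (prod_ne_zero_iff.2 fun q hq => by
      have := hS q (mem_filter.1 hq).1; omega)
  have h2 : (1:ℝ) ≤ ((∏ q ∈ S.filter (· < p), q : ℕ) : ℝ) := by exact_mod_cast h1
  exact le_mul_of_one_le_right ht h2

/-- `On` below the letter `p`, from the previous letter -/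
lemma on_below_of_prev {K γ t : ℝ} {S : Finset ℕ} {p r : ℕ} (hp : p ∈ S) (hrp : r < p)
    (hmax : ∀ q ∈ S, q < p → q ≤ r) (h : On K (pt γ S r) (sc t S r)) :
    On K (p * pt γ S p) (bsc t S p) := by
  have e1 : S.filter (r < ·) = insert p (S.filter (p < ·)) := by
    ext q
    simp only [mem_filter, mem_insert]
    constructor
    · rintro ⟨h1, h2⟩
      rcases lt_trichotomy q p with h3 | h3 | h3
      · exact absurd (hmax q h1 h3) (not_le.2 h2)
      · exact Or.inl h3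
      · exact Or.inr ⟨h1, h3⟩
    · rintro (rfl | ⟨h1, h2⟩)
      · exact ⟨hp, hrp⟩
      · exact ⟨h1, hrp.trans h2⟩
  have e2 : S.filter (· ≤ r) = S.filter (· < p) := by
    ext q
    simp only [mem_filter]
    constructor
    · rintro ⟨h1, h2⟩
      exact ⟨h1, by omega⟩
    · rintro ⟨h1, h2⟩
      exact ⟨h1, hmax q h1 h2⟩
  have hn : p ∉ S.filter (p < ·) := by simp
  have e3 : pt γ S r = p * pt γ S p := by
    unfold pt
    rw [e1, prod_insert hn]
    push_cast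
    ring
  have e4 : sc t S r = bsc t S p := by
    unfold sc bsc
    rw [e2]
  rw [e3, e4] at h
  exact h

/-- `On` below the smallest letter is `On` of the whole word -/
lemma on_below_min {K γ t : ℝ} {S : Finset ℕ} {p : ℕ} (hp : p ∈ S) (hmin : ∀ q ∈ S, p ≤ q)
    (h : On K (((∏ q ∈ S, q : ℕ) : ℝ) * γ) t) : On K (p * pt γ S p) (bsc t S p) := by
  have e1 : S = insert p (S.filter (p < ·)) := by
    ext q
    simp only [mem_filter, mem_insert]
    constructor
    · intro h1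
      rcases (hmin q h1).lt_or_eq with h3 | h3
      · exact Or.inr ⟨h1, h3⟩
      · exact Or.inl h3.symm
    · rintro (rfl | ⟨h1, h2⟩)
      · exact hp
      · exact h1
  have e2 : S.filter (· < p) = ∅ := by
    refine filter_eq_empty_iff.2 fun q hq h1 => ?_
    have := hmin q hq
    omega
  have hn : p ∉ S.filter (p < ·) := by simp
  have e3 : ((∏ q ∈ S, q : ℕ) : ℝ) * γ = p * pt γ S p := by
    have e5 : ∏ q ∈ S, q = p * ∏ q ∈ S.filter (p < ·), q := by
      conv_lhs => rw [e1]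
      rw [prod_insert hn]
    unfold pt
    rw [e5]
    push_cast
    ring
  have e4 : bsc t S p = t := by
    unfold bsc
    rw [e2]; simp
  rw [e4, ← e3]
  exact h

/-- **the depth is constant along a run** -/
theorem on_const {K K2 γ t : ℝ} {S : Finset ℕ} (hS : ∀ p ∈ S, p.Prime) (ht : 0 < t)
    (hK2 : ∀ p ∈ S, K2 ≤ p) (hKK : 2 * K * K2 ≤ t)
    (h0 : On K (((∏ q ∈ S, q : ℕ) : ℝ) * γ) t) :
    ∀ p ∈ S, On K2 (pt γ S p) (sc t S p) → On K (pt γ S p) (sc t S p) := by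
  intro p
  induction p using Nat.strong_induction_on with
  | _ p ih =>
    intro hp hon
    have hb : t ≤ bsc t S p := le_bsc (fun q hq => (hS q hq).one_lt.le) ht.le
    have hbelow : On K (p * pt γ S p) (bsc t S p) := by
      rcases (S.filter (· < p)).eq_empty_or_nonempty with he | hne
      · refine on_below_min hp (fun q hq => ?_) h0
        by_contra hlt
        have : q ∈ S.filter (· < p) := mem_filter.2 ⟨hq, by omega⟩
        rw [he] at this
        simp at this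
      · have hm := max'_mem _ hne
        rw [mem_filter] at hm
        refine on_below_of_prev hp hm.2 (fun q hq hqp => le_max' _ _ (mem_filter.2 ⟨hq, hqp⟩)) ?_
        exact ih _ hm.2 hm.1 (on_down hm.2.le hon)
    rw [sc_eq_bsc hp] at hon ⊢
    exact on_run (hS p hp) (ht.trans_le hb) (hK2 p hp) (hKK.trans hb) hbelow hon

/-- below the lost letter the depth is the one of the whole word -/
theorem on_below_ps {K δ γ t : ℝ} {S : Finset ℕ} (hS : ∀ p ∈ S, p.Prime) (ht : 0 < t)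
    (hK1 : ∀ p ∈ S, K1 δ S ≤ p) (hKK : 2 * K * K1 δ S ≤ t) (hl : Lost δ γ t S)
    (h0 : On K (((∏ q ∈ S, q : ℕ) : ℝ) * γ) t) :
    On K (ps δ γ t S * pt γ S (ps δ γ t S)) (bsc t S (ps δ γ t S)) := by
  set p := ps δ γ t S with hpdef
  have hp : p ∈ S := (ps_spec hl).1
  rcases (S.filter (· < p)).eq_empty_or_nonempty with he | hne
  · refine on_below_min hp (fun q hq => ?_) h0
    by_contra hlt
    have : q ∈ S.filter (· < p) := mem_filter.2 ⟨hq, by omega⟩
    rw [he] at this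
    simp at this
  · have hm := max'_mem _ hne
    rw [mem_filter] at hm
    refine on_below_of_prev hp hm.2 (fun q hq hqp => le_max' _ _ (mem_filter.2 ⟨hq, hqp⟩)) ?_
    exact on_const hS ht hK1 hKK h0 _ hm.1 (on_of_lt_ps hm.1 hm.2)

/-- **at the lost letter the depth jumps** above `min(ps, t_J/(2K))` -/
theorem not_on_ps {K K2 δ γ t : ℝ} {S : Finset ℕ} (hS : ∀ p ∈ S, p.Prime) (ht : 0 < t)
    (hK1 : ∀ p ∈ S, K1 δ S ≤ p) (hKK : 2 * K * K1 δ S ≤ t) (hK : K ≤ K1 δ S) (hl : Lost δ γ t S)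
    (h0 : On K (((∏ q ∈ S, q : ℕ) : ℝ) * γ) t) (h2 : K2 ≤ ps δ γ t S)
    (h3 : 2 * K * K2 ≤ bsc t S (ps δ γ t S)) :
    ¬ On K2 (pt γ S (ps δ γ t S)) (sc t S (ps δ γ t S)) := by
  have hb := on_below_ps hS ht hK1 hKK hl h0
  have hs := ps_spec hl
  have hle := le_bsc (p := ps δ γ t S) (fun q hq => (hS q hq).one_lt.le) ht.le
  rw [sc_eq_bsc hs.1]
  refine not_on_of_jump (hS _ hs.1) (ht.trans_le hle) h2 h3 hb fun h => ?_
  rw [← sc_eq_bsc hs.1] at h
  exact hs.2 (h.mono hK)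

/-- **late birth**: if the depth is `< K` at a letter `r` of the word (`K ≤ K1`), then the run
centre exists at the first letter, the lost letter is above `r`, and the depth is `< K` at all
letters below the lost letter -/
theorem late_birth {K δ γ t : ℝ} {S : Finset ℕ} {r : ℕ} (hS : ∀ p ∈ S, p.Prime) (ht : 0 < t)
    (hK1 : ∀ p ∈ S, K1 δ S ≤ p) (hKK : 2 * K * K1 δ S ≤ t) (hK : K ≤ K1 δ S) (hr : r ∈ S)
    (hon : On K (pt γ S r) (sc t S r)) :
    On (K1 δ S) (pt γ S (mn S)) (sc t S (mn S)) ∧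
    (∀ p ∈ S, p ≤ r → On K (pt γ S p) (sc t S p)) ∧
    (Lost δ γ t S → r < ps δ γ t S ∧ ∀ p ∈ S, p < ps δ γ t S → On K (pt γ S p) (sc t S p)) := by
  have h0 : On K (((∏ q ∈ S, q : ℕ) : ℝ) * γ) t := on_bot hon
  refine ⟨(on_down (mn_le hr) hon).mono hK, fun p _ hpr => on_down hpr hon, fun hl => ⟨?_, ?_⟩⟩
  · by_contra hle
    exact not_on_of_ps_le hl (not_lt.1 hle) (hon.mono hK)
  · intro p hp hlt
    exact on_const hS ht hK1 hKK h0 p hp (on_of_lt_ps hp hlt)

end Crest.Agent.R4C.LinkOnx617
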