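import Crest.Agent.R4C.GWnode_863
import Crest.Agent.R4C.GWbirth_33
import Crest.Agent.R4C.GWcell_284
import Crest.Agent.R4C.LinkOn_617
import Crest.Agent.R4C.GWrelW_8

/-!
# Row 4, GW section, vector case over the world of `GWdef_982`: payments, natural hypothesis,
data of Lemma V (helper529)

(note 4147 of helper12: one world for changers and partners, relation on nodes)

* `RelOk Z W R0 R` : `R ν ν'` implies same index, same prefix, and some words `w ∈ S ν`,
  `w' ∈ S ν'` linked by a class pair `(u, v) ∈ W`: `|u yy w - v yy w' + h| ≤ R0 / tt w`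
  (`= Rel` of `RelDeg_15`);
* `Y3 Z z w` : loss in the gap before the birth `z`, the gap before the next birth and the gap
  before the second next birth (`1` if there are fewer than two later births);
* `kapV Z KV z = min 1 (KV / (pz z + 1))` (`= 1` for first zones when `1 ≤ KV`);
* `gn Z R KV` : the data `GN` of Lemma V (`GWrel_8`);
* `badT`, `HypT` : the natural hypothesis per prefix, finite set of targets;
* `Num` : numerical hypotheses on the world and on the class.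
-/

set_option autoImplicit false

open Finset
open Crest.Agent.R4C.Basex935 Crest.Agent.R4C.Cutx50 Crest.Agent.R4C.PrefixMx882
open Crest.Agent.R4C.NHx656 (On)
open Crest.Agent.R4C.GWdefx982

namespace Crest.Agent.R4C.HDx529

variable (Z : World)

/-- what is used of the relation on nodes (changer node, partner node) -/
def RelOk (W : Finset (ℕ × ℕ)) (R0 : ℝ) (R : Node → Node → Prop) : Prop :=
  ∀ ν ν', R ν ν' → ν.1 = ν'.1 ∧ ν.2.1 = ν'.2.1 ∧ ∃ w ∈ Z.S ν, ∃ w' ∈ Z.S ν', ∃ p ∈ W, ∃ h : ℤ,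
    |(p.1 : ℝ) * Z.yy ν.1 w - (p.2 : ℝ) * Z.yy ν.1 w' + h| ≤ R0 / Z.tt ν.1 w

open Classical in
/-- loss between the node before the birth node `z` and the second birth after `z` -/
noncomputable def Y3 (z : Node) (w : ℕ) : ℝ :=
  if Z.hasNb z.1 w ∧ Z.hasNb (Z.nb z.1 w) w then
    1 - Z.Wp (Z.cut (Z.pz z)) (Z.cut (Z.nb (Z.nb z.1 w) w)) w else 1

/-- the additive error of the natural hypothesis, vector case -/
noncomputable def kapV (KV : ℝ) (z : Node) : ℝ := min 1 (KV / ((Z.pz z : ℝ) + 1))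

/-- the data of Lemma V (changers and partners in the same world) -/
noncomputable def gn (R : Node → Node → Prop) (KV : ℝ) : GWrelx8.GN Node Node ℕ where
  Zs := Z.Zs
  Nd := Z.Nd
  S := fun _ ν => Z.S ν
  A := Z.A
  rk := fun ν => ν.1
  g := Z.g
  R := fun _ ν _ ν' => R ν ν'
  y := fun z w => Y3 Z z w + kapV Z KV z
  y' := fun z w => Y3 Z z w + kapV Z KV z

open Classical in
/-- the words of the prefix `n` at the index `i` which are near one of the targets `Λ`, deep, and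
lose at most `s` between `cut i` and a birth `b2` after the next node -/
noncomputable def badT (i n : ℕ) (Λ : Finset ℝ) (K0 s : ℝ) : Finset ℕ :=
  Z.N.divisors.filter fun w => Z.nd i w ∧ low (Z.cut i) w = n ∧
    (∃ α ∈ Λ, ∃ m : ℤ, |Z.yy i w - α - m| ≤ 1 / Z.tt i w) ∧
    ¬ On K0 (Z.yy i w) (Z.tt i w) ∧
    ∃ b1 b2, i < b1 ∧ b1 < b2 ∧ Z.nd b1 w ∧ Z.birth b2 w ∧
      1 - Z.Wp (Z.cut i) (Z.cut b2) w ≤ s

/-- **the natural hypothesis per prefix** (block NH in the world `Z`; `KE / (i+1)` : coins of the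
last dyadic block and of the shift window) -/
def HypT (C1 c KE : ℝ) : Prop := ∀ (i n : ℕ) (Λ : Finset ℝ) (K0 s : ℝ), Z.i0 ≤ i → 1 ≤ K0 →
  K0 ≤ 2 ^ i → 0 ≤ s → s ≤ 1 / 2 →
  ∑ w ∈ badT Z i n Λ K0 s, nu Z.N w ≤
    C1 * (s + Λ.card * K0 ^ (-c) + KE / ((i : ℝ) + 1)) * nu (low (Z.cut i) Z.N) n

/-- numerical hypotheses on the world `Z` and the class `W` (sizes `≤ Π`, precision `R0`) -/
structure Num (W : Finset (ℕ × ℕ)) (Pi R0 : ℝ) : Prop where
  one_le : ∀ p ∈ W, 1 ≤ p.1 ∧ 1 ≤ p.2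
  le_Pi : ∀ p ∈ W, (p.1 : ℝ) ≤ Pi ∧ (p.2 : ℝ) ≤ Pi
  R0_nonneg : 0 ≤ R0
  Pi_one : 1 ≤ Pi
  /-- thresholds are small powers of the scale -/
  sq : ∀ i, Z.i0 ≤ i → 128 * Z.θ i ^ 2 ≤ 2 ^ i
  mono : ∀ i j, Z.i0 ≤ i → i ≤ j → Z.θ i ≤ Z.θ j
  /-- the threshold grows by more than `4 (R0 + 8 Π)` from a node to the next one -/
  grow : ∀ i j, Z.i0 ≤ i → 2 * i ≤ j → 4 * (R0 + 8 * Pi) * Z.θ i ≤ Z.θ j

/-- number of targets -/
noncomputable def DT (W : Finset (ℕ × ℕ)) (Pi R0 : ℝ) : ℝ :=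
  ((W.card : ℝ) + 1) * Pi * (2 * R0 + 18 * Pi + 5)

end Crest.Agent.R4C.HDx529
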