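import Crest.Agent.R4C.GWcell_284
import Crest.Agent.R4C.GWnode_863

/-!
# Row 4, GW section, vector case: the relation on the nodes of a world (helper15)

World `Z` of `GWdef_982`; `W` = finite set of words `(u, v)`; `R` = precision.

* `Rel Z W R ν ν'` : the nodes `ν`, `ν'` have the same index and the same prefix, and there are words
  `w` of `ν`, `w'` of `ν'` and `(u, v) ∈ W` with `|u yy w - v yy w' + h| ≤ R / tt`.
* `rel_of_link`  : linked words lie in related nodes.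
* `Rel.down`     : the relation is inherited by the lower common nodes.
* `card_rel_le`  : at most `Dl W R = ∑_{(u,v) ∈ W} (2 (⌊R/2⌋ + u + v) + 1) v` related nodes.
* `sum_out_le`   : the same, summed over the zones (field `deg` of `GWrel_8`).
* `exists_targets` : a finite set of at most `3 Dl W R` targets for the words of all the related nodes.
* `rel_swap`     : the exchange of the members.
* `Dl_le`        : `Dl ≤ 2 A B² (2 ρ + 4 A + 4 B + 1)` for the class `A ≤ u < 2 A`, `B ≤ v < 2 B`.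
-/

set_option autoImplicit false

open Finset
open Crest.Agent.R4C.Basex935 Crest.Agent.R4C.Cutx50
open Crest.Agent.R4C.Cellx863 (Nc mesh mesh_bounds)
open Crest.Agent.R4C.GWdefx982

namespace Crest.Agent.R4C.RelDegx15

/-! ### integers -/

/-- the cells related to the cell `c` modulo `Q` -/
noncomputable def nbr (W : Finset (ℕ × ℕ)) (B : ℕ × ℕ → ℕ) (Q : ℕ) (c : ℤ) : Finset ℤ :=
  W.biUnion fun p => ((Icc (-(B p : ℤ)) (B p)) ×ˢ (range p.2)).image fun x =>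
    ((Q : ℤ) * (x.2 : ℤ) + ((p.1 : ℤ) * c - x.1) % Q) / p.2

lemma card_nbr (W : Finset (ℕ × ℕ)) (B : ℕ × ℕ → ℕ) (Q : ℕ) (c : ℤ) :
    (nbr W B Q c).card ≤ ∑ p ∈ W, (2 * B p + 1) * p.2 := by
  unfold nbr
  refine card_biUnion_le.trans (sum_le_sum fun p _ => ?_)
  refine card_image_le.trans ?_
  rw [card_product, card_range, Int.card_Icc]
  refine Nat.mul_le_mul_right _ (le_of_eq ?_)
  omega

/-- the arithmetic of a linked pair of cells -/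
lemma mem_nbr {W : Finset (ℕ × ℕ)} {B : ℕ × ℕ → ℕ} {Q : ℕ} (hQ : 0 < Q) {p : ℕ × ℕ} (hp : p ∈ W)
    (hp2 : 0 < p.2) {N N' h r c : ℤ} (hc : N % Q = c % Q)
    (hr : (p.1 : ℤ) * N - p.2 * N' + h * Q = r) (hB : |r| ≤ B p) :
    N' % Q ∈ nbr W B Q c := by
  unfold nbr
  rw [mem_biUnion]
  refine ⟨p, hp, ?_⟩
  rw [mem_image]
  have hQ' : (0 : ℤ) < Q := by exact_mod_cast hQ
  have hv : (0 : ℤ) < p.2 := by exact_mod_cast hp2
  have h0 : 0 ≤ N' % Q := Int.emod_nonneg _ hQ'.ne'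
  have h1 : N' % Q < Q := Int.emod_lt_of_pos _ hQ'
  set c' := N' % (Q : ℤ) with hc'
  set j := ((p.2 : ℤ) * c') / Q with hj
  have hj0 : 0 ≤ j := Int.ediv_nonneg (mul_nonneg hv.le h0) hQ'.le
  have hj1 : j < p.2 := by
    rw [hj]
    refine Int.ediv_lt_of_lt_mul hQ' ?_
    exact mul_lt_mul_of_pos_left h1 hv
  refine ⟨(r, j.toNat), ?_, ?_⟩
  · rw [mem_product, mem_Icc, mem_range]
    refine ⟨abs_le.1 hB, ?_⟩
    omega
  · simp only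
    rw [Int.toNat_of_nonneg hj0]
    have e1 : ((p.1 : ℤ) * c - r) % Q = ((p.2 : ℤ) * c') % Q := by
      have a1 : (p.1 : ℤ) * N - r ≡ (p.2 : ℤ) * N' [ZMOD Q] := by
        rw [← hr]
        exact (Int.modEq_iff_dvd.2 ⟨h, by ring⟩)
      have a2 : (p.1 : ℤ) * c - r ≡ (p.1 : ℤ) * N - r [ZMOD Q] := by
        have : c ≡ N [ZMOD Q] := hc.symm
        exact (this.mul_left _).sub_right _
      have a3 : (p.2 : ℤ) * N' ≡ (p.2 : ℤ) * c' [ZMOD Q] := by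
        have : N' ≡ c' [ZMOD Q] := (Int.mod_modEq N' Q).symm
        exact this.mul_left _
      exact (a2.trans (a1.trans a3))
    rw [e1, hj, Int.mul_ediv_add_emod]
    exact Int.mul_ediv_cancel_left _ hv.ne'

/-! ### the cell of a word and its position -/

variable {Z : World}

/-- `cel w = ⌊Q yy + σ⌋` -/
lemma cel_eq (hZ : Z.Ok) {i w : ℕ} (hw : 0 < w) (hnd : Z.nd i w) :
    Z.cel w = ⌊(Z.Q i w : ℝ) * Z.yy i w + Z.σ⌋ := by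
  have hμ := GWcellx284.mesh_pos' hZ hnd
  unfold World.cel Nc
  congr 2
  rw [GWcellx284.pos_eq (i := i) hw, ← GWcellx284.Q_mul hZ hnd]
  field_simp

lemma Q_le (hZ : Z.Ok) {i w : ℕ} (hnd : Z.nd i w) : (Z.Q i w : ℝ) ≤ Z.tt i w / 2 := by
  have hμ := (mesh_bounds hZ.hL (GWcellx284.four_le_e1 hZ hnd)).1
  have h1 := GWcellx284.Q_mul hZ hnd
  have hL := hZ.hL
  unfold World.tt
  rw [div_div, le_div_iff₀ (by linarith), ← h1]
  have : (0 : ℝ) ≤ Z.Q i w := Nat.cast_nonneg _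
  nlinarith

lemma Q_ge (hZ : Z.Ok) {i w : ℕ} (hnd : Z.nd i w) : Z.tt i w / 3 ≤ (Z.Q i w : ℝ) := by
  have hμ := (mesh_bounds hZ.hL (GWcellx284.four_le_e1 hZ hnd)).2
  have h1 := GWcellx284.Q_mul hZ hnd
  have hL := hZ.hL
  unfold World.tt
  rw [div_div, div_le_iff₀ (by linarith), ← h1]
  have : (0 : ℝ) ≤ Z.Q i w := Nat.cast_nonneg _
  nlinarith

/-! ### the relation -/

/-- related nodes -/
def Rel (Z : World) (W : Finset (ℕ × ℕ)) (R : ℝ) (ν ν' : Node) : Prop :=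
  ν.1 = ν'.1 ∧ ν.2.1 = ν'.2.1 ∧ ∃ w ∈ Z.S ν, ∃ w' ∈ Z.S ν', ∃ p ∈ W, ∃ h : ℤ,
    |(p.1 : ℝ) * Z.yy ν.1 w - p.2 * Z.yy ν.1 w' + h| ≤ R / Z.tt ν.1 w

/-- **linked words lie in related nodes** -/
theorem rel_of_link (hZ : Z.Ok) {W : Finset (ℕ × ℕ)} {R : ℝ} {i w w' : ℕ} (hw : w ∣ Z.N)
    (hw' : w' ∣ Z.N) (hnd : Z.nd i w) (hlow : low (Z.cut i) w = low (Z.cut i) w')
    {p : ℕ × ℕ} (hp : p ∈ W) {h : ℤ}
    (hl : |(p.1 : ℝ) * Z.yy i w - p.2 * Z.yy i w' + h| ≤ R / Z.tt i w) :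
    Rel Z W R (Z.lab i w) (Z.lab i w') := by
  have hnd' : Z.nd i w' := (GWnodex863.nd_congr' hlow).1 hnd
  exact ⟨rfl, hlow, w, GWnodex863.mem_S_lab hZ hw hnd, w', GWnodex863.mem_S_lab hZ hw' hnd', p, hp, h,
    hl⟩


lemma Rel.nonempty {W : Finset (ℕ × ℕ)} {R : ℝ} {ν ν' : Node} (h : Rel Z W R ν ν') :
    (Z.S ν).Nonempty ∧ (Z.S ν').Nonempty := by
  obtain ⟨_, _, w, hw, w', hw', _⟩ := h
  exact ⟨⟨w, hw⟩, ⟨w', hw'⟩⟩

/-- words of related nodes have the same prefix -/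
lemma Rel.eqlow {W : Finset (ℕ × ℕ)} {R : ℝ} {ν ν' : Node} (h : Rel Z W R ν ν') (hZ : Z.Ok) {w w' : ℕ}
    (hw : w ∈ Z.S ν) (hw' : w' ∈ Z.S ν') : low (Z.cut ν.1) w = low (Z.cut ν.1) w' := by
  obtain ⟨_, _, h3⟩ := (GWnodex863.mem_S hZ).1 hw
  obtain ⟨_, _, h3'⟩ := (GWnodex863.mem_S hZ).1 hw'
  have e1 : low (Z.cut ν.1) w = ν.2.1 := by
    conv_rhs => rw [← h3]
    rfl
  have e2 : low (Z.cut ν'.1) w' = ν'.2.1 := by
    conv_rhs => rw [← h3']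
    rfl
  rw [e1, h.2.1, ← e2, h.1]

lemma Rel.eqtt {W : Finset (ℕ × ℕ)} {R : ℝ} {ν ν' : Node} (h : Rel Z W R ν ν') (hZ : Z.Ok) {w w' : ℕ}
    (hw : w ∈ Z.S ν) (hw' : w' ∈ Z.S ν') : Z.tt ν.1 w = Z.tt ν.1 w' := by
  unfold World.tt
  rw [GWnodex863.e_congr (h.eqlow hZ hw hw')]

/-- exchange of the members -/
theorem rel_swap (hZ : Z.Ok) {W : Finset (ℕ × ℕ)} {R : ℝ} {ν ν' : Node} (h : Rel Z W R ν ν') :
    Rel Z (W.image Prod.swap) R ν' ν := by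
  have h0 := h
  obtain ⟨h1, h2, w, hw, w', hw', p, hp, k, hk⟩ := h
  refine ⟨h1.symm, h2.symm, w', hw', w, hw, p.swap, mem_image_of_mem _ hp, -k, ?_⟩
  rw [← h1, ← h0.eqtt hZ hw hw']
  have e : ((p.swap.1 : ℕ) : ℝ) * Z.yy ν.1 w' - ((p.swap.2 : ℕ) : ℝ) * Z.yy ν.1 w + ((-k : ℤ) : ℝ) =
      -((p.1 : ℝ) * Z.yy ν.1 w - p.2 * Z.yy ν.1 w' + k) := by
    simp only [Prod.fst_swap, Prod.snd_swap]
    push_cast
    ring
  rw [e, abs_neg]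
  exact hk

/-- the relation is monotone -/
lemma Rel.mono {W W' : Finset (ℕ × ℕ)} {R R' : ℝ} (hZ : Z.Ok) {ν ν' : Node} (h : Rel Z W R ν ν')
    (hW : W ⊆ W') (hR : R ≤ R') : Rel Z W' R' ν ν' := by
  obtain ⟨h1, h2, w, hw, w', hw', p, hp, k, hk⟩ := h
  refine ⟨h1, h2, w, hw, w', hw', p, hW hp, k, hk.trans ?_⟩
  exact div_le_div_of_nonneg_right hR (GWcellx284.tt_pos hZ _ _).le

/-! ### the degree -/

/-- bound of the remainder -/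
noncomputable def Bd (R : ℝ) (p : ℕ × ℕ) : ℕ := ⌊R / 2⌋₊ + p.1 + p.2

/-- the degree -/
noncomputable def Dl (W : Finset (ℕ × ℕ)) (R : ℝ) : ℕ := ∑ p ∈ W, (2 * Bd R p + 1) * p.2

/-- the remainder of a linked pair of cells -/
lemma rem_bound {u v Q : ℕ} {N N' h : ℤ} {y y' σ t R : ℝ} (ht : 0 < t) (h0 : 0 ≤ σ)
    (h1 : σ ≤ 1) (hQ : (Q : ℝ) ≤ t / 2) (a : (N : ℝ) ≤ Q * y + σ) (b : Q * y + σ < N + 1)
    (a' : (N' : ℝ) ≤ Q * y' + σ) (b' : Q * y' + σ < N' + 1)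
    (hl : |(u : ℝ) * y - v * y' + h| ≤ R / t) :
    |(u : ℤ) * N - v * N' + h * Q| ≤ ((⌊R / 2⌋₊ + u + v : ℕ) : ℤ) := by
  have hu : (0 : ℝ) ≤ u := Nat.cast_nonneg _
  have hv : (0 : ℝ) ≤ v := Nat.cast_nonneg _
  have hq : (0 : ℝ) ≤ Q := Nat.cast_nonneg _
  have k1 : |(Q : ℝ) * ((u : ℝ) * y - v * y' + h)| ≤ R / 2 := by
    rw [abs_mul, abs_of_nonneg hq]
    calc (Q : ℝ) * |(u : ℝ) * y - v * y' + h| ≤ (t / 2) * (R / t) :=
          mul_le_mul hQ hl (abs_nonneg _) (by positivity)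
      _ = R / 2 := by field_simp
  obtain ⟨k2, k3⟩ := abs_le.1 k1
  have s1 : (u : ℝ) * N ≤ u * (Q * y + σ) := mul_le_mul_of_nonneg_left a hu
  have s2 : (u : ℝ) * (Q * y + σ) ≤ u * (N + 1) := mul_le_mul_of_nonneg_left b.le hu
  have s3 : (v : ℝ) * N' ≤ v * (Q * y' + σ) := mul_le_mul_of_nonneg_left a' hv
  have s4 : (v : ℝ) * (Q * y' + σ) ≤ v * (N' + 1) := mul_le_mul_of_nonneg_left b'.le hv
  have s5 : (u : ℝ) * σ ≤ u := by nlinarith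
  have s6 : (v : ℝ) * σ ≤ v := by nlinarith
  have s7 : 0 ≤ (u : ℝ) * σ := by positivity
  have s8 : 0 ≤ (v : ℝ) * σ := by positivity
  have hfl : R / 2 < (⌊R / 2⌋₊ : ℝ) + 1 := Nat.lt_floor_add_one _
  have key1 : (((u : ℤ) * N - v * N' + h * Q : ℤ) : ℝ) < ((⌊R / 2⌋₊ + u + v + 1 : ℤ) : ℝ) := by
    push_cast
    nlinarith
  have key2 : ((-(⌊R / 2⌋₊ + u + v + 1 : ℤ) : ℤ) : ℝ) < (((u : ℤ) * N - v * N' + h * Q : ℤ) : ℝ) := by
    push_cast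
    nlinarith
  have key1' := Int.cast_lt.1 key1
  have key2' := Int.cast_lt.1 key2
  rw [abs_le]
  push_cast
  constructor <;> omega

/-- the number of cells of a node -/
lemma Q_same (hZ : Z.Ok) {i w w' : ℕ} (hnd : Z.nd i w) (hlow : low (Z.cut i) w = low (Z.cut i) w') :
    Z.Q i w = Z.Q i w' := GWcellx284.Q_congr hZ hlow hnd

/-- **the related nodes are among the cells `nbr`** -/
theorem Rel.mem_nbr (hZ : Z.Ok) (hσ : Z.σ ≤ 1) {W : Finset (ℕ × ℕ)} (hW : ∀ p ∈ W, 0 < p.2) {R : ℝ}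
    (hR : 0 ≤ R) {ν ν' : Node} (h : Rel Z W R ν ν') {w0 : ℕ} (hw0 : w0 ∈ Z.S ν) :
    ν' ∈ (nbr W (Bd R) (Z.Q ν.1 w0) ν.2.2).image fun c => (ν.1, ν.2.1, c) := by
  have h' := h
  obtain ⟨h1, h2, w, hw, w', hw', p, hp, k, hk⟩ := h
  obtain ⟨d1, d2, d3⟩ := (GWnodex863.mem_S hZ).1 hw
  obtain ⟨d1', d2', d3'⟩ := (GWnodex863.mem_S hZ).1 hw'
  obtain ⟨c1, c2, c3⟩ := (GWnodex863.mem_S hZ).1 hw0
  rw [← h1] at d2' d3'
  have hlow := h'.eqlow hZ hw hw'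
  have hQ1 : Z.Q ν.1 w0 = Z.Q ν.1 w :=
    Q_same hZ c2 (GWnodex863.S_low_self hZ hw0 hw)
  have hQ2 : Z.Q ν.1 w = Z.Q ν.1 w' := Q_same hZ d2 hlow
  have hwp : 0 < w := Nat.pos_of_dvd_of_pos d1 hZ.hN
  have hwp' : 0 < w' := Nat.pos_of_dvd_of_pos d1' hZ.hN
  have hQpos := GWcellx284.Q_pos hZ d2
  have ec : ν.2.2 = Z.cel w % (Z.Q ν.1 w : ℤ) := by
    conv_lhs => rw [← d3]
    rfl
  have ec' : ν'.2.2 = Z.cel w' % (Z.Q ν.1 w' : ℤ) := by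
    conv_lhs => rw [← d3']
    rfl
  have f1 := Int.floor_le ((Z.Q ν.1 w : ℝ) * Z.yy ν.1 w + Z.σ)
  have f2 := Int.lt_floor_add_one ((Z.Q ν.1 w : ℝ) * Z.yy ν.1 w + Z.σ)
  rw [← cel_eq hZ hwp d2] at f1 f2
  have f1' := Int.floor_le ((Z.Q ν.1 w' : ℝ) * Z.yy ν.1 w' + Z.σ)
  have f2' := Int.lt_floor_add_one ((Z.Q ν.1 w' : ℝ) * Z.yy ν.1 w' + Z.σ)
  rw [← cel_eq hZ hwp' d2', ← hQ2] at f1' f2'
  have hb := rem_bound (u := p.1) (v := p.2) (GWcellx284.tt_pos hZ ν.1 w) hZ.hσ hσ (Q_le hZ d2)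
    f1 f2 f1' f2' hk
  have hm := RelDegx15.mem_nbr (W := W) (B := Bd R) hQpos hp (hW p hp) (c := ν.2.2)
    (by rw [ec, Int.emod_emod_of_dvd _ (dvd_refl _)]) rfl hb
  rw [mem_image]
  refine ⟨Z.cel w' % (Z.Q ν.1 w : ℤ), by rw [hQ1]; exact hm, ?_⟩
  rw [hQ2, ← ec', h1, h2]

open Classical in
/-- **degree** -/
theorem card_rel_le (hZ : Z.Ok) (hσ : Z.σ ≤ 1) {W : Finset (ℕ × ℕ)} (hW : ∀ p ∈ W, 0 < p.2) {R : ℝ}
    (hR : 0 ≤ R) (NN : Finset Node) (ν : Node) :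
    (NN.filter fun ν' => Rel Z W R ν ν').card ≤ Dl W R := by
  rcases (NN.filter fun ν' => Rel Z W R ν ν').eq_empty_or_nonempty with he | ⟨ν', hν'⟩
  · rw [he, card_empty]; exact Nat.zero_le _
  · obtain ⟨⟨w0, hw0⟩, _⟩ := (mem_filter.1 hν').2.nonempty
    calc (NN.filter fun ν' => Rel Z W R ν ν').card
        ≤ ((nbr W (Bd R) (Z.Q ν.1 w0) ν.2.2).image fun c => ((ν.1, ν.2.1, c) : Node)).card :=
          card_le_card fun ν'' h'' => (mem_filter.1 h'').2.mem_nbr hZ hσ hW hR hw0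
      _ ≤ (nbr W (Bd R) (Z.Q ν.1 w0) ν.2.2).card := card_image_le
      _ ≤ Dl W R := card_nbr _ _ _ _

open Classical in
/-- **degree, summed over the zones** (field `deg` of `GWrelx8.GN.Ok`) -/
theorem sum_out_le (hZ : Z.Ok) (hσ : Z.σ ≤ 1) {W : Finset (ℕ × ℕ)} (hW : ∀ p ∈ W, 0 < p.2) {R : ℝ}
    (hR : 0 ≤ R) (T : Finset Node) (ν : Node) :
    ∑ z' ∈ T, ((Z.Nd z').filter fun ν' => Rel Z W R ν ν').card ≤ Dl W R := by
  have hd : Set.PairwiseDisjoint (↑T : Set Node)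
      (fun z' => (Z.Nd z').filter fun ν' => Rel Z W R ν ν') := by
    intro z1 _ z2 _ hne
    refine disjoint_left.2 fun ν' h1 h2 => hne ?_
    obtain ⟨w, hw, hz⟩ := (GWnodex863.mem_Nd_S hZ).1 (mem_filter.1 h1).1
    obtain ⟨w2, hw2, hz2⟩ := (GWnodex863.mem_Nd_S hZ).1 (mem_filter.1 h2).1
    rw [← hz, ← (GWnodex863.Nd_all hZ (mem_filter.1 h2).1 hw).1]
  rw [← card_biUnion fun z1 h1 z2 h2 hne => hd h1 h2 hne]
  refine le_trans (card_le_card fun ν' hν' => ?_) (card_rel_le hZ hσ hW hR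
    (T.biUnion fun z' => (Z.Nd z').filter fun ν' => Rel Z W R ν ν') ν)
  refine mem_filter.2 ⟨hν', ?_⟩
  obtain ⟨z', _, h2⟩ := mem_biUnion.1 hν'
  exact (mem_filter.1 h2).2

/-! ### push down -/

lemma yy_mul (hZ : Z.Ok) {i0 i w : ℕ} (hi : i0 ≤ i) (hw : 0 < w) :
    ∃ m : ℕ, 0 < m ∧ Z.e i w = Z.e i0 w * m ∧ Z.yy i0 w = m * Z.yy i w ∧
      Z.tt i w = Z.tt i0 w * m := by
  obtain ⟨m, hm⟩ := GWnodex863.e_dvd hZ hi w
  have hei := GWnodex863.e_pos hZ i w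
  have he0 := GWnodex863.e_pos hZ i0 w
  have hmp : 0 < m := by
    rcases Nat.eq_zero_or_pos m with h | h
    · rw [h, Nat.mul_zero] at hm; omega
    · exact h
  refine ⟨m, hmp, hm, ?_, ?_⟩
  · have e1 := GWcellx284.pos_eq (Z := Z) (i := i) hw
    have e2 := GWcellx284.pos_eq (Z := Z) (i := i0) hw
    have h0 : (0 : ℝ) < Z.e i0 w := by exact_mod_cast he0
    have e3 : (Z.e i0 w : ℝ) * Z.yy i0 w = (Z.e i0 w : ℝ) * (m * Z.yy i w) := by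
      rw [← e2, e1, hm]
      push_cast
      ring
    exact mul_left_cancel₀ h0.ne' e3
  · unfold World.tt
    rw [hm]
    push_cast
    ring

/-- the multiplier depends on the prefix only -/
lemma yy_mul₂ (hZ : Z.Ok) {i0 i w w' : ℕ} (hi : i0 ≤ i) (hw : 0 < w) (hw' : 0 < w')
    (hlow : low (Z.cut i) w = low (Z.cut i) w') :
    ∃ m : ℕ, 0 < m ∧ Z.yy i0 w = m * Z.yy i w ∧ Z.yy i0 w' = m * Z.yy i w' ∧
      Z.tt i w = Z.tt i0 w * m := by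
  obtain ⟨m, h1, h2, h3, h4⟩ := yy_mul hZ hi hw
  obtain ⟨m', h1', h2', h3', _⟩ := yy_mul hZ hi hw'
  have e1 : m' = m := by
    rw [← GWnodex863.e_congr hlow, ← GWnodex863.e_congr (GWnodex863.low_congr hZ hi hlow), h2] at h2'
    exact (Nat.eq_of_mul_eq_mul_left (GWnodex863.e_pos hZ i0 w) h2').symm
  exact ⟨m, h1, h3, e1 ▸ h3', h4⟩

/-- **push down**: the relation is inherited by the lower common nodes -/
theorem Rel.down (hZ : Z.Ok) {W : Finset (ℕ × ℕ)} {R : ℝ} {ν ν' : Node} (h : Rel Z W R ν ν') {i0 : ℕ}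
    (hi : i0 ≤ ν.1) {w w' : ℕ} (hw : w ∈ Z.S ν) (hw' : w' ∈ Z.S ν') (hnd : Z.nd i0 w) :
    Rel Z W R (Z.lab i0 w) (Z.lab i0 w') := by
  have h' := h
  obtain ⟨h1, h2, w1, hw1, w1', hw1', p, hp, k, hk⟩ := h
  have hi' : i0 ≤ ν'.1 := h1 ▸ hi
  have hlow1 := h'.eqlow hZ hw1 hw1'
  have n1 : Z.nd i0 w1 := (GWnodex863.S_nd hZ hw hw1 hi).1 hnd
  have n1' : Z.nd i0 w1' := (GWnodex863.nd_congr hZ hi hlow1).1 n1
  have n2' : Z.nd i0 w' := (GWnodex863.S_nd hZ hw1' hw' hi').1 n1'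
  rw [GWnodex863.S_lab hZ hw hw1 hi hnd, GWnodex863.S_lab hZ hw' hw1' hi' n2']
  have d1 := ((GWnodex863.mem_S hZ).1 hw1).1
  have d1' := ((GWnodex863.mem_S hZ).1 hw1').1
  obtain ⟨m, m0, m1, m2, m3⟩ := yy_mul₂ hZ hi (Nat.pos_of_dvd_of_pos d1 hZ.hN)
    (Nat.pos_of_dvd_of_pos d1' hZ.hN) hlow1
  refine rel_of_link hZ d1 d1' n1 (GWnodex863.low_congr hZ hi hlow1) hp (h := m * k) ?_
  have hm : (0 : ℝ) < m := by exact_mod_cast m0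
  have ht := GWcellx284.tt_pos hZ i0 w1
  have e1 : (p.1 : ℝ) * Z.yy i0 w1 - p.2 * Z.yy i0 w1' + ((m * k : ℤ) : ℝ) =
      m * ((p.1 : ℝ) * Z.yy ν.1 w1 - p.2 * Z.yy ν.1 w1' + k) := by
    rw [m1, m2]
    push_cast
    ring
  rw [e1, abs_mul, abs_of_pos hm]
  calc (m : ℝ) * |(p.1 : ℝ) * Z.yy ν.1 w1 - p.2 * Z.yy ν.1 w1' + k|
      ≤ m * (R / Z.tt ν.1 w1) := mul_le_mul_of_nonneg_left hk hm.le
    _ = R / Z.tt i0 w1 := by rw [m3]; field_simp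

/-- push down to a node of the partner's zone: `w ∈ S ν`, `ν ~ ν'`, `S ν'` meets `S m`, `m` lower -/
theorem Rel.down_node (hZ : Z.Ok) {W : Finset (ℕ × ℕ)} {R : ℝ} {ν ν' m : Node} (h : Rel Z W R ν ν')
    (hm : m.1 ≤ ν'.1) {w w' : ℕ} (hw : w ∈ Z.S ν) (hw' : w' ∈ Z.S ν') (hwm : w' ∈ Z.S m) :
    Z.nd m.1 w ∧ w ∈ Z.S (Z.lab m.1 w) ∧ Rel Z W R (Z.lab m.1 w) m := by
  have hi : m.1 ≤ ν.1 := h.1 ▸ hm
  obtain ⟨a1, a2, a3⟩ := (GWnodex863.mem_S hZ).1 hwm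
  have n1 : Z.nd m.1 w := (GWnodex863.nd_congr hZ hi (h.eqlow hZ hw hw')).2 a2
  refine ⟨n1, GWnodex863.mem_S_lab hZ ((GWnodex863.mem_S hZ).1 hw).1 n1, ?_⟩
  have := h.down hZ hi hw hw' n1
  rwa [a3] at this

/-! ### targets -/

/-- targets of a finite set of cells modulo `Q`, radius `1 / t` -/
noncomputable def tgt (C : Finset ℤ) (Q : ℕ) (σ t : ℝ) : Finset ℝ :=
  (C ×ˢ range 3).image fun x => ((x.1 : ℝ) - σ) / Q + (x.2 : ℝ) / t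

lemma card_tgt (C : Finset ℤ) (Q : ℕ) (σ t : ℝ) : (tgt C Q σ t).card ≤ 3 * C.card := by
  unfold tgt
  refine card_image_le.trans ?_
  rw [card_product, card_range, Nat.mul_comm]

lemma near_tgt {C : Finset ℤ} {Q : ℕ} {σ t y : ℝ} {N : ℤ} (hQ : 0 < Q) (ht : 0 < t)
    (hQt : t / 3 ≤ Q) (hN : N = ⌊(Q : ℝ) * y + σ⌋) (hC : N % Q ∈ C) :
    ∃ α ∈ tgt C Q σ t, ∃ m : ℤ, |y - α - m| ≤ 1 / t := by
  have hQ0 : (0 : ℝ) < Q := by exact_mod_cast hQ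
  set θ : ℝ := (Q : ℝ) * y + σ - N with hθ
  have t0 : 0 ≤ θ := by
    have := Int.floor_le ((Q : ℝ) * y + σ)
    rw [← hN] at this
    linarith
  have t1 : θ < 1 := by
    have := Int.lt_floor_add_one ((Q : ℝ) * y + σ)
    rw [← hN] at this
    linarith
  set x : ℝ := θ / Q * t with hx
  have x0 : 0 ≤ x := by positivity
  have x1 : x < 3 := by
    rw [hx, div_mul_eq_mul_div, div_lt_iff₀ hQ0]
    nlinarith
  have hl : ⌊x⌋₊ < 3 := by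
    rw [Nat.floor_lt x0]
    exact_mod_cast x1
  refine ⟨((N % (Q : ℤ) : ℤ) - σ) / Q + (⌊x⌋₊ : ℝ) / t, ?_, N / (Q : ℤ), ?_⟩
  · unfold tgt
    rw [mem_image]
    exact ⟨(N % (Q : ℤ), ⌊x⌋₊), mem_product.2 ⟨hC, mem_range.2 hl⟩, rfl⟩
  · have e1 : (N : ℝ) = ((N % (Q : ℤ) : ℤ) : ℝ) + Q * ((N / (Q : ℤ) : ℤ) : ℝ) := by
      exact_mod_cast (Int.emod_add_mul_ediv N Q).symm
    have e2 : y = (N - σ + θ) / Q := by
      rw [hθ]; field_simp; ring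
    have e3 : y - (((N % (Q : ℤ) : ℤ) - σ) / Q + (⌊x⌋₊ : ℝ) / t) - ((N / (Q : ℤ) : ℤ) : ℝ) =
        (x - ⌊x⌋₊) / t := by
      rw [e2, e1, hx]
      field_simp
      ring
    rw [e3, abs_of_nonneg (div_nonneg (by have := Nat.floor_le x0; linarith) ht.le)]
    refine div_le_div_of_nonneg_right ?_ ht.le
    have := Nat.lt_floor_add_one x
    linarith

/-- **a finite set of targets for the words of all the nodes related to `ν`** -/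
theorem exists_targets (hZ : Z.Ok) (hσ : Z.σ ≤ 1) {W : Finset (ℕ × ℕ)} (hW : ∀ p ∈ W, 0 < p.2)
    {R : ℝ} (hR : 0 ≤ R) (ν : Node) :
    ∃ AA : Finset ℝ, AA.card ≤ 3 * Dl W R ∧ ∀ ν', Rel Z W R ν ν' → ∀ w' ∈ Z.S ν',
      ∃ α ∈ AA, ∃ m : ℤ, |Z.yy ν.1 w' - α - m| ≤ 1 / Z.tt ν.1 w' := by
  classical
  rcases (Z.S ν).eq_empty_or_nonempty with he | ⟨w0, hw0⟩
  · refine ⟨∅, by simp, fun ν' h => ?_⟩
    obtain ⟨⟨w, hw⟩, _⟩ := h.nonempty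
    rw [he] at hw
    exact absurd hw (notMem_empty _)
  · set C := nbr W (Bd R) (Z.Q ν.1 w0) ν.2.2 with hC
    refine ⟨tgt C (Z.Q ν.1 w0) Z.σ (Z.tt ν.1 w0), (card_tgt _ _ _ _).trans
      (Nat.mul_le_mul_left _ (card_nbr _ _ _ _)), fun ν' h w' hw' => ?_⟩
    have hm := h.mem_nbr hZ hσ hW hR hw0
    rw [mem_image] at hm
    obtain ⟨c, hc, hcν⟩ := hm
    obtain ⟨d1, d2, d3⟩ := (GWnodex863.mem_S hZ).1 hw'
    rw [← h.1] at d2 d3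
    obtain ⟨c1, c2, c3⟩ := (GWnodex863.mem_S hZ).1 hw0
    have hlow := h.eqlow hZ hw0 hw'
    have hQ : Z.Q ν.1 w0 = Z.Q ν.1 w' := Q_same hZ c2 hlow
    rw [← h.eqtt hZ hw0 hw']
    refine near_tgt (N := Z.cel w') (GWcellx284.Q_pos hZ c2) (GWcellx284.tt_pos hZ _ _)
      (Q_ge hZ c2) ?_ ?_
    · rw [hQ]
      exact cel_eq hZ (Nat.pos_of_dvd_of_pos d1 hZ.hN) d2
    · have e1 : ν'.2.2 = Z.cel w' % (Z.Q ν.1 w' : ℤ) := by
        conv_lhs => rw [← d3]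
        rfl
      have e2 : ν'.2.2 = c := by rw [← hcν]
      rw [hQ, ← e1, e2]
      exact hc

/-! ### numbers -/

/-- words of the class `A ≤ u < 2 A`, `B ≤ v < 2 B` -/
def Cl (A B : ℕ) : Finset (ℕ × ℕ) :=
  ((Ico A (2 * A)) ×ˢ (Ico B (2 * B))).filter fun p => Nat.Coprime p.1 p.2

lemma mem_Cl {A B : ℕ} {p : ℕ × ℕ} : p ∈ Cl A B ↔
    ((A ≤ p.1 ∧ p.1 < 2 * A) ∧ B ≤ p.2 ∧ p.2 < 2 * B) ∧ Nat.Coprime p.1 p.2 := by
  unfold Cl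
  rw [mem_filter, mem_product, mem_Ico, mem_Ico]

lemma Cl_pos {A B : ℕ} : ∀ p ∈ Cl A B, 0 < p.1 ∧ 0 < p.2 := by
  intro p hp
  have := mem_Cl.1 hp
  omega

lemma Cl_swap (A B : ℕ) : (Cl A B).image Prod.swap = Cl B A := by
  ext p
  rw [mem_image, mem_Cl]
  constructor
  · rintro ⟨q, hq, rfl⟩
    rw [mem_Cl] at hq
    simp only [Prod.fst_swap, Prod.snd_swap]
    exact ⟨⟨hq.1.2, hq.1.1⟩, hq.2.symm⟩
  · rintro ⟨⟨h1, h2⟩, h3⟩
    exact ⟨p.swap, mem_Cl.2 ⟨⟨h2, h1⟩, h3.symm⟩, Prod.swap_swap p⟩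

lemma card_Cl (A B : ℕ) : (Cl A B).card ≤ A * B := by
  unfold Cl
  refine (card_filter_le _ _).trans ?_
  rw [card_product, Nat.card_Ico, Nat.card_Ico]
  refine le_of_eq ?_
  congr 1 <;> omega

theorem Dl_le {A B : ℕ} (R : ℝ) :
    Dl (Cl A B) R ≤ 2 * A * B ^ 2 * (2 * ⌊R / 2⌋₊ + 4 * A + 4 * B + 1) := by
  unfold Dl
  calc ∑ p ∈ Cl A B, (2 * Bd R p + 1) * p.2
      ≤ ∑ p ∈ Cl A B, (2 * ⌊R / 2⌋₊ + 4 * A + 4 * B + 1) * (2 * B) := by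
        refine sum_le_sum fun p hp => ?_
        have h := mem_Cl.1 hp
        unfold Bd
        refine Nat.mul_le_mul ?_ (by omega)
        omega
    _ = (Cl A B).card * ((2 * ⌊R / 2⌋₊ + 4 * A + 4 * B + 1) * (2 * B)) := by
        rw [sum_const, smul_eq_mul]
    _ ≤ (A * B) * ((2 * ⌊R / 2⌋₊ + 4 * A + 4 * B + 1) * (2 * B)) :=
        Nat.mul_le_mul_right _ (card_Cl A B)
    _ = _ := by ring

end Crest.Agent.R4C.RelDegx15
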