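import Crest.Agent.R4C.GWcell_284
import Crest.Agent.R4C.LinkOn_617
import Crest.Agent.R4C.Budget_966

/-!
# Row 4, GW section, vector case, leaf (B2): depth along a run and along a link (helper952)

Over `GWdef_982.World`; word level, independent of the relation file.

* `on_run_mul` : all prime factors of `m` are `≥ K2`, `2 K1 K2 ≤ t`:
  `On K1 (m y) t`, `On K2 y (t m)` ⟹ `On K1 y (t m)`.
* `split` : `yy i w = m * yy j w`, `tt j w = tt i w * m`, prime factors of `m` above `cut i`.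
* `Grow Z D` : the numerical conditions on `θ`.
* `on_up` : `On K1` at the index `i`, `On K2` at `j ≥ i` ⟹ `On K1` at `j`.
* `const_depth` : nodes `j0 < j` of `w`, no birth in `(j0, j]` ⟹ `On (4 θ j0)` at `j`.
* `on_link_word`, `on_link_node` : transfer of the depth along a link.
* `one_birth` : `On (D θ j0)` at `j` ⟹ every birth `b` of `w` in `(j0, j]` has `prev b w = j0`;
  `not_on_of_birth` : then `w` is not `On (θ j0)` at `j0`.
* `left_zone` : the form used in the second order hypothesis of lemma V.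
-/

set_option autoImplicit false

open Finset
open Crest.Agent.R4C.Basex935 Crest.Agent.R4C.Cutx50
open Crest.Agent.R4C.GWdefx982 Crest.Agent.R4C.GWnodex863
open Crest.Agent.R4C.NHx656 (On frac_unique)
open Crest.Agent.R4C.LinkOnx617 (on_link on_reduced)
open Crest.Agent.R4C.GWcellx284 (on_cell on_of_light tt_pos)

namespace Crest.Agent.R4C.VDepthx952

/-! ### one point, several letters -/

/-- the depth is constant along letters `≥ K2` as long as it is `< K2` -/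
theorem on_run_mul {K1 K2 y t : ℝ} {m : ℕ} (hm : 0 < m)
    (hmp : ∀ p : ℕ, p.Prime → p ∣ m → K2 ≤ p) (ht : 0 < t) (hKK : 2 * K1 * K2 ≤ t)
    (h1 : On K1 (m * y) t) (h2 : On K2 y (t * m)) : On K1 y (t * m) := by
  obtain ⟨a1, k1, hk1, hl1⟩ := h1
  obtain ⟨a, k, hk, hg, hl⟩ := on_reduced h2
  have hm0 : (0:ℝ) < m := by exact_mod_cast hm
  have hk0 : (0:ℝ) < k := by exact_mod_cast hk
  have hk10 : (0:ℝ) < k1 := by exact_mod_cast hk1
  have hkK : (k:ℝ) < K2 := by nlinarith [le_max_left (1:ℝ) (t * m * |y - a / k|)]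
  -- the fraction `m a / k` at `m y`
  have e1 : t * |(m:ℝ) * y - ((m * a : ℤ) : ℝ) / k| = t * m * |y - a / k| := by
    have e : (m:ℝ) * y - ((m * a : ℤ) : ℝ) / k = m * (y - a / k) := by
      push_cast; ring
    rw [e, abs_mul, abs_of_pos hm0]; ring
  have hl' : (k:ℝ) * max 1 (t * |(m:ℝ) * y - ((m * a : ℤ) : ℝ) / k|) < K2 := by rw [e1]; exact hl
  have hu := frac_unique hk1 hk ht ht hl1 hl' (by
    rw [← two_mul, mul_one_div, ← mul_div_assoc, div_le_one ht]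
    linarith)
  -- `k ∣ k1`
  have hdv : (k:ℤ) ∣ (k1:ℤ) := by
    have h3 : (k:ℤ) ∣ (m * a) * k1 := ⟨a1, by linarith⟩
    have hc1 : IsCoprime (k:ℤ) (a:ℤ) := by
      rw [Int.isCoprime_iff_gcd_eq_one, Int.gcd_comm]; exact hg
    have hc2 : IsCoprime (k:ℤ) (m:ℤ) := by
      rw [Nat.isCoprime_iff_coprime]
      refine Nat.Coprime.symm (Nat.coprime_of_dvd fun p hp hpm hpk => ?_)
      have h4 := hmp p hp hpm
      have h5 : (p:ℝ) ≤ k := by exact_mod_cast Nat.le_of_dvd hk hpk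
      linarith
    exact (hc2.mul_right hc1).dvd_of_dvd_mul_left h3
  have hkk1 : (k:ℝ) ≤ k1 := by
    have := Nat.le_of_dvd hk1 (Int.natCast_dvd_natCast.1 hdv)
    exact_mod_cast this
  refine ⟨a, k, hk, ?_⟩
  have e2 : ((m * a : ℤ) : ℝ) / k = a1 / k1 := by
    rw [div_eq_div_iff hk0.ne' hk10.ne']
    have h5 : ((a1 * k : ℤ) : ℝ) = ((m * a * k1 : ℤ) : ℝ) := by exact_mod_cast hu
    push_cast at h5 ⊢
    linarith
  rw [← e1, e2]
  refine lt_of_le_of_lt (mul_le_mul_of_nonneg_right hkk1 ?_) hl1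
  exact le_trans zero_le_one (le_max_left _ _)

section world

variable {Z : World}

/-! ### two cuts of one word -/

/-- letters of `w` in `(cut i, cut j]` -/
def lt (Z : World) (i j w : ℕ) : ℕ := upp (Z.cut i) (low (Z.cut j) w)

lemma lt_pos (i j w : ℕ) : 0 < lt Z i j w := upp_pos _ _

lemma cut_lt_of_dvd {i j w p : ℕ} (hp : p.Prime) (h : p ∣ lt Z i j w) : Z.cut i < p :=
  not_le.1 (prime_dvd_part (S := fun p => ¬ p ≤ Z.cut i) hp h)

lemma yy_split {i j w : ℕ} (hij : Z.cut i ≤ Z.cut j) :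
    Z.yy i w = (lt Z i j w : ℝ) * Z.yy j w := by
  have e : upp (Z.cut i) w = upp (Z.cut i) (low (Z.cut j) w) * upp (Z.cut j) w := by
    refine Nat.eq_of_factorization_eq (upp_pos _ _).ne'
      (mul_ne_zero (upp_pos _ _).ne' (upp_pos _ _).ne') fun p => ?_
    rw [Nat.factorization_mul (upp_pos _ _).ne' (upp_pos _ _).ne', Finsupp.add_apply, fact_upp,
      fact_upp, fact_upp, fact_low]
    by_cases h2 : p ≤ Z.cut i
    · have h3 : p ≤ Z.cut j := h2.trans hij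
      simp [h2, h3]
    · by_cases h3 : p ≤ Z.cut j <;> simp [h2, h3]
  unfold World.yy lt
  rw [e]
  push_cast
  ring

lemma tt_split {i j w : ℕ} (hij : Z.cut i ≤ Z.cut j) :
    Z.tt j w = Z.tt i w * (lt Z i j w : ℝ) := by
  have e : low (Z.cut j) w = low (Z.cut i) w * upp (Z.cut i) (low (Z.cut j) w) := by
    have h3 := low_mul_upp (Z.cut i) (low_pos (Z.cut j) w).ne'
    rw [low_low hij] at h3
    exact h3.symm
  unfold World.tt World.e lt
  rw [e]
  have h4 : upp (Z.cut i) (low (Z.cut i) w * upp (Z.cut i) (low (Z.cut j) w)) =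
      upp (Z.cut i) (low (Z.cut j) w) := by rw [← e]
  rw [h4]
  push_cast
  ring

/-- (O2) along the cuts -/
lemma on_push {i j w : ℕ} {K : ℝ} (hij : Z.cut i ≤ Z.cut j) (h : On K (Z.yy j w) (Z.tt j w)) :
    On K (Z.yy i w) (Z.tt i w) := by
  rw [tt_split hij] at h
  rw [yy_split hij]
  exact h.push

/-- the letters between two cuts depend on the lower part only -/
lemma lt_congr {i j w w' : ℕ} (hl : low (Z.cut j) w = low (Z.cut j) w') :
    lt Z i j w = lt Z i j w' := by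
  unfold lt; rw [hl]

lemma tt_congr {i w w' : ℕ} (hl : low (Z.cut i) w = low (Z.cut i) w') : Z.tt i w = Z.tt i w' := by
  unfold World.tt; rw [e_congr hl]

lemma le_tt (h : Z.Ok) {i w : ℕ} (hn : Z.nd i w) : (2:ℝ) ^ i ≤ Z.tt i w := by
  unfold World.tt
  rw [le_div_iff₀ h.hL]
  exact hn.2.1

/-! ### numerical conditions -/

/-- the conditions on the thresholds -/
structure Grow (Z : World) (D : ℝ) : Prop where
  hD : 4 ≤ D
  mono : ∀ i j, Z.i0 ≤ i → i ≤ j → Z.θ i ≤ Z.θ j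
  small : ∀ i, Z.i0 ≤ i → 2 * (D * Z.θ i) ^ 2 ≤ 2 ^ i
  gr : ∀ i j, Z.i0 ≤ i → 2 * i ≤ j → D * Z.θ i ≤ Z.θ j

section grow

variable {D : ℝ}

lemma Grow.pos (h : Z.Ok) (hG : Grow Z D) {i : ℕ} (hi : Z.i0 ≤ i) : 1 < D * Z.θ i := by
  have h1 := h.hθ i hi
  have h2 := hG.hD
  nlinarith

lemma Grow.le_pow (h : Z.Ok) (hG : Grow Z D) {i : ℕ} (hi : Z.i0 ≤ i) : D * Z.θ i ≤ 2 ^ i := by
  have h1 := hG.small i hi
  have h2 := hG.pos h hi
  nlinarith

/-- letters above the cut are above `D θ` -/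
lemma Grow.le_letter (h : Z.Ok) (hG : Grow Z D) {i j w p : ℕ} (hi : Z.i0 ≤ i) (hp : p.Prime)
    (hd : p ∣ lt Z i j w) : D * Z.θ i ≤ p := by
  have h1 := hG.le_pow h hi
  have h2 : ((2 ^ i : ℕ) : ℝ) ≤ Z.cut i := by exact_mod_cast h.hcut2 i
  have h3 : (Z.cut i : ℝ) < p := by exact_mod_cast cut_lt_of_dvd hp hd
  push_cast at h2
  linarith

/-- **the depth is constant between two cuts** : `On K1` at `i`, `On K2` at `j ≥ i` -/
theorem on_up (h : Z.Ok) (hG : Grow Z D) {i j w : ℕ} {K1 K2 : ℝ} (hi : Z.nd i w)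
    (hij : Z.cut i ≤ Z.cut j) (hK1 : K1 ≤ D * Z.θ i) (hK2 : K2 ≤ D * Z.θ i)
    (h1 : On K1 (Z.yy i w) (Z.tt i w)) (h2 : On K2 (Z.yy j w) (Z.tt j w)) :
    On K1 (Z.yy j w) (Z.tt j w) := by
  rw [tt_split hij] at h2 ⊢
  rw [yy_split hij] at h1
  refine on_run_mul (lt_pos _ _ _) (fun p hp hd => ?_) (tt_pos h _ _) ?_ h1 h2
  · exact hK2.trans (hG.le_letter h hi.1 hp hd)
  · have a1 := h1.one_lt
    have a2 := h2.one_lt
    have a3 := hG.small i hi.1
    have a4 := le_tt h hi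
    have a5 : K1 * K2 ≤ (D * Z.θ i) * (D * Z.θ i) :=
      mul_le_mul hK1 hK2 (by linarith) (by linarith)
    nlinarith

/-! ### along a run of light nodes -/

/-- **constant depth** : no birth in `(j0, j]` -/
theorem const_depth (h : Z.Ok) (hG : Grow Z D) {j0 w : ℕ} (hw : w ∣ Z.N) (hn0 : Z.nd j0 w) :
    ∀ j, j0 < j → Z.nd j w → (∀ b, j0 < b → b ≤ j → ¬ Z.birth b w) →
      On (4 * Z.θ j0) (Z.yy j w) (Z.tt j w) := by
  intro j
  induction j using Nat.strong_induction_on with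
  | _ j ih =>
    intro hj hn hno
    have hhp : Z.hasPrev j w := ⟨j0, hj, hn0⟩
    obtain ⟨p1, p2, p3⟩ := Budgetx966.prev_spec hhp
    have hlight : Z.light j w := by
      by_contra hc
      exact hno j hj le_rfl ⟨hn, fun hh => hc hh.2⟩
    have hon := on_of_light h hw hn hlight
    have hge : j0 ≤ Z.prev j w := p3 j0 hj hn0
    rcases Nat.eq_or_lt_of_le hge with he | hlt
    · rw [← he] at hon; exact hon
    · have hIH := ih (Z.prev j w) p1 hlt p2 (fun b hb1 hb2 => hno b hb1 (hb2.trans p1.le))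
      have hθ0 := h.hθ _ (hn0.1)
      have hθp := h.hθ _ (p2.1)
      have hD := hG.hD
      refine on_up h hG p2 (h.hcut p1.le) ?_ ?_ hIH hon
      · have hm := hG.mono j0 (Z.prev j w) hn0.1 hge
        nlinarith
      · nlinarith

/-! ### transfer along a link -/

/-- transfer of the depth along a link of two words over one prefix -/
theorem on_link_word (h : Z.Ok) {K R : ℝ} {u v j w w' : ℕ} {n : ℤ} (hu : 1 ≤ u)
    (hlow : low (Z.cut j) w = low (Z.cut j) w')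
    (hl : |(u:ℝ) * Z.yy j w - v * Z.yy j w' + n| ≤ R / Z.tt j w)
    (hon : On K (Z.yy j w') (Z.tt j w')) : On ((u + v + R) * K) (Z.yy j w) (Z.tt j w) := by
  have ht := tt_pos h j w
  rw [← tt_congr hlow] at hon
  refine on_link (m := -n) hu ht ?_ hon
  rw [le_div_iff₀ ht] at hl
  have e : (u:ℝ) * Z.yy j w - v * Z.yy j w' - ((-n : ℤ) : ℝ) =
      (u:ℝ) * Z.yy j w - v * Z.yy j w' + n := by push_cast; ring
  rw [e]
  linarith

/-- transfer along a link of two nodes -/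
theorem on_link_node (h : Z.Ok) {K R : ℝ} {u v : ℕ} {n : ℤ} {ν ν' : Node} (h1 : ν.1 = ν'.1)
    (h2 : ν.2.1 = ν'.2.1) {w1 w1' w w' : ℕ} (hw1 : w1 ∈ Z.S ν) (hw1' : w1' ∈ Z.S ν')
    (hw : w ∈ Z.S ν) (hw' : w' ∈ Z.S ν') (hu : 1 ≤ u)
    (hl : |(u:ℝ) * Z.yy ν.1 w1 - v * Z.yy ν.1 w1' + n| ≤ R / Z.tt ν.1 w1)
    (hon : On K (Z.yy ν.1 w') (Z.tt ν.1 w')) :
    On (16 * (u + v + R) * K) (Z.yy ν.1 w) (Z.tt ν.1 w) := by
  have a1 : On (4 * K) (Z.yy ν'.1 w1') (Z.tt ν'.1 w1') := by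
    refine on_cell h hw1' hw' ?_
    rw [← h1]; exact hon
  rw [← h1] at a1
  have hlow : low (Z.cut ν.1) w1 = low (Z.cut ν.1) w1' := by
    have b1 := low_of_lab (((mem_S h).1 hw1).2.2.trans (show ν = Z.lab ν.1 w1 from
      (((mem_S h).1 hw1).2.2).symm))
    have b2 : low (Z.cut ν.1) w1 = ν.2.1 := congrArg (fun x : Node => x.2.1) ((mem_S h).1 hw1).2.2
    have b3 : low (Z.cut ν'.1) w1' = ν'.2.1 :=
      congrArg (fun x : Node => x.2.1) ((mem_S h).1 hw1').2.2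
    rw [b2, h2, ← b3, h1]
  have a2 := on_link_word h hu hlow hl a1
  have a3 := on_cell h hw hw1 a2
  have e : 4 * ((u + v + R) * (4 * K)) = 16 * (u + v + R) * K := by ring
  rw [e] at a3
  exact a3

/-- a link goes down -/
theorem link_down {R : ℝ} {u v i j w w' : ℕ} {n : ℤ} (h : Z.Ok) (hij : i ≤ j)
    (hlow : low (Z.cut j) w = low (Z.cut j) w')
    (hl : |(u:ℝ) * Z.yy j w - v * Z.yy j w' + n| ≤ R / Z.tt j w) :
    |(u:ℝ) * Z.yy i w - v * Z.yy i w' + ((lt Z i j w * n : ℤ) : ℝ)| ≤ R / Z.tt i w := by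
  have hc := h.hcut hij
  have e1 := yy_split (w := w) hc
  have e2 := yy_split (w := w') hc
  rw [← lt_congr (i := i) hlow] at e2
  have e3 := tt_split (w := w) hc
  have hm : (0:ℝ) < (lt Z i j w : ℝ) := by exact_mod_cast lt_pos (Z := Z) i j w
  have ht := tt_pos h i w
  rw [e1, e2]
  have e4 : (u:ℝ) * ((lt Z i j w : ℝ) * Z.yy j w) - v * ((lt Z i j w : ℝ) * Z.yy j w') +
      ((lt Z i j w * n : ℤ) : ℝ) = (lt Z i j w : ℝ) * (u * Z.yy j w - v * Z.yy j w' + n) := by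
    push_cast; ring
  rw [e4, abs_mul, abs_of_pos hm]
  calc (lt Z i j w : ℝ) * |(u:ℝ) * Z.yy j w - v * Z.yy j w' + n|
      ≤ (lt Z i j w : ℝ) * (R / Z.tt j w) := mul_le_mul_of_nonneg_left hl hm.le
    _ = R / Z.tt i w := by
        rw [e3]
        field_simp

/-! ### births -/

/-- **a birth with a previous node is deep at every later cut** -/
theorem not_on_later (h : Z.Ok) {b i w : ℕ} (hw : w ∣ Z.N) (hb : Z.birth b w)
    (hp : Z.hasPrev b w) (hbi : b ≤ i) : ¬ On (Z.θ (Z.prev b w)) (Z.yy i w) (Z.tt i w) := by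
  intro hon
  exact hb.2 ⟨hp, w, mem_S_lab h hw hb.1, on_push (h.hcut hbi) hon⟩

/-- **one birth** : a word which is `On (D θ j0)` at `j` has its births of `(j0, j]` only at the
first node after `j0` -/
theorem one_birth (h : Z.Ok) (hG : Grow Z D) {j0 j w : ℕ} (hw : w ∣ Z.N) (hn0 : Z.nd j0 w)
    (hon : On (D * Z.θ j0) (Z.yy j w) (Z.tt j w)) {b : ℕ} (hb : Z.birth b w) (h1 : j0 < b)
    (h2 : b ≤ j) : Z.prev b w = j0 := by
  have hhp : Z.hasPrev b w := ⟨j0, h1, hn0⟩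
  obtain ⟨p1, p2, p3⟩ := Budgetx966.prev_spec hhp
  have hge : j0 ≤ Z.prev b w := p3 j0 h1 hn0
  rcases Nat.eq_or_lt_of_le hge with he | hlt
  · exact he.symm
  · exfalso
    have hgr := Budgetx966.nd_growth h h.hcut2 hn0 p2 hlt
    exact not_on_later h hw hb hhp h2 (hon.mono (hG.gr j0 _ hn0.1 hgr))

/-- then `w` is deep at `j0` as well -/
theorem not_on_of_birth (h : Z.Ok) (hG : Grow Z D) {j0 j w : ℕ} (hw : w ∣ Z.N)
    (hn0 : Z.nd j0 w) (hon : On (D * Z.θ j0) (Z.yy j w) (Z.tt j w)) {b : ℕ}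
    (hb : Z.birth b w) (h1 : j0 < b) (h2 : b ≤ j) :
    ¬ On (Z.θ j0) (Z.yy j0 w) (Z.tt j0 w) := by
  intro hc
  have hhp : Z.hasPrev b w := ⟨j0, h1, hn0⟩
  have e := one_birth h hG hw hn0 hon hb h1 h2
  have hθ := h.hθ j0 hn0.1
  have hD := hG.hD
  have a1 := on_up h hG hn0 (h.hcut (h1.le.trans h2)) (by nlinarith) le_rfl hc hon
  have a2 := not_on_later h hw hb hhp h2
  rw [e] at a2
  exact a2 a1

/-- at most one birth in `(j0, j]` -/
theorem birth_unique (h : Z.Ok) (hG : Grow Z D) {j0 j w : ℕ} (hw : w ∣ Z.N)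
    (hn0 : Z.nd j0 w) (hon : On (D * Z.θ j0) (Z.yy j w) (Z.tt j w)) {b b' : ℕ}
    (hb : Z.birth b w) (h1 : j0 < b) (h2 : b ≤ j) (hb' : Z.birth b' w) (h1' : j0 < b')
    (h2' : b' ≤ j) : b = b' := by
  have key : ∀ {b b' : ℕ}, Z.birth b w → j0 < b → Z.birth b' w → j0 < b' → b' ≤ j → ¬ b < b' := by
    intro b b' hb h1 hb' h1' h2' hlt
    have e := one_birth h hG hw hn0 hon hb' h1' h2'
    obtain ⟨p1, p2, p3⟩ := Budgetx966.prev_spec (⟨j0, h1', hn0⟩ : Z.hasPrev b' w)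
    have := p3 b hlt hb.1
    omega
  have k1 := key hb h1 hb' h1' h2'
  have k2 := key hb' h1' hb h1 h2
  omega

/-- the zone of a linked word: born at or below `j0`, or at the first node after `j0` -/
theorem zone_cases (h : Z.Ok) (hG : Grow Z D) {j0 j w : ℕ} (hw : w ∣ Z.N) (hn0 : Z.nd j0 w)
    (hj : j0 ≤ j) (hon : j0 < j → On (D * Z.θ j0) (Z.yy j w) (Z.tt j w)) :
    Z.zone j w = Z.zone j0 w ∨
      (j0 < (Z.zone j w).1 ∧ (Z.zone j w).1 ≤ j ∧ Z.birth (Z.zone j w).1 w ∧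
        Z.prev (Z.zone j w).1 w = j0 ∧ Z.hasPrev (Z.zone j w).1 w ∧
        ¬ On (Z.θ j0) (Z.yy j0 w) (Z.tt j0 w)) := by
  classical
  have h0 : Z.bi j0 w ≤ j0 := bi_le _ _
  have hb0 := birth_bi hn0
  rcases Nat.lt_or_ge j0 (Z.bi j w) with hlt | hle
  · right
    have hfst : (Z.zone j w).1 = Z.bi j w := rfl
    have hbj : Z.bi j w ≤ j := bi_le _ _
    have hj' : j0 < j := hlt.trans_le hbj
    have hb : Z.birth (Z.bi j w) w := by
      unfold World.bi
      exact Nat.findGreatest_spec (P := fun i' => Z.birth i' w) (h0.trans hj) hb0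
    rw [hfst]
    exact ⟨hlt, hbj, hb, one_birth h hG hw hn0 (hon hj') hb hlt hbj, ⟨j0, hlt, hn0⟩,
      not_on_of_birth h hG hw hn0 (hon hj') hb hlt hbj⟩
  · left
    have h1 : Z.bi j w = Z.bi j0 w := by
      refine le_antisymm ?_ ?_
      · refine le_bi hle ?_
        unfold World.bi
        exact Nat.findGreatest_spec (P := fun i' => Z.birth i' w) (h0.trans hj) hb0
      · exact le_bi (h0.trans hj) hb0
    unfold World.zone
    rw [h1]

/-! ### the second order form -/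

/-- the link of two nodes over one prefix -/
def Lkn (Z : World) (R : ℝ) (u v : ℕ) (ν ν' : Node) : Prop :=
  ν.1 = ν'.1 ∧ ν.2.1 = ν'.2.1 ∧ ∃ w ∈ Z.S ν, ∃ w' ∈ Z.S ν', ∃ n : ℤ,
    |(u:ℝ) * Z.yy ν.1 w - v * Z.yy ν.1 w' + n| ≤ R / Z.tt ν.1 w

/-- **H2, the words** : `ν ∈ Nd z`, `w ∈ S ν`, `ν'` a node of the zone `z'` below the node `m` of
`z'`, `ν` linked with `ν'`.  Then `w` passes through the prefix of `m`, and `z` is the zone of `w` at
`m.1`, or `z` is born at the first node of `w` after `m.1` (so `pz z = m.1`) and `w` is not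
`On (θ m.1)` at `m.1`. -/
theorem left_zone (h : Z.Ok) {R : ℝ} {u v : ℕ} (hu : 1 ≤ u) (hG : Grow Z D)
    (hDR : 64 * (u + v + R) ≤ D) {z z' ν ν' m : Node} (hν : ν ∈ Z.Nd z) (hν' : ν' ∈ Z.Nd z')
    (hm : m ∈ Z.Nd z') (hmν : m.1 ≤ ν'.1) (hsub : Z.S ν' ⊆ Z.S m) (hl : Lkn Z R u v ν ν')
    {w : ℕ} (hw : w ∈ Z.S ν) :
    Z.nd m.1 w ∧ low (Z.cut m.1) w = m.2.1 ∧
    (Z.zone m.1 w = z ∨
      (m.1 < z.1 ∧ z.1 ≤ ν.1 ∧ Z.birth z.1 w ∧ Z.prev z.1 w = m.1 ∧ Z.hasPrev z.1 w ∧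
        Z.pz z = m.1 ∧ ¬ On (Z.θ m.1) (Z.yy m.1 w) (Z.tt m.1 w))) := by
  obtain ⟨h1, h2, w1, hw1, w1', hw1', n, hln⟩ := hl
  -- the partner word `w1'`
  obtain ⟨c1, c2, c3⟩ := (mem_S h).1 hw1'
  have hw1m := hsub hw1'
  obtain ⟨m1, m2, m3⟩ := (mem_S h).1 hw1m
  obtain ⟨a1, a2, a3⟩ := (mem_S h).1 hw
  have hlow : low (Z.cut ν.1) w = low (Z.cut ν.1) w1' := by
    have b2 : low (Z.cut ν.1) w = ν.2.1 := congrArg (fun x : Node => x.2.1) a3
    have b3 : low (Z.cut ν'.1) w1' = ν'.2.1 := congrArg (fun x : Node => x.2.1) c3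
    rw [b2, h2, ← b3, h1]
  have hmν' : m.1 ≤ ν.1 := by rw [h1]; exact hmν
  have hlowm : low (Z.cut m.1) w = low (Z.cut m.1) w1' := low_congr h hmν' hlow
  have hndm : Z.nd m.1 w := (nd_congr' hlowm).2 m2
  have hlowm2 : low (Z.cut m.1) w = m.2.1 := by
    rw [hlowm]
    exact congrArg (fun x : Node => x.2.1) m3
  refine ⟨hndm, hlowm2, ?_⟩
  -- the partner has no birth in `(m.1, ν'.1]`
  obtain ⟨z1, z2, z3, z4, z5⟩ := Nd_all h hν' hw1'
  obtain ⟨y1, y2, y3, y4, y5⟩ := Nd_all h hm hw1m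
  have hno : ∀ b, m.1 < b → b ≤ ν'.1 → ¬ Z.birth b w1' := fun b hb1 hb2 =>
    not_birth_of_bi_lt (by rw [z5]; omega) hb2
  have hon : m.1 < ν.1 → On (D * Z.θ m.1) (Z.yy ν.1 w) (Z.tt ν.1 w) := by
    intro hlt
    have hlt' : m.1 < ν'.1 := by rw [← h1]; exact hlt
    have d1 := const_depth h hG c1 m2 ν'.1 hlt' c2 hno
    rw [← h1] at d1
    have d2 := on_link_node h h1 h2 hw1 hw1' hw hw1' hu hln d1
    refine d2.mono ?_
    have hθ := h.hθ m.1 m2.1
    nlinarith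
  have hzone : Z.zone ν.1 w = z := (Nd_all h hν hw).1
  have hzc := zone_cases h hG a1 hndm hmν' hon
  rw [hzone] at hzc
  rcases hzc with hz | ⟨e1, e2, e3, e4, e5, e6⟩
  · exact Or.inl hz.symm
  · refine Or.inr ⟨e1, e2, e3, e4, e5, ?_, e6⟩
    rw [Budgetx966.pz_eq h (z := z) (w := w) ?_, e4]
    exact (mem_zone h).2 ⟨a1, e3, by
      obtain ⟨_, f2, _, _, _⟩ := Nd_all h hν hw
      exact ((mem_S h).1 f2).2.2⟩

/-- first order: the words of a node of a zone which is not a first zone are deep there -/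
theorem not_on_zone (h : Z.Ok) {z ν : Node} (hν : ν ∈ Z.Nd z) {w : ℕ} (hw : w ∈ Z.S ν)
    (hp : Z.hasPrev z.1 w) : ¬ On (Z.θ (Z.pz z)) (Z.yy ν.1 w) (Z.tt ν.1 w) := by
  obtain ⟨e1, e2, e3, e4, e5⟩ := Nd_all h hν hw
  have hw' := ((mem_S h).1 hw).1
  rw [Budgetx966.pz_eq h (z := z) (w := w) ((mem_zone h).2 ⟨hw', e4, ((mem_S h).1 e2).2.2⟩)]
  exact not_on_later h hw' e4 hp e3

/-- at the index `m.1` : `z` the zone there, not a first zone: deep there -/
theorem not_on_zone' (h : Z.Ok) {i w : ℕ} (hwN : w ∣ Z.N) (hn : Z.nd i w)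
    (hp : Z.hasPrev (Z.zone i w).1 w) :
    ¬ On (Z.θ (Z.pz (Z.zone i w))) (Z.yy i w) (Z.tt i w) :=
  not_on_zone h (mem_Nd_zone h hwN hn) (mem_S_lab h hwN hn) hp

end grow

end world

end Crest.Agent.R4C.VDepthx952
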