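import Crest.Agent.R4C.HDelta_60
import Crest.Agent.R4C.HDdef_529
import Crest.Agent.R4C.RelDeg_15
import Crest.Agent.R4C.VDepth_952

/-!
# Row 4, GW section, vector case: `GN.Ok` over the world of `GWdef_982`, general payment (helper60)

`HDelta_60` with (1) any payment `y` with `Pay Z K y`, (2) the error `KE / (i + 1)` in the natural
hypothesis, (3) only `s ≤ 1/2` there, (4) the relation of `RelDeg_15`, the depth of `VDepth_952`.

* **`ok_of_pay`** : `Pay Z K y`, `RelP`, `HypS` ⟹ `(gnY Z R y).Ok ν ν (4 C1) Δ`.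
* **`relP_rel`** : `RelP Z (Rel Z W R0) Δ` (targets, push down, degree, one birth).
* **`ok_529`** : `(HDx529.gn Z (Rel Z W R0) KV).Ok ν ν (4 C1) Δ` from `HDx529.HypT Z C1 c KE`.
-/

set_option autoImplicit false

open Finset
open Crest.Agent.R4C.Basex935 Crest.Agent.R4C.Cutx50 Crest.Agent.R4C.PrefixMx882
open Crest.Agent.R4C.GWdefx982 Crest.Agent.R4C.GWrelx8 Crest.Agent.R4C.GWrelWx8
open Crest.Agent.R4C.NHx656 (On)
open Crest.Agent.R4C.GWnodex863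
open Crest.Agent.R4C.HDeltax60 (Tgt Evt RelP pz_eq mass_prefix g_eq low_node)

namespace Crest.Agent.R4C.HDeltaGx60

section defs

variable (Z : World)

open Classical in
/-- the natural hypothesis with a finite set of targets, `K0 ≤ θ i`, `s ≤ 1/2` -/
def HypS (C1 c KE : ℝ) : Prop :=
  ∀ (i n : ℕ) (AA : Finset ℝ) (K0 s : ℝ), Z.i0 ≤ i → 1 ≤ K0 → K0 ≤ Z.θ i → 0 ≤ s → s ≤ 1 / 2 →
    ∑ w ∈ Z.N.divisors with Evt Z AA K0 s i n w, nu Z.N w ≤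
      C1 * (s + AA.card * (K0 ^ (-c) + (2 : ℝ) ^ (-(c * i))) + KE / ((i : ℝ) + 1)) *
        nu (low (Z.cut i) Z.N) n

/-- a payment: positive; where it is small the three gaps lose little and `K / (pz + 1)` is small -/
structure Pay (K : ℝ) (y : Node → ℕ → ℝ) : Prop where
  pos : ∀ z w, 0 < y z w
  small : ∀ {z n : Node} {w : ℕ} {t : ℝ}, n ∈ Z.Nd z → w ∈ Z.S n → t ≤ 1 / 2 → y z w ≤ t →
    HDx529.Y3 Z z w ≤ t ∧ Z.i0 ≤ Z.pz z ∧ K / ((Z.pz z : ℝ) + 1) ≤ t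

/-- the graph of nodes with the payment `y` -/
noncomputable def gnY (R : Node → Node → Prop) (y : Node → ℕ → ℝ) : GN Node Node ℕ where
  Zs := Z.Zs
  Nd := Z.Nd
  S := fun _ ν => Z.S ν
  A := Z.A
  rk := fun ν => ν.1
  g := Z.g
  R := fun _ n _ n' => R n n'
  y := y
  y' := y

end defs

variable {Z : World}

/-! ### the payment -/

/-- everything about a word of a node with small payment -/
lemma small (hZ : Z.Ok) {K t : ℝ} {y : Node → ℕ → ℝ} (hP : Pay Z K y) (ht : t ≤ 1 / 2)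
    {z n : Node} {w : ℕ}
    (hn : n ∈ Z.Nd z) (hw : w ∈ Z.S n) (hy : y z w ≤ t) :
    Z.i0 ≤ Z.pz z ∧ K / ((Z.pz z : ℝ) + 1) ≤ t ∧ Z.pz z < z.1 ∧ z.1 ≤ n.1 ∧
    Z.birth z.1 w ∧ Z.prev z.1 w = Z.pz z ∧ Z.hasPrev z.1 w ∧
    ∃ b1 b2, n.1 < b1 ∧ b1 < b2 ∧ Z.birth b1 w ∧ Z.birth b2 w ∧
      ∀ i, Z.pz z ≤ i → 1 - Z.Wp (Z.cut i) (Z.cut b2) w ≤ t := by
  classical
  obtain ⟨h1, h2, h3, h4, h5⟩ := Nd_all hZ hn hw
  obtain ⟨hYt, a1, a2⟩ := hP.small hn hw ht hy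
  have hpz := pz_eq hZ h2
  have hi0 := hZ.hi0
  have hprev0 : Z.prev z.1 w ≠ 0 := by omega
  have hprev := Nat.findGreatest_of_ne_zero (P := fun i' => i' < z.1 ∧ Z.nd i' w)
    (n := z.1) (m := Z.prev z.1 w) rfl hprev0
  have hb : Z.hasNb z.1 w ∧ Z.hasNb (Z.nb z.1 w) w := by
    by_contra hcon
    unfold HDx529.Y3 at hYt
    rw [if_neg hcon] at hYt
    linarith
  obtain ⟨p1, _, p3⟩ := GWbirthx33.nb_spec hb.1
  obtain ⟨q1, _, q3⟩ := GWbirthx33.nb_spec hb.2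
  have hi1 : n.1 < Z.nb z.1 w := by
    by_contra hcon
    have h6 := le_bi (not_lt.1 hcon) p3
    omega
  refine ⟨a1, a2, by omega, h3, h4, hpz.symm, ⟨_, hprev.1, hprev.2⟩,
    Z.nb z.1 w, Z.nb (Z.nb z.1 w) w, hi1, q1, p3, q3, fun i hi => ?_⟩
  unfold HDx529.Y3 at hYt
  rw [if_pos hb] at hYt
  have h7 := GWbirthx33.Wp_le (Z := Z) (w := w) (hZ.hcut hi)
    (le_refl (Z.cut (Z.nb (Z.nb z.1 w) w)))
  linarith

/-! ### the mass bound -/

/-- masses of sets of words with small payment over one prefix -/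
lemma mass_small (hZ : Z.Ok) {K C1 c KE Δ : ℝ} (hKE : 0 ≤ KE) (hC1 : 0 ≤ C1)
    (hθm : ∀ i j, Z.i0 ≤ i → i ≤ j → Z.θ i ≤ Z.θ j) (hH : HypS Z C1 c KE) (hΔ : 0 ≤ Δ) (hc : 0 ≤ c)
    (hnum : ∀ p : ℕ, Z.i0 ≤ p → Δ * (Z.θ p ^ (-c) + (2 : ℝ) ^ (-(c * p))) + KE / ((p : ℝ) + 1) ≤
      K / ((p : ℝ) + 1))
    {i n : ℕ} {AA : Finset ℝ} (hAA : (AA.card : ℝ) ≤ Δ) {t : ℝ} (ht0 : 0 < t) (ht1 : t ≤ 1 / 2)
    (U : Finset ℕ) (hU : ∀ w ∈ U, w ∣ Z.N ∧ Z.nd i w ∧ low (Z.cut i) w = n ∧ Tgt Z AA i w ∧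
      ∃ p, Z.i0 ≤ p ∧ p ≤ i ∧ K / ((p : ℝ) + 1) ≤ t ∧ ¬ On (Z.θ p) (Z.yy i w) (Z.tt i w) ∧
        ∃ b1 b2, i < b1 ∧ b1 < b2 ∧ Z.birth b1 w ∧ Z.birth b2 w ∧
          1 - Z.Wp (Z.cut i) (Z.cut b2) w ≤ t) :
    ∑ w ∈ U, nu Z.N w ≤ 2 * C1 * t * nu (low (Z.cut i) Z.N) n := by
  classical
  rcases U.eq_empty_or_nonempty with hE | ⟨w0, hw0⟩
  · rw [hE, sum_empty]
    have := nu_nonneg (low (Z.cut i) Z.N) n
    positivity
  obtain ⟨-, -, -, -, q, hq1, hq2, hq3, -⟩ := hU w0 hw0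
  have hex : ∃ p : ℕ, Z.i0 ≤ p ∧ K / ((p : ℝ) + 1) ≤ t := ⟨q, hq1, hq3⟩
  set p0 := Nat.find hex with hp0
  obtain ⟨hp1, hp2⟩ := Nat.find_spec hex
  have hpi : p0 ≤ i := (Nat.find_min' hex ⟨hq1, hq3⟩).trans hq2
  have hθ1 : 1 < Z.θ p0 := hZ.hθ _ hp1
  have hsub : U ⊆ Z.N.divisors.filter fun w => Evt Z AA (Z.θ p0) t i n w := by
    intro w hw
    obtain ⟨h1, h2, h3, h4, p, h5, h6, h7, h8, b1, b2, h9, h10, h11, h12, h13⟩ := hU w hw
    rw [mem_filter, Nat.mem_divisors]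
    refine ⟨⟨h1, hZ.hN.ne'⟩, h2, h3, h4, fun hon => h8 ?_, b1, b2, h9, h10, h11, h12, h13⟩
    exact hon.mono (hθm _ _ hp1 (Nat.find_min' hex ⟨h5, h7⟩))
  have hmain := hH i n AA (Z.θ p0) t (hp1.trans hpi) hθ1.le (hθm _ _ hp1 hpi) ht0.le ht1
  refine (sum_le_sum_of_subset_of_nonneg hsub fun w _ _ => nu_nonneg _ _).trans
    (hmain.trans ?_)
  refine mul_le_mul_of_nonneg_right ?_ (nu_nonneg _ _)
  have h2i : (2 : ℝ) ^ (-(c * i)) ≤ (2 : ℝ) ^ (-(c * p0)) := by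
    refine Real.rpow_le_rpow_of_exponent_le (by norm_num) ?_
    have : (p0 : ℝ) ≤ i := by exact_mod_cast hpi
    have := mul_le_mul_of_nonneg_left this hc
    linarith
  have h1i : KE / ((i : ℝ) + 1) ≤ KE / ((p0 : ℝ) + 1) := by
    refine div_le_div_of_nonneg_left hKE (by positivity) ?_
    have : (p0 : ℝ) ≤ i := by exact_mod_cast hpi
    linarith
  have hθp : 0 ≤ Z.θ p0 ^ (-c) := Real.rpow_nonneg (by linarith) _
  have h2p : 0 ≤ (2 : ℝ) ^ (-(c * i)) := Real.rpow_nonneg (by norm_num) _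
  have h3 : (AA.card : ℝ) * (Z.θ p0 ^ (-c) + (2 : ℝ) ^ (-(c * i))) ≤
      Δ * (Z.θ p0 ^ (-c) + (2 : ℝ) ^ (-(c * p0))) := by
    refine mul_le_mul hAA (by linarith) (by linarith) hΔ
  have h4 := hnum p0 hp1
  have h5 : t + (AA.card : ℝ) * (Z.θ p0 ^ (-c) + (2 : ℝ) ^ (-(c * i))) + KE / ((i : ℝ) + 1) ≤
      2 * t := by linarith
  calc C1 * (t + AA.card * (Z.θ p0 ^ (-c) + (2 : ℝ) ^ (-(c * i))) + KE / ((i : ℝ) + 1))
      ≤ C1 * (2 * t) := mul_le_mul_of_nonneg_left h5 hC1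
    _ = 2 * C1 * t := by ring

/-! ### the multiplicities -/

section main

variable {R : Node → Node → Prop} {y : Node → ℕ → ℝ} {K C1 c KE Δ : ℝ}

/-- first order -/
lemma H1_aux (hZ : Z.Ok) (hR : RelP Z R Δ) (hP : Pay Z K y) (hKE : 0 ≤ KE) (hC1 : 1 ≤ C1) (hΔ : 2 ≤ Δ) (hc : 0 ≤ c)
    (hθm : ∀ i j, Z.i0 ≤ i → i ≤ j → Z.θ i ≤ Z.θ j) (hH : HypS Z C1 c KE)
    (hnum : ∀ p : ℕ, Z.i0 ≤ p → Δ * (Z.θ p ^ (-c) + (2 : ℝ) ^ (-(c * p))) + KE / ((p : ℝ) + 1) ≤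
      K / ((p : ℝ) + 1)) {z n : Node} (hz : z ∈ Z.Zs) (hn : n ∈ Z.Nd z) {t : ℝ} (ht : 0 < t) :
    ∑ z' ∈ (gnY Z R y).Zs, ∑ n' ∈ (gnY Z R y).Out z n z',
      ∑ w ∈ ((gnY Z R y).S z' n').filter (fun w => (gnY Z R y).y' z' w ≤ t), nu Z.N w ≤
      4 * C1 * t * Z.g n := by
  classical
  set G := gnY Z R y with hG
  set U : Finset ℕ := Z.N.divisors.filter fun w => (GN.pairs1 G z n t w).Nonempty with hUdef
  have hpair : ∀ {w : ℕ} {x : (_ : Node) × Node}, x ∈ GN.pairs1 G z n t w →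
      x.2 ∈ Z.Nd x.1 ∧ R n x.2 ∧ w ∈ Z.S x.2 ∧ y x.1 w ≤ t := by
    intro w x hx
    unfold GN.pairs1 at hx
    rw [mem_filter, mem_sigma] at hx
    obtain ⟨⟨-, h2⟩, h3, h4⟩ := hx
    unfold GN.Out at h2
    rw [mem_filter] at h2
    exact ⟨h2.1, h2.2, h3, h4⟩
  have hmem : ∀ w, (GN.pairs1 G z n t w).Nonempty → w ∈ U := by
    intro w hw
    obtain ⟨x, hx⟩ := hw
    rw [hUdef, mem_filter, Nat.mem_divisors]
    exact ⟨⟨(low_node hZ (hpair hx).2.2.1).1, hZ.hN.ne'⟩, x, hx⟩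
  have hcard : ∀ w ∈ U, ((GN.pairs1 G z n t w).card : ℝ) ≤ 1 := by
    intro w _
    have : (GN.pairs1 G z n t w).card ≤ 1 := by
      rw [Finset.card_le_one]
      intro x hx y hy
      obtain ⟨a1, a2, a3, -⟩ := hpair hx
      obtain ⟨b1, b2, b3, -⟩ := hpair hy
      obtain ⟨-, -, -, c1⟩ := low_node hZ a3
      obtain ⟨-, -, -, c2⟩ := low_node hZ b3
      have e1 : x.2.1 = y.2.1 := (hR.idx a2).1.symm.trans (hR.idx b2).1
      have e2 : x.2 = y.2 := by rw [← c1, ← c2, e1]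
      have e3 : x.1 = y.1 := by
        rw [← (Nd_all hZ a1 a3).1, ← (Nd_all hZ b1 b3).1, e1]
      exact Sigma.ext e3 (heq_of_eq e2)
    exact_mod_cast this
  obtain ⟨AA, hAA, hAA2⟩ := hR.tgtO n
  have hmass : ∑ w ∈ U, nu Z.N w ≤ 2 * C1 * t * Z.g n := by
    by_cases ht1 : t ≤ 1 / 2
    · refine mass_small (n := n.2.1) hZ hKE (by linarith) hθm hH (by linarith) hc hnum hAA ht ht1 U ?_
      intro w hw
      rw [hUdef, mem_filter] at hw
      obtain ⟨x, hx⟩ := hw.2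
      obtain ⟨a1, a2, a3, a4⟩ := hpair hx
      obtain ⟨b1, b2, b3, b4⟩ := low_node hZ a3
      obtain ⟨i1, i2⟩ := hR.idx a2
      obtain ⟨c1, c2, c3, c4, c5, c6, c7, β1, β2, d1, d2, d3, d4, d5⟩ := small hZ hP ht1 a1 a3 a4
      have htg := hAA2 _ a2 w a3
      rw [← i1] at b2 b3 c4 d1 htg
      rw [← i2] at b3
      refine ⟨b1, b2, b3, htg, Z.pz x.1, c1, by omega, c2, ?_, β1, β2, d1, d2, d3, d4, d5 _ (by omega)⟩
      have := GWbirthx33.not_on_later hZ b1 c5 c7 c4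
      rwa [c6] at this
    · have h1 : ∑ w ∈ U, nu Z.N w ≤ Z.g n := by
        refine mass_prefix (n := n.2.1) hZ U ?_
        intro w hw
        rw [hUdef, mem_filter] at hw
        obtain ⟨x, hx⟩ := hw.2
        obtain ⟨a1, a2, a3, a4⟩ := hpair hx
        obtain ⟨b1, b2, b3, b4⟩ := low_node hZ a3
        obtain ⟨i1, i2⟩ := hR.idx a2
        rw [← i1, ← i2] at b3
        exact ⟨b1, b3⟩
      have hg := (g_pos hZ hn).le
      have ht2 : 1 / 2 < t := not_le.1 ht1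
      have : 1 ≤ 2 * C1 * t := by nlinarith
      nlinarith
  refine (H1_of_mult G (fun _ => nu Z.N) (nu Z.N) (fun w => nu_nonneg _ _) (fun _ _ => le_rfl)
    (z := z) (n := n) (t := t) (μ := 1) zero_le_one U hmem hcard hmass).trans ?_
  have hg := (g_pos hZ hn).le
  have : 0 ≤ 2 * C1 * t * Z.g n := by positivity
  linarith

/-- one node -/
lemma H0_aux (hZ : Z.Ok) (hP : Pay Z K y) (hKE : 0 ≤ KE) (hC1 : 1 ≤ C1) (hΔ : 2 ≤ Δ) (hc : 0 ≤ c)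
    (hθm : ∀ i j, Z.i0 ≤ i → i ≤ j → Z.θ i ≤ Z.θ j) (hH : HypS Z C1 c KE)
    (hnum : ∀ p : ℕ, Z.i0 ≤ p → Δ * (Z.θ p ^ (-c) + (2 : ℝ) ^ (-(c * p))) + KE / ((p : ℝ) + 1) ≤
      K / ((p : ℝ) + 1)) {z n : Node} (hn : n ∈ Z.Nd z) {t : ℝ} (ht : 0 < t) :
    ∑ w ∈ (Z.S n).filter (fun w => y z w ≤ t), nu Z.N w ≤ 4 * C1 * t * Z.g n := by
  classical
  have hg := (g_pos hZ hn).le
  have key : ∑ w ∈ (Z.S n).filter (fun w => y z w ≤ t), nu Z.N w ≤ 2 * C1 * t * Z.g n := by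
    by_cases ht1 : t ≤ 1 / 2
    · obtain ⟨AA, hAA, hAA2⟩ := HypWx473.two_targets hZ n
      have hAA' : (AA.card : ℝ) ≤ Δ := by
        have : (AA.card : ℝ) ≤ 2 := by exact_mod_cast hAA
        linarith
      refine mass_small (n := n.2.1) hZ hKE (by linarith) hθm hH (by linarith) hc hnum hAA' ht ht1
        _ ?_
      intro w hw
      rw [mem_filter] at hw
      obtain ⟨hwS, hwy⟩ := hw
      obtain ⟨b1, b2, b3, b4⟩ := low_node hZ hwS
      obtain ⟨c1, c2, c3, c4, c5, c6, c7, β1, β2, d1, d2, d3, d4, d5⟩ := small hZ hP ht1 hn hwS hwy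
      refine ⟨b1, b2, b3, hAA2 w hwS, Z.pz z, c1, by omega, c2, ?_, β1, β2, d1, d2, d3, d4,
        d5 _ (by omega)⟩
      have := GWbirthx33.not_on_later hZ b1 c5 c7 c4
      rwa [c6] at this
    · have h1 : ∑ w ∈ (Z.S n).filter (fun w => y z w ≤ t), nu Z.N w ≤ Z.g n := by
        refine mass_prefix (n := n.2.1) hZ _ ?_
        intro w hw
        obtain ⟨b1, b2, b3, b4⟩ := low_node hZ (mem_filter.1 hw).1
        exact ⟨b1, b3⟩
      have ht2 : 1 / 2 < t := not_le.1 ht1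
      have : 1 ≤ 2 * C1 * t := by nlinarith
      nlinarith
  have : 0 ≤ 2 * C1 * t * Z.g n := by positivity
  linarith

/-- second order -/
lemma H2_aux (hZ : Z.Ok) (hθ : ∀ i, Z.i0 ≤ i → 128 * Z.θ i ^ 2 ≤ 2 ^ i) (hR : RelP Z R Δ)
    (hP : Pay Z K y) (hKE : 0 ≤ KE) (hC1 : 1 ≤ C1) (hΔ : 2 ≤ Δ) (hc : 0 ≤ c)
    (hθm : ∀ i j, Z.i0 ≤ i → i ≤ j → Z.θ i ≤ Z.θ j) (hH : HypS Z C1 c KE)
    (hnum : ∀ p : ℕ, Z.i0 ≤ p → Δ * (Z.θ p ^ (-c) + (2 : ℝ) ^ (-(c * p))) + KE / ((p : ℝ) + 1) ≤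
      K / ((p : ℝ) + 1)) {z' m : Node} (hz : z' ∈ Z.Zs) (hm : m ∈ Z.Nd z') {t : ℝ} (ht : 0 < t) :
    ∑ n' ∈ (gnY Z R y).Bl z' m, ∑ z ∈ (gnY Z R y).Zs, ∑ n ∈ (gnY Z R y).In z' n' z,
      ∑ w ∈ ((gnY Z R y).A z n).filter (fun w => (gnY Z R y).y z w ≤ t), nu Z.N w ≤
      4 * C1 * t * Z.g m := by
  classical
  set G := gnY Z R y with hG
  set U : Finset ℕ := Z.N.divisors.filter fun w => (GN.pairs2 G z' m t w).Nonempty with hUdef
  have hpair : ∀ {w : ℕ} {x : (_ : Node) × (_ : Node) × Node}, x ∈ GN.pairs2 G z' m t w →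
      x.1 ∈ Z.Nd z' ∧ m.1 ≤ x.1.1 ∧ Z.S x.1 ⊆ Z.S m ∧ (Z.S x.1).Nonempty ∧
      x.2.2 ∈ Z.Nd x.2.1 ∧ R x.2.2 x.1 ∧ w ∈ Z.A x.2.1 x.2.2 ∧ w ∈ Z.S x.2.2 ∧
      y x.2.1 w ≤ t := by
    intro w x hx
    unfold GN.pairs2 at hx
    rw [mem_filter, mem_sigma, mem_sigma] at hx
    obtain ⟨⟨h1, -, h2⟩, h3, h4⟩ := hx
    unfold GN.Bl at h1
    unfold GN.In at h2
    rw [mem_filter] at h1 h2
    exact ⟨h1.1, h1.2.1, h1.2.2.1, h1.2.2.2, h2.1, h2.2, h3, A_sub _ _ h3, h4⟩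
  -- the prefix at `m`
  have hpre : ∀ {w : ℕ} {x : (_ : Node) × (_ : Node) × Node}, x ∈ GN.pairs2 G z' m t w →
      Z.nd m.1 w ∧ low (Z.cut m.1) w = m.2.1 := by
    intro w x hx
    obtain ⟨h1, h2, h3, ⟨u, hu⟩, h5, h6, -, h7, -⟩ := hpair hx
    obtain ⟨-, a2, a3, -⟩ := low_node hZ h7
    obtain ⟨-, b2, b3, -⟩ := low_node hZ hu
    obtain ⟨-, c2, c3, -⟩ := low_node hZ (h3 hu)
    obtain ⟨i1, i2⟩ := hR.idx h6
    have e1 : low (Z.cut x.1.1) w = low (Z.cut x.1.1) u := by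
      rw [b3, ← i2, ← i1, a3]
    have e2 := low_congr hZ h2 e1
    exact ⟨(nd_congr' e2).2 c2, e2.trans c3⟩
  have hmem : ∀ w, (GN.pairs2 G z' m t w).Nonempty → w ∈ U := by
    intro w hw
    obtain ⟨x, hx⟩ := hw
    rw [hUdef, mem_filter, Nat.mem_divisors]
    exact ⟨⟨(low_node hZ (hpair hx).2.2.2.2.2.2.2.1).1, hZ.hN.ne'⟩, x, hx⟩
  -- multiplicity
  have hcard : ∀ w ∈ U, ((GN.pairs2 G z' m t w).card : ℝ) ≤ 2 := by
    intro w _
    have hinj : Set.InjOn (fun x : (_ : Node) × (_ : Node) × Node => decide (x.2.1.1 ≤ m.1))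
        (GN.pairs2 G z' m t w : Set ((_ : Node) × (_ : Node) × Node)) := by
      intro x hx y hy hxy
      have hx' := hpair (mem_coe.1 hx)
      have hy' := hpair (mem_coe.1 hy)
      obtain ⟨x1, x2, x3, x4, x5, x6, x7, x8, -⟩ := hx'
      obtain ⟨y1, y2, y3', y4, y5, y6, y7, y8, -⟩ := hy'
      obtain ⟨px, -⟩ := hpre (mem_coe.1 hx)
      obtain ⟨cx1, cx2, cx3, cx4, cx5⟩ := Nd_all hZ x5 x8
      obtain ⟨cy1, cy2, cy3, cy4, cy5⟩ := Nd_all hZ y5 y8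
      obtain ⟨ix1, ix2⟩ := hR.idx x6
      obtain ⟨iy1, iy2⟩ := hR.idx y6
      -- the zones agree
      have hzz : x.2.1 = y.2.1 := by
        have hlab : ∀ {a : Node}, w ∈ Z.S a → Z.lab a.1 w = a := fun h => ((mem_S hZ).1 h).2.2
        have h1 : x.2.1.1 = y.2.1.1 := by
          simp only [decide_eq_decide] at hxy
          by_cases hle : x.2.1.1 ≤ m.1
          · have hle' := hxy.1 hle
            -- both are the last birth up to `m`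
            have a1 : Z.bi m.1 w = x.2.1.1 := by
              refine le_antisymm ?_ (le_bi hle cx4)
              rw [← cx5]
              exact le_bi ((bi_le _ _).trans (by omega)) (birth_bi px)
            have a2 : Z.bi m.1 w = y.2.1.1 := by
              refine le_antisymm ?_ (le_bi hle' cy4)
              rw [← cy5]
              exact le_bi ((bi_le _ _).trans (by omega)) (birth_bi px)
            rw [← a1, a2]
          · have hle' : ¬ y.2.1.1 ≤ m.1 := fun h => hle (hxy.2 h)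
            obtain ⟨a1, -⟩ := hR.one x5 x1 hm x2 x3 x4 x6 x8 (not_le.1 hle)
            obtain ⟨b1, -⟩ := hR.one y5 y1 hm y2 y3' y4 y6 y8 (not_le.1 hle')
            rw [pz_eq hZ cx2] at a1
            rw [pz_eq hZ cy2] at b1
            have p1 := (ZCellx60.prev_spec (Z := Z) (j := x.2.1.1) (w := w)
              ⟨m.1, not_le.1 hle, px⟩).2.2
            have p2 := (ZCellx60.prev_spec (Z := Z) (j := y.2.1.1) (w := w)
              ⟨m.1, not_le.1 hle', px⟩).2.2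
            rcases lt_trichotomy x.2.1.1 y.2.1.1 with h | h | h
            · have := p2 _ h cx4.1
              omega
            · exact h
            · have := p1 _ h cy4.1
              omega
        rw [← hlab cx2, ← hlab cy2, h1]
      -- the nodes agree
      have hnn : x.2.2 = y.2.2 := by
        by_contra hne
        have := A_disj hZ x.2.1 x.2.2 x5 y.2.2 (by rw [hzz]; exact y5) hne
        refine disjoint_left.1 this x7 ?_
        rw [hzz]; exact y7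
      have hn'n' : x.1 = y.1 := by
        refine ZCellx60.cell_unique hZ hθ x1 y1 ?_ ?_
        · rw [← ix1, ← iy1, hnn]
        · rw [← ix2, ← iy2, hnn]
      refine Sigma.ext hn'n' (heq_of_eq (Sigma.ext hzz (heq_of_eq hnn)))
    have h2 := Finset.card_le_card_of_injOn (s := GN.pairs2 G z' m t w) (t := (univ : Finset Bool))
      (fun x : (_ : Node) × (_ : Node) × Node => decide (x.2.1.1 ≤ m.1)) (fun _ _ => mem_univ _) hinj
    have h3 : (univ : Finset Bool).card = 2 := rfl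
    rw [h3] at h2
    exact_mod_cast h2
  obtain ⟨AA, hAA, hAA2⟩ := hR.tgtI m
  have hmass : ∑ w ∈ U, nu Z.N w ≤ 2 * C1 * t * Z.g m := by
    by_cases ht1 : t ≤ 1 / 2
    · refine mass_small (n := m.2.1) hZ hKE (by linarith) hθm hH (by linarith) hc hnum hAA ht ht1 U ?_
      intro w hw
      rw [hUdef, mem_filter] at hw
      obtain ⟨x, hx⟩ := hw.2
      obtain ⟨x1, x2, x3, x4, x5, x6, x7, x8, x9⟩ := hpair hx
      obtain ⟨px1, px2⟩ := hpre hx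
      obtain ⟨b1, b2, b3, b4⟩ := low_node hZ x8
      obtain ⟨i1, i2⟩ := hR.idx x6
      obtain ⟨c1, c2, c3, c4, c5, c6, c7, β1, β2, d1, d2, d3, d4, d5⟩ := small hZ hP ht1 x5 x8 x9
      have htg := hAA2 _ _ x6 x2 x3 x4 w x8 px1
      refine ⟨b1, px1, px2, htg, Z.pz x.2.1, c1, ?_, c2, ?_, β1, β2, by omega, d2, d3, d4, d5 _ ?_⟩
      · by_cases hle : x.2.1.1 ≤ m.1
        · omega
        · exact (hR.one x5 x1 hm x2 x3 x4 x6 x8 (not_le.1 hle)).1.le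
      · by_cases hle : x.2.1.1 ≤ m.1
        · have := GWbirthx33.not_on_later hZ b1 c5 c7 hle
          rwa [c6] at this
        · obtain ⟨e1, e2⟩ := hR.one x5 x1 hm x2 x3 x4 x6 x8 (not_le.1 hle)
          rw [e1]; exact e2
      · by_cases hle : x.2.1.1 ≤ m.1
        · omega
        · exact (hR.one x5 x1 hm x2 x3 x4 x6 x8 (not_le.1 hle)).1.le
    · have h1 : ∑ w ∈ U, nu Z.N w ≤ Z.g m := by
        refine mass_prefix (n := m.2.1) hZ U ?_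
        intro w hw
        rw [hUdef, mem_filter] at hw
        obtain ⟨x, hx⟩ := hw.2
        exact ⟨(low_node hZ (hpair hx).2.2.2.2.2.2.2.1).1, (hpre hx).2⟩
      have hg := (g_pos hZ hm).le
      have ht2 : 1 / 2 < t := not_le.1 ht1
      have : 1 ≤ 2 * C1 * t := by nlinarith
      nlinarith
  refine (H2_of_mult G (fun _ => nu Z.N) (nu Z.N) (fun w => nu_nonneg _ _) (fun _ _ => le_rfl)
    (z' := z') (m := m) (t := t) (μ := 2) zero_le_two U hmem hcard hmass).trans ?_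
  linarith

/-- **`GN.Ok` over the world** -/
theorem ok_of_pay (hZ : Z.Ok) (hθ : ∀ i, Z.i0 ≤ i → 128 * Z.θ i ^ 2 ≤ 2 ^ i) (hR : RelP Z R Δ)
    (hP : Pay Z K y) (hKE : 0 ≤ KE) (hC1 : 1 ≤ C1) (hΔ : 2 ≤ Δ) (hc : 0 ≤ c)
    (hθm : ∀ i j, Z.i0 ≤ i → i ≤ j → Z.θ i ≤ Z.θ j) (hH : HypS Z C1 c KE)
    (hnum : ∀ p : ℕ, Z.i0 ≤ p → Δ * (Z.θ p ^ (-c) + (2 : ℝ) ^ (-(c * p))) + KE / ((p : ℝ) + 1) ≤
      K / ((p : ℝ) + 1)) :
    (gnY Z R y).Ok (fun _ => nu Z.N) (fun _ => nu Z.N) (4 * C1) Δ where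
  C0 := by linarith
  Δ1 := by linarith
  lam := fun z _ => lamNd hZ z
  g0 := fun z _ n hn => g_pos hZ hn
  gR := fun z _ n _ z' _ n' _ h => g_eq (hR.idx h)
  f0 := fun _ w => nu_nonneg _ _
  f0' := fun _ w => nu_nonneg _ _
  y0 := fun z w => hP.pos z w
  y0' := fun z w => hP.pos z w
  deg := by
    classical
    intro z hz n hn
    have hdisj : Set.PairwiseDisjoint (↑(gnY Z R y).Zs : Set Node)
        (fun z' => (gnY Z R y).Out z n z') := by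
      intro z1 _ z2 _ hne
      rw [Function.onFun, disjoint_left]
      intro n' h1 h2
      unfold GN.Out at h1 h2
      rw [mem_filter] at h1 h2
      obtain ⟨w, hw, hw1⟩ := (mem_Nd_S hZ).1 h1.1
      exact hne (hw1.symm.trans (Nd_all hZ h2.1 hw).1)
    have h1 := card_biUnion hdisj
    have h2 := hR.deg n ((gnY Z R y).Zs.biUnion fun z' => (gnY Z R y).Out z n z') (by
      intro ν' hν'
      rw [mem_biUnion] at hν'
      obtain ⟨z', _, h3⟩ := hν'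
      unfold GN.Out at h3
      exact (mem_filter.1 h3).2)
    rw [h1] at h2
    push_cast at h2
    exact h2
  H0 := fun z' _ n' hn' t ht => H0_aux hZ hP hKE hC1 hΔ hc hθm hH hnum hn' ht
  H1 := fun z hz n hn t ht => H1_aux hZ hR hP hKE hC1 hΔ hc hθm hH hnum hz hn ht
  H2 := fun z' hz' m hm t ht => H2_aux hZ hθ hR hP hKE hC1 hΔ hc hθm hH hnum hz' hm ht

end main



/-! ### the relation of `RelDeg_15` -/

open Crest.Agent.R4C.RelDegx15 (Rel Dl)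

/-- **the properties of the relation on nodes** -/
theorem relP_rel (hZ : Z.Ok) (hσ : Z.σ ≤ 1) {W : Finset (ℕ × ℕ)} (hW : ∀ p ∈ W, 0 < p.1 ∧ 0 < p.2)
    {R0 D Δ : ℝ} (hR : 0 ≤ R0) (hG : VDepthx952.Grow Z D)
    (hD : ∀ p ∈ W, 64 * ((p.1 : ℝ) + p.2 + R0) ≤ D)
    (hΔ1 : 3 * (Dl W R0 : ℝ) ≤ Δ) (hΔ2 : 3 * (Dl (W.image Prod.swap) R0 : ℝ) ≤ Δ) :
    RelP Z (Rel Z W R0) Δ where
  idx := fun h => ⟨h.1, h.2.1⟩
  deg := by
    classical
    intro ν T hT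
    have h1 := RelDegx15.card_rel_le hZ hσ (fun p hp => (hW p hp).2) hR T ν
    have h2 : (T.filter fun ν' => Rel Z W R0 ν ν') = T := filter_true_of_mem hT
    rw [h2] at h1
    have h3 : (T.card : ℝ) ≤ Dl W R0 := by exact_mod_cast h1
    have h4 : (0 : ℝ) ≤ Dl W R0 := Nat.cast_nonneg _
    linarith
  tgtO := by
    intro ν
    obtain ⟨AA, h1, h2⟩ := RelDegx15.exists_targets hZ hσ (fun p hp => (hW p hp).2) hR ν
    refine ⟨AA, ?_, fun ν' hν' w hw => ?_⟩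
    · have h3 : (AA.card : ℝ) ≤ 3 * (Dl W R0 : ℝ) := by exact_mod_cast h1
      linarith
    · have h3 := h2 ν' hν' w hw
      rw [hν'.1] at h3
      exact h3
  tgtI := by
    classical
    intro m
    have hWs : ∀ p ∈ W.image Prod.swap, 0 < p.2 := by
      intro p hp
      obtain ⟨q, hq, rfl⟩ := mem_image.1 hp
      exact (hW q hq).1
    obtain ⟨AA, h1, h2⟩ := RelDegx15.exists_targets hZ hσ hWs hR m
    refine ⟨AA, ?_, fun n n' hnn hm hsub hne w hw hnd => ?_⟩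
    · have h3 : (AA.card : ℝ) ≤ 3 * (Dl (W.image Prod.swap) R0 : ℝ) := by exact_mod_cast h1
      linarith
    · obtain ⟨w', hw'⟩ := hne
      obtain ⟨a1, a2, a3⟩ := hnn.down_node hZ hm hw hw' (hsub hw')
      exact h2 _ (RelDegx15.rel_swap hZ a3) w a2
  one := by
    intro z z' m n n' w hn hn' hm hmn hsub _ hnn hw hlt
    obtain ⟨e1, e2, w1, hw1, w1', hw1', p, hp, h, hl⟩ := hnn
    obtain ⟨-, -, hc⟩ := VDepthx952.left_zone hZ (u := p.1) (v := p.2) (hW p hp).1 hG (hD p hp) hn hn'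
      hm hmn hsub ⟨e1, e2, w1, hw1, w1', hw1', h, hl⟩ hw
    rcases hc with hc | hc
    · exfalso
      have h1 : z.1 = Z.bi m.1 w := by rw [← hc]; rfl
      have h2 := bi_le (Z := Z) m.1 w
      omega
    · exact ⟨hc.2.2.2.2.2.1, hc.2.2.2.2.2.2⟩

/-! ### the form of `HDdef_529` -/

lemma pay_529 (hZ : Z.Ok) {KV : ℝ} (hKV : 1 ≤ KV) :
    Pay Z KV (fun z w => HDx529.Y3 Z z w + HDx529.kapV Z KV z) where
  pos := fun z w => by
    have h1 : 0 ≤ HDx529.Y3 Z z w := by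
      unfold HDx529.Y3
      split_ifs
      · linarith [HDeltax60.Wp_le_one (Z := Z) (Z.cut (Z.pz z)) (Z.cut (Z.nb (Z.nb z.1 w) w)) w]
      · exact zero_le_one
    have h2 : 0 < HDx529.kapV Z KV z := by
      unfold HDx529.kapV
      refine lt_min one_pos (div_pos (by linarith) ?_)
      positivity
    linarith
  small := by
    classical
    intro z n w t hn hw ht hy
    have h1 : 0 ≤ HDx529.Y3 Z z w := by
      unfold HDx529.Y3
      split_ifs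
      · linarith [HDeltax60.Wp_le_one (Z := Z) (Z.cut (Z.pz z)) (Z.cut (Z.nb (Z.nb z.1 w) w)) w]
      · exact zero_le_one
    have h2 : 0 < HDx529.kapV Z KV z := by
      unfold HDx529.kapV
      refine lt_min one_pos (div_pos (by linarith) ?_)
      positivity
    have h3 : HDx529.kapV Z KV z ≤ t := by linarith
    have h4 : KV / ((Z.pz z : ℝ) + 1) ≤ t := by
      unfold HDx529.kapV at h3
      rcases min_le_iff.1 h3 with h | h
      · linarith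
      · exact h
    refine ⟨by linarith, ?_, h4⟩
    by_contra hcon
    have hS := (Nd_all hZ hn hw).2.1
    have h0 : Z.pz z = 0 := by
      rw [pz_eq hZ hS]
      by_contra h5
      have hprev := Nat.findGreatest_of_ne_zero (P := fun i' => i' < z.1 ∧ Z.nd i' w)
        (n := z.1) (m := Z.prev z.1 w) rfl h5
      have h6 := hprev.2.1
      rw [pz_eq hZ hS] at hcon
      exact hcon h6
    rw [h0] at h4
    norm_num at h4
    linarith

/-- `HypT` of `HDdef_529` gives the hypothesis used here -/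
lemma hypS_529 (hZ : Z.Ok) (hθ : ∀ i, Z.i0 ≤ i → 128 * Z.θ i ^ 2 ≤ 2 ^ i) {C1 c KE : ℝ}
    (hC1 : 0 ≤ C1) (h : HDx529.HypT Z C1 c KE) : HypS Z C1 c KE := by
  classical
  intro i n AA K0 s hi hK0 hKθ hs hs2
  have hθ1 := hZ.hθ i hi
  have h2 := hθ i hi
  have hK2 : K0 ≤ 2 ^ i := by nlinarith
  have h3 := h i n AA K0 s hi hK0 hK2 hs hs2
  have hsub : (Z.N.divisors.filter fun w => Evt Z AA K0 s i n w) ⊆ HDx529.badT Z i n AA K0 s := by
    intro w hw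
    rw [mem_filter] at hw
    obtain ⟨hw1, a1, a2, a3, a4, b1, b2, c1, c2, c3, c4, c5⟩ := hw
    unfold HDx529.badT
    rw [mem_filter]
    exact ⟨hw1, a1, a2, a3, a4, b1, b2, c1, c2, c3.1, c4, c5⟩
  refine (sum_le_sum_of_subset_of_nonneg hsub fun w _ _ => nu_nonneg _ _).trans (h3.trans ?_)
  refine mul_le_mul_of_nonneg_right ?_ (nu_nonneg _ _)
  refine mul_le_mul_of_nonneg_left ?_ hC1
  have h4 : (0 : ℝ) ≤ (AA.card : ℝ) * (2 : ℝ) ^ (-(c * i)) := by positivity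
  linarith [mul_add (AA.card : ℝ) (K0 ^ (-c)) ((2 : ℝ) ^ (-(c * i)))]

/-- **`GN.Ok` for the data of `HDdef_529` and the relation of `RelDeg_15`** -/
theorem ok_529 (hZ : Z.Ok) (hσ : Z.σ ≤ 1) {W : Finset (ℕ × ℕ)} (hW : ∀ p ∈ W, 0 < p.1 ∧ 0 < p.2)
    {R0 D Δ KV C1 c KE : ℝ} (hR : 0 ≤ R0) (hG : VDepthx952.Grow Z D)
    (hD : ∀ p ∈ W, 64 * ((p.1 : ℝ) + p.2 + R0) ≤ D)
    (hΔ : 2 ≤ Δ) (hΔ1 : 3 * (Dl W R0 : ℝ) ≤ Δ) (hΔ2 : 3 * (Dl (W.image Prod.swap) R0 : ℝ) ≤ Δ)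
    (hθ : ∀ i, Z.i0 ≤ i → 128 * Z.θ i ^ 2 ≤ 2 ^ i) (hKV : 1 ≤ KV) (hC1 : 1 ≤ C1) (hc : 0 ≤ c)
    (hKE : 0 ≤ KE) (hH : HDx529.HypT Z C1 c KE)
    (hnum : ∀ p : ℕ, Z.i0 ≤ p → Δ * (Z.θ p ^ (-c) + (2 : ℝ) ^ (-(c * p))) + KE / ((p : ℝ) + 1) ≤
      KV / ((p : ℝ) + 1)) :
    (HDx529.gn Z (Rel Z W R0) KV).Ok (fun _ => nu Z.N) (fun _ => nu Z.N) (4 * C1) Δ :=
  ok_of_pay hZ hθ (relP_rel hZ hσ hW hR hG hD hΔ1 hΔ2) (pay_529 hZ hKV) hKE hC1 hΔ hc hG.mono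
    (hypS_529 hZ hθ (by linarith) hH) hnum

end Crest.Agent.R4C.HDeltaGx60
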