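import Crest.Agent.R4C.GWasm_982
import Crest.Agent.R4C.CellLaw_276

/-!
# Row 4, GW section: from the words of a node to the law of the letters above the cut (helper473)

Over the world `Z` of `GWdef_982`:

* `nd_congr`, `first_congr`, `prev_congr` : functions of the prefix.
* `pos_of_mem` : the words of a node `ν` (index `i`): `upp (cut i) w * γ ∈ [α, α + 3/t] + ℤ`,
  `t = tt i w`, `α = α(ν)`.
* `two_targets` : within `1/t` of one of two targets.
* `on_down_world` : `On` at a higher index gives `On` at a lower index.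
* `node_law` : `∑_{w ∈ S ν, Ev w} nu w ≤ g ν (Bx + Bl + 2/cut i)`.
-/

set_option autoImplicit false

open Finset
open Crest.Agent.R4C.Basex935 Crest.Agent.R4C.Cutx50 Crest.Agent.R4C.PrefixMx882
open Crest.Agent.R4C.Cellx863 (Nc mesh Qe)
open Crest.Agent.R4C.NHx656 (On)
open Crest.Agent.R4C.GWdefx982
open Crest.Agent.R4C.GWhx656 (law)

namespace Crest.Agent.R4C.HypWx473

variable {Z : World}

/-! ### functions of the prefix -/

lemma low_congr (hcut : Monotone Z.cut) {i' i w w' : ℕ} (h : i' ≤ i)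
    (hl : low (Z.cut i) w = low (Z.cut i) w') : low (Z.cut i') w = low (Z.cut i') w' := by
  rw [← low_low (hcut h) w, hl, low_low (hcut h) w']

lemma e_congr (hcut : Monotone Z.cut) {i' i w w' : ℕ} (h : i' ≤ i)
    (hl : low (Z.cut i) w = low (Z.cut i) w') : Z.e i' w = Z.e i' w' := by
  unfold World.e
  rw [low_congr hcut h hl]

lemma tt_congr (hcut : Monotone Z.cut) {i' i w w' : ℕ} (h : i' ≤ i)
    (hl : low (Z.cut i) w = low (Z.cut i) w') : Z.tt i' w = Z.tt i' w' := by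
  unfold World.tt
  rw [e_congr hcut h hl]

lemma nd_congr (hcut : Monotone Z.cut) {i' i w w' : ℕ} (h : i' ≤ i)
    (hl : low (Z.cut i) w = low (Z.cut i) w') : Z.nd i' w ↔ Z.nd i' w' := by
  unfold World.nd
  rw [e_congr hcut h hl]

lemma first_le {i w : ℕ} (h : Z.nd i w) : Z.first w ≤ i := by
  classical
  unfold World.first
  rw [dif_pos ⟨i, h⟩]
  exact Nat.find_min' _ h

lemma nd_first {i w : ℕ} (h : Z.nd i w) : Z.nd (Z.first w) w := by
  classical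
  unfold World.first
  rw [dif_pos ⟨i, h⟩]
  exact Nat.find_spec (⟨i, h⟩ : ∃ i, Z.nd i w)

lemma first_congr (hcut : Monotone Z.cut) {i w w' : ℕ} (hw : Z.nd i w) (hw' : Z.nd i w')
    (hl : low (Z.cut i) w = low (Z.cut i) w') : Z.first w = Z.first w' := by
  have h1 := first_le hw
  have h2 := first_le hw'
  refine le_antisymm ?_ ?_
  · exact first_le ((nd_congr hcut h2 hl).2 (nd_first hw'))
  · exact first_le ((nd_congr hcut h1 hl).1 (nd_first hw))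

lemma e1_congr (hcut : Monotone Z.cut) {i w w' : ℕ} (hw : Z.nd i w) (hw' : Z.nd i w')
    (hl : low (Z.cut i) w = low (Z.cut i) w') : Z.e1 w = Z.e1 w' := by
  unfold World.e1
  rw [← first_congr hcut hw hw' hl]
  exact e_congr hcut (first_le hw) hl

lemma prev_congr (hcut : Monotone Z.cut) {i w w' : ℕ}
    (hl : low (Z.cut i) w = low (Z.cut i) w') : Z.prev i w = Z.prev i w' := by
  classical
  unfold World.prev
  have key : ∀ n ≤ i, ∀ j ≤ n, (j < i ∧ Z.nd j w) ↔ (j < i ∧ Z.nd j w') := by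
    intro n _ j _
    constructor
    · rintro ⟨h1, h2⟩; exact ⟨h1, (nd_congr hcut h1.le hl).1 h2⟩
    · rintro ⟨h1, h2⟩; exact ⟨h1, (nd_congr hcut h1.le hl).2 h2⟩
  refine le_antisymm ?_ ?_
  · by_cases h0 : Nat.findGreatest (fun i' => i' < i ∧ Z.nd i' w) i = 0
    · rw [h0]; exact Nat.zero_le _
    · have h1 := Nat.findGreatest_of_ne_zero (P := fun i' => i' < i ∧ Z.nd i' w) rfl h0
      exact Nat.le_findGreatest (Nat.findGreatest_le _)
        ((key _ le_rfl _ (Nat.findGreatest_le _)).1 h1)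
  · by_cases h0 : Nat.findGreatest (fun i' => i' < i ∧ Z.nd i' w') i = 0
    · rw [h0]; exact Nat.zero_le _
    · have h1 := Nat.findGreatest_of_ne_zero (P := fun i' => i' < i ∧ Z.nd i' w') rfl h0
      exact Nat.le_findGreatest (Nat.findGreatest_le _)
        ((key _ le_rfl _ (Nat.findGreatest_le _)).2 h1)

/-- words of a node -/
lemma mem_S {ν : Node} {w : ℕ} : w ∈ Z.S ν ↔ (w ∣ Z.N ∧ Z.N ≠ 0) ∧ Z.nd ν.1 w ∧ Z.lab ν.1 w = ν := by
  classical
  unfold World.S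
  rw [mem_filter, Nat.mem_divisors]

lemma low_of_mem {ν : Node} {w : ℕ} (h : w ∈ Z.S ν) : low (Z.cut ν.1) w = ν.2.1 := by
  have h1 := (mem_S.1 h).2.2
  unfold World.lab at h1
  exact congrArg (fun x : Node => x.2.1) h1

lemma cel_of_mem {ν : Node} {w : ℕ} (h : w ∈ Z.S ν) : Z.cel w % (Z.Q ν.1 w : ℤ) = ν.2.2 := by
  have h1 := (mem_S.1 h).2.2
  unfold World.lab at h1
  exact congrArg (fun x : Node => x.2.2) h1

/-- `4 L ≤ e₁` -/
lemma four_le_e1 (hZ : Z.Ok) {i w : ℕ} (h : Z.nd i w) : 4 * Z.L ≤ Z.e1 w := by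
  have h1 := nd_first h
  have h2 : (2 : ℝ) ^ Z.first w * Z.L ≤ Z.e (Z.first w) w := h1.2.1
  have h3 : (2 : ℝ) ^ 3 ≤ 2 ^ Z.first w := pow_le_pow_right₀ (by norm_num) (hZ.hi0.trans h1.1)
  have h4 := hZ.hL
  unfold World.e1
  nlinarith

lemma e1_dvd (hcut : Monotone Z.cut) {i w : ℕ} (h : Z.nd i w) : Z.e1 w ∣ Z.e i w := by
  unfold World.e1 World.e
  refine Nat.mul_dvd_mul_left _ ?_
  rw [← low_low (hcut (first_le h)) w]
  exact low_dvd_self _ _

lemma e_pos (hZ : Z.Ok) (i w : ℕ) : 0 < Z.e i w := Nat.mul_pos hZ.hG (low_pos _ _)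

lemma tt_pos (hZ : Z.Ok) (i w : ℕ) : 0 < Z.tt i w :=
  div_pos (by exact_mod_cast e_pos hZ i w) hZ.hL

/-- **position of the words of a node** -/
theorem pos_of_mem (hZ : Z.Ok) (ν : Node) : ∃ α : ℝ, ∀ w ∈ Z.S ν, ∃ m : ℤ,
    α ≤ Z.yy ν.1 w - m ∧ Z.yy ν.1 w - m ≤ α + 3 / Z.tt ν.1 w := by
  classical
  by_cases hne : (Z.S ν).Nonempty
  swap
  · exact ⟨0, fun w hw => absurd ⟨w, hw⟩ hne⟩
  obtain ⟨w₀, hw₀⟩ := hne
  have h₀ := (mem_S.1 hw₀).2.1
  refine ⟨((ν.2.2 : ℝ) - Z.σ) * mesh Z.L (Z.e1 w₀) / (Z.e ν.1 w₀ : ℝ), fun w hw => ?_⟩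
  have hnd := (mem_S.1 hw).2.1
  have hl : low (Z.cut ν.1) w = low (Z.cut ν.1) w₀ := by rw [low_of_mem hw, low_of_mem hw₀]
  have he1 : Z.e1 w = Z.e1 w₀ := e1_congr hZ.hcut hnd h₀ hl
  have he : Z.e ν.1 w = Z.e ν.1 w₀ := e_congr hZ.hcut le_rfl hl
  rw [← he1, ← he]
  set μ := mesh Z.L (Z.e1 w) with hμdef
  have h4 := four_le_e1 hZ hnd
  obtain ⟨m1, m2⟩ := Cellx863.mesh_bounds hZ.hL h4
  have hμ : 0 < μ := Cellx863.mesh_pos hZ.hL h4
  have hQ : (Z.Q ν.1 w : ℝ) * μ = Z.e ν.1 w := Cellx863.Qe_mul hZ.hL h4 (e1_dvd hZ.hcut hnd)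
  have hc := cel_of_mem hw
  have heR : (0 : ℝ) < Z.e ν.1 w := by exact_mod_cast e_pos hZ ν.1 w
  refine ⟨Z.cel w / (Z.Q ν.1 w : ℤ), ?_⟩
  set k : ℤ := Z.cel w / (Z.Q ν.1 w : ℤ) with hk
  have hdm : (Z.cel w : ℝ) = (ν.2.2 : ℝ) + (Z.Q ν.1 w : ℝ) * k := by
    have := Int.emod_add_mul_ediv (Z.cel w) (Z.Q ν.1 w : ℤ)
    rw [hc] at this
    exact_mod_cast this.symm
  have hpos : (Z.e ν.1 w : ℝ) * Z.yy ν.1 w = ((Z.G0 * w : ℕ) : ℝ) * Z.γ := by
    have e0 : Z.G0 * w = Z.e ν.1 w * upp (Z.cut ν.1) w := by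
      unfold World.e
      have hw0 : w ≠ 0 := by
        rintro rfl
        exact (mem_S.1 hw).1.2 (Nat.eq_zero_of_zero_dvd (mem_S.1 hw).1.1)
      rw [mul_assoc, low_mul_upp _ hw0]
    rw [e0]
    unfold World.yy
    push_cast
    ring
  have r1 := Cellx863.rp_le (γ := Z.γ) (σ := Z.σ) hμ (Z.G0 * w)
  have r2 := Cellx863.lt_rp (γ := Z.γ) (σ := Z.σ) hμ (Z.G0 * w)
  have hrp : Cellx863.rp Z.γ μ Z.σ (Z.G0 * w) = ((ν.2.2 : ℝ) - Z.σ) * μ + Z.e ν.1 w * k := by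
    unfold Cellx863.rp
    have : (Nc Z.γ μ Z.σ (Z.G0 * w) : ℝ) = (Z.cel w : ℝ) := rfl
    rw [this, hdm, ← hQ]
    ring
  rw [hrp, ← hpos] at r1 r2
  have h3 : 3 / Z.tt ν.1 w = 3 * Z.L / Z.e ν.1 w := by
    unfold World.tt
    have := hZ.hL
    field_simp
  constructor
  · rw [div_le_iff₀ heR]
    linarith
  · rw [h3, ← add_div, le_div_iff₀ heR]
    linarith

/-- within `1/t` of one of two targets -/
theorem two_targets (hZ : Z.Ok) (ν : Node) : ∃ AA : Finset ℝ, AA.card ≤ 2 ∧ ∀ w ∈ Z.S ν,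
    ∃ α ∈ AA, ∃ m : ℤ, |Z.yy ν.1 w - α - m| ≤ 1 / Z.tt ν.1 w := by
  classical
  by_cases hne : (Z.S ν).Nonempty
  swap
  · exact ⟨∅, by simp, fun w hw => absurd ⟨w, hw⟩ hne⟩
  obtain ⟨w₀, hw₀⟩ := hne
  obtain ⟨α, hα⟩ := pos_of_mem hZ ν
  refine ⟨{α + 1 / Z.tt ν.1 w₀, α + 5 / 2 / Z.tt ν.1 w₀}, card_le_two, fun w hw => ?_⟩
  have hl : low (Z.cut ν.1) w = low (Z.cut ν.1) w₀ := by rw [low_of_mem hw, low_of_mem hw₀]
  have ht : Z.tt ν.1 w = Z.tt ν.1 w₀ := tt_congr hZ.hcut le_rfl hl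
  obtain ⟨m, h1, h2⟩ := hα w hw
  have htp := tt_pos hZ ν.1 w
  rw [← ht]
  set t := Z.tt ν.1 w with htd
  have e1 : 5 / 2 / t = 5 / 2 * (1 / t) := by ring
  have e2 : 3 / t = 3 * (1 / t) := by ring
  have hp : 0 < 1 / t := by positivity
  rw [e2] at h2
  by_cases hcase : Z.yy ν.1 w - m ≤ α + 2 * (1 / t)
  · refine ⟨α + 1 / t, by simp, m, ?_⟩
    rw [abs_le]
    constructor <;> linarith
  · push Not at hcase
    refine ⟨α + 5 / 2 / t, by simp, m, ?_⟩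
    rw [e1, abs_le]
    constructor <;> linarith

/-- `On` at a higher index gives `On` at a lower index -/
lemma on_down_world (hZ : Z.Ok) {K : ℝ} {i j w : ℕ} (hij : i ≤ j) (hw : w ≠ 0)
    (h : On K (Z.yy j w) (Z.tt j w)) : On K (Z.yy i w) (Z.tt i w) := by
  have hc := hZ.hcut hij
  -- `upp (cut i) w = low (cut j) (upp (cut i) w) * upp (cut j) w`
  set d := low (Z.cut j) (upp (Z.cut i) w) with hd
  have e1 : upp (Z.cut i) w = d * upp (Z.cut j) w := by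
    have h1 := low_mul_upp (b := upp (Z.cut i) w) (Z.cut j) (upp_pos _ _).ne'
    rw [upp_upp hc] at h1
    exact h1.symm
  have e2 : low (Z.cut j) w = low (Z.cut i) w * d := by
    have h1 := low_mul_upp (Z.cut i) hw
    have h2 := low_mul_upp (Z.cut j) hw
    have h3 : low (Z.cut i) w * (d * upp (Z.cut j) w) = low (Z.cut j) w * upp (Z.cut j) w := by
      rw [← e1, h1, h2]
    have h4 := upp_pos (Z.cut j) w
    have h5 : (low (Z.cut i) w * d) * upp (Z.cut j) w = low (Z.cut j) w * upp (Z.cut j) w := by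
      rw [← h3]; ring
    exact (Nat.eq_of_mul_eq_mul_right h4 h5).symm
  have y1 : Z.yy i w = (d : ℝ) * Z.yy j w := by
    unfold World.yy
    rw [e1]; push_cast; ring
  have t1 : Z.tt j w = Z.tt i w * d := by
    unfold World.tt World.e
    rw [e2]; push_cast; ring
  rw [y1]
  rw [t1] at h
  exact h.push

/-! ### passage to the law of the letters -/

open Classical in
/-- **node law**: exceptional words, non-squarefree words and the law of the others -/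
theorem node_law (hN : 0 < Z.N) {ν : Node} (hn : ν.2.1 ∣ low (Z.cut ν.1) Z.N)
    (hcut1 : 1 ≤ Z.cut ν.1) (Ev Exc : ℕ → Prop) {Bx Bl : ℝ}
    (hexc : ∑ w ∈ (Z.S ν).filter Exc, nu Z.N w ≤ Bx * Z.g ν)
    (hlaw : ∑ S ∈ (upp (Z.cut ν.1) Z.N).primeFactors.powerset with
        (ν.2.1 * ∏ p ∈ S, p ∈ Z.S ν ∧ Ev (ν.2.1 * ∏ p ∈ S, p) ∧ ¬ Exc (ν.2.1 * ∏ p ∈ S, p)),
      law (upp (Z.cut ν.1) Z.N).primeFactors S ≤ Bl) :
    ∑ w ∈ (Z.S ν).filter Ev, nu Z.N w ≤ (Bx + Bl + 2 / Z.cut ν.1) * Z.g ν := by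
  set E : ℕ → Prop := fun u => ν.2.1 * u ∈ Z.S ν ∧ Ev (ν.2.1 * u) ∧ ¬ Exc (ν.2.1 * u) with hE
  have h1 := CellLawx276.cell_low_le hN hcut1 hn E (s := Bl) (by convert hlaw)
  have h2 : ∑ w ∈ (Z.S ν).filter Ev, nu Z.N w ≤
      ∑ w ∈ (Z.S ν).filter Exc, nu Z.N w +
        ∑ w ∈ Z.N.divisors with (low (Z.cut ν.1) w = ν.2.1 ∧ E (upp (Z.cut ν.1) w)), nu Z.N w := by
    refine le_trans (sum_le_sum_of_subset_of_nonneg (t := (Z.S ν).filter Exc ∪
      (Z.N.divisors.filter fun w => low (Z.cut ν.1) w = ν.2.1 ∧ E (upp (Z.cut ν.1) w))) ?_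
      fun b _ _ => nu_nonneg Z.N b) ?_
    · intro w hw
      rw [mem_filter] at hw
      obtain ⟨hwS, hwE⟩ := hw
      rw [mem_union, mem_filter, mem_filter]
      by_cases hx : Exc w
      · exact Or.inl ⟨hwS, hx⟩
      · right
        have hwd := (mem_S.1 hwS).1
        have hlow := low_of_mem hwS
        have hw0 : w ≠ 0 := by
          rintro rfl
          exact hwd.2 (Nat.eq_zero_of_zero_dvd hwd.1)
        have hww : ν.2.1 * upp (Z.cut ν.1) w = w := by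
          rw [← hlow, low_mul_upp _ hw0]
        refine ⟨Nat.mem_divisors.2 hwd, hlow, ?_⟩
        rw [hE]
        simp only
        rw [hww]
        exact ⟨hwS, hwE, hx⟩
    · rw [← sum_union_inter]
      exact le_add_of_nonneg_right (sum_nonneg fun b _ => nu_nonneg Z.N b)
  have hg : Z.g ν = nu (low (Z.cut ν.1) Z.N) ν.2.1 := rfl
  rw [← hg] at h1
  calc ∑ w ∈ (Z.S ν).filter Ev, nu Z.N w
      ≤ Bx * Z.g ν + Z.g ν * (Bl + 2 / Z.cut ν.1) :=
        h2.trans (add_le_add hexc (le_trans (le_of_eq (by congr!)) h1))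
    _ = (Bx + Bl + 2 / Z.cut ν.1) * Z.g ν := by ring

/-- the prefix of a node divides the low part of the modulus -/
lemma node_dvd {ν : Node} {w : ℕ} (h : w ∈ Z.S ν) : ν.2.1 ∣ low (Z.cut ν.1) Z.N := by
  rw [← low_of_mem h]
  have h1 := (mem_S.1 h).1
  exact low_dvd _ h1.2 h1.1

/-- mass of the node -/
lemma node_mass (hN : 0 < Z.N) (ν : Node) : ∑ w ∈ Z.S ν, nu Z.N w ≤ Z.g ν := by
  classical
  by_cases hne : (Z.S ν).Nonempty
  swap
  · rw [not_nonempty_iff_eq_empty.1 hne, sum_empty]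
    exact nu_nonneg _ _
  obtain ⟨w₀, hw₀⟩ := hne
  have hn := node_dvd hw₀
  have h1 := CellLawx276.cell_mass hN (Z.cut ν.1) hn
  show _ ≤ nu (low (Z.cut ν.1) Z.N) ν.2.1
  rw [← h1]
  refine sum_le_sum_of_subset_of_nonneg ?_ fun b _ _ => nu_nonneg Z.N b
  intro w hw
  exact mem_filter.2 ⟨Nat.mem_divisors.2 (mem_S.1 hw).1, low_of_mem hw⟩

end Crest.Agent.R4C.HypWx473
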