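import Crest.Agent.R4C.ZCell_60
import Crest.Agent.R4C.GWrelW_8
import Crest.Agent.R4C.GWbirth_33
import Crest.Agent.R4C.HypW_473

/-!
# Row 4, GW section, vector case: `GN.Ok` over the world of `GWdef_982` (helper60, second hand of (C))

* `kV Z K z`   : `min 1 (K / (pz z + 1))`, `1` on the first zones.
* `y3 Z K z w` : loss of coins between `cut (pz z)` and the second next birth, plus `kV`.
* `Tgt`        : within `1/tt` of a target.
* `HypT Z C1 c`: the natural hypothesis for a finite set of targets (529's (A)).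
* `RelP Z R Δ` : what is used of the relation on nodes: same prefix, degree, targets (both orders),
                 one birth (952's (5)), pushing down.
* **`gn_ok`**  : `GN.Ok (gn Z R K) ν ν (4 C1) Δ`.
-/

set_option autoImplicit false

open Finset
open Crest.Agent.R4C.Basex935 Crest.Agent.R4C.Cutx50 Crest.Agent.R4C.PrefixMx882
open Crest.Agent.R4C.GWdefx982 Crest.Agent.R4C.GWrelx8 Crest.Agent.R4C.GWrelWx8
open Crest.Agent.R4C.NHx656 (On)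
open Crest.Agent.R4C.GWnodex863

namespace Crest.Agent.R4C.HDeltax60

section defs

variable (Z : World)

/-- additive part of the payment -/
noncomputable def kV (K : ℝ) (z : Node) : ℝ :=
  if Z.i0 ≤ Z.pz z then min 1 (K / ((Z.pz z : ℝ) + 1)) else 1

open Classical in
/-- loss of coins in three gaps -/
noncomputable def Y3 (z : Node) (w : ℕ) : ℝ :=
  if Z.hasNb z.1 w ∧ Z.hasNb (Z.nb z.1 w) w then
    1 - Z.Wp (Z.cut (Z.pz z)) (Z.cut (Z.nb (Z.nb z.1 w) w)) w else 1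

/-- the payment -/
noncomputable def y3 (K : ℝ) (z : Node) (w : ℕ) : ℝ := Y3 Z z w + kV Z K z

/-- the point of `w` at `i` is within `1/tt` of a target -/
def Tgt (AA : Finset ℝ) (i w : ℕ) : Prop :=
  ∃ α ∈ AA, ∃ m : ℤ, |Z.yy i w - α - m| ≤ 1 / Z.tt i w

/-- the event of `HypT` -/
def Evt (AA : Finset ℝ) (K0 s : ℝ) (i n w : ℕ) : Prop :=
  Z.nd i w ∧ low (Z.cut i) w = n ∧ Tgt Z AA i w ∧ ¬ On K0 (Z.yy i w) (Z.tt i w) ∧
    ∃ b1 b2, i < b1 ∧ b1 < b2 ∧ Z.birth b1 w ∧ Z.birth b2 w ∧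
      1 - Z.Wp (Z.cut i) (Z.cut b2) w ≤ s

open Classical in
/-- **natural hypothesis with a finite set of targets** -/
def HypT (C1 c : ℝ) : Prop :=
  ∀ (i n : ℕ) (AA : Finset ℝ) (K0 s : ℝ), Z.i0 ≤ i → 1 ≤ K0 → K0 ≤ Z.θ i → 0 ≤ s → s ≤ 1 →
    ∑ w ∈ Z.N.divisors with Evt Z AA K0 s i n w, nu Z.N w ≤
      C1 * (s + AA.card * (K0 ^ (-c) + (2 : ℝ) ^ (-(c * i))) + 1 / ((i : ℝ) + 1)) *
        nu (low (Z.cut i) Z.N) n

/-- properties of the relation -/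
structure RelP (R : Node → Node → Prop) (Δ : ℝ) : Prop where
  idx : ∀ {ν ν'}, R ν ν' → ν.1 = ν'.1 ∧ ν.2.1 = ν'.2.1
  /-- degree -/
  deg : ∀ (ν : Node) (T : Finset Node), (∀ ν' ∈ T, R ν ν') → (T.card : ℝ) ≤ Δ
  /-- targets of the partners -/
  tgtO : ∀ ν : Node, ∃ AA : Finset ℝ, (AA.card : ℝ) ≤ Δ ∧
    ∀ ν', R ν ν' → ∀ w ∈ Z.S ν', Tgt Z AA ν'.1 w
  /-- targets of the changers at a lower node of the partner -/
  tgtI : ∀ m : Node, ∃ AA : Finset ℝ, (AA.card : ℝ) ≤ Δ ∧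
    ∀ n n', R n n' → m.1 ≤ n'.1 → Z.S n' ⊆ Z.S m → (Z.S n').Nonempty →
      ∀ w ∈ Z.S n, Z.nd m.1 w → Tgt Z AA m.1 w
  /-- at most one new birth -/
  one : ∀ {z z' m n n' w}, n ∈ Z.Nd z → n' ∈ Z.Nd z' → m ∈ Z.Nd z' → m.1 ≤ n'.1 →
    Z.S n' ⊆ Z.S m → (Z.S n').Nonempty → R n n' → w ∈ Z.S n → m.1 < z.1 →
      Z.pz z = m.1 ∧ ¬ On (Z.θ m.1) (Z.yy m.1 w) (Z.tt m.1 w)

/-- the graph of nodes -/
noncomputable def gn (R : Node → Node → Prop) (K : ℝ) : GN Node Node ℕ where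
  Zs := Z.Zs
  Nd := Z.Nd
  S := fun _ ν => Z.S ν
  A := Z.A
  rk := fun ν => ν.1
  g := Z.g
  R := fun _ n _ n' => R n n'
  y := y3 Z K
  y' := y3 Z K

end defs

variable {Z : World}

/-! ### the payment -/

lemma Wp_nonneg (a b w : ℕ) : 0 ≤ Z.Wp a b w := by
  classical
  unfold World.Wp
  refine Finset.prod_nonneg fun p hp => ?_
  have hpp := Nat.prime_of_mem_primeFactors (mem_free.1 (mem_filter.1 hp).1).1
  have h1 : (1 : ℝ) ≤ p := by exact_mod_cast hpp.one_le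
  have h2 : 1 / (p : ℝ) ≤ 1 := by rw [div_le_one (by linarith)]; exact h1
  linarith

lemma Wp_le_one (a b w : ℕ) : Z.Wp a b w ≤ 1 := by
  classical
  unfold World.Wp
  refine Finset.prod_le_one (fun p hp => ?_) fun p hp => ?_
  · have hpp := Nat.prime_of_mem_primeFactors (mem_free.1 (mem_filter.1 hp).1).1
    have h1 : (1 : ℝ) ≤ p := by exact_mod_cast hpp.one_le
    have h2 : 1 / (p : ℝ) ≤ 1 := by rw [div_le_one (by linarith)]; exact h1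
    linarith
  · have : 0 ≤ 1 / (p : ℝ) := by positivity
    linarith

lemma Y3_nonneg (z : Node) (w : ℕ) : 0 ≤ Y3 Z z w := by
  unfold Y3
  split_ifs
  · linarith [Wp_le_one (Z := Z) (Z.cut (Z.pz z)) (Z.cut (Z.nb (Z.nb z.1 w) w)) w]
  · exact zero_le_one

lemma kV_pos {K : ℝ} (hK : 0 < K) (z : Node) : 0 < kV Z K z := by
  unfold kV
  split_ifs
  · refine lt_min one_pos (div_pos hK ?_)
    positivity
  · exact one_pos

lemma y3_pos {K : ℝ} (hK : 0 < K) (z : Node) (w : ℕ) : 0 < y3 Z K z w := by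
  have h1 := Y3_nonneg (Z := Z) z w
  have h2 := kV_pos (Z := Z) hK z
  unfold y3
  linarith

lemma kV_lt {K t : ℝ} {z : Node} (ht : t < 1) (h : kV Z K z ≤ t) :
    Z.i0 ≤ Z.pz z ∧ K / ((Z.pz z : ℝ) + 1) ≤ t := by
  unfold kV at h
  split_ifs at h with h1
  · refine ⟨h1, ?_⟩
    rcases min_le_iff.1 h with h2 | h2
    · linarith
    · exact h2
  · linarith

/-- `pz z = prev z.1 w` for the words of `z` -/
lemma pz_eq (hZ : Z.Ok) {z : Node} {w : ℕ} (hw : w ∈ Z.S z) : Z.pz z = Z.prev z.1 w := by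
  classical
  have hne : (Z.S z).Nonempty := ⟨w, hw⟩
  unfold World.pz
  rw [dif_pos hne]
  exact S_prev hZ hne.choose_spec hw le_rfl

/-- everything about a word of a node with small payment -/
lemma small (hZ : Z.Ok) {K t : ℝ} (hK : 0 < K) (ht : t < 1) {z n : Node} {w : ℕ}
    (hn : n ∈ Z.Nd z) (hw : w ∈ Z.S n) (hy : y3 Z K z w ≤ t) :
    Z.i0 ≤ Z.pz z ∧ K / ((Z.pz z : ℝ) + 1) ≤ t ∧ Z.pz z < z.1 ∧ z.1 ≤ n.1 ∧
    Z.birth z.1 w ∧ Z.prev z.1 w = Z.pz z ∧ Z.hasPrev z.1 w ∧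
    ∃ b1 b2, n.1 < b1 ∧ b1 < b2 ∧ Z.birth b1 w ∧ Z.birth b2 w ∧
      ∀ i, Z.pz z ≤ i → 1 - Z.Wp (Z.cut i) (Z.cut b2) w ≤ t := by
  classical
  obtain ⟨h1, h2, h3, h4, h5⟩ := Nd_all hZ hn hw
  have hY0 := Y3_nonneg (Z := Z) z w
  have hk0 := kV_pos (Z := Z) hK z
  have hkt : kV Z K z ≤ t := by unfold y3 at hy; linarith
  have hYt : Y3 Z z w ≤ t := by unfold y3 at hy; linarith
  obtain ⟨a1, a2⟩ := kV_lt ht hkt
  have hpz := pz_eq hZ h2
  have hi0 := hZ.hi0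
  have hprev0 : Z.prev z.1 w ≠ 0 := by omega
  have hprev := Nat.findGreatest_of_ne_zero (P := fun i' => i' < z.1 ∧ Z.nd i' w)
    (n := z.1) (m := Z.prev z.1 w) rfl hprev0
  have hb : Z.hasNb z.1 w ∧ Z.hasNb (Z.nb z.1 w) w := by
    by_contra hcon
    unfold Y3 at hYt
    rw [if_neg hcon] at hYt
    linarith
  obtain ⟨p1, _, p3⟩ := GWbirthx33.nb_spec hb.1
  obtain ⟨q1, _, q3⟩ := GWbirthx33.nb_spec hb.2
  have hi1 : n.1 < Z.nb z.1 w := by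
    by_contra hcon
    have h6 := le_bi (not_lt.1 hcon) p3
    omega
  refine ⟨a1, a2, by omega, h3, h4, hpz.symm, ⟨_, hprev.1, hprev.2⟩,
    Z.nb z.1 w, Z.nb (Z.nb z.1 w) w, hi1, q1, p3, q3, fun i hi => ?_⟩
  unfold Y3 at hYt
  rw [if_pos hb] at hYt
  have h7 := GWbirthx33.Wp_le (Z := Z) (w := w) (hZ.hcut hi)
    (le_refl (Z.cut (Z.nb (Z.nb z.1 w) w)))
  linarith

/-! ### the mass bound -/

/-- masses of sets of words with small payment over one prefix -/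
lemma mass_small (hZ : Z.Ok) {K C1 c Δ : ℝ} (hK : 0 < K) (hC1 : 0 ≤ C1)
    (hθm : ∀ i j, Z.i0 ≤ i → i ≤ j → Z.θ i ≤ Z.θ j) (hH : HypT Z C1 c) (hΔ : 0 ≤ Δ) (hc : 0 ≤ c)
    (hnum : ∀ p : ℕ, Z.i0 ≤ p → Δ * (Z.θ p ^ (-c) + (2 : ℝ) ^ (-(c * p))) + 1 / ((p : ℝ) + 1) ≤
      K / ((p : ℝ) + 1))
    {i n : ℕ} {AA : Finset ℝ} (hAA : (AA.card : ℝ) ≤ Δ) {t : ℝ} (ht0 : 0 < t) (ht1 : t < 1)
    (U : Finset ℕ) (hU : ∀ w ∈ U, w ∣ Z.N ∧ Z.nd i w ∧ low (Z.cut i) w = n ∧ Tgt Z AA i w ∧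
      ∃ p, Z.i0 ≤ p ∧ p ≤ i ∧ K / ((p : ℝ) + 1) ≤ t ∧ ¬ On (Z.θ p) (Z.yy i w) (Z.tt i w) ∧
        ∃ b1 b2, i < b1 ∧ b1 < b2 ∧ Z.birth b1 w ∧ Z.birth b2 w ∧
          1 - Z.Wp (Z.cut i) (Z.cut b2) w ≤ t) :
    ∑ w ∈ U, nu Z.N w ≤ 2 * C1 * t * nu (low (Z.cut i) Z.N) n := by
  classical
  rcases U.eq_empty_or_nonempty with hE | ⟨w0, hw0⟩
  · rw [hE, sum_empty]
    have := nu_nonneg (low (Z.cut i) Z.N) n
    positivity
  obtain ⟨-, -, -, -, q, hq1, hq2, hq3, -⟩ := hU w0 hw0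
  have hex : ∃ p : ℕ, Z.i0 ≤ p ∧ K / ((p : ℝ) + 1) ≤ t := ⟨q, hq1, hq3⟩
  set p0 := Nat.find hex with hp0
  obtain ⟨hp1, hp2⟩ := Nat.find_spec hex
  have hpi : p0 ≤ i := (Nat.find_min' hex ⟨hq1, hq3⟩).trans hq2
  have hθ1 : 1 < Z.θ p0 := hZ.hθ _ hp1
  have hsub : U ⊆ Z.N.divisors.filter fun w => Evt Z AA (Z.θ p0) t i n w := by
    intro w hw
    obtain ⟨h1, h2, h3, h4, p, h5, h6, h7, h8, b1, b2, h9, h10, h11, h12, h13⟩ := hU w hw
    rw [mem_filter, Nat.mem_divisors]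
    refine ⟨⟨h1, hZ.hN.ne'⟩, h2, h3, h4, fun hon => h8 ?_, b1, b2, h9, h10, h11, h12, h13⟩
    exact hon.mono (hθm _ _ hp1 (Nat.find_min' hex ⟨h5, h7⟩))
  have hmain := hH i n AA (Z.θ p0) t (hp1.trans hpi) hθ1.le (hθm _ _ hp1 hpi) ht0.le ht1.le
  refine (sum_le_sum_of_subset_of_nonneg hsub fun w _ _ => nu_nonneg _ _).trans
    (hmain.trans ?_)
  refine mul_le_mul_of_nonneg_right ?_ (nu_nonneg _ _)
  have h2i : (2 : ℝ) ^ (-(c * i)) ≤ (2 : ℝ) ^ (-(c * p0)) := by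
    refine Real.rpow_le_rpow_of_exponent_le (by norm_num) ?_
    have : (p0 : ℝ) ≤ i := by exact_mod_cast hpi
    have := mul_le_mul_of_nonneg_left this hc
    linarith
  have h1i : 1 / ((i : ℝ) + 1) ≤ 1 / ((p0 : ℝ) + 1) := by
    refine one_div_le_one_div_of_le (by positivity) ?_
    have : (p0 : ℝ) ≤ i := by exact_mod_cast hpi
    linarith
  have hθp : 0 ≤ Z.θ p0 ^ (-c) := Real.rpow_nonneg (by linarith) _
  have h2p : 0 ≤ (2 : ℝ) ^ (-(c * i)) := Real.rpow_nonneg (by norm_num) _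
  have h3 : (AA.card : ℝ) * (Z.θ p0 ^ (-c) + (2 : ℝ) ^ (-(c * i))) ≤
      Δ * (Z.θ p0 ^ (-c) + (2 : ℝ) ^ (-(c * p0))) := by
    refine mul_le_mul hAA (by linarith) (by linarith) hΔ
  have h4 := hnum p0 hp1
  have h5 : t + (AA.card : ℝ) * (Z.θ p0 ^ (-c) + (2 : ℝ) ^ (-(c * i))) + 1 / ((i : ℝ) + 1) ≤
      2 * t := by linarith
  calc C1 * (t + AA.card * (Z.θ p0 ^ (-c) + (2 : ℝ) ^ (-(c * i))) + 1 / ((i : ℝ) + 1))
      ≤ C1 * (2 * t) := mul_le_mul_of_nonneg_left h5 hC1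
    _ = 2 * C1 * t := by ring

/-- mass of a set of words with a given prefix -/
lemma mass_prefix (hZ : Z.Ok) {i n : ℕ} (U : Finset ℕ)
    (hU : ∀ w ∈ U, w ∣ Z.N ∧ low (Z.cut i) w = n) :
    ∑ w ∈ U, nu Z.N w ≤ nu (low (Z.cut i) Z.N) n := by
  classical
  rcases U.eq_empty_or_nonempty with hE | ⟨w0, hw0⟩
  · rw [hE, sum_empty]; exact nu_nonneg _ _
  obtain ⟨a1, a2⟩ := hU w0 hw0
  have hd : n ∣ low (Z.cut i) Z.N := by rw [← a2]; exact low_dvd _ hZ.hN.ne' a1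
  have hsub : U ⊆ Z.N.divisors.filter fun w => low (Z.cut i) w = n := by
    intro w hw
    obtain ⟨b1, b2⟩ := hU w hw
    rw [mem_filter, Nat.mem_divisors]
    exact ⟨⟨b1, hZ.hN.ne'⟩, b2⟩
  refine (sum_le_sum_of_subset_of_nonneg hsub fun w _ _ => nu_nonneg _ _).trans ?_
  exact (Lawx69.prob_part_eq (fun p => p ≤ Z.cut i) hZ.hN hd).le

/-! ### the multiplicities -/

section main

variable {R : Node → Node → Prop} {K C1 c Δ : ℝ}

lemma g_eq {n n' : Node} (h : n.1 = n'.1 ∧ n.2.1 = n'.2.1) : Z.g n = Z.g n' := by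
  unfold World.g
  rw [h.1, h.2]

lemma low_node (hZ : Z.Ok) {n : Node} {w : ℕ} (hw : w ∈ Z.S n) :
    w ∣ Z.N ∧ Z.nd n.1 w ∧ low (Z.cut n.1) w = n.2.1 ∧ Z.lab n.1 w = n := by
  obtain ⟨h1, h2, h3⟩ := (mem_S hZ).1 hw
  refine ⟨h1, h2, ?_, h3⟩
  rw [← h3]; rfl

/-- first order -/
lemma H1_aux (hZ : Z.Ok) (hR : RelP Z R Δ) (hK : 0 < K) (hC1 : 1 ≤ C1) (hΔ : 2 ≤ Δ) (hc : 0 ≤ c)
    (hθm : ∀ i j, Z.i0 ≤ i → i ≤ j → Z.θ i ≤ Z.θ j) (hH : HypT Z C1 c)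
    (hnum : ∀ p : ℕ, Z.i0 ≤ p → Δ * (Z.θ p ^ (-c) + (2 : ℝ) ^ (-(c * p))) + 1 / ((p : ℝ) + 1) ≤
      K / ((p : ℝ) + 1)) {z n : Node} (hz : z ∈ Z.Zs) (hn : n ∈ Z.Nd z) {t : ℝ} (ht : 0 < t) :
    ∑ z' ∈ (gn Z R K).Zs, ∑ n' ∈ (gn Z R K).Out z n z',
      ∑ w ∈ ((gn Z R K).S z' n').filter (fun w => (gn Z R K).y' z' w ≤ t), nu Z.N w ≤
      4 * C1 * t * Z.g n := by
  classical
  set G := gn Z R K with hG
  set U : Finset ℕ := Z.N.divisors.filter fun w => (GN.pairs1 G z n t w).Nonempty with hUdef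
  have hpair : ∀ {w : ℕ} {x : (_ : Node) × Node}, x ∈ GN.pairs1 G z n t w →
      x.2 ∈ Z.Nd x.1 ∧ R n x.2 ∧ w ∈ Z.S x.2 ∧ y3 Z K x.1 w ≤ t := by
    intro w x hx
    unfold GN.pairs1 at hx
    rw [mem_filter, mem_sigma] at hx
    obtain ⟨⟨-, h2⟩, h3, h4⟩ := hx
    unfold GN.Out at h2
    rw [mem_filter] at h2
    exact ⟨h2.1, h2.2, h3, h4⟩
  have hmem : ∀ w, (GN.pairs1 G z n t w).Nonempty → w ∈ U := by
    intro w hw
    obtain ⟨x, hx⟩ := hw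
    rw [hUdef, mem_filter, Nat.mem_divisors]
    exact ⟨⟨(low_node hZ (hpair hx).2.2.1).1, hZ.hN.ne'⟩, x, hx⟩
  have hcard : ∀ w ∈ U, ((GN.pairs1 G z n t w).card : ℝ) ≤ 1 := by
    intro w _
    have : (GN.pairs1 G z n t w).card ≤ 1 := by
      rw [Finset.card_le_one]
      intro x hx y hy
      obtain ⟨a1, a2, a3, -⟩ := hpair hx
      obtain ⟨b1, b2, b3, -⟩ := hpair hy
      obtain ⟨-, -, -, c1⟩ := low_node hZ a3
      obtain ⟨-, -, -, c2⟩ := low_node hZ b3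
      have e1 : x.2.1 = y.2.1 := (hR.idx a2).1.symm.trans (hR.idx b2).1
      have e2 : x.2 = y.2 := by rw [← c1, ← c2, e1]
      have e3 : x.1 = y.1 := by
        rw [← (Nd_all hZ a1 a3).1, ← (Nd_all hZ b1 b3).1, e1]
      exact Sigma.ext e3 (heq_of_eq e2)
    exact_mod_cast this
  obtain ⟨AA, hAA, hAA2⟩ := hR.tgtO n
  have hmass : ∑ w ∈ U, nu Z.N w ≤ 2 * C1 * t * Z.g n := by
    by_cases ht1 : t < 1
    · refine mass_small (n := n.2.1) hZ hK (by linarith) hθm hH (by linarith) hc hnum hAA ht ht1 U ?_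
      intro w hw
      rw [hUdef, mem_filter] at hw
      obtain ⟨x, hx⟩ := hw.2
      obtain ⟨a1, a2, a3, a4⟩ := hpair hx
      obtain ⟨b1, b2, b3, b4⟩ := low_node hZ a3
      obtain ⟨i1, i2⟩ := hR.idx a2
      obtain ⟨c1, c2, c3, c4, c5, c6, c7, β1, β2, d1, d2, d3, d4, d5⟩ := small hZ hK ht1 a1 a3 a4
      have htg := hAA2 _ a2 w a3
      rw [← i1] at b2 b3 c4 d1 htg
      rw [← i2] at b3
      refine ⟨b1, b2, b3, htg, Z.pz x.1, c1, by omega, c2, ?_, β1, β2, d1, d2, d3, d4, d5 _ (by omega)⟩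
      have := GWbirthx33.not_on_later hZ b1 c5 c7 c4
      rwa [c6] at this
    · have h1 : ∑ w ∈ U, nu Z.N w ≤ Z.g n := by
        refine mass_prefix (n := n.2.1) hZ U ?_
        intro w hw
        rw [hUdef, mem_filter] at hw
        obtain ⟨x, hx⟩ := hw.2
        obtain ⟨a1, a2, a3, a4⟩ := hpair hx
        obtain ⟨b1, b2, b3, b4⟩ := low_node hZ a3
        obtain ⟨i1, i2⟩ := hR.idx a2
        rw [← i1, ← i2] at b3
        exact ⟨b1, b3⟩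
      have hg := (g_pos hZ hn).le
      have ht2 : 1 ≤ t := not_lt.1 ht1
      have : 1 ≤ 2 * C1 * t := by nlinarith
      nlinarith
  refine (H1_of_mult G (fun _ => nu Z.N) (nu Z.N) (fun w => nu_nonneg _ _) (fun _ _ => le_rfl)
    (z := z) (n := n) (t := t) (μ := 1) zero_le_one U hmem hcard hmass).trans ?_
  have hg := (g_pos hZ hn).le
  have : 0 ≤ 2 * C1 * t * Z.g n := by positivity
  linarith

/-- one node -/
lemma H0_aux (hZ : Z.Ok) (hK : 0 < K) (hC1 : 1 ≤ C1) (hΔ : 2 ≤ Δ) (hc : 0 ≤ c)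
    (hθm : ∀ i j, Z.i0 ≤ i → i ≤ j → Z.θ i ≤ Z.θ j) (hH : HypT Z C1 c)
    (hnum : ∀ p : ℕ, Z.i0 ≤ p → Δ * (Z.θ p ^ (-c) + (2 : ℝ) ^ (-(c * p))) + 1 / ((p : ℝ) + 1) ≤
      K / ((p : ℝ) + 1)) {z n : Node} (hn : n ∈ Z.Nd z) {t : ℝ} (ht : 0 < t) :
    ∑ w ∈ (Z.S n).filter (fun w => y3 Z K z w ≤ t), nu Z.N w ≤ 4 * C1 * t * Z.g n := by
  classical
  have hg := (g_pos hZ hn).le
  have key : ∑ w ∈ (Z.S n).filter (fun w => y3 Z K z w ≤ t), nu Z.N w ≤ 2 * C1 * t * Z.g n := by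
    by_cases ht1 : t < 1
    · obtain ⟨AA, hAA, hAA2⟩ := HypWx473.two_targets hZ n
      have hAA' : (AA.card : ℝ) ≤ Δ := by
        have : (AA.card : ℝ) ≤ 2 := by exact_mod_cast hAA
        linarith
      refine mass_small (n := n.2.1) hZ hK (by linarith) hθm hH (by linarith) hc hnum hAA' ht ht1
        _ ?_
      intro w hw
      rw [mem_filter] at hw
      obtain ⟨hwS, hwy⟩ := hw
      obtain ⟨b1, b2, b3, b4⟩ := low_node hZ hwS
      obtain ⟨c1, c2, c3, c4, c5, c6, c7, β1, β2, d1, d2, d3, d4, d5⟩ := small hZ hK ht1 hn hwS hwy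
      refine ⟨b1, b2, b3, hAA2 w hwS, Z.pz z, c1, by omega, c2, ?_, β1, β2, d1, d2, d3, d4,
        d5 _ (by omega)⟩
      have := GWbirthx33.not_on_later hZ b1 c5 c7 c4
      rwa [c6] at this
    · have h1 : ∑ w ∈ (Z.S n).filter (fun w => y3 Z K z w ≤ t), nu Z.N w ≤ Z.g n := by
        refine mass_prefix (n := n.2.1) hZ _ ?_
        intro w hw
        obtain ⟨b1, b2, b3, b4⟩ := low_node hZ (mem_filter.1 hw).1
        exact ⟨b1, b3⟩
      have ht2 : 1 ≤ t := not_lt.1 ht1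
      have : 1 ≤ 2 * C1 * t := by nlinarith
      nlinarith
  have : 0 ≤ 2 * C1 * t * Z.g n := by positivity
  linarith

/-- second order -/
lemma H2_aux (hZ : Z.Ok) (hθ : ∀ i, Z.i0 ≤ i → 128 * Z.θ i ^ 2 ≤ 2 ^ i) (hR : RelP Z R Δ)
    (hK : 0 < K) (hC1 : 1 ≤ C1) (hΔ : 2 ≤ Δ) (hc : 0 ≤ c)
    (hθm : ∀ i j, Z.i0 ≤ i → i ≤ j → Z.θ i ≤ Z.θ j) (hH : HypT Z C1 c)
    (hnum : ∀ p : ℕ, Z.i0 ≤ p → Δ * (Z.θ p ^ (-c) + (2 : ℝ) ^ (-(c * p))) + 1 / ((p : ℝ) + 1) ≤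
      K / ((p : ℝ) + 1)) {z' m : Node} (hz : z' ∈ Z.Zs) (hm : m ∈ Z.Nd z') {t : ℝ} (ht : 0 < t) :
    ∑ n' ∈ (gn Z R K).Bl z' m, ∑ z ∈ (gn Z R K).Zs, ∑ n ∈ (gn Z R K).In z' n' z,
      ∑ w ∈ ((gn Z R K).A z n).filter (fun w => (gn Z R K).y z w ≤ t), nu Z.N w ≤
      4 * C1 * t * Z.g m := by
  classical
  set G := gn Z R K with hG
  set U : Finset ℕ := Z.N.divisors.filter fun w => (GN.pairs2 G z' m t w).Nonempty with hUdef
  have hpair : ∀ {w : ℕ} {x : (_ : Node) × (_ : Node) × Node}, x ∈ GN.pairs2 G z' m t w →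
      x.1 ∈ Z.Nd z' ∧ m.1 ≤ x.1.1 ∧ Z.S x.1 ⊆ Z.S m ∧ (Z.S x.1).Nonempty ∧
      x.2.2 ∈ Z.Nd x.2.1 ∧ R x.2.2 x.1 ∧ w ∈ Z.A x.2.1 x.2.2 ∧ w ∈ Z.S x.2.2 ∧
      y3 Z K x.2.1 w ≤ t := by
    intro w x hx
    unfold GN.pairs2 at hx
    rw [mem_filter, mem_sigma, mem_sigma] at hx
    obtain ⟨⟨h1, -, h2⟩, h3, h4⟩ := hx
    unfold GN.Bl at h1
    unfold GN.In at h2
    rw [mem_filter] at h1 h2
    exact ⟨h1.1, h1.2.1, h1.2.2.1, h1.2.2.2, h2.1, h2.2, h3, A_sub _ _ h3, h4⟩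
  -- the prefix at `m`
  have hpre : ∀ {w : ℕ} {x : (_ : Node) × (_ : Node) × Node}, x ∈ GN.pairs2 G z' m t w →
      Z.nd m.1 w ∧ low (Z.cut m.1) w = m.2.1 := by
    intro w x hx
    obtain ⟨h1, h2, h3, ⟨u, hu⟩, h5, h6, -, h7, -⟩ := hpair hx
    obtain ⟨-, a2, a3, -⟩ := low_node hZ h7
    obtain ⟨-, b2, b3, -⟩ := low_node hZ hu
    obtain ⟨-, c2, c3, -⟩ := low_node hZ (h3 hu)
    obtain ⟨i1, i2⟩ := hR.idx h6
    have e1 : low (Z.cut x.1.1) w = low (Z.cut x.1.1) u := by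
      rw [b3, ← i2, ← i1, a3]
    have e2 := low_congr hZ h2 e1
    exact ⟨(nd_congr' e2).2 c2, e2.trans c3⟩
  have hmem : ∀ w, (GN.pairs2 G z' m t w).Nonempty → w ∈ U := by
    intro w hw
    obtain ⟨x, hx⟩ := hw
    rw [hUdef, mem_filter, Nat.mem_divisors]
    exact ⟨⟨(low_node hZ (hpair hx).2.2.2.2.2.2.2.1).1, hZ.hN.ne'⟩, x, hx⟩
  -- multiplicity
  have hcard : ∀ w ∈ U, ((GN.pairs2 G z' m t w).card : ℝ) ≤ 2 := by
    intro w _
    have hinj : Set.InjOn (fun x : (_ : Node) × (_ : Node) × Node => decide (x.2.1.1 ≤ m.1))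
        (GN.pairs2 G z' m t w : Set ((_ : Node) × (_ : Node) × Node)) := by
      intro x hx y hy hxy
      have hx' := hpair (mem_coe.1 hx)
      have hy' := hpair (mem_coe.1 hy)
      obtain ⟨x1, x2, x3, x4, x5, x6, x7, x8, -⟩ := hx'
      obtain ⟨y1, y2, y3', y4, y5, y6, y7, y8, -⟩ := hy'
      obtain ⟨px, -⟩ := hpre (mem_coe.1 hx)
      obtain ⟨cx1, cx2, cx3, cx4, cx5⟩ := Nd_all hZ x5 x8
      obtain ⟨cy1, cy2, cy3, cy4, cy5⟩ := Nd_all hZ y5 y8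
      obtain ⟨ix1, ix2⟩ := hR.idx x6
      obtain ⟨iy1, iy2⟩ := hR.idx y6
      -- the zones agree
      have hzz : x.2.1 = y.2.1 := by
        have hlab : ∀ {a : Node}, w ∈ Z.S a → Z.lab a.1 w = a := fun h => ((mem_S hZ).1 h).2.2
        have h1 : x.2.1.1 = y.2.1.1 := by
          simp only [decide_eq_decide] at hxy
          by_cases hle : x.2.1.1 ≤ m.1
          · have hle' := hxy.1 hle
            -- both are the last birth up to `m`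
            have a1 : Z.bi m.1 w = x.2.1.1 := by
              refine le_antisymm ?_ (le_bi hle cx4)
              rw [← cx5]
              exact le_bi ((bi_le _ _).trans (by omega)) (birth_bi px)
            have a2 : Z.bi m.1 w = y.2.1.1 := by
              refine le_antisymm ?_ (le_bi hle' cy4)
              rw [← cy5]
              exact le_bi ((bi_le _ _).trans (by omega)) (birth_bi px)
            rw [← a1, a2]
          · have hle' : ¬ y.2.1.1 ≤ m.1 := fun h => hle (hxy.2 h)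
            obtain ⟨a1, -⟩ := hR.one x5 x1 hm x2 x3 x4 x6 x8 (not_le.1 hle)
            obtain ⟨b1, -⟩ := hR.one y5 y1 hm y2 y3' y4 y6 y8 (not_le.1 hle')
            rw [pz_eq hZ cx2] at a1
            rw [pz_eq hZ cy2] at b1
            have p1 := (ZCellx60.prev_spec (Z := Z) (j := x.2.1.1) (w := w)
              ⟨m.1, not_le.1 hle, px⟩).2.2
            have p2 := (ZCellx60.prev_spec (Z := Z) (j := y.2.1.1) (w := w)
              ⟨m.1, not_le.1 hle', px⟩).2.2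
            rcases lt_trichotomy x.2.1.1 y.2.1.1 with h | h | h
            · have := p2 _ h cx4.1
              omega
            · exact h
            · have := p1 _ h cy4.1
              omega
        rw [← hlab cx2, ← hlab cy2, h1]
      -- the nodes agree
      have hnn : x.2.2 = y.2.2 := by
        by_contra hne
        have := A_disj hZ x.2.1 x.2.2 x5 y.2.2 (by rw [hzz]; exact y5) hne
        refine disjoint_left.1 this x7 ?_
        rw [hzz]; exact y7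
      have hn'n' : x.1 = y.1 := by
        refine ZCellx60.cell_unique hZ hθ x1 y1 ?_ ?_
        · rw [← ix1, ← iy1, hnn]
        · rw [← ix2, ← iy2, hnn]
      refine Sigma.ext hn'n' (heq_of_eq (Sigma.ext hzz (heq_of_eq hnn)))
    have h2 := Finset.card_le_card_of_injOn (s := GN.pairs2 G z' m t w) (t := (univ : Finset Bool))
      (fun x : (_ : Node) × (_ : Node) × Node => decide (x.2.1.1 ≤ m.1)) (fun _ _ => mem_univ _) hinj
    have h3 : (univ : Finset Bool).card = 2 := rfl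
    rw [h3] at h2
    exact_mod_cast h2
  obtain ⟨AA, hAA, hAA2⟩ := hR.tgtI m
  have hmass : ∑ w ∈ U, nu Z.N w ≤ 2 * C1 * t * Z.g m := by
    by_cases ht1 : t < 1
    · refine mass_small (n := m.2.1) hZ hK (by linarith) hθm hH (by linarith) hc hnum hAA ht ht1 U ?_
      intro w hw
      rw [hUdef, mem_filter] at hw
      obtain ⟨x, hx⟩ := hw.2
      obtain ⟨x1, x2, x3, x4, x5, x6, x7, x8, x9⟩ := hpair hx
      obtain ⟨px1, px2⟩ := hpre hx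
      obtain ⟨b1, b2, b3, b4⟩ := low_node hZ x8
      obtain ⟨i1, i2⟩ := hR.idx x6
      obtain ⟨c1, c2, c3, c4, c5, c6, c7, β1, β2, d1, d2, d3, d4, d5⟩ := small hZ hK ht1 x5 x8 x9
      have htg := hAA2 _ _ x6 x2 x3 x4 w x8 px1
      refine ⟨b1, px1, px2, htg, Z.pz x.2.1, c1, ?_, c2, ?_, β1, β2, by omega, d2, d3, d4, d5 _ ?_⟩
      · by_cases hle : x.2.1.1 ≤ m.1
        · omega
        · exact (hR.one x5 x1 hm x2 x3 x4 x6 x8 (not_le.1 hle)).1.le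
      · by_cases hle : x.2.1.1 ≤ m.1
        · have := GWbirthx33.not_on_later hZ b1 c5 c7 hle
          rwa [c6] at this
        · obtain ⟨e1, e2⟩ := hR.one x5 x1 hm x2 x3 x4 x6 x8 (not_le.1 hle)
          rw [e1]; exact e2
      · by_cases hle : x.2.1.1 ≤ m.1
        · omega
        · exact (hR.one x5 x1 hm x2 x3 x4 x6 x8 (not_le.1 hle)).1.le
    · have h1 : ∑ w ∈ U, nu Z.N w ≤ Z.g m := by
        refine mass_prefix (n := m.2.1) hZ U ?_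
        intro w hw
        rw [hUdef, mem_filter] at hw
        obtain ⟨x, hx⟩ := hw.2
        exact ⟨(low_node hZ (hpair hx).2.2.2.2.2.2.2.1).1, (hpre hx).2⟩
      have hg := (g_pos hZ hm).le
      have ht2 : 1 ≤ t := not_lt.1 ht1
      have : 1 ≤ 2 * C1 * t := by nlinarith
      nlinarith
  refine (H2_of_mult G (fun _ => nu Z.N) (nu Z.N) (fun w => nu_nonneg _ _) (fun _ _ => le_rfl)
    (z' := z') (m := m) (t := t) (μ := 2) zero_le_two U hmem hcard hmass).trans ?_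
  linarith

/-- **`GN.Ok` over the world** -/
theorem gn_ok (hZ : Z.Ok) (hθ : ∀ i, Z.i0 ≤ i → 128 * Z.θ i ^ 2 ≤ 2 ^ i) (hR : RelP Z R Δ)
    (hK : 0 < K) (hC1 : 1 ≤ C1) (hΔ : 2 ≤ Δ) (hc : 0 ≤ c)
    (hθm : ∀ i j, Z.i0 ≤ i → i ≤ j → Z.θ i ≤ Z.θ j) (hH : HypT Z C1 c)
    (hnum : ∀ p : ℕ, Z.i0 ≤ p → Δ * (Z.θ p ^ (-c) + (2 : ℝ) ^ (-(c * p))) + 1 / ((p : ℝ) + 1) ≤
      K / ((p : ℝ) + 1)) :
    (gn Z R K).Ok (fun _ => nu Z.N) (fun _ => nu Z.N) (4 * C1) Δ where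
  C0 := by linarith
  Δ1 := by linarith
  lam := fun z _ => lamNd hZ z
  g0 := fun z _ n hn => g_pos hZ hn
  gR := fun z _ n _ z' _ n' _ h => g_eq (hR.idx h)
  f0 := fun _ w => nu_nonneg _ _
  f0' := fun _ w => nu_nonneg _ _
  y0 := fun z w => y3_pos hK z w
  y0' := fun z w => y3_pos hK z w
  deg := by
    classical
    intro z hz n hn
    have hdisj : Set.PairwiseDisjoint (↑(gn Z R K).Zs : Set Node)
        (fun z' => (gn Z R K).Out z n z') := by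
      intro z1 _ z2 _ hne
      rw [Function.onFun, disjoint_left]
      intro n' h1 h2
      unfold GN.Out at h1 h2
      rw [mem_filter] at h1 h2
      obtain ⟨w, hw, hw1⟩ := (mem_Nd_S hZ).1 h1.1
      exact hne (hw1.symm.trans (Nd_all hZ h2.1 hw).1)
    have h1 := card_biUnion hdisj
    have h2 := hR.deg n ((gn Z R K).Zs.biUnion fun z' => (gn Z R K).Out z n z') (by
      intro ν' hν'
      rw [mem_biUnion] at hν'
      obtain ⟨z', _, h3⟩ := hν'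
      unfold GN.Out at h3
      exact (mem_filter.1 h3).2)
    rw [h1] at h2
    push_cast at h2
    exact h2
  H0 := fun z' _ n' hn' t ht => H0_aux hZ hK hC1 hΔ hc hθm hH hnum hn' ht
  H1 := fun z hz n hn t ht => H1_aux hZ hR hK hC1 hΔ hc hθm hH hnum hz hn ht
  H2 := fun z' hz' m hm t ht => H2_aux hZ hθ hR hK hC1 hΔ hc hθm hH hnum hz' hm ht

end main

end Crest.Agent.R4C.HDeltax60
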