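import Crest.Agent.R4C.HeavyL_50
import Crest.Agent.R4C.Cross_171

/-!
# HEAVY LEMMA AT A CUT, list form (note 2994, Lemma H) (helper899)

General `M`.  For every node `(x, T)` a finite list `E x T` of admissible values
`e = gcd (upp x b) c` is given.  Items `b` stop at the first cut (from the top) at which
`S x (upp x b)` holds (`Fst S N x b`; the fixed cut is `S = (· = x)`, see `heavyFix_norm`).
If `∑_{e ∈ E x T} e^((1-η)/2) ≤ W (L mass (x, T))^((1-η)/2)` (for example `|E x T| ≤ J` and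
`e ≤ L mass (x, T) / Γ` with `W = J Γ^(-(1-η)/2)`), then the pairs `(b, c)` with
`gcd (upp x b) c ∈ E x (upp x b)` and `t L ≤ gcd b c < κ t L` cost at most
`C t^η W m m'^((1+η)/2)`, `C` the constant of the exact-scale bilinear bound (HVW).
-/

namespace Crest.Agent.R4C.HeavyCx899

open Finset Crest.Agent.R4C.Basex935 Crest.Agent.R4C.Cutx50 Crest.Agent.R4C.HeavyLx50

/-- Hölder with weights -/
lemma holder {ι : Type*} (s : Finset ι) {r : ℝ} (hr0 : 0 < r) (hr1 : r ≤ 1) (w g : ι → ℝ)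
    (hw : ∀ i, 0 ≤ w i) (hg : ∀ i, 0 ≤ g i) :
    ∑ i ∈ s, w i * g i ^ r ≤ (∑ i ∈ s, w i) ^ (1 - r) * (∑ i ∈ s, w i * g i) ^ r := by
  have hp : 1 ≤ r⁻¹ := (one_le_inv₀ hr0).2 hr1
  have h := Real.inner_le_weight_mul_Lp_of_nonneg s hp w (fun i => g i ^ r) hw
    (fun i => Real.rpow_nonneg (hg i) _)
  simp only [inv_inv] at h
  have e : ∀ i, (g i ^ r) ^ r⁻¹ = g i := fun i => by
    rw [← Real.rpow_mul (hg i), mul_inv_cancel₀ hr0.ne', Real.rpow_one]
  simpa only [e] using h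

/-- the multiples of `e` above the cut: natural mass `1/e`, Hölder -/
theorem mult_le {M : ℕ} (hM : 0 < M) (x e : ℕ) {r : ℝ} (hr0 : 0 < r) (hr1 : r ≤ 1)
    {f' : ℕ → ℝ} (hf' : ∀ b, 0 ≤ f' b) :
    Ex (upp x M) (fun T' => if e ∣ T' then (mass M f' x T') ^ r else 0) ≤
      (1 / (e : ℝ)) ^ (1 - r) * (Ex M (fun c => if e ∣ c then f' c else 0)) ^ r := by
  have h0 : Ex (upp x M) (fun T' => if e ∣ T' then (mass M f' x T') ^ r else 0) =
      ∑ T' ∈ (upp x M).divisors with e ∣ T', nu (upp x M) T' * (mass M f' x T') ^ r := by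
    unfold Ex
    rw [Finset.sum_filter]
    refine Finset.sum_congr rfl fun T' _ => ?_
    by_cases h : e ∣ T' <;> simp [h]
  rw [h0]
  refine (holder _ hr0 hr1 (fun T' => nu (upp x M) T') (fun T' => mass M f' x T')
    (fun _ => nu_nonneg _ _) (fun _ => mass_nonneg _ hf' _ _)).trans ?_
  have h1 : ∑ T' ∈ (upp x M).divisors with e ∣ T', nu (upp x M) T' ≤ 1 / (e : ℝ) :=
    Crossx171.sum_nu_dvd_le (upp_pos x M) e
  have h2 : ∑ T' ∈ (upp x M).divisors with e ∣ T', nu (upp x M) T' * mass M f' x T' ≤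
      Ex M (fun c => if e ∣ c then f' c else 0) := by
    have h3 : ∑ T' ∈ (upp x M).divisors with e ∣ T', nu (upp x M) T' * mass M f' x T' =
        Ex (upp x M) (fun T' => (if e ∣ T' then (1 : ℝ) else 0) * mass M f' x T') := by
      unfold Ex
      rw [Finset.sum_filter]
      refine Finset.sum_congr rfl fun T' _ => ?_
      by_cases h : e ∣ T' <;> simp [h]
    rw [h3, ← Ex_cut' hM x f' (fun T' => if e ∣ T' then (1 : ℝ) else 0)]
    refine Ex_mono M fun c _ => ?_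
    by_cases h : e ∣ upp x c
    · rw [if_pos h, if_pos (h.trans (upp_dvd_self x c)), one_mul]
    · rw [if_neg h, zero_mul]
      split_ifs
      · exact hf' c
      · exact le_rfl
  refine mul_le_mul ?_ ?_ ?_ ?_
  · exact Real.rpow_le_rpow (Finset.sum_nonneg fun _ _ => nu_nonneg _ _) h1 (by linarith)
  · exact Real.rpow_le_rpow (Finset.sum_nonneg fun _ _ =>
      mul_nonneg (nu_nonneg _ _) (mass_nonneg _ hf' _ _)) h2 hr0.le
  · exact Real.rpow_nonneg (Finset.sum_nonneg fun _ _ =>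
      mul_nonneg (nu_nonneg _ _) (mass_nonneg _ hf' _ _)) _
  · positivity

lemma pow_aux (e : ℕ) {r : ℝ} (hr1 : r ≤ 1) :
    (e : ℝ) ^ (2 * (1 - r)) * (1 / (e : ℝ)) ^ (1 - r) ≤ (e : ℝ) ^ (1 - r) := by
  rcases Nat.eq_zero_or_pos e with rfl | he
  · rcases eq_or_lt_of_le hr1 with rfl | h
    · simp
    · have h1 : (0 : ℝ) < 1 - r := by linarith
      rw [Nat.cast_zero, Real.zero_rpow (by positivity), zero_mul]
      positivity
  · have he' : (0 : ℝ) < e := by exact_mod_cast he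
    rw [one_div, Real.inv_rpow he'.le, ← Real.rpow_neg he'.le, ← Real.rpow_add he']
    refine le_of_eq ?_
    congr 1
    ring

open Classical in
/-- **LEMMA H, master form.** -/
theorem heavyCut_master {M : ℕ} (hM : 0 < M) (N : ℕ) (S : ℕ → ℕ → Prop)
    (E : ℕ → ℕ → Finset ℕ) {r A : ℝ} (hr0 : 0 < r) (hr1 : r ≤ 1) (hA : 0 ≤ A)
    {f f' : ℕ → ℝ} (hf : ∀ b, 0 ≤ f b) (hf' : ∀ b, 0 ≤ f' b)
    {K : ℕ → ℕ → ℝ} (hK : ∀ b c, 0 ≤ K b c)
    (H1 : ∀ x T T', x ≤ N → T ∣ upp x M → T' ∣ upp x M → Nat.gcd T T' ∈ E x T →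
      (Nat.gcd T T' : ℝ) * frm (low x M) (fun n n' => K (n * T) (n' * T')) ≤
        A * (Nat.gcd T T' : ℝ) ^ (2 * (1 - r)) * (mass M f x T * mass M f' x T') ^ r) :
    frm M (fun b c => if ∃ x ≤ N, Fst S N x b ∧ Nat.gcd (upp x b) c ∈ E x (upp x b)
      then K b c else 0) ≤
      A * ∑ x ∈ range (N + 1), Ex (upp x M) (fun T => if Fst S N x T then
        mass M f x T ^ r * ∑ e ∈ E x T, (e : ℝ) ^ (1 - r) *
          (Ex M (fun c => if e ∣ c then f' c else 0)) ^ r else 0) := by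
  -- step 1: sum over the stopping cut
  have h1 : frm M (fun b c => if ∃ x ≤ N, Fst S N x b ∧ Nat.gcd (upp x b) c ∈ E x (upp x b)
      then K b c else 0) ≤ ∑ x ∈ range (N + 1), frm M (fun b c =>
        if Fst S N x b ∧ Nat.gcd (upp x b) c ∈ E x (upp x b) then K b c else 0) := by
    rw [frm_sum]
    refine frm_mono fun b c _ _ => ?_
    by_cases h : ∃ x ≤ N, Fst S N x b ∧ Nat.gcd (upp x b) c ∈ E x (upp x b)
    · rw [if_pos h]
      obtain ⟨x, hx, h2⟩ := h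
      refine le_trans ?_ (Finset.single_le_sum
        (f := fun x => if Fst S N x b ∧ Nat.gcd (upp x b) c ∈ E x (upp x b)
          then K b c else 0)
        (fun y _ => ?_) (Finset.mem_range.2 (Nat.lt_succ_of_le hx)))
      · rw [if_pos h2]
      · split_ifs
        · exact hK b c
        · exact le_rfl
    · rw [if_neg h]
      refine Finset.sum_nonneg fun y _ => ?_
      split_ifs
      · exact hK b c
      · exact le_rfl
  refine h1.trans ?_
  rw [Finset.mul_sum]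
  refine Finset.sum_le_sum fun x hx => ?_
  rw [Finset.mem_range] at hx
  -- step 2: one cut
  rw [frm_low_upp hM x]
  have hm : ∀ T, 0 ≤ mass M f x T := fun T => mass_nonneg _ hf _ _
  have hm' : ∀ T, 0 ≤ mass M f' x T := fun T => mass_nonneg _ hf' _ _
  have h3 : ∀ T ∈ (upp x M).divisors, ∑ T' ∈ (upp x M).divisors,
      (Nat.gcd T T' : ℝ) * nu (upp x M) T * nu (upp x M) T' *
        frm (low x M) (fun n n' => if Fst S N x (n * T) ∧
          Nat.gcd (upp x (n * T)) (n' * T') ∈ E x (upp x (n * T))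
            then K (n * T) (n' * T') else 0) ≤
      nu (upp x M) T * (A * (if Fst S N x T then
        mass M f x T ^ r * ∑ e ∈ E x T, (e : ℝ) ^ (1 - r) *
          (Ex M (fun c => if e ∣ c then f' c else 0)) ^ r else 0)) := by
    intro T hT
    rw [Nat.mem_divisors] at hT
    have e1 : ∀ T' ∈ (upp x M).divisors, frm (low x M) (fun n n' => if Fst S N x (n * T) ∧
          Nat.gcd (upp x (n * T)) (n' * T') ∈ E x (upp x (n * T))
            then K (n * T) (n' * T') else 0) =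
        if Fst S N x T ∧ Nat.gcd T T' ∈ E x T then
          frm (low x M) (fun n n' => K (n * T) (n' * T')) else 0 := by
      intro T' hT'
      rw [Nat.mem_divisors] at hT'
      rw [frm_congr (G := fun n n' => if Fst S N x T ∧ Nat.gcd T T' ∈ E x T
        then K (n * T) (n' * T') else 0) (fun n n' hn hn' => by
          have e3 : upp x (n * T) = T := upp_of_mul hn hT.1
          have e4 : Fst S N x (n * T) ↔ Fst S N x T := by
            rw [← Fst_upp, e3]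
          rw [e3, gcd_upp hT.1 hn']
          simp only [e4])]
      by_cases h : Fst S N x T ∧ Nat.gcd T T' ∈ E x T
      · simp only [if_pos h]
      · simp only [if_neg h]
        unfold frm
        simp
    rw [Finset.sum_congr rfl fun T' hT' => by rw [e1 T' hT']]
    by_cases hF : Fst S N x T
    swap
    · rw [if_neg hF, mul_zero, mul_zero]
      refine le_of_eq (Finset.sum_eq_zero fun T' _ => ?_)
      rw [if_neg (fun h => hF h.1), mul_zero]
    rw [if_pos hF]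
    have hnT := nu_nonneg (upp x M) T
    -- termwise bound
    have h4 : ∀ T' ∈ (upp x M).divisors,
        (Nat.gcd T T' : ℝ) * nu (upp x M) T * nu (upp x M) T' *
          (if Fst S N x T ∧ Nat.gcd T T' ∈ E x T then
            frm (low x M) (fun n n' => K (n * T) (n' * T')) else 0) ≤
        (nu (upp x M) T * (A * mass M f x T ^ r)) *
          ∑ e ∈ E x T, (e : ℝ) ^ (2 * (1 - r)) *
            (nu (upp x M) T' * (if e ∣ T' then (mass M f' x T') ^ r else 0)) := by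
      intro T' hT'
      rw [Nat.mem_divisors] at hT'
      have hnT' := nu_nonneg (upp x M) T'
      have hterm : ∀ e ∈ E x T, 0 ≤ (e : ℝ) ^ (2 * (1 - r)) *
            (nu (upp x M) T' * (if e ∣ T' then (mass M f' x T') ^ r else 0)) := by
        intro e _
        refine mul_nonneg (Real.rpow_nonneg (Nat.cast_nonneg _) _) (mul_nonneg hnT' ?_)
        split_ifs
        · exact Real.rpow_nonneg (hm' _) _
        · exact le_rfl
      by_cases hg : Nat.gcd T T' ∈ E x T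
      · rw [if_pos ⟨hF, hg⟩]
        have h5 := H1 x T T' (by omega) hT.1 hT'.1 hg
        rw [Real.mul_rpow (hm _) (hm' _)] at h5
        have h6 := Finset.single_le_sum hterm hg
        rw [if_pos (Nat.gcd_dvd_right T T')] at h6
        calc (Nat.gcd T T' : ℝ) * nu (upp x M) T * nu (upp x M) T' *
              frm (low x M) (fun n n' => K (n * T) (n' * T'))
            = (nu (upp x M) T * nu (upp x M) T') * ((Nat.gcd T T' : ℝ) *
              frm (low x M) (fun n n' => K (n * T) (n' * T'))) := by ring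
          _ ≤ (nu (upp x M) T * nu (upp x M) T') *
              (A * (Nat.gcd T T' : ℝ) ^ (2 * (1 - r)) *
                (mass M f x T ^ r * mass M f' x T' ^ r)) :=
              mul_le_mul_of_nonneg_left h5 (mul_nonneg hnT hnT')
          _ = (nu (upp x M) T * (A * mass M f x T ^ r)) *
              ((Nat.gcd T T' : ℝ) ^ (2 * (1 - r)) *
                (nu (upp x M) T' * mass M f' x T' ^ r)) := by ring
          _ ≤ _ := mul_le_mul_of_nonneg_left h6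
              (mul_nonneg hnT (mul_nonneg hA (Real.rpow_nonneg (hm _) _)))
      · rw [if_neg (fun h => hg h.2), mul_zero]
        exact mul_nonneg (mul_nonneg hnT (mul_nonneg hA (Real.rpow_nonneg (hm _) _)))
          (Finset.sum_nonneg hterm)
    refine (Finset.sum_le_sum h4).trans ?_
    rw [← Finset.mul_sum, Finset.sum_comm]
    have h7 : ∑ e ∈ E x T, ∑ T' ∈ (upp x M).divisors, (e : ℝ) ^ (2 * (1 - r)) *
            (nu (upp x M) T' * (if e ∣ T' then (mass M f' x T') ^ r else 0)) ≤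
        ∑ e ∈ E x T, (e : ℝ) ^ (1 - r) *
          (Ex M (fun c => if e ∣ c then f' c else 0)) ^ r := by
      refine Finset.sum_le_sum fun e _ => ?_
      rw [← Finset.mul_sum]
      have h8 := mult_le hM x e hr0 hr1 hf'
      unfold Ex at h8
      have hE : 0 ≤ (Ex M (fun c => if e ∣ c then f' c else 0)) ^ r := by
        refine Real.rpow_nonneg (Ex_nonneg _ fun b => ?_) _
        split_ifs
        · exact hf' b
        · exact le_rfl
      calc (e : ℝ) ^ (2 * (1 - r)) * ∑ T' ∈ (upp x M).divisors,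
            nu (upp x M) T' * (if e ∣ T' then (mass M f' x T') ^ r else 0)
          ≤ (e : ℝ) ^ (2 * (1 - r)) * ((1 / (e : ℝ)) ^ (1 - r) *
            (Ex M (fun c => if e ∣ c then f' c else 0)) ^ r) :=
            mul_le_mul_of_nonneg_left h8 (Real.rpow_nonneg (Nat.cast_nonneg _) _)
        _ = ((e : ℝ) ^ (2 * (1 - r)) * (1 / (e : ℝ)) ^ (1 - r)) *
            (Ex M (fun c => if e ∣ c then f' c else 0)) ^ r := by ring
        _ ≤ _ := mul_le_mul_of_nonneg_right (pow_aux e hr1) hE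
    calc (nu (upp x M) T * (A * mass M f x T ^ r)) *
          ∑ e ∈ E x T, ∑ T' ∈ (upp x M).divisors, (e : ℝ) ^ (2 * (1 - r)) *
            (nu (upp x M) T' * (if e ∣ T' then (mass M f' x T') ^ r else 0))
        ≤ (nu (upp x M) T * (A * mass M f x T ^ r)) *
          ∑ e ∈ E x T, (e : ℝ) ^ (1 - r) *
            (Ex M (fun c => if e ∣ c then f' c else 0)) ^ r :=
          mul_le_mul_of_nonneg_left h7
            (mul_nonneg hnT (mul_nonneg hA (Real.rpow_nonneg (hm _) _)))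
      _ = _ := by ring
  refine (Finset.sum_le_sum h3).trans (le_of_eq ?_)
  unfold Ex
  rw [Finset.mul_sum]
  refine Finset.sum_congr rfl fun T _ => ?_
  ring

open Classical in
/-- **LEMMA H, weighted list**: `∑_{e ∈ E x T} e^(1-r) ≤ W (L mass)^(1-r)`. -/
theorem heavyCut {M : ℕ} (hM : 0 < M) (N : ℕ) (S : ℕ → ℕ → Prop)
    (E : ℕ → ℕ → Finset ℕ) {r A L W : ℝ} (hr0 : 0 < r) (hr1 : r ≤ 1) (hA : 0 ≤ A)
    (hL : 0 ≤ L) (hW : 0 ≤ W) {f f' : ℕ → ℝ} (hf : ∀ b, 0 ≤ f b) (hf' : ∀ b, 0 ≤ f' b)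
    {K : ℕ → ℕ → ℝ} (hK : ∀ b c, 0 ≤ K b c)
    (H1 : ∀ x T T', x ≤ N → T ∣ upp x M → T' ∣ upp x M → Nat.gcd T T' ∈ E x T →
      (Nat.gcd T T' : ℝ) * frm (low x M) (fun n n' => K (n * T) (n' * T')) ≤
        A * (Nat.gcd T T' : ℝ) ^ (2 * (1 - r)) * (mass M f x T * mass M f' x T') ^ r)
    (H2 : ∀ x T, x ≤ N → T ∣ upp x M → Fst S N x T →
      ∑ e ∈ E x T, (e : ℝ) ^ (1 - r) ≤ W * (L * mass M f x T) ^ (1 - r)) :
    frm M (fun b c => if ∃ x ≤ N, Fst S N x b ∧ Nat.gcd (upp x b) c ∈ E x (upp x b)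
      then K b c else 0) ≤ A * W * L ^ (1 - r) * Ex M f * (Ex M f') ^ r := by
  refine (heavyCut_master hM N S E hr0 hr1 hA hf hf' hK H1).trans ?_
  have hE' : 0 ≤ (Ex M f') ^ r := Real.rpow_nonneg (Ex_nonneg _ hf') _
  have h1 : ∀ x ∈ range (N + 1), Ex (upp x M) (fun T => if Fst S N x T then
        mass M f x T ^ r * ∑ e ∈ E x T, (e : ℝ) ^ (1 - r) *
          (Ex M (fun c => if e ∣ c then f' c else 0)) ^ r else 0) ≤
      (W * L ^ (1 - r) * (Ex M f') ^ r) *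
        Ex (upp x M) (fun T => if Fst S N x T then mass M f x T else 0) := by
    intro x hx
    rw [Finset.mem_range] at hx
    unfold Ex
    rw [Finset.mul_sum]
    refine Finset.sum_le_sum fun T hT => ?_
    rw [Nat.mem_divisors] at hT
    beta_reduce
    by_cases hF : Fst S N x T
    · rw [if_pos hF, if_pos hF]
      have hm : 0 ≤ mass M f x T := mass_nonneg _ hf _ _
      have h2 : ∑ e ∈ E x T, (e : ℝ) ^ (1 - r) *
          (Ex M (fun c => if e ∣ c then f' c else 0)) ^ r ≤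
          (W * (L * mass M f x T) ^ (1 - r)) * (Ex M f') ^ r := by
        refine le_trans ?_ (mul_le_mul_of_nonneg_right (H2 x T (by omega) hT.1 hF) hE')
        rw [Finset.sum_mul]
        refine Finset.sum_le_sum fun e _ => ?_
        refine mul_le_mul_of_nonneg_left ?_ (Real.rpow_nonneg (Nat.cast_nonneg _) _)
        refine Real.rpow_le_rpow (Ex_nonneg _ fun c => ?_) (Ex_mono _ fun c _ => ?_) hr0.le
        · split_ifs
          · exact hf' c
          · exact le_rfl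
        · split_ifs
          · exact le_rfl
          · exact hf' c
      have h3 : mass M f x T ^ r * mass M f x T ^ (1 - r) = mass M f x T := by
        rw [← Real.rpow_add' hm (by norm_num)]
        norm_num
      have h4 : mass M f x T ^ r * ((W * (L * mass M f x T) ^ (1 - r)) * (Ex M f') ^ r) =
          (W * L ^ (1 - r) * (Ex M f') ^ r) * mass M f x T := by
        rw [Real.mul_rpow hL hm]
        calc mass M f x T ^ r * ((W * (L ^ (1 - r) * mass M f x T ^ (1 - r))) * (Ex M f') ^ r)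
            = (W * L ^ (1 - r) * (Ex M f') ^ r) *
              (mass M f x T ^ r * mass M f x T ^ (1 - r)) := by ring
          _ = _ := by rw [h3]
      calc nu (upp x M) T * (mass M f x T ^ r * ∑ e ∈ E x T, (e : ℝ) ^ (1 - r) *
            (Ex M (fun c => if e ∣ c then f' c else 0)) ^ r)
          ≤ nu (upp x M) T * (mass M f x T ^ r *
            ((W * (L * mass M f x T) ^ (1 - r)) * (Ex M f') ^ r)) :=
            mul_le_mul_of_nonneg_left (mul_le_mul_of_nonneg_left h2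
              (Real.rpow_nonneg hm _)) (nu_nonneg _ _)
        _ = _ := by
            rw [h4]
            unfold Ex
            ring
    · rw [if_neg hF, if_neg hF]
      simp
  calc A * ∑ x ∈ range (N + 1), Ex (upp x M) (fun T => if Fst S N x T then
        mass M f x T ^ r * ∑ e ∈ E x T, (e : ℝ) ^ (1 - r) *
          (Ex M (fun c => if e ∣ c then f' c else 0)) ^ r else 0)
      ≤ A * ∑ x ∈ range (N + 1), (W * L ^ (1 - r) * (Ex M f') ^ r) *
        Ex (upp x M) (fun T => if Fst S N x T then mass M f x T else 0) :=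
        mul_le_mul_of_nonneg_left (Finset.sum_le_sum h1) hA
    _ = A * (W * L ^ (1 - r) * (Ex M f') ^ r) * ∑ x ∈ range (N + 1),
        Ex (upp x M) (fun T => if Fst S N x T then mass M f x T else 0) := by
        rw [← Finset.mul_sum]
        ring
    _ ≤ A * (W * L ^ (1 - r) * (Ex M f') ^ r) * Ex M f :=
        mul_le_mul_of_nonneg_left (antichain hM S N hf)
          (mul_nonneg hA (mul_nonneg (mul_nonneg hW (Real.rpow_nonneg hL _)) hE'))
    _ = _ := by ring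

/-- the list condition from `|E| ≤ J` and `e Γ ≤ L mass` -/
lemma list_cond {E : Finset ℕ} {s Γ J μ : ℝ} (hs : 0 ≤ s) (hΓ : 0 < Γ)
    (hcard : (E.card : ℝ) ≤ J) (hE : ∀ e ∈ E, (e : ℝ) * Γ ≤ μ) (hμ : 0 ≤ μ) :
    ∑ e ∈ E, (e : ℝ) ^ s ≤ J * Γ ^ (-s) * μ ^ s := by
  have h1 : ∀ e ∈ E, (e : ℝ) ^ s ≤ Γ ^ (-s) * μ ^ s := by
    intro e he
    have h2 : (e : ℝ) ≤ μ / Γ := (le_div_iff₀ hΓ).2 (hE e he)
    calc (e : ℝ) ^ s ≤ (μ / Γ) ^ s := Real.rpow_le_rpow (Nat.cast_nonneg _) h2 hs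
      _ = Γ ^ (-s) * μ ^ s := by
        rw [Real.div_rpow hμ hΓ.le, Real.rpow_neg hΓ.le]
        ring
  calc ∑ e ∈ E, (e : ℝ) ^ s ≤ ∑ _e ∈ E, Γ ^ (-s) * μ ^ s := Finset.sum_le_sum h1
    _ = (E.card : ℝ) * (Γ ^ (-s) * μ ^ s) := by rw [Finset.sum_const, nsmul_eq_mul]
    _ ≤ J * (Γ ^ (-s) * μ ^ s) := mul_le_mul_of_nonneg_right hcard (by positivity)
    _ = _ := by ring

open Classical in
/-- node estimate, exact `e`-dependence -/
theorem node_exact {M : ℕ} {η κ C X : ℝ} (hη1 : η ≤ 1)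
    (hC : 0 ≤ C) (hX : 0 < X) {f f' : ℕ → ℝ}
    (hf : ∀ b, 0 ≤ f b ∧ f b ≤ 1) (hf' : ∀ b, 0 ≤ f' b ∧ f' b ≤ 1)
    (HVW : ∀ M' : ℕ, M' ∣ M → ∀ f f' : ℕ → ℝ, (∀ b, 0 ≤ f b ∧ f b ≤ 1) →
      (∀ b, 0 ≤ f' b ∧ f' b ≤ 1) → ∀ X : ℝ, 0 < X →
      frm M' (fun b c => if X ≤ (Nat.gcd b c : ℝ) ∧ (Nat.gcd b c : ℝ) < κ * X
        then f b * f' c else 0) ≤ C * X ^ η * (Ex M' f * Ex M' f') ^ ((1 + η) / 2))
    (x T T' : ℕ) (hT : T ∣ upp x M) (hT' : T' ∣ upp x M) :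
    (Nat.gcd T T' : ℝ) * frm (low x M) (fun n n' =>
        if X ≤ (Nat.gcd (n * T) (n' * T') : ℝ) ∧ (Nat.gcd (n * T) (n' * T') : ℝ) < κ * X
          then f (n * T) * f' (n' * T') else 0) ≤
      (C * X ^ η) * (Nat.gcd T T' : ℝ) ^ (2 * (1 - (1 + η) / 2)) *
        (mass M f x T * mass M f' x T') ^ ((1 + η) / 2) := by
  have h := node_of_hvw (Y := (Nat.gcd T T' : ℝ)) hη1 hC hX hf hf' HVW x T T' hT hT' le_rfl
  have e : 2 * (1 - (1 + η) / 2) = 1 - η := by ring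
  rw [e]
  exact h

open Classical in
/-- **LEMMA H** from HVW, window `X ≤ gcd < κ X` -/
theorem heavyCut_hvw {M : ℕ} (hM : 0 < M) (N : ℕ) (S : ℕ → ℕ → Prop)
    (E : ℕ → ℕ → Finset ℕ) {η κ C X L W : ℝ} (hη0 : 0 ≤ η) (hη1 : η ≤ 1)
    (hC : 0 ≤ C) (hX : 0 < X) (hL : 0 ≤ L) (hW : 0 ≤ W) {f f' : ℕ → ℝ}
    (hf : ∀ b, 0 ≤ f b ∧ f b ≤ 1) (hf' : ∀ b, 0 ≤ f' b ∧ f' b ≤ 1)
    (HVW : ∀ M' : ℕ, M' ∣ M → ∀ f f' : ℕ → ℝ, (∀ b, 0 ≤ f b ∧ f b ≤ 1) →
      (∀ b, 0 ≤ f' b ∧ f' b ≤ 1) → ∀ X : ℝ, 0 < X →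
      frm M' (fun b c => if X ≤ (Nat.gcd b c : ℝ) ∧ (Nat.gcd b c : ℝ) < κ * X
        then f b * f' c else 0) ≤ C * X ^ η * (Ex M' f * Ex M' f') ^ ((1 + η) / 2))
    (H2 : ∀ x T, x ≤ N → T ∣ upp x M → Fst S N x T →
      ∑ e ∈ E x T, (e : ℝ) ^ ((1 - η) / 2) ≤ W * (L * mass M f x T) ^ ((1 - η) / 2)) :
    frm M (fun b c =>
      if (∃ x ≤ N, Fst S N x b ∧ Nat.gcd (upp x b) c ∈ E x (upp x b)) ∧
        X ≤ (Nat.gcd b c : ℝ) ∧ (Nat.gcd b c : ℝ) < κ * X then f b * f' c else 0) ≤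
      C * X ^ η * W * L ^ ((1 - η) / 2) * Ex M f * (Ex M f') ^ ((1 + η) / 2) := by
  have e0 : 1 - (1 + η) / 2 = (1 - η) / 2 := by ring
  have h := heavyCut hM N S E (r := (1 + η) / 2) (A := C * X ^ η) (L := L) (W := W)
    (by linarith) (by linarith) (mul_nonneg hC (Real.rpow_nonneg hX.le _)) hL hW
    (fun b => (hf b).1) (fun b => (hf' b).1)
    (K := fun b c => if X ≤ (Nat.gcd b c : ℝ) ∧ (Nat.gcd b c : ℝ) < κ * X
      then f b * f' c else 0)
    (fun b c => by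
      split_ifs
      · exact mul_nonneg (hf b).1 (hf' c).1
      · exact le_rfl)
    (fun x T T' _ hT hT' _ => node_exact hη1 hC hX hf hf' HVW x T T' hT hT')
    (fun x T hx hT hF => by
      rw [e0]
      exact H2 x T hx hT hF)
  rw [e0] at h
  refine le_trans (le_of_eq ?_) h
  refine frm_congr fun b c _ _ => ?_
  by_cases h1 : ∃ x ≤ N, Fst S N x b ∧ Nat.gcd (upp x b) c ∈ E x (upp x b)
  · by_cases h2 : X ≤ (Nat.gcd b c : ℝ) ∧ (Nat.gcd b c : ℝ) < κ * X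
    · rw [if_pos ⟨h1, h2⟩, if_pos h1, if_pos h2]
    · rw [if_neg (fun hc => h2 hc.2), if_pos h1, if_neg h2]
  · rw [if_neg (fun hc => h1 hc.1), if_neg h1]

open Classical in
/-- **LEMMA H**, `L, t, m` normalisation (`X = t L`, `m = L E f`), weighted list -/
theorem heavyCut_norm {M : ℕ} (hM : 0 < M) (N : ℕ) (S : ℕ → ℕ → Prop)
    (E : ℕ → ℕ → Finset ℕ) {η κ C t L W : ℝ} (hη0 : 0 ≤ η) (hη1 : η ≤ 1)
    (hC : 0 ≤ C) (ht : 0 < t) (hL : 0 < L) (hW : 0 ≤ W) {f f' : ℕ → ℝ}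
    (hf : ∀ b, 0 ≤ f b ∧ f b ≤ 1) (hf' : ∀ b, 0 ≤ f' b ∧ f' b ≤ 1)
    (HVW : ∀ M' : ℕ, M' ∣ M → ∀ f f' : ℕ → ℝ, (∀ b, 0 ≤ f b ∧ f b ≤ 1) →
      (∀ b, 0 ≤ f' b ∧ f' b ≤ 1) → ∀ X : ℝ, 0 < X →
      frm M' (fun b c => if X ≤ (Nat.gcd b c : ℝ) ∧ (Nat.gcd b c : ℝ) < κ * X
        then f b * f' c else 0) ≤ C * X ^ η * (Ex M' f * Ex M' f') ^ ((1 + η) / 2))
    (H2 : ∀ x T, x ≤ N → T ∣ upp x M → Fst S N x T →
      ∑ e ∈ E x T, (e : ℝ) ^ ((1 - η) / 2) ≤ W * (L * mass M f x T) ^ ((1 - η) / 2)) :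
    L * frm M (fun b c =>
      if (∃ x ≤ N, Fst S N x b ∧ Nat.gcd (upp x b) c ∈ E x (upp x b)) ∧
        t * L ≤ (Nat.gcd b c : ℝ) ∧ (Nat.gcd b c : ℝ) < κ * (t * L) then f b * f' c else 0) ≤
      C * t ^ η * W * (L * Ex M f) * (L * Ex M f') ^ ((1 + η) / 2) := by
  have h := heavyCut_hvw hM N S E (X := t * L) (L := L) (W := W) (κ := κ) hη0 hη1 hC
    (mul_pos ht hL) hL.le hW hf hf' HVW H2
  have h2 := mul_le_mul_of_nonneg_left h hL.le
  refine h2.trans (le_of_eq ?_)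
  have hE : 0 ≤ Ex M f' := Ex_nonneg _ fun b => (hf' b).1
  rw [Real.mul_rpow ht.le hL.le, Real.mul_rpow hL.le hE]
  have h3 : L ^ η * L ^ ((1 - η) / 2) = L ^ ((1 + η) / 2) := by
    rw [← Real.rpow_add hL]
    congr 1
    ring
  calc L * (C * (t ^ η * L ^ η) * W * L ^ ((1 - η) / 2) * Ex M f * Ex M f' ^ ((1 + η) / 2))
      = C * t ^ η * W * (L * Ex M f) *
        ((L ^ η * L ^ ((1 - η) / 2)) * Ex M f' ^ ((1 + η) / 2)) := by ring
    _ = _ := by rw [h3]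

open Classical in
/-- **LEMMA H**, `|E x T| ≤ J`, `e ≤ (L mass (x, T)) / Γ` -/
theorem heavyCut_J {M : ℕ} (hM : 0 < M) (N : ℕ) (S : ℕ → ℕ → Prop)
    (E : ℕ → ℕ → Finset ℕ) {η κ C t L Γ J : ℝ} (hη0 : 0 ≤ η) (hη1 : η ≤ 1)
    (hC : 0 ≤ C) (ht : 0 < t) (hL : 0 < L) (hΓ : 0 < Γ) (hJ : 0 ≤ J) {f f' : ℕ → ℝ}
    (hf : ∀ b, 0 ≤ f b ∧ f b ≤ 1) (hf' : ∀ b, 0 ≤ f' b ∧ f' b ≤ 1)
    (HVW : ∀ M' : ℕ, M' ∣ M → ∀ f f' : ℕ → ℝ, (∀ b, 0 ≤ f b ∧ f b ≤ 1) →
      (∀ b, 0 ≤ f' b ∧ f' b ≤ 1) → ∀ X : ℝ, 0 < X →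
      frm M' (fun b c => if X ≤ (Nat.gcd b c : ℝ) ∧ (Nat.gcd b c : ℝ) < κ * X
        then f b * f' c else 0) ≤ C * X ^ η * (Ex M' f * Ex M' f') ^ ((1 + η) / 2))
    (H2 : ∀ x T, x ≤ N → T ∣ upp x M → Fst S N x T → ((E x T).card : ℝ) ≤ J)
    (H3 : ∀ x T, x ≤ N → T ∣ upp x M → Fst S N x T → ∀ e ∈ E x T,
      (e : ℝ) * Γ ≤ L * mass M f x T) :
    L * frm M (fun b c =>
      if (∃ x ≤ N, Fst S N x b ∧ Nat.gcd (upp x b) c ∈ E x (upp x b)) ∧
        t * L ≤ (Nat.gcd b c : ℝ) ∧ (Nat.gcd b c : ℝ) < κ * (t * L) then f b * f' c else 0) ≤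
      C * t ^ η * (J * Γ ^ (-((1 - η) / 2))) * (L * Ex M f) *
        (L * Ex M f') ^ ((1 + η) / 2) := by
  refine heavyCut_norm hM N S E hη0 hη1 hC ht hL (by positivity) hf hf' HVW
    fun x T hx hT hF => ?_
  exact list_cond (by linarith) hΓ (H2 x T hx hT hF) (H3 x T hx hT hF)
    (mul_nonneg hL.le (mass_nonneg _ (fun b => (hf b).1) _ _))

lemma Fst_fix (x b : ℕ) : Fst (fun y _ => y = x) x x b :=
  ⟨rfl, fun _ _ _ => by omega⟩

lemma Fst_fix_iff (x y b : ℕ) : Fst (fun y _ => y = x) x y b ↔ y = x :=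
  ⟨fun h => h.1, fun h => by rw [h]; exact Fst_fix x b⟩

open Classical in
/-- **LEMMA H AT A FIXED CUT `x`** (the form of note 2994): for every `T ∣ upp x M` a list
`E T` of at most `J` values `e` with `e Γ ≤ L mass (x, T)`; all pairs `(b, c)` with
`gcd (upp x b) c ∈ E (upp x b)` at scale `t`. -/
theorem heavyFix_J {M : ℕ} (hM : 0 < M) (x : ℕ) (E : ℕ → Finset ℕ)
    {η κ C t L Γ J : ℝ} (hη0 : 0 ≤ η) (hη1 : η ≤ 1)
    (hC : 0 ≤ C) (ht : 0 < t) (hL : 0 < L) (hΓ : 0 < Γ) (hJ : 0 ≤ J) {f f' : ℕ → ℝ}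
    (hf : ∀ b, 0 ≤ f b ∧ f b ≤ 1) (hf' : ∀ b, 0 ≤ f' b ∧ f' b ≤ 1)
    (HVW : ∀ M' : ℕ, M' ∣ M → ∀ f f' : ℕ → ℝ, (∀ b, 0 ≤ f b ∧ f b ≤ 1) →
      (∀ b, 0 ≤ f' b ∧ f' b ≤ 1) → ∀ X : ℝ, 0 < X →
      frm M' (fun b c => if X ≤ (Nat.gcd b c : ℝ) ∧ (Nat.gcd b c : ℝ) < κ * X
        then f b * f' c else 0) ≤ C * X ^ η * (Ex M' f * Ex M' f') ^ ((1 + η) / 2))
    (H2 : ∀ T, T ∣ upp x M → ((E T).card : ℝ) ≤ J)
    (H3 : ∀ T, T ∣ upp x M → ∀ e ∈ E T, (e : ℝ) * Γ ≤ L * mass M f x T) :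
    L * frm M (fun b c =>
      if Nat.gcd (upp x b) c ∈ E (upp x b) ∧
        t * L ≤ (Nat.gcd b c : ℝ) ∧ (Nat.gcd b c : ℝ) < κ * (t * L) then f b * f' c else 0) ≤
      C * t ^ η * (J * Γ ^ (-((1 - η) / 2))) * (L * Ex M f) *
        (L * Ex M f') ^ ((1 + η) / 2) := by
  have h := heavyCut_J hM x (fun y _ => y = x) (fun _ T => E T) hη0 hη1 hC ht hL hΓ hJ hf hf'
    HVW (fun y T _ hT hF => by
      have := hF.1
      subst this
      exact H2 T hT)
    (fun y T _ hT hF => by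
      have := hF.1
      subst this
      exact H3 T hT)
  refine le_trans (mul_le_mul_of_nonneg_left (frm_mono fun b c _ _ => ?_) hL.le) h
  by_cases h1 : Nat.gcd (upp x b) c ∈ E (upp x b) ∧
        t * L ≤ (Nat.gcd b c : ℝ) ∧ (Nat.gcd b c : ℝ) < κ * (t * L)
  · rw [if_pos h1, if_pos ⟨⟨x, le_rfl, Fst_fix x b, h1.1⟩, h1.2⟩]
  · rw [if_neg h1]
    split_ifs
    · exact mul_nonneg (hf b).1 (hf' c).1
    · exact le_rfl

end Crest.Agent.R4C.HeavyCx899
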