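import Crest.Agent.R4C.HeavyL_50
import Crest.Agent.R4C.HVWt_19

/-!
# HEAVY LEMMA, unconditional (2581(2) + 19's `hvw_b`), general `M` (helper50)
-/

namespace Crest.Agent.R4C.HeavyUx50

open Finset Crest.Agent.R4C.Basex935 Crest.Agent.R4C.Cutx50 Crest.Agent.R4C.HeavyLx50

open Classical in
/-- 19's exact-gcd bound in the `frm`/`Ex` notation -/
theorem hvw {η : ℝ} (hη0 : 0 < η) (hη1 : η < 1) :
    ∃ C : ℝ, 0 < C ∧ ∀ M' : ℕ, 0 < M' → ∀ f f' : ℕ → ℝ, (∀ b, 0 ≤ f b ∧ f b ≤ 1) →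
      (∀ b, 0 ≤ f' b ∧ f' b ≤ 1) → ∀ X : ℝ, 0 < X →
      frm M' (fun b c => if X ≤ (Nat.gcd b c : ℝ) ∧ (Nat.gcd b c : ℝ) < 2 * X
        then f b * f' c else 0) ≤ C * X ^ η * (Ex M' f * Ex M' f') ^ ((1 + η) / 2) := by
  obtain ⟨C, hC, h⟩ := Crest.Agent.R4C.ThmRx19.hvw_b (κ := (1 + η) / 2) (by linarith) (by linarith)
  refine ⟨C, hC, fun M' hM' f f' hf hf' X hX => ?_⟩
  have h1 := h M' X f f' hM'.ne' hX (fun x => (hf x).1) (fun x => (hf x).2)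
    (fun x => (hf' x).1) (fun x => (hf' x).2)
  have e1 : 2 * ((1 + η) / 2) - 1 = η := by ring
  rw [e1] at h1
  rw [Real.mul_rpow (Ex_nonneg _ fun b => (hf b).1) (Ex_nonneg _ fun b => (hf' b).1)]
  refine le_trans (le_of_eq ?_) h1
  unfold frm
  refine Finset.sum_congr rfl fun b _ => Finset.sum_congr rfl fun c _ => ?_
  beta_reduce
  split_ifs
  · rfl
  · rw [mul_zero]

open Classical in
/-- **HEAVY LEMMA** (2581(2)), unconditional, general `M`: pairs at scale `X ≤ gcd < 2X` such that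
`b` has a first (from the top) cut `x` with node mass `≥ a₁` and `gcd (upp x b) c ≤ Y` -/
theorem heavy_u {η : ℝ} (hη0 : 0 < η) (hη1 : η < 1) :
    ∃ C : ℝ, 0 < C ∧ ∀ (M N : ℕ) (X Y a₁ : ℝ) (f f' : ℕ → ℝ), 0 < M → 0 < X → 0 ≤ Y → 0 < a₁ →
      (∀ b, 0 ≤ f b ∧ f b ≤ 1) → (∀ b, 0 ≤ f' b ∧ f' b ≤ 1) →
      frm M (fun b c =>
        if (∃ x ≤ N, Fst (Heavy M f a₁) N x b ∧ (Nat.gcd (upp x b) c : ℝ) ≤ Y) ∧
          X ≤ (Nat.gcd b c : ℝ) ∧ (Nat.gcd b c : ℝ) < 2 * X then f b * f' c else 0) ≤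
        C * X ^ η * Y ^ (1 - η) * a₁ ^ (-((1 - η) / 2)) * Ex M f *
          (Ex M f') ^ ((1 + η) / 2) := by
  obtain ⟨C, hC, h⟩ := hvw hη0 hη1
  refine ⟨C, hC, fun M N X Y a₁ f f' hM hX hY ha hf hf' => ?_⟩
  exact heavy_hvw hM N hη0.le hη1.le hC.le hX hY ha hf hf'
    (fun M' hM' => h M' (Nat.pos_of_dvd_of_pos hM' hM))

open Classical in
/-- the same in the `L, t, m` normalisation -/
theorem heavy_norm_u {η : ℝ} (hη0 : 0 < η) (hη1 : η < 1) :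
    ∃ C : ℝ, 0 < C ∧ ∀ (M N : ℕ) (t L Y m₁ : ℝ) (f f' : ℕ → ℝ), 0 < M → 0 < t → 0 < L →
      0 ≤ Y → 0 < m₁ →
      (∀ b, 0 ≤ f b ∧ f b ≤ 1) → (∀ b, 0 ≤ f' b ∧ f' b ≤ 1) →
      L * frm M (fun b c =>
        if (∃ x ≤ N, Fst (Heavy M f (m₁ / L)) N x b ∧ (Nat.gcd (upp x b) c : ℝ) ≤ Y) ∧
          t * L ≤ (Nat.gcd b c : ℝ) ∧ (Nat.gcd b c : ℝ) < 2 * (t * L)
          then f b * f' c else 0) ≤
        C * t ^ η * Y ^ (1 - η) * m₁ ^ (-((1 - η) / 2)) * (L * Ex M f) *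
          (L * Ex M f') ^ ((1 + η) / 2) := by
  obtain ⟨C, hC, h⟩ := hvw hη0 hη1
  refine ⟨C, hC, fun M N t L Y m₁ f f' hM ht hL hY hm₁ hf hf' => ?_⟩
  exact heavy_norm hM N hη0.le hη1.le hC.le ht hL hY hm₁ hf hf'
    (fun M' hM' => h M' (Nat.pos_of_dvd_of_pos hM' hM))

end Crest.Agent.R4C.HeavyUx50
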