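import Crest.Agent.R4C.Chain_81
import Crest.Agent.R4C.HeavyC_899
import Crest.Agent.R4C.HeavyU_50
import Crest.Agent.R4C.PureFL_232

/-!
# Row 4: CLASS (H) of the classification of labelled unkilled pairs (3226 (3), 3273 (2)) (helper81)

`F : FL M`, pair `(b, c)` good at the cut `x`, scale `t ≤ gcd / L < 2 t`; `b` has a short chain at
`x` (`uu x b ≤ U L`, because a deeper centre is different: `Chain_81.two_cuts`) and is HEAVY at some
cut `z ≤ x`: `H ≤ low z b * mass M f z (upp z b)`.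
* `gcd_mem` : at every cut `z ≤ x`, `gcd (upp z b) c ∈ E z (upp z b)`, a list of `≤ U/t` numbers;
* `class_J` : the energy of these pairs, any partner, all cuts `z` at once;
* `class_K` : sum over the dyadic depth `K` (`uu x b ≤ 2 K² L`, heavy with `H = K^P`, `K ≥ K₀`);
* `class_H`, `class_H'` : label form (conflict with a deeper centre).
-/

set_option autoImplicit false

namespace Crest.Agent.R4C.Hclsx81

open Finset Crest.Agent.R4C.Basex935 Crest.Agent.R4C.Cutx50 Crest.Agent.R4C.FLDefx935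
  Crest.Agent.R4C.HeavyLx50 Crest.Agent.R4C.HeavyCx899 Crest.Agent.R4C.Chainx81

variable {M : ℕ} {F : FL M}

/-! ### the chain above a lower cut -/

lemma uu_dvd_M {x b : ℕ} (hM : 0 < M) (hb : b ∣ M) : F.uu x b ∣ M :=
  (FL.uu_dvd hM hb).trans hb

/-- the part `> z` of the chain depends only on the word above `z` -/
lemma upp_uu_upp {x z b : ℕ} (_hM : 0 < M) (hb : b ∣ M) (_hz : z ≤ x) :
    upp z (F.uu x (upp z b)) = upp z (F.uu x b) := by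
  refine Nat.eq_of_factorization_eq (upp_pos _ _).ne' (upp_pos _ _).ne' fun p => ?_
  rw [fact_upp, fact_upp, FL.fact_uu, FL.fact_uu]
  by_cases hzp : p ≤ z
  · simp [hzp]
  · rw [if_pos hzp, if_pos hzp]
    by_cases hp : p ∈ M.primeFactors
    · have hpp := Nat.prime_of_mem_primeFactors hp
      have e1 : (upp z b).factorization p = b.factorization p := by
        rw [fact_upp, if_pos hzp]
      have e2 : F.ctr (upp z b) p = F.ctr b p := PureL2x232.ctr_upp F hb hpp (by omega)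
      simp only [hp, if_true, FL.uuE, e1, e2]
    · simp [hp]

lemma low_uu {x z b : ℕ} (hM : 0 < M) (hb : b ∣ M) (hz : z ≤ x) :
    low z (F.uu x b) = low z b := by
  refine Nat.eq_of_factorization_eq (low_pos _ _).ne' (low_pos _ _).ne' fun p => ?_
  rw [fact_low, fact_low]
  by_cases hzp : p ≤ z
  · rw [if_pos hzp, if_pos hzp, fact_uu_low hM hb (by omega)]
  · rw [if_neg hzp, if_neg hzp]

lemma low_mul_ux {x z b : ℕ} (hM : 0 < M) (hb : b ∣ M) (hz : z ≤ x) :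
    low z b * upp z (F.uu x (upp z b)) = F.uu x b := by
  rw [upp_uu_upp hM hb hz, ← low_uu (F := F) hM hb hz]
  exact low_mul_upp z (FL.uu_pos x b).ne'

/-- `e = gcd (upp z b) c` divides the part `> z` of the chain -/
lemma e_dvd {x z b c : ℕ} (hM : 0 < M) (hb : b ∣ M) (hc : c ∣ M) (hz : z ≤ x)
    (hg : F.good x b c) : Nat.gcd (upp z b) c ∣ upp z (F.uu x (upp z b)) := by
  have h1 : Nat.gcd (upp z b) c ∣ F.uu x b :=
    (Nat.gcd_dvd_gcd_of_dvd_left c (upp_dvd_self z b)).trans (FL.good_gcd_dvd_uu hM hb hc hg)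
  rw [← low_mul_ux (F := F) hM hb hz] at h1
  refine Nat.Coprime.dvd_of_dvd_mul_left ?_ h1
  refine Nat.Coprime.coprime_dvd_left (Nat.gcd_dvd_left _ _) ?_
  exact (coprime_part (S := fun p => p ≤ z) b b).symm

/-- the cofactor of `e` in the chain: `ux * gcd b c ≤ uu x b * e` -/
lemma ux_mul_le {x z b c : ℕ} (hM : 0 < M) (hb : b ∣ M) (hc : c ∣ M) (hz : z ≤ x) :
    upp z (F.uu x (upp z b)) * Nat.gcd b c ≤ F.uu x b * Nat.gcd (upp z b) c := by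
  have h1 : Nat.gcd b c ≤ low z b * Nat.gcd (upp z b) c := by
    have h2 : Nat.gcd b c ∣ Nat.gcd (low z b) c * Nat.gcd (upp z b) c := by
      have hb0 : b ≠ 0 := (Nat.pos_of_dvd_of_pos hb hM).ne'
      have h3 := Nat.gcd_mul_right_dvd_mul_gcd c (low z b) (upp z b)
      rw [low_mul_upp z hb0] at h3
      rw [Nat.gcd_comm b c, Nat.gcd_comm (low z b), Nat.gcd_comm (upp z b)]
      exact h3
    have hc0 : 0 < c := Nat.pos_of_dvd_of_pos hc hM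
    have h4 := Nat.le_of_dvd (Nat.mul_pos (Nat.gcd_pos_of_pos_right _ hc0)
      (Nat.gcd_pos_of_pos_right _ hc0)) h2
    exact h4.trans (Nat.mul_le_mul_right _ (Nat.gcd_le_left _ (low_pos z b)))
  calc upp z (F.uu x (upp z b)) * Nat.gcd b c
      ≤ upp z (F.uu x (upp z b)) * (low z b * Nat.gcd (upp z b) c) := Nat.mul_le_mul_left _ h1
    _ = (low z b * upp z (F.uu x (upp z b))) * Nat.gcd (upp z b) c := by ring
    _ = _ := by rw [low_mul_ux hM hb hz]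

open Classical in
/-- the list of a node `(z, T)` -/
noncomputable def lst (F : FL M) (x : ℕ) (J : ℝ) (z T : ℕ) : Finset ℕ :=
  (upp z (F.uu x T)).divisors.filter (fun e => ((upp z (F.uu x T) : ℕ) : ℝ) ≤ J * e)

lemma card_list {u : ℕ} {J : ℝ} (hJ : 0 ≤ J) (E : Finset ℕ)
    (hE : ∀ e ∈ E, e ∣ u ∧ (u : ℝ) ≤ J * e) (hu : 0 < u) : (E.card : ℝ) ≤ J := by
  have h1 : E.card ≤ (Finset.Icc 1 ⌊J⌋₊).card := by
    refine Finset.card_le_card_of_injOn (fun e => u / e) (fun e he => ?_) (fun e he e' he' h => ?_)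
    · obtain ⟨hd, hle⟩ := hE e he
      have he0 : 0 < e := Nat.pos_of_dvd_of_pos hd hu
      rw [Finset.coe_Icc, Set.mem_Icc]
      refine ⟨Nat.div_pos (Nat.le_of_dvd hu hd) he0, Nat.le_floor ?_⟩
      have h2 : ((u / e : ℕ) : ℝ) * e = u := by exact_mod_cast Nat.div_mul_cancel hd
      have he1 : (0 : ℝ) < e := by exact_mod_cast he0
      rw [← h2] at hle
      exact le_of_mul_le_mul_right hle he1
    · obtain ⟨hd, _⟩ := hE e he
      obtain ⟨hd', _⟩ := hE e' he'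
      simp only at h
      have e1 : u / (u / e) = e := Nat.div_div_self hd hu.ne'
      have e2 : u / (u / e') = e' := Nat.div_div_self hd' hu.ne'
      rw [← e1, ← e2, h]
  rw [Nat.card_Icc, Nat.add_sub_cancel] at h1
  exact (by exact_mod_cast h1 : (E.card : ℝ) ≤ (⌊J⌋₊ : ℝ)).trans (Nat.floor_le hJ)

lemma card_lst {x z T : ℕ} {J : ℝ} (hJ : 0 ≤ J) : ((lst F x J z T).card : ℝ) ≤ J := by
  refine card_list hJ _ (fun e he => ?_) (upp_pos z (F.uu x T))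
  unfold lst at he
  rw [Finset.mem_filter, Nat.mem_divisors] at he
  exact ⟨he.1.1, he.2⟩

lemma gcd_mem {x z b c : ℕ} {U L t : ℝ} (hM : 0 < M) (hb : b ∣ M) (hc : c ∣ M) (hz : z ≤ x)
    (hg : F.good x b c) (hL : 0 < L) (ht : 0 < t) (hU : (F.uu x b : ℝ) ≤ U * L)
    (ht' : t * L ≤ Nat.gcd b c) : Nat.gcd (upp z b) c ∈ lst F x (U / t) z (upp z b) := by
  unfold lst
  rw [Finset.mem_filter, Nat.mem_divisors]
  refine ⟨⟨e_dvd hM hb hc hz hg, (upp_pos _ _).ne'⟩, ?_⟩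
  have h1 : ((upp z (F.uu x (upp z b)) : ℕ) : ℝ) * (Nat.gcd b c : ℝ) ≤
      F.uu x b * (Nat.gcd (upp z b) c : ℝ) := by
    exact_mod_cast ux_mul_le (F := F) hM hb hc hz
  have hu0 : (0 : ℝ) ≤ ((upp z (F.uu x (upp z b)) : ℕ) : ℝ) := Nat.cast_nonneg _
  have he0 : (0 : ℝ) ≤ (Nat.gcd (upp z b) c : ℝ) := Nat.cast_nonneg _
  have h2 : ((upp z (F.uu x (upp z b)) : ℕ) : ℝ) * (t * L) ≤
      (U * L) * (Nat.gcd (upp z b) c : ℝ) :=
    (mul_le_mul_of_nonneg_left ht' hu0).trans (h1.trans (mul_le_mul_of_nonneg_right hU he0))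
  have h3 : (((upp z (F.uu x (upp z b)) : ℕ) : ℝ) * t) * L ≤
      (U * (Nat.gcd (upp z b) c : ℝ)) * L := by
    calc (((upp z (F.uu x (upp z b)) : ℕ) : ℝ) * t) * L
        = ((upp z (F.uu x (upp z b)) : ℕ) : ℝ) * (t * L) := by ring
      _ ≤ _ := h2
      _ = _ := by ring
  have h4 := le_of_mul_le_mul_right h3 hL
  rw [div_mul_eq_mul_div, le_div_iff₀ ht]
  exact h4

/-! ### energy of the class, one depth -/

/-- heavy at some cut `z ≤ x` (`Θ_x(b) ≥ H`) -/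
def HeavyAt (M : ℕ) (f : ℕ → ℝ) (x : ℕ) (H : ℝ) (b : ℕ) : Prop :=
  ∃ z ≤ x, H ≤ (low z b : ℝ) * mass M f z (upp z b)

open Classical in
/-- **CLASS (H), one depth**: good at the cut `x`, chain `uu x b ≤ U L`, heavy at a cut `≤ x`,
scale `t`, any partner -/
theorem class_J {M : ℕ} (hM : 0 < M) (F : FL M) (x : ℕ)
    {η C t L U H : ℝ} (hη0 : 0 ≤ η) (hη1 : η ≤ 1)
    (hC : 0 ≤ C) (ht : 0 < t) (hL : 0 < L) (hU : 0 < U) (hH : 0 < H) {f f' : ℕ → ℝ}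
    (hf : ∀ b, 0 ≤ f b ∧ f b ≤ 1) (hf' : ∀ b, 0 ≤ f' b ∧ f' b ≤ 1)
    (HVW : ∀ M' : ℕ, M' ∣ M → ∀ f f' : ℕ → ℝ, (∀ b, 0 ≤ f b ∧ f b ≤ 1) →
      (∀ b, 0 ≤ f' b ∧ f' b ≤ 1) → ∀ X : ℝ, 0 < X →
      frm M' (fun b c => if X ≤ (Nat.gcd b c : ℝ) ∧ (Nat.gcd b c : ℝ) < 2 * X
        then f b * f' c else 0) ≤ C * X ^ η * (Ex M' f * Ex M' f') ^ ((1 + η) / 2)) :
    L * frm M (fun b c =>
      if F.good x b c ∧ (F.uu x b : ℝ) ≤ U * L ∧ HeavyAt M f x H b ∧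
        t * L ≤ (Nat.gcd b c : ℝ) ∧ (Nat.gcd b c : ℝ) < 2 * (t * L) then f b * f' c else 0) ≤
      C * t ^ η * ((U / t) * (H / U) ^ (-((1 - η) / 2))) * (L * Ex M f) *
        (L * Ex M f') ^ ((1 + η) / 2) := by
  have hΓ : 0 < H / U := div_pos hH hU
  have hJ : 0 ≤ U / t := (div_pos hU ht).le
  have hm : ∀ z T, 0 ≤ mass M f z T := fun z T => mass_nonneg _ (fun b => (hf b).1) _ _
  have h := heavyCut_J hM x
    (fun z T => H / U * ((upp z (F.uu x T) : ℕ) : ℝ) ≤ L * mass M f z T)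
    (fun z T => lst F x (U / t) z T) hη0 hη1 hC ht hL hΓ hJ hf hf' HVW
    (fun z T _ _ _ => card_lst hJ)
    (fun z T _ _ hF e he => by
      have h1 := hF.1
      unfold lst at he
      rw [Finset.mem_filter, Nat.mem_divisors] at he
      have h2 : (e : ℝ) ≤ ((upp z (F.uu x T) : ℕ) : ℝ) := by
        exact_mod_cast Nat.le_of_dvd (upp_pos _ _) he.1.1
      have h3 : upp z T = T := by
        rename_i _ hT
        have := upp_of_mul (x := z) (n := 1) (T := T) (M := M) (M' := M) (one_dvd _) hT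
        rwa [one_mul] at this
      rw [h3] at h1
      calc (e : ℝ) * (H / U) ≤ ((upp z (F.uu x T) : ℕ) : ℝ) * (H / U) :=
            mul_le_mul_of_nonneg_right h2 hΓ.le
        _ = H / U * ((upp z (F.uu x T) : ℕ) : ℝ) := mul_comm _ _
        _ ≤ _ := h1)
  refine le_trans (mul_le_mul_of_nonneg_left (frm_mono fun b c hb hc => ?_) hL.le) h
  by_cases h1 : F.good x b c ∧ (F.uu x b : ℝ) ≤ U * L ∧ HeavyAt M f x H b ∧
        t * L ≤ (Nat.gcd b c : ℝ) ∧ (Nat.gcd b c : ℝ) < 2 * (t * L)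
  · obtain ⟨hg, hu, ⟨z, hz, hHz⟩, h2, h3⟩ := h1
    have hS : H / U * ((upp z (F.uu x (upp z b)) : ℕ) : ℝ) ≤ L * mass M f z (upp z b) := by
      have e1 : (low z b : ℝ) * ((upp z (F.uu x (upp z b)) : ℕ) : ℝ) = F.uu x b := by
        exact_mod_cast low_mul_ux (F := F) hM hb hz
      have hu0 : (0 : ℝ) ≤ ((upp z (F.uu x (upp z b)) : ℕ) : ℝ) := Nat.cast_nonneg _
      rw [div_mul_eq_mul_div, div_le_iff₀ hU]
      calc H * ((upp z (F.uu x (upp z b)) : ℕ) : ℝ)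
          ≤ ((low z b : ℝ) * mass M f z (upp z b)) * ((upp z (F.uu x (upp z b)) : ℕ) : ℝ) :=
            mul_le_mul_of_nonneg_right hHz hu0
        _ = F.uu x b * mass M f z (upp z b) := by rw [← e1]; ring
        _ ≤ (U * L) * mass M f z (upp z b) := mul_le_mul_of_nonneg_right hu (hm _ _)
        _ = _ := by ring
    obtain ⟨w, hzw, hwx, hF⟩ := Fst_exists (S := fun z T => H / U *
      ((upp z (F.uu x T) : ℕ) : ℝ) ≤ L * mass M f z T) (N := x) (b := b) hz hS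
    rw [if_pos ⟨hg, hu, ⟨z, hz, hHz⟩, h2, h3⟩,
      if_pos ⟨⟨w, hwx, hF, gcd_mem hM hb hc hwx hg hL ht hu h2⟩, h2, h3⟩]
  · rw [if_neg h1]
    split_ifs
    · exact mul_nonneg (hf b).1 (hf' c).1
    · exact le_rfl

/-! ### sum over the depth -/

/-- `K`-form: some depth `K ≥ K₀` with `uu x b ≤ 2 K² L` and `Θ_x(b) ≥ K^P` -/
def HvK (F : FL M) (f : ℕ → ℝ) (L P K₀ : ℝ) (x b : ℕ) : Prop :=
  ∃ K : ℝ, K₀ ≤ K ∧ (F.uu x b : ℝ) ≤ 2 * K ^ 2 * L ∧ HeavyAt M f x (K ^ P) b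

lemma mass_le_one {M : ℕ} (_hM : 0 < M) {f : ℕ → ℝ} (hf : ∀ b, f b ≤ 1) (z T : ℕ) :
    mass M f z T ≤ 1 := by
  have h1 := Ex_mono (low z M) (f := fun n => f (n * T)) (g := fun _ => 1) (fun n _ => hf _)
  rw [Ex_const (low_pos z M)] at h1
  exact h1

lemma HeavyAt_le {M : ℕ} (hM : 0 < M) {f : ℕ → ℝ} (hf : ∀ b, 0 ≤ f b ∧ f b ≤ 1) {x b : ℕ} {H : ℝ}
    (hb : b ∣ M) (h : HeavyAt M f x H b) : H ≤ M := by
  obtain ⟨z, _, h⟩ := h
  have h1 : (low z b : ℝ) ≤ M := by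
    exact_mod_cast Nat.le_of_dvd hM ((low_dvd_self z b).trans hb)
  have h2 := mass_le_one hM (fun b => (hf b).2) z (upp z b)
  have h3 : 0 ≤ mass M f z (upp z b) := mass_nonneg _ (fun b => (hf b).1) _ _
  calc H ≤ (low z b : ℝ) * mass M f z (upp z b) := h
    _ ≤ (M : ℝ) * 1 := mul_le_mul h1 h2 h3 (Nat.cast_nonneg _)
    _ = M := mul_one _

lemma HeavyAt_mono {M : ℕ} {f : ℕ → ℝ} {x b : ℕ} {H H' : ℝ} (hHH : H' ≤ H)
    (h : HeavyAt M f x H b) : HeavyAt M f x H' b := by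
  obtain ⟨z, hz, h⟩ := h
  exact ⟨z, hz, hHH.trans h⟩

/-- the dyadic index of `K ≥ K₀ > 0` -/
lemma exists_dyad {K₀ K : ℝ} (h0 : 0 < K₀) (h : K₀ ≤ K) :
    ∃ j : ℕ, 2 ^ j * K₀ ≤ K ∧ K < 2 ^ (j + 1) * K₀ := by
  have h1 : 1 ≤ K / K₀ := (one_le_div h0).2 h
  obtain ⟨j, hj, hj'⟩ := exists_nat_pow_near h1 (by norm_num : (1 : ℝ) < 2)
  exact ⟨j, (le_div_iff₀ h0).1 hj, (div_lt_iff₀ h0).1 hj'⟩

/-- the exponent of the depth -/
noncomputable def sK (η P : ℝ) : ℝ := (P - 2) * ((1 - η) / 2) - 2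

/-- the cost of one depth -/
lemma cost_eq {η P K t : ℝ} (hK : 0 < K) (ht : 0 < t) :
    t ^ η * ((8 * K ^ 2 / t) * (K ^ P / (8 * K ^ 2)) ^ (-((1 - η) / 2))) =
      8 ^ (1 + (1 - η) / 2) * t ^ (η - 1) * K ^ (-(sK η P)) := by
  have e8 : (0 : ℝ) < 8 := by norm_num
  have h1 : K ^ P / (8 * K ^ 2) = 8 ^ (-1 : ℝ) * K ^ (P - 2) := by
    rw [Real.rpow_neg_one, Real.rpow_sub hK, Real.rpow_two]
    field_simp
  have hK2 : (0 : ℝ) ≤ K ^ (P - 2) := Real.rpow_nonneg hK.le _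
  rw [h1, Real.mul_rpow (Real.rpow_nonneg e8.le _) hK2, ← Real.rpow_mul e8.le,
    ← Real.rpow_mul hK.le]
  have h2 : (8 : ℝ) ^ (1 + (1 - η) / 2) = 8 * 8 ^ ((1 - η) / 2) := by
    rw [Real.rpow_add e8, Real.rpow_one]
  have h3 : t ^ (η - 1) = t ^ η / t := by rw [Real.rpow_sub ht, Real.rpow_one]
  have h4 : K ^ (-(sK η P)) = K ^ 2 * K ^ ((P - 2) * -((1 - η) / 2)) := by
    rw [← Real.rpow_two, ← Real.rpow_add hK]
    congr 1
    unfold sK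
    ring
  have h5 : (-1 : ℝ) * -((1 - η) / 2) = (1 - η) / 2 := by ring
  rw [h2, h3, h4, h5]
  field_simp

open Classical in
/-- **CLASS (H), all depths `K ≥ K₀`** -/
theorem class_K {M : ℕ} (hM : 0 < M) (F : FL M) (x : ℕ)
    {η C t L P K₀ : ℝ} (hη0 : 0 ≤ η) (hη1 : η ≤ 1) (hP : 0 < P) (hs : 0 < sK η P)
    (hC : 0 ≤ C) (ht : 0 < t) (hL : 0 < L) (hK₀ : 0 < K₀) {f f' : ℕ → ℝ}
    (hf : ∀ b, 0 ≤ f b ∧ f b ≤ 1) (hf' : ∀ b, 0 ≤ f' b ∧ f' b ≤ 1)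
    (HVW : ∀ M' : ℕ, M' ∣ M → ∀ f f' : ℕ → ℝ, (∀ b, 0 ≤ f b ∧ f b ≤ 1) →
      (∀ b, 0 ≤ f' b ∧ f' b ≤ 1) → ∀ X : ℝ, 0 < X →
      frm M' (fun b c => if X ≤ (Nat.gcd b c : ℝ) ∧ (Nat.gcd b c : ℝ) < 2 * X
        then f b * f' c else 0) ≤ C * X ^ η * (Ex M' f * Ex M' f') ^ ((1 + η) / 2)) :
    L * frm M (fun b c =>
      if F.good x b c ∧ HvK F f L P K₀ x b ∧
        t * L ≤ (Nat.gcd b c : ℝ) ∧ (Nat.gcd b c : ℝ) < 2 * (t * L) then f b * f' c else 0) ≤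
      C * (8 ^ (1 + (1 - η) / 2) / (1 - 2 ^ (-(sK η P)))) * t ^ (η - 1) * K₀ ^ (-(sK η P)) *
        (L * Ex M f) * (L * Ex M f') ^ ((1 + η) / 2) := by
  set s := sK η P with hsd
  -- a bound for the dyadic index
  obtain ⟨N, hN⟩ : ∃ N : ℕ, (M : ℝ) < (2 ^ N * K₀) ^ P := by
    obtain ⟨N, hN⟩ := pow_unbounded_of_one_lt (((M : ℝ) + 1) ^ P⁻¹ / K₀)
      (by norm_num : (1 : ℝ) < 2)
    refine ⟨N, ?_⟩
    have h1 : ((M : ℝ) + 1) ^ P⁻¹ < 2 ^ N * K₀ := (div_lt_iff₀ hK₀).1 hN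
    have h2 : (((M : ℝ) + 1) ^ P⁻¹) ^ P ≤ (2 ^ N * K₀) ^ P :=
      Real.rpow_le_rpow (by positivity) h1.le hP.le
    rw [← Real.rpow_mul (by positivity), inv_mul_cancel₀ hP.ne', Real.rpow_one] at h2
    linarith
  have h1 : L * frm M (fun b c =>
      if F.good x b c ∧ HvK F f L P K₀ x b ∧
        t * L ≤ (Nat.gcd b c : ℝ) ∧ (Nat.gcd b c : ℝ) < 2 * (t * L) then f b * f' c else 0) ≤
      ∑ j ∈ range N, L * frm M (fun b c =>
      if F.good x b c ∧ (F.uu x b : ℝ) ≤ (8 * (2 ^ j * K₀) ^ 2) * L ∧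
        HeavyAt M f x ((2 ^ j * K₀) ^ P) b ∧
        t * L ≤ (Nat.gcd b c : ℝ) ∧ (Nat.gcd b c : ℝ) < 2 * (t * L) then f b * f' c else 0) := by
    rw [← Finset.mul_sum, frm_sum]
    refine mul_le_mul_of_nonneg_left (frm_mono fun b c hb hc => ?_) hL.le
    have hterm : ∀ j ∈ range N, (0 : ℝ) ≤
        if F.good x b c ∧ (F.uu x b : ℝ) ≤ (8 * (2 ^ j * K₀) ^ 2) * L ∧
        HeavyAt M f x ((2 ^ j * K₀) ^ P) b ∧
        t * L ≤ (Nat.gcd b c : ℝ) ∧ (Nat.gcd b c : ℝ) < 2 * (t * L)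
        then f b * f' c else 0 := by
      intro j _
      split_ifs
      · exact mul_nonneg (hf b).1 (hf' c).1
      · exact le_rfl
    by_cases h : F.good x b c ∧ HvK F f L P K₀ x b ∧
        t * L ≤ (Nat.gcd b c : ℝ) ∧ (Nat.gcd b c : ℝ) < 2 * (t * L)
    swap
    · rw [if_neg h]
      exact Finset.sum_nonneg hterm
    obtain ⟨hg, ⟨K, hK, hu, hH⟩, h2, h3⟩ := h
    obtain ⟨j, hj, hj'⟩ := exists_dyad hK₀ hK
    have hKj : (0 : ℝ) < 2 ^ j * K₀ := by positivity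
    have hH' : HeavyAt M f x ((2 ^ j * K₀) ^ P) b :=
      HeavyAt_mono (Real.rpow_le_rpow hKj.le hj hP.le) hH
    have hjN : j ∈ range N := by
      rw [Finset.mem_range]
      by_contra hcon
      push Not at hcon
      have h4 := HeavyAt_le hM hf hb hH'
      have h5 : (2 ^ N * K₀) ^ P ≤ (2 ^ j * K₀) ^ P := by
        refine Real.rpow_le_rpow (by positivity) ?_ hP.le
        exact mul_le_mul_of_nonneg_right (pow_le_pow_right₀ (by norm_num) hcon) hK₀.le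
      linarith
    have hu' : (F.uu x b : ℝ) ≤ (8 * (2 ^ j * K₀) ^ 2) * L := by
      refine hu.trans (mul_le_mul_of_nonneg_right ?_ hL.le)
      have h6 : K ≤ 2 * (2 ^ j * K₀) := by
        rw [pow_succ] at hj'
        linarith
      have h7 : 0 ≤ K := hKj.le.trans hj
      nlinarith
    refine le_trans ?_ (Finset.single_le_sum hterm hjN)
    rw [if_pos ⟨hg, ⟨K, hK, hu, hH⟩, h2, h3⟩, if_pos ⟨hg, hu', hH', h2, h3⟩]
  refine h1.trans ?_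
  have hE' : 0 ≤ L * Ex M f' := mul_nonneg hL.le (Ex_nonneg _ fun b => (hf' b).1)
  have hE : 0 ≤ L * Ex M f := mul_nonneg hL.le (Ex_nonneg _ fun b => (hf b).1)
  have hterm : ∀ j ∈ range N, L * frm M (fun b c =>
      if F.good x b c ∧ (F.uu x b : ℝ) ≤ (8 * (2 ^ j * K₀) ^ 2) * L ∧
        HeavyAt M f x ((2 ^ j * K₀) ^ P) b ∧
        t * L ≤ (Nat.gcd b c : ℝ) ∧ (Nat.gcd b c : ℝ) < 2 * (t * L) then f b * f' c else 0) ≤
      (C * 8 ^ (1 + (1 - η) / 2) * t ^ (η - 1) * K₀ ^ (-s) * (L * Ex M f) *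
        (L * Ex M f') ^ ((1 + η) / 2)) * (2 ^ (-s)) ^ j := by
    intro j _
    have hKj : (0 : ℝ) < 2 ^ j * K₀ := by positivity
    have h2 := class_J hM F x (η := η) (C := C) (t := t) (L := L) (U := 8 * (2 ^ j * K₀) ^ 2)
      (H := (2 ^ j * K₀) ^ P) hη0 hη1 hC ht hL (by positivity) (Real.rpow_pos_of_pos hKj _)
      hf hf' HVW
    refine h2.trans (le_of_eq ?_)
    have h3 := cost_eq (η := η) (P := P) hKj ht
    rw [← hsd] at h3
    have h4 : (2 ^ j * K₀) ^ (-s) = (2 ^ (-s)) ^ j * K₀ ^ (-s) := by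
      rw [Real.mul_rpow (by positivity) hK₀.le, ← Real.rpow_natCast, ← Real.rpow_natCast,
        ← Real.rpow_mul (by norm_num), ← Real.rpow_mul (by norm_num)]
      congr 2
      ring
    rw [h4] at h3
    calc C * t ^ η * ((8 * (2 ^ j * K₀) ^ 2 / t) *
          ((2 ^ j * K₀) ^ P / (8 * (2 ^ j * K₀) ^ 2)) ^ (-((1 - η) / 2))) * (L * Ex M f) *
            (L * Ex M f') ^ ((1 + η) / 2)
        = C * (t ^ η * ((8 * (2 ^ j * K₀) ^ 2 / t) *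
          ((2 ^ j * K₀) ^ P / (8 * (2 ^ j * K₀) ^ 2)) ^ (-((1 - η) / 2)))) * (L * Ex M f) *
            (L * Ex M f') ^ ((1 + η) / 2) := by ring
      _ = _ := by rw [h3]; ring
  refine (Finset.sum_le_sum hterm).trans ?_
  rw [← Finset.mul_sum]
  have h2s : (2 : ℝ) ^ (-s) < 1 := Real.rpow_lt_one_of_one_lt_of_neg (by norm_num) (by linarith)
  have h2s0 : (0 : ℝ) < (2 : ℝ) ^ (-s) := Real.rpow_pos_of_pos (by norm_num) _
  have hgeo : ∑ j ∈ range N, ((2 : ℝ) ^ (-s)) ^ j ≤ (1 - 2 ^ (-s))⁻¹ := by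
    have := Summable.sum_le_tsum (range N) (fun j _ => pow_nonneg h2s0.le j)
      (summable_geometric_of_lt_one h2s0.le h2s)
    rwa [tsum_geometric_of_lt_one h2s0.le h2s] at this
  have hA : 0 ≤ C * 8 ^ (1 + (1 - η) / 2) * t ^ (η - 1) * K₀ ^ (-s) * (L * Ex M f) *
        (L * Ex M f') ^ ((1 + η) / 2) := by positivity
  refine (mul_le_mul_of_nonneg_left hgeo hA).trans (le_of_eq ?_)
  rw [div_eq_mul_inv]
  ring

/-! ### label form: a deeper centre -/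

lemma disp_nonneg (γ : ℝ) (b : ℕ) (f : ℚ) : 0 ≤ Centx949.disp γ b f := by
  unfold Centx949.disp; positivity

/-- depth of a label: `k max(1, D/L)` -/
noncomputable def dep (γ L : ℝ) (b : ℕ) (f : ℚ) (k : ℕ) : ℝ :=
  k * max 1 (Centx949.disp γ b f / L)

lemma k_le_dep {γ L : ℝ} {b : ℕ} {f : ℚ} {k : ℕ} : (k : ℝ) ≤ dep γ L b f k := by
  unfold dep
  exact le_mul_of_one_le_right (Nat.cast_nonneg _) (le_max_left _ _)

lemma kD_le_dep {γ L : ℝ} (hL : 0 < L) {b : ℕ} {f : ℚ} {k : ℕ} :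
    (k : ℝ) * Centx949.disp γ b f ≤ dep γ L b f k * L := by
  unfold dep
  have h1 : Centx949.disp γ b f ≤ max 1 (Centx949.disp γ b f / L) * L := by
    calc Centx949.disp γ b f = (Centx949.disp γ b f / L) * L := by field_simp
      _ ≤ _ := mul_le_mul_of_nonneg_right (le_max_right _ _) hL.le
  calc (k : ℝ) * Centx949.disp γ b f ≤ k * (max 1 (Centx949.disp γ b f / L) * L) :=
        mul_le_mul_of_nonneg_left h1 (Nat.cast_nonneg _)
    _ = _ := by ring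

/-- two different centres at two cuts: `uu x b ≤ 2 K₁ K₂ L` -/
theorem uu_le_dep {x y b : ℕ} (hM : 0 < M) (hb : b ∣ M) (hxy : x ≤ y) {a₁ a₂ : ℤ} {k₁ k₂ : ℕ}
    (hk₁ : 0 < k₁) (hk₂ : 0 < k₂) (hne : fr F x b a₁ k₁ ≠ fr F y b a₂ k₂) {γ L : ℝ}
    (hL : 0 < L) :
    (F.uu x b : ℝ) ≤ 2 * (dep γ L b (fr F x b a₁ k₁) k₁ * dep γ L b (fr F y b a₂ k₂) k₂) * L := by
  have h1 := two_cuts hM hb hxy hk₁ hk₂ hne γ
  set D₁ := Centx949.disp γ b (fr F x b a₁ k₁)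
  set D₂ := Centx949.disp γ b (fr F y b a₂ k₂)
  set K₁ := dep γ L b (fr F x b a₁ k₁) k₁
  set K₂ := dep γ L b (fr F y b a₂ k₂) k₂
  have e1 : (k₁ : ℝ) ≤ K₁ := k_le_dep
  have e2 : (k₂ : ℝ) ≤ K₂ := k_le_dep
  have e3 : (k₁ : ℝ) * D₁ ≤ K₁ * L := kD_le_dep hL
  have e4 : (k₂ : ℝ) * D₂ ≤ K₂ * L := kD_le_dep hL
  have hK₁ : 0 ≤ K₁ := (Nat.cast_nonneg _).trans e1
  have hK₂ : 0 ≤ K₂ := (Nat.cast_nonneg _).trans e2
  calc (F.uu x b : ℝ) ≤ k₁ * k₂ * (D₁ + D₂) := h1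
    _ = k₂ * (k₁ * D₁) + k₁ * (k₂ * D₂) := by ring
    _ ≤ K₂ * (K₁ * L) + K₁ * (K₂ * L) := by
        refine add_le_add ?_ ?_
        · exact mul_le_mul e2 e3 (mul_nonneg (Nat.cast_nonneg _) (disp_nonneg _ _ _)) hK₂
        · exact mul_le_mul e1 e4 (mul_nonneg (Nat.cast_nonneg _) (disp_nonneg _ _ _)) hK₁
    _ = _ := by ring

/-- **class (H), label form**: `b` has the centre `f₁` (depth `K₁ ≤ κ₁`) at the cut `x`, chain
`uu x b ≥ τ L`, and a different centre `f₂` at a higher cut, depth `K₂ ≤ K ≤ Θ_x(b)^{1/P}` -/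
def Hcls (F : FL M) (γ L : ℝ) (f : ℕ → ℝ) (P κ₁ τ : ℝ) (x b : ℕ) : Prop :=
  τ * L ≤ F.uu x b ∧ ∃ y a₁ a₂, ∃ k₁ k₂ : ℕ, x ≤ y ∧ 0 < k₁ ∧ 0 < k₂ ∧
    fr F x b a₁ k₁ ≠ fr F y b a₂ k₂ ∧ dep γ L b (fr F x b a₁ k₁) k₁ ≤ κ₁ ∧
    HeavyAt M f x (dep γ L b (fr F y b a₂ k₂) k₂ ^ P) b

theorem HvK_of_Hcls {f : ℕ → ℝ} {γ L P κ₁ τ : ℝ} {x b : ℕ} (hM : 0 < M) (hb : b ∣ M)
    (hL : 0 < L) (hκ : 0 < κ₁) (hκτ : 2 * κ₁ ^ 2 ≤ τ) (h : Hcls F γ L f P κ₁ τ x b) :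
    HvK F f L P (τ / (2 * κ₁)) x b := by
  obtain ⟨hτ, y, a₁, a₂, k₁, k₂, hxy, hk₁, hk₂, hne, h1, h3⟩ := h
  have h4 := uu_le_dep (γ := γ) hM hb hxy hk₁ hk₂ hne hL
  set K₁ := dep γ L b (fr F x b a₁ k₁) k₁
  set K₂ := dep γ L b (fr F y b a₂ k₂) k₂
  have hK₁ : 0 ≤ K₁ := (Nat.cast_nonneg _).trans k_le_dep
  have hK₂ : 0 ≤ K₂ := (Nat.cast_nonneg _).trans k_le_dep
  have h6 : τ ≤ K₂ * (2 * κ₁) := by
    have h5 : τ * L ≤ (K₂ * (2 * κ₁)) * L := by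
      calc τ * L ≤ 2 * (K₁ * K₂) * L := hτ.trans h4
        _ ≤ 2 * (κ₁ * K₂) * L := by
            refine mul_le_mul_of_nonneg_right ?_ hL.le
            exact mul_le_mul_of_nonneg_left (mul_le_mul_of_nonneg_right h1 hK₂) (by norm_num)
        _ = _ := by ring
    exact le_of_mul_le_mul_right h5 hL
  have h2 : K₁ ≤ K₂ := by
    refine h1.trans ?_
    have h7 : κ₁ * (2 * κ₁) ≤ K₂ * (2 * κ₁) := by
      calc κ₁ * (2 * κ₁) = 2 * κ₁ ^ 2 := by ring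
        _ ≤ τ := hκτ
        _ ≤ _ := h6
    exact le_of_mul_le_mul_right h7 (by positivity)
  refine ⟨K₂, ?_, ?_, h3⟩
  · rw [div_le_iff₀ (by positivity)]
    exact h6
  · refine h4.trans (mul_le_mul_of_nonneg_right ?_ hL.le)
    have : K₁ * K₂ ≤ K₂ * K₂ := mul_le_mul_of_nonneg_right h2 hK₂
    nlinarith

open Classical in
/-- **CLASS (H)** (3226 (3)(H)), unconditional: label scale `τ`, pair scale `t` -/
theorem class_H {η P : ℝ} (hη0 : 0 < η) (hη1 : η < 1) (hP : 0 < P) (hs : 0 < sK η P) :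
    ∃ C : ℝ, 0 < C ∧ ∀ (M : ℕ) (F : FL M) (x : ℕ) (γ L t τ κ₁ : ℝ) (f f' : ℕ → ℝ), 0 < M →
      0 < L → 0 < t → 0 < τ → 0 < κ₁ → 2 * κ₁ ^ 2 ≤ τ →
      (∀ b, 0 ≤ f b ∧ f b ≤ 1) → (∀ b, 0 ≤ f' b ∧ f' b ≤ 1) →
      L * frm M (fun b c =>
        if F.good x b c ∧ Hcls F γ L f P κ₁ τ x b ∧
          t * L ≤ (Nat.gcd b c : ℝ) ∧ (Nat.gcd b c : ℝ) < 2 * (t * L) then f b * f' c else 0) ≤
        C * t ^ (η - 1) * (τ / κ₁) ^ (-(sK η P)) *
          (L * Ex M f) * (L * Ex M f') ^ ((1 + η) / 2) := by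
  obtain ⟨C, hC, h⟩ := Crest.Agent.R4C.HeavyUx50.hvw hη0 hη1
  have h2s : (2 : ℝ) ^ (-(sK η P)) < 1 :=
    Real.rpow_lt_one_of_one_lt_of_neg (by norm_num) (by linarith)
  refine ⟨C * (8 ^ (1 + (1 - η) / 2) / (1 - 2 ^ (-(sK η P)))) * 2 ^ (sK η P), ?_,
    fun M F x γ L t τ κ₁ f f' hM hL ht hτ hκ hκτ hf hf' => ?_⟩
  · have : (0 : ℝ) < 1 - 2 ^ (-(sK η P)) := by linarith
    positivity
  have h1 := class_K hM F x (η := η) (C := C) (t := t) (L := L) (P := P) (K₀ := τ / (2 * κ₁))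
    hη0.le hη1.le hP hs hC.le ht hL (by positivity) hf hf'
    (fun M' hM' => h M' (Nat.pos_of_dvd_of_pos hM' hM))
  refine le_trans (mul_le_mul_of_nonneg_left (frm_mono fun b c hb hc => ?_) hL.le)
    (h1.trans (le_of_eq ?_))
  · by_cases h2 : F.good x b c ∧ Hcls F γ L f P κ₁ τ x b ∧
          t * L ≤ (Nat.gcd b c : ℝ) ∧ (Nat.gcd b c : ℝ) < 2 * (t * L)
    · rw [if_pos h2, if_pos ⟨h2.1, HvK_of_Hcls hM hb hL hκ hκτ h2.2.1, h2.2.2⟩]
    · rw [if_neg h2]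
      split_ifs
      · exact mul_nonneg (hf b).1 (hf' c).1
      · exact le_rfl
  · have e : (τ / (2 * κ₁)) ^ (-(sK η P)) = 2 ^ (sK η P) * (τ / κ₁) ^ (-(sK η P)) := by
      have e1 : τ / (2 * κ₁) = 2 ^ (-1 : ℝ) * (τ / κ₁) := by
        rw [Real.rpow_neg_one]
        field_simp
      rw [e1, Real.mul_rpow (by positivity) (by positivity), ← Real.rpow_mul (by norm_num)]
      congr 2
      ring
    rw [e]
    ring

open Classical in
/-- the same with the heavy member on the other side -/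
theorem class_H' {η P : ℝ} (hη0 : 0 < η) (hη1 : η < 1) (hP : 0 < P) (hs : 0 < sK η P) :
    ∃ C : ℝ, 0 < C ∧ ∀ (M : ℕ) (F : FL M) (x : ℕ) (γ L t τ κ₁ : ℝ) (f f' : ℕ → ℝ), 0 < M →
      0 < L → 0 < t → 0 < τ → 0 < κ₁ → 2 * κ₁ ^ 2 ≤ τ →
      (∀ b, 0 ≤ f b ∧ f b ≤ 1) → (∀ b, 0 ≤ f' b ∧ f' b ≤ 1) →
      L * frm M (fun b c =>
        if F.good x b c ∧ Hcls F γ L f' P κ₁ τ x c ∧
          t * L ≤ (Nat.gcd b c : ℝ) ∧ (Nat.gcd b c : ℝ) < 2 * (t * L) then f b * f' c else 0) ≤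
        C * t ^ (η - 1) * (τ / κ₁) ^ (-(sK η P)) *
          (L * Ex M f') * (L * Ex M f) ^ ((1 + η) / 2) := by
  obtain ⟨C, hC, h⟩ := class_H hη0 hη1 hP hs
  refine ⟨C, hC, fun M F x γ L t τ κ₁ f f' hM hL ht hτ hκ hκτ hf hf' => ?_⟩
  refine le_trans (le_of_eq ?_) (h M F x γ L t τ κ₁ f' f hM hL ht hτ hκ hκτ hf' hf)
  rw [← frm_swap]
  congr 1
  refine frm_congr fun b c hb hc => ?_
  have e1 : F.good x c b ↔ F.good x b c :=
    ⟨FL.good_symm hc hb, FL.good_symm hb hc⟩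
  rw [Nat.gcd_comm c b, e1, mul_comm (f c)]

/-- **class (H) for a set `B`**, `m = L ν(B) ≤ 1`, either member heavy, any bounded weight `W`
(boost): all pairs at scale `t` cost `≤ C W t^(η-1) (τ/κ₁)^(-s) m` -/
theorem class_H_set {η P : ℝ} (hη0 : 0 < η) (hη1 : η < 1) (hP : 0 < P) (hs : 0 < sK η P) :
    ∃ C : ℝ, 0 < C ∧ ∀ (M : ℕ) (F : FL M) (B : Finset ℕ) (x : ℕ) (γ L t τ κ₁ W : ℝ)
      (w : ℕ → ℕ → ℝ), 0 < M → B ⊆ M.divisors →
      0 < L → 0 < t → 0 < τ → 0 < κ₁ → 2 * κ₁ ^ 2 ≤ τ → L * ∑ b ∈ B, nu M b ≤ 1 → 0 ≤ W →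
      (∀ b ∈ B, ∀ c ∈ B, w b c ≤ W ∧ (w b c ≠ 0 → F.good x b c ∧
        (Hcls F γ L (fun b => if b ∈ B then 1 else 0) P κ₁ τ x b ∨
          Hcls F γ L (fun b => if b ∈ B then 1 else 0) P κ₁ τ x c) ∧
        t * L ≤ (Nat.gcd b c : ℝ) ∧ (Nat.gcd b c : ℝ) < 2 * (t * L))) →
      L * ∑ b ∈ B, ∑ c ∈ B, (Nat.gcd b c : ℝ) * nu M b * nu M c * w b c ≤
        C * W * t ^ (η - 1) * (τ / κ₁) ^ (-(sK η P)) * (L * ∑ b ∈ B, nu M b) := by
  classical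
  obtain ⟨C, hC, h⟩ := class_H hη0 hη1 hP hs
  obtain ⟨C', hC', h'⟩ := class_H' hη0 hη1 hP hs
  refine ⟨C + C', by positivity,
    fun M F B x γ L t τ κ₁ W w hM hB hL ht hτ hκ hκτ hm hW hw => ?_⟩
  set f : ℕ → ℝ := fun b => if b ∈ B then 1 else 0 with hfd
  have hf : ∀ b, 0 ≤ f b ∧ f b ≤ 1 := fun b => by
    rw [hfd]
    by_cases hb : b ∈ B <;> simp [hb]
  have hEx : Ex M f = ∑ b ∈ B, nu M b := by
    unfold Ex
    rw [← Finset.sum_subset hB]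
    · refine Finset.sum_congr rfl fun b hb => ?_
      rw [hfd]
      simp [hb]
    · intro b _ hb
      rw [hfd]
      simp [hb]
  have h1 := h M F x γ L t τ κ₁ f f hM hL ht hτ hκ hκτ hf hf
  have h2 := h' M F x γ L t τ κ₁ f f hM hL ht hτ hκ hκτ hf hf
  set S1 := frm M (fun b c =>
        if F.good x b c ∧ Hcls F γ L f P κ₁ τ x b ∧
          t * L ≤ (Nat.gcd b c : ℝ) ∧ (Nat.gcd b c : ℝ) < 2 * (t * L) then f b * f c else 0)
    with hS1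
  set S2 := frm M (fun b c =>
        if F.good x b c ∧ Hcls F γ L f P κ₁ τ x c ∧
          t * L ≤ (Nat.gcd b c : ℝ) ∧ (Nat.gcd b c : ℝ) < 2 * (t * L) then f b * f c else 0)
    with hS2
  set m := L * ∑ b ∈ B, nu M b with hmd
  have hm0 : 0 ≤ m := mul_nonneg hL.le (Finset.sum_nonneg fun b _ => nu_nonneg M b)
  rw [hEx, ← hmd] at h1 h2
  have hmm : m * m ^ ((1 + η) / 2) ≤ m :=
    mul_le_of_le_one_right hm0 (Real.rpow_le_one hm0 hm (by linarith))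
  have hq : 0 ≤ t ^ (η - 1) * (τ / κ₁) ^ (-(sK η P)) := by positivity
  have h1' : L * S1 ≤ C * (t ^ (η - 1) * (τ / κ₁) ^ (-(sK η P))) * m := by
    refine h1.trans ?_
    calc C * t ^ (η - 1) * (τ / κ₁) ^ (-(sK η P)) * m * m ^ ((1 + η) / 2)
        = (C * (t ^ (η - 1) * (τ / κ₁) ^ (-(sK η P)))) * (m * m ^ ((1 + η) / 2)) := by ring
      _ ≤ _ := mul_le_mul_of_nonneg_left hmm (mul_nonneg hC.le hq)
  have h2' : L * S2 ≤ C' * (t ^ (η - 1) * (τ / κ₁) ^ (-(sK η P))) * m := by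
    refine h2.trans ?_
    calc C' * t ^ (η - 1) * (τ / κ₁) ^ (-(sK η P)) * m * m ^ ((1 + η) / 2)
        = (C' * (t ^ (η - 1) * (τ / κ₁) ^ (-(sK η P)))) * (m * m ^ ((1 + η) / 2)) := by ring
      _ ≤ _ := mul_le_mul_of_nonneg_left hmm (mul_nonneg hC'.le hq)
  have h3 : ∑ b ∈ B, ∑ c ∈ B, (Nat.gcd b c : ℝ) * nu M b * nu M c * w b c ≤
      W * (S1 + S2) := by
    have e1 : W * (S1 + S2) = ∑ b ∈ M.divisors, ∑ c ∈ M.divisors,
        (Nat.gcd b c : ℝ) * nu M b * nu M c * (W * ((if F.good x b c ∧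
          Hcls F γ L f P κ₁ τ x b ∧ t * L ≤ (Nat.gcd b c : ℝ) ∧
          (Nat.gcd b c : ℝ) < 2 * (t * L) then f b * f c else 0) +
          (if F.good x b c ∧ Hcls F γ L f P κ₁ τ x c ∧
          t * L ≤ (Nat.gcd b c : ℝ) ∧ (Nat.gcd b c : ℝ) < 2 * (t * L)
          then f b * f c else 0))) := by
      rw [hS1, hS2]
      unfold frm
      rw [← Finset.sum_add_distrib, Finset.mul_sum]
      refine Finset.sum_congr rfl fun b _ => ?_
      rw [← Finset.sum_add_distrib, Finset.mul_sum]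
      refine Finset.sum_congr rfl fun c _ => ?_
      ring
    rw [e1]
    have hg0 : ∀ b c, 0 ≤ (Nat.gcd b c : ℝ) * nu M b * nu M c := fun b c =>
      mul_nonneg (mul_nonneg (Nat.cast_nonneg _) (nu_nonneg _ _)) (nu_nonneg _ _)
    have hi0 : ∀ (p : Prop) [Decidable p] b c, (0 : ℝ) ≤ if p then f b * f c else 0 := by
      intro p _ b c
      split_ifs
      · exact mul_nonneg (hf b).1 (hf c).1
      · exact le_rfl
    have h4 : ∀ b ∈ B, ∑ c ∈ B, (Nat.gcd b c : ℝ) * nu M b * nu M c * w b c ≤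
        ∑ c ∈ M.divisors, (Nat.gcd b c : ℝ) * nu M b * nu M c * (W * ((if F.good x b c ∧
          Hcls F γ L f P κ₁ τ x b ∧ t * L ≤ (Nat.gcd b c : ℝ) ∧
          (Nat.gcd b c : ℝ) < 2 * (t * L) then f b * f c else 0) +
          (if F.good x b c ∧ Hcls F γ L f P κ₁ τ x c ∧
          t * L ≤ (Nat.gcd b c : ℝ) ∧ (Nat.gcd b c : ℝ) < 2 * (t * L)
          then f b * f c else 0))) := by
      intro b hb
      refine le_trans (Finset.sum_le_sum fun c hc => ?_)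
        (Finset.sum_le_sum_of_subset_of_nonneg hB fun c _ _ => mul_nonneg (hg0 b c)
          (mul_nonneg hW (add_nonneg (hi0 _ b c) (hi0 _ b c))))
      refine mul_le_mul_of_nonneg_left ?_ (hg0 b c)
      obtain ⟨hw1, hw2⟩ := hw b hb c hc
      by_cases hw0 : w b c = 0
      · rw [hw0]
        exact mul_nonneg hW (add_nonneg (hi0 _ b c) (hi0 _ b c))
      · obtain ⟨hg, hor, h5, h6⟩ := hw2 hw0
        have hfb : f b * f c = 1 := by
          rw [hfd]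
          simp [hb, hc]
        refine hw1.trans ?_
        have h7 : (1 : ℝ) ≤ (if F.good x b c ∧
          Hcls F γ L f P κ₁ τ x b ∧ t * L ≤ (Nat.gcd b c : ℝ) ∧
          (Nat.gcd b c : ℝ) < 2 * (t * L) then f b * f c else 0) +
          (if F.good x b c ∧ Hcls F γ L f P κ₁ τ x c ∧
          t * L ≤ (Nat.gcd b c : ℝ) ∧ (Nat.gcd b c : ℝ) < 2 * (t * L)
          then f b * f c else 0) := by
          rcases hor with h8 | h8
          · rw [if_pos ⟨hg, h8, h5, h6⟩, hfb]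
            have := hi0 (F.good x b c ∧ Hcls F γ L f P κ₁ τ x c ∧
              t * L ≤ (Nat.gcd b c : ℝ) ∧ (Nat.gcd b c : ℝ) < 2 * (t * L)) b c
            rw [hfb] at this
            linarith
          · rw [if_pos (⟨hg, h8, h5, h6⟩ : F.good x b c ∧ Hcls F γ L f P κ₁ τ x c ∧
              t * L ≤ (Nat.gcd b c : ℝ) ∧ (Nat.gcd b c : ℝ) < 2 * (t * L)), hfb]
            have := hi0 (F.good x b c ∧ Hcls F γ L f P κ₁ τ x b ∧
              t * L ≤ (Nat.gcd b c : ℝ) ∧ (Nat.gcd b c : ℝ) < 2 * (t * L)) b c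
            rw [hfb] at this
            linarith
        calc W = W * 1 := (mul_one _).symm
          _ ≤ _ := mul_le_mul_of_nonneg_left h7 hW
    refine (Finset.sum_le_sum h4).trans ?_
    exact Finset.sum_le_sum_of_subset_of_nonneg hB fun b _ _ => Finset.sum_nonneg fun c _ =>
      mul_nonneg (hg0 b c) (mul_nonneg hW (add_nonneg (hi0 _ b c) (hi0 _ b c)))
  calc L * ∑ b ∈ B, ∑ c ∈ B, (Nat.gcd b c : ℝ) * nu M b * nu M c * w b c
      ≤ L * (W * (S1 + S2)) := mul_le_mul_of_nonneg_left h3 hL.le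
    _ = W * (L * S1 + L * S2) := by ring
    _ ≤ W * (C * (t ^ (η - 1) * (τ / κ₁) ^ (-(sK η P))) * m +
        C' * (t ^ (η - 1) * (τ / κ₁) ^ (-(sK η P))) * m) :=
        mul_le_mul_of_nonneg_left (add_le_add h1' h2') hW
    _ = _ := by ring

/-- threshold rule `K ≤ max (Y, Θ^ε)`, `K > Y`, `Θ` attained at a cut `≤ x`: heavy with
`H = K^(1/ε)` -/
theorem heavyAt_of_rule {f : ℕ → ℝ} {x b : ℕ} {K Y Θ ε : ℝ} (hε : 0 < ε) (hK0 : 0 < K)
    (hΘ0 : 0 ≤ Θ) (hK : K ≤ max Y (Θ ^ ε)) (hY : Y < K)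
    (hΘ : ∃ z ≤ x, Θ ≤ (low z b : ℝ) * mass M f z (upp z b)) :
    HeavyAt M f x (K ^ (1 / ε)) b := by
  have h1 : K ≤ Θ ^ ε := by
    rcases le_max_iff.1 hK with h | h
    · linarith
    · exact h
  have h2 : K ^ (1 / ε) ≤ Θ := by
    calc K ^ (1 / ε) ≤ (Θ ^ ε) ^ (1 / ε) := Real.rpow_le_rpow hK0.le h1 (by positivity)
      _ = Θ := by
        rw [← Real.rpow_mul hΘ0, mul_one_div_cancel hε.ne', Real.rpow_one]
  obtain ⟨z, hz, h3⟩ := hΘ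
  exact ⟨z, hz, h2.trans h3⟩

end Crest.Agent.R4C.Hclsx81
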