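import Crest.Agent.R4C.Cut_50

/-!
# HEAVY LEMMA (note 2581(2), helper971) and MONOTONICITY (2581(3)) for divisors of arbitrary `M`
(helper50)

For `b ∣ M` let `x₀(b)` be the highest cut `x ≤ N` with node mass `E[f | upper part] ≥ a₁`
(`Fst`).  All pairs `(b, c)` with `gcd (upp x₀ b) c ≤ Y` cost
`≤ C X^η Y^(1-η) a₁^(-(1-η)/2) (E f) (E f')^((1+η)/2)` at scale `gcd ~ X`.
-/

namespace Crest.Agent.R4C.HeavyLx50

open Finset Crest.Agent.R4C.Basex935 Crest.Agent.R4C.Cutx50

/-- stop at the highest cut `x ≤ N` at which `S x (upp x b)` holds -/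
def Fst (S : ℕ → ℕ → Prop) (N x b : ℕ) : Prop :=
  S x (upp x b) ∧ ∀ y, x < y → y ≤ N → ¬ S y (upp y b)

lemma Fst_upp {S : ℕ → ℕ → Prop} {N x b : ℕ} : Fst S N x (upp x b) ↔ Fst S N x b := by
  unfold Fst
  rw [upp_upp le_rfl]
  constructor
  · rintro ⟨h1, h2⟩
    refine ⟨h1, fun y hy hN => ?_⟩
    have := h2 y hy hN
    rwa [upp_upp hy.le] at this
  · rintro ⟨h1, h2⟩
    refine ⟨h1, fun y hy hN => ?_⟩
    rw [upp_upp hy.le]
    exact h2 y hy hN

lemma Fst_unique {S : ℕ → ℕ → Prop} {N x y b : ℕ} (hx : x ≤ N) (hy : y ≤ N)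
    (h1 : Fst S N x b) (h2 : Fst S N y b) : x = y := by
  rcases lt_trichotomy x y with h | h | h
  · exact absurd h2.1 (h1.2 y h hy)
  · exact h
  · exact absurd h1.1 (h2.2 x h hx)

lemma Fst_exists {S : ℕ → ℕ → Prop} {N x b : ℕ} (hx : x ≤ N) (h : S x (upp x b)) :
    ∃ y, x ≤ y ∧ y ≤ N ∧ Fst S N y b := by
  classical
  refine ⟨Nat.findGreatest (fun y => S y (upp y b)) N, Nat.le_findGreatest hx h,
    Nat.findGreatest_le N, ?_, ?_⟩
  · exact Nat.findGreatest_spec (P := fun y => S y (upp y b)) hx h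
  · intro y hy hN
    exact Nat.findGreatest_is_greatest (P := fun y => S y (upp y b)) hy hN

open Classical in
lemma sum_Fst_le (S : ℕ → ℕ → Prop) (N b : ℕ) :
    ∑ x ∈ range (N + 1), (if Fst S N x b then (1 : ℝ) else 0) ≤ 1 := by
  by_cases h : ∃ x ≤ N, Fst S N x b
  · obtain ⟨x, hx, hF⟩ := h
    rw [Finset.sum_eq_single x]
    · split_ifs
      norm_num
    · intro y hy hne
      rw [Finset.mem_range] at hy
      rw [if_neg]
      intro hF'
      exact hne (Fst_unique (by omega) hx hF' hF)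
    · intro h
      exact absurd (Finset.mem_range.2 (by omega)) h
  · push Not at h
    rw [Finset.sum_eq_zero]
    · norm_num
    · intro x hx
      rw [Finset.mem_range] at hx
      rw [if_neg (h x (by omega))]

open Classical in
/-- **antichain sum**: stopped nodes have total mass at most the mass of the root -/
theorem antichain {M : ℕ} (hM : 0 < M) (S : ℕ → ℕ → Prop) (N : ℕ) {G : ℕ → ℝ}
    (hG : ∀ b, 0 ≤ G b) :
    ∑ x ∈ range (N + 1), Ex (upp x M) (fun T => if Fst S N x T then mass M G x T else 0) ≤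
      Ex M G := by
  have h1 : ∀ x ∈ range (N + 1),
      Ex (upp x M) (fun T => if Fst S N x T then mass M G x T else 0) =
        Ex M (fun b => (if Fst S N x b then (1 : ℝ) else 0) * G b) := by
    intro x _
    have := Ex_cut' hM x G (fun T => if Fst S N x T then (1 : ℝ) else 0)
    simp only [Fst_upp] at this
    rw [this]
    unfold Ex
    refine Finset.sum_congr rfl fun T _ => ?_
    beta_reduce
    split_ifs <;> simp
  rw [Finset.sum_congr rfl h1]
  unfold Ex
  rw [Finset.sum_comm]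
  refine Finset.sum_le_sum fun b _ => ?_
  rw [← Finset.mul_sum, ← Finset.sum_mul]
  refine mul_le_mul_of_nonneg_left ?_ (nu_nonneg _ _)
  have := sum_Fst_le S N b
  nlinarith [hG b]

lemma Ex_congr {M : ℕ} {f g : ℕ → ℝ} (h : ∀ b, b ∣ M → f b = g b) : Ex M f = Ex M g := by
  unfold Ex
  refine Finset.sum_congr rfl fun b hb => ?_
  rw [h b (Nat.dvd_of_mem_divisors hb)]

/-- Jensen for `t ↦ t^r`, `0 ≤ r ≤ 1` -/
theorem jensen {M : ℕ} (hM : 0 < M) {r : ℝ} (hr0 : 0 ≤ r) (hr1 : r ≤ 1) {g : ℕ → ℝ}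
    (hg : ∀ b, 0 ≤ g b) : Ex M (fun b => g b ^ r) ≤ (Ex M g) ^ r := by
  have h := (Real.concaveOn_rpow hr0 hr1).le_map_sum (t := M.divisors) (w := fun b => nu M b)
    (p := g) (fun b _ => nu_nonneg _ _) (sum_nu hM) (fun b _ => Set.mem_Ici.2 (hg b))
  simpa [Ex, smul_eq_mul] using h

lemma Ex_mass {M : ℕ} (hM : 0 < M) (x : ℕ) (f : ℕ → ℝ) :
    Ex (upp x M) (fun T => mass M f x T) = Ex M f := (Ex_cut hM x f).symm

/-- the first cut (from the top) whose node mass is at least `a₁` -/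
def Heavy (M : ℕ) (f : ℕ → ℝ) (a₁ : ℝ) (x T : ℕ) : Prop := a₁ ≤ mass M f x T

lemma rpow_le_heavy {r a₁ y : ℝ} (hr1 : r ≤ 1) (ha : 0 < a₁) (hy : a₁ ≤ y) :
    y ^ r ≤ a₁ ^ (r - 1) * y := by
  have hy0 : 0 < y := lt_of_lt_of_le ha hy
  have h1 : y ^ r = y ^ (r - 1) * y := by
    rw [Real.rpow_sub_one hy0.ne']
    field_simp
  rw [h1]
  refine mul_le_mul_of_nonneg_right ?_ hy0.le
  exact Real.rpow_le_rpow_of_nonpos ha hy (by linarith)

lemma frm_sum {ι : Type*} (s : Finset ι) (M : ℕ) (F : ι → ℕ → ℕ → ℝ) :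
    ∑ x ∈ s, frm M (F x) = frm M (fun b c => ∑ x ∈ s, F x b c) := by
  unfold frm
  rw [Finset.sum_comm]
  refine Finset.sum_congr rfl fun b _ => ?_
  rw [Finset.sum_comm]
  refine Finset.sum_congr rfl fun c _ => ?_
  rw [Finset.mul_sum]

lemma frm_mono {M : ℕ} {F G : ℕ → ℕ → ℝ} (h : ∀ b c, b ∣ M → c ∣ M → F b c ≤ G b c) :
    frm M F ≤ frm M G := by
  unfold frm
  refine Finset.sum_le_sum fun b hb => Finset.sum_le_sum fun c hc => ?_
  exact mul_le_mul_of_nonneg_left
    (h b c (Nat.dvd_of_mem_divisors hb) (Nat.dvd_of_mem_divisors hc))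
    (mul_nonneg (mul_nonneg (Nat.cast_nonneg _) (nu_nonneg _ _)) (nu_nonneg _ _))

lemma frm_congr {M : ℕ} {F G : ℕ → ℕ → ℝ} (h : ∀ b c, b ∣ M → c ∣ M → F b c = G b c) :
    frm M F = frm M G := by
  unfold frm
  refine Finset.sum_congr rfl fun b hb => Finset.sum_congr rfl fun c hc => ?_
  rw [h b c (Nat.dvd_of_mem_divisors hb) (Nat.dvd_of_mem_divisors hc)]

lemma gcd_upp {M x n' T T' : ℕ} (hT : T ∣ upp x M) (hn' : n' ∣ low x M) :
    Nat.gcd T (n' * T') = Nat.gcd T T' := by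
  have h : Nat.Coprime n' T := coprime_of_dvd _ hn' hT
  exact Nat.Coprime.gcd_mul_left_cancel_right T' h

open Classical in
/-- **HEAVY LEMMA, abstract form** (any kernel `K b c ≥ 0`, node estimate `H1` as hypothesis) -/
theorem heavy {M : ℕ} (hM : 0 < M) (N : ℕ) {r A Y a₁ : ℝ} (hr0 : 0 ≤ r) (hr1 : r ≤ 1)
    (hA : 0 ≤ A) (ha : 0 < a₁) {f f' : ℕ → ℝ} (hf : ∀ b, 0 ≤ f b) (hf' : ∀ b, 0 ≤ f' b)
    {K : ℕ → ℕ → ℝ} (hK : ∀ b c, 0 ≤ K b c)
    (H1 : ∀ x T T', x ≤ N → T ∣ upp x M → T' ∣ upp x M → (Nat.gcd T T' : ℝ) ≤ Y →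
      (Nat.gcd T T' : ℝ) * frm (low x M) (fun n n' => K (n * T) (n' * T')) ≤
        A * (mass M f x T * mass M f' x T') ^ r) :
    frm M (fun b c => if ∃ x ≤ N, Fst (Heavy M f a₁) N x b ∧ (Nat.gcd (upp x b) c : ℝ) ≤ Y
      then K b c else 0) ≤ A * a₁ ^ (r - 1) * Ex M f * (Ex M f') ^ r := by
  set S := Heavy M f a₁ with hS
  -- step 1: sum over the stopping cut
  have h1 : frm M (fun b c => if ∃ x ≤ N, Fst S N x b ∧ (Nat.gcd (upp x b) c : ℝ) ≤ Y
      then K b c else 0) ≤ ∑ x ∈ range (N + 1), frm M (fun b c =>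
        if Fst S N x b ∧ (Nat.gcd (upp x b) c : ℝ) ≤ Y then K b c else 0) := by
    rw [frm_sum]
    refine frm_mono fun b c _ _ => ?_
    by_cases h : ∃ x ≤ N, Fst S N x b ∧ (Nat.gcd (upp x b) c : ℝ) ≤ Y
    · rw [if_pos h]
      obtain ⟨x, hx, h2⟩ := h
      refine le_trans ?_ (Finset.single_le_sum
        (f := fun x => if Fst S N x b ∧ (Nat.gcd (upp x b) c : ℝ) ≤ Y then K b c else 0)
        (fun y _ => ?_) (Finset.mem_range.2 (Nat.lt_succ_of_le hx)))
      · rw [if_pos h2]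
      · split_ifs
        · exact hK b c
        · exact le_rfl
    · rw [if_neg h]
      refine Finset.sum_nonneg fun y _ => ?_
      split_ifs
      · exact hK b c
      · exact le_rfl
  refine h1.trans ?_
  -- step 2: one cut
  have h2 : ∀ x ∈ range (N + 1), frm M (fun b c =>
        if Fst S N x b ∧ (Nat.gcd (upp x b) c : ℝ) ≤ Y then K b c else 0) ≤
      (A * a₁ ^ (r - 1) * (Ex M f') ^ r) *
        Ex (upp x M) (fun T => if Fst S N x T then mass M f x T else 0) := by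
    intro x hx
    rw [Finset.mem_range] at hx
    rw [frm_low_upp hM x]
    have h3 : ∀ T ∈ (upp x M).divisors, ∀ T' ∈ (upp x M).divisors,
        (Nat.gcd T T' : ℝ) * nu (upp x M) T * nu (upp x M) T' *
          frm (low x M) (fun n n' => if Fst S N x (n * T) ∧
            (Nat.gcd (upp x (n * T)) (n' * T') : ℝ) ≤ Y then K (n * T) (n' * T') else 0) ≤
        (nu (upp x M) T * (if Fst S N x T then (mass M f x T) ^ r else 0)) *
          (A * (nu (upp x M) T' * (mass M f' x T') ^ r)) := by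
      intro T hT T' hT'
      rw [Nat.mem_divisors] at hT hT'
      have e1 : frm (low x M) (fun n n' => if Fst S N x (n * T) ∧
            (Nat.gcd (upp x (n * T)) (n' * T') : ℝ) ≤ Y then K (n * T) (n' * T') else 0) =
          if Fst S N x T ∧ (Nat.gcd T T' : ℝ) ≤ Y then
            frm (low x M) (fun n n' => K (n * T) (n' * T')) else 0 := by
        have e2 : ∀ n ∈ (low x M).divisors, ∀ n' ∈ (low x M).divisors,
            (if Fst S N x (n * T) ∧ (Nat.gcd (upp x (n * T)) (n' * T') : ℝ) ≤ Y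
              then K (n * T) (n' * T') else 0) =
            if Fst S N x T ∧ (Nat.gcd T T' : ℝ) ≤ Y then K (n * T) (n' * T') else 0 := by
          intro n hn n' hn'
          rw [Nat.mem_divisors] at hn hn'
          have e3 : upp x (n * T) = T := upp_of_mul hn.1 hT.1
          have e4 : Fst S N x (n * T) ↔ Fst S N x T := by
            rw [← Fst_upp, e3]
          rw [e3, gcd_upp hT.1 hn'.1]
          simp only [e4]
        rw [frm_congr (G := fun n n' => if Fst S N x T ∧ (Nat.gcd T T' : ℝ) ≤ Y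
          then K (n * T) (n' * T') else 0) (fun n n' hn hn' =>
            e2 n (Nat.mem_divisors.2 ⟨hn, (low_pos x M).ne'⟩) n'
              (Nat.mem_divisors.2 ⟨hn', (low_pos x M).ne'⟩))]
        by_cases h : Fst S N x T ∧ (Nat.gcd T T' : ℝ) ≤ Y
        · simp only [if_pos h]
        · simp only [if_neg h]
          unfold frm
          simp
      rw [e1]
      have hn1 := nu_nonneg (upp x M) T
      have hn2 := nu_nonneg (upp x M) T'
      by_cases h : Fst S N x T ∧ (Nat.gcd T T' : ℝ) ≤ Y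
      · rw [if_pos h, if_pos h.1]
        have h4 := H1 x T T' (by omega) hT.1 hT'.1 h.2
        rw [Real.mul_rpow (mass_nonneg _ hf _ _) (mass_nonneg _ hf' _ _)] at h4
        calc (Nat.gcd T T' : ℝ) * nu (upp x M) T * nu (upp x M) T' *
              frm (low x M) (fun n n' => K (n * T) (n' * T'))
            = (nu (upp x M) T * nu (upp x M) T') * ((Nat.gcd T T' : ℝ) *
              frm (low x M) (fun n n' => K (n * T) (n' * T'))) := by ring
          _ ≤ (nu (upp x M) T * nu (upp x M) T') *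
              (A * (mass M f x T ^ r * mass M f' x T' ^ r)) :=
              mul_le_mul_of_nonneg_left h4 (mul_nonneg hn1 hn2)
          _ = _ := by ring
      · rw [if_neg h, mul_zero]
        refine mul_nonneg (mul_nonneg hn1 ?_) (mul_nonneg hA (mul_nonneg hn2
          (Real.rpow_nonneg (mass_nonneg _ hf' _ _) _)))
        split_ifs
        · exact Real.rpow_nonneg (mass_nonneg _ hf _ _) _
        · exact le_rfl
    refine (Finset.sum_le_sum fun T hT => Finset.sum_le_sum fun T' hT' => h3 T hT T' hT').trans ?_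
    have e5 : ∑ T ∈ (upp x M).divisors, ∑ T' ∈ (upp x M).divisors,
        (nu (upp x M) T * (if Fst S N x T then (mass M f x T) ^ r else 0)) *
          (A * (nu (upp x M) T' * (mass M f' x T') ^ r)) =
        A * Ex (upp x M) (fun T => if Fst S N x T then (mass M f x T) ^ r else 0) *
          Ex (upp x M) (fun T' => (mass M f' x T') ^ r) := by
      unfold Ex
      rw [← Finset.sum_mul_sum, ← Finset.mul_sum]
      ring
    rw [e5]
    have e6 : Ex (upp x M) (fun T' => (mass M f' x T') ^ r) ≤ (Ex M f') ^ r := by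
      have := jensen (upp_pos x M) hr0 hr1 (g := fun T => mass M f' x T)
        (fun T => mass_nonneg _ hf' _ _)
      rwa [Ex_mass hM] at this
    have e7 : Ex (upp x M) (fun T => if Fst S N x T then (mass M f x T) ^ r else 0) ≤
        a₁ ^ (r - 1) * Ex (upp x M) (fun T => if Fst S N x T then mass M f x T else 0) := by
      unfold Ex
      rw [Finset.mul_sum]
      refine Finset.sum_le_sum fun T _ => ?_
      beta_reduce
      by_cases h : Fst S N x T
      · rw [if_pos h, if_pos h]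
        have h5 : a₁ ≤ mass M f x T := by
          have := h.1
          by_cases hT : T ∣ upp x M
          · have e : upp x T = T := by
              have := upp_of_mul (x := x) (n := 1) (one_dvd (low x M)) hT
              rwa [one_mul] at this
            rw [e] at this
            exact this
          · exact absurd (Nat.dvd_of_mem_divisors ‹_›) hT
        have := rpow_le_heavy hr1 ha h5
        calc nu (upp x M) T * mass M f x T ^ r
            ≤ nu (upp x M) T * (a₁ ^ (r - 1) * mass M f x T) :=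
              mul_le_mul_of_nonneg_left this (nu_nonneg _ _)
          _ = _ := by ring
      · rw [if_neg h, if_neg h]
        simp
    have e8 : 0 ≤ Ex (upp x M) (fun T' => (mass M f' x T') ^ r) :=
      Ex_nonneg _ fun _ => Real.rpow_nonneg (mass_nonneg _ hf' _ _) _
    have e9 : 0 ≤ Ex (upp x M) (fun T => if Fst S N x T then mass M f x T else 0) :=
      Ex_nonneg _ fun _ => by
        split_ifs
        · exact mass_nonneg _ hf _ _
        · exact le_rfl
    have e10 : 0 ≤ a₁ ^ (r - 1) := Real.rpow_nonneg ha.le _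
    calc A * Ex (upp x M) (fun T => if Fst S N x T then (mass M f x T) ^ r else 0) *
          Ex (upp x M) (fun T' => (mass M f' x T') ^ r)
        ≤ A * (a₁ ^ (r - 1) * Ex (upp x M) (fun T => if Fst S N x T then mass M f x T else 0)) *
          (Ex M f') ^ r := by
          refine mul_le_mul (mul_le_mul_of_nonneg_left e7 hA) e6 e8 ?_
          exact mul_nonneg hA (mul_nonneg e10 e9)
      _ = _ := by ring
  refine (Finset.sum_le_sum h2).trans ?_
  rw [← Finset.mul_sum]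
  have h3 := antichain hM S N hf
  have h4 : 0 ≤ A * a₁ ^ (r - 1) * (Ex M f') ^ r :=
    mul_nonneg (mul_nonneg hA (Real.rpow_nonneg ha.le _))
      (Real.rpow_nonneg (Ex_nonneg _ hf') _)
  calc (A * a₁ ^ (r - 1) * (Ex M f') ^ r) * ∑ x ∈ range (N + 1),
        Ex (upp x M) (fun T => if Fst S N x T then mass M f x T else 0)
      ≤ (A * a₁ ^ (r - 1) * (Ex M f') ^ r) * Ex M f := mul_le_mul_of_nonneg_left h3 h4
    _ = _ := by ring

/-- symmetry of the pair form -/
lemma frm_swap (M : ℕ) (F : ℕ → ℕ → ℝ) : frm M (fun b c => F c b) = frm M F := by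
  unfold frm
  rw [Finset.sum_comm]
  refine Finset.sum_congr rfl fun b _ => Finset.sum_congr rfl fun c _ => ?_
  rw [Nat.gcd_comm]
  ring

lemma gcd_nodes {M x n n' T T' : ℕ} (hn : n ∣ low x M) (hT : T ∣ upp x M)
    (hn' : n' ∣ low x M) (hT' : T' ∣ upp x M) :
    Nat.gcd (n * T) (n' * T') = Nat.gcd n n' * Nat.gcd T T' :=
  gcd_cut _ hn hT hn' hT'

open Classical in
/-- node estimate from the exact-gcd bilinear bound in the primes `≤ x` -/
theorem node_of_hvw {M : ℕ} {η κ C X Y : ℝ} (hη1 : η ≤ 1)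
    (hC : 0 ≤ C) (hX : 0 < X) {f f' : ℕ → ℝ}
    (hf : ∀ b, 0 ≤ f b ∧ f b ≤ 1) (hf' : ∀ b, 0 ≤ f' b ∧ f' b ≤ 1)
    (HVW : ∀ M' : ℕ, M' ∣ M → ∀ f f' : ℕ → ℝ, (∀ b, 0 ≤ f b ∧ f b ≤ 1) →
      (∀ b, 0 ≤ f' b ∧ f' b ≤ 1) → ∀ X : ℝ, 0 < X →
      frm M' (fun b c => if X ≤ (Nat.gcd b c : ℝ) ∧ (Nat.gcd b c : ℝ) < κ * X
        then f b * f' c else 0) ≤ C * X ^ η * (Ex M' f * Ex M' f') ^ ((1 + η) / 2))
    (x T T' : ℕ) (hT : T ∣ upp x M) (hT' : T' ∣ upp x M) (hY : (Nat.gcd T T' : ℝ) ≤ Y) :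
    (Nat.gcd T T' : ℝ) * frm (low x M) (fun n n' =>
        if X ≤ (Nat.gcd (n * T) (n' * T') : ℝ) ∧ (Nat.gcd (n * T) (n' * T') : ℝ) < κ * X
          then f (n * T) * f' (n' * T') else 0) ≤
      (C * X ^ η * Y ^ (1 - η)) * (mass M f x T * mass M f' x T') ^ ((1 + η) / 2) := by
  have hg0 : 0 < Nat.gcd T T' := Nat.gcd_pos_of_pos_left _ (Nat.pos_of_dvd_of_pos hT (upp_pos x M))
  have hg : (0 : ℝ) < (Nat.gcd T T' : ℝ) := by exact_mod_cast hg0
  set g : ℝ := (Nat.gcd T T' : ℝ) with hgdef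
  have e1 : frm (low x M) (fun n n' =>
        if X ≤ (Nat.gcd (n * T) (n' * T') : ℝ) ∧ (Nat.gcd (n * T) (n' * T') : ℝ) < κ * X
          then f (n * T) * f' (n' * T') else 0) =
      frm (low x M) (fun n n' => if X / g ≤ (Nat.gcd n n' : ℝ) ∧
        (Nat.gcd n n' : ℝ) < κ * (X / g) then f (n * T) * f' (n' * T') else 0) := by
    refine frm_congr fun n n' hn hn' => ?_
    rw [gcd_nodes hn hT hn' hT']
    push_cast
    rw [← hgdef]
    have i1 : (X ≤ (Nat.gcd n n' : ℝ) * g) ↔ (X / g ≤ (Nat.gcd n n' : ℝ)) :=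
      (div_le_iff₀ hg).symm
    have i2 : ((Nat.gcd n n' : ℝ) * g < κ * X) ↔ ((Nat.gcd n n' : ℝ) < κ * (X / g)) := by
      rw [← mul_div_assoc, lt_div_iff₀ hg]
    simp only [i1, i2]
  rw [e1]
  have h1 := HVW (low x M) (low_dvd_self x M) (fun n => f (n * T)) (fun n => f' (n * T'))
    (fun b => hf _) (fun b => hf' _) (X / g) (div_pos hX hg)
  have h2 : g * (C * (X / g) ^ η) ≤ C * X ^ η * Y ^ (1 - η) := by
    have h3 : g * (C * (X / g) ^ η) = C * X ^ η * g ^ (1 - η) := by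
      rw [Real.div_rpow hX.le hg.le, Real.rpow_sub hg, Real.rpow_one]
      field_simp
    rw [h3]
    exact mul_le_mul_of_nonneg_left (Real.rpow_le_rpow hg.le hY (by linarith))
      (mul_nonneg hC (Real.rpow_nonneg hX.le _))
  have h4 : 0 ≤ (mass M f x T * mass M f' x T') ^ ((1 + η) / 2) :=
    Real.rpow_nonneg (mul_nonneg (mass_nonneg _ (fun b => (hf b).1) _ _)
      (mass_nonneg _ (fun b => (hf' b).1) _ _)) _
  calc g * frm (low x M) (fun n n' => if X / g ≤ (Nat.gcd n n' : ℝ) ∧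
        (Nat.gcd n n' : ℝ) < κ * (X / g) then f (n * T) * f' (n' * T') else 0)
      ≤ g * (C * (X / g) ^ η * (mass M f x T * mass M f' x T') ^ ((1 + η) / 2)) :=
        mul_le_mul_of_nonneg_left h1 hg.le
    _ = (g * (C * (X / g) ^ η)) * (mass M f x T * mass M f' x T') ^ ((1 + η) / 2) := by ring
    _ ≤ _ := mul_le_mul_of_nonneg_right h2 h4

open Classical in
/-- **HEAVY LEMMA** (2581(2)), general `M`, window `X ≤ gcd < κ X` -/
theorem heavy_hvw {M : ℕ} (hM : 0 < M) (N : ℕ) {η κ C X Y a₁ : ℝ} (hη0 : 0 ≤ η) (hη1 : η ≤ 1)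
    (hC : 0 ≤ C) (hX : 0 < X) (hY : 0 ≤ Y) (ha : 0 < a₁) {f f' : ℕ → ℝ}
    (hf : ∀ b, 0 ≤ f b ∧ f b ≤ 1) (hf' : ∀ b, 0 ≤ f' b ∧ f' b ≤ 1)
    (HVW : ∀ M' : ℕ, M' ∣ M → ∀ f f' : ℕ → ℝ, (∀ b, 0 ≤ f b ∧ f b ≤ 1) →
      (∀ b, 0 ≤ f' b ∧ f' b ≤ 1) → ∀ X : ℝ, 0 < X →
      frm M' (fun b c => if X ≤ (Nat.gcd b c : ℝ) ∧ (Nat.gcd b c : ℝ) < κ * X
        then f b * f' c else 0) ≤ C * X ^ η * (Ex M' f * Ex M' f') ^ ((1 + η) / 2)) :
    frm M (fun b c =>
      if (∃ x ≤ N, Fst (Heavy M f a₁) N x b ∧ (Nat.gcd (upp x b) c : ℝ) ≤ Y) ∧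
        X ≤ (Nat.gcd b c : ℝ) ∧ (Nat.gcd b c : ℝ) < κ * X then f b * f' c else 0) ≤
      C * X ^ η * Y ^ (1 - η) * a₁ ^ (-((1 - η) / 2)) * Ex M f * (Ex M f') ^ ((1 + η) / 2) := by
  have h := heavy hM N (r := (1 + η) / 2) (A := C * X ^ η * Y ^ (1 - η)) (Y := Y) (a₁ := a₁)
    (by linarith) (by linarith)
    (mul_nonneg (mul_nonneg hC (Real.rpow_nonneg hX.le _)) (Real.rpow_nonneg hY _)) ha
    (fun b => (hf b).1) (fun b => (hf' b).1)
    (K := fun b c => if X ≤ (Nat.gcd b c : ℝ) ∧ (Nat.gcd b c : ℝ) < κ * X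
      then f b * f' c else 0)
    (fun b c => by
      split_ifs
      · exact mul_nonneg (hf b).1 (hf' c).1
      · exact le_rfl)
    (fun x T T' _ hT hT' hg =>
      node_of_hvw hη1 hC hX hf hf' HVW x T T' hT hT' hg)
  have e1 : (1 + η) / 2 - 1 = -((1 - η) / 2) := by ring
  rw [e1] at h
  refine le_trans (le_of_eq ?_) h
  refine frm_congr fun b c _ _ => ?_
  by_cases h1 : ∃ x ≤ N, Fst (Heavy M f a₁) N x b ∧ (Nat.gcd (upp x b) c : ℝ) ≤ Y
  · by_cases h2 : X ≤ (Nat.gcd b c : ℝ) ∧ (Nat.gcd b c : ℝ) < κ * X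
    · rw [if_pos ⟨h1, h2⟩, if_pos h1, if_pos h2]
    · rw [if_neg (fun hc => h2 hc.2), if_pos h1, if_neg h2]
  · rw [if_neg (fun hc => h1 hc.1), if_neg h1]

open Classical in
/-- the same in the `L, t, m` normalisation: `X = t L`, `a₁ = m₁ / L`, `m = L E f` -/
theorem heavy_norm {M : ℕ} (hM : 0 < M) (N : ℕ) {η κ C t L Y m₁ : ℝ} (hη0 : 0 ≤ η)
    (hη1 : η ≤ 1) (hC : 0 ≤ C) (ht : 0 < t) (hL : 0 < L) (hY : 0 ≤ Y) (hm₁ : 0 < m₁)
    {f f' : ℕ → ℝ}
    (hf : ∀ b, 0 ≤ f b ∧ f b ≤ 1) (hf' : ∀ b, 0 ≤ f' b ∧ f' b ≤ 1)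
    (HVW : ∀ M' : ℕ, M' ∣ M → ∀ f f' : ℕ → ℝ, (∀ b, 0 ≤ f b ∧ f b ≤ 1) →
      (∀ b, 0 ≤ f' b ∧ f' b ≤ 1) → ∀ X : ℝ, 0 < X →
      frm M' (fun b c => if X ≤ (Nat.gcd b c : ℝ) ∧ (Nat.gcd b c : ℝ) < κ * X
        then f b * f' c else 0) ≤ C * X ^ η * (Ex M' f * Ex M' f') ^ ((1 + η) / 2)) :
    L * frm M (fun b c =>
      if (∃ x ≤ N, Fst (Heavy M f (m₁ / L)) N x b ∧ (Nat.gcd (upp x b) c : ℝ) ≤ Y) ∧
        t * L ≤ (Nat.gcd b c : ℝ) ∧ (Nat.gcd b c : ℝ) < κ * (t * L) then f b * f' c else 0) ≤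
      C * t ^ η * Y ^ (1 - η) * m₁ ^ (-((1 - η) / 2)) * (L * Ex M f) *
        (L * Ex M f') ^ ((1 + η) / 2) := by
  have h := heavy_hvw hM N (X := t * L) (Y := Y) (a₁ := m₁ / L) (κ := κ) hη0 hη1 hC
    (mul_pos ht hL) hY (div_pos hm₁ hL) hf hf' HVW
  have h2 := mul_le_mul_of_nonneg_left h hL.le
  refine h2.trans (le_of_eq ?_)
  have hE : 0 ≤ Ex M f' := Ex_nonneg _ fun b => (hf' b).1
  rw [Real.mul_rpow ht.le hL.le, Real.mul_rpow hL.le hE, Real.div_rpow hm₁.le hL.le]
  have h3 : L ^ η / L ^ (-((1 - η) / 2)) = L ^ ((1 + η) / 2) := by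
    rw [← Real.rpow_sub hL]
    congr 1
    ring
  calc L * (C * (t ^ η * L ^ η) * Y ^ (1 - η) *
        (m₁ ^ (-((1 - η) / 2)) / L ^ (-((1 - η) / 2))) * Ex M f * Ex M f' ^ ((1 + η) / 2))
      = C * t ^ η * Y ^ (1 - η) * m₁ ^ (-((1 - η) / 2)) * (L * Ex M f) *
        ((L ^ η / L ^ (-((1 - η) / 2))) * Ex M f' ^ ((1 + η) / 2)) := by ring
    _ = _ := by rw [h3]

/-! ### Monotonicity (2581(3)) -/

open Classical in
/-- below a fixed cut `x`: the items that later reach a node with mass `≤ ε *` (mass at `x`)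
have share at most `ε` -/
theorem mono_drop {M : ℕ} (hM : 0 < M) (x : ℕ) {ε : ℝ} (hε : 0 ≤ ε) {f : ℕ → ℝ}
    (hf : ∀ b, 0 ≤ f b) :
    Ex M (fun b => if ∃ y ≤ x, mass M f y (upp y b) ≤ ε * mass M f x (upp x b)
      then f b else 0) ≤ ε * Ex M f := by
  set S : ℕ → ℕ → Prop := fun y U => mass M f y U ≤ ε * mass M f x (upp x U) with hS
  have hSb : ∀ y ≤ x, ∀ b, S y (upp y b) ↔ mass M f y (upp y b) ≤ ε * mass M f x (upp x b) := by
    intro y hy b
    simp only [hS]
    rw [upp_upp hy]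
  -- indicator ≤ sum over the stopping cut
  have h1 : Ex M (fun b => if ∃ y ≤ x, mass M f y (upp y b) ≤ ε * mass M f x (upp x b)
      then f b else 0) ≤
      ∑ y ∈ range (x + 1), Ex M (fun b => (if Fst S x y b then (1 : ℝ) else 0) * f b) := by
    unfold Ex
    rw [Finset.sum_comm]
    refine Finset.sum_le_sum fun b _ => ?_
    rw [← Finset.mul_sum]
    refine mul_le_mul_of_nonneg_left ?_ (nu_nonneg _ _)
    beta_reduce
    by_cases h : ∃ y ≤ x, mass M f y (upp y b) ≤ ε * mass M f x (upp x b)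
    · rw [if_pos h]
      obtain ⟨y, hy, h2⟩ := h
      obtain ⟨z, _, hz, hF⟩ := Fst_exists (S := S) (N := x) hy ((hSb y hy b).2 h2)
      refine le_trans ?_ (Finset.single_le_sum
        (f := fun y => (if Fst S x y b then (1 : ℝ) else 0) * f b)
        (fun i _ => mul_nonneg (by split_ifs <;> norm_num) (hf b))
        (Finset.mem_range.2 (Nat.lt_succ_of_le hz)))
      rw [if_pos hF, one_mul]
    · rw [if_neg h]
      exact Finset.sum_nonneg fun i _ => mul_nonneg (by split_ifs <;> norm_num) (hf b)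
  refine h1.trans ?_
  have h2 : ∀ y ∈ range (x + 1),
      Ex M (fun b => (if Fst S x y b then (1 : ℝ) else 0) * f b) ≤
      ε * Ex M (fun b => (if Fst S x y b then (1 : ℝ) else 0) * mass M f x (upp x b)) := by
    intro y hy
    rw [Finset.mem_range] at hy
    have hyx : y ≤ x := by omega
    have e1 := Ex_cut' hM y f (fun T => if Fst S x y T then (1 : ℝ) else 0)
    simp only [Fst_upp] at e1
    have e2 := Ex_cut hM y (fun b => (if Fst S x y b then (1 : ℝ) else 0) *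
      mass M f x (upp x b))
    rw [e1, e2]
    unfold Ex
    rw [Finset.mul_sum]
    refine Finset.sum_le_sum fun T hT => ?_
    rw [Nat.mem_divisors] at hT
    beta_reduce
    have e3 : mass M (fun b => (if Fst S x y b then (1 : ℝ) else 0) *
        mass M f x (upp x b)) y T =
        (if Fst S x y T then (1 : ℝ) else 0) * mass M f x (upp x T) := by
      rw [← Ex_const (low_pos y M) ((if Fst S x y T then (1 : ℝ) else 0) *
          mass M f x (upp x T))]
      refine Ex_congr fun n hn => ?_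
      have e4 : upp y (n * T) = T := upp_of_mul hn hT.1
      have e5 : Fst S x y (n * T) ↔ Fst S x y T := by rw [← Fst_upp, e4]
      have e6 : upp x (n * T) = upp x T := by
        rw [← upp_upp hyx (n * T), e4]
      beta_reduce
      rw [e6]
      simp only [e5]
    rw [e3]
    by_cases h : Fst S x y T
    · rw [if_pos h, one_mul, one_mul]
      have h3 : mass M f y T ≤ ε * mass M f x (upp x T) := by
        have e : upp y T = T := by
          have := upp_of_mul (x := y) (n := 1) (one_dvd (low y M)) hT.1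
          rwa [one_mul] at this
        have h4 := h.1
        rw [e] at h4
        exact h4
      calc nu (upp y M) T * mass M f y T ≤ nu (upp y M) T * (ε * mass M f x (upp x T)) :=
            mul_le_mul_of_nonneg_left h3 (nu_nonneg _ _)
        _ = _ := by ring
    · rw [if_neg h]
      simp
  refine (Finset.sum_le_sum h2).trans ?_
  rw [← Finset.mul_sum]
  refine mul_le_mul_of_nonneg_left ?_ hε
  have h3 : ∑ y ∈ range (x + 1), Ex M (fun b => (if Fst S x y b then (1 : ℝ) else 0) *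
      mass M f x (upp x b)) ≤ Ex M (fun b => mass M f x (upp x b)) := by
    unfold Ex
    rw [Finset.sum_comm]
    refine Finset.sum_le_sum fun b _ => ?_
    rw [← Finset.mul_sum, ← Finset.sum_mul]
    refine mul_le_mul_of_nonneg_left ?_ (nu_nonneg _ _)
    have := sum_Fst_le S x b
    have h4 : 0 ≤ mass M f x (upp x b) := mass_nonneg _ hf _ _
    unfold mass Ex at h4 ⊢
    nlinarith
  refine h3.trans (le_of_eq ?_)
  have e1 := Ex_cut' hM x (fun _ => 1) (fun T => mass M f x T)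
  simp only [mul_one] at e1
  rw [e1]
  have e2 : ∀ T, mass M (fun _ => (1 : ℝ)) x T = 1 := fun T => Ex_const (low_pos x M) 1
  simp only [e2, mul_one]
  exact Ex_mass hM x f

end Crest.Agent.R4C.HeavyLx50
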