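import Crest.Agent.R4C.GlueH_81
import Crest.Agent.R4C.SpineDef_946

/-!
# Row 4: class (H) as a bilinear set bound (helper281)

`HvK F g L P K₀ x b` is measured with a function `g` (in the application `g = 1_B`), the energy
with other functions `f, f'` (in the application `1_S, 1_S'`, `S, S' ⊆ B`).

* `holder2` : Hölder for nodes, two families;
* `heavyCut2`, `heavyCut_hvw2`, `heavyCut_J2` : LEMMA H, mass of `g`, energy of `f, f'`;
* `class_J2`, `class_K2` : class (H) at one depth, at all depths `K ≥ K₀`;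
* `classK_bil` : for sets `S, S' ⊆ B`, `L ν(B) ≤ 1`, either member `HvK`, one dyadic scale:
  `L Σ_{b ∈ S, c ∈ S'} gcd ν ν ≤ C t^(η-1) K₀^(-s) √(L ν S · L ν S')`;
* `classK_scales` : the same, all scales `L / Λ ≤ gcd < T L`: factor `Λ^(1-η)`.
-/

set_option autoImplicit false

namespace Crest.Agent.R4C.HvySetx281

open Finset Crest.Agent.R4C.Basex935 Crest.Agent.R4C.Cutx50 Crest.Agent.R4C.FLDefx935
  Crest.Agent.R4C.HeavyLx50 Crest.Agent.R4C.HeavyCx899 Crest.Agent.R4C.Chainx81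
  Crest.Agent.R4C.Hclsx81

/-- Hölder for two families -/
lemma holder2 {ι : Type*} (s : Finset ι) {r : ℝ} (hr0 : 0 < r) (hr1 : r < 1) (u v : ι → ℝ)
    (hu : ∀ i, 0 ≤ u i) (hv : ∀ i, 0 ≤ v i) :
    ∑ i ∈ s, v i ^ r * u i ^ (1 - r) ≤ (∑ i ∈ s, v i) ^ r * (∑ i ∈ s, u i) ^ (1 - r) := by
  have h1r : (0 : ℝ) < 1 - r := by linarith
  have h := holder s hr0 hr1.le u (fun i => v i / u i) hu (fun i => div_nonneg (hv i) (hu i))
  have h1 : ∀ i ∈ s, v i ^ r * u i ^ (1 - r) = u i * (v i / u i) ^ r := by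
    intro i _
    rcases (hu i).eq_or_lt with h0 | h0
    · rw [← h0, Real.zero_rpow h1r.ne', mul_zero, zero_mul]
    · rw [Real.div_rpow (hv i) h0.le, Real.rpow_sub h0, Real.rpow_one]
      have : 0 < u i ^ r := Real.rpow_pos_of_pos h0 _
      field_simp
  rw [Finset.sum_congr rfl h1]
  refine h.trans ?_
  rw [mul_comm]
  refine mul_le_mul_of_nonneg_right ?_ (Real.rpow_nonneg (Finset.sum_nonneg fun i _ => hu i) _)
  refine Real.rpow_le_rpow (Finset.sum_nonneg fun i _ =>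
    mul_nonneg (hu i) (div_nonneg (hv i) (hu i))) ?_ hr0.le
  refine Finset.sum_le_sum fun i _ => ?_
  rcases (hu i).eq_or_lt with h0 | h0
  · rw [← h0, zero_mul]
    exact hv i
  · rw [mul_div_cancel₀ _ h0.ne']

open Classical in
/-- node sums: Hölder over all nodes -/
lemma nodes_holder {M : ℕ} (hM : 0 < M) (N : ℕ) (S : ℕ → ℕ → Prop) {r : ℝ} (hr0 : 0 < r)
    (hr1 : r < 1) {f g : ℕ → ℝ} (hf : ∀ b, 0 ≤ f b) (hg : ∀ b, 0 ≤ g b) :
    ∑ x ∈ range (N + 1), Ex (upp x M) (fun T => if Fst S N x T then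
        mass M f x T ^ r * mass M g x T ^ (1 - r) else 0) ≤
      (Ex M f) ^ r * (Ex M g) ^ (1 - r) := by
  have hm : ∀ x T, 0 ≤ mass M f x T := fun x T => mass_nonneg _ hf _ _
  have hm' : ∀ x T, 0 ≤ mass M g x T := fun x T => mass_nonneg _ hg _ _
  have hi : ∀ (h : ℕ → ℝ) x, (∀ b, 0 ≤ h b) →
      0 ≤ Ex (upp x M) (fun T => if Fst S N x T then mass M h x T else 0) := by
    intro h x hh
    refine Ex_nonneg _ fun T => ?_
    split_ifs
    · exact mass_nonneg _ hh _ _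
    · exact le_rfl
  have h1 : ∀ x ∈ range (N + 1), Ex (upp x M) (fun T => if Fst S N x T then
        mass M f x T ^ r * mass M g x T ^ (1 - r) else 0) ≤
      (Ex (upp x M) (fun T => if Fst S N x T then mass M f x T else 0)) ^ r *
      (Ex (upp x M) (fun T => if Fst S N x T then mass M g x T else 0)) ^ (1 - r) := by
    intro x _
    unfold Ex
    refine le_trans (le_of_eq ?_) (holder2 _ hr0 hr1
      (fun T => nu (upp x M) T * (if Fst S N x T then mass M g x T else 0))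
      (fun T => nu (upp x M) T * (if Fst S N x T then mass M f x T else 0))
      (fun T => mul_nonneg (nu_nonneg _ _) (by
        split_ifs
        · exact hm' x T
        · exact le_rfl))
      (fun T => mul_nonneg (nu_nonneg _ _) (by
        split_ifs
        · exact hm x T
        · exact le_rfl)))
    refine Finset.sum_congr rfl fun T _ => ?_
    beta_reduce
    have hn := nu_nonneg (upp x M) T
    by_cases hF : Fst S N x T
    · simp only [if_pos hF]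
      rw [Real.mul_rpow hn (hm x T), Real.mul_rpow hn (hm' x T)]
      have e : nu (upp x M) T ^ r * nu (upp x M) T ^ (1 - r) = nu (upp x M) T := by
        rw [← Real.rpow_add' hn (by norm_num)]
        norm_num
      calc nu (upp x M) T * (mass M f x T ^ r * mass M g x T ^ (1 - r))
          = (nu (upp x M) T ^ r * nu (upp x M) T ^ (1 - r)) *
            (mass M f x T ^ r * mass M g x T ^ (1 - r)) := by rw [e]
        _ = _ := by ring
    · simp only [if_neg hF, mul_zero]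
      rw [Real.zero_rpow hr0.ne', zero_mul]
  refine (Finset.sum_le_sum h1).trans ?_
  refine (holder2 _ hr0 hr1 _ _ (fun x => hi g x hg) (fun x => hi f x hf)).trans ?_
  refine mul_le_mul ?_ ?_ (Real.rpow_nonneg (Finset.sum_nonneg fun x _ => hi g x hg) _)
    (Real.rpow_nonneg (Ex_nonneg _ hf) _)
  · exact Real.rpow_le_rpow (Finset.sum_nonneg fun x _ => hi f x hf) (antichain hM S N hf) hr0.le
  · exact Real.rpow_le_rpow (Finset.sum_nonneg fun x _ => hi g x hg) (antichain hM S N hg)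
      (by linarith)

open Classical in
/-- **LEMMA H**, lists measured with `g`, energy of `f, f'` -/
theorem heavyCut2 {M : ℕ} (hM : 0 < M) (N : ℕ) (S : ℕ → ℕ → Prop)
    (E : ℕ → ℕ → Finset ℕ) {r A L W : ℝ} (hr0 : 0 < r) (hr1 : r < 1) (hA : 0 ≤ A)
    (hL : 0 ≤ L) (hW : 0 ≤ W) {f f' g : ℕ → ℝ} (hf : ∀ b, 0 ≤ f b) (hf' : ∀ b, 0 ≤ f' b)
    (hg : ∀ b, 0 ≤ g b) {K : ℕ → ℕ → ℝ} (hK : ∀ b c, 0 ≤ K b c)
    (H1 : ∀ x T T', x ≤ N → T ∣ upp x M → T' ∣ upp x M → Nat.gcd T T' ∈ E x T →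
      (Nat.gcd T T' : ℝ) * frm (low x M) (fun n n' => K (n * T) (n' * T')) ≤
        A * (Nat.gcd T T' : ℝ) ^ (2 * (1 - r)) * (mass M f x T * mass M f' x T') ^ r)
    (H2 : ∀ x T, x ≤ N → T ∣ upp x M → Fst S N x T →
      ∑ e ∈ E x T, (e : ℝ) ^ (1 - r) ≤ W * (L * mass M g x T) ^ (1 - r)) :
    frm M (fun b c => if ∃ x ≤ N, Fst S N x b ∧ Nat.gcd (upp x b) c ∈ E x (upp x b)
      then K b c else 0) ≤
      A * W * L ^ (1 - r) * ((Ex M f) ^ r * (Ex M g) ^ (1 - r)) * (Ex M f') ^ r := by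
  refine (heavyCut_master hM N S E hr0 hr1.le hA hf hf' hK H1).trans ?_
  have hE' : 0 ≤ (Ex M f') ^ r := Real.rpow_nonneg (Ex_nonneg _ hf') _
  have h1 : ∀ x ∈ range (N + 1), Ex (upp x M) (fun T => if Fst S N x T then
        mass M f x T ^ r * ∑ e ∈ E x T, (e : ℝ) ^ (1 - r) *
          (Ex M (fun c => if e ∣ c then f' c else 0)) ^ r else 0) ≤
      (W * L ^ (1 - r) * (Ex M f') ^ r) *
        Ex (upp x M) (fun T => if Fst S N x T then
          mass M f x T ^ r * mass M g x T ^ (1 - r) else 0) := by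
    intro x hx
    rw [Finset.mem_range] at hx
    unfold Ex
    rw [Finset.mul_sum]
    refine Finset.sum_le_sum fun T hT => ?_
    rw [Nat.mem_divisors] at hT
    beta_reduce
    by_cases hF : Fst S N x T
    · rw [if_pos hF, if_pos hF]
      have hm : 0 ≤ mass M f x T := mass_nonneg _ hf _ _
      have hmg : 0 ≤ mass M g x T := mass_nonneg _ hg _ _
      have h2 : ∑ e ∈ E x T, (e : ℝ) ^ (1 - r) *
          (Ex M (fun c => if e ∣ c then f' c else 0)) ^ r ≤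
          (W * (L * mass M g x T) ^ (1 - r)) * (Ex M f') ^ r := by
        refine le_trans ?_ (mul_le_mul_of_nonneg_right (H2 x T (by omega) hT.1 hF) hE')
        rw [Finset.sum_mul]
        refine Finset.sum_le_sum fun e _ => ?_
        refine mul_le_mul_of_nonneg_left ?_ (Real.rpow_nonneg (Nat.cast_nonneg _) _)
        refine Real.rpow_le_rpow (Ex_nonneg _ fun c => ?_) (Ex_mono _ fun c _ => ?_) hr0.le
        · split_ifs
          · exact hf' c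
          · exact le_rfl
        · split_ifs
          · exact le_rfl
          · exact hf' c
      have h4 : mass M f x T ^ r * ((W * (L * mass M g x T) ^ (1 - r)) * (Ex M f') ^ r) =
          (W * L ^ (1 - r) * (Ex M f') ^ r) * (mass M f x T ^ r * mass M g x T ^ (1 - r)) := by
        rw [Real.mul_rpow hL hmg]
        ring
      calc nu (upp x M) T * (mass M f x T ^ r * ∑ e ∈ E x T, (e : ℝ) ^ (1 - r) *
            (Ex M (fun c => if e ∣ c then f' c else 0)) ^ r)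
          ≤ nu (upp x M) T * (mass M f x T ^ r *
            ((W * (L * mass M g x T) ^ (1 - r)) * (Ex M f') ^ r)) :=
            mul_le_mul_of_nonneg_left (mul_le_mul_of_nonneg_left h2
              (Real.rpow_nonneg hm _)) (nu_nonneg _ _)
        _ = _ := by
            rw [h4]
            unfold Ex
            ring
    · rw [if_neg hF, if_neg hF]
      simp
  calc A * ∑ x ∈ range (N + 1), Ex (upp x M) (fun T => if Fst S N x T then
        mass M f x T ^ r * ∑ e ∈ E x T, (e : ℝ) ^ (1 - r) *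
          (Ex M (fun c => if e ∣ c then f' c else 0)) ^ r else 0)
      ≤ A * ∑ x ∈ range (N + 1), (W * L ^ (1 - r) * (Ex M f') ^ r) *
        Ex (upp x M) (fun T => if Fst S N x T then
          mass M f x T ^ r * mass M g x T ^ (1 - r) else 0) :=
        mul_le_mul_of_nonneg_left (Finset.sum_le_sum h1) hA
    _ = A * (W * L ^ (1 - r) * (Ex M f') ^ r) * ∑ x ∈ range (N + 1),
        Ex (upp x M) (fun T => if Fst S N x T then
          mass M f x T ^ r * mass M g x T ^ (1 - r) else 0) := by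
        rw [← Finset.mul_sum]
        ring
    _ ≤ A * (W * L ^ (1 - r) * (Ex M f') ^ r) * ((Ex M f) ^ r * (Ex M g) ^ (1 - r)) :=
        mul_le_mul_of_nonneg_left (nodes_holder hM N S hr0 hr1 hf hg)
          (mul_nonneg hA (mul_nonneg (mul_nonneg hW (Real.rpow_nonneg hL _)) hE'))
    _ = _ := by ring

/-- hypothesis HVW: the exact-scale bilinear bound for all divisors of `M` -/
def HVW (M : ℕ) (η κ C : ℝ) : Prop :=
  ∀ M' : ℕ, M' ∣ M → ∀ f f' : ℕ → ℝ, (∀ b, 0 ≤ f b ∧ f b ≤ 1) →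
    (∀ b, 0 ≤ f' b ∧ f' b ≤ 1) → ∀ X : ℝ, 0 < X →
    frm M' (fun b c => if X ≤ (Nat.gcd b c : ℝ) ∧ (Nat.gcd b c : ℝ) < κ * X
      then f b * f' c else 0) ≤ C * X ^ η * (Ex M' f * Ex M' f') ^ ((1 + η) / 2)

open Classical in
/-- **LEMMA H** from HVW, window `t L ≤ gcd < κ t L`, lists measured with `g` -/
theorem heavyCut_J2 {M : ℕ} (hM : 0 < M) (N : ℕ) (S : ℕ → ℕ → Prop)
    (E : ℕ → ℕ → Finset ℕ) {η κ C t L Γ J : ℝ} (hη0 : 0 ≤ η) (hη1 : η < 1)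
    (hC : 0 ≤ C) (ht : 0 < t) (hL : 0 < L) (hΓ : 0 < Γ) (hJ : 0 ≤ J) {f f' g : ℕ → ℝ}
    (hf : ∀ b, 0 ≤ f b ∧ f b ≤ 1) (hf' : ∀ b, 0 ≤ f' b ∧ f' b ≤ 1) (hg : ∀ b, 0 ≤ g b)
    (hvw : ∀ M' : ℕ, M' ∣ M → ∀ f f' : ℕ → ℝ, (∀ b, 0 ≤ f b ∧ f b ≤ 1) →
      (∀ b, 0 ≤ f' b ∧ f' b ≤ 1) → ∀ X : ℝ, 0 < X →
      frm M' (fun b c => if X ≤ (Nat.gcd b c : ℝ) ∧ (Nat.gcd b c : ℝ) < κ * X
        then f b * f' c else 0) ≤ C * X ^ η * (Ex M' f * Ex M' f') ^ ((1 + η) / 2))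
    (H2 : ∀ x T, x ≤ N → T ∣ upp x M → Fst S N x T → ((E x T).card : ℝ) ≤ J)
    (H3 : ∀ x T, x ≤ N → T ∣ upp x M → Fst S N x T → ∀ e ∈ E x T,
      (e : ℝ) * Γ ≤ L * mass M g x T) :
    L * frm M (fun b c =>
      if (∃ x ≤ N, Fst S N x b ∧ Nat.gcd (upp x b) c ∈ E x (upp x b)) ∧
        t * L ≤ (Nat.gcd b c : ℝ) ∧ (Nat.gcd b c : ℝ) < κ * (t * L) then f b * f' c else 0) ≤
      C * t ^ η * (J * Γ ^ (-((1 - η) / 2))) *
        ((L * Ex M f) ^ ((1 + η) / 2) * (L * Ex M g) ^ ((1 - η) / 2)) *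
        (L * Ex M f') ^ ((1 + η) / 2) := by
  have e0 : 1 - (1 + η) / 2 = (1 - η) / 2 := by ring
  have htL : 0 < t * L := mul_pos ht hL
  have h := heavyCut2 hM N S E (r := (1 + η) / 2) (A := C * (t * L) ^ η) (L := L)
    (W := J * Γ ^ (-((1 - η) / 2)))
    (by linarith) (by linarith) (mul_nonneg hC (Real.rpow_nonneg htL.le _)) hL.le
    (by positivity)
    (fun b => (hf b).1) (fun b => (hf' b).1) hg
    (K := fun b c => if t * L ≤ (Nat.gcd b c : ℝ) ∧ (Nat.gcd b c : ℝ) < κ * (t * L)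
      then f b * f' c else 0)
    (fun b c => by
      split_ifs
      · exact mul_nonneg (hf b).1 (hf' c).1
      · exact le_rfl)
    (fun x T T' _ hT hT' _ => node_exact hη1.le hC htL hf hf' hvw x T T' hT hT')
    (fun x T hx hT hF => by
      rw [e0]
      exact list_cond (by linarith) hΓ (H2 x T hx hT hF) (H3 x T hx hT hF)
        (mul_nonneg hL.le (mass_nonneg _ hg _ _)))
  rw [e0] at h
  have h2 : frm M (fun b c =>
      if (∃ x ≤ N, Fst S N x b ∧ Nat.gcd (upp x b) c ∈ E x (upp x b)) ∧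
        t * L ≤ (Nat.gcd b c : ℝ) ∧ (Nat.gcd b c : ℝ) < κ * (t * L) then f b * f' c else 0) ≤
      C * (t * L) ^ η * (J * Γ ^ (-((1 - η) / 2))) * L ^ ((1 - η) / 2) *
        (Ex M f ^ ((1 + η) / 2) * Ex M g ^ ((1 - η) / 2)) * Ex M f' ^ ((1 + η) / 2) := by
    refine le_trans (le_of_eq ?_) h
    refine frm_congr fun b c _ _ => ?_
    by_cases h1 : ∃ x ≤ N, Fst S N x b ∧ Nat.gcd (upp x b) c ∈ E x (upp x b)
    · by_cases h2 : t * L ≤ (Nat.gcd b c : ℝ) ∧ (Nat.gcd b c : ℝ) < κ * (t * L)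
      · rw [if_pos ⟨h1, h2⟩, if_pos h1, if_pos h2]
      · rw [if_neg (fun hc => h2 hc.2), if_pos h1, if_neg h2]
    · rw [if_neg (fun hc => h1 hc.1), if_neg h1]
  refine (mul_le_mul_of_nonneg_left h2 hL.le).trans (le_of_eq ?_)
  have hEf : 0 ≤ Ex M f := Ex_nonneg _ fun b => (hf b).1
  have hEf' : 0 ≤ Ex M f' := Ex_nonneg _ fun b => (hf' b).1
  have hEg : 0 ≤ Ex M g := Ex_nonneg _ hg
  rw [Real.mul_rpow ht.le hL.le, Real.mul_rpow hL.le hEf, Real.mul_rpow hL.le hEf',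
    Real.mul_rpow hL.le hEg]
  have h3 : L * L ^ η * L ^ ((1 - η) / 2) =
      L ^ ((1 + η) / 2) * L ^ ((1 - η) / 2) * L ^ ((1 + η) / 2) := by
    nth_rw 1 [← Real.rpow_one L]
    rw [← Real.rpow_add hL, ← Real.rpow_add hL, ← Real.rpow_add hL, ← Real.rpow_add hL]
    congr 1
    ring
  calc L * (C * (t ^ η * L ^ η) * (J * Γ ^ (-((1 - η) / 2))) * L ^ ((1 - η) / 2) *
        (Ex M f ^ ((1 + η) / 2) * Ex M g ^ ((1 - η) / 2)) * Ex M f' ^ ((1 + η) / 2))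
      = (L * L ^ η * L ^ ((1 - η) / 2)) * (C * t ^ η * (J * Γ ^ (-((1 - η) / 2)))) *
        (Ex M f ^ ((1 + η) / 2) * Ex M g ^ ((1 - η) / 2)) * Ex M f' ^ ((1 + η) / 2) := by ring
    _ = _ := by rw [h3]; ring

variable {M : ℕ} {F : FL M}

open Classical in
/-- **CLASS (H), one depth**, heavy measured with `g` -/
theorem class_J2 {M : ℕ} (hM : 0 < M) (F : FL M) (x : ℕ)
    {η C t L U H : ℝ} (hη0 : 0 ≤ η) (hη1 : η < 1)
    (hC : 0 ≤ C) (ht : 0 < t) (hL : 0 < L) (hU : 0 < U) (hH : 0 < H) {f f' g : ℕ → ℝ}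
    (hf : ∀ b, 0 ≤ f b ∧ f b ≤ 1) (hf' : ∀ b, 0 ≤ f' b ∧ f' b ≤ 1) (hg : ∀ b, 0 ≤ g b)
    (hvw : ∀ M' : ℕ, M' ∣ M → ∀ f f' : ℕ → ℝ, (∀ b, 0 ≤ f b ∧ f b ≤ 1) →
      (∀ b, 0 ≤ f' b ∧ f' b ≤ 1) → ∀ X : ℝ, 0 < X →
      frm M' (fun b c => if X ≤ (Nat.gcd b c : ℝ) ∧ (Nat.gcd b c : ℝ) < 2 * X
        then f b * f' c else 0) ≤ C * X ^ η * (Ex M' f * Ex M' f') ^ ((1 + η) / 2)) :
    L * frm M (fun b c =>
      if F.good x b c ∧ (F.uu x b : ℝ) ≤ U * L ∧ HeavyAt M g x H b ∧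
        t * L ≤ (Nat.gcd b c : ℝ) ∧ (Nat.gcd b c : ℝ) < 2 * (t * L) then f b * f' c else 0) ≤
      C * t ^ η * ((U / t) * (H / U) ^ (-((1 - η) / 2))) *
        ((L * Ex M f) ^ ((1 + η) / 2) * (L * Ex M g) ^ ((1 - η) / 2)) *
        (L * Ex M f') ^ ((1 + η) / 2) := by
  have hΓ : 0 < H / U := div_pos hH hU
  have hJ : 0 ≤ U / t := (div_pos hU ht).le
  have hm : ∀ z T, 0 ≤ mass M g z T := fun z T => mass_nonneg _ hg _ _
  have h := heavyCut_J2 hM x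
    (fun z T => H / U * ((upp z (F.uu x T) : ℕ) : ℝ) ≤ L * mass M g z T)
    (fun z T => lst F x (U / t) z T) hη0 hη1 hC ht hL hΓ hJ hf hf' hg hvw
    (fun z T _ _ _ => card_lst hJ)
    (fun z T _ _ hF e he => by
      have h1 := hF.1
      unfold lst at he
      rw [Finset.mem_filter, Nat.mem_divisors] at he
      have h2 : (e : ℝ) ≤ ((upp z (F.uu x T) : ℕ) : ℝ) := by
        exact_mod_cast Nat.le_of_dvd (upp_pos _ _) he.1.1
      have h3 : upp z T = T := by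
        rename_i _ hT
        have := upp_of_mul (x := z) (n := 1) (T := T) (M := M) (M' := M) (one_dvd _) hT
        rwa [one_mul] at this
      rw [h3] at h1
      calc (e : ℝ) * (H / U) ≤ ((upp z (F.uu x T) : ℕ) : ℝ) * (H / U) :=
            mul_le_mul_of_nonneg_right h2 hΓ.le
        _ = H / U * ((upp z (F.uu x T) : ℕ) : ℝ) := mul_comm _ _
        _ ≤ _ := h1)
  refine le_trans (mul_le_mul_of_nonneg_left (frm_mono fun b c hb hc => ?_) hL.le) h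
  by_cases h1 : F.good x b c ∧ (F.uu x b : ℝ) ≤ U * L ∧ HeavyAt M g x H b ∧
        t * L ≤ (Nat.gcd b c : ℝ) ∧ (Nat.gcd b c : ℝ) < 2 * (t * L)
  · obtain ⟨hgd, hu, ⟨z, hz, hHz⟩, h2, h3⟩ := h1
    have hS : H / U * ((upp z (F.uu x (upp z b)) : ℕ) : ℝ) ≤ L * mass M g z (upp z b) := by
      have e1 : (low z b : ℝ) * ((upp z (F.uu x (upp z b)) : ℕ) : ℝ) = F.uu x b := by
        exact_mod_cast low_mul_ux (F := F) hM hb hz
      have hu0 : (0 : ℝ) ≤ ((upp z (F.uu x (upp z b)) : ℕ) : ℝ) := Nat.cast_nonneg _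
      rw [div_mul_eq_mul_div, div_le_iff₀ hU]
      calc H * ((upp z (F.uu x (upp z b)) : ℕ) : ℝ)
          ≤ ((low z b : ℝ) * mass M g z (upp z b)) * ((upp z (F.uu x (upp z b)) : ℕ) : ℝ) :=
            mul_le_mul_of_nonneg_right hHz hu0
        _ = F.uu x b * mass M g z (upp z b) := by rw [← e1]; ring
        _ ≤ (U * L) * mass M g z (upp z b) := mul_le_mul_of_nonneg_right hu (hm _ _)
        _ = _ := by ring
    obtain ⟨w, hzw, hwx, hF⟩ := Fst_exists (S := fun z T => H / U *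
      ((upp z (F.uu x T) : ℕ) : ℝ) ≤ L * mass M g z T) (N := x) (b := b) hz hS
    rw [if_pos ⟨hgd, hu, ⟨z, hz, hHz⟩, h2, h3⟩,
      if_pos ⟨⟨w, hwx, hF, gcd_mem hM hb hc hwx hgd hL ht hu h2⟩, h2, h3⟩]
  · rw [if_neg h1]
    split_ifs
    · exact mul_nonneg (hf b).1 (hf' c).1
    · exact le_rfl

open Classical in
/-- **CLASS (H), all depths `K ≥ K₀`**, heavy measured with `g` -/
theorem class_K2 {M : ℕ} (hM : 0 < M) (F : FL M) (x : ℕ)
    {η C t L P K₀ : ℝ} (hη0 : 0 ≤ η) (hη1 : η < 1) (hP : 0 < P) (hs : 0 < sK η P)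
    (hC : 0 ≤ C) (ht : 0 < t) (hL : 0 < L) (hK₀ : 0 < K₀) {f f' g : ℕ → ℝ}
    (hf : ∀ b, 0 ≤ f b ∧ f b ≤ 1) (hf' : ∀ b, 0 ≤ f' b ∧ f' b ≤ 1)
    (hg : ∀ b, 0 ≤ g b ∧ g b ≤ 1)
    (hvw : ∀ M' : ℕ, M' ∣ M → ∀ f f' : ℕ → ℝ, (∀ b, 0 ≤ f b ∧ f b ≤ 1) →
      (∀ b, 0 ≤ f' b ∧ f' b ≤ 1) → ∀ X : ℝ, 0 < X →
      frm M' (fun b c => if X ≤ (Nat.gcd b c : ℝ) ∧ (Nat.gcd b c : ℝ) < 2 * X
        then f b * f' c else 0) ≤ C * X ^ η * (Ex M' f * Ex M' f') ^ ((1 + η) / 2)) :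
    L * frm M (fun b c =>
      if F.good x b c ∧ HvK F g L P K₀ x b ∧
        t * L ≤ (Nat.gcd b c : ℝ) ∧ (Nat.gcd b c : ℝ) < 2 * (t * L) then f b * f' c else 0) ≤
      C * (8 ^ (1 + (1 - η) / 2) / (1 - 2 ^ (-(sK η P)))) * t ^ (η - 1) * K₀ ^ (-(sK η P)) *
        ((L * Ex M f) ^ ((1 + η) / 2) * (L * Ex M g) ^ ((1 - η) / 2)) *
        (L * Ex M f') ^ ((1 + η) / 2) := by
  set s := sK η P with hsd
  obtain ⟨N, hN⟩ : ∃ N : ℕ, (M : ℝ) < (2 ^ N * K₀) ^ P := by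
    obtain ⟨N, hN⟩ := pow_unbounded_of_one_lt (((M : ℝ) + 1) ^ P⁻¹ / K₀)
      (by norm_num : (1 : ℝ) < 2)
    refine ⟨N, ?_⟩
    have h1 : ((M : ℝ) + 1) ^ P⁻¹ < 2 ^ N * K₀ := (div_lt_iff₀ hK₀).1 hN
    have h2 : (((M : ℝ) + 1) ^ P⁻¹) ^ P ≤ (2 ^ N * K₀) ^ P :=
      Real.rpow_le_rpow (by positivity) h1.le hP.le
    rw [← Real.rpow_mul (by positivity), inv_mul_cancel₀ hP.ne', Real.rpow_one] at h2
    linarith
  have h1 : L * frm M (fun b c =>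
      if F.good x b c ∧ HvK F g L P K₀ x b ∧
        t * L ≤ (Nat.gcd b c : ℝ) ∧ (Nat.gcd b c : ℝ) < 2 * (t * L) then f b * f' c else 0) ≤
      ∑ j ∈ range N, L * frm M (fun b c =>
      if F.good x b c ∧ (F.uu x b : ℝ) ≤ (8 * (2 ^ j * K₀) ^ 2) * L ∧
        HeavyAt M g x ((2 ^ j * K₀) ^ P) b ∧
        t * L ≤ (Nat.gcd b c : ℝ) ∧ (Nat.gcd b c : ℝ) < 2 * (t * L) then f b * f' c else 0) := by
    rw [← Finset.mul_sum, frm_sum]
    refine mul_le_mul_of_nonneg_left (frm_mono fun b c hb hc => ?_) hL.le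
    have hterm : ∀ j ∈ range N, (0 : ℝ) ≤
        if F.good x b c ∧ (F.uu x b : ℝ) ≤ (8 * (2 ^ j * K₀) ^ 2) * L ∧
        HeavyAt M g x ((2 ^ j * K₀) ^ P) b ∧
        t * L ≤ (Nat.gcd b c : ℝ) ∧ (Nat.gcd b c : ℝ) < 2 * (t * L)
        then f b * f' c else 0 := by
      intro j _
      split_ifs
      · exact mul_nonneg (hf b).1 (hf' c).1
      · exact le_rfl
    by_cases h : F.good x b c ∧ HvK F g L P K₀ x b ∧
        t * L ≤ (Nat.gcd b c : ℝ) ∧ (Nat.gcd b c : ℝ) < 2 * (t * L)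
    swap
    · rw [if_neg h]
      exact Finset.sum_nonneg hterm
    obtain ⟨hgd, ⟨K, hK, hu, hH⟩, h2, h3⟩ := h
    obtain ⟨j, hj, hj'⟩ := exists_dyad hK₀ hK
    have hKj : (0 : ℝ) < 2 ^ j * K₀ := by positivity
    have hH' : HeavyAt M g x ((2 ^ j * K₀) ^ P) b :=
      HeavyAt_mono (Real.rpow_le_rpow hKj.le hj hP.le) hH
    have hjN : j ∈ range N := by
      rw [Finset.mem_range]
      by_contra hcon
      push Not at hcon
      have h4 := HeavyAt_le hM hg hb hH'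
      have h5 : (2 ^ N * K₀) ^ P ≤ (2 ^ j * K₀) ^ P := by
        refine Real.rpow_le_rpow (by positivity) ?_ hP.le
        exact mul_le_mul_of_nonneg_right (pow_le_pow_right₀ (by norm_num) hcon) hK₀.le
      linarith
    have hu' : (F.uu x b : ℝ) ≤ (8 * (2 ^ j * K₀) ^ 2) * L := by
      refine hu.trans (mul_le_mul_of_nonneg_right ?_ hL.le)
      have h6 : K ≤ 2 * (2 ^ j * K₀) := by
        rw [pow_succ] at hj'
        linarith
      have h7 : 0 ≤ K := hKj.le.trans hj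
      nlinarith
    refine le_trans ?_ (Finset.single_le_sum hterm hjN)
    rw [if_pos ⟨hgd, ⟨K, hK, hu, hH⟩, h2, h3⟩, if_pos ⟨hgd, hu', hH', h2, h3⟩]
  refine h1.trans ?_
  have hE' : 0 ≤ L * Ex M f' := mul_nonneg hL.le (Ex_nonneg _ fun b => (hf' b).1)
  have hE : 0 ≤ L * Ex M f := mul_nonneg hL.le (Ex_nonneg _ fun b => (hf b).1)
  have hEg : 0 ≤ L * Ex M g := mul_nonneg hL.le (Ex_nonneg _ fun b => (hg b).1)
  have hterm : ∀ j ∈ range N, L * frm M (fun b c =>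
      if F.good x b c ∧ (F.uu x b : ℝ) ≤ (8 * (2 ^ j * K₀) ^ 2) * L ∧
        HeavyAt M g x ((2 ^ j * K₀) ^ P) b ∧
        t * L ≤ (Nat.gcd b c : ℝ) ∧ (Nat.gcd b c : ℝ) < 2 * (t * L) then f b * f' c else 0) ≤
      (C * 8 ^ (1 + (1 - η) / 2) * t ^ (η - 1) * K₀ ^ (-s) *
        ((L * Ex M f) ^ ((1 + η) / 2) * (L * Ex M g) ^ ((1 - η) / 2)) *
        (L * Ex M f') ^ ((1 + η) / 2)) * (2 ^ (-s)) ^ j := by
    intro j _
    have hKj : (0 : ℝ) < 2 ^ j * K₀ := by positivity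
    have h2 := class_J2 hM F x (η := η) (C := C) (t := t) (L := L) (U := 8 * (2 ^ j * K₀) ^ 2)
      (H := (2 ^ j * K₀) ^ P) hη0 hη1 hC ht hL (by positivity) (Real.rpow_pos_of_pos hKj _)
      hf hf' (fun b => (hg b).1) hvw
    refine h2.trans (le_of_eq ?_)
    have h3 := cost_eq (η := η) (P := P) hKj ht
    rw [← hsd] at h3
    have h4 : (2 ^ j * K₀) ^ (-s) = (2 ^ (-s)) ^ j * K₀ ^ (-s) := by
      rw [Real.mul_rpow (by positivity) hK₀.le, ← Real.rpow_natCast, ← Real.rpow_natCast,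
        ← Real.rpow_mul (by norm_num), ← Real.rpow_mul (by norm_num)]
      congr 2
      ring
    rw [h4] at h3
    calc C * t ^ η * ((8 * (2 ^ j * K₀) ^ 2 / t) *
          ((2 ^ j * K₀) ^ P / (8 * (2 ^ j * K₀) ^ 2)) ^ (-((1 - η) / 2))) *
          ((L * Ex M f) ^ ((1 + η) / 2) * (L * Ex M g) ^ ((1 - η) / 2)) *
            (L * Ex M f') ^ ((1 + η) / 2)
        = C * (t ^ η * ((8 * (2 ^ j * K₀) ^ 2 / t) *
          ((2 ^ j * K₀) ^ P / (8 * (2 ^ j * K₀) ^ 2)) ^ (-((1 - η) / 2)))) *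
          ((L * Ex M f) ^ ((1 + η) / 2) * (L * Ex M g) ^ ((1 - η) / 2)) *
            (L * Ex M f') ^ ((1 + η) / 2) := by ring
      _ = _ := by rw [h3]; ring
  refine (Finset.sum_le_sum hterm).trans ?_
  rw [← Finset.mul_sum]
  have h2s : (2 : ℝ) ^ (-s) < 1 := Real.rpow_lt_one_of_one_lt_of_neg (by norm_num) (by linarith)
  have h2s0 : (0 : ℝ) < (2 : ℝ) ^ (-s) := Real.rpow_pos_of_pos (by norm_num) _
  have hgeo : ∑ j ∈ range N, ((2 : ℝ) ^ (-s)) ^ j ≤ (1 - 2 ^ (-s))⁻¹ := by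
    have := Summable.sum_le_tsum (range N) (fun j _ => pow_nonneg h2s0.le j)
      (summable_geometric_of_lt_one h2s0.le h2s)
    rwa [tsum_geometric_of_lt_one h2s0.le h2s] at this
  have hA : 0 ≤ C * 8 ^ (1 + (1 - η) / 2) * t ^ (η - 1) * K₀ ^ (-s) *
        ((L * Ex M f) ^ ((1 + η) / 2) * (L * Ex M g) ^ ((1 - η) / 2)) *
        (L * Ex M f') ^ ((1 + η) / 2) := by positivity
  refine (mul_le_mul_of_nonneg_left hgeo hA).trans (le_of_eq ?_)
  rw [div_eq_mul_inv]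
  ring

/-! ### sets -/

open Crest.Agent.R4C.FLExx326 (ind)

lemma Ex_ind {M : ℕ} {B : Finset ℕ} (hB : B ⊆ M.divisors) :
    Ex M (ind B) = ∑ b ∈ B, nu M b := Crest.Agent.R4C.GlueHx81.Ex_ind hB

lemma ind01 (B : Finset ℕ) (b : ℕ) : 0 ≤ ind B b ∧ ind B b ≤ 1 :=
  ⟨Crest.Agent.R4C.FLExx326.ind_nonneg B b, Crest.Agent.R4C.FLExx326.ind_le_one B b⟩

/-- `m₁^r m^(1-r) m₂^r ≤ √(m₁ m₂)` for `m₁, m₂, m ≤ 1`, `r = (1+η)/2` -/
lemma pow_le_sqrt {η a b m : ℝ} (hη0 : 0 ≤ η) (hη1 : η ≤ 1) (ha0 : 0 ≤ a) (ha1 : a ≤ 1)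
    (hb0 : 0 ≤ b) (hb1 : b ≤ 1) (hm0 : 0 ≤ m) (hm1 : m ≤ 1) :
    (a ^ ((1 + η) / 2) * m ^ ((1 - η) / 2)) * b ^ ((1 + η) / 2) ≤ Real.sqrt (a * b) := by
  have h1 : m ^ ((1 - η) / 2) ≤ 1 := Real.rpow_le_one hm0 hm1 (by linarith)
  have h2 : ∀ z : ℝ, 0 ≤ z → z ≤ 1 → z ^ ((1 + η) / 2) ≤ z ^ (1 / 2 : ℝ) := by
    intro z hz0 hz1
    rcases hz0.eq_or_lt with h | h
    · rw [← h, Real.zero_rpow (by linarith), Real.zero_rpow (by norm_num)]
    · exact Real.rpow_le_rpow_of_exponent_ge h hz1 (by linarith)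
  rw [Real.sqrt_eq_rpow, Real.mul_rpow ha0 hb0]
  have h3 := h2 a ha0 ha1
  have h4 := h2 b hb0 hb1
  have e1 : 0 ≤ a ^ ((1 + η) / 2) := Real.rpow_nonneg ha0 _
  have e2 : 0 ≤ b ^ ((1 + η) / 2) := Real.rpow_nonneg hb0 _
  have e3 : 0 ≤ a ^ (1 / 2 : ℝ) := Real.rpow_nonneg ha0 _
  have e4 : 0 ≤ m ^ ((1 - η) / 2) := Real.rpow_nonneg hm0 _
  calc (a ^ ((1 + η) / 2) * m ^ ((1 - η) / 2)) * b ^ ((1 + η) / 2)
      ≤ (a ^ (1 / 2 : ℝ) * 1) * b ^ (1 / 2 : ℝ) :=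
        mul_le_mul (mul_le_mul h3 h1 e4 e3) h4 e2 (by positivity)
    _ = _ := by ring

/-- an indicator sum over `S × S'` is a form -/
lemma sum_le_frm {M : ℕ} {S S' : Finset ℕ} (hS : S ⊆ M.divisors) (hS' : S' ⊆ M.divisors)
    (Q : ℕ → ℕ → Prop) [∀ b c, Decidable (Q b c)] :
    ∑ b ∈ S, ∑ c ∈ S', (if Q b c then (Nat.gcd b c : ℝ) * nu M b * nu M c else 0) ≤
      frm M (fun b c => if Q b c then ind S b * ind S' c else 0) := by
  have hg0 : ∀ b c, 0 ≤ (Nat.gcd b c : ℝ) * nu M b * nu M c := fun b c =>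
    mul_nonneg (mul_nonneg (Nat.cast_nonneg _) (nu_nonneg _ _)) (nu_nonneg _ _)
  have hi0 : ∀ b c, (0 : ℝ) ≤ if Q b c then ind S b * ind S' c else 0 := by
    intro b c
    split_ifs
    · exact mul_nonneg (ind01 S b).1 (ind01 S' c).1
    · exact le_rfl
  unfold frm
  refine le_trans (Finset.sum_le_sum fun b hb => ?_)
    (Finset.sum_le_sum_of_subset_of_nonneg hS fun b _ _ => Finset.sum_nonneg fun c _ =>
      mul_nonneg (hg0 b c) (hi0 b c))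
  refine le_trans (Finset.sum_le_sum fun c hc => ?_)
    (Finset.sum_le_sum_of_subset_of_nonneg hS' fun c _ _ => mul_nonneg (hg0 b c) (hi0 b c))
  beta_reduce
  by_cases h : Q b c
  · rw [if_pos h, if_pos h]
    unfold ind
    rw [if_pos hb, if_pos hc]
    simp
  · rw [if_neg h, if_neg h, mul_zero]

/-- **class (K), one member `HvK`, one dyadic scale, sets** -/
theorem classK_one {η P : ℝ} (hη0 : 0 < η) (hη1 : η < 1) (hP : 0 < P) (hs : 0 < sK η P) :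
    ∃ C : ℝ, 0 < C ∧ ∀ (M : ℕ) (F : FL M) (B S S' : Finset ℕ) (x : ℕ) (L t K₀ : ℝ)
      (Q : ℕ → ℕ → Prop) [∀ b c, Decidable (Q b c)], 0 < M → B ⊆ M.divisors → S ⊆ B → S' ⊆ B →
      0 < L → 0 < t → 0 < K₀ → L * ∑ b ∈ B, nu M b ≤ 1 →
      (∀ b ∈ S, ∀ c ∈ S', Q b c → F.good x b c ∧ HvK F (ind B) L P K₀ x b ∧
        t * L ≤ (Nat.gcd b c : ℝ) ∧ (Nat.gcd b c : ℝ) < 2 * (t * L)) →
      L * ∑ b ∈ S, ∑ c ∈ S', (if Q b c then (Nat.gcd b c : ℝ) * nu M b * nu M c else 0) ≤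
        C * t ^ (η - 1) * K₀ ^ (-(sK η P)) *
          Real.sqrt ((L * ∑ b ∈ S, nu M b) * (L * ∑ c ∈ S', nu M c)) := by
  classical
  obtain ⟨C, hC, h⟩ := Crest.Agent.R4C.HeavyUx50.hvw hη0 hη1
  have h2s : (2 : ℝ) ^ (-(sK η P)) < 1 :=
    Real.rpow_lt_one_of_one_lt_of_neg (by norm_num) (by linarith)
  have h2s' : (0 : ℝ) < 1 - 2 ^ (-(sK η P)) := by linarith
  refine ⟨C * (8 ^ (1 + (1 - η) / 2) / (1 - 2 ^ (-(sK η P)))), by positivity,
    fun M F B S S' x L t K₀ Q _ hM hB hS hS' hL ht hK₀ hm hQ => ?_⟩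
  have h1 := class_K2 hM F x (η := η) (C := C) (t := t) (L := L) (P := P) (K₀ := K₀)
    hη0.le hη1 hP hs hC.le ht hL hK₀ (f := ind S) (f' := ind S') (g := ind B)
    (ind01 S) (ind01 S') (ind01 B)
    (fun M' hM' => h M' (Nat.pos_of_dvd_of_pos hM' hM))
  rw [Ex_ind hB, Ex_ind (hS.trans hB), Ex_ind (hS'.trans hB)] at h1
  have hν : ∀ T : Finset ℕ, 0 ≤ L * ∑ b ∈ T, nu M b := fun T =>
    mul_nonneg hL.le (Finset.sum_nonneg fun b _ => nu_nonneg M b)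
  have hle : ∀ T : Finset ℕ, T ⊆ B → L * ∑ b ∈ T, nu M b ≤ 1 := fun T hT =>
    (mul_le_mul_of_nonneg_left (Finset.sum_le_sum_of_subset_of_nonneg hT fun b _ _ =>
      nu_nonneg M b) hL.le).trans hm
  have h2 := pow_le_sqrt hη0.le hη1.le (hν S) (hle S hS) (hν S') (hle S' hS') (hν B) hm
  have h3 : L * ∑ b ∈ S, ∑ c ∈ S',
      (if Q b c then (Nat.gcd b c : ℝ) * nu M b * nu M c else 0) ≤
      L * frm M (fun b c =>
      if F.good x b c ∧ HvK F (ind B) L P K₀ x b ∧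
        t * L ≤ (Nat.gcd b c : ℝ) ∧ (Nat.gcd b c : ℝ) < 2 * (t * L)
        then ind S b * ind S' c else 0) := by
    refine mul_le_mul_of_nonneg_left ?_ hL.le
    refine le_trans (Finset.sum_le_sum fun b hb => Finset.sum_le_sum fun c hc => ?_)
      (sum_le_frm (hS.trans hB) (hS'.trans hB) (fun b c =>
        F.good x b c ∧ HvK F (ind B) L P K₀ x b ∧
        t * L ≤ (Nat.gcd b c : ℝ) ∧ (Nat.gcd b c : ℝ) < 2 * (t * L)))
    by_cases hq : Q b c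
    · rw [if_pos hq, if_pos (hQ b hb c hc hq)]
    · rw [if_neg hq]
      split_ifs
      · exact mul_nonneg (mul_nonneg (Nat.cast_nonneg _) (nu_nonneg _ _)) (nu_nonneg _ _)
      · exact le_rfl
  refine h3.trans (h1.trans ?_)
  rw [mul_assoc (C * (8 ^ (1 + (1 - η) / 2) / (1 - 2 ^ (-(sK η P)))) * t ^ (η - 1) *
    K₀ ^ (-(sK η P)))]
  exact mul_le_mul_of_nonneg_left h2 (by positivity)

/-- swapping the roles -/
lemma sum_swap' {M : ℕ} (S S' : Finset ℕ) (Q : ℕ → ℕ → Prop) [∀ b c, Decidable (Q b c)] :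
    ∑ b ∈ S, ∑ c ∈ S', (if Q b c then (Nat.gcd b c : ℝ) * nu M b * nu M c else 0) =
    ∑ c ∈ S', ∑ b ∈ S, (if Q b c then (Nat.gcd c b : ℝ) * nu M c * nu M b else 0) := by
  rw [Finset.sum_comm]
  refine Finset.sum_congr rfl fun c _ => Finset.sum_congr rfl fun b _ => ?_
  rw [Nat.gcd_comm b c, mul_right_comm]

/-- **class (K), either member `HvK`, one dyadic scale, sets** -/
theorem classK_bil {η P : ℝ} (hη0 : 0 < η) (hη1 : η < 1) (hP : 0 < P) (hs : 0 < sK η P) :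
    ∃ C : ℝ, 0 < C ∧ ∀ (M : ℕ) (F : FL M) (B S S' : Finset ℕ) (x : ℕ) (L t K₀ : ℝ)
      (Q : ℕ → ℕ → Prop) [∀ b c, Decidable (Q b c)], 0 < M → B ⊆ M.divisors → S ⊆ B → S' ⊆ B →
      0 < L → 0 < t → 0 < K₀ → L * ∑ b ∈ B, nu M b ≤ 1 →
      (∀ b ∈ S, ∀ c ∈ S', Q b c → F.good x b c ∧
        (HvK F (ind B) L P K₀ x b ∨ HvK F (ind B) L P K₀ x c) ∧
        t * L ≤ (Nat.gcd b c : ℝ) ∧ (Nat.gcd b c : ℝ) < 2 * (t * L)) →
      L * ∑ b ∈ S, ∑ c ∈ S', (if Q b c then (Nat.gcd b c : ℝ) * nu M b * nu M c else 0) ≤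
        C * t ^ (η - 1) * K₀ ^ (-(sK η P)) *
          Real.sqrt ((L * ∑ b ∈ S, nu M b) * (L * ∑ c ∈ S', nu M c)) := by
  classical
  obtain ⟨C, hC, h⟩ := classK_one hη0 hη1 hP hs
  refine ⟨2 * C, by positivity, fun M F B S S' x L t K₀ Q _ hM hB hS hS' hL ht hK₀ hm hQ => ?_⟩
  have h1 := h M F B S S' x L t K₀ (fun b c => Q b c ∧ HvK F (ind B) L P K₀ x b)
    hM hB hS hS' hL ht hK₀ hm (fun b hb c hc hq =>
      ⟨(hQ b hb c hc hq.1).1, hq.2, (hQ b hb c hc hq.1).2.2⟩)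
  have h2 := h M F B S' S x L t K₀ (fun c b => Q b c ∧ HvK F (ind B) L P K₀ x c)
    hM hB hS' hS hL ht hK₀ hm (fun c hc b hb hq => by
      have h3 := hQ b hb c hc hq.1
      refine ⟨FL.good_symm (Nat.dvd_of_mem_divisors (hB (hS hb)))
        (Nat.dvd_of_mem_divisors (hB (hS' hc))) h3.1, hq.2, ?_⟩
      rw [Nat.gcd_comm]
      exact h3.2.2)
  rw [mul_comm (L * ∑ b ∈ S', nu M b)] at h2
  have h4 : ∑ b ∈ S, ∑ c ∈ S', (if Q b c then (Nat.gcd b c : ℝ) * nu M b * nu M c else 0) ≤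
      ∑ b ∈ S, ∑ c ∈ S', (if Q b c ∧ HvK F (ind B) L P K₀ x b then
        (Nat.gcd b c : ℝ) * nu M b * nu M c else 0) +
      ∑ c ∈ S', ∑ b ∈ S, (if Q b c ∧ HvK F (ind B) L P K₀ x c then
        (Nat.gcd c b : ℝ) * nu M c * nu M b else 0) := by
    rw [← sum_swap' (M := M) S S' (fun b c => Q b c ∧ HvK F (ind B) L P K₀ x c),
      ← Finset.sum_add_distrib]
    refine Finset.sum_le_sum fun b hb => ?_
    rw [← Finset.sum_add_distrib]
    refine Finset.sum_le_sum fun c hc => ?_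
    have h0 : 0 ≤ (Nat.gcd b c : ℝ) * nu M b * nu M c :=
      mul_nonneg (mul_nonneg (Nat.cast_nonneg _) (nu_nonneg _ _)) (nu_nonneg _ _)
    by_cases hq : Q b c
    · rcases (hQ b hb c hc hq).2.1 with h5 | h5
      · rw [if_pos hq, if_pos ⟨hq, h5⟩]
        refine le_add_of_nonneg_right ?_
        split_ifs
        · exact h0
        · exact le_rfl
      · rw [if_pos hq, if_pos (⟨hq, h5⟩ : Q b c ∧ HvK F (ind B) L P K₀ x c)]
        refine le_add_of_nonneg_left ?_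
        split_ifs
        · exact h0
        · exact le_rfl
    · rw [if_neg hq]
      refine add_nonneg ?_ ?_ <;>
      · split_ifs
        · exact h0
        · exact le_rfl
  calc L * ∑ b ∈ S, ∑ c ∈ S', (if Q b c then (Nat.gcd b c : ℝ) * nu M b * nu M c else 0)
      ≤ L * (∑ b ∈ S, ∑ c ∈ S', (if Q b c ∧ HvK F (ind B) L P K₀ x b then
        (Nat.gcd b c : ℝ) * nu M b * nu M c else 0) +
      ∑ c ∈ S', ∑ b ∈ S, (if Q b c ∧ HvK F (ind B) L P K₀ x c then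
        (Nat.gcd c b : ℝ) * nu M c * nu M b else 0)) := mul_le_mul_of_nonneg_left h4 hL.le
    _ ≤ C * t ^ (η - 1) * K₀ ^ (-(sK η P)) *
          Real.sqrt ((L * ∑ b ∈ S, nu M b) * (L * ∑ c ∈ S', nu M c)) +
        C * t ^ (η - 1) * K₀ ^ (-(sK η P)) *
          Real.sqrt ((L * ∑ b ∈ S, nu M b) * (L * ∑ c ∈ S', nu M c)) := by
        rw [mul_add]
        exact add_le_add h1 h2
    _ = _ := by ring

/-- **class (K), either member `HvK`, all scales `L ≤ Λ gcd`, sets** -/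
theorem classK_scales {η P : ℝ} (hη0 : 0 < η) (hη1 : η < 1) (hP : 0 < P) (hs : 0 < sK η P) :
    ∃ C : ℝ, 0 < C ∧ ∀ (M : ℕ) (F : FL M) (B S S' : Finset ℕ) (x : ℕ) (L Λ K₀ : ℝ)
      (Q : ℕ → ℕ → Prop) [∀ b c, Decidable (Q b c)], 0 < M → B ⊆ M.divisors → S ⊆ B → S' ⊆ B →
      0 < L → 0 < Λ → 0 < K₀ → L * ∑ b ∈ B, nu M b ≤ 1 →
      (∀ b ∈ S, ∀ c ∈ S', Q b c → F.good x b c ∧
        (HvK F (ind B) L P K₀ x b ∨ HvK F (ind B) L P K₀ x c) ∧
        L ≤ Λ * (Nat.gcd b c : ℝ)) →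
      L * ∑ b ∈ S, ∑ c ∈ S', (if Q b c then (Nat.gcd b c : ℝ) * nu M b * nu M c else 0) ≤
        C * Λ ^ (1 - η) * K₀ ^ (-(sK η P)) *
          Real.sqrt ((L * ∑ b ∈ S, nu M b) * (L * ∑ c ∈ S', nu M c)) := by
  classical
  obtain ⟨C, hC, h⟩ := classK_bil hη0 hη1 hP hs
  have hq1 : (2 : ℝ) ^ (η - 1) < 1 :=
    Real.rpow_lt_one_of_one_lt_of_neg (by norm_num) (by linarith)
  have hq0 : (0 : ℝ) < (2 : ℝ) ^ (η - 1) := Real.rpow_pos_of_pos (by norm_num) _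
  have hq2 : (0 : ℝ) < 1 - 2 ^ (η - 1) := by linarith
  refine ⟨C * (1 - 2 ^ (η - 1))⁻¹, by positivity,
    fun M F B S S' x L Λ K₀ Q _ hM hB hS hS' hL hΛ hK₀ hm hQ => ?_⟩
  -- the dyadic scales
  obtain ⟨N, hN⟩ : ∃ N : ℕ, (M : ℝ) < 2 ^ N * (Λ⁻¹ * L) := by
    obtain ⟨N, hN⟩ := pow_unbounded_of_one_lt ((M : ℝ) / (Λ⁻¹ * L)) (by norm_num : (1 : ℝ) < 2)
    exact ⟨N, (div_lt_iff₀ (by positivity)).1 hN⟩
  have h1 : ∀ j ∈ range N, L * ∑ b ∈ S, ∑ c ∈ S', (if Q b c ∧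
      2 ^ j * Λ⁻¹ * L ≤ (Nat.gcd b c : ℝ) ∧ (Nat.gcd b c : ℝ) < 2 * (2 ^ j * Λ⁻¹ * L) then
        (Nat.gcd b c : ℝ) * nu M b * nu M c else 0) ≤
      (C * Λ ^ (1 - η) * K₀ ^ (-(sK η P)) *
          Real.sqrt ((L * ∑ b ∈ S, nu M b) * (L * ∑ c ∈ S', nu M c))) * (2 ^ (η - 1)) ^ j := by
    intro j _
    refine (h M F B S S' x L (2 ^ j * Λ⁻¹) K₀ (fun b c => Q b c ∧
      2 ^ j * Λ⁻¹ * L ≤ (Nat.gcd b c : ℝ) ∧ (Nat.gcd b c : ℝ) < 2 * (2 ^ j * Λ⁻¹ * L))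
      hM hB hS hS' hL (by positivity) hK₀ hm (fun b hb c hc hq =>
        ⟨(hQ b hb c hc hq.1).1, (hQ b hb c hc hq.1).2.1, hq.2⟩)).trans (le_of_eq ?_)
    have e1 : ((2 : ℝ) ^ j * Λ⁻¹) ^ (η - 1) = (2 ^ (η - 1)) ^ j * Λ ^ (1 - η) := by
      rw [Real.mul_rpow (by positivity) (by positivity), Real.inv_rpow hΛ.le,
        ← Real.rpow_neg hΛ.le, ← Real.rpow_natCast, ← Real.rpow_natCast,
        ← Real.rpow_mul (by norm_num), ← Real.rpow_mul (by norm_num), neg_sub, mul_comm (j : ℝ)]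
    rw [e1]
    ring
  have h2 : ∑ b ∈ S, ∑ c ∈ S', (if Q b c then (Nat.gcd b c : ℝ) * nu M b * nu M c else 0) ≤
      ∑ j ∈ range N, ∑ b ∈ S, ∑ c ∈ S', (if Q b c ∧
      2 ^ j * Λ⁻¹ * L ≤ (Nat.gcd b c : ℝ) ∧ (Nat.gcd b c : ℝ) < 2 * (2 ^ j * Λ⁻¹ * L) then
        (Nat.gcd b c : ℝ) * nu M b * nu M c else 0) := by
    have hcomm : ∑ j ∈ range N, ∑ b ∈ S, ∑ c ∈ S', (if Q b c ∧
      2 ^ j * Λ⁻¹ * L ≤ (Nat.gcd b c : ℝ) ∧ (Nat.gcd b c : ℝ) < 2 * (2 ^ j * Λ⁻¹ * L) then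
        (Nat.gcd b c : ℝ) * nu M b * nu M c else 0) =
        ∑ b ∈ S, ∑ c ∈ S', ∑ j ∈ range N, (if Q b c ∧
      2 ^ j * Λ⁻¹ * L ≤ (Nat.gcd b c : ℝ) ∧ (Nat.gcd b c : ℝ) < 2 * (2 ^ j * Λ⁻¹ * L) then
        (Nat.gcd b c : ℝ) * nu M b * nu M c else 0) := by
      rw [Finset.sum_comm]
      exact Finset.sum_congr rfl fun b _ => Finset.sum_comm
    rw [hcomm]
    refine Finset.sum_le_sum fun b hb => Finset.sum_le_sum fun c hc => ?_
    have h0 : 0 ≤ (Nat.gcd b c : ℝ) * nu M b * nu M c :=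
      mul_nonneg (mul_nonneg (Nat.cast_nonneg _) (nu_nonneg _ _)) (nu_nonneg _ _)
    have hterm : ∀ j ∈ range N, (0 : ℝ) ≤ (if Q b c ∧
      2 ^ j * Λ⁻¹ * L ≤ (Nat.gcd b c : ℝ) ∧ (Nat.gcd b c : ℝ) < 2 * (2 ^ j * Λ⁻¹ * L) then
        (Nat.gcd b c : ℝ) * nu M b * nu M c else 0) := by
      intro j _
      split_ifs
      · exact h0
      · exact le_rfl
    by_cases hq : Q b c
    · have hb' := Nat.dvd_of_mem_divisors (hB (hS hb))
      have h3 := (hQ b hb c hc hq).2.2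
      have h4 : 1 ≤ (Nat.gcd b c : ℝ) / (Λ⁻¹ * L) := by
        rw [le_div_iff₀ (by positivity), one_mul, inv_mul_le_iff₀ hΛ]
        exact h3
      obtain ⟨j, hj, hj'⟩ := exists_nat_pow_near h4 (by norm_num : (1 : ℝ) < 2)
      rw [le_div_iff₀ (by positivity)] at hj
      rw [div_lt_iff₀ (by positivity)] at hj'
      have hjN : j ∈ range N := by
        rw [Finset.mem_range]
        by_contra hcon
        push Not at hcon
        have h5 : (Nat.gcd b c : ℝ) ≤ M := by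
          exact_mod_cast Nat.le_of_dvd hM ((Nat.gcd_dvd_left b c).trans hb')
        have h6 : (2 : ℝ) ^ N * (Λ⁻¹ * L) ≤ 2 ^ j * (Λ⁻¹ * L) :=
          mul_le_mul_of_nonneg_right (pow_le_pow_right₀ (by norm_num) hcon) (by positivity)
        linarith
      refine le_trans ?_ (Finset.single_le_sum hterm hjN)
      rw [if_pos hq, if_pos ⟨hq, by rw [mul_assoc]; exact hj, by
        have e2 : 2 * ((2 : ℝ) ^ j * Λ⁻¹ * L) = 2 ^ (j + 1) * (Λ⁻¹ * L) := by ring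
        rw [e2]
        exact hj'⟩]
    · rw [if_neg hq]
      exact Finset.sum_nonneg hterm
  have hgeo : ∑ j ∈ range N, ((2 : ℝ) ^ (η - 1)) ^ j ≤ (1 - 2 ^ (η - 1))⁻¹ := by
    have := Summable.sum_le_tsum (range N) (fun j _ => pow_nonneg hq0.le j)
      (summable_geometric_of_lt_one hq0.le hq1)
    rwa [tsum_geometric_of_lt_one hq0.le hq1] at this
  have hA : 0 ≤ C * Λ ^ (1 - η) * K₀ ^ (-(sK η P)) *
          Real.sqrt ((L * ∑ b ∈ S, nu M b) * (L * ∑ c ∈ S', nu M c)) := by positivity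
  calc L * ∑ b ∈ S, ∑ c ∈ S', (if Q b c then (Nat.gcd b c : ℝ) * nu M b * nu M c else 0)
      ≤ L * ∑ j ∈ range N, ∑ b ∈ S, ∑ c ∈ S', (if Q b c ∧
      2 ^ j * Λ⁻¹ * L ≤ (Nat.gcd b c : ℝ) ∧ (Nat.gcd b c : ℝ) < 2 * (2 ^ j * Λ⁻¹ * L) then
        (Nat.gcd b c : ℝ) * nu M b * nu M c else 0) := mul_le_mul_of_nonneg_left h2 hL.le
    _ ≤ ∑ j ∈ range N, (C * Λ ^ (1 - η) * K₀ ^ (-(sK η P)) *
          Real.sqrt ((L * ∑ b ∈ S, nu M b) * (L * ∑ c ∈ S', nu M c))) * (2 ^ (η - 1)) ^ j := by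
        rw [Finset.mul_sum]
        exact Finset.sum_le_sum h1
    _ ≤ (C * Λ ^ (1 - η) * K₀ ^ (-(sK η P)) *
          Real.sqrt ((L * ∑ b ∈ S, nu M b) * (L * ∑ c ∈ S', nu M c))) *
          (1 - 2 ^ (η - 1))⁻¹ := by
        rw [← Finset.mul_sum]
        exact mul_le_mul_of_nonneg_left hgeo hA
    _ = _ := by ring

end Crest.Agent.R4C.HvySetx281
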