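import Crest.Agent.R4C.HypT_516
import Crest.Agent.R4C.HDdef_529

/-!
# Row 4, GW section: the natural hypothesis per prefix in the form of `HDdef_529` (helper516)

`Err Z δ KE` : at every node `i` of every word the nominal coins which are not coins have mass
`≤ KE/(i+1)`.  `hypT_world` : `Z.Ok`, `cut k = 2^(A k)`, `3 (2^k)^{1/(4A)} ≤ θ k`, `m ≤ i0`, `Err`
imply `HDx529.HypT Z C1 c KE` (`C1`, `c`, `m` depend on `A` only).
-/

set_option autoImplicit false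

open Finset
open Crest.Agent.R4C.Basex935 Crest.Agent.R4C.Cutx50 Crest.Agent.R4C.PrefixMx882
open Crest.Agent.R4C.NHx656 Crest.Agent.R4C.GWdefx982 Crest.Agent.R4C.GWbirthx516
open Crest.Agent.R4C.GWbirth2x516 Crest.Agent.R4C.HypTx516

namespace Crest.Agent.R4C.HypTWx516

/-- the nominal coins which are not coins have mass `≤ KE/(i+1)` at every node -/
def Err (Z : World) (δ KE : ℝ) : Prop := ∀ i w, w ∣ Z.N → Z.nd i w →
  Squarefree (upp (Z.cut i) w) → ∀ r ∈ (upp (Z.cut i) w).primeFactors,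
    ∀ G ⊆ nc (cutR Z.cut) δ Z.γ (Z.tt i w) (upp (Z.cut i) Z.N).primeFactors
      (upp (Z.cut i) w).primeFactors r, (∀ q ∈ G, ¬ Z.coin w q) →
      ∑ q ∈ G, (1 : ℝ) / q ≤ KE / ((i : ℝ) + 1)

/-- **the natural hypothesis per prefix, world form** -/
theorem hypT_world (A : ℕ) (hA : 32 ≤ A) : ∃ (C1 c : ℝ) (m : ℕ), 0 < C1 ∧ 0 < c ∧
    ∀ (Z : World), Z.Ok → (∀ k, Z.cut k = 2 ^ (A * k)) →
      (∀ k, Z.i0 ≤ k → 3 * ((2 : ℝ) ^ k) ^ (1 / (4 * (A : ℝ))) ≤ Z.θ k) → m ≤ Z.i0 →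
      ∀ KE : ℝ, 0 ≤ KE → Err Z (1 / (4 * (A : ℝ))) KE → HDx529.HypT Z C1 c KE := by
  classical
  obtain ⟨C, c, y0, hC, hc, hy0, h⟩ := hypT A hA
  have hA0 : (0 : ℝ) < A := by
    have : 0 < A := by omega
    exact_mod_cast this
  have hA1 : (1 : ℝ) ≤ A := by
    have : 1 ≤ A := by omega
    exact_mod_cast this
  obtain ⟨m, hm⟩ := pow_unbounded_of_one_lt y0 (by norm_num : (1 : ℝ) < 2)
  refine ⟨2 * C, min (1 / 4) c, m, by positivity, lt_min (by norm_num) hc, ?_⟩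
  intro Z hZ hcut hθ hmi KE hKE hErr i n Λ K0 s hi hK0 hKi hs hs2
  set D := HDx529.badT Z i n Λ K0 s with hD
  have hnu0 : 0 ≤ nu (low (Z.cut i) Z.N) n := nu_nonneg _ _
  have hc0 : 0 < min (1 / 4) c := lt_min (by norm_num) hc
  have hE0 : 0 ≤ KE / ((i : ℝ) + 1) := by positivity
  have hK00 : 0 < K0 := by linarith
  rcases D.eq_empty_or_nonempty with h0 | ⟨w0, hw0⟩
  · rw [h0, sum_empty]
    have : 0 ≤ K0 ^ (-(min (1 / 4) c)) := Real.rpow_nonneg hK00.le _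
    positivity
  have hmem : ∀ w ∈ D, w ∣ Z.N ∧ Z.nd i w ∧ low (Z.cut i) w = n ∧
      (∃ α ∈ Λ, ∃ m : ℤ, |Z.yy i w - α - m| ≤ 1 / Z.tt i w) ∧
      ¬ On K0 (Z.yy i w) (Z.tt i w) ∧
      ∃ b1 b2, i < b1 ∧ b1 < b2 ∧ Z.nd b1 w ∧ Z.birth b2 w ∧
        1 - Z.Wp (Z.cut i) (Z.cut b2) w ≤ s := by
    intro w hw
    rw [hD] at hw
    unfold HDx529.badT at hw
    rw [mem_filter, Nat.mem_divisors] at hw
    exact ⟨hw.1.1, hw.2⟩
  obtain ⟨hwN0, _, hl0, ⟨α0, hα0, _⟩, _, _⟩ := hmem w0 hw0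
  have hn : n ∣ low (Z.cut i) Z.N := by
    rw [← hl0]
    exact low_dvd _ hZ.hN.ne' hwN0
  have hΛ : (1 : ℝ) ≤ Λ.card := by
    have : 0 < Λ.card := card_pos.2 ⟨α0, hα0⟩
    exact_mod_cast this
  have h2i : (2 : ℝ) ^ m ≤ 2 ^ i := pow_le_pow_right₀ (by norm_num) (hmi.trans hi)
  have hcuti : (Z.cut i : ℝ) = ((2 : ℝ) ^ i) ^ A := by
    rw [hcut]; push_cast; rw [← pow_mul, mul_comm]
  have h2i1 : (1 : ℝ) ≤ 2 ^ i := one_le_pow₀ (by norm_num)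
  have h2A : (2 : ℝ) ^ i ≤ (Z.cut i : ℝ) := by
    rw [hcuti]
    exact le_self_pow₀ h2i1 (by omega)
  have hy : y0 ≤ (Z.cut i : ℝ) := by linarith
  have hsq : Real.sqrt K0 ≤ 2 ^ i := by
    refine le_trans ?_ hKi
    rw [Real.sqrt_le_left (by linarith)]
    nlinarith
  have h1 := h Z hZ hcut hθ i n s (KE / ((i : ℝ) + 1)) K0 Λ hy hn hs hs2 hE0 hK0 hsq D
    (fun w hw => Nat.mem_divisors.2 ⟨(hmem w hw).1, hZ.hN.ne'⟩) (fun w hw => by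
      obtain ⟨a1, a2, a3, a4, a5, b1, b2, a6, a7, a8, a9, a10⟩ := hmem w hw
      exact ⟨a3, a2, a4, a5, ⟨b1, b2, a6, a8, a7, a9, a10⟩, hErr i w a1 a2⟩)
  refine h1.trans (mul_le_mul_of_nonneg_right ?_ hnu0)
  have e1 : Real.sqrt (Real.sqrt K0) = K0 ^ ((1 : ℝ) / 4) := by
    rw [Real.sqrt_eq_rpow, Real.sqrt_eq_rpow, ← Real.rpow_mul hK00.le]
    norm_num
  have h2 : (Λ.card : ℝ) / Real.sqrt (Real.sqrt K0) ≤ Λ.card * K0 ^ (-(min (1 / 4) c)) := by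
    rw [e1, div_eq_mul_inv, ← Real.rpow_neg hK00.le]
    refine mul_le_mul_of_nonneg_left ?_ (by positivity)
    exact Real.rpow_le_rpow_of_exponent_le hK0 (by linarith [min_le_left (1 / 4) c])
  have h3 : (Z.cut i : ℝ) ^ (-c) ≤ Λ.card * K0 ^ (-(min (1 / 4) c)) := by
    calc (Z.cut i : ℝ) ^ (-c) ≤ K0 ^ (-c) :=
          Real.rpow_le_rpow_of_nonpos hK00 (hKi.trans h2A) (by linarith)
      _ ≤ K0 ^ (-(min (1 / 4) c)) :=
          Real.rpow_le_rpow_of_exponent_le hK0 (by linarith [min_le_right (1 / 4) c])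
      _ ≤ Λ.card * K0 ^ (-(min (1 / 4) c)) :=
          le_mul_of_one_le_left (Real.rpow_nonneg hK00.le _) hΛ
  have h4 : s + KE / ((i : ℝ) + 1) + Λ.card / Real.sqrt (Real.sqrt K0) + (Z.cut i : ℝ) ^ (-c) ≤
      2 * (s + Λ.card * K0 ^ (-(min (1 / 4) c)) + KE / ((i : ℝ) + 1)) := by linarith
  calc C * (s + KE / ((i : ℝ) + 1) + Λ.card / Real.sqrt (Real.sqrt K0) + (Z.cut i : ℝ) ^ (-c))
      ≤ C * (2 * (s + Λ.card * K0 ^ (-(min (1 / 4) c)) + KE / ((i : ℝ) + 1))) :=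
        mul_le_mul_of_nonneg_left h4 hC.le
    _ = _ := by ring

end Crest.Agent.R4C.HypTWx516
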