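import Crest.Agent.R4C.NH_656
import Crest.Agent.R4C.CellLaw_276

/-!
# Row 4, block NH, `nu` form (helper656)
-/

set_option autoImplicit false

namespace Crest.Agent.R4C.NHx656

open Finset Crest.Agent.R4C.GWhx656 Crest.Agent.R4C.GWhBx656
open Crest.Agent.R4C.Basex935 Crest.Agent.R4C.Cutx50 Crest.Agent.R4C.FLDefx935
open Crest.Agent.R4C.PureL2x232 Crest.Agent.R4C.PureClsx863

open Classical in
/-- **BLOCK NH, `nu` form** -/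
theorem nh_nu (A δ : ℝ) (hA : 1 ≤ A) (hδ0 : 0 < δ) (hδ : δ ≤ 1 / 128) : ∃ C c y0 : ℝ,
    0 < C ∧ 0 < c ∧ 2 ≤ y0 ∧ ∀ (cut : ℝ → ℝ) (N y : ℕ) (γ t s K0 : ℝ) (Λ : Finset ℝ) (E : ℕ → Prop),
      0 < N → y0 ≤ y → 0 ≤ s → 1 ≤ K0 → Real.sqrt K0 ≤ t → t ^ 4 ≤ y →
      (∀ τ, 1 ≤ τ → 1 ≤ cut τ ∧ cut τ ≤ τ ^ A) → (∀ τ, (y : ℝ) ≤ τ → τ ^ 8 ≤ cut τ) →
      cut t ≤ y → (∀ p ∈ N.primeFactors, y < p) →
      (∀ S ⊆ N.primeFactors, E (∏ p ∈ S, p) →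
        Cell γ t K0 Λ S ∧ Bad cut δ γ t s N.primeFactors S) →
      ∑ u ∈ N.divisors with E u, nu N u ≤
        C * (s + Λ.card / Real.sqrt (Real.sqrt K0) + (y : ℝ) ^ (-c)) := by
  obtain ⟨C, c, y0, hC, hc, hy0, h⟩ := nh A δ hA hδ0 hδ
  refine ⟨C + 2, min c 1, y0, by positivity, lt_min hc one_pos, hy0, ?_⟩
  intro cut N y γ t s K0 Λ E hN hy hs hK0 hKt hty hcut hcut8 hct hP hE
  have hy2 : (2 : ℝ) ≤ y := hy0.trans hy
  have hy1 : 1 ≤ y := by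
    have : (1 : ℝ) ≤ y := by linarith
    exact_mod_cast this
  have hy1' : (1 : ℝ) ≤ y := by exact_mod_cast hy1
  have h1 := h cut N.primeFactors γ t s K0 y Λ hy hs hK0 hKt hty hcut hcut8
    (fun p hp => Nat.prime_of_mem_primeFactors hp)
    (fun p hp => by exact_mod_cast (hP p hp).le)
    (fun p hp => hct.trans_lt (by exact_mod_cast hP p hp))
    (N.primeFactors.powerset.filter fun S => E (∏ p ∈ S, p)) (fun S hS => by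
      obtain ⟨h1, h2⟩ := mem_filter.1 hS
      have h3 := mem_powerset.1 h1
      obtain ⟨h4, h5⟩ := hE S h3 h2
      exact ⟨h3, h4, h5⟩)
  have h2 := CellLawx276.nu_pred_y hN hy1 hP E h1
  refine h2.trans ?_
  have h3 : (y : ℝ) ^ (-c) ≤ (y : ℝ) ^ (-(min c 1)) :=
    Real.rpow_le_rpow_of_exponent_le hy1' (by linarith [min_le_left c 1])
  have h4 : 1 / (y : ℝ) ≤ (y : ℝ) ^ (-(min c 1)) := by
    have e1 : 1 / (y : ℝ) = (y : ℝ) ^ (-(1 : ℝ)) := by rw [Real.rpow_neg_one, one_div]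
    rw [e1]
    exact Real.rpow_le_rpow_of_exponent_le hy1' (by linarith [min_le_right c 1])
  have h5 : (2 : ℝ) / y = 2 * (1 / y) := by ring
  rw [h5]
  set κ := (Λ.card : ℝ) / Real.sqrt (Real.sqrt K0) with hκ
  have hκ0 : 0 ≤ κ := by positivity
  set u := (y : ℝ) ^ (-(min c 1)) with hu
  have h6 : C * (s + κ + (y : ℝ) ^ (-c)) ≤ C * (s + κ + u) :=
    mul_le_mul_of_nonneg_left (by linarith) hC.le
  nlinarith

open Classical in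
/-- **BLOCK NH at a node**: words of `N` with fixed part `n` below `y` -/
theorem nh_node (A δ : ℝ) (hA : 1 ≤ A) (hδ0 : 0 < δ) (hδ : δ ≤ 1 / 128) : ∃ C c y0 : ℝ,
    0 < C ∧ 0 < c ∧ 2 ≤ y0 ∧ ∀ (cut : ℝ → ℝ) (N y n : ℕ) (γ t s K0 : ℝ) (Λ : Finset ℝ)
      (E : ℕ → Prop),
      0 < N → n ∣ low y N → y0 ≤ y → 0 ≤ s → 1 ≤ K0 → Real.sqrt K0 ≤ t → t ^ 4 ≤ y →
      (∀ τ, 1 ≤ τ → 1 ≤ cut τ ∧ cut τ ≤ τ ^ A) → (∀ τ, (y : ℝ) ≤ τ → τ ^ 8 ≤ cut τ) →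
      cut t ≤ y →
      (∀ S ⊆ (upp y N).primeFactors, E (∏ p ∈ S, p) →
        Cell γ t K0 Λ S ∧ Bad cut δ γ t s (upp y N).primeFactors S) →
      ∑ w ∈ N.divisors with (low y w = n ∧ E (upp y w)), nu N w ≤ nu (low y N) n *
        (C * (s + Λ.card / Real.sqrt (Real.sqrt K0) + (y : ℝ) ^ (-c))) := by
  obtain ⟨C, c, y0, hC, hc, hy0, h⟩ := nh_nu A δ hA hδ0 hδ
  refine ⟨C, c, y0, hC, hc, hy0, ?_⟩
  intro cut N y n γ t s K0 Λ E hN hn hy hs hK0 hKt hty hcut hcut8 hct hE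
  rw [CellLawx276.cell_low hN y hn E]
  exact mul_le_mul_of_nonneg_left (h cut (upp y N) y γ t s K0 Λ E (upp_pos _ _) hy hs hK0 hKt hty
    hcut hcut8 hct (fun p hp => CellLawx276.prime_upp hp) hE) (nu_nonneg _ _)

end Crest.Agent.R4C.NHx656
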