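import Crest.Agent.R4C.GWbirth2_516
import Crest.Agent.R4C.NHnu_656

/-!
# Row 4, GW section: natural hypothesis per prefix with finitely many targets (helper516)

`BadW Z δ i u s K0 Λ w` : `i` is a node index of `w`, the point `yy i w` is within `1/tt` of a target
`α ∈ Λ` mod 1, has depth `≥ K0`, two later births `b1 < b2` exist and the coins of `w` in
`(cut i, cut b2]` have loss `≤ s`; nominal coins which are not coins have mass `≤ u`.

`hypT` : the natural mass of these words with `low (cut i) w = n` is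
`≤ C (s + u + |Λ| K0^{-1/4} + (cut i)^{-c}) nu(n)`.
-/

set_option autoImplicit false

open Finset
open Crest.Agent.R4C.Basex935 Crest.Agent.R4C.Cutx50 Crest.Agent.R4C.PrefixMx882
open Crest.Agent.R4C.NHx656 Crest.Agent.R4C.GWdefx982 Crest.Agent.R4C.GWbirthx516
open Crest.Agent.R4C.GWbirth2x516

namespace Crest.Agent.R4C.HypTx516

/-- bad word at the node `i` -/
structure BadW (Z : World) (δ : ℝ) (i : ℕ) (u s K0 : ℝ) (Λ : Finset ℝ) (w : ℕ) : Prop where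
  nd : Z.nd i w
  tgt : ∃ α ∈ Λ, ∃ m : ℤ, |Z.yy i w - α - m| ≤ 1 / Z.tt i w
  off : ¬ On K0 (Z.yy i w) (Z.tt i w)
  pay : ∃ b1 b2, i < b1 ∧ Z.nd b1 w ∧ b1 < b2 ∧ Z.birth b2 w ∧
    1 - Z.Wp (Z.cut i) (Z.cut b2) w ≤ s
  err : Squarefree (upp (Z.cut i) w) → ∀ r ∈ (upp (Z.cut i) w).primeFactors,
    ∀ G ⊆ nc (cutR Z.cut) δ Z.γ (Z.tt i w) (upp (Z.cut i) Z.N).primeFactors
      (upp (Z.cut i) w).primeFactors r, (∀ q ∈ G, ¬ Z.coin w q) → ∑ q ∈ G, (1 : ℝ) / q ≤ u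

section cutR

variable {A : ℕ} {cut : ℕ → ℕ}

lemma cutR_eq (hcut : ∀ k, cut k = 2 ^ (A * k)) (τ : ℝ) : cutR cut τ = ((2 : ℝ) ^ lv τ) ^ A := by
  unfold cutR
  rw [hcut]
  push_cast
  rw [← pow_mul, mul_comm]

lemma cutR_bounds (hcut : ∀ k, cut k = 2 ^ (A * k)) {τ : ℝ} (hτ : 1 ≤ τ) :
    1 ≤ cutR cut τ ∧ cutR cut τ ≤ τ ^ (A : ℝ) := by
  rw [cutR_eq hcut, Real.rpow_natCast]
  exact ⟨one_le_pow₀ (one_le_pow₀ (by norm_num)),
    pow_le_pow_left₀ (by positivity) (lv_le hτ) _⟩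

lemma cutR_ge (hA : 16 ≤ A) (hcut : ∀ k, cut k = 2 ^ (A * k)) {τ : ℝ} (hτ : 4 ≤ τ) :
    τ ^ 8 ≤ cutR cut τ := by
  rw [cutR_eq hcut]
  have h1 : τ / 2 ≤ 2 ^ lv τ := by
    have := lt_lv τ
    rw [pow_succ] at this
    linarith
  have h2 : 1 ≤ τ / 2 := by linarith
  calc τ ^ 8 ≤ ((τ / 2) ^ 2) ^ 8 := pow_le_pow_left₀ (by linarith) (by nlinarith) _
    _ = (τ / 2) ^ 16 := by rw [← pow_mul]
    _ ≤ (τ / 2) ^ A := pow_le_pow_right₀ h2 hA
    _ ≤ (2 ^ lv τ) ^ A := pow_le_pow_left₀ (by linarith) h1 _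

lemma lv_eq {τ : ℝ} {i : ℕ} (h1 : (2 : ℝ) ^ i ≤ τ) (h2 : τ < 2 ^ (i + 1)) : lv τ = i := by
  have h3 := lt_lv τ
  have h0 : (1 : ℝ) ≤ τ := le_trans (one_le_pow₀ (by norm_num)) h1
  have h4 := lv_le h0
  have h5 : i < lv τ + 1 :=
    (pow_lt_pow_iff_right₀ (by norm_num : (1 : ℝ) < 2)).1 (lt_of_le_of_lt h1 h3)
  have h6 : lv τ < i + 1 :=
    (pow_lt_pow_iff_right₀ (by norm_num : (1 : ℝ) < 2)).1 (lt_of_le_of_lt h4 h2)
  omega

end cutR

/-- **natural hypothesis per prefix, finitely many targets** -/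
theorem hypT (A : ℕ) (hA : 32 ≤ A) : ∃ C c y0 : ℝ, 0 < C ∧ 0 < c ∧ 2 ≤ y0 ∧
    ∀ (Z : World), Z.Ok → (∀ k, Z.cut k = 2 ^ (A * k)) →
      (∀ k, Z.i0 ≤ k → 3 * ((2 : ℝ) ^ k) ^ (1 / (4 * (A : ℝ))) ≤ Z.θ k) →
      ∀ (i n : ℕ) (s u K0 : ℝ) (Λ : Finset ℝ), y0 ≤ (Z.cut i : ℝ) → n ∣ low (Z.cut i) Z.N →
        0 ≤ s → s ≤ 1 / 2 → 0 ≤ u → 1 ≤ K0 → Real.sqrt K0 ≤ 2 ^ i →
        ∀ D : Finset ℕ, D ⊆ Z.N.divisors →
        (∀ w ∈ D, low (Z.cut i) w = n ∧ BadW Z (1 / (4 * (A : ℝ))) i u s K0 Λ w) →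
        ∑ w ∈ D, nu Z.N w ≤
          C * (s + u + Λ.card / Real.sqrt (Real.sqrt K0) + (Z.cut i : ℝ) ^ (-c)) *
            nu (low (Z.cut i) Z.N) n := by
  classical
  have hA0 : (0 : ℝ) < A := by
    have : 0 < A := by omega
    exact_mod_cast this
  have hA32 : (32 : ℝ) ≤ A := by exact_mod_cast hA
  set δ : ℝ := 1 / (4 * (A : ℝ)) with hδ
  have hδ0 : 0 < δ := by positivity
  have hδ1 : δ ≤ 1 / 128 := by
    rw [hδ]
    exact one_div_le_one_div_of_le (by norm_num) (by linarith)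
  obtain ⟨C, c, y0, hC, hc, hy0, h⟩ := nh_node (A : ℝ) δ (by linarith) hδ0 hδ1
  refine ⟨2 * C, c, max y0 4, by positivity, hc, hy0.trans (le_max_left _ _), ?_⟩
  intro Z hZ hcut hθ i n s u K0 Λ hy hn hs hs2 hu hK0 hKi D hDN hD
  have hy1 : y0 ≤ (Z.cut i : ℝ) := (le_max_left _ _).trans hy
  have hy4 : (4 : ℝ) ≤ (Z.cut i : ℝ) := (le_max_right _ _).trans hy
  have hK00 : 0 < Real.sqrt (Real.sqrt K0) := by
    rw [Real.sqrt_pos, Real.sqrt_pos]; linarith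
  have hnu0 : 0 ≤ nu (low (Z.cut i) Z.N) n := nu_nonneg _ _
  have hrpow : 0 ≤ (Z.cut i : ℝ) ^ (-c) := Real.rpow_nonneg (by linarith) _
  rcases D.eq_empty_or_nonempty with h0 | ⟨w0, hw0⟩
  · rw [h0, sum_empty]
    positivity
  obtain ⟨hl0, hb0⟩ := hD w0 hw0
  set t : ℝ := ((Z.G0 * n : ℕ) : ℝ) / Z.L with ht
  have htt : ∀ w, low (Z.cut i) w = n → Z.tt i w = t := by
    intro w hw
    unfold World.tt World.e
    rw [hw]
  have ht1 : (2 : ℝ) ^ i ≤ t := by rw [← htt w0 hl0]; exact tt_ge hZ hb0.nd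
  have ht2 : t < (2 : ℝ) ^ (i + 1) := by rw [← htt w0 hl0]; exact tt_lt hZ hb0.nd
  have hi1 : 1 ≤ i := by have := hZ.hi0; have := hb0.nd.1; omega
  have ht0 : (0 : ℝ) < t := lt_of_lt_of_le (by positivity) ht1
  have hcutR : cutR Z.cut t = (Z.cut i : ℝ) := by
    unfold cutR
    rw [lv_eq ht1 ht2]
  have ht4 : t ^ 4 ≤ (Z.cut i : ℝ) := by
    have h1 : t ^ 4 ≤ ((2 : ℝ) ^ (i + 1)) ^ 4 := pow_le_pow_left₀ ht0.le ht2.le _
    have h2 : ((2 : ℝ) ^ (i + 1)) ^ 4 ≤ (2 : ℝ) ^ (A * i) := by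
      rw [← pow_mul]
      refine pow_le_pow_right₀ (by norm_num) ?_
      nlinarith
    rw [hcut]
    push_cast
    exact h1.trans h2
  obtain ⟨E, hE⟩ : ∃ E : ℕ → Prop, ∀ v, E v ↔ n * v ∈ D := ⟨_, fun _ => Iff.rfl⟩
  have hn0 : 0 < n := Nat.pos_of_dvd_of_pos hn (low_pos _ _)
  have hNne : Z.N ≠ 0 := hZ.hN.ne'
  have hmain := h (cutR Z.cut) Z.N (Z.cut i) n Z.γ t (2 * s + u) K0 Λ E hZ.hN hn hy1 (by linarith)
    hK0 (hKi.trans ht1) ht4 (fun τ hτ => cutR_bounds hcut hτ)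
    (fun τ hτ => cutR_ge (by omega) hcut (hy4.trans hτ)) hcutR.le ?_
  · refine (Finset.sum_le_sum_of_subset_of_nonneg ?_
      (fun w _ _ => nu_nonneg _ _)).trans (hmain.trans ?_)
    · intro w hw
      rw [mem_filter]
      obtain ⟨h1, _⟩ := hD w hw
      have hwN := hDN hw
      have hw0 : w ≠ 0 := by
        intro h; rw [h] at hwN; simp at hwN
      refine ⟨hwN, h1, ?_⟩
      rw [hE]
      have h2 := low_mul_upp (Z.cut i) hw0
      rw [h1] at h2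
      rw [h2]
      exact hw
    · have h1 : 2 * s + u + Λ.card / Real.sqrt (Real.sqrt K0) + (Z.cut i : ℝ) ^ (-c) ≤
          2 * (s + u + Λ.card / Real.sqrt (Real.sqrt K0) + (Z.cut i : ℝ) ^ (-c)) := by
        have h2 : (0 : ℝ) ≤ Λ.card / Real.sqrt (Real.sqrt K0) := by positivity
        linarith
      calc nu (low (Z.cut i) Z.N) n * (C * (2 * s + u + Λ.card / Real.sqrt (Real.sqrt K0) +
            (Z.cut i : ℝ) ^ (-c)))
          ≤ nu (low (Z.cut i) Z.N) n * (C * (2 * (s + u + Λ.card / Real.sqrt (Real.sqrt K0) +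
            (Z.cut i : ℝ) ^ (-c)))) :=
            mul_le_mul_of_nonneg_left (mul_le_mul_of_nonneg_left h1 hC.le) hnu0
        _ = _ := by ring
  · intro S hS hES
    have hSp : ∀ p ∈ S, p.Prime := fun p hp => Nat.prime_of_mem_primeFactors (hS hp)
    have hSd : ∏ p ∈ S, p ∣ upp (Z.cut i) Z.N :=
      (prod_dvd_prod_of_subset S (upp (Z.cut i) Z.N).primeFactors (fun p => p) hS).trans
        (Nat.prod_primeFactors_dvd _)
    set w := n * ∏ p ∈ S, p with hwdef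
    have hwD : w ∈ D := (hE _).1 hES
    have hwN : w ∣ Z.N := by
      have h1 := Nat.mul_dvd_mul hn hSd
      rwa [low_mul_upp (Z.cut i) hNne] at h1
    have hupp : upp (Z.cut i) w = ∏ p ∈ S, p := upp_of_mul hn hSd
    have hlow : low (Z.cut i) w = n := low_of_mul hn hSd
    have hpf : (upp (Z.cut i) w).primeFactors = S := by
      rw [hupp]; exact Nat.primeFactors_prod hSp
    have hsq : Squarefree (upp (Z.cut i) w) := by
      rw [hupp]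
      refine Finset.squarefree_prod_of_pairwise_isCoprime (fun p hp q hq hpq => ?_)
        fun p hp => (hSp p hp).prime.squarefree
      exact Nat.coprime_iff_isRelPrime.1 ((Nat.coprime_primes (hSp p hp) (hSp q hq)).2 hpq)
    obtain ⟨_, hb⟩ := hD w hwD
    have hyy : Z.yy i w = ((∏ p ∈ S, p : ℕ) : ℝ) * Z.γ := by
      unfold World.yy
      rw [hupp]
    have e1 := htt w hlow
    refine ⟨⟨?_, ?_⟩, ?_⟩
    · obtain ⟨α, hα, m, hm⟩ := hb.tgt
      rw [hyy, e1] at hm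
      exact ⟨α, hα, m, hm⟩
    · have h1 := hb.off
      rw [hyy, e1] at h1
      exact h1
    · obtain ⟨b1, b2, hib, hnd1, hb12, hbi2, hpay⟩ := hb.pay
      have h1 := bad_of_W hZ (fun k => by
          rw [hcut]
          exact Nat.pow_le_pow_right (by norm_num) (Nat.le_mul_of_pos_left k (by omega)))
        hδ0.le hθ hwN hsq hb.nd hib hnd1 hb12 hbi2 (hb.err hsq) hs2 hpay
      rw [e1, hpf] at h1
      exact h1

end Crest.Agent.R4C.HypTx516
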