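import Crest.Agent.R4C.VecNP_50
import Crest.Agent.R4C.Kept_559

/-!
# Row 4: scalar / vector NON-PURE part over an F-Λ structure, all blocks, all words (helper50)

* `setBd_np` : `np_class`'s hypothesis over `hiFL hM y F`, one cut `X`, with the boost at all
  primes of `S`, `S ≤ X` (from 559's `nonpureS_fl_log`).
* `np_words` : all pairs which, for some block `j ≥ j0`, are good at `Xj j`, non-pure, and whose
  low word at the cut `Xj j` is small (`4 u u' ≤ Xj j`) and is determined by the upper words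
  in every class; weight `≤` the full boost at the primes `≤ Xj j`; `f, g ∈ [0,1]`:
  `≤ C (√2)^{-j0} (Ex f)^{1/2} (Ex g)^{1/2}`.
* `np_dbl` : the same for a doubling family of words (`Dbl` of `VecPure_520`, e.g. dominant words).
-/

set_option autoImplicit false

open Finset
open Crest.Agent.R4C.Basex935 Crest.Agent.R4C.Cutx50 Crest.Agent.R4C.HeavyLx50
open Crest.Agent.R4C.FLDefx935
open Crest.Agent.R4C.BoostRx398 (bst tf one_le_tf)
open Crest.Agent.R4C.FixedWordx423 (wd wd_pos)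
open Crest.Agent.R4C.VecPurex520 (wd_upp wd_low fact_wd_fst fact_wd_snd low_eq_low upp_eq_upp Dbl)
open Crest.Agent.R4C.NonPureBlkx559 (Xj Xj_two log_Xj thx thx_nonneg thx_mul tmS nonpureS_fl_log)
open Crest.Agent.R4C.PureL2x232 (hiFL)
open Crest.Agent.R4C.Keptx559 (hi_good hi_ell)

namespace Crest.Agent.R4C.VecNPx50

/-- primes up to `x` -/
def pr (x : ℕ) : Finset ℕ := (range (x + 1)).filter Nat.Prime

lemma mem_pr {x p : ℕ} : p ∈ pr x ↔ p ≤ x ∧ p.Prime := by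
  unfold pr
  rw [Finset.mem_filter, Finset.mem_range, Nat.lt_succ_iff]

/-- a boost at primes `≤ x` reads the low parts only -/
lemma bst_low {S : Finset ℕ} {x : ℕ} (hS : ∀ p ∈ S, p ≤ x) (M b c : ℕ) :
    bst S M b c = bst S (low x M) (low x b) (low x c) := by
  unfold bst
  refine Finset.prod_congr rfl fun p hp => ?_
  rw [fact_low, fact_low, fact_low, if_pos (hS p hp), if_pos (hS p hp), if_pos (hS p hp)]

lemma bst_le_thx {S : Finset ℕ} {x : ℕ} (hS : ∀ p ∈ S, p ≤ x) {M b c : ℕ} (hM : 0 < M)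
    (hb : b ∣ M) (h : low x b = low x c) : bst S M b c ≤ thx M x (low x b) := by
  have hlM : low x b ∣ low x M := low_dvd x hM.ne' hb
  rw [bst_low hS, ← h]
  unfold thx
  rw [if_pos hlM]
  have h0 : 0 < low x M := low_pos _ _
  have h1 := nu_bst h0 hlM S (low x b)
  have h2 : 0 < (low x b : ℝ) * nu (low x M) (low x b) :=
    mul_pos (by exact_mod_cast low_pos x b) (nu_pos h0 hlM)
  rw [← one_div, le_div_iff₀ h2, mul_comm]
  exact h1

open Classical in
/-- the relation of one block, read at the upper words -/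
def Nx {M : ℕ} (F : FL M) (X z z' : ℕ) : Prop :=
  low X z = low X z' ∧ F.good X z z' ∧ ¬ (F.ell X z = 1 ∧ F.ell X z' = 1)

open Classical in
theorem setBd_np : ∃ C : ℝ, 0 < C ∧ ∀ (M : ℕ) (F : FL M), 0 < M → ∀ X : ℕ, 2 ≤ X →
    ∀ S : Finset ℕ, (∀ p ∈ S, p ≤ X) →
    SetBd M (fun z z' => if Nx F X z z' then bst S M z z' else 0)
      (C * (Real.log X) ^ (-(1 / 2 : ℝ))) := by
  obtain ⟨C, hC, h⟩ := nonpureS_fl_log
  refine ⟨C, hC, fun M F hM X hX S hS f g hf hg hf1 hg1 => ?_⟩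
  refine le_trans ?_ (h M F hM X hX (thx M X) (fun e => thx_nonneg _ _ _)
    (fun e he => thx_mul he) f g hf hg hf1 hg1)
  unfold frm
  refine Finset.sum_le_sum fun b hb => Finset.sum_le_sum fun c hc => ?_
  have hbM := Nat.dvd_of_mem_divisors hb
  have hcM := Nat.dvd_of_mem_divisors hc
  beta_reduce
  by_cases hN : Nx F X b c
  · rw [if_pos hN]
    unfold tmS
    have hN' : low X b = low X c ∧ F.good X b c ∧ ¬ (F.ell X b = 1 ∧ F.ell X c = 1) := hN
    rw [if_pos hN']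
    have h1 := bst_le_thx hS hM hbM hN.1
    have h2 : 0 ≤ (Nat.gcd b c : ℝ) * nu M b * nu M c * (f b * g c) :=
      mul_nonneg (mul_nonneg (mul_nonneg (by positivity) (nu_nonneg _ _)) (nu_nonneg _ _))
        (mul_nonneg (hf _) (hg _))
    calc _ = (Nat.gcd b c : ℝ) * nu M b * nu M c * (f b * g c) * bst S M b c := by ring
      _ ≤ _ := mul_le_mul_of_nonneg_left h1 h2
  · rw [if_neg hN]
    unfold tmS
    have hN' : ¬ (low X b = low X c ∧ F.good X b c ∧ ¬ (F.ell X b = 1 ∧ F.ell X c = 1)) := hN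
    rw [if_neg hN']
    exact le_of_eq (by ring)

/-! ### one block, one class -/

/-- good and non-pure at the cut `X`, with a small low word -/
structure NPX {M : ℕ} (F : FL M) (X b c : ℕ) : Prop where
  good : F.good X b c
  np : ¬ (F.ell X b = 1 ∧ F.ell X c = 1)
  size : 4 * (low X (wd b c).1 * low X (wd b c).2) ≤ X

/-- class of the low word at the cut `X` -/
def Cls (X a a' e b c : ℕ) : Prop :=
  Nat.log 2 (low X (wd b c).1) = a ∧ Nat.log 2 (low X (wd b c).2) = a' ∧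
    Nat.log 2 (low X (wd b c).1 * low X (wd b c).2) = a + a' + e

/-- in every class the low word is determined by the upper words -/
def Uniq (M X : ℕ) (P : ℕ → ℕ → Prop) : Prop :=
  ∀ a a' e b c b1 c1, b ∣ M → c ∣ M → b1 ∣ M → c1 ∣ M → P b c → P b1 c1 →
    Cls X a a' e b c → Cls X a a' e b1 c1 →
    upp (2 ^ (a + a' + 2)) b = upp (2 ^ (a + a' + 2)) b1 →
    upp (2 ^ (a + a' + 2)) c = upp (2 ^ (a + a' + 2)) c1 →
    wd (low (2 ^ (a + a' + 2)) b) (low (2 ^ (a + a' + 2)) c) =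
      wd (low (2 ^ (a + a' + 2)) b1) (low (2 ^ (a + a' + 2)) c1)

/-- reading a class at the cut `2^(a+a'+2)` -/
lemma cls_cut {X a a' e b c : ℕ}
    (hs : 4 * (low X (wd b c).1 * low X (wd b c).2) ≤ X) (h : Cls X a a' e b c) :
    2 ^ (a + a' + 2) ≤ X ∧ low (2 ^ (a + a' + 2)) (wd b c).1 = low X (wd b c).1 ∧
      low (2 ^ (a + a' + 2)) (wd b c).2 = low X (wd b c).2 ∧
      2 ^ a ≤ low X (wd b c).1 ∧ 2 ^ a' ≤ low X (wd b c).2 := by
  obtain ⟨h1, h2, _⟩ := h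
  have hp1 : 0 < low X (wd b c).1 := low_pos _ _
  have hp2 : 0 < low X (wd b c).2 := low_pos _ _
  have e1 : 2 ^ a ≤ low X (wd b c).1 := by rw [← h1]; exact Nat.pow_log_le_self 2 hp1.ne'
  have e2 : 2 ^ a' ≤ low X (wd b c).2 := by rw [← h2]; exact Nat.pow_log_le_self 2 hp2.ne'
  have e3 : low X (wd b c).1 < 2 ^ (a + 1) := by
    rw [← h1]; exact Nat.lt_pow_succ_log_self (by norm_num) _
  have e4 : low X (wd b c).2 < 2 ^ (a' + 1) := by
    rw [← h2]; exact Nat.lt_pow_succ_log_self (by norm_num) _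
  have hy : 2 ^ (a + a' + 2) = 4 * (2 ^ a * 2 ^ a') := by rw [pow_add, pow_add]; ring
  have hyX : 2 ^ (a + a' + 2) ≤ X := by
    rw [hy]
    exact le_trans (Nat.mul_le_mul_left 4 (Nat.mul_le_mul e1 e2)) hs
  have hA : 2 ^ (a + 1) ≤ 2 ^ (a + a' + 2) := Nat.pow_le_pow_right (by norm_num) (by omega)
  have hA' : 2 ^ (a' + 1) ≤ 2 ^ (a + a' + 2) := Nat.pow_le_pow_right (by norm_num) (by omega)
  exact ⟨hyX, low_eq_low hyX (by omega), low_eq_low hyX (by omega), e1, e2⟩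

/-- the upper words of a pair of one class are related by `Nx` -/
lemma nx_upp {M : ℕ} (hM : 0 < M) (F : FL M) {X y b c : ℕ} (hb : b ∣ M) (hc : c ∣ M)
    (hyX : y ≤ X) (h : NPX F X b c) (e1 : low y (wd b c).1 = low X (wd b c).1)
    (e2 : low y (wd b c).2 = low X (wd b c).2) :
    Nx (hiFL hM y F) X (upp y b) (upp y c) := by
  have hb0 : 0 < b := Nat.pos_of_dvd_of_pos hb hM
  have hc0 : 0 < c := Nat.pos_of_dvd_of_pos hc hM
  refine ⟨?_, ?_, ?_⟩
  · refine Nat.eq_of_factorization_eq (low_pos _ _).ne' (low_pos _ _).ne' fun q => ?_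
    rw [fact_low, fact_low, fact_upp, fact_upp]
    by_cases hqX : q ≤ X
    · rw [if_pos hqX, if_pos hqX]
      by_cases hqy : q ≤ y
      · rw [if_neg (not_not.2 hqy), if_neg (not_not.2 hqy)]
      · rw [if_pos hqy, if_pos hqy]
        have f1 := congrArg (fun n => n.factorization q) e1
        have f2 := congrArg (fun n => n.factorization q) e2
        simp only [fact_low] at f1 f2
        rw [if_neg hqy, if_pos hqX, fact_wd_fst hb0.ne' hc0.ne'] at f1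
        rw [if_neg hqy, if_pos hqX, fact_wd_snd hb0.ne' hc0.ne'] at f2
        omega
    · rw [if_neg hqX, if_neg hqX]
  · refine hi_good hM F hb ?_
    rw [max_eq_right hyX]
    exact h.good
  · rw [hi_ell hM F hb, hi_ell hM F hc, max_eq_right hyX]
    exact h.np

open Classical in
theorem np_one : ∃ C : ℝ, 0 < C ∧ ∀ (M : ℕ) (F : FL M), 0 < M → ∀ X : ℕ, 2 ≤ X →
    ∀ S : Finset ℕ, (∀ p ∈ S, p ≤ X) → ∀ P : ℕ → ℕ → Prop,
    (∀ b c, b ∣ M → c ∣ M → P b c → NPX F X b c) → Uniq M X P →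
    ∀ a a' e : ℕ, ∀ (f g : ℕ → ℝ), (∀ b, 0 ≤ f b) → (∀ b, 0 ≤ g b) → (∀ b, f b ≤ 1) →
    (∀ b, g b ≤ 1) →
    frm M (fun b c => if P b c ∧ Cls X a a' e b c then bst S M b c * (f b * g c) else 0) ≤
      C * (Real.log X) ^ (-(1 / 2 : ℝ)) / √((2 : ℝ) ^ a * 2 ^ a') *
        (√(Ex M f) * √(Ex M g)) := by
  obtain ⟨C, hC, h⟩ := setBd_np
  refine ⟨4 * C, by positivity, fun M F hM X hX S hS P hP hU a a' e f g hf hg hf1 hg1 => ?_⟩
  have hX' : (2 : ℝ) ≤ (X : ℝ) := by exact_mod_cast hX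
  have hlog : 0 < Real.log X := Real.log_pos (by linarith)
  set y : ℕ := 2 ^ (a + a' + 2) with hy
  have hN := h (upp y M) (hiFL hM y F) (upp_pos _ _) X hX S hS
  set Q : ℕ → ℕ → ℕ × ℕ → Prop := fun T T' x => ∃ b c, b ∣ M ∧ c ∣ M ∧
    (P b c ∧ Cls X a a' e b c) ∧ upp y b = T ∧ upp y c = T' ∧ wd (low y b) (low y c) = x with hQ
  have huniq : ∀ T T' x x', Q T T' x → Q T T' x' → x' = x := by
    rintro T T' x x' ⟨b, c, hb, hc, ⟨h1, h2⟩, rfl, rfl, rfl⟩
      ⟨b1, c1, hb1, hc1, ⟨h1', h2'⟩, h3', h4', rfl⟩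
    exact hU a a' e b1 c1 b c hb1 hc1 hb hc h1' h1 h2' h2 h3' h4'
  have key := np_class hM y S (N := Nx (hiFL hM y F) X)
    (E := C * (Real.log X) ^ (-(1 / 2 : ℝ))) (by positivity) hN
    (A := (2 : ℝ) ^ a) (B := (2 : ℝ) ^ a') (one_le_pow₀ (by norm_num)) (one_le_pow₀ (by norm_num))
    (fun b c => P b c ∧ Cls X a a' e b c)
    (fun T T' => if h : ∃ x, Q T T' x then h.choose else (1, 1))
    (fun b c hb hc hPP => by
      have hn := hP b c hb hc hPP.1
      have hb0 : 0 < b := Nat.pos_of_dvd_of_pos hb hM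
      have hc0 : 0 < c := Nat.pos_of_dvd_of_pos hc hM
      obtain ⟨h1, h2, h3, _, _⟩ := cls_cut hn.size hPP.2
      exact nx_upp hM F hb hc h1 hn h2 h3)
    (fun b c hb hc hPP => by
      have hn := hP b c hb hc hPP.1
      have hb0 : 0 < b := Nat.pos_of_dvd_of_pos hb hM
      have hc0 : 0 < c := Nat.pos_of_dvd_of_pos hc hM
      obtain ⟨_, h2, h3, h4, h5⟩ := cls_cut hn.size hPP.2
      have hQ1 : Q (upp y b) (upp y c) (wd (low y b) (low y c)) :=
        ⟨b, c, hb, hc, hPP, rfl, rfl, rfl⟩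
      have hex : ∃ x, Q (upp y b) (upp y c) x := ⟨_, hQ1⟩
      rw [dif_pos hex]
      have h1 := huniq _ _ _ _ hex.choose_spec hQ1
      refine ⟨h1, ?_, ?_⟩
      · rw [← h1, wd_low y hb0.ne' hc0.ne', h2]
        exact_mod_cast h4
      · rw [← h1, wd_low y hb0.ne' hc0.ne', h3]
        exact_mod_cast h5)
    hf hg hf1 hg1
  refine (le_of_eq (frm_congr fun b c _ _ => ?_)).trans (key.trans (le_of_eq ?_))
  · by_cases hh : P b c ∧ Cls X a a' e b c
    · rw [if_pos hh, if_pos hh]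
    · rw [if_neg hh, if_neg hh]
  · ring

/-! ### summation over the classes -/

lemma inv_sqrt2_pow (a : ℕ) : 1 / √((2 : ℝ) ^ a) = ((√2)⁻¹) ^ a := by
  have e : √((2:ℝ) ^ a) = √2 ^ a := by
    rw [Real.sqrt_eq_iff_mul_self_eq (by positivity) (by positivity), ← mul_pow,
      Real.mul_self_sqrt (by norm_num)]
  rw [e, one_div, inv_pow]

lemma geo_le (N : ℕ) : ∑ a ∈ range N, ((√2)⁻¹ : ℝ) ^ a ≤ (1 - (√2)⁻¹)⁻¹ := by
  have hs2 : 1 < √2 := by
    rw [← Real.sqrt_one]; exact Real.sqrt_lt_sqrt (by norm_num) (by norm_num)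
  have hr0 : 0 < (√2)⁻¹ := by positivity
  have hr1 : (√2)⁻¹ < 1 := inv_lt_one_of_one_lt₀ hs2
  exact sum_le_hasSum _ (fun n _ => pow_nonneg hr0.le n) (hasSum_geometric_of_lt_one hr0.le hr1)

lemma frm_nonneg {M : ℕ} {F : ℕ → ℕ → ℝ} (h : ∀ b c, 0 ≤ F b c) : 0 ≤ frm M F := by
  unfold frm
  exact Finset.sum_nonneg fun b _ => Finset.sum_nonneg fun c _ =>
    mul_nonneg (mul_nonneg (mul_nonneg (by positivity) (nu_nonneg _ _)) (nu_nonneg _ _)) (h b c)

/-- every pair lies in a class with indices below `M` -/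
lemma exists_cls {M X b c : ℕ} (hM : 0 < M) (hb : b ∣ M) (hc : c ∣ M) :
    ∃ a ∈ range (M + 1), ∃ a' ∈ range (M + 1), ∃ e ∈ range 2, Cls X a a' e b c := by
  have hb0 : 0 < b := Nat.pos_of_dvd_of_pos hb hM
  have hc0 : 0 < c := Nat.pos_of_dvd_of_pos hc hM
  have hs1 : low X (wd b c).1 ≤ M := Nat.le_of_dvd hM ((low_dvd_self X _).trans
    ((Nat.div_dvd_of_dvd (Nat.gcd_dvd_left b c)).trans hb))
  have hs2 : low X (wd b c).2 ≤ M := Nat.le_of_dvd hM ((low_dvd_self X _).trans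
    ((Nat.div_dvd_of_dvd (Nat.gcd_dvd_right b c)).trans hc))
  have hp1 : 0 < low X (wd b c).1 := low_pos _ _
  have hp2 : 0 < low X (wd b c).2 := low_pos _ _
  set u := low X (wd b c).1 with hu
  set v := low X (wd b c).2 with hv
  have h1 := Nat.log_le_self 2 u
  have h2 := Nat.log_le_self 2 v
  have e1 : 2 ^ Nat.log 2 u ≤ u := Nat.pow_log_le_self 2 hp1.ne'
  have e2 : 2 ^ Nat.log 2 v ≤ v := Nat.pow_log_le_self 2 hp2.ne'
  have e3 : u < 2 ^ (Nat.log 2 u + 1) := Nat.lt_pow_succ_log_self (by norm_num) _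
  have e4 : v < 2 ^ (Nat.log 2 v + 1) := Nat.lt_pow_succ_log_self (by norm_num) _
  have h3 : Nat.log 2 u + Nat.log 2 v ≤ Nat.log 2 (u * v) := by
    refine (Nat.le_log_iff_pow_le (by norm_num) (Nat.mul_pos hp1 hp2).ne').2 ?_
    rw [pow_add]
    exact Nat.mul_le_mul e1 e2
  have h4 : Nat.log 2 (u * v) < Nat.log 2 u + Nat.log 2 v + 2 := by
    refine Nat.log_lt_of_lt_pow (Nat.mul_pos hp1 hp2).ne' ?_
    have : 2 ^ (Nat.log 2 u + Nat.log 2 v + 2) =
        2 ^ (Nat.log 2 u + 1) * 2 ^ (Nat.log 2 v + 1) := by rw [← pow_add]; congr 1; ring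
    rw [this]
    exact Nat.mul_lt_mul'' e3 e4
  refine ⟨Nat.log 2 u, Finset.mem_range.2 (by omega), Nat.log 2 v, Finset.mem_range.2 (by omega),
    Nat.log 2 (u * v) - (Nat.log 2 u + Nat.log 2 v), Finset.mem_range.2 (by omega), rfl, rfl, ?_⟩
  show Nat.log 2 (u * v) = _
  omega

open Classical in
/-- one block, all classes -/
theorem np_block : ∃ C : ℝ, 0 < C ∧ ∀ (M : ℕ) (F : FL M), 0 < M → ∀ X : ℕ, 2 ≤ X →
    ∀ S : Finset ℕ, (∀ p ∈ S, p ≤ X) → ∀ P : ℕ → ℕ → Prop,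
    (∀ b c, b ∣ M → c ∣ M → P b c → NPX F X b c) → Uniq M X P →
    ∀ (f g : ℕ → ℝ), (∀ b, 0 ≤ f b) → (∀ b, 0 ≤ g b) → (∀ b, f b ≤ 1) → (∀ b, g b ≤ 1) →
    frm M (fun b c => if P b c then bst S M b c * (f b * g c) else 0) ≤
      C * (Real.log X) ^ (-(1 / 2 : ℝ)) * (√(Ex M f) * √(Ex M g)) := by
  obtain ⟨C, hC, h⟩ := np_one
  set r : ℝ := (√2)⁻¹ with hr
  have hs2 : 1 < √2 := by
    rw [← Real.sqrt_one]; exact Real.sqrt_lt_sqrt (by norm_num) (by norm_num)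
  have hr0 : 0 < r := by positivity
  have hr1 : r < 1 := inv_lt_one_of_one_lt₀ hs2
  have hR : 0 < (1 - r)⁻¹ := inv_pos.2 (by linarith)
  refine ⟨2 * C * (1 - r)⁻¹ ^ 2, by positivity,
    fun M F hM X hX S hS P hP hU f g hf hg hf1 hg1 => ?_⟩
  have hX' : (2 : ℝ) ≤ (X : ℝ) := by exact_mod_cast hX
  have hlog : 0 < Real.log X := Real.log_pos (by linarith)
  set D := √(Ex M f) * √(Ex M g) with hD
  have hD0 : 0 ≤ D := mul_nonneg (Real.sqrt_nonneg _) (Real.sqrt_nonneg _)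
  set L := (Real.log X) ^ (-(1 / 2 : ℝ)) with hL
  have hL0 : 0 ≤ L := Real.rpow_nonneg hlog.le _
  have hbf : ∀ b c, 0 ≤ bst S M b c * (f b * g c) := fun b c =>
    mul_nonneg (bst_nonneg _ _ _ _) (mul_nonneg (hf _) (hg _))
  set T : Finset (ℕ × ℕ × ℕ) := range (M + 1) ×ˢ (range (M + 1) ×ˢ range 2) with hT
  have h1 : frm M (fun b c => if P b c then bst S M b c * (f b * g c) else 0) ≤
      ∑ t ∈ T, frm M (fun b c => if P b c ∧ Cls X t.1 t.2.1 t.2.2 b c then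
        bst S M b c * (f b * g c) else 0) := by
    rw [frm_sum]
    refine frm_mono fun b c hb hc => ?_
    have hnn : ∀ t ∈ T, (0 : ℝ) ≤ (if P b c ∧ Cls X t.1 t.2.1 t.2.2 b c then
        bst S M b c * (f b * g c) else 0) := by
      intro t _
      split_ifs
      · exact hbf b c
      · exact le_rfl
    by_cases hPP : P b c
    · obtain ⟨a, ha, a', ha', e, he, hcls⟩ := exists_cls (X := X) hM hb hc
      have hmem : (a, a', e) ∈ T := by
        rw [hT, Finset.mem_product, Finset.mem_product]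
        exact ⟨ha, ha', he⟩
      refine le_trans ?_ (Finset.single_le_sum hnn hmem)
      rw [if_pos hPP, if_pos ⟨hPP, hcls⟩]
    · rw [if_neg hPP]
      exact Finset.sum_nonneg hnn
  refine h1.trans ?_
  have h2 : ∀ t ∈ T, frm M (fun b c => if P b c ∧ Cls X t.1 t.2.1 t.2.2 b c then
        bst S M b c * (f b * g c) else 0) ≤ (C * L * D) * (r ^ t.1 * r ^ t.2.1) := by
    intro t _
    refine (h M F hM X hX S hS P hP hU t.1 t.2.1 t.2.2 f g hf hg hf1 hg1).trans (le_of_eq ?_)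
    rw [Real.sqrt_mul (by positivity), hr, ← inv_sqrt2_pow, ← inv_sqrt2_pow]
    have k1 : √((2 : ℝ) ^ t.1) ≠ 0 := by positivity
    have k2 : √((2 : ℝ) ^ t.2.1) ≠ 0 := by positivity
    field_simp
    rw [hL, hD]
    ring
  refine (Finset.sum_le_sum h2).trans ?_
  rw [← Finset.mul_sum, hT, Finset.sum_product]
  have h3 : ∀ a ∈ range (M + 1), ∑ x ∈ range (M + 1) ×ˢ range 2, r ^ a * r ^ x.1 ≤
      r ^ a * (2 * (1 - r)⁻¹) := by
    intro a _
    rw [Finset.sum_product]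
    simp only [Finset.sum_const, Finset.card_range, nsmul_eq_mul]
    rw [← Finset.mul_sum, ← Finset.mul_sum]
    have := geo_le (M + 1)
    rw [← hr] at this
    have h4 : 0 ≤ r ^ a := by positivity
    push_cast
    nlinarith
  have h5 : ∑ a ∈ range (M + 1), ∑ x ∈ range (M + 1) ×ˢ range 2, r ^ a * r ^ x.1 ≤
      2 * (1 - r)⁻¹ ^ 2 := by
    refine (Finset.sum_le_sum h3).trans ?_
    rw [← Finset.sum_mul]
    have := geo_le (M + 1)
    rw [← hr] at this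
    calc _ ≤ (1 - r)⁻¹ * (2 * (1 - r)⁻¹) := mul_le_mul_of_nonneg_right this (by positivity)
      _ = _ := by ring
  calc C * L * D * _ ≤ C * L * D * (2 * (1 - r)⁻¹ ^ 2) :=
        mul_le_mul_of_nonneg_left h5 (by positivity)
    _ = _ := by ring

/-! ### all blocks -/

lemma Xj_lt {M : ℕ} (hM : 0 < M) {F : FL M} {j b : ℕ} (h : F.ell (Xj j) b ≠ 1) :
    j < M + 1 := by
  obtain ⟨p, hp, hpd⟩ := Nat.exists_prime_and_dvd h
  have h1 : 0 < (F.ell (Xj j) b).factorization p :=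
    hp.factorization_pos_of_dvd (FL.ell_pos _ _).ne' hpd
  rw [FL.fact_ell] at h1
  by_cases hpm : p ∈ M.primeFactors
  · rw [if_pos hpm] at h1
    have hx : Xj j < p := by
      by_contra hcon
      unfold FL.ellE at h1
      rw [if_neg hcon] at h1
      omega
    have hpM : p ≤ M := Nat.le_of_dvd hM (Nat.dvd_of_mem_primeFactors hpm)
    have h3 : j < 2 ^ j := Nat.lt_two_pow_self
    have h4 : 2 ^ j < 2 ^ (2 ^ j) := Nat.lt_two_pow_self
    unfold Xj at hx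
    omega
  · rw [if_neg hpm] at h1
    omega

open Classical in
/-- **scalar / vector non-pure part, all words, all blocks, all windows, full boost** -/
theorem np_words : ∃ C : ℝ, 0 < C ∧ ∀ (M : ℕ) (F : FL M), 0 < M → ∀ j0 : ℕ, 1 ≤ j0 →
    ∀ P : ℕ → ℕ → ℕ → Prop,
    (∀ j, j0 ≤ j → ∀ b c, b ∣ M → c ∣ M → P j b c → NPX F (Xj j) b c) →
    (∀ j, j0 ≤ j → Uniq M (Xj j) (P j)) →
    ∀ W : ℕ → ℕ → ℝ,
    (∀ j, j0 ≤ j → ∀ b c, b ∣ M → c ∣ M → P j b c → W b c ≤ bst (pr (Xj j)) M b c) →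
    ∀ (f g : ℕ → ℝ), (∀ b, 0 ≤ f b) → (∀ b, 0 ≤ g b) → (∀ b, f b ≤ 1) → (∀ b, g b ≤ 1) →
    frm M (fun b c => if ∃ j, j0 ≤ j ∧ P j b c then W b c * (f b * g c) else 0) ≤
      C * ((√2)⁻¹) ^ j0 * (√(Ex M f) * √(Ex M g)) := by
  obtain ⟨C, hC, h⟩ := np_block
  have hl2 : 0 < Real.log 2 := Real.log_pos (by norm_num)
  set r : ℝ := (√2)⁻¹ with hr
  have hs2 : 1 < √2 := by
    rw [← Real.sqrt_one]; exact Real.sqrt_lt_sqrt (by norm_num) (by norm_num)
  have hr0 : 0 < r := by positivity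
  have hr1 : r < 1 := inv_lt_one_of_one_lt₀ hs2
  have hR : 0 < (1 - r)⁻¹ := inv_pos.2 (by linarith)
  set K : ℝ := (√(Real.log 2 / 2))⁻¹ with hK
  have hK0 : 0 < K := by positivity
  refine ⟨C * K * (1 - r)⁻¹, by positivity,
    fun M F hM j0 hj0 P hP hU W hW f g hf hg hf1 hg1 => ?_⟩
  set D := √(Ex M f) * √(Ex M g) with hD
  have hD0 : 0 ≤ D := mul_nonneg (Real.sqrt_nonneg _) (Real.sqrt_nonneg _)
  have h1 : frm M (fun b c => if ∃ j, j0 ≤ j ∧ P j b c then W b c * (f b * g c) else 0) ≤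
      ∑ j ∈ Finset.Ico j0 (M + 1), frm M (fun b c => if P j b c then
        bst (pr (Xj j)) M b c * (f b * g c) else 0) := by
    rw [frm_sum]
    refine frm_mono fun b c hb hc => ?_
    have hnn : ∀ j ∈ Finset.Ico j0 (M + 1), (0 : ℝ) ≤ (if P j b c then
        bst (pr (Xj j)) M b c * (f b * g c) else 0) := by
      intro j _
      split_ifs
      · exact mul_nonneg (bst_nonneg _ _ _ _) (mul_nonneg (hf _) (hg _))
      · exact le_rfl
    by_cases hex : ∃ j, j0 ≤ j ∧ P j b c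
    · rw [if_pos hex]
      obtain ⟨j, hj, hPj⟩ := hex
      have hn := hP j hj b c hb hc hPj
      have hjM : j < M + 1 := by
        have := hn.np
        rw [not_and_or] at this
        rcases this with h5 | h5
        · exact Xj_lt hM h5
        · exact Xj_lt hM h5
      refine le_trans ?_ (Finset.single_le_sum hnn (Finset.mem_Ico.2 ⟨hj, hjM⟩))
      rw [if_pos hPj]
      exact mul_le_mul_of_nonneg_right (hW j hj b c hb hc hPj) (mul_nonneg (hf _) (hg _))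
    · rw [if_neg hex]
      exact Finset.sum_nonneg hnn
  refine h1.trans ?_
  have h2 : ∀ j ∈ Finset.Ico j0 (M + 1), frm M (fun b c => if P j b c then
        bst (pr (Xj j)) M b c * (f b * g c) else 0) ≤ (C * K * D) * r ^ j := by
    intro j hj
    rw [Finset.mem_Ico] at hj
    have hj1 : 1 ≤ j := by omega
    refine (h M F hM (Xj j) (Xj_two hj1) (pr (Xj j)) (fun p hp => (mem_pr.1 hp).1) (P j)
      (hP j hj.1) (hU j hj.1) f g hf hg hf1 hg1).trans ?_
    have hlX : 0 < Real.log (Xj j) := lt_of_lt_of_le (by positivity) (log_Xj hj1)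
    have h1 : (Real.log (Xj j)) ^ (-(1 / 2 : ℝ)) ≤ K * r ^ j := by
      rw [Real.rpow_neg hlX.le, ← Real.sqrt_eq_rpow]
      have h2 : √(2 ^ j * (Real.log 2 / 2)) ≤ √(Real.log (Xj j)) := Real.sqrt_le_sqrt (log_Xj hj1)
      have h3 : √((2 : ℝ) ^ j * (Real.log 2 / 2)) = (√2) ^ j * √(Real.log 2 / 2) := by
        rw [Real.sqrt_mul (by positivity)]
        congr 1
        have : ((2 : ℝ) ^ j) = ((√2) ^ j) ^ 2 := by
          rw [← pow_mul, mul_comm, pow_mul, Real.sq_sqrt (by norm_num)]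
        rw [this, Real.sqrt_sq (by positivity)]
      rw [h3] at h2
      have h4 : 0 < (√2) ^ j * √(Real.log 2 / 2) := by positivity
      calc (√(Real.log (Xj j)))⁻¹ ≤ ((√2) ^ j * √(Real.log 2 / 2))⁻¹ :=
            inv_anti₀ h4 h2
        _ = K * r ^ j := by rw [mul_inv, hr, hK, inv_pow]; ring
    calc C * (Real.log (Xj j)) ^ (-(1 / 2 : ℝ)) * D ≤ C * (K * r ^ j) * D :=
          mul_le_mul_of_nonneg_right (mul_le_mul_of_nonneg_left h1 hC.le) hD0
      _ = (C * K * D) * r ^ j := by ring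
  refine (Finset.sum_le_sum h2).trans ?_
  rw [← Finset.mul_sum]
  have hgeo : ∑ j ∈ Finset.Ico j0 (M + 1), r ^ j ≤ r ^ j0 * (1 - r)⁻¹ := by
    rw [Finset.sum_Ico_eq_sum_range]
    have : ∀ k ∈ Finset.range (M + 1 - j0), r ^ (j0 + k) = r ^ j0 * r ^ k := fun k _ => pow_add _ _ _
    rw [Finset.sum_congr rfl this, ← Finset.mul_sum]
    refine mul_le_mul_of_nonneg_left ?_ (by positivity)
    exact sum_le_hasSum _ (fun n _ => pow_nonneg hr0.le n) (hasSum_geometric_of_lt_one hr0.le hr1)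
  calc C * K * D * ∑ j ∈ Finset.Ico j0 (M + 1), r ^ j
      ≤ C * K * D * (r ^ j0 * (1 - r)⁻¹) :=
        mul_le_mul_of_nonneg_left hgeo (by positivity)
    _ = _ := by ring

/-! ### doubling families of words -/

/-- a doubling family of words is determined by the upper words in every class -/
lemma uniq_dbl {M : ℕ} (hM : 0 < M) {X : ℕ} {D : ℕ → ℕ → ℕ → ℕ → Prop} (hD : Dbl D)
    {P : ℕ → ℕ → Prop}
    (hP : ∀ b c, b ∣ M → c ∣ M → P b c →
      D (upp X (wd b c).1) (upp X (wd b c).2) (low X (wd b c).1) (low X (wd b c).2) ∧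
        4 * (low X (wd b c).1 * low X (wd b c).2) ≤ X) : Uniq M X P := by
  intro a a' e b c b1 c1 hb hc hb1 hc1 hP0 hP1 hcl hcl1 hu hu'
  have hb0 : 0 < b := Nat.pos_of_dvd_of_pos hb hM
  have hc0 : 0 < c := Nat.pos_of_dvd_of_pos hc hM
  have hb10 : 0 < b1 := Nat.pos_of_dvd_of_pos hb1 hM
  have hc10 : 0 < c1 := Nat.pos_of_dvd_of_pos hc1 hM
  obtain ⟨hD0, hs0⟩ := hP b c hb hc hP0
  obtain ⟨hD1, hs1⟩ := hP b1 c1 hb1 hc1 hP1
  obtain ⟨hyX, e1, e2, _, _⟩ := cls_cut hs0 hcl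
  obtain ⟨_, e1', e2', _, _⟩ := cls_cut hs1 hcl1
  set y : ℕ := 2 ^ (a + a' + 2) with hy
  have hw := wd_pos hb0 hc0
  have hw1 := wd_pos hb10 hc10
  have u1 : upp y (wd b c).1 = upp X (wd b c).1 := upp_eq_upp hw.1.ne' e1
  have u2 : upp y (wd b c).2 = upp X (wd b c).2 := upp_eq_upp hw.2.ne' e2
  have u1' : upp y (wd b1 c1).1 = upp X (wd b1 c1).1 := upp_eq_upp hw1.1.ne' e1'
  have u2' : upp y (wd b1 c1).2 = upp X (wd b1 c1).2 := upp_eq_upp hw1.2.ne' e2'
  have hW : wd (upp y b) (upp y c) = wd (upp y b1) (upp y c1) := by rw [hu, hu']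
  rw [wd_upp y hb0.ne' hc0.ne', wd_upp y hb10.ne' hc10.ne', u1, u2, u1', u2'] at hW
  rw [Prod.mk.injEq] at hW
  rw [← hW.1, ← hW.2] at hD1
  rw [wd_low y hb0.ne' hc0.ne', wd_low y hb10.ne' hc10.ne', e1, e2, e1', e2']
  by_contra hne
  have hne' : ((low X (wd b1 c1).1, low X (wd b1 c1).2) : ℕ × ℕ) ≠
      (low X (wd b c).1, low X (wd b c).2) := fun h => hne h.symm
  have hlog : ∀ n i, 0 < n → Nat.log 2 n = i → 2 ^ i ≤ n ∧ n < 2 ^ (i + 1) := by
    intro n i hn hi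
    rw [← hi]
    exact ⟨Nat.pow_log_le_self 2 hn.ne', Nat.lt_pow_succ_log_self (by norm_num) _⟩
  have k1 := hlog _ _ (Nat.mul_pos (low_pos X (wd b c).1) (low_pos X (wd b c).2)) hcl.2.2
  have k2 := hlog _ _ (Nat.mul_pos (low_pos X (wd b1 c1).1) (low_pos X (wd b1 c1).2)) hcl1.2.2
  have k3 : 2 ^ (a + a' + e + 1) = 2 * 2 ^ (a + a' + e) := by rw [pow_succ]; ring
  rcases hD _ _ _ _ _ _ hD0 hD1 hne' with h4 | h4
  · omega
  · omega

/-- good and non-pure at the bottom `Xj j` of a block, low word in the family `D` -/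
def NPD {M : ℕ} (F : FL M) (D : ℕ → ℕ → ℕ → ℕ → Prop) (j b c : ℕ) : Prop :=
  NPX F (Xj j) b c ∧ D (upp (Xj j) (wd b c).1) (upp (Xj j) (wd b c).2)
    (low (Xj j) (wd b c).1) (low (Xj j) (wd b c).2)

open Classical in
theorem np_dbl : ∃ C : ℝ, 0 < C ∧ ∀ (M : ℕ) (F : FL M), 0 < M → ∀ j0 : ℕ, 1 ≤ j0 →
    ∀ D : ℕ → ℕ → ℕ → ℕ → Prop, Dbl D → ∀ W : ℕ → ℕ → ℝ,
    (∀ j, j0 ≤ j → ∀ b c, b ∣ M → c ∣ M → NPD F D j b c → W b c ≤ bst (pr (Xj j)) M b c) →
    ∀ (f g : ℕ → ℝ), (∀ b, 0 ≤ f b) → (∀ b, 0 ≤ g b) → (∀ b, f b ≤ 1) → (∀ b, g b ≤ 1) →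
    frm M (fun b c => if ∃ j, j0 ≤ j ∧ NPD F D j b c then W b c * (f b * g c) else 0) ≤
      C * ((√2)⁻¹) ^ j0 * (√(Ex M f) * √(Ex M g)) := by
  obtain ⟨C, hC, h⟩ := np_words
  refine ⟨C, hC, fun M F hM j0 hj0 D hD W hW f g hf hg hf1 hg1 => ?_⟩
  exact h M F hM j0 hj0 (NPD F D) (fun j _ b c _ _ hPP => hPP.1)
    (fun j _ => uniq_dbl hM hD (fun b c _ _ hPP => ⟨hPP.2, hPP.1.size⟩)) W hW f g hf hg hf1 hg1

end Crest.Agent.R4C.VecNPx50
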