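import Crest.Agent.R4C.HighFL_863
import Crest.Agent.R4C.GWwt_360
import Crest.Agent.R4C.VecNPj_50
import Crest.Agent.R4C.VecPure_520

/-!
# Row 4, class CDomP, VECTOR case: the pair side (helper19)

* `VP hM F P y i G w w' u v l b c h` : the pair `(b, c, h)` of own index `i` and own low word
  `(u, v)`, seen from a cut `y ≤ cut i` : `b = l u (G w)`, `c = l v (G w')`, `G` a core of
  `hiFL hM y F`, `w, w' ∣ PM`, same letters `≤ cut i`, `gcd w w' = low (cut i) w`, link and window.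
* `exists_vp` : every far pure pair at the index `i` has these data at every cut `y` with
  `u, v ≤ y ≤ cut i`.
* `VP.window` : index of the node in the world of window `L / 2^(J + κ)`, `J = log2 l`, `κ ≤ 1`.
* `VP.weight` : the weight (360's `weight_low`).
* `vcls`, `word_unique` : in one class the low word is a function of the high words.
-/

set_option autoImplicit false

namespace Crest.Agent.R4C.VecPairx19

open Finset Crest.Agent.R4C.Basex935 Crest.Agent.R4C.FLDefx935 Crest.Agent.R4C.BoostCx972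
  Crest.Agent.R4C.CrCoinx935 Crest.Agent.R4C.CrCountx935 Crest.Agent.R4C.Bridgex882
  Crest.Agent.R4C.PrefixMx882 Crest.Agent.R4C.Rulex945 Crest.Agent.R4C.Sharedx11
  Crest.Agent.R4C.Splitx945 Crest.Agent.R4C.Cutx50 Crest.Agent.R4C.PureL2x232
  Crest.Agent.R4C.PureClsx863 Crest.Agent.R4C.HighFLx863 Crest.Agent.R4C.S2bx284
open Crest.Agent.R4C.VecPurex520 (Dbl DomD dbl_dom)

variable {M : ℕ}

/-- the data of a far pure pair, seen from the cut `y` -/
structure VP (hM : 0 < M) (F : FL M) (P : Par) (y i G w w' u v l b c : ℕ) (h : ℤ) : Prop where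
  hb : b ∣ M
  hc : c ∣ M
  hG : G ∈ cores (hiFL hM y F)
  hw : w ∣ PM (hiFL hM y F) G
  hw' : w' ∣ PM (hiFL hM y F) G
  Gb : H0 hM F y b = G
  Gc : H0 hM F y c = G
  wb : HighFLx863.hw hM F y b = w
  wc : HighFLx863.hw hM F y c = w'
  lb : low y b = l * u
  lc : low y c = l * v
  ub : upp y b = G * w
  uc : upp y c = G * w'
  eb : b = l * u * (G * w)
  ec : c = l * v * (G * w')
  l_pos : 0 < l
  l_eq : Nat.gcd (low y b) (low y c) = l
  u_pos : 0 < u
  v_pos : 0 < v
  cop : Nat.Coprime u v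
  wd_eq : FixedWordx423.wd (low y b) (low y c) = (u, v)
  uX : low (P.cut i) (b / Nat.gcd b c) = u
  vX : low (P.cut i) (c / Nat.gcd b c) = v
  wX : upp (P.cut i) (b / Nat.gcd b c) = upp (P.cut i) w
  wX' : upp (P.cut i) (c / Nat.gcd b c) = upp (P.cut i) w'
  hy : y ≤ P.cut i
  low_eq : low (P.cut i) w' = low (P.cut i) w
  gcd_w : Nat.gcd w w' = low (P.cut i) w
  gcd_u : Nat.gcd (upp y b) (upp y c) = G * low (P.cut i) w
  gcd_bc : Nat.gcd b c = l * (G * low (P.cut i) w)
  D_le : D (hiFL hM y F) G ≤ P.cut i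
  lam_b : F.lam (P.cut i) b = upp (P.cut i) w
  lam_c : F.lam (P.cut i) c = upp (P.cut i) w'
  lo : 2 ^ i * P.L ≤ (l : ℝ) * (G * low (P.cut i) w : ℕ)
  hi : (l : ℝ) * (G * low (P.cut i) w : ℕ) < 2 ^ (i + 1) * P.L
  link : |(u : ℝ) * (upp (P.cut i) w * P.γ) - v * (upp (P.cut i) w' * P.γ) + h| <
    P.L / ((l : ℝ) * (G * low (P.cut i) w : ℕ))

lemma fact_eq_of_low {y X q s : ℕ} (h : low y s = low X s) (hy : y < q) (hX : q ≤ X) :
    s.factorization q = 0 := by
  have h1 := congrArg (fun n => n.factorization q) h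
  simp only [fact_low] at h1
  rw [if_neg (by omega), if_pos hX] at h1
  exact h1.symm

/-- the letters of `(y, X]` agree if the words `≤ X` are `≤ y` -/
lemma mid_eq {y X b c q : ℕ} (hb : b ≠ 0) (hc : c ≠ 0)
    (h1 : low y (b / Nat.gcd b c) = low X (b / Nat.gcd b c))
    (h2 : low y (c / Nat.gcd b c) = low X (c / Nat.gcd b c)) (hy : y < q) (hX : q ≤ X) :
    b.factorization q = c.factorization q := by
  have e1 := fact_eq_of_low h1 hy hX
  have e2 := fact_eq_of_low h2 hy hX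
  have hg : 0 < Nat.gcd b c := Nat.gcd_pos_of_pos_left _ (Nat.pos_of_ne_zero hb)
  have hs0 : b / Nat.gcd b c ≠ 0 :=
    (Nat.div_pos (Nat.le_of_dvd (Nat.pos_of_ne_zero hb) (Nat.gcd_dvd_left _ _)) hg).ne'
  have hs0' : c / Nat.gcd b c ≠ 0 :=
    (Nat.div_pos (Nat.le_of_dvd (Nat.pos_of_ne_zero hc) (Nat.gcd_dvd_right _ _)) hg).ne'
  have f1 := congrArg (fun n => n.factorization q) (Nat.mul_div_cancel' (Nat.gcd_dvd_left b c))
  have f2 := congrArg (fun n => n.factorization q) (Nat.mul_div_cancel' (Nat.gcd_dvd_right b c))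
  simp only [Nat.factorization_mul hg.ne' hs0, Nat.factorization_mul hg.ne' hs0',
    Finsupp.add_apply, e1, e2] at f1 f2
  omega

/-- **every far pure pair has the data at every cut `y` with `u, v ≤ y ≤ cut i`** -/
theorem exists_vp (hM : 0 < M) (F : FL M) (P : Par) {i b c : ℕ} {h : ℤ} (hb : b ∣ M) (hc : c ∣ M)
    (_hL : 0 < P.L) (hfar : FarA F P i b c h) (hp : Pure F (P.cut i) b c)
    (hl : h ∈ Lnk P.γ P.L b c) {y : ℕ} (hy : y ≤ P.cut i)
    (hu : low (P.cut i) (b / Nat.gcd b c) ≤ y) (hv : low (P.cut i) (c / Nat.gcd b c) ≤ y) :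
    VP hM F P y i (H0 hM F y b) (HighFLx863.hw hM F y b) (HighFLx863.hw hM F y c)
      (low (P.cut i) (b / Nat.gcd b c)) (low (P.cut i) (c / Nat.gcd b c))
      (Nat.gcd (low y b) (low y c)) b c h := by
  set X := P.cut i with hX
  have hb0 : b ≠ 0 := (Nat.pos_of_dvd_of_pos hb hM).ne'
  have hc0 : c ≠ 0 := (Nat.pos_of_dvd_of_pos hc hM).ne'
  set g := Nat.gcd b c with hg
  have hg0 : 0 < g := Nat.gcd_pos_of_pos_left _ (Nat.pos_of_ne_zero hb0)
  set s := b / g with hs
  set s' := c / g with hs'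
  have hsp : 0 < s := Nat.div_pos (Nat.le_of_dvd (Nat.pos_of_ne_zero hb0) (Nat.gcd_dvd_left _ _)) hg0
  have hsp' : 0 < s' :=
    Nat.div_pos (Nat.le_of_dvd (Nat.pos_of_ne_zero hc0) (Nat.gcd_dvd_right _ _)) hg0
  set u := low X s with hudef
  set v := low X s' with hvdef
  have e1 : low y s = low X s := VecPurex520.low_eq_low hy hu
  have e2 : low y s' = low X s' := VecPurex520.low_eq_low hy hv
  have hmid : ∀ q, q.Prime → y < q → q ≤ X → b.factorization q = c.factorization q :=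
    fun q _ h1 h2 => mid_eq hb0 hc0 e1 e2 h1 h2
  set l := Nat.gcd (low y b) (low y c) with hl0
  set w := HighFLx863.hw hM F y b with hwdef
  set w' := HighFLx863.hw hM F y c with hwdef'
  set G := H0 hM F y b with hGdef
  have hlp : 0 < l := Nat.gcd_pos_of_pos_left _ (low_pos _ _)
  have hwd : FixedWordx423.wd (low y b) (low y c) = (u, v) := by
    rw [VecPurex520.wd_low y hb0 hc0]
    show (low y s, low y s') = _
    rw [e1, e2]
  have hlb : low y b = l * u := by
    have h1 := congrArg Prod.fst hwd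
    simp only [FixedWordx423.wd] at h1
    rw [← h1]
    exact (Nat.mul_div_cancel' (Nat.gcd_dvd_left _ _)).symm
  have hlc : low y c = l * v := by
    have h1 := congrArg Prod.snd hwd
    simp only [FixedWordx423.wd] at h1
    rw [← h1]
    exact (Nat.mul_div_cancel' (Nat.gcd_dvd_right _ _)).symm
  have hcop : Nat.Coprime u v := by
    have h1 : Nat.Coprime s s' := Nat.coprime_div_gcd_div_gcd hg0
    exact (h1.coprime_dvd_left (low_dvd_self _ _)).coprime_dvd_right (low_dvd_self _ _)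
  -- the high words
  have hmain : H0 hM F y c = G ∧ low X w' = low X w ∧ Nat.gcd w w' = low X w ∧
      Nat.gcd (upp y b) (upp y c) = G * low X w ∧ D (hiFL hM y F) G ≤ X := by
    by_cases hne : upp y b = upp y c
    · have hD : D (hiFL hM y F) G ≤ X := by
        rw [hGdef, D_H0 hM F hb]; exact hD_le hM F hb hy hp.1
      have hGc : H0 hM F y c = G := by
        rw [hGdef]; unfold H0; rw [hne]
      have hww : w' = w := by
        rw [hwdef, hwdef']; unfold HighFLx863.hw; rw [hne]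
      have hlw : low X w = w := by
        refine eq_of_fact (low_pos _ _).ne' (HighFLx863.hw_pos hM F y b).ne' fun q hq => ?_
        rw [fact_low]
        split_ifs with hqX
        · rfl
        · rw [not_le] at hqX
          have hyq : y < q := lt_of_le_of_lt hy hqX
          have f1 := fact_hw hM F (y := y) hb q
          have hst : (hiFL hM y F).ctr (H0 hM F y b) q = F.ctr b q := by
            unfold H0
            rw [ctr_core (upp_pos _ _) (upp_dvd y hM.ne' hb) hq, hctr_upp hM F hb hq hyq]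
          cases h3 : F.ctr b q with
          | none =>
            have h4 : w.factorization q ≤ _ := fact_word (p := q) (hw_dvd hM F (y := y) hb)
            rw [fact_PM_none (hst.trans h3)] at h4
            omega
          | some t =>
            have h4 := G_fact_some (upp_pos _ _) (H0_mem hM F (y := y) hb) hq
              (lt_of_le_of_lt hD hqX) (hst.trans h3)
            have h5 := hfar.good.2 q hq hqX t h3
            have h6 : (upp y b).factorization q = (upp y c).factorization q := by rw [hne]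
            rw [fact_upp, fact_upp, if_pos (by omega), if_pos (by omega)] at h6
            rw [fact_upp, if_pos (by omega)] at f1
            have f1' : b.factorization q = t + w.factorization q := by rw [f1, h4]
            omega
      refine ⟨hGc, by rw [hww], ?_, ?_, hD⟩
      · rw [hww, Nat.gcd_self, hlw]
      · rw [← hne, Nat.gcd_self, hlw, hGdef, hwdef, H0_mul_hw hM F hb]
    · obtain ⟨h1, -, h3, h4, h5, h6⟩ :=
        high_pair hM F hy hb hc hne hfar.good hmid hp.1 hp.2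
      exact ⟨h1, h3.symm, h4, h5, h6⟩
  obtain ⟨hGc, hlow, hgw, hgu, hD⟩ := hmain
  have hGmem : G ∈ cores (hiFL hM y F) := H0_mem hM F hb
  have hub : upp y b = G * w := (H0_mul_hw hM F hb).symm
  have huc : upp y c = G * w' := by rw [← hGc]; exact (H0_mul_hw hM F hc).symm
  have hgcd : g = l * (G * low X w) := by
    rw [hg, gcd_high hM hb hc (y := y), hgu]
  have hwd1 : w ∣ PM (hiFL hM y F) G := hw_dvd hM F hb
  have hwd2 : w' ∣ PM (hiFL hM y F) G := by rw [← hGc]; exact hw_dvd hM F hc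
  have hGp : 0 < G := H0_pos hM F y b
  have hwp : w ≠ 0 := (HighFLx863.hw_pos hM F y b).ne'
  have hwp' : w' ≠ 0 := (HighFLx863.hw_pos hM F y c).ne'
  have heb : b = l * u * (G * w) := by
    rw [← hlb, ← hub, low_mul_upp y hb0]
  have hec : c = l * v * (G * w') := by
    rw [← hlc, ← huc, low_mul_upp y hc0]
  -- `s = u * upp X w`
  have hss : s = u * upp X w := by
    rw [hs]
    refine Nat.div_eq_of_eq_mul_left hg0 ?_
    rw [hgcd]
    calc b = l * u * (G * w) := heb
      _ = l * u * (G * (low X w * upp X w)) := by rw [low_mul_upp X hwp]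
      _ = _ := by ring
  have hss' : s' = v * upp X w' := by
    rw [hs']
    refine Nat.div_eq_of_eq_mul_left hg0 ?_
    rw [hgcd]
    calc c = l * v * (G * w') := hec
      _ = l * v * (G * (low X w' * upp X w')) := by rw [low_mul_upp X hwp']
      _ = _ := by rw [hlow]; ring
  have hup : 0 < u := low_pos _ _
  have hvp : 0 < v := low_pos _ _
  have hux : upp X s = upp X w := by
    have h1 := low_mul_upp X hsp.ne'
    rw [← hudef] at h1
    exact Nat.eq_of_mul_eq_mul_left hup (h1.trans hss)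
  have hvx : upp X s' = upp X w' := by
    have h1 := low_mul_upp X hsp'.ne'
    rw [← hvdef] at h1
    exact Nat.eq_of_mul_eq_mul_left hvp (h1.trans hss')
  have hgR : (g : ℝ) = (l : ℝ) * (G * low X w : ℕ) := by
    rw [hgcd]; push_cast; ring
  refine
    { hb := hb, hc := hc, hG := hGmem, hw := hwd1, hw' := hwd2, Gb := rfl, Gc := hGc, wb := rfl
      wc := rfl, lb := hlb, lc := hlc, ub := hub, uc := huc, eb := heb, ec := hec, l_pos := hlp
      l_eq := rfl, u_pos := hup, v_pos := hvp, cop := hcop, wd_eq := hwd, uX := rfl, vX := rfl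
      wX := hux, wX' := hvx, hy := hy, low_eq := hlow, gcd_w := hgw, gcd_u := hgu
      gcd_bc := hgcd, D_le := hD, lam_b := lam_high hM F hb hy hD
      lam_c := lam_high hM F hc hy (by rw [hGc]; exact hD), lo := ?_, hi := ?_, link := ?_ }
  · rw [← hgR]; exact hfar.lo
  · rw [← hgR]; exact hfar.hi
  · have h1 : h ∈ Hf P.γ (P.L / (g : ℕ)) s s' := hl
    rw [mem_Hf, hss, hss', hgR] at h1
    push_cast at h1 ⊢
    have e : ((u : ℝ) * (upp X w : ℝ) - v * (upp X w' : ℝ)) * P.γ + h =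
        (u : ℝ) * (upp X w * P.γ) - v * (upp X w' * P.γ) + h := by ring
    rw [e] at h1
    exact h1

namespace VP

variable {hM : 0 < M} {F : FL M} {P : Par} {y i G w w' u v l b c : ℕ} {h : ℤ}

/-- the dominant word over the high words -/
lemma dom (hV : VP hM F P y i G w w' u v l b c h) (hd : DomA P i b c) :
    Dom (upp (P.cut i) w * P.γ) (upp (P.cut i) w' * P.γ) (2 ^ i) u v := by
  have h1 := hd.dom
  rwa [hV.uX, hV.vX, hV.wX, hV.wX'] at h1

/-- **the window**: `i` is the index of the node `e = G * low (cut i) w` in the world of the window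
`L / 2^(J + κ)`, `J = log2 l`, `κ ∈ {0, 1}` -/
theorem window (hV : VP hM F P y i G w w' u v l b c h) (hL : 0 < P.L) :
    ∃ κ : ℕ, κ ≤ 1 ∧
      2 ^ i * (P.L / 2 ^ (Nat.log 2 l + κ)) ≤ ((G * low (P.cut i) w : ℕ) : ℝ) ∧
      ((G * low (P.cut i) w : ℕ) : ℝ) < 2 ^ (i + 1) * (P.L / 2 ^ (Nat.log 2 l + κ)) := by
  set e : ℝ := ((G * low (P.cut i) w : ℕ) : ℝ) with he
  set J := Nat.log 2 l with hJ
  have h1 : (2 : ℝ) ^ J ≤ l := by exact_mod_cast Nat.pow_log_le_self 2 hV.l_pos.ne'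
  have h2 : (l : ℝ) < 2 ^ (J + 1) := by
    exact_mod_cast Nat.lt_pow_succ_log_self (by norm_num) l
  have he0 : 0 ≤ e := Nat.cast_nonneg _
  have hlo := hV.lo
  have hhi := hV.hi
  rw [← he] at hlo hhi
  have hJ0 : (0 : ℝ) < 2 ^ J := by positivity
  have hJ1 : (0 : ℝ) < 2 ^ (J + 1) := by positivity
  by_cases hc : 2 ^ i * (P.L / 2 ^ J) ≤ e
  · refine ⟨0, by norm_num, by simpa using hc, ?_⟩
    rw [add_zero, ← mul_div_assoc, lt_div_iff₀ hJ0]
    calc e * 2 ^ J ≤ e * l := mul_le_mul_of_nonneg_left h1 he0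
      _ = l * e := mul_comm _ _
      _ < _ := hhi
  · rw [not_le] at hc
    refine ⟨1, le_rfl, ?_, ?_⟩
    · rw [← mul_div_assoc, div_le_iff₀ hJ1]
      calc 2 ^ i * P.L ≤ l * e := hlo
        _ ≤ 2 ^ (J + 1) * e := mul_le_mul_of_nonneg_right h2.le he0
        _ = _ := mul_comm _ _
    · refine hc.trans_le (le_of_eq ?_)
      rw [pow_succ, pow_succ]
      field_simp

/-- `1 / (2^(J+κ) e)`-form of the link: precision `2^(-i)` -/
lemma link_le (hV : VP hM F P y i G w w' u v l b c h) (hL : 0 < P.L) :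
    |(u : ℝ) * (upp (P.cut i) w * P.γ) - v * (upp (P.cut i) w' * P.γ) + h| < 1 / 2 ^ i := by
  refine hV.link.trans_le ?_
  have h1 := hV.lo
  have h2 : (0 : ℝ) < 2 ^ i := by positivity
  have h3 : 0 < (l : ℝ) * (G * low (P.cut i) w : ℕ) := lt_of_lt_of_le (by positivity) h1
  rw [div_le_div_iff₀ h3 h2, one_mul, mul_comm]
  exact h1

/-- **the weight** -/
theorem weight (hV : VP hM F P y i G w w' u v l b c h) (hL : 0 < P.L) (hY : ∀ i, P.Y i = 2 ^ i)
    (hthr : ∀ b i, P.thr b i ≤ Real.exp ((P.Y (i - 1) : ℝ) ^ (4 / 5 : ℝ))) {A : ℕ} (hA : 1 ≤ A)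
    (hcut : ∀ m, P.cut m = 2 ^ (A * m)) (hi : 1 ≤ i) (hfar : FarA F P i b c h)
    (hl : h ∈ Lnk P.γ P.L b c) :
    (Nat.gcd b c : ℝ) * nu M b * nu M c * boostB M (lamR F P) b c h ≤
      Real.exp 200 * (Real.exp (22 / Real.log 2) * 2) * PureL2x232.B1 b c *
        (((l : ℝ) * nu (low y M) (low y b) * nu (low y M) (low y c) *
          BoostRx398.bst (BoostTopx19.prQ y) (low y M) (low y b) (low y c)) *
        (nu0 (hiFL hM y F) G * (nu (PM (hiFL hM y F) G) w * nu (PM (hiFL hM y F) G) w' /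
            nu (low (P.cut i) (PM (hiFL hM y F) G)) (low (P.cut i) w)) *
          min (GWwtx360.Ww (PM (hiFL hM y F) G) (fun p => lamR F P b p = none) y (P.cut i) w)
            (GWwtx360.Ww (PM (hiFL hM y F) G) (fun p => lamR F P c p = none) y (P.cut i) w'))) := by
  have hX2 : 2 ≤ P.cut i := by
    rw [hcut]
    calc 2 = 2 ^ 1 := by norm_num
      _ ≤ 2 ^ (A * i) := Nat.pow_le_pow_right (by norm_num) (Nat.mul_pos hA hi)
  have hXQ : P.cut i ≤ P.cut (2 * i) := by
    rw [hcut, hcut]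
    exact Nat.pow_le_pow_right (by norm_num) (Nat.mul_le_mul_left _ (by omega))
  have hLg : P.L ≤ (Nat.gcd b c : ℕ) := by
    have h1 := hfar.lo
    have h2 : (1 : ℝ) ≤ 2 ^ i := one_le_pow₀ (by norm_num)
    nlinarith
  have h1 := GWwtx360.weight_low hM hL hY hthr hV.hb hV.hc hV.hG hV.hw hV.hw' hV.ub hV.uc
    hV.low_eq.symm hV.gcd_w hX2 hXQ hfar.good hl hfar.al hLg
  have h2 : Real.log (P.cut (2 * i) : ℕ) / Real.log (P.cut i : ℕ) = 2 := by
    have hX2' : (2 : ℝ) ≤ (P.cut i : ℕ) := by exact_mod_cast hX2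
    have hlogp : 0 < Real.log (P.cut i : ℕ) := Real.log_pos (by linarith)
    rw [div_eq_iff hlogp.ne', hcut, hcut]
    push_cast
    rw [Real.log_pow, Real.log_pow]
    push_cast
    ring
  rw [h2, hV.l_eq] at h1
  have h3 : BoostRx398.bst (BoostTopx19.prQ y) M b c =
      BoostRx398.bst (BoostTopx19.prQ y) (low y M) (low y b) (low y c) := by
    refine VecNPx50.bst_low (fun p hp => ?_) M b c
    unfold BoostTopx19.prQ at hp
    rw [mem_filter, mem_range] at hp
    omega
  rw [h3] at h1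
  exact h1

/-- the high target is the high word of the pair -/
lemma upp_w (hV : VP hM F P y i G w w' u v l b c h) :
    upp (P.cut i) w = (FixedWordx423.wd (upp y b) (upp y c)).1 := by
  have hG0 : 0 < G := Nat.pos_of_dvd_of_pos (mem_cores.1 hV.hG).1.1 (upp_pos _ _)
  have hw0 : w ≠ 0 := (Nat.pos_of_dvd_of_pos hV.hw (PM_pos G)).ne'
  show _ = upp y b / Nat.gcd (upp y b) (upp y c)
  rw [hV.gcd_u, hV.ub]
  refine (Nat.div_eq_of_eq_mul_left (Nat.mul_pos hG0 (low_pos _ _)) ?_).symm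
  calc G * w = G * (low (P.cut i) w * upp (P.cut i) w) := by rw [low_mul_upp _ hw0]
    _ = _ := by ring

lemma upp_w' (hV : VP hM F P y i G w w' u v l b c h) :
    upp (P.cut i) w' = (FixedWordx423.wd (upp y b) (upp y c)).2 := by
  have hG0 : 0 < G := Nat.pos_of_dvd_of_pos (mem_cores.1 hV.hG).1.1 (upp_pos _ _)
  have hw0 : w' ≠ 0 := (Nat.pos_of_dvd_of_pos hV.hw' (PM_pos G)).ne'
  show _ = upp y c / Nat.gcd (upp y b) (upp y c)
  rw [hV.gcd_u, hV.uc, ← hV.low_eq]
  refine (Nat.div_eq_of_eq_mul_left (Nat.mul_pos hG0 (low_pos _ _)) ?_).symm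
  calc G * w' = G * (low (P.cut i) w' * upp (P.cut i) w') := by rw [low_mul_upp _ hw0]
    _ = _ := by ring

/-- the word is dominant at the scale `2^i` over the high word of the pair -/
lemma domD (hV : VP hM F P y i G w w' u v l b c h) (hd : DomA P i b c) :
    DomD P.γ (FixedWordx423.wd (upp y b) (upp y c)).1 (FixedWordx423.wd (upp y b) (upp y c)).2
      u v := by
  refine ⟨2 ^ i, by positivity, ?_⟩
  rw [← hV.upp_w, ← hV.upp_w']
  exact hV.dom hd

end VP

/-- **in one class (same `log2 (u v)`) the low word is a function of the high words**, all indices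
together -/
theorem word_unique {hM : 0 < M} {F : FL M} {P : Par} {y i G w w' u v l b c : ℕ} {h : ℤ}
    {i1 G1 w1 w1' u1 v1 l1 b1 c1 : ℕ} {h1 : ℤ}
    (hV : VP hM F P y i G w w' u v l b c h) (hd : DomA P i b c)
    (hV1 : VP hM F P y i1 G1 w1 w1' u1 v1 l1 b1 c1 h1) (hd1 : DomA P i1 b1 c1)
    (e : upp y b = upp y b1) (e' : upp y c = upp y c1)
    (hlog : Nat.log 2 (u * v) = Nat.log 2 (u1 * v1)) : u1 = u ∧ v1 = v := by
  have D1 := hV.domD hd
  have D2 := hV1.domD hd1
  rw [← e, ← e'] at D2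
  by_contra hne
  have hne' : ((u1, v1) : ℕ × ℕ) ≠ (u, v) := fun h0 => by
    rw [Prod.mk.injEq] at h0
    exact hne h0
  have p1 : u * v ≠ 0 := (Nat.mul_pos hV.u_pos hV.v_pos).ne'
  have p2 : u1 * v1 ≠ 0 := (Nat.mul_pos hV1.u_pos hV1.v_pos).ne'
  have a1 := Nat.pow_log_le_self 2 p1
  have a2 := Nat.lt_pow_succ_log_self (b := 2) (by norm_num) (u * v)
  have b1' := Nat.pow_log_le_self 2 p2
  have b2 := Nat.lt_pow_succ_log_self (b := 2) (by norm_num) (u1 * v1)
  rw [← hlog] at b1' b2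
  rw [pow_succ] at a2 b2
  rcases dbl_dom P.γ _ _ _ _ _ _ D1 D2 hne' with h3 | h3
  · omega
  · omega

/-- the class `(a, a', e)` of the low word -/
def VCl (P : Par) (i a a' e b c : ℕ) : Prop :=
  Nat.log 2 (low (P.cut i) (b / Nat.gcd b c)) = a ∧
    Nat.log 2 (low (P.cut i) (c / Nat.gcd b c)) = a' ∧
    Nat.log 2 (low (P.cut i) (b / Nat.gcd b c) * low (P.cut i) (c / Nat.gcd b c)) = a + a' + e

lemma exists_vcl {P : Par} {i b c : ℕ} : ∃ a a' e, e ≤ 1 ∧ VCl P i a a' e b c := by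
  set u := low (P.cut i) (b / Nat.gcd b c) with hu
  set v := low (P.cut i) (c / Nat.gcd b c) with hv
  have hup : 0 < u := low_pos _ _
  have hvp : 0 < v := low_pos _ _
  have a1 := Nat.pow_log_le_self 2 hup.ne'
  have a2 := Nat.lt_pow_succ_log_self (b := 2) (by norm_num) u
  have b1 := Nat.pow_log_le_self 2 hvp.ne'
  have b2 := Nat.lt_pow_succ_log_self (b := 2) (by norm_num) v
  have h1 : Nat.log 2 u + Nat.log 2 v ≤ Nat.log 2 (u * v) := by
    refine (Nat.le_log_iff_pow_le (by norm_num) (Nat.mul_pos hup hvp).ne').2 ?_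
    rw [pow_add]
    exact Nat.mul_le_mul a1 b1
  have h2 : Nat.log 2 (u * v) < Nat.log 2 u + Nat.log 2 v + 2 := by
    refine (Nat.log_lt_iff_lt_pow (by norm_num) (Nat.mul_pos hup hvp).ne').2 ?_
    calc u * v < 2 ^ (Nat.log 2 u + 1) * 2 ^ (Nat.log 2 v + 1) :=
          Nat.mul_lt_mul'' a2 b2
      _ = _ := by rw [← pow_add]; congr 1; ring
  exact ⟨Nat.log 2 u, Nat.log 2 v, Nat.log 2 (u * v) - (Nat.log 2 u + Nat.log 2 v),
    by omega, rfl, rfl, by
      show Nat.log 2 (u * v) = _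
      omega⟩

/-- bounds of the word of the class, and the cut `y = 2^(a+a'+2)` -/
lemma VCl.bounds {P : Par} {i a a' e b c : ℕ} (h : VCl P i a a' e b c) :
    2 ^ a ≤ low (P.cut i) (b / Nat.gcd b c) ∧ low (P.cut i) (b / Nat.gcd b c) < 2 ^ (a + 1) ∧
    2 ^ a' ≤ low (P.cut i) (c / Nat.gcd b c) ∧ low (P.cut i) (c / Nat.gcd b c) < 2 ^ (a' + 1) ∧
    low (P.cut i) (b / Nat.gcd b c) ≤ 2 ^ (a + a' + 2) ∧
    low (P.cut i) (c / Nat.gcd b c) ≤ 2 ^ (a + a' + 2) ∧
    2 ^ (a + a' + 2) ≤ 4 * (low (P.cut i) (b / Nat.gcd b c) *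
      low (P.cut i) (c / Nat.gcd b c)) := by
  obtain ⟨h1, h2, h3⟩ := h
  set u := low (P.cut i) (b / Nat.gcd b c) with hu
  set v := low (P.cut i) (c / Nat.gcd b c) with hv
  have hup : 0 < u := low_pos _ _
  have hvp : 0 < v := low_pos _ _
  have a1 := Nat.pow_log_le_self 2 hup.ne'
  have a2 := Nat.lt_pow_succ_log_self (b := 2) (by norm_num) u
  have b1 := Nat.pow_log_le_self 2 hvp.ne'
  have b2 := Nat.lt_pow_succ_log_self (b := 2) (by norm_num) v
  rw [h1] at a1 a2
  rw [h2] at b1 b2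
  have c1 : (2 : ℕ) ^ (a + 1) ≤ 2 ^ (a + a' + 2) := Nat.pow_le_pow_right (by norm_num) (by omega)
  have c2 : (2 : ℕ) ^ (a' + 1) ≤ 2 ^ (a + a' + 2) := Nat.pow_le_pow_right (by norm_num) (by omega)
  refine ⟨a1, a2, b1, b2, (a2.le.trans c1), (b2.le.trans c2), ?_⟩
  have e1 : (2 : ℕ) ^ (a + a' + 2) = 4 * (2 ^ a * 2 ^ a') := by rw [pow_add, pow_add]; ring
  rw [e1]
  exact Nat.mul_le_mul_left 4 (Nat.mul_le_mul a1 b1)

/-- **pair side of the class `(a, a', e)`**, cut `y = 2^(a+a'+2)` -/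
theorem exists_vp_cls (hM : 0 < M) (F : FL M) (P : Par) {i a a' e b c : ℕ} {h : ℤ} (hb : b ∣ M)
    (hc : c ∣ M) (hL : 0 < P.L) (hfar : FarA F P i b c h) (hp : Pure F (P.cut i) b c)
    (hl : h ∈ Lnk P.γ P.L b c) (hcl : VCl P i a a' e b c)
    (hsm : 4 * (low (P.cut i) (b / Nat.gcd b c) * low (P.cut i) (c / Nat.gcd b c)) ≤ P.cut i) :
    VP hM F P (2 ^ (a + a' + 2)) i (H0 hM F (2 ^ (a + a' + 2)) b)
      (HighFLx863.hw hM F (2 ^ (a + a' + 2)) b) (HighFLx863.hw hM F (2 ^ (a + a' + 2)) c)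
      (low (P.cut i) (b / Nat.gcd b c)) (low (P.cut i) (c / Nat.gcd b c))
      (Nat.gcd (low (2 ^ (a + a' + 2)) b) (low (2 ^ (a + a' + 2)) c)) b c h := by
  obtain ⟨_, _, _, _, h5, h6, h7⟩ := hcl.bounds
  exact exists_vp hM F P hb hc hL hfar hp hl (h7.trans hsm) h5 h6

end Crest.Agent.R4C.VecPairx19
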