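import Crest.Agent.R4C.HDdef_529
import Crest.Agent.R4C.RelDeg_15
import Crest.Agent.R4C.VecPair_19
import Crest.Agent.R4C.GWinst_982
import Crest.Agent.R4C.BoxKit_179
import Crest.Agent.R4C.FamBudA_252
import Crest.Agent.R4C.NodeMassR_634

/-!
# Row 4, GW section, VECTOR CASE: the literal definitions and the target statements (helper24)

One world per (class `(a, a')`, scale `2^s`, core `G` of `hiFL hM y F`), `y = 2^(a+a'+2)`:

* `vw` : the world: words `w ∣ PM (hiFL ..) G`, window `P.L / 2^s`, first index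
  `max m0 (D <= cut i) (2^(a+a') < (i+1)^8)`, `θ = E/16`, `σ = 0`, nominal coins `nomC`
  (shift `a + a' + 3`);
* relation on nodes: `RelDegx15.Rel Z (Cl (2^a) (2^a')) 2`; payments, data of Lemma V:
  `HDx529.Y3`, `HDx529.kapV`, `HDx529.gn`;
* `win a s y b` : `2^(a+s-1) ≤ low y b < 2^(a+s+2)` (three values of `s` for each `b`);
* `Wb` : weight of the full word `b` in the zone `z` = `FamBudx252.VA` with the actual coins;
* `kap2` : the kernel of one world (both orders);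
* `HvyR` : heavy exception above the cut `i`; `VC` : the class of offsets `(a, a', e)`;
* TARGETS: `TOk` (GN.Ok of both orders), `TBud` (budget), `TPair` (pair side).
-/

set_option autoImplicit false

open Finset
open Crest.Agent.R4C.Basex935 Crest.Agent.R4C.Cutx50 Crest.Agent.R4C.PrefixMx882
open Crest.Agent.R4C.FLDefx935 Crest.Agent.R4C.Rulex945 Crest.Agent.R4C.PureClsx863
open Crest.Agent.R4C.PureL2x232 (hiFL)
open Crest.Agent.R4C.GWdefx982 Crest.Agent.R4C.NHx656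
open Crest.Agent.R4C.Splitx945 Crest.Agent.R4C.Spinex946 Crest.Agent.R4C.Bridgex882
open Crest.Agent.R4C.CrCoinx935
open Crest.Agent.R4C.HDx529 (Y3 kapV gn)

namespace Crest.Agent.R4C.VDefx24

/-! ### the world -/

/-- the low cut of the class -/
def yc (a a' : ℕ) : ℕ := 2 ^ (a + a' + 2)

/-- least index with `2^(a+a') < (i+1)^8` -/
noncomputable def iA (a a' : ℕ) : ℕ := sInf {i : ℕ | 2 ^ (a + a') < (i + 1) ^ 8}

/-- nominal coin: `p` is in the gap below the letter `r` of `w`, above the shifted cut, below the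
block of `r`, and the point after `r` is not on `3 p^δ` -/
def nomC (P : Par) (δ : ℝ) (sh : ℕ) (L' : ℝ) (G w p : ℕ) : Prop :=
  ∃ r, r.Prime ∧ r ∣ w ∧ p < r ∧
    P.cut (Nat.log 2 ⌊((G * low (r - 1) w : ℕ) : ℝ) / L'⌋₊ + sh) < p ∧
    P.Y (P.blk p) < r ∧
    ¬ On (3 * (p : ℝ) ^ δ) ((upp r w : ℝ) * P.γ) (((G * low r w : ℕ) : ℝ) / L')

/-- **the world** of (class `(a, a')`, scale `2^s`, core `G`) -/
noncomputable def vw {M : ℕ} (hM : 0 < M) (F : FL M) (P : Par) (δ : ℝ) (a a' s G : ℕ) : World where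
  N := PM (hiFL hM (yc a a') F) G
  G0 := G
  L := P.L / 2 ^ s
  cut := P.cut
  γ := P.γ
  i0 := max P.m0 (max (GWinstx982.iD (hiFL hM (yc a a') F) P G) (iA a a'))
  top := P.N + s
  θ := fun i => P.E i / 16
  σ := 0
  coin := nomC P δ (a + a' + 3) (P.L / 2 ^ s) G
  K1 := 1
  c := 1

/-- the relation on the nodes, changer = `b`-side -/
def RR (Z : World) (a a' : ℕ) (ν ν' : Node) : Prop :=
  RelDegx15.Rel Z (RelDegx15.Cl (2 ^ a) (2 ^ a')) 2 ν ν'

/-! ### windows, weights -/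

/-- the window of the low part -/
def win (a s y b : ℕ) : Prop := 2 ^ (a + s) ≤ 2 * low y b ∧ low y b < 2 ^ (a + s + 2)

open Classical in
/-- actual coins of the full word `b` (world word `w`) above `y` -/
noncomputable def Act {M : ℕ} (F : FL M) (P : Par) (N y w b : ℕ) : Finset ℕ :=
  (free N w).filter fun p => y < p ∧ lamR F P b p = none

/-- weight of `b` (world word `w`) in the zone `z`: product of the actual coins of `b` in
`(y, cut z.1]`, `0` if some nominal coin of `w` above `cut z.1` is not an actual coin of `b` -/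
noncomputable def Wb {M : ℕ} (F : FL M) (P : Par) (Z : World) (y : ℕ) (z : Node) (w b : ℕ) : ℝ :=
  FamBudx252.VA Z (Act F P Z.N y w b) w z.1

open Classical in
/-- kernel of one world, both orders -/
noncomputable def kap2 (Z : World) (R : Node → Node → Prop) (z z' : Node) (w w' : ℕ) : ℝ :=
  ∑ ν ∈ Z.Nd z, ∑ ν' ∈ Z.Nd z',
    if R ν ν' ∧ ((w ∈ Z.A z ν ∧ w' ∈ Z.S ν') ∨ (w ∈ Z.S ν ∧ w' ∈ Z.A z' ν')) then 1 / Z.g ν else 0

/-! ### the class -/

/-- heavy exception above the cut `i` (helper634), size factor `R` -/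
def HvyR {M : ℕ} (F : FL M) (B : Finset ℕ) (L : ℝ) (A : ℕ) (R : ℝ) (i b : ℕ) : Prop :=
  NodeMassx634.ExcF F (FLExx326.ind B) L (fun k => 2 * R * 2 ^ (k / A))
    (NodeMassRx634.HU (5 / A)) (A * i + 1) (M + 1) b

/-- the pairs of the class `(a, a', e)` at the own index `i`; `Q` = what may be assumed -/
def VCi {M : ℕ} (F : FL M) (P : Par) (Q : ℕ → ℕ → ℕ → ℤ → Prop) (a a' e i b c : ℕ) (h : ℤ) : Prop :=
  FarA F P i b c h ∧ DomA P i b c ∧ Pure F (P.cut i) b c ∧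
    (low (P.cut i) (b / Nat.gcd b c) : ℝ) * low (P.cut i) (c / Nat.gcd b c) < ((i : ℝ) + 1) ^ 8 ∧
    VecPairx19.VCl P i a a' e b c ∧ Q i b c h

/-- the class `(a, a', e)` of offsets -/
def VC {M : ℕ} (F : FL M) (P : Par) (Q : ℕ → ℕ → ℕ → ℤ → Prop) (a a' e b c : ℕ) (h : ℤ) : Prop :=
  ∃ i, VCi F P Q a a' e i b c h

/-- what may be assumed: no heavy member above `cut (i-1)`, not in the class `CHvy` -/
def QQ (cp : ℝ) (A m0 : ℕ) (γ L : ℝ) (M : ℕ) (B : Finset ℕ) (F : FL M) :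
    ℕ → ℕ → ℕ → ℤ → Prop := fun i b c h =>
  ¬ HvyR F B L A (4 * ((i : ℝ) + 1) ^ 8) (i - 1) b ∧
    ¬ HvyR F B L A (4 * ((i : ℝ) + 1) ^ 8) (i - 1) c ∧
    ¬ CHvy F (ParOf cp A m0 γ L M B) (FLExx326.ind B) (1 / 20) b c h

/-! ### targets -/

/-- **(A)-(C)**: Lemma V applies, both orders -/
def TOk (γ : ℝ) : Prop := Ev fun cp η A m0 => ∃ (C1 KV : ℝ) (k : ℕ), 1 ≤ C1 ∧ 1 ≤ KV ∧
  ∀ (L : ℝ) (M : ℕ) (B : Finset ℕ) (F : FL M) (hS : Setup η L M B F) (a a' s G : ℕ),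
    G ∈ cores (hiFL hS.hM (yc a a') F) →
    ∀ Z : World, Z = vw hS.hM F (ParOf cp A m0 γ L M B) (1 / (4 * A)) a a' s G →
      (gn Z (RR Z a a') (KV * 2 ^ (k * (a + a')))).Ok (fun _ => nu Z.N) (fun _ => nu Z.N)
        C1 (2 ^ (k * (a + a' + 1))) ∧
      (gn Z (fun ν ν' => RR Z a a' ν' ν) (KV * 2 ^ (k * (a + a')))).Ok (fun _ => nu Z.N)
        (fun _ => nu Z.N) C1 (2 ^ (k * (a + a' + 1)))

open Classical in
/-- **(D)**: the budget -/
def TBud (γ : ℝ) : Prop := Ev fun cp η A m0 => ∀ (KV : ℝ) (k : ℕ), 1 ≤ KV →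
  ∃ T : ℝ, 0 ≤ T ∧
  ∀ (L : ℝ) (M : ℕ) (B : Finset ℕ) (F : FL M) (hS : Setup η L M B F) (a a' s b : ℕ), b ∣ M →
    ∀ (Z : World) (w : ℕ), Z = vw hS.hM F (ParOf cp A m0 γ L M B) (1 / (4 * A)) a a' s
        (HighFLx863.H0 hS.hM F (yc a a') b) → w = HighFLx863.hw hS.hM F (yc a a') b →
      ∑ z ∈ Z.Zs.filter (fun z => w ∈ (Z.Nd z).biUnion Z.S),
        (Y3 Z z w + kapV Z (KV * 2 ^ (k * (a + a'))) z) *
          Wb F (ParOf cp A m0 γ L M B) Z (yc a a') z w b ≤ T * (1 + a + a')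

/-- **(E)**: the pair side -/
def TPair (γ : ℝ) (X0 : ℕ) : Prop := Ev fun cp η A m0 => ∃ Cw : ℝ, 0 ≤ Cw ∧
  ∀ (L : ℝ) (M : ℕ) (B : Finset ℕ) (F : FL M) (hS : Setup η L M B F) (a a' e : ℕ),
    ∀ b ∈ B, ∀ c ∈ B, b ≠ c → ∀ h ∈ Lnk γ L b c,
      ¬ killedB (lamOf cp A m0 γ L M B F) b c h →
      VC F (ParOf cp A m0 γ L M B) (QQ cp A m0 γ L M B F) a a' e b c h →
      HighFLx863.H0 hS.hM F (yc a a') b = HighFLx863.H0 hS.hM F (yc a a') c ∧
      ∃ s, win a s (yc a a') b ∧ win a' s (yc a a') c ∧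
      ∀ (Z : World) (w w' : ℕ), Z = vw hS.hM F (ParOf cp A m0 γ L M B) (1 / (4 * A)) a a' s
          (HighFLx863.H0 hS.hM F (yc a a') b) →
        w = HighFLx863.hw hS.hM F (yc a a') b → w' = HighFLx863.hw hS.hM F (yc a a') c →
        ∃ z ∈ Z.Zs, ∃ z' ∈ Z.Zs,
        boostB M (lamOf cp A m0 γ L M B F) b c h ≤
          Cw * (2 : ℝ) ^ ((a + a' : ℝ) / 4) * (B1Levx52.offW F X0 b * B1Levx52.offW F X0 c) *
          (kap2 Z (RR Z a a') z z' w w' /
            (VR (hiFL hS.hM (yc a a') F) (HighFLx863.H0 hS.hM F (yc a a') b) *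
              (Nat.gcd w w' : ℝ)) *
          BoostRx398.bst (BoostTopx19.prQ (yc a a')) (low (yc a a') M) (low (yc a a') b)
            (low (yc a a') c) *
          min (Wb F (ParOf cp A m0 γ L M B) Z (yc a a') z w b)
            (Wb F (ParOf cp A m0 γ L M B) Z (yc a a') z' w' c))

end Crest.Agent.R4C.VDefx24
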