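import Crest.Agent.R4C.ErrN_516
import Crest.Agent.R4C.VDef_24

/-!
# Row 4, GW section, vector case: `HDx529.HypT` for the world `vw` of `VDef_24` (helper516)

`hyp_vw` : for all small `cp`, ..., large `m0` the natural hypothesis per prefix holds in every world
`vw` with constants depending on `cp, η, A` only and `KE = 18 (a + a' + 4)`.
-/

set_option autoImplicit false

open Finset
open Crest.Agent.R4C.Basex935 Crest.Agent.R4C.Cutx50 Crest.Agent.R4C.PrefixMx882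
open Crest.Agent.R4C.FLDefx935 Crest.Agent.R4C.Rulex945 Crest.Agent.R4C.PureClsx863
open Crest.Agent.R4C.PureL2x232 (hiFL)
open Crest.Agent.R4C.GWdefx982 Crest.Agent.R4C.Spinex946 Crest.Agent.R4C.VDefx24
open Crest.Agent.R4C.DictVx20 (WV)

namespace Crest.Agent.R4C.HypVwx516

lemma HypT_mono {Z : World} {C1 C1' c KE : ℝ} (hKE : 0 ≤ KE) (hC : C1 ≤ C1')
    (h : HDx529.HypT Z C1 c KE) : HDx529.HypT Z C1' c KE := by
  intro i n Λ K0 s hi hK0 hKi hs hs2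
  refine (h i n Λ K0 s hi hK0 hKi hs hs2).trans ?_
  refine mul_le_mul_of_nonneg_right (mul_le_mul_of_nonneg_right hC ?_) (nu_nonneg _ _)
  have : 0 ≤ K0 ^ (-c) := Real.rpow_nonneg (by linarith) _
  positivity

/-- `2^{k/(4A)}` against the threshold -/
lemma theta_ge {cp : ℝ} {A k : ℕ} (hcp : 0 < cp) (hA : 1 / (2 * cp) ≤ A) (hk : 12 / cp ≤ k) :
    3 * ((2 : ℝ) ^ k) ^ (1 / (4 * (A : ℝ))) ≤ (2 : ℝ) ^ (cp * k) / 16 := by
  have hA0 : (0 : ℝ) < A := lt_of_lt_of_le (by positivity) hA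
  have hk0 : (0 : ℝ) ≤ k := Nat.cast_nonneg k
  have h1 : ((2 : ℝ) ^ k) ^ (1 / (4 * (A : ℝ))) ≤ (2 : ℝ) ^ (cp * k / 2) := by
    rw [← Real.rpow_natCast, ← Real.rpow_mul (by norm_num)]
    refine Real.rpow_le_rpow_of_exponent_le (by norm_num) ?_
    have h2 : 1 / (4 * (A : ℝ)) ≤ cp / 2 := by
      rw [div_le_div_iff₀ (by positivity) (by norm_num)]
      rw [div_le_iff₀ (by positivity)] at hA
      nlinarith
    calc (k : ℝ) * (1 / (4 * (A : ℝ))) ≤ k * (cp / 2) := mul_le_mul_of_nonneg_left h2 hk0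
      _ = cp * k / 2 := by ring
  have h3 : (48 : ℝ) ≤ (2 : ℝ) ^ (cp * k / 2) := by
    have h4 : (6 : ℝ) ≤ cp * k / 2 := by
      rw [div_le_iff₀ hcp] at hk
      linarith
    calc (48 : ℝ) ≤ (2 : ℝ) ^ (6 : ℝ) := by norm_num
      _ ≤ _ := Real.rpow_le_rpow_of_exponent_le (by norm_num) h4
  have h5 : (2 : ℝ) ^ (cp * k) = (2 : ℝ) ^ (cp * k / 2) * (2 : ℝ) ^ (cp * k / 2) := by
    rw [← Real.rpow_add (by norm_num)]
    congr 1
    ring
  have h6 : 0 < (2 : ℝ) ^ (cp * k / 2) := Real.rpow_pos_of_pos (by norm_num) _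
  rw [h5, le_div_iff₀ (by norm_num)]
  nlinarith

/-- the threshold against `q^{1/(4A)}`, `q > 2^{A i}` -/
lemma theta_le {cp : ℝ} {A i q : ℕ} (hcp : cp ≤ 1 / 4) (hA : 1 ≤ A) (hq : 2 ^ (A * i) < q) :
    4 * ((2 : ℝ) ^ (cp * i) / 16) ≤ 3 * (q : ℝ) ^ (1 / (4 * (A : ℝ))) := by
  have hA0 : (0 : ℝ) < A := by exact_mod_cast hA
  have hi0 : (0 : ℝ) ≤ i := Nat.cast_nonneg i
  have h1 : (2 : ℝ) ^ ((i : ℝ) / 4) ≤ (q : ℝ) ^ (1 / (4 * (A : ℝ))) := by
    have h2 : ((2 : ℝ) ^ (A * i)) ^ (1 / (4 * (A : ℝ))) = (2 : ℝ) ^ ((i : ℝ) / 4) := by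
      rw [← Real.rpow_natCast, ← Real.rpow_mul (by norm_num)]
      congr 1
      push_cast
      field_simp
    rw [← h2]
    refine Real.rpow_le_rpow (by positivity) ?_ (by positivity)
    exact_mod_cast hq.le
  have h3 : (2 : ℝ) ^ (cp * i) ≤ (2 : ℝ) ^ ((i : ℝ) / 4) := by
    refine Real.rpow_le_rpow_of_exponent_le (by norm_num) ?_
    nlinarith
  have h4 : 0 < (2 : ℝ) ^ (cp * i) := Real.rpow_pos_of_pos (by norm_num) _
  linarith

section vw

variable {cp η γ L : ℝ} {A m0 M : ℕ} {B : Finset ℕ} {F : FL M}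

/-- the world `vw` has the nominal coins -/
theorem wv_vw (hM : 0 < M) (hcp4 : cp ≤ 1 / 4) (hA : 1 ≤ A) (a a' s G : ℕ) :
    WV (vw hM F (ParOf cp A m0 γ L M B) (1 / (4 * A)) a a' s G) (ParOf cp A m0 γ L M B)
      (1 / (4 * (A : ℝ))) (a + a' + 3) where
  cut := rfl
  γ := rfl
  coin := fun _ _ => Iff.rfl
  hθ := fun _ _ _ hq => theta_le hcp4 hA hq

end vw

/-- the first index needed by `hypT_WV` -/
noncomputable def mT (A : ℕ) : ℕ := by
  classical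
  exact if h : 32 ≤ A then (ErrNx516.hypT_WV A h).choose_spec.choose_spec.choose else 0

/-- **the natural hypothesis per prefix in the worlds `vw`** -/
theorem hyp_vw (γ : ℝ) : Ev fun cp η A m0 => ∃ C1 c : ℝ, 1 ≤ C1 ∧ 0 < c ∧
    ∀ (L : ℝ) (M : ℕ) (B : Finset ℕ) (F : FL M) (hS : Setup η L M B F) (a a' s G : ℕ),
      G ∈ cores (hiFL hS.hM (yc a a') F) →
      ∀ Z : World, Z = vw hS.hM F (ParOf cp A m0 γ L M B) (1 / (4 * A)) a a' s G → Z.Ok →
        HDx529.HypT Z C1 c (18 * (((a + a' + 3 : ℕ) : ℝ) + 1)) := by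
  classical
  refine ((((Ev.basic.and (Ev.le_A fun cp _ => max 32 (1 / (2 * cp)))).and
    (Ev.le_m0 fun cp _ _ => 12 / cp)).and (Ev.le_m0 fun _ _ A => (mT A : ℝ)))).mono ?_
  rintro cp η A m0 ⟨⟨⟨⟨hcp, hcp2, _, _, _, hA1, _⟩, hA⟩, hm⟩, hmT⟩
  have hA32 : 32 ≤ A := by
    have : (32 : ℝ) ≤ A := (le_max_left _ _).trans hA
    exact_mod_cast this
  have hmT' : (ErrNx516.hypT_WV A hA32).choose_spec.choose_spec.choose ≤ m0 := by
    have h1 : mT A ≤ m0 := by exact_mod_cast hmT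
    unfold mT at h1
    rwa [dif_pos hA32] at h1
  obtain ⟨hC, hc, h⟩ := (ErrNx516.hypT_WV A hA32).choose_spec.choose_spec.choose_spec
  refine ⟨max 1 (ErrNx516.hypT_WV A hA32).choose,
    (ErrNx516.hypT_WV A hA32).choose_spec.choose, le_max_left _ _, hc, ?_⟩
  intro L M B F hS a a' s G _ Z hZ hOk
  subst hZ
  have hi0 : m0 ≤ (vw hS.hM F (ParOf cp A m0 γ L M B) (1 / (4 * A)) a a' s G).i0 :=
    le_max_left _ _
  refine HypT_mono (by positivity) (le_max_right _ _) ?_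
  refine h _ (ParOf cp A m0 γ L M B) (a + a' + 3) hOk
    (wv_vw hS.hM (by linarith) hA1 a a' s G) (fun k => rfl) rfl (fun k hk => ?_)
    (hmT'.trans hi0)
  have hk1 : (m0 : ℝ) ≤ k := by exact_mod_cast hi0.trans hk
  exact theta_ge hcp ((le_max_right _ _).trans hA) (hm.trans hk1)

end Crest.Agent.R4C.HypVwx516
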