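import Mathlib

/-!
# Row 4, leaf 452: Rankin bounds for `(log k)`-smooth words (helper524)

* `rankin_one` : `∑ n^{-1/2} ≤ N^{-1/4} exp(9 z^{3/4})` over any finite set of `z`-smooth `n ≥ N`;
* `rankin_two` : `∑ (s s')^{-1/2} ≤ N^{-1/4} exp(18 z^{3/4})` over any finite set of pairs of
  `z`-smooth words with `max s s' ≥ N`;
* `rankin_log` : with `z = log k`, `N = k^{1/2}/2` the bound is `≤ k^{-1/16}` for `k ≥ k0`.
* `rankin_sum` : `∑ n^{-s} ≤ exp (z^{1-s} / ((1-s) (1 - 2^{-s})))` for all finite sets of `z`-smooth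
  numbers, `0 < s < 1`.
-/

set_option autoImplicit false

namespace Crest.Agent.R4C.Rankinx524

open Finset

/-- the completely multiplicative function `n ↦ n^{-s}` -/
noncomputable def f (s : ℝ) : ℕ →* ℝ where
  toFun n := (n : ℝ) ^ (-s)
  map_one' := by simp
  map_mul' m n := by
    push_cast
    exact Real.mul_rpow (by positivity) (by positivity)

/-- all prime factors are `≤ z` -/
def Smooth (z : ℝ) (n : ℕ) : Prop := n ≠ 0 ∧ ∀ p : ℕ, p.Prime → p ∣ n → (p : ℝ) ≤ z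

theorem sum_le_prod (s : ℝ) (hs : 0 < s) (M : ℕ) (F : Finset ℕ) (hF : ∀ n ∈ F, n ∈ Nat.smoothNumbers M) :
    ∑ n ∈ F, (n : ℝ) ^ (-s) ≤ ∏ p ∈ M.primesBelow, (1 - (p : ℝ) ^ (-s))⁻¹ := by
  have h1 : ∀ {p : ℕ}, p.Prime → ‖f s p‖ < 1 := by
    intro p hp
    have : f s p = (p : ℝ) ^ (-s) := rfl
    rw [this, Real.norm_of_nonneg (by positivity)]
    exact Real.rpow_lt_one_of_one_lt_of_neg (by exact_mod_cast hp.one_lt) (by linarith)
  obtain ⟨hsum, hh⟩ :=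
    EulerProduct.summable_and_hasSum_smoothNumbers_prod_primesBelow_geometric h1 M
  have h2 : ∑ n ∈ F, (n : ℝ) ^ (-s) ≤ ∑' m : M.smoothNumbers, f s m := by
    have h3 : ∑ n ∈ F, (n : ℝ) ^ (-s)
        = ∑ m ∈ F.attach.map ⟨fun x => (⟨x.1, hF x.1 x.2⟩ : M.smoothNumbers), by
            intro x y hxy
            exact Subtype.ext (by simpa using hxy)⟩, f s m := by
      rw [Finset.sum_map, ← Finset.sum_attach]
      rfl
    rw [h3]
    refine Summable.sum_le_tsum _ (fun m _ => ?_) hh.summable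
    show 0 ≤ ((m : ℕ) : ℝ) ^ (-s)
    positivity
  exact h2.trans (le_of_eq hh.tsum_eq)

theorem inv_one_sub_le (x c : ℝ) (h0 : 0 ≤ x) (hc : x ≤ c) (h1 : c < 1) :
    (1 - x)⁻¹ ≤ Real.exp (x / (1 - c)) := by
  have hx : 0 < 1 - x := by linarith
  have hc' : 0 < 1 - c := by linarith
  have h2 : (1 - x)⁻¹ = x / (1 - x) + 1 := by
    field_simp
    ring
  rw [h2]
  have h3 : x / (1 - x) ≤ x / (1 - c) := by
    apply div_le_div_of_nonneg_left h0 hc'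
    linarith
  exact (Real.add_one_le_exp _).trans (Real.exp_le_exp.mpr h3)

/-- `∑_{n ≤ m} n^{-s} ≤ m^{1-s}/(1-s)` -/
theorem sum_rpow_le (s : ℝ) (hs : 0 < s) (hs1 : s < 1) (m : ℕ) :
    ∑ n ∈ Finset.range m, ((n : ℝ) + 1) ^ (-s) ≤ (m : ℝ) ^ (1 - s) / (1 - s) := by
  have h1s : 0 < 1 - s := by linarith
  induction m with
  | zero => simp [Real.zero_rpow h1s.ne']
  | succ m ih =>
    rw [Finset.sum_range_succ]
    have hm : (0 : ℝ) < (m : ℝ) + 1 := by positivity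
    have key : (m : ℝ) ^ (1 - s) ≤ ((m : ℝ) + 1) ^ (1 - s) - (1 - s) * ((m : ℝ) + 1) ^ (-s) := by
      have h2 : (1 + (-(1 / ((m : ℝ) + 1)))) ^ (1 - s) ≤ 1 + (1 - s) * (-(1 / ((m : ℝ) + 1))) := by
        apply rpow_one_add_le_one_add_mul_self
        · have : 1 / ((m : ℝ) + 1) ≤ 1 := by
            rw [div_le_one hm]; linarith [(Nat.cast_nonneg m : (0 : ℝ) ≤ m)]
          linarith
        · linarith
        · linarith
      have h3 : (m : ℝ) = ((m : ℝ) + 1) * (1 + (-(1 / ((m : ℝ) + 1)))) := by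
        field_simp
        ring
      have h4 : (0 : ℝ) ≤ 1 + (-(1 / ((m : ℝ) + 1))) := by
        have : 1 / ((m : ℝ) + 1) ≤ 1 := by
          rw [div_le_one hm]; linarith [(Nat.cast_nonneg m : (0 : ℝ) ≤ m)]
        linarith
      calc (m : ℝ) ^ (1 - s) = (((m : ℝ) + 1) * (1 + (-(1 / ((m : ℝ) + 1))))) ^ (1 - s) := by
            rw [← h3]
        _ = ((m : ℝ) + 1) ^ (1 - s) * (1 + (-(1 / ((m : ℝ) + 1)))) ^ (1 - s) :=
            Real.mul_rpow hm.le h4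
        _ ≤ ((m : ℝ) + 1) ^ (1 - s) * (1 + (1 - s) * (-(1 / ((m : ℝ) + 1)))) :=
            mul_le_mul_of_nonneg_left h2 (by positivity)
        _ = ((m : ℝ) + 1) ^ (1 - s) - (1 - s) * ((m : ℝ) + 1) ^ (-s) := by
            have h5 : ((m : ℝ) + 1) ^ (1 - s) * (1 / ((m : ℝ) + 1)) = ((m : ℝ) + 1) ^ (-s) := by
              rw [one_div, ← Real.rpow_neg_one, ← Real.rpow_add hm]
              congr 1
              ring
            rw [← h5]
            ring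
    push_cast
    have h6 : ((m : ℝ) + 1) ^ (-s) ≤
        ((m : ℝ) + 1) ^ (1 - s) / (1 - s) - (m : ℝ) ^ (1 - s) / (1 - s) := by
      rw [← sub_div, le_div_iff₀ h1s]
      linarith
    linarith

theorem rankin_sum (s : ℝ) (hs : 0 < s) (hs1 : s < 1) (z : ℝ) (hz : 0 ≤ z) (F : Finset ℕ)
    (hF : ∀ n ∈ F, Smooth z n) :
    ∑ n ∈ F, (n : ℝ) ^ (-s) ≤ Real.exp (z ^ (1 - s) / ((1 - s) * (1 - (2 : ℝ) ^ (-s)))) := by
  have h1s : 0 < 1 - s := by linarith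
  have hc1 : (2 : ℝ) ^ (-s) < 1 :=
    Real.rpow_lt_one_of_one_lt_of_neg (by norm_num) (by linarith)
  have hc : 0 < 1 - (2 : ℝ) ^ (-s) := by linarith
  set M := ⌊z⌋₊ + 1 with hM
  have hmem : ∀ n ∈ F, n ∈ Nat.smoothNumbers M := by
    intro n hn
    rw [Nat.mem_smoothNumbers]
    refine ⟨(hF n hn).1, fun p hp => ?_⟩
    have hp' : p.Prime := Nat.prime_of_mem_primeFactorsList hp
    have hd : p ∣ n := Nat.dvd_of_mem_primeFactorsList hp
    have := (hF n hn).2 p hp' hd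
    have : p ≤ ⌊z⌋₊ := Nat.le_floor this
    omega
  refine (sum_le_prod s hs M F hmem).trans ?_
  have h2 : ∏ p ∈ M.primesBelow, (1 - (p : ℝ) ^ (-s))⁻¹
      ≤ ∏ p ∈ M.primesBelow, Real.exp ((p : ℝ) ^ (-s) / (1 - (2 : ℝ) ^ (-s))) := by
    apply Finset.prod_le_prod
    · intro p hp
      have hp' : p.Prime := Nat.prime_of_mem_primesBelow hp
      have : (p : ℝ) ^ (-s) < 1 :=
        Real.rpow_lt_one_of_one_lt_of_neg (by exact_mod_cast hp'.one_lt) (by linarith)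
      exact inv_nonneg.mpr (by linarith)
    · intro p hp
      have hp' : p.Prime := Nat.prime_of_mem_primesBelow hp
      apply inv_one_sub_le _ _ (by positivity) _ hc1
      exact Real.rpow_le_rpow_of_nonpos (by norm_num) (by exact_mod_cast hp'.two_le) (by linarith)
  refine h2.trans ?_
  rw [← Real.exp_sum]
  apply Real.exp_le_exp.mpr
  rw [← Finset.sum_div, div_le_div_iff₀ hc (by positivity)]
  have h3 : ∑ p ∈ M.primesBelow, (p : ℝ) ^ (-s) ≤ z ^ (1 - s) / (1 - s) := by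
    have h4 : ∑ p ∈ M.primesBelow, (p : ℝ) ^ (-s)
        ≤ ∑ n ∈ Finset.range ⌊z⌋₊, ((n : ℝ) + 1) ^ (-s) := by
      have h5 : ∑ n ∈ Finset.range ⌊z⌋₊, ((n : ℝ) + 1) ^ (-s)
          = ∑ n ∈ (Finset.range ⌊z⌋₊).map ⟨Nat.succ, Nat.succ_injective⟩, (n : ℝ) ^ (-s) := by
        rw [Finset.sum_map]
        simp
      rw [h5]
      apply Finset.sum_le_sum_of_subset_of_nonneg
      · intro p hp
        have hp' : p.Prime := Nat.prime_of_mem_primesBelow hp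
        have hlt : p < M := Nat.lt_of_mem_primesBelow hp
        rw [Finset.mem_map]
        refine ⟨p - 1, ?_, ?_⟩
        · rw [Finset.mem_range]
          have := hp'.two_le
          omega
        · have := hp'.two_le
          show (p - 1) + 1 = p
          omega
      · intro n _ _
        positivity
    refine h4.trans ((sum_rpow_le s hs hs1 _).trans ?_)
    apply div_le_div_of_nonneg_right _ h1s.le
    exact Real.rpow_le_rpow (by positivity) (Nat.floor_le hz) h1s.le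
  have h6 := mul_le_mul_of_nonneg_right h3 h1s.le
  rw [div_mul_cancel₀ _ h1s.ne'] at h6
  have h7 := mul_le_mul_of_nonneg_right h6 hc.le
  calc (∑ p ∈ M.primesBelow, (p : ℝ) ^ (-s)) * ((1 - s) * (1 - (2 : ℝ) ^ (-s)))
      = (∑ p ∈ M.primesBelow, (p : ℝ) ^ (-s)) * (1 - s) * (1 - (2 : ℝ) ^ (-s)) := by ring
    _ ≤ z ^ (1 - s) * (1 - (2 : ℝ) ^ (-s)) := h7

theorem two_rpow_quarter : (2 : ℝ) ^ (-(1 / 4) : ℝ) ≤ 23 / 27 := by
  rw [Real.rpow_neg (by norm_num), inv_le_comm₀ (by positivity) (by norm_num)]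
  have h : ((23 / 27 : ℝ)⁻¹) = ((27 / 23 : ℝ) ^ (4 : ℕ)) ^ (1 / 4 : ℝ) := by
    rw [← Real.rpow_natCast, ← Real.rpow_mul (by norm_num)]
    norm_num
  rw [h]
  apply Real.rpow_le_rpow (by norm_num) (by norm_num) (by norm_num)

theorem rankin_quarter (z : ℝ) (hz : 0 ≤ z) (F : Finset ℕ) (hF : ∀ n ∈ F, Smooth z n) :
    ∑ n ∈ F, (n : ℝ) ^ (-(1 / 4) : ℝ) ≤ Real.exp (9 * z ^ (3 / 4 : ℝ)) := by
  have h := rankin_sum (1 / 4) (by norm_num) (by norm_num) z hz F hF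
  refine h.trans (Real.exp_le_exp.mpr ?_)
  have h1 : (1 : ℝ) - 1 / 4 = 3 / 4 := by norm_num
  rw [h1]
  have h2 := two_rpow_quarter
  have h3 : (0 : ℝ) ≤ z ^ (3 / 4 : ℝ) := by positivity
  rw [div_le_iff₀ (by nlinarith)]
  nlinarith

/-- (i) -/
theorem rankin_one (z N : ℝ) (hz : 0 ≤ z) (hN : 0 < N) (F : Finset ℕ)
    (hF : ∀ n ∈ F, Smooth z n ∧ N ≤ n) :
    ∑ n ∈ F, (n : ℝ) ^ (-(1 / 2) : ℝ) ≤ N ^ (-(1 / 4) : ℝ) * Real.exp (9 * z ^ (3 / 4 : ℝ)) := by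
  have h1 : ∑ n ∈ F, (n : ℝ) ^ (-(1 / 2) : ℝ)
      ≤ ∑ n ∈ F, N ^ (-(1 / 4) : ℝ) * (n : ℝ) ^ (-(1 / 4) : ℝ) := by
    apply Finset.sum_le_sum
    intro n hn
    have hn0 : (0 : ℝ) < n := lt_of_lt_of_le hN (hF n hn).2
    have h2 : (n : ℝ) ^ (-(1 / 2) : ℝ) = (n : ℝ) ^ (-(1 / 4) : ℝ) * (n : ℝ) ^ (-(1 / 4) : ℝ) := by
      rw [← Real.rpow_add hn0]
      norm_num
    rw [h2]
    apply mul_le_mul_of_nonneg_right _ (by positivity)
    exact Real.rpow_le_rpow_of_nonpos hN (hF n hn).2 (by norm_num)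
  refine h1.trans ?_
  rw [← Finset.mul_sum]
  exact mul_le_mul_of_nonneg_left (rankin_quarter z hz F (fun n hn => (hF n hn).1)) (by positivity)

/-- (ii) -/
theorem rankin_two (z N : ℝ) (hz : 0 ≤ z) (hN : 0 < N) (F : Finset (ℕ × ℕ))
    (hF : ∀ x ∈ F, Smooth z x.1 ∧ Smooth z x.2 ∧ N ≤ max (x.1 : ℝ) x.2) :
    ∑ x ∈ F, ((x.1 : ℝ) * x.2) ^ (-(1 / 2) : ℝ)
      ≤ N ^ (-(1 / 4) : ℝ) * Real.exp (18 * z ^ (3 / 4 : ℝ)) := by
  have h1 : ∑ x ∈ F, ((x.1 : ℝ) * x.2) ^ (-(1 / 2) : ℝ)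
      ≤ ∑ x ∈ F, N ^ (-(1 / 4) : ℝ) * ((x.1 : ℝ) ^ (-(1 / 4) : ℝ) * (x.2 : ℝ) ^ (-(1 / 4) : ℝ)) := by
    apply Finset.sum_le_sum
    intro x hx
    obtain ⟨hx1, hx2, hx3⟩ := hF x hx
    have p1 : (1 : ℝ) ≤ x.1 := by exact_mod_cast Nat.one_le_iff_ne_zero.mpr hx1.1
    have p2 : (1 : ℝ) ≤ x.2 := by exact_mod_cast Nat.one_le_iff_ne_zero.mpr hx2.1
    have hprod : N ≤ (x.1 : ℝ) * x.2 := by
      refine hx3.trans (max_le ?_ ?_) <;> nlinarith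
    have hpos : (0 : ℝ) < (x.1 : ℝ) * x.2 := by positivity
    have h2 : ((x.1 : ℝ) * x.2) ^ (-(1 / 2) : ℝ)
        = ((x.1 : ℝ) * x.2) ^ (-(1 / 4) : ℝ) * ((x.1 : ℝ) * x.2) ^ (-(1 / 4) : ℝ) := by
      rw [← Real.rpow_add hpos]
      norm_num
    rw [h2]
    have h5 : ((x.1 : ℝ) * x.2) ^ (-(1 / 4) : ℝ)
        = (x.1 : ℝ) ^ (-(1 / 4) : ℝ) * (x.2 : ℝ) ^ (-(1 / 4) : ℝ) :=
      Real.mul_rpow (by linarith) (by linarith)
    calc ((x.1 : ℝ) * x.2) ^ (-(1 / 4) : ℝ) * ((x.1 : ℝ) * x.2) ^ (-(1 / 4) : ℝ)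
        ≤ N ^ (-(1 / 4) : ℝ) * ((x.1 : ℝ) * x.2) ^ (-(1 / 4) : ℝ) :=
          mul_le_mul_of_nonneg_right (Real.rpow_le_rpow_of_nonpos hN hprod (by norm_num))
            (by positivity)
      _ = _ := by rw [h5]
  refine h1.trans ?_
  rw [← Finset.mul_sum]
  apply mul_le_mul_of_nonneg_left _ (by positivity)
  have h3 : ∑ x ∈ F, ((x.1 : ℝ) ^ (-(1 / 4) : ℝ) * (x.2 : ℝ) ^ (-(1 / 4) : ℝ))
      ≤ ∑ x ∈ (F.image Prod.fst) ×ˢ (F.image Prod.snd),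
        ((x.1 : ℝ) ^ (-(1 / 4) : ℝ) * (x.2 : ℝ) ^ (-(1 / 4) : ℝ)) := by
    apply Finset.sum_le_sum_of_subset_of_nonneg
    · intro x hx
      rw [Finset.mem_product]
      exact ⟨Finset.mem_image_of_mem _ hx, Finset.mem_image_of_mem _ hx⟩
    · intro x _ _
      positivity
  refine h3.trans ?_
  have h6 : ∑ x ∈ (F.image Prod.fst) ×ˢ (F.image Prod.snd),
        ((x.1 : ℝ) ^ (-(1 / 4) : ℝ) * (x.2 : ℝ) ^ (-(1 / 4) : ℝ))
      = (∑ n ∈ F.image Prod.fst, (n : ℝ) ^ (-(1 / 4) : ℝ))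
        * ∑ n ∈ F.image Prod.snd, (n : ℝ) ^ (-(1 / 4) : ℝ) := by
    rw [Finset.sum_product, Finset.sum_mul_sum]
  rw [h6]
  have hA : ∀ n ∈ F.image Prod.fst, Smooth z n := by
    intro n hn
    obtain ⟨x, hx, rfl⟩ := Finset.mem_image.mp hn
    exact (hF x hx).1
  have hB : ∀ n ∈ F.image Prod.snd, Smooth z n := by
    intro n hn
    obtain ⟨x, hx, rfl⟩ := Finset.mem_image.mp hn
    exact (hF x hx).2.1
  have h4 := mul_le_mul (rankin_quarter z hz _ hA) (rankin_quarter z hz _ hB)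
    (Finset.sum_nonneg (fun n _ => by positivity)) (Real.exp_pos _).le
  refine h4.trans (le_of_eq ?_)
  rw [← Real.exp_add]
  congr 1
  ring

/-- the exponent of (iii): `(k^{1/2}/2)^{-1/4} exp(18 (log k)^{3/4}) ≤ k^{-1/16}` for large `k` -/
theorem log_bound : ∃ k0 : ℝ, 1 < k0 ∧ ∀ k : ℝ, k0 ≤ k →
    (k ^ (1 / 2 : ℝ) / 2) ^ (-(1 / 4) : ℝ) * Real.exp (18 * (Real.log k) ^ (3 / 4 : ℝ))
      ≤ k ^ (-(1 / 16) : ℝ) := by
  refine ⟨Real.exp ((304 : ℝ) ^ 4), Real.one_lt_exp_iff.mpr (by norm_num), fun k hk => ?_⟩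
  have hk0 : 0 < k := (Real.exp_pos _).trans_le hk
  set L := Real.log k with hL
  have hkL : k = Real.exp L := (Real.exp_log hk0).symm
  have hL1 : (304 : ℝ) ^ 4 ≤ L := by
    rw [hL, Real.le_log_iff_exp_le hk0]
    exact hk
  have hLpos : 0 < L := lt_of_lt_of_le (by norm_num) hL1
  have e1 : (k ^ (1 / 2 : ℝ) / 2) ^ (-(1 / 4) : ℝ)
      = Real.exp (-(L / 8) + Real.log 2 / 4) := by
    have hpos : 0 < k ^ (1 / 2 : ℝ) / 2 := by positivity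
    rw [Real.rpow_def_of_pos hpos, Real.log_div (by positivity) (by norm_num),
      Real.log_rpow hk0]
    congr 1
    ring
  have e2 : k ^ (-(1 / 16) : ℝ) = Real.exp (-(L / 16)) := by
    rw [Real.rpow_def_of_pos hk0]
    congr 1
    ring
  rw [e1, e2, ← Real.exp_add]
  apply Real.exp_le_exp.mpr
  have e3 : L ^ (3 / 4 : ℝ) * 304 ≤ L := by
    have h1 : (304 : ℝ) ≤ L ^ (1 / 4 : ℝ) := by
      have h2 : (304 : ℝ) = ((304 : ℝ) ^ (4 : ℕ)) ^ (1 / 4 : ℝ) := by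
        rw [← Real.rpow_natCast, ← Real.rpow_mul (by norm_num)]
        norm_num
      rw [h2]
      exact Real.rpow_le_rpow (by positivity) hL1 (by norm_num)
    calc L ^ (3 / 4 : ℝ) * 304 ≤ L ^ (3 / 4 : ℝ) * L ^ (1 / 4 : ℝ) :=
          mul_le_mul_of_nonneg_left h1 (by positivity)
      _ = L := by
          rw [← Real.rpow_add hLpos]
          norm_num
  have e4 : Real.log 2 ≤ 1 := by
    have := Real.log_two_lt_d9
    linarith
  have e5 : (304 : ℝ) ^ 4 ≤ L := hL1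
  have e6 : (1 : ℝ) ≤ L / 304 := by
    rw [le_div_iff₀ (by norm_num)]
    have : (304 : ℝ) ≤ 304 ^ 4 := by norm_num
    linarith
  have e7 : L ^ (3 / 4 : ℝ) ≤ L / 304 := by
    rw [le_div_iff₀ (by norm_num)]
    exact e3
  nlinarith

/-- (iii), pairs -/
theorem rankin_log : ∃ k0 : ℝ, 1 < k0 ∧ ∀ k : ℝ, k0 ≤ k → ∀ F : Finset (ℕ × ℕ),
    (∀ x ∈ F, Smooth (Real.log k) x.1 ∧ Smooth (Real.log k) x.2 ∧
      k ^ (1 / 2 : ℝ) / 2 ≤ max (x.1 : ℝ) x.2) →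
    ∑ x ∈ F, ((x.1 : ℝ) * x.2) ^ (-(1 / 2) : ℝ) ≤ k ^ (-(1 / 16) : ℝ) := by
  obtain ⟨k0, h0, h1⟩ := log_bound
  refine ⟨k0, h0, fun k hk F hF => ?_⟩
  have hk1 : 1 < k := lt_of_lt_of_le h0 hk
  exact (rankin_two (Real.log k) (k ^ (1 / 2 : ℝ) / 2) (Real.log_nonneg hk1.le) (by positivity) F
    hF).trans (h1 k hk)

/-- (iii), one word -/
theorem rankin_log_one : ∃ k0 : ℝ, 1 < k0 ∧ ∀ k : ℝ, k0 ≤ k → ∀ F : Finset ℕ,
    (∀ n ∈ F, Smooth (Real.log k) n ∧ k ^ (1 / 2 : ℝ) / 2 ≤ n) →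
    ∑ n ∈ F, (n : ℝ) ^ (-(1 / 2) : ℝ) ≤ k ^ (-(1 / 16) : ℝ) := by
  obtain ⟨k0, h0, h1⟩ := log_bound
  refine ⟨k0, h0, fun k hk F hF => ?_⟩
  have hk1 : 1 < k := lt_of_lt_of_le h0 hk
  refine (rankin_one (Real.log k) (k ^ (1 / 2 : ℝ) / 2) (Real.log_nonneg hk1.le) (by positivity) F
    hF).trans (le_trans ?_ (h1 k hk))
  apply mul_le_mul_of_nonneg_left _ (by positivity)
  apply Real.exp_le_exp.mpr
  have : (0 : ℝ) ≤ Real.log k ^ (3 / 4 : ℝ) := Real.rpow_nonneg (Real.log_nonneg hk1.le) _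
  linarith

end Crest.Agent.R4C.Rankinx524
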