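import Crest.Agent.R4C.HVWt_19
import Crest.Agent.R4C.FLDef_935
import Crest.Agent.R4C.Core_251
import Crest.Agent.R4C.Rankin_524

/-!
# Lemma III-R (note 3246 (3), helper935) as a corollary of theorem (R) (helper256)

`F : FL M`, cut `x`.  `R b l` a relation such that for every `b` at most `rho * N` of the
`x`-rough integers `n ≤ N` satisfy `R b n`.  Then the good pairs (above `x`) with
`R b (F.ell x c)` have the energy gain `(1/x)^δ + (Sm x * rho)^δ`, `Sm x = ∏_{p ≤ x} (1-1/p)⁻¹`.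

Proof: the leaf hypothesis of `thmR_b` holds for every model `(Ma, Mz, H)`: either some prime
`p > x` of the model has an `F`-centre different from the model centre (then look at the largest
one: density `≤ 12/x`), or the deficit of `c` in the model is `(x`-smooth`) * l1` with
`F.ell x c = A * l1`.
-/

set_option autoImplicit false
set_option linter.unusedVariables false

namespace Crest.Agent.R4C.IIIRx256

open Finset Crest.Agent.R4C.Basex935 Crest.Agent.R4C.Cutx50 Crest.Agent.R4C.FLDefx935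
open Crest.Agent.R4C.ThmRx19 Crest.Agent.R4C.OnePx19
open scoped Classical

/-! ## box sums -/

/-- natural weight of `u` in the model -/
noncomputable def w (Mz H u : ℕ) : ℝ := (Nat.gcd H u : ℝ) * nu Mz u

/-- deficit of `u` in the model -/
def ld (H u : ℕ) : ℕ := H / Nat.gcd H u

lemma w_nonneg (Mz H u : ℕ) : 0 ≤ w Mz H u := mul_nonneg (Nat.cast_nonneg _) (nu_nonneg _ _)

lemma ld_mul {H u : ℕ} : ld H u * Nat.gcd H u = H := Nat.div_mul_cancel (Nat.gcd_dvd_left _ _)

lemma ld_pos {H u : ℕ} (hH : 0 < H) : 0 < ld H u := by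
  rcases Nat.eq_zero_or_pos (ld H u) with h | h
  · have := ld_mul (H := H) (u := u)
    rw [h] at this; omega
  · exact h

lemma w_fiber {Mz H : ℕ} (hMz : 0 < Mz) (hH : H ∣ Mz) (l : ℕ) :
    ∑ u ∈ Mz.divisors.filter (fun u => ld H u = l), w Mz H u ≤ 1 := by
  rcases (Mz.divisors.filter (fun u => ld H u = l)).eq_empty_or_nonempty with he | ⟨u0, hu0⟩
  · rw [he, sum_empty]; exact zero_le_one
  · have hH0 : 0 < H := Nat.pos_of_dvd_of_pos hH hMz
    have hl : ld H u0 = l := (mem_filter.1 hu0).2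
    have hl0 : 0 < l := hl ▸ ld_pos hH0
    set d := Nat.gcd H u0 with hd
    have hdd : ∀ u ∈ Mz.divisors.filter (fun u => ld H u = l), Nat.gcd H u = d := by
      intro u hu
      have h1 : ld H u = l := (mem_filter.1 hu).2
      have h2 := ld_mul (H := H) (u := u)
      have h3 := ld_mul (H := H) (u := u0)
      rw [h1] at h2
      rw [hl] at h3
      exact Nat.eq_of_mul_eq_mul_left hl0 (h2.trans h3.symm)
    have hdM : d ∣ Mz := (Nat.gcd_dvd_left _ _).trans hH
    have hd0 : 0 < d := Nat.pos_of_dvd_of_pos hdM hMz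
    calc ∑ u ∈ Mz.divisors.filter (fun u => ld H u = l), w Mz H u
        ≤ ∑ u ∈ Mz.divisors.filter (fun u => d ∣ u), (d : ℝ) * nu Mz u := by
          refine (sum_le_sum (g := fun u => (d : ℝ) * nu Mz u) fun u hu => ?_).trans
            (sum_le_sum_of_subset_of_nonneg ?_ ?_)
          · unfold w
            rw [hdd u hu]
          · intro u hu
            rw [mem_filter] at hu ⊢
            refine ⟨hu.1, ?_⟩
            rw [← hdd u (mem_filter.2 hu)]
            exact Nat.gcd_dvd_right _ _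
          · intro u _ _
            exact mul_nonneg (Nat.cast_nonneg _) (nu_nonneg _ _)
      _ = 1 := by
          rw [← mul_sum, Corex251.sum_nu_dvd hMz hdM]
          have : (d : ℝ) ≠ 0 := by exact_mod_cast hd0.ne'
          field_simp

lemma w_set {Mz H : ℕ} (hMz : 0 < Mz) (hH : H ∣ Mz) (L : Finset ℕ) (P : ℕ → Prop) [DecidablePred P]
    (hP : ∀ u, u ∣ Mz → P u → ld H u ∈ L) :
    ∑ u ∈ Mz.divisors.filter P, w Mz H u ≤ L.card := by
  have hmap : ∀ u ∈ Mz.divisors.filter P, ld H u ∈ L := by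
    intro u hu
    rw [mem_filter, Nat.mem_divisors] at hu
    exact hP u hu.1.1 hu.2
  rw [← sum_fiberwise_of_maps_to hmap]
  calc _ ≤ ∑ l ∈ L, (1 : ℝ) := by
        refine sum_le_sum fun l _ => (sum_le_sum_of_subset_of_nonneg ?_ ?_).trans
          (w_fiber hMz hH l)
        · intro u hu
          rw [mem_filter] at hu ⊢
          exact ⟨(mem_filter.1 hu.1).1, hu.2⟩
        · intro u _ _
          exact w_nonneg _ _ _
    _ = L.card := by simp

lemma w_box {Mz H : ℕ} (hMz : 0 < Mz) (hH : H ∣ Mz) (i : ℕ) :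
    ∑ u ∈ Mz.divisors.filter (fun u => Nat.log 2 (ld H u) = i), w Mz H u ≤ 2 ^ i := by
  have hH0 : 0 < H := Nat.pos_of_dvd_of_pos hH hMz
  have h := w_set hMz hH (Finset.Ico (2 ^ i) (2 ^ (i + 1))) (fun u => Nat.log 2 (ld H u) = i)
    (by
      intro u _ hu
      rw [Finset.mem_Ico, ← hu]
      exact ⟨Nat.pow_log_le_self 2 (ld_pos hH0).ne', Nat.lt_pow_succ_log_self (by norm_num) _⟩)
  refine h.trans (le_of_eq ?_)
  rw [Nat.card_Ico, pow_succ]
  have : 2 ^ i * 2 - 2 ^ i = 2 ^ i := by omega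
  rw [this]
  push_cast
  rfl

/-! ## one letter changed -/

lemma w_pp {p a M' H' m v1 v : ℕ} (hp : p.Prime) (hM' : ¬ p ∣ M') (hH' : H' ∣ M')
    (hm : m ∣ M') (hv : v ≤ a) :
    w (p ^ a * M') (p ^ v1 * H') (p ^ v * m) = (p : ℝ) ^ (min v1 v) * nup p a v * w M' H' m := by
  have hH : ¬ p ∣ H' := fun h => hM' (h.trans hH')
  have hmm : ¬ p ∣ m := fun h => hM' (h.trans hm)
  have hcop : Nat.Coprime (p ^ a) M' :=
    Nat.Coprime.pow_left a ((Nat.Prime.coprime_iff_not_dvd hp).2 hM')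
  unfold w
  rw [gcd_split hp v1 v hH hmm, nu_mul hcop (pow_dvd_pow p hv) hm, nu_prime_pow hp hv]
  push_cast
  ring

lemma ld_pp {p H' m v1 v : ℕ} (hp : p.Prime) (hH : ¬ p ∣ H') (hm : ¬ p ∣ m) :
    ld (p ^ v1 * H') (p ^ v * m) = p ^ (v1 - v) * ld H' m := by
  unfold ld
  rw [gcd_split hp v1 v hH hm]
  rw [← Nat.div_mul_div_comm (pow_dvd_pow p (min_le_left _ _)) (Nat.gcd_dvd_left _ _)]
  congr 1
  rw [Nat.pow_div (min_le_left _ _) hp.pos]
  congr 1
  omega

lemma half_le {p : ℕ} (hp : p.Prime) : (1 : ℝ) / 2 ≤ 1 - 1 / (p : ℝ) := by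
  have h2 : (2 : ℝ) ≤ p := by exact_mod_cast hp.two_le
  have : (1 : ℝ) / p ≤ 1 / 2 := one_div_le_one_div_of_le (by norm_num) h2
  linarith

/-- excess letter: weight `≤ (2/p)` times the weight of the centre letter -/
lemma w_hi {p a M' H' m v1 v : ℕ} (hp : p.Prime) (hM' : ¬ p ∣ M') (hH' : H' ∣ M')
    (hm : m ∣ M') (hv : v ≤ a) (h : v1 < v) :
    w (p ^ a * M') (p ^ v1 * H') (p ^ v * m) ≤
      2 / (p : ℝ) * w (p ^ a * M') (p ^ v1 * H') (p ^ v1 * m) := by
  rw [w_pp hp hM' hH' hm hv, w_pp hp hM' hH' hm (by omega), min_eq_left h.le, min_self]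
  have hw := w_nonneg M' H' m
  have hp0 : (0 : ℝ) < p := by exact_mod_cast hp.pos
  have h1 : nup p a v ≤ (1 / (p : ℝ)) ^ v := nup_le hp.pos a v hv
  have h2 : (1 - 1 / (p : ℝ)) * (1 / (p : ℝ)) ^ v1 ≤ nup p a v1 := nup_ge hp.pos a v1 (by omega)
  have h3 : (1 / (p : ℝ)) ^ v ≤ 1 / (p : ℝ) * (1 / (p : ℝ)) ^ v1 := by
    rw [← pow_succ']
    exact pow_le_pow_of_le_one (by positivity)
      (by rw [div_le_one hp0]; exact_mod_cast hp.one_lt.le) (by omega)
  have h4 := half_le hp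
  have h5 : (0 : ℝ) ≤ (1 / (p : ℝ)) ^ v1 := by positivity
  have h6 : nup p a v ≤ 2 / (p : ℝ) * nup p a v1 := by
    have h7 : (1 / (p : ℝ)) ^ v1 ≤ 2 * nup p a v1 := by nlinarith
    calc nup p a v ≤ 1 / (p : ℝ) * (1 / (p : ℝ)) ^ v1 := h1.trans h3
      _ ≤ 1 / (p : ℝ) * (2 * nup p a v1) := mul_le_mul_of_nonneg_left h7 (by positivity)
      _ = _ := by ring
  calc (p : ℝ) ^ v1 * nup p a v * w M' H' m
      ≤ (p : ℝ) ^ v1 * (2 / (p : ℝ) * nup p a v1) * w M' H' m := by gcongr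
    _ = _ := by ring

/-- deficit letter: weight `≤ 2` times the weight of the centre letter -/
lemma w_lo {p a M' H' m v1 v : ℕ} (hp : p.Prime) (hM' : ¬ p ∣ M') (hH' : H' ∣ M')
    (hm : m ∣ M') (hv1 : v1 ≤ a) (h : v < v1) :
    w (p ^ a * M') (p ^ v1 * H') (p ^ v * m) ≤
      2 * w (p ^ a * M') (p ^ v1 * H') (p ^ v1 * m) := by
  rw [w_pp hp hM' hH' hm (by omega), w_pp hp hM' hH' hm hv1, min_eq_right h.le, min_self]
  have hw := w_nonneg M' H' m
  have hp0 : (0 : ℝ) < p := by exact_mod_cast hp.pos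
  have h1 : nup p a v ≤ (1 / (p : ℝ)) ^ v := nup_le hp.pos a v (by omega)
  have h2 : (1 - 1 / (p : ℝ)) * (1 / (p : ℝ)) ^ v1 ≤ nup p a v1 := nup_ge hp.pos a v1 hv1
  have h4 := half_le hp
  have e : ∀ k : ℕ, (p : ℝ) ^ k * (1 / (p : ℝ)) ^ k = 1 := by
    intro k
    rw [← mul_pow, mul_one_div_cancel hp0.ne', one_pow]
  have h5 : (p : ℝ) ^ v * nup p a v ≤ 1 := by
    calc (p : ℝ) ^ v * nup p a v ≤ (p : ℝ) ^ v * (1 / (p : ℝ)) ^ v := by gcongr
      _ = 1 := e v
  have h6 : 1 ≤ 2 * ((p : ℝ) ^ v1 * nup p a v1) := by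
    have h7 : (p : ℝ) ^ v1 * ((1 - 1 / (p : ℝ)) * (1 / (p : ℝ)) ^ v1) ≤ (p : ℝ) ^ v1 * nup p a v1 := by
      gcongr
    have h8 : (p : ℝ) ^ v1 * ((1 - 1 / (p : ℝ)) * (1 / (p : ℝ)) ^ v1) = 1 - 1 / (p : ℝ) := by
      rw [mul_left_comm, e v1, mul_one]
    linarith
  calc (p : ℝ) ^ v * nup p a v * w M' H' m ≤ 1 * w M' H' m := by gcongr
    _ ≤ (2 * ((p : ℝ) ^ v1 * nup p a v1)) * w M' H' m := by gcongr
    _ = _ := by ring

/-- replace the exponent at `p` by `v` -/
def setE (u p v : ℕ) : ℕ := p ^ v * (u / p ^ u.factorization p)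

lemma setE_ne {u p v : ℕ} (hu : u ≠ 0) (hp : p.Prime) : setE u p v ≠ 0 := by
  unfold setE
  exact mul_ne_zero (pow_ne_zero _ hp.ne_zero) (Nat.ordCompl_pos p hu).ne'

lemma fact_setE {u p v : ℕ} (hu : u ≠ 0) (hp : p.Prime) (q : ℕ) :
    (setE u p v).factorization q = if q = p then v else u.factorization q := by
  unfold setE
  rw [Nat.factorization_mul (pow_ne_zero _ hp.ne_zero) (Nat.ordCompl_pos p hu).ne',
    hp.factorization_pow, Finsupp.add_apply, Nat.factorization_ordCompl, Finsupp.single_apply]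
  by_cases h : q = p
  · subst h; simp
  · simp [h, Ne.symm h]

lemma setE_self {u p : ℕ} : setE u p (u.factorization p) = u := Nat.ordProj_mul_ordCompl_eq_self u p

lemma setE_dvd {M u p v : ℕ} (hM : M ≠ 0) (hu : u ∣ M) (hp : p.Prime)
    (hv : v ≤ M.factorization p) : setE u p v ∣ M := by
  have hu0 : u ≠ 0 := ne_zero_of_dvd_ne_zero hM hu
  rw [← Nat.factorization_le_iff_dvd (setE_ne hu0 hp) hM]
  intro q
  rw [fact_setE hu0 hp]
  split_ifs with h
  · rw [h]; exact hv
  · exact (Nat.factorization_le_iff_dvd hu0 hM).2 hu q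

lemma setE_setE {u p v v' : ℕ} (hu : u ≠ 0) (hp : p.Prime) :
    setE (setE u p v) p v' = setE u p v' := by
  refine Nat.eq_of_factorization_eq (setE_ne (setE_ne hu hp) hp) (setE_ne hu hp) fun q => ?_
  rw [fact_setE (setE_ne hu hp) hp, fact_setE hu hp, fact_setE hu hp]
  split_ifs <;> rfl

/-- comparison of `u` and the word with the centre letter at `p` -/
lemma w_setE {Mz H u p : ℕ} (hMz : Mz ≠ 0) (hH : H ∣ Mz) (hu : u ∣ Mz) (hp : p.Prime) :
    (H.factorization p < u.factorization p →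
      w Mz H u ≤ 2 / (p : ℝ) * w Mz H (setE u p (H.factorization p)) ∧
      ld H u = ld H (setE u p (H.factorization p))) ∧
    (u.factorization p < H.factorization p →
      w Mz H u ≤ 2 * w Mz H (setE u p (H.factorization p)) ∧
      p * ld H (setE u p (H.factorization p)) ≤ ld H u) := by
  have hH0 : H ≠ 0 := ne_zero_of_dvd_ne_zero hMz hH
  have hu0 : u ≠ 0 := ne_zero_of_dvd_ne_zero hMz hu
  set a := Mz.factorization p with ha
  set v1 := H.factorization p with hv1
  set v := u.factorization p with hv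
  set M' := Mz / p ^ a with hM'
  set H' := H / p ^ v1 with hH'
  set m := u / p ^ v with hm
  have e1 : p ^ a * M' = Mz := Nat.ordProj_mul_ordCompl_eq_self Mz p
  have e2 : p ^ v1 * H' = H := Nat.ordProj_mul_ordCompl_eq_self H p
  have e3 : p ^ v * m = u := Nat.ordProj_mul_ordCompl_eq_self u p
  have n1 : ¬ p ∣ M' := Nat.not_dvd_ordCompl hp hMz
  have d2 : H' ∣ M' := Nat.ordCompl_dvd_ordCompl_of_dvd hH p
  have d3 : m ∣ M' := Nat.ordCompl_dvd_ordCompl_of_dvd hu p
  have l2 : v1 ≤ a := (Nat.factorization_le_iff_dvd hH0 hMz).2 hH p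
  have l3 : v ≤ a := (Nat.factorization_le_iff_dvd hu0 hMz).2 hu p
  have es : setE u p v1 = p ^ v1 * m := rfl
  have nH : ¬ p ∣ H' := fun h => n1 (h.trans d2)
  have nm : ¬ p ∣ m := fun h => n1 (h.trans d3)
  have ld1 : ld H (p ^ v1 * m) = ld H' m := by
    rw [← e2, ld_pp hp nH nm, Nat.sub_self, pow_zero, one_mul]
  have ld2 : ld H u = p ^ (v1 - v) * ld H' m := by
    rw [← e2, ← e3, ld_pp hp nH nm]
  refine ⟨fun h => ⟨?_, ?_⟩, fun h => ⟨?_, ?_⟩⟩
  · have := w_hi hp n1 d2 d3 l3 h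
    rw [e1, e2, e3] at this
    rw [es]; exact this
  · rw [es, ld1, ld2, Nat.sub_eq_zero_of_le h.le, pow_zero, one_mul]
  · have := w_lo hp n1 d2 d3 l2 h
    rw [e1, e2, e3] at this
    rw [es]; exact this
  · rw [es, ld1, ld2]
    refine Nat.mul_le_mul_right _ ?_
    calc p = p ^ 1 := (pow_one p).symm
      _ ≤ p ^ (v1 - v) := Nat.pow_le_pow_right hp.pos (by omega)

/-! ## the largest mismatch prime -/

variable {M : ℕ}

/-- primes `p > x` of the model where the `F`-centre differs from the model centre -/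
noncomputable def MM (F : FL M) (x h Mz H u : ℕ) : Finset ℕ :=
  Mz.primeFactors.filter (fun p => x < p ∧ ∃ v, F.ctr (h * u) p = some v ∧ v ≠ H.factorization p)

/-- the largest one -/
noncomputable def mm (F : FL M) (x h Mz H u : ℕ) : ℕ := (MM F x h Mz H u).sup id

lemma mm_mem {F : FL M} {x h Mz H u : ℕ} (hne : (MM F x h Mz H u).Nonempty) :
    mm F x h Mz H u ∈ MM F x h Mz H u := by
  obtain ⟨a, ha, hb⟩ := Finset.exists_mem_eq_sup _ hne id
  unfold mm
  rw [hb]; exact ha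

lemma le_mm {F : FL M} {x h Mz H u p : ℕ} (hp : p ∈ MM F x h Mz H u) : p ≤ mm F x h Mz H u :=
  Finset.le_sup (f := id) hp

/-- statuses at primes `≥ p` do not see the letter at `p` -/
lemma ctr_setE {F : FL M} {h Ma Mz u p v : ℕ} (hM : Ma * Mz = M) (hM0 : M ≠ 0)
    (hh : h ∣ Ma) (hu : u ∣ Mz) (hp : p.Prime) (hv : v ≤ Mz.factorization p) {q : ℕ}
    (hq : q.Prime) (hpq : p ≤ q) : F.ctr (h * setE u p v) q = F.ctr (h * u) q := by
  have hMz : Mz ≠ 0 := by rintro rfl; simp at hM; exact hM0 hM.symm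
  have hMa : Ma ≠ 0 := by rintro rfl; simp at hM; exact hM0 hM.symm
  have hu0 : u ≠ 0 := ne_zero_of_dvd_ne_zero hMz hu
  have hh0 : h ≠ 0 := ne_zero_of_dvd_ne_zero hMa hh
  have d1 : h * setE u p v ∣ M := hM ▸ Nat.mul_dvd_mul hh (setE_dvd hMz hu hp hv)
  have d2 : h * u ∣ M := hM ▸ Nat.mul_dvd_mul hh hu
  refine F.coh d1 d2 hq fun r hr hqr _ => ?_
  rw [Nat.factorization_mul hh0 (setE_ne hu0 hp), Nat.factorization_mul hh0 hu0,
    Finsupp.add_apply, Finsupp.add_apply, fact_setE hu0 hp, if_neg (by omega)]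

lemma MM_setE {F : FL M} {x h Ma Mz H u v : ℕ} (hM : Ma * Mz = M) (hM0 : M ≠ 0)
    (hh : h ∣ Ma) (hu : u ∣ Mz) (hne : (MM F x h Mz H u).Nonempty)
    (hv : v ≤ Mz.factorization (mm F x h Mz H u)) :
    (MM F x h Mz H (setE u (mm F x h Mz H u) v)).Nonempty ∧
    mm F x h Mz H (setE u (mm F x h Mz H u) v) = mm F x h Mz H u := by
  have h1 := mm_mem hne
  set p := mm F x h Mz H u with hp
  have h2 : p ∈ MM F x h Mz H u := h1
  unfold MM at h2
  rw [mem_filter] at h2
  obtain ⟨hpm, hxp, v0, hv0, hv0'⟩ := h2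
  have hpp := Nat.prime_of_mem_primeFactors hpm
  have hctr : ∀ q, q.Prime → p ≤ q → F.ctr (h * setE u p v) q = F.ctr (h * u) q :=
    fun q hq hpq => ctr_setE hM hM0 hh hu hpp hv hq hpq
  have h3 : p ∈ MM F x h Mz H (setE u p v) := by
    unfold MM
    rw [mem_filter]
    exact ⟨hpm, hxp, v0, by rw [hctr p hpp le_rfl]; exact hv0, hv0'⟩
  refine ⟨⟨p, h3⟩, le_antisymm ?_ (le_mm h3)⟩
  by_contra hc
  have hc := not_le.1 hc
  have h4 := mm_mem ⟨p, h3⟩
  set q := mm F x h Mz H (setE u p v) with hq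
  have h5 : q ∈ MM F x h Mz H (setE u p v) := h4
  unfold MM at h5
  rw [mem_filter] at h5
  obtain ⟨hqm, hxq, v2, hv2, hv2'⟩ := h5
  have hqp := Nat.prime_of_mem_primeFactors hqm
  rw [hctr q hqp hc.le] at hv2
  have h6 : q ∈ MM F x h Mz H u := by
    unfold MM
    rw [mem_filter]
    exact ⟨hqm, hxq, v2, hv2, hv2'⟩
  have := le_mm h6
  omega

/-- the letter of `u` at the largest mismatch prime is the `F`-centre -/
def Bad (F : FL M) (x h Mz H u : ℕ) : Prop :=
  (MM F x h Mz H u).Nonempty ∧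
    F.ctr (h * u) (mm F x h Mz H u) = some (u.factorization (mm F x h Mz H u))

/-- the word with the model centre at the largest mismatch prime -/
noncomputable def toH (F : FL M) (x h Mz H u : ℕ) : ℕ :=
  setE u (mm F x h Mz H u) (H.factorization (mm F x h Mz H u))

lemma toH_inj {F : FL M} {x h Ma Mz H : ℕ} (hM : Ma * Mz = M) (hM0 : M ≠ 0)
    (hh : h ∣ Ma) (hH : H ∣ Mz) {u u' : ℕ} (hu : u ∣ Mz) (hu' : u' ∣ Mz)
    (hb : Bad F x h Mz H u) (hb' : Bad F x h Mz H u') (he : toH F x h Mz H u = toH F x h Mz H u') :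
    u = u' := by
  have hMz : Mz ≠ 0 := by rintro rfl; simp at hM; exact hM0 hM.symm
  have hu0 : u ≠ 0 := ne_zero_of_dvd_ne_zero hMz hu
  have hu0' : u' ≠ 0 := ne_zero_of_dvd_ne_zero hMz hu'
  have hH0 : H ≠ 0 := ne_zero_of_dvd_ne_zero hMz hH
  have hv : ∀ p, H.factorization p ≤ Mz.factorization p := fun p =>
    (Nat.factorization_le_iff_dvd hH0 hMz).2 hH p
  have m1 := MM_setE hM hM0 hh hu hb.1 (hv _)
  have m2 := MM_setE hM hM0 hh hu' hb'.1 (hv _)
  have pp : (mm F x h Mz H u).Prime := by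
    have := mm_mem hb.1
    unfold MM at this
    exact Nat.prime_of_mem_primeFactors (mem_filter.1 this).1
  have pp' : (mm F x h Mz H u').Prime := by
    have := mm_mem hb'.1
    unfold MM at this
    exact Nat.prime_of_mem_primeFactors (mem_filter.1 this).1
  unfold toH at he
  have hp : mm F x h Mz H u = mm F x h Mz H u' := by
    rw [← m1.2, ← m2.2, he]
  have c1 := ctr_setE (F := F) hM hM0 hh hu pp (hv _) pp le_rfl
  have c2 := ctr_setE (F := F) hM hM0 hh hu' pp' (hv _) pp' le_rfl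
  rw [hb.2] at c1
  rw [hb'.2] at c2
  rw [← hp] at c2 he
  rw [he, c2] at c1
  have hf : u'.factorization (mm F x h Mz H u) = u.factorization (mm F x h Mz H u) :=
    Option.some.inj c1
  have g1 := setE_setE (u := u) (v := H.factorization (mm F x h Mz H u))
    (v' := u.factorization (mm F x h Mz H u)) hu0 pp
  have g2 := setE_setE (u := u') (v := H.factorization (mm F x h Mz H u))
    (v' := u.factorization (mm F x h Mz H u)) hu0' pp
  rw [setE_self] at g1
  rw [← hf, setE_self] at g2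
  rw [← g1, ← g2, he, hf]

/-- **density of the mismatch words in a dyadic box** -/
lemma sum_bad {F : FL M} {x h Ma Mz H : ℕ} (hM : Ma * Mz = M) (hM0 : M ≠ 0)
    (hh : h ∣ Ma) (hH : H ∣ Mz) (hx : 0 < x) (i : ℕ) :
    ∑ u ∈ Mz.divisors.filter (fun u => Nat.log 2 (ld H u) = i ∧ Bad F x h Mz H u), w Mz H u ≤
      6 / (x : ℝ) * 2 ^ i := by
  have hMz : Mz ≠ 0 := by rintro rfl; simp at hM; exact hM0 hM.symm
  have hMz0 : 0 < Mz := Nat.pos_of_ne_zero hMz
  have hH0 : H ≠ 0 := ne_zero_of_dvd_ne_zero hMz hH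
  have hx0 : (0 : ℝ) < x := by exact_mod_cast hx
  have hv : ∀ p, H.factorization p ≤ Mz.factorization p := fun p =>
    (Nat.factorization_le_iff_dvd hH0 hMz).2 hH p
  set S := Mz.divisors.filter (fun u => Nat.log 2 (ld H u) = i ∧ Bad F x h Mz H u) with hS
  set p : ℕ → ℕ := fun u => mm F x h Mz H u with hp
  have hSm : ∀ u ∈ S, u ∣ Mz ∧ Nat.log 2 (ld H u) = i ∧ Bad F x h Mz H u := by
    intro u hu
    rw [hS, mem_filter, Nat.mem_divisors] at hu
    exact ⟨hu.1.1, hu.2.1, hu.2.2⟩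
  have hpp : ∀ u ∈ S, (p u).Prime ∧ x < p u ∧ u.factorization (p u) ≠ H.factorization (p u) := by
    intro u hu
    obtain ⟨hu1, hu2, hb⟩ := hSm u hu
    have h1 := mm_mem hb.1
    unfold MM at h1
    rw [mem_filter] at h1
    obtain ⟨a1, a2, v, hv, hv'⟩ := h1
    have e := hb.2
    rw [hv] at e
    refine ⟨Nat.prime_of_mem_primeFactors a1, a2, ?_⟩
    rw [← Option.some.inj e]
    exact hv'
  have hinj : Set.InjOn (toH F x h Mz H) (S : Set ℕ) := by
    intro u hu u' hu' he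
    rw [mem_coe] at hu hu'
    exact toH_inj hM hM0 hh hH (hSm u hu).1 (hSm u' hu').1 (hSm u hu).2.2 (hSm u' hu').2.2 he
  have hdv : ∀ u ∈ S, toH F x h Mz H u ∣ Mz := fun u hu =>
    setE_dvd hMz (hSm u hu).1 (hpp u hu).1 (hv _)
  -- split
  have hsplit : ∑ u ∈ S, w Mz H u =
      ∑ u ∈ S.filter (fun u => H.factorization (p u) < u.factorization (p u)), w Mz H u +
      ∑ u ∈ S.filter (fun u => ¬ H.factorization (p u) < u.factorization (p u)), w Mz H u :=
    (sum_filter_add_sum_filter_not S _ _).symm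
  rw [hsplit]
  have hA : ∑ u ∈ S.filter (fun u => H.factorization (p u) < u.factorization (p u)), w Mz H u ≤
      2 / (x : ℝ) * 2 ^ i := by
    set S1 := S.filter (fun u => H.factorization (p u) < u.factorization (p u)) with hS1
    have hsub : ∀ u ∈ S1, u ∈ S := fun u hu => (mem_filter.1 hu).1
    calc ∑ u ∈ S1, w Mz H u ≤ ∑ u ∈ S1, 2 / (x : ℝ) * w Mz H (toH F x h Mz H u) := by
          refine sum_le_sum fun u hu => ?_
          have h1 := (w_setE hMz hH (hSm u (hsub u hu)).1 (hpp u (hsub u hu)).1).1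
            (mem_filter.1 hu).2
          refine h1.1.trans ?_
          refine mul_le_mul_of_nonneg_right ?_ (w_nonneg _ _ _)
          refine div_le_div_of_nonneg_left (by norm_num) hx0 ?_
          exact_mod_cast (hpp u (hsub u hu)).2.1.le
      _ = 2 / (x : ℝ) * ∑ u ∈ S1.image (toH F x h Mz H), w Mz H u := by
          rw [sum_image (fun u hu u' hu' he => hinj (hsub u hu) (hsub u' hu') he), mul_sum]
      _ ≤ 2 / (x : ℝ) * 2 ^ i := by
          refine mul_le_mul_of_nonneg_left ?_ (by positivity)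
          refine le_trans (sum_le_sum_of_subset_of_nonneg ?_ ?_) (w_box hMz0 hH i)
          · intro y hy
            rw [mem_image] at hy
            obtain ⟨u, hu, rfl⟩ := hy
            rw [mem_filter, Nat.mem_divisors]
            refine ⟨⟨hdv u (hsub u hu), hMz⟩, ?_⟩
            have h1 := (w_setE hMz hH (hSm u (hsub u hu)).1 (hpp u (hsub u hu)).1).1
              (mem_filter.1 hu).2
            have h2 := (hSm u (hsub u hu)).2.1
            rw [h1.2] at h2
            exact h2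
          · intro u _ _
            exact w_nonneg _ _ _
  have hB : ∑ u ∈ S.filter (fun u => ¬ H.factorization (p u) < u.factorization (p u)), w Mz H u ≤
      4 / (x : ℝ) * 2 ^ i := by
    set S1 := S.filter (fun u => ¬ H.factorization (p u) < u.factorization (p u)) with hS1
    have hsub : ∀ u ∈ S1, u ∈ S := fun u hu => (mem_filter.1 hu).1
    have hlt : ∀ u ∈ S1, u.factorization (p u) < H.factorization (p u) := by
      intro u hu
      have h1 := (mem_filter.1 hu).2
      have h2 := (hpp u (hsub u hu)).2.2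
      omega
    calc ∑ u ∈ S1, w Mz H u ≤ ∑ u ∈ S1, 2 * w Mz H (toH F x h Mz H u) := by
          refine sum_le_sum fun u hu => ?_
          exact ((w_setE hMz hH (hSm u (hsub u hu)).1 (hpp u (hsub u hu)).1).2 (hlt u hu)).1
      _ = 2 * ∑ u ∈ S1.image (toH F x h Mz H), w Mz H u := by
          rw [sum_image (fun u hu u' hu' he => hinj (hsub u hu) (hsub u' hu') he), mul_sum]
      _ ≤ 2 * ∑ u ∈ Mz.divisors.filter (fun u => ld H u * x ≤ 2 ^ (i + 1)), w Mz H u := by
          refine mul_le_mul_of_nonneg_left ?_ (by norm_num)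
          refine sum_le_sum_of_subset_of_nonneg ?_ ?_
          · intro y hy
            rw [mem_image] at hy
            obtain ⟨u, hu, rfl⟩ := hy
            rw [mem_filter, Nat.mem_divisors]
            refine ⟨⟨hdv u (hsub u hu), hMz⟩, ?_⟩
            have h1 := ((w_setE hMz hH (hSm u (hsub u hu)).1 (hpp u (hsub u hu)).1).2
              (hlt u hu)).2
            have h2 := (hSm u (hsub u hu)).2.1
            have h3 : ld H u < 2 ^ (i + 1) := by
              rw [← h2]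
              exact Nat.lt_pow_succ_log_self (by norm_num) _
            have h4 := (hpp u (hsub u hu)).2.1
            calc ld H (toH F x h Mz H u) * x ≤ ld H (toH F x h Mz H u) * p u :=
                  Nat.mul_le_mul_left _ h4.le
              _ = p u * ld H (toH F x h Mz H u) := Nat.mul_comm _ _
              _ ≤ ld H u := h1
              _ ≤ 2 ^ (i + 1) := h3.le
          · intro u _ _
            exact w_nonneg _ _ _
      _ ≤ 2 * ((Finset.Icc 1 (2 ^ (i + 1) / x)).card : ℝ) := by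
          refine mul_le_mul_of_nonneg_left ?_ (by norm_num)
          refine w_set hMz0 hH _ _ fun u _ hu => ?_
          rw [Finset.mem_Icc]
          exact ⟨ld_pos (Nat.pos_of_ne_zero hH0), (Nat.le_div_iff_mul_le hx).2 hu⟩
      _ ≤ 2 * (((2 ^ (i + 1) : ℕ) : ℝ) / x) := by
          refine mul_le_mul_of_nonneg_left ?_ (by norm_num)
          rw [Nat.card_Icc, Nat.add_sub_cancel]
          exact Nat.cast_div_le
      _ = 4 / (x : ℝ) * 2 ^ i := by
          push_cast
          rw [pow_succ]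
          ring
  have : 6 / (x : ℝ) * 2 ^ i = 2 / (x : ℝ) * 2 ^ i + 4 / (x : ℝ) * 2 ^ i := by ring
  rw [this]
  exact add_le_add hA hB

/-! ## counting the deficits -/

/-- `∏_{p ≤ x} (1 - 1/p)⁻¹` -/
noncomputable def Sm (x : ℕ) : ℝ := ∏ p ∈ (x + 1).primesBelow, (1 - (p : ℝ) ^ (-(1 : ℝ)))⁻¹

lemma Sm_nonneg (x : ℕ) : 0 ≤ Sm x := by
  unfold Sm
  refine Finset.prod_nonneg fun p hp => inv_nonneg.2 ?_
  have hp' := Nat.prime_of_mem_primesBelow hp
  have : (p : ℝ) ^ (-(1 : ℝ)) ≤ 1 :=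
    Real.rpow_le_one_of_one_le_of_nonpos (by exact_mod_cast hp'.one_lt.le) (by norm_num)
  linarith

/-- all prime factors are `> x` -/
def Rough (x n : ℕ) : Prop := ∀ p, p.Prime → p ∣ n → x < p

lemma count_le {R : ℕ → Prop} {x A : ℕ} {ρ : ℝ} (hA : 0 < A) (hAr : Rough x A) (hρ : 0 ≤ ρ)
    (hR : ∀ N : ℕ, (((Finset.Icc 1 N).filter (fun n => Rough x n ∧ R n)).card : ℝ) ≤ ρ * N)
    (j : ℕ) :
    (((Finset.Ico (2 ^ j) (2 ^ (j + 1))).filter (fun l => R (A * upp x l))).card : ℝ) ≤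
      ρ * A * 2 ^ (j + 1) * Sm x := by
  set Y := 2 ^ (j + 1) with hY
  set S := (Finset.Ico (2 ^ j) Y).filter (fun l => R (A * upp x l)) with hS
  set Λ := (Finset.Icc 1 Y).filter (fun n => n ∈ Nat.smoothNumbers (x + 1)) with hΛ
  have hS1 : ∀ l ∈ S, 0 < l ∧ l < Y ∧ R (A * upp x l) := by
    intro l hl
    rw [hS, mem_filter, Finset.mem_Ico] at hl
    exact ⟨lt_of_lt_of_le (pow_pos (by norm_num) j) hl.1.1, hl.1.2, hl.2⟩
  have hmap : ∀ l ∈ S, low x l ∈ Λ := by
    intro l hl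
    obtain ⟨h1, h2, _⟩ := hS1 l hl
    rw [hΛ, mem_filter, Finset.mem_Icc]
    refine ⟨⟨low_pos x l, (Nat.le_of_dvd h1 (low_dvd_self x l)).trans h2.le⟩, ?_⟩
    rw [Nat.mem_smoothNumbers']
    intro p hp hpl
    have := prime_dvd_part (S := fun p => p ≤ x) hp hpl
    omega
  have h1 : (S.card : ℝ) = ∑ n ∈ Λ, ((S.filter (fun l => low x l = n)).card : ℝ) := by
    rw [card_eq_sum_card_fiberwise hmap]
    push_cast
    rfl
  rw [h1]
  have h2 : ∀ n ∈ Λ, ((S.filter (fun l => low x l = n)).card : ℝ) ≤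
      ρ * A * Y * (n : ℝ) ^ (-(1 : ℝ)) := by
    intro n hn
    rw [hΛ, mem_filter, Finset.mem_Icc] at hn
    have hn0 : 0 < n := hn.1.1
    have h3 : (S.filter (fun l => low x l = n)).card ≤
        ((Finset.Icc 1 (A * (Y / n))).filter (fun m => Rough x m ∧ R m)).card := by
      refine card_le_card_of_injOn (fun l => A * upp x l) ?_ ?_
      · intro l hl
        rw [mem_coe, mem_filter] at hl
        obtain ⟨hl1, hl2⟩ := hl
        obtain ⟨g1, g2, g3⟩ := hS1 l hl1
        rw [mem_coe, mem_filter, Finset.mem_Icc]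
        have e := low_mul_upp x g1.ne'
        rw [hl2] at e
        refine ⟨⟨Nat.mul_pos hA (upp_pos x l), Nat.mul_le_mul_left A ?_⟩, ?_, g3⟩
        · rw [Nat.le_div_iff_mul_le hn0, Nat.mul_comm, e]
          exact g2.le
        · intro p hp hpd
          rcases (Nat.Prime.dvd_mul hp).1 hpd with h5 | h5
          · exact hAr p hp h5
          · have := prime_dvd_part (S := fun p => ¬ p ≤ x) hp h5
            omega
      · intro l hl l' hl' he
        rw [mem_coe, mem_filter] at hl hl'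
        have e := low_mul_upp x (hS1 l hl.1).1.ne'
        have e' := low_mul_upp x (hS1 l' hl'.1).1.ne'
        have he' : upp x l = upp x l' := Nat.eq_of_mul_eq_mul_left hA he
        rw [← e, ← e', hl.2, hl'.2, he']
    have h4 : ((S.filter (fun l => low x l = n)).card : ℝ) ≤
        (((Finset.Icc 1 (A * (Y / n))).filter (fun m => Rough x m ∧ R m)).card : ℝ) := by
      exact_mod_cast h3
    refine (h4.trans (hR _)).trans ?_
    rw [Real.rpow_neg_one]
    have h5 : ((Y / n : ℕ) : ℝ) ≤ (Y : ℝ) / n := Nat.cast_div_le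
    push_cast
    calc ρ * ((A : ℝ) * ((Y / n : ℕ) : ℝ)) ≤ ρ * ((A : ℝ) * ((Y : ℝ) / n)) := by gcongr
      _ = _ := by rw [div_eq_mul_inv]; ring
  refine (sum_le_sum h2).trans ?_
  rw [← mul_sum]
  have h6 := Rankinx524.sum_le_prod 1 one_pos (x + 1) Λ (fun n hn => (mem_filter.1 hn).2)
  have h7 : (0 : ℝ) ≤ ρ * A * Y := by positivity
  have h8 : ((Y : ℕ) : ℝ) = 2 ^ (j + 1) := by rw [hY]; push_cast; rfl
  rw [← h8]
  exact mul_le_mul_of_nonneg_left h6 h7

/-- the active part of the deficit -/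
def AwE (F : FL M) (x b h' p : ℕ) : ℕ := if x < p then (match F.ctr b p with
  | some v => v - h'.factorization p
  | none => 0) else 0

/-- the active part of the deficit -/
def Aw (F : FL M) (x Ma b h' : ℕ) : ℕ := ∏ p ∈ Ma.primeFactors, p ^ AwE F x b h' p

/-- distance of the active words -/
def DD (Ma h h' : ℕ) : ℕ := ∏ p ∈ Ma.primeFactors, p ^ dst (h.factorization p) (h'.factorization p)

lemma fact_pr (N : ℕ) (e : ℕ → ℕ) (p : ℕ) :
    (∏ p ∈ N.primeFactors, p ^ e p).factorization p = if p ∈ N.primeFactors then e p else 0 :=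
  FL.fact_prod (M := N) e p

lemma Aw_pos (F : FL M) (x Ma b h' : ℕ) : 0 < Aw F x Ma b h' :=
  Finset.prod_pos fun _ hp => pow_pos (Nat.prime_of_mem_primeFactors hp).pos _

lemma DD_pos (Ma h h' : ℕ) : 0 < DD Ma h h' :=
  Finset.prod_pos fun _ hp => pow_pos (Nat.prime_of_mem_primeFactors hp).pos _

lemma Aw_rough (F : FL M) (x Ma b h' : ℕ) : Rough x (Aw F x Ma b h') := by
  intro p hp hpd
  have h1 : 0 < (Aw F x Ma b h').factorization p :=
    hp.factorization_pos_of_dvd (Aw_pos F x Ma b h').ne' hpd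
  unfold Aw at h1
  rw [fact_pr] at h1
  split_ifs at h1 with h2
  · unfold AwE at h1
    by_contra hc
    rw [if_neg hc] at h1
    omega
  · exact absurd h1 (lt_irrefl 0)

lemma fact_ld {Mz H v p : ℕ} (hH : H ≠ 0) (hv : v ≠ 0) :
    (ld H v).factorization p = H.factorization p - v.factorization p := by
  unfold ld
  rw [Nat.factorization_div (Nat.gcd_dvd_left _ _)]
  simp only [Finsupp.coe_tsub, Pi.sub_apply]
  rw [Nat.factorization_gcd hH hv]
  simp only [Finsupp.inf_apply]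
  omega

lemma ell_eq {F : FL M} {x h h' Ma Mz H u v : ℕ} (hM : Ma * Mz = M) (hM0 : M ≠ 0)
    (hcop : Nat.Coprime Ma Mz) (hh : h ∣ Ma) (hh' : h' ∣ Ma) (hH : H ∣ Mz) (hu : u ∣ Mz)
    (hv : v ∣ Mz) (hg : F.good x (h * u) (h' * v)) (hl : lvl Mz H u v)
    (he : ¬ (MM F x h Mz H u).Nonempty) :
    F.ell x (h' * v) = Aw F x Ma (h * u) h' * upp x (ld H v) := by
  have hMz : Mz ≠ 0 := by rintro rfl; simp at hM; exact hM0 hM.symm
  have hMa : Ma ≠ 0 := by rintro rfl; simp at hM; exact hM0 hM.symm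
  have hu0 : u ≠ 0 := ne_zero_of_dvd_ne_zero hMz hu
  have hv0 : v ≠ 0 := ne_zero_of_dvd_ne_zero hMz hv
  have hh0 : h ≠ 0 := ne_zero_of_dvd_ne_zero hMa hh
  have hh0' : h' ≠ 0 := ne_zero_of_dvd_ne_zero hMa hh'
  have hH0 : H ≠ 0 := ne_zero_of_dvd_ne_zero hMz hH
  have d1 : h * u ∣ M := hM ▸ Nat.mul_dvd_mul hh hu
  have d2 : h' * v ∣ M := hM ▸ Nat.mul_dvd_mul hh' hv
  have hl0 : ld H v ≠ 0 := (ld_pos (Nat.pos_of_ne_zero hH0)).ne'
  refine Nat.eq_of_factorization_eq (FL.ell_pos x _).ne'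
    (mul_ne_zero (Aw_pos F x Ma _ h').ne' (upp_pos x _).ne') fun p => ?_
  rw [Nat.factorization_mul (Aw_pos F x Ma _ h').ne' (upp_pos x _).ne', Finsupp.add_apply,
    FL.fact_ell, fact_upp, fact_ld (Mz := Mz) hH0 hv0]
  unfold Aw
  rw [fact_pr]
  have hz : ∀ {n N : ℕ}, N ≠ 0 → n ∣ N → p ∉ N.primeFactors → n.factorization p = 0 := by
    intro n N hN hn hp
    exact FL.fact_zero (M := N) (Nat.pos_of_ne_zero hN) hn hp
  have hMf : M.primeFactors = Ma.primeFactors ∪ Mz.primeFactors := by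
    rw [← hM, Nat.primeFactors_mul hMa hMz]
  by_cases hx : x < p
  · have hx' : ¬ p ≤ x := by omega
    by_cases ha : p ∈ Ma.primeFactors
    · have hpp := Nat.prime_of_mem_primeFactors ha
      have hz' : p ∉ Mz.primeFactors := fun h5 => by
        have := Nat.Coprime.disjoint_primeFactors hcop
        exact (Finset.disjoint_left.1 this) ha h5
      have hm : p ∈ M.primeFactors := by rw [hMf]; exact mem_union_left _ ha
      simp only [hm, ha, if_true, hx', not_false_eq_true]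
      rw [hz hMz hH hz', Nat.zero_sub, add_zero]
      unfold FL.ellE AwE
      simp only [hx, if_true]
      rw [FL.ctr_eq d1 d2 hg.1 hpp hx.le, Nat.factorization_mul hh0' hv0, Finsupp.add_apply,
        hz hMz hv hz', add_zero]
      cases F.ctr (h' * v) p <;> rfl
    · by_cases hb : p ∈ Mz.primeFactors
      · have hpp := Nat.prime_of_mem_primeFactors hb
        have hm : p ∈ M.primeFactors := by rw [hMf]; exact mem_union_right _ hb
        simp only [hm, ha, if_true, if_false, hx', not_false_eq_true, zero_add]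
        unfold FL.ellE
        simp only [hx, if_true]
        rw [← FL.ctr_eq d1 d2 hg.1 hpp hx.le, Nat.factorization_mul hh0' hv0, Finsupp.add_apply,
          hz hMa hh' ha, zero_add]
        cases hc : F.ctr (h * u) p with
        | none =>
          simp only
          have h5 := hg.1 p hpp hx hc
          rw [Nat.factorization_mul hh0 hu0, Nat.factorization_mul hh0' hv0, Finsupp.add_apply,
            Finsupp.add_apply, hz hMa hh ha, hz hMa hh' ha] at h5
          have h6 := hl p hb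
          omega
        | some v0 =>
          simp only
          have h5 : v0 = H.factorization p := by
            by_contra h7
            refine he ⟨p, ?_⟩
            unfold MM
            rw [mem_filter]
            exact ⟨hb, hx, v0, hc, h7⟩
          rw [h5]
      · have hm : p ∉ M.primeFactors := by
          rw [hMf, mem_union]; tauto
        simp only [hm, ha, if_false, zero_add]
        rw [hz hMz hH hb, Nat.zero_sub, ite_self]
  · have hx' : p ≤ x := by omega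
    unfold FL.ellE AwE
    simp [hx, hx']

lemma Aw_le {F : FL M} {x h h' Ma Mz u v : ℕ} (hM : Ma * Mz = M) (hM0 : M ≠ 0)
    (hcop : Nat.Coprime Ma Mz) (hh : h ∣ Ma) (hh' : h' ∣ Ma) (hu : u ∣ Mz)
    (hv : v ∣ Mz) (hg : F.good x (h * u) (h' * v)) : Aw F x Ma (h * u) h' ≤ DD Ma h h' := by
  have hMz : Mz ≠ 0 := by rintro rfl; simp at hM; exact hM0 hM.symm
  have hMa : Ma ≠ 0 := by rintro rfl; simp at hM; exact hM0 hM.symm
  have hu0 : u ≠ 0 := ne_zero_of_dvd_ne_zero hMz hu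
  have hv0 : v ≠ 0 := ne_zero_of_dvd_ne_zero hMz hv
  have hh0 : h ≠ 0 := ne_zero_of_dvd_ne_zero hMa hh
  have hh0' : h' ≠ 0 := ne_zero_of_dvd_ne_zero hMa hh'
  unfold Aw DD
  refine Finset.prod_le_prod' fun p hp => ?_
  have hpp := Nat.prime_of_mem_primeFactors hp
  refine Nat.pow_le_pow_right hpp.pos ?_
  have hz' : p ∉ Mz.primeFactors := fun h5 => by
    have := Nat.Coprime.disjoint_primeFactors hcop
    exact (Finset.disjoint_left.1 this) hp h5
  have zu : u.factorization p = 0 := FL.fact_zero (M := Mz) (Nat.pos_of_ne_zero hMz) hu hz'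
  have zv : v.factorization p = 0 := FL.fact_zero (M := Mz) (Nat.pos_of_ne_zero hMz) hv hz'
  unfold AwE
  by_cases hx : x < p
  · simp only [hx, if_true]
    cases hc : F.ctr (h * u) p with
    | none => simp
    | some v0 =>
      simp only
      have h5 := hg.2 p hpp hx v0 hc
      rw [Nat.factorization_mul hh0 hu0, Nat.factorization_mul hh0' hv0, Finsupp.add_apply,
        Finsupp.add_apply, zu, zv] at h5
      unfold dst
      omega
  · simp [hx]

lemma FF_le_DD {κ δ c : ℝ} (hδ0 : 0 < δ) {p0 : ℕ} (hc : 0 < c)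
    (hX : ∀ p : ℕ, p0 ≤ p → c * X1 κ δ p ≤ 1 / 2)
    (Ma h h' : ℕ) : FF δ (gg κ δ c p0) Ma h h' ≤ (DD Ma h h' : ℝ) ^ (-δ) := by
  unfold FF DD
  push_cast
  rw [← Real.finsetProd_rpow]
  · refine Finset.prod_le_prod (fun p hp => ?_) fun p hp => ?_
    · split_ifs
      · unfold gg
        split_ifs with h1
        · have := hX p h1; linarith
        · norm_num
      · positivity
    · split_ifs with h1
      · rw [h1, dst_self, pow_zero, Real.one_rpow]
        unfold gg
        split_ifs with h1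
        · have : 0 ≤ X1 κ δ p := by unfold X1; positivity
          have : 0 ≤ c * X1 κ δ p := by positivity
          linarith
        · exact le_rfl
      · rw [← Real.rpow_natCast, ← Real.rpow_mul (Nat.cast_nonneg _)]
        refine le_of_eq ?_
        congr 1
        ring
  · intro p _
    positivity

/-! ## the leaf hypothesis -/

/-- the pair relation -/
noncomputable def KK (F : FL M) (x : ℕ) (R : ℕ → ℕ → Prop) (b c : ℕ) : ℝ :=
  if F.good x b c ∧ R b (F.ell x c) then 1 else 0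

lemma KK_nonneg (F : FL M) (x : ℕ) (R : ℕ → ℕ → Prop) (b c : ℕ) : 0 ≤ KK F x R b c := by
  unfold KK; split_ifs <;> norm_num

lemma KK_le_one (F : FL M) (x : ℕ) (R : ℕ → ℕ → Prop) (b c : ℕ) : KK F x R b c ≤ 1 := by
  unfold KK; split_ifs <;> norm_num

/-- third kind of pairs -/
def Q3 (F : FL M) (x Ma h h' : ℕ) (R : ℕ → ℕ → Prop) (H u v : ℕ) : Prop :=
  Aw F x Ma (h * u) h' ≤ DD Ma h h' ∧ R (h * u) (Aw F x Ma (h * u) h' * upp x (ld H v))

lemma trichotomy {F : FL M} {x h h' Ma Mz H u v : ℕ} {R : ℕ → ℕ → Prop} (hM : Ma * Mz = M)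
    (hM0 : M ≠ 0)
    (hcop : Nat.Coprime Ma Mz) (hh : h ∣ Ma) (hh' : h' ∣ Ma) (hH : H ∣ Mz) (hu : u ∣ Mz)
    (hv : v ∣ Mz) (hg : F.good x (h * u) (h' * v)) (hl : lvl Mz H u v)
    (hR : R (h * u) (F.ell x (h' * v))) :
    Bad F x h Mz H u ∨ Bad F x h' Mz H v ∨ Q3 F x Ma h h' R H u v := by
  have hMz : Mz ≠ 0 := by rintro rfl; simp at hM; exact hM0 hM.symm
  have hMa : Ma ≠ 0 := by rintro rfl; simp at hM; exact hM0 hM.symm
  have hu0 : u ≠ 0 := ne_zero_of_dvd_ne_zero hMz hu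
  have hv0 : v ≠ 0 := ne_zero_of_dvd_ne_zero hMz hv
  have hh0 : h ≠ 0 := ne_zero_of_dvd_ne_zero hMa hh
  have hh0' : h' ≠ 0 := ne_zero_of_dvd_ne_zero hMa hh'
  have d1 : h * u ∣ M := hM ▸ Nat.mul_dvd_mul hh hu
  have d2 : h' * v ∣ M := hM ▸ Nat.mul_dvd_mul hh' hv
  by_cases he : (MM F x h Mz H u).Nonempty
  · have hc : ∀ q, q.Prime → x < q → F.ctr (h * u) q = F.ctr (h' * v) q := fun q hq hxq =>
      FL.ctr_eq d1 d2 hg.1 hq hxq.le
    have hMM : MM F x h Mz H u = MM F x h' Mz H v := by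
      unfold MM
      refine Finset.filter_congr fun q hq => ?_
      have hqp := Nat.prime_of_mem_primeFactors hq
      constructor
      · rintro ⟨h1, h2⟩
        exact ⟨h1, by rw [← hc q hqp h1]; exact h2⟩
      · rintro ⟨h1, h2⟩
        exact ⟨h1, by rw [hc q hqp h1]; exact h2⟩
    have hmm : mm F x h Mz H u = mm F x h' Mz H v := by unfold mm; rw [hMM]
    have h1 := mm_mem he
    set p := mm F x h Mz H u with hp
    have h2 : p ∈ MM F x h Mz H u := h1
    unfold MM at h2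
    rw [mem_filter] at h2
    obtain ⟨hpm, hxp, v0, hv0c, hv0'⟩ := h2
    have hpp := Nat.prime_of_mem_primeFactors hpm
    have hpa : p ∉ Ma.primeFactors := fun h5 =>
      (Finset.disjoint_left.1 (Nat.Coprime.disjoint_primeFactors hcop)) h5 hpm
    have za : h.factorization p = 0 := FL.fact_zero (M := Ma) (Nat.pos_of_ne_zero hMa) hh hpa
    have za' : h'.factorization p = 0 := FL.fact_zero (M := Ma) (Nat.pos_of_ne_zero hMa) hh' hpa
    have h5 := hg.2 p hpp hxp v0 hv0c
    rw [Nat.factorization_mul hh0 hu0, Nat.factorization_mul hh0' hv0, Finsupp.add_apply,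
      Finsupp.add_apply, za, za', zero_add, zero_add] at h5
    rcases h5 with h5 | h5
    · left
      refine ⟨he, ?_⟩
      rw [← hp, h5]; exact hv0c
    · right; left
      refine ⟨hMM ▸ he, ?_⟩
      rw [← hmm, h5, ← hc p hpp hxp]; exact hv0c
  · right; right
    refine ⟨Aw_le hM hM0 hcop hh hh' hu hv hg, ?_⟩
    rw [← ell_eq hM hM0 hcop hh hh' hH hu hv hg hl he]
    exact hR

/-- **the relation `good ∧ R` in an arbitrary model** with `DD ≤ x` -/
lemma rhoB {F : FL M} {x h h' Ma Mz H : ℕ} {R : ℕ → ℕ → Prop} {ρ : ℝ} (hM : Ma * Mz = M)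
    (hM0 : M ≠ 0) (hx : 0 < x) (hρ : 0 ≤ ρ)
    (hcop : Nat.Coprime Ma Mz) (hh : h ∣ Ma) (hh' : h' ∣ Ma) (hH : H ∣ Mz)
    (hD : DD Ma h h' ≤ x)
    (hR : ∀ b, b ∣ M → ∀ N : ℕ,
      (((Finset.Icc 1 N).filter (fun n => Rough x n ∧ R b n)).card : ℝ) ≤ ρ * N) :
    RhoB Mz H (fun u v => KK F x R (h * u) (h' * v)) (12 / (x : ℝ) + 2 * Sm x * ρ) := by
  have hMz : Mz ≠ 0 := by rintro rfl; simp at hM; exact hM0 hM.symm
  have hMz0 : 0 < Mz := Nat.pos_of_ne_zero hMz
  have hMa : Ma ≠ 0 := by rintro rfl; simp at hM; exact hM0 hM.symm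
  have hH0 : H ≠ 0 := ne_zero_of_dvd_ne_zero hMz hH
  have hx0 : (0 : ℝ) < x := by exact_mod_cast hx
  intro i j
  have hSm := Sm_nonneg x
  set U := Mz.divisors.filter (fun b => Nat.log 2 (H / Nat.gcd H b) = i) with hU
  set V := Mz.divisors.filter (fun b => Nat.log 2 (H / Nat.gcd H b) = j) with hV
  have hUm : ∀ u ∈ U, u ∣ Mz := fun u hu => (Nat.mem_divisors.1 (mem_filter.1 hu).1).1
  have hVm : ∀ u ∈ V, u ∣ Mz := fun u hu => (Nat.mem_divisors.1 (mem_filter.1 hu).1).1
  have hw := w_nonneg Mz H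
  -- pointwise
  have hpt : ∀ u ∈ U, ∀ v ∈ V,
      (if lvl Mz H u v then ((Nat.gcd H u : ℝ) * nu Mz u) * ((Nat.gcd H v : ℝ) * nu Mz v) *
        KK F x R (h * u) (h' * v) else 0) ≤
      (if Bad F x h Mz H u then w Mz H u else 0) * w Mz H v +
      w Mz H u * (if Bad F x h' Mz H v then w Mz H v else 0) +
      w Mz H u * (if Q3 F x Ma h h' R H u v then w Mz H v else 0) := by
    intro u hu v hv
    have hwu := hw u
    have hwv := hw v
    have n1 : 0 ≤ (if Bad F x h Mz H u then w Mz H u else 0) := by split_ifs <;> simp [hwu]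
    have n2 : 0 ≤ (if Bad F x h' Mz H v then w Mz H v else 0) := by split_ifs <;> simp [hwv]
    have n3 : 0 ≤ (if Q3 F x Ma h h' R H u v then w Mz H v else 0) := by
      split_ifs <;> simp [hwv]
    have m1 := mul_nonneg n1 hwv
    have m2 := mul_nonneg hwu n2
    have m3 := mul_nonneg hwu n3
    by_cases h1 : lvl Mz H u v
    · rw [if_pos h1]
      unfold KK
      by_cases hg : F.good x (h * u) (h' * v) ∧ R (h * u) (F.ell x (h' * v))
      · rw [if_pos hg, mul_one]
        have e : (Nat.gcd H u : ℝ) * nu Mz u * ((Nat.gcd H v : ℝ) * nu Mz v) =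
            w Mz H u * w Mz H v := rfl
        rw [e]
        rcases trichotomy hM hM0 hcop hh hh' hH (hUm u hu) (hVm v hv) hg.1 h1 hg.2 with h2 | h2 | h2
        · rw [if_pos h2] at m1 ⊢
          linarith
        · rw [if_pos h2] at m2 ⊢
          linarith
        · rw [if_pos h2] at m3 ⊢
          linarith
      · rw [if_neg hg, mul_zero]
        linarith
    · rw [if_neg h1]
      linarith
  have hboxU : ∑ u ∈ U, w Mz H u ≤ 2 ^ i := w_box hMz0 hH i
  have hboxV : ∑ u ∈ V, w Mz H u ≤ 2 ^ j := w_box hMz0 hH j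
  have hbadU : ∑ u ∈ U, (if Bad F x h Mz H u then w Mz H u else 0) ≤ 6 / (x : ℝ) * 2 ^ i := by
    rw [← sum_filter, hU, filter_filter]
    exact sum_bad hM hM0 hh hH hx i
  have hbadV : ∑ u ∈ V, (if Bad F x h' Mz H u then w Mz H u else 0) ≤ 6 / (x : ℝ) * 2 ^ j := by
    rw [← sum_filter, hV, filter_filter]
    exact sum_bad hM hM0 hh' hH hx j
  have hq : ∀ u ∈ U, ∑ v ∈ V, (if Q3 F x Ma h h' R H u v then w Mz H v else 0) ≤
      2 * Sm x * ρ * 2 ^ j := by
    intro u hu
    by_cases hA : Aw F x Ma (h * u) h' ≤ DD Ma h h'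
    · have hA0 := Aw_pos F x Ma (h * u) h'
      have hAR := Aw_rough F x Ma (h * u) h'
      have hA1 : Aw F x Ma (h * u) h' = 1 := by
        by_contra hne
        obtain ⟨p, hp, hpd⟩ := Nat.exists_prime_and_dvd hne
        have h5 := hAR p hp hpd
        have h6 := Nat.le_of_dvd hA0 hpd
        omega
      have hbM : h * u ∣ M := hM ▸ Nat.mul_dvd_mul hh (hUm u hu)
      have hcnt := count_le (R := R (h * u)) hA0 hAR hρ (hR _ hbM) j
      have hs : ∑ v ∈ V, (if Q3 F x Ma h h' R H u v then w Mz H v else 0) ≤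
          (((Finset.Ico (2 ^ j) (2 ^ (j + 1))).filter
            (fun l => R (h * u) (Aw F x Ma (h * u) h' * upp x l))).card : ℝ) := by
        rw [← sum_filter, hV, filter_filter]
        refine w_set hMz0 hH _ _ fun v hv hvv => ?_
        rw [mem_filter, Finset.mem_Ico]
        refine ⟨?_, hvv.2.2⟩
        have h3 : Nat.log 2 (ld H v) = j := hvv.1
        rw [← h3]
        exact ⟨Nat.pow_log_le_self 2 (ld_pos (Nat.pos_of_ne_zero hH0)).ne',
          Nat.lt_pow_succ_log_self (by norm_num) _⟩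
      refine (hs.trans hcnt).trans ?_
      rw [hA1, Nat.cast_one, pow_succ]
      exact le_of_eq (by ring)
    · have : ∑ v ∈ V, (if Q3 F x Ma h h' R H u v then w Mz H v else 0) = 0 := by
        refine Finset.sum_eq_zero fun v _ => ?_
        rw [if_neg]
        intro h5
        exact hA h5.1
      rw [this]
      positivity
  calc _ ≤ ∑ u ∈ U, ∑ v ∈ V, ((if Bad F x h Mz H u then w Mz H u else 0) * w Mz H v +
        w Mz H u * (if Bad F x h' Mz H v then w Mz H v else 0) +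
        w Mz H u * (if Q3 F x Ma h h' R H u v then w Mz H v else 0)) :=
        sum_le_sum fun u hu => sum_le_sum fun v hv => hpt u hu v hv
    _ = (∑ u ∈ U, (if Bad F x h Mz H u then w Mz H u else 0)) * (∑ v ∈ V, w Mz H v) +
        (∑ u ∈ U, w Mz H u) * (∑ v ∈ V, (if Bad F x h' Mz H v then w Mz H v else 0)) +
        ∑ u ∈ U, w Mz H u * ∑ v ∈ V, (if Q3 F x Ma h h' R H u v then w Mz H v else 0) := by
        rw [sum_mul_sum, sum_mul_sum, ← sum_add_distrib, ← sum_add_distrib]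
        refine sum_congr rfl fun u _ => ?_
        rw [sum_add_distrib, sum_add_distrib, mul_sum]
    _ ≤ 6 / (x : ℝ) * 2 ^ i * 2 ^ j + 2 ^ i * (6 / (x : ℝ) * 2 ^ j) +
        2 ^ i * (2 * Sm x * ρ * 2 ^ j) := by
        have s1 : 0 ≤ ∑ v ∈ V, w Mz H v := sum_nonneg fun v _ => hw v
        have s2 : 0 ≤ ∑ v ∈ V, (if Bad F x h' Mz H v then w Mz H v else 0) :=
          sum_nonneg fun v _ => by split_ifs <;> simp [hw v]
        refine add_le_add (add_le_add ?_ ?_) ?_
        · exact mul_le_mul hbadU hboxV s1 (by positivity)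
        · exact mul_le_mul hboxU hbadV s2 (by positivity)
        · calc _ ≤ ∑ u ∈ U, w Mz H u * (2 * Sm x * ρ * 2 ^ j) :=
              sum_le_sum fun u hu => mul_le_mul_of_nonneg_left (hq u hu) (hw u)
            _ = (∑ u ∈ U, w Mz H u) * (2 * Sm x * ρ * 2 ^ j) := (sum_mul _ _ _).symm
            _ ≤ _ := mul_le_mul_of_nonneg_right hboxU (by positivity)
    _ = _ := by ring

/-- **LEMMA III-R.**  Good pairs (above the cut `x`) with `R b (ell x c)`, where for every `b` the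
`x`-rough integers `n` with `R b n` have density `≤ ρ`: the energy at one scale gains
`(12/x + 2 Sm x ρ)^(1-κ) + x^(-δ)` (`1 - κ = (1-η)/2` for `2κ = 1 + η`). -/
theorem IIIR {κ : ℝ} (hκ : 1 / 2 < κ) (hκ1 : κ < 1) :
    ∃ δ C : ℝ, 0 < δ ∧ δ ≤ 1 ∧ 0 < C ∧
      ∀ (M : ℕ) (F : FL M) (x : ℕ) (X ρ : ℝ) (f f' : ℕ → ℝ) (R : ℕ → ℕ → Prop), M ≠ 0 → 0 < x →
      0 < X → 0 ≤ ρ →
      (∀ b, 0 ≤ f b) → (∀ b, f b ≤ 1) → (∀ b, 0 ≤ f' b) → (∀ b, f' b ≤ 1) →
      (∀ b, b ∣ M → ∀ N : ℕ,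
        (((Finset.Icc 1 N).filter (fun n => Rough x n ∧ R b n)).card : ℝ) ≤ ρ * N) →
      ∑ b ∈ M.divisors, ∑ c ∈ M.divisors,
        (if X < (Nat.gcd b c : ℝ) ∧ (Nat.gcd b c : ℝ) ≤ 2 * X then
          (Nat.gcd b c : ℝ) * nu M b * nu M c * (f b * f' c *
            (if F.good x b c ∧ R b (F.ell x c) then 1 else 0))
        else 0) ≤ C * X ^ (2 * κ - 1) *
          ((12 / (x : ℝ) + 2 * Sm x * ρ) ^ (1 - κ) + (x : ℝ) ^ (-δ)) *
          ((∑ b ∈ M.divisors, nu M b * f b) ^ κ * (∑ b ∈ M.divisors, nu M b * f' b) ^ κ) := by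
  obtain ⟨δ, hδ0, hδ⟩ := exists_delta hκ hκ1
  obtain ⟨c, C, p0, hc, hC, hX, h⟩ := thmR_b hκ hκ1 hδ0 hδ
  have hδκ : δ ≤ 1 - κ := by
    by_contra hcon
    have h1 := not_le.1 hcon
    have : (1 - κ) * (2 * κ) < δ * (2 * κ) := mul_lt_mul_of_pos_right h1 (by linarith)
    nlinarith
  refine ⟨δ, C, hδ0, by linarith, hC, ?_⟩
  intro M F x X ρ f f' R hM hx hX0 hρ hf hf1 hf' hf1' hR
  have hx0 : (0 : ℝ) < x := by exact_mod_cast hx
  have hSm := Sm_nonneg x
  have hr0 : 0 ≤ 12 / (x : ℝ) + 2 * Sm x * ρ := by positivity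
  have hV1 : 0 ≤ (12 / (x : ℝ) + 2 * Sm x * ρ) ^ (1 - κ) := by positivity
  have hV2 : 0 ≤ (x : ℝ) ^ (-δ) := by positivity
  refine h M X ((12 / (x : ℝ) + 2 * Sm x * ρ) ^ (1 - κ) + (x : ℝ) ^ (-δ)) f f' (KK F x R) hM hX0
    (by positivity) hf hf1 hf' hf1' (KK_nonneg F x R) (KK_le_one F x R) ?_
  intro Ma Mz H h h' hMM hcop hh hh' hH
  have hMz : Mz ≠ 0 := by rintro rfl; simp at hMM; exact hM hMM.symm
  have hFF := FF_le_DD (κ := κ) hδ0 hc hX Ma h h'
  have hFF0 : 0 ≤ FF δ (gg κ δ c p0) Ma h h' := FF_nonneg hX Ma h h'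
  have hFF1 : FF δ (gg κ δ c p0) Ma h h' ≤ 1 := FF_le_one hδ0 hc hX Ma h h'
  rcases le_or_gt (DD Ma h h') x with hD | hD
  · refine ⟨12 / (x : ℝ) + 2 * Sm x * ρ, hr0, rhoB hMM hM hx hρ hcop hh hh' hH hD hR, ?_⟩
    calc FF δ (gg κ δ c p0) Ma h h' * (12 / (x : ℝ) + 2 * Sm x * ρ) ^ (1 - κ)
        ≤ 1 * (12 / (x : ℝ) + 2 * Sm x * ρ) ^ (1 - κ) := mul_le_mul_of_nonneg_right hFF1 hV1
      _ ≤ _ := by rw [one_mul]; linarith
  · refine ⟨1, zero_le_one, RhoB_one hMz hH _ (fun _ _ => KK_nonneg _ _ _ _ _)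
      (fun _ _ => KK_le_one _ _ _ _ _), ?_⟩
    rw [Real.one_rpow, mul_one]
    have hD' : (x : ℝ) ≤ DD Ma h h' := by exact_mod_cast hD.le
    have h5 : (DD Ma h h' : ℝ) ^ (-δ) ≤ (x : ℝ) ^ (-δ) :=
      Real.rpow_le_rpow_of_nonpos hx0 hD' (by linarith)
    linarith

end Crest.Agent.R4C.IIIRx256
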