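import Crest.Agent.R4C.PairR_14

/-!
# Row 4, GW section: two light members are killed (helper473), notes 3754 (1), 3840, 3875 (1)(ii)

Pair `b = g s`, `c = g s'`, linked offset `h`, own scale `2^i` (`2^i L ≤ g`), `F.good (cut i) b c`.
Both members have tree centres of depth `≤ K` at scales `m, m' ≥ i` (NOT the same scale), `3 K² ≤ 2^i`.

* `gap_zero` : the two centres are the same point: `gap f f' s s' h = 0`.
* `light_kill_left` : a differing prime `r ∣ s'`, `K < r ≤ cut m'`, in an active block of `m`: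
  the pair is killed or `Alt F P m b f r`.   `light_kill_right` : the mirror image.
* `light_light` : both, with `K ≤ thr`: at the prime `r` the member missing it uses another fraction
  at a larger scale (the input of the heavy class).
-/

set_option autoImplicit false

namespace Crest.Agent.R4C.LightKillx473

open Crest.Agent.R4C.FLDefx935 Crest.Agent.R4C.BoostCx972 Crest.Agent.R4C.CrCoinx935
  Crest.Agent.R4C.S7cx14 Crest.Agent.R4C.S7dx14 Crest.Agent.R4C.Pairx14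
  Crest.Agent.R4C.PairRx14 Crest.Agent.R4C.Bridgex882 Crest.Agent.R4C.Rulex945

variable {M : ℕ} {F : FL M} {P : Par}

/-- at a cut `x` where the pair is good, `s f` has denominator dividing `k0 x b f` -/
lemma int_of_good {x y g s s' : ℕ} {f : ℚ} (hM : 0 < M) (hb : g * s ∣ M) (hc : g * s' ∣ M)
    (hcop : Nat.Coprime s s') (hx : F.good x (g * s) (g * s')) (hxy : x ≤ y) :
    ∃ N : ℤ, (s : ℚ) * f * (k0 F y (g * s) f : ℕ) = N := by
  have hb0 : 0 < g * s := Nat.pos_of_dvd_of_pos hb hM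
  have hg : 0 < g := Nat.pos_of_mul_pos_right hb0
  have e0 : Nat.gcd (g * s) (g * s') = g := by
    rw [Nat.gcd_mul_left, hcop.gcd_eq_one, mul_one]
  have h1 : g ∣ F.uu y (g * s) := by
    have := FL.good_gcd_dvd_uu hM hb hc (FL.good_mono hxy hx)
    rwa [e0] at this
  obtain ⟨u, hu⟩ := h1
  have h2 := FL.uu_mul_lam (F := F) (x := y) hM hb
  have h3 : s = u * F.lam y (g * s) := by
    have : g * s = g * (u * F.lam y (g * s)) := by
      conv_lhs => rw [← h2, hu]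
      ring
    exact Nat.eq_of_mul_eq_mul_left hg this
  obtain ⟨r, hr⟩ := (isC_k0 (F := F) y (g * s) f).2
  refine ⟨f.num * (r * u), ?_⟩
  have e1 : f * f.den = f.num := Rat.mul_den_eq_num f
  have e2 : ((k0 F y (g * s) f : ℕ) : ℚ) * (F.lam y (g * s) : ℕ) = (f.den : ℚ) * r := by
    exact_mod_cast hr
  calc (s : ℚ) * f * (k0 F y (g * s) f : ℕ)
      = u * f * (((k0 F y (g * s) f : ℕ) : ℚ) * (F.lam y (g * s) : ℕ)) := by
        have h4 : (s : ℚ) = (u : ℚ) * (F.lam y (g * s) : ℕ) := by exact_mod_cast h3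
        rw [h4]; ring
    _ = u * (f * f.den) * r := by rw [e2]; ring
    _ = ((f.num * (r * u) : ℤ) : ℚ) := by rw [e1]; push_cast; ring

/-- displacement against the depth -/
lemma dis_mul_le (hL : 0 < P.L) (m b : ℕ) (f : ℚ) :
    (k0 F (P.cut m) b f : ℝ) * ((b : ℝ) * |P.γ - f|) ≤ dep F P m b f * P.L := by
  unfold dep
  have h1 := k0_pos' (F := F) (P := P) m b f
  have h2 : (b : ℝ) * |P.γ - f| / P.L ≤ max 1 ((b : ℝ) * |P.γ - f| / P.L) := le_max_right _ _
  have h4 : (b : ℝ) * |P.γ - f| = (b : ℝ) * |P.γ - f| / P.L * P.L := by field_simp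
  calc (k0 F (P.cut m) b f : ℝ) * ((b : ℝ) * |P.γ - f|)
      = (k0 F (P.cut m) b f : ℝ) * ((b : ℝ) * |P.γ - f| / P.L) * P.L := by
        conv_lhs => rw [h4]
        ring
    _ ≤ (k0 F (P.cut m) b f : ℝ) * max 1 ((b : ℝ) * |P.γ - f| / P.L) * P.L := by
        refine mul_le_mul_of_nonneg_right ?_ hL.le
        exact mul_le_mul_of_nonneg_left h2 (by linarith)

/-- **the two centres are the same point** -/
theorem gap_zero {i m m' g s s' : ℕ} {f f' : ℚ} {h : ℤ} {K : ℝ} (hL : 0 < P.L) (hM : 0 < M)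
    (hcut : Monotone P.cut) (hb : g * s ∣ M) (hc : g * s' ∣ M) (hcop : Nat.Coprime s s')
    (hx : F.good (P.cut i) (g * s) (g * s')) (him : i ≤ m) (him' : i ≤ m')
    (hg1 : (2 : ℝ) ^ i * P.L ≤ g) (hl : |((s : ℝ) - s') * P.γ + h| < P.L / g)
    (hd : dep F P m (g * s) f ≤ K) (hd' : dep F P m' (g * s') f' ≤ K)
    (hK : 3 * K ^ 2 ≤ (2 : ℝ) ^ i) : gap f f' s s' h = 0 := by
  have hb0 : 0 < g * s := Nat.pos_of_dvd_of_pos hb hM
  have hg : 0 < g := Nat.pos_of_mul_pos_right hb0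
  have hgR : (0 : ℝ) < g := by exact_mod_cast hg
  have h2i : (0 : ℝ) < 2 ^ i := by positivity
  set k := k0 F (P.cut m) (g * s) f with hk
  set k' := k0 F (P.cut m') (g * s') f' with hk'
  have k1 : (1 : ℝ) ≤ k := k0_pos' m (g * s) f
  have k1' : (1 : ℝ) ≤ k' := k0_pos' m' (g * s') f'
  have kK : (k : ℝ) ≤ K := (k0_le_dep m (g * s) f).trans hd
  have kK' : (k' : ℝ) ≤ K := (k0_le_dep m' (g * s') f').trans hd'
  obtain ⟨N, hN⟩ := int_of_good (f := f) hM hb hc hcop hx (hcut him)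
  obtain ⟨N', hN'⟩ := int_of_good (f := f') hM hc hb hcop.symm (FL.good_symm hb hc hx) (hcut him')
  rw [← hk] at hN
  rw [← hk'] at hN'
  -- `k k' gap` is an integer
  have eI : gap f f' s s' h * ((k : ℕ) * (k' : ℕ) : ℚ) = ((N * k' - N' * k + h * (k * k') : ℤ) : ℚ) := by
    unfold gap
    push_cast
    calc ((s : ℚ) * f - s' * f' + h) * ((k : ℚ) * k')
        = ((s : ℚ) * f * k) * k' - ((s' : ℚ) * f' * k') * k + h * (k * k') := by ring
      _ = _ := by rw [hN, hN']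
  set Z : ℤ := N * k' - N' * k + h * (k * k') with hZ
  -- size
  have hgapR : ((gap f f' s s' h : ℚ) : ℝ) =
      (((s : ℝ) - s') * P.γ + h) - (s : ℝ) * (P.γ - f) + (s' : ℝ) * (P.γ - f') := by
    unfold gap
    push_cast
    ring
  have hkp : (0 : ℝ) < (k : ℝ) * k' := by nlinarith
  have hD := dis_mul_le (F := F) (P := P) hL m (g * s) f
  have hD' := dis_mul_le (F := F) (P := P) hL m' (g * s') f'
  rw [← hk] at hD
  rw [← hk'] at hD'
  push_cast at hD hD'
  have hLg : P.L / g ≤ 1 / 2 ^ i := by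
    rw [div_le_div_iff₀ hgR h2i]; linarith
  have hsd : (k : ℝ) * ((s : ℝ) * |P.γ - f|) ≤ K * (1 / 2 ^ i) := by
    have h1 : (k : ℝ) * ((s : ℝ) * |P.γ - f|) = (k : ℝ) * ((g : ℝ) * s * |P.γ - f|) / g := by
      field_simp
    rw [h1]
    calc (k : ℝ) * ((g : ℝ) * s * |P.γ - f|) / g ≤ (K * P.L) / g := by
          refine div_le_div_of_nonneg_right (hD.trans ?_) hgR.le
          exact mul_le_mul_of_nonneg_right hd hL.le
      _ = K * (P.L / g) := by ring
      _ ≤ K * (1 / 2 ^ i) := mul_le_mul_of_nonneg_left hLg (by linarith)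
  have hsd' : (k' : ℝ) * ((s' : ℝ) * |P.γ - f'|) ≤ K * (1 / 2 ^ i) := by
    have h1 : (k' : ℝ) * ((s' : ℝ) * |P.γ - f'|) = (k' : ℝ) * ((g : ℝ) * s' * |P.γ - f'|) / g := by
      field_simp
    rw [h1]
    calc (k' : ℝ) * ((g : ℝ) * s' * |P.γ - f'|) / g ≤ (K * P.L) / g := by
          refine div_le_div_of_nonneg_right (hD'.trans ?_) hgR.le
          exact mul_le_mul_of_nonneg_right hd' hL.le
      _ = K * (P.L / g) := by ring
      _ ≤ K * (1 / 2 ^ i) := mul_le_mul_of_nonneg_left hLg (by linarith)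
  have hZR : (Z : ℝ) = ((gap f f' s s' h : ℚ) : ℝ) * ((k : ℝ) * k') := by
    exact_mod_cast eI.symm
  have hlt : |(Z : ℝ)| < 1 := by
    rw [hZR, hgapR, abs_mul, abs_of_pos hkp]
    have t1 : |(((s : ℝ) - s') * P.γ + h) - (s : ℝ) * (P.γ - f) + (s' : ℝ) * (P.γ - f')| ≤
        |((s : ℝ) - s') * P.γ + h| + (s : ℝ) * |P.γ - f| + (s' : ℝ) * |P.γ - f'| := by
      calc |(((s : ℝ) - s') * P.γ + h) - (s : ℝ) * (P.γ - f) + (s' : ℝ) * (P.γ - f')|
          ≤ |(((s : ℝ) - s') * P.γ + h) - (s : ℝ) * (P.γ - f)| + |(s' : ℝ) * (P.γ - f')| :=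
            abs_add_le _ _
        _ ≤ |((s : ℝ) - s') * P.γ + h| + |(s : ℝ) * (P.γ - f)| + |(s' : ℝ) * (P.γ - f')| := by
            gcongr
            exact abs_sub _ _
        _ = _ := by
            rw [abs_mul, abs_mul, Nat.abs_cast, Nat.abs_cast]
    have t2 : |((s : ℝ) - s') * P.γ + h| < 1 / 2 ^ i := hl.trans_le hLg
    have K0 : 0 < K := by linarith
    calc |(((s : ℝ) - s') * P.γ + h) - (s : ℝ) * (P.γ - f) + (s' : ℝ) * (P.γ - f')| *
          ((k : ℝ) * k')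
        ≤ (|((s : ℝ) - s') * P.γ + h| + (s : ℝ) * |P.γ - f| + (s' : ℝ) * |P.γ - f'|) *
          ((k : ℝ) * k') := mul_le_mul_of_nonneg_right t1 hkp.le
      _ = |((s : ℝ) - s') * P.γ + h| * ((k : ℝ) * k') +
          ((k : ℝ) * ((s : ℝ) * |P.γ - f|)) * k' + ((k' : ℝ) * ((s' : ℝ) * |P.γ - f'|)) * k := by
          ring
      _ < 1 / 2 ^ i * (K * K) + (K * (1 / 2 ^ i)) * K + (K * (1 / 2 ^ i)) * K := by
          have u1 : |((s : ℝ) - s') * P.γ + h| * ((k : ℝ) * k') < 1 / 2 ^ i * (K * K) := by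
            calc |((s : ℝ) - s') * P.γ + h| * ((k : ℝ) * k')
                < 1 / 2 ^ i * ((k : ℝ) * k') := mul_lt_mul_of_pos_right t2 hkp
              _ ≤ 1 / 2 ^ i * (K * K) := by
                  refine mul_le_mul_of_nonneg_left ?_ (by positivity)
                  exact mul_le_mul kK kK' (by linarith) K0.le
          have u2 : ((k : ℝ) * ((s : ℝ) * |P.γ - f|)) * k' ≤ (K * (1 / 2 ^ i)) * K :=
            mul_le_mul hsd kK' (by linarith) (by positivity)
          have u3 : ((k' : ℝ) * ((s' : ℝ) * |P.γ - f'|)) * k ≤ (K * (1 / 2 ^ i)) * K :=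
            mul_le_mul hsd' kK (by linarith) (by positivity)
          linarith
      _ = 3 * K ^ 2 / 2 ^ i := by ring
      _ ≤ 1 := by rw [div_le_one h2i]; exact hK
  have hZ0 : Z = 0 := by
    have : |Z| < 1 := by exact_mod_cast hlt
    exact Int.abs_lt_one_iff.1 this
  rw [hZ0, Int.cast_zero] at eI
  have hkq : ((k : ℕ) * (k' : ℕ) : ℚ) ≠ 0 := by
    have : (0 : ℚ) < (k : ℚ) * k' := by exact_mod_cast hkp
    exact this.ne'
  rcases mul_eq_zero.1 eI with h0 | h0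
  · exact h0
  · exact absurd h0 hkq

/-- common hypotheses of a pair of own scale `2^i` -/
structure LK (F : FL M) (P : Par) (i g s s' : ℕ) (h : ℤ) (K : ℝ) : Prop where
  hL : 0 < P.L
  hM : 0 < M
  hN : (M : ℝ) / P.L ≤ P.N
  hE : ∀ m, P.m0 ≤ m → 2 * P.E m ^ 3 < 2 ^ m
  hcut : Monotone P.cut
  hb : g * s ∣ M
  hc : g * s' ∣ M
  hcop : Nat.Coprime s s'
  good : F.good (P.cut i) (g * s) (g * s')
  m0 : P.m0 ≤ i
  scl : (2 : ℝ) ^ i * P.L ≤ g
  link : |((s : ℝ) - s') * P.γ + h| < P.L / g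
  unk : ¬ killedL (lamR F P) (g * s) (g * s') s s' h
  hK : 3 * K ^ 2 ≤ (2 : ℝ) ^ i

/-- the member `d` has a tree centre of depth `≤ K` at a scale `m ≥ i` -/
structure Lit (F : FL M) (P : Par) (i m d : ℕ) (f : ℚ) (K : ℝ) : Prop where
  im : i ≤ m
  tc : TC F P m d f
  dep : dep F P m d f ≤ K

theorem LK.gap {i m m' g s s' : ℕ} {f f' : ℚ} {h : ℤ} {K : ℝ} (H : LK F P i g s s' h K)
    (hb : Lit F P i m (g * s) f K) (hc : Lit F P i m' (g * s') f' K) :
    gap f f' s s' h = 0 :=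
  gap_zero H.hL H.hM H.hcut H.hb H.hc H.hcop H.good hb.im hc.im H.scl H.link hb.dep hc.dep H.hK

/-- **two light members, `r ∣ s'`** : killed or another fraction is used -/
theorem light_kill_left {i m m' g s s' r : ℕ} {f f' : ℚ} {h : ℤ} {K : ℝ}
    (H : LK F P i g s s' h K) (hb : Lit F P i m (g * s) f K) (hc : Lit F P i m' (g * s') f' K)
    (hr : r.Prime) (hrs : r ∣ s') (hKr : K < r) (hrm' : r ≤ P.cut m')
    (hact : P.Y (P.blk r) ≤ P.cut m) : Alt F P m (g * s) f r := by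
  have h0 := H.gap hb hc
  have hb0 : 0 < g * s := Nat.pos_of_dvd_of_pos H.hb H.hM
  have hc0 : 0 < g * s' := Nat.pos_of_dvd_of_pos H.hc H.hM
  have hg : 0 < g := Nat.pos_of_mul_pos_right hb0
  have hs : 0 < s := Nat.pos_of_mul_pos_left hb0
  have hs' : 0 < s' := Nat.pos_of_mul_pos_left hc0
  have hnk : ¬ r ∣ k0 F (P.cut m') (g * s') f' := by
    intro hd
    have h1 : (r : ℝ) ≤ k0 F (P.cut m') (g * s') f' := by
      exact_mod_cast Nat.le_of_dvd (k0_pos _ _ _) hd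
    have h2 := (k0_le_dep (F := F) (P := P) m' (g * s') f').trans hc.dep
    linarith
  have hal : r ∣ alC (g * s') (g * s) f' f :=
    expl_of_not_dvd H.hM H.hc hg hs H.hcop (isC_k0 (F := F) (P.cut m') (g * s') f') hr hrm' hrs hnk
  exact alt_left H.hL H.hM H.hN H.hE H.hb (H.m0.trans hb.im) hb.tc hact hr hg hs hs' H.hcop h0
    H.unk hal

/-- **two light members, `r ∣ s`** : killed or another fraction is used -/
theorem light_kill_right {i m m' g s s' r : ℕ} {f f' : ℚ} {h : ℤ} {K : ℝ}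
    (H : LK F P i g s s' h K) (hb : Lit F P i m (g * s) f K) (hc : Lit F P i m' (g * s') f' K)
    (hr : r.Prime) (hrs : r ∣ s) (hKr : K < r) (hrm : r ≤ P.cut m)
    (hact : P.Y (P.blk r) ≤ P.cut m') : Alt F P m' (g * s') f' r := by
  have h0 := H.gap hb hc
  have hb0 : 0 < g * s := Nat.pos_of_dvd_of_pos H.hb H.hM
  have hc0 : 0 < g * s' := Nat.pos_of_dvd_of_pos H.hc H.hM
  have hg : 0 < g := Nat.pos_of_mul_pos_right hb0
  have hs : 0 < s := Nat.pos_of_mul_pos_left hb0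
  have hs' : 0 < s' := Nat.pos_of_mul_pos_left hc0
  have hnk : ¬ r ∣ k0 F (P.cut m) (g * s) f := by
    intro hd
    have h1 : (r : ℝ) ≤ k0 F (P.cut m) (g * s) f := by
      exact_mod_cast Nat.le_of_dvd (k0_pos _ _ _) hd
    have h2 := (k0_le_dep (F := F) (P := P) m (g * s) f).trans hb.dep
    linarith
  have hal : r ∣ alC (g * s) (g * s') f f' :=
    expl_of_not_dvd H.hM H.hb hg hs' H.hcop.symm (isC_k0 (F := F) (P.cut m) (g * s) f) hr hrm hrs
      hnk
  exact alt_right H.hL H.hM H.hN H.hE H.hc (H.m0.trans hc.im) hc.tc hact hr hg hs hs' H.hcop h0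
    H.unk hal

/-- the conflict branch of `Alt` when the depth is below the threshold -/
lemma conf_of_alt {m b p : ℕ} {f : ℚ} {K : ℝ} (h : Alt F P m b f p)
    (hd : dep F P m b f ≤ K) (hthr : K ≤ P.thr b (P.blk p)) :
    ∃ (m₂ : ℕ) (f₂ : ℚ), m < m₂ ∧ f ≠ f₂ ∧ TC F P m₂ b f₂ ∧
      dep F P m₂ b f₂ ≤ P.thr b (P.blk p) ∧ Fc F P b p = some f₂ ∧
      P.Y (P.blk p) ≤ P.cut m₂ := by
  rcases h with h | h
  · exact absurd h (not_lt.2 (hd.trans hthr))
  · exact h

/-- **two light members, no heavy word: killed**, `b`-language.  `r` differs, `K < r`, `r` below both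
cuts; `K ≤ thr` at the member missing `r`.  Conclusion: the member missing `r` uses another fraction
at a larger scale. -/
theorem light_light {i m m' b c r : ℕ} {f f' : ℚ} {h : ℤ} {K : ℝ}
    (hL : 0 < P.L) (hM : 0 < M) (hN : (M : ℝ) / P.L ≤ P.N)
    (hE : ∀ m, P.m0 ≤ m → 2 * P.E m ^ 3 < 2 ^ m) (hcut : Monotone P.cut)
    (hbend : ∀ m, ∃ i, P.cut m = P.Y i) (hY : StrictMono P.Y)
    (hb : b ∣ M) (hc : c ∣ M) (hgood : F.good (P.cut i) b c) (hi : P.m0 ≤ i)
    (hscl : (2 : ℝ) ^ i * P.L ≤ (Nat.gcd b c : ℕ)) (hl : h ∈ Lnk P.γ P.L b c)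
    (hk : ¬ killedB (lamR F P) b c h) (hK : 3 * K ^ 2 ≤ (2 : ℝ) ^ i)
    (tb : Lit F P i m b f K) (tc : Lit F P i m' c f' K)
    (hr : r.Prime) (hrs : r ∣ b / Nat.gcd b c ∨ r ∣ c / Nat.gcd b c) (hKr : K < r)
    (hrm : r ≤ P.cut m) (hrm' : r ≤ P.cut m')
    (hthr : K ≤ P.thr b (P.blk r)) (hthr' : K ≤ P.thr c (P.blk r)) :
    gap f f' (b / Nat.gcd b c) (c / Nat.gcd b c) h = 0 ∧
    ((r ∣ c / Nat.gcd b c ∧ ∃ (m₂ : ℕ) (f₂ : ℚ), m < m₂ ∧ f ≠ f₂ ∧ TC F P m₂ b f₂ ∧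
      dep F P m₂ b f₂ ≤ P.thr b (P.blk r) ∧ Fc F P b r = some f₂ ∧ P.Y (P.blk r) ≤ P.cut m₂) ∨
    (r ∣ b / Nat.gcd b c ∧ ∃ (m₂ : ℕ) (f₂ : ℚ), m' < m₂ ∧ f' ≠ f₂ ∧ TC F P m₂ c f₂ ∧
      dep F P m₂ c f₂ ≤ P.thr c (P.blk r) ∧ Fc F P c r = some f₂ ∧
      P.Y (P.blk r) ≤ P.cut m₂)) := by
  have hb0 : 0 < b := Nat.pos_of_dvd_of_pos hb hM
  have hc0 : 0 < c := Nat.pos_of_dvd_of_pos hc hM
  set g := Nat.gcd b c with hg
  have hg0 : 0 < g := Nat.gcd_pos_of_pos_left _ hb0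
  obtain ⟨s, hs⟩ : g ∣ b := Nat.gcd_dvd_left b c
  obtain ⟨s', hs'⟩ : g ∣ c := Nat.gcd_dvd_right b c
  have es : b / g = s := by
    conv_lhs => rw [hs]
    exact Nat.mul_div_cancel_left s hg0
  have es' : c / g = s' := by
    conv_lhs => rw [hs']
    exact Nat.mul_div_cancel_left s' hg0
  have hcop : Nat.Coprime s s' := by
    have := Nat.coprime_div_gcd_div_gcd (m := b) (n := c) hg0
    rwa [← hg, es, es'] at this
  have hlink : |((s : ℝ) - s') * P.γ + h| < P.L / g := by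
    have h1 := hl
    unfold Lnk at h1
    rw [← hg, es, es'] at h1
    exact CrCountx935.mem_Hf.1 h1
  have hk' : ¬ killedL (lamR F P) (g * s) (g * s') s s' h := by
    intro hc2
    apply hk
    rw [killedB_iff, ← hg, es, es']
    rwa [← hs, ← hs'] at hc2
  have H : LK F P i g s s' h K := by
    refine ⟨hL, hM, hN, hE, hcut, hs ▸ hb, hs' ▸ hc, hcop, ?_, hi, hscl, hlink, hk', hK⟩
    rw [← hs, ← hs']
    exact hgood
  have tb' : Lit F P i m (g * s) f K := by rw [← hs]; exact tb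
  have tc' : Lit F P i m' (g * s') f' K := by rw [← hs']; exact tc
  rw [es, es'] at hrs ⊢
  refine ⟨H.gap tb' tc', ?_⟩
  obtain ⟨j, hj⟩ := hbend m
  obtain ⟨j', hj'⟩ := hbend m'
  have a1 := Par.act_of_le hY hj hrm
  have a2 := Par.act_of_le hY hj' hrm'
  rcases hrs with h1 | h1
  · right
    refine ⟨h1, ?_⟩
    have := light_kill_right H tb' tc' hr h1 hKr hrm a2
    rw [← hs'] at this
    exact conf_of_alt this tc.dep hthr'
  · left
    refine ⟨h1, ?_⟩
    have := light_kill_left H tb' tc' hr h1 hKr hrm' a1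
    rw [← hs] at this
    exact conf_of_alt this tb.dep hthr

end Crest.Agent.R4C.LightKillx473
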