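import Crest.Agent.R4C.Split_945
import Crest.Agent.R4C.SpineDef_946
import Crest.Agent.R4C.LightKill_473
import Crest.Agent.R4C.GapRule_529

/-!
# Row 4, GW section, leaf (F2b): two light members in grid form (helper264)

A pair `b, c` of own scale `2^i` (case A, `FarA`), any low word, linked offset `h`, NOT killed.  Both
members are LIGHT in grid form: at a live index `jb` (`2^jb L ≤ uu (cut jb) b`) with at least one
letter of `b` in `(cut i, cut jb]` (`uu (cut i) b < uu (cut jb) b`) some fraction has depth `< K`;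
the same for `c` at `jc`.  Then the pair is in the heavy class `CHvy` (`kill_far`).

* `lam_dvd_cof` : `lam x b ∣ b / gcd b c` for a good pair;
* `kill_far` : general `P`, threshold as a hypothesis;  `kill_far_on` : hypotheses in the `On` form;
* `thr_ge` : `2^(i/8) ≤ thr` at every prime `> cut i` for `ParOf`;
* `kill_par` : everything at `ParOf`, `K ≤ 2^(i/8)`;
* `kill_par'` : the vector form (`K ≤ E jb`, `K ≤ E jc` at the next indices), `on_scale` : factor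
  `κ` in the scale = factor `κ` in the depth;
* `NextW`, `kill_far_w` : both members light at their next nodes of a world whose scale is the true
  one up to a factor `κ` (true scale `≥ 1/2` of the world scale);
* `uu_lt_of_nd` : at a node index (`uu (cut i) b < 2^(i+1) L`) a live index `j > i` has
  `uu (cut i) b < uu (cut j) b`.
-/

set_option autoImplicit false

namespace Crest.Agent.R4C.Trix264

open Crest.Agent.R4C.FLDefx935 Crest.Agent.R4C.BoostCx972 Crest.Agent.R4C.CrCoinx935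
  Crest.Agent.R4C.CrCountx935 Crest.Agent.R4C.Bridgex882
  Crest.Agent.R4C.S7cx14 Crest.Agent.R4C.S7dx14 Crest.Agent.R4C.Cutx50
  Crest.Agent.R4C.PairRx14 Crest.Agent.R4C.Rulex945 Crest.Agent.R4C.Splitx945
  Crest.Agent.R4C.LightKillx473 Crest.Agent.R4C.GapRulex529 Crest.Agent.R4C.Spinex946
  Crest.Agent.R4C.NHx656
open Crest.Agent.R4C.FLExx326 (ind)
open Crest.Agent.R4C.Hclsx81 (HvK)

variable {M : ℕ} {F : FL M} {P : Par} {w : ℕ → ℝ} {δ ε : ℝ} {D : ℕ → ℝ}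

/-- for a good pair the excess word of `b` divides the cofactor -/
lemma lam_dvd_cof {x b c : ℕ} (hM : 0 < M) (hb : b ∣ M) (hc : c ∣ M) (hx : F.good x b c) :
    F.lam x b ∣ b / Nat.gcd b c := by
  have hb0 : 0 < b := Nat.pos_of_dvd_of_pos hb hM
  have hg : 0 < Nat.gcd b c := Nat.gcd_pos_of_pos_left _ hb0
  obtain ⟨u, hu⟩ := FL.good_gcd_dvd_uu hM hb hc hx
  have h1 : F.uu x b * F.lam x b = b := FL.uu_mul_lam hM hb
  have h2 : Nat.gcd b c * (b / Nat.gcd b c) = Nat.gcd b c * (u * F.lam x b) := by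
    rw [gs_left, ← mul_assoc, ← hu, h1]
  rw [Nat.eq_of_mul_eq_mul_left hg h2]
  exact dvd_mul_left _ _

/-- a letter is crossed when `uu` changes -/
lemma exists_letter {x y b : ℕ} (hM : 0 < M) (hb : b ∣ M) (hxy : x ≤ y)
    (h : F.uu x b < F.uu y b) : ∃ r, r.Prime ∧ x < r ∧ r ≤ y ∧ r ∣ F.lam x b := by
  by_contra hc
  push Not at hc
  have := uu_const (F := F) hM hb hxy fun p hp h1 h2 => hc p hp h1 h2
  omega

lemma idx_lt {i j b : ℕ} (hcut : Monotone P.cut) (h : F.uu (P.cut i) b < F.uu (P.cut j) b) :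
    i < j := by
  by_contra hc
  have h1 : F.uu (P.cut j) b ∣ F.uu (P.cut i) b := FL.uu_dvd_uu (hcut (not_lt.1 hc))
  have h2 := Nat.le_of_dvd (FL.uu_pos _ b) h1
  omega

/-- the heavy class from an alternative at a prime `r ≤ cut j` -/
lemma hvy_of_alt_far (H : Hy F P w δ ε D) {i j b c d r : ℕ} {h : ℤ} {f : ℚ} {K : ℝ}
    (hd : d ∣ M) (hF : FarA F P i b c h) (hij : i < j)
    (tc : TC F P j d f) (hdep : dep F P j d f ≤ K) (hKE : K ≤ P.E j) (hr : r ≤ P.cut j)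
    (hthr : K ≤ P.thr d (P.blk r)) (ha : Alt F P j d f r) :
    P.m0 ≤ j ∧ F.good (P.cut j) b c ∧ AlLe F P b c h (P.cut (2 * j)) ∧
      (Nat.gcd b c : ℝ) < 2 ^ (j + 1) * P.L ∧ X1 P b c < P.cut j ∧
      HvK F w P.L (1 / ε) (2 ^ j / (2 * P.E j ^ 4)) (P.cut j) d := by
  have hj : P.m0 ≤ j := hF.m0.trans hij.le
  have hE1 := H.E_one j
  have hdE : dep F P j d f ≤ P.E j ^ 4 := by
    refine (hdep.trans hKE).trans ?_
    calc P.E j = P.E j ^ 1 := (pow_one _).symm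
      _ ≤ P.E j ^ 4 := pow_le_pow_right₀ hE1 (by norm_num)
  refine ⟨hj, FL.good_mono (H.cut_mono hij.le) hF.good, hF.al.mono (H.cut_mono (by omega)), ?_,
    X1_far H (H.two.trans hj) ?_, ?_⟩
  · refine hF.hi.trans_le (mul_le_mul_of_nonneg_right ?_ H.hL.le)
    exact pow_le_pow_right₀ (by norm_num) (by omega)
  · refine le_trans ?_ hF.lo
    have h1 : (1 : ℝ) ≤ 2 ^ i := one_le_pow₀ (by norm_num)
    nlinarith [H.hL]
  · rcases dh_of_alt H hd hj le_rfl hr tc rfl hdE ha with h1 | h1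
    · exact absurd (hdep.trans hthr) (not_le.2 h1)
    · exact h1

/-- **(F2b), general form** : both members light, not killed ⟹ heavy -/
theorem kill_far (H : Hy F P w δ ε D) {i jb jc b c : ℕ} {h : ℤ} {f f' : ℚ} {K : ℝ}
    (hb : b ∣ M) (hc : c ∣ M) (hl : h ∈ Lnk P.γ P.L b c) (hk : ¬ killedB (lamR F P) b c h)
    (hF : FarA F P i b c h) (hK : 3 * K ^ 2 ≤ (2 : ℝ) ^ i) (hEb : K ≤ P.E jb) (hEc : K ≤ P.E jc)
    (hub : F.uu (P.cut i) b < F.uu (P.cut jb) b) (huc : F.uu (P.cut i) c < F.uu (P.cut jc) c)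
    (lb : (2 : ℝ) ^ jb * P.L ≤ F.uu (P.cut jb) b) (lc : (2 : ℝ) ^ jc * P.L ≤ F.uu (P.cut jc) c)
    (ob : dep F P jb b f ≤ K) (oc : dep F P jc c f' ≤ K)
    (hthr : ∀ r : ℕ, r.Prime → P.cut i < r → K ≤ P.thr b (P.blk r) ∧ K ≤ P.thr c (P.blk r)) :
    CHvy F P w ε b c h := by
  have hM := H.hM
  have hL := H.hL
  have hb0 : 0 < b := Nat.pos_of_dvd_of_pos hb hM
  have hc0 : 0 < c := Nat.pos_of_dvd_of_pos hc hM
  have hib := idx_lt H.cut_mono hub
  have hic := idx_lt H.cut_mono huc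
  obtain ⟨rb, hrb, hrb1, hrb2, hrb3⟩ := exists_letter hM hb (H.cut_mono hib.le) hub
  obtain ⟨rc, hrc, hrc1, hrc2, hrc3⟩ := exists_letter hM hc (H.cut_mono hic.le) huc
  have drb : rb ∣ b / Nat.gcd b c := hrb3.trans (lam_dvd_cof hM hb hc hF.good)
  have drc : rc ∣ c / Nat.gcd b c := by
    have := hrc3.trans (lam_dvd_cof hM hc hb (FL.good_symm hb hc hF.good))
    rwa [Nat.gcd_comm] at this
  -- the common hypotheses
  have e1 := gs_left b c
  have e2 := gs_right b c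
  have hlink : |((b / Nat.gcd b c : ℕ) - (c / Nat.gcd b c : ℕ) : ℝ) * P.γ + h| <
      P.L / (Nat.gcd b c : ℕ) := by
    have h1 := hl
    unfold Lnk at h1
    exact mem_Hf.1 h1
  have hk' : ¬ killedL (lamR F P) (Nat.gcd b c * (b / Nat.gcd b c))
      (Nat.gcd b c * (c / Nat.gcd b c)) (b / Nat.gcd b c) (c / Nat.gcd b c) h := by
    rw [e1, e2]
    exact fun hh => hk (killedB_iff.2 hh)
  have LKh : LK F P i (Nat.gcd b c) (b / Nat.gcd b c) (c / Nat.gcd b c) h K :=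
    ⟨hL, hM, H.hN, fun m hm => H.hE3 m hm, H.cut_mono, by rw [e1]; exact hb, by rw [e2]; exact hc,
      cop_gs hM hb, by rw [e1, e2]; exact hF.good, hF.m0, hF.lo, hlink, hk', hK⟩
  have tcb : TC F P jb b f := tc_of_dep hL lb (ob.trans hEb)
  have tcc : TC F P jc c f' := tc_of_dep hL lc (oc.trans hEc)
  have Lb : Lit F P i jb (Nat.gcd b c * (b / Nat.gcd b c)) f K := by
    rw [e1]; exact ⟨hib.le, tcb, ob⟩
  have Lc : Lit F P i jc (Nat.gcd b c * (c / Nat.gcd b c)) f' K := by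
    rw [e2]; exact ⟨hic.le, tcc, oc⟩
  have hKr : ∀ r : ℕ, P.cut i < r → K < r := by
    intro r hr
    have h1 : (2 : ℝ) ^ i ≤ P.cut i := by exact_mod_cast H.cut_ge i
    have h2 : (P.cut i : ℝ) < r := by exact_mod_cast hr
    have h3 : 1 ≤ K := (one_le_dep (F := F) (P := P) jb b f).trans ob
    nlinarith
  rcases le_total rb rc with hle | hle
  · -- `r = rb ∣ s`
    have ha := light_kill_right LKh Lb Lc hrb drb (hKr rb hrb1) hrb2
      (H.act jc rb (hle.trans hrc2))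
    rw [e2] at ha
    obtain ⟨h1, h2, h3, h4, h5, h6⟩ := hvy_of_alt_far H hc hF hic tcc oc hEc (hle.trans hrc2)
      (hthr rb hrb hrb1).2 ha
    exact ⟨jc, h1, h2, h3, h4, h5, Or.inr h6⟩
  · have ha := light_kill_left LKh Lb Lc hrc drc (hKr rc hrc1) hrc2
      (H.act jb rc (hle.trans hrb2))
    rw [e1] at ha
    obtain ⟨h1, h2, h3, h4, h5, h6⟩ := hvy_of_alt_far H hb hF hib tcb ob hEb (hle.trans hrb2)
      (hthr rc hrc hrc1).1 ha
    exact ⟨jb, h1, h2, h3, h4, h5, Or.inl h6⟩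

/-- **(F2b) in the `On` form** -/
theorem kill_far_on (H : Hy F P w δ ε D) {i jb jc b c : ℕ} {h : ℤ} {K : ℝ}
    (hb : b ∣ M) (hc : c ∣ M) (hl : h ∈ Lnk P.γ P.L b c) (hk : ¬ killedB (lamR F P) b c h)
    (hF : FarA F P i b c h) (hK : 3 * K ^ 2 ≤ (2 : ℝ) ^ i) (hEb : K ≤ P.E jb) (hEc : K ≤ P.E jc)
    (hub : F.uu (P.cut i) b < F.uu (P.cut jb) b) (huc : F.uu (P.cut i) c < F.uu (P.cut jc) c)
    (lb : (2 : ℝ) ^ jb * P.L ≤ F.uu (P.cut jb) b) (lc : (2 : ℝ) ^ jc * P.L ≤ F.uu (P.cut jc) c)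
    (ob : On K ((F.lam (P.cut jb) b : ℝ) * P.γ) ((F.uu (P.cut jb) b : ℝ) / P.L))
    (oc : On K ((F.lam (P.cut jc) c : ℝ) * P.γ) ((F.uu (P.cut jc) c : ℝ) / P.L))
    (hthr : ∀ r : ℕ, r.Prime → P.cut i < r → K ≤ P.thr b (P.blk r) ∧ K ≤ P.thr c (P.blk r)) :
    CHvy F P w ε b c h := by
  obtain ⟨f, hf⟩ := (on_iff H.hM hb).1 ob
  obtain ⟨f', hf'⟩ := (on_iff H.hM hc).1 oc
  rw [← dep_eq] at hf hf'
  exact kill_far H hb hc hl hk hF hK hEb hEc hub huc lb lc hf.le hf'.le hthr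

/-- a larger scale costs a factor in the depth: world scale `τ`, true scale `τ' ≤ κ τ` -/
lemma on_scale {K y τ τ' κ : ℝ} (hκ : 1 ≤ κ) (hτ : τ' ≤ κ * τ) (h : On K y τ) :
    On (κ * K) y τ' := by
  obtain ⟨a, k, hk, h1⟩ := h
  have hkR : (0 : ℝ) < k := by exact_mod_cast hk
  refine ⟨a, k, hk, ?_⟩
  have h2 : max 1 (τ' * |y - a / k|) ≤ κ * max 1 (τ * |y - a / k|) := by
    refine max_le ?_ ?_
    · have : (1 : ℝ) ≤ max 1 (τ * |y - a / k|) := le_max_left _ _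
      nlinarith
    · calc τ' * |y - a / k| ≤ κ * τ * |y - a / k| :=
            mul_le_mul_of_nonneg_right hτ (abs_nonneg _)
        _ = κ * (τ * |y - a / k|) := by ring
        _ ≤ κ * max 1 (τ * |y - a / k|) :=
            mul_le_mul_of_nonneg_left (le_max_right _ _) (by linarith)
  calc (k : ℝ) * max 1 (τ' * |y - a / k|) ≤ k * (κ * max 1 (τ * |y - a / k|)) :=
        mul_le_mul_of_nonneg_left h2 hkR.le
    _ = κ * (k * max 1 (τ * |y - a / k|)) := by ring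
    _ < κ * K := mul_lt_mul_of_pos_left h1 (by linarith)

/-- **next node of a member at the world scale** : `j` = index of the next node in a world whose
scale is the true one up to a factor in `[1/κ, 2]` (`2^(j-1) L ≤ uu (cut j) d < κ 2^(j+1) L`), a
letter of `d` in `(cut i, cut j]`, `On K` at the world scale `τ`, `uu (cut j) d / L ≤ κ τ` -/
structure NextW (F : FL M) (P : Par) (i j d : ℕ) (K κ τ : ℝ) : Prop where
  lo : (2 : ℝ) ^ (j - 1) * P.L ≤ F.uu (P.cut j) d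
  hi : (F.uu (P.cut j) d : ℝ) < κ * (2 ^ (j + 1) * P.L)
  lt : F.uu (P.cut i) d < F.uu (P.cut j) d
  on : On K ((F.lam (P.cut j) d : ℝ) * P.γ) τ
  sc : (F.uu (P.cut j) d : ℝ) / P.L ≤ κ * τ
  big : κ * 2 ^ (j + 1) ≤ (P.cut (j - 1) : ℝ)
  E : κ * K ≤ P.E (j - 1)

/-- no letter between the cuts `j - 1` and `j` -/
lemma NextW.const {i j d : ℕ} {K κ τ : ℝ} (h : NextW F P i j d K κ τ) (hM : 0 < M) (hd : d ∣ M)
    (hL : 0 < P.L) (hcut : Monotone P.cut) (hi : P.L ≤ F.uu (P.cut i) d) :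
    F.uu (P.cut (j - 1)) d = F.uu (P.cut j) d ∧ F.lam (P.cut (j - 1)) d = F.lam (P.cut j) d ∧
      i ≤ j - 1 := by
  have hij := idx_lt hcut h.lt
  have hj1 : i ≤ j - 1 := by omega
  have hle : P.cut (j - 1) ≤ P.cut j := hcut (Nat.sub_le _ _)
  have hno : ∀ p, p.Prime → P.cut (j - 1) < p → p ≤ P.cut j →
      ¬ p ∣ F.lam (P.cut (j - 1)) d := by
    intro p hp h1 h2 h3
    have h4 := mul_dvd_uu (F := F) hM hd hle hp h2 h3
    have h5 : F.uu (P.cut (j - 1)) d * p ≤ F.uu (P.cut j) d :=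
      Nat.le_of_dvd (FL.uu_pos _ d) h4
    have h6 : (F.uu (P.cut (j - 1)) d : ℝ) * p ≤ F.uu (P.cut j) d := by exact_mod_cast h5
    have h7 : P.L ≤ F.uu (P.cut (j - 1)) d := hi.trans (uu_le_uu' (hcut hj1))
    have h8 : (P.cut (j - 1) : ℝ) ≤ p := by exact_mod_cast h1.le
    have h9 : P.L * (κ * 2 ^ (j + 1)) ≤ (F.uu (P.cut (j - 1)) d : ℝ) * p := by
      have t1 : κ * 2 ^ (j + 1) ≤ (p : ℝ) := h.big.trans h8
      calc P.L * (κ * 2 ^ (j + 1)) ≤ P.L * p := mul_le_mul_of_nonneg_left t1 hL.le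
        _ ≤ _ := mul_le_mul_of_nonneg_right h7 (Nat.cast_nonneg _)
    have h10 := h.hi
    nlinarith
  exact ⟨(uu_const hM hd hle hno).symm, (lam_const hM hd hle hno).symm, hj1⟩

/-- **(F2b) at the world scale** (vector case; `κ ≥ 1` any factor) -/
theorem kill_far_w (H : Hy F P w δ ε D) {i jb jc b c : ℕ} {h : ℤ} {K κ τb τc : ℝ}
    (hb : b ∣ M) (hc : c ∣ M) (hl : h ∈ Lnk P.γ P.L b c) (hk : ¬ killedB (lamR F P) b c h)
    (hF : FarA F P i b c h) (hκ : 1 ≤ κ) (hK : 3 * (κ * K) ^ 2 ≤ (2 : ℝ) ^ i)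
    (nb : NextW F P i jb b K κ τb) (nc : NextW F P i jc c K κ τc)
    (hthr : ∀ r : ℕ, r.Prime → P.cut i < r →
      κ * K ≤ P.thr b (P.blk r) ∧ κ * K ≤ P.thr c (P.blk r)) :
    CHvy F P w ε b c h := by
  have hM := H.hM
  have hL := H.hL
  have hgL : P.L ≤ (Nat.gcd b c : ℕ) := by
    refine le_trans ?_ hF.lo
    have h1 : (1 : ℝ) ≤ 2 ^ i := one_le_pow₀ (by norm_num)
    nlinarith
  have hgb : P.L ≤ F.uu (P.cut i) b := by
    refine hgL.trans ?_
    exact_mod_cast Nat.le_of_dvd (FL.uu_pos _ b) (FL.good_gcd_dvd_uu hM hb hc hF.good)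
  have hgc : P.L ≤ F.uu (P.cut i) c := by
    refine hgL.trans ?_
    have := FL.good_gcd_dvd_uu hM hc hb (FL.good_symm hb hc hF.good)
    rw [Nat.gcd_comm] at this
    exact_mod_cast Nat.le_of_dvd (FL.uu_pos _ c) this
  obtain ⟨u1, l1, _⟩ := nb.const hM hb hL H.cut_mono hgb
  obtain ⟨u2, l2, _⟩ := nc.const hM hc hL H.cut_mono hgc
  have ob := on_scale hκ nb.sc nb.on
  have oc := on_scale hκ nc.sc nc.on
  refine kill_far_on H (jb := jb - 1) (jc := jc - 1) (K := κ * K) hb hc hl hk hF hK nb.E nc.E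
    (by rw [u1]; exact nb.lt) (by rw [u2]; exact nc.lt) (by rw [u1]; exact nb.lo)
    (by rw [u2]; exact nc.lo) (by rw [u1, l1]; exact ob) (by rw [u2, l2]; exact oc) hthr

/-- at a node index a live larger index crosses a letter -/
lemma uu_lt_of_nd {i j b : ℕ} (hL : 0 < P.L) (hij : i < j)
    (h1 : (F.uu (P.cut i) b : ℝ) < 2 ^ (i + 1) * P.L)
    (h2 : (2 : ℝ) ^ j * P.L ≤ F.uu (P.cut j) b) : F.uu (P.cut i) b < F.uu (P.cut j) b := by
  have h3 : (2 : ℝ) ^ (i + 1) ≤ 2 ^ j := pow_le_pow_right₀ (by norm_num) hij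
  have h4 := mul_le_mul_of_nonneg_right h3 hL.le
  have h5 : (F.uu (P.cut i) b : ℝ) < F.uu (P.cut j) b := by linarith
  exact_mod_cast h5

/-! ### the thresholds of `ParOf` -/

section par

variable {cp : ℝ} {A m0 : ℕ} {γ L : ℝ} {B : Finset ℕ}

/-- the threshold of the rule at the primes `> cut i` -/
theorem thr_ge {i r d : ℕ} (hA : 1 ≤ A) (hi : 2 ≤ i)
    (hr : (ParOf cp A m0 γ L M B).cut i < r) :
    (2 : ℝ) ^ ((i : ℝ) / 8) ≤
      (ParOf cp A m0 γ L M B).thr d ((ParOf cp A m0 γ L M B).blk r) := by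
  set Q := ParOf cp A m0 γ L M B with hQ
  have hY : ∀ n, Q.Y n = 2 ^ n := fun n => rfl
  have hYm : StrictMono Q.Y := by
    intro a b hab
    rw [hY, hY]
    exact Nat.pow_lt_pow_right (by norm_num) hab
  have hcut : Q.cut i = 2 ^ (A * i) := rfl
  set n := Q.blk r with hn
  have h1 : r ≤ 2 ^ n := by
    have := Par.le_blk hYm r
    rwa [hY] at this
  have h2 : A * i < n := by
    rw [hcut] at hr
    exact (Nat.pow_lt_pow_iff_right (by norm_num : 1 < 2)).1 (hr.trans_le h1)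
  have hAR : (1 : ℝ) ≤ A := by exact_mod_cast hA
  -- `V = 2^(n-1) ≥ 2^(A i)`
  set V : ℝ := (Q.Y (n - 1) : ℝ) with hV
  have hV1 : (2 : ℝ) ^ (A * i) ≤ V := by
    rw [hV, hY]
    push_cast
    exact pow_le_pow_right₀ (by norm_num) (by omega)
  have hV0 : (1 : ℝ) ≤ V := le_trans (one_le_pow₀ (by norm_num)) hV1
  have h3 : (2 : ℝ) ^ ((i : ℝ) / 8) ≤ V ^ (1 / (4 * (A : ℝ))) := by
    calc (2 : ℝ) ^ ((i : ℝ) / 8) ≤ (2 : ℝ) ^ ((i : ℝ) / 4) := by
          refine Real.rpow_le_rpow_of_exponent_le (by norm_num) ?_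
          have : (0 : ℝ) ≤ i := Nat.cast_nonneg i
          linarith
      _ = ((2 : ℝ) ^ (A * i)) ^ (1 / (4 * (A : ℝ))) := by
          rw [← Real.rpow_natCast, ← Real.rpow_mul (by norm_num)]
          congr 1
          push_cast
          field_simp
      _ ≤ _ := Real.rpow_le_rpow (by positivity) hV1 (by positivity)
  have h4 : V ^ (1 / (4 * (A : ℝ))) ≤ Real.exp (V ^ (4 / 5 : ℝ)) := by
    calc V ^ (1 / (4 * (A : ℝ))) ≤ V ^ (4 / 5 : ℝ) := by
          refine Real.rpow_le_rpow_of_exponent_le hV0 ?_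
          rw [div_le_div_iff₀ (by positivity) (by norm_num)]
          linarith
      _ ≤ Real.exp (V ^ (4 / 5 : ℝ)) := by
          have := Real.add_one_le_exp (V ^ (4 / 5 : ℝ))
          linarith
  show (2 : ℝ) ^ ((i : ℝ) / 8) ≤ thrS M (ind B) (fun i => 2 ^ i) (1 / (4 * A)) (1 / 20) d n
  unfold thrS
  refine le_min (le_trans ?_ (le_max_left _ _)) ?_
  · exact h3
  · exact h3.trans h4

/-- **(F2b) for the rule of the text** -/
theorem kill_par {i jb jc b c : ℕ} {h : ℤ} {K : ℝ}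
    (H : Hy F (ParOf cp A m0 γ L M B) w δ ε D) (hA : 1 ≤ A)
    (hb : b ∣ M) (hc : c ∣ M) (hl : h ∈ Lnk γ L b c)
    (hk : ¬ killedB (lamR F (ParOf cp A m0 γ L M B)) b c h)
    (hF : FarA F (ParOf cp A m0 γ L M B) i b c h) (hcp : 0 ≤ cp)
    (hK : 3 * K ^ 2 ≤ (2 : ℝ) ^ i) (hKE : K ≤ (2 : ℝ) ^ (cp * i)) (hK8 : K ≤ (2 : ℝ) ^ ((i : ℝ) / 8))
    (hub : F.uu (2 ^ (A * i)) b < F.uu (2 ^ (A * jb)) b)
    (huc : F.uu (2 ^ (A * i)) c < F.uu (2 ^ (A * jc)) c)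
    (lb : (2 : ℝ) ^ jb * L ≤ F.uu (2 ^ (A * jb)) b) (lc : (2 : ℝ) ^ jc * L ≤ F.uu (2 ^ (A * jc)) c)
    (ob : On K ((F.lam (2 ^ (A * jb)) b : ℝ) * γ) ((F.uu (2 ^ (A * jb)) b : ℝ) / L))
    (oc : On K ((F.lam (2 ^ (A * jc)) c : ℝ) * γ) ((F.uu (2 ^ (A * jc)) c : ℝ) / L)) :
    CHvy F (ParOf cp A m0 γ L M B) w ε b c h := by
  have hib : i < jb := idx_lt (P := ParOf cp A m0 γ L M B) H.cut_mono hub
  have hic : i < jc := idx_lt (P := ParOf cp A m0 γ L M B) H.cut_mono huc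
  have hEm : ∀ j, i < j → K ≤ (ParOf cp A m0 γ L M B).E j := by
    intro j hj
    refine hKE.trans ?_
    show (2 : ℝ) ^ (cp * i) ≤ (2 : ℝ) ^ (cp * j)
    refine Real.rpow_le_rpow_of_exponent_le (by norm_num) (mul_le_mul_of_nonneg_left ?_ hcp)
    exact_mod_cast hj.le
  have h2i : 2 ≤ i := H.two.trans hF.m0
  exact kill_far_on H hb hc hl hk hF hK (hEm jb hib) (hEm jc hic) hub huc lb lc ob oc
    fun r _ hr => ⟨hK8.trans (thr_ge hA h2i hr), hK8.trans (thr_ge hA h2i hr)⟩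

/-- **(F2b) for the rule of the text, vector form**: only `K ≤ E (jb), E (jc)` at the NEXT indices -/
theorem kill_par' {i jb jc b c : ℕ} {h : ℤ} {K : ℝ}
    (H : Hy F (ParOf cp A m0 γ L M B) w δ ε D) (hA : 1 ≤ A)
    (hb : b ∣ M) (hc : c ∣ M) (hl : h ∈ Lnk γ L b c)
    (hk : ¬ killedB (lamR F (ParOf cp A m0 γ L M B)) b c h)
    (hF : FarA F (ParOf cp A m0 γ L M B) i b c h)
    (hK : 3 * K ^ 2 ≤ (2 : ℝ) ^ i) (hKb : K ≤ (2 : ℝ) ^ (cp * jb)) (hKc : K ≤ (2 : ℝ) ^ (cp * jc))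
    (hK8 : K ≤ (2 : ℝ) ^ ((i : ℝ) / 8))
    (hub : F.uu (2 ^ (A * i)) b < F.uu (2 ^ (A * jb)) b)
    (huc : F.uu (2 ^ (A * i)) c < F.uu (2 ^ (A * jc)) c)
    (lb : (2 : ℝ) ^ jb * L ≤ F.uu (2 ^ (A * jb)) b) (lc : (2 : ℝ) ^ jc * L ≤ F.uu (2 ^ (A * jc)) c)
    (ob : On K ((F.lam (2 ^ (A * jb)) b : ℝ) * γ) ((F.uu (2 ^ (A * jb)) b : ℝ) / L))
    (oc : On K ((F.lam (2 ^ (A * jc)) c : ℝ) * γ) ((F.uu (2 ^ (A * jc)) c : ℝ) / L)) :
    CHvy F (ParOf cp A m0 γ L M B) w ε b c h := by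
  have h2i : 2 ≤ i := H.two.trans hF.m0
  exact kill_far_on H hb hc hl hk hF hK hKb hKc hub huc lb lc ob oc
    fun r _ hr => ⟨hK8.trans (thr_ge hA h2i hr), hK8.trans (thr_ge hA h2i hr)⟩

end par

end Crest.Agent.R4C.Trix264
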