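import Crest.Agent.R4C.VecPair_19
import Crest.Agent.R4C.Tri_264
import Crest.Agent.R4C.GWleave_262

/-!
# Row 4, class CDomP, vector case: two light members are killed or heavy (helper19)

World of a core `G` of `hiFL hM y F` with window `L / 2^s`, `s = log2 l + κ`, `κ ≤ 1`.

* `light_true` : one member.  World index `j > i` with `On K` there; then at the index `j - 1` the
  true scale `uu (cut (j-1)) b` is `≥ 2^(j-1) L`, larger than `uu (cut i) b`, and `On (2 u K)`.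
* `killV_on` : both members, `K`-form;  `killV` : both words stay in their zones at the node.
-/

set_option autoImplicit false

namespace Crest.Agent.R4C.KillVx19

open Finset Crest.Agent.R4C.Basex935 Crest.Agent.R4C.FLDefx935 Crest.Agent.R4C.BoostCx972
  Crest.Agent.R4C.CrCoinx935 Crest.Agent.R4C.CrCountx935 Crest.Agent.R4C.Bridgex882
  Crest.Agent.R4C.PrefixMx882 Crest.Agent.R4C.Rulex945 Crest.Agent.R4C.Sharedx11
  Crest.Agent.R4C.Splitx945 Crest.Agent.R4C.Cutx50 Crest.Agent.R4C.PureL2x232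
  Crest.Agent.R4C.PureClsx863 Crest.Agent.R4C.HighFLx863 Crest.Agent.R4C.VecPairx19
  Crest.Agent.R4C.Spinex946 Crest.Agent.R4C.Trix264
open Crest.Agent.R4C.NHx656 (On)
open Crest.Agent.R4C.GWdefx982

/-- no letter between the cuts `j - 1` and `j` if `e_j < 2^(j+1) L'` and `2^i L' ≤ e_i` -/
lemma no_letter {A i j G w : ℕ} {L' : ℝ} (hL : 0 < L') (hA : 1 ≤ A) (hi : 2 ≤ i)
    (hij : i < j) (h1 : 2 ^ i * L' ≤ ((G * low (2 ^ (A * i)) w : ℕ) : ℝ))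
    (h2 : ((G * low (2 ^ (A * j)) w : ℕ) : ℝ) < 2 ^ (j + 1) * L') :
    low (2 ^ (A * j)) w = low (2 ^ (A * (j - 1))) w := by
  have hcut : ∀ {m n : ℕ}, m ≤ n → 2 ^ (A * m) ≤ 2 ^ (A * n) := fun h =>
    Nat.pow_le_pow_right (by norm_num) (Nat.mul_le_mul_left _ h)
  refine eq_of_fact (low_pos _ _).ne' (low_pos _ _).ne' fun r hr => ?_
  rw [fact_low, fact_low]
  by_cases hr1 : r ≤ 2 ^ (A * (j - 1))
  · rw [if_pos hr1, if_pos (hr1.trans (hcut (by omega)))]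
  · rw [if_neg hr1]
    by_cases hr2 : r ≤ 2 ^ (A * j)
    · rw [if_pos hr2]
      by_contra hne
      -- `low_i * r ∣ low_j`
      have hdvd : low (2 ^ (A * i)) w * r ∣ low (2 ^ (A * j)) w := by
        refine Nat.Coprime.mul_dvd_of_dvd_of_dvd ?_ ?_ ?_
        · rw [Nat.coprime_comm, Nat.Prime.coprime_iff_not_dvd hr]
          intro hd
          have h3 := hr.factorization_pos_of_dvd (low_pos _ _).ne' hd
          rw [fact_low, if_neg] at h3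
          · exact lt_irrefl _ h3
          · exact fun h4 => hr1 (h4.trans (hcut (by omega)))
        · rw [← low_low (hcut hij.le) w]
          exact low_dvd_self _ _
        · refine Nat.dvd_of_factorization_pos ?_
          rw [fact_low, if_pos hr2]
          exact hne
      have h3 : low (2 ^ (A * i)) w * r ≤ low (2 ^ (A * j)) w := Nat.le_of_dvd (low_pos _ _) hdvd
      have h4 : (((G * low (2 ^ (A * i)) w : ℕ) : ℝ)) * r ≤ ((G * low (2 ^ (A * j)) w : ℕ) : ℝ) := by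
        have : G * low (2 ^ (A * i)) w * r ≤ G * low (2 ^ (A * j)) w := by
          rw [mul_assoc]; exact Nat.mul_le_mul_left _ h3
        exact_mod_cast this
      have h5 : ((2 : ℝ) ^ (A * (j - 1))) < r := by
        have : 2 ^ (A * (j - 1)) < r := not_le.1 hr1
        exact_mod_cast this
      have h6 : (2 : ℝ) ^ (j - 1) ≤ 2 ^ (A * (j - 1)) :=
        pow_le_pow_right₀ (by norm_num) (Nat.le_mul_of_pos_left _ hA)
      have h7 : (2 : ℝ) ^ 2 ≤ 2 ^ i := pow_le_pow_right₀ (by norm_num) hi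
      have h8 : (2 : ℝ) ^ (j + 1) = 2 ^ 2 * 2 ^ (j - 1) := by
        rw [← pow_add]; congr 1; omega
      have h9 : (0 : ℝ) < 2 ^ (j - 1) := by positivity
      have h10 : 2 ^ (j + 1) * L' ≤ 2 ^ i * L' * r := by
        rw [h8]
        have : (2 : ℝ) ^ 2 * 2 ^ (j - 1) ≤ 2 ^ i * r :=
          mul_le_mul h7 (h6.trans h5.le) h9.le (by positivity)
        calc 2 ^ 2 * 2 ^ (j - 1) * L' ≤ 2 ^ i * r * L' := mul_le_mul_of_nonneg_right this hL.le
          _ = _ := by ring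
      have hr0 : (0 : ℝ) ≤ r := Nat.cast_nonneg _
      have := mul_le_mul_of_nonneg_right h1 hr0
      linarith
    · rw [if_neg hr2]

/-- consecutive node indices: `(A + 1) i ≤ j` -/
lemma idx_ge {A i j G w : ℕ} {L' : ℝ} (hL : 0 < L') (hij : i < j)
    (h1 : 2 ^ i * L' ≤ ((G * low (2 ^ (A * i)) w : ℕ) : ℝ))
    (h1' : ((G * low (2 ^ (A * i)) w : ℕ) : ℝ) < 2 ^ (i + 1) * L')
    (h2 : 2 ^ j * L' ≤ ((G * low (2 ^ (A * j)) w : ℕ) : ℝ))
    (h2' : ((G * low (2 ^ (A * j)) w : ℕ) : ℝ) < 2 ^ (j + 1) * L') : (A + 1) * i ≤ j := by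
  have hcut : ∀ {m n : ℕ}, m ≤ n → 2 ^ (A * m) ≤ 2 ^ (A * n) := fun h =>
    Nat.pow_le_pow_right (by norm_num) (Nat.mul_le_mul_left _ h)
  -- there is a letter in `(cut i, cut j]`
  have hex : ∃ r, r.Prime ∧ 2 ^ (A * i) < r ∧ r ≤ 2 ^ (A * j) ∧ w.factorization r ≠ 0 := by
    by_contra hc
    push Not at hc
    have e : low (2 ^ (A * j)) w = low (2 ^ (A * i)) w := by
      refine eq_of_fact (low_pos _ _).ne' (low_pos _ _).ne' fun r hr => ?_
      rw [fact_low, fact_low]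
      by_cases hr1 : r ≤ 2 ^ (A * i)
      · rw [if_pos hr1, if_pos (hr1.trans (hcut hij.le))]
      · rw [if_neg hr1]
        split_ifs with hr2
        · exact hc r hr (not_le.1 hr1) hr2
        · rfl
    rw [e] at h2
    have h3 : (2 : ℝ) ^ (i + 1) ≤ 2 ^ j := pow_le_pow_right₀ (by norm_num) hij
    have := mul_le_mul_of_nonneg_right h3 hL.le
    linarith
  obtain ⟨r, hr, hr1, hr2, hr3⟩ := hex
  have hdvd : low (2 ^ (A * i)) w * r ∣ low (2 ^ (A * j)) w := by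
    refine Nat.Coprime.mul_dvd_of_dvd_of_dvd ?_ ?_ ?_
    · rw [Nat.coprime_comm, Nat.Prime.coprime_iff_not_dvd hr]
      intro hd
      have h3 := hr.factorization_pos_of_dvd (low_pos _ _).ne' hd
      rw [fact_low, if_neg (by omega)] at h3
      exact lt_irrefl _ h3
    · rw [← low_low (hcut hij.le) w]
      exact low_dvd_self _ _
    · refine Nat.dvd_of_factorization_pos ?_
      rw [fact_low, if_pos hr2]
      exact hr3
  have h3 : low (2 ^ (A * i)) w * r ≤ low (2 ^ (A * j)) w := Nat.le_of_dvd (low_pos _ _) hdvd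
  have h4 : (((G * low (2 ^ (A * i)) w : ℕ) : ℝ)) * r ≤ ((G * low (2 ^ (A * j)) w : ℕ) : ℝ) := by
    have : G * low (2 ^ (A * i)) w * r ≤ G * low (2 ^ (A * j)) w := by
      rw [mul_assoc]; exact Nat.mul_le_mul_left _ h3
    exact_mod_cast this
  have h5 : ((2 : ℝ) ^ (A * i)) < r := by exact_mod_cast hr1
  have h6 : (2 : ℝ) ^ (i + A * i) * L' < 2 ^ (j + 1) * L' := by
    refine lt_of_le_of_lt ?_ h2'
    refine le_trans ?_ h4
    rw [pow_add]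
    calc (2 : ℝ) ^ i * 2 ^ (A * i) * L' = 2 ^ i * L' * 2 ^ (A * i) := by ring
      _ ≤ _ := mul_le_mul h1 h5.le (by positivity) (Nat.cast_nonneg _)
  have h7 := (pow_lt_pow_iff_right₀ (by norm_num : (1 : ℝ) < 2)).1
    (lt_of_mul_lt_mul_right h6 hL.le)
  have : (A + 1) * i = i + A * i := by ring
  omega

variable {M : ℕ}

/-- **one member**: light at the world index `j > i` -/
theorem light_true {hM : 0 < M} {F : FL M} {P : Par} {A y i j s b u l : ℕ} {K : ℝ} (hb : b ∣ M)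
    (hL : 0 < P.L) (hA : 1 ≤ A) (hcut : ∀ m, P.cut m = 2 ^ (A * m)) (hi : 2 ≤ i) (hij : i < j)
    (hy : y ≤ P.cut i) (hlb : low y b = l * u) (hu : 0 < u)
    (hD : D (hiFL hM y F) (H0 hM F y b) ≤ P.cut i) (hs1 : 2 ^ s ≤ 2 * l) (hs2 : l < 2 ^ (s + 1))
    (n1 : 2 ^ i * (P.L / 2 ^ s) ≤ ((H0 hM F y b * low (P.cut i) (HighFLx863.hw hM F y b) : ℕ) : ℝ))
    (n1' : ((H0 hM F y b * low (P.cut i) (HighFLx863.hw hM F y b) : ℕ) : ℝ) <
      2 ^ (i + 1) * (P.L / 2 ^ s))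
    (n2 : 2 ^ j * (P.L / 2 ^ s) ≤ ((H0 hM F y b * low (P.cut j) (HighFLx863.hw hM F y b) : ℕ) : ℝ))
    (n2' : ((H0 hM F y b * low (P.cut j) (HighFLx863.hw hM F y b) : ℕ) : ℝ) <
      2 ^ (j + 1) * (P.L / 2 ^ s))
    (hon : On K ((upp (P.cut j) (HighFLx863.hw hM F y b) : ℝ) * P.γ)
      (((H0 hM F y b * low (P.cut j) (HighFLx863.hw hM F y b) : ℕ) : ℝ) / (P.L / 2 ^ s))) :
    F.uu (P.cut i) b < F.uu (P.cut (j - 1)) b ∧
      (2 : ℝ) ^ (j - 1) * P.L ≤ F.uu (P.cut (j - 1)) b ∧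
      On (2 * u * K) ((F.lam (P.cut (j - 1)) b : ℝ) * P.γ)
        ((F.uu (P.cut (j - 1)) b : ℝ) / P.L) ∧ (A + 1) * i ≤ j := by
  set w := HighFLx863.hw hM F y b with hwdef
  set G := H0 hM F y b with hGdef
  have hw0 : w ≠ 0 := (HighFLx863.hw_pos hM F y b).ne'
  have h2s : (0 : ℝ) < 2 ^ s := by positivity
  have hL' : 0 < P.L / 2 ^ s := div_pos hL h2s
  rw [hcut] at hy hD n1 n1' n2 n2' hon
  have hidx := idx_ge hL' hij n1 n1' n2 n2'
  have hlow : low (2 ^ (A * j)) w = low (2 ^ (A * (j - 1))) w :=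
    no_letter hL' hA hi hij n1 n2'
  have hupp : upp (2 ^ (A * j)) w = upp (2 ^ (A * (j - 1))) w := by
    have h1 := low_mul_upp (2 ^ (A * j)) hw0
    have h2 := low_mul_upp (2 ^ (A * (j - 1))) hw0
    rw [hlow] at h1
    exact Nat.eq_of_mul_eq_mul_left (low_pos _ _) (h1.trans h2.symm)
  have hcut' : ∀ {m n : ℕ}, m ≤ n → 2 ^ (A * m) ≤ 2 ^ (A * n) := fun h =>
    Nat.pow_le_pow_right (by norm_num) (Nat.mul_le_mul_left _ h)
  have hi1 : i ≤ j - 1 := by omega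
  have ui : F.uu (2 ^ (A * i)) b = low y b * (G * low (2 ^ (A * i)) w) := uu_high hM F hb hy hD
  have uj : F.uu (2 ^ (A * (j - 1))) b = low y b * (G * low (2 ^ (A * j)) w) := by
    rw [hlow]
    exact uu_high hM F hb (hy.trans (hcut' hi1)) (hD.trans (hcut' hi1))
  have lj : F.lam (2 ^ (A * (j - 1))) b = upp (2 ^ (A * j)) w := by
    rw [hupp]
    exact lam_high hM F hb (hy.trans (hcut' hi1)) (hD.trans (hcut' hi1))
  have hlow0 : 0 < low y b := low_pos _ _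
  have hl0 : 0 < l := by
    rcases Nat.eq_zero_or_pos l with h0 | h0
    · rw [h0, zero_mul] at hlb; omega
    · exact h0
  have hlR : (0 : ℝ) < l := by exact_mod_cast hl0
  have huR : (1 : ℝ) ≤ u := by exact_mod_cast hu
  have hs1' : (2 : ℝ) ^ s ≤ 2 * l := by exact_mod_cast hs1
  have hs2' : (l : ℝ) < 2 ^ (s + 1) := by exact_mod_cast hs2
  set ej : ℝ := ((G * low (2 ^ (A * j)) w : ℕ) : ℝ) with hej
  have hej0 : 0 ≤ ej := Nat.cast_nonneg _
  have ujR : (F.uu (2 ^ (A * (j - 1))) b : ℝ) = l * u * ej := by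
    rw [uj, hlb]; push_cast; rw [hej]; push_cast; ring
  rw [hcut, hcut]
  refine ⟨?_, ?_, ?_, hidx⟩
  · rw [ui, uj]
    refine Nat.mul_lt_mul_of_pos_left ?_ hlow0
    have h1 : ((G * low (2 ^ (A * i)) w : ℕ) : ℝ) < ej := by
      refine n1'.trans_le (le_trans ?_ n2)
      exact mul_le_mul_of_nonneg_right (pow_le_pow_right₀ (by norm_num) hij) hL'.le
    rw [hej] at h1
    exact Nat.cast_lt.1 h1
  · rw [ujR]
    have h1 : (2 : ℝ) ^ j = 2 * 2 ^ (j - 1) := by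
      rw [← pow_succ']; congr 1; omega
    have h2 : 2 ^ j * P.L ≤ ej * 2 ^ s := by
      have h3 := n2
      rw [← mul_div_assoc, div_le_iff₀ h2s] at h3
      exact h3
    have h3 : ej * 2 ^ s ≤ ej * (2 * l) := mul_le_mul_of_nonneg_left hs1' hej0
    have h4 : l * ej ≤ l * u * ej := by
      have : (l : ℝ) * 1 ≤ l * u := mul_le_mul_of_nonneg_left huR hlR.le
      have := mul_le_mul_of_nonneg_right this hej0
      linarith
    rw [h1] at h2
    nlinarith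
  · rw [lj]
    refine on_scale (κ := 2 * u) (by linarith) ?_ hon
    rw [ujR, div_div_eq_mul_div, div_le_iff₀ hL]
    have h1 : 2 * (u : ℝ) * (ej * 2 ^ s / P.L) * P.L = 2 * u * (ej * 2 ^ s) := by
      field_simp
    rw [h1]
    have h2 : (l : ℝ) ≤ 2 * 2 ^ s := by rw [pow_succ] at hs2'; linarith
    have h3 : 0 ≤ u * ej := by positivity
    nlinarith

section par

variable {w1 : ℕ → ℝ} {δ ε : ℝ} {D1 : ℕ → ℝ} {cp : ℝ} {A m0 : ℕ} {γ L : ℝ} {B : Finset ℕ}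

/-- **both members light in the world (`K`-form)** -/
theorem killV_on {hM : 0 < M} {F : FL M} {y i jb jc s G w w' u v l b c : ℕ} {h : ℤ} {K : ℝ}
    (H : Hy F (ParOf cp A m0 γ L M B) w1 δ ε D1) (hA : 1 ≤ A) (hcp : 0 ≤ cp)
    (hV : VP hM F (ParOf cp A m0 γ L M B) y i G w w' u v l b c h)
    (hl : h ∈ Lnk γ L b c) (hk : ¬ killedB (lamR F (ParOf cp A m0 γ L M B)) b c h)
    (hF : FarA F (ParOf cp A m0 γ L M B) i b c h)
    (hs1 : 2 ^ s ≤ 2 * l) (hs2 : l < 2 ^ (s + 1))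
    (n1 : 2 ^ i * (L / 2 ^ s) ≤ ((G * low (2 ^ (A * i)) w : ℕ) : ℝ))
    (n1' : ((G * low (2 ^ (A * i)) w : ℕ) : ℝ) < 2 ^ (i + 1) * (L / 2 ^ s))
    (hib : i < jb) (nb : 2 ^ jb * (L / 2 ^ s) ≤ ((G * low (2 ^ (A * jb)) w : ℕ) : ℝ))
    (nb' : ((G * low (2 ^ (A * jb)) w : ℕ) : ℝ) < 2 ^ (jb + 1) * (L / 2 ^ s))
    (hic : i < jc) (nc : 2 ^ jc * (L / 2 ^ s) ≤ ((G * low (2 ^ (A * jc)) w' : ℕ) : ℝ))
    (nc' : ((G * low (2 ^ (A * jc)) w' : ℕ) : ℝ) < 2 ^ (jc + 1) * (L / 2 ^ s))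
    (ob : On K ((upp (2 ^ (A * jb)) w : ℝ) * γ)
      (((G * low (2 ^ (A * jb)) w : ℕ) : ℝ) / (L / 2 ^ s)))
    (oc : On K ((upp (2 ^ (A * jc)) w' : ℝ) * γ)
      (((G * low (2 ^ (A * jc)) w' : ℕ) : ℝ) / (L / 2 ^ s)))
    {K' : ℝ} (hKb : 2 * u * K ≤ K') (hKc : 2 * v * K ≤ K') (hK1 : 3 * K' ^ 2 ≤ (2 : ℝ) ^ i)
    (hK8 : K' ≤ (2 : ℝ) ^ ((i : ℝ) / 8)) (hKE : K' ≤ (2 : ℝ) ^ (cp * (((A + 1) * i : ℕ) - 1 : ℝ))) :
    CHvy F (ParOf cp A m0 γ L M B) w1 ε b c h := by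
  set P := ParOf cp A m0 γ L M B with hP
  have hcut : ∀ m, P.cut m = 2 ^ (A * m) := fun m => rfl
  have h2i : 2 ≤ i := H.two.trans hF.m0
  have hL : 0 < P.L := H.hL
  have hDb : D (hiFL hM y F) (H0 hM F y b) ≤ P.cut i := by rw [hV.Gb]; exact hV.D_le
  have hDc : D (hiFL hM y F) (H0 hM F y c) ≤ P.cut i := by rw [hV.Gc]; exact hV.D_le
  have hlow : low (2 ^ (A * i)) w' = low (2 ^ (A * i)) w := hV.low_eq
  obtain ⟨b1, b2, b3, b4⟩ := light_true (hM := hM) (F := F) (P := P) (A := A) (y := y) (i := i)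
    (j := jb) (s := s) (b := b) (u := u) (l := l) (K := K) hV.hb hL hA hcut h2i hib hV.hy hV.lb
    hV.u_pos hDb hs1 hs2 (by rw [hV.Gb, hV.wb]; exact n1) (by rw [hV.Gb, hV.wb]; exact n1')
    (by rw [hV.Gb, hV.wb]; exact nb) (by rw [hV.Gb, hV.wb]; exact nb')
    (by rw [hV.Gb, hV.wb]; exact ob)
  obtain ⟨c1, c2, c3, c4⟩ := light_true (hM := hM) (F := F) (P := P) (A := A) (y := y) (i := i)
    (j := jc) (s := s) (b := c) (u := v) (l := l) (K := K) hV.hc hL hA hcut h2i hic hV.hy hV.lc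
    hV.v_pos hDc hs1 hs2 (by rw [hV.Gc, hV.wc, hcut, hlow]; exact n1)
    (by rw [hV.Gc, hV.wc, hcut, hlow]; exact n1')
    (by rw [hV.Gc, hV.wc]; exact nc) (by rw [hV.Gc, hV.wc]; exact nc')
    (by rw [hV.Gc, hV.wc]; exact oc)
  have hE : ∀ j, (A + 1) * i ≤ j → K' ≤ (2 : ℝ) ^ (cp * ((j - 1 : ℕ) : ℝ)) := by
    intro j hj
    refine hKE.trans (Real.rpow_le_rpow_of_exponent_le (by norm_num) ?_)
    refine mul_le_mul_of_nonneg_left ?_ hcp
    have h1 : 1 ≤ j := by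
      have : 1 * i ≤ (A + 1) * i := Nat.mul_le_mul_right _ (by omega)
      omega
    rw [Nat.cast_sub h1]
    have : (((A + 1) * i : ℕ) : ℝ) ≤ j := by exact_mod_cast hj
    push_cast at this ⊢
    linarith
  exact kill_par' H hA hV.hb hV.hc hl hk hF hK1 (hE jb b4) (hE jc c4) hK8 b1 c1 b2 c2
    (b3.mono hKb) (c3.mono hKc)

/-- **(F2) in the vector case**: world `Z` of the core with window `L / 2^s`; both words stay in
their zones at the node of index `i` ⟹ killed or heavy -/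
theorem killV {hM : 0 < M} {F : FL M} {y i s G w w' u v l b c : ℕ} {h : ℤ}
    (H : Hy F (ParOf cp A m0 γ L M B) w1 δ ε D1) (hA : 1 ≤ A) (hcp : 0 ≤ cp)
    (hV : VP hM F (ParOf cp A m0 γ L M B) y i G w w' u v l b c h)
    (hl : h ∈ Lnk γ L b c) (hk : ¬ killedB (lamR F (ParOf cp A m0 γ L M B)) b c h)
    (hF : FarA F (ParOf cp A m0 γ L M B) i b c h)
    (hs1 : 2 ^ s ≤ 2 * l) (hs2 : l < 2 ^ (s + 1))
    {Z : World} (hZ : Z.Ok) (eG : Z.G0 = G) (eL : Z.L = L / 2 ^ s)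
    (ecut : Z.cut = fun m => 2 ^ (A * m)) (eγ : Z.γ = γ)
    (hcell : ∀ (K : ℝ) (ν : Node) (w w' : ℕ), w ∈ Z.S ν → w' ∈ Z.S ν →
      On K (Z.yy ν.1 w') (Z.tt ν.1 w') → On (4 * K) (Z.yy ν.1 w) (Z.tt ν.1 w))
    {z z' ν ν' : Node} (hν : ν ∈ Z.Nd z) (hν' : ν' ∈ Z.Nd z') (hi : ν.1 = i) (hi' : ν'.1 = i)
    (hw : w ∈ Z.S ν) (hw' : w' ∈ Z.S ν') (hwA : w ∉ Z.A z ν) (hwA' : w' ∉ Z.A z' ν')
    {K' : ℝ} (hKb : 8 * u * Z.θ i ≤ K') (hKc : 8 * v * Z.θ i ≤ K')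
    (hK1 : 3 * K' ^ 2 ≤ (2 : ℝ) ^ i)
    (hK8 : K' ≤ (2 : ℝ) ^ ((i : ℝ) / 8)) (hKE : K' ≤ (2 : ℝ) ^ (cp * (((A + 1) * i : ℕ) - 1 : ℝ))) :
    CHvy F (ParOf cp A m0 γ L M B) w1 ε b c h := by
  obtain ⟨jb, b1, b2, _, _, b5⟩ := GWleavex262.leave hZ hcell hν hw hwA
  obtain ⟨jc, c1, c2, _, _, c5⟩ := GWleavex262.leave hZ hcell hν' hw' hwA'
  rw [hi] at b1 b5
  rw [hi'] at c1 c5
  have hn := ((GWnodex863.mem_S hZ).1 hw).2.1
  rw [hi] at hn
  have ee : ∀ j x, Z.e j x = G * low (2 ^ (A * j)) x := by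
    intro j x
    show Z.G0 * low (Z.cut j) x = _
    rw [eG, ecut]
  have et : ∀ j x, Z.tt j x = ((G * low (2 ^ (A * j)) x : ℕ) : ℝ) / (L / 2 ^ s) := by
    intro j x
    show (Z.e j x : ℝ) / Z.L = _
    rw [ee, eL]
  have ey : ∀ j x, Z.yy j x = (upp (2 ^ (A * j)) x : ℝ) * γ := by
    intro j x
    show (upp (Z.cut j) x : ℝ) * Z.γ = _
    rw [ecut, eγ]
  have n1 := hn.2.1
  have n2 := hn.2.2
  have nb1 := b2.2.1
  have nb2 := b2.2.2
  have nc1 := c2.2.1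
  have nc2 := c2.2.2
  rw [ee, eL] at n1 n2 nb1 nb2 nc1 nc2
  rw [et, ey] at b5 c5
  exact killV_on H hA hcp hV hl hk hF hs1 hs2 n1 n2 b1 nb1 nb2 c1 nc1 nc2 b5 c5
    (K' := K') (by linarith) (by linarith) hK1 hK8 hKE

end par

end Crest.Agent.R4C.KillVx19
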