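import Crest.Agent.R4C.TopKy_971
import Crest.Agent.R4C.SpineKit_946
import Crest.Agent.R4C.ClsBad_250

/-!
# Row 4: the class of the `K_y` event, and scalar boosts off it (helper971)

* `LevT F P t b c h` : the hypotheses common to all pairs of level `t` (classes `CHvy`, `CTw`,
  `CNP`, `CLow`, and the far classes of own scale `t`); `LevT.of_BP`, `LevT.of_LP`, `LevT.of_FarA`.
* `CKyP F P b c h` : some level `t` with `1 ≤ iy t (cof b c)`.
* **`clsKy_ok`** : `ClsOK γ clsKy`.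
* **`ClsOK_off`** : `ClsOK γ (R ∧ ¬ clsKy) → ClsOK γ R`.
* `B1_off_ky`, `boost_off_bst`, `boost_off` : off the class, `B1 ≤ e² CM (1 + log t)` and
  `boostB ≤ KB A * (t (1 + log t))`; `oS_off` : the sum over the offsets.
-/

set_option autoImplicit false

open Finset

namespace Crest.Agent.R4C.KyClsx971

open Crest.Agent.R4C.Basex935 Crest.Agent.R4C.FLDefx935 Crest.Agent.R4C.BoostCx972
  Crest.Agent.R4C.CrCoinx935 Crest.Agent.R4C.CrCountx935 Crest.Agent.R4C.Bridgex882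
  Crest.Agent.R4C.Rulex945 Crest.Agent.R4C.Sharedx11
  Crest.Agent.R4C.Splitx945 Crest.Agent.R4C.BoostAlx100 Crest.Agent.R4C.ClsBadx250
  Crest.Agent.R4C.Spinex946 Crest.Agent.R4C.FLShx326 Crest.Agent.R4C.Kyx952
  Crest.Agent.R4C.Topx971

section defs

variable {M : ℕ} (F : FL M) (P : Par)

/-- the hypotheses common to all pairs of level `t` -/
structure LevT (t b c : ℕ) (h : ℤ) : Prop where
  m0 : P.m0 ≤ t
  good : F.good (P.cut t) b c
  al : AlLe F P b c h (P.cut (2 * t))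
  scl : (Nat.gcd b c : ℝ) < 2 ^ (t + 1) * P.L
  near : X1 P b c < P.cut t

/-- the event `K_y` at a level of the pair -/
def CKyP (b c : ℕ) (h : ℤ) : Prop := ∃ t, LevT F P t b c h ∧ 1 ≤ iy (t : ℝ) (cof b c)

end defs

/-- the class in the form of the spine -/
def clsKy (γ : ℝ) : Cls := fun cp _ A m0 L M B F b c h =>
  CKyP F (ParOf cp A m0 γ L M B) b c h

section lev

variable {M : ℕ} {F : FL M} {P : Par} {t b c : ℕ} {h : ℤ}

lemma LevT.of_BP (hcut : Monotone P.cut) (hL : 0 < P.L) {f f' : ℚ} (H : BP F P t b c h f f') :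
    LevT F P t b c h where
  m0 := by have := H.m0; omega
  good := H.good
  al := fun q hq => (H.al q hq).trans (hcut (by omega))
  scl := by
    have h1 := H.scl
    have h2 : (2 : ℝ) ^ (t + 1) * P.L ^ 2 < (2 ^ (t + 1) * P.L) ^ 2 := by
      rw [mul_pow]
      refine mul_lt_mul_of_pos_right ?_ (by positivity)
      rw [sq]
      have : (1 : ℝ) < 2 ^ (t + 1) := one_lt_pow₀ (by norm_num) (by omega)
      nlinarith
    exact lt_of_pow_lt_pow_left₀ 2 (by positivity) (lt_of_le_of_lt h1 h2)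
  near := H.near

lemma LevT.of_LP {f f' : ℚ} {p : ℕ} (H : LP F P t b c h f f' p) : LevT F P t b c h where
  m0 := H.m0
  good := H.good
  al := H.al
  scl := H.scl
  near := H.near

lemma LevT.of_FarA (hL : 0 < P.L) (h3 : 3 ≤ P.cut t) (H : FarA F P t b c h) :
    LevT F P t b c h where
  m0 := H.m0
  good := H.good
  al := H.al
  scl := H.hi
  near := by
    have h1 : P.L ≤ (Nat.gcd b c : ℝ) := by
      have h2 : (1 : ℝ) ≤ 2 ^ t := one_le_pow₀ (by norm_num)
      have h4 := H.lo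
      nlinarith
    have hg : (0 : ℝ) < (Nat.gcd b c : ℝ) := hL.trans_le h1
    have h4 : max 1 (P.L / (Nat.gcd b c : ℕ)) = 1 := max_eq_left ((div_le_one hg).2 h1)
    unfold X1
    rw [h4, Real.one_rpow]
    have h5 : Real.exp 1 < 3 := by
      have := Real.exp_one_lt_d9
      linarith
    have h6 : (3 : ℝ) ≤ P.cut t := by exact_mod_cast h3
    linarith

end lev

/-! ### numbers -/

lemma CM_nonneg : 0 ≤ CM := by
  have h1 := prod_pf_le_mertens (y := 2) le_rfl (S := ∅) (by simp)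
  rw [Finset.prod_empty] at h1
  have h2 : 0 < Real.log 2 := Real.log_pos (by norm_num)
  by_contra hcon
  push Not at hcon
  nlinarith

/-- eventually `K t^9 ≤ exp t` -/
lemma ev_pow_exp (K : ℝ) : ∃ m1 : ℕ, ∀ t : ℕ, m1 ≤ t → K * (t : ℝ) ^ 9 ≤ Real.exp t := by
  have h1 := Real.tendsto_pow_mul_exp_neg_atTop_nhds_zero 9
  have h2 : ∀ᶠ x : ℝ in Filter.atTop, (|K| + 1) * (x ^ 9 * Real.exp (-x)) < 1 := by
    have h3 := h1.const_mul (|K| + 1)
    rw [mul_zero] at h3
    exact h3.eventually (gt_mem_nhds one_pos)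
  obtain ⟨x0, hx0⟩ := Filter.eventually_atTop.1 h2
  refine ⟨⌈x0⌉₊, fun t ht => ?_⟩
  have h4 := hx0 t ((Nat.le_ceil _).trans (by exact_mod_cast ht))
  have h5 : 0 < Real.exp (t : ℝ) := Real.exp_pos _
  rw [Real.exp_neg] at h4
  have h6 : (|K| + 1) * ((t : ℝ) ^ 9) < Real.exp t := by
    have h7 : (|K| + 1) * ((t : ℝ) ^ 9 * (Real.exp t)⁻¹) =
        (|K| + 1) * (t : ℝ) ^ 9 / Real.exp t := by
      rw [div_eq_mul_inv]
      ring
    rw [h7, div_lt_one h5] at h4
    exact h4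
  have h8 : K * (t : ℝ) ^ 9 ≤ (|K| + 1) * (t : ℝ) ^ 9 := by
    refine mul_le_mul_of_nonneg_right ?_ (by positivity)
    linarith [le_abs_self K]
  linarith

/-- the constant of the boost at the level `t` -/
noncomputable def KW (A : ℕ) : ℝ := 3 * (A : ℝ) ^ 8 * (Real.exp 1200 * CM * (2 * A))

lemma KW_nonneg (A : ℕ) : 0 ≤ KW A := by
  have := CM_nonneg
  unfold KW
  positivity

section main

variable {M : ℕ} {F : FL M} {cp γ L : ℝ} {A m0 : ℕ} {B : Finset ℕ}

lemma cut_eq (m : ℕ) : (ParOf cp A m0 γ L M B).cut m = 2 ^ (A * m) := rfl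

lemma cut_mono' : Monotone (ParOf cp A m0 γ L M B).cut := by
  intro i j hij
  rw [cut_eq, cut_eq]
  exact Nat.pow_le_pow_right (by norm_num) (Nat.mul_le_mul_left _ hij)

lemma log_cut (t : ℕ) : Real.log ((ParOf cp A m0 γ L M B).cut t : ℕ) ≤ A * t := by
  rw [cut_eq]
  push_cast
  rw [Real.log_pow]
  have e1 : Real.log 2 ≤ 1 := by
    have := Real.log_two_lt_d9
    linarith
  have e3 : (0 : ℝ) ≤ ((A * t : ℕ) : ℝ) := Nat.cast_nonneg _
  calc ((A * t : ℕ) : ℝ) * Real.log 2 ≤ ((A * t : ℕ) : ℝ) * 1 := mul_le_mul_of_nonneg_left e1 e3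
    _ = _ := by push_cast; ring

lemma two_le_cut (hA : 1 ≤ A) {t : ℕ} (ht : 1 ≤ t) : 2 ≤ (ParOf cp A m0 γ L M B).cut t := by
  rw [cut_eq]
  calc 2 = 2 ^ 1 := by norm_num
    _ ≤ 2 ^ (A * t) := Nat.pow_le_pow_right (by norm_num) (by nlinarith)

/-- boost of one offset of a level -/
lemma boost_lev_bst (hM : 0 < M) {b c : ℕ} (hb : b ∣ M) (hc : c ∣ M) (hL : 0 < L) (hA : 1 ≤ A)
    {t : ℕ} (ht : 1 ≤ t) {h : ℤ} (hl : h ∈ Lnk γ L b c)
    (H : LevT F (ParOf cp A m0 γ L M B) t b c h) :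
    boostB M (lamOf cp A m0 γ L M B F) b c h ≤ Real.exp 1200 *
      (B1 b c * BoostRx398.bst (BoostTopx19.prQ ((ParOf cp A m0 γ L M B).cut (2 * t))) M b c) := by
  set P := ParOf cp A m0 γ L M B with hP
  have h1 : P.cut t ≤ P.cut (2 * t) := cut_mono' (by omega)
  have h2 : (P.cut t : ℝ) ≤ P.cut (2 * t) := by exact_mod_cast h1
  exact boost_alQ (F := F) (P := P) hM hb hc hL (fun i => rfl)
    (fun b i => min_le_right _ _) (two_le_cut hA (by omega)) (FL.good_mono h1 H.good) hl H.al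
    (Or.inl (H.near.le.trans h2))

lemma boost_lev (hM : 0 < M) {b c : ℕ} (hb : b ∣ M) (hc : c ∣ M) (hL : 0 < L) (hA : 1 ≤ A)
    {t : ℕ} (ht : 1 ≤ t) {h : ℤ} (hl : h ∈ Lnk γ L b c)
    (H : LevT F (ParOf cp A m0 γ L M B) t b c h) :
    boostB M (lamOf cp A m0 γ L M B F) b c h ≤ Real.exp 1200 * CM * (2 * A * t) * B1 b c := by
  set P := ParOf cp A m0 γ L M B with hP
  refine (boost_lev_bst hM hb hc hL hA ht hl H).trans ?_
  have h1 := bst_le_log (Q := P.cut (2 * t)) (two_le_cut hA (by omega)) M b c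
  have h2 : Real.log (P.cut (2 * t) : ℕ) ≤ 2 * A * t := by
    refine (log_cut (2 * t)).trans (le_of_eq ?_)
    push_cast
    ring
  have h3 : BoostRx398.bst (BoostTopx19.prQ (P.cut (2 * t))) M b c ≤ CM * (2 * A * t) :=
    h1.trans (mul_le_mul_of_nonneg_left h2 CM_nonneg)
  calc Real.exp 1200 * (B1 b c * BoostRx398.bst (BoostTopx19.prQ (P.cut (2 * t))) M b c)
      ≤ Real.exp 1200 * (B1 b c * (CM * (2 * A * t))) :=
        mul_le_mul_of_nonneg_left (mul_le_mul_of_nonneg_left h3 (B1_nonneg b c))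
          (Real.exp_pos _).le
    _ = _ := by ring

/-- size of `L / gcd` at a level -/
lemma max_lev {b c t : ℕ} {h : ℤ} (H : LevT F (ParOf cp A m0 γ L M B) t b c h) :
    max 1 (L / (Nat.gcd b c : ℕ)) ≤ ((A : ℝ) * t) ^ 8 := by
  have h1 := H.near
  rw [cut_eq] at h1
  push_cast at h1
  exact max_le_of_X1 (P := ParOf cp A m0 γ L M B) h1

open Classical in
/-- **the energy of the class, for one value of the constants** -/
theorem ky_en {C y1 : ℝ} (hC : 0 < C)
    (H : ∀ (M : ℕ) (B : Finset ℕ) (L : ℝ), 0 < L → B ⊆ M.divisors →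
      L * ∑ b ∈ B, nu M b ≤ 1 → ∀ (W y : ℕ → ℕ → ℝ),
      (∀ b ∈ B, ∀ c ∈ B, 1 ≤ iy (y b c) (cof b c) → y1 ≤ y b c ∧ 0 ≤ W b c ∧
        W b c ≤ Real.exp (y b c) ∧ (Nat.gcd b c : ℝ) ≤ Real.exp (y b c) * L ∧
        L ≤ Real.exp (y b c) * Nat.gcd b c) →
      L * ∑ b ∈ B, ∑ c ∈ B, (if 1 ≤ iy (y b c) (cof b c) then
        (Nat.gcd b c : ℝ) * nu M b * nu M c * (W b c * B1 b c) else 0) ≤
      C * (L * ∑ b ∈ B, nu M b)) {η : ℝ} (hA : 1 ≤ A) (hm0 : 3 ≤ m0)
    (hy1 : y1 ≤ m0) (hK : ∀ t : ℕ, m0 ≤ t → KW A * (t : ℝ) ^ 9 ≤ Real.exp t)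
    (hK' : ∀ t : ℕ, m0 ≤ t → ((A : ℝ) ^ 8) * (t : ℝ) ^ 9 ≤ Real.exp t)
    (S : Setup η L M B F) :
    EnR γ L M B (lamOf cp A m0 γ L M B F) (CKyP F (ParOf cp A m0 γ L M B)) ≤ C := by
  set P := ParOf cp A m0 γ L M B with hP
  set lam := lamOf cp A m0 γ L M B F with hlam
  -- the levels of a pair
  set T : ℕ → ℕ → Set ℕ := fun b c =>
    {t | ∃ h ∈ Lnk γ L b c, LevT F P t b c h ∧ 1 ≤ iy (t : ℝ) (cof b c)} with hT
  set yy : ℕ → ℕ → ℕ := fun b c => if (T b c).Nonempty then sSup (T b c) else M with hyy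
  have hprime : ∀ b ∈ B, ∀ c ∈ B, ∀ p ∈ (cof b c).primeFactors, p ≤ M := by
    intro b hb c hc p hp
    have hpp := Nat.prime_of_mem_primeFactors hp
    have hd := Nat.dvd_of_mem_primeFactors hp
    have hb0 := S.pos hb
    have hc0 := S.pos hc
    have hbM : b ≤ M := Nat.le_of_dvd S.hM (S.dvd hb)
    have hcM : c ≤ M := Nat.le_of_dvd S.hM (S.dvd hc)
    unfold cof at hd
    rcases (Nat.Prime.dvd_mul hpp).1 hd with h | h
    · exact (Nat.le_of_dvd (Nat.div_pos (Nat.gcd_le_left c (by omega))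
        (Nat.gcd_pos_of_pos_left c (by omega))) h).trans ((Nat.div_le_self _ _).trans hbM)
    · exact (Nat.le_of_dvd (Nat.div_pos (Nat.gcd_le_right b (by omega))
        (Nat.gcd_pos_of_pos_left c (by omega))) h).trans ((Nat.div_le_self _ _).trans hcM)
  have hbig : ∀ b ∈ B, ∀ c ∈ B, ∀ t : ℕ, 1 ≤ iy (t : ℝ) (cof b c) → t < M := by
    intro b hb c hc t ht
    by_contra hcon
    rw [NearTotx360.iy_zero_of_large (hprime b hb c hc) (not_lt.1 hcon)] at ht
    linarith
  have hbdd : ∀ b ∈ B, ∀ c ∈ B, BddAbove (T b c) := fun b hb c hc =>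
    ⟨M, fun t ⟨h, _, _, h2⟩ => (hbig b hb c hc t h2).le⟩
  -- the level is attained
  have hatt : ∀ b ∈ B, ∀ c ∈ B, 1 ≤ iy ((yy b c : ℕ) : ℝ) (cof b c) →
      yy b c ∈ T b c := by
    intro b hb c hc h1
    simp only [hyy] at h1 ⊢
    split_ifs at h1 ⊢ with h2
    · exact Nat.sSup_mem h2 (hbdd b hb c hc)
    · exact absurd (hbig b hb c hc M h1) (lt_irrefl _)
  set W : ℕ → ℕ → ℝ := fun b c => oS γ L M lam (CKyP F P) b c / B1 b c with hW
  have hB1 : ∀ b c : ℕ, 0 < B1 b c := fun b c => lt_of_lt_of_le one_pos (one_le_B1 b c)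
  have hW0 : ∀ b c, 0 ≤ W b c := fun b c => div_nonneg (oS_nonneg _ _ _) (hB1 b c).le
  have hmain := H M B L S.hL S.hB S.mass W (fun b c => ((yy b c : ℕ) : ℝ)) ?_
  · -- comparison
    have hCm : C * (L * ∑ b ∈ B, nu M b) ≤ C := mul_le_of_le_one_right hC.le S.mass
    refine le_trans ?_ (hmain.trans hCm)
    rw [EnR_eq]
    refine mul_le_mul_of_nonneg_left (Finset.sum_le_sum fun b hb => ?_) S.hL.le
    have hnn : ∀ c, 0 ≤ (if 1 ≤ iy ((yy b c : ℕ) : ℝ) (cof b c) then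
        (Nat.gcd b c : ℝ) * nu M b * nu M c * (W b c * B1 b c) else 0) := by
      intro c
      split_ifs
      · exact mul_nonneg (pref_nonneg _ _ _) (mul_nonneg (hW0 b c) (hB1 b c).le)
      · exact le_rfl
    refine le_trans (Finset.sum_le_sum fun c hc => ?_)
      (Finset.sum_le_sum_of_subset_of_nonneg (Finset.erase_subset b B) fun c _ _ => hnn c)
    have hcB := Finset.mem_of_mem_erase hc
    by_cases h1 : ∃ h ∈ Lnk γ L b c, CKyP F P b c h
    · obtain ⟨h, hh, t, h2, h3⟩ := h1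
      have h4 : t ∈ T b c := ⟨h, hh, h2, h3⟩
      have h5 : (T b c).Nonempty := ⟨t, h4⟩
      have h6 : yy b c = sSup (T b c) := by simp only [hyy]; rw [if_pos h5]
      have h7 : yy b c ∈ T b c := h6 ▸ Nat.sSup_mem h5 (hbdd b hb c hcB)
      obtain ⟨h', _, _, h8⟩ := h7
      rw [if_pos h8]
      refine mul_le_mul_of_nonneg_left (le_of_eq ?_) (pref_nonneg _ _ _)
      simp only [hW]
      rw [div_mul_cancel₀ _ (hB1 b c).ne']
    · have h2 : oS γ L M lam (CKyP F P) b c = 0 := by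
        unfold oS
        refine Finset.sum_eq_zero fun x hx => ?_
        rw [Finset.mem_filter] at hx
        exact absurd ⟨x, hx.1, hx.2.2⟩ h1
      rw [h2, mul_zero]
      exact hnn c
  · intro b hb c hc hev
    obtain ⟨h₀, hh₀, hlev, _⟩ := hatt b hb c hc hev
    set t := yy b c with ht
    have htm : m0 ≤ t := hlev.m0
    have ht0 : (0 : ℝ) ≤ (t : ℝ) := Nat.cast_nonneg t
    have hmt : (m0 : ℝ) ≤ t := by exact_mod_cast htm
    have hmax := max_lev hlev
    have hg0 : 0 < Nat.gcd b c := Nat.gcd_pos_of_pos_left _ (S.pos hb)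
    have hg0' : (0 : ℝ) < (Nat.gcd b c : ℝ) := by exact_mod_cast hg0
    have ht1 : (1 : ℝ) ≤ t := by
      have : 1 ≤ t := by omega
      exact_mod_cast this
    have hA8 : ((A : ℝ) * t) ^ 8 ≤ Real.exp t := by
      refine le_trans ?_ (hK' t htm)
      rw [mul_pow]
      refine mul_le_mul_of_nonneg_left ?_ (by positivity)
      exact pow_le_pow_right₀ ht1 (by norm_num)
    refine ⟨hy1.trans hmt, hW0 b c, ?_, ?_, ?_⟩
    · -- the weight
      simp only [hW]
      rw [div_le_iff₀ (hB1 b c)]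
      have hone : ∀ x ∈ (Lnk γ L b c).filter (fun h => ¬ killedB lam b c h ∧ CKyP F P b c h),
          boostB M lam b c x ≤ Real.exp 1200 * CM * (2 * A * t) * B1 b c := by
        intro x hx
        rw [Finset.mem_filter] at hx
        obtain ⟨hx1, _, s, hs, hs2⟩ := hx
        have hsT : s ∈ T b c := ⟨x, hx1, hs, hs2⟩
        have hst : s ≤ t := by
          rw [ht]
          simp only [hyy]
          rw [if_pos ⟨s, hsT⟩]
          exact le_csSup (hbdd b hb c hc) hsT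
        have hs1 : 1 ≤ s := by
          have : m0 ≤ s := hs.m0
          omega
        refine (boost_lev S.hM (S.dvd hb) (S.dvd hc) S.hL hA hs1 hx1 hs).trans ?_
        have hst' : (s : ℝ) ≤ t := by exact_mod_cast hst
        have := CM_nonneg
        have := (hB1 b c).le
        gcongr
      have hsum : oS γ L M lam (CKyP F P) b c ≤ ((Lnk γ L b c).card : ℝ) *
          (Real.exp 1200 * CM * (2 * A * t) * B1 b c) := by
        unfold oS
        refine (Finset.sum_le_sum hone).trans ?_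
        rw [Finset.sum_const, nsmul_eq_mul]
        refine mul_le_mul_of_nonneg_right ?_ ?_
        · exact_mod_cast Finset.card_le_card (Finset.filter_subset _ _)
        · have := CM_nonneg
          have := (hB1 b c).le
          positivity
      refine hsum.trans ?_
      have hcard : ((Lnk γ L b c).card : ℝ) ≤ 3 * ((A : ℝ) * t) ^ 8 :=
        (card_Lnk (γ := γ) S.hL b c).trans (mul_le_mul_of_nonneg_left hmax (by norm_num))
      calc ((Lnk γ L b c).card : ℝ) * (Real.exp 1200 * CM * (2 * A * t) * B1 b c)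
          ≤ (3 * ((A : ℝ) * t) ^ 8) * (Real.exp 1200 * CM * (2 * A * t) * B1 b c) := by
            refine mul_le_mul_of_nonneg_right hcard ?_
            have := CM_nonneg
            have := (hB1 b c).le
            positivity
        _ = (KW A * (t : ℝ) ^ 9) * B1 b c := by
            unfold KW
            ring
        _ ≤ Real.exp t * B1 b c := mul_le_mul_of_nonneg_right (hK t htm) (hB1 b c).le
    · refine hlev.scl.le.trans (mul_le_mul_of_nonneg_right ?_ S.hL.le)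
      -- `2^(t+1) ≤ exp t`
      have h1 : Real.log 2 ≤ 3 / 4 := by
        have := Real.log_two_lt_d9
        linarith
      have h2 : (2 : ℝ) ^ (t + 1) = Real.exp (((t + 1 : ℕ) : ℝ) * Real.log 2) := by
        rw [Real.exp_nat_mul, Real.exp_log (by norm_num)]
      rw [h2, Real.exp_le_exp]
      have h3 : (3 : ℝ) ≤ t := by
        have : 3 ≤ t := hm0.trans htm
        exact_mod_cast this
      have h4 : ((t + 1 : ℕ) : ℝ) * Real.log 2 ≤ ((t + 1 : ℕ) : ℝ) * (3 / 4) :=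
        mul_le_mul_of_nonneg_left h1 (Nat.cast_nonneg _)
      refine h4.trans ?_
      push_cast
      linarith
    · have h1 : L / (Nat.gcd b c : ℕ) ≤ Real.exp t :=
        (le_max_right _ _).trans (hmax.trans hA8)
      rwa [div_le_iff₀ hg0'] at h1

end main

/-- **the class `clsKy` has bounded energy** -/
theorem clsKy_ok (γ : ℝ) : ClsOK γ (clsKy γ) := by
  obtain ⟨C, y1, hC, hy1, H⟩ := ky_total
  unfold ClsOK
  refine ((Ev.basic).and ((Ev.le_m0 fun _ _ _ => max 3 y1).and (Ev.of_m0 (P := fun cp η A m0 =>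
    (∀ t : ℕ, m0 ≤ t → KW A * (t : ℝ) ^ 9 ≤ Real.exp t) ∧
    (∀ t : ℕ, m0 ≤ t → ((A : ℝ) ^ 8) * (t : ℝ) ^ 9 ≤ Real.exp t)) ?_))).mono ?_
  · intro cp η A _ _
    obtain ⟨m1, h1⟩ := ev_pow_exp (KW A)
    obtain ⟨m2, h2⟩ := ev_pow_exp ((A : ℝ) ^ 8)
    exact ⟨max m1 m2, fun m0 hm0 =>
      ⟨fun t ht => h1 t (((le_max_left _ _).trans hm0).trans ht),
        fun t ht => h2 t (((le_max_right _ _).trans hm0).trans ht)⟩⟩
  · rintro cp η A m0 ⟨⟨hcp, _, hη, _, hη1, hA, _⟩, h3, h4, h5⟩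
    refine ⟨C, fun L M B F S => ?_⟩
    have h6 : (3 : ℝ) ≤ m0 := (le_max_left _ _).trans h3
    have h7 : y1 ≤ m0 := (le_max_right _ _).trans h3
    exact ky_en hC H hA (by exact_mod_cast h6) h7 h4 h5 S

/-- **reduction**: it is enough to bound a class off the event -/
theorem ClsOK_off {γ : ℝ} {R : Cls}
    (h : ClsOK γ (fun cp η A m0 L M B F b c x => R cp η A m0 L M B F b c x ∧
      ¬ clsKy γ cp η A m0 L M B F b c x)) : ClsOK γ R := by
  refine (h.or (clsKy_ok γ)).mono (Ev.of_forall fun cp η A m0 L M B F _ b _ c _ _ x _ _ hx => ?_)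
  by_cases hk : clsKy γ cp η A m0 L M B F b c x
  · exact Or.inr hk
  · exact Or.inl ⟨hx, hk⟩

/-! ### off the class -/

section off

variable {M : ℕ} {F : FL M} {cp γ L : ℝ} {A m0 : ℕ} {B : Finset ℕ}

/-- `B1` off the class, at any level of the pair -/
theorem B1_off_ky {P : Par} {b c t : ℕ} {h : ℤ} (H : LevT F P t b c h) (ht : 1 ≤ t)
    (hn : ¬ CKyP F P b c h) :
    B1 b c ≤ Real.exp 2 * S4cx682.CM * (1 + Real.log t) := by
  refine B1_off_log (by exact_mod_cast ht) ?_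
  by_contra hc
  exact hn ⟨t, H, not_lt.1 hc⟩

/-- `B1` off the class, no differing prime in `(Z, t]` -/
theorem B1_off_ky_gap {P : Par} {b c t : ℕ} {h : ℤ} (H : LevT F P t b c h)
    (hn : ¬ CKyP F P b c h) {Z : ℝ} (hZ : 1 ≤ Z)
    (hg : ∀ p ∈ (cof b c).primeFactors, Z < (p : ℝ) → (t : ℝ) < (p : ℝ)) :
    B1 b c ≤ Real.exp 2 * S4cx682.CM * (1 + Real.log Z) := by
  refine B1_off_gap hZ ?_ hg
  by_contra hc
  exact hn ⟨t, H, not_lt.1 hc⟩

/-- `B1` off the class: only the primes `≤ t` of the low word -/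
theorem B1_off_ky_lo {P : Par} {b c t : ℕ} {h : ℤ} (H : LevT F P t b c h)
    (hn : ¬ CKyP F P b c h) : B1 b c ≤ Real.exp 2 * B1lo t b c := by
  refine B1_off ?_
  by_contra hc
  exact hn ⟨t, H, not_lt.1 hc⟩

/-- constant of `boost_off` -/
noncomputable def KB (A : ℕ) : ℝ :=
  Real.exp 1200 * CM * (2 * A) * (Real.exp 2 * S4cx682.CM)

lemma KB_nonneg (A : ℕ) : 0 ≤ KB A := by
  have := CM_nonneg
  have := S4cx682.CM_pos
  unfold KB
  positivity

/-- **the boost off the class, with `bst` kept** -/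
theorem boost_off_bst (hM : 0 < M) {b c : ℕ} (hb : b ∣ M) (hc : c ∣ M) (hL : 0 < L) (hA : 1 ≤ A)
    {t : ℕ} (ht : 1 ≤ t) {h : ℤ} (hl : h ∈ Lnk γ L b c)
    (H : LevT F (ParOf cp A m0 γ L M B) t b c h) (hn : ¬ CKyP F (ParOf cp A m0 γ L M B) b c h) :
    boostB M (lamOf cp A m0 γ L M B F) b c h ≤
      Real.exp 1200 * (Real.exp 2 * S4cx682.CM) * (1 + Real.log t) *
      BoostRx398.bst (BoostTopx19.prQ ((ParOf cp A m0 γ L M B).cut (2 * t))) M b c := by
  refine (boost_lev_bst hM hb hc hL hA ht hl H).trans ?_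
  have h1 := B1_off_ky H ht hn
  have h2 := bst_nonneg ((ParOf cp A m0 γ L M B).cut (2 * t)) M b c
  calc Real.exp 1200 *
      (B1 b c * BoostRx398.bst (BoostTopx19.prQ ((ParOf cp A m0 γ L M B).cut (2 * t))) M b c)
      ≤ Real.exp 1200 * ((Real.exp 2 * S4cx682.CM * (1 + Real.log t)) *
        BoostRx398.bst (BoostTopx19.prQ ((ParOf cp A m0 γ L M B).cut (2 * t))) M b c) :=
        mul_le_mul_of_nonneg_left (mul_le_mul_of_nonneg_right h1 h2) (Real.exp_pos _).le
    _ = _ := by ring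

/-- **the boost off the class, scalar form** -/
theorem boost_off (hM : 0 < M) {b c : ℕ} (hb : b ∣ M) (hc : c ∣ M) (hL : 0 < L) (hA : 1 ≤ A)
    {t : ℕ} (ht : 1 ≤ t) {h : ℤ} (hl : h ∈ Lnk γ L b c)
    (H : LevT F (ParOf cp A m0 γ L M B) t b c h) (hn : ¬ CKyP F (ParOf cp A m0 γ L M B) b c h) :
    boostB M (lamOf cp A m0 γ L M B F) b c h ≤ KB A * (t * (1 + Real.log t)) := by
  refine (boost_lev hM hb hc hL hA ht hl H).trans ?_
  have h1 := B1_off_ky H ht hn
  have h0 := CM_nonneg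
  calc Real.exp 1200 * CM * (2 * A * t) * B1 b c ≤ Real.exp 1200 * CM * (2 * A * t) *
        (Real.exp 2 * S4cx682.CM * (1 + Real.log t)) :=
        mul_le_mul_of_nonneg_left h1 (by positivity)
    _ = _ := by unfold KB; ring

/-- **the sum over the offsets off the class**: every offset of the class `R` has the level `t` -/
theorem oS_off (hM : 0 < M) {b c : ℕ} (hb : b ∣ M) (hc : c ∣ M) (hL : 0 < L) (hA : 1 ≤ A)
    {t : ℕ} (ht : 1 ≤ t) {R : ℕ → ℕ → ℤ → Prop}
    (H : ∀ h ∈ Lnk γ L b c, R b c h → LevT F (ParOf cp A m0 γ L M B) t b c h ∧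
      ¬ CKyP F (ParOf cp A m0 γ L M B) b c h) :
    oS γ L M (lamOf cp A m0 γ L M B F) R b c ≤
      3 * (A : ℝ) ^ 8 * KB A * ((t : ℝ) ^ 9 * (1 + Real.log t)) := by
  classical
  have hlog : 0 ≤ Real.log (t : ℝ) := Real.log_nonneg (by exact_mod_cast ht)
  have hKB := KB_nonneg A
  by_cases hne : ∃ h ∈ Lnk γ L b c, R b c h
  · obtain ⟨h₀, hh₀, hR₀⟩ := hne
    have hmax := max_lev (H h₀ hh₀ hR₀).1
    have hone : ∀ x ∈ (Lnk γ L b c).filter (fun h => ¬ killedB (lamOf cp A m0 γ L M B F) b c h ∧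
        R b c h), boostB M (lamOf cp A m0 γ L M B F) b c x ≤ KB A * (t * (1 + Real.log t)) := by
      intro x hx
      rw [Finset.mem_filter] at hx
      obtain ⟨h1, h2⟩ := H x hx.1 hx.2.2
      exact boost_off hM hb hc hL hA ht hx.1 h1 h2
    have hsum : oS γ L M (lamOf cp A m0 γ L M B F) R b c ≤ ((Lnk γ L b c).card : ℝ) *
        (KB A * (t * (1 + Real.log t))) := by
      unfold oS
      refine (Finset.sum_le_sum hone).trans ?_
      rw [Finset.sum_const, nsmul_eq_mul]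
      refine mul_le_mul_of_nonneg_right ?_ (by positivity)
      exact_mod_cast Finset.card_le_card (Finset.filter_subset _ _)
    refine hsum.trans ?_
    have hcard : ((Lnk γ L b c).card : ℝ) ≤ 3 * ((A : ℝ) * t) ^ 8 :=
      (card_Lnk (γ := γ) hL b c).trans (mul_le_mul_of_nonneg_left hmax (by norm_num))
    refine (mul_le_mul_of_nonneg_right hcard (by positivity)).trans (le_of_eq ?_)
    ring
  · have h2 : oS γ L M (lamOf cp A m0 γ L M B F) R b c = 0 := by
      unfold oS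
      refine Finset.sum_eq_zero fun x hx => ?_
      rw [Finset.mem_filter] at hx
      exact absurd ⟨x, hx.1, hx.2.2⟩ hne
    rw [h2]
    positivity

end off

end Crest.Agent.R4C.KyClsx971
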