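import Mathlib
import Crest.Agent.R4C.HVWt_19
import Crest.Agent.R4C.PrefixM_882
import Crest.Agent.R4C.Counts_952

/-!
# Row 4, block S7 (1)(b): the event `K_y = {∑_{p ∣ s s', p > y} 1/p ≥ δ}` (helper952)

* `iy y n = ∑_{p ∣ n, p > y} 1/p`, `W y l n = exp (l * iy y n)` (Chernoff weight).
* `nu_ky`    : natural law `nu M`, any `M`:  `P(iy ≥ δ) ≤ exp (-A y)` for `y ≥ Y0 A δ`.
* `card_ky`  : `#{n ≤ N : iy ≥ δ} ≤ N exp (-A y)`.
* `card_ky_rough` : `#{n ≤ N, n x-rough : iy ≥ δ} ≤ (2 + C2) (N / log x) exp (-A y)`.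
* `RhoB_ky` : the density of the relation `K_y` in every model `(Mz, H)` of THEOREM (R).
* `energy_ky` : `∑_{X < gcd ≤ 2X} gcd nu nu f f' 1[K_y] ≤ C X^(2κ-1) e^{-A y} (..)^κ (..)^κ`.
-/

set_option autoImplicit false
set_option linter.unusedVariables false

namespace Crest.Agent.R4C.Kyx952

open Finset Crest.Agent.R4C.Basex935

/-- `∑_{p ∣ n, p > y} 1/p` -/
noncomputable def iy (y : ℝ) (n : ℕ) : ℝ :=
  ∑ p ∈ n.primeFactors.filter (fun p : ℕ => y < (p : ℝ)), (1 : ℝ) / p

/-- local factor of the Chernoff weight -/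
noncomputable def ew (y l : ℝ) (p : ℕ) : ℝ := if y < (p : ℝ) then Real.exp (l / p) else 1

/-- Chernoff weight -/
noncomputable def W (y l : ℝ) (n : ℕ) : ℝ := ∏ p ∈ n.primeFactors, ew y l p

variable {y l θ : ℝ}

lemma iy_nonneg (y : ℝ) (n : ℕ) : 0 ≤ iy y n := sum_nonneg fun p _ => by positivity

lemma one_le_ew (hl : 0 ≤ l) (p : ℕ) : 1 ≤ ew y l p := by
  unfold ew
  split_ifs
  · exact Real.one_le_exp (by positivity)
  · exact le_rfl

lemma W_eq (y l : ℝ) (n : ℕ) : W y l n = Real.exp (l * iy y n) := by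
  unfold W iy ew
  rw [mul_sum, Real.exp_sum, prod_filter]
  refine prod_congr rfl fun p _ => ?_
  split_ifs
  · rw [mul_one_div]
  · rfl

lemma W_pos (y l : ℝ) (n : ℕ) : 0 < W y l n := by rw [W_eq]; exact Real.exp_pos _

lemma one_le_W (hl : 0 ≤ l) (n : ℕ) : 1 ≤ W y l n := by
  rw [W_eq]
  exact Real.one_le_exp (mul_nonneg hl (iy_nonneg _ _))

lemma iy_mul_le (y : ℝ) {d e : ℕ} (hd : d ≠ 0) (he : e ≠ 0) : iy y (d * e) ≤ iy y d + iy y e := by
  unfold iy
  rw [Nat.primeFactors_mul hd he, filter_union]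
  rw [← sum_union_inter]
  have : 0 ≤ ∑ p ∈ d.primeFactors.filter (fun p : ℕ => y < (p : ℝ)) ∩
      e.primeFactors.filter (fun p : ℕ => y < (p : ℝ)), (1 : ℝ) / p :=
    sum_nonneg fun p _ => by positivity
  linarith

lemma iy_mono (y : ℝ) {d e : ℕ} (h : d.primeFactors ⊆ e.primeFactors) : iy y d ≤ iy y e := by
  unfold iy
  exact sum_le_sum_of_subset_of_nonneg (filter_subset_filter _ h) fun p _ _ => by positivity

lemma W_mul_le (hl : 0 ≤ l) {d e : ℕ} (hd : d ≠ 0) (he : e ≠ 0) :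
    W y l (d * e) ≤ W y l d * W y l e := by
  rw [W_eq, W_eq, W_eq, ← Real.exp_add, Real.exp_le_exp, ← mul_add]
  exact mul_le_mul_of_nonneg_left (iy_mul_le y hd he) hl

lemma ew_sub_nonneg (hl : 0 ≤ l) (p : ℕ) : 0 ≤ ew y l p - 1 := sub_nonneg.2 (one_le_ew hl p)

lemma ew_sub_le (hy : 0 < y) (hθ : 0 ≤ θ) (p : ℕ) :
    ew y (θ * y) p - 1 ≤ if y < (p : ℝ) then θ * y * Real.exp θ / p else 0 := by
  unfold ew
  split_ifs with h
  · have hp : (0 : ℝ) < p := hy.trans h
    have hu : θ * y / p ≤ θ := by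
      rw [div_le_iff₀ hp]
      exact mul_le_mul_of_nonneg_left h.le hθ
    have hu0 : 0 ≤ θ * y / p := by positivity
    have h1 : Real.exp (θ * y / p) - 1 ≤ θ * y / p * Real.exp (θ * y / p) := by
      have h2 := Real.add_one_le_exp (-(θ * y / p))
      have h3 : Real.exp (-(θ * y / p)) * Real.exp (θ * y / p) = 1 := by
        rw [← Real.exp_add, neg_add_cancel, Real.exp_zero]
      nlinarith [Real.exp_pos (θ * y / p)]
    calc _ ≤ θ * y / p * Real.exp (θ * y / p) := h1
      _ ≤ θ * y / p * Real.exp θ := mul_le_mul_of_nonneg_left (Real.exp_le_exp.2 hu) hu0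
      _ = _ := by ring
  · simp

lemma sum_inv_sq_gt (hy : 1 ≤ y) (P : Finset ℕ) :
    ∑ p ∈ P.filter (fun p : ℕ => y < (p : ℝ)), 1 / (p : ℝ) ^ 2 ≤ 2 / y := by
  have h1 : P.filter (fun p : ℕ => y < (p : ℝ)) ⊆ Ioo ⌊y⌋₊ (P.sup id + 1) := by
    intro p hp
    rw [mem_filter] at hp
    rw [mem_Ioo]
    exact ⟨(Nat.floor_lt (by linarith)).2 hp.2, Nat.lt_succ_of_le (Finset.le_sup (f := id) hp.1)⟩
  calc _ ≤ ∑ i ∈ Ioo ⌊y⌋₊ (P.sup id + 1), ((i : ℝ) ^ 2)⁻¹ := by
        simp only [one_div]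
        exact sum_le_sum_of_subset_of_nonneg h1 fun i _ _ => by positivity
    _ ≤ 2 / ((⌊y⌋₊ : ℝ) + 1) := sum_Ioo_inv_sq_le _ _
    _ ≤ 2 / y := by
        have : y ≤ (⌊y⌋₊ : ℝ) + 1 := (Nat.lt_floor_add_one y).le
        gcongr

lemma sum_inv_32 {k : ℕ} (hk : 1 ≤ k) (n : ℕ) :
    ∑ i ∈ Ioc k n, 1 / ((i : ℝ) * Real.sqrt i) ≤ 2 / Real.sqrt k := by
  rcases le_or_gt n k with h | h
  · rw [Ioc_eq_empty (by omega), sum_empty]
    positivity
  have key : ∀ n, k ≤ n → ∑ i ∈ Ioc k n, 1 / ((i : ℝ) * Real.sqrt i) ≤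
      2 / Real.sqrt k - 2 / Real.sqrt n := by
    intro n hn
    induction n, hn using Nat.le_induction with
    | base => simp
    | succ n hn ih =>
      rw [sum_Ioc_succ_top hn]
      have hn0 : (1 : ℝ) ≤ n := by exact_mod_cast hk.trans hn
      set a := Real.sqrt (n : ℝ) with ha
      set b := Real.sqrt ((n + 1 : ℕ) : ℝ) with hb
      have ha0 : 0 < a := Real.sqrt_pos.2 (by linarith)
      have hb0 : 0 < b := Real.sqrt_pos.2 (by push_cast; linarith)
      have haa : a * a = n := Real.mul_self_sqrt (by linarith)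
      have hbb : b * b = ((n + 1 : ℕ) : ℝ) := Real.mul_self_sqrt (by positivity)
      have hab : a ≤ b := Real.sqrt_le_sqrt (by push_cast; linarith)
      have h1 : 1 / (((n + 1 : ℕ) : ℝ) * b) ≤ 2 / a - 2 / b := by
        rw [← hbb, div_sub_div _ _ ha0.ne' hb0.ne', div_le_div_iff₀ (by positivity) (by positivity)]
        have h2 : b * b = a * a + 1 := by rw [haa, hbb]; push_cast; ring
        have h3 : (b - a) * (b + a) = 1 := by ring_nf; nlinarith
        have h4 : 0 ≤ b - a := by linarith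
        -- a b ≤ 2 (b - a) b^3
        have h5 : a * 1 ≤ 2 * (b - a) * (b * b) := by
          calc a * 1 = a * ((b - a) * (b + a)) := by rw [h3]
            _ = (b - a) * (a * (b + a)) := by ring
            _ ≤ (b - a) * (2 * (b * b)) := by
                refine mul_le_mul_of_nonneg_left ?_ h4
                nlinarith
            _ = _ := by ring
        nlinarith
      linarith
  have h1 := key n h.le
  have h2 : 0 ≤ 2 / Real.sqrt (n : ℝ) := by positivity
  linarith

lemma sum_inv_32_gt (hy : 1 ≤ y) (P : Finset ℕ) :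
    ∑ p ∈ P.filter (fun p : ℕ => y < (p : ℝ)), 1 / ((p : ℝ) * Real.sqrt p) ≤ 3 / Real.sqrt y := by
  have hk : 1 ≤ ⌊y⌋₊ := Nat.le_floor (by simpa using hy)
  have h1 : P.filter (fun p : ℕ => y < (p : ℝ)) ⊆ Ioc ⌊y⌋₊ (P.sup id) := by
    intro p hp
    rw [mem_filter] at hp
    rw [mem_Ioc]
    exact ⟨(Nat.floor_lt (by linarith)).2 hp.2, Finset.le_sup (f := id) hp.1⟩
  have hk' : (1 : ℝ) ≤ (⌊y⌋₊ : ℝ) := by exact_mod_cast hk
  calc _ ≤ ∑ i ∈ Ioc ⌊y⌋₊ (P.sup id), 1 / ((i : ℝ) * Real.sqrt i) :=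
        sum_le_sum_of_subset_of_nonneg h1 fun i _ _ => by positivity
    _ ≤ 2 / Real.sqrt (⌊y⌋₊ : ℝ) := sum_inv_32 hk _
    _ ≤ 3 / Real.sqrt y := by
        have h2 : y ≤ 2 * (⌊y⌋₊ : ℝ) := by
          have := Nat.lt_floor_add_one y
          linarith
        have h3 : Real.sqrt y ≤ Real.sqrt 2 * Real.sqrt (⌊y⌋₊ : ℝ) := by
          rw [← Real.sqrt_mul (by norm_num)]
          exact Real.sqrt_le_sqrt h2
        have h4 : Real.sqrt 2 ≤ 3 / 2 := by
          rw [Real.sqrt_le_left (by norm_num)]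
          norm_num
        have h5 : 0 < Real.sqrt (⌊y⌋₊ : ℝ) := Real.sqrt_pos.2 (by linarith)
        have h6 : 0 < Real.sqrt y := Real.sqrt_pos.2 (by linarith)
        rw [div_le_div_iff₀ h5 h6]
        nlinarith

/-- `∏ (1 + (ew p - 1)/p) ≤ exp (2 θ e^θ)` -/
lemma prod_ew_le (hy : 1 ≤ y) (hθ : 0 ≤ θ) (P : Finset ℕ) :
    ∏ p ∈ P, (1 + (ew y (θ * y) p - 1) / p) ≤ Real.exp (2 * θ * Real.exp θ) := by
  have hy0 : 0 < y := by linarith
  have hl : 0 ≤ θ * y := by positivity
  calc ∏ p ∈ P, (1 + (ew y (θ * y) p - 1) / p)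
      ≤ ∏ p ∈ P, Real.exp ((ew y (θ * y) p - 1) / p) := by
        refine prod_le_prod (fun p _ => ?_) fun p _ => ?_
        · have := ew_sub_nonneg (y := y) hl p
          positivity
        · have := Real.add_one_le_exp ((ew y (θ * y) p - 1) / p)
          linarith
    _ = Real.exp (∑ p ∈ P, (ew y (θ * y) p - 1) / p) := by rw [Real.exp_sum]
    _ ≤ _ := by
        rw [Real.exp_le_exp]
        calc ∑ p ∈ P, (ew y (θ * y) p - 1) / p
            ≤ ∑ p ∈ P, (if y < (p : ℝ) then θ * y * Real.exp θ * (1 / (p : ℝ) ^ 2) else 0) := by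
              refine sum_le_sum fun p _ => ?_
              have h1 := ew_sub_le hy0 hθ p
              split_ifs at h1 ⊢ with h2
              · have hp : (0 : ℝ) < p := hy0.trans h2
                calc (ew y (θ * y) p - 1) / p ≤ (θ * y * Real.exp θ / p) / p :=
                      div_le_div_of_nonneg_right h1 hp.le
                  _ = _ := by field_simp
              · exact div_nonpos_of_nonpos_of_nonneg h1 (by positivity)
          _ = θ * y * Real.exp θ * ∑ p ∈ P.filter (fun p : ℕ => y < (p : ℝ)), 1 / (p : ℝ) ^ 2 := by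
              rw [← sum_filter, mul_sum]
          _ ≤ θ * y * Real.exp θ * (2 / y) :=
              mul_le_mul_of_nonneg_left (sum_inv_sq_gt hy P) (by positivity)
          _ = _ := by field_simp

/-- `∏ (1 + (ew p - 1)/√p) ≤ exp (3 θ e^θ √y)` -/
lemma prod_ew_sqrt_le (hy : 1 ≤ y) (hθ : 0 ≤ θ) (P : Finset ℕ) :
    ∏ p ∈ P, (1 + (ew y (θ * y) p - 1) / Real.sqrt p) ≤
      Real.exp (3 * θ * Real.exp θ * Real.sqrt y) := by
  have hy0 : 0 < y := by linarith
  have hl : 0 ≤ θ * y := by positivity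
  have hsy : Real.sqrt y * Real.sqrt y = y := Real.mul_self_sqrt hy0.le
  have hsy0 : 0 < Real.sqrt y := Real.sqrt_pos.2 hy0
  calc ∏ p ∈ P, (1 + (ew y (θ * y) p - 1) / Real.sqrt p)
      ≤ ∏ p ∈ P, Real.exp ((ew y (θ * y) p - 1) / Real.sqrt p) := by
        refine prod_le_prod (fun p _ => ?_) fun p _ => ?_
        · have := ew_sub_nonneg (y := y) hl p
          positivity
        · have := Real.add_one_le_exp ((ew y (θ * y) p - 1) / Real.sqrt p)
          linarith
    _ = Real.exp (∑ p ∈ P, (ew y (θ * y) p - 1) / Real.sqrt p) := by rw [Real.exp_sum]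
    _ ≤ _ := by
        rw [Real.exp_le_exp]
        calc ∑ p ∈ P, (ew y (θ * y) p - 1) / Real.sqrt p
            ≤ ∑ p ∈ P, (if y < (p : ℝ) then θ * y * Real.exp θ * (1 / ((p : ℝ) * Real.sqrt p))
                else 0) := by
              refine sum_le_sum fun p _ => ?_
              have h1 := ew_sub_le hy0 hθ p
              split_ifs at h1 ⊢ with h2
              · have hp : (0 : ℝ) < p := hy0.trans h2
                have hsp : 0 < Real.sqrt (p : ℝ) := Real.sqrt_pos.2 hp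
                calc (ew y (θ * y) p - 1) / Real.sqrt p ≤ (θ * y * Real.exp θ / p) / Real.sqrt p :=
                      div_le_div_of_nonneg_right h1 hsp.le
                  _ = _ := by field_simp
              · exact div_nonpos_of_nonpos_of_nonneg h1 (by positivity)
          _ = θ * y * Real.exp θ *
                ∑ p ∈ P.filter (fun p : ℕ => y < (p : ℝ)), 1 / ((p : ℝ) * Real.sqrt p) := by
              rw [← sum_filter, mul_sum]
          _ ≤ θ * y * Real.exp θ * (3 / Real.sqrt y) :=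
              mul_le_mul_of_nonneg_left (sum_inv_32_gt hy P) (by positivity)
          _ = _ := by
              rw [mul_div_assoc', div_eq_iff hsy0.ne', mul_assoc (3 * θ * Real.exp θ), hsy]
              ring

/-! ### (i) natural law -/

lemma W_eq_prod {M b : ℕ} (hM : 0 < M) (hb : b ∣ M) (y l : ℝ) :
    W y l b = ∏ p ∈ M.primeFactors, (if 0 < b.factorization p then ew y l p else 1) := by
  have hb0 : b ≠ 0 := fun h => hM.ne' (Nat.eq_zero_of_zero_dvd (h ▸ hb))
  unfold W
  rw [← prod_filter]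
  refine prod_congr ?_ fun _ _ => rfl
  ext p
  rw [mem_filter]
  constructor
  · intro hp
    refine ⟨Nat.primeFactors_mono hb hM.ne' hp, ?_⟩
    exact (Nat.prime_of_mem_primeFactors hp).factorization_pos_of_dvd hb0
      (Nat.dvd_of_mem_primeFactors hp)
  · rintro ⟨hp, h⟩
    exact Nat.mem_primeFactors.2 ⟨Nat.prime_of_mem_primeFactors hp,
      Nat.dvd_of_factorization_pos h.ne', hb0⟩

/-- moment of the natural law -/
theorem nu_W_le (hy : 1 ≤ y) (hθ : 0 ≤ θ) {M : ℕ} (hM : 0 < M) :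
    ∑ b ∈ M.divisors, nu M b * W y (θ * y) b ≤ Real.exp (2 * θ * Real.exp θ) := by
  have h1 : ∑ b ∈ M.divisors, nu M b * W y (θ * y) b =
      ∏ p ∈ M.primeFactors, ∑ v ∈ range (M.factorization p + 1),
        nup p (M.factorization p) v * (if 0 < v then ew y (θ * y) p else 1) := by
    rw [← PrefixMx882.sum_prod (fun p v => nup p (M.factorization p) v *
      (if 0 < v then ew y (θ * y) p else 1)) M hM]
    refine sum_congr rfl fun b hb => ?_
    rw [Nat.mem_divisors] at hb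
    rw [PrefixMx882.nu_eq_prod M hM b hb.1, W_eq_prod hM hb.1, ← prod_mul_distrib]
  rw [h1]
  refine le_trans (le_of_eq ?_) (prod_ew_le hy hθ M.primeFactors)
  refine prod_congr rfl fun p hp => ?_
  have hpp := Nat.prime_of_mem_primeFactors hp
  have ha : 0 < M.factorization p :=
    hpp.factorization_pos_of_dvd hM.ne' (Nat.dvd_of_mem_primeFactors hp)
  have hp0 : (p : ℝ) ≠ 0 := by exact_mod_cast hpp.ne_zero
  rw [Finset.range_eq_Ico, sum_eq_sum_Ico_succ_bot (by omega), if_neg (lt_irrefl 0)]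
  have h2 : ∑ v ∈ Ico (0 + 1) (M.factorization p + 1),
      nup p (M.factorization p) v * (if 0 < v then ew y (θ * y) p else 1) =
      (1 / (p : ℝ)) ^ 1 * ew y (θ * y) p := by
    rw [← PrefixMx882.nup_tail p (show 1 ≤ M.factorization p by omega), sum_mul]
    refine sum_congr rfl fun v hv => ?_
    rw [mem_Ico] at hv
    rw [if_pos (by omega)]
  rw [h2]
  unfold nup
  rw [if_pos ha]
  field_simp
  ring

open Classical in
/-- Chernoff, natural law -/
theorem nu_iy_le (hy : 1 ≤ y) (hθ : 0 ≤ θ) {M : ℕ} (hM : 0 < M) (δ : ℝ) :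
    ∑ b ∈ M.divisors.filter (fun b => δ ≤ iy y b), nu M b ≤
      Real.exp (2 * θ * Real.exp θ - θ * δ * y) := by
  have hl : 0 ≤ θ * y := by positivity
  calc ∑ b ∈ M.divisors.filter (fun b => δ ≤ iy y b), nu M b
      ≤ ∑ b ∈ M.divisors.filter (fun b => δ ≤ iy y b),
          Real.exp (-(θ * δ * y)) * (nu M b * W y (θ * y) b) := by
        refine sum_le_sum fun b hb => ?_
        rw [mem_filter] at hb
        have h0 := nu_nonneg M b
        have h1 : 1 ≤ Real.exp (-(θ * δ * y)) * W y (θ * y) b := by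
          rw [W_eq, ← Real.exp_add]
          apply Real.one_le_exp
          have := mul_le_mul_of_nonneg_left hb.2 hl
          linarith
        calc nu M b = nu M b * 1 := (mul_one _).symm
          _ ≤ nu M b * (Real.exp (-(θ * δ * y)) * W y (θ * y) b) :=
              mul_le_mul_of_nonneg_left h1 h0
          _ = _ := by ring
    _ ≤ ∑ b ∈ M.divisors, Real.exp (-(θ * δ * y)) * (nu M b * W y (θ * y) b) :=
        sum_le_sum_of_subset_of_nonneg (filter_subset _ _) fun b _ _ => by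
          have := nu_nonneg M b
          have := (W_pos y (θ * y) b).le
          positivity
    _ = Real.exp (-(θ * δ * y)) * ∑ b ∈ M.divisors, nu M b * W y (θ * y) b := by rw [mul_sum]
    _ ≤ Real.exp (-(θ * δ * y)) * Real.exp (2 * θ * Real.exp θ) :=
        mul_le_mul_of_nonneg_left (nu_W_le hy hθ hM) (Real.exp_pos _).le
    _ = _ := by rw [← Real.exp_add]; congr 1; ring

/-- threshold for `y` -/
noncomputable def Y0 (A δ : ℝ) : ℝ := (3 * ((A + 1) / δ) * Real.exp ((A + 1) / δ)) ^ 2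

lemma Y0_spec {A δ : ℝ} (hA : 0 ≤ A) (hδ0 : 0 < δ) (hδ1 : δ ≤ 1) (hy : Y0 A δ ≤ y) :
    1 ≤ (A + 1) / δ ∧ 1 ≤ y ∧
      3 * ((A + 1) / δ) * Real.exp ((A + 1) / δ) * Real.sqrt y ≤ y ∧
      2 * ((A + 1) / δ) * Real.exp ((A + 1) / δ) ≤ y := by
  have h1 : 1 ≤ (A + 1) / δ := by rw [one_le_div hδ0]; linarith
  set t := (A + 1) / δ with ht
  have h2 : 1 ≤ Real.exp t := Real.one_le_exp (by linarith)
  set E := 3 * t * Real.exp t with hE
  have h3 : 3 ≤ E := by rw [hE]; nlinarith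
  have h4 : Y0 A δ = E ^ 2 := rfl
  rw [h4] at hy
  have hy1 : 1 ≤ y := by nlinarith
  have h5 : E ≤ Real.sqrt y := Real.le_sqrt_of_sq_le hy
  have hs : Real.sqrt y * Real.sqrt y = y := Real.mul_self_sqrt (by linarith)
  have h6 : E * Real.sqrt y ≤ y := by
    calc E * Real.sqrt y ≤ Real.sqrt y * Real.sqrt y :=
          mul_le_mul_of_nonneg_right h5 (Real.sqrt_nonneg _)
      _ = y := hs
  refine ⟨h1, hy1, h6, ?_⟩
  have h7 : 2 * t * Real.exp t ≤ E := by rw [hE]; nlinarith
  nlinarith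

lemma theta_mul {A δ : ℝ} (hδ0 : 0 < δ) (y : ℝ) : (A + 1) / δ * δ * y = (A + 1) * y := by
  rw [div_mul_cancel₀ _ hδ0.ne']

open Classical in
/-- **(i)** natural law -/
theorem nu_ky {A δ : ℝ} (hA : 0 ≤ A) (hδ0 : 0 < δ) (hδ1 : δ ≤ 1) (hy : Y0 A δ ≤ y) {M : ℕ}
    (hM : 0 < M) :
    ∑ b ∈ M.divisors.filter (fun b => δ ≤ iy y b), nu M b ≤ Real.exp (-(A * y)) := by
  obtain ⟨h1, h2, h3, h4⟩ := Y0_spec hA hδ0 hδ1 hy
  refine (nu_iy_le (θ := (A + 1) / δ) h2 (by linarith) hM δ).trans ?_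
  rw [Real.exp_le_exp, theta_mul hδ0]
  linarith

/-! ### (ii), (iii) counting -/

lemma W_expand (y l : ℝ) (n : ℕ) :
    W y l n = ∑ t ∈ n.primeFactors.powerset, ∏ p ∈ t, (ew y l p - 1) := by
  rw [← Finset.prod_one_add]
  unfold W
  refine prod_congr rfl fun p _ => ?_
  ring

open Classical in
lemma sum_W_le (hl : 0 ≤ l) {S P : Finset ℕ} (hP : ∀ p ∈ P, p.Prime)
    (hS : ∀ n ∈ S, n.primeFactors ⊆ P) (F : Finset ℕ → ℝ)
    (hF : ∀ t, t ⊆ P → ((S.filter (fun n => (∏ p ∈ t, p) ∣ n)).card : ℝ) ≤ F t) :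
    ∑ n ∈ S, W y l n ≤ ∑ t ∈ P.powerset, (∏ p ∈ t, (ew y l p - 1)) * F t := by
  have hg : ∀ t : Finset ℕ, 0 ≤ ∏ p ∈ t, (ew y l p - 1) := fun t =>
    prod_nonneg fun p _ => ew_sub_nonneg hl p
  calc ∑ n ∈ S, W y l n
      = ∑ n ∈ S, ∑ t ∈ P.powerset, (if t ⊆ n.primeFactors then ∏ p ∈ t, (ew y l p - 1) else 0) := by
        refine sum_congr rfl fun n hn => ?_
        rw [W_expand, ← sum_filter]
        refine sum_congr ?_ fun _ _ => rfl
        ext t
        rw [mem_powerset, mem_filter, mem_powerset]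
        exact ⟨fun h => ⟨h.trans (hS n hn), h⟩, fun h => h.2⟩
    _ = ∑ t ∈ P.powerset, ∑ n ∈ S, (if t ⊆ n.primeFactors then ∏ p ∈ t, (ew y l p - 1) else 0) :=
        sum_comm
    _ ≤ _ := by
        refine sum_le_sum fun t ht => ?_
        rw [mem_powerset] at ht
        rw [← sum_filter, sum_const, nsmul_eq_mul, mul_comm]
        refine mul_le_mul_of_nonneg_left (le_trans ?_ (hF t ht)) (hg t)
        have : S.filter (fun n => t ⊆ n.primeFactors) ⊆ S.filter (fun n => (∏ p ∈ t, p) ∣ n) := by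
          intro n hn
          rw [mem_filter] at hn ⊢
          refine ⟨hn.1, ?_⟩
          refine Finset.prod_primes_dvd n (fun p hp => (hP p (ht hp)).prime) fun p hp => ?_
          exact Nat.dvd_of_mem_primeFactors (hn.2 hp)
        exact_mod_cast card_le_card this

lemma primes_sub {N : ℝ} {n : ℕ} (hn : n ∈ Icc 1 ⌊N⌋₊) :
    n.primeFactors ⊆ (Icc 1 ⌊N⌋₊).filter Nat.Prime := by
  intro p hp
  rw [mem_Icc] at hn
  rw [mem_filter, mem_Icc]
  have h1 := Nat.prime_of_mem_primeFactors hp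
  have h2 := Nat.le_of_dvd (by omega) (Nat.dvd_of_mem_primeFactors hp)
  exact ⟨⟨h1.one_lt.le, by omega⟩, h1⟩

/-- counted moment -/
theorem sum_W_Icc (hy : 1 ≤ y) (hθ : 0 ≤ θ) {N : ℝ} (hN : 0 ≤ N) :
    ∑ n ∈ Icc 1 ⌊N⌋₊, W y (θ * y) n ≤ N * Real.exp (2 * θ * Real.exp θ) := by
  classical
  have hl : 0 ≤ θ * y := mul_nonneg hθ (by linarith)
  have h1 := sum_W_le (y := y) hl (S := Icc 1 ⌊N⌋₊) (P := (Icc 1 ⌊N⌋₊).filter Nat.Prime)
    (fun p hp => (mem_filter.1 hp).2) (fun n hn => primes_sub hn)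
    (fun t => N * ∏ p ∈ t, (1 / (p : ℝ))) (by
      intro t ht
      have hD : 0 < ∏ p ∈ t, p := prod_pos fun p hp => (mem_filter.1 (ht hp)).2.pos
      have h2 : ((Icc 1 ⌊N⌋₊).filter (fun n => (∏ p ∈ t, p) ∣ n)).card = ⌊N⌋₊ / ∏ p ∈ t, p := by
        have := Nat.Ioc_filter_dvd_card_eq_div ⌊N⌋₊ (∏ p ∈ t, p)
        rwa [show Ioc 0 ⌊N⌋₊ = Icc 1 ⌊N⌋₊ from rfl] at this
      rw [h2]
      have h3 : ((∏ p ∈ t, p : ℕ) : ℝ) = ∏ p ∈ t, (p : ℝ) := by push_cast; rfl
      calc ((⌊N⌋₊ / ∏ p ∈ t, p : ℕ) : ℝ) ≤ (⌊N⌋₊ : ℝ) / ((∏ p ∈ t, p : ℕ) : ℝ) := Nat.cast_div_le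
        _ ≤ N / ((∏ p ∈ t, p : ℕ) : ℝ) :=
            div_le_div_of_nonneg_right (Nat.floor_le hN) (by positivity)
        _ = N * ∏ p ∈ t, (1 / (p : ℝ)) := by
            rw [h3]
            simp only [one_div]
            rw [prod_inv_distrib, div_eq_mul_inv])
  refine h1.trans ?_
  have h2 : ∑ t ∈ ((Icc 1 ⌊N⌋₊).filter Nat.Prime).powerset,
      (∏ p ∈ t, (ew y (θ * y) p - 1)) * (N * ∏ p ∈ t, (1 / (p : ℝ))) =
      N * ∏ p ∈ (Icc 1 ⌊N⌋₊).filter Nat.Prime, (1 + (ew y (θ * y) p - 1) / p) := by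
    rw [Finset.prod_one_add, mul_sum]
    refine sum_congr rfl fun t _ => ?_
    rw [show (∏ p ∈ t, (ew y (θ * y) p - 1)) * (N * ∏ p ∈ t, (1 / (p : ℝ))) =
      N * ((∏ p ∈ t, (ew y (θ * y) p - 1)) * ∏ p ∈ t, (1 / (p : ℝ))) by ring, ← prod_mul_distrib]
    congr 1
    refine prod_congr rfl fun p _ => ?_
    ring
  rw [h2]
  exact mul_le_mul_of_nonneg_left (prod_ew_le hy hθ _) hN




open Classical in
/-- Chernoff for counted integers -/
theorem card_iy_le (hy : 1 ≤ y) (hθ : 0 ≤ θ) {N : ℝ} (hN : 0 ≤ N) (δ : ℝ) :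
    (((Icc 1 ⌊N⌋₊).filter (fun n => δ ≤ iy y n)).card : ℝ) ≤
      N * Real.exp (2 * θ * Real.exp θ - θ * δ * y) := by
  have hl : 0 ≤ θ * y := by positivity
  calc (((Icc 1 ⌊N⌋₊).filter (fun n => δ ≤ iy y n)).card : ℝ)
      = ∑ _n ∈ (Icc 1 ⌊N⌋₊).filter (fun n => δ ≤ iy y n), (1 : ℝ) := by simp
    _ ≤ ∑ n ∈ (Icc 1 ⌊N⌋₊).filter (fun n => δ ≤ iy y n),
          Real.exp (-(θ * δ * y)) * W y (θ * y) n := by
        refine sum_le_sum fun n hn => ?_
        rw [mem_filter] at hn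
        rw [W_eq, ← Real.exp_add]
        apply Real.one_le_exp
        have := mul_le_mul_of_nonneg_left hn.2 hl
        linarith
    _ ≤ ∑ n ∈ Icc 1 ⌊N⌋₊, Real.exp (-(θ * δ * y)) * W y (θ * y) n :=
        sum_le_sum_of_subset_of_nonneg (filter_subset _ _) fun n _ _ => by
          have := (W_pos y (θ * y) n).le
          positivity
    _ = Real.exp (-(θ * δ * y)) * ∑ n ∈ Icc 1 ⌊N⌋₊, W y (θ * y) n := by rw [mul_sum]
    _ ≤ Real.exp (-(θ * δ * y)) * (N * Real.exp (2 * θ * Real.exp θ)) :=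
        mul_le_mul_of_nonneg_left (sum_W_Icc hy hθ hN) (Real.exp_pos _).le
    _ = N * (Real.exp (-(θ * δ * y)) * Real.exp (2 * θ * Real.exp θ)) := by ring
    _ = _ := by rw [← Real.exp_add]; congr 2; ring

open Classical in
/-- **(ii)** counted version -/
theorem card_ky {A δ : ℝ} (hA : 0 ≤ A) (hδ0 : 0 < δ) (hδ1 : δ ≤ 1) (hy : Y0 A δ ≤ y) {N : ℝ}
    (hN : 0 ≤ N) :
    (((Icc 1 ⌊N⌋₊).filter (fun n => δ ≤ iy y n)).card : ℝ) ≤ N * Real.exp (-(A * y)) := by
  obtain ⟨h1, h2, h3, h4⟩ := Y0_spec hA hδ0 hδ1 hy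
  refine (card_iy_le (θ := (A + 1) / δ) h2 (by linarith) hN δ).trans ?_
  refine mul_le_mul_of_nonneg_left ?_ hN
  rw [Real.exp_le_exp, theta_mul hδ0]
  linarith

open Countsx952

lemma iy_one (y : ℝ) : iy y 1 = 0 := by simp [iy]

/-- counted moment over the rough numbers -/
theorem sum_W_RF (hy : 1 ≤ y) (hθ : 0 ≤ θ) {x N : ℝ} (hx : 2 ≤ x) (hN : 0 ≤ N) :
    ∑ n ∈ RF x ⌊N⌋₊, W y (θ * y) n ≤ Real.sqrt N * Real.exp (3 * θ * Real.exp θ * Real.sqrt y) +
      C2 * (N / Real.log x) * Real.exp (2 * θ * Real.exp θ) := by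
  classical
  have hl : 0 ≤ θ * y := mul_nonneg hθ (by linarith)
  have hlx : 0 < Real.log x := Real.log_pos (by linarith)
  have hC := C2_pos
  have h1 := sum_W_le (y := y) hl (S := RF x ⌊N⌋₊) (P := (Icc 1 ⌊N⌋₊).filter Nat.Prime)
    (fun p hp => (mem_filter.1 hp).2) (fun n hn => primes_sub (by
      rw [mem_RF] at hn; rw [mem_Icc]; exact hn.1))
    (fun t => Real.sqrt N * ∏ p ∈ t, (1 / Real.sqrt (p : ℝ)) +
      C2 * (N / Real.log x) * ∏ p ∈ t, (1 / (p : ℝ))) (by
      intro t ht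
      have hD : 0 < ∏ p ∈ t, p := prod_pos fun p hp => (mem_filter.1 (ht hp)).2.pos
      set D := ∏ p ∈ t, p with hDdef
      have hD' : (0 : ℝ) < D := by exact_mod_cast hD
      have hDr : (D : ℝ) = ∏ p ∈ t, (p : ℝ) := by rw [hDdef]; push_cast; rfl
      -- the multiples of `D`
      have h2 : ((RF x ⌊N⌋₊).filter (fun n => D ∣ n)).card ≤ (RF x ⌊N / D⌋₊).card := by
        refine card_le_card_of_injOn (fun n => n / D) ?_ ?_
        · intro n hn
          rw [mem_coe, mem_filter, mem_RF] at hn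
          rw [mem_coe, mem_RF]
          obtain ⟨m, hm⟩ := hn.2
          have hmn : n / D = m := by rw [hm]; exact Nat.mul_div_cancel_left m hD
          have hm0 : 0 < m := by
            rcases Nat.eq_zero_or_pos m with h | h
            · rw [h, mul_zero] at hm; omega
            · exact h
          simp only [hmn]
          refine ⟨⟨hm0, ?_⟩, hn.1.2.of_dvd (Dvd.intro_left _ hm.symm)⟩
          refine Nat.le_floor ?_
          rw [le_div_iff₀ hD']
          have h3 : (n : ℝ) ≤ N := (Nat.le_floor_iff hN).1 hn.1.1.2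
          rw [hm] at h3
          push_cast at h3
          linarith
        · intro n hn n' hn' he
          rw [mem_coe, mem_filter] at hn hn'
          simp only at he
          rw [← Nat.div_mul_cancel hn.2, ← Nat.div_mul_cancel hn'.2, he]
      have h3 : ((RF x ⌊N / D⌋₊).card : ℝ) ≤ Real.sqrt (N / D) + C2 * (N / D / Real.log x) := by
        rcases le_or_gt 1 (N / D) with h4 | h4
        · have h5 := card_rough_all (x := x) (N := N / D) hx (by positivity)
          have h6 : 1 ≤ Real.sqrt (N / D) := by rw [Real.one_le_sqrt]; exact h4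
          linarith
        · have h5 : ⌊N / D⌋₊ = 0 := Nat.floor_eq_zero.2 h4
          rw [h5]
          have h6 : RF x 0 = ∅ := by
            ext n
            rw [mem_RF]
            constructor
            · rintro ⟨⟨h7, h8⟩, _⟩; omega
            · intro h7; simp at h7
          rw [h6, card_empty]
          have : 0 ≤ C2 * (N / D / Real.log x) := by positivity
          have := Real.sqrt_nonneg (N / D)
          push_cast
          linarith
      have h4 : (((RF x ⌊N⌋₊).filter (fun n => D ∣ n)).card : ℝ) ≤ ((RF x ⌊N / D⌋₊).card : ℝ) := by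
        exact_mod_cast h2
      refine (h4.trans h3).trans (le_of_eq ?_)
      have e1 : Real.sqrt (N / D) = Real.sqrt N * ∏ p ∈ t, (1 / Real.sqrt (p : ℝ)) := by
        rw [Real.sqrt_div hN, div_eq_mul_inv]
        congr 1
        have : Real.sqrt (D : ℝ) = ∏ p ∈ t, Real.sqrt (p : ℝ) := by
          rw [hDr, Real.sqrt_prod t fun p _ => by positivity]
        rw [this]
        simp only [one_div]
        rw [prod_inv_distrib]
      have e2 : N / D / Real.log x = N / Real.log x * ∏ p ∈ t, (1 / (p : ℝ)) := by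
        simp only [one_div]
        rw [prod_inv_distrib, ← hDr]
        field_simp
      rw [e1, e2]
      ring)
  refine h1.trans (le_of_eq_of_le ?_ (add_le_add
    (mul_le_mul_of_nonneg_left (prod_ew_sqrt_le (y := y) hy hθ ((Icc 1 ⌊N⌋₊).filter Nat.Prime))
      (Real.sqrt_nonneg N))
    (mul_le_mul_of_nonneg_left (prod_ew_le (y := y) hy hθ ((Icc 1 ⌊N⌋₊).filter Nat.Prime))
      (show 0 ≤ C2 * (N / Real.log x) by positivity))))
  rw [Finset.prod_one_add, Finset.prod_one_add, mul_sum, mul_sum, ← sum_add_distrib]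
  refine sum_congr rfl fun t _ => ?_
  have e1 : ∏ p ∈ t, (ew y (θ * y) p - 1) / Real.sqrt (p : ℝ) =
      (∏ p ∈ t, (ew y (θ * y) p - 1)) * ∏ p ∈ t, (1 / Real.sqrt (p : ℝ)) := by
    rw [← prod_mul_distrib]
    refine prod_congr rfl fun p _ => ?_
    ring
  have e2 : ∏ p ∈ t, (ew y (θ * y) p - 1) / (p : ℝ) =
      (∏ p ∈ t, (ew y (θ * y) p - 1)) * ∏ p ∈ t, (1 / (p : ℝ)) := by
    rw [← prod_mul_distrib]
    refine prod_congr rfl fun p _ => ?_
    ring
  rw [e1, e2]
  ring

open Classical in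
/-- **(iii)** rough numbers, gain `1 / log x` -/
theorem card_ky_rough {A δ : ℝ} (hA : 0 ≤ A) (hδ0 : 0 < δ) (hδ1 : δ ≤ 1) (hy : Y0 A δ ≤ y)
    {x N : ℝ} (hx : 2 ≤ x) (hN : 0 ≤ N) :
    (((RF x ⌊N⌋₊).filter (fun n => δ ≤ iy y n)).card : ℝ) ≤
      (2 + C2) * (N / Real.log x) * Real.exp (-(A * y)) := by
  obtain ⟨h1, h2, h3, h4⟩ := Y0_spec hA hδ0 hδ1 hy
  have hlx : 0 < Real.log x := Real.log_pos (by linarith)
  have hC := C2_pos
  set t := (A + 1) / δ with ht
  have ht0 : 0 ≤ t := by linarith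
  have hl : 0 ≤ t * y := by positivity
  rcases le_or_gt x N with hxN | hxN
  · have h5 := sum_W_RF (θ := t) h2 ht0 hx hN
    have h6 : (((RF x ⌊N⌋₊).filter (fun n => δ ≤ iy y n)).card : ℝ) * Real.exp (t * δ * y) ≤
        ∑ n ∈ RF x ⌊N⌋₊, W y (t * y) n := by
      calc (((RF x ⌊N⌋₊).filter (fun n => δ ≤ iy y n)).card : ℝ) * Real.exp (t * δ * y)
          = ∑ _n ∈ (RF x ⌊N⌋₊).filter (fun n => δ ≤ iy y n), Real.exp (t * δ * y) := by
            rw [sum_const, nsmul_eq_mul]
        _ ≤ ∑ n ∈ (RF x ⌊N⌋₊).filter (fun n => δ ≤ iy y n), W y (t * y) n := by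
            refine sum_le_sum fun n hn => ?_
            rw [mem_filter] at hn
            rw [W_eq, Real.exp_le_exp]
            have := mul_le_mul_of_nonneg_left hn.2 hl
            linarith
        _ ≤ _ := sum_le_sum_of_subset_of_nonneg (filter_subset _ _) fun n _ _ =>
            (W_pos y _ n).le
    have h7 : Real.sqrt N ≤ 2 * (N / Real.log x) := by
      have hN0 : 0 < N := by linarith
      have hsq0 : 0 < Real.sqrt N := Real.sqrt_pos.2 hN0
      have hsq : Real.sqrt N * Real.sqrt N = N := Real.mul_self_sqrt hN0.le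
      rw [← mul_div_assoc, le_div_iff₀ hlx]
      have h5 : Real.log x ≤ Real.log N := Real.log_le_log (by linarith) hxN
      have h6 : Real.log N ≤ 2 * Real.sqrt N := by
        have h7 : Real.log N = 2 * Real.log (Real.sqrt N) := by
          rw [Real.log_sqrt hN0.le]; ring
        rw [h7]
        have := Real.log_le_sub_one_of_pos hsq0
        linarith
      calc Real.sqrt N * Real.log x ≤ Real.sqrt N * (2 * Real.sqrt N) :=
            mul_le_mul_of_nonneg_left (h5.trans h6) hsq0.le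
        _ = 2 * (Real.sqrt N * Real.sqrt N) := by ring
        _ = 2 * N := by rw [hsq]
    have h8 : Real.exp (3 * t * Real.exp t * Real.sqrt y) ≤ Real.exp y := Real.exp_le_exp.2 h3
    have h9 : Real.exp (2 * t * Real.exp t) ≤ Real.exp y := Real.exp_le_exp.2 h4
    have hNl : 0 ≤ N / Real.log x := by positivity
    have h10 : (((RF x ⌊N⌋₊).filter (fun n => δ ≤ iy y n)).card : ℝ) * Real.exp (t * δ * y) ≤
        (2 + C2) * (N / Real.log x) * Real.exp y := by
      refine (h6.trans h5).trans ?_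
      have a1 : Real.sqrt N * Real.exp (3 * t * Real.exp t * Real.sqrt y) ≤
          2 * (N / Real.log x) * Real.exp y := mul_le_mul h7 h8 (Real.exp_pos _).le (by positivity)
      have a2 : C2 * (N / Real.log x) * Real.exp (2 * t * Real.exp t) ≤
          C2 * (N / Real.log x) * Real.exp y := mul_le_mul_of_nonneg_left h9 (by positivity)
      linarith
    have h11 : Real.exp (t * δ * y) = Real.exp y * Real.exp (A * y) := by
      rw [← Real.exp_add, ht, theta_mul hδ0]
      congr 1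
      ring
    rw [h11] at h10
    have h12 : Real.exp (-(A * y)) * Real.exp (A * y) = 1 := by
      rw [← Real.exp_add, neg_add_cancel, Real.exp_zero]
    have h13 : (((RF x ⌊N⌋₊).filter (fun n => δ ≤ iy y n)).card : ℝ) * Real.exp (A * y) ≤
        (2 + C2) * (N / Real.log x) := by
      have h14 := Real.exp_pos y
      refine le_of_mul_le_mul_right ?_ h14
      linarith
    calc (((RF x ⌊N⌋₊).filter (fun n => δ ≤ iy y n)).card : ℝ)
        = (((RF x ⌊N⌋₊).filter (fun n => δ ≤ iy y n)).card : ℝ) * Real.exp (A * y) *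
            Real.exp (-(A * y)) := by
          rw [mul_assoc, mul_comm (Real.exp (A * y)), h12, mul_one]
      _ ≤ _ := mul_le_mul_of_nonneg_right h13 (Real.exp_pos _).le
  · -- only `n = 1`
    have h5 : (RF x ⌊N⌋₊).filter (fun n => δ ≤ iy y n) = ∅ := by
      rw [filter_eq_empty_iff]
      intro n hn hc
      rw [mem_RF] at hn
      have h6 : (n : ℝ) ≤ N := (Nat.le_floor_iff hN).1 hn.1.2
      have h7 := hn.2.eq_one hx (by linarith)
      rw [h7, iy_one] at hc
      linarith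
    rw [h5, card_empty]
    have : 0 ≤ (2 + C2) * (N / Real.log x) * Real.exp (-(A * y)) := by positivity
    exact_mod_cast this

/-! ### the relation `K_y` in the models of THEOREM (R) -/

/-- product of the two cofactors `s s'` -/
def cof (b c : ℕ) : ℕ := b / Nat.gcd b c * (c / Nat.gcd b c)

lemma cof_ne_zero {b c : ℕ} (hb : b ≠ 0) (hc : c ≠ 0) : cof b c ≠ 0 := by
  unfold cof
  have h1 : 0 < b / Nat.gcd b c := Nat.div_pos (Nat.le_of_dvd (Nat.pos_of_ne_zero hb)
    (Nat.gcd_dvd_left _ _)) (Nat.gcd_pos_of_pos_left _ (Nat.pos_of_ne_zero hb))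
  have h2 : 0 < c / Nat.gcd b c := Nat.div_pos (Nat.le_of_dvd (Nat.pos_of_ne_zero hc)
    (Nat.gcd_dvd_right _ _)) (Nat.gcd_pos_of_pos_left _ (Nat.pos_of_ne_zero hb))
  exact (Nat.mul_pos h1 h2).ne'

lemma mem_cof {b c : ℕ} (hb : b ≠ 0) (hc : c ≠ 0) (p : ℕ) :
    p ∈ (cof b c).primeFactors ↔ b.factorization p ≠ c.factorization p := by
  have h1 : b / Nat.gcd b c ≠ 0 := (Nat.div_pos (Nat.le_of_dvd (Nat.pos_of_ne_zero hb)
    (Nat.gcd_dvd_left _ _)) (Nat.gcd_pos_of_pos_left _ (Nat.pos_of_ne_zero hb))).ne'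
  have h2 : c / Nat.gcd b c ≠ 0 := (Nat.div_pos (Nat.le_of_dvd (Nat.pos_of_ne_zero hc)
    (Nat.gcd_dvd_right _ _)) (Nat.gcd_pos_of_pos_left _ (Nat.pos_of_ne_zero hb))).ne'
  rw [← Nat.support_factorization, Finsupp.mem_support_iff]
  unfold cof
  rw [Nat.factorization_mul h1 h2, Finsupp.add_apply, Nat.factorization_div (Nat.gcd_dvd_left _ _),
    Nat.factorization_div (Nat.gcd_dvd_right _ _), Nat.factorization_gcd hb hc]
  simp only [Finsupp.coe_tsub, Pi.sub_apply, Finsupp.inf_apply]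
  omega

/-- subadditivity along differing primes -/
lemma iy_cof_le (y : ℝ) {a b a1 b1 a2 b2 : ℕ} (ha : a ≠ 0) (hb : b ≠ 0) (ha1 : a1 ≠ 0)
    (hb1 : b1 ≠ 0) (ha2 : a2 ≠ 0) (hb2 : b2 ≠ 0)
    (h : ∀ p, a.factorization p ≠ b.factorization p →
      a1.factorization p ≠ b1.factorization p ∨ a2.factorization p ≠ b2.factorization p) :
    iy y (cof a b) ≤ iy y (cof a1 b1) + iy y (cof a2 b2) := by
  refine le_trans (iy_mono y ?_) (iy_mul_le y (cof_ne_zero ha1 hb1) (cof_ne_zero ha2 hb2))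
  intro p hp
  rw [mem_cof ha hb] at hp
  rw [Nat.primeFactors_mul (cof_ne_zero ha1 hb1) (cof_ne_zero ha2 hb2), mem_union,
    mem_cof ha1 hb1, mem_cof ha2 hb2]
  exact h p hp

open Classical in
/-- indicator of `K_y` -/
noncomputable def KY (y δ : ℝ) (b c : ℕ) : ℝ := if δ ≤ iy y (cof b c) then 1 else 0

lemma KY_nonneg (y δ : ℝ) (b c : ℕ) : 0 ≤ KY y δ b c := by unfold KY; split_ifs <;> norm_num
lemma KY_le_one (y δ : ℝ) (b c : ℕ) : KY y δ b c ≤ 1 := by unfold KY; split_ifs <;> norm_num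

/-- `1[iy ≥ δ] ≤ e^{-lδ} W` -/
lemma KY_le (hl : 0 ≤ l) (δ : ℝ) (b c : ℕ) : KY y δ b c ≤ Real.exp (-(l * δ)) * W y l (cof b c) := by
  unfold KY
  split_ifs with h
  · rw [W_eq, ← Real.exp_add]
    apply Real.one_le_exp
    have := mul_le_mul_of_nonneg_left h hl
    linarith
  · exact mul_nonneg (Real.exp_pos _).le (W_pos _ _ _).le

lemma nu_scale {M G e : ℕ} (hM : 0 < M) (hG : G ∣ M) :
    (G : ℝ) * nu M (G * e) = nu (M / G) e := by
  have hG0 : 0 < G := Nat.pos_of_dvd_of_pos hG hM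
  have h1 : (G : ℝ) ≠ 0 := by exact_mod_cast hG0.ne'
  have h2 : (M : ℝ) ≠ 0 := by exact_mod_cast hM.ne'
  unfold nu
  rw [← Nat.div_div_eq_div_mul, Nat.cast_div hG h1]
  field_simp

open Classical in
/-- weighted mass of one dyadic class of the model `(Mz, H)` -/
theorem sum_nwb_W (hy : 1 ≤ y) (hθ : 0 ≤ θ) {Mz H : ℕ} (hMz : Mz ≠ 0) (hH : H ∣ Mz) (i : ℕ) :
    ∑ u ∈ Mz.divisors.filter (fun u => Nat.log 2 (H / Nat.gcd H u) = i),
      ((Nat.gcd H u : ℝ) * nu Mz u) * W y (θ * y) (cof H u) ≤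
      2 * 2 ^ i * Real.exp (4 * θ * Real.exp θ) := by
  have hl : 0 ≤ θ * y := mul_nonneg hθ (by linarith)
  have hMp : 0 < Mz := Nat.pos_of_ne_zero hMz
  have hH0 : 0 < H := Nat.pos_of_dvd_of_pos hH hMp
  have hmap : ∀ u ∈ Mz.divisors.filter (fun u => Nat.log 2 (H / Nat.gcd H u) = i),
      H / Nat.gcd H u ∈ Finset.Ico (2 ^ i) (2 ^ (i + 1)) := by
    intro u hu
    obtain ⟨h1, h2⟩ := Finset.mem_filter.1 hu
    have h3 : 0 < H / Nat.gcd H u := Nat.div_pos (Nat.le_of_dvd hH0 (Nat.gcd_dvd_left _ _))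
      (Nat.gcd_pos_of_pos_left _ hH0)
    rw [Finset.mem_Ico, ← h2]
    exact ⟨Nat.pow_log_le_self 2 h3.ne', Nat.lt_pow_succ_log_self (by norm_num) _⟩
  rw [← Finset.sum_fiberwise_of_maps_to hmap]
  have hfib : ∀ d ∈ Finset.Ico (2 ^ i) (2 ^ (i + 1)),
      ∑ u ∈ (Mz.divisors.filter (fun u => Nat.log 2 (H / Nat.gcd H u) = i)).filter
        (fun u => H / Nat.gcd H u = d),
        ((Nat.gcd H u : ℝ) * nu Mz u) * W y (θ * y) (cof H u) ≤
        W y (θ * y) d * Real.exp (2 * θ * Real.exp θ) := by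
    intro d hd
    rcases Finset.eq_empty_or_nonempty ((Mz.divisors.filter
      (fun u => Nat.log 2 (H / Nat.gcd H u) = i)).filter (fun u => H / Nat.gcd H u = d)) with h0 | h0
    · rw [h0, sum_empty]
      exact mul_nonneg (W_pos _ _ _).le (Real.exp_pos _).le
    · obtain ⟨u0, hu0⟩ := h0
      rw [mem_filter] at hu0
      set G := Nat.gcd H u0 with hG
      have hGH : G ∣ H := Nat.gcd_dvd_left _ _
      have hG0 : 0 < G := Nat.gcd_pos_of_pos_left _ hH0
      have hd0 : 0 < d := by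
        rw [← hu0.2]
        exact Nat.div_pos (Nat.le_of_dvd hH0 hGH) hG0
      have hGM : G ∣ Mz := hGH.trans hH
      have hgcd : ∀ u, H / Nat.gcd H u = d → Nat.gcd H u = G := by
        intro u hu
        have e1 : Nat.gcd H u * d = H := by
          rw [← hu]; exact Nat.mul_div_cancel' (Nat.gcd_dvd_left _ _)
        have e2 : G * d = H := by
          rw [← hu0.2]; exact Nat.mul_div_cancel' hGH
        exact Nat.eq_of_mul_eq_mul_right hd0 (e1.trans e2.symm)
      calc _ ≤ ∑ u ∈ ((Mz / G).divisors).image (fun e => G * e),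
            W y (θ * y) d * (((G : ℝ) * nu Mz u) * W y (θ * y) (u / G)) := by
            refine (Finset.sum_le_sum (g := fun u => W y (θ * y) d *
              (((G : ℝ) * nu Mz u) * W y (θ * y) (u / G))) ?_).trans
                (Finset.sum_le_sum_of_subset_of_nonneg ?_ ?_)
            · intro u hu
              rw [mem_filter, mem_filter, Nat.mem_divisors] at hu
              have hg := hgcd u hu.2
              have hu0' : u ≠ 0 := ne_zero_of_dvd_ne_zero hMz hu.1.1.1
              have hGu : G ∣ u := by rw [← hg]; exact Nat.gcd_dvd_right _ _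
              have e1 : cof H u = d * (u / G) := by
                unfold cof
                rw [hg, ← hu0.2]
              have hue : u / G ≠ 0 := (Nat.div_pos (Nat.le_of_dvd (Nat.pos_of_ne_zero hu0') hGu) hG0).ne'
              rw [hg, e1]
              have h3 := W_mul_le (y := y) hl hd0.ne' hue
              have h4 : 0 ≤ (G : ℝ) * nu Mz u := mul_nonneg (by positivity) (nu_nonneg _ _)
              calc (G : ℝ) * nu Mz u * W y (θ * y) (d * (u / G))
                  ≤ (G : ℝ) * nu Mz u * (W y (θ * y) d * W y (θ * y) (u / G)) :=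
                    mul_le_mul_of_nonneg_left h3 h4
                _ = _ := by ring
            · intro u hu
              rw [mem_filter, mem_filter, Nat.mem_divisors] at hu
              have hg := hgcd u hu.2
              have hGu : G ∣ u := by rw [← hg]; exact Nat.gcd_dvd_right _ _
              rw [mem_image]
              refine ⟨u / G, ?_, Nat.mul_div_cancel' hGu⟩
              rw [Nat.mem_divisors]
              refine ⟨Nat.div_dvd_div hGu hu.1.1.1, ?_⟩
              exact (Nat.div_pos (Nat.le_of_dvd hMp hGM) hG0).ne'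
            · intro u _ _
              have h4 : 0 ≤ (G : ℝ) * nu Mz u := mul_nonneg (by positivity) (nu_nonneg _ _)
              exact mul_nonneg (W_pos _ _ _).le (mul_nonneg h4 (W_pos _ _ _).le)
        _ = W y (θ * y) d * ∑ e ∈ (Mz / G).divisors, nu (Mz / G) e * W y (θ * y) e := by
            rw [sum_image (fun a _ b _ hab => Nat.eq_of_mul_eq_mul_left hG0 hab), mul_sum]
            refine sum_congr rfl fun e _ => ?_
            rw [nu_scale hMp hGM, Nat.mul_div_cancel_left e hG0]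
        _ ≤ _ := by
            refine mul_le_mul_of_nonneg_left (nu_W_le hy hθ ?_) (W_pos _ _ _).le
            exact Nat.div_pos (Nat.le_of_dvd hMp hGM) hG0
  refine (sum_le_sum hfib).trans ?_
  rw [← sum_mul]
  have h5 : ∑ d ∈ Finset.Ico (2 ^ i) (2 ^ (i + 1)), W y (θ * y) d ≤
      2 ^ (i + 1) * Real.exp (2 * θ * Real.exp θ) := by
    have h6 := sum_W_Icc (y := y) (θ := θ) hy hθ (N := 2 ^ (i + 1)) (by positivity)
    have h7 : ⌊(2 : ℝ) ^ (i + 1)⌋₊ = 2 ^ (i + 1) := by
      have : ((2 : ℝ) ^ (i + 1)) = ((2 ^ (i + 1) : ℕ) : ℝ) := by push_cast; rfl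
      rw [this, Nat.floor_natCast]
    rw [h7] at h6
    refine le_trans (sum_le_sum_of_subset_of_nonneg ?_ fun n _ _ => (W_pos _ _ _).le) h6
    intro n hn
    rw [mem_Ico] at hn
    rw [mem_Icc]
    have : 0 < 2 ^ i := by positivity
    omega
  calc _ ≤ 2 ^ (i + 1) * Real.exp (2 * θ * Real.exp θ) * Real.exp (2 * θ * Real.exp θ) :=
        mul_le_mul_of_nonneg_right h5 (Real.exp_pos _).le
    _ = 2 ^ (i + 1) * (Real.exp (2 * θ * Real.exp θ) * Real.exp (2 * θ * Real.exp θ)) := by ring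
    _ = _ := by rw [← Real.exp_add, pow_succ]; ring_nf

open Classical in
/-- plain mass of one dyadic class -/
theorem sum_nwb {Mz H : ℕ} (hMz : Mz ≠ 0) (hH : H ∣ Mz) (i : ℕ) :
    ∑ u ∈ Mz.divisors.filter (fun u => Nat.log 2 (H / Nat.gcd H u) = i),
      ((Nat.gcd H u : ℝ) * nu Mz u) ≤ 2 * 2 ^ i := by
  have h := sum_nwb_W (y := 1) (θ := 0) le_rfl le_rfl hMz hH i
  have e : ∀ n, W 1 0 n = 1 := fun n => by rw [W_eq]; simp
  simp only [mul_one, mul_zero, e, Real.exp_zero] at h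
  exact h

open ThmRx19 OnePx19

lemma RhoB_mono {Mz H : ℕ} {K K' : ℕ → ℕ → ℝ} {ρ : ℝ}
    (hK : ∀ u ∈ Mz.divisors, ∀ v ∈ Mz.divisors, K u v ≤ K' u v)
    (h : RhoB Mz H K' ρ) : RhoB Mz H K ρ := by
  intro i j
  refine le_trans (sum_le_sum fun b hb => sum_le_sum fun c hc => ?_) (h i j)
  have h1 := hK b (mem_filter.1 hb).1 c (mem_filter.1 hc).1
  have h2 := nu_nonneg Mz b
  have h3 := nu_nonneg Mz c
  split_ifs
  · exact mul_le_mul_of_nonneg_left h1 (by positivity)
  · exact le_rfl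

/-- **the relation `K_y` is `e^{-θδy/2}`-rare in every model** -/
theorem RhoB_ky (hy : 1 ≤ y) (hθ : 0 ≤ θ) {δ : ℝ} {Mz H : ℕ} (hMz : Mz ≠ 0) (hH : H ∣ Mz) :
    RhoB Mz H (KY y δ) (8 * Real.exp (4 * θ * Real.exp θ - θ * (δ / 2) * y)) := by
  classical
  intro i j
  have hl : 0 ≤ θ * y := mul_nonneg hθ (by linarith)
  set E := Real.exp (-(θ * y * (δ / 2))) with hE
  have hE0 : 0 < E := Real.exp_pos _
  set nw' : ℕ → ℝ := fun u => (Nat.gcd H u : ℝ) * nu Mz u with hnw
  have hnw0 : ∀ u, 0 ≤ nw' u := fun u => mul_nonneg (by positivity) (nu_nonneg _ _)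
  have hpt : ∀ u ∈ Mz.divisors, ∀ v ∈ Mz.divisors,
      KY y δ u v ≤ E * (W y (θ * y) (cof H u) + W y (θ * y) (cof H v)) := by
    intro u hu v hv
    have hu0 : u ≠ 0 := ne_zero_of_dvd_ne_zero hMz (Nat.dvd_of_mem_divisors hu)
    have hv0 : v ≠ 0 := ne_zero_of_dvd_ne_zero hMz (Nat.dvd_of_mem_divisors hv)
    have hH0 : H ≠ 0 := ne_zero_of_dvd_ne_zero hMz hH
    have h1 : iy y (cof u v) ≤ iy y (cof H u) + iy y (cof H v) :=
      iy_cof_le y hu0 hv0 hH0 hu0 hH0 hv0 fun p hp => by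
        by_contra hc
        push Not at hc
        exact hp (hc.1.symm.trans hc.2)
    have h2 : KY y δ u v ≤ KY y (δ / 2) H u + KY y (δ / 2) H v := by
      unfold KY
      by_cases c0 : δ ≤ iy y (cof u v)
      · rcases le_or_gt (δ / 2) (iy y (cof H u)) with c1 | c1
        · rw [if_pos c0, if_pos c1]; split_ifs <;> norm_num
        · rw [if_pos c0, if_neg (not_le.2 c1), if_pos (by linarith)]; norm_num
      · rw [if_neg c0]; split_ifs <;> norm_num
    have h3 := KY_le (y := y) hl (δ / 2) H u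
    have h4 := KY_le (y := y) hl (δ / 2) H v
    rw [← hE] at h3 h4
    linarith
  calc _ ≤ ∑ b ∈ Mz.divisors.filter (fun b => Nat.log 2 (H / Nat.gcd H b) = i),
        ∑ c ∈ Mz.divisors.filter (fun c => Nat.log 2 (H / Nat.gcd H c) = j),
          E * (nw' b * W y (θ * y) (cof H b) * nw' c + nw' b * (nw' c * W y (θ * y) (cof H c))) := by
        refine sum_le_sum fun b hb => sum_le_sum fun c hc => ?_
        have h1 := hpt b (mem_filter.1 hb).1 c (mem_filter.1 hc).1
        have h2 := hnw0 b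
        have h3 := hnw0 c
        have h4 := (W_pos y (θ * y) (cof H b)).le
        have h5 := (W_pos y (θ * y) (cof H c)).le
        split_ifs
        · calc _ ≤ nw' b * nw' c * (E * (W y (θ * y) (cof H b) + W y (θ * y) (cof H c))) :=
                mul_le_mul_of_nonneg_left h1 (mul_nonneg h2 h3)
            _ = _ := by ring
        · positivity
    _ = E * ((∑ b ∈ Mz.divisors.filter (fun b => Nat.log 2 (H / Nat.gcd H b) = i),
            nw' b * W y (θ * y) (cof H b)) *
            (∑ c ∈ Mz.divisors.filter (fun c => Nat.log 2 (H / Nat.gcd H c) = j), nw' c) +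
          (∑ b ∈ Mz.divisors.filter (fun b => Nat.log 2 (H / Nat.gcd H b) = i), nw' b) *
            (∑ c ∈ Mz.divisors.filter (fun c => Nat.log 2 (H / Nat.gcd H c) = j),
              nw' c * W y (θ * y) (cof H c))) := by
        rw [sum_mul_sum, sum_mul_sum, ← sum_add_distrib, mul_sum]
        refine sum_congr rfl fun b _ => ?_
        rw [← sum_add_distrib, mul_sum]
    _ ≤ E * ((2 * 2 ^ i * Real.exp (4 * θ * Real.exp θ)) * (2 * 2 ^ j) +
          (2 * 2 ^ i) * (2 * 2 ^ j * Real.exp (4 * θ * Real.exp θ))) := by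
        refine mul_le_mul_of_nonneg_left (add_le_add ?_ ?_) hE0.le
        · exact mul_le_mul (sum_nwb_W hy hθ hMz hH i) (sum_nwb hMz hH j)
            (sum_nonneg fun c _ => hnw0 c) (by positivity)
        · exact mul_le_mul (sum_nwb hMz hH i) (sum_nwb_W hy hθ hMz hH j)
            (sum_nonneg fun c _ => mul_nonneg (hnw0 c) (W_pos _ _ _).le) (by positivity)
    _ = 8 * (E * Real.exp (4 * θ * Real.exp θ)) * 2 ^ i * 2 ^ j := by ring
    _ = _ := by
        rw [hE, ← Real.exp_add]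
        congr 4
        ring

/-- the active part: many differing primes `> y` make the factor `FF` tiny -/
lemma FF_ky {κ δ0 c : ℝ} (hδ0 : 0 < δ0) {p0 : ℕ} (hc : 0 < c)
    (hX : ∀ p : ℕ, p0 ≤ p → c * X1 κ δ0 p ≤ 1 / 2) {Ma h h' : ℕ} (hMa : Ma ≠ 0) (hh : h ∣ Ma)
    (hh' : h' ∣ Ma) (hy : 1 ≤ y) {δ : ℝ} (hδ : δ ≤ iy y (cof h h')) :
    FF δ0 (gg κ δ0 c p0) Ma h h' ≤ Real.exp (-(δ0 * δ * y * Real.log y)) := by
  classical
  have hy0 : 0 < y := by linarith
  have hh0 : h ≠ 0 := ne_zero_of_dvd_ne_zero hMa hh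
  have hh0' : h' ≠ 0 := ne_zero_of_dvd_ne_zero hMa hh'
  set D := (cof h h').primeFactors.filter (fun p : ℕ => y < (p : ℝ)) with hD
  have hly : 0 ≤ Real.log y := Real.log_nonneg hy
  -- number of differing primes
  have h1 : δ * y ≤ D.card := by
    have h2 : iy y (cof h h') ≤ D.card * (1 / y) := by
      unfold iy
      rw [← hD]
      calc ∑ p ∈ D, (1 : ℝ) / p ≤ ∑ _p ∈ D, 1 / y := by
            refine sum_le_sum fun p hp => ?_
            rw [hD, mem_filter] at hp
            exact one_div_le_one_div_of_le hy0 hp.2.le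
        _ = _ := by rw [sum_const, nsmul_eq_mul]
    have h3 := hδ.trans h2
    rw [mul_one_div, le_div_iff₀ hy0] at h3
    exact h3
  have hDsub : D ⊆ Ma.primeFactors := by
    intro p hp
    rw [hD, mem_filter, mem_cof hh0 hh0'] at hp
    have hpos : 0 < Ma.factorization p := by
      have a1 := fact_le hMa hh p
      have a2 := fact_le hMa hh' p
      by_contra hcon
      push Not at hcon
      omega
    have : p ∈ Ma.factorization.support := by
      rw [Finsupp.mem_support_iff]; omega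
    rwa [Nat.support_factorization] at this
  have hg : ∀ p, 0 ≤ gg κ δ0 c p0 p ∧ gg κ δ0 c p0 p ≤ 1 := by
    intro p
    unfold gg
    split_ifs with h5
    · have h6 := hX p h5
      have h7 : 0 ≤ X1 κ δ0 p := by unfold X1; positivity
      have h8 : 0 ≤ c * X1 κ δ0 p := by positivity
      constructor <;> linarith
    · constructor <;> norm_num
  calc FF δ0 (gg κ δ0 c p0) Ma h h'
      ≤ ∏ p ∈ Ma.primeFactors, (if p ∈ D then Real.exp (-(δ0 * Real.log y)) else 1) := by
        unfold FF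
        refine prod_le_prod (fun p hp => ?_) fun p hp => ?_
        · split_ifs
          · exact (hg p).1
          · positivity
        · have hp1 : (1 : ℝ) ≤ p := by
            exact_mod_cast (Nat.prime_of_mem_primeFactors hp).one_lt.le
          by_cases h5 : p ∈ D
          · rw [if_pos h5]
            rw [hD, mem_filter, mem_cof hh0 hh0'] at h5
            rw [if_neg h5.1]
            have hp0 : (0 : ℝ) < p := by linarith
            have h6 : 1 ≤ dst (h.factorization p) (h'.factorization p) := OnePx19.dst_pos h5.1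
            have h7 : (1 : ℝ) ≤ (dst (h.factorization p) (h'.factorization p) : ℝ) := by
              exact_mod_cast h6
            rw [Real.rpow_def_of_pos hp0, Real.exp_le_exp]
            have h8 : Real.log y ≤ Real.log p := Real.log_le_log hy0 h5.2.le
            have h9 : δ0 * Real.log y ≤ Real.log p * (δ0 * (dst (h.factorization p) (h'.factorization p) : ℝ)) := by
              calc δ0 * Real.log y ≤ δ0 * Real.log p := mul_le_mul_of_nonneg_left h8 hδ0.le
                _ = Real.log p * (δ0 * 1) := by ring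
                _ ≤ _ := mul_le_mul_of_nonneg_left (mul_le_mul_of_nonneg_left h7 hδ0.le)
                    (Real.log_nonneg hp1)
            linarith
          · rw [if_neg h5]
            split_ifs
            · exact (hg p).2
            · apply Real.rpow_le_one_of_one_le_of_nonpos hp1
              have : 0 ≤ δ0 * (dst (h.factorization p) (h'.factorization p) : ℝ) := by positivity
              linarith
    _ = Real.exp (-(δ0 * Real.log y)) ^ D.card := by
        rw [← prod_filter, filter_mem_eq_inter, inter_eq_right.2 hDsub, prod_const]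
    _ ≤ _ := by
        rw [← Real.exp_nat_mul, Real.exp_le_exp]
        have h5 : 0 ≤ δ0 * Real.log y := by positivity
        have h6 := mul_le_mul_of_nonneg_right h1 h5
        linarith

/-- **energy of `K_y` at a fixed scale** (any `M`): it is `e^{-Ay}` times the HVW bound, for every
fixed `A` -/
theorem energy_ky {κ : ℝ} (hκ : 1 / 2 < κ) (hκ1 : κ < 1) :
    ∃ C : ℝ, 0 < C ∧ ∀ A δ : ℝ, 0 ≤ A → 0 < δ → ∃ y1 : ℝ, 1 ≤ y1 ∧ ∀ y : ℝ, y1 ≤ y →
      ∀ (M : ℕ) (X : ℝ) (f f' : ℕ → ℝ), M ≠ 0 → 0 < X →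
      (∀ x, 0 ≤ f x) → (∀ x, f x ≤ 1) → (∀ x, 0 ≤ f' x) → (∀ x, f' x ≤ 1) →
      ∑ b ∈ M.divisors, ∑ c ∈ M.divisors,
        (if X < (Nat.gcd b c : ℝ) ∧ (Nat.gcd b c : ℝ) ≤ 2 * X then
          (Nat.gcd b c : ℝ) * nu M b * nu M c * (f b * f' c * KY y δ b c)
        else 0) ≤ C * X ^ (2 * κ - 1) * Real.exp (-(A * y)) *
          ((∑ b ∈ M.divisors, nu M b * f b) ^ κ * (∑ b ∈ M.divisors, nu M b * f' b) ^ κ) := by
  obtain ⟨δ0, hδ00, hδ0⟩ := exists_delta hκ hκ1
  obtain ⟨c, C, p0, hc, hC, hX, hR⟩ := thmR_b hκ hκ1 hδ00 hδ0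
  refine ⟨C, hC, ?_⟩
  intro A δ hA hδ
  have h1k : 0 < 1 - κ := by linarith
  set t : ℝ := 4 * (A + 1) / (δ * (1 - κ)) with ht
  have ht0 : 0 ≤ t := by positivity
  refine ⟨max 1 (max (Real.exp (2 * A / (δ0 * δ))) (Real.log 8 + 4 * t * Real.exp t)),
    le_max_left _ _, ?_⟩
  intro y hy M X f f' hM hX0 hf hf1 hf' hf1'
  have hy1 : 1 ≤ y := (le_max_left _ _).trans hy
  have hy0 : 0 < y := by linarith
  have hy2 : Real.exp (2 * A / (δ0 * δ)) ≤ y := ((le_max_left _ _).trans (le_max_right _ _)).trans hy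
  have hy3 : Real.log 8 + 4 * t * Real.exp t ≤ y := ((le_max_right _ _).trans (le_max_right _ _)).trans hy
  refine hR M X (Real.exp (-(A * y))) f f' (KY y δ) hM hX0 (Real.exp_pos _).le hf hf1 hf' hf1'
    (KY_nonneg y δ) (KY_le_one y δ) ?_
  intro Ma Mz H h h' hMM hcop hh hh' hH
  have hMz : Mz ≠ 0 := by rintro rfl; simp at hMM; exact hM hMM.symm
  have hMa : Ma ≠ 0 := by rintro rfl; simp at hMM; exact hM hMM.symm
  have hh0 : h ≠ 0 := ne_zero_of_dvd_ne_zero hMa hh
  have hh0' : h' ≠ 0 := ne_zero_of_dvd_ne_zero hMa hh'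
  by_cases hact : δ / 2 ≤ iy y (cof h h')
  · refine ⟨1, zero_le_one, RhoB_one hMz hH _ (fun _ _ => KY_nonneg _ _ _ _)
      (fun _ _ => KY_le_one _ _ _ _), ?_⟩
    rw [Real.one_rpow, mul_one]
    refine (FF_ky hδ00 hc hX hMa hh hh' hy1 hact).trans ?_
    rw [Real.exp_le_exp]
    have h1 : 2 * A / (δ0 * δ) ≤ Real.log y := by
      rw [Real.le_log_iff_exp_le hy0]; exact hy2
    rw [div_le_iff₀ (by positivity)] at h1
    have h2 : A * y ≤ δ0 * (δ / 2) * y * Real.log y := by
      have h3 := mul_le_mul_of_nonneg_right h1 hy0.le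
      nlinarith
    linarith
  · push Not at hact
    refine ⟨8 * Real.exp (4 * t * Real.exp t - t * (δ / 2 / 2) * y), by positivity,
      RhoB_mono ?_ (RhoB_ky (δ := δ / 2) hy1 ht0 hMz hH), ?_⟩
    · intro u hu v hv
      have hu0 : u ≠ 0 := ne_zero_of_dvd_ne_zero hMz (Nat.dvd_of_mem_divisors hu)
      have hv0 : v ≠ 0 := ne_zero_of_dvd_ne_zero hMz (Nat.dvd_of_mem_divisors hv)
      have h1 : iy y (cof (h * u) (h' * v)) ≤ iy y (cof h h') + iy y (cof u v) :=
        iy_cof_le y (mul_ne_zero hh0 hu0) (mul_ne_zero hh0' hv0) hh0 hh0' hu0 hv0 fun p hp => by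
          rw [Nat.factorization_mul hh0 hu0, Nat.factorization_mul hh0' hv0, Finsupp.add_apply,
            Finsupp.add_apply] at hp
          by_contra hcon
          push Not at hcon
          exact hp (by rw [hcon.1, hcon.2])
      unfold KY
      by_cases c0 : δ ≤ iy y (cof (h * u) (h' * v))
      · rw [if_pos c0, if_pos (by linarith)]
      · rw [if_neg c0]; split_ifs <;> norm_num
    · have hF1 := FF_le_one (κ := κ) hδ00 hc hX Ma h h'
      have hF0 := FF_nonneg (κ := κ) (δ := δ0) (c := c) hX Ma h h'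
      have h2 : (8 * Real.exp (4 * t * Real.exp t - t * (δ / 2 / 2) * y)) ^ (1 - κ) ≤
          Real.exp (-(A * y)) := by
        have e1 : 8 * Real.exp (4 * t * Real.exp t - t * (δ / 2 / 2) * y) =
            Real.exp (Real.log 8 + (4 * t * Real.exp t - t * (δ / 2 / 2) * y)) := by
          rw [Real.exp_add, Real.exp_log (by norm_num)]
        rw [e1, ← Real.exp_mul, Real.exp_le_exp]
        have e2 : t * (δ / 2 / 2) * y * (1 - κ) = (A + 1) * y := by
          rw [ht]; field_simp; ring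
        have h3 : Real.log 8 + 4 * t * Real.exp t ≥ 0 := by
          have := Real.log_nonneg (show (1 : ℝ) ≤ 8 by norm_num)
          positivity
        calc (Real.log 8 + (4 * t * Real.exp t - t * (δ / 2 / 2) * y)) * (1 - κ)
            = (Real.log 8 + 4 * t * Real.exp t) * (1 - κ) - t * (δ / 2 / 2) * y * (1 - κ) := by ring
          _ = (Real.log 8 + 4 * t * Real.exp t) * (1 - κ) - (A + 1) * y := by rw [e2]
          _ ≤ (Real.log 8 + 4 * t * Real.exp t) * 1 - (A + 1) * y := by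
              have := mul_le_mul_of_nonneg_left (show 1 - κ ≤ 1 by linarith) h3
              linarith
          _ ≤ _ := by linarith
      calc FF δ0 (gg κ δ0 c p0) Ma h h' *
            (8 * Real.exp (4 * t * Real.exp t - t * (δ / 2 / 2) * y)) ^ (1 - κ)
          ≤ 1 * Real.exp (-(A * y)) := mul_le_mul hF1 h2 (by positivity) zero_le_one
        _ = _ := one_mul _

end Crest.Agent.R4C.Kyx952
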