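import Crest.Agent.R4C.LBoxDef_662
import Crest.Agent.R4C.SpineKit_946

/-!
# Row 4: CLASS (L) TOTAL, one box (helper662)

Over the arrows of `LBoxDef_662`.

* `box_sets` : one box, arbitrary subsets of `B`: set bound of the boosted offset sum divided
  by `offW b * offW c`, from the arrows A, B, C, D, U of `LBoxDef_662` and `LClass_662.boxTw`.
-/

set_option autoImplicit false

open Finset

namespace Crest.Agent.R4C.LBoxSetx662

open Crest.Agent.R4C.Basex935 Crest.Agent.R4C.Cutx50 Crest.Agent.R4C.FLDefx935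
  Crest.Agent.R4C.Rulex945 Crest.Agent.R4C.Splitx945 Crest.Agent.R4C.Bridgex882
  Crest.Agent.R4C.S7dx14 Crest.Agent.R4C.BoostCx972 Crest.Agent.R4C.PureL2x232
  Crest.Agent.R4C.Keptx559 Crest.Agent.R4C.LClassx662 Crest.Agent.R4C.LowLx899
  Crest.Agent.R4C.NonPureBlkx559 Crest.Agent.R4C.LBoxDefx662 Crest.Agent.R4C.Spinex946

open Crest.Agent.R4C.LBxx500 (tw)
open Crest.Agent.R4C.FLExx326 (ind)

section box

variable {M : ℕ} (F : FL M) (P : Par) (w : ℕ → ℝ) (δ : ℝ) (jB : ℕ → ℕ)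
  (Hv : ℕ → ℕ → ℤ → Prop) (x : Bx)

/-- the offsets of a box -/
def RB (b c : ℕ) (h : ℤ) : Prop :=
  ¬ Hv b c h ∧ ∃ (t : ℕ) (f f' : ℚ) (p : ℕ), LB F P w δ jB x t b c h f f' p

/-- boosted offset sum of a box, without `offW` -/
noncomputable def Ph (b c : ℕ) : ℝ :=
  oS P.γ P.L M (lamR F P) (RB F P w δ jB Hv x) b c /
    (B1Levx52.offW F 1 b * B1Levx52.offW F 1 c)

variable {F P w δ jB Hv x}

lemma offW_pos (b : ℕ) : 0 < B1Levx52.offW F 1 b :=
  lt_of_lt_of_le one_pos (B1Levx52.one_le_offW 1 b)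

lemma Ph_nonneg (b c : ℕ) : 0 ≤ Ph F P w δ jB Hv x b c :=
  div_nonneg (oS_nonneg _ _ _) (mul_nonneg (offW_pos _).le (offW_pos _).le)

lemma oS_eq (b c : ℕ) : oS P.γ P.L M (lamR F P) (RB F P w δ jB Hv x) b c =
    Ph F P w δ jB Hv x b c * (B1Levx52.offW F 1 b * B1Levx52.offW F 1 c) := by
  unfold Ph
  have h1 := offW_pos (F := F) b
  have h2 := offW_pos (F := F) c
  field_simp

end box

lemma mass_mono' {M : ℕ} {f g : ℕ → ℝ} (h : ∀ b, f b ≤ g b) (y z : ℕ) :
    mass M f y z ≤ mass M g y z := by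
  unfold mass
  exact Ex_mono _ fun b _ => h _

/-- constant of one box, without the tree constants -/
noncomputable def bxc (κ ε s Bc : ℝ) (x : Bx) (Nw : ℝ) : ℝ :=
  (((x.v : ℝ) + 1) ^ 2 * ((x.mx : ℝ) + 1) ^ 4 * Nw) * (x.N : ℝ) ^ ε /
    √(((2 ^ x.j : ℕ) : ℝ) * ((2 ^ x.j' : ℕ) : ℝ)) * (((2 : ℝ) ^ (x.n + 1)) ^ 20) ^ (κ / (1 + κ)) *
    Real.log (max 8 (2 ^ x.v) : ℕ) ^ Bc * tauB x ^ s

open Classical in
/-- **one box, sets** -/
theorem box_sets (A : ℕ) {κ r θ ε : ℝ} (hκ : 0 < κ) (hκ1 : κ < 1) (hr : 2 / (1 - κ) < r)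
    (hθ : 0 < θ) (hθ1 : θ < 1) (hε : 0 < ε) : ∃ Bc C : ℝ, 0 ≤ Bc ∧ 1 ≤ C ∧
    ∀ (cp : ℝ) (m0 : ℕ) (γ L : ℝ) (M : ℕ) (hM : 0 < M) (B : Finset ℕ) (F : FL M)
      (Hv : ℕ → ℕ → ℤ → Prop) (Nw : Bx → ℝ) (CB CD : ℝ), B ⊆ M.divisors → 0 ≤ CB → 0 ≤ CD →
    ArrA F (ParOf cp A m0 γ L M B) hM (ind B) (1 / (4 * A)) (jBA A) 1 →
    ArrB F (ParOf cp A m0 γ L M B) (ind B) (1 / (4 * A)) (jBA A) CB →
    ArrC F (ParOf cp A m0 γ L M B) hM (ind B) (1 / (4 * A)) (jBA A) 1 Hv Nw →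
    ArrD F (ParOf cp A m0 γ L M B) (ind B) (1 / (4 * A)) (jBA A) 1 CD →
    ArrU F (ParOf cp A m0 γ L M B) (ind B) (1 / (4 * A)) (jBA A) →
    ∀ x : Bx, x.j ≤ x.mx → x.j' ≤ x.mx → 1 ≤ Nw x → ∀ S S' : Finset ℕ, S ⊆ B → S' ⊆ B →
    ∑ b ∈ S, ∑ c ∈ S', (Nat.gcd b c : ℝ) * nu M b * nu M c *
      Ph F (ParOf cp A m0 γ L M B) (ind B) (1 / (4 * A)) (jBA A) Hv x b c ≤
    C * CD * CB ^ ((1 - θ) ^ 2 / (r * (1 + κ))) *
      bxc κ ε ((1 - θ) ^ 2 / (r * (1 + κ))) Bc x (Nw x) *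
      √((∑ b ∈ S, nu M b) * ∑ c ∈ S', nu M c) := by
  obtain ⟨Bc, C, hBc, hC, hbox⟩ := boxTw hκ hκ1 hr hθ hθ1 hε 3
  obtain ⟨CW, hCW, hWH⟩ := HighWx899.wbd_WH_pow A
  set s : ℝ := (1 - θ) ^ 2 / (r * (1 + κ)) with hs
  set C4 : ℝ := 4 * Real.exp (22 / Real.log 2) with hC4
  have hC40 : 0 < C4 := by positivity
  refine ⟨Bc, max 1 (C * (C4 * CW)), hBc, le_max_left _ _, ?_⟩
  intro cp m0 γ L M hM B F Hv Nw CB CD hB hCB hCD hA hBB hCC hD hU x hj hj' hNw S S' hS hS'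
  set P := ParOf cp A m0 γ L M B with hP
  set δ : ℝ := 1 / (4 * A) with hδ
  set jB := jBA A with hjB
  set y := P.Y x.v with hy
  have hy2 : y = 2 ^ x.v := rfl
  choose TT XH TT' XH' hTT hXH hTT' hXH' hPW using fun a a' i => hCC x a a' i
  have hSM : S ⊆ M.divisors := hS.trans hB
  have hSM' : S' ⊆ M.divisors := hS'.trans hB
  set D : ℝ := CD * ((x.v : ℝ) + 1) ^ 2 * ((x.mx : ℝ) + 1) ^ 4 with hDdef
  have hD0 : 0 ≤ D := by positivity
  -- the kernels
  set G : ℕ → ℕ → Prop := fun b c => ∃ (h : ℤ) (t : ℕ) (f f' : ℚ) (p : ℕ),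
    h ∈ Lnk P.γ P.L b c ∧ ¬ killedB (lamR F P) b c h ∧ ¬ Hv b c h ∧
      LB F P (ind B) δ jB x t b c h f f' p with hG
  set φ : ℕ → ℕ → ℝ := fun b c => if b ∈ S ∧ c ∈ S' ∧ b ∣ M ∧ c ∣ M ∧ G b c then 1 else 0 with hφ
  set Φ : ℕ → ℕ → ℝ := fun b c => if b ∈ S ∧ c ∈ S' ∧ b ∣ M ∧ c ∣ M then
    Ph F P (ind B) δ jB Hv x b c else 0 with hΦ
  have hφ0 : ∀ b c, 0 ≤ φ b c := fun b c => by simp only [hφ]; split_ifs <;> norm_num
  have hΦ0 : ∀ b c, 0 ≤ Φ b c := fun b c => by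
    simp only [hΦ]
    split_ifs
    · exact Ph_nonneg _ _
    · exact le_rfl
  -- Ph vanishes without G
  have hzero : ∀ b c, ¬ G b c → Ph F P (ind B) δ jB Hv x b c = 0 := by
    intro b c hn
    unfold Ph
    have h1 : oS P.γ P.L M (lamR F P) (RB F P (ind B) δ jB Hv x) b c = 0 := by
      unfold oS
      refine Finset.sum_eq_zero fun h hh => ?_
      rw [Finset.mem_filter] at hh
      obtain ⟨h1, h2, h3, t, f, f', p, h4⟩ := hh
      exact absurd ⟨h, t, f, f', p, h1, h2, h3, h4⟩ hn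
    rw [h1, zero_div]
  -- one offset
  have hone : ∀ b c, b ∣ M → c ∣ M → ∀ (h : ℤ) (t : ℕ) (f f' : ℚ) (p : ℕ),
      h ∈ Lnk P.γ P.L b c → ¬ killedB (lamR F P) b c h → ¬ Hv b c h →
      LB F P (ind B) δ jB x t b c h f f' p →
      oS P.γ P.L M (lamR F P) (RB F P (ind B) δ jB Hv x) b c = boostB M (lamR F P) b c h := by
    intro b c hb hc h t f f' p h1 h2 h3 h4
    unfold oS
    have e : (Lnk P.γ P.L b c).filter (fun h => ¬ killedB (lamR F P) b c h ∧
        RB F P (ind B) δ jB Hv x b c h) = {h} := by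
      ext h'
      rw [Finset.mem_filter, Finset.mem_singleton]
      constructor
      · rintro ⟨_, _, _, t', g, g', p', h5⟩
        exact (hU x b c t' t h' h g g' f f' p' p hb hc h5 h4).2.2
      · rintro rfl
        exact ⟨h1, h2, h3, t, f, f', p, h4⟩
    rw [e, Finset.sum_singleton]
  have hcut : P.cut = fun m => 2 ^ (A * m) := rfl
  have hmono : Monotone P.cut := by
    rw [hcut]
    intro a b hab
    exact Nat.pow_le_pow_right (by norm_num) (Nat.mul_le_mul_left _ hab)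
  have hup : 0 < upp y M := upp_pos _ _
  have hN1 : 1 ≤ x.N := Nat.one_le_two_pow
  set W0 : ℕ → ℕ → ℕ → ℕ → ℕ → ℝ := fun a a' i z z' => (D * C4) *
    HighWx899.WH (hiFL hM y F) 1 P.cut (TT a a' i) (XH a a' i) (TT' a a' i) (XH' a a' i) z z'
    with hW0
  have hres := hbox M F P.γ P.L ((x.N : ℝ) ^ 3) x.N P.cut (LDecx500.lb P) (range (P.N + 1))
    (fun a _ i => 2 ^ (i + a + 1) * (x.N : ℝ)) (fun _ a' i => 2 ^ (i + a' + 1) * (x.N : ℝ))
    (2 ^ x.j) (2 ^ x.j') y (((2 : ℝ) ^ (x.n + 1)) ^ 20) (D * C4 * (CW * Nw x)) (CB * tauB x)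
    W0 Φ φ (ind S) (ind S') (fun a a' i z z' => SamePtx217.KQ (QL F P (ind B) δ jB x a a' i z z'))
    hM (by positivity) (by positivity) (by positivity) (le_of_eq (by norm_num)) hN1 hmono
    Nat.one_le_two_pow Nat.one_le_two_pow
    (Nat.pow_le_pow_right (by norm_num) (by omega)) (Nat.pow_le_pow_right (by norm_num) (by omega))
    { Wn := fun a a' i z z' => mul_nonneg (by positivity) (HighWx899.WH_nonneg _ _ _ _ _ _ _ _ _)
      WE := fun a a' i => setW_iff.2 ((hWH (upp y M) (hiFL hM y F) hup 1 le_rfl (TT a a' i)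
        (XH a a' i) (TT' a a' i) (XH' a a' i) (Nw x) hNw (hTT a a' i) (hXH a a' i) (hTT' a a' i)
        (hXH' a a' i)).smul (by positivity))
      Φ0 := hΦ0
      φ0 := hφ0
      f0 := fun b => Crest.Agent.R4C.FLExx326.ind_nonneg S b
      f1 := fun b => by unfold ind; split_ifs <;> norm_num
      g0 := fun b => Crest.Agent.R4C.FLExx326.ind_nonneg S' b
      g1 := fun b => by unfold ind; split_ifs <;> norm_num
      K0 := fun a a' i z z' s t => SamePtx217.KQ_nonneg _ _ _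
      K1 := fun a a' i z z' s t => SamePtx217.KQ_le_one _ _ _
      dens := fun a a' i z z' hz hz' => hBB x a a' i z z' hz hz'
      fac := ?_
      rel := ?_
      light := ?_ }
  · -- the conclusion
    have e1 : ∑ b ∈ S, ∑ c ∈ S', (Nat.gcd b c : ℝ) * nu M b * nu M c *
        Ph F P (ind B) δ jB Hv x b c = frm M Φ := by
      unfold frm
      rw [← Finset.sum_subset hSM]
      · refine Finset.sum_congr rfl fun b hb => ?_
        rw [← Finset.sum_subset hSM']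
        · refine Finset.sum_congr rfl fun c hc => ?_
          simp only [hΦ]
          rw [if_pos ⟨hb, hc, Nat.dvd_of_mem_divisors (hSM hb),
            Nat.dvd_of_mem_divisors (hSM' hc)⟩]
        · intro c _ hc
          simp only [hΦ]
          rw [if_neg (fun h => hc h.2.1), mul_zero]
      · intro b _ hb
        refine Finset.sum_eq_zero fun c _ => ?_
        simp only [hΦ]
        rw [if_neg (fun h => hb h.1), mul_zero]
    have e2 : ∀ T : Finset ℕ, T ⊆ M.divisors →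
        ∑ b ∈ M.divisors, nu M b * ind T b = ∑ b ∈ T, nu M b := by
      intro T hT
      unfold ind
      simp only [mul_ite, mul_one, mul_zero]
      rw [← Finset.sum_filter]
      congr 1
      ext b
      rw [Finset.mem_filter]
      exact ⟨fun h => h.2, fun h => ⟨hT h, h⟩⟩
    rw [e2 S hSM, e2 S' hSM'] at hres
    rw [e1]
    refine hres.trans ?_
    have ht0 : 0 ≤ tauB x := by
      unfold tauB
      refine le_min zero_le_one ?_
      positivity
    have h3 : (CB * tauB x) ^ s = CB ^ s * tauB x ^ s := Real.mul_rpow hCB ht0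
    rw [h3]
    have hlog : 0 ≤ Real.log (max 8 (2 ^ x.v) : ℕ) := Real.log_natCast_nonneg _
    have hb0 : 0 ≤ bxc κ ε s Bc x (Nw x) := by
      unfold bxc
      have : 0 ≤ Nw x := by linarith
      positivity
    calc _ = (C * (C4 * CW)) * (CD * CB ^ s * bxc κ ε s Bc x (Nw x) *
          √((∑ b ∈ S, nu M b) * ∑ c ∈ S', nu M c)) := by
          unfold bxc
          rw [hDdef, hy2]
          push_cast
          ring
      _ ≤ max 1 (C * (C4 * CW)) * (CD * CB ^ s * bxc κ ε s Bc x (Nw x) *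
          √((∑ b ∈ S, nu M b) * ∑ c ∈ S', nu M c)) :=
          mul_le_mul_of_nonneg_right (le_max_right _ _) (by positivity)
      _ = _ := by ring
  · -- fac
    intro b c hb hc
    by_cases hGG : b ∈ S ∧ c ∈ S' ∧ b ∣ M ∧ c ∣ M ∧ G b c
    · right
      obtain ⟨hbS, hcS, _, _, h, t, f, f', p, h1, h2, h3, h4⟩ := hGG
      obtain ⟨z0, z0', e1, e2, m1, m2, hg, heq, hkz⟩ := hA x t b c h f f' p hb hc h1 h4
      refine ⟨_, _, z0, z0', e1, e2, ?_, ?_, hg, ?_⟩
      · exact m1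
      · exact m2
      · have hφ1 : φ b c = 1 := by
          simp only [hφ]
          rw [if_pos ⟨hbS, hcS, hb, hc, h, t, f, f', p, h1, h2, h3, h4⟩]
        have hΦ1 : Φ b c = Ph F P (ind B) δ jB Hv x b c := by
          simp only [hΦ]
          rw [if_pos ⟨hbS, hcS, hb, hc⟩]
        rw [hφ1, hΦ1, one_mul]
        have hz : z0 ∣ upp y M := (Dvd.intro_left _ rfl : z0 ∣ tw F P y t b c f f' * z0).trans
          (by rw [← e1]; exact upp_dvd y hM.ne' hb)
        have hz' : z0' ∣ upp y M := (Dvd.intro_left _ rfl : z0' ∣ tw F P y t c b f' f * z0').trans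
          (by rw [← e2]; exact upp_dvd y hM.ne' hc)
        have hpw := hPW (ca y b c) (ca' y b c) (ci y b c) t b c h f f' p hb hc h1 h2 h3 h4 rfl rfl
          rfl z0 z0' e1 e2 heq hkz
        have h5 := HighWx899.bst_le_WH hup le_rfl hz hz' hpw
        have h6 := hD x t b c h f f' p hb hc h1 h4 z0 z0' e1 e2 heq
        unfold Ph
        rw [hone b c hb hc h t f f' p h1 h2 h3 h4]
        have o1 := offW_pos (F := F) b
        have o2 := offW_pos (F := F) c
        rw [div_le_iff₀ (mul_pos o1 o2)]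
        refine h6.trans ?_
        have h7 : D * (B1Levx52.offW F 1 b * B1Levx52.offW F 1 c) *
            HighWx899.bst (Qt (M := M) P y t z0 z0') ≤
            D * (B1Levx52.offW F 1 b * B1Levx52.offW F 1 c) * (C4 *
              HighWx899.WH (hiFL hM y F) 1 P.cut (TT (ca y b c) (ca' y b c) (ci y b c))
                (XH (ca y b c) (ca' y b c) (ci y b c)) (TT' (ca y b c) (ca' y b c) (ci y b c))
                (XH' (ca y b c) (ca' y b c) (ci y b c)) z0 z0') :=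
          mul_le_mul_of_nonneg_left h5 (by positivity)
        refine h7.trans (le_of_eq ?_)
        simp only [hW0]
        unfold ca ca' ci
        ring
    · left
      by_cases hb' : b ∈ S ∧ c ∈ S'
      · have hn : ¬ G b c := fun hg => hGG ⟨hb'.1, hb'.2, hb, hc, hg⟩
        simp only [hΦ]
        rw [hzero b c hn]
        simp
      · simp only [hΦ]
        rw [if_neg (fun h => hb' ⟨h.1, h.2.1⟩)]
  · -- rel
    intro b c hb hc
    by_cases hGG : b ∈ S ∧ c ∈ S' ∧ b ∣ M ∧ c ∣ M ∧ G b c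
    · obtain ⟨hbS, hcS, _, _, h, t, f, f', p, h1, h2, h3, h4⟩ := hGG
      have hφ1 : φ b c = 1 := by
        simp only [hφ]
        rw [if_pos ⟨hbS, hcS, hb, hc, h, t, f, f', p, h1, h2, h3, h4⟩]
      have i1 : ind S b = 1 := by unfold ind; rw [if_pos hbS]
      have i2 : ind S' c = 1 := by unfold ind; rw [if_pos hcS]
      rw [hφ1, i1, i2, one_mul, one_mul]
      unfold SamePtx217.KQ
      rw [if_pos]
      exact ⟨b, c, h, t, f, f', p, hb, hc, h1, h4, rfl, rfl, rfl, rfl, rfl, rfl, rfl⟩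
    · have hφ1 : φ b c = 0 := by
        simp only [hφ]
        rw [if_neg hGG]
      rw [hφ1]
      exact mul_nonneg (mul_nonneg (Crest.Agent.R4C.FLExx326.ind_nonneg S b)
        (Crest.Agent.R4C.FLExx326.ind_nonneg S' c)) (SamePtx217.KQ_nonneg _ _ _)
  · -- light
    intro b c hb hc h0
    have hGG : b ∈ S ∧ c ∈ S' ∧ b ∣ M ∧ c ∣ M ∧ G b c := by
      by_contra hn
      apply h0
      simp only [hφ]
      rw [if_neg hn]
    obtain ⟨hbS, hcS, _, _, h, t, f, f', p, h1, h2, h3, h4⟩ := hGG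
    refine le_trans (mul_le_mul_of_nonneg_left ?_ (Nat.cast_nonneg _)) h4.light
    refine mass_mono' (fun n => ?_) _ _
    unfold ind
    by_cases hn : n ∈ S
    · rw [if_pos hn, if_pos (hS hn)]
    · rw [if_neg hn]
      split_ifs <;> norm_num

end Crest.Agent.R4C.LBoxSetx662
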