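import Crest.Agent.R4C.VecNPj_50
import Mathlib.NumberTheory.EulerProduct.Basic

/-!
# Row 4, BLOCK S5/S6 (6.0): explained primes all small — abstract part (helper808)

* `word_class` : one word function, arbitrary weights `k` on the upper words with a bilinear bound
  `E` for sets (`SetBd`), full boost on the low words: `≤ 4 E / √(A B)`.
* `family_class` : a finite family of classes; the words of a class may depend on the upper words
  `z, z'` AND on the dyadic sizes `U, U'` of the lower words; the sum over `U, U'` is free.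
* `smooth_sum` : `∑_{r Z-smooth} r^(-12/25) ≤ exp (8 Z^(13/25))`.
* `smooth_abs` : low words `(k₁ r, k₁' r')`, `r, r'` `Z`-smooth, at most `N` pairs `(k₁, k₁')` for
  every `(z, z', U, U')`, `k₁, k₁' ≤ K₁`, product `≥ W₀`: energy
  `≤ 40 E N (log₂ K₁ + 1)² W₀^(-1/50) exp (16 Z^(13/25)) (Ex f)^{1/2} (Ex g)^{1/2}`.
-/

set_option autoImplicit false

open Finset
open Crest.Agent.R4C.Basex935 Crest.Agent.R4C.Cutx50 Crest.Agent.R4C.HeavyLx50
open Crest.Agent.R4C.BoostRx398 (bst tf one_le_tf)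
open Crest.Agent.R4C.FixedWordx423 (wd wd_pos)
open Crest.Agent.R4C.VecNPx50

namespace Crest.Agent.R4C.LSmoothAx808

/-! ### one word function -/

open Classical in
/-- **one word function, weights on the upper words, full boost on the lower words** -/
theorem word_class {M : ℕ} (hM : 0 < M) (y : ℕ) (S : Finset ℕ) {k : ℕ → ℕ → ℝ}
    (hk : ∀ z z', 0 ≤ k z z') {E : ℝ} (hE0 : 0 ≤ E) (hN : SetBd (upp y M) k E)
    {A B : ℝ} (hA : 1 ≤ A) (hB : 1 ≤ B) (P : ℕ → ℕ → Prop) (w : ℕ → ℕ → ℕ × ℕ)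
    (hw : ∀ b c, b ∣ M → c ∣ M → P b c → wd (low y b) (low y c) = w (upp y b) (upp y c) ∧
      A ≤ (w (upp y b) (upp y c)).1 ∧ B ≤ (w (upp y b) (upp y c)).2)
    {f g : ℕ → ℝ} (hf : ∀ b, 0 ≤ f b) (hg : ∀ b, 0 ≤ g b) (hf1 : ∀ b, f b ≤ 1)
    (hg1 : ∀ b, g b ≤ 1) :
    frm M (fun b c => if P b c then k (upp y b) (upp y c) * bst S (low y M) (low y b) (low y c) *
      (f b * g c) else 0) ≤ 4 * E / √(A * B) * (√(Ex M f) * √(Ex M g)) := by
  have hA0 : 0 < A := by linarith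
  have hB0 : 0 < B := by linarith
  set M0 := low y M with hM0
  set M1 := upp y M with hM1
  have hM0p : 0 < M0 := low_pos y M
  have hM1p : 0 < M1 := upp_pos y M
  set Vf : ℕ → ℝ := fun z => Ex M0 (fun u => f (u * z)) with hVf
  set Vg : ℕ → ℝ := fun z => Ex M0 (fun u => g (u * z)) with hVg
  have hVf0 : ∀ z, 0 ≤ Vf z := fun z => Ex_nonneg _ fun _ => hf _
  have hVg0 : ∀ z, 0 ≤ Vg z := fun z => Ex_nonneg _ fun _ => hg _
  have hVf1 : ∀ z, Vf z ≤ 1 := fun z =>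
    (Ex_mono _ fun b _ => hf1 (b * z)).trans (le_of_eq (Ex_const hM0p 1))
  have hkey : frm M (fun b c => if P b c then k (upp y b) (upp y c) *
      bst S M0 (low y b) (low y c) * (f b * g c) else 0) ≤
      frm M1 (fun z z' => k z z' * min (1 / B * Vf z) (1 / A * Vg z')) := by
    rw [frm_low_upp hM y]
    unfold frm
    refine Finset.sum_le_sum fun z hz => Finset.sum_le_sum fun z' hz' => ?_
    have hzd := Nat.dvd_of_mem_divisors hz
    have hzd' := Nat.dvd_of_mem_divisors hz'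
    refine mul_le_mul_of_nonneg_left ?_
      (mul_nonneg (mul_nonneg (by positivity) (nu_nonneg _ _)) (nu_nonneg _ _))
    have hdiv : ∀ u T, u ∣ M0 → T ∣ M1 → u * T ∣ M := by
      intro u T hu hT
      have := Nat.mul_dvd_mul hu hT
      rwa [low_mul_upp y hM.ne'] at this
    by_cases hex : ∃ u u', u ∣ M0 ∧ u' ∣ M0 ∧ P (u * z) (u' * z')
    · obtain ⟨u1, u1', hu1, hu1', hP1⟩ := hex
      have hww := hw _ _ (hdiv _ _ hu1 hzd) (hdiv _ _ hu1' hzd') hP1
      rw [upp_of_mul hu1 hzd, upp_of_mul hu1' hzd'] at hww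
      set x := w z z' with hx
      beta_reduce
      have hin : frm M0 (fun n n' => if P (n * z) (n' * z') then
            k (upp y (n * z)) (upp y (n' * z')) *
              bst S M0 (low y (n * z)) (low y (n' * z')) * (f (n * z) * g (n' * z')) else 0) ≤
          k z z' * frm M0 (fun u u' => if wd u u' = x then
            bst S M0 u u' * (f (u * z) * g (u' * z')) else 0) := by
        unfold frm
        rw [Finset.mul_sum]
        refine Finset.sum_le_sum fun u hu => ?_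
        rw [Finset.mul_sum]
        refine Finset.sum_le_sum fun u' hu' => ?_
        have hud := Nat.dvd_of_mem_divisors hu
        have hud' := Nat.dvd_of_mem_divisors hu'
        have hwt : 0 ≤ (Nat.gcd u u' : ℝ) * nu M0 u * nu M0 u' :=
          mul_nonneg (mul_nonneg (by positivity) (nu_nonneg _ _)) (nu_nonneg _ _)
        beta_reduce
        by_cases hPP : P (u * z) (u' * z')
        · have h2 := (hw _ _ (hdiv _ _ hud hzd) (hdiv _ _ hud' hzd') hPP).1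
          rw [low_of_mul hud hzd, low_of_mul hud' hzd', upp_of_mul hud hzd,
            upp_of_mul hud' hzd'] at h2
          rw [if_pos hPP, if_pos h2, low_of_mul hud hzd, low_of_mul hud' hzd', upp_of_mul hud hzd,
            upp_of_mul hud' hzd']
          exact le_of_eq (by ring)
        · rw [if_neg hPP, mul_zero]
          refine mul_nonneg (hk _ _) (mul_nonneg hwt ?_)
          split_ifs
          · exact mul_nonneg (bst_nonneg _ _ _ _) (mul_nonneg (hf _) (hg _))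
          · exact le_rfl
      refine hin.trans (mul_le_mul_of_nonneg_left (le_min ?_ ?_) (hk _ _))
      · refine (low_right hM0p S x (F := fun u => f (u * z)) (G := fun u => g (u * z'))
          (fun _ => hf _) (fun _ => hg1 _)).trans ?_
        rw [div_eq_mul_one_div, mul_comm]
        refine mul_le_mul_of_nonneg_right ?_ (hVf0 z)
        exact one_div_le_one_div_of_le hB0 hww.2.2
      · refine (low_left hM0p S x (F := fun u => f (u * z)) (G := fun u => g (u * z'))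
          (fun _ => hg _) (fun _ => hf1 _)).trans ?_
        rw [div_eq_mul_one_div, mul_comm]
        refine mul_le_mul_of_nonneg_right ?_ (hVg0 z')
        exact one_div_le_one_div_of_le hA0 hww.2.1
    · push Not at hex
      have h0 : frm M0 (fun n n' => if P (n * z) (n' * z') then
            k (upp y (n * z)) (upp y (n' * z')) *
              bst S M0 (low y (n * z)) (low y (n' * z')) * (f (n * z) * g (n' * z')) else 0) = 0 := by
        unfold frm
        refine Finset.sum_eq_zero fun u hu => Finset.sum_eq_zero fun u' hu' => ?_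
        beta_reduce
        rw [if_neg (hex u u' (Nat.dvd_of_mem_divisors hu) (Nat.dvd_of_mem_divisors hu')), mul_zero]
      refine (le_of_eq h0).trans ?_
      exact mul_nonneg (hk _ _) (le_min (mul_nonneg (by positivity) (hVf0 z))
        (mul_nonneg (by positivity) (hVg0 z')))
  refine hkey.trans ?_
  have hlay := layer_form hM1p (k := k) hk hE0 hN
    (P := fun z => 1 / B * Vf z) (Q := fun z => 1 / A * Vg z)
    (fun b => mul_nonneg (by positivity) (hVf0 b)) (fun b => mul_nonneg (by positivity) (hVg0 b))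
    (fun b => by
      have h1 : 1 / B ≤ 1 := by rw [div_le_one hB0]; exact hB
      calc 1 / B * Vf b ≤ 1 * 1 := mul_le_mul h1 (hVf1 b) (hVf0 b) zero_le_one
        _ = 1 := one_mul 1)
  refine hlay.trans (le_of_eq ?_)
  have e1 : Ex M1 (fun z => 1 / B * Vf z) = 1 / B * Ex M f := by
    rw [Ex_mul_left]
    congr 1
    exact Ex_mass hM y f
  have e2 : Ex M1 (fun z => 1 / A * Vg z) = 1 / A * Ex M g := by
    rw [Ex_mul_left]
    congr 1
    exact Ex_mass hM y g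
  rw [e1, e2, Real.sqrt_mul (by positivity), Real.sqrt_mul (by positivity),
    Real.sqrt_mul hA0.le, one_div, one_div, Real.sqrt_inv, Real.sqrt_inv]
  have hsA : 0 < √A := Real.sqrt_pos.2 hA0
  have hsB : 0 < √B := Real.sqrt_pos.2 hB0
  field_simp

/-! ### the boxes -/

/-- nearly diagonal condition on the dyadic sizes -/
def nd (c c' U U' : ℕ) : Prop := U + c' ≤ U' + c + 2 ∧ U' + c ≤ U + c' + 2

instance (c c' U U' : ℕ) : Decidable (nd c c' U U') := by unfold nd; infer_instance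

lemma card_nd_right (n c c' U : ℕ) : ((range n).filter (fun U' => nd c c' U U')).card ≤ 5 := by
  have h : (range n).filter (fun U' => nd c c' U U') ⊆
      Finset.Icc (U + c' - (c + 2)) (U + c' + 2 - c) := by
    intro U' hU'
    rw [mem_filter] at hU'
    obtain ⟨_, h1, h2⟩ := hU'
    rw [mem_Icc]
    omega
  refine (card_le_card h).trans ?_
  rw [Nat.card_Icc]
  omega

lemma card_nd_left (n c c' U' : ℕ) : ((range n).filter (fun U => nd c c' U U')).card ≤ 5 := by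
  have h : (range n).filter (fun U => nd c c' U U') ⊆
      Finset.Icc (U' + c - (c' + 2)) (U' + c + 2 - c') := by
    intro U hU
    rw [mem_filter] at hU
    obtain ⟨_, h1, h2⟩ := hU
    rw [mem_Icc]
    omega
  refine (card_le_card h).trans ?_
  rw [Nat.card_Icc]
  omega

lemma box_cauchy (n c c' : ℕ) {a b : ℕ → ℝ} (ha : ∀ i, 0 ≤ a i) (hb : ∀ i, 0 ≤ b i) :
    ∑ U ∈ range n, ∑ U' ∈ range n, (if nd c c' U U' then √(a U) * √(b U') else 0) ≤
      5 * (√(∑ U ∈ range n, a U) * √(∑ U ∈ range n, b U)) := by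
  set D := (range n ×ˢ range n).filter (fun x : ℕ × ℕ => nd c c' x.1 x.2) with hD
  have e0 : ∑ U ∈ range n, ∑ U' ∈ range n, (if nd c c' U U' then √(a U) * √(b U') else 0) =
      ∑ x ∈ D, √(a x.1) * √(b x.2) := by
    rw [hD, sum_filter, sum_product]
  rw [e0]
  have h1 := Real.sum_sqrt_mul_sqrt_le D (f := fun x => a x.1) (g := fun x => b x.2)
    (fun x => ha x.1) (fun x => hb x.2)
  refine h1.trans ?_
  have hA : ∑ x ∈ D, a x.1 ≤ 5 * ∑ U ∈ range n, a U := by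
    calc ∑ x ∈ D, a x.1 = ∑ U ∈ range n, ∑ U' ∈ range n, (if nd c c' U U' then a U else 0) := by
          rw [hD, sum_filter, sum_product]
      _ = ∑ U ∈ range n, (((range n).filter (fun U' => nd c c' U U')).card : ℝ) * a U := by
          refine sum_congr rfl fun U _ => ?_
          rw [← sum_filter, sum_const, nsmul_eq_mul]
      _ ≤ ∑ U ∈ range n, 5 * a U := by
          refine sum_le_sum fun U _ => mul_le_mul_of_nonneg_right ?_ (ha U)
          exact_mod_cast card_nd_right n c c' U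
      _ = _ := by rw [mul_sum]
  have hB : ∑ x ∈ D, b x.2 ≤ 5 * ∑ U ∈ range n, b U := by
    calc ∑ x ∈ D, b x.2 = ∑ U' ∈ range n, ∑ U ∈ range n, (if nd c c' U U' then b U' else 0) := by
          rw [hD, sum_filter, sum_product, sum_comm]
      _ = ∑ U' ∈ range n, (((range n).filter (fun U => nd c c' U U')).card : ℝ) * b U' := by
          refine sum_congr rfl fun U' _ => ?_
          rw [← sum_filter, sum_const, nsmul_eq_mul]
      _ ≤ ∑ U' ∈ range n, 5 * b U' := by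
          refine sum_le_sum fun U' _ => mul_le_mul_of_nonneg_right ?_ (hb U')
          exact_mod_cast card_nd_left n c c' U'
      _ = _ := by rw [mul_sum]
  have hsa : 0 ≤ ∑ U ∈ range n, a U := sum_nonneg fun i _ => ha i
  have hsb : 0 ≤ ∑ U ∈ range n, b U := sum_nonneg fun i _ => hb i
  calc √(∑ x ∈ D, a x.1) * √(∑ x ∈ D, b x.2)
      ≤ √(5 * ∑ U ∈ range n, a U) * √(5 * ∑ U ∈ range n, b U) :=
        mul_le_mul (Real.sqrt_le_sqrt hA) (Real.sqrt_le_sqrt hB) (Real.sqrt_nonneg _)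
          (Real.sqrt_nonneg _)
    _ = (√5 * √5) * (√(∑ U ∈ range n, a U) * √(∑ U ∈ range n, b U)) := by
        rw [Real.sqrt_mul (by norm_num), Real.sqrt_mul (by norm_num)]
        ring
    _ = _ := by rw [Real.mul_self_sqrt (by norm_num)]

/-- `f` on the box `U` of the lower part -/
noncomputable def bx (y : ℕ) (f : ℕ → ℝ) (U b : ℕ) : ℝ := if Nat.log 2 (low y b) = U then f b else 0

lemma bx_nonneg {y : ℕ} {f : ℕ → ℝ} (hf : ∀ b, 0 ≤ f b) (U b : ℕ) : 0 ≤ bx y f U b := by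
  unfold bx; split_ifs
  · exact hf b
  · exact le_rfl

lemma bx_le {y : ℕ} {f : ℕ → ℝ} (hf1 : ∀ b, f b ≤ 1) (U b : ℕ) : bx y f U b ≤ 1 := by
  unfold bx; split_ifs
  · exact hf1 b
  · exact zero_le_one

lemma sum_bx {M : ℕ} (hM : 0 < M) (y : ℕ) (f : ℕ → ℝ) :
    ∑ U ∈ range (Nat.log 2 (low y M) + 1), Ex M (bx y f U) = Ex M f := by
  rw [Ex_sum]
  unfold Ex
  refine sum_congr rfl fun b hb => ?_
  congr 1
  unfold bx
  beta_reduce
  rw [sum_ite_eq, if_pos]
  rw [mem_range]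
  refine Nat.lt_succ_of_le (Nat.log_mono_right ?_)
  exact Nat.le_of_dvd (low_pos y M) (low_dvd y hM.ne' (Nat.dvd_of_mem_divisors hb))

/-- the kernel of one box of one class -/
noncomputable def GK (M y : ℕ) (S : Finset ℕ) (k : ℕ → ℕ → ℝ) (f g : ℕ → ℝ)
    (P : ℕ → ℕ → Prop) [∀ b c, Decidable (P b c)] (U U' b c : ℕ) : ℝ :=
  if P b c ∧ Nat.log 2 (low y b) = U ∧ Nat.log 2 (low y c) = U' then
    k (upp y b) (upp y c) * bst S (low y M) (low y b) (low y c) * (bx y f U b * bx y g U' c)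
    else 0

lemma GK_nonneg {M y : ℕ} {S : Finset ℕ} {k : ℕ → ℕ → ℝ} {f g : ℕ → ℝ}
    {P : ℕ → ℕ → Prop} [∀ b c, Decidable (P b c)] (hk : ∀ z z', 0 ≤ k z z')
    (hf : ∀ b, 0 ≤ f b) (hg : ∀ b, 0 ≤ g b) (U U' b c : ℕ) : 0 ≤ GK M y S k f g P U U' b c := by
  unfold GK
  split_ifs
  · exact mul_nonneg (mul_nonneg (hk _ _) (bst_nonneg _ _ _ _))
      (mul_nonneg (bx_nonneg hf _ _) (bx_nonneg hg _ _))
  · exact le_rfl

lemma one_box {M : ℕ} (hM : 0 < M) (y : ℕ) (S : Finset ℕ) {k : ℕ → ℕ → ℝ}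
    (hk : ∀ z z', 0 ≤ k z z') {E : ℝ} (hE0 : 0 ≤ E) (hN : SetBd (upp y M) k E)
    {A B : ℝ} (hA : 1 ≤ A) (hB : 1 ≤ B) (γ γ' : ℕ) (P : ℕ → ℕ → Prop) [∀ b c, Decidable (P b c)]
    (w : ℕ → ℕ → ℕ → ℕ → ℕ × ℕ)
    (hw : ∀ b c, b ∣ M → c ∣ M → P b c →
      wd (low y b) (low y c) =
        w (Nat.log 2 (low y b)) (Nat.log 2 (low y c)) (upp y b) (upp y c) ∧
      A ≤ (w (Nat.log 2 (low y b)) (Nat.log 2 (low y c)) (upp y b) (upp y c)).1 ∧
      B ≤ (w (Nat.log 2 (low y b)) (Nat.log 2 (low y c)) (upp y b) (upp y c)).2 ∧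
      nd γ γ' (Nat.log 2 (low y b)) (Nat.log 2 (low y c)))
    {f g : ℕ → ℝ} (hf : ∀ b, 0 ≤ f b) (hg : ∀ b, 0 ≤ g b) (hf1 : ∀ b, f b ≤ 1)
    (hg1 : ∀ b, g b ≤ 1) (U U' : ℕ) :
    frm M (GK M y S k f g P U U') ≤ 4 * E / √(A * B) * (if nd γ γ' U U' then
        √(Ex M (bx y f U)) * √(Ex M (bx y g U')) else 0) := by
  classical
  by_cases hnd : nd γ γ' U U'
  · rw [if_pos hnd]
    have h := word_class (f := bx y f U) (g := bx y g U') hM y S hk hE0 hN hA hB
      (fun b c => P b c ∧ Nat.log 2 (low y b) = U ∧ Nat.log 2 (low y c) = U') (w U U')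
      (fun b c hb hc hq => by
        obtain ⟨hP, hU, hU'⟩ := hq
        have := hw b c hb hc hP
        rw [hU, hU'] at this
        exact ⟨this.1, this.2.1, this.2.2.1⟩) (bx_nonneg hf U) (bx_nonneg hg U') (bx_le hf1 U)
      (bx_le hg1 U')
    refine le_trans (le_of_eq ?_) h
    refine frm_congr fun b c _ _ => ?_
    unfold GK
    congr
  · rw [if_neg hnd, mul_zero]
    refine le_of_eq ?_
    unfold frm
    refine sum_eq_zero fun b hb => sum_eq_zero fun c hc => ?_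
    have hbd := Nat.dvd_of_mem_divisors hb
    have hcd := Nat.dvd_of_mem_divisors hc
    unfold GK
    rw [if_neg, mul_zero]
    rintro ⟨hP, hU, hU'⟩
    have := (hw b c hbd hcd hP).2.2.2
    rw [hU, hU'] at this
    exact hnd this

lemma one_index {M : ℕ} (hM : 0 < M) (y : ℕ) (S : Finset ℕ) {k : ℕ → ℕ → ℝ}
    (hk : ∀ z z', 0 ≤ k z z') {E : ℝ} (hE0 : 0 ≤ E) (hN : SetBd (upp y M) k E)
    {A B : ℝ} (hA : 1 ≤ A) (hB : 1 ≤ B) (γ γ' : ℕ) (P : ℕ → ℕ → Prop) [∀ b c, Decidable (P b c)]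
    (w : ℕ → ℕ → ℕ → ℕ → ℕ × ℕ)
    (hw : ∀ b c, b ∣ M → c ∣ M → P b c →
      wd (low y b) (low y c) =
        w (Nat.log 2 (low y b)) (Nat.log 2 (low y c)) (upp y b) (upp y c) ∧
      A ≤ (w (Nat.log 2 (low y b)) (Nat.log 2 (low y c)) (upp y b) (upp y c)).1 ∧
      B ≤ (w (Nat.log 2 (low y b)) (Nat.log 2 (low y c)) (upp y b) (upp y c)).2 ∧
      nd γ γ' (Nat.log 2 (low y b)) (Nat.log 2 (low y c)))
    {f g : ℕ → ℝ} (hf : ∀ b, 0 ≤ f b) (hg : ∀ b, 0 ≤ g b) (hf1 : ∀ b, f b ≤ 1)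
    (hg1 : ∀ b, g b ≤ 1) :
    ∑ U ∈ range (Nat.log 2 (low y M) + 1), ∑ U' ∈ range (Nat.log 2 (low y M) + 1),
      frm M (GK M y S k f g P U U') ≤ 20 * E / √(A * B) * (√(Ex M f) * √(Ex M g)) := by
  set n := Nat.log 2 (low y M) + 1 with hn
  calc ∑ U ∈ range n, ∑ U' ∈ range n, frm M (GK M y S k f g P U U')
      ≤ ∑ U ∈ range n, ∑ U' ∈ range n, 4 * E / √(A * B) * (if nd γ γ' U U' then
        √(Ex M (bx y f U)) * √(Ex M (bx y g U')) else 0) :=
        sum_le_sum fun U _ => sum_le_sum fun U' _ =>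
          one_box hM y S hk hE0 hN hA hB γ γ' P w hw hf hg hf1 hg1 U U'
    _ = 4 * E / √(A * B) * ∑ U ∈ range n, ∑ U' ∈ range n, (if nd γ γ' U U' then
        √(Ex M (bx y f U)) * √(Ex M (bx y g U')) else 0) := by
        rw [mul_sum]
        refine sum_congr rfl fun U _ => ?_
        rw [mul_sum]
    _ ≤ 4 * E / √(A * B) * (5 * (√(∑ U ∈ range n, Ex M (bx y f U)) *
        √(∑ U ∈ range n, Ex M (bx y g U)))) := by
        refine mul_le_mul_of_nonneg_left ?_ (by positivity)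
        exact box_cauchy n γ γ' (fun U => Ex_nonneg _ (bx_nonneg hf U))
          (fun U => Ex_nonneg _ (bx_nonneg hg U))
    _ = _ := by
        rw [hn, sum_bx hM y f, sum_bx hM y g]
        ring

open Classical in
/-- **a finite family of classes of words** -/
theorem family_class {ι : Type*} {M : ℕ} (hM : 0 < M) (y : ℕ) (S : Finset ℕ) {k : ℕ → ℕ → ℝ}
    (hk : ∀ z z', 0 ≤ k z z') {E : ℝ} (hE0 : 0 ≤ E) (hN : SetBd (upp y M) k E)
    (T : Finset ι) {A B : ι → ℝ} (hA : ∀ i ∈ T, 1 ≤ A i) (hB : ∀ i ∈ T, 1 ≤ B i)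
    (γ γ' : ι → ℕ) (P : ι → ℕ → ℕ → Prop)
    (w : ι → ℕ → ℕ → ℕ → ℕ → ℕ × ℕ)
    (hw : ∀ i ∈ T, ∀ b c, b ∣ M → c ∣ M → P i b c →
      wd (low y b) (low y c) =
        w i (Nat.log 2 (low y b)) (Nat.log 2 (low y c)) (upp y b) (upp y c) ∧
      A i ≤ (w i (Nat.log 2 (low y b)) (Nat.log 2 (low y c)) (upp y b) (upp y c)).1 ∧
      B i ≤ (w i (Nat.log 2 (low y b)) (Nat.log 2 (low y c)) (upp y b) (upp y c)).2 ∧
      nd (γ i) (γ' i) (Nat.log 2 (low y b)) (Nat.log 2 (low y c)))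
    {f g : ℕ → ℝ} (hf : ∀ b, 0 ≤ f b) (hg : ∀ b, 0 ≤ g b) (hf1 : ∀ b, f b ≤ 1)
    (hg1 : ∀ b, g b ≤ 1) {Φ : ℕ → ℕ → ℝ}
    (hΦ : ∀ b c, b ∣ M → c ∣ M → Φ b c ≤ k (upp y b) (upp y c) *
      bst S (low y M) (low y b) (low y c) * (f b * g c))
    (hex : ∀ b c, b ∣ M → c ∣ M → Φ b c ≤ 0 ∨ ∃ i ∈ T, P i b c) :
    frm M Φ ≤ ∑ i ∈ T, 20 * E / √(A i * B i) * (√(Ex M f) * √(Ex M g)) := by
  have hlog : ∀ b, b ∣ M → Nat.log 2 (low y b) ∈ range (Nat.log 2 (low y M) + 1) := by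
    intro b hb
    rw [mem_range]
    refine Nat.lt_succ_of_le (Nat.log_mono_right ?_)
    exact Nat.le_of_dvd (low_pos y M) (low_dvd y hM.ne' hb)
  have hG0 : ∀ i U U' b c, 0 ≤ GK M y S k f g (P i) U U' b c :=
    fun i U U' b c => GK_nonneg hk hf hg U U' b c
  -- pointwise
  have h1 : frm M Φ ≤ frm M (fun b c => ∑ i ∈ T, ∑ U ∈ range (Nat.log 2 (low y M) + 1),
      ∑ U' ∈ range (Nat.log 2 (low y M) + 1), GK M y S k f g (P i) U U' b c) := by
    refine Asmx946.frm_le fun b c hb hc => ?_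
    rcases hex b c hb hc with h0 | ⟨i, hi, hP⟩
    · exact h0.trans (sum_nonneg fun i _ => sum_nonneg fun U _ => sum_nonneg fun U' _ =>
        hG0 i U U' b c)
    · have e1 : Φ b c ≤ GK M y S k f g (P i) (Nat.log 2 (low y b)) (Nat.log 2 (low y c)) b c := by
        unfold GK
        rw [if_pos ⟨hP, rfl, rfl⟩]
        refine (hΦ b c hb hc).trans (le_of_eq ?_)
        unfold bx
        rw [if_pos rfl, if_pos rfl]
      refine e1.trans ?_
      refine le_trans ?_ (single_le_sum (f := fun i =>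
        ∑ U ∈ range (Nat.log 2 (low y M) + 1), ∑ U' ∈ range (Nat.log 2 (low y M) + 1),
        GK M y S k f g (P i) U U' b c) (fun i _ => sum_nonneg fun U _ => sum_nonneg fun U' _ =>
          hG0 i U U' b c) hi)
      refine le_trans ?_ (single_le_sum (f := fun U => ∑ U' ∈ range (Nat.log 2 (low y M) + 1),
        GK M y S k f g (P i) U U' b c)
        (fun U _ => sum_nonneg fun U' _ => hG0 i U U' b c) (hlog b hb))
      exact single_le_sum (f := fun U' => GK M y S k f g (P i) (Nat.log 2 (low y b)) U' b c)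
        (fun U' _ => hG0 i _ U' b c) (hlog c hc)
  have h2 : frm M (fun b c => ∑ i ∈ T, ∑ U ∈ range (Nat.log 2 (low y M) + 1),
      ∑ U' ∈ range (Nat.log 2 (low y M) + 1), GK M y S k f g (P i) U U' b c) =
      ∑ i ∈ T, ∑ U ∈ range (Nat.log 2 (low y M) + 1), ∑ U' ∈ range (Nat.log 2 (low y M) + 1),
        frm M (GK M y S k f g (P i) U U') := by
    rw [Asmx946.frm_sum]
    refine sum_congr rfl fun i _ => ?_
    rw [Asmx946.frm_sum]
    refine sum_congr rfl fun U _ => ?_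
    rw [Asmx946.frm_sum]
  rw [h2] at h1
  exact h1.trans (sum_le_sum fun i hi => one_index hM y S hk hE0 hN (hA i hi) (hB i hi) (γ i)
    (γ' i) (P i) (w i) (hw i hi) hf hg hf1 hg1)

/-! ### smooth numbers -/

lemma sum_rpow_le (Z : ℕ) : ∑ n ∈ Icc 1 Z, (n : ℝ) ^ (-(12 / 25) : ℝ) ≤ 2 * (Z : ℝ) ^ (13 / 25 : ℝ) := by
  induction Z with
  | zero => simp
  | succ Z ih =>
    rw [Finset.sum_Icc_succ_top (by omega)]
    set N : ℝ := ((Z + 1 : ℕ) : ℝ) with hN
    have hN1 : 1 ≤ N := by rw [hN]; exact_mod_cast Nat.succ_le_succ (Nat.zero_le Z)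
    have hN0 : 0 < N := by linarith
    have hZ : (Z : ℝ) = N * (1 + (-(1 / N))) := by
      rw [hN]
      push_cast
      field_simp
      ring
    have h1 : (1 + (-(1 / N))) ^ (13 / 25 : ℝ) ≤ 1 + 13 / 25 * (-(1 / N)) := by
      refine rpow_one_add_le_one_add_mul_self ?_ (by norm_num) (by norm_num)
      rw [neg_le_neg_iff, div_le_one hN0]
      exact hN1
    have h2 : (Z : ℝ) ^ (13 / 25 : ℝ) ≤ N ^ (13 / 25 : ℝ) * (1 + 13 / 25 * (-(1 / N))) := by
      have h3 : 0 ≤ 1 + (-(1 / N)) := by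
        have : 1 / N ≤ 1 := by rw [div_le_one hN0]; exact hN1
        linarith
      rw [hZ, Real.mul_rpow hN0.le h3]
      exact mul_le_mul_of_nonneg_left h1 (by positivity)
    have h4 : N ^ (13 / 25 : ℝ) * (1 / N) = N ^ (-(12 / 25) : ℝ) := by
      rw [show (-(12 / 25) : ℝ) = 13 / 25 - 1 by norm_num, Real.rpow_sub hN0, Real.rpow_one,
        mul_one_div]
    have h5 : 0 ≤ N ^ (-(12 / 25) : ℝ) := by positivity
    calc ∑ n ∈ Icc 1 Z, (n : ℝ) ^ (-(12 / 25) : ℝ) + N ^ (-(12 / 25) : ℝ)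
        ≤ 2 * (N ^ (13 / 25 : ℝ) * (1 + 13 / 25 * (-(1 / N)))) + N ^ (-(12 / 25) : ℝ) := by
          linarith
      _ = 2 * N ^ (13 / 25 : ℝ) - 26 / 25 * (N ^ (13 / 25 : ℝ) * (1 / N)) +
          N ^ (-(12 / 25) : ℝ) := by ring
      _ ≤ 2 * N ^ (13 / 25 : ℝ) := by rw [h4]; linarith

/-- the completely multiplicative function `n^(-12/25)` -/
noncomputable def fpow : ℕ →* ℝ where
  toFun n := (n : ℝ) ^ (-(12 / 25) : ℝ)
  map_one' := by simp
  map_mul' m n := by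
    push_cast
    exact Real.mul_rpow (Nat.cast_nonneg _) (Nat.cast_nonneg _)

lemma fpow_apply (n : ℕ) : fpow n = (n : ℝ) ^ (-(12 / 25) : ℝ) := rfl

lemma fpow_le {p : ℕ} (hp : 2 ≤ p) : fpow p ≤ 3 / 4 := by
  rw [fpow_apply]
  have h2 : (2 : ℝ) ≤ p := by exact_mod_cast hp
  have h1 : (p : ℝ) ^ (-(12 / 25) : ℝ) ≤ (2 : ℝ) ^ (-(12 / 25) : ℝ) :=
    Real.rpow_le_rpow_of_nonpos (by norm_num) h2 (by norm_num)
  refine h1.trans ?_
  have h3 : ((2 : ℝ) ^ (-(12 / 25) : ℝ)) ^ (25 : ℕ) ≤ (3 / 4 : ℝ) ^ (25 : ℕ) := by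
    rw [← Real.rpow_natCast, ← Real.rpow_mul (by norm_num)]
    norm_num
  exact le_of_pow_le_pow_left₀ (by norm_num) (by norm_num) h3

/-- **sum over smooth numbers** -/
theorem smooth_sum (Z : ℕ) (s : Finset ℕ) (hs : ∀ r ∈ s, 0 < r ∧ ∀ p, p.Prime → p ∣ r → p ≤ Z) :
    ∑ r ∈ s, (r : ℝ) ^ (-(12 / 25) : ℝ) ≤ Real.exp (8 * (Z : ℝ) ^ (13 / 25 : ℝ)) := by
  have hnorm : ∀ {p : ℕ}, p.Prime → ‖fpow p‖ < 1 := by
    intro p hp
    rw [fpow_apply, Real.norm_of_nonneg (by positivity)]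
    refine Real.rpow_lt_one_of_one_lt_of_neg ?_ (by norm_num)
    exact_mod_cast hp.one_lt
  have h1 := (EulerProduct.summable_and_hasSum_smoothNumbers_prod_primesBelow_geometric
    (f := fpow) hnorm (Z + 1)).2
  have h2 : HasSum ((Z + 1).smoothNumbers.indicator fpow)
      (∏ p ∈ (Z + 1).primesBelow, (1 - fpow p)⁻¹) := by
    rw [← hasSum_subtype_iff_indicator]
    exact h1
  have h3 : ∑ r ∈ s, (Z + 1).smoothNumbers.indicator fpow r ≤
      ∏ p ∈ (Z + 1).primesBelow, (1 - fpow p)⁻¹ := by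
    refine sum_le_hasSum s (fun r _ => ?_) h2
    refine Set.indicator_nonneg (fun r _ => ?_) r
    rw [fpow_apply]
    positivity
  have h4 : ∑ r ∈ s, (r : ℝ) ^ (-(12 / 25) : ℝ) =
      ∑ r ∈ s, (Z + 1).smoothNumbers.indicator fpow r := by
    refine sum_congr rfl fun r hr => ?_
    rw [Set.indicator_of_mem, fpow_apply]
    rw [Nat.mem_smoothNumbers]
    refine ⟨(hs r hr).1.ne', fun p hp => ?_⟩
    have hpp := Nat.prime_of_mem_primeFactorsList hp
    have hpd := Nat.dvd_of_mem_primeFactorsList hp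
    exact Nat.lt_succ_of_le ((hs r hr).2 p hpp hpd)
  rw [h4]
  refine h3.trans ?_
  have h5 : ∀ p ∈ (Z + 1).primesBelow, (1 - fpow p)⁻¹ ≤ Real.exp (4 * fpow p) := by
    intro p hp
    have hpp := Nat.prime_of_mem_primesBelow hp
    have hx := fpow_le hpp.two_le
    have hx0 : 0 ≤ fpow p := by rw [fpow_apply]; positivity
    rw [inv_le_comm₀ (by linarith) (Real.exp_pos _), ← Real.exp_neg]
    have h6 := Real.one_sub_le_exp_neg (4 * fpow p)
    -- `exp (-4x) ≤ 1 - x` for `0 ≤ x ≤ 3/4`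
    have h7 : Real.exp (-(4 * fpow p)) ≤ 1 / (1 + 4 * fpow p) := by
      rw [Real.exp_neg, one_div]
      refine inv_anti₀ (by positivity) ?_
      have := Real.add_one_le_exp (4 * fpow p)
      linarith
    refine h7.trans ?_
    rw [div_le_iff₀ (by positivity)]
    nlinarith
  calc ∏ p ∈ (Z + 1).primesBelow, (1 - fpow p)⁻¹
      ≤ ∏ p ∈ (Z + 1).primesBelow, Real.exp (4 * fpow p) := by
        refine prod_le_prod (fun p hp => ?_) h5
        have hx := fpow_le (Nat.prime_of_mem_primesBelow hp).two_le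
        exact inv_nonneg.2 (by linarith)
    _ = Real.exp (4 * ∑ p ∈ (Z + 1).primesBelow, fpow p) := by
        rw [← Real.exp_sum, mul_sum]
    _ ≤ Real.exp (8 * (Z : ℝ) ^ (13 / 25 : ℝ)) := by
        rw [Real.exp_le_exp]
        have h8 : ∑ p ∈ (Z + 1).primesBelow, fpow p ≤ ∑ n ∈ Icc 1 Z, (n : ℝ) ^ (-(12 / 25) : ℝ) := by
          have hsub : (Z + 1).primesBelow ⊆ Icc 1 Z := by
            intro p hp
            have hpp := Nat.prime_of_mem_primesBelow hp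
            have hlt := Nat.lt_of_mem_primesBelow hp
            rw [mem_Icc]
            exact ⟨hpp.one_le, by omega⟩
          calc ∑ p ∈ (Z + 1).primesBelow, fpow p
              = ∑ p ∈ (Z + 1).primesBelow, (p : ℝ) ^ (-(12 / 25) : ℝ) := rfl
            _ ≤ _ := sum_le_sum_of_subset_of_nonneg hsub (fun n _ _ => by positivity)
        have h9 := sum_rpow_le Z
        linarith

/-! ### the abstract theorem -/

lemma log_mul_ge {a b : ℕ} (ha : 0 < a) (hb : 0 < b) :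
    Nat.log 2 a + Nat.log 2 b ≤ Nat.log 2 (a * b) := by
  refine (Nat.le_log_iff_pow_le (by norm_num) (Nat.mul_pos ha hb).ne').2 ?_
  rw [pow_add]
  exact Nat.mul_le_mul (Nat.pow_log_le_self 2 ha.ne') (Nat.pow_log_le_self 2 hb.ne')

lemma log_mul_le {a b : ℕ} (ha : 0 < a) (hb : 0 < b) :
    Nat.log 2 (a * b) ≤ Nat.log 2 a + Nat.log 2 b + 1 := by
  have h1 := Nat.lt_pow_succ_log_self (b := 2) (by norm_num) a
  have h2 := Nat.lt_pow_succ_log_self (b := 2) (by norm_num) b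
  have h3 : a * b < 2 ^ (Nat.log 2 a + Nat.log 2 b + 2) := by
    calc a * b < 2 ^ (Nat.log 2 a).succ * 2 ^ (Nat.log 2 b).succ := Nat.mul_lt_mul'' h1 h2
      _ = _ := by rw [← pow_add]; congr 1; omega
  have h4 := (Nat.log_lt_iff_lt_pow (by norm_num) (Nat.mul_pos ha hb).ne').2 h3
  omega

/-- the sizes of the lower words are linked by the word -/
lemma nd_of_wd {u u' x1 x2 r r' : ℕ} (hu : 0 < u) (hu' : 0 < u') (hx1 : 0 < x1) (hx2 : 0 < x2)
    (hr : 0 < r) (hr' : 0 < r') (h : wd u u' = (x1 * r, x2 * r')) :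
    nd (Nat.log 2 x1 + Nat.log 2 r) (Nat.log 2 x2 + Nat.log 2 r') (Nat.log 2 u)
      (Nat.log 2 u') := by
  unfold wd at h
  rw [Prod.mk.injEq] at h
  have e1 : Nat.gcd u u' * (x1 * r) = u := by
    rw [← h.1]; exact Nat.mul_div_cancel' (Nat.gcd_dvd_left _ _)
  have e2 : Nat.gcd u u' * (x2 * r') = u' := by
    rw [← h.2]; exact Nat.mul_div_cancel' (Nat.gcd_dvd_right _ _)
  have e : u * (x2 * r') = u' * (x1 * r) := by
    calc u * (x2 * r') = Nat.gcd u u' * (x1 * r) * (x2 * r') := by rw [e1]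
      _ = Nat.gcd u u' * (x2 * r') * (x1 * r) := by ring
      _ = _ := by rw [e2]
  have p1 : 0 < x1 * r := Nat.mul_pos hx1 hr
  have p2 : 0 < x2 * r' := Nat.mul_pos hx2 hr'
  have a1 := log_mul_ge hu p2
  have a2 := log_mul_le hu p2
  have b1 := log_mul_ge hu' p1
  have b2 := log_mul_le hu' p1
  have c1 := log_mul_ge hx1 hr
  have c2 := log_mul_le hx1 hr
  have d1 := log_mul_ge hx2 hr'
  have d2 := log_mul_le hx2 hr'
  rw [e] at a1 a2
  unfold nd
  omega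

/-- the index set of the classes -/
def IT (R : Finset ℕ) (N Λ : ℕ) : Finset (ℕ × ℕ × ℕ × ℕ × ℕ) :=
  R ×ˢ (R ×ˢ (range N ×ˢ (range (Λ + 1) ×ˢ range (Λ + 1))))

lemma sum_IT (R : Finset ℕ) (N Λ : ℕ) (c : ℝ) (φ : ℕ → ℝ) :
    ∑ i ∈ IT R N Λ, c * (φ i.1 * φ i.2.1) =
      c * (N * ((Λ : ℝ) + 1) ^ 2) * (∑ r ∈ R, φ r) ^ 2 := by
  unfold IT
  rw [sum_product]
  have h1 : ∀ r ∈ R, ∑ x ∈ R ×ˢ (range N ×ˢ (range (Λ + 1) ×ˢ range (Λ + 1))),
      c * (φ r * φ x.1) = c * (N * ((Λ : ℝ) + 1) ^ 2) * (φ r * ∑ r' ∈ R, φ r') := by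
    intro r _
    rw [sum_product]
    have h2 : ∀ r' ∈ R, ∑ _x ∈ (range N ×ˢ (range (Λ + 1) ×ˢ range (Λ + 1))),
        c * (φ r * φ r') = (c * (N * ((Λ : ℝ) + 1) ^ 2)) * (φ r * φ r') := by
      intro r' _
      rw [sum_const, card_product, card_product, card_range, card_range, nsmul_eq_mul]
      push_cast
      ring
    rw [sum_congr rfl h2, ← mul_sum, ← mul_sum]
  rw [sum_congr rfl h1, ← mul_sum, ← sum_mul, sq (∑ r ∈ R, φ r)]

open Classical in
/-- **explained primes all small: abstract theorem** -/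
theorem smooth_abs {M : ℕ} (hM : 0 < M) (y : ℕ) (S : Finset ℕ) {k : ℕ → ℕ → ℝ}
    (hk : ∀ z z', 0 ≤ k z z') {E : ℝ} (hE0 : 0 ≤ E) (hN : SetBd (upp y M) k E)
    (Z K₁ N : ℕ) {W₀ : ℝ} (hW₀ : 0 < W₀) (𝒦 : ℕ → ℕ → ℕ → ℕ → Finset (ℕ × ℕ))
    (hcard : ∀ U U' z z', (𝒦 U U' z z').card ≤ N)
    (hK : ∀ U U' z z', ∀ x ∈ 𝒦 U U' z z', 0 < x.1 ∧ x.1 ≤ K₁ ∧ 0 < x.2 ∧ x.2 ≤ K₁)
    {f g : ℕ → ℝ} (hf : ∀ b, 0 ≤ f b) (hg : ∀ b, 0 ≤ g b) (hf1 : ∀ b, f b ≤ 1)
    (hg1 : ∀ b, g b ≤ 1) {Φ : ℕ → ℕ → ℝ}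
    (hΦ : ∀ b c, b ∣ M → c ∣ M → Φ b c ≤ k (upp y b) (upp y c) *
      bst S (low y M) (low y b) (low y c) * (f b * g c))
    (hex : ∀ b c, b ∣ M → c ∣ M → Φ b c ≤ 0 ∨
      ∃ x ∈ 𝒦 (Nat.log 2 (low y b)) (Nat.log 2 (low y c)) (upp y b) (upp y c), ∃ r r' : ℕ,
        0 < r ∧ 0 < r' ∧ (∀ p, p.Prime → p ∣ r → p ≤ Z) ∧ (∀ p, p.Prime → p ∣ r' → p ≤ Z) ∧
        wd (low y b) (low y c) = (x.1 * r, x.2 * r') ∧
        W₀ ≤ ((x.1 * r : ℕ) : ℝ) * ((x.2 * r' : ℕ) : ℝ)) :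
    frm M Φ ≤ 40 * E * (N * ((Nat.log 2 K₁ : ℝ) + 1) ^ 2) * W₀ ^ (-(1 / 50) : ℝ) *
      Real.exp (16 * (Z : ℝ) ^ (13 / 25 : ℝ)) * (√(Ex M f) * √(Ex M g)) := by
  set Λ := Nat.log 2 K₁ with hΛ
  set R := M.divisors.filter (fun r => ∀ p, p.Prime → p ∣ r → p ≤ Z) with hR
  set D := √(Ex M f) * √(Ex M g) with hD
  have hD0 : 0 ≤ D := mul_nonneg (Real.sqrt_nonneg _) (Real.sqrt_nonneg _)
  have hRpos : ∀ r ∈ R, 0 < r := fun r hr => Nat.pos_of_mem_divisors (mem_filter.1 hr).1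
  have hlist : ∀ (l : Finset (ℕ × ℕ)) (x : ℕ × ℕ), x ∈ l → ∃ j < l.card,
      l.toList.getD j (1, 1) = x := by
    intro l x hx
    rw [← mem_toList, List.mem_iff_getElem] at hx
    obtain ⟨j, hj, e⟩ := hx
    refine ⟨j, by rwa [length_toList] at hj, ?_⟩
    rw [List.getD_eq_getElem _ _ hj, e]
  set wj : ℕ × ℕ × ℕ × ℕ × ℕ → ℕ → ℕ → ℕ → ℕ → ℕ × ℕ := fun i U U' z z' =>
    (𝒦 U U' z z').toList.getD i.2.2.1 (1, 1) with hwj
  set w : ℕ × ℕ × ℕ × ℕ × ℕ → ℕ → ℕ → ℕ → ℕ → ℕ × ℕ := fun i U U' z z' =>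
    ((wj i U U' z z').1 * i.1, (wj i U U' z z').2 * i.2.1) with hw
  set A : ℕ × ℕ × ℕ × ℕ × ℕ → ℝ := fun i => 2 ^ i.2.2.2.1 * (i.1 : ℝ) with hA
  set B : ℕ × ℕ × ℕ × ℕ × ℕ → ℝ := fun i => 2 ^ i.2.2.2.2 * (i.2.1 : ℝ) with hB
  set T := (IT R N Λ).filter (fun i => W₀ ≤ 4 * (A i * B i)) with hT
  have hmem : ∀ i ∈ IT R N Λ, 0 < i.1 ∧ 0 < i.2.1 := by
    intro i hi
    unfold IT at hi
    rw [mem_product, mem_product] at hi
    exact ⟨hRpos _ hi.1, hRpos _ hi.2.1⟩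
  have hA1 : ∀ i ∈ IT R N Λ, (i.1 : ℝ) ≤ A i ∧ (i.2.1 : ℝ) ≤ B i := by
    intro i hi
    have h0 : (0 : ℝ) ≤ i.1 := Nat.cast_nonneg _
    have h0' : (0 : ℝ) ≤ i.2.1 := Nat.cast_nonneg _
    exact ⟨le_mul_of_one_le_left h0 (one_le_pow₀ (by norm_num)),
      le_mul_of_one_le_left h0' (one_le_pow₀ (by norm_num))⟩
  have hAone : ∀ i ∈ IT R N Λ, 1 ≤ A i ∧ 1 ≤ B i := by
    intro i hi
    have h1 : (1 : ℝ) ≤ i.1 := by exact_mod_cast (hmem i hi).1
    have h2 : (1 : ℝ) ≤ i.2.1 := by exact_mod_cast (hmem i hi).2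
    exact ⟨h1.trans (hA1 i hi).1, h2.trans (hA1 i hi).2⟩
  set P : ℕ × ℕ × ℕ × ℕ × ℕ → ℕ → ℕ → Prop := fun i b c =>
    let x := wj i (Nat.log 2 (low y b)) (Nat.log 2 (low y c)) (upp y b) (upp y c)
    wd (low y b) (low y c) = (x.1 * i.1, x.2 * i.2.1) ∧ 0 < x.1 ∧ 0 < x.2 ∧
      Nat.log 2 x.1 = i.2.2.2.1 ∧ Nat.log 2 x.2 = i.2.2.2.2 with hP
  have key := family_class hM y S hk hE0 hN T (A := A) (B := B)
    (fun i hi => (hAone i (mem_filter.1 hi).1).1) (fun i hi => (hAone i (mem_filter.1 hi).1).2)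
    (fun i => i.2.2.2.1 + Nat.log 2 i.1) (fun i => i.2.2.2.2 + Nat.log 2 i.2.1) P w
    (fun i hi b c hb hc hPi => by
      obtain ⟨h1, h2, h3, h4, h5⟩ := hPi
      have hi0 := hmem i (mem_filter.1 hi).1
      set x := wj i (Nat.log 2 (low y b)) (Nat.log 2 (low y c)) (upp y b) (upp y c) with hx
      refine ⟨h1, ?_, ?_, ?_⟩
      · have h6 : 2 ^ i.2.2.2.1 ≤ x.1 := by rw [← h4]; exact Nat.pow_log_le_self 2 h2.ne'
        have h7 : 2 ^ i.2.2.2.1 * i.1 ≤ x.1 * i.1 := Nat.mul_le_mul_right _ h6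
        show 2 ^ i.2.2.2.1 * (i.1 : ℝ) ≤ ((x.1 * i.1 : ℕ) : ℝ)
        exact_mod_cast h7
      · have h6 : 2 ^ i.2.2.2.2 ≤ x.2 := by rw [← h5]; exact Nat.pow_log_le_self 2 h3.ne'
        have h7 : 2 ^ i.2.2.2.2 * i.2.1 ≤ x.2 * i.2.1 := Nat.mul_le_mul_right _ h6
        show 2 ^ i.2.2.2.2 * (i.2.1 : ℝ) ≤ ((x.2 * i.2.1 : ℕ) : ℝ)
        exact_mod_cast h7
      · have := nd_of_wd (low_pos y b) (low_pos y c) h2 h3 hi0.1 hi0.2 h1
        rw [h4, h5] at this
        exact this)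
    hf hg hf1 hg1 hΦ
    (fun b c hb hc => by
      rcases hex b c hb hc with h0 | ⟨x, hx, r, r', hr, hr', hrZ, hrZ', hwd, hWW⟩
      · exact Or.inl h0
      right
      obtain ⟨j, hj, ej⟩ := hlist _ x hx
      have hK1 := hK _ _ _ _ x hx
      have hdiv : x.1 * r ∣ M := by
        have h1 : (wd (low y b) (low y c)).1 = x.1 * r := by rw [hwd]
        rw [← h1]
        exact (Nat.div_dvd_of_dvd (Nat.gcd_dvd_left _ _)).trans ((low_dvd_self y b).trans hb)
      have hdiv' : x.2 * r' ∣ M := by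
        have h1 : (wd (low y b) (low y c)).2 = x.2 * r' := by rw [hwd]
        rw [← h1]
        exact (Nat.div_dvd_of_dvd (Nat.gcd_dvd_right _ _)).trans ((low_dvd_self y c).trans hc)
      refine ⟨(r, r', j, Nat.log 2 x.1, Nat.log 2 x.2), ?_, ?_⟩
      · rw [hT, mem_filter]
        constructor
        · unfold IT
          rw [mem_product, mem_product, mem_product, mem_product]
          refine ⟨?_, ?_, ?_, ?_, ?_⟩
          · rw [hR, mem_filter, Nat.mem_divisors]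
            exact ⟨⟨(Dvd.intro_left _ rfl).trans hdiv, hM.ne'⟩, hrZ⟩
          · rw [hR, mem_filter, Nat.mem_divisors]
            exact ⟨⟨(Dvd.intro_left _ rfl).trans hdiv', hM.ne'⟩, hrZ'⟩
          · rw [mem_range]
            exact lt_of_lt_of_le hj (hcard _ _ _ _)
          · rw [mem_range]
            have h8 : Nat.log 2 x.1 ≤ Λ := Nat.log_mono_right hK1.2.1
            exact Nat.lt_succ_of_le h8
          · rw [mem_range]
            have h8 : Nat.log 2 x.2 ≤ Λ := Nat.log_mono_right hK1.2.2.2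
            exact Nat.lt_succ_of_le h8
        · show W₀ ≤ 4 * ((2 ^ Nat.log 2 x.1 * (r : ℝ)) * (2 ^ Nat.log 2 x.2 * (r' : ℝ)))
          refine hWW.trans ?_
          push_cast
          have h1 : (x.1 : ℝ) ≤ 2 * 2 ^ Nat.log 2 x.1 := by
            have := (Nat.lt_pow_succ_log_self (b := 2) (by norm_num) x.1).le
            rw [Nat.succ_eq_add_one, pow_succ, mul_comm] at this
            exact_mod_cast this
          have h2 : (x.2 : ℝ) ≤ 2 * 2 ^ Nat.log 2 x.2 := by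
            have := (Nat.lt_pow_succ_log_self (b := 2) (by norm_num) x.2).le
            rw [Nat.succ_eq_add_one, pow_succ, mul_comm] at this
            exact_mod_cast this
          calc (x.1 : ℝ) * r * (x.2 * r') = (x.1 * x.2) * (r * r') := by ring
            _ ≤ (2 * 2 ^ Nat.log 2 x.1 * (2 * 2 ^ Nat.log 2 x.2)) * (r * r') := by
                refine mul_le_mul_of_nonneg_right ?_ (by positivity)
                exact mul_le_mul h1 h2 (Nat.cast_nonneg _) (by positivity)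
            _ = _ := by ring
      · rw [hP]
        have e : wj (r, r', j, Nat.log 2 x.1, Nat.log 2 x.2) (Nat.log 2 (low y b))
            (Nat.log 2 (low y c)) (upp y b) (upp y c) = x := ej
        show wd (low y b) (low y c) = (_, _) ∧ _ ∧ _ ∧ _ ∧ _
        rw [e]
        exact ⟨hwd, hK1.1, hK1.2.2.1, rfl, rfl⟩)
  refine key.trans ?_
  -- the sum over the classes
  set φ : ℕ → ℝ := fun r => (r : ℝ) ^ (-(12 / 25) : ℝ) with hφ
  set c₀ : ℝ := 20 * E * (2 * W₀ ^ (-(1 / 50) : ℝ)) * D with hc₀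
  have hc₀0 : 0 ≤ c₀ := by positivity
  have hφ0 : ∀ r : ℕ, 0 ≤ φ r := fun r => by rw [hφ]; positivity
  have hterm : ∀ i ∈ T, 20 * E / √(A i * B i) * D ≤ c₀ * (φ i.1 * φ i.2.1) := by
    intro i hi
    obtain ⟨hi1, hi2⟩ := mem_filter.1 hi
    obtain ⟨hr, hr'⟩ := hmem i hi1
    have hrR : (0 : ℝ) < i.1 := by exact_mod_cast hr
    have hrR' : (0 : ℝ) < i.2.1 := by exact_mod_cast hr'
    obtain ⟨a1, a2⟩ := hA1 i hi1
    have hAp : 0 < A i := lt_of_lt_of_le hrR a1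
    have hBp : 0 < B i := lt_of_lt_of_le hrR' a2
    have hAB : 0 < A i * B i := mul_pos hAp hBp
    have e1 : 1 / √(A i * B i) = (A i * B i) ^ (-(1 / 50) : ℝ) * (A i * B i) ^ (-(12 / 25) : ℝ) := by
      rw [Real.sqrt_eq_rpow, ← Real.rpow_add hAB, one_div, ← Real.rpow_neg hAB.le]
      norm_num
    have e2 : (A i * B i) ^ (-(1 / 50) : ℝ) ≤ 2 * W₀ ^ (-(1 / 50) : ℝ) := by
      have h1 : W₀ / 4 ≤ A i * B i := by linarith
      have h2 : (A i * B i) ^ (-(1 / 50) : ℝ) ≤ (W₀ / 4) ^ (-(1 / 50) : ℝ) :=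
        Real.rpow_le_rpow_of_nonpos (by positivity) h1 (by norm_num)
      refine h2.trans ?_
      rw [Real.div_rpow hW₀.le (by norm_num), div_eq_mul_inv, mul_comm]
      refine mul_le_mul_of_nonneg_right ?_ (by positivity)
      rw [← Real.rpow_neg (by norm_num)]
      calc (4 : ℝ) ^ (-(-(1 / 50)) : ℝ) ≤ (4 : ℝ) ^ (1 / 2 : ℝ) :=
            Real.rpow_le_rpow_of_exponent_le (by norm_num) (by norm_num)
        _ = 2 := by
            rw [← Real.sqrt_eq_rpow, show (4 : ℝ) = 2 ^ 2 by norm_num]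
            exact Real.sqrt_sq (by norm_num)
    have e3 : (A i * B i) ^ (-(12 / 25) : ℝ) ≤ φ i.1 * φ i.2.1 := by
      rw [hφ]
      beta_reduce
      rw [← Real.mul_rpow hrR.le hrR'.le]
      exact Real.rpow_le_rpow_of_nonpos (by positivity) (mul_le_mul a1 a2 hrR'.le hAp.le)
        (by norm_num)
    calc 20 * E / √(A i * B i) * D = 20 * E * D * (1 / √(A i * B i)) := by ring
      _ = 20 * E * D * ((A i * B i) ^ (-(1 / 50) : ℝ) * (A i * B i) ^ (-(12 / 25) : ℝ)) := by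
          rw [e1]
      _ ≤ 20 * E * D * ((2 * W₀ ^ (-(1 / 50) : ℝ)) * (φ i.1 * φ i.2.1)) := by
          refine mul_le_mul_of_nonneg_left ?_ (by positivity)
          exact mul_le_mul e2 e3 (by positivity) (by positivity)
      _ = _ := by rw [hc₀]; ring
  have hsm : ∑ r ∈ R, φ r ≤ Real.exp (8 * (Z : ℝ) ^ (13 / 25 : ℝ)) :=
    smooth_sum Z R fun r hr => ⟨hRpos r hr, (mem_filter.1 hr).2⟩
  have hsm0 : 0 ≤ ∑ r ∈ R, φ r := sum_nonneg fun r _ => hφ0 r
  calc ∑ i ∈ T, 20 * E / √(A i * B i) * D ≤ ∑ i ∈ T, c₀ * (φ i.1 * φ i.2.1) := sum_le_sum hterm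
    _ ≤ ∑ i ∈ IT R N Λ, c₀ * (φ i.1 * φ i.2.1) :=
        sum_le_sum_of_subset_of_nonneg (filter_subset _ _) fun i _ _ =>
          mul_nonneg hc₀0 (mul_nonneg (hφ0 _) (hφ0 _))
    _ = c₀ * (N * ((Λ : ℝ) + 1) ^ 2) * (∑ r ∈ R, φ r) ^ 2 := sum_IT R N Λ c₀ φ
    _ ≤ c₀ * (N * ((Λ : ℝ) + 1) ^ 2) * (Real.exp (8 * (Z : ℝ) ^ (13 / 25 : ℝ))) ^ 2 := by
        refine mul_le_mul_of_nonneg_left ?_ (by positivity)
        exact pow_le_pow_left₀ hsm0 hsm 2
    _ = _ := by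
        have e4 : (Real.exp (8 * (Z : ℝ) ^ (13 / 25 : ℝ))) ^ 2 =
            Real.exp (16 * (Z : ℝ) ^ (13 / 25 : ℝ)) := by
          rw [← Real.exp_nat_mul]
          congr 1
          push_cast
          ring
        rw [e4, hc₀]
        ring

end Crest.Agent.R4C.LSmoothAx808
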