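import Crest.Agent.R4C.LSmoothA_808
import Crest.Agent.R4C.LowL_899

/-!
# Row 4, BLOCK S5/S6 (6.0): smooth class, weights depending on the dyadic sizes (helper808)

* `setBd_of_setW` : 899's `SetW` (sets) gives 50's `SetBd` (functions in `[0,1]`), constant `8 E`.
* `family_class3`, `smooth_abs3` : as in `LSmoothA_808`, but the weights `k i U U' z z'` and the
  words may depend on the dyadic sizes `i, U, U'` of `gcd (low y b) (low y c)`, `low y b`,
  `low y c` (the sums over `i, U, U'` are free).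
-/

set_option autoImplicit false

open Finset
open Crest.Agent.R4C.Basex935 Crest.Agent.R4C.Cutx50 Crest.Agent.R4C.HeavyLx50
open Crest.Agent.R4C.BoostRx398 (bst tf one_le_tf)
open Crest.Agent.R4C.FixedWordx423 (wd wd_pos)
open Crest.Agent.R4C.VecNPx50
open Crest.Agent.R4C.LSmoothAx808

namespace Crest.Agent.R4C.LSmoothBx808

/-! ### sets to functions -/

lemma lay_mul_self (i : ℕ) (x : ℝ) : lay i x * lay i x = lay i x := by
  unfold lay; split_ifs <;> norm_num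

lemma le_sum_lay {K : ℕ} {x : ℝ} (hx1 : x ≤ 1) (hxK : x ≤ 0 ∨ (1 / 2 : ℝ) ^ K < x) :
    x ≤ ∑ i ∈ range K, (1 / 2 : ℝ) ^ i * lay i x := by
  have h := min_le_lay hx1 hxK hxK
  rw [min_self] at h
  simpa only [lay_mul_self] using h

lemma geo_half (K : ℕ) : ∑ i ∈ range K, (1 / 2 : ℝ) ^ i ≤ 2 := by
  have h := sum_le_hasSum (range K) (fun n _ => by positivity)
    (hasSum_geometric_of_lt_one (by norm_num : (0 : ℝ) ≤ 1 / 2) (by norm_num : (1 / 2 : ℝ) < 1))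
  norm_num at h ⊢
  exact h

lemma sum_sqrt_lay (K : ℕ) {M : ℕ} {f : ℕ → ℝ} (hf : ∀ b, 0 ≤ f b) :
    ∑ i ∈ range K, (1 / 2 : ℝ) ^ i * √(Ex M (fun z => lay i (f z))) ≤ √2 * (2 * √(Ex M f)) := by
  have h1 := Real.sum_sqrt_mul_sqrt_le (range K) (f := fun i => (1 / 2 : ℝ) ^ i)
    (g := fun i => (1 / 2 : ℝ) ^ i * Ex M (fun z => lay i (f z)))
    (fun i => by positivity)
    (fun i => mul_nonneg (by positivity) (Ex_nonneg _ fun _ => lay_nonneg _ _))
  have e : ∀ i ∈ range K, √((1 / 2 : ℝ) ^ i) *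
      √((1 / 2 : ℝ) ^ i * Ex M (fun z => lay i (f z))) =
      (1 / 2 : ℝ) ^ i * √(Ex M (fun z => lay i (f z))) := by
    intro i _
    have h4 : (0 : ℝ) ≤ (1 / 2 : ℝ) ^ i := by positivity
    rw [Real.sqrt_mul h4, ← mul_assoc, Real.mul_self_sqrt h4]
  rw [sum_congr rfl e] at h1
  refine h1.trans ?_
  have h2 : ∑ i ∈ range K, (1 / 2 : ℝ) ^ i * Ex M (fun z => lay i (f z)) ≤ 4 * Ex M f := by
    have e2 : ∀ i ∈ range K, (1 / 2 : ℝ) ^ i * Ex M (fun z => lay i (f z)) =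
        Ex M (fun z => (1 / 2 : ℝ) ^ i * lay i (f z)) := fun i _ => (Ex_mul_left _ _ _).symm
    rw [sum_congr rfl e2, Ex_sum, ← Ex_mul_left]
    exact Ex_mono _ fun b _ => sum_lay_le K (hf b)
  have h3 : √(4 * Ex M f) = 2 * √(Ex M f) := by
    rw [Real.sqrt_mul (by norm_num), show (4 : ℝ) = 2 ^ 2 by norm_num, Real.sqrt_sq (by norm_num)]
  rw [← h3]
  exact mul_le_mul (Real.sqrt_le_sqrt (geo_half K)) (Real.sqrt_le_sqrt h2) (Real.sqrt_nonneg _)
    (Real.sqrt_nonneg _)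

/-- **a bound for sets gives the bound for functions** -/
theorem setBd_of_setW {M : ℕ} (hM : 0 < M) {k : ℕ → ℕ → ℝ} (hk : ∀ z z', 0 ≤ k z z') {E : ℝ}
    (hE0 : 0 ≤ E) (h : LowLx899.SetW M k E) : SetBd M k (8 * E) := by
  classical
  intro f g hf hg hf1 hg1
  obtain ⟨K1, hK1⟩ := exists_level M.divisors f
  obtain ⟨K2, hK2⟩ := exists_level M.divisors g
  set K := max K1 K2 with hK
  have h1 : frm M (fun z z' => k z z' * (f z * g z')) ≤
      ∑ i ∈ range K, ∑ j ∈ range K, (1 / 2 : ℝ) ^ i * (1 / 2 : ℝ) ^ j *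
        frm M (fun z z' => k z z' * (lay i (f z) * lay j (g z'))) := by
    have e : ∀ i ∈ range K, ∀ j ∈ range K, (1 / 2 : ℝ) ^ i * (1 / 2 : ℝ) ^ j *
        frm M (fun z z' => k z z' * (lay i (f z) * lay j (g z'))) =
        frm M (fun z z' => k z z' * (((1 / 2 : ℝ) ^ i * lay i (f z)) *
          ((1 / 2 : ℝ) ^ j * lay j (g z')))) := by
      intro i _ j _
      unfold frm
      rw [Finset.mul_sum]
      refine Finset.sum_congr rfl fun b _ => ?_
      rw [Finset.mul_sum]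
      exact Finset.sum_congr rfl fun c _ => by ring
    rw [sum_congr rfl fun i hi => sum_congr rfl fun j hj => e i hi j hj,
      sum_congr rfl fun i hi => frm_sum _ _ _, frm_sum]
    refine frm_mono fun z z' hz hz' => ?_
    have a1 := le_sum_lay (hf1 z) (hK1 K (le_max_left _ _) z (Nat.mem_divisors.2 ⟨hz, hM.ne'⟩))
    have a2 := le_sum_lay (hg1 z') (hK2 K (le_max_right _ _) z' (Nat.mem_divisors.2 ⟨hz', hM.ne'⟩))
    calc k z z' * (f z * g z') ≤ k z z' * ((∑ i ∈ range K, (1 / 2 : ℝ) ^ i * lay i (f z)) *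
          (∑ j ∈ range K, (1 / 2 : ℝ) ^ j * lay j (g z'))) :=
          mul_le_mul_of_nonneg_left (mul_le_mul a1 a2 (hg z') ((hf z).trans a1)) (hk z z')
      _ = _ := by
          rw [sum_mul_sum, mul_sum]
          refine sum_congr rfl fun i _ => ?_
          rw [mul_sum]
  refine h1.trans ?_
  have h2 : ∀ i j : ℕ, frm M (fun z z' => k z z' * (lay i (f z) * lay j (g z'))) ≤
      E * (√(Ex M (fun z => lay i (f z))) * √(Ex M (fun z => lay j (g z)))) := by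
    intro i j
    set A := M.divisors.filter (fun z => (1 / 2 : ℝ) ^ (i + 1) < f z) with hA
    set B := M.divisors.filter (fun z => (1 / 2 : ℝ) ^ (j + 1) < g z) with hB
    have h3 := h A B (filter_subset _ _) (filter_subset _ _)
    have eA : ∑ z ∈ A, nu M z = Ex M (fun z => lay i (f z)) := by
      rw [hA, sum_filter]
      unfold Ex
      refine sum_congr rfl fun z _ => ?_
      beta_reduce
      by_cases hz : (1 / 2 : ℝ) ^ (i + 1) < f z
      · have l1 : lay i (f z) = 1 := by unfold lay; rw [if_pos hz]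
        rw [if_pos hz, l1, mul_one]
      · have l1 : lay i (f z) = 0 := by unfold lay; rw [if_neg hz]
        rw [if_neg hz, l1, mul_zero]
    have eB : ∑ z ∈ B, nu M z = Ex M (fun z => lay j (g z)) := by
      rw [hB, sum_filter]
      unfold Ex
      refine sum_congr rfl fun z _ => ?_
      beta_reduce
      by_cases hz : (1 / 2 : ℝ) ^ (j + 1) < g z
      · have l1 : lay j (g z) = 1 := by unfold lay; rw [if_pos hz]
        rw [if_pos hz, l1, mul_one]
      · have l1 : lay j (g z) = 0 := by unfold lay; rw [if_neg hz]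
        rw [if_neg hz, l1, mul_zero]
    rw [eA, eB, Real.sqrt_mul (Ex_nonneg _ fun _ => lay_nonneg _ _)] at h3
    refine le_trans (le_of_eq ?_) h3
    unfold frm
    rw [hA, sum_filter]
    refine sum_congr rfl fun z _ => ?_
    beta_reduce
    by_cases hz : (1 / 2 : ℝ) ^ (i + 1) < f z
    · rw [if_pos hz, hB, sum_filter]
      refine sum_congr rfl fun z' _ => ?_
      by_cases hz' : (1 / 2 : ℝ) ^ (j + 1) < g z'
      · rw [if_pos hz']
        have l1 : lay i (f z) = 1 := by unfold lay; rw [if_pos hz]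
        have l2 : lay j (g z') = 1 := by unfold lay; rw [if_pos hz']
        rw [l1, l2]; ring
      · rw [if_neg hz']
        have l2 : lay j (g z') = 0 := by unfold lay; rw [if_neg hz']
        rw [l2]; ring
    · rw [if_neg hz]
      have l1 : lay i (f z) = 0 := by unfold lay; rw [if_neg hz]
      refine sum_eq_zero fun z' _ => ?_
      rw [l1]; ring
  have h4 : ∑ i ∈ range K, ∑ j ∈ range K, (1 / 2 : ℝ) ^ i * (1 / 2 : ℝ) ^ j *
        frm M (fun z z' => k z z' * (lay i (f z) * lay j (g z'))) ≤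
      E * ((∑ i ∈ range K, (1 / 2 : ℝ) ^ i * √(Ex M (fun z => lay i (f z)))) *
        (∑ j ∈ range K, (1 / 2 : ℝ) ^ j * √(Ex M (fun z => lay j (g z))))) := by
    rw [sum_mul_sum, mul_sum]
    refine sum_le_sum fun i _ => ?_
    rw [mul_sum]
    refine sum_le_sum fun j _ => ?_
    calc (1 / 2 : ℝ) ^ i * (1 / 2 : ℝ) ^ j *
          frm M (fun z z' => k z z' * (lay i (f z) * lay j (g z')))
        ≤ (1 / 2 : ℝ) ^ i * (1 / 2 : ℝ) ^ j *
          (E * (√(Ex M (fun z => lay i (f z))) * √(Ex M (fun z => lay j (g z))))) :=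
          mul_le_mul_of_nonneg_left (h2 i j) (by positivity)
      _ = _ := by ring
  refine h4.trans ?_
  have s1 := sum_sqrt_lay K (M := M) hf
  have s2 := sum_sqrt_lay K (M := M) hg
  have n2 : 0 ≤ ∑ j ∈ range K, (1 / 2 : ℝ) ^ j * √(Ex M (fun z => lay j (g z))) :=
    sum_nonneg fun j _ => by positivity
  calc E * _ ≤ E * ((√2 * (2 * √(Ex M f))) * (√2 * (2 * √(Ex M g)))) :=
        mul_le_mul_of_nonneg_left (mul_le_mul s1 s2 n2 (by positivity)) hE0
    _ = (√2 * √2) * (4 * E * (√(Ex M f) * √(Ex M g))) := by ring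
    _ = _ := by rw [Real.mul_self_sqrt (by norm_num)]; ring

/-! ### the boxes -/

/-- the sizes `i, U, U'` of the gcd and of the two words fit to the sizes `c, c'` of the cofactors -/
def nd3 (c c' i U U' : ℕ) : Prop := i + c ≤ U ∧ U ≤ i + c + 2 ∧ i + c' ≤ U' ∧ U' ≤ i + c' + 2

instance (c c' i U U' : ℕ) : Decidable (nd3 c c' i U U') := by unfold nd3; infer_instance

lemma sum_nd_right (n c c' U : ℕ) :
    ∑ i ∈ range n, ∑ U' ∈ range n, (if nd3 c c' i U U' then (1 : ℝ) else 0) ≤ 9 := by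
  have h1 : ∀ i ∈ range n, ∑ U' ∈ range n, (if nd3 c c' i U U' then (1 : ℝ) else 0) ≤
      if i + c ≤ U ∧ U ≤ i + c + 2 then 3 else 0 := by
    intro i _
    split_ifs with h
    · rw [← sum_filter, sum_const, nsmul_eq_mul, mul_one]
      have h2 : (range n).filter (fun U' => nd3 c c' i U U') ⊆ Icc (i + c') (i + c' + 2) := by
        intro U' hU'
        obtain ⟨_, _, _, h3, h4⟩ := mem_filter.1 hU'
        rw [mem_Icc]
        exact ⟨h3, h4⟩
      have h3 := card_le_card h2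
      rw [Nat.card_Icc] at h3
      have h4 : ((range n).filter (fun U' => nd3 c c' i U U')).card ≤ 3 := by omega
      exact_mod_cast h4
    · refine le_of_eq (sum_eq_zero fun U' _ => ?_)
      rw [if_neg]
      rintro ⟨a, b, _, _⟩
      exact h ⟨a, b⟩
  refine (sum_le_sum h1).trans ?_
  rw [← sum_filter, sum_const, nsmul_eq_mul]
  have h2 : (range n).filter (fun i => i + c ≤ U ∧ U ≤ i + c + 2) ⊆ Icc (U - (c + 2)) (U - c) := by
    intro i hi
    obtain ⟨_, h3, h4⟩ := mem_filter.1 hi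
    rw [mem_Icc]
    omega
  have h3 := card_le_card h2
  rw [Nat.card_Icc] at h3
  have h4 : ((range n).filter (fun i => i + c ≤ U ∧ U ≤ i + c + 2)).card ≤ 3 := by omega
  have h5 : (((range n).filter (fun i => i + c ≤ U ∧ U ≤ i + c + 2)).card : ℝ) ≤ 3 := by
    exact_mod_cast h4
  linarith

lemma nd3_swap {c c' i U U' : ℕ} : nd3 c c' i U U' ↔ nd3 c' c i U' U := by
  unfold nd3; tauto

lemma sum_nd_left (n c c' U' : ℕ) :
    ∑ i ∈ range n, ∑ U ∈ range n, (if nd3 c c' i U U' then (1 : ℝ) else 0) ≤ 9 := by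
  refine le_trans (le_of_eq ?_) (sum_nd_right n c' c U')
  refine sum_congr rfl fun i _ => sum_congr rfl fun U _ => ?_
  by_cases h : nd3 c c' i U U'
  · rw [if_pos h, if_pos (nd3_swap.1 h)]
  · rw [if_neg h, if_neg (fun h' => h (nd3_swap.2 h'))]

lemma box_cauchy3 (n c c' : ℕ) {a b : ℕ → ℝ} (ha : ∀ i, 0 ≤ a i) (hb : ∀ i, 0 ≤ b i) :
    ∑ i ∈ range n, ∑ U ∈ range n, ∑ U' ∈ range n,
      (if nd3 c c' i U U' then √(a U) * √(b U') else 0) ≤
      9 * (√(∑ U ∈ range n, a U) * √(∑ U ∈ range n, b U)) := by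
  set D := (range n ×ˢ (range n ×ˢ range n)).filter
    (fun x : ℕ × ℕ × ℕ => nd3 c c' x.1 x.2.1 x.2.2) with hD
  have e0 : ∑ i ∈ range n, ∑ U ∈ range n, ∑ U' ∈ range n,
      (if nd3 c c' i U U' then √(a U) * √(b U') else 0) = ∑ x ∈ D, √(a x.2.1) * √(b x.2.2) := by
    rw [hD, sum_filter, sum_product]
    refine sum_congr rfl fun i _ => ?_
    rw [sum_product]
  rw [e0]
  have h1 := Real.sum_sqrt_mul_sqrt_le D (f := fun x => a x.2.1) (g := fun x => b x.2.2)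
    (fun x => ha x.2.1) (fun x => hb x.2.2)
  refine h1.trans ?_
  have hA : ∑ x ∈ D, a x.2.1 ≤ 9 * ∑ U ∈ range n, a U := by
    calc ∑ x ∈ D, a x.2.1 = ∑ i ∈ range n, ∑ U ∈ range n, ∑ U' ∈ range n,
          (if nd3 c c' i U U' then a U else 0) := by
          rw [hD, sum_filter, sum_product]
          refine sum_congr rfl fun i _ => ?_
          rw [sum_product]
      _ = ∑ U ∈ range n, (∑ i ∈ range n, ∑ U' ∈ range n,
          (if nd3 c c' i U U' then (1 : ℝ) else 0)) * a U := by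
          rw [sum_comm]
          refine sum_congr rfl fun U _ => ?_
          rw [sum_mul]
          refine sum_congr rfl fun i _ => ?_
          rw [sum_mul]
          refine sum_congr rfl fun U' _ => ?_
          split_ifs <;> ring
      _ ≤ ∑ U ∈ range n, 9 * a U :=
          sum_le_sum fun U _ => mul_le_mul_of_nonneg_right (sum_nd_right n c c' U) (ha U)
      _ = _ := by rw [mul_sum]
  have hB : ∑ x ∈ D, b x.2.2 ≤ 9 * ∑ U ∈ range n, b U := by
    calc ∑ x ∈ D, b x.2.2 = ∑ i ∈ range n, ∑ U ∈ range n, ∑ U' ∈ range n,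
          (if nd3 c c' i U U' then b U' else 0) := by
          rw [hD, sum_filter, sum_product]
          refine sum_congr rfl fun i _ => ?_
          rw [sum_product]
      _ = ∑ U' ∈ range n, (∑ i ∈ range n, ∑ U ∈ range n,
          (if nd3 c c' i U U' then (1 : ℝ) else 0)) * b U' := by
          have e : ∀ i ∈ range n, ∑ U ∈ range n, ∑ U' ∈ range n,
              (if nd3 c c' i U U' then b U' else 0) = ∑ U' ∈ range n, ∑ U ∈ range n,
              (if nd3 c c' i U U' then b U' else 0) := fun i _ => sum_comm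
          rw [sum_congr rfl e, sum_comm]
          refine sum_congr rfl fun U' _ => ?_
          rw [sum_mul]
          refine sum_congr rfl fun i _ => ?_
          rw [sum_mul]
          refine sum_congr rfl fun U _ => ?_
          split_ifs <;> ring
      _ ≤ ∑ U' ∈ range n, 9 * b U' :=
          sum_le_sum fun U' _ => mul_le_mul_of_nonneg_right (sum_nd_left n c c' U') (hb U')
      _ = _ := by rw [mul_sum]
  calc √(∑ x ∈ D, a x.2.1) * √(∑ x ∈ D, b x.2.2)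
      ≤ √(9 * ∑ U ∈ range n, a U) * √(9 * ∑ U ∈ range n, b U) :=
        mul_le_mul (Real.sqrt_le_sqrt hA) (Real.sqrt_le_sqrt hB) (Real.sqrt_nonneg _)
          (Real.sqrt_nonneg _)
    _ = (√9 * √9) * (√(∑ U ∈ range n, a U) * √(∑ U ∈ range n, b U)) := by
        rw [Real.sqrt_mul (by norm_num), Real.sqrt_mul (by norm_num)]
        ring
    _ = _ := by rw [Real.mul_self_sqrt (by norm_num)]

/-- the kernel of one box of one class -/
noncomputable def GK3 (M y : ℕ) (S : Finset ℕ) (k : ℕ → ℕ → ℕ → ℕ → ℕ → ℝ) (f g : ℕ → ℝ)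
    (P : ℕ → ℕ → Prop) [∀ b c, Decidable (P b c)] (i U U' b c : ℕ) : ℝ :=
  if P b c ∧ Nat.log 2 (Nat.gcd (low y b) (low y c)) = i ∧ Nat.log 2 (low y b) = U ∧
      Nat.log 2 (low y c) = U' then
    k i U U' (upp y b) (upp y c) * bst S (low y M) (low y b) (low y c) *
      (bx y f U b * bx y g U' c)
    else 0

lemma GK3_nonneg {M y : ℕ} {S : Finset ℕ} {k : ℕ → ℕ → ℕ → ℕ → ℕ → ℝ} {f g : ℕ → ℝ}
    {P : ℕ → ℕ → Prop} [∀ b c, Decidable (P b c)] (hk : ∀ i U U' z z', 0 ≤ k i U U' z z')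
    (hf : ∀ b, 0 ≤ f b) (hg : ∀ b, 0 ≤ g b) (i U U' b c : ℕ) :
    0 ≤ GK3 M y S k f g P i U U' b c := by
  unfold GK3
  split_ifs
  · exact mul_nonneg (mul_nonneg (hk _ _ _ _ _) (bst_nonneg _ _ _ _))
      (mul_nonneg (bx_nonneg hf _ _) (bx_nonneg hg _ _))
  · exact le_rfl

lemma one_box3 {M : ℕ} (hM : 0 < M) (y : ℕ) (S : Finset ℕ) {k : ℕ → ℕ → ℕ → ℕ → ℕ → ℝ}
    (hk : ∀ i U U' z z', 0 ≤ k i U U' z z') {E : ℝ} (hE0 : 0 ≤ E)
    (hN : ∀ i U U', SetBd (upp y M) (k i U U') E)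
    {A B : ℝ} (hA : 1 ≤ A) (hB : 1 ≤ B) (γ γ' : ℕ) (P : ℕ → ℕ → Prop) [∀ b c, Decidable (P b c)]
    (w : ℕ → ℕ → ℕ → ℕ → ℕ → ℕ × ℕ)
    (hw : ∀ b c, b ∣ M → c ∣ M → P b c →
      wd (low y b) (low y c) = w (Nat.log 2 (Nat.gcd (low y b) (low y c)))
        (Nat.log 2 (low y b)) (Nat.log 2 (low y c)) (upp y b) (upp y c) ∧
      A ≤ (wd (low y b) (low y c)).1 ∧ B ≤ (wd (low y b) (low y c)).2 ∧
      nd3 γ γ' (Nat.log 2 (Nat.gcd (low y b) (low y c))) (Nat.log 2 (low y b))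
        (Nat.log 2 (low y c)))
    {f g : ℕ → ℝ} (hf : ∀ b, 0 ≤ f b) (hg : ∀ b, 0 ≤ g b) (hf1 : ∀ b, f b ≤ 1)
    (hg1 : ∀ b, g b ≤ 1) (i U U' : ℕ) :
    frm M (GK3 M y S k f g P i U U') ≤ 4 * E / √(A * B) * (if nd3 γ γ' i U U' then
        √(Ex M (bx y f U)) * √(Ex M (bx y g U')) else 0) := by
  classical
  by_cases hnd : nd3 γ γ' i U U'
  · rw [if_pos hnd]
    have h := word_class (f := bx y f U) (g := bx y g U') hM y S (hk i U U') hE0 (hN i U U') hA hB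
      (fun b c => P b c ∧ Nat.log 2 (Nat.gcd (low y b) (low y c)) = i ∧
        Nat.log 2 (low y b) = U ∧ Nat.log 2 (low y c) = U') (w i U U')
      (fun b c hb hc hq => by
        obtain ⟨hP, hi, hU, hU'⟩ := hq
        have := hw b c hb hc hP
        rw [hi, hU, hU'] at this
        refine ⟨this.1, ?_, ?_⟩
        · rw [← this.1]; exact this.2.1
        · rw [← this.1]; exact this.2.2.1) (bx_nonneg hf U) (bx_nonneg hg U') (bx_le hf1 U)
      (bx_le hg1 U')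
    refine le_trans (le_of_eq ?_) h
    refine frm_congr fun b c _ _ => ?_
    unfold GK3
    congr
  · rw [if_neg hnd, mul_zero]
    refine le_of_eq ?_
    unfold frm
    refine sum_eq_zero fun b hb => sum_eq_zero fun c hc => ?_
    have hbd := Nat.dvd_of_mem_divisors hb
    have hcd := Nat.dvd_of_mem_divisors hc
    unfold GK3
    rw [if_neg, mul_zero]
    rintro ⟨hP, hi, hU, hU'⟩
    have := (hw b c hbd hcd hP).2.2.2
    rw [hi, hU, hU'] at this
    exact hnd this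

lemma one_index3 {M : ℕ} (hM : 0 < M) (y : ℕ) (S : Finset ℕ) {k : ℕ → ℕ → ℕ → ℕ → ℕ → ℝ}
    (hk : ∀ i U U' z z', 0 ≤ k i U U' z z') {E : ℝ} (hE0 : 0 ≤ E)
    (hN : ∀ i U U', SetBd (upp y M) (k i U U') E)
    {A B : ℝ} (hA : 1 ≤ A) (hB : 1 ≤ B) (γ γ' : ℕ) (P : ℕ → ℕ → Prop) [∀ b c, Decidable (P b c)]
    (w : ℕ → ℕ → ℕ → ℕ → ℕ → ℕ × ℕ)
    (hw : ∀ b c, b ∣ M → c ∣ M → P b c →
      wd (low y b) (low y c) = w (Nat.log 2 (Nat.gcd (low y b) (low y c)))
        (Nat.log 2 (low y b)) (Nat.log 2 (low y c)) (upp y b) (upp y c) ∧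
      A ≤ (wd (low y b) (low y c)).1 ∧ B ≤ (wd (low y b) (low y c)).2 ∧
      nd3 γ γ' (Nat.log 2 (Nat.gcd (low y b) (low y c))) (Nat.log 2 (low y b))
        (Nat.log 2 (low y c)))
    {f g : ℕ → ℝ} (hf : ∀ b, 0 ≤ f b) (hg : ∀ b, 0 ≤ g b) (hf1 : ∀ b, f b ≤ 1)
    (hg1 : ∀ b, g b ≤ 1) :
    ∑ i ∈ range (Nat.log 2 (low y M) + 1), ∑ U ∈ range (Nat.log 2 (low y M) + 1),
      ∑ U' ∈ range (Nat.log 2 (low y M) + 1),
      frm M (GK3 M y S k f g P i U U') ≤ 36 * E / √(A * B) * (√(Ex M f) * √(Ex M g)) := by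
  set n := Nat.log 2 (low y M) + 1 with hn
  calc ∑ i ∈ range n, ∑ U ∈ range n, ∑ U' ∈ range n, frm M (GK3 M y S k f g P i U U')
      ≤ ∑ i ∈ range n, ∑ U ∈ range n, ∑ U' ∈ range n, 4 * E / √(A * B) *
        (if nd3 γ γ' i U U' then √(Ex M (bx y f U)) * √(Ex M (bx y g U')) else 0) :=
        sum_le_sum fun i _ => sum_le_sum fun U _ => sum_le_sum fun U' _ =>
          one_box3 hM y S hk hE0 hN hA hB γ γ' P w hw hf hg hf1 hg1 i U U'
    _ = 4 * E / √(A * B) * ∑ i ∈ range n, ∑ U ∈ range n, ∑ U' ∈ range n,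
        (if nd3 γ γ' i U U' then √(Ex M (bx y f U)) * √(Ex M (bx y g U')) else 0) := by
        rw [mul_sum]
        refine sum_congr rfl fun i _ => ?_
        rw [mul_sum]
        refine sum_congr rfl fun U _ => ?_
        rw [mul_sum]
    _ ≤ 4 * E / √(A * B) * (9 * (√(∑ U ∈ range n, Ex M (bx y f U)) *
        √(∑ U ∈ range n, Ex M (bx y g U)))) := by
        refine mul_le_mul_of_nonneg_left ?_ (by positivity)
        exact box_cauchy3 n γ γ' (fun U => Ex_nonneg _ (bx_nonneg hf U))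
          (fun U => Ex_nonneg _ (bx_nonneg hg U))
    _ = _ := by
        rw [hn, sum_bx hM y f, sum_bx hM y g]
        ring

open Classical in
/-- **a finite family of classes of words**, weights depending on the boxes -/
theorem family_class3 {ι : Type*} {M : ℕ} (hM : 0 < M) (y : ℕ) (S : Finset ℕ)
    {k : ℕ → ℕ → ℕ → ℕ → ℕ → ℝ}
    (hk : ∀ i U U' z z', 0 ≤ k i U U' z z') {E : ℝ} (hE0 : 0 ≤ E)
    (hN : ∀ i U U', SetBd (upp y M) (k i U U') E)
    (T : Finset ι) {A B : ι → ℝ} (hA : ∀ j ∈ T, 1 ≤ A j) (hB : ∀ j ∈ T, 1 ≤ B j)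
    (γ γ' : ι → ℕ) (P : ι → ℕ → ℕ → Prop)
    (w : ι → ℕ → ℕ → ℕ → ℕ → ℕ → ℕ × ℕ)
    (hw : ∀ j ∈ T, ∀ b c, b ∣ M → c ∣ M → P j b c →
      wd (low y b) (low y c) = w j (Nat.log 2 (Nat.gcd (low y b) (low y c)))
        (Nat.log 2 (low y b)) (Nat.log 2 (low y c)) (upp y b) (upp y c) ∧
      A j ≤ (wd (low y b) (low y c)).1 ∧ B j ≤ (wd (low y b) (low y c)).2 ∧
      nd3 (γ j) (γ' j) (Nat.log 2 (Nat.gcd (low y b) (low y c))) (Nat.log 2 (low y b))
        (Nat.log 2 (low y c)))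
    {f g : ℕ → ℝ} (hf : ∀ b, 0 ≤ f b) (hg : ∀ b, 0 ≤ g b) (hf1 : ∀ b, f b ≤ 1)
    (hg1 : ∀ b, g b ≤ 1) {Φ : ℕ → ℕ → ℝ}
    (hex : ∀ b c, b ∣ M → c ∣ M → Φ b c ≤ 0 ∨
      (Φ b c ≤ k (Nat.log 2 (Nat.gcd (low y b) (low y c))) (Nat.log 2 (low y b))
        (Nat.log 2 (low y c)) (upp y b) (upp y c) *
        bst S (low y M) (low y b) (low y c) * (f b * g c) ∧ ∃ j ∈ T, P j b c)) :
    frm M Φ ≤ ∑ j ∈ T, 36 * E / √(A j * B j) * (√(Ex M f) * √(Ex M g)) := by
  set n := Nat.log 2 (low y M) + 1 with hn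
  have hlog : ∀ b, b ∣ M → Nat.log 2 (low y b) ∈ range n := by
    intro b hb
    rw [mem_range]
    refine Nat.lt_succ_of_le (Nat.log_mono_right ?_)
    exact Nat.le_of_dvd (low_pos y M) (low_dvd y hM.ne' hb)
  have hlogg : ∀ b c, b ∣ M → Nat.log 2 (Nat.gcd (low y b) (low y c)) ∈ range n := by
    intro b c hb
    rw [mem_range]
    refine Nat.lt_succ_of_le (Nat.log_mono_right ?_)
    exact Nat.le_of_dvd (low_pos y M) ((Nat.gcd_dvd_left _ _).trans (low_dvd y hM.ne' hb))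
  have hG0 : ∀ j i U U' b c, 0 ≤ GK3 M y S k f g (P j) i U U' b c :=
    fun j i U U' b c => GK3_nonneg hk hf hg i U U' b c
  -- pointwise
  have h1 : frm M Φ ≤ frm M (fun b c => ∑ j ∈ T, ∑ i ∈ range n, ∑ U ∈ range n,
      ∑ U' ∈ range n, GK3 M y S k f g (P j) i U U' b c) := by
    refine Asmx946.frm_le fun b c hb hc => ?_
    rcases hex b c hb hc with h0 | ⟨hΦ, j, hj, hP⟩
    · exact h0.trans (sum_nonneg fun j _ => sum_nonneg fun i _ => sum_nonneg fun U _ =>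
        sum_nonneg fun U' _ => hG0 j i U U' b c)
    · have e1 : Φ b c ≤ GK3 M y S k f g (P j) (Nat.log 2 (Nat.gcd (low y b) (low y c)))
          (Nat.log 2 (low y b)) (Nat.log 2 (low y c)) b c := by
        unfold GK3
        rw [if_pos ⟨hP, rfl, rfl, rfl⟩]
        refine hΦ.trans (le_of_eq ?_)
        unfold bx
        rw [if_pos rfl, if_pos rfl]
      refine e1.trans ?_
      refine le_trans ?_ (single_le_sum (f := fun j => ∑ i ∈ range n,
        ∑ U ∈ range n, ∑ U' ∈ range n,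
        GK3 M y S k f g (P j) i U U' b c) (fun j _ => sum_nonneg fun i _ =>
          sum_nonneg fun U _ => sum_nonneg fun U' _ => hG0 j i U U' b c) hj)
      refine le_trans ?_ (single_le_sum (f := fun i => ∑ U ∈ range n, ∑ U' ∈ range n,
        GK3 M y S k f g (P j) i U U' b c) (fun i _ =>
          sum_nonneg fun U _ => sum_nonneg fun U' _ => hG0 j i U U' b c) (hlogg b c hb))
      refine le_trans ?_ (single_le_sum (f := fun U => ∑ U' ∈ range n,
        GK3 M y S k f g (P j) (Nat.log 2 (Nat.gcd (low y b) (low y c))) U U' b c)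
        (fun U _ => sum_nonneg fun U' _ => hG0 j _ U U' b c) (hlog b hb))
      exact single_le_sum (f := fun U' => GK3 M y S k f g (P j)
        (Nat.log 2 (Nat.gcd (low y b) (low y c))) (Nat.log 2 (low y b)) U' b c)
        (fun U' _ => hG0 j _ _ U' b c) (hlog c hc)
  have h2 : frm M (fun b c => ∑ j ∈ T, ∑ i ∈ range n, ∑ U ∈ range n,
      ∑ U' ∈ range n, GK3 M y S k f g (P j) i U U' b c) =
      ∑ j ∈ T, ∑ i ∈ range n, ∑ U ∈ range n, ∑ U' ∈ range n,
        frm M (GK3 M y S k f g (P j) i U U') := by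
    rw [Asmx946.frm_sum]
    refine sum_congr rfl fun j _ => ?_
    rw [Asmx946.frm_sum]
    refine sum_congr rfl fun i _ => ?_
    rw [Asmx946.frm_sum]
    refine sum_congr rfl fun U _ => ?_
    rw [Asmx946.frm_sum]
  rw [h2] at h1
  exact h1.trans (sum_le_sum fun j hj => one_index3 hM y S hk hE0 hN (hA j hj) (hB j hj) (γ j)
    (γ' j) (P j) (w j) (hw j hj) hf hg hf1 hg1)

/-! ### the abstract theorem -/

/-- the sizes of the lower words and of their gcd are linked by the word -/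
lemma nd3_of_wd {u u' x1 x2 r r' : ℕ} (hu : 0 < u) (hx1 : 0 < x1) (hx2 : 0 < x2)
    (hr : 0 < r) (hr' : 0 < r') (h : wd u u' = (x1 * r, x2 * r')) :
    nd3 (Nat.log 2 x1 + Nat.log 2 r) (Nat.log 2 x2 + Nat.log 2 r') (Nat.log 2 (Nat.gcd u u'))
      (Nat.log 2 u) (Nat.log 2 u') := by
  have hG : 0 < Nat.gcd u u' := Nat.gcd_pos_of_pos_left _ hu
  unfold wd at h
  rw [Prod.mk.injEq] at h
  have e1 : Nat.gcd u u' * (x1 * r) = u := by
    rw [← h.1]; exact Nat.mul_div_cancel' (Nat.gcd_dvd_left _ _)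
  have e2 : Nat.gcd u u' * (x2 * r') = u' := by
    rw [← h.2]; exact Nat.mul_div_cancel' (Nat.gcd_dvd_right _ _)
  set G := Nat.gcd u u' with hGdef
  have p1 : 0 < x1 * r := Nat.mul_pos hx1 hr
  have p2 : 0 < x2 * r' := Nat.mul_pos hx2 hr'
  have c1 := log_mul_ge hx1 hr
  have c2 := log_mul_le hx1 hr
  have d1 := log_mul_ge hx2 hr'
  have d2 := log_mul_le hx2 hr'
  have a1 := log_mul_ge hG p1
  have a2 := log_mul_le hG p1
  have b1 := log_mul_ge hG p2
  have b2 := log_mul_le hG p2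
  rw [e1] at a1 a2
  rw [e2] at b1 b2
  unfold nd3
  omega

open Classical in
/-- **explained primes all small: abstract theorem**, weights and words depending on the boxes -/
theorem smooth_abs3 {M : ℕ} (hM : 0 < M) (y : ℕ) (S : Finset ℕ)
    {k : ℕ → ℕ → ℕ → ℕ → ℕ → ℝ}
    (hk : ∀ i U U' z z', 0 ≤ k i U U' z z') {E : ℝ} (hE0 : 0 ≤ E)
    (hN : ∀ i U U', SetBd (upp y M) (k i U U') E)
    (Z K₁ N : ℕ) {W₀ : ℝ} (hW₀ : 0 < W₀) (𝒦 : ℕ → ℕ → ℕ → ℕ → ℕ → Finset (ℕ × ℕ))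
    (hcard : ∀ i U U' z z', z ∣ upp y M → z' ∣ upp y M → (𝒦 i U U' z z').card ≤ N)
    (hK : ∀ i U U' z z', ∀ x ∈ 𝒦 i U U' z z', 0 < x.1 ∧ x.1 ≤ K₁ ∧ 0 < x.2 ∧ x.2 ≤ K₁)
    {f g : ℕ → ℝ} (hf : ∀ b, 0 ≤ f b) (hg : ∀ b, 0 ≤ g b) (hf1 : ∀ b, f b ≤ 1)
    (hg1 : ∀ b, g b ≤ 1) {Φ : ℕ → ℕ → ℝ}
    (hex : ∀ b c, b ∣ M → c ∣ M → Φ b c ≤ 0 ∨
      (Φ b c ≤ k (Nat.log 2 (Nat.gcd (low y b) (low y c))) (Nat.log 2 (low y b))
        (Nat.log 2 (low y c)) (upp y b) (upp y c) *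
        bst S (low y M) (low y b) (low y c) * (f b * g c) ∧
      ∃ x ∈ 𝒦 (Nat.log 2 (Nat.gcd (low y b) (low y c))) (Nat.log 2 (low y b))
          (Nat.log 2 (low y c)) (upp y b) (upp y c), ∃ r r' : ℕ,
        0 < r ∧ 0 < r' ∧ (∀ p, p.Prime → p ∣ r → p ≤ Z) ∧ (∀ p, p.Prime → p ∣ r' → p ≤ Z) ∧
        wd (low y b) (low y c) = (x.1 * r, x.2 * r') ∧
        W₀ ≤ ((x.1 * r : ℕ) : ℝ) * ((x.2 * r' : ℕ) : ℝ))) :
    frm M Φ ≤ 72 * E * (N * ((Nat.log 2 K₁ : ℝ) + 1) ^ 2) * W₀ ^ (-(1 / 50) : ℝ) *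
      Real.exp (16 * (Z : ℝ) ^ (13 / 25 : ℝ)) * (√(Ex M f) * √(Ex M g)) := by
  set Λ := Nat.log 2 K₁ with hΛ
  set R := M.divisors.filter (fun r => ∀ p, p.Prime → p ∣ r → p ≤ Z) with hR
  set D := √(Ex M f) * √(Ex M g) with hD
  have hD0 : 0 ≤ D := mul_nonneg (Real.sqrt_nonneg _) (Real.sqrt_nonneg _)
  have hRpos : ∀ r ∈ R, 0 < r := fun r hr => Nat.pos_of_mem_divisors (mem_filter.1 hr).1
  have hlist : ∀ (l : Finset (ℕ × ℕ)) (x : ℕ × ℕ), x ∈ l → ∃ j < l.card,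
      l.toList.getD j (1, 1) = x := by
    intro l x hx
    rw [← mem_toList, List.mem_iff_getElem] at hx
    obtain ⟨j, hj, e⟩ := hx
    refine ⟨j, by rwa [length_toList] at hj, ?_⟩
    rw [List.getD_eq_getElem _ _ hj, e]
  set wj : ℕ × ℕ × ℕ × ℕ × ℕ → ℕ → ℕ → ℕ → ℕ → ℕ → ℕ × ℕ := fun j i U U' z z' =>
    (𝒦 i U U' z z').toList.getD j.2.2.1 (1, 1) with hwj
  set w : ℕ × ℕ × ℕ × ℕ × ℕ → ℕ → ℕ → ℕ → ℕ → ℕ → ℕ × ℕ := fun j i U U' z z' =>
    ((wj j i U U' z z').1 * j.1, (wj j i U U' z z').2 * j.2.1) with hw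
  set A : ℕ × ℕ × ℕ × ℕ × ℕ → ℝ := fun j => 2 ^ j.2.2.2.1 * (j.1 : ℝ) with hA
  set B : ℕ × ℕ × ℕ × ℕ × ℕ → ℝ := fun j => 2 ^ j.2.2.2.2 * (j.2.1 : ℝ) with hB
  set T := (IT R N Λ).filter (fun j => W₀ ≤ 4 * (A j * B j)) with hT
  have hmem : ∀ j ∈ IT R N Λ, 0 < j.1 ∧ 0 < j.2.1 := by
    intro j hj
    unfold IT at hj
    rw [mem_product, mem_product] at hj
    exact ⟨hRpos _ hj.1, hRpos _ hj.2.1⟩
  have hA1 : ∀ j ∈ IT R N Λ, (j.1 : ℝ) ≤ A j ∧ (j.2.1 : ℝ) ≤ B j := by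
    intro j hj
    have h0 : (0 : ℝ) ≤ j.1 := Nat.cast_nonneg _
    have h0' : (0 : ℝ) ≤ j.2.1 := Nat.cast_nonneg _
    exact ⟨le_mul_of_one_le_left h0 (one_le_pow₀ (by norm_num)),
      le_mul_of_one_le_left h0' (one_le_pow₀ (by norm_num))⟩
  have hAone : ∀ j ∈ IT R N Λ, 1 ≤ A j ∧ 1 ≤ B j := by
    intro j hj
    have h1 : (1 : ℝ) ≤ j.1 := by exact_mod_cast (hmem j hj).1
    have h2 : (1 : ℝ) ≤ j.2.1 := by exact_mod_cast (hmem j hj).2
    exact ⟨h1.trans (hA1 j hj).1, h2.trans (hA1 j hj).2⟩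
  set P : ℕ × ℕ × ℕ × ℕ × ℕ → ℕ → ℕ → Prop := fun j b c =>
    let x := wj j (Nat.log 2 (Nat.gcd (low y b) (low y c))) (Nat.log 2 (low y b))
      (Nat.log 2 (low y c)) (upp y b) (upp y c)
    wd (low y b) (low y c) = (x.1 * j.1, x.2 * j.2.1) ∧ 0 < x.1 ∧ 0 < x.2 ∧
      Nat.log 2 x.1 = j.2.2.2.1 ∧ Nat.log 2 x.2 = j.2.2.2.2 with hP
  have key := family_class3 hM y S hk hE0 hN T (A := A) (B := B)
    (fun j hj => (hAone j (mem_filter.1 hj).1).1) (fun j hj => (hAone j (mem_filter.1 hj).1).2)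
    (fun j => j.2.2.2.1 + Nat.log 2 j.1) (fun j => j.2.2.2.2 + Nat.log 2 j.2.1) P w
    (fun j hj b c hb hc hPj => by
      obtain ⟨h1, h2, h3, h4, h5⟩ := hPj
      have hj0 := hmem j (mem_filter.1 hj).1
      set x := wj j (Nat.log 2 (Nat.gcd (low y b) (low y c))) (Nat.log 2 (low y b))
        (Nat.log 2 (low y c)) (upp y b) (upp y c) with hx
      refine ⟨h1, ?_, ?_, ?_⟩
      · have h6 : 2 ^ j.2.2.2.1 ≤ x.1 := by rw [← h4]; exact Nat.pow_log_le_self 2 h2.ne'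
        have h7 : 2 ^ j.2.2.2.1 * j.1 ≤ x.1 * j.1 := Nat.mul_le_mul_right _ h6
        rw [h1]
        show 2 ^ j.2.2.2.1 * (j.1 : ℝ) ≤ ((x.1 * j.1 : ℕ) : ℝ)
        exact_mod_cast h7
      · have h6 : 2 ^ j.2.2.2.2 ≤ x.2 := by rw [← h5]; exact Nat.pow_log_le_self 2 h3.ne'
        have h7 : 2 ^ j.2.2.2.2 * j.2.1 ≤ x.2 * j.2.1 := Nat.mul_le_mul_right _ h6
        rw [h1]
        show 2 ^ j.2.2.2.2 * (j.2.1 : ℝ) ≤ ((x.2 * j.2.1 : ℕ) : ℝ)
        exact_mod_cast h7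
      · have := nd3_of_wd (low_pos y b) h2 h3 hj0.1 hj0.2 h1
        rw [h4, h5] at this
        exact this)
    hf hg hf1 hg1
    (fun b c hb hc => by
      rcases hex b c hb hc with h0 | ⟨hΦ, x, hx, r, r', hr, hr', hrZ, hrZ', hwd, hWW⟩
      · exact Or.inl h0
      right
      refine ⟨hΦ, ?_⟩
      obtain ⟨j, hj, ej⟩ := hlist _ x hx
      have hK1 := hK _ _ _ _ _ x hx
      have hdiv : x.1 * r ∣ M := by
        have h1 : (wd (low y b) (low y c)).1 = x.1 * r := by rw [hwd]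
        rw [← h1]
        exact (Nat.div_dvd_of_dvd (Nat.gcd_dvd_left _ _)).trans ((low_dvd_self y b).trans hb)
      have hdiv' : x.2 * r' ∣ M := by
        have h1 : (wd (low y b) (low y c)).2 = x.2 * r' := by rw [hwd]
        rw [← h1]
        exact (Nat.div_dvd_of_dvd (Nat.gcd_dvd_right _ _)).trans ((low_dvd_self y c).trans hc)
      refine ⟨(r, r', j, Nat.log 2 x.1, Nat.log 2 x.2), ?_, ?_⟩
      · rw [hT, mem_filter]
        constructor
        · unfold IT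
          rw [mem_product, mem_product, mem_product, mem_product]
          refine ⟨?_, ?_, ?_, ?_, ?_⟩
          · rw [hR, mem_filter, Nat.mem_divisors]
            exact ⟨⟨(Dvd.intro_left _ rfl).trans hdiv, hM.ne'⟩, hrZ⟩
          · rw [hR, mem_filter, Nat.mem_divisors]
            exact ⟨⟨(Dvd.intro_left _ rfl).trans hdiv', hM.ne'⟩, hrZ'⟩
          · rw [mem_range]
            exact lt_of_lt_of_le hj (hcard _ _ _ _ _ (upp_dvd y hM.ne' hb) (upp_dvd y hM.ne' hc))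
          · rw [mem_range]
            have h8 : Nat.log 2 x.1 ≤ Λ := Nat.log_mono_right hK1.2.1
            exact Nat.lt_succ_of_le h8
          · rw [mem_range]
            have h8 : Nat.log 2 x.2 ≤ Λ := Nat.log_mono_right hK1.2.2.2
            exact Nat.lt_succ_of_le h8
        · show W₀ ≤ 4 * ((2 ^ Nat.log 2 x.1 * (r : ℝ)) * (2 ^ Nat.log 2 x.2 * (r' : ℝ)))
          refine hWW.trans ?_
          push_cast
          have h1 : (x.1 : ℝ) ≤ 2 * 2 ^ Nat.log 2 x.1 := by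
            have := (Nat.lt_pow_succ_log_self (b := 2) (by norm_num) x.1).le
            rw [Nat.succ_eq_add_one, pow_succ, mul_comm] at this
            exact_mod_cast this
          have h2 : (x.2 : ℝ) ≤ 2 * 2 ^ Nat.log 2 x.2 := by
            have := (Nat.lt_pow_succ_log_self (b := 2) (by norm_num) x.2).le
            rw [Nat.succ_eq_add_one, pow_succ, mul_comm] at this
            exact_mod_cast this
          calc (x.1 : ℝ) * r * (x.2 * r') = (x.1 * x.2) * (r * r') := by ring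
            _ ≤ (2 * 2 ^ Nat.log 2 x.1 * (2 * 2 ^ Nat.log 2 x.2)) * (r * r') := by
                refine mul_le_mul_of_nonneg_right ?_ (by positivity)
                exact mul_le_mul h1 h2 (Nat.cast_nonneg _) (by positivity)
            _ = _ := by ring
      · rw [hP]
        have e : wj (r, r', j, Nat.log 2 x.1, Nat.log 2 x.2)
            (Nat.log 2 (Nat.gcd (low y b) (low y c))) (Nat.log 2 (low y b))
            (Nat.log 2 (low y c)) (upp y b) (upp y c) = x := ej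
        show wd (low y b) (low y c) = (_, _) ∧ _ ∧ _ ∧ _ ∧ _
        rw [e]
        exact ⟨hwd, hK1.1, hK1.2.2.1, rfl, rfl⟩)
  refine key.trans ?_
  -- the sum over the classes
  set φ : ℕ → ℝ := fun r => (r : ℝ) ^ (-(12 / 25) : ℝ) with hφ
  set c₀ : ℝ := 36 * E * (2 * W₀ ^ (-(1 / 50) : ℝ)) * D with hc₀
  have hc₀0 : 0 ≤ c₀ := by positivity
  have hφ0 : ∀ r : ℕ, 0 ≤ φ r := fun r => by rw [hφ]; positivity
  have hterm : ∀ j ∈ T, 36 * E / √(A j * B j) * D ≤ c₀ * (φ j.1 * φ j.2.1) := by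
    intro j hj
    obtain ⟨hj1, hj2⟩ := mem_filter.1 hj
    obtain ⟨hr, hr'⟩ := hmem j hj1
    have hrR : (0 : ℝ) < j.1 := by exact_mod_cast hr
    have hrR' : (0 : ℝ) < j.2.1 := by exact_mod_cast hr'
    obtain ⟨a1, a2⟩ := hA1 j hj1
    have hAp : 0 < A j := lt_of_lt_of_le hrR a1
    have hBp : 0 < B j := lt_of_lt_of_le hrR' a2
    have hAB : 0 < A j * B j := mul_pos hAp hBp
    have e1 : 1 / √(A j * B j) = (A j * B j) ^ (-(1 / 50) : ℝ) * (A j * B j) ^ (-(12 / 25) : ℝ) := by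
      rw [Real.sqrt_eq_rpow, ← Real.rpow_add hAB, one_div, ← Real.rpow_neg hAB.le]
      norm_num
    have e2 : (A j * B j) ^ (-(1 / 50) : ℝ) ≤ 2 * W₀ ^ (-(1 / 50) : ℝ) := by
      have h1 : W₀ / 4 ≤ A j * B j := by linarith
      have h2 : (A j * B j) ^ (-(1 / 50) : ℝ) ≤ (W₀ / 4) ^ (-(1 / 50) : ℝ) :=
        Real.rpow_le_rpow_of_nonpos (by positivity) h1 (by norm_num)
      refine h2.trans ?_
      rw [Real.div_rpow hW₀.le (by norm_num), div_eq_mul_inv, mul_comm]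
      refine mul_le_mul_of_nonneg_right ?_ (by positivity)
      rw [← Real.rpow_neg (by norm_num)]
      calc (4 : ℝ) ^ (-(-(1 / 50)) : ℝ) ≤ (4 : ℝ) ^ (1 / 2 : ℝ) :=
            Real.rpow_le_rpow_of_exponent_le (by norm_num) (by norm_num)
        _ = 2 := by
            rw [← Real.sqrt_eq_rpow, show (4 : ℝ) = 2 ^ 2 by norm_num]
            exact Real.sqrt_sq (by norm_num)
    have e3 : (A j * B j) ^ (-(12 / 25) : ℝ) ≤ φ j.1 * φ j.2.1 := by
      rw [hφ]
      beta_reduce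
      rw [← Real.mul_rpow hrR.le hrR'.le]
      exact Real.rpow_le_rpow_of_nonpos (by positivity) (mul_le_mul a1 a2 hrR'.le hAp.le)
        (by norm_num)
    calc 36 * E / √(A j * B j) * D = 36 * E * D * (1 / √(A j * B j)) := by ring
      _ = 36 * E * D * ((A j * B j) ^ (-(1 / 50) : ℝ) * (A j * B j) ^ (-(12 / 25) : ℝ)) := by
          rw [e1]
      _ ≤ 36 * E * D * ((2 * W₀ ^ (-(1 / 50) : ℝ)) * (φ j.1 * φ j.2.1)) := by
          refine mul_le_mul_of_nonneg_left ?_ (by positivity)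
          exact mul_le_mul e2 e3 (by positivity) (by positivity)
      _ = _ := by rw [hc₀]; ring
  have hsm : ∑ r ∈ R, φ r ≤ Real.exp (8 * (Z : ℝ) ^ (13 / 25 : ℝ)) :=
    smooth_sum Z R fun r hr => ⟨hRpos r hr, (mem_filter.1 hr).2⟩
  have hsm0 : 0 ≤ ∑ r ∈ R, φ r := sum_nonneg fun r _ => hφ0 r
  calc ∑ j ∈ T, 36 * E / √(A j * B j) * D ≤ ∑ j ∈ T, c₀ * (φ j.1 * φ j.2.1) := sum_le_sum hterm
    _ ≤ ∑ j ∈ IT R N Λ, c₀ * (φ j.1 * φ j.2.1) :=
        sum_le_sum_of_subset_of_nonneg (filter_subset _ _) fun j _ _ =>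
          mul_nonneg hc₀0 (mul_nonneg (hφ0 _) (hφ0 _))
    _ = c₀ * (N * ((Λ : ℝ) + 1) ^ 2) * (∑ r ∈ R, φ r) ^ 2 := sum_IT R N Λ c₀ φ
    _ ≤ c₀ * (N * ((Λ : ℝ) + 1) ^ 2) * (Real.exp (8 * (Z : ℝ) ^ (13 / 25 : ℝ))) ^ 2 := by
        refine mul_le_mul_of_nonneg_left ?_ (by positivity)
        exact pow_le_pow_left₀ hsm0 hsm 2
    _ = _ := by
        have e4 : (Real.exp (8 * (Z : ℝ) ^ (13 / 25 : ℝ))) ^ 2 =
            Real.exp (16 * (Z : ℝ) ^ (13 / 25 : ℝ)) := by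
          rw [← Real.exp_nat_mul]
          congr 1
          push_cast
          ring
        rw [e4, hc₀]
        ring

end Crest.Agent.R4C.LSmoothBx808
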