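import Crest.Agent.R4C.LSmoothB_808
import Crest.Agent.R4C.LDec_500
import Crest.Agent.R4C.SamePt_217

/-!
# Row 4, BLOCK S5/S6 (6.0): explained primes all small — for the rule of `Rule_945` (helper808)

* `Sm F P y Z K t b c h f f'` : common point `(f, f')` of the level `t`, both depths `≤ K`, no
  explained prime in `(Z, cut t]`, the low word is large (`K ≤ 256 Π³`).
* `mem_LS` : the denominator of the level is one of the few denominators over the upper word.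
* `word_of` : at every cut `y` with `k0, Z ≤ y ≤ cut t` the low word is `(k₁ r, k₁' r')`,
  `(k₁, k₁')` = reduced pair of the two denominators, `r, r'` `Z`-smooth.
* **`lsmooth`** : weights `k i U U' z z'` on the upper words with a set bound `E`, full boost on the
  lower words: energy of the class `≤ C E K^(-1/200) (Ex f)^{1/2} (Ex g)^{1/2}`,
  for `Z ≤ A (1 + log K)^(5/4)`.
-/

set_option autoImplicit false

namespace Crest.Agent.R4C.LSmoothx808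

open Crest.Agent.R4C.Basex935 Crest.Agent.R4C.FLDefx935 Crest.Agent.R4C.BoostCx972
  Crest.Agent.R4C.CrCoinx935
  Crest.Agent.R4C.S7cx14 Crest.Agent.R4C.S7dx14 Crest.Agent.R4C.Chainx81
  Crest.Agent.R4C.Cutx50 Crest.Agent.R4C.Rulex945 Crest.Agent.R4C.LDecx500
open Crest.Agent.R4C.BoostRx398 (bst)
open Crest.Agent.R4C.FixedWordx423 (wd)

variable {M : ℕ} {F : FL M} {P : Par}

/-- the smooth case of class (L) -/
structure Sm (F : FL M) (P : Par) (y Z : ℕ) (K : ℝ) (t b c : ℕ) (h : ℤ) (f f' : ℚ) : Prop where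
  m0 : P.m0 ≤ t
  yx : y ≤ P.cut t
  good : F.good (P.cut t) b c
  pt : gap f f' (b / Nat.gcd b c) (c / Nat.gcd b c) h = 0
  /-- `Splitx945.Ix` -/
  ib : ∃ m, t ≤ m ∧ TC F P m b f ∧ k0 F (P.cut m) b f = k0 F (P.cut t) b f
  ic : ∃ m, t ≤ m ∧ TC F P m c f' ∧ k0 F (P.cut m) c f' = k0 F (P.cut t) c f'
  db : Rulex945.dep F P t b f ≤ K
  dc : Rulex945.dep F P t c f' ≤ K
  top : ∀ p : ℕ, p.Prime → Z < p → p ≤ P.cut t → ¬ p ∣ alC b c f f' ∧ ¬ p ∣ alC c b f' f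
  big : K ≤ 256 * ((low (P.cut t) (b / Nat.gcd b c) : ℝ) *
    low (P.cut t) (c / Nat.gcd b c)) ^ 3

/-! ### the reduced label of a centre -/

/-- `f` is the fraction of its reduced label -/
lemma fr_an (x b : ℕ) (f : ℚ) :
    fr F x b (SamePtx217.an f (F.lam x b)) (k0 F x b f) = f := by
  unfold fr
  have h1 := SamePtx217.an_eq f (F.lam x b)
  have hk : (k0 F x b f : ℚ) ≠ 0 := by exact_mod_cast (k0_pos x b f).ne'
  have hl : (F.lam x b : ℚ) ≠ 0 := by exact_mod_cast (FL.lam_pos x b).ne'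
  rw [div_eq_iff (mul_ne_zero hk hl), ← h1]
  show (F.lam x b : ℚ) * f * k0 F x b f = _
  ring

lemma cop_an (x b : ℕ) (f : ℚ) :
    IsCoprime (SamePtx217.an f (F.lam x b)) (k0 F x b f : ℤ) :=
  SamePtx217.an_coprime f (F.lam x b)

lemma disp_an {x b : ℕ} (hM : 0 < M) (hb : b ∣ M) (f : ℚ) (γ : ℝ) :
    (F.uu x b : ℝ) * |(F.lam x b : ℝ) * γ - SamePtx217.an f (F.lam x b) / (k0 F x b f : ℕ)| =
      (b : ℝ) * |γ - f| := by
  have h := disp_fr (F := F) (x := x) hM hb (SamePtx217.an f (F.lam x b))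
    (k := k0 F x b f) (k0_pos x b f) γ
  rw [fr_an] at h
  unfold Centx949.disp at h
  exact h.symm

/-! ### the denominators over the upper word -/

/-- the denominator of the level is one of the few denominators over the upper word -/
theorem mem_LS {y t b N : ℕ} {f : ℚ} {K : ℝ} (hM : 0 < M) (hL : 0 < P.L)
    (hN : (M : ℝ) / P.L ≤ P.N) (hE : ∀ m, P.m0 ≤ m → 2 * P.E m ^ 3 < 2 ^ m)
    (hcut : Monotone P.cut) (hb : b ∣ M) (hm0 : P.m0 ≤ t) (hyx : y ≤ P.cut t)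
    (hi : ∃ m, t ≤ m ∧ TC F P m b f ∧ k0 F (P.cut m) b f = k0 F (P.cut t) b f)
    (hd : Rulex945.dep F P t b f ≤ K) (hKy : K ≤ y) (hKN : K ≤ N) :
    k0 F (P.cut t) b f ∈ TwistKKx863.LS F P.γ P.L ((2 : ℝ) ^ (Nat.log 2 (low y b))) K N P.cut
      (lb P) (Finset.range (P.N + 1)) (upp y b) := by
  classical
  obtain ⟨m, htm, htc, hk⟩ := hi
  have hb0 : b ≠ 0 := (Nat.pos_of_dvd_of_pos hb hM).ne'
  set z := upp y b with hz
  set w := low y b with hw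
  set X : ℝ := (2 : ℝ) ^ (Nat.log 2 w) with hX
  have hX0 : 0 < X := by positivity
  have hw0 : 0 < w := low_pos _ _
  have hX1 : X ≤ w := by
    have := Nat.pow_log_le_self 2 hw0.ne'
    rw [hX]
    exact_mod_cast this
  have hX2 : (w : ℝ) ≤ 2 * X := by
    have := (Nat.lt_pow_succ_log_self (b := 2) (by norm_num) w).le
    rw [Nat.succ_eq_add_one, pow_succ] at this
    have h1 : (w : ℝ) ≤ (2 : ℝ) ^ (Nat.log 2 w) * 2 := by exact_mod_cast this
    rw [hX]; linarith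
  have hwz : w * z = b := low_mul_upp y hb0
  have hb' : w * z ∣ M := by rw [hwz]; exact hb
  have hzM : z ∣ M := (upp_dvd_self y b).trans hb
  have hz0 : z ≠ 0 := (upp_pos y b).ne'
  set x := P.cut m with hx
  have hyx' : y ≤ x := hyx.trans (hcut htm)
  have hwx : ∀ p, p.Prime → p ∣ w → p ≤ x := fun p hp hpw =>
    (prime_dvd_part (fun p => p ≤ y) hp hpw).trans hyx'
  have hlam : F.lam x z = F.lam x b := by
    have h1 := TwistKKx863.lam_congr (F := F) hb' hzM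
      (TwistKKx863.fact_mul_low hw0.ne' hz0 hwx)
    rw [hwz] at h1
    exact h1.symm
  have huu : F.uu x b = w * F.uu x z := by
    have h1 := TwistKKx863.uu_mul (F := F) hM hb' hwx
    rwa [hwz] at h1
  set a := SamePtx217.an f (F.lam x b) with ha
  have hdis := disp_an (F := F) (x := x) hM hb f P.γ
  rw [← ha] at hdis
  have huu0 : (0 : ℝ) < F.uu x b := by exact_mod_cast FL.uu_pos (F := F) x b
  have hm : P.m0 ≤ m := hm0.trans htm
  have hlb : lb P m (F.lam x b) = k0 F x b f := by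
    refine lb_eq (a := a) (hE m hm) (k0_pos x b f) (cop_an x b f) htc.den ?_
    rw [le_div_iff₀ (by positivity)]
    have h2 : (|(F.lam x b : ℝ) * P.γ - a / (k0 F x b f : ℕ)| * 2 ^ m) * P.L ≤ P.E m * P.L := by
      calc _ = (2 ^ m * P.L) * |(F.lam x b : ℝ) * P.γ - a / (k0 F x b f : ℕ)| := by ring
        _ ≤ F.uu x b * |(F.lam x b : ℝ) * P.γ - a / (k0 F x b f : ℕ)| :=
            mul_le_mul_of_nonneg_right htc.scl (abs_nonneg _)
        _ = (b : ℝ) * |P.γ - f| := hdis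
        _ ≤ _ := htc.dis
    exact le_of_mul_le_mul_right h2 hL
  have hdm : Rulex945.dep F P m b f ≤ K := by
    unfold Rulex945.dep at hd ⊢
    rw [hk]
    exact hd
  have hK0 : 0 ≤ K := zero_le_one.trans ((one_le_dep (F := F) (P := P) t b f).trans hd)
  have hkK : (k0 F x b f : ℝ) ≤ K := (k0_le_dep m b f).trans hdm
  have hkN : k0 F x b f ≤ N := by exact_mod_cast hkK.trans hKN
  have hky : k0 F x b f ≤ y := by exact_mod_cast hkK.trans hKy
  unfold TwistKKx863.LS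
  refine Finset.mem_image.2 ⟨m, Finset.mem_filter.2 ⟨?_, ?_, ?_, ?_, ?_, a, ?_, ?_⟩, ?_⟩
  · rw [Finset.mem_range, Nat.lt_succ_iff]
    exact htc.le_N hL hN hM hb
  · rw [hlam, hlb]; exact k0_pos x b f
  · rw [hlam, hlb]; exact hkN
  · rw [hlam, hlb]; exact hky.trans hyx'
  · -- scale
    unfold TwistKKx863.sg
    rw [← mul_div_assoc, le_div_iff₀ hL]
    have h1 : (F.uu x b : ℝ) = w * F.uu x z := by exact_mod_cast huu
    have h2 := htc.scl
    rw [← hx, h1] at h2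
    have h3 : (w : ℝ) * F.uu x z ≤ 2 * X * F.uu x z :=
      mul_le_mul_of_nonneg_right hX2 (Nat.cast_nonneg _)
    linarith
  · rw [hlam, hlb]; exact cop_an x b f
  · rw [hlam, hlb]
    have h1 : |(F.lam x (w * z) : ℝ) * P.γ - a / (k0 F x b f : ℕ)| ≤
        K / (F.uu x (w * z) / P.L) := by
      rw [hwz, le_div_iff₀ (by positivity), ← mul_div_assoc, div_le_iff₀ hL,
        mul_comm _ (F.uu x b : ℝ), hdis]
      exact (dis_le_dep hL m b f).trans (mul_le_mul_of_nonneg_right hdm hL.le)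
    have h2 := TwistKKx863.label_of_member (x := P.cut) (i := m) hM hL hK0 hX0 hb' hwx hX1 h1
    rw [← hx, hlam] at h2
    exact h2
  · show lb P m (F.lam x z) = _
    rw [hlam, hlb, hk]

/-! ### the word -/

/-- **the low word**: reduced pair of the denominators times `Z`-smooth words -/
theorem word_gs {x y Z g s s' : ℕ} {h : ℤ} {f f' : ℚ} (hM : 0 < M) (hb : g * s ∣ M)
    (hc : g * s' ∣ M) (hcop : Nat.Coprime s s') (hx : F.good x (g * s) (g * s'))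
    (hyx : y ≤ x) (hZy : Z ≤ y) (h0 : gap f f' s s' h = 0)
    (hky : k0 F x (g * s) f ≤ y) (hky' : k0 F x (g * s') f' ≤ y)
    (htop : ∀ p : ℕ, p.Prime → Z < p → p ≤ x →
      ¬ p ∣ alC (g * s) (g * s') f f' ∧ ¬ p ∣ alC (g * s') (g * s) f' f) :
    ∃ r r' : ℕ, 0 < r ∧ 0 < r' ∧ (∀ p, p.Prime → p ∣ r → p ≤ Z) ∧
      (∀ p, p.Prime → p ∣ r' → p ≤ Z) ∧
      low x s = k0 F x (g * s) f / Nat.gcd (k0 F x (g * s) f) (k0 F x (g * s') f') * r ∧
      low x s' = k0 F x (g * s') f' / Nat.gcd (k0 F x (g * s) f) (k0 F x (g * s') f') * r' ∧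
      low y s = low x s ∧ low y s' = low x s' := by
  set k := k0 F x (g * s) f with hkdef
  set k' := k0 F x (g * s') f' with hkdef'
  set a := SamePtx217.an f (F.lam x (g * s)) with ha
  set a' := SamePtx217.an f' (F.lam x (g * s')) with ha'
  have hk : 0 < k := k0_pos _ _ _
  have hk' : 0 < k' := k0_pos _ _ _
  have hkx : k ≤ x := hky.trans hyx
  have hkx' : k' ≤ x := hky'.trans hyx
  have ef : fr F x (g * s) a k = f := fr_an x (g * s) f
  have ef' : fr F x (g * s') a' k' = f' := fr_an x (g * s') f'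
  have hca : IsCoprime a (k : ℤ) := cop_an x (g * s) f
  have hca' : IsCoprime a' (k' : ℤ) := cop_an x (g * s') f'
  rw [← ef, ← ef'] at h0 htop
  have hz := inLat hM hb hc hcop hx hk hk' h0
  have hce : IsCoprime ((F.ell x (g * s') : ℕ) * a : ℤ) (k : ℤ) :=
    ((Nat.isCoprime_iff_coprime).2 (coprime_ell hk hkx)).mul_left hca
  have hce' : IsCoprime ((F.ell x (g * s) : ℕ) * a' : ℤ) (k' : ℤ) :=
    ((Nat.isCoprime_iff_coprime).2 (coprime_ell hk' hkx')).mul_left hca'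
  obtain ⟨κ, k₁, k₁', r, r', hκ, ek, ek', hc1, eS, eS', rel⟩ :=
    KillS2x949.structure_ hk hk' hce hce' hz
  have hκ0 : 0 < κ := by rw [hκ]; exact Nat.gcd_pos_of_pos_left _ hk
  have hd : k / Nat.gcd k k' = k₁ := by
    rw [← hκ, ek]; exact Nat.mul_div_cancel_left _ hκ0
  have hd' : k' / Nat.gcd k k' = k₁' := by
    rw [← hκ, ek']; exact Nat.mul_div_cancel_left _ hκ0
  have hS := (low_pos x s).ne'
  have hS' := (low_pos x s').ne'
  rw [eS] at hS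
  rw [eS'] at hS'
  have key : ∀ p : ℕ, p.Prime → p ∣ r → p ≤ Z := by
    intro p hp hpr
    by_contra hcon
    have hpx : p ≤ x := prime_dvd_part (fun p => p ≤ x) hp
      (show p ∣ low x s by rw [eS]; exact hpr.mul_left _)
    exact (htop p hp (by omega) hpx).1
      (expl_of_r hM hb hc hcop hx hk hca' h0 ek ek' eS eS' rel hp hpr)
  have key' : ∀ p : ℕ, p.Prime → p ∣ r' → p ≤ Z := by
    intro p hp hpr
    by_contra hcon
    have hpx : p ≤ x := prime_dvd_part (fun p => p ≤ x) hp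
      (show p ∣ low x s' by rw [eS']; exact hpr.mul_left _)
    refine (htop p hp (by omega) hpx).2 ?_
    exact expl_of_r hM hc hb hcop.symm (FL.good_symm hb hc hx) hk' hca
      (gap_symm h0) ek' ek eS' eS (h := -h) (by linear_combination -rel) hp hpr
  have hk₁y : k₁ ≤ y := by
    refine le_trans ?_ hky
    rw [← hd]; exact Nat.div_le_self _ _
  have hk₁y' : k₁' ≤ y := by
    refine le_trans ?_ hky'
    rw [← hd']; exact Nat.div_le_self _ _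
  have smooth : ∀ {σ k₀ ρ : ℕ}, low x σ = k₀ * ρ → k₀ * ρ ≠ 0 → k₀ ≤ y →
      (∀ p, p.Prime → p ∣ ρ → p ≤ Z) → low y σ = low x σ := by
    intro σ k₀ ρ e hne hk₀ hρ
    have h1 : low y (low x σ) = low y σ := low_low hyx _
    rw [← h1]
    have h2 := low_mul_upp y (low_pos x σ).ne'
    have h3 : upp y (low x σ) = 1 := by
      refine upp_one_of fun p hp hd => ?_
      rw [e] at hd
      rcases (hp.dvd_mul).1 hd with h4 | h4
      · exact (Nat.le_of_dvd (Nat.pos_of_ne_zero (left_ne_zero_of_mul hne)) h4).trans hk₀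
      · exact (hρ p hp h4).trans hZy
    rwa [h3, mul_one] at h2
  refine ⟨r, r', Nat.pos_of_ne_zero (right_ne_zero_of_mul hS),
    Nat.pos_of_ne_zero (right_ne_zero_of_mul hS'), key, key', ?_, ?_, ?_, ?_⟩
  · rw [hd]; exact eS
  · rw [hd']; exact eS'
  · exact smooth eS hS hk₁y key
  · exact smooth eS' hS' hk₁y' key'

/-- the same for a pair `b, c` -/
theorem word_of {y Z t b c : ℕ} {h : ℤ} {f f' : ℚ} {K : ℝ} (hM : 0 < M) (hb : b ∣ M)
    (hc : c ∣ M) (hKy : K ≤ y) (hZy : Z ≤ y) (hS : Sm F P y Z K t b c h f f') :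
    ∃ r r' : ℕ, 0 < r ∧ 0 < r' ∧ (∀ p, p.Prime → p ∣ r → p ≤ Z) ∧
      (∀ p, p.Prime → p ∣ r' → p ≤ Z) ∧
      wd (low y b) (low y c) =
        (k0 F (P.cut t) b f / Nat.gcd (k0 F (P.cut t) b f) (k0 F (P.cut t) c f') * r,
          k0 F (P.cut t) c f' / Nat.gcd (k0 F (P.cut t) b f) (k0 F (P.cut t) c f') * r') ∧
      K ≤ 256 * (((wd (low y b) (low y c)).1 : ℝ) * (wd (low y b) (low y c)).2) ^ 3 := by
  have hb0 : 0 < b := Nat.pos_of_dvd_of_pos hb hM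
  have hc0 : 0 < c := Nat.pos_of_dvd_of_pos hc hM
  set g := Nat.gcd b c with hgdef
  have hg : 0 < g := Nat.gcd_pos_of_pos_left _ hb0
  set s := b / g with hsdef
  set s' := c / g with hsdef'
  have eb : g * s = b := Nat.mul_div_cancel' (Nat.gcd_dvd_left _ _)
  have ec : g * s' = c := Nat.mul_div_cancel' (Nat.gcd_dvd_right _ _)
  have hcop : Nat.Coprime s s' := Nat.coprime_div_gcd_div_gcd hg
  have hs : 0 < s := Nat.pos_of_ne_zero fun h => by rw [h, mul_zero] at eb; omega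
  have hs' : 0 < s' := Nat.pos_of_ne_zero fun h => by rw [h, mul_zero] at ec; omega
  have hky : k0 F (P.cut t) b f ≤ y := by
    exact_mod_cast ((k0_le_dep t b f).trans hS.db).trans hKy
  have hky' : k0 F (P.cut t) c f' ≤ y := by
    exact_mod_cast ((k0_le_dep t c f').trans hS.dc).trans hKy
  obtain ⟨r, r', hr, hr', hrZ, hrZ', e1, e2, e3, e4⟩ := word_gs (F := F) (x := P.cut t) (y := y)
    (Z := Z) (g := g) (s := s) (s' := s') (h := h) (f := f) (f' := f') hM (by rw [eb]; exact hb)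
    (by rw [ec]; exact hc) hcop (by rw [eb, ec]; exact hS.good) hS.yx hZy hS.pt
    (by rw [eb]; exact hky) (by rw [ec]; exact hky') (by rw [eb, ec]; exact hS.top)
  rw [eb, ec] at e1 e2
  have egl : Nat.gcd (low y b) (low y c) = low y g := by
    rw [← eb, ← ec]; exact gcd_low hg.ne' hs.ne' hs'.ne' hcop
  have elb : low y b / low y g = low y s := by
    rw [← eb, low_gs y hg.ne' hs.ne']; exact Nat.mul_div_cancel_left _ (low_pos _ _)
  have elc : low y c / low y g = low y s' := by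
    rw [← ec, low_gs y hg.ne' hs'.ne']; exact Nat.mul_div_cancel_left _ (low_pos _ _)
  have ewd : wd (low y b) (low y c) = (low (P.cut t) s, low (P.cut t) s') := by
    unfold wd
    rw [egl, elb, elc, e3, e4]
  refine ⟨r, r', hr, hr', hrZ, hrZ', ?_, ?_⟩
  · rw [ewd, e1, e2]
  · rw [ewd]; exact hS.big

/-! ### numerics -/

lemma pow_absorb {B δ : ℝ} (hB : 0 ≤ B) (hδ : 0 < δ) : ∃ C : ℝ, 0 ≤ C ∧ ∀ u : ℝ, 0 ≤ u →
    B * u ^ (13 / 20 : ℝ) ≤ δ * u + C := by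
  refine ⟨B * (B / δ) ^ (13 / 7 : ℝ), by positivity, fun u hu => ?_⟩
  rcases le_or_gt (B / δ) (u ^ (7 / 20 : ℝ)) with h | h
  · have h1 : B ≤ δ * u ^ (7 / 20 : ℝ) := by
      rw [div_le_iff₀ hδ] at h
      linarith
    have h2 : u ^ (7 / 20 : ℝ) * u ^ (13 / 20 : ℝ) = u := by
      rw [← Real.rpow_add_of_nonneg hu (by norm_num) (by norm_num)]
      norm_num
    calc B * u ^ (13 / 20 : ℝ) ≤ (δ * u ^ (7 / 20 : ℝ)) * u ^ (13 / 20 : ℝ) :=
          mul_le_mul_of_nonneg_right h1 (by positivity)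
      _ = δ * u := by rw [mul_assoc, h2]
      _ ≤ δ * u + B * (B / δ) ^ (13 / 7 : ℝ) := by
          have : 0 ≤ B * (B / δ) ^ (13 / 7 : ℝ) := by positivity
          linarith
  · have h0 : 0 ≤ u ^ (7 / 20 : ℝ) := by positivity
    have h1 : u ^ (13 / 20 : ℝ) ≤ (B / δ) ^ (13 / 7 : ℝ) := by
      have h2 : u ^ (13 / 20 : ℝ) = (u ^ (7 / 20 : ℝ)) ^ (13 / 7 : ℝ) := by
        rw [← Real.rpow_mul hu]
        norm_num
      rw [h2]
      exact Real.rpow_le_rpow h0 h.le (by norm_num)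
    have h2 : 0 ≤ δ * u := by positivity
    have h3 := mul_le_mul_of_nonneg_left h1 hB
    linarith

/-- number of denominators over one word -/
noncomputable def nn (K : ℝ) : ℕ := Nat.log 2 ⌊4 * K * (⌈K⌉₊ : ℝ) ^ 2⌋₊ + Nat.log 2 ⌈K⌉₊ + 2

/-- **numerics** -/
theorem numer (A : ℝ) : ∃ C : ℝ, 0 < C ∧ ∀ (K : ℝ) (Z : ℕ), 1 ≤ K →
    (Z : ℝ) ≤ A * (1 + Real.log K) ^ (5 / 4 : ℝ) →
    ((nn K * nn K : ℕ) : ℝ) * ((Nat.log 2 ⌈K⌉₊ : ℝ) + 1) ^ 2 *
      ((K / 256) ^ (1 / 3 : ℝ)) ^ (-(1 / 50) : ℝ) * Real.exp (16 * (Z : ℝ) ^ (13 / 25 : ℝ)) ≤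
      C * K ^ (-(1 / 200) : ℝ) := by
  set ε : ℝ := 1 / 10000 with hε
  have hε0 : 0 < ε := by norm_num
  obtain ⟨C1, hC1, h1⟩ := TwistKKx863.log_factor hε0 1
  set C2 : ℝ := max 1 (1 / (ε * Real.log 2)) with hC2
  have hC21 : 1 ≤ C2 := le_max_left _ _
  set A' : ℝ := max A 1 with hA'
  have hA1 : 1 ≤ A' := le_max_right _ _
  obtain ⟨C3, hC3, h3⟩ := pow_absorb (B := 16 * A' ^ (13 / 25 : ℝ)) (δ := 1 / 2000)
    (by positivity) (by norm_num)
  refine ⟨(C1 * 2) ^ 2 * (C2 * 2) ^ 2 * 2 * Real.exp (1 / 2000 + C3), by positivity,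
    fun K Z hK hZ => ?_⟩
  have hK0 : 0 < K := by linarith
  set N := ⌈K⌉₊ with hN
  have hN1 : 1 ≤ N := Nat.one_le_ceil_iff.2 hK0
  have hKN : K ≤ N := Nat.le_ceil K
  have hN2 : (N : ℝ) ≤ 2 * K := by
    have := Nat.ceil_lt_add_one hK0.le
    rw [← hN] at this
    linarith
  have hNe : (N : ℝ) ^ ε ≤ 2 * K ^ ε := by
    calc (N : ℝ) ^ ε ≤ (2 * K) ^ ε := Real.rpow_le_rpow (Nat.cast_nonneg _) hN2 hε0.le
      _ = 2 ^ ε * K ^ ε := Real.mul_rpow (by norm_num) hK0.le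
      _ ≤ 2 * K ^ ε := by
          refine mul_le_mul_of_nonneg_right ?_ (by positivity)
          calc (2 : ℝ) ^ ε ≤ 2 ^ (1 : ℝ) :=
                Real.rpow_le_rpow_of_exponent_le (by norm_num) (by norm_num)
            _ = 2 := Real.rpow_one 2
  have a1 : ((nn K : ℕ) : ℝ) ≤ (C1 * 2) * K ^ ε := by
    have h4 := h1 K N hN1 (by rw [pow_one]; exact hKN)
    have h5 : ((nn K : ℕ) : ℝ) ≤ C1 * (N : ℝ) ^ ε := h4
    refine h5.trans ?_
    calc C1 * (N : ℝ) ^ ε ≤ C1 * (2 * K ^ ε) := mul_le_mul_of_nonneg_left hNe hC1.le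
      _ = _ := by ring
  have a2 : (Nat.log 2 N : ℝ) + 1 ≤ (C2 * 2) * K ^ ε := by
    have h4 := TwistKKx863.succ_le_small hε0 2 (Nat.log 2 N) le_rfl
    have h5 : ((2 : ℕ) : ℝ) ^ (Nat.log 2 N) ≤ N := by
      exact_mod_cast Nat.pow_log_le_self 2 (by omega)
    have h6 : ((((2 : ℕ) : ℝ) ^ (Nat.log 2 N)) ^ ε) ≤ (N : ℝ) ^ ε :=
      Real.rpow_le_rpow (by positivity) h5 hε0.le
    calc (Nat.log 2 N : ℝ) + 1 ≤ C2 * ((((2 : ℕ) : ℝ) ^ (Nat.log 2 N)) ^ ε) := h4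
      _ ≤ C2 * (2 * K ^ ε) := mul_le_mul_of_nonneg_left (h6.trans hNe) (by linarith)
      _ = _ := by ring
  have a3 : ((K / 256) ^ (1 / 3 : ℝ)) ^ (-(1 / 50) : ℝ) ≤ 2 * K ^ (-(1 / 150) : ℝ) := by
    rw [← Real.rpow_mul (by positivity), show (1 / 3 : ℝ) * (-(1 / 50)) = -(1 / 150) by norm_num,
      Real.div_rpow hK0.le (by norm_num), div_eq_mul_inv, mul_comm]
    refine mul_le_mul_of_nonneg_right ?_ (by positivity)
    rw [← Real.rpow_neg (by norm_num)]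
    calc (256 : ℝ) ^ (-(-(1 / 150)) : ℝ) ≤ (256 : ℝ) ^ (1 / 8 : ℝ) :=
          Real.rpow_le_rpow_of_exponent_le (by norm_num) (by norm_num)
      _ = 2 := by
          rw [show (256 : ℝ) = 2 ^ (8 : ℝ) by norm_num, ← Real.rpow_mul (by norm_num)]
          norm_num
  have a4 : Real.exp (16 * (Z : ℝ) ^ (13 / 25 : ℝ)) ≤
      Real.exp (1 / 2000 + C3) * K ^ (1 / 2000 : ℝ) := by
    have hl : 0 ≤ Real.log K := Real.log_nonneg hK
    have hu : (0 : ℝ) ≤ 1 + Real.log K := by linarith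
    have hZ' : (Z : ℝ) ≤ A' * (1 + Real.log K) ^ (5 / 4 : ℝ) :=
      hZ.trans (mul_le_mul_of_nonneg_right (le_max_left _ _) (by positivity))
    have h5 : (Z : ℝ) ^ (13 / 25 : ℝ) ≤ A' ^ (13 / 25 : ℝ) * (1 + Real.log K) ^ (13 / 20 : ℝ) := by
      refine (Real.rpow_le_rpow (Nat.cast_nonneg _) hZ' (by norm_num)).trans (le_of_eq ?_)
      rw [Real.mul_rpow (by linarith) (by positivity), ← Real.rpow_mul hu]
      norm_num
    have h6 := h3 (1 + Real.log K) hu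
    have h7 : K ^ (1 / 2000 : ℝ) = Real.exp (1 / 2000 * Real.log K) := by
      rw [Real.rpow_def_of_pos hK0, mul_comm]
    rw [h7, ← Real.exp_add, Real.exp_le_exp]
    calc 16 * (Z : ℝ) ^ (13 / 25 : ℝ) ≤
          16 * (A' ^ (13 / 25 : ℝ) * (1 + Real.log K) ^ (13 / 20 : ℝ)) := by linarith
      _ = 16 * A' ^ (13 / 25 : ℝ) * (1 + Real.log K) ^ (13 / 20 : ℝ) := by ring
      _ ≤ 1 / 2000 * (1 + Real.log K) + C3 := h6
      _ = _ := by ring
  have b1 : ((nn K * nn K : ℕ) : ℝ) ≤ ((C1 * 2) * K ^ ε) ^ 2 := by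
    push_cast
    rw [← sq]
    exact pow_le_pow_left₀ (Nat.cast_nonneg _) a1 2
  have b2 : ((Nat.log 2 N : ℝ) + 1) ^ 2 ≤ ((C2 * 2) * K ^ ε) ^ 2 :=
    pow_le_pow_left₀ (by positivity) a2 2
  calc ((nn K * nn K : ℕ) : ℝ) * ((Nat.log 2 N : ℝ) + 1) ^ 2 *
      ((K / 256) ^ (1 / 3 : ℝ)) ^ (-(1 / 50) : ℝ) * Real.exp (16 * (Z : ℝ) ^ (13 / 25 : ℝ))
      ≤ ((C1 * 2) * K ^ ε) ^ 2 * ((C2 * 2) * K ^ ε) ^ 2 * (2 * K ^ (-(1 / 150) : ℝ)) *
        (Real.exp (1 / 2000 + C3) * K ^ (1 / 2000 : ℝ)) := by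
        gcongr
    _ = ((C1 * 2) ^ 2 * (C2 * 2) ^ 2 * 2 * Real.exp (1 / 2000 + C3)) *
        ((K ^ ε) ^ 2 * (K ^ ε) ^ 2 * K ^ (-(1 / 150) : ℝ) * K ^ (1 / 2000 : ℝ)) := by ring
    _ ≤ ((C1 * 2) ^ 2 * (C2 * 2) ^ 2 * 2 * Real.exp (1 / 2000 + C3)) *
        K ^ (-(1 / 200) : ℝ) := by
        refine mul_le_mul_of_nonneg_left ?_ (by positivity)
        have e : (K ^ ε) ^ 2 * (K ^ ε) ^ 2 * K ^ (-(1 / 150) : ℝ) * K ^ (1 / 2000 : ℝ) =
            K ^ (ε * 2 + ε * 2 + -(1 / 150) + 1 / 2000 : ℝ) := by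
          rw [Real.rpow_add hK0, Real.rpow_add hK0, Real.rpow_add hK0]
          congr 2
          rw [← Real.rpow_natCast, ← Real.rpow_mul hK0.le]
          norm_num
        rw [e]
        exact Real.rpow_le_rpow_of_exponent_le hK (by rw [hε]; norm_num)

/-! ### the theorem -/

/-- the words over `(z, z')` in the box `(U, U')` -/
noncomputable def KW (F : FL M) (P : Par) (K : ℝ) (U U' z z' : ℕ) : Finset (ℕ × ℕ) :=
  (TwistKKx863.LS F P.γ P.L ((2 : ℝ) ^ U) K ⌈K⌉₊ P.cut (lb P) (Finset.range (P.N + 1)) z ×ˢ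
    TwistKKx863.LS F P.γ P.L ((2 : ℝ) ^ U') K ⌈K⌉₊ P.cut (lb P) (Finset.range (P.N + 1)) z').image
    (fun q => (q.1 / Nat.gcd q.1 q.2, q.2 / Nat.gcd q.1 q.2))

lemma mem_LS_le {γ L X R : ℝ} {N : ℕ} {x : ℕ → ℕ} {lab : ℕ → ℕ → ℕ} {I : Finset ℕ} {z k : ℕ}
    (h : k ∈ TwistKKx863.LS F γ L X R N x lab I z) : 0 < k ∧ k ≤ N := by
  classical
  unfold TwistKKx863.LS at h
  rw [Finset.mem_image] at h
  obtain ⟨i, hi, rfl⟩ := h
  have ho := (Finset.mem_filter.1 hi).2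
  exact ⟨ho.1, ho.2.1⟩

lemma KW_card {K : ℝ} (hM : 0 < M) (hcut : Monotone P.cut) (hK : 0 ≤ K) {U U' z z' : ℕ}
    (hz : z ∣ M) (hz' : z' ∣ M) : (KW F P K U U' z z').card ≤ nn K * nn K := by
  classical
  unfold KW
  refine Finset.card_image_le.trans ?_
  rw [Finset.card_product]
  exact Nat.mul_le_mul (TwistKKx863.card_LS hM hz hK hcut) (TwistKKx863.card_LS hM hz' hK hcut)

lemma KW_le {K : ℝ} {U U' z z' : ℕ} {x : ℕ × ℕ} (h : x ∈ KW F P K U U' z z') :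
    0 < x.1 ∧ x.1 ≤ ⌈K⌉₊ ∧ 0 < x.2 ∧ x.2 ≤ ⌈K⌉₊ := by
  classical
  unfold KW at h
  rw [Finset.mem_image] at h
  obtain ⟨q, hq, rfl⟩ := h
  rw [Finset.mem_product] at hq
  obtain ⟨h1, h2⟩ := mem_LS_le hq.1
  obtain ⟨h3, h4⟩ := mem_LS_le hq.2
  have hg : 0 < Nat.gcd q.1 q.2 := Nat.gcd_pos_of_pos_left _ h1
  exact ⟨Nat.div_pos (Nat.le_of_dvd h1 (Nat.gcd_dvd_left _ _)) hg,
    (Nat.div_le_self _ _).trans h2,
    Nat.div_pos (Nat.le_of_dvd h3 (Nat.gcd_dvd_right _ _)) hg, (Nat.div_le_self _ _).trans h4⟩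

open VecNPx50 in
/-- **(6.0)**, weights with the bound for functions -/
theorem lsmooth' (A : ℝ) : ∃ C : ℝ, 0 < C ∧ ∀ (M : ℕ) (F : FL M) (P : Par) (y Z : ℕ) (K E : ℝ)
    (S : Finset ℕ) (k : ℕ → ℕ → ℕ → ℕ → ℕ → ℝ) (f g : ℕ → ℝ) (Φ : ℕ → ℕ → ℝ),
    0 < M → 0 < P.L → (M : ℝ) / P.L ≤ P.N → (∀ m, P.m0 ≤ m → 2 * P.E m ^ 3 < 2 ^ m) →
    Monotone P.cut → 1 ≤ K → K ≤ y → Z ≤ y → (Z : ℝ) ≤ A * (1 + Real.log K) ^ (5 / 4 : ℝ) →
    (∀ i U U' z z', 0 ≤ k i U U' z z') → 0 ≤ E → (∀ i U U', SetBd (upp y M) (k i U U') E) →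
    (∀ b, 0 ≤ f b) → (∀ b, 0 ≤ g b) → (∀ b, f b ≤ 1) → (∀ b, g b ≤ 1) →
    (∀ b c, b ∣ M → c ∣ M → Φ b c ≤ 0 ∨
      (Φ b c ≤ k (Nat.log 2 (Nat.gcd (low y b) (low y c))) (Nat.log 2 (low y b))
        (Nat.log 2 (low y c)) (upp y b) (upp y c) *
        bst S (low y M) (low y b) (low y c) * (f b * g c) ∧
      ∃ t h f₁ f₂, Sm F P y Z K t b c h f₁ f₂)) →
    frm M Φ ≤ C * E * K ^ (-(1 / 200) : ℝ) * (√(Ex M f) * √(Ex M g)) := by
  classical
  obtain ⟨C, hC, hnum⟩ := numer A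
  refine ⟨72 * C, by positivity, fun M F P y Z K E S k f g Φ hM hL hN hE hcut hK hKy hZy hZ hk hE0
    hW hf hg hf1 hg1 hex => ?_⟩
  have hK0 : 0 < K := by linarith
  have hW₀ : 0 < (K / 256) ^ (1 / 3 : ℝ) := by positivity
  have h1 := LSmoothBx808.smooth_abs3 hM y S hk hE0 hW Z ⌈K⌉₊ (nn K * nn K) hW₀
    (fun _ U U' z z' => KW F P K U U' z z')
    (fun i U U' z z' hz hz' => KW_card hM hcut hK0.le (hz.trans (upp_dvd_self y M))
      (hz'.trans (upp_dvd_self y M)))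
    (fun i U U' z z' x hx => KW_le hx) hf hg hf1 hg1 (Φ := Φ)
    (fun b c hb hc => by
      rcases hex b c hb hc with h0 | ⟨h0, t, h, f₁, f₂, hS⟩
      · exact Or.inl h0
      right
      refine ⟨h0, ?_⟩
      obtain ⟨r, r', hr, hr', hrZ, hrZ', ewd, hbig⟩ := word_of hM hb hc hKy hZy hS
      refine ⟨(k0 F (P.cut t) b f₁ / Nat.gcd (k0 F (P.cut t) b f₁) (k0 F (P.cut t) c f₂),
        k0 F (P.cut t) c f₂ / Nat.gcd (k0 F (P.cut t) b f₁) (k0 F (P.cut t) c f₂)), ?_,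
        r, r', hr, hr', hrZ, hrZ', ewd, ?_⟩
      · show (_, _) ∈ KW F P K _ _ _ _
        unfold KW
        refine Finset.mem_image.2 ⟨(k0 F (P.cut t) b f₁, k0 F (P.cut t) c f₂),
          Finset.mem_product.2 ⟨?_, ?_⟩, rfl⟩
        · exact mem_LS hM hL hN hE hcut hb hS.m0 hS.yx hS.ib hS.db hKy (Nat.le_ceil K)
        · exact mem_LS hM hL hN hE hcut hc hS.m0 hS.yx hS.ic hS.dc hKy (Nat.le_ceil K)
      · rw [ewd] at hbig
        set w : ℝ := ((k0 F (P.cut t) b f₁ / Nat.gcd (k0 F (P.cut t) b f₁)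
          (k0 F (P.cut t) c f₂) * r : ℕ) : ℝ) with hw
        set w' : ℝ := ((k0 F (P.cut t) c f₂ / Nat.gcd (k0 F (P.cut t) b f₁)
          (k0 F (P.cut t) c f₂) * r' : ℕ) : ℝ) with hw'
        have hww : 0 ≤ w * w' := mul_nonneg (Nat.cast_nonneg _) (Nat.cast_nonneg _)
        have h2 : K / 256 ≤ (w * w') ^ 3 := by
          rw [div_le_iff₀ (by norm_num)]
          linarith
        calc (K / 256) ^ (1 / 3 : ℝ) ≤ ((w * w') ^ 3) ^ (1 / 3 : ℝ) :=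
              Real.rpow_le_rpow (by positivity) h2 (by norm_num)
          _ = w * w' := by
              rw [← Real.rpow_natCast, ← Real.rpow_mul hww]
              norm_num)
  refine h1.trans ?_
  have h2 := hnum K Z hK hZ
  set D := √(Ex M f) * √(Ex M g) with hD
  have hD0 : 0 ≤ D := mul_nonneg (Real.sqrt_nonneg _) (Real.sqrt_nonneg _)
  calc 72 * E * (((nn K * nn K : ℕ) : ℝ) * ((Nat.log 2 ⌈K⌉₊ : ℝ) + 1) ^ 2) *
        ((K / 256) ^ (1 / 3 : ℝ)) ^ (-(1 / 50) : ℝ) * Real.exp (16 * (Z : ℝ) ^ (13 / 25 : ℝ)) * D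
      = (72 * E * D) * (((nn K * nn K : ℕ) : ℝ) * ((Nat.log 2 ⌈K⌉₊ : ℝ) + 1) ^ 2 *
        ((K / 256) ^ (1 / 3 : ℝ)) ^ (-(1 / 50) : ℝ) *
        Real.exp (16 * (Z : ℝ) ^ (13 / 25 : ℝ))) := by ring
    _ ≤ (72 * E * D) * (C * K ^ (-(1 / 200) : ℝ)) := mul_le_mul_of_nonneg_left h2 (by positivity)
    _ = _ := by ring

/-- **(6.0)**: weights with 899's bound for sets -/
theorem lsmooth (A : ℝ) : ∃ C : ℝ, 0 < C ∧ ∀ (M : ℕ) (F : FL M) (P : Par) (y Z : ℕ) (K E : ℝ)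
    (S : Finset ℕ) (k : ℕ → ℕ → ℕ → ℕ → ℕ → ℝ) (f g : ℕ → ℝ) (Φ : ℕ → ℕ → ℝ),
    0 < M → 0 < P.L → (M : ℝ) / P.L ≤ P.N → (∀ m, P.m0 ≤ m → 2 * P.E m ^ 3 < 2 ^ m) →
    Monotone P.cut → 1 ≤ K → K ≤ y → Z ≤ y → (Z : ℝ) ≤ A * (1 + Real.log K) ^ (5 / 4 : ℝ) →
    (∀ i U U' z z', 0 ≤ k i U U' z z') → 0 ≤ E →
    (∀ i U U', LowLx899.SetW (upp y M) (k i U U') E) →
    (∀ b, 0 ≤ f b) → (∀ b, 0 ≤ g b) → (∀ b, f b ≤ 1) → (∀ b, g b ≤ 1) →
    (∀ b c, b ∣ M → c ∣ M → Φ b c ≤ 0 ∨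
      (Φ b c ≤ k (Nat.log 2 (Nat.gcd (low y b) (low y c))) (Nat.log 2 (low y b))
        (Nat.log 2 (low y c)) (upp y b) (upp y c) *
        bst S (low y M) (low y b) (low y c) * (f b * g c) ∧
      ∃ t h f₁ f₂, Sm F P y Z K t b c h f₁ f₂)) →
    frm M Φ ≤ C * E * K ^ (-(1 / 200) : ℝ) * (√(Ex M f) * √(Ex M g)) := by
  obtain ⟨C, hC, h⟩ := lsmooth' A
  refine ⟨C * 8, by positivity, fun M F P y Z K E S k f g Φ hM hL hN hE hcut hK hKy hZy hZ hk hE0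
    hW hf hg hf1 hg1 hex => ?_⟩
  have h1 := h M F P y Z K (8 * E) S k f g Φ hM hL hN hE hcut hK hKy hZy hZ hk (by positivity)
    (fun i U U' => LSmoothBx808.setBd_of_setW (upp_pos y M) (hk i U U') hE0 (hW i U U')) hf hg hf1
    hg1 hex
  refine h1.trans (le_of_eq ?_)
  ring

end Crest.Agent.R4C.LSmoothx808
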