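import Crest.Agent.R4C.PureL2c_232

/-!
# Row 4: twisted pairs (helper662), notes 3027 (helper863) and 3121 (helper662)

A pair `(z, z')` of divisors of `M` is a *twist* of `(z0, z0')` if `z = κ z0`, `z' = κ' z0'`,
`κ ∈ KK z0`, `κ' ∈ KK' z0'` and `gcd z z' ≤ gcd z0 z0'`
(e.g. `κ, κ'` coprime and `z0, z0'` with the same letters at the primes of `κ κ'`: `gcd_twist`).

* `twist_sum`, `twist_frm` : the energy of the twisted pairs with functions `f, g` is at most the
  energy of the untwisted pairs with the functions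
  `G f z0 = ∑_{κ ∈ KK z0, κ z0 ∣ M} f (κ z0) / φ κ`.
* `twist_norm` : `∑ ν G² ≤ N ω ∑ ν f²` if `#KK z0 ≤ N` and `∑_{κ ∣ z, κ ∈ KK (z/κ)} κ/φ(κ)² ≤ ω`.
* `twist_norm'` : `N` twists per word, all in `[K0, K1]`: `∑ ν G² ≤ N² (1 + log₂ K1)² / K0 ∑ ν f²`.

Everything for general `M` (prime powers).
-/

set_option autoImplicit false

open Finset
open Crest.Agent.R4C.Basex935

namespace Crest.Agent.R4C.Twistx662

/-! ### The exact law under multiplication by a twist -/

lemma totient_mul_le (κ m : ℕ) : (κ * m).totient ≤ κ * m.totient := by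
  induction κ using induction_on_primes with
  | zero => simp
  | one => simp
  | prime_mul p a hp ih =>
    rw [mul_assoc, mul_assoc]
    by_cases hd : p ∣ a * m
    · rw [Nat.totient_mul_of_prime_of_dvd hp hd]
      exact Nat.mul_le_mul_left _ ih
    · rw [Nat.totient_mul_of_prime_of_not_dvd hp hd]
      exact Nat.mul_le_mul (Nat.sub_le _ _) ih

lemma nu_mul_le {M κ z : ℕ} (hM : 0 < M) (h : κ * z ∣ M) :
    nu M (κ * z) ≤ nu M z / (κ.totient : ℝ) := by
  have hκz : 0 < κ * z := Nat.pos_of_dvd_of_pos h hM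
  have hκ : 0 < κ := Nat.pos_of_mul_pos_right hκz
  have hz : 0 < z := Nat.pos_of_mul_pos_left hκz
  obtain ⟨m, hm⟩ := h
  have e1 : M / (κ * z) = m := by rw [hm]; exact Nat.mul_div_cancel_left m hκz
  have e2 : M / z = κ * m := by
    rw [hm, show κ * z * m = z * (κ * m) by ring]
    exact Nat.mul_div_cancel_left _ hz
  have hφ : 0 < κ.totient := Nat.totient_pos.2 hκ
  have hφR : (0 : ℝ) < (κ.totient : ℝ) := by exact_mod_cast hφ
  have hMR : (0 : ℝ) < (M : ℝ) := by exact_mod_cast hM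
  unfold nu
  rw [e1, e2, div_div, div_le_div_iff₀ hMR (by positivity)]
  have h1 : κ.totient * m.totient ≤ (κ * m).totient := Nat.totient_super_multiplicative κ m
  have h1R : (κ.totient : ℝ) * (m.totient : ℝ) ≤ ((κ * m).totient : ℝ) := by exact_mod_cast h1
  calc (m.totient : ℝ) * (M * (κ.totient : ℝ)) = ((κ.totient : ℝ) * m.totient) * M := by ring
    _ ≤ ((κ * m).totient : ℝ) * M := mul_le_mul_of_nonneg_right h1R hMR.le

lemma nu_le_mul {M κ z : ℕ} (hM : 0 < M) (h : κ * z ∣ M) :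
    nu M z ≤ (κ : ℝ) * nu M (κ * z) := by
  have hκz : 0 < κ * z := Nat.pos_of_dvd_of_pos h hM
  have hz : 0 < z := Nat.pos_of_mul_pos_left hκz
  obtain ⟨m, hm⟩ := h
  have e1 : M / (κ * z) = m := by rw [hm]; exact Nat.mul_div_cancel_left m hκz
  have e2 : M / z = κ * m := by
    rw [hm, show κ * z * m = z * (κ * m) by ring]
    exact Nat.mul_div_cancel_left _ hz
  have hMR : (0 : ℝ) < (M : ℝ) := by exact_mod_cast hM
  unfold nu
  rw [e1, e2, mul_div_assoc']
  have h1 : (κ * m).totient ≤ κ * m.totient := totient_mul_le κ m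
  have h1R : ((κ * m).totient : ℝ) ≤ (κ : ℝ) * (m.totient : ℝ) := by exact_mod_cast h1
  exact div_le_div_of_nonneg_right h1R hMR.le


/-! ### The gcd of a twisted pair -/

lemma gcd_twist {κ κ' z z' : ℕ} (hκ : κ ≠ 0) (hκ' : κ' ≠ 0) (hz : z ≠ 0) (hz' : z' ≠ 0)
    (hc : Nat.Coprime κ κ')
    (h : ∀ p, p.Prime → p ∣ κ * κ' → z.factorization p = z'.factorization p) :
    Nat.gcd (κ * z) (κ' * z') = Nat.gcd z z' := by
  have hg1 : Nat.gcd (κ * z) (κ' * z') ≠ 0 := Nat.gcd_ne_zero_left (mul_ne_zero hκ hz)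
  have hg2 : Nat.gcd z z' ≠ 0 := Nat.gcd_ne_zero_left hz
  refine Nat.eq_of_factorization_eq hg1 hg2 fun p => ?_
  rw [Nat.factorization_gcd (mul_ne_zero hκ hz) (mul_ne_zero hκ' hz'),
    Nat.factorization_gcd hz hz', Nat.factorization_mul hκ hz, Nat.factorization_mul hκ' hz']
  simp only [Finsupp.inf_apply, Finsupp.add_apply]
  by_cases hp : p.Prime
  · by_cases h1 : p ∣ κ
    · have h2 : ¬ p ∣ κ' := fun h2 => hp.one_lt.ne' (Nat.dvd_one.1 (hc ▸ Nat.dvd_gcd h1 h2))
      have h3 := h p hp (dvd_mul_of_dvd_left h1 _)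
      rw [Nat.factorization_eq_zero_of_not_dvd h2, h3]
      omega
    · by_cases h2 : p ∣ κ'
      · have h3 := h p hp (dvd_mul_of_dvd_right h2 _)
        rw [Nat.factorization_eq_zero_of_not_dvd h1, h3]
        omega
      · rw [Nat.factorization_eq_zero_of_not_dvd h1, Nat.factorization_eq_zero_of_not_dvd h2]
        simp
  · simp [Nat.factorization_eq_zero_of_not_prime, hp]

/-! ### The function with the twists summed inside -/

/-- `G f z0 = ∑_{κ ∈ KK z0, κ z0 ∣ M} f (κ z0) / φ κ` -/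
noncomputable def G (M : ℕ) (KK : ℕ → Finset ℕ) (f : ℕ → ℝ) (z : ℕ) : ℝ :=
  ∑ κ ∈ KK z, if κ * z ∣ M then f (κ * z) / (κ.totient : ℝ) else 0

lemma G_nonneg {M : ℕ} {KK : ℕ → Finset ℕ} {f : ℕ → ℝ} (hf : ∀ b, 0 ≤ f b) (z : ℕ) :
    0 ≤ G M KK f z := by
  unfold G
  refine Finset.sum_nonneg fun κ _ => ?_
  split_ifs
  · exact div_nonneg (hf _) (by positivity)
  · exact le_rfl

/-- the twist relation over an untwisted relation `R` -/
def Tw (KK KK' : ℕ → Finset ℕ) (R : ℕ → ℕ → Prop) (z z' : ℕ) : Prop :=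
  ∃ κ κ' z0 z0' : ℕ, z = κ * z0 ∧ z' = κ' * z0' ∧ κ ∈ KK z0 ∧ κ' ∈ KK' z0' ∧
    Nat.gcd z z' ≤ Nat.gcd z0 z0' ∧ R z0 z0'

open Classical in
/-- **The energy of the twisted pairs is an untwisted energy of the functions `G`.** -/
theorem twist_sum {M : ℕ} (hM : 0 < M) (KK KK' : ℕ → Finset ℕ) (R : ℕ → ℕ → Prop)
    (f g : ℕ → ℝ) (hf : ∀ b, 0 ≤ f b) (hg : ∀ b, 0 ≤ g b) :
    ∑ z ∈ M.divisors, ∑ z' ∈ M.divisors,
      (if Tw KK KK' R z z' then (Nat.gcd z z' : ℝ) * nu M z * nu M z' * (f z * g z') else 0) ≤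
    ∑ z ∈ M.divisors, ∑ z' ∈ M.divisors,
      (if R z z' then (Nat.gcd z z' : ℝ) * nu M z * nu M z' * (G M KK f z * G M KK' g z')
        else 0) := by
  -- the term of one quadruple
  let W : ℕ → ℕ → ℕ → ℕ → ℕ → ℕ → ℝ := fun z z' z0 z0' κ κ' =>
    if z = κ * z0 ∧ z' = κ' * z0' ∧ R z0 z0' then
      (Nat.gcd z0 z0' : ℝ) * nu M z * nu M z' * (f z * g z') else 0
  have hW0 : ∀ z z' z0 z0' κ κ', 0 ≤ W z z' z0 z0' κ κ' := by
    intro z z' z0 z0' κ κ'
    simp only [W]
    split_ifs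
    · have h1 := nu_nonneg M z
      have h2 := nu_nonneg M z'
      have h3 := hf z
      have h4 := hg z'
      positivity
    · exact le_rfl
  have step1 : ∀ z ∈ M.divisors, ∀ z' ∈ M.divisors,
      (if Tw KK KK' R z z' then (Nat.gcd z z' : ℝ) * nu M z * nu M z' * (f z * g z') else 0) ≤
      ∑ z0 ∈ M.divisors, ∑ z0' ∈ M.divisors, ∑ κ ∈ KK z0, ∑ κ' ∈ KK' z0', W z z' z0 z0' κ κ' := by
    intro z hz z' hz'
    have hzM := Nat.dvd_of_mem_divisors hz
    have hzM' := Nat.dvd_of_mem_divisors hz'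
    split_ifs with h
    · obtain ⟨κ, κ', z0, z0', e1, e2, h1, h2, h3, h4⟩ := h
      have hd : z0 ∣ M := (Dvd.intro_left κ e1.symm).trans hzM
      have hd' : z0' ∣ M := (Dvd.intro_left κ' e2.symm).trans hzM'
      have hm : z0 ∈ M.divisors := Nat.mem_divisors.2 ⟨hd, hM.ne'⟩
      have hm' : z0' ∈ M.divisors := Nat.mem_divisors.2 ⟨hd', hM.ne'⟩
      have hle : (Nat.gcd z z' : ℝ) ≤ (Nat.gcd z0 z0' : ℝ) := by exact_mod_cast h3
      calc (Nat.gcd z z' : ℝ) * nu M z * nu M z' * (f z * g z')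
          ≤ (Nat.gcd z0 z0' : ℝ) * nu M z * nu M z' * (f z * g z') := by
            have a1 := nu_nonneg M z
            have a2 := nu_nonneg M z'
            have a3 := hf z
            have a4 := hg z'
            have a5 : 0 ≤ nu M z * nu M z' * (f z * g z') := by positivity
            nlinarith
        _ = W z z' z0 z0' κ κ' := by
            simp only [W]
            rw [if_pos ⟨e1, e2, h4⟩]
        _ ≤ ∑ κ' ∈ KK' z0', W z z' z0 z0' κ κ' :=
            Finset.single_le_sum (f := fun κ' => W z z' z0 z0' κ κ') (fun _ _ => hW0 _ _ _ _ _ _) h2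
        _ ≤ ∑ κ ∈ KK z0, ∑ κ' ∈ KK' z0', W z z' z0 z0' κ κ' :=
            Finset.single_le_sum (f := fun κ => ∑ κ' ∈ KK' z0', W z z' z0 z0' κ κ')
              (fun _ _ => Finset.sum_nonneg fun _ _ => hW0 _ _ _ _ _ _) h1
        _ ≤ ∑ z0' ∈ M.divisors, ∑ κ ∈ KK z0, ∑ κ' ∈ KK' z0', W z z' z0 z0' κ κ' :=
            Finset.single_le_sum
              (f := fun z0' => ∑ κ ∈ KK z0, ∑ κ' ∈ KK' z0', W z z' z0 z0' κ κ')
              (fun _ _ => Finset.sum_nonneg fun _ _ => Finset.sum_nonneg fun _ _ =>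
                hW0 _ _ _ _ _ _) hm'
        _ ≤ _ :=
            Finset.single_le_sum
              (f := fun z0 => ∑ z0' ∈ M.divisors, ∑ κ ∈ KK z0, ∑ κ' ∈ KK' z0',
                W z z' z0 z0' κ κ')
              (fun _ _ => Finset.sum_nonneg fun _ _ => Finset.sum_nonneg fun _ _ =>
                Finset.sum_nonneg fun _ _ => hW0 _ _ _ _ _ _) hm
    · exact Finset.sum_nonneg fun _ _ => Finset.sum_nonneg fun _ _ =>
        Finset.sum_nonneg fun _ _ => Finset.sum_nonneg fun _ _ => hW0 _ _ _ _ _ _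
  refine (Finset.sum_le_sum fun z hz => Finset.sum_le_sum fun z' hz' => step1 z hz z' hz').trans ?_
  -- exchange the sums
  have step2 : ∑ z ∈ M.divisors, ∑ z' ∈ M.divisors, ∑ z0 ∈ M.divisors, ∑ z0' ∈ M.divisors,
        ∑ κ ∈ KK z0, ∑ κ' ∈ KK' z0', W z z' z0 z0' κ κ' =
      ∑ z0 ∈ M.divisors, ∑ z0' ∈ M.divisors, ∑ κ ∈ KK z0, ∑ κ' ∈ KK' z0',
        ∑ z ∈ M.divisors, ∑ z' ∈ M.divisors, W z z' z0 z0' κ κ' := by
    calc ∑ z ∈ M.divisors, ∑ z' ∈ M.divisors, ∑ z0 ∈ M.divisors, ∑ z0' ∈ M.divisors,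
          ∑ κ ∈ KK z0, ∑ κ' ∈ KK' z0', W z z' z0 z0' κ κ'
        = ∑ z ∈ M.divisors, ∑ z0 ∈ M.divisors, ∑ z0' ∈ M.divisors, ∑ κ ∈ KK z0,
            ∑ κ' ∈ KK' z0', ∑ z' ∈ M.divisors, W z z' z0 z0' κ κ' := by
          refine Finset.sum_congr rfl fun z _ => ?_
          rw [Finset.sum_comm]
          refine Finset.sum_congr rfl fun z0 _ => ?_
          rw [Finset.sum_comm]
          refine Finset.sum_congr rfl fun z0' _ => ?_
          rw [Finset.sum_comm]
          refine Finset.sum_congr rfl fun κ _ => ?_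
          rw [Finset.sum_comm]
      _ = _ := by
          rw [Finset.sum_comm]
          refine Finset.sum_congr rfl fun z0 _ => ?_
          rw [Finset.sum_comm]
          refine Finset.sum_congr rfl fun z0' _ => ?_
          rw [Finset.sum_comm]
          refine Finset.sum_congr rfl fun κ _ => ?_
          rw [Finset.sum_comm]
  rw [step2]
  refine Finset.sum_le_sum fun z0 hz0 => Finset.sum_le_sum fun z0' hz0' => ?_
  have n0 := nu_nonneg M z0
  have n0' := nu_nonneg M z0'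
  -- one quadruple, summed over z, z'
  have step3 : ∀ κ κ', ∑ z ∈ M.divisors, ∑ z' ∈ M.divisors, W z z' z0 z0' κ κ' ≤
      if R z0 z0' then (Nat.gcd z0 z0' : ℝ) * nu M z0 * nu M z0' *
        ((if κ * z0 ∣ M then f (κ * z0) / (κ.totient : ℝ) else 0) *
          (if κ' * z0' ∣ M then g (κ' * z0') / (κ'.totient : ℝ) else 0)) else 0 := by
    intro κ κ'
    by_cases hR : R z0 z0'
    · rw [if_pos hR]
      by_cases hd : κ * z0 ∣ M
      · by_cases hd' : κ' * z0' ∣ M
        · rw [if_pos hd, if_pos hd']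
          have e : ∑ z ∈ M.divisors, ∑ z' ∈ M.divisors, W z z' z0 z0' κ κ' =
              W (κ * z0) (κ' * z0') z0 z0' κ κ' := by
            rw [Finset.sum_eq_single (κ * z0)]
            · rw [Finset.sum_eq_single (κ' * z0')]
              · intro z' _ hne
                simp only [W]
                rw [if_neg (fun h => hne h.2.1)]
              · intro hc
                exact absurd (Nat.mem_divisors.2 ⟨hd', hM.ne'⟩) hc
            · intro z _ hne
              refine Finset.sum_eq_zero fun z' _ => ?_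
              simp only [W]
              rw [if_neg (fun h => hne h.1)]
            · intro hc
              exact absurd (Nat.mem_divisors.2 ⟨hd, hM.ne'⟩) hc
          rw [e]
          simp only [W]
          rw [if_pos ⟨trivial, trivial, hR⟩]
          have a1 := nu_mul_le hM hd
          have a2 := nu_mul_le hM hd'
          have b1 := nu_nonneg M (κ * z0)
          have b2 := nu_nonneg M (κ' * z0')
          have c1 := hf (κ * z0)
          have c2 := hg (κ' * z0')
          have d1 : 0 ≤ nu M z0 / (κ.totient : ℝ) := by positivity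
          calc (Nat.gcd z0 z0' : ℝ) * nu M (κ * z0) * nu M (κ' * z0') *
                (f (κ * z0) * g (κ' * z0'))
              ≤ (Nat.gcd z0 z0' : ℝ) * (nu M z0 / (κ.totient : ℝ)) *
                (nu M z0' / (κ'.totient : ℝ)) * (f (κ * z0) * g (κ' * z0')) := by
                gcongr
            _ = _ := by
                simp only [div_eq_mul_inv]
                ring
        · -- the second word does not divide M
          rw [if_neg hd', mul_zero, mul_zero]
          refine (Finset.sum_nonpos fun z _ => Finset.sum_nonpos fun z' hz' => ?_)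
          simp only [W]
          rw [if_neg]
          rintro ⟨_, h2, _⟩
          exact hd' (h2 ▸ Nat.dvd_of_mem_divisors hz')
      · rw [if_neg hd, zero_mul, mul_zero]
        refine (Finset.sum_nonpos fun z hz => Finset.sum_nonpos fun z' _ => ?_)
        simp only [W]
        rw [if_neg]
        rintro ⟨h1, _, _⟩
        exact hd (h1 ▸ Nat.dvd_of_mem_divisors hz)
    · rw [if_neg hR]
      refine (Finset.sum_nonpos fun z _ => Finset.sum_nonpos fun z' _ => ?_)
      simp only [W]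
      rw [if_neg (fun h => hR h.2.2)]
  refine (Finset.sum_le_sum fun κ _ => Finset.sum_le_sum fun κ' _ => step3 κ κ').trans ?_
  by_cases hR : R z0 z0'
  · simp only [if_pos hR]
    unfold G
    rw [Finset.sum_mul_sum, Finset.mul_sum]
    refine le_of_eq (Finset.sum_congr rfl fun κ _ => ?_)
    rw [Finset.mul_sum]
  · simp [hR]

open Classical in
/-- the same with `Basex935.frm` -/
theorem twist_frm {M : ℕ} (hM : 0 < M) (KK KK' : ℕ → Finset ℕ) (R : ℕ → ℕ → Prop)
    (f g : ℕ → ℝ) (hf : ∀ b, 0 ≤ f b) (hg : ∀ b, 0 ≤ g b) :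
    frm M (fun z z' => if Tw KK KK' R z z' then f z * g z' else 0) ≤
    frm M (fun z z' => if R z z' then G M KK f z * G M KK' g z' else 0) := by
  have h := twist_sum hM KK KK' R f g hf hg
  have e : ∀ (P : ℕ → ℕ → Prop) (u v : ℕ → ℝ),
      frm M (fun z z' => if P z z' then u z * v z' else 0) =
      ∑ z ∈ M.divisors, ∑ z' ∈ M.divisors,
      (if P z z' then (Nat.gcd z z' : ℝ) * nu M z * nu M z' * (u z * v z') else 0) := by
    intro P u v
    unfold frm
    refine Finset.sum_congr rfl fun z _ => Finset.sum_congr rfl fun z' _ => ?_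
    by_cases hP : P z z'
    · simp only [hP, if_true]
    · simp only [hP, if_false, mul_zero]
  rw [e, e]
  exact h

/-! ### The norm of `G` -/

lemma sum_swap_dvd {M : ℕ} (hM : 0 < M) (KK : ℕ → Finset ℕ) (H : ℕ → ℕ → ℝ) :
    ∑ z ∈ M.divisors, ∑ κ ∈ KK z, (if κ * z ∣ M then H κ (κ * z) else 0) =
    ∑ z ∈ M.divisors, ∑ κ ∈ z.divisors.filter (fun κ => κ ∈ KK (z / κ)), H κ z := by
  classical
  calc ∑ z ∈ M.divisors, ∑ κ ∈ KK z, (if κ * z ∣ M then H κ (κ * z) else 0)
      = ∑ x ∈ (M.divisors.sigma fun z => (KK z).filter (fun κ => κ * z ∣ M)),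
          H x.2 (x.2 * x.1) := by
        rw [Finset.sum_sigma]
        refine Finset.sum_congr rfl fun z _ => ?_
        rw [Finset.sum_filter]
    _ = ∑ x ∈ (M.divisors.sigma fun z => z.divisors.filter (fun κ => κ ∈ KK (z / κ))),
          H x.2 x.1 := by
        refine Finset.sum_bij' (fun x _ => ⟨x.2 * x.1, x.2⟩) (fun x _ => ⟨x.1 / x.2, x.2⟩)
          ?_ ?_ ?_ ?_ ?_
        · rintro ⟨z, κ⟩ hx
          simp only [Finset.mem_sigma, Finset.mem_filter, Nat.mem_divisors] at hx ⊢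
          obtain ⟨⟨_, _⟩, h3, h4⟩ := hx
          have hne : κ * z ≠ 0 := (Nat.pos_of_dvd_of_pos h4 hM).ne'
          have hκ : 0 < κ := Nat.pos_of_ne_zero (left_ne_zero_of_mul hne)
          refine ⟨⟨h4, hM.ne'⟩, ⟨Dvd.intro _ rfl, hne⟩, ?_⟩
          rw [Nat.mul_div_cancel_left z hκ]
          exact h3
        · rintro ⟨z, κ⟩ hx
          simp only [Finset.mem_sigma, Finset.mem_filter, Nat.mem_divisors] at hx ⊢
          obtain ⟨⟨h1, _⟩, ⟨h2, h3⟩, h4⟩ := hx
          refine ⟨⟨(Nat.div_dvd_of_dvd h2).trans h1, hM.ne'⟩, h4, ?_⟩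
          rw [Nat.mul_div_cancel' h2]
          exact h1
        · rintro ⟨z, κ⟩ hx
          simp only [Finset.mem_sigma, Finset.mem_filter, Nat.mem_divisors] at hx ⊢
          obtain ⟨⟨_, _⟩, h3, h4⟩ := hx
          have hne : κ * z ≠ 0 := (Nat.pos_of_dvd_of_pos h4 hM).ne'
          have hκ : 0 < κ := Nat.pos_of_ne_zero (left_ne_zero_of_mul hne)
          rw [Nat.mul_div_cancel_left z hκ]
        · rintro ⟨z, κ⟩ hx
          simp only [Finset.mem_sigma, Finset.mem_filter, Nat.mem_divisors] at hx ⊢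
          obtain ⟨⟨h1, _⟩, ⟨h2, h3⟩, h4⟩ := hx
          rw [Nat.mul_div_cancel' h2]
        · rintro ⟨z, κ⟩ _
          rfl
    _ = _ := by rw [Finset.sum_sigma]

/-- **Norm of the twisted function.** -/
theorem twist_norm {M : ℕ} (hM : 0 < M) (KK : ℕ → Finset ℕ) (f : ℕ → ℝ)
    {N : ℕ} {ω : ℝ} (hN : ∀ z, z ∣ M → (KK z).card ≤ N)
    (hω : ∀ z, z ∣ M → ∑ κ ∈ z.divisors.filter (fun κ => κ ∈ KK (z / κ)),
      (κ : ℝ) / (κ.totient : ℝ) ^ 2 ≤ ω) :
    ∑ z ∈ M.divisors, nu M z * G M KK f z ^ 2 ≤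
      N * ω * ∑ z ∈ M.divisors, nu M z * f z ^ 2 := by
  classical
  have h1 : ∀ z ∈ M.divisors, nu M z * G M KK f z ^ 2 ≤
      N * ∑ κ ∈ KK z, (if κ * z ∣ M then
        (κ : ℝ) / (κ.totient : ℝ) ^ 2 * (nu M (κ * z) * f (κ * z) ^ 2) else 0) := by
    intro z hz
    have hzM := Nat.dvd_of_mem_divisors hz
    have hn := nu_nonneg M z
    have hcs : G M KK f z ^ 2 ≤ (KK z).card * ∑ κ ∈ KK z,
        (if κ * z ∣ M then f (κ * z) / (κ.totient : ℝ) else 0) ^ 2 := by
      unfold G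
      exact sq_sum_le_card_mul_sum_sq
    have hs0 : 0 ≤ ∑ κ ∈ KK z,
        (if κ * z ∣ M then f (κ * z) / (κ.totient : ℝ) else 0) ^ 2 :=
      Finset.sum_nonneg fun _ _ => sq_nonneg _
    have hNR : ((KK z).card : ℝ) ≤ N := by exact_mod_cast hN z hzM
    calc nu M z * G M KK f z ^ 2
        ≤ nu M z * (N * ∑ κ ∈ KK z,
            (if κ * z ∣ M then f (κ * z) / (κ.totient : ℝ) else 0) ^ 2) :=
          mul_le_mul_of_nonneg_left (hcs.trans (mul_le_mul_of_nonneg_right hNR hs0)) hn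
      _ = N * ∑ κ ∈ KK z, nu M z *
            (if κ * z ∣ M then f (κ * z) / (κ.totient : ℝ) else 0) ^ 2 := by
          rw [← Finset.mul_sum]; ring
      _ ≤ _ := by
          refine mul_le_mul_of_nonneg_left (Finset.sum_le_sum fun κ _ => ?_) (by positivity)
          split_ifs with hd
          · have a := nu_le_mul hM hd
            have hsq : 0 ≤ (f (κ * z) / (κ.totient : ℝ)) ^ 2 := sq_nonneg _
            calc nu M z * (f (κ * z) / (κ.totient : ℝ)) ^ 2
                ≤ ((κ : ℝ) * nu M (κ * z)) * (f (κ * z) / (κ.totient : ℝ)) ^ 2 :=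
                  mul_le_mul_of_nonneg_right a hsq
              _ = _ := by
                  rw [div_pow]
                  ring
          · simp
  refine (Finset.sum_le_sum h1).trans ?_
  rw [← Finset.mul_sum, mul_assoc]
  refine mul_le_mul_of_nonneg_left ?_ (by positivity)
  rw [sum_swap_dvd hM KK (fun κ z => (κ : ℝ) / (κ.totient : ℝ) ^ 2 * (nu M z * f z ^ 2)),
    Finset.mul_sum]
  refine Finset.sum_le_sum fun z hz => ?_
  have hzM := Nat.dvd_of_mem_divisors hz
  rw [← Finset.sum_mul]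
  exact mul_le_mul_of_nonneg_right (hω z hzM) (mul_nonneg (nu_nonneg M z) (sq_nonneg _))

/-! ### Explicit constants -/

lemma prod_le_card {S : Finset ℕ} (hS : ∀ p ∈ S, 2 ≤ p) :
    ∏ p ∈ S, p ≤ (S.card + 1) * ∏ p ∈ S, (p - 1) := by
  classical
  induction S using Finset.induction_on_max with
  | empty => simp
  | insert m S' hm ih =>
    have hnot : m ∉ S' := fun h => lt_irrefl _ (hm m h)
    have hm2 : 2 ≤ m := hS m (Finset.mem_insert_self _ _)
    have hcard : S'.card + 2 ≤ m := by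
      have h1 : S' ⊆ Finset.Ico 2 m := fun x hx =>
        Finset.mem_Ico.2 ⟨hS x (Finset.mem_insert_of_mem hx), hm x hx⟩
      have h2 := Finset.card_le_card h1
      rw [Nat.card_Ico] at h2
      omega
    have ih' := ih fun p hp => hS p (Finset.mem_insert_of_mem hp)
    rw [Finset.prod_insert hnot, Finset.prod_insert hnot, Finset.card_insert_of_notMem hnot]
    obtain ⟨j, rfl⟩ := Nat.exists_eq_add_of_le hcard
    have e : S'.card + 2 + j - 1 = S'.card + 1 + j := by omega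
    rw [e]
    calc (S'.card + 2 + j) * ∏ p ∈ S', p
        ≤ (S'.card + 2 + j) * ((S'.card + 1) * ∏ p ∈ S', (p - 1)) := Nat.mul_le_mul_left _ ih'
      _ = ((S'.card + 2 + j) * (S'.card + 1)) * ∏ p ∈ S', (p - 1) := by ring
      _ ≤ ((S'.card + 1 + 1) * (S'.card + 1 + j)) * ∏ p ∈ S', (p - 1) := by
          refine Nat.mul_le_mul_right _ ?_
          nlinarith
      _ = _ := by ring

/-- `κ ≤ φ(κ) (1 + log₂ κ)` -/
lemma le_totient_mul (κ : ℕ) : κ ≤ κ.totient * (Nat.log 2 κ + 1) := by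
  rcases Nat.eq_zero_or_pos κ with h0 | h0
  · simp [h0]
  have h1 := Nat.totient_mul_prod_primeFactors κ
  have h2 : ∏ p ∈ κ.primeFactors, p ≤
      (κ.primeFactors.card + 1) * ∏ p ∈ κ.primeFactors, (p - 1) :=
    prod_le_card fun p hp => (Nat.prime_of_mem_primeFactors hp).two_le
  have h3 : 0 < ∏ p ∈ κ.primeFactors, (p - 1) :=
    Finset.prod_pos fun p hp => Nat.sub_pos_of_lt (Nat.prime_of_mem_primeFactors hp).one_lt
  have h4 : κ.primeFactors.card ≤ Nat.log 2 κ := by
    refine Nat.le_log_of_pow_le (by norm_num) ?_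
    calc 2 ^ κ.primeFactors.card = ∏ _p ∈ κ.primeFactors, 2 := by rw [Finset.prod_const]
      _ ≤ ∏ p ∈ κ.primeFactors, p :=
          Finset.prod_le_prod' fun p hp => (Nat.prime_of_mem_primeFactors hp).two_le
      _ ≤ κ := Nat.le_of_dvd h0 (Nat.prod_primeFactors_dvd κ)
  have h5 : κ * ∏ p ∈ κ.primeFactors, (p - 1) ≤
      (κ.totient * (Nat.log 2 κ + 1)) * ∏ p ∈ κ.primeFactors, (p - 1) := by
    rw [← h1]
    calc κ.totient * ∏ p ∈ κ.primeFactors, p
        ≤ κ.totient * ((κ.primeFactors.card + 1) * ∏ p ∈ κ.primeFactors, (p - 1)) :=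
          Nat.mul_le_mul_left _ h2
      _ ≤ κ.totient * ((Nat.log 2 κ + 1) * ∏ p ∈ κ.primeFactors, (p - 1)) := by gcongr
      _ = _ := by ring
  exact Nat.le_of_mul_le_mul_right h5 h3

/-- `κ/φ(κ)² ≤ (1 + log₂ K1)² / K0` for `K0 ≤ κ ≤ K1` -/
lemma weight_le {κ K1 : ℕ} {K0 : ℝ} (hK0 : 0 < K0) (h0 : K0 ≤ κ) (h1 : κ ≤ K1) :
    (κ : ℝ) / (κ.totient : ℝ) ^ 2 ≤ ((Nat.log 2 K1 : ℝ) + 1) ^ 2 / K0 := by
  have hκR : (0 : ℝ) < κ := lt_of_lt_of_le hK0 h0
  have hκ : 0 < κ := by exact_mod_cast hκR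
  have hφ : 0 < κ.totient := Nat.totient_pos.2 hκ
  have hφR : (0 : ℝ) < (κ.totient : ℝ) := by exact_mod_cast hφ
  have hl : (κ : ℝ) ≤ (κ.totient : ℝ) * ((Nat.log 2 K1 : ℝ) + 1) := by
    have h2 := le_totient_mul κ
    have h3 : Nat.log 2 κ ≤ Nat.log 2 K1 := Nat.log_mono_right h1
    have h4 : κ ≤ κ.totient * (Nat.log 2 K1 + 1) := h2.trans (Nat.mul_le_mul_left _ (by omega))
    exact_mod_cast h4
  rw [div_le_div_iff₀ (by positivity) hK0]
  calc (κ : ℝ) * K0 ≤ κ * κ := mul_le_mul_of_nonneg_left h0 hκR.le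
    _ ≤ ((κ.totient : ℝ) * ((Nat.log 2 K1 : ℝ) + 1)) * ((κ.totient : ℝ) * ((Nat.log 2 K1 : ℝ) + 1)) :=
        mul_le_mul hl hl hκR.le (by positivity)
    _ = _ := by ring

/-- **Explicit norm bound**: at most `N` twists per word, all between `K0` and `K1`. -/
theorem twist_norm' {M : ℕ} (hM : 0 < M) (KK : ℕ → Finset ℕ) (f : ℕ → ℝ)
    {N N' K1 : ℕ} {K0 : ℝ} (hK0 : 0 < K0)
    (hN : ∀ z, z ∣ M → (KK z).card ≤ N)
    (hN' : ∀ z, z ∣ M → (z.divisors.filter (fun κ => κ ∈ KK (z / κ))).card ≤ N')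
    (hK : ∀ z, z ∣ M → ∀ κ ∈ KK z, K0 ≤ κ ∧ κ ≤ K1) :
    ∑ z ∈ M.divisors, nu M z * G M KK f z ^ 2 ≤
      N * (N' * (((Nat.log 2 K1 : ℝ) + 1) ^ 2 / K0)) * ∑ z ∈ M.divisors, nu M z * f z ^ 2 := by
  refine twist_norm hM KK f hN fun z hz => ?_
  have h1 : ∀ κ ∈ z.divisors.filter (fun κ => κ ∈ KK (z / κ)),
      (κ : ℝ) / (κ.totient : ℝ) ^ 2 ≤ ((Nat.log 2 K1 : ℝ) + 1) ^ 2 / K0 := by
    intro κ hκ
    rw [Finset.mem_filter, Nat.mem_divisors] at hκ
    have hd : z / κ ∣ M := (Nat.div_dvd_of_dvd hκ.1.1).trans hz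
    exact weight_le hK0 (hK _ hd κ hκ.2).1 (hK _ hd κ hκ.2).2
  have h2 := Finset.sum_le_card_nsmul _ _ _ h1
  rw [nsmul_eq_mul] at h2
  refine h2.trans ?_
  have h3 : ((z.divisors.filter (fun κ => κ ∈ KK (z / κ))).card : ℝ) ≤ N' := by
    exact_mod_cast hN' z hz
  exact mul_le_mul_of_nonneg_right h3 (by positivity)

/-! ### From the quadratic to the bilinear form -/

open Classical in
/-- a quadratic `L²` bound for a pair relation (any kernel `Kn ≥ 0`) gives the bilinear one,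
constant times 4 -/
theorem bilin_of_quad {M : ℕ} {P : ℕ → ℕ → Prop} {Kn : ℕ → ℕ → ℝ} (hKn : ∀ b c, 0 ≤ Kn b c)
    {C : ℝ} (hC : 0 ≤ C)
    (hq : ∀ h : ℕ → ℝ, (∀ b, 0 ≤ h b) →
      ∑ b ∈ M.divisors, ∑ c ∈ M.divisors, (if P b c then Kn b c * (h b * h c) else 0) ≤
        C * ∑ b ∈ M.divisors, nu M b * h b ^ 2)
    (f g : ℕ → ℝ) (hf : ∀ b, 0 ≤ f b) (hg : ∀ b, 0 ≤ g b) :
    ∑ b ∈ M.divisors, ∑ c ∈ M.divisors, (if P b c then Kn b c * (f b * g c) else 0) ≤
      4 * C * (√(∑ b ∈ M.divisors, nu M b * f b ^ 2) *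
        √(∑ b ∈ M.divisors, nu M b * g b ^ 2)) := by
  set A := ∑ b ∈ M.divisors, nu M b * f b ^ 2 with hA
  set B := ∑ b ∈ M.divisors, nu M b * g b ^ 2 with hB
  have hA0 : 0 ≤ A := Finset.sum_nonneg fun b _ => mul_nonneg (nu_nonneg M b) (sq_nonneg _)
  have hB0 : 0 ≤ B := Finset.sum_nonneg fun b _ => mul_nonneg (nu_nonneg M b) (sq_nonneg _)
  -- the bound with a free parameter
  have key : ∀ x : ℝ, 0 < x →
      ∑ b ∈ M.divisors, ∑ c ∈ M.divisors, (if P b c then Kn b c * (f b * g c) else 0) ≤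
        2 * C * (x * A + x⁻¹ * B) := by
    intro x hx
    have hsx : 0 < √x := Real.sqrt_pos.2 hx
    set y := √x with hy
    have hyy : y * y = x := Real.mul_self_sqrt hx.le
    have hyi : y⁻¹ * y⁻¹ = x⁻¹ := by rw [← mul_inv, hyy]
    have hy1 : y * y⁻¹ = 1 := mul_inv_cancel₀ hsx.ne'
    set h : ℕ → ℝ := fun b => y * f b + y⁻¹ * g b with hh
    have hyi0 : 0 ≤ y⁻¹ := inv_nonneg.2 hsx.le
    have hh0 : ∀ b, 0 ≤ h b := fun b => add_nonneg (mul_nonneg hsx.le (hf b))
      (mul_nonneg hyi0 (hg b))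
    refine le_trans (Finset.sum_le_sum fun b _ => Finset.sum_le_sum fun c _ => ?_)
      ((hq h hh0).trans ?_)
    · split_ifs
      · refine mul_le_mul_of_nonneg_left ?_ (hKn b c)
        calc f b * g c = (y * f b) * (y⁻¹ * g c) := by
              rw [show (y * f b) * (y⁻¹ * g c) = (y * y⁻¹) * (f b * g c) by ring, hy1, one_mul]
          _ ≤ h b * h c := by
              simp only [hh]
              refine mul_le_mul (le_add_of_nonneg_right (mul_nonneg hyi0 (hg b)))
                (le_add_of_nonneg_left (mul_nonneg hsx.le (hf c)))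
                (mul_nonneg hyi0 (hg c)) ?_
              exact hh0 b
      · exact le_rfl
    · rw [mul_assoc 2 C, mul_left_comm]
      refine mul_le_mul_of_nonneg_left ?_ hC
      rw [hA, hB, Finset.mul_sum, Finset.mul_sum, ← Finset.sum_add_distrib, Finset.mul_sum]
      refine Finset.sum_le_sum fun b _ => ?_
      have h2 := nu_nonneg M b
      have h3 : h b ^ 2 ≤ 2 * (x * f b ^ 2 + x⁻¹ * g b ^ 2) := by
        simp only [hh]
        rw [← hyi, ← hyy]
        nlinarith [sq_nonneg (y * f b - y⁻¹ * g b)]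
      calc nu M b * h b ^ 2 ≤ nu M b * (2 * (x * f b ^ 2 + x⁻¹ * g b ^ 2)) :=
            mul_le_mul_of_nonneg_left h3 h2
        _ = _ := by ring
  rcases eq_or_lt_of_le hA0 with hA1 | hA1
  · -- A = 0
    rw [← hA1, Real.sqrt_zero, zero_mul, mul_zero]
    refine le_of_forall_pos_le_add fun ε hε => ?_
    rw [zero_add]
    have hx : 0 < 2 * C * B / ε + 1 := by positivity
    refine (key _ hx).trans ?_
    rw [← hA1, mul_zero, zero_add]
    rw [show 2 * C * ((2 * C * B / ε + 1)⁻¹ * B) = (2 * C * B) / (2 * C * B / ε + 1) by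
      rw [div_eq_mul_inv]; ring]
    rw [div_le_iff₀ hx]
    have : ε * (2 * C * B / ε + 1) = 2 * C * B + ε := by field_simp
    rw [this]
    linarith
  rcases eq_or_lt_of_le hB0 with hB1 | hB1
  · rw [← hB1, Real.sqrt_zero, mul_zero, mul_zero]
    refine le_of_forall_pos_le_add fun ε hε => ?_
    rw [zero_add]
    have hx : 0 < ε / (2 * C * A + 1) := by positivity
    refine (key _ hx).trans ?_
    rw [← hB1, mul_zero, add_zero]
    rw [show 2 * C * (ε / (2 * C * A + 1) * A) = ε * ((2 * C * A) / (2 * C * A + 1)) by ring]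
    have : (2 * C * A) / (2 * C * A + 1) ≤ 1 := by
      rw [div_le_one (by positivity)]
      linarith
    calc ε * ((2 * C * A) / (2 * C * A + 1)) ≤ ε * 1 := mul_le_mul_of_nonneg_left this hε.le
      _ = ε := mul_one ε
  · have hsA : 0 < √A := Real.sqrt_pos.2 hA1
    have hsB : 0 < √B := Real.sqrt_pos.2 hB1
    refine (key (√B / √A) (by positivity)).trans (le_of_eq ?_)
    have eA : √A * √A = A := Real.mul_self_sqrt hA0
    have eB : √B * √B = B := Real.mul_self_sqrt hB0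
    have e1 : √B / √A * A = √A * √B := by
      calc √B / √A * A = √B / √A * (√A * √A) := by rw [eA]
        _ = √A * √B := by field_simp
    have e2 : (√B / √A)⁻¹ * B = √A * √B := by
      calc (√B / √A)⁻¹ * B = (√B / √A)⁻¹ * (√B * √B) := by rw [eB]
        _ = √A * √B := by field_simp
    rw [e1, e2]
    ring

open Classical in
/-- **Twisted pure energy** (general centres): `≤ 16 ‖G f‖ ‖G g‖`. -/
theorem twist_pure {M : ℕ} (hM : 0 < M) (KK KK' : ℕ → Finset ℕ) {R : ℕ → ℕ → Prop}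
    (hR : PureL2x232.PureRelC M R) (f g : ℕ → ℝ) (hf : ∀ b, 0 ≤ f b) (hg : ∀ b, 0 ≤ g b) :
    frm M (fun z z' => if Tw KK KK' R z z' then f z * g z' else 0) ≤
      16 * (√(∑ z ∈ M.divisors, nu M z * G M KK f z ^ 2) *
        √(∑ z ∈ M.divisors, nu M z * G M KK' g z ^ 2)) := by
  refine (twist_frm hM KK KK' R f g hf hg).trans ?_
  have e : ∀ (u v : ℕ → ℝ), frm M (fun z z' => if R z z' then u z * v z' else 0) =
      ∑ z ∈ M.divisors, ∑ z' ∈ M.divisors,
      (if R z z' then ((Nat.gcd z z' : ℝ) * nu M z * nu M z') * (u z * v z') else 0) := by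
    intro u v
    unfold frm
    refine Finset.sum_congr rfl fun z _ => Finset.sum_congr rfl fun z' _ => ?_
    by_cases hP : R z z'
    · simp only [hP, if_true]
    · simp only [hP, if_false, mul_zero]
  rw [e]
  have h := bilin_of_quad (M := M) (P := R)
    (Kn := fun b c => (Nat.gcd b c : ℝ) * nu M b * nu M c)
    (fun b c => mul_nonneg (mul_nonneg (by positivity) (nu_nonneg M b)) (nu_nonneg M c))
    (C := 4) (by norm_num) (fun h hh => by rw [← e]; exact PureL2x232.pure_energyC' hR h hh)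
    (G M KK f) (G M KK' g) (G_nonneg hf) (G_nonneg hg)
  refine h.trans (le_of_eq ?_)
  ring

end Crest.Agent.R4C.Twistx662
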