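import Crest.Agent.R4C.AsmLev_946
import Crest.Agent.R4C.Twist_662

/-!
# Row 4, class (L): weighted set bounds, twists, assembly (helper662)

Notes 3121, 3330 (section 6), 3174.

* `WBd M W E` : `∑_{z ∈ S, z' ∈ S'} gcd ν ν W(z,z') ≤ E (ν S ν S')^(1/2)` for all sets of divisors of
  `M` (kernel form of 946's `SetBd`; `W ≥ 0` = boost weight);
  `WBd.mono`, `add`, `sum`, `smul`, `of_setBd`.
* `twist_sumW` : `Twistx662.twist_sum` with weights.
* `WBd.twist`  : the twisted kernel (`z = κ z0`, `z' = κ' z0'`, `κ ∈ KK z0`, `κ' ∈ KK' z0'`) from the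
  untwisted one: constants `N` (twists per word), `[K0, K1]` (size of the twists), `N'` (twists
  below a word).
* `asmW` : `asm_levels` of `AsmLev_946` for an arbitrary finite index set and weights.
-/

set_option autoImplicit false

open Finset
open Crest.Agent.R4C.Basex935 Crest.Agent.R4C.Twistx662 Crest.Agent.R4C.AsmLevx946
  Crest.Agent.R4C.Asmx946

namespace Crest.Agent.R4C.LTwx662

/-- bilinear bound for sets with a weight -/
def WBd (M : ℕ) (W : ℕ → ℕ → ℝ) (E : ℝ) : Prop :=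
  ∀ S S' : Finset ℕ, S ⊆ M.divisors → S' ⊆ M.divisors →
    ∑ z ∈ S, ∑ z' ∈ S', (Nat.gcd z z' : ℝ) * nu M z * nu M z' * W z z' ≤
      E * √((∑ z ∈ S, nu M z) * ∑ z ∈ S', nu M z)

namespace WBd

variable {M : ℕ} {W W' : ℕ → ℕ → ℝ} {E E' : ℝ}

lemma mono (h : WBd M W E) (hW : ∀ z z', z ∣ M → z' ∣ M → W' z z' ≤ W z z') (hE : E ≤ E') :
    WBd M W' E' := by
  intro S S' hS hS'
  refine le_trans ?_ ((h S S' hS hS').trans (mul_le_mul_of_nonneg_right hE (Real.sqrt_nonneg _)))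
  refine Finset.sum_le_sum fun z hz => Finset.sum_le_sum fun z' hz' => ?_
  exact mul_le_mul_of_nonneg_left (hW z z' (Nat.mem_divisors.1 (hS hz)).1
    (Nat.mem_divisors.1 (hS' hz')).1) (term_nonneg M z z')

lemma add (h : WBd M W E) (h' : WBd M W' E') : WBd M (fun z z' => W z z' + W' z z') (E + E') := by
  intro S S' hS hS'
  rw [add_mul]
  refine le_trans (le_of_eq ?_) (add_le_add (h S S' hS hS') (h' S S' hS hS'))
  rw [← Finset.sum_add_distrib]
  refine Finset.sum_congr rfl fun z _ => ?_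
  rw [← Finset.sum_add_distrib]
  exact Finset.sum_congr rfl fun z' _ => by ring

lemma zero (M : ℕ) : WBd M (fun _ _ => 0) 0 := by
  intro S S' _ _
  simp

lemma sum {τ : Type*} {T : Finset τ} {V : τ → ℕ → ℕ → ℝ} {ε : τ → ℝ}
    (h : ∀ t ∈ T, WBd M (V t) (ε t)) :
    WBd M (fun z z' => ∑ t ∈ T, V t z z') (∑ t ∈ T, ε t) := by
  classical
  induction T using Finset.induction_on with
  | empty => simpa using zero M
  | insert a T ha ih =>
    have h1 := (h a (Finset.mem_insert_self _ _)).add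
      (ih fun t ht => h t (Finset.mem_insert_of_mem ht))
    refine h1.mono (fun z z' _ _ => ?_) ?_
    · rw [Finset.sum_insert ha]
    · rw [Finset.sum_insert ha]

lemma smul (h : WBd M W E) {a : ℝ} (ha : 0 ≤ a) : WBd M (fun z z' => a * W z z') (a * E) := by
  intro S S' hS hS'
  have h1 := mul_le_mul_of_nonneg_left (h S S' hS hS') ha
  rw [Finset.mul_sum] at h1
  calc _ = ∑ z ∈ S, a * ∑ z' ∈ S', (Nat.gcd z z' : ℝ) * nu M z * nu M z' * W z z' := by
        refine Finset.sum_congr rfl fun z _ => ?_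
        rw [Finset.mul_sum]
        exact Finset.sum_congr rfl fun z' _ => by ring
    _ ≤ _ := h1
    _ = _ := by ring

open Classical in
lemma of_setBd {R : ℕ → ℕ → Prop} (h : SetBd M R E) :
    WBd M (fun z z' => if R z z' then 1 else 0) E := by
  intro S S' hS hS'
  refine le_trans (le_of_eq ?_) (h S S' hS hS')
  refine Finset.sum_congr rfl fun z _ => Finset.sum_congr rfl fun z' _ => ?_
  by_cases hR : R z z'
  · simp only [hR, if_true, mul_one]
  · simp only [hR, if_false, mul_zero]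

end WBd

/-! ### Twists with weights -/

/-- **Twisted energy with weights ≤ untwisted energy of the functions `G`.** -/
theorem twist_sumW {M : ℕ} (hM : 0 < M) (KK KK' : ℕ → Finset ℕ) {W W0 : ℕ → ℕ → ℝ}
    (hW0 : ∀ z z', 0 ≤ W0 z z')
    (hW : ∀ z z', z ∣ M → z' ∣ M → W z z' ≤ 0 ∨ ∃ κ κ' z0 z0' : ℕ, z = κ * z0 ∧ z' = κ' * z0' ∧
      κ ∈ KK z0 ∧ κ' ∈ KK' z0' ∧ Nat.gcd z z' ≤ Nat.gcd z0 z0' ∧ W z z' ≤ W0 z0 z0')
    (f g : ℕ → ℝ) (hf : ∀ b, 0 ≤ f b) (hg : ∀ b, 0 ≤ g b) :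
    ∑ z ∈ M.divisors, ∑ z' ∈ M.divisors,
      (Nat.gcd z z' : ℝ) * nu M z * nu M z' * (f z * g z') * W z z' ≤
    ∑ z ∈ M.divisors, ∑ z' ∈ M.divisors,
      (Nat.gcd z z' : ℝ) * nu M z * nu M z' * (G M KK f z * G M KK' g z') * W0 z z' := by
  classical
  -- the term of one quadruple
  let U : ℕ → ℕ → ℕ → ℕ → ℕ → ℕ → ℝ := fun z z' z0 z0' κ κ' =>
    if z = κ * z0 ∧ z' = κ' * z0' then
      (Nat.gcd z0 z0' : ℝ) * nu M z * nu M z' * (f z * g z') * W0 z0 z0' else 0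
  have hU0 : ∀ z z' z0 z0' κ κ', 0 ≤ U z z' z0 z0' κ κ' := by
    intro z z' z0 z0' κ κ'
    simp only [U]
    split_ifs
    · have h1 := nu_nonneg M z
      have h2 := nu_nonneg M z'
      have h3 := hf z
      have h4 := hg z'
      have h5 := hW0 z0 z0'
      positivity
    · exact le_rfl
  have step1 : ∀ z ∈ M.divisors, ∀ z' ∈ M.divisors,
      (Nat.gcd z z' : ℝ) * nu M z * nu M z' * (f z * g z') * W z z' ≤
      ∑ z0 ∈ M.divisors, ∑ z0' ∈ M.divisors, ∑ κ ∈ KK z0, ∑ κ' ∈ KK' z0', U z z' z0 z0' κ κ' := by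
    intro z hz z' hz'
    have hzM := Nat.dvd_of_mem_divisors hz
    have hzM' := Nat.dvd_of_mem_divisors hz'
    have a1 := nu_nonneg M z
    have a2 := nu_nonneg M z'
    have a3 := hf z
    have a4 := hg z'
    have a5 : 0 ≤ nu M z * nu M z' * (f z * g z') := by positivity
    rcases hW z z' hzM hzM' with h | h
    · refine le_trans ?_ (Finset.sum_nonneg fun _ _ => Finset.sum_nonneg fun _ _ =>
        Finset.sum_nonneg fun _ _ => Finset.sum_nonneg fun _ _ => hU0 _ _ _ _ _ _)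
      exact mul_nonpos_of_nonneg_of_nonpos (by positivity) h
    · obtain ⟨κ, κ', z0, z0', e1, e2, h1, h2, h3, h4⟩ := h
      have hd : z0 ∣ M := (Dvd.intro_left κ e1.symm).trans hzM
      have hd' : z0' ∣ M := (Dvd.intro_left κ' e2.symm).trans hzM'
      have hm : z0 ∈ M.divisors := Nat.mem_divisors.2 ⟨hd, hM.ne'⟩
      have hm' : z0' ∈ M.divisors := Nat.mem_divisors.2 ⟨hd', hM.ne'⟩
      have hle : (Nat.gcd z z' : ℝ) ≤ (Nat.gcd z0 z0' : ℝ) := by exact_mod_cast h3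
      have a6 := hW0 z0 z0'
      calc (Nat.gcd z z' : ℝ) * nu M z * nu M z' * (f z * g z') * W z z'
          ≤ (Nat.gcd z z' : ℝ) * nu M z * nu M z' * (f z * g z') * W0 z0 z0' :=
            mul_le_mul_of_nonneg_left h4 (by positivity)
        _ = (Nat.gcd z z' : ℝ) * (nu M z * nu M z' * (f z * g z') * W0 z0 z0') := by ring
        _ ≤ (Nat.gcd z0 z0' : ℝ) * (nu M z * nu M z' * (f z * g z') * W0 z0 z0') :=
            mul_le_mul_of_nonneg_right hle (mul_nonneg a5 a6)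
        _ = U z z' z0 z0' κ κ' := by
            simp only [U]
            rw [if_pos ⟨e1, e2⟩]
            ring
        _ ≤ ∑ κ' ∈ KK' z0', U z z' z0 z0' κ κ' :=
            Finset.single_le_sum (f := fun κ' => U z z' z0 z0' κ κ') (fun _ _ => hU0 _ _ _ _ _ _) h2
        _ ≤ ∑ κ ∈ KK z0, ∑ κ' ∈ KK' z0', U z z' z0 z0' κ κ' :=
            Finset.single_le_sum (f := fun κ => ∑ κ' ∈ KK' z0', U z z' z0 z0' κ κ')
              (fun _ _ => Finset.sum_nonneg fun _ _ => hU0 _ _ _ _ _ _) h1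
        _ ≤ ∑ z0' ∈ M.divisors, ∑ κ ∈ KK z0, ∑ κ' ∈ KK' z0', U z z' z0 z0' κ κ' :=
            Finset.single_le_sum
              (f := fun z0' => ∑ κ ∈ KK z0, ∑ κ' ∈ KK' z0', U z z' z0 z0' κ κ')
              (fun _ _ => Finset.sum_nonneg fun _ _ => Finset.sum_nonneg fun _ _ =>
                hU0 _ _ _ _ _ _) hm'
        _ ≤ _ :=
            Finset.single_le_sum
              (f := fun z0 => ∑ z0' ∈ M.divisors, ∑ κ ∈ KK z0, ∑ κ' ∈ KK' z0',
                U z z' z0 z0' κ κ')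
              (fun _ _ => Finset.sum_nonneg fun _ _ => Finset.sum_nonneg fun _ _ =>
                Finset.sum_nonneg fun _ _ => hU0 _ _ _ _ _ _) hm
  refine (Finset.sum_le_sum fun z hz => Finset.sum_le_sum fun z' hz' => step1 z hz z' hz').trans ?_
  have step2 : ∑ z ∈ M.divisors, ∑ z' ∈ M.divisors, ∑ z0 ∈ M.divisors, ∑ z0' ∈ M.divisors,
        ∑ κ ∈ KK z0, ∑ κ' ∈ KK' z0', U z z' z0 z0' κ κ' =
      ∑ z0 ∈ M.divisors, ∑ z0' ∈ M.divisors, ∑ κ ∈ KK z0, ∑ κ' ∈ KK' z0',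
        ∑ z ∈ M.divisors, ∑ z' ∈ M.divisors, U z z' z0 z0' κ κ' := by
    calc ∑ z ∈ M.divisors, ∑ z' ∈ M.divisors, ∑ z0 ∈ M.divisors, ∑ z0' ∈ M.divisors,
          ∑ κ ∈ KK z0, ∑ κ' ∈ KK' z0', U z z' z0 z0' κ κ'
        = ∑ z ∈ M.divisors, ∑ z0 ∈ M.divisors, ∑ z0' ∈ M.divisors, ∑ κ ∈ KK z0,
            ∑ κ' ∈ KK' z0', ∑ z' ∈ M.divisors, U z z' z0 z0' κ κ' := by
          refine Finset.sum_congr rfl fun z _ => ?_
          rw [Finset.sum_comm]
          refine Finset.sum_congr rfl fun z0 _ => ?_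
          rw [Finset.sum_comm]
          refine Finset.sum_congr rfl fun z0' _ => ?_
          rw [Finset.sum_comm]
          refine Finset.sum_congr rfl fun κ _ => ?_
          rw [Finset.sum_comm]
      _ = _ := by
          rw [Finset.sum_comm]
          refine Finset.sum_congr rfl fun z0 _ => ?_
          rw [Finset.sum_comm]
          refine Finset.sum_congr rfl fun z0' _ => ?_
          rw [Finset.sum_comm]
          refine Finset.sum_congr rfl fun κ _ => ?_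
          rw [Finset.sum_comm]
  rw [step2]
  refine Finset.sum_le_sum fun z0 hz0 => Finset.sum_le_sum fun z0' hz0' => ?_
  have n0 := nu_nonneg M z0
  have n0' := nu_nonneg M z0'
  have w0 := hW0 z0 z0'
  have step3 : ∀ κ κ', ∑ z ∈ M.divisors, ∑ z' ∈ M.divisors, U z z' z0 z0' κ κ' ≤
      (Nat.gcd z0 z0' : ℝ) * nu M z0 * nu M z0' *
        ((if κ * z0 ∣ M then f (κ * z0) / (κ.totient : ℝ) else 0) *
          (if κ' * z0' ∣ M then g (κ' * z0') / (κ'.totient : ℝ) else 0)) * W0 z0 z0' := by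
    intro κ κ'
    by_cases hd : κ * z0 ∣ M
    · by_cases hd' : κ' * z0' ∣ M
      · rw [if_pos hd, if_pos hd']
        have e : ∑ z ∈ M.divisors, ∑ z' ∈ M.divisors, U z z' z0 z0' κ κ' =
            U (κ * z0) (κ' * z0') z0 z0' κ κ' := by
          rw [Finset.sum_eq_single (κ * z0)]
          · rw [Finset.sum_eq_single (κ' * z0')]
            · intro z' _ hne
              simp only [U]
              rw [if_neg (fun h => hne h.2)]
            · intro hc
              exact absurd (Nat.mem_divisors.2 ⟨hd', hM.ne'⟩) hc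
          · intro z _ hne
            refine Finset.sum_eq_zero fun z' _ => ?_
            simp only [U]
            rw [if_neg (fun h => hne h.1)]
          · intro hc
            exact absurd (Nat.mem_divisors.2 ⟨hd, hM.ne'⟩) hc
        rw [e]
        simp only [U]
        rw [if_pos ⟨trivial, trivial⟩]
        have a1 := nu_mul_le hM hd
        have a2 := nu_mul_le hM hd'
        have b1 := nu_nonneg M (κ * z0)
        have b2 := nu_nonneg M (κ' * z0')
        have c1 := hf (κ * z0)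
        have c2 := hg (κ' * z0')
        have d1 : 0 ≤ nu M z0 / (κ.totient : ℝ) := by positivity
        calc (Nat.gcd z0 z0' : ℝ) * nu M (κ * z0) * nu M (κ' * z0') *
              (f (κ * z0) * g (κ' * z0')) * W0 z0 z0'
            ≤ (Nat.gcd z0 z0' : ℝ) * (nu M z0 / (κ.totient : ℝ)) *
              (nu M z0' / (κ'.totient : ℝ)) * (f (κ * z0) * g (κ' * z0')) * W0 z0 z0' := by
              gcongr
          _ = _ := by
              simp only [div_eq_mul_inv]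
              ring
      · rw [if_neg hd', mul_zero, mul_zero, zero_mul]
        refine (Finset.sum_nonpos fun z _ => Finset.sum_nonpos fun z' hz' => ?_)
        simp only [U]
        rw [if_neg]
        rintro ⟨_, h2⟩
        exact hd' (h2 ▸ Nat.dvd_of_mem_divisors hz')
    · rw [if_neg hd, zero_mul, mul_zero, zero_mul]
      refine (Finset.sum_nonpos fun z hz => Finset.sum_nonpos fun z' _ => ?_)
      simp only [U]
      rw [if_neg]
      rintro ⟨h1, _⟩
      exact hd (h1 ▸ Nat.dvd_of_mem_divisors hz)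
  refine (Finset.sum_le_sum fun κ _ => Finset.sum_le_sum fun κ' _ => step3 κ κ').trans ?_
  unfold G
  rw [Finset.sum_mul_sum, Finset.mul_sum, Finset.sum_mul]
  refine le_of_eq (Finset.sum_congr rfl fun κ _ => ?_)
  rw [Finset.mul_sum, Finset.sum_mul]

/-- the words below a set -/
noncomputable def dn (M : ℕ) (KK : ℕ → Finset ℕ) (S : Finset ℕ) : Finset ℕ :=
  M.divisors.filter (fun z0 => ∃ κ ∈ KK z0, κ * z0 ∈ S)

lemma G_le_ind {M : ℕ} {KK : ℕ → Finset ℕ} {N K1 : ℕ} {K0 : ℝ}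
    (hK0 : 0 < K0) (hN : ∀ z, z ∣ M → (KK z).card ≤ N)
    (hK : ∀ z, z ∣ M → ∀ κ ∈ KK z, K0 ≤ κ ∧ κ ≤ K1) {S : Finset ℕ} {z : ℕ} (hz : z ∣ M)
    (hM : 0 < M) :
    G M KK (fun b => if b ∈ S then 1 else 0) z ≤
      (N * (((Nat.log 2 K1 : ℝ) + 1) / K0)) * (if z ∈ dn M KK S then 1 else 0) := by
  classical
  have hq : ∀ κ ∈ KK z, (1 : ℝ) / (κ.totient : ℝ) ≤ ((Nat.log 2 K1 : ℝ) + 1) / K0 := by
    intro κ hκ
    obtain ⟨h0, h1⟩ := hK z hz κ hκ
    have hκR : (0 : ℝ) < κ := lt_of_lt_of_le hK0 h0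
    have hκ' : 0 < κ := by exact_mod_cast hκR
    have hφR : (0 : ℝ) < (κ.totient : ℝ) := by exact_mod_cast Nat.totient_pos.2 hκ'
    have h4 : (κ : ℝ) ≤ (κ.totient : ℝ) * ((Nat.log 2 K1 : ℝ) + 1) := by
      have h2 := le_totient_mul κ
      have h3 : Nat.log 2 κ ≤ Nat.log 2 K1 := Nat.log_mono_right h1
      have h4 : κ ≤ κ.totient * (Nat.log 2 K1 + 1) := h2.trans (Nat.mul_le_mul_left _ (by omega))
      exact_mod_cast h4
    rw [div_le_div_iff₀ hφR hK0]
    linarith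
  have hc0 : 0 ≤ ((Nat.log 2 K1 : ℝ) + 1) / K0 := by positivity
  by_cases hzS : z ∈ dn M KK S
  · rw [if_pos hzS, mul_one]
    unfold G
    have h1 : ∀ κ ∈ KK z, (if κ * z ∣ M then (if κ * z ∈ S then (1 : ℝ) else 0) / (κ.totient : ℝ)
        else 0) ≤ ((Nat.log 2 K1 : ℝ) + 1) / K0 := by
      intro κ hκ
      split_ifs
      · exact hq κ hκ
      · simpa using hc0
      · exact hc0
    refine (Finset.sum_le_card_nsmul _ _ _ h1).trans ?_
    rw [nsmul_eq_mul]
    exact mul_le_mul_of_nonneg_right (by exact_mod_cast hN z hz) hc0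
  · rw [if_neg hzS, mul_zero]
    unfold G
    refine le_of_eq (Finset.sum_eq_zero fun κ hκ => ?_)
    have h2 : ¬ κ * z ∈ S := by
      intro h3
      exact hzS (Finset.mem_filter.2 ⟨Nat.mem_divisors.2 ⟨hz, hM.ne'⟩, κ, hκ, h3⟩)
    simp [h2]

lemma nu_dn_le {M : ℕ} (hM : 0 < M) {KK : ℕ → Finset ℕ} {N' K1 : ℕ}
    (hN' : ∀ z, z ∣ M → (z.divisors.filter (fun κ => κ ∈ KK (z / κ))).card ≤ N')
    (hK : ∀ z, z ∣ M → ∀ κ ∈ KK z, κ ≤ K1) {S : Finset ℕ} (hS : S ⊆ M.divisors) :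
    ∑ z ∈ dn M KK S, nu M z ≤ (K1 * N' : ℝ) * ∑ z ∈ S, nu M z := by
  classical
  have h1 : ∑ z ∈ dn M KK S, nu M z ≤ ∑ z ∈ M.divisors, ∑ κ ∈ KK z,
      (if κ * z ∣ M then (if κ * z ∈ S then (K1 : ℝ) * nu M (κ * z) else 0) else 0) := by
    unfold dn
    rw [Finset.sum_filter]
    refine Finset.sum_le_sum fun z hz => ?_
    have hzM := Nat.dvd_of_mem_divisors hz
    have hnn : ∀ κ ∈ KK z, 0 ≤ (if κ * z ∣ M then (if κ * z ∈ S then (K1 : ℝ) * nu M (κ * z) else 0)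
        else 0) := by
      intro κ _
      split_ifs
      · exact mul_nonneg (by positivity) (nu_nonneg _ _)
      · exact le_rfl
      · exact le_rfl
    split_ifs with h
    · obtain ⟨κ, hκ, hκS⟩ := h
      have hd := Nat.dvd_of_mem_divisors (hS hκS)
      refine le_trans ?_ (Finset.single_le_sum hnn hκ)
      rw [if_pos hd, if_pos hκS]
      refine (nu_le_mul hM hd).trans (mul_le_mul_of_nonneg_right ?_ (nu_nonneg _ _))
      exact_mod_cast hK z hzM κ hκ
    · exact Finset.sum_nonneg hnn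
  refine h1.trans ?_
  rw [sum_swap_dvd hM KK (fun _ z => if z ∈ S then (K1 : ℝ) * nu M z else 0)]
  calc ∑ z ∈ M.divisors, ∑ _κ ∈ z.divisors.filter (fun κ => κ ∈ KK (z / κ)),
        (if z ∈ S then (K1 : ℝ) * nu M z else 0)
      ≤ ∑ z ∈ M.divisors, (N' : ℝ) * (if z ∈ S then (K1 : ℝ) * nu M z else 0) := by
        refine Finset.sum_le_sum fun z hz => ?_
        rw [Finset.sum_const, nsmul_eq_mul]
        refine mul_le_mul_of_nonneg_right ?_ ?_
        · exact_mod_cast hN' z (Nat.dvd_of_mem_divisors hz)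
        · split_ifs
          · exact mul_nonneg (by positivity) (nu_nonneg _ _)
          · exact le_rfl
    _ = ∑ z ∈ S, (N' : ℝ) * ((K1 : ℝ) * nu M z) := by
        rw [← Finset.sum_subset hS]
        · refine Finset.sum_congr rfl fun z hz => ?_
          rw [if_pos hz]
        · intro z _ hz
          rw [if_neg hz, mul_zero]
    _ = _ := by
        rw [Finset.mul_sum]
        exact Finset.sum_congr rfl fun z _ => by ring

/-- **The twisted kernel.** -/
theorem WBd.twist {M : ℕ} (hM : 0 < M) {KK KK' : ℕ → Finset ℕ} {W W0 : ℕ → ℕ → ℝ} {E : ℝ}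
    (hE : 0 ≤ E) (h : WBd M W0 E) (hW0 : ∀ z z', 0 ≤ W0 z z')
    (hW : ∀ z z', z ∣ M → z' ∣ M → W z z' ≤ 0 ∨ ∃ κ κ' z0 z0' : ℕ, z = κ * z0 ∧ z' = κ' * z0' ∧
      κ ∈ KK z0 ∧ κ' ∈ KK' z0' ∧ Nat.gcd z z' ≤ Nat.gcd z0 z0' ∧ W z z' ≤ W0 z0 z0')
    {N N1 K1 K1' : ℕ} {K0 K0' : ℝ} (hK0 : 0 < K0) (hK0' : 0 < K0')
    (hN : ∀ z, z ∣ M → (KK z).card ≤ N) (hN' : ∀ z, z ∣ M → (KK' z).card ≤ N)
    (hN1 : ∀ z, z ∣ M → (z.divisors.filter (fun κ => κ ∈ KK (z / κ))).card ≤ N1)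
    (hN1' : ∀ z, z ∣ M → (z.divisors.filter (fun κ => κ ∈ KK' (z / κ))).card ≤ N1)
    (hK : ∀ z, z ∣ M → ∀ κ ∈ KK z, K0 ≤ κ ∧ κ ≤ K1)
    (hK' : ∀ z, z ∣ M → ∀ κ ∈ KK' z, K0' ≤ κ ∧ κ ≤ K1') :
    WBd M W ((N * (((Nat.log 2 K1 : ℝ) + 1) / K0)) * (N * (((Nat.log 2 K1' : ℝ) + 1) / K0')) *
      (N1 * √(K1 * K1')) * E) := by
  classical
  intro S S' hS hS'
  set c := (N : ℝ) * (((Nat.log 2 K1 : ℝ) + 1) / K0) with hc
  set c' := (N : ℝ) * (((Nat.log 2 K1' : ℝ) + 1) / K0') with hc'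
  have hc0 : 0 ≤ c := by positivity
  have hc0' : 0 ≤ c' := by positivity
  set f : ℕ → ℝ := fun b => if b ∈ S then 1 else 0 with hf
  set g : ℕ → ℝ := fun b => if b ∈ S' then 1 else 0 with hg
  have hf0 : ∀ b, 0 ≤ f b := fun b => by simp only [hf]; split_ifs <;> norm_num
  have hg0 : ∀ b, 0 ≤ g b := fun b => by simp only [hg]; split_ifs <;> norm_num
  have e1 : ∑ z ∈ S, ∑ z' ∈ S', (Nat.gcd z z' : ℝ) * nu M z * nu M z' * W z z' =
      ∑ z ∈ M.divisors, ∑ z' ∈ M.divisors,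
        (Nat.gcd z z' : ℝ) * nu M z * nu M z' * (f z * g z') * W z z' := by
    symm
    rw [← Finset.sum_subset hS]
    · refine Finset.sum_congr rfl fun z hz => ?_
      rw [← Finset.sum_subset hS']
      · refine Finset.sum_congr rfl fun z' hz' => ?_
        simp only [hf, hg]
        rw [if_pos hz, if_pos hz']
        ring
      · intro z' _ hz'
        simp only [hg]
        rw [if_neg hz']
        ring
    · intro z _ hz
      refine Finset.sum_eq_zero fun z' _ => ?_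
      simp only [hf]
      rw [if_neg hz]
      ring
  rw [e1]
  refine (twist_sumW hM KK KK' hW0 hW f g hf0 hg0).trans ?_
  have h2 : ∑ z ∈ M.divisors, ∑ z' ∈ M.divisors,
      (Nat.gcd z z' : ℝ) * nu M z * nu M z' * (G M KK f z * G M KK' g z') * W0 z z' ≤
      ∑ z ∈ M.divisors, ∑ z' ∈ M.divisors, (c * c') *
        ((Nat.gcd z z' : ℝ) * nu M z * nu M z' *
          ((if z ∈ dn M KK S then 1 else 0) * (if z' ∈ dn M KK' S' then 1 else 0)) * W0 z z') := by
    refine Finset.sum_le_sum fun z hz => Finset.sum_le_sum fun z' hz' => ?_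
    have hzM := Nat.dvd_of_mem_divisors hz
    have hzM' := Nat.dvd_of_mem_divisors hz'
    have g1 := G_le_ind hK0 hN hK (S := S) hzM hM
    have g2 := G_le_ind hK0' hN' hK' (S := S') hzM' hM
    have g3 : 0 ≤ G M KK' g z' := G_nonneg hg0 z'
    have i1 : (0 : ℝ) ≤ (if z ∈ dn M KK S then 1 else 0) := by split_ifs <;> norm_num
    calc (Nat.gcd z z' : ℝ) * nu M z * nu M z' * (G M KK f z * G M KK' g z') * W0 z z'
        ≤ (Nat.gcd z z' : ℝ) * nu M z * nu M z' *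
          ((c * (if z ∈ dn M KK S then 1 else 0)) * (c' * (if z' ∈ dn M KK' S' then 1 else 0))) *
            W0 z z' := by
          refine mul_le_mul_of_nonneg_right (mul_le_mul_of_nonneg_left ?_ (term_nonneg M z z'))
            (hW0 z z')
          exact mul_le_mul g1 g2 g3 (mul_nonneg hc0 i1)
      _ = _ := by ring
  refine h2.trans ?_
  have e2 : ∑ z ∈ M.divisors, ∑ z' ∈ M.divisors, (c * c') *
        ((Nat.gcd z z' : ℝ) * nu M z * nu M z' *
          ((if z ∈ dn M KK S then 1 else 0) * (if z' ∈ dn M KK' S' then 1 else 0)) * W0 z z') =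
      (c * c') * ∑ z ∈ dn M KK S, ∑ z' ∈ dn M KK' S',
        (Nat.gcd z z' : ℝ) * nu M z * nu M z' * W0 z z' := by
    have hd : dn M KK S ⊆ M.divisors := Finset.filter_subset _ _
    have hd' : dn M KK' S' ⊆ M.divisors := Finset.filter_subset _ _
    rw [Finset.mul_sum, ← Finset.sum_subset hd]
    · refine Finset.sum_congr rfl fun z hz => ?_
      rw [Finset.mul_sum, ← Finset.sum_subset hd']
      · refine Finset.sum_congr rfl fun z' hz' => ?_
        rw [if_pos hz, if_pos hz']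
        ring
      · intro z' _ hz'
        rw [if_neg hz']
        ring
    · intro z _ hz
      refine Finset.sum_eq_zero fun z' _ => ?_
      rw [if_neg hz]
      ring
  rw [e2]
  have hd : dn M KK S ⊆ M.divisors := Finset.filter_subset _ _
  have hd' : dn M KK' S' ⊆ M.divisors := Finset.filter_subset _ _
  have h3 := h (dn M KK S) (dn M KK' S') hd hd'
  have m1 := nu_dn_le hM hN1 (fun z hz κ hκ => (hK z hz κ hκ).2) hS
  have m2 := nu_dn_le hM hN1' (fun z hz κ hκ => (hK' z hz κ hκ).2) hS'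
  set a := ∑ z ∈ S, nu M z with ha
  set a' := ∑ z ∈ S', nu M z with ha'
  have ha0 : 0 ≤ a := sum_nu_nonneg M S
  have ha0' : 0 ≤ a' := sum_nu_nonneg M S'
  have h4 : √((∑ z ∈ dn M KK S, nu M z) * ∑ z ∈ dn M KK' S', nu M z) ≤
      (N1 * √(K1 * K1')) * √(a * a') := by
    have h5 : (∑ z ∈ dn M KK S, nu M z) * ∑ z ∈ dn M KK' S', nu M z ≤
        ((K1 * N1 : ℝ) * a) * ((K1' * N1 : ℝ) * a') :=
      mul_le_mul m1 m2 (sum_nu_nonneg _ _) (by positivity)
    refine (Real.sqrt_le_sqrt h5).trans (le_of_eq ?_)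
    rw [show ((K1 * N1 : ℝ) * a) * ((K1' * N1 : ℝ) * a') =
      (N1 : ℝ) ^ 2 * ((K1 * K1' : ℝ) * (a * a')) by ring, Real.sqrt_mul (sq_nonneg _),
      Real.sqrt_sq (Nat.cast_nonneg _), Real.sqrt_mul (by positivity)]
    ring
  calc (c * c') * ∑ z ∈ dn M KK S, ∑ z' ∈ dn M KK' S',
        (Nat.gcd z z' : ℝ) * nu M z * nu M z' * W0 z z'
      ≤ (c * c') * (E * ((N1 * √(K1 * K1')) * √(a * a'))) :=
        mul_le_mul_of_nonneg_left (h3.trans (mul_le_mul_of_nonneg_left h4 hE))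
          (mul_nonneg hc0 hc0')
    _ = _ := by ring

/-! ### Assembly -/

section asm

variable {ι κ κ' : Type*} [DecidableEq κ] [DecidableEq κ'] {M0 M1 : ℕ} {Φ : ℕ → ℕ → ℝ}
  {W : ι → ℕ → ℕ → ℝ} {E : ι → ℝ} {lev : ι → ℕ → κ} {lev' : ι → ℕ → κ'} {Lv : Finset κ}
  {Lv' : Finset κ'} {A : ι → ℝ} {w : κ → ℝ} {w' : κ' → ℝ} {Ψ : ι → κ → κ' → ℝ}

/-- mass of a level, weighted -/
noncomputable def mw (M1 : ℕ) (lev : ι → ℕ → κ) (A : ι → ℝ) (w : κ → ℝ) (i : ι) (k : κ) : ℝ :=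
  A i * w k * ∑ z ∈ M1.divisors with lev i z = k, nu M1 z

omit [DecidableEq κ'] in
lemma mw_nonneg (hA : ∀ i, 0 ≤ A i) (hw : ∀ k, 0 ≤ w k) (i : ι) (k : κ) :
    0 ≤ mw M1 lev A w i k :=
  mul_nonneg (mul_nonneg (hA i) (hw k)) (sum_nu_nonneg _ _)

/-- one index -/
theorem asmW_one {Wi : ℕ → ℕ → ℝ} {Ei : ℝ} (hW : WBd M1 Wi Ei) (hW0 : ∀ z z', 0 ≤ Wi z z')
    {lv : ℕ → κ} {lv' : ℕ → κ'} {Ai : ℝ} {Ps : κ → κ' → ℝ}
    (hA : 0 ≤ Ai) (hw : ∀ k, 0 ≤ w k) (hw' : ∀ k, 0 ≤ w' k) (hΨ : ∀ k k', 0 ≤ Ps k k')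
    {K : ℕ → ℕ → ℝ}
    (hK : ∀ z z', z ∣ M1 → z' ∣ M1 → K z z' ≤ 0 ∨ (lv z ∈ Lv ∧ lv' z' ∈ Lv' ∧
      K z z' ≤ Ai * (Ps (lv z) (lv' z') * √(w (lv z) * w' (lv' z'))) * Wi z z')) :
    frm M1 K ≤ Ei * ∑ k ∈ Lv, ∑ k' ∈ Lv', Ps k k' *
      √((Ai * w k * ∑ z ∈ M1.divisors with lv z = k, nu M1 z) *
        (Ai * w' k' * ∑ z ∈ M1.divisors with lv' z = k', nu M1 z)) := by
  classical
  set D := M1.divisors with hD
  set c : κ → κ' → ℝ := fun k k' => Ai * (Ps k k' * √(w k * w' k')) with hc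
  have hc0 : ∀ k k', 0 ≤ c k k' := fun k k' =>
    mul_nonneg hA (mul_nonneg (hΨ k k') (Real.sqrt_nonneg _))
  set e : ℕ → ℕ → ℝ := fun z z' => (Nat.gcd z z' : ℝ) * nu M1 z * nu M1 z' with he
  have he0 : ∀ z z', 0 ≤ e z z' := fun z z' => term_nonneg M1 z z'
  have h1 : ∀ z ∈ D, ∀ z' ∈ D, e z z' * K z z' ≤
      ∑ k ∈ Lv, ∑ k' ∈ Lv', (if lv z = k ∧ lv' z' = k' then c k k' * (e z z' * Wi z z')
        else 0) := by
    intro z hz z' hz'
    have hnn : ∀ k ∈ Lv, ∀ k' ∈ Lv', 0 ≤ (if lv z = k ∧ lv' z' = k' then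
        c k k' * (e z z' * Wi z z') else 0) := by
      intro k _ k' _
      split_ifs
      · exact mul_nonneg (hc0 k k') (mul_nonneg (he0 z z') (hW0 z z'))
      · exact le_rfl
    rcases hK z z' (Nat.mem_divisors.1 hz).1 (Nat.mem_divisors.1 hz').1 with h0 | ⟨hk, hk', hle⟩
    · refine le_trans (mul_nonpos_of_nonneg_of_nonpos (he0 z z') h0) ?_
      exact Finset.sum_nonneg fun k hk => Finset.sum_nonneg fun k' hk' => hnn k hk k' hk'
    · calc e z z' * K z z' ≤ e z z' * (c (lv z) (lv' z') * Wi z z') :=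
            mul_le_mul_of_nonneg_left hle (he0 z z')
        _ = (if lv z = lv z ∧ lv' z' = lv' z' then
              c (lv z) (lv' z') * (e z z' * Wi z z') else 0) := by
            rw [if_pos ⟨rfl, rfl⟩]
            ring
        _ ≤ ∑ k' ∈ Lv', (if lv z = lv z ∧ lv' z' = k' then
              c (lv z) k' * (e z z' * Wi z z') else 0) :=
            Finset.single_le_sum (f := fun k' => (if lv z = lv z ∧ lv' z' = k' then
              c (lv z) k' * (e z z' * Wi z z') else 0)) (fun k' hk2 => hnn _ hk k' hk2) hk'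
        _ ≤ _ := Finset.single_le_sum (f := fun k => ∑ k' ∈ Lv', (if lv z = k ∧
              lv' z' = k' then c k k' * (e z z' * Wi z z') else 0))
              (fun k hk2 => Finset.sum_nonneg fun k' hk3 => hnn k hk2 k' hk3) hk
  have h2 : frm M1 K ≤ ∑ z ∈ D, ∑ z' ∈ D, ∑ k ∈ Lv, ∑ k' ∈ Lv',
      (if lv z = k ∧ lv' z' = k' then c k k' * (e z z' * Wi z z') else 0) := by
    unfold frm
    exact Finset.sum_le_sum fun z hz => Finset.sum_le_sum fun z' hz' => h1 z hz z' hz'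
  refine h2.trans ?_
  have h3 : ∑ z ∈ D, ∑ z' ∈ D, ∑ k ∈ Lv, ∑ k' ∈ Lv',
      (if lv z = k ∧ lv' z' = k' then c k k' * (e z z' * Wi z z') else 0) =
      ∑ k ∈ Lv, ∑ k' ∈ Lv', c k k' * ∑ z ∈ D with lv z = k, ∑ z' ∈ D with lv' z' = k',
        e z z' * Wi z z' := by
    calc ∑ z ∈ D, ∑ z' ∈ D, ∑ k ∈ Lv, ∑ k' ∈ Lv',
          (if lv z = k ∧ lv' z' = k' then c k k' * (e z z' * Wi z z') else 0)
        = ∑ z ∈ D, ∑ k ∈ Lv, ∑ k' ∈ Lv', ∑ z' ∈ D,
          (if lv z = k ∧ lv' z' = k' then c k k' * (e z z' * Wi z z') else 0) := by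
          refine Finset.sum_congr rfl fun z _ => ?_
          rw [Finset.sum_comm]
          refine Finset.sum_congr rfl fun k _ => ?_
          rw [Finset.sum_comm]
      _ = ∑ k ∈ Lv, ∑ k' ∈ Lv', ∑ z ∈ D, ∑ z' ∈ D,
          (if lv z = k ∧ lv' z' = k' then c k k' * (e z z' * Wi z z') else 0) := by
          rw [Finset.sum_comm]
          refine Finset.sum_congr rfl fun k _ => ?_
          rw [Finset.sum_comm]
      _ = _ := by
          refine Finset.sum_congr rfl fun k _ => Finset.sum_congr rfl fun k' _ => ?_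
          rw [Finset.mul_sum, Finset.sum_filter]
          refine Finset.sum_congr rfl fun z _ => ?_
          by_cases hz : lv z = k
          · rw [if_pos hz, Finset.mul_sum, Finset.sum_filter]
            refine Finset.sum_congr rfl fun z' _ => ?_
            by_cases hz' : lv' z' = k'
            · rw [if_pos ⟨hz, hz'⟩, if_pos hz']
            · rw [if_neg (fun h => hz' h.2), if_neg hz']
          · rw [if_neg hz]
            refine Finset.sum_eq_zero fun z' _ => ?_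
            rw [if_neg (fun h => hz h.1)]
  rw [h3, Finset.mul_sum]
  refine Finset.sum_le_sum fun k _ => ?_
  rw [Finset.mul_sum]
  refine Finset.sum_le_sum fun k' _ => ?_
  set a := ∑ z ∈ D with lv z = k, nu M1 z with ha
  set a' := ∑ z ∈ D with lv' z = k', nu M1 z with ha'
  have h4 := hW (D.filter (fun z => lv z = k)) (D.filter (fun z => lv' z = k'))
    (Finset.filter_subset _ _) (Finset.filter_subset _ _)
  have h5 : √((Ai * w k * a) * (Ai * w' k' * a')) = Ai * (√(w k * w' k') * √(a * a')) := by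
    rw [show (Ai * w k * a) * (Ai * w' k' * a') = Ai ^ 2 * ((w k * w' k') * (a * a')) by ring,
      Real.sqrt_mul (sq_nonneg _), Real.sqrt_sq hA, Real.sqrt_mul (mul_nonneg (hw k) (hw' k'))]
  rw [h5]
  calc c k k' * ∑ z ∈ D with lv z = k, ∑ z' ∈ D with lv' z' = k', e z z' * Wi z z'
      ≤ c k k' * (Ei * √(a * a')) := mul_le_mul_of_nonneg_left h4 (hc0 k k')
    _ = _ := by
      simp only [hc]
      ring

/-- **assembly with weights and an arbitrary finite index set** -/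
theorem asmW (hco : Nat.Coprime M0 M1) (I : Finset ι)
    (hW : ∀ i ∈ I, WBd M1 (W i) (E i)) (hW0 : ∀ i z z', 0 ≤ W i z z')
    (hA : ∀ i, 0 ≤ A i) (hw : ∀ k, 0 ≤ w k) (hw' : ∀ k, 0 ≤ w' k) (hΨ : ∀ i k k', 0 ≤ Ψ i k k')
    {K : ι → ℕ → ℕ → ℝ}
    (hlow : ∀ z z', z ∣ M1 → z' ∣ M1 →
      frm M0 (fun u u' => Φ (u * z) (u' * z')) ≤ ∑ i ∈ I, K i z z')
    (hK : ∀ i ∈ I, ∀ z z', z ∣ M1 → z' ∣ M1 → K i z z' ≤ 0 ∨ (lev i z ∈ Lv ∧ lev' i z' ∈ Lv' ∧
      K i z z' ≤ A i * (Ψ i (lev i z) (lev' i z') * √(w (lev i z) * w' (lev' i z'))) *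
        W i z z')) :
    frm (M0 * M1) Φ ≤ ∑ i ∈ I, E i * ∑ k ∈ Lv, ∑ k' ∈ Lv',
      Ψ i k k' * √(mw M1 lev A w i k * mw M1 lev' A w' i k') := by
  rw [frm_mul hco]
  refine (frm_le fun z z' hz hz' => hlow z z' hz hz').trans ?_
  rw [frm_sum]
  refine Finset.sum_le_sum fun i hi => ?_
  exact asmW_one (hW i hi) (hW0 i) (hA i) hw hw' (hΨ i) (hK i hi)

end asm

end Crest.Agent.R4C.LTwx662
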