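import Crest.Agent.R4C.LBst_208
import Crest.Agent.R4C.BoxG_899
import Crest.Agent.R4C.LSmooth_808
import Crest.Agent.R4C.ArrC_7
import Crest.Agent.R4C.LArrUK_11
import Crest.Agent.R4C.BoxKit_179
import Crest.Agent.R4C.ClsHvy_281
import Crest.Agent.R4C.LBoxSet_662
import Crest.Agent.R4C.LArrA_500
import Crest.Agent.R4C.Cover_946

/-!
# Row 4, CLASS (L): ARROW S, the smooth case (6.0) (helper398, shadow of 808)

Box `(n, n')` = depths; `m = max n n'`, `K = 2^(m+1)`, cut `y = 2^(m+4)` above both depths (no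
twist), `Z = ⌊2 (1 + log K)^(5/4)⌋` bounds the explained primes.  Inputs: `lsmooth` (808), `pairG`
(899), `boost_word` (208), `centre_eq` (11), `clsOK_of_boxes` (179), `cls_hvy` (281).

* `SB` : a pair of the box; `sm_of`, `kz_of`, `pair_of` : data for `lsmooth` and `pairG`;
* `set_one` : the set bound of one box; `sum_bx` : the sum over the boxes;
* **`tgtS`** : the target `TgtS` of `LBoxDef_662`.
-/

set_option autoImplicit false

open Finset

namespace Crest.Agent.R4C.TgtSx398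

open Crest.Agent.R4C.Basex935 Crest.Agent.R4C.Cutx50 Crest.Agent.R4C.FLDefx935
  Crest.Agent.R4C.Rulex945 Crest.Agent.R4C.Splitx945 Crest.Agent.R4C.Bridgex882
  Crest.Agent.R4C.S7dx14 Crest.Agent.R4C.BoostCx972 Crest.Agent.R4C.PureL2x232
  Crest.Agent.R4C.Keptx559 Crest.Agent.R4C.LClassx662 Crest.Agent.R4C.LowLx899
  Crest.Agent.R4C.NonPureBlkx559 Crest.Agent.R4C.LBoxDefx662 Crest.Agent.R4C.Spinex946
  Crest.Agent.R4C.HighWx899 Crest.Agent.R4C.BoxWx899 Crest.Agent.R4C.BoxGx899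
  Crest.Agent.R4C.LCovBx11 Crest.Agent.R4C.TEndx129 Crest.Agent.R4C.HyOfx281
  Crest.Agent.R4C.LBstx208 Crest.Agent.R4C.LSmoothx808 Crest.Agent.R4C.BoxKitx179
open Crest.Agent.R4C.LBxx500 (tw HyB zz)
open Crest.Agent.R4C.FLExx326 (ind)
open Crest.Agent.R4C.B1Levx52 (offW one_le_offW)

/-! ### a pair of a box -/

section one

variable {M : ℕ}

/-- a pair of the smooth case, depths `2^n ≤ dep b < 2^(n+1)`, `2^n' ≤ dep c < 2^(n'+1)` -/
structure SB (F : FL M) (P : Par) (jB : ℕ → ℕ) (n n' t b c : ℕ) (h : ℤ) (f f' : ℚ) (p : ℕ) :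
    Prop where
  lp : LP F P t b c h f f' p
  gd : F.good (Xj (jB t)) b c
  dn : (2 : ℝ) ^ n ≤ dep F P t b f
  dn1 : dep F P t b f < 2 ^ (n + 1)
  dn' : (2 : ℝ) ^ n' ≤ dep F P t c f'
  dn1' : dep F P t c f' < 2 ^ (n' + 1)
  sm : (p : ℝ) ≤ 2 * (1 + Real.log ((2 : ℝ) ^ (max n n' + 1))) ^ (5 / 4 : ℝ)

/-- `K` -/
noncomputable def KB (n n' : ℕ) : ℝ := 2 ^ (max n n' + 1)

/-- bound of the explained primes -/
noncomputable def ZB (n n' : ℕ) : ℕ := ⌊2 * (1 + Real.log (KB n n')) ^ (5 / 4 : ℝ)⌋₊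

lemma one_le_KB (n n' : ℕ) : 1 ≤ KB n n' := one_le_pow₀ (by norm_num)

lemma log_KB_nonneg (n n' : ℕ) : 0 ≤ Real.log (KB n n') := Real.log_nonneg (one_le_KB n n')

lemma log_pow_le {K : ℝ} (hK : 1 ≤ K) : 2 * (1 + Real.log K) ^ (5 / 4 : ℝ) ≤ 8 * K := by
  have hK0 : 0 < K := by linarith
  have h0 : 0 ≤ Real.log K := Real.log_nonneg hK
  have h1 : Real.log K ≤ 2 * √K - 2 := by
    have h2 := Real.log_le_sub_one_of_pos (Real.sqrt_pos.2 hK0)
    have h3 : Real.log (√K) = Real.log K / 2 := Real.log_sqrt hK0.le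
    linarith
  have h2 : (1 + Real.log K) ^ (5 / 4 : ℝ) ≤ (1 + Real.log K) ^ (2 : ℝ) :=
    Real.rpow_le_rpow_of_exponent_le (by linarith) (by norm_num)
  have h3 : (1 + Real.log K) ^ (2 : ℝ) = (1 + Real.log K) ^ 2 := by
    rw [← Real.rpow_natCast]; norm_num
  have h4 : (1 + Real.log K) ^ 2 ≤ (2 * √K) ^ 2 :=
    pow_le_pow_left₀ (by linarith) (by linarith) 2
  have h5 : (2 * √K) ^ 2 = 4 * K := by
    rw [mul_pow, Real.sq_sqrt hK0.le]; norm_num
  have h6 : (1 + Real.log K) ^ (5 / 4 : ℝ) ≤ 4 * K := h2.trans (h3.le.trans (h4.trans h5.le))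
  calc 2 * (1 + Real.log K) ^ (5 / 4 : ℝ) ≤ 2 * (4 * K) :=
        mul_le_mul_of_nonneg_left h6 (by norm_num)
    _ = 8 * K := by ring

lemma ZB_le (n n' : ℕ) : ZB n n' ≤ 2 ^ (max n n' + 4) := by
  have h1 := log_pow_le (one_le_KB n n')
  have h2 : (0 : ℝ) ≤ 2 * (1 + Real.log (KB n n')) ^ (5 / 4 : ℝ) := by
    have := log_KB_nonneg n n'
    positivity
  have h3 : ((ZB n n' : ℕ) : ℝ) ≤ ((2 ^ (max n n' + 4) : ℕ) : ℝ) := by
    refine (Nat.floor_le h2).trans (h1.trans (le_of_eq ?_))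
    unfold KB
    push_cast
    ring
  exact_mod_cast h3

lemma ZB_le' (n n' : ℕ) : ((ZB n n' : ℕ) : ℝ) ≤ 2 * (1 + Real.log (KB n n')) ^ (5 / 4 : ℝ) :=
  Nat.floor_le (by
    have := log_KB_nonneg n n'
    positivity)

variable {F : FL M} {P : Par} {jB : ℕ → ℕ} {n n' t b c p : ℕ} {h : ℤ} {f f' : ℚ}

lemma SB.p_le (D : SB F P jB n n' t b c h f f' p) : p ≤ ZB n n' := Nat.le_floor D.sm

lemma SB.p_le' (D : SB F P jB n n' t b c h f f' p) : p ≤ 2 ^ (max n n' + 4) :=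
  D.p_le.trans (ZB_le n n')

lemma SB.db (D : SB F P jB n n' t b c h f f' p) : dep F P t b f ≤ KB n n' :=
  D.dn1.le.trans (pow_le_pow_right₀ (by norm_num) (by have := le_max_left n n'; omega))

lemma SB.dc (D : SB F P jB n n' t b c h f f' p) : dep F P t c f' ≤ KB n n' :=
  D.dn1'.le.trans (pow_le_pow_right₀ (by norm_num) (by have := le_max_right n n'; omega))

lemma KB_le_y (n n' : ℕ) : KB n n' ≤ ((2 ^ (max n n' + 4) : ℕ) : ℝ) := by
  unfold KB
  push_cast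
  exact pow_le_pow_right₀ (by norm_num) (by omega)

/-- data of `lsmooth` -/
lemma SB.smo (D : SB F P jB n n' t b c h f f' p) (hyt : 2 ^ (max n n' + 4) ≤ P.cut t) :
    Sm F P (2 ^ (max n n' + 4)) (ZB n n') (KB n n') t b c h f f' where
  m0 := D.lp.m0
  yx := hyt
  good := D.lp.good
  pt := D.lp.pt
  ib := D.lp.ib
  ic := D.lp.ic
  db := D.db
  dc := D.dc
  top := fun q hq h1 h2 => D.lp.top q hq (lt_of_le_of_lt D.p_le h1) h2
  big := by
    have h1 := D.lp.big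
    unfold BigW at h1
    have h3 : KB n n' = 2 * 2 ^ (max n n') := by unfold KB; ring
    have h2 : (2 : ℝ) ^ (max n n') ≤ 128 * ((low (P.cut t) (b / Nat.gcd b c) : ℝ) *
        low (P.cut t) (c / Nat.gcd b c)) ^ 3 := by
      rcases le_total n n' with h4 | h4
      · rw [max_eq_right h4]
        exact D.dn'.trans h1.2
      · rw [max_eq_left h4]
        exact D.dn.trans h1.1
    rw [h3]
    linarith

/-- the core of `LBoxP_500` at the cut `2^(m+4)` -/
lemma SB.core (hY : ∀ i, P.Y i = 2 ^ i) (hl : h ∈ Lnk P.γ P.L b c)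
    (D : SB F P jB n n' t b c h f f' p) (hyt : 2 ^ (max n n' + 4) ≤ P.cut t) :
    LBoxPx500.Core F P jB (max n n' + 4) t b c h f f' where
  m0 := D.lp.m0
  good := D.lp.good
  goodj := D.gd
  pt := D.lp.pt
  lnk := CrCountx935.mem_Hf.1 hl
  ib := D.lp.ib
  ic := D.lp.ic
  act := by rw [hY]; exact hyt
  top := fun r hr h1 h2 => D.lp.top r hr (by
    rw [hY] at h1
    exact lt_of_le_of_lt D.p_le' h1) h2
  eb := D.lp.db
  ec := D.lp.dc

/-- no twist at a cut above the depths -/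
lemma tw_one {y : ℕ} (hd : dep F P t b f ≤ y) : tw F P y t b c f f' = 1 := by
  unfold tw
  refine LDecx500.upp_one_of fun q hq hqd => ?_
  have h1 : q ∣ k0 F (P.cut t) b f := hqd.trans (Nat.div_dvd_of_dvd (Nat.gcd_dvd_left _ _))
  have h2 : q ≤ k0 F (P.cut t) b f := Nat.le_of_dvd (k0_pos _ _ _) h1
  have h3 : (k0 F (P.cut t) b f : ℝ) ≤ y := (k0_le_dep t b f).trans hd
  have h4 : k0 F (P.cut t) b f ≤ y := by exact_mod_cast h3
  exact h2.trans h4

/-- **the high words**: kept, equal letters up to the cut of the level -/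
lemma SB.high {j0 : ℕ} (H : HyB M P jB j0) (hY : ∀ i, P.Y i = 2 ^ i) (hb : b ∣ M) (hc : c ∣ M)
    (hl : h ∈ Lnk P.γ P.L b c) (D : SB F P jB n n' t b c h f f' p)
    (hyt : 2 ^ (max n n' + 4) ≤ P.cut t) :
    KZ (hiFL H.hM (2 ^ (max n n' + 4)) F) j0 (upp (2 ^ (max n n' + 4)) b)
      (upp (2 ^ (max n n' + 4)) c) ∧
    ∀ q, q ≤ P.cut t → (upp (2 ^ (max n n' + 4)) b).factorization q =
      (upp (2 ^ (max n n' + 4)) c).factorization q := by
  have C := D.core hY hl hyt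
  have C' := C.swap hb hc
  have hy : P.Y (max n n' + 4) = 2 ^ (max n n' + 4) := hY _
  have e1 := C.upp_b H hb hc
  have e2 := C'.upp_b H hc hb
  have hKy := KB_le_y n n'
  rw [hy] at e1 e2
  rw [tw_one (D.db.trans hKy), one_mul] at e1
  rw [tw_one (D.dc.trans hKy), one_mul] at e2
  have h1 := C.kz H hb hc
  rw [hy] at h1
  rw [← e1, ← e2] at h1
  refine ⟨h1, fun q hq => ?_⟩
  rw [e1, e2]
  unfold zz
  rw [LDecx500.fact_z0' hq, LDecx500.fact_z0' hq, Nat.gcd_comm c b]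

/-- the twist sets are trivial -/
def one1 : ℕ → Finset ℕ := fun _ => {1}

/-- **the high weight** -/
lemma SB.pair {w : ℕ → ℝ} {δ ε : ℝ} {DD' : ℕ → ℝ} (H : Hy F P w δ ε DD') (HB : HyB M P jB 1)
    (hE : Monotone P.E) (hG : CutGrow P) (hY : ∀ i, P.Y i = 2 ^ i) (hb : b ∣ M) (hc : c ∣ M)
    (hl : h ∈ Lnk P.γ P.L b c) (hk : ¬ killedB (lamR F P) b c h) (hn : ¬ CHvy F P w ε b c h)
    (D : SB F P jB n n' t b c h f f' p) (hyt : 2 ^ (max n n' + 4) ≤ P.cut t)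
    (hKt : 4 * KB n n' ^ 2 < 2 ^ t)
    (hthr : ∀ d i, P.cut t < P.Y i → KB n n' ≤ P.thr d i) :
    PairW (hiFL H.hM (2 ^ (max n n' + 4)) F) 1 P.cut
      (TTs F P (2 ^ (max n n' + 4)) (KB n n') {Nat.log 2 (low (2 ^ (max n n' + 4)) b)} one1)
      (XHs F P (2 ^ (max n n' + 4)) (KB n n') {Nat.log 2 (low (2 ^ (max n n' + 4)) b)} one1
        (2 ^ (max n n' + 4)))
      (TTs F P (2 ^ (max n n' + 4)) (KB n n') {Nat.log 2 (low (2 ^ (max n n' + 4)) c)} one1)
      (XHs F P (2 ^ (max n n' + 4)) (KB n n') {Nat.log 2 (low (2 ^ (max n n' + 4)) c)} one1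
        (2 ^ (max n n' + 4)))
      (upp (2 ^ (max n n' + 4)) b) (upp (2 ^ (max n n' + 4)) c)
      (Qt (M := M) P (2 ^ (max n n' + 4)) t (upp (2 ^ (max n n' + 4)) b)
        (upp (2 ^ (max n n' + 4)) c)) := by
  obtain ⟨hkz, heq⟩ := D.high HB hY hb hc hl hyt
  have hPG : PG F P w ε (KB n n') (2 ^ (max n n' + 4)) (2 ^ (max n n' + 4)) t b c h f f' := by
    refine ⟨D.lp.m0, D.lp.good, D.lp.pt, D.lp.ib, D.lp.ic, D.db, D.dc, D.lp.db, D.lp.dc, ?_,
      D.lp.al, D.lp.scl, D.lp.near, le_rfl, hyt, one_le_KB n n', KB_le_y n n', hKt, ?_, ?_, hk, hn⟩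
    · exact fun r hr h1 h2 => D.lp.topk r hr (lt_of_le_of_lt D.p_le' h1) h2
    · exact fun i hi => hthr b i hi
    · exact fun i hi => hthr c i hi
  refine pairG (F := F) (P := P) (κ := 1) (κ' := 1) H hE hG hb hc hPG (one_mul _).symm
    (one_mul _).symm (mem_singleton_self 1) (mem_singleton_self 1) (mem_singleton_self _)
    (mem_singleton_self _) ?_ ?_ (fun q _ hq => heq q hq) ?_ ?_ ?_ hkz
  · intro q _ hq
    rw [fact_upp, if_pos (by omega)]
  · intro q _ hq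
    rw [fact_upp, if_pos (by omega)]
  · exact fun q hq => (mem_filter.1 hq).1
  · exact fun q hq => (mem_filter.1 hq).2.2.1
  · exact fun q hq => (mem_filter.1 hq).2.1

/-- **one point and one offset per pair and box** -/
lemma SB.uniq {j0 : ℕ} (H : HyB M P jB j0) {t₂ p₂ : ℕ} {h₂ : ℤ} {f₂ f₂' : ℚ} (hb : b ∣ M)
    (hc : c ∣ M) (B1 : SB F P jB n n' t b c h f f' p) (B2 : SB F P jB n n' t₂ b c h₂ f₂ f₂' p₂) :
    h = h₂ := by
  have hE : ∀ m, P.m0 ≤ m → 4 * P.E m ^ 8 < 2 ^ m := by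
    intro m hm
    have h3 := H.hE m hm
    have h4 : (0 : ℝ) ≤ P.E m ^ 8 := pow_nonneg (zero_le_one.trans (H.E_one m)) _
    linarith
  have pw : ∀ n : ℕ, (2 : ℝ) ^ (n + 1) = 2 * 2 ^ n := fun n => by ring
  obtain ⟨e1, _⟩ := centre_eq (K := 2 ^ n) H.hL H.hM H.cut_mono hE hb B1.lp.m0 B2.lp.m0
    (one_le_cut H B1.lp.m0) (one_le_cut H B2.lp.m0) B1.lp.ib B2.lp.ib B1.lp.db B2.lp.db B1.dn
    (by rw [← pw]; exact B1.dn1) B2.dn (by rw [← pw]; exact B2.dn1)
  obtain ⟨e2, _⟩ := centre_eq (K := 2 ^ n') H.hL H.hM H.cut_mono hE hc B1.lp.m0 B2.lp.m0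
    (one_le_cut H B1.lp.m0) (one_le_cut H B2.lp.m0) B1.lp.ic B2.lp.ic B1.lp.dc B2.lp.dc B1.dn'
    (by rw [← pw]; exact B1.dn1') B2.dn' (by rw [← pw]; exact B2.dn1')
  have h3 := B1.lp.pt
  rw [e1, e2] at h3
  exact gap_unique h3 B2.lp.pt

/-- a pair of the smooth case is in a box -/
lemma SB_of (hY : ∀ i, P.Y i = 2 ^ i) (hS : LSm F P jB b c h) :
    ∃ (n n' t : ℕ) (f f' : ℚ) (p : ℕ), SB F P jB n n' t b c h f f' p := by
  obtain ⟨t, f, f', p, hP, hgd, hd⟩ := hS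
  obtain ⟨n, n1, n2⟩ := exists_dyadic (one_le_dep (F := F) (P := P) t b f)
  obtain ⟨n', n1', n2'⟩ := exists_dyadic (one_le_dep (F := F) (P := P) t c f')
  have pw : ∀ n : ℕ, (2 : ℝ) ^ (n + 1) = 2 * 2 ^ n := fun n => by ring
  rw [← pw] at n2 n2'
  have hK : ∀ d : ℝ, 1 ≤ d → d ≤ 2 ^ (max n n' + 1) →
      Real.exp ((P.Y (P.blk p - 1) : ℝ) ^ (4 / 5 : ℝ)) < d →
      (p : ℝ) ≤ 2 * (1 + Real.log ((2 : ℝ) ^ (max n n' + 1))) ^ (5 / 4 : ℝ) := by
    intro d hd1 hdK hlt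
    have hd0 : 0 < d := by linarith
    have h1 : (P.Y (P.blk p - 1) : ℝ) ^ (4 / 5 : ℝ) < Real.log d :=
      (Real.lt_log_iff_exp_lt hd0).2 hlt
    have h2 : Real.log d ≤ 1 + Real.log ((2 : ℝ) ^ (max n n' + 1)) := by
      have := Real.log_le_log hd0 hdK
      linarith
    have h0 : (0 : ℝ) ≤ (P.Y (P.blk p - 1) : ℝ) := Nat.cast_nonneg _
    have h3 : (P.Y (P.blk p - 1) : ℝ) ≤
        (1 + Real.log ((2 : ℝ) ^ (max n n' + 1))) ^ (5 / 4 : ℝ) := by
      calc (P.Y (P.blk p - 1) : ℝ) = ((P.Y (P.blk p - 1) : ℝ) ^ (4 / 5 : ℝ)) ^ (5 / 4 : ℝ) := by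
            rw [← Real.rpow_mul h0]; norm_num
        _ ≤ _ := Real.rpow_le_rpow (Real.rpow_nonneg h0 _) (h1.le.trans h2) (by norm_num)
    have hYm : StrictMono P.Y := fun a b hab => by
      rw [hY, hY]; exact Nat.pow_lt_pow_right (by norm_num) hab
    have h4 : p ≤ 2 * P.Y (P.blk p - 1) := by
      refine (Par.le_blk hYm p).trans ?_
      rw [hY, hY, ← pow_succ']
      exact Nat.pow_le_pow_right (by norm_num) (by omega)
    have h5 : (p : ℝ) ≤ 2 * (P.Y (P.blk p - 1) : ℝ) := by exact_mod_cast h4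
    linarith
  refine ⟨n, n', t, f, f', p, hP, hgd, n1, n2, n1', n2', ?_⟩
  rcases hd with ⟨_, _, h1⟩ | ⟨_, _, h1⟩
  · exact hK _ (one_le_dep t b f) (n2.le.trans (pow_le_pow_right₀ (by norm_num) (by
      have := le_max_left n n'; omega))) h1
  · exact hK _ (one_le_dep t c f') (n2'.le.trans (pow_le_pow_right₀ (by norm_num) (by
      have := le_max_right n n'; omega))) h1

end one

/-! ### one box -/

section box

variable {M : ℕ}

/-- the offsets of a box -/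
def RS (F : FL M) (P : Par) (w : ℕ → ℝ) (jB : ℕ → ℕ) (n n' b c : ℕ) (h : ℤ) : Prop :=
  ¬ CHvy F P w (1 / 20) b c h ∧ ∃ (t : ℕ) (f f' : ℚ) (p : ℕ), SB F P jB n n' t b c h f f' p

/-- boosted offset sum of a box, without `offW` -/
noncomputable def Ph (F : FL M) (P : Par) (w : ℕ → ℝ) (jB : ℕ → ℕ) (n n' b c : ℕ) : ℝ :=
  oS P.γ P.L M (lamR F P) (RS F P w jB n n') b c / (offW F 1 b * offW F 1 c)

variable {F : FL M} {P : Par} {w : ℕ → ℝ} {jB : ℕ → ℕ} {n n' : ℕ}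

lemma offW_pos (b : ℕ) : 0 < offW F 1 b := lt_of_lt_of_le one_pos (one_le_offW 1 b)

lemma Ph_nonneg (b c : ℕ) : 0 ≤ Ph F P w jB n n' b c :=
  div_nonneg (oS_nonneg _ _ _) (mul_nonneg (offW_pos _).le (offW_pos _).le)

lemma oS_eq (b c : ℕ) : oS P.γ P.L M (lamR F P) (RS F P w jB n n') b c =
    Ph F P w jB n n' b c * (offW F 1 b * offW F 1 c) := by
  unfold Ph
  have h1 := offW_pos (F := F) b
  have h2 := offW_pos (F := F) c
  field_simp

/-- the polynomial weight of a box -/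
noncomputable def Dx (n n' : ℕ) : ℝ :=
  (((max n n' + 4 : ℕ) : ℝ) + 1) ^ 2 * (((n : ℝ) + 2) * ((n' : ℝ) + 2))

lemma Dx_nonneg (n n' : ℕ) : 0 ≤ Dx n n' := by unfold Dx; positivity

/-- constants of one level -/
structure Big (P : Par) (n n' t : ℕ) : Prop where
  yt : 2 ^ (max n n' + 4) ≤ P.cut t
  Kt : 4 * KB n n' ^ 2 < 2 ^ t
  thr : ∀ d i, P.cut t < P.Y i → KB n n' ≤ P.thr d i

open Classical in
/-- **one box, sets** -/
theorem set_one (A : ℕ) : ∃ C : ℝ, 0 < C ∧ ∀ (cp η : ℝ) (m0 : ℕ) (γ L : ℝ) (M : ℕ) (B : Finset ℕ)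
    (F : FL M) (n n' : ℕ), 0 < M → 0 < L → B ⊆ M.divisors → Num cp η A m0 → 2 ≤ A →
    (∀ (t b c : ℕ) (h : ℤ) (f f' : ℚ) (p : ℕ),
      SB F (ParOf cp A m0 γ L M B) (jBA A) n n' t b c h f f' p →
        Big (ParOf cp A m0 γ L M B) n n' t) →
    ∀ S S' : Finset ℕ, S ⊆ B → S' ⊆ B →
    ∑ b ∈ S, ∑ c ∈ S', (Nat.gcd b c : ℝ) * nu M b * nu M c *
      Ph F (ParOf cp A m0 γ L M B) (ind B) (jBA A) n n' b c ≤
    C * (Dx n n' * KB n n' ^ (-(1 / 200) : ℝ)) * √((∑ b ∈ S, nu M b) * ∑ c ∈ S', nu M c) := by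
  obtain ⟨Cl, hCl, hls⟩ := lsmooth 2
  obtain ⟨CH, hCH, hWH⟩ := wbd_WH_pow A
  set C4 : ℝ := 4 * Real.exp (22 / Real.log 2) with hC4
  have hC40 : 0 < C4 := by positivity
  have hCW := LBstx208.CW_pos
  refine ⟨Cl * (LBstx208.CW * C4 * CH), by positivity, ?_⟩
  intro cp η m0 γ L M B F n n' hM hL hB hnum hA2 hbig S S' hS hS'
  set P := ParOf cp A m0 γ L M B with hP
  have HB : HyB M P (jBA A) 1 := HyBOfx11.hyB_of_num hnum hM hL
  have H := hy_of_num hnum (γ := γ) (L := L) (B := B) hM hL F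
  have hE : Monotone P.E := by
    intro m m' hmm
    change (2 : ℝ) ^ (cp * m) ≤ (2 : ℝ) ^ (cp * m')
    refine Real.rpow_le_rpow_of_exponent_le (by norm_num) ?_
    exact mul_le_mul_of_nonneg_left (by exact_mod_cast hmm) hnum.cp_pos.le
  have hG : CutGrow P := cutA_grow hA2 fun m => rfl
  have hY : ∀ i, P.Y i = 2 ^ i := fun i => rfl
  have hSM : S ⊆ M.divisors := hS.trans hB
  have hSM' : S' ⊆ M.divisors := hS'.trans hB
  set y : ℕ := 2 ^ (max n n' + 4) with hy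
  set K : ℝ := KB n n' with hK
  have hK1 : 1 ≤ K := one_le_KB n n'
  set D : ℝ := LBstx208.CW * Dx n n' with hD
  have hD0 : 0 ≤ D := mul_nonneg hCW.le (Dx_nonneg _ _)
  set Wt : ℕ → ℕ → ℕ → ℕ → ℝ := fun U U' z z' => (D * C4) *
    WH (hiFL hM y F) 1 P.cut (TTs F P y K {U} one1) (XHs F P y K {U} one1 y)
      (TTs F P y K {U'} one1) (XHs F P y K {U'} one1 y) z z' with hWt
  have hWt0 : ∀ U U' z z', 0 ≤ Wt U U' z z' := fun U U' z z' =>
    mul_nonneg (by positivity) (WH_nonneg _ _ _ _ _ _ _ _ _)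
  have hcd : ∀ (n : ℕ), n ≤ 1 → (n : ℝ) ≤ 1 := fun n hn => by exact_mod_cast hn
  have hWE : ∀ U U', SetW (upp y M) (Wt U U') (D * C4 * (CH * 1)) := by
    intro U U'
    refine setW_iff.2 ((hWH (upp y M) (hiFL hM y F) (upp_pos _ _) 1 le_rfl _ _ _ _ 1 le_rfl
      (fun z => hcd _ ?_) (fun z => hcd _ ?_) (fun z => hcd _ ?_) (fun z => hcd _ ?_)).smul
        (by positivity))
    · exact (card_TTs z).trans (by simp [one1])
    · exact (card_XHs _ z).trans (by simp [one1])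
    · exact (card_TTs z).trans (by simp [one1])
    · exact (card_XHs _ z).trans (by simp [one1])
  -- one offset
  have hone : ∀ b c, b ∣ M → c ∣ M → ∀ (h : ℤ), h ∈ Lnk P.γ P.L b c →
      ¬ killedB (lamR F P) b c h → RS F P (ind B) (jBA A) n n' b c h →
      oS P.γ P.L M (lamR F P) (RS F P (ind B) (jBA A) n n') b c = boostB M (lamR F P) b c h := by
    intro b c hb hc h h1 h2 h3
    unfold oS
    have e : (Lnk P.γ P.L b c).filter (fun h => ¬ killedB (lamR F P) b c h ∧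
        RS F P (ind B) (jBA A) n n' b c h) = {h} := by
      ext h'
      rw [Finset.mem_filter, Finset.mem_singleton]
      constructor
      · rintro ⟨_, _, _, t', g, g', p', h5⟩
        obtain ⟨_, t, f, f', p, h4⟩ := h3
        exact SB.uniq HB hb hc h5 h4
      · rintro rfl
        exact ⟨h1, h2, h3⟩
    rw [e, Finset.sum_singleton]
  set Φ : ℕ → ℕ → ℝ := fun b c => if b ∈ S ∧ c ∈ S' then
    Ph F P (ind B) (jBA A) n n' b c else 0 with hΦ
  have h1 := hls M F P y (ZB n n') K (D * C4 * (CH * 1)) ∅ (fun _ U U' z z' => Wt U U' z z')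
    (ind S) (ind S') Φ hM hL HB.hN (fun m hm => by
      refine lt_of_le_of_lt ?_ (HB.hE m hm)
      have h1 : P.E m ^ 3 ≤ P.E m ^ 8 := pow_le_pow_right₀ (HB.E_one m) (by norm_num)
      have h2 : 0 ≤ P.E m ^ 8 := pow_nonneg (zero_le_one.trans (HB.E_one m)) _
      linarith) HB.cut_mono hK1 (KB_le_y n n') (ZB_le n n') (ZB_le' n n')
    (fun _ U U' z z' => hWt0 U U' z z') (by positivity) (fun _ U U' => hWE U U')
    (fun b => Crest.Agent.R4C.FLExx326.ind_nonneg S b)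
    (fun b => Crest.Agent.R4C.FLExx326.ind_nonneg S' b)
    (fun b => by unfold ind; split_ifs <;> norm_num)
    (fun b => by unfold ind; split_ifs <;> norm_num) (fun b c hb hc => by
      by_cases hg : b ∈ S ∧ c ∈ S' ∧ ∃ h, h ∈ Lnk P.γ P.L b c ∧ ¬ killedB (lamR F P) b c h ∧
          RS F P (ind B) (jBA A) n n' b c h
      · right
        obtain ⟨hbS, hcS, h, h1, h2, h3⟩ := hg
        have h3' := h3
        obtain ⟨hnh, t, f, f', p, h4⟩ := h3
        have hbg := hbig t b c h f f' p h4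
        refine ⟨?_, t, h, f, f', h4.smo hbg.yt⟩
        have i1 : ind S b = 1 := by unfold ind; rw [if_pos hbS]
        have i2 : ind S' c = 1 := by unfold ind; rw [if_pos hcS]
        have i3 : BoostRx398.bst ∅ (low y M) (low y b) (low y c) = 1 := by
          unfold BoostRx398.bst
          exact Finset.prod_empty
        rw [i1, i2, i3, mul_one, mul_one, mul_one]
        have hΦ1 : Φ b c = Ph F P (ind B) (jBA A) n n' b c := by
          simp only [hΦ]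
          rw [if_pos ⟨hbS, hcS⟩]
        rw [hΦ1]
        unfold Ph
        rw [hone b c hb hc h h1 h2 h3', div_le_iff₀ (mul_pos (offW_pos b) (offW_pos c))]
        have hzM : upp y b ∣ upp y M := upp_dvd y hM.ne' hb
        have hzM' : upp y c ∣ upp y M := upp_dvd y hM.ne' hc
        have hpw := h4.pair H HB hE hG hY hb hc h1 h2 hnh hbg.yt hbg.Kt hbg.thr
        have h5 := bst_le_WH (upp_pos y M) le_rfl hzM hzM' hpw
        have h6 := boost_word (P := P) (F := F) (n := n) (n' := n') (v := max n n' + 4) (k := 1)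
          (k' := 1) hM hL hY (A := A) hnum.A_one (fun m => rfl) (fun _ _ => min_le_right _ _) hb hc
          ((show 1 ≤ m0 by have := hnum.m0_14; omega).trans h4.lp.m0) h1 h4.lp.good h4.lp.al
          h4.lp.near.le
          (fun q hq h7 h8 => h4.lp.topk q hq (lt_of_le_of_lt h4.p_le' h7) h8) h4.dn1 h4.dn1'
          (one_mul _).symm (one_mul _).symm
        refine h6.trans ?_
        have w0 : 0 ≤ offW F 1 b * offW F 1 c := (mul_pos (offW_pos b) (offW_pos c)).le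
        have e1 : LBstx208.CW * (((max n n' + 4 : ℕ) : ℝ) + 1) ^ 2 * (((n : ℝ) + 2) * ((n' : ℝ) + 2)) = D := by
          rw [hD]
          unfold Dx
          ring
        rw [e1]
        calc D * (offW F 1 b * offW F 1 c) *
              bst (Qt (M := M) P y t (upp y b) (upp y c))
            ≤ D * (offW F 1 b * offW F 1 c) * (C4 * WH (hiFL hM y F) 1 P.cut
                (TTs F P y K {Nat.log 2 (low y b)} one1) (XHs F P y K {Nat.log 2 (low y b)} one1 y)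
                (TTs F P y K {Nat.log 2 (low y c)} one1) (XHs F P y K {Nat.log 2 (low y c)} one1 y)
                (upp y b) (upp y c)) := mul_le_mul_of_nonneg_left h5 (by positivity)
          _ = _ := by
            simp only [hWt]
            ring
      · left
        simp only [hΦ]
        split_ifs with hbc
        · have h0 : oS P.γ P.L M (lamR F P) (RS F P (ind B) (jBA A) n n') b c = 0 := by
            unfold oS
            refine Finset.sum_eq_zero fun h hh => ?_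
            rw [Finset.mem_filter] at hh
            exact absurd ⟨hbc.1, hbc.2, h, hh.1, hh.2.1, hh.2.2⟩ hg
          unfold Ph
          rw [h0, zero_div]
        · exact le_rfl)
  -- the conclusion
  have e1 : ∑ b ∈ S, ∑ c ∈ S', (Nat.gcd b c : ℝ) * nu M b * nu M c *
      Ph F P (ind B) (jBA A) n n' b c = frm M Φ := by
    unfold frm
    rw [← Finset.sum_subset hSM]
    · refine Finset.sum_congr rfl fun b hb => ?_
      rw [← Finset.sum_subset hSM']
      · refine Finset.sum_congr rfl fun c hc => ?_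
        simp only [hΦ]
        rw [if_pos ⟨hb, hc⟩]
      · intro c _ hc
        simp only [hΦ]
        rw [if_neg (fun h => hc h.2), mul_zero]
    · intro b _ hb
      refine Finset.sum_eq_zero fun c _ => ?_
      simp only [hΦ]
      rw [if_neg (fun h => hb h.1), mul_zero]
  have e2 : ∀ T : Finset ℕ, T ⊆ M.divisors → Ex M (ind T) = ∑ b ∈ T, nu M b := by
    intro T hT
    unfold Ex ind
    simp only [mul_ite, mul_one, mul_zero]
    rw [← Finset.sum_filter]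
    congr 1
    ext b
    rw [Finset.mem_filter]
    exact ⟨fun h => h.2, fun h => ⟨hT h, h⟩⟩
  rw [e2 S hSM, e2 S' hSM'] at h1
  have hn1 : 0 ≤ ∑ b ∈ S, nu M b := Finset.sum_nonneg fun b _ => nu_nonneg M b
  rw [← Real.sqrt_mul hn1] at h1
  rw [e1]
  refine h1.trans (le_of_eq ?_)
  rw [hD]
  ring

end box

/-! ### the sum over the boxes -/

lemma bx_term (n n' : ℕ) : Dx n n' * KB n n' ^ (-(1 / 200) : ℝ) ≤
    (((n : ℝ) + 5) ^ 3 * ((2 : ℝ) ^ (-(1 / 400) : ℝ)) ^ n) *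
      (((n' : ℝ) + 5) ^ 3 * ((2 : ℝ) ^ (-(1 / 400) : ℝ)) ^ n') := by
  have hn : (0 : ℝ) ≤ n := Nat.cast_nonneg _
  have hn' : (0 : ℝ) ≤ n' := Nat.cast_nonneg _
  have h1 : Dx n n' ≤ ((n : ℝ) + 5) ^ 3 * ((n' : ℝ) + 5) ^ 3 := by
    unfold Dx
    have h2 : (((max n n' + 4 : ℕ) : ℝ) + 1) ≤ ((n : ℝ) + 5) * ((n' : ℝ) + 5) := by
      push_cast
      rcases le_total (n : ℝ) n' with h | h
      · rw [max_eq_right h]; nlinarith
      · rw [max_eq_left h]; nlinarith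
    have h3 : (0 : ℝ) ≤ (((max n n' + 4 : ℕ) : ℝ) + 1) := by positivity
    calc (((max n n' + 4 : ℕ) : ℝ) + 1) ^ 2 * (((n : ℝ) + 2) * ((n' : ℝ) + 2))
        ≤ (((n : ℝ) + 5) * ((n' : ℝ) + 5)) ^ 2 * (((n : ℝ) + 5) * ((n' : ℝ) + 5)) := by
          refine mul_le_mul (pow_le_pow_left₀ h3 h2 2) ?_ (by positivity) (by positivity)
          exact mul_le_mul (by linarith) (by linarith) (by positivity) (by positivity)
      _ = _ := by ring
  have h4 : KB n n' ^ (-(1 / 200) : ℝ) ≤ ((2 : ℝ) ^ (-(1 / 400) : ℝ)) ^ n *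
      ((2 : ℝ) ^ (-(1 / 400) : ℝ)) ^ n' := by
    unfold KB
    rw [← Real.rpow_natCast, ← Real.rpow_mul (by norm_num), ← Real.rpow_natCast,
      ← Real.rpow_natCast, ← Real.rpow_mul (by norm_num), ← Real.rpow_mul (by norm_num),
      ← Real.rpow_add (by norm_num)]
    refine Real.rpow_le_rpow_of_exponent_le (by norm_num) ?_
    push_cast
    have h5 : (n : ℝ) ≤ max (n : ℝ) n' := le_max_left _ _
    have h6 : (n' : ℝ) ≤ max (n : ℝ) n' := le_max_right _ _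
    linarith
  have hK0 : 0 ≤ KB n n' ^ (-(1 / 200) : ℝ) := Real.rpow_nonneg (zero_le_one.trans (one_le_KB _ _)) _
  calc Dx n n' * KB n n' ^ (-(1 / 200) : ℝ) ≤ (((n : ℝ) + 5) ^ 3 * ((n' : ℝ) + 5) ^ 3) *
        (((2 : ℝ) ^ (-(1 / 400) : ℝ)) ^ n * ((2 : ℝ) ^ (-(1 / 400) : ℝ)) ^ n') :=
        mul_le_mul h1 h4 hK0 (by positivity)
    _ = _ := by ring

lemma summable_f : Summable fun n : ℕ => ((n : ℝ) + 5) ^ 3 * ((2 : ℝ) ^ (-(1 / 400) : ℝ)) ^ n := by
  set r : ℝ := (2 : ℝ) ^ (-(1 / 400) : ℝ) with hr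
  have hr0 : 0 < r := by positivity
  have hr1 : r < 1 := Real.rpow_lt_one_of_one_lt_of_neg (by norm_num) (by norm_num)
  have h1 : Summable fun n : ℕ => ((n : ℝ)) ^ 3 * r ^ n :=
    summable_pow_mul_geometric_of_norm_lt_one 3 (by rw [Real.norm_of_nonneg hr0.le]; exact hr1)
  have h2 := ((summable_nat_add_iff 5).2 h1).mul_left (r ^ 5)⁻¹
  refine h2.congr fun n => ?_
  push_cast
  rw [pow_add]
  field_simp

open Classical in
lemma sum_bx : ∃ C : ℝ, 0 ≤ C ∧ ∀ T : Finset (ℕ × ℕ),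
    ∑ x ∈ T, Dx x.1 x.2 * KB x.1 x.2 ^ (-(1 / 200) : ℝ) ≤ C := by
  set f : ℕ → ℝ := fun n => ((n : ℝ) + 5) ^ 3 * ((2 : ℝ) ^ (-(1 / 400) : ℝ)) ^ n with hf
  have hf0 : ∀ n, 0 ≤ f n := fun n => by simp only [hf]; positivity
  have hs : Summable f := summable_f
  refine ⟨(∑' n, f n) * ∑' n, f n, mul_nonneg (tsum_nonneg hf0) (tsum_nonneg hf0), fun T => ?_⟩
  calc ∑ x ∈ T, Dx x.1 x.2 * KB x.1 x.2 ^ (-(1 / 200) : ℝ) ≤ ∑ x ∈ T, f x.1 * f x.2 :=
        Finset.sum_le_sum fun x _ => bx_term x.1 x.2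
    _ ≤ ∑ x ∈ T.image Prod.fst ×ˢ T.image Prod.snd, f x.1 * f x.2 := by
        refine Finset.sum_le_sum_of_subset_of_nonneg (fun x hx => ?_) fun x _ _ =>
          mul_nonneg (hf0 _) (hf0 _)
        exact Finset.mem_product.2 ⟨Finset.mem_image_of_mem _ hx, Finset.mem_image_of_mem _ hx⟩
    _ = (∑ n ∈ T.image Prod.fst, f n) * ∑ n ∈ T.image Prod.snd, f n := by
        rw [Finset.sum_mul_sum, Finset.sum_product]
    _ ≤ _ := mul_le_mul (hs.sum_le_tsum _ fun n _ => hf0 n) (hs.sum_le_tsum _ fun n _ => hf0 n)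
        (Finset.sum_nonneg fun n _ => hf0 n) (tsum_nonneg hf0)

/-! ### numerics of the level -/

lemma big_of {cp η : ℝ} {A m0 : ℕ} (hnum : Num cp η A m0) {γ L : ℝ} {M : ℕ} {B : Finset ℕ}
    {F : FL M} {n n' t b c : ℕ} {h : ℤ} {f f' : ℚ} {p : ℕ}
    (D : SB F (ParOf cp A m0 γ L M B) (jBA A) n n' t b c h f f' p) :
    Big (ParOf cp A m0 γ L M B) n n' t := by
  have h1 := ArrCx7.exp_le hnum.cp_le D.dn D.lp.db
  have h2 := ArrCx7.exp_le hnum.cp_le D.dn' D.lp.dc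
  have h3 : m0 ≤ t := D.lp.m0
  have h4 := hnum.m0_14
  have hA := hnum.A_one
  have hmx : 50 * max n n' ≤ t := by
    rcases le_total n n' with h | h
    · rw [max_eq_right h]; exact h2
    · rw [max_eq_left h]; exact h1
  refine ⟨?_, ?_, ?_⟩
  · change 2 ^ (max n n' + 4) ≤ 2 ^ (A * t)
    refine Nat.pow_le_pow_right (by norm_num) ?_
    have : 1 * t ≤ A * t := Nat.mul_le_mul_right _ hA
    omega
  · unfold KB
    rw [← pow_mul]
    calc (4 : ℝ) * 2 ^ ((max n n' + 1) * 2) = 2 ^ ((max n n' + 1) * 2 + 2) := by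
          rw [pow_add]; norm_num; ring
      _ < 2 ^ t := pow_lt_pow_right₀ (by norm_num) (by omega)
  · intro d i hi
    have h5 := ArrCx7.thr_par (cp := cp) (m0 := m0) (γ := γ) (L := L) (M := M) (B := B) hA
      (⟨n, n', 0, 0, 0⟩ : Bx) d i (lt_of_le_of_lt ?_ hi)
    · refine le_trans (le_of_eq ?_) h5
      unfold KB Bx.N Bx.mx
      push_cast
      rfl
    · change ArrCx7.YcA A (⟨n, n', 0, 0, 0⟩ : Bx) ≤ 2 ^ (A * t)
      unfold ArrCx7.YcA
      refine Nat.pow_le_pow_right (by norm_num) ?_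
      change 4 * A * (max n n' + 1) + 1 ≤ A * t
      calc 4 * A * (max n n' + 1) + 1 ≤ 4 * A * (max n n' + 1) + A := by omega
        _ = A * (4 * (max n n' + 1) + 1) := by ring
        _ ≤ A * t := Nat.mul_le_mul_left _ (by omega)

/-! ### the class -/

/-- the smooth pairs which are not heavy -/
def cSm (γ : ℝ) : Cls := fun cp _ A m0 L M B F b c h =>
  ¬ CHvy F (ParOf cp A m0 γ L M B) (ind B) (1 / 20) b c h ∧
    LSm F (ParOf cp A m0 γ L M B) (jBA A) b c h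

open Classical in
theorem cls_sm (γ : ℝ) : ClsOK γ (cSm γ) := by
  obtain ⟨C3, hC3, hsum⟩ := sum_bx
  refine clsOK_of_boxes (ι := ℕ × ℕ) 1 ?_
  refine (evNum.and (Ev.le_A (fun _ _ => 2))).mono ?_
  rintro cp η A m0 ⟨hnum, hA2⟩
  have hA2' : 2 ≤ A := by exact_mod_cast hA2
  obtain ⟨C2, hC2, hbox⟩ := set_one A
  refine ⟨C2 * C3, by positivity, fun _ => True, fun x => C2 * (Dx x.1 x.2 *
    KB x.1 x.2 ^ (-(1 / 200) : ℝ)), fun x => mul_nonneg hC2.le (mul_nonneg (Dx_nonneg _ _)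
      (Real.rpow_nonneg (zero_le_one.trans (one_le_KB _ _)) _)), ?_, ?_⟩
  · intro T _
    rw [← Finset.mul_sum]
    exact mul_le_mul_of_nonneg_left (hsum T) hC2.le
  intro L M B F S
  set P := ParOf cp A m0 γ L M B with hP
  have HB : HyB M P (jBA A) 1 := HyBOfx11.hyB_of_num hnum S.hM S.hL
  refine ⟨fun x b c h => RS F P (ind B) (jBA A) x.1 x.2 b c h,
    fun x b c => Ph F P (ind B) (jBA A) x.1 x.2 b c, fun x b c => Ph_nonneg _ _, ?_, ?_, ?_, ?_⟩
  · -- cover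
    rintro b hb c hc hne h hh hk ⟨h0, hR⟩
    obtain ⟨n, n', t, f, f', p, h1⟩ := SB_of (fun i => rfl) hR
    exact ⟨(n, n'), trivial, h0, t, f, f', p, h1⟩
  · -- one offset
    intro x _ b hb c hc hne h₁ hh₁ h₂ hh₂ hk₁ hk₂ hq₁ hq₂
    obtain ⟨_, t, f, f', p, h1⟩ := hq₁
    obtain ⟨_, t', g, g', p', h2⟩ := hq₂
    exact SB.uniq HB (S.dvd hb) (S.dvd hc) h1 h2
  · -- boost
    intro x _ b hb c hc hne h hh hk hq
    have h1 := oS_eq (F := F) (P := P) (w := ind B) (jB := jBA A) (n := x.1) (n' := x.2) b c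
    rw [← h1]
    unfold oS
    refine Finset.single_le_sum (f := fun h => boostB M (lamR F P) b c h)
      (fun h _ => boostB_nonneg _ _ _ _ _) ?_
    rw [Finset.mem_filter]
    exact ⟨hh, hk, hq⟩
  · -- sets
    intro x _ T T' hT hT'
    have h1 := hbox cp η m0 γ L M B F x.1 x.2 S.hM S.hL S.hB hnum hA2'
      (fun t b c h f f' p hD => big_of hnum hD) T T' hT hT'
    have h2 : ∑ b ∈ T, ∑ c ∈ T', kerW γ L M (lamOf cp A m0 γ L M B F)
        (RS F P (ind B) (jBA A) x.1 x.2) (Ph F P (ind B) (jBA A) x.1 x.2) b c ≤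
        ∑ b ∈ T, ∑ c ∈ T', (Nat.gcd b c : ℝ) * nu M b * nu M c *
          Ph F P (ind B) (jBA A) x.1 x.2 b c := by
      refine Finset.sum_le_sum fun b _ => Finset.sum_le_sum fun c _ => ?_
      unfold kerW
      split_ifs
      · exact le_rfl
      · exact mul_nonneg (gn M b c) (Ph_nonneg _ _)
    have h5 := h2.trans h1
    have e1 : √((L * ∑ b ∈ T, nu M b) * (L * ∑ c ∈ T', nu M c)) =
        L * √((∑ b ∈ T, nu M b) * ∑ c ∈ T', nu M c) := by
      rw [show (L * ∑ b ∈ T, nu M b) * (L * ∑ c ∈ T', nu M c) =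
        L ^ 2 * ((∑ b ∈ T, nu M b) * ∑ c ∈ T', nu M c) by ring,
        Real.sqrt_mul (by positivity), Real.sqrt_sq S.hL.le]
    rw [e1]
    calc L * ∑ b ∈ T, ∑ c ∈ T', kerW γ L M (lamOf cp A m0 γ L M B F)
          (RS F P (ind B) (jBA A) x.1 x.2) (Ph F P (ind B) (jBA A) x.1 x.2) b c
        ≤ L * (C2 * (Dx x.1 x.2 * KB x.1 x.2 ^ (-(1 / 200) : ℝ)) *
          √((∑ b ∈ T, nu M b) * ∑ c ∈ T', nu M c)) := mul_le_mul_of_nonneg_left h5 S.hL.le
      _ = _ := by ring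

/-- **target S** -/
theorem tgtS (γ : ℝ) : TgtS γ := by
  refine ClsOK.mono ((cls_sm γ).or (ClsHvyx281.cls_hvy γ)) (Ev.of_forall ?_)
  intro cp η A m0 L M B F S b hb c hc hne h hh hk hR
  by_cases h0 : CHvy F (ParOf cp A m0 γ L M B) (ind B) (1 / 20) b c h
  · exact Or.inr h0
  · exact Or.inl ⟨h0, hR⟩

end Crest.Agent.R4C.TgtSx398
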