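import Crest.Agent.R4C.Fin_946
import Crest.Agent.R4C.TgtS_398
import Crest.Agent.R4C.ClsDomV_305
import Crest.Agent.R4C.VTop_179

/-!
# Row 4: S0004 from the class total `TTot` of the vector world (helper79, ledger check)
-/

set_option autoImplicit false

open MeasureTheory Filter

namespace Crest.Agent.R4C.Lastx79

open Crest.Agent.R4C.Spinex946 Crest.Agent.R4C.Splitx945

/-- S0004 from the vector class alone -/
theorem of_cls {γ : ℝ} (h : ClsOK γ (Crest.Agent.R4C.ClsDomVx305.clsVC γ))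
    (ψ : ℕ → ℝ) (hψ : ∀ q, 0 ≤ ψ q)
    (hdiv : ¬ Summable fun q : ℕ => (Nat.totient q : ℝ) / q * ψ q) :
    ∀ᵐ x : ℝ, ∃ᶠ q : ℕ in atTop, |(q : ℝ) * x - γ - round ((q : ℝ) * x - γ)| < ψ q :=
  Crest.Agent.R4C.Finx946.finS (Crest.Agent.R4C.TgtSx398.tgtS γ)
    (Crest.Agent.R4C.ClsDomVx305.nh_domP_of h) ψ hψ hdiv

/-- S0004 from the class totals of the vector world -/
theorem of_total {γ : ℝ} {X0 : ℕ} (h : Crest.Agent.R4C.VTopx179.TTot γ X0)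
    (ψ : ℕ → ℝ) (hψ : ∀ q, 0 ≤ ψ q)
    (hdiv : ¬ Summable fun q : ℕ => (Nat.totient q : ℝ) / q * ψ q) :
    ∀ᵐ x : ℝ, ∃ᶠ q : ℕ in atTop, |(q : ℝ) * x - γ - round ((q : ℝ) * x - γ)| < ψ q :=
  of_cls (Crest.Agent.R4C.VTopx179.cls_vec_of_total h) ψ hψ hdiv

end Crest.Agent.R4C.Lastx79
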