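import Mathlib

/-!
# Row 4, LEMMA Q (helper491): count of unexplained deficits

`lemQ` : literal form of Lemma Q of helper935's note 3246 (leaf 461), constants `12` and `96`:
for real `θ`, the number of `P0`-rough integers `l ∈ [Y, 2Y)` such that for some `1 ≤ k ≤ E`, `a`
coprime to `k`, `l ∤ a`: `|θ - a/(k l)| ≤ E/(T l)`, is `≤ (12 / P0 + 96 E^3 / T) Y`.
-/

set_option autoImplicit false

namespace Crest.Agent.R4C.LemQx491

open Finset

/-- a `δ`-separated family in an interval of length `2 r` -/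
theorem card_sep {ι : Type*} (s : Finset ι) (f : ι → ℝ) (θ r δ : ℝ) (hδ : 0 < δ) (hr0 : 0 ≤ r)
    (hr : ∀ i ∈ s, |f i - θ| ≤ r)
    (hs : ∀ i ∈ s, ∀ j ∈ s, i ≠ j → δ ≤ |f i - f j|) :
    (s.card : ℝ) ≤ 1 + 2 * r / δ := by
  classical
  have hcard : s.card ≤ ⌊2 * r / δ⌋₊ + 1 := by
    rw [← Finset.card_range (⌊2 * r / δ⌋₊ + 1)]
    refine Finset.card_le_card_of_injOn (fun i => ⌊(f i - (θ - r)) / δ⌋₊) ?_ ?_
    · intro i hi
      have h := abs_le.1 (hr i hi)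
      simp only [Finset.coe_range, Set.mem_Iio, Nat.lt_succ_iff]
      exact Nat.floor_le_floor (div_le_div_of_nonneg_right (by linarith) hδ.le)
    · intro i hi j hj hij
      by_contra hne
      have h1 := abs_le.1 (hr i hi)
      have h2 := abs_le.1 (hr j hj)
      have h3 := hs i hi j hj hne
      have hi0 : 0 ≤ (f i - (θ - r)) / δ := div_nonneg (by linarith) hδ.le
      have hj0 : 0 ≤ (f j - (θ - r)) / δ := div_nonneg (by linarith) hδ.le
      have e1 := Nat.floor_le hi0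
      have e2 := Nat.lt_floor_add_one ((f i - (θ - r)) / δ)
      have e3 := Nat.floor_le hj0
      have e4 := Nat.lt_floor_add_one ((f j - (θ - r)) / δ)
      have hij' : (⌊(f i - (θ - r)) / δ⌋₊ : ℝ) = (⌊(f j - (θ - r)) / δ⌋₊ : ℝ) := by
        exact_mod_cast hij
      have h4 : |(f i - (θ - r)) / δ - (f j - (θ - r)) / δ| < 1 := by
        rw [abs_lt]
        constructor <;> linarith
      have h5 : (f i - (θ - r)) / δ - (f j - (θ - r)) / δ = (f i - f j) / δ := by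
        rw [← sub_div]
        congr 1
        ring
      rw [h5, abs_div, abs_of_pos hδ, div_lt_one hδ] at h4
      linarith
  have h1 : ((⌊2 * r / δ⌋₊ : ℕ) : ℝ) ≤ 2 * r / δ := Nat.floor_le (by positivity)
  have h2 : (s.card : ℝ) ≤ (⌊2 * r / δ⌋₊ : ℝ) + 1 := by exact_mod_cast hcard
  linarith

/-- equal reduced fractions have equal denominators -/
theorem den_eq {n n' : ℕ} (hn : 0 < n) (hn' : 0 < n') {A A' : ℤ}
    (h : IsCoprime A (n : ℤ)) (h' : IsCoprime A' (n' : ℤ))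
    (he : (A : ℝ) / n = (A' : ℝ) / n') : n = n' := by
  have hn0 : (n : ℝ) ≠ 0 := by positivity
  have hn0' : (n' : ℝ) ≠ 0 := by positivity
  rw [div_eq_div_iff hn0 hn0'] at he
  have he' : A * (n' : ℤ) = A' * (n : ℤ) := by exact_mod_cast he
  have d1 : (n : ℤ) ∣ (n' : ℤ) := by
    exact h.symm.dvd_of_dvd_mul_left ⟨A', by rw [he']; ring⟩
  have d2 : (n' : ℤ) ∣ (n : ℤ) := by
    exact h'.symm.dvd_of_dvd_mul_left ⟨A, by rw [← he']; ring⟩
  exact Nat.dvd_antisymm (Int.natCast_dvd_natCast.1 d1) (Int.natCast_dvd_natCast.1 d2)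

/-- different fractions are separated -/
theorem frac_sep {n n' : ℕ} (hn : 0 < n) (hn' : 0 < n') {A A' : ℤ}
    (he : (A : ℝ) / n ≠ (A' : ℝ) / n') :
    1 / ((n : ℝ) * n') ≤ |(A : ℝ) / n - (A' : ℝ) / n'| := by
  have hn0 : (0 : ℝ) < n := by positivity
  have hn0' : (0 : ℝ) < n' := by positivity
  have h1 : (A : ℝ) / n - (A' : ℝ) / n' = ((A * n' - n * A' : ℤ) : ℝ) / ((n : ℝ) * n') := by
    rw [div_sub_div _ _ hn0.ne' hn0'.ne']
    push_cast
    rfl
  have h2 : (A * n' - n * A' : ℤ) ≠ 0 := by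
    intro h
    apply he
    rw [← sub_eq_zero, h1, h]
    simp
  rw [h1, abs_div, abs_of_pos (mul_pos hn0 hn0')]
  refine div_le_div_of_nonneg_right ?_ (by positivity)
  rw [← Int.cast_abs]
  exact_mod_cast Int.one_le_abs h2

/-- the `P0`-rough part of the denominator is determined -/
theorem rough_eq {P0 k k' l l' : ℕ} (hk : 0 < k) (hk' : 0 < k') (hkP : k ≤ P0) (hkP' : k' ≤ P0)
    (hl : ∀ p, p.Prime → p ∣ l → P0 < p) (hl' : ∀ p, p.Prime → p ∣ l' → P0 < p)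
    (he : k * l = k' * l') : l = l' := by
  have cop : ∀ {k l : ℕ}, 0 < k → k ≤ P0 → (∀ p, p.Prime → p ∣ l → P0 < p) → Nat.Coprime l k := by
    intro k l hk hkP hl
    refine Nat.Coprime.symm (Nat.coprime_of_dvd' ?_)
    intro p hp hpk hpl
    exact absurd (Nat.le_of_dvd hk hpk) (by have := hl p hp hpl; omega)
  have d1 : l ∣ l' := by
    refine (cop hk' hkP' hl).dvd_of_dvd_mul_left (m := k') ?_
    exact ⟨k, by rw [← he]; ring⟩
  have d2 : l' ∣ l := by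
    refine (cop hk hkP hl').dvd_of_dvd_mul_left (m := k) ?_
    exact ⟨k', by rw [he]; ring⟩
  exact Nat.dvd_antisymm d1 d2

/-- the reduced data of one `l` -/
theorem datum {θ E T Y : ℝ} (hE : 1 ≤ E) (hT : 1 ≤ T) (hY : 1 ≤ Y) {P0 l : ℕ} (hl : Y ≤ l)
    (hp : ∀ p, p.Prime → p ∣ l → P0 < p)
    (h : ∃ (k : ℕ) (a : ℤ), 1 ≤ k ∧ (k : ℝ) ≤ E ∧ IsCoprime a (k : ℤ) ∧ ¬ (l : ℤ) ∣ a ∧
      |θ - (a : ℝ) / (k * l)| ≤ E / (T * l)) :
    ∃ (k l1 d : ℕ) (A : ℤ), 1 ≤ k ∧ (k : ℝ) ≤ E ∧ l = d * l1 ∧ 0 < d ∧ P0 < l1 ∧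
      (∀ p, p.Prime → p ∣ l1 → P0 < p) ∧ IsCoprime A ((k * l1 : ℕ) : ℤ) ∧
      |(A : ℝ) / ((k * l1 : ℕ) : ℝ) - θ| ≤ E / (T * Y) := by
  obtain ⟨k, a, hk, hkE, hcop, hnd, hdist⟩ := h
  have hl0 : 0 < l := by
    have : (0 : ℝ) < l := by linarith
    exact_mod_cast this
  have ha0 : a ≠ 0 := by
    rintro rfl
    exact hnd (dvd_zero _)
  set d : ℕ := Nat.gcd l a.natAbs with hd
  have hd0 : 0 < d := Nat.gcd_pos_of_pos_left _ hl0
  obtain ⟨l1, hl1⟩ : d ∣ l := Nat.gcd_dvd_left _ _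
  obtain ⟨A, hA⟩ : (d : ℤ) ∣ a := Int.natCast_dvd.2 (Nat.gcd_dvd_right _ _)
  have hl10 : 0 < l1 := by
    rcases Nat.eq_zero_or_pos l1 with h | h
    · rw [h] at hl1; omega
    · exact h
  have hl1p : ∀ p, p.Prime → p ∣ l1 → P0 < p := fun p hpp hpd =>
    hp p hpp (hpd.trans ⟨d, by rw [hl1]; ring⟩)
  have hAl : IsCoprime A (l1 : ℤ) := by
    rw [Int.isCoprime_iff_gcd_eq_one]
    have h1 : Int.gcd a (l : ℤ) = d := by
      rw [hd, Int.gcd_comm]
      rfl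
    have h2 : Int.gcd a (l : ℤ) = d * Int.gcd A (l1 : ℤ) := by
      rw [hA, hl1, Nat.cast_mul, Int.gcd_mul_left]
      simp
    have h3 : d * Int.gcd A (l1 : ℤ) = d * 1 := by rw [← h2, h1, mul_one]
    exact Nat.eq_of_mul_eq_mul_left hd0 h3
  have hl11 : l1 ≠ 1 := by
    rintro rfl
    apply hnd
    rw [hl1, hA]
    exact ⟨A, by push_cast; ring⟩
  have hPl : P0 < l1 := by
    have h1 := hl1p _ (Nat.minFac_prime hl11) (Nat.minFac_dvd l1)
    exact lt_of_lt_of_le h1 (Nat.minFac_le hl10)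
  refine ⟨k, l1, d, A, hk, hkE, hl1, hd0, hPl, hl1p, ?_, ?_⟩
  · rw [Nat.cast_mul]
    refine IsCoprime.mul_right ?_ hAl
    rw [hA] at hcop
    exact hcop.of_mul_left_right
  · have hd0' : (0 : ℝ) < d := by exact_mod_cast hd0
    have hl10' : (0 : ℝ) < l1 := by exact_mod_cast hl10
    have hk' : (0 : ℝ) < k := by exact_mod_cast hk
    have e1 : (A : ℝ) / ((k * l1 : ℕ) : ℝ) = (a : ℝ) / (k * l) := by
      rw [hA, hl1]
      push_cast
      field_simp
    rw [e1, abs_sub_comm]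
    refine hdist.trans ?_
    have hl' : (0 : ℝ) < l := by linarith
    exact div_le_div_of_nonneg_left (by linarith) (by positivity)
      (mul_le_mul_of_nonneg_left hl (by linarith))

theorem sum_half (j0 j1 : ℕ) : ∑ j ∈ Finset.Icc j0 j1, ((1 : ℝ) / 2) ^ j ≤ 2 * (1 / 2) ^ j0 := by
  have h1 : Finset.Icc j0 j1 = Finset.Ico j0 (j1 + 1) := by
    ext x
    simp [Finset.mem_Icc, Finset.mem_Ico]
  rw [h1, Finset.sum_Ico_eq_sum_range]
  have h2 : ∀ n : ℕ, ∑ i ∈ Finset.range n, ((1 : ℝ) / 2) ^ (j0 + i)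
      = 2 * (1 / 2) ^ j0 - 2 * (1 / 2) ^ (j0 + n) := by
    intro n
    induction n with
    | zero => simp
    | succ n ih =>
      rw [Finset.sum_range_succ, ih, ← add_assoc, pow_succ]
      ring
  rw [h2]
  have : (0 : ℝ) < (1 / 2) ^ (j0 + (j1 + 1 - j0)) := by positivity
  linarith

theorem sum_two (j0 j1 : ℕ) : ∑ j ∈ Finset.Icc j0 j1, (2 : ℝ) ^ j ≤ 2 * 2 ^ j1 := by
  have h1 : ∑ j ∈ Finset.Icc j0 j1, (2 : ℝ) ^ j ≤ ∑ j ∈ Finset.range (j1 + 1), (2 : ℝ) ^ j := by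
    refine Finset.sum_le_sum_of_subset_of_nonneg ?_ (fun _ _ _ => by positivity)
    intro x hx
    rw [Finset.mem_Icc] at hx
    rw [Finset.mem_range]
    omega
  refine h1.trans ?_
  have h2 : ∀ n : ℕ, ∑ i ∈ Finset.range n, (2 : ℝ) ^ i = 2 ^ n - 1 := by
    intro n
    induction n with
    | zero => simp
    | succ n ih =>
      rw [Finset.sum_range_succ, ih, pow_succ]
      ring
  rw [h2, pow_succ]
  linarith

/-- one dyadic block of the rough part of the denominator -/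
theorem block {θ E T Y : ℝ} (hE : 1 ≤ E) (hT : 1 ≤ T) (hY : 1 ≤ Y) {P0 : ℕ} (hP0 : E < P0)
    (S : Finset ℕ) (k l1 d : ℕ → ℕ) (A : ℕ → ℤ) (j : ℕ)
    (hS : ∀ l ∈ S, Y ≤ l ∧ (l : ℝ) < 2 * Y ∧ 1 ≤ k l ∧ (k l : ℝ) ≤ E ∧ l = d l * l1 l ∧
      0 < d l ∧ P0 < l1 l ∧ (∀ p, p.Prime → p ∣ l1 l → P0 < p) ∧
      IsCoprime (A l) ((k l * l1 l : ℕ) : ℤ) ∧
      |(A l : ℝ) / ((k l * l1 l : ℕ) : ℝ) - θ| ≤ E / (T * Y) ∧
      2 ^ j ≤ l1 l ∧ l1 l < 2 ^ (j + 1)) :
    (S.card : ℝ) ≤ 3 * Y / 2 ^ j * (1 + 8 * E ^ 3 * 4 ^ j / (T * Y)) := by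
  classical
  have hTY : 0 < T * Y := by positivity
  set φ : ℕ → ℝ := fun l => (A l : ℝ) / ((k l * l1 l : ℕ) : ℝ) with hφ
  -- the fibres
  have hfib : ∀ b ∈ S.image φ, (((S.filter fun l => φ l = b).card : ℕ) : ℝ) ≤ 3 * Y / 2 ^ j := by
    intro b hb
    obtain ⟨l₀, hl₀, -⟩ := Finset.mem_image.1 hb
    obtain ⟨h1, h2, h3, h4, h5, h6, h7, h8, h9, h10, h11, h12⟩ := hS l₀ hl₀
    have e1 : ((2 : ℝ) ^ j) ≤ 2 * Y := by
      have a1 : l1 l₀ ≤ l₀ := by
        conv_rhs => rw [h5]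
        exact Nat.le_mul_of_pos_left _ h6
      have a2 : ((2 ^ j : ℕ) : ℝ) ≤ (l₀ : ℝ) := by exact_mod_cast h11.trans a1
      push_cast at a2
      linarith
    have hcs := card_sep (S.filter fun l => φ l = b) (fun l => (l : ℝ)) (3 * Y / 2) (Y / 2)
      (2 ^ j) (by positivity) (by linarith) ?_ ?_
    · refine hcs.trans ?_
      have e2 : 2 * (Y / 2) / 2 ^ j = Y / 2 ^ j := by ring
      rw [e2]
      have e3 : (1 : ℝ) ≤ 2 * Y / 2 ^ j := by
        rw [le_div_iff₀ (by positivity)]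
        linarith
      have e4 : 3 * Y / 2 ^ j = 2 * Y / 2 ^ j + Y / 2 ^ j := by ring
      linarith
    · intro l hl
      rw [Finset.mem_filter] at hl
      obtain ⟨g1, g2, -⟩ := hS l hl.1
      rw [abs_le]
      constructor <;> linarith
    · intro l hl l' hl' hne
      rw [Finset.mem_filter] at hl hl'
      obtain ⟨-, -, g3, g4, g5, g6, g7, g8, g9, g10, g11, g12⟩ := hS l hl.1
      obtain ⟨-, -, g3', g4', g5', g6', g7', g8', g9', g10', g11', g12'⟩ := hS l' hl'.1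
      have hden : k l * l1 l = k l' * l1 l' := by
        refine den_eq (Nat.mul_pos (by omega) (by omega)) (Nat.mul_pos (by omega) (by omega)) g9 g9' ?_
        have : φ l = φ l' := by rw [hl.2, hl'.2]
        simpa [hφ] using this
      have hkP : ∀ {x : ℕ}, (x : ℝ) ≤ E → x ≤ P0 := by
        intro x hx
        have : (x : ℝ) ≤ P0 := by linarith
        exact_mod_cast this
      have hrough : l1 l = l1 l' := rough_eq (by omega) (by omega) (hkP g4) (hkP g4') g8 g8' hden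
      have hd : d l ≠ d l' := by
        intro hdd
        apply hne
        rw [g5, g5', hdd, hrough]
      have e5 : (l : ℝ) - (l' : ℝ) = ((d l : ℤ) - (d l' : ℤ) : ℤ) * (l1 l : ℝ) := by
        have b1 : (l : ℝ) = (d l : ℝ) * (l1 l : ℝ) := by exact_mod_cast g5
        have b2 : (l' : ℝ) = (d l' : ℝ) * (l1 l : ℝ) := by
          rw [hrough]
          exact_mod_cast g5'
        rw [b1, b2]
        push_cast
        ring
      show (2 : ℝ) ^ j ≤ |(l : ℝ) - (l' : ℝ)|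
      rw [e5, abs_mul]
      have e6 : (1 : ℝ) ≤ |(((d l : ℤ) - (d l' : ℤ) : ℤ) : ℝ)| := by
        rw [← Int.cast_abs]
        have : ((d l : ℤ) - (d l' : ℤ)) ≠ 0 := by
          intro h
          apply hd
          omega
        exact_mod_cast Int.one_le_abs this
      have e7 : ((2 : ℝ) ^ j) ≤ |(l1 l : ℝ)| := by
        rw [abs_of_nonneg (by positivity)]
        exact_mod_cast g11
      calc (2 : ℝ) ^ j = 1 * 2 ^ j := by ring
        _ ≤ _ := mul_le_mul e6 e7 (by positivity) (abs_nonneg _)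
  -- the number of fractions
  have himg : (((S.image φ).card : ℕ) : ℝ) ≤ 1 + 8 * E ^ 3 * 4 ^ j / (T * Y) := by
    have hcs := card_sep (S.image φ) (fun x => x) θ (E / (T * Y)) (1 / (4 * E ^ 2 * 4 ^ j))
      (by positivity) (by positivity) ?_ ?_
    · refine hcs.trans (le_of_eq ?_)
      field_simp
      ring
    · intro b hb
      obtain ⟨l, hl, rfl⟩ := Finset.mem_image.1 hb
      exact (hS l hl).2.2.2.2.2.2.2.2.2.1
    · intro b hb b' hb' hne
      obtain ⟨l, hl, rfl⟩ := Finset.mem_image.1 hb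
      obtain ⟨l', hl', rfl⟩ := Finset.mem_image.1 hb'
      obtain ⟨-, -, g3, g4, g5, g6, g7, g8, g9, g10, g11, g12⟩ := hS l hl
      obtain ⟨-, -, g3', g4', g5', g6', g7', g8', g9', g10', g11', g12'⟩ := hS l' hl'
      have hn : 0 < k l * l1 l := Nat.mul_pos (by omega) (by omega)
      have hn' : 0 < k l' * l1 l' := Nat.mul_pos (by omega) (by omega)
      refine le_trans ?_ (frac_sep hn hn' hne)
      have hb1 : ∀ {x y : ℕ}, (x : ℝ) ≤ E → y < 2 ^ (j + 1) →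
          ((x * y : ℕ) : ℝ) ≤ E * (2 * 2 ^ j) := by
        intro x y hx hy
        push_cast
        have : (y : ℝ) ≤ 2 * 2 ^ j := by
          have : (y : ℝ) < ((2 ^ (j + 1) : ℕ) : ℝ) := by exact_mod_cast hy
          push_cast at this
          rw [pow_succ] at this
          linarith
        exact mul_le_mul hx this (by positivity) (by linarith)
      have c1 := hb1 g4 g12
      have c2 := hb1 g4' g12'
      have hn1 : (0 : ℝ) < ((k l * l1 l : ℕ) : ℝ) := by exact_mod_cast hn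
      have hn2 : (0 : ℝ) < ((k l' * l1 l' : ℕ) : ℝ) := by exact_mod_cast hn'
      refine one_div_le_one_div_of_le (mul_pos hn1 hn2) ?_
      calc ((k l * l1 l : ℕ) : ℝ) * ((k l' * l1 l' : ℕ) : ℝ)
          ≤ (E * (2 * 2 ^ j)) * (E * (2 * 2 ^ j)) :=
            mul_le_mul c1 c2 hn2.le (by positivity)
        _ = 4 * E ^ 2 * 4 ^ j := by
            have : (4 : ℝ) ^ j = 2 ^ j * 2 ^ j := by
              rw [← mul_pow]
              norm_num
            rw [this]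
            ring
  have htot : (S.card : ℝ) ≤ ∑ b ∈ S.image φ, 3 * Y / 2 ^ j := by
    have : (S.card : ℝ) = ∑ b ∈ S.image φ, (((S.filter fun l => φ l = b).card : ℕ) : ℝ) := by
      have := Finset.card_eq_sum_card_image φ S
      exact_mod_cast this
    rw [this]
    exact Finset.sum_le_sum hfib
  refine htot.trans ?_
  rw [Finset.sum_const, nsmul_eq_mul, mul_comm]
  exact mul_le_mul_of_nonneg_left himg (by positivity)

/-- **Lemma Q** (935, note 3246): the count of unexplained deficits. -/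
theorem lemQ (θ E T : ℝ) (hE : 1 ≤ E) (hT : 1 ≤ T) (P0 : ℕ) (hP0 : E < P0) (Y : ℝ) (hY : 1 ≤ Y)
    (S : Finset ℕ)
    (hS : ∀ l ∈ S, Y ≤ (l : ℝ) ∧ (l : ℝ) < 2 * Y ∧ (∀ p : ℕ, p.Prime → p ∣ l → P0 < p) ∧
      ∃ (k : ℕ) (a : ℤ), 1 ≤ k ∧ (k : ℝ) ≤ E ∧ IsCoprime a (k : ℤ) ∧ ¬ (l : ℤ) ∣ a ∧
        |θ - (a : ℝ) / ((k : ℝ) * l)| ≤ E / (T * l)) :
    (S.card : ℝ) ≤ (12 / P0 + 96 * E ^ 3 / T) * Y := by
  classical
  have hdat : ∀ l ∈ S, ∃ (k l1 d : ℕ) (A : ℤ), 1 ≤ k ∧ (k : ℝ) ≤ E ∧ l = d * l1 ∧ 0 < d ∧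
      P0 < l1 ∧ (∀ p : ℕ, p.Prime → p ∣ l1 → P0 < p) ∧ IsCoprime A ((k * l1 : ℕ) : ℤ) ∧
      |(A : ℝ) / ((k * l1 : ℕ) : ℝ) - θ| ≤ E / (T * Y) := by
    intro l hl
    obtain ⟨h1, h2, h3, h4⟩ := hS l hl
    exact datum hE hT hY h1 h3 h4
  choose! k l1 d A hdat using hdat
  have hP1 : (1 : ℝ) < P0 := by linarith
  have hP0' : 0 < P0 := by
    have : (0 : ℝ) < P0 := by linarith
    exact_mod_cast this
  set j0 := Nat.log 2 P0 with hj0
  set j1 := Nat.log 2 ⌊2 * Y⌋₊ with hj1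
  have hmap : ∀ l ∈ S, Nat.log 2 (l1 l) ∈ Finset.Icc j0 j1 := by
    intro l hl
    obtain ⟨g1, g2, g3, g4, g5, g6, g7, g8⟩ := hdat l hl
    obtain ⟨h1, h2, h3, h4⟩ := hS l hl
    rw [Finset.mem_Icc]
    refine ⟨Nat.log_mono_right g5.le, Nat.log_mono_right ?_⟩
    have a1 : l1 l ≤ l := by
      conv_rhs => rw [g3]
      exact Nat.le_mul_of_pos_left _ g4
    refine a1.trans (Nat.le_floor ?_)
    linarith
  have hcard : S.card = ∑ j ∈ Finset.Icc j0 j1, (S.filter fun l => Nat.log 2 (l1 l) = j).card :=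
    Finset.card_eq_sum_card_fiberwise hmap
  have hblock : ∀ j ∈ Finset.Icc j0 j1,
      (((S.filter fun l => Nat.log 2 (l1 l) = j).card : ℕ) : ℝ)
        ≤ 3 * Y * (1 / 2) ^ j + 24 * E ^ 3 / T * 2 ^ j := by
    intro j _
    refine (block (θ := θ) hE hT hY hP0 _ k l1 d A j ?_).trans (le_of_eq ?_)
    · intro l hl
      rw [Finset.mem_filter] at hl
      obtain ⟨g1, g2, g3, g4, g5, g6, g7, g8⟩ := hdat l hl.1
      obtain ⟨h1, h2, h3, h4⟩ := hS l hl.1
      have hl10 : l1 l ≠ 0 := by omega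
      refine ⟨h1, h2, g1, g2, g3, g4, g5, g6, g7, g8, ?_, ?_⟩
      · rw [← hl.2]
        exact Nat.pow_log_le_self 2 hl10
      · rw [← hl.2]
        exact Nat.lt_pow_succ_log_self (by norm_num) _
    · have h4 : (4 : ℝ) ^ j = 2 ^ j * 2 ^ j := by
        rw [← mul_pow]
        norm_num
      have hY0 : Y ≠ 0 := by linarith
      have hT0 : T ≠ 0 := by linarith
      have h2 : (2 : ℝ) ^ j ≠ 0 := by positivity
      rw [h4, one_div, inv_pow]
      field_simp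
      ring
  have hsum : (S.card : ℝ) ≤ 3 * Y * (2 * (1 / 2) ^ j0) + 24 * E ^ 3 / T * (2 * 2 ^ j1) := by
    have h1 : (S.card : ℝ)
        = ∑ j ∈ Finset.Icc j0 j1, (((S.filter fun l => Nat.log 2 (l1 l) = j).card : ℕ) : ℝ) := by
      exact_mod_cast hcard
    rw [h1]
    refine (Finset.sum_le_sum hblock).trans ?_
    rw [Finset.sum_add_distrib, ← Finset.mul_sum, ← Finset.mul_sum]
    exact add_le_add (mul_le_mul_of_nonneg_left (sum_half _ _) (by positivity))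
      (mul_le_mul_of_nonneg_left (sum_two _ _) (by positivity))
  refine hsum.trans ?_
  have hp : (P0 : ℝ) < 2 * 2 ^ j0 := by
    have := Nat.lt_pow_succ_log_self (b := 2) (by norm_num) P0
    have h : (P0 : ℝ) < ((2 ^ (j0 + 1) : ℕ) : ℝ) := by exact_mod_cast this
    push_cast at h
    rw [pow_succ] at h
    linarith
  have hq : (2 : ℝ) ^ j1 ≤ 2 * Y := by
    have h0 : ⌊2 * Y⌋₊ ≠ 0 := by
      have : 1 ≤ ⌊2 * Y⌋₊ := Nat.le_floor (by push_cast; linarith)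
      omega
    have h1 := Nat.pow_log_le_self 2 h0
    have h2 : ((2 ^ j1 : ℕ) : ℝ) ≤ (⌊2 * Y⌋₊ : ℝ) := by exact_mod_cast h1
    push_cast at h2
    exact h2.trans (Nat.floor_le (by linarith))
  have e1 : ((1 : ℝ) / 2) ^ j0 ≤ 2 / P0 := by
    rw [one_div, inv_pow, le_div_iff₀ (by linarith), inv_mul_le_iff₀ (by positivity)]
    linarith
  have e2 : 24 * E ^ 3 / T * (2 * 2 ^ j1) ≤ 24 * E ^ 3 / T * (2 * (2 * Y)) :=
    mul_le_mul_of_nonneg_left (by linarith) (by positivity)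
  have e3 : 3 * Y * (2 * (1 / 2) ^ j0) ≤ 3 * Y * (2 * (2 / P0)) :=
    mul_le_mul_of_nonneg_left (by linarith) (by positivity)
  calc 3 * Y * (2 * (1 / 2) ^ j0) + 24 * E ^ 3 / T * (2 * 2 ^ j1)
      ≤ 3 * Y * (2 * (2 / P0)) + 24 * E ^ 3 / T * (2 * (2 * Y)) := add_le_add e3 e2
    _ = (12 / P0 + 96 * E ^ 3 / T) * Y := by ring

end Crest.Agent.R4C.LemQx491
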