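import Crest.Agent.R4C.LowTau_808

/-!
# Row 4: the low kernel of MX, final lines (helper808)  —  (r2) of 899's MX1

Fixed high words `T, T'`, low words over `low y M`; `v = G · mass M f y T`, `v' = G · mass M f' y T'`.

* `low_deep` : relation = deep (284: labelled, not short, depth `≥ K ≥ 64`), `log y ≤ A log K`:
  `frm ≤ C K^(-1/(4r)) G⁻¹ (v v')^((1+κ)/2)`;
* `low_size`, `low_size'` : first (second) cofactor `≥ A₁`:
  `frm ≤ C (log y)^B A₁^(-1/(r log y)) G⁻¹ (v v')^((1+κ)/2)`.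
-/

set_option autoImplicit false

open Finset

namespace Crest.Agent.R4C.LowTauBx808

open Basex935 Cutx50 MXlowx808 MXlowBx808 RelTailx808 RelRarex808 LowTaux808 S2x232

/-- powers of the logarithm are absorbed -/
lemma log_pow_le {s ε : ℝ} (hs : 0 ≤ s) (hε : 0 < ε) :
    ∃ C : ℝ, 1 ≤ C ∧ ∀ K : ℝ, 1 ≤ K → Real.log K ^ s ≤ C * K ^ ε := by
  rcases eq_or_lt_of_le hs with h0 | h0
  · refine ⟨1, le_rfl, fun K hK => ?_⟩
    rw [← h0, Real.rpow_zero, one_mul]
    exact Real.one_le_rpow hK hε.le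
  · set d := ε / s with hd
    have hd0 : 0 < d := div_pos hε h0
    refine ⟨max 1 ((1 / d) ^ s), le_max_left _ _, fun K hK => ?_⟩
    have hK0 : 0 < K := by linarith
    have h1 : Real.log K ≤ K ^ d / d := Real.log_le_rpow_div hK0.le hd0
    have hl : 0 ≤ Real.log K := Real.log_nonneg hK
    calc Real.log K ^ s ≤ (K ^ d / d) ^ s := Real.rpow_le_rpow hl h1 hs
      _ = (1 / d) ^ s * K ^ ε := by
          rw [div_eq_mul_one_div, Real.mul_rpow (by positivity) (by positivity),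
            ← Real.rpow_mul hK0.le, mul_comm]
          congr 2
          rw [hd]; field_simp
      _ ≤ max 1 ((1 / d) ^ s) * K ^ ε :=
          mul_le_mul_of_nonneg_right (le_max_right _ _) (by positivity)

/-- **deep relation** -/
theorem low_deep {κ r A : ℝ} (hκ : 0 < κ) (hκ1 : κ < 1) (hr : 2 / (1 - κ) < r) (hA : 0 ≤ A) :
    ∃ C : ℝ, 1 ≤ C ∧ ∀ (y M T T' : ℕ) (f f' : ℕ → ℝ) (k : ℕ → ℕ → ℝ) (ξ ξ' t E K G : ℝ),
      8 ≤ y → Real.log y ≤ A * Real.log K → 8 * E ^ 5 ≤ t → 0 ≤ t → 64 ≤ K →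
      (∀ b, 0 ≤ f b) → (∀ b, f b ≤ 1) → (∀ b, 0 ≤ f' b) → (∀ b, f' b ≤ 1) →
      (∀ n n', 0 ≤ k n n') →
      (∀ n n', n ∣ low y M → n' ∣ low y M →
        k n n' ≤ KD ξ ξ' t E K (n / Nat.gcd n n') (n' / Nat.gcd n n')) →
      (∀ n n', n ∣ low y M → n' ∣ low y M → k n n' ≠ 0 → (Nat.gcd n n' : ℝ) ≤ 2 * G) → 0 < G →
      frm (low y M) (fun n n' => f (n * T) * f' (n' * T') * k n n') ≤
        C * K ^ (-(1 / (4 * r))) * G⁻¹ *
          ((G * Cutx50.mass M f y T) * (G * Cutx50.mass M f' y T')) ^ ((1 + κ) / 2) := by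
  obtain ⟨B, C, hB, hC, h⟩ := low_kernel_cut hκ hκ1 hr
  have h1κ : 0 < 1 - κ := by linarith
  have hr0 : 0 < r := lt_trans (by positivity) hr
  obtain ⟨C1, hC1, hlog⟩ := log_pow_le (s := B + 4 / r) (ε := 1 / (12 * r)) (by positivity)
    (by positivity)
  set Cd := 2 * Real.exp 14 + 5 with hCd
  have hCd0 : 0 < Cd := by positivity
  set C2 := (Cd * (1 + 2 * A) ^ 2) ^ (1 / r) with hC2
  have hC20 : 0 ≤ C2 := by positivity
  refine ⟨max 1 (C * A ^ B * C2 * C1), le_max_left _ _, ?_⟩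
  intro y M T T' f f' k ξ ξ' t E K G hy hly ht ht0 hK hf hf1 hf' hf1' hk hkK hkG hG
  have hK0 : 0 < K := by linarith
  have hy8 : (8 : ℝ) ≤ y := by exact_mod_cast hy
  have hly2 : 2 ≤ Real.log y := log_eight.trans (Real.log_le_log (by norm_num) hy8)
  have hlK : 1 ≤ Real.log K := by
    have h1 : Real.log 8 ≤ Real.log K := Real.log_le_log (by norm_num) (by linarith)
    linarith [log_eight]
  have hlK0 : 0 < Real.log K := by linarith
  have hm := mass_nonneg M hf y T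
  have hm' := mass_nonneg M hf' y T'
  have h1 := h y M T T' f f' k (KD ξ ξ' t E K) _ G hy hf hf1 hf' hf1' (KD_nonneg _ _ _ _ _)
    (KD_le_one _ _ _ _ _) hk hkK hkG (dens_KD M hy ht ht0 hK) hG
  refine h1.trans ?_
  refine mul_le_mul_of_nonneg_right ?_ (by positivity)
  refine mul_le_mul_of_nonneg_right ?_ (by positivity)
  have hW : 1 + 2 * Real.log y * Real.log K ≤ (1 + 2 * A) * Real.log K ^ 2 := by
    have a1 : 2 * Real.log y * Real.log K ≤ 2 * (A * Real.log K) * Real.log K :=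
      mul_le_mul_of_nonneg_right (by linarith) hlK0.le
    have a2 : (1 : ℝ) ≤ Real.log K ^ 2 := one_le_pow₀ hlK
    nlinarith
  have hW0 : 0 ≤ 1 + 2 * Real.log y * Real.log K := by positivity
  have hτ : (Cd * ((1 + 2 * Real.log y * Real.log K) ^ 2 * K ^ (-(1 : ℝ) / 3))) ^ (1 / r) ≤
      C2 * Real.log K ^ (4 / r) * K ^ (-(1 / (3 * r))) := by
    calc (Cd * ((1 + 2 * Real.log y * Real.log K) ^ 2 * K ^ (-(1 : ℝ) / 3))) ^ (1 / r)
        ≤ (Cd * (((1 + 2 * A) * Real.log K ^ 2) ^ 2 * K ^ (-(1 : ℝ) / 3))) ^ (1 / r) := by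
          refine Real.rpow_le_rpow (by positivity) ?_ (by positivity)
          refine mul_le_mul_of_nonneg_left ?_ hCd0.le
          exact mul_le_mul_of_nonneg_right (pow_le_pow_left₀ hW0 hW 2) (by positivity)
      _ = ((Cd * (1 + 2 * A) ^ 2) * (Real.log K ^ (4 : ℝ) * K ^ (-(1 : ℝ) / 3))) ^ (1 / r) := by
          congr 1
          have : Real.log K ^ (4 : ℝ) = Real.log K ^ (4 : ℕ) := by
            rw [← Real.rpow_natCast]; norm_num
          rw [this]
          ring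
      _ = C2 * Real.log K ^ (4 / r) * K ^ (-(1 / (3 * r))) := by
          have b1 : ((Cd * (1 + 2 * A) ^ 2) * (Real.log K ^ (4 : ℝ) * K ^ (-(1 : ℝ) / 3))) ^ (1 / r) =
              (Cd * (1 + 2 * A) ^ 2) ^ (1 / r) *
                (Real.log K ^ (4 : ℝ) * K ^ (-(1 : ℝ) / 3)) ^ (1 / r) :=
            Real.mul_rpow (by positivity) (by positivity)
          have b2 : (Real.log K ^ (4 : ℝ) * K ^ (-(1 : ℝ) / 3)) ^ (1 / r) =
              (Real.log K ^ (4 : ℝ)) ^ (1 / r) * (K ^ (-(1 : ℝ) / 3)) ^ (1 / r) :=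
            Real.mul_rpow (by positivity) (by positivity)
          have b3 : (Real.log K ^ (4 : ℝ)) ^ (1 / r) = Real.log K ^ (4 / r) := by
            rw [← Real.rpow_mul hlK0.le]
            congr 1
            ring
          have b4 : (K ^ (-(1 : ℝ) / 3)) ^ (1 / r) = K ^ (-(1 / (3 * r))) := by
            rw [← Real.rpow_mul hK0.le]
            congr 1
            field_simp
          rw [b1, b2, b3, b4]
          ring
  have hlyB : Real.log y ^ B ≤ A ^ B * Real.log K ^ B := by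
    rw [← Real.mul_rpow hA hlK0.le]
    exact Real.rpow_le_rpow (by linarith) hly hB
  calc C * Real.log y ^ B *
        (Cd * ((1 + 2 * Real.log y * Real.log K) ^ 2 * K ^ (-(1 : ℝ) / 3))) ^ (1 / r)
      ≤ C * (A ^ B * Real.log K ^ B) * (C2 * Real.log K ^ (4 / r) * K ^ (-(1 / (3 * r)))) := by
        refine mul_le_mul (mul_le_mul_of_nonneg_left hlyB (by linarith)) hτ (by positivity)
          (by positivity)
    _ = C * A ^ B * C2 * (Real.log K ^ (B + 4 / r)) * K ^ (-(1 / (3 * r))) := by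
        rw [Real.rpow_add hlK0]
        ring
    _ ≤ C * A ^ B * C2 * (C1 * K ^ (1 / (12 * r))) * K ^ (-(1 / (3 * r))) := by
        refine mul_le_mul_of_nonneg_right ?_ (by positivity)
        exact mul_le_mul_of_nonneg_left (hlog K (by linarith)) (by positivity)
    _ = C * A ^ B * C2 * C1 * K ^ (-(1 / (4 * r))) := by
        have : K ^ (-(1 / (4 * r))) = K ^ (1 / (12 * r)) * K ^ (-(1 / (3 * r))) := by
          rw [← Real.rpow_add hK0]
          congr 1
          field_simp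
          ring
        rw [this]
        ring
    _ ≤ max 1 (C * A ^ B * C2 * C1) * K ^ (-(1 / (4 * r))) :=
        mul_le_mul_of_nonneg_right (le_max_right _ _) (by positivity)

/-- **large first cofactor** -/
theorem low_size {κ r : ℝ} (hκ : 0 < κ) (hκ1 : κ < 1) (hr : 2 / (1 - κ) < r) :
    ∃ B C : ℝ, 0 ≤ B ∧ 1 ≤ C ∧ ∀ (y M T T' : ℕ) (f f' : ℕ → ℝ) (k : ℕ → ℕ → ℝ) (A₁ G : ℝ),
      8 ≤ y → 0 < A₁ →
      (∀ b, 0 ≤ f b) → (∀ b, f b ≤ 1) → (∀ b, 0 ≤ f' b) → (∀ b, f' b ≤ 1) →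
      (∀ n n', 0 ≤ k n n') → (∀ n n', k n n' ≤ 1) →
      (∀ n n', n ∣ low y M → n' ∣ low y M → k n n' ≠ 0 → A₁ ≤ ((n / Nat.gcd n n' : ℕ) : ℝ)) →
      (∀ n n', n ∣ low y M → n' ∣ low y M → k n n' ≠ 0 → (Nat.gcd n n' : ℝ) ≤ 2 * G) → 0 < G →
      frm (low y M) (fun n n' => f (n * T) * f' (n' * T') * k n n') ≤
        C * Real.log y ^ B * A₁ ^ (-(1 / (r * Real.log y))) * G⁻¹ *
          ((G * Cutx50.mass M f y T) * (G * Cutx50.mass M f' y T')) ^ ((1 + κ) / 2) := by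
  obtain ⟨B, C, hB, hC, h⟩ := low_kernel_cut hκ hκ1 hr
  have h1κ : 0 < 1 - κ := by linarith
  have hr0 : 0 < r := lt_trans (by positivity) hr
  have hE : 1 ≤ Real.exp 14 ^ (1 / r) :=
    Real.one_le_rpow (Real.one_le_exp (by norm_num)) (by positivity)
  refine ⟨B, C * Real.exp 14 ^ (1 / r), hB, one_le_mul_of_one_le_of_one_le hC hE, ?_⟩
  intro y M T T' f f' k A₁ G hy hA hf hf1 hf' hf1' hk hk1 hkA hkG hG
  have hy8 : (8 : ℝ) ≤ y := by exact_mod_cast hy
  have hly2 : 2 ≤ Real.log y := log_eight.trans (Real.log_le_log (by norm_num) hy8)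
  have h1 := h y M T T' f f' k (KS A₁) _ G hy hf hf1 hf' hf1' (KS_nonneg _)
    (KS_le_one _) hk (fun n n' hn hn' => by
      unfold KS
      split_ifs with h2
      · exact hk1 n n'
      · by_contra h3
        push Not at h3
        exact h2 (hkA n n' hn hn' h3.ne')) hkG (dens_KS M hy hA) hG
  refine h1.trans (le_of_eq ?_)
  rw [Real.mul_rpow (Real.exp_pos _).le (by positivity), ← Real.rpow_mul hA.le]
  have : -(1 / Real.log y) * (1 / r) = -(1 / (r * Real.log y)) := by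
    field_simp
  rw [this]
  ring

lemma frm_swap (N : ℕ) (F : ℕ → ℕ → ℝ) : frm N F = frm N fun n n' => F n' n := by
  unfold frm
  rw [sum_comm]
  refine sum_congr rfl fun b _ => sum_congr rfl fun c _ => ?_
  rw [Nat.gcd_comm c b]
  ring

/-- **large second cofactor** -/
theorem low_size' {κ r : ℝ} (hκ : 0 < κ) (hκ1 : κ < 1) (hr : 2 / (1 - κ) < r) :
    ∃ B C : ℝ, 0 ≤ B ∧ 1 ≤ C ∧ ∀ (y M T T' : ℕ) (f f' : ℕ → ℝ) (k : ℕ → ℕ → ℝ) (A₁ G : ℝ),
      8 ≤ y → 0 < A₁ →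
      (∀ b, 0 ≤ f b) → (∀ b, f b ≤ 1) → (∀ b, 0 ≤ f' b) → (∀ b, f' b ≤ 1) →
      (∀ n n', 0 ≤ k n n') → (∀ n n', k n n' ≤ 1) →
      (∀ n n', n ∣ low y M → n' ∣ low y M → k n n' ≠ 0 → A₁ ≤ ((n' / Nat.gcd n n' : ℕ) : ℝ)) →
      (∀ n n', n ∣ low y M → n' ∣ low y M → k n n' ≠ 0 → (Nat.gcd n n' : ℝ) ≤ 2 * G) → 0 < G →
      frm (low y M) (fun n n' => f (n * T) * f' (n' * T') * k n n') ≤
        C * Real.log y ^ B * A₁ ^ (-(1 / (r * Real.log y))) * G⁻¹ *
          ((G * Cutx50.mass M f y T) * (G * Cutx50.mass M f' y T')) ^ ((1 + κ) / 2) := by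
  obtain ⟨B, C, hB, hC, h⟩ := low_size hκ hκ1 hr
  refine ⟨B, C, hB, hC, ?_⟩
  intro y M T T' f f' k A₁ G hy hA hf hf1 hf' hf1' hk hk1 hkA hkG hG
  have h1 := h y M T' T f' f (fun n n' => k n' n) A₁ G hy hA hf' hf1' hf hf1
    (fun _ _ => hk _ _) (fun _ _ => hk1 _ _)
    (fun n n' hn hn' h2 => by rw [Nat.gcd_comm]; exact hkA n' n hn' hn h2)
    (fun n n' hn hn' h2 => by rw [Nat.gcd_comm]; exact hkG n' n hn' hn h2) hG
  rw [frm_swap]
  refine le_trans (le_of_eq ?_) (h1.trans (le_of_eq ?_))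
  · unfold frm
    refine sum_congr rfl fun b _ => sum_congr rfl fun c _ => ?_
    beta_reduce
    ring
  · rw [mul_comm (G * Cutx50.mass M f' y T')]

end Crest.Agent.R4C.LowTauBx808
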