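import Crest.Agent.R4C.RelRare_808

/-!
# Row 4: THE LOW KERNEL with a relation, exact masses (helper808)

`N` = a number all of whose primes are `≤ y` (`y ≥ 8`), in MX `N = low y M`.  The anatomy weight of
THEOREM (T) is `≤ (C log y)^Λ` on the divisors of `N`, so it disappears:

* `low_kernel` : `f, f' ∈ [0,1]`, `k ≥ 0` any kernel with `k n n' ≤ K (n/g) (n'/g)` and
  `k n n' = 0` unless `g ≤ 2G`; `K ∈ [0,1]` of natural density `≤ τ` on coprime pairs of divisors of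
  `N` ⇒ `frm N (f f' k) ≤ C (log y)^B τ^(1/r) G^κ (Ex N f · Ex N f')^((1+κ)/2)`;
* `low_kernel_cut` : the same for fixed high words `T, T'` (`N = low y M`), masses `mass M f y T`;
* `low_deep`, `low_rare`, `low_size` : the three relations of MX / S2.
-/

set_option autoImplicit false

open Finset

namespace Crest.Agent.R4C.LowTaux808

open Basex935 Cutx50 MXlowx808 MXlowBx808 RelTailx808 RelRarex808 S2x232

/-- Mertens: `∑_{p ≤ y} 1/p ≤ log log y + 9` for `y ≥ 8`, in the form `∏ (1+Λ/p) ≤ C (log y)^Λ` -/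
lemma aw_le {Λ : ℝ} (hΛ : 0 ≤ Λ) : ∃ C : ℝ, 1 ≤ C ∧ ∀ (y b : ℕ), 8 ≤ y →
    (∀ p, p.Prime → p ∣ b → p ≤ y) → aw Λ b ≤ C * Real.log y ^ Λ := by
  refine ⟨Real.exp (Λ * (1 / 2 + 7 / Real.log 2 + |Real.log (Real.log 2)|)), ?_, ?_⟩
  · apply Real.one_le_exp
    have : 0 ≤ 7 / Real.log 2 := div_nonneg (by norm_num) (Real.log_nonneg (by norm_num))
    positivity
  intro y b hy hb
  have hy8 : (8 : ℝ) ≤ y := by exact_mod_cast hy
  have hly : 2 ≤ Real.log y := log_eight.trans (Real.log_le_log (by norm_num) hy8)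
  have h2 : 0 < Real.log 2 := Real.log_pos (by norm_num)
  have h1 : aw Λ b ≤ Real.exp (Λ * ∑ p ∈ b.primeFactors, 1 / (p : ℝ)) := by
    unfold aw
    rw [mul_sum, Real.exp_sum]
    refine prod_le_prod (fun p _ => by positivity) fun p _ => ?_
    have := Real.add_one_le_exp (Λ * (1 / (p : ℝ)))
    have e : Λ / (p : ℝ) = Λ * (1 / p) := by ring
    rw [e]
    linarith
  have h3 : ∑ p ∈ b.primeFactors, 1 / (p : ℝ) ≤
      1 / 2 + (Real.log (Real.log y) - Real.log (Real.log 2) + 7 / Real.log 2) := by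
    have hm := (abs_le.1 (Crest.Agent.Lib.Mertens.mertens_two_nat 2 y le_rfl (by omega))).2
    have hsub : b.primeFactors ⊆ insert 2 (Crest.Agent.Lib.Mertens.primesIoc 2 y) := by
      intro p hp
      have hpp := Nat.prime_of_mem_primeFactors hp
      have hpy := hb p hpp (Nat.dvd_of_mem_primeFactors hp)
      rw [mem_insert]
      rcases eq_or_lt_of_le hpp.two_le with h | h
      · exact Or.inl h.symm
      · exact Or.inr (Crest.Agent.Lib.Mertens.mem_primesIoc.2 ⟨⟨h, hpy⟩, hpp⟩)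
    have h4 : ∑ p ∈ b.primeFactors, 1 / (p : ℝ) ≤
        ∑ p ∈ insert 2 (Crest.Agent.Lib.Mertens.primesIoc 2 y), 1 / (p : ℝ) :=
      sum_le_sum_of_subset_of_nonneg hsub fun _ _ _ => by positivity
    rw [sum_insert] at h4
    · have h5 : ∑ p ∈ Crest.Agent.Lib.Mertens.primesIoc 2 y, 1 / (p : ℝ) =
          Crest.Agent.Lib.Mertens.S 2 y := by
        unfold Crest.Agent.Lib.Mertens.S
        rfl
      rw [h5] at h4
      push_cast at h4 hm
      linarith
    · intro h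
      have := (Crest.Agent.Lib.Mertens.mem_primesIoc.1 h).1.1
      omega
  have hll : 0 < Real.log y := by linarith
  calc aw Λ b ≤ Real.exp (Λ * ∑ p ∈ b.primeFactors, 1 / (p : ℝ)) := h1
    _ ≤ Real.exp (Λ * (1 / 2 + 7 / Real.log 2 + |Real.log (Real.log 2)|) +
          Real.log (Real.log y) * Λ) := by
        apply Real.exp_le_exp.2
        have h6 : -Real.log (Real.log 2) ≤ |Real.log (Real.log 2)| := neg_le_abs _
        have h7 := mul_le_mul_of_nonneg_left h3 hΛ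
        nlinarith
    _ = _ := by
        rw [Real.exp_add, Real.rpow_def_of_pos hll]

/-- **the low kernel** -/
theorem low_kernel {κ r : ℝ} (hκ : 0 < κ) (hκ1 : κ < 1) (hr : 2 / (1 - κ) < r) :
    ∃ B C : ℝ, 0 ≤ B ∧ 1 ≤ C ∧ ∀ (y N : ℕ) (f f' : ℕ → ℝ) (k K : ℕ → ℕ → ℝ) (τ G : ℝ),
      8 ≤ y → 0 < N → (∀ p, p.Prime → p ∣ N → p ≤ y) →
      (∀ b, 0 ≤ f b) → (∀ b, f b ≤ 1) → (∀ b, 0 ≤ f' b) → (∀ b, f' b ≤ 1) →
      (∀ s t, 0 ≤ K s t) → (∀ s t, K s t ≤ 1) →
      (∀ n n', 0 ≤ k n n') →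
      (∀ n n', n ∣ N → n' ∣ N → k n n' ≤ K (n / Nat.gcd n n') (n' / Nat.gcd n n')) →
      (∀ n n', n ∣ N → n' ∣ N → k n n' ≠ 0 → (Nat.gcd n n' : ℝ) ≤ 2 * G) →
      MXlowx808.dens N K ≤ τ → 0 < G →
      frm N (fun n n' => f n * f' n' * k n n') ≤
        C * Real.log y ^ B * τ ^ (1 / r) * G ^ κ * (Ex N f * Ex N f') ^ ((1 + κ) / 2) := by
  obtain ⟨Λ, C, hΛ, hC, hT⟩ := tgen hκ hκ1 hr
  obtain ⟨A, hA, haw⟩ := aw_le hΛ
  have h1κ : 0 < 1 - κ := by linarith
  have hr0 : 0 < r := lt_trans (by positivity) hr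
  have hr2 : 2 < r := by
    have h2 : (2:ℝ) ≤ 2 / (1 - κ) := by
      rw [le_div_iff₀ h1κ]; linarith
    linarith
  refine ⟨Λ * (1 + κ), 2 * C * A ^ (1 + κ), by positivity, ?_, ?_⟩
  · have : 1 ≤ A ^ (1 + κ) := Real.one_le_rpow hA (by linarith)
    nlinarith
  intro y N f f' k K τ G hy hN hprime hf hf1 hf' hf1' hK hK1 hk hkK hkG hτ hG
  have hy8 : (8 : ℝ) ≤ y := by exact_mod_cast hy
  have hly : 2 ≤ Real.log y := log_eight.trans (Real.log_le_log (by norm_num) hy8)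
  have hly0 : 0 < Real.log y := by linarith
  have hρ : 0 < (1 + κ) / 2 := by linarith
  have hτ0 : 0 ≤ τ := (dens_nonneg N hK).trans hτ
  -- step 1: to the weight gcd^(1-κ)
  have hstep : frm N (fun n n' => f n * f' n' * k n n') ≤
      (2 * G) ^ κ * ∑ b ∈ N.divisors, ∑ c ∈ N.divisors, nu N b * nu N c *
        (Nat.gcd b c : ℝ) ^ (1 - κ) * (f b * f' c * K (b / Nat.gcd b c) (c / Nat.gcd b c)) := by
    unfold frm
    rw [mul_sum]
    refine sum_le_sum fun b hb => ?_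
    rw [mul_sum]
    refine sum_le_sum fun c hc => ?_
    rw [Nat.mem_divisors] at hb hc
    beta_reduce
    have hn : 0 ≤ nu N b * nu N c := mul_nonneg (nu_nonneg _ _) (nu_nonneg _ _)
    have hff : 0 ≤ f b * f' c := mul_nonneg (hf b) (hf' c)
    have hkk := hkK b c hb.1 hc.1
    have hKn := hK (b / Nat.gcd b c) (c / Nat.gcd b c)
    by_cases h0 : k b c = 0
    · rw [h0, mul_zero, mul_zero]
      exact mul_nonneg (Real.rpow_nonneg (by linarith) _)
        (mul_nonneg (mul_nonneg hn (Real.rpow_nonneg (Nat.cast_nonneg _) _)) (mul_nonneg hff hKn))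
    · have hg2 := hkG b c hb.1 hc.1 h0
      have hg : 0 < (Nat.gcd b c : ℝ) := by
        exact_mod_cast Nat.gcd_pos_of_pos_left c (Nat.pos_of_dvd_of_pos hb.1 hN)
      have h1 : (Nat.gcd b c : ℝ) ≤ (2 * G) ^ κ * (Nat.gcd b c : ℝ) ^ (1 - κ) := by
        calc (Nat.gcd b c : ℝ) = (Nat.gcd b c : ℝ) ^ κ * (Nat.gcd b c : ℝ) ^ (1 - κ) := by
              rw [← Real.rpow_add hg]
              norm_num
          _ ≤ (2 * G) ^ κ * (Nat.gcd b c : ℝ) ^ (1 - κ) :=
              mul_le_mul_of_nonneg_right (Real.rpow_le_rpow hg.le hg2 hκ.le)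
                (Real.rpow_nonneg hg.le _)
      calc (Nat.gcd b c : ℝ) * nu N b * nu N c * (f b * f' c * k b c)
          = (Nat.gcd b c : ℝ) * ((nu N b * nu N c) * (f b * f' c * k b c)) := by ring
        _ ≤ ((2 * G) ^ κ * (Nat.gcd b c : ℝ) ^ (1 - κ)) * ((nu N b * nu N c) *
              (f b * f' c * K (b / Nat.gcd b c) (c / Nat.gcd b c))) := by
            refine mul_le_mul h1 (mul_le_mul_of_nonneg_left (mul_le_mul_of_nonneg_left hkk hff) hn)
              (mul_nonneg hn (mul_nonneg hff (hk b c))) ?_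
            exact mul_nonneg (Real.rpow_nonneg (by linarith) _) (Real.rpow_nonneg hg.le _)
        _ = _ := by ring
  refine hstep.trans ?_
  have hbase := hT N f f' K hN.ne' hf hf' hK
  -- masses
  have hDD : ∀ g : ℕ → ℝ, (∀ b, 0 ≤ g b) → (∀ b, g b ≤ 1) →
      (DD Λ N fun b => g b ^ (2 / (1 + κ))) ≤ A * Real.log y ^ Λ * Ex N g := by
    intro g hg hg1
    refine (DD_pow_le hΛ hκ hκ1 N hg hg1).trans ?_
    unfold DD Ex
    rw [mul_sum]
    refine sum_le_sum fun b hb => ?_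
    rw [Nat.mem_divisors] at hb
    have := haw y b hy fun p hp hpb => hprime p hp (hpb.trans hb.1)
    calc nu N b * aw Λ b * g b = aw Λ b * (nu N b * g b) := by ring
      _ ≤ A * Real.log y ^ Λ * (nu N b * g b) :=
          mul_le_mul_of_nonneg_right this (mul_nonneg (nu_nonneg _ _) (hg b))
  have hAy : 0 ≤ A * Real.log y ^ Λ := by positivity
  have hE : 0 ≤ Ex N f := Ex_nonneg N hf
  have hE' : 0 ≤ Ex N f' := Ex_nonneg N hf'
  have hD1 : (DD Λ N fun b => f b ^ (2 / (1 + κ))) ^ ((1 + κ) / 2) ≤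
      (A * Real.log y ^ Λ * Ex N f) ^ ((1 + κ) / 2) :=
    Real.rpow_le_rpow (DD_nonneg hΛ N fun b => Real.rpow_nonneg (hf b) _) (hDD f hf hf1) hρ.le
  have hD2 : (DD Λ N fun b => f' b ^ (2 / (1 + κ))) ^ ((1 + κ) / 2) ≤
      (A * Real.log y ^ Λ * Ex N f') ^ ((1 + κ) / 2) :=
    Real.rpow_le_rpow (DD_nonneg hΛ N fun b => Real.rpow_nonneg (hf' b) _) (hDD f' hf' hf1') hρ.le
  have hdens : (MXlowx808.dens N fun s t => K s t ^ r) ≤ τ := by
    refine le_trans ?_ hτ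
    unfold MXlowx808.dens
    refine sum_le_sum fun s _ => sum_le_sum fun t _ => ?_
    split_ifs
    · refine mul_le_mul_of_nonneg_left ?_ (mul_nonneg (nu_nonneg N s) (nu_nonneg N t))
      show K s t ^ r ≤ K s t
      rcases eq_or_lt_of_le (hK s t) with h0 | h0
      · rw [← h0, Real.zero_rpow hr0.ne']
      · calc K s t ^ r ≤ K s t ^ (1 : ℝ) :=
              Real.rpow_le_rpow_of_exponent_ge h0 (hK1 s t) (by linarith)
          _ = K s t := Real.rpow_one _
    · exact le_rfl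
  have hdens0 : 0 ≤ MXlowx808.dens N fun s t => K s t ^ r :=
    dens_nonneg N fun s t => Real.rpow_nonneg (hK s t) _
  have hdp : (MXlowx808.dens N fun s t => K s t ^ r) ^ (1 / r) ≤ τ ^ (1 / r) :=
    Real.rpow_le_rpow hdens0 hdens (by positivity)
  have h2 : (2 : ℝ) ^ κ ≤ 2 := by
    calc (2 : ℝ) ^ κ ≤ (2 : ℝ) ^ (1 : ℝ) :=
          Real.rpow_le_rpow_of_exponent_le (by norm_num) hκ1.le
      _ = 2 := Real.rpow_one _
  have hGk : (2 * G) ^ κ = 2 ^ κ * G ^ κ := Real.mul_rpow (by norm_num) hG.le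
  have hprod : (A * Real.log y ^ Λ * Ex N f) ^ ((1 + κ) / 2) *
      (A * Real.log y ^ Λ * Ex N f') ^ ((1 + κ) / 2) =
      A ^ (1 + κ) * Real.log y ^ (Λ * (1 + κ)) * (Ex N f * Ex N f') ^ ((1 + κ) / 2) := by
    rw [Real.mul_rpow hAy hE, Real.mul_rpow hAy hE', Real.mul_rpow hE hE']
    have e1 : (A * Real.log y ^ Λ) ^ ((1 + κ) / 2) * (A * Real.log y ^ Λ) ^ ((1 + κ) / 2) =
        A ^ (1 + κ) * Real.log y ^ (Λ * (1 + κ)) := by
      have hpos : 0 < A * Real.log y ^ Λ := by positivity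
      rw [← Real.rpow_add hpos, show (1 + κ) / 2 + (1 + κ) / 2 = 1 + κ by ring,
        Real.mul_rpow (by linarith) (by positivity), ← Real.rpow_mul hly0.le]
    calc (A * Real.log y ^ Λ) ^ ((1 + κ) / 2) * Ex N f ^ ((1 + κ) / 2) *
          ((A * Real.log y ^ Λ) ^ ((1 + κ) / 2) * Ex N f' ^ ((1 + κ) / 2))
        = ((A * Real.log y ^ Λ) ^ ((1 + κ) / 2) * (A * Real.log y ^ Λ) ^ ((1 + κ) / 2)) *
          (Ex N f ^ ((1 + κ) / 2) * Ex N f' ^ ((1 + κ) / 2)) := by ring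
      _ = _ := by rw [e1]
  calc (2 * G) ^ κ * ∑ b ∈ N.divisors, ∑ c ∈ N.divisors, nu N b * nu N c *
        (Nat.gcd b c : ℝ) ^ (1 - κ) * (f b * f' c * K (b / Nat.gcd b c) (c / Nat.gcd b c))
      ≤ (2 * G) ^ κ * (C * ((DD Λ N fun b => f b ^ (2 / (1 + κ))) ^ ((1 + κ) / 2) *
          (DD Λ N fun b => f' b ^ (2 / (1 + κ))) ^ ((1 + κ) / 2)) *
        (MXlowx808.dens N fun s t => K s t ^ r) ^ (1 / r)) :=
        mul_le_mul_of_nonneg_left hbase (Real.rpow_nonneg (by linarith) _)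
    _ ≤ (2 * G) ^ κ * (C * ((A * Real.log y ^ Λ * Ex N f) ^ ((1 + κ) / 2) *
          (A * Real.log y ^ Λ * Ex N f') ^ ((1 + κ) / 2)) * τ ^ (1 / r)) := by
        refine mul_le_mul_of_nonneg_left ?_ (Real.rpow_nonneg (by linarith) _)
        refine mul_le_mul ?_ hdp (Real.rpow_nonneg hdens0 _) (by positivity)
        refine mul_le_mul_of_nonneg_left ?_ (by linarith)
        exact mul_le_mul hD1 hD2 (Real.rpow_nonneg (DD_nonneg hΛ N fun b =>
          Real.rpow_nonneg (hf' b) _) _) (Real.rpow_nonneg (mul_nonneg hAy hE) _)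
    _ = 2 ^ κ * (C * A ^ (1 + κ) * Real.log y ^ (Λ * (1 + κ)) * τ ^ (1 / r) * G ^ κ *
          (Ex N f * Ex N f') ^ ((1 + κ) / 2)) := by
        rw [hprod, hGk]; ring
    _ ≤ 2 * (C * A ^ (1 + κ) * Real.log y ^ (Λ * (1 + κ)) * τ ^ (1 / r) * G ^ κ *
          (Ex N f * Ex N f') ^ ((1 + κ) / 2)) :=
        mul_le_mul_of_nonneg_right h2 (by positivity)
    _ = _ := by ring

lemma prime_low {M y p : ℕ} (hp : p.Prime) (h : p ∣ low y M) : p ≤ y :=
  prime_dvd_part (fun p => p ≤ y) hp h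

/-- **the low kernel for fixed high words** `T, T'` -/
theorem low_kernel_cut {κ r : ℝ} (hκ : 0 < κ) (hκ1 : κ < 1) (hr : 2 / (1 - κ) < r) :
    ∃ B C : ℝ, 0 ≤ B ∧ 1 ≤ C ∧ ∀ (y M T T' : ℕ) (f f' : ℕ → ℝ) (k K : ℕ → ℕ → ℝ) (τ G : ℝ),
      8 ≤ y →
      (∀ b, 0 ≤ f b) → (∀ b, f b ≤ 1) → (∀ b, 0 ≤ f' b) → (∀ b, f' b ≤ 1) →
      (∀ s t, 0 ≤ K s t) → (∀ s t, K s t ≤ 1) →
      (∀ n n', 0 ≤ k n n') →
      (∀ n n', n ∣ low y M → n' ∣ low y M → k n n' ≤ K (n / Nat.gcd n n') (n' / Nat.gcd n n')) →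
      (∀ n n', n ∣ low y M → n' ∣ low y M → k n n' ≠ 0 → (Nat.gcd n n' : ℝ) ≤ 2 * G) →
      MXlowx808.dens (low y M) K ≤ τ → 0 < G →
      frm (low y M) (fun n n' => f (n * T) * f' (n' * T') * k n n') ≤
        C * Real.log y ^ B * τ ^ (1 / r) * G⁻¹ *
          ((G * Cutx50.mass M f y T) * (G * Cutx50.mass M f' y T')) ^ ((1 + κ) / 2) := by
  obtain ⟨B, C, hB, hC, h⟩ := low_kernel hκ hκ1 hr
  refine ⟨B, C, hB, hC, ?_⟩
  intro y M T T' f f' k K τ G hy hf hf1 hf' hf1' hK hK1 hk hkK hkG hτ hG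
  have h1 := h y (low y M) (fun n => f (n * T)) (fun n => f' (n * T')) k K τ G hy (low_pos y M)
    (fun p hp hpN => prime_low hp hpN) (fun _ => hf _) (fun _ => hf1 _) (fun _ => hf' _)
    (fun _ => hf1' _) hK hK1 hk hkK hkG hτ hG
  refine h1.trans (le_of_eq ?_)
  have e : ((G * Cutx50.mass M f y T) * (G * Cutx50.mass M f' y T')) ^ ((1 + κ) / 2) =
      G * G ^ κ * (Ex (low y M) (fun n => f (n * T)) * Ex (low y M) (fun n => f' (n * T')))
        ^ ((1 + κ) / 2) := by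
    have e1 : (G * Cutx50.mass M f y T) * (G * Cutx50.mass M f' y T') =
        (G * G) * (Ex (low y M) (fun n => f (n * T)) * Ex (low y M) (fun n => f' (n * T'))) := by
      unfold Cutx50.mass; ring
    have e2 : (G * G) ^ ((1 + κ) / 2) = G * G ^ κ := by
      rw [Real.mul_rpow hG.le hG.le, ← Real.rpow_add hG,
        show (1 + κ) / 2 + (1 + κ) / 2 = 1 + κ by ring, Real.rpow_add hG, Real.rpow_one]
    rw [e1, Real.mul_rpow (mul_nonneg hG.le hG.le)
      (mul_nonneg (Ex_nonneg _ fun _ => hf _) (Ex_nonneg _ fun _ => hf' _)), e2]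
  rw [e]
  field_simp

/-! ### densities of the low relations, fixed targets `ξ, ξ'` -/

open Classical in
/-- density of a relation of coprime words on `low y M` -/
theorem dens_low {M y Z : ℕ} (hy : 8 ≤ y) {z β : ℝ} (hz : 0 < z)
    (hZ : z ≤ (Z : ℝ) + 1) (P : ℕ → ℕ → Prop) (K : ℕ → ℕ → ℝ)
    (hP : ∑ u ∈ Icc 1 Z, ∑ v ∈ Icc 1 Z, (if P u v then 1 / ((u : ℝ) * v) else 0) ≤ β)
    (hK : ∀ s t, s ∣ low y M → t ∣ low y M → Nat.Coprime s t → K s t ≤ if P s t then 1 else 0) :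
    MXlowx808.dens (low y M) K ≤ 2 * (Real.exp 14 * z ^ (-(1 / Real.log y))) + β := by
  refine le_trans ?_ (inner_le (M := M) hy hz hZ P hP)
  unfold MXlowx808.dens
  refine sum_le_sum fun s hs => sum_le_sum fun t ht => ?_
  rw [Nat.mem_divisors] at hs ht
  have hn : 0 ≤ nu (low y M) s * nu (low y M) t := mul_nonneg (nu_nonneg _ _) (nu_nonneg _ _)
  by_cases hc : Nat.Coprime s t
  · rw [if_pos hc]
    exact mul_le_mul_of_nonneg_left (hK s t hs.1 ht.1 hc) hn
  · rw [if_neg hc]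
    refine mul_nonneg hn ?_
    split_ifs <;> norm_num

open Classical in
/-- the deep relation for fixed targets -/
noncomputable def KD (ξ ξ' t E K : ℝ) (u v : ℕ) : ℝ :=
  if NN ξ ξ' t u v ∧ ∃ (a : ℤ) (k : ℕ) (a' : ℤ) (k' : ℕ), S2bx284.Labd ξ ξ' t E a k a' k' u v ∧
      ¬ S2bx284.IsShort k k' t (ξ - a / k) (ξ' - a' / k') u v ∧
      K ≤ S2bx284.dep k k' t (ξ - a / k) (ξ' - a' / k') u v then 1 else 0

lemma KD_nonneg (ξ ξ' t E K : ℝ) (u v : ℕ) : 0 ≤ KD ξ ξ' t E K u v := by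
  unfold KD; split_ifs <;> norm_num

lemma KD_le_one (ξ ξ' t E K : ℝ) (u v : ℕ) : KD ξ ξ' t E K u v ≤ 1 := by
  unfold KD; split_ifs <;> norm_num

theorem dens_KD (M : ℕ) {y : ℕ} (hy : 8 ≤ y) {ξ ξ' t E K : ℝ} (ht : 8 * E ^ 5 ≤ t)
    (ht0 : 0 ≤ t) (hK : 64 ≤ K) :
    MXlowx808.dens (low y M) (KD ξ ξ' t E K) ≤
      (2 * Real.exp 14 + 5) * ((1 + 2 * Real.log y * Real.log K) ^ 2 * K ^ (-(1 : ℝ) / 3)) := by
  classical
  have hK0 : 0 < K := by linarith
  have hlK : 0 ≤ Real.log K := Real.log_nonneg (by linarith)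
  have hl : 0 ≤ Real.log K / 3 := by positivity
  obtain ⟨hz, hZ, htail, hlog⟩ := choice hy hl
  set z := Real.exp (Real.log y * (Real.log K / 3)) with hzdef
  set W := (1 + 2 * Real.log y * Real.log K) ^ 2 with hW
  have hy8 : (8 : ℝ) ≤ y := by exact_mod_cast hy
  have hly : 2 ≤ Real.log y := log_eight.trans (Real.log_le_log (by norm_num) hy8)
  have hlog' : (1 + (Nat.log 2 ⌊z⌋₊ : ℝ)) ^ 2 ≤ W := by
    refine hlog.trans (pow_le_pow_left₀ (by positivity) ?_ 2)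
    have : 0 ≤ Real.log y * Real.log K := by positivity
    nlinarith
  have hW1 : 1 ≤ W := by
    rw [hW]
    apply one_le_pow₀
    have : 0 ≤ 2 * Real.log y * Real.log K := by positivity
    linarith
  set k3 := K ^ (-(1 : ℝ) / 3) with hk3
  have hk30 : 0 < k3 := Real.rpow_pos_of_pos hK0 _
  have h := dens_low (M := M) (Z := ⌊z⌋₊) hy hz hZ
    (fun u v => Nat.Coprime u v ∧ NN ξ ξ' t u v ∧ Class4x992.NotShort ξ ξ' t E K u v)
    (KD ξ ξ' t E K) (β := 5 * k3 * W)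
    (by
      refine (@Class4x992.label_mass E t K ξ ξ' ht hK ⌊z⌋₊ _
        (fun _ _ => Classical.propDecidable _) fun u v huv => huv).trans ?_
      exact mul_le_mul_of_nonneg_left hlog' (by positivity))
    (fun u v _ _ hco => by
      unfold KD
      split_ifs with h1 h2 h2
      · exact le_rfl
      · exfalso
        apply h2
        obtain ⟨hn, a, k, a', k', hL, hsh, hd⟩ := h1
        exact ⟨hco, hn, notShort_of ht0 hK hL hsh hd⟩
      · norm_num
      · exact le_rfl)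
  refine h.trans ?_
  have e3 : z ^ (-(1 / Real.log y)) = k3 := by
    rw [htail, hk3, Real.rpow_def_of_pos hK0]
    congr 1
    ring
  rw [e3]
  have h2 : 0 < Real.exp 14 := Real.exp_pos _
  have h4 : k3 ≤ W * k3 := le_mul_of_one_le_left hk30.le hW1
  calc 2 * (Real.exp 14 * k3) + 5 * k3 * W = 2 * Real.exp 14 * k3 + 5 * (W * k3) := by ring
    _ ≤ 2 * Real.exp 14 * (W * k3) + 5 * (W * k3) := by
        have := mul_le_mul_of_nonneg_left h4 (by positivity : 0 ≤ 2 * Real.exp 14)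
        linarith
    _ = _ := by ring

open Classical in
/-- size of the first cofactor -/
noncomputable def KS (A : ℝ) (u _v : ℕ) : ℝ := if A ≤ (u : ℝ) then 1 else 0

lemma KS_nonneg (A : ℝ) (u v : ℕ) : 0 ≤ KS A u v := by unfold KS; split_ifs <;> norm_num

lemma KS_le_one (A : ℝ) (u v : ℕ) : KS A u v ≤ 1 := by unfold KS; split_ifs <;> norm_num

theorem dens_KS (M : ℕ) {y : ℕ} (hy : 8 ≤ y) {A : ℝ} (hA : 0 < A) :
    MXlowx808.dens (low y M) (KS A) ≤ Real.exp 14 * A ^ (-(1 / Real.log y)) := by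
  set N := low y M with hN
  have htail := low_tail' (M := M) hy hA
  rw [← hN] at htail
  calc MXlowx808.dens N (KS A)
      ≤ ∑ s ∈ N.divisors, ∑ t ∈ N.divisors, nu N s * nu N t * KS A s t := by
        unfold MXlowx808.dens
        refine sum_le_sum fun s _ => sum_le_sum fun t _ => ?_
        split_ifs
        · exact le_rfl
        · exact mul_nonneg (mul_nonneg (nu_nonneg _ _) (nu_nonneg _ _)) (KS_nonneg _ _ _)
    _ = ∑ s ∈ N.divisors, (if A ≤ (s : ℝ) then nu N s else 0) := by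
        refine sum_congr rfl fun s _ => ?_
        calc ∑ t ∈ N.divisors, nu N s * nu N t * KS A s t
            = (if A ≤ (s : ℝ) then nu N s else 0) * ∑ t ∈ N.divisors, nu N t := by
              rw [mul_sum]
              refine sum_congr rfl fun t _ => ?_
              unfold KS
              split_ifs <;> ring
          _ = _ := by rw [sum_nu (low_pos y M), mul_one]
    _ ≤ _ := by
        rw [← sum_filter]
        exact htail

lemma dens_mono {N : ℕ} {K K' : ℕ → ℕ → ℝ} (h : ∀ s t, K s t ≤ K' s t) :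
    MXlowx808.dens N K ≤ MXlowx808.dens N K' := by
  unfold MXlowx808.dens
  refine sum_le_sum fun s _ => sum_le_sum fun t _ => ?_
  split_ifs
  · exact mul_le_mul_of_nonneg_left (h s t) (mul_nonneg (nu_nonneg _ _) (nu_nonneg _ _))
  · exact le_rfl

end Crest.Agent.R4C.LowTaux808
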