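import Crest.Agent.R4C.Multi_251

/-!
# Row 4: multi-state scalar inequality of THEOREM (T) for prime powers (helper590, note 2740 (B1))

One prime `p`, `w = 1/p`, exponents `v ∈ s`, mass shares `x v`, `y v`, relation shares `k i j`
(`i = v - v'`, `j = v' - v`, truncated subtraction).  `ρ = (1+κ)/2`, `e = 1/r`,
`θ = 1 - ρ - e > 0`, `ω = w^θ`.

`core`: `(1-w)^(2θ) * LL ≤ 1 + C w^(1+κ)`.
-/

set_option autoImplicit false

open Finset

namespace Crest.Agent.R4C.MStTx590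

open Multix251

/-- the normalised sum -/
noncomputable def LL (ρ e ω : ℝ) (s : Finset ℕ) (μ x y : ℕ → ℝ) (k : ℕ → ℕ → ℝ) : ℝ :=
  ∑ v ∈ s, ∑ v' ∈ s, μ v * μ v' * (ω ^ (Nat.dist v v') * (x v * y v') ^ ρ)
    * (k (v - v') (v' - v)) ^ e

lemma pair_split {s : Finset ℕ} {v0 : ℕ} (h : v0 ∈ s) (T : ℕ → ℕ → ℝ) :
    ∑ v ∈ s, ∑ v' ∈ s, T v v' = T v0 v0 + ∑ v' ∈ s.erase v0, T v0 v' + ∑ v ∈ s.erase v0, T v v0
      + ∑ v ∈ s.erase v0, ∑ v' ∈ s.erase v0, T v v' := by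
  rw [← add_sum_erase s _ h, ← add_sum_erase s (fun v' => T v0 v') h]
  have : ∀ v ∈ s.erase v0, ∑ v' ∈ s, T v v' = T v v0 + ∑ v' ∈ s.erase v0, T v v' :=
    fun v _ => (add_sum_erase s _ h).symm
  rw [sum_congr rfl this, sum_add_distrib]
  ring

lemma erase_eq (s : Finset ℕ) (v : ℕ) : s.filter (· ≠ v) = s.erase v := by
  ext a; simp only [mem_filter, mem_erase]; tauto

lemma dc {ρ ω : ℝ} (s : Finset ℕ) (x y : ℕ → ℝ) :
    ∑ v ∈ s, ∑ v' ∈ s, ω ^ (Nat.dist v v') * (x v * y v') ^ ρ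
      = Multix251.diag ρ s x y + cross ρ ω s s x y := by
  unfold Multix251.diag cross
  rw [← sum_add_distrib]
  refine sum_congr rfl fun v hv => ?_
  rw [erase_eq, ← add_sum_erase s _ hv]
  simp [Nat.dist_self]

/-- crude bound -/
lemma LL_crude {ρ e ω : ℝ} (he : 0 ≤ e) (hω : 0 ≤ ω) {s : Finset ℕ} {μ x y : ℕ → ℝ}
    {k : ℕ → ℕ → ℝ} (hμ : ∀ v ∈ s, 0 ≤ μ v ∧ μ v ≤ 1) (hx : ∀ v, 0 ≤ x v) (hy : ∀ v, 0 ≤ y v)
    (hk : ∀ v ∈ s, ∀ v' ∈ s, 0 ≤ k (v - v') (v' - v) ∧ k (v - v') (v' - v) ≤ 1) :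
    LL ρ e ω s μ x y k ≤ Multix251.diag ρ s x y + cross ρ ω s s x y := by
  rw [← dc]
  unfold LL
  refine sum_le_sum fun v hv => sum_le_sum fun v' hv' => ?_
  have h1 : 0 ≤ ω ^ (Nat.dist v v') * (x v * y v') ^ ρ :=
    mul_nonneg (by positivity) (Real.rpow_nonneg (mul_nonneg (hx _) (hy _)) _)
  have h2 : μ v * μ v' ≤ 1 := mul_le_one₀ (hμ v hv).2 (hμ v' hv').1 (hμ v' hv').2
  have h3 : 0 ≤ μ v * μ v' := mul_nonneg (hμ v hv).1 (hμ v' hv').1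
  have h4 : (k (v - v') (v' - v)) ^ e ≤ 1 :=
    Real.rpow_le_one (hk v hv v' hv').1 (hk v hv v' hv').2 he
  have h5 : 0 ≤ (k (v - v') (v' - v)) ^ e := Real.rpow_nonneg (hk v hv v' hv').1 _
  calc μ v * μ v' * (ω ^ (Nat.dist v v') * (x v * y v') ^ ρ) * (k (v - v') (v' - v)) ^ e
      ≤ 1 * (ω ^ (Nat.dist v v') * (x v * y v') ^ ρ) * 1 := by
        apply mul_le_mul (mul_le_mul_of_nonneg_right h2 h1) h4 h5 (by linarith)
    _ = _ := by ring

/-- bound around a common centre `v0` -/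
lemma LL_center {ρ e ω : ℝ} (hρ : 1/2 ≤ ρ) (he : 0 ≤ e) (hω : 0 ≤ ω)
    (hω1 : ω ≤ 1/2) {s : Finset ℕ} {μ x y : ℕ → ℝ}
    {k : ℕ → ℕ → ℝ} (hμ : ∀ v ∈ s, 0 ≤ μ v ∧ μ v ≤ 1) (hx : ∀ v, 0 ≤ x v) (hy : ∀ v, 0 ≤ y v)
    (hk : ∀ v ∈ s, ∀ v' ∈ s, 0 ≤ k (v - v') (v' - v) ∧ k (v - v') (v' - v) ≤ 1)
    (hx1 : ∑ v ∈ s, x v ≤ 1) (hy1 : ∑ v ∈ s, y v ≤ 1) {v0 : ℕ} (h0 : v0 ∈ s)
    {kk : ℝ} (hkk : k 0 0 ≤ 1 - kk) :
    LL ρ e ω s μ x y k ≤
      μ v0 * μ v0 * (((1 - ∑ v ∈ s.erase v0, x v) * (1 - ∑ v ∈ s.erase v0, y v)) ^ ρ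
        * (1 - kk) ^ e)
      + ∑ v ∈ s.erase v0, ω ^ (Nat.dist v0 v) * (y v ^ ρ * (k (v0 - v) (v - v0)) ^ e)
      + ∑ v ∈ s.erase v0, ω ^ (Nat.dist v0 v) * (x v ^ ρ * (k (v - v0) (v0 - v)) ^ e)
      + ((∑ v ∈ s.erase v0, x v) ^ (2 * ρ) + (∑ v ∈ s.erase v0, y v) ^ (2 * ρ))
        * (1 / 2 + 2 * ω) := by
  have ex := add_sum_erase s x h0
  have ey := add_sum_erase s y h0
  set X := ∑ v ∈ s.erase v0, x v with hX
  set Y := ∑ v ∈ s.erase v0, y v with hY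
  have hX0 : 0 ≤ X := sum_nonneg fun v _ => hx v
  have hY0 : 0 ≤ Y := sum_nonneg fun v _ => hy v
  have hxv : x v0 ≤ 1 - X := by linarith
  have hyv : y v0 ≤ 1 - Y := by linarith
  unfold LL
  rw [pair_split h0]
  refine add_le_add (add_le_add (add_le_add ?_ ?_) ?_) ?_
  · -- centre
    simp only [Nat.dist_self, pow_zero, one_mul, Nat.sub_self]
    have h1 : (x v0 * y v0) ^ ρ ≤ ((1 - X) * (1 - Y)) ^ ρ :=
      Real.rpow_le_rpow (mul_nonneg (hx _) (hy _))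
        (mul_le_mul hxv hyv (hy _) (by linarith [hx v0])) (by linarith)
    have h2 : (k 0 0) ^ e ≤ (1 - kk) ^ e := by
      have h00 := (hk v0 h0 v0 h0).1
      rw [Nat.sub_self] at h00
      exact Real.rpow_le_rpow h00 hkk he
    have h00 := (hk v0 h0 v0 h0).1
    rw [Nat.sub_self] at h00
    have h3 : 0 ≤ (k 0 0) ^ e := Real.rpow_nonneg h00 _
    have h4 : 0 ≤ (x v0 * y v0) ^ ρ := Real.rpow_nonneg (mul_nonneg (hx _) (hy _)) _
    have h5 : 0 ≤ μ v0 * μ v0 := mul_self_nonneg _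
    rw [mul_assoc]
    refine mul_le_mul_of_nonneg_left ?_ h5
    exact mul_le_mul h1 h2 h3 (h4.trans h1)
  · refine sum_le_sum fun v' hv' => ?_
    have hv's := mem_of_mem_erase hv'
    have h1 : (x v0 * y v') ^ ρ ≤ y v' ^ ρ := by
      refine Real.rpow_le_rpow (mul_nonneg (hx _) (hy _)) ?_ (by linarith)
      have : x v0 ≤ 1 := by linarith
      nlinarith [hy v']
    have h2 : μ v0 * μ v' ≤ 1 := mul_le_one₀ (hμ v0 h0).2 (hμ v' hv's).1 (hμ v' hv's).2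
    have h3 : 0 ≤ μ v0 * μ v' := mul_nonneg (hμ v0 h0).1 (hμ v' hv's).1
    have h4 : 0 ≤ (k (v0 - v') (v' - v0)) ^ e := Real.rpow_nonneg (hk v0 h0 v' hv's).1 _
    have h5 : 0 ≤ (x v0 * y v') ^ ρ := Real.rpow_nonneg (mul_nonneg (hx _) (hy _)) _
    have h6 : 0 ≤ ω ^ (Nat.dist v0 v') := by positivity
    calc μ v0 * μ v' * (ω ^ (Nat.dist v0 v') * (x v0 * y v') ^ ρ) * (k (v0 - v') (v' - v0)) ^ e
        ≤ 1 * (ω ^ (Nat.dist v0 v') * y v' ^ ρ) * (k (v0 - v') (v' - v0)) ^ e := by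
          refine mul_le_mul_of_nonneg_right ?_ h4
          exact mul_le_mul h2 (mul_le_mul_of_nonneg_left h1 h6) (mul_nonneg h6 h5) zero_le_one
      _ = _ := by ring
  · refine sum_le_sum fun v hv => ?_
    have hvs := mem_of_mem_erase hv
    have h1 : (x v * y v0) ^ ρ ≤ x v ^ ρ := by
      refine Real.rpow_le_rpow (mul_nonneg (hx _) (hy _)) ?_ (by linarith)
      have : y v0 ≤ 1 := by linarith
      nlinarith [hx v]
    have h2 : μ v * μ v0 ≤ 1 := mul_le_one₀ (hμ v hvs).2 (hμ v0 h0).1 (hμ v0 h0).2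
    have h3 : 0 ≤ μ v * μ v0 := mul_nonneg (hμ v hvs).1 (hμ v0 h0).1
    have h4 : 0 ≤ (k (v - v0) (v0 - v)) ^ e := Real.rpow_nonneg (hk v hvs v0 h0).1 _
    have h5 : 0 ≤ (x v * y v0) ^ ρ := Real.rpow_nonneg (mul_nonneg (hx _) (hy _)) _
    have h6 : 0 ≤ ω ^ (Nat.dist v v0) := by positivity
    calc μ v * μ v0 * (ω ^ (Nat.dist v v0) * (x v * y v0) ^ ρ) * (k (v - v0) (v0 - v)) ^ e
        ≤ 1 * (ω ^ (Nat.dist v v0) * x v ^ ρ) * (k (v - v0) (v0 - v)) ^ e := by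
          refine mul_le_mul_of_nonneg_right ?_ h4
          exact mul_le_mul h2 (mul_le_mul_of_nonneg_left h1 h6) (mul_nonneg h6 h5) zero_le_one
      _ = _ := by rw [Nat.dist_comm]; ring
  · have hc := LL_crude (ρ := ρ) he hω (s := s.erase v0) (μ := μ) (x := x) (y := y) (k := k)
      (fun v hv => hμ v (mem_of_mem_erase hv)) hx hy
      (fun v hv v' hv' => hk v (mem_of_mem_erase hv) v' (mem_of_mem_erase hv'))
    unfold LL at hc
    refine hc.trans ?_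
    have a := pow_sum_le' hρ hX0 _ x hx (le_of_eq hX.symm)
    have b := pow_sum_le' hρ hY0 _ y hy (le_of_eq hY.symm)
    have c := diag_le (κ := ρ) (s.erase v0) x y hx hy
    have d := cross_le (κ := ρ) hω hω1 (s.erase v0) (s.erase v0) x y hx hy
    have hp : 0 ≤ X ^ (2 * ρ) := Real.rpow_nonneg hX0 _
    have hq : 0 ≤ Y ^ (2 * ρ) := Real.rpow_nonneg hY0 _
    nlinarith

/-- sum of relation shares around a centre -/
lemma k_sum_right {k : ℕ → ℕ → ℝ} {N : ℕ} (hk1 : ∀ d, 0 ≤ k d 0) (hk2 : ∀ d, 0 ≤ k 0 d)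
    {s : Finset ℕ} (hs : s ⊆ range (N + 1)) {v0 : ℕ} (h0 : v0 ∈ s) :
    ∑ v ∈ s.erase v0, k (v - v0) (v0 - v) ≤ ∑ d ∈ Icc 1 N, (k d 0 + k 0 d) := by
  have e : s.erase v0 = (s.filter (fun v => v0 < v)) ∪ (s.filter (fun v => v < v0)) := by
    ext a
    simp only [mem_erase, mem_union, mem_filter]
    constructor
    · rintro ⟨h1, h2⟩
      rcases lt_or_gt_of_ne h1 with h3 | h3
      · exact Or.inr ⟨h2, h3⟩
      · exact Or.inl ⟨h2, h3⟩
    · rintro (⟨h1, h2⟩ | ⟨h1, h2⟩)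
      · exact ⟨h2.ne', h1⟩
      · exact ⟨h2.ne, h1⟩
  rw [e, sum_union, sum_add_distrib]
  · have hv0 := mem_range.1 (hs h0)
    refine add_le_add ?_ ?_
    · calc ∑ v ∈ s.filter (fun v => v0 < v), k (v - v0) (v0 - v)
          = ∑ d ∈ (s.filter (fun v => v0 < v)).image (fun v => v - v0), k d 0 := by
            rw [sum_image]
            · refine sum_congr rfl fun v hv => ?_
              rw [mem_filter] at hv
              rw [show v0 - v = 0 by omega]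
            · intro a ha b hb hab
              rw [mem_coe, mem_filter] at ha hb
              simp only at hab
              omega
        _ ≤ ∑ d ∈ Icc 1 N, k d 0 := by
            refine sum_le_sum_of_subset_of_nonneg ?_ (fun i _ _ => hk1 i)
            intro d hd
            rw [mem_image] at hd
            obtain ⟨v, hv, rfl⟩ := hd
            rw [mem_filter] at hv
            have := mem_range.1 (hs hv.1)
            rw [mem_Icc]
            omega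
    · calc ∑ v ∈ s.filter (fun v => v < v0), k (v - v0) (v0 - v)
          = ∑ d ∈ (s.filter (fun v => v < v0)).image (fun v => v0 - v), k 0 d := by
            rw [sum_image]
            · refine sum_congr rfl fun v hv => ?_
              rw [mem_filter] at hv
              rw [show v - v0 = 0 by omega]
            · intro a ha b hb hab
              rw [mem_coe, mem_filter] at ha hb
              simp only at hab
              omega
        _ ≤ ∑ d ∈ Icc 1 N, k 0 d := by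
            refine sum_le_sum_of_subset_of_nonneg ?_ (fun i _ _ => hk2 i)
            intro d hd
            rw [mem_image] at hd
            obtain ⟨v, hv, rfl⟩ := hd
            rw [mem_filter] at hv
            rw [mem_Icc]
            omega
  · rw [disjoint_left]
    intro a ha hb
    rw [mem_filter] at ha hb
    omega

lemma k_sum_left {k : ℕ → ℕ → ℝ} {N : ℕ} (hk1 : ∀ d, 0 ≤ k d 0) (hk2 : ∀ d, 0 ≤ k 0 d)
    {s : Finset ℕ} (hs : s ⊆ range (N + 1)) {v0 : ℕ} (h0 : v0 ∈ s) :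
    ∑ v ∈ s.erase v0, k (v0 - v) (v - v0) ≤ ∑ d ∈ Icc 1 N, (k d 0 + k 0 d) := by
  have := k_sum_right (k := fun i j => k j i) hk2 hk1 hs h0
  refine this.trans (le_of_eq ?_)
  exact sum_congr rfl fun d _ => add_comm _ _

lemma k_le_one {k : ℕ → ℕ → ℝ} {N : ℕ} (hk : ∀ i j, 0 ≤ k i j)
    (hk1 : k 0 0 + ∑ d ∈ Icc 1 N, (k d 0 + k 0 d) ≤ 1)
    {s : Finset ℕ} (hs : s ⊆ range (N + 1)) :
    ∀ v ∈ s, ∀ v' ∈ s, 0 ≤ k (v - v') (v' - v) ∧ k (v - v') (v' - v) ≤ 1 := by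
  intro v hv v' hv'
  refine ⟨hk _ _, ?_⟩
  have h1 := mem_range.1 (hs hv)
  have h2 := mem_range.1 (hs hv')
  have hsum : 0 ≤ ∑ d ∈ Icc 1 N, (k d 0 + k 0 d) :=
    sum_nonneg fun d _ => add_nonneg (hk _ _) (hk _ _)
  rcases lt_trichotomy v v' with h | h | h
  · have hm : v' - v ∈ Icc 1 N := by rw [mem_Icc]; omega
    have := single_le_sum (f := fun d => k d 0 + k 0 d)
      (fun d _ => add_nonneg (hk _ _) (hk _ _)) hm
    rw [show v - v' = 0 by omega]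
    linarith [hk (v' - v) 0, hk 0 0]
  · subst h
    rw [Nat.sub_self]
    linarith
  · have hm : v - v' ∈ Icc 1 N := by rw [mem_Icc]; omega
    have := single_le_sum (f := fun d => k d 0 + k 0 d)
      (fun d _ => add_nonneg (hk _ _) (hk _ _)) hm
    rw [show v' - v = 0 by omega]
    linarith [hk 0 (v - v'), hk 0 0]

/-- exponent `θ` -/
noncomputable def th (κ r : ℝ) : ℝ := (1 - κ) / 2 - 1 / r

/-- the constants -/
structure Ok (κ r w ε T A Lm : ℝ) : Prop where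
  κ0 : 0 < κ
  κ1 : κ < 1
  hr : 2 / (1 - κ) < r
  w0 : 0 < w
  w1 : w ≤ 1/2
  ε0 : 0 < ε
  ε4 : ε ≤ 1/4
  ε1 : ε ^ ((1 + κ) / 2) ≤ 1/8
  ε2 : ε ^ κ ≤ (1 + κ) / 8
  T1 : 1 ≤ T
  T2 : 8 * T ^ (-(th κ r)) ≤ (1 + κ) / 8
  T3 : 8 * T ^ (-(th κ r)) ≤ 1 / r / 2
  A0 : 0 < A
  A1 : A ^ (th κ r) = 2 ^ (1 / r)
  ω1 : w ^ (th κ r) ≤ 1/32
  ω2 : 4 * w ^ (th κ r) ≤ κ * ε / 2
  L1 : 32 * (th κ r) * A ≤ Lm
  L2 : Lm * w ≤ 1

section

variable {κ r w ε T A Lm : ℝ}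

lemma Ok.r0 (h : Ok κ r w ε T A Lm) : 2 < r := by
  have h1 : 0 < 1 - κ := by linarith [h.κ1]
  have h2 : (2:ℝ) ≤ 2 / (1 - κ) := by
    rw [le_div_iff₀ h1]; linarith [h.κ0]
  linarith [h.hr]

lemma Ok.e0 (h : Ok κ r w ε T A Lm) : 0 < 1 / r := by
  have := h.r0
  positivity

lemma Ok.e1 (h : Ok κ r w ε T A Lm) : 1 / r ≤ 1 / 2 :=
  one_div_le_one_div_of_le two_pos h.r0.le

lemma Ok.θ0 (h : Ok κ r w ε T A Lm) : 0 < th κ r := by
  have h1 : 0 < 1 - κ := by linarith [h.κ1]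
  have h2 : 1 / r < (1 - κ) / 2 := by
    have := one_div_lt_one_div_of_lt (by positivity) h.hr
    rw [one_div_div] at this
    exact this
  unfold th; linarith

lemma Ok.θ1 (h : Ok κ r w ε T A Lm) : 2 * th κ r ≤ 1 := by
  unfold th; linarith [h.e0, h.κ0]

lemma Ok.sum1 : th κ r + (1 + κ) / 2 + 1 / r = 1 := by unfold th; ring

lemma Ok.ω0 (h : Ok κ r w ε T A Lm) : 0 < w ^ (th κ r) := Real.rpow_pos_of_pos h.w0 _

lemma Ok.pre0 (h : Ok κ r w ε T A Lm) : 0 ≤ (1 - w) ^ (2 * th κ r) :=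
  Real.rpow_nonneg (by linarith [h.w1]) _

lemma Ok.pre1 (h : Ok κ r w ε T A Lm) : (1 - w) ^ (2 * th κ r) ≤ 1 - 2 * th κ r * w := by
  have := _root_.rpow_one_add_le_one_add_mul_self (s := -w) (p := 2 * th κ r)
    (by linarith [h.w1]) (by linarith [h.θ0]) h.θ1
  calc (1 - w) ^ (2 * th κ r) = (1 + -w) ^ (2 * th κ r) := by ring_nf
    _ ≤ 1 + 2 * th κ r * (-w) := this
    _ = _ := by ring

/-- the three factor Bernoulli bound -/
lemma D_le {ρ e X Y kk : ℝ} (hρ : 0 ≤ ρ) (hρ1 : ρ ≤ 1) (he : 0 ≤ e) (he1 : e ≤ 1)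
    (hX1 : X ≤ 1) (hY1 : Y ≤ 1) (hk1 : kk ≤ 1) :
    ((1 - X) * (1 - Y)) ^ ρ * (1 - kk) ^ e ≤ (1 - ρ * X) * (1 - ρ * Y) * (1 - e * kk) := by
  have b : ∀ z p : ℝ, z ≤ 1 → 0 ≤ p → p ≤ 1 → (1 - z) ^ p ≤ 1 - p * z := by
    intro z p hz hp hp1
    have := _root_.rpow_one_add_le_one_add_mul_self (s := -z) (p := p) (by linarith) hp hp1
    calc (1 - z) ^ p = (1 + -z) ^ p := by ring_nf
      _ ≤ 1 + p * (-z) := this
      _ = _ := by ring
  have n : ∀ z p : ℝ, z ≤ 1 → 0 ≤ (1 - z) ^ p := fun z p hz => Real.rpow_nonneg (by linarith) _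
  rw [Real.mul_rpow (by linarith) (by linarith)]
  have h1 := b X ρ hX1 hρ hρ1
  have h2 := b Y ρ hY1 hρ hρ1
  have h3 := b kk e hk1 he he1
  have n1 := n X ρ hX1
  have n2 := n Y ρ hY1
  have n3 := n kk e hk1
  exact mul_le_mul (mul_le_mul h1 h2 n2 (n1.trans h1)) h3 n3
    (mul_nonneg (n1.trans h1) (n2.trans h2))

lemma omega_pow (hw : 0 ≤ w) (θ : ℝ) (d : ℕ) : (w ^ θ) ^ d = (w ^ d) ^ θ := by
  rw [← Real.rpow_natCast, ← Real.rpow_mul hw, mul_comm, Real.rpow_mul hw, Real.rpow_natCast]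

/-- Young, weight `A` -/
lemma young_A (h : Ok κ r w ε T A Lm) {z k : ℝ} (hz : 0 ≤ z) (hk : 0 ≤ k) (d : ℕ) :
    (w ^ (th κ r)) ^ d * (z ^ ((1 + κ) / 2) * k ^ (1 / r)) ≤
      th κ r * (A * w ^ d) + (1 + κ) / 2 * z + 1 / r * (k / 2) := by
  have hw := h.w0
  have hθ := h.θ0
  have hA := h.A0
  have e := Real.geom_mean_le_arith_mean3_weighted (w₁ := th κ r) (w₂ := (1 + κ) / 2)
    (w₃ := 1 / r) (p₁ := A * w ^ d) (p₂ := z) (p₃ := k / 2) hθ.le (by linarith [h.κ0]) h.e0.le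
    (by positivity) hz (by positivity) Ok.sum1
  refine le_trans (le_of_eq ?_) e
  rw [omega_pow hw.le, Real.mul_rpow hA.le (by positivity), h.A1, Real.div_rpow hk two_pos.le]
  have h2 : (2:ℝ) ^ (1 / r) ≠ 0 := (Real.rpow_pos_of_pos two_pos _).ne'
  field_simp

/-- Young, weight `1` -/
lemma young_1 (h : Ok κ r w ε T A Lm) {z k : ℝ} (hz : 0 ≤ z) (hk : 0 ≤ k) (d : ℕ) :
    (w ^ (th κ r)) ^ d * (z ^ ((1 + κ) / 2) * k ^ (1 / r)) ≤
      th κ r * w ^ d + (1 + κ) / 2 * z + 1 / r * k := by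
  have hw := h.w0
  have hθ := h.θ0
  have e := Real.geom_mean_le_arith_mean3_weighted (w₁ := th κ r) (w₂ := (1 + κ) / 2)
    (w₃ := 1 / r) (p₁ := w ^ d) (p₂ := z) (p₃ := k) hθ.le (by linarith [h.κ0]) h.e0.le
    (by positivity) hz (by positivity) Ok.sum1
  refine le_trans (le_of_eq ?_) e
  rw [omega_pow hw.le]
  ring

/-- geometric sum over `s.erase 0` -/
lemma geom0 (hw : 0 ≤ w) (hw1 : w ≤ 1/2) (s : Finset ℕ) :
    ∑ v ∈ s.erase 0, w ^ v ≤ w + 2 * w ^ 2 := by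
  have hlt : w < 1 := by linarith
  have e : ∑ v ∈ s.erase 0, w ^ v = ∑ j ∈ (s.erase 0).image (fun v => v - 1), w ^ (j + 1) := by
    rw [sum_image]
    · apply sum_congr rfl
      intro a ha
      rw [mem_erase] at ha
      have : a = a - 1 + 1 := by have := ha.1; omega
      rw [← this]
    · intro a ha b hb hab
      rw [mem_coe, mem_erase] at ha hb
      simp only at hab
      have := ha.1; have := hb.1
      omega
  rw [e]
  have hs : Summable (fun j : ℕ => w ^ (j + 1)) := by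
    simp_rw [pow_succ]
    exact (summable_geometric_of_lt_one hw hlt).mul_right w
  calc ∑ j ∈ (s.erase 0).image (fun v => v - 1), w ^ (j + 1)
      ≤ ∑' j : ℕ, w ^ (j + 1) := hs.sum_le_tsum _ (fun j _ => by positivity)
    _ = (1 - w)⁻¹ * w := by
        simp_rw [pow_succ]
        rw [tsum_mul_right, tsum_geometric_of_lt_one hw hlt]
    _ ≤ w + 2 * w ^ 2 := by
        rw [inv_mul_le_iff₀ (by linarith)]
        nlinarith [sq_nonneg w, mul_nonneg hw (sq_nonneg w)]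

/-- Case 1: not both concentrated at the same letter -/
lemma case1 (h : Ok κ r w ε T A Lm) {s : Finset ℕ} {x y : ℕ → ℝ}
    (hx : ∀ v, 0 ≤ x v) (hy : ∀ v, 0 ≤ y v)
    (hx1 : ∑ v ∈ s, x v ≤ 1) (hy1 : ∑ v ∈ s, y v ≤ 1)
    (hc : ¬ ∃ v0 ∈ s, ∑ v ∈ s.erase v0, x v ≤ ε ∧ ∑ v ∈ s.erase v0, y v ≤ ε) :
    Multix251.diag ((1 + κ) / 2) s x y + cross ((1 + κ) / 2) (w ^ (th κ r)) s s x y ≤ 1 := by
  have hκ := h.κ0
  have hε := h.ε0
  set ρ := (1 + κ) / 2 with hρ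
  set ω := w ^ (th κ r) with hω
  have hω0 : 0 < ω := h.ω0
  have hω1 : ω ≤ 1/32 := h.ω1
  have hω2 : 4 * ω ≤ κ * ε / 2 := h.ω2
  have hρ1 : 1/2 ≤ ρ := by rw [hρ]; linarith
  have sx := pow_sum_le' hρ1 zero_le_one s x hx hx1
  have sy := pow_sum_le' hρ1 zero_le_one s y hy hy1
  rw [Real.one_rpow] at sx sy
  have hC := cross_le (κ := ρ) hω0.le (by linarith) s s x y hx hy
  have hD := diag_le (κ := ρ) s x y hx hy
  have spread : ∀ z : ℕ → ℝ, (∀ v, 0 ≤ z v) → ∑ v ∈ s, z v ≤ 1 → (∀ v ∈ s, z v ≤ 1 - ε) →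
      ∑ v ∈ s, z v ^ (2 * ρ) ≤ 1 - κ * ε := by
    intro z hz hz1 hzz
    refine (pow_sum_le hρ1 s z hz hzz).trans ?_
    have e1 : 2 * ρ - 1 = κ := by rw [hρ]; ring
    rw [e1]
    have h1 : (1 - ε) ^ κ ≤ 1 - κ * ε := by
      have := _root_.rpow_one_add_le_one_add_mul_self (s := -ε) (p := κ)
        (by linarith [h.ε4]) hκ.le h.κ1.le
      calc (1 - ε) ^ κ = (1 + -ε) ^ κ := by ring_nf
        _ ≤ 1 + κ * (-ε) := this
        _ = _ := by ring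
    have h2 : 0 ≤ (1 - ε) ^ κ := Real.rpow_nonneg (by linarith [h.ε4]) _
    nlinarith [sum_nonneg fun v (_ : v ∈ s) => hz v]
  by_cases cx : ∀ v ∈ s, x v ≤ 1 - ε
  · have := spread x hx hx1 cx
    nlinarith
  by_cases cy : ∀ v ∈ s, y v ≤ 1 - ε
  · have := spread y hy hy1 cy
    nlinarith
  push Not at cx cy
  obtain ⟨v0, hv0, hxv⟩ := cx
  obtain ⟨v1, hv1, hyv⟩ := cy
  have ex := add_sum_erase s x hv0
  have ey := add_sum_erase s y hv1
  have hX : ∑ v ∈ s.erase v0, x v ≤ ε := by linarith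
  have hY : ∑ v ∈ s.erase v1, y v ≤ ε := by linarith
  have hne : v0 ≠ v1 := by
    rintro rfl
    exact hc ⟨v0, hv0, hX, hY⟩
  have hxle : ∀ v ∈ s, x v ≤ 1 := fun v hv =>
    (single_le_sum (f := x) (fun i _ => hx i) hv).trans hx1
  have hyle : ∀ v ∈ s, y v ≤ 1 := fun v hv =>
    (single_le_sum (f := y) (fun i _ => hy i) hv).trans hy1
  have hv1' : v1 ∈ s.erase v0 := mem_erase.2 ⟨hne.symm, hv1⟩
  have hv0' : v0 ∈ s.erase v1 := mem_erase.2 ⟨hne, hv0⟩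
  have x1 : x v1 ≤ ε := (single_le_sum (f := x) (fun i _ => hx i) hv1').trans hX
  have y0 : y v0 ≤ ε := (single_le_sum (f := y) (fun i _ => hy i) hv0').trans hY
  have hd : Multix251.diag ρ s x y ≤ 3/8 := by
    rw [diag_erase hv0, diag_erase hv1']
    have t1 : (x v0 * y v0) ^ ρ ≤ 1/8 := by
      refine le_trans (Real.rpow_le_rpow (mul_nonneg (hx _) (hy _)) ?_ (by linarith)) h.ε1
      calc x v0 * y v0 ≤ 1 * y v0 := mul_le_mul_of_nonneg_right (hxle v0 hv0) (hy _)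
        _ ≤ ε := by linarith
    have t2 : (x v1 * y v1) ^ ρ ≤ 1/8 := by
      refine le_trans (Real.rpow_le_rpow (mul_nonneg (hx _) (hy _)) ?_ (by linarith)) h.ε1
      calc x v1 * y v1 ≤ x v1 * 1 := mul_le_mul_of_nonneg_left (hyle v1 hv1) (hx _)
        _ ≤ ε := by linarith
    have t3 := diag_le (κ := ρ) ((s.erase v0).erase v1) x y hx hy
    have t4 : ∑ v ∈ (s.erase v0).erase v1, x v ≤ ε :=
      le_trans (sum_le_sum_of_subset_of_nonneg (erase_subset _ _) fun i _ _ => hx i) hX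
    have t5 : ∑ v ∈ (s.erase v0).erase v1, y v ≤ ε := by
      rw [erase_right_comm]
      exact le_trans (sum_le_sum_of_subset_of_nonneg (erase_subset _ _) fun i _ _ => hy i) hY
    have t6 := pow_sum_le' hρ1 hε.le _ x hx t4
    have t7 := pow_sum_le' hρ1 hε.le _ y hy t5
    have t8 : ε ^ (2 * ρ) ≤ 1/8 := by
      refine le_trans (Real.rpow_le_rpow_of_exponent_ge hε (by linarith [h.ε4]) ?_) h.ε1
      linarith
    linarith
  have hC2 : cross ρ ω s s x y ≤ 4 * ω := by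
    have : 2 * ω * (∑ v ∈ s, x v ^ (2 * ρ) + ∑ v ∈ s, y v ^ (2 * ρ)) ≤ 2 * ω * (1 + 1) :=
      mul_le_mul_of_nonneg_left (add_le_add sx sy) (by linarith)
    linarith
  linarith

lemma num1 {a b c t : ℝ} (ha : 0 ≤ a) (hb : 0 ≤ b) (hc : 0 ≤ c) (a1 : a ≤ t) (b1 : b ≤ t)
    (c1 : c ≤ t) : (1 - a) * (1 - b) * (1 - c) ≤ 1 - (a + b + c) + 3 * t ^ 2 := by
  have ht : 0 ≤ t := ha.trans a1
  have m1 : a * b ≤ t * t := mul_le_mul a1 b1 hb ht
  have m2 : a * c ≤ t * t := mul_le_mul a1 c1 hc ht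
  have m3 : b * c ≤ t * t := mul_le_mul b1 c1 hc ht
  have m4 : 0 ≤ a * b * c := by positivity
  have e : (1 - a) * (1 - b) * (1 - c) = 1 - (a + b + c) + (a * b + a * c + b * c) - a * b * c := by
    ring
  rw [e]
  nlinarith

lemma num2 {a b c : ℝ} (ha : 0 ≤ a) (hb : 0 ≤ b) (hc : 0 ≤ c) (a1 : a ≤ 1/4) (b1 : b ≤ 1/4)
    (c1 : c ≤ 1/2) : (1 - a) * (1 - b) * (1 - c) ≤ 1 - (a + b + c) / 2 := by
  have m1 : (1 - a) * (1 - b) ≤ 1 - 3/4 * (a + b) := by nlinarith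
  have m2 : 0 ≤ 1 - c := by linarith
  calc (1 - a) * (1 - b) * (1 - c) ≤ (1 - 3/4 * (a + b)) * (1 - c) :=
        mul_le_mul_of_nonneg_right m1 m2
    _ ≤ _ := by nlinarith [mul_nonneg (add_nonneg ha hb) hc]

lemma num3 {a b c : ℝ} (a1 : a ≤ 1/4) (b1 : b ≤ 1/4)
    (c1 : c ≤ 1/2) : 1/4 ≤ (1 - a) * (1 - b) * (1 - c) := by
  have m1 : (3/4:ℝ) * (3/4) ≤ (1 - a) * (1 - b) :=
    mul_le_mul (by linarith) (by linarith) (by norm_num) (by linarith)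
  have m2 : ((3/4:ℝ) * (3/4)) * (1/2) ≤ (1 - a) * (1 - b) * (1 - c) :=
    mul_le_mul m1 (by linarith) (by norm_num) (le_trans (by norm_num) m1)
  linarith

/-- small parameters, centre `0` -/
lemma small0 (h : Ok κ r w ε T A Lm) {s : Finset ℕ} {N : ℕ} (hs : s ⊆ range (N + 1))
    {x y : ℕ → ℝ} {k : ℕ → ℕ → ℝ}
    (hx : ∀ v, 0 ≤ x v) (hy : ∀ v, 0 ≤ y v) (hk : ∀ i j, 0 ≤ k i j) :
    ∑ v ∈ s.erase 0, (w ^ (th κ r)) ^ (Nat.dist 0 v) * (y v ^ ((1 + κ) / 2) *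
        (k (0 - v) (v - 0)) ^ (1 / r))
      + ∑ v ∈ s.erase 0, (w ^ (th κ r)) ^ (Nat.dist 0 v) * (x v ^ ((1 + κ) / 2) *
        (k (v - 0) (0 - v)) ^ (1 / r)) ≤
    2 * th κ r * (w + 2 * w ^ 2) + (1 + κ) / 2 * ∑ v ∈ s.erase 0, x v
      + (1 + κ) / 2 * ∑ v ∈ s.erase 0, y v + 1 / r * ∑ d ∈ Icc 1 N, (k d 0 + k 0 d) := by
  have g := geom0 h.w0.le h.w1 s
  have hθ := h.θ0
  have he := h.e0
  have s1 : ∑ v ∈ s.erase 0, (w ^ (th κ r)) ^ (Nat.dist 0 v) * (y v ^ ((1 + κ) / 2) *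
        (k (0 - v) (v - 0)) ^ (1 / r)) ≤
      ∑ v ∈ s.erase 0, (th κ r * w ^ v + (1 + κ) / 2 * y v + 1 / r * k 0 v) := by
    refine sum_le_sum fun v hv => ?_
    have := young_1 h (hy v) (hk (0 - v) (v - 0)) (Nat.dist 0 v)
    rw [Nat.dist_zero_left, Nat.zero_sub, Nat.sub_zero] at *
    exact this
  have s2 : ∑ v ∈ s.erase 0, (w ^ (th κ r)) ^ (Nat.dist 0 v) * (x v ^ ((1 + κ) / 2) *
        (k (v - 0) (0 - v)) ^ (1 / r)) ≤
      ∑ v ∈ s.erase 0, (th κ r * w ^ v + (1 + κ) / 2 * x v + 1 / r * k v 0) := by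
    refine sum_le_sum fun v hv => ?_
    have := young_1 h (hx v) (hk (v - 0) (0 - v)) (Nat.dist 0 v)
    rw [Nat.dist_zero_left, Nat.zero_sub, Nat.sub_zero] at *
    exact this
  rw [sum_add_distrib, sum_add_distrib, ← mul_sum, ← mul_sum, ← mul_sum] at s1 s2
  have s3 : ∑ v ∈ s.erase 0, k 0 v + ∑ v ∈ s.erase 0, k v 0 ≤ ∑ d ∈ Icc 1 N, (k d 0 + k 0 d) := by
    rw [← sum_add_distrib]
    calc ∑ v ∈ s.erase 0, (k 0 v + k v 0) ≤ ∑ v ∈ Icc 1 N, (k 0 v + k v 0) := by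
          refine sum_le_sum_of_subset_of_nonneg ?_ fun i _ _ =>
            add_nonneg (hk _ _) (hk _ _)
          intro v hv
          rw [mem_erase] at hv
          have h5 := mem_range.1 (hs hv.2)
          rw [mem_Icc]
          have := hv.1
          omega
      _ = _ := sum_congr rfl fun d _ => add_comm _ _
  have u1 := mul_le_mul_of_nonneg_left g hθ.le
  have u2 := mul_le_mul_of_nonneg_left s3 he.le
  linarith

/-- small parameters, centre `v0 ≠ 0` -/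
lemma small1 (h : Ok κ r w ε T A Lm) {s : Finset ℕ} {N : ℕ} (hs : s ⊆ range (N + 1))
    {x y : ℕ → ℝ} {k : ℕ → ℕ → ℝ} {v0 : ℕ} (h0 : v0 ∈ s)
    (hx : ∀ v, 0 ≤ x v) (hy : ∀ v, 0 ≤ y v) (hk : ∀ i j, 0 ≤ k i j) :
    ∑ v ∈ s.erase v0, (w ^ (th κ r)) ^ (Nat.dist v0 v) * (y v ^ ((1 + κ) / 2) *
        (k (v0 - v) (v - v0)) ^ (1 / r))
      + ∑ v ∈ s.erase v0, (w ^ (th κ r)) ^ (Nat.dist v0 v) * (x v ^ ((1 + κ) / 2) *
        (k (v - v0) (v0 - v)) ^ (1 / r)) ≤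
    8 * th κ r * A * w + (1 + κ) / 2 * ∑ v ∈ s.erase v0, x v
      + (1 + κ) / 2 * ∑ v ∈ s.erase v0, y v + 1 / r * ∑ d ∈ Icc 1 N, (k d 0 + k 0 d) := by
  have hkr := k_sum_right (k := k) (fun d => hk _ _) (fun d => hk _ _) hs h0
  have hkl := k_sum_left (k := k) (fun d => hk _ _) (fun d => hk _ _) hs h0
  have g := geom_both h.w0.le h.w1 s v0
  rw [erase_eq] at g
  have hθ := h.θ0
  have he := h.e0
  have hA := h.A0
  have s1 : ∑ v ∈ s.erase v0, (w ^ (th κ r)) ^ (Nat.dist v0 v) * (y v ^ ((1 + κ) / 2) *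
        (k (v0 - v) (v - v0)) ^ (1 / r)) ≤ ∑ v ∈ s.erase v0, (th κ r * A * w ^ (Nat.dist v0 v)
        + (1 + κ) / 2 * y v + 1 / r / 2 * k (v0 - v) (v - v0)) := by
    refine sum_le_sum fun v hv => ?_
    have := young_A h (hy v) (hk (v0 - v) (v - v0)) (Nat.dist v0 v)
    exact this.trans (le_of_eq (by ring))
  have s2 : ∑ v ∈ s.erase v0, (w ^ (th κ r)) ^ (Nat.dist v0 v) * (x v ^ ((1 + κ) / 2) *
        (k (v - v0) (v0 - v)) ^ (1 / r)) ≤ ∑ v ∈ s.erase v0, (th κ r * A * w ^ (Nat.dist v0 v)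
        + (1 + κ) / 2 * x v + 1 / r / 2 * k (v - v0) (v0 - v)) := by
    refine sum_le_sum fun v hv => ?_
    have := young_A h (hx v) (hk (v - v0) (v0 - v)) (Nat.dist v0 v)
    exact this.trans (le_of_eq (by ring))
  rw [sum_add_distrib, sum_add_distrib, ← mul_sum, ← mul_sum, ← mul_sum] at s1 s2
  have u1 := mul_le_mul_of_nonneg_left g (by positivity : 0 ≤ th κ r * A)
  have u2 := mul_le_mul_of_nonneg_left hkr (by positivity : (0:ℝ) ≤ 1 / r / 2)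
  have u3 := mul_le_mul_of_nonneg_left hkl (by positivity : (0:ℝ) ≤ 1 / r / 2)
  linarith

/-- large parameter: the terms touching the centre -/
lemma large_term (h : Ok κ r w ε T A Lm) {s : Finset ℕ} {v0 : ℕ} {m : ℝ} (hTm : T * w < m)
    (z kf : ℕ → ℝ) (hz : ∀ v, 0 ≤ z v) (hz1 : ∑ v ∈ s.erase v0, z v ≤ m)
    (hkf : ∀ v, 0 ≤ kf v) (hkf1 : ∑ v ∈ s.erase v0, kf v ≤ m) :
    ∑ v ∈ s.erase v0, (w ^ (th κ r)) ^ (Nat.dist v0 v) * (z v ^ ((1 + κ) / 2) * (kf v) ^ (1 / r))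
      ≤ 4 * (T ^ (-(th κ r)) * m) := by
  have hw := h.w0
  have hT := h.T1
  have hθ := h.θ0
  have he := h.e0
  have hκ := h.κ0
  have hω0 := h.ω0
  have hω1 := h.ω1
  have hm0 : 0 < m := lt_trans (by positivity) hTm
  have hωm : w ^ (th κ r) * (m ^ ((1 + κ) / 2) * m ^ (1 / r)) ≤ T ^ (-(th κ r)) * m := by
    have e1 : w ≤ m / T := by rw [le_div_iff₀ (by linarith)]; linarith
    have e2 : w ^ (th κ r) ≤ (m / T) ^ (th κ r) := Real.rpow_le_rpow hw.le e1 hθ.le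
    have e3 : (m / T) ^ (th κ r) * (m ^ ((1 + κ) / 2) * m ^ (1 / r)) = T ^ (-(th κ r)) * m := by
      rw [Real.div_rpow hm0.le (by linarith), Real.rpow_neg (by linarith)]
      have : m ^ (th κ r) * (m ^ ((1 + κ) / 2) * m ^ (1 / r)) = m := by
        rw [← Real.rpow_add hm0, ← Real.rpow_add hm0]
        have : th κ r + ((1 + κ) / 2 + 1 / r) = 1 := by rw [← add_assoc]; exact Ok.sum1
        rw [this, Real.rpow_one]
      calc m ^ (th κ r) / T ^ (th κ r) * (m ^ ((1 + κ) / 2) * m ^ (1 / r))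
          = (T ^ (th κ r))⁻¹ * (m ^ (th κ r) * (m ^ ((1 + κ) / 2) * m ^ (1 / r))) := by ring
        _ = _ := by rw [this]
    rw [← e3]
    exact mul_le_mul_of_nonneg_right e2 (by positivity)
  have g := geom_both hω0.le (by linarith) s v0
  rw [erase_eq] at g
  have s1 : ∑ v ∈ s.erase v0, (w ^ (th κ r)) ^ (Nat.dist v0 v) *
        (z v ^ ((1 + κ) / 2) * (kf v) ^ (1 / r)) ≤
      ∑ v ∈ s.erase v0, (w ^ (th κ r)) ^ (Nat.dist v0 v) * (m ^ ((1 + κ) / 2) * m ^ (1 / r)) := by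
    refine sum_le_sum fun v hv => ?_
    have t1 : z v ≤ m := (single_le_sum (f := z) (fun i _ => hz i) hv).trans hz1
    have t2 : kf v ≤ m := (single_le_sum (f := kf) (fun i _ => hkf i) hv).trans hkf1
    refine mul_le_mul_of_nonneg_left ?_ (by positivity)
    exact mul_le_mul (Real.rpow_le_rpow (hz v) t1 (by linarith))
      (Real.rpow_le_rpow (hkf v) t2 he.le) (Real.rpow_nonneg (hkf v) _) (by positivity)
  rw [← sum_mul] at s1
  refine s1.trans ?_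
  calc (∑ v ∈ s.erase v0, (w ^ (th κ r)) ^ (Nat.dist v0 v)) * (m ^ ((1 + κ) / 2) * m ^ (1 / r))
      ≤ 4 * w ^ (th κ r) * (m ^ ((1 + κ) / 2) * m ^ (1 / r)) :=
        mul_le_mul_of_nonneg_right g (by positivity)
    _ = 4 * (w ^ (th κ r) * (m ^ ((1 + κ) / 2) * m ^ (1 / r))) := by ring
    _ ≤ _ := by linarith

lemma mu_mul {m D : ℝ} (h0 : 0 ≤ m) (h1 : m ≤ 1) (hD : 0 ≤ D) : m * m * D ≤ D := by
  have : m * m ≤ 1 := mul_le_one₀ h1 h0 h1
  calc m * m * D ≤ 1 * D := mul_le_mul_of_nonneg_right this hD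
    _ = D := one_mul D

/-- final multiplication by `(1-w)^{2θ}` -/
lemma fin1 {P z L E : ℝ} (hP0 : 0 ≤ P) (hP : P ≤ 1 - z) (hz : 0 ≤ z) (hE : 0 ≤ E)
    (hL : L ≤ 1 + z + E) : P * L ≤ 1 + E := by
  calc P * L ≤ P * (1 + z + E) := mul_le_mul_of_nonneg_left hL hP0
    _ ≤ (1 - z) * (1 + z + E) := mul_le_mul_of_nonneg_right hP (by linarith)
    _ ≤ 1 + E := by nlinarith [sq_nonneg z, mul_nonneg hz hE]

set_option maxHeartbeats 1000000 in
/-- the common part of case 2 -/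
lemma case2 (h : Ok κ r w ε T A Lm) {s : Finset ℕ} {N : ℕ} (hs : s ⊆ range (N + 1))
    {μ x y : ℕ → ℝ} {k : ℕ → ℕ → ℝ} (hμ : ∀ v ∈ s, 0 ≤ μ v ∧ μ v ≤ 1)
    (hμ1 : ∀ v ∈ s, v ≠ 0 → μ v ≤ 1 - Lm * w)
    (hx : ∀ v, 0 ≤ x v) (hy : ∀ v, 0 ≤ y v)
    (hx1 : ∑ v ∈ s, x v ≤ 1) (hy1 : ∑ v ∈ s, y v ≤ 1) (hk : ∀ i j, 0 ≤ k i j)
    (hk1 : k 0 0 + ∑ d ∈ Icc 1 N, (k d 0 + k 0 d) ≤ 1) {v0 : ℕ} (h0 : v0 ∈ s)
    (hX : ∑ v ∈ s.erase v0, x v ≤ ε) (hY : ∑ v ∈ s.erase v0, y v ≤ ε) :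
    (1 - w) ^ (2 * th κ r) * LL ((1 + κ) / 2) (1 / r) (w ^ (th κ r)) s μ x y k ≤
      1 + (4 + 3 * T ^ 2 + 2 * T ^ (1 + κ)) * w ^ (1 + κ) := by
  have hκ := h.κ0
  have hκ1 := h.κ1
  have hε := h.ε0
  have hε4 := h.ε4
  have hw := h.w0
  have hw1 := h.w1
  have hT := h.T1
  have hθ := h.θ0
  have hθ1 := h.θ1
  have he0 := h.e0
  have he1 := h.e1
  have hpre0 := h.pre0
  have hpre1 := h.pre1
  have hA0 := h.A0
  have hcen := LL_center (ρ := (1 + κ) / 2) (e := 1 / r) (ω := w ^ (th κ r)) (by linarith) he0.le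
    h.ω0.le (by linarith [h.ω1]) hμ hx hy (k_le_one hk hk1 hs) hx1 hy1 h0
    (kk := ∑ d ∈ Icc 1 N, (k d 0 + k 0 d)) (by linarith)
  have hkr := k_sum_right (k := k) (fun d => hk _ _) (fun d => hk _ _) hs h0
  have hkl := k_sum_left (k := k) (fun d => hk _ _) (fun d => hk _ _) hs h0
  have hX0 : 0 ≤ ∑ v ∈ s.erase v0, x v := sum_nonneg fun v _ => hx v
  have hY0 : 0 ≤ ∑ v ∈ s.erase v0, y v := sum_nonneg fun v _ => hy v
  have hkk0 : 0 ≤ ∑ d ∈ Icc 1 N, (k d 0 + k 0 d) :=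
    sum_nonneg fun d _ => add_nonneg (hk _ _) (hk _ _)
  have hkk1 : ∑ d ∈ Icc 1 N, (k d 0 + k 0 d) ≤ 1 := by linarith [hk 0 0]
  have hsm0 : v0 = 0 → _ := fun _ => small0 h hs (x := x) (y := y) (k := k) hx hy hk
  have hsm1 := small1 h hs (x := x) (y := y) (k := k) h0 hx hy hk
  have hlt1 : ∀ m : ℝ, T * w < m → ∑ v ∈ s.erase v0, y v ≤ m →
      ∑ d ∈ Icc 1 N, (k d 0 + k 0 d) ≤ m → _ := fun m h1 h2 h3 =>
    large_term h (s := s) (v0 := v0) h1 y (fun v => k (v0 - v) (v - v0)) hy h2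
      (fun v => hk _ _) (hkl.trans h3)
  have hlt2 : ∀ m : ℝ, T * w < m → ∑ v ∈ s.erase v0, x v ≤ m →
      ∑ d ∈ Icc 1 N, (k d 0 + k 0 d) ≤ m → _ := fun m h1 h2 h3 =>
    large_term h (s := s) (v0 := v0) h1 x (fun v => k (v - v0) (v0 - v)) hx h2
      (fun v => hk _ _) (hkr.trans h3)
  generalize hkk : ∑ d ∈ Icc 1 N, (k d 0 + k 0 d) = kk at *
  generalize hXd : ∑ v ∈ s.erase v0, x v = X at *
  generalize hYd : ∑ v ∈ s.erase v0, y v = Y at *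
  have hρ1 : 1/2 ≤ (1 + κ) / 2 := by linarith
  have hρ2 : (1 + κ) / 2 ≤ 1 := by linarith
  have hD := D_le (ρ := (1 + κ) / 2) (e := 1 / r) (X := X) (Y := Y) (kk := kk) (by linarith) hρ2
    he0.le (by linarith) (by linarith) (by linarith) hkk1
  have hD0 : 0 ≤ ((1 - X) * (1 - Y)) ^ ((1 + κ) / 2) * (1 - kk) ^ (1 / r) :=
    mul_nonneg (Real.rpow_nonneg (mul_nonneg (by linarith) (by linarith)) _)
      (Real.rpow_nonneg (by linarith) _)
  generalize ((1 - X) * (1 - Y)) ^ ((1 + κ) / 2) * (1 - kk) ^ (1 / r) = D at *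
  have hμ0 := hμ v0 h0
  have hω0 := h.ω0
  have hω1 := h.ω1
  set ρ := (1 + κ) / 2 with hρ
  set e := 1 / r with hed
  set θ := th κ r with hθd
  set ω := w ^ θ with hω
  have ha0 : 0 ≤ ρ * X := by positivity
  have hb0 : 0 ≤ ρ * Y := by positivity
  have hc0 : 0 ≤ e * kk := by positivity
  have ha2 : ρ * X ≤ X := by
    calc ρ * X ≤ 1 * X := mul_le_mul_of_nonneg_right hρ2 hX0
      _ = X := one_mul X
  have hb2 : ρ * Y ≤ Y := by
    calc ρ * Y ≤ 1 * Y := mul_le_mul_of_nonneg_right hρ2 hY0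
      _ = Y := one_mul Y
  have hc2 : e * kk ≤ kk := by
    calc e * kk ≤ 1 * kk := mul_le_mul_of_nonneg_right (by linarith) hkk0
      _ = kk := one_mul kk
  have ha1 : ρ * X ≤ 1/4 := by linarith
  have hb1 : ρ * Y ≤ 1/4 := by linarith
  have hc1 : e * kk ≤ 1/2 := by
    calc e * kk ≤ e * 1 := mul_le_mul_of_nonneg_left hkk1 he0.le
      _ ≤ 1/2 := by linarith
  have hTp : 0 ≤ T ^ (1 + κ) := Real.rpow_nonneg (by linarith) _
  have hwp : 0 ≤ w ^ (1 + κ) := Real.rpow_nonneg hw.le _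
  have hC0 : 0 ≤ (4 + 3 * T ^ 2 + 2 * T ^ (1 + κ)) * w ^ (1 + κ) :=
    mul_nonneg (by positivity) hwp
  by_cases hsm : X ≤ T * w ∧ Y ≤ T * w ∧ kk ≤ T * w
  · -- small parameters
    obtain ⟨q1, q2, q3⟩ := hsm
    have hTw : 0 ≤ T * w := by positivity
    have habc := num1 ha0 hb0 hc0 (ha2.trans q1) (hb2.trans q2) (hc2.trans q3)
    have hw2 : w ^ 2 ≤ w ^ (1 + κ) := by
      rw [← Real.rpow_natCast]
      exact Real.rpow_le_rpow_of_exponent_ge hw (by linarith) (by push_cast; linarith)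
    have hRle : (X ^ (2 * ρ) + Y ^ (2 * ρ)) * (1 / 2 + 2 * ω) ≤ 2 * T ^ (1 + κ) * w ^ (1 + κ) := by
      have e2 : (2:ℝ) * ρ = 1 + κ := by rw [hρ]; ring
      have r1 : X ^ (2 * ρ) ≤ T ^ (1 + κ) * w ^ (1 + κ) := by
        rw [← Real.mul_rpow (by linarith) hw.le, e2]
        exact Real.rpow_le_rpow hX0 q1 (by linarith)
      have r2 : Y ^ (2 * ρ) ≤ T ^ (1 + κ) * w ^ (1 + κ) := by
        rw [← Real.mul_rpow (by linarith) hw.le, e2]
        exact Real.rpow_le_rpow hY0 q2 (by linarith)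
      have r3 : 0 ≤ X ^ (2 * ρ) := Real.rpow_nonneg hX0 _
      have r4 : 0 ≤ Y ^ (2 * ρ) := Real.rpow_nonneg hY0 _
      calc (X ^ (2 * ρ) + Y ^ (2 * ρ)) * (1 / 2 + 2 * ω)
          ≤ (X ^ (2 * ρ) + Y ^ (2 * ρ)) * 1 :=
            mul_le_mul_of_nonneg_left (by linarith) (by linarith)
        _ ≤ _ := by linarith
    have hTw2 : 3 * (T * w) ^ 2 ≤ 3 * T ^ 2 * w ^ (1 + κ) := by
      have := mul_le_mul_of_nonneg_left hw2 (by positivity : 0 ≤ 3 * T ^ 2)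
      calc 3 * (T * w) ^ 2 = 3 * T ^ 2 * w ^ 2 := by ring
        _ ≤ _ := this
    have hEe : (4 + 3 * T ^ 2 + 2 * T ^ (1 + κ)) * w ^ (1 + κ) =
        4 * w ^ (1 + κ) + 3 * T ^ 2 * w ^ (1 + κ) + 2 * T ^ (1 + κ) * w ^ (1 + κ) := by ring
    have hz : 0 ≤ 2 * θ * w := by positivity
    refine fin1 hpre0 hpre1 hz hC0 ?_
    rw [hEe]
    by_cases hv0 : v0 = 0
    · have hS := hsm0 hv0
      subst hv0
      rw [hXd, hYd] at hS
      have hμμ := mu_mul hμ0.1 hμ0.2 hD0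
      have hθw : 4 * θ * w ^ 2 ≤ 4 * w ^ (1 + κ) := by
        have : 4 * θ * w ^ 2 ≤ 4 * 1 * w ^ 2 :=
          mul_le_mul_of_nonneg_right (by linarith) (sq_nonneg w)
        linarith
      linarith
    · have hμv := hμ1 v0 h0 hv0
      have hLw : 0 ≤ Lm * w := by
        have : 0 ≤ Lm := le_trans (by positivity) h.L1
        positivity
      have hμμ : μ v0 * μ v0 * D ≤
          (1 - Lm * w) * ((1 - ρ * X) * (1 - ρ * Y) * (1 - e * kk)) := by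
        have m1 : μ v0 * μ v0 ≤ 1 - Lm * w := by
          calc μ v0 * μ v0 ≤ 1 * μ v0 := mul_le_mul_of_nonneg_right hμ0.2 hμ0.1
            _ ≤ _ := by linarith
        have m2 : 0 ≤ 1 - Lm * w := le_trans hμ0.1 hμv
        exact mul_le_mul m1 hD hD0 m2
      have hD4 := num3 ha1 hb1 hc1
      have hθA : 8 * θ * A * w ≤ Lm * w * ((1 - ρ * X) * (1 - ρ * Y) * (1 - e * kk)) := by
        have m1 : 32 * θ * A * w ≤ Lm * w := mul_le_mul_of_nonneg_right h.L1 hw.le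
        have m2 : Lm * w * (1/4) ≤ Lm * w * ((1 - ρ * X) * (1 - ρ * Y) * (1 - e * kk)) :=
          mul_le_mul_of_nonneg_left hD4 hLw
        linarith
      have e3 : (1 - Lm * w) * ((1 - ρ * X) * (1 - ρ * Y) * (1 - e * kk)) =
          (1 - ρ * X) * (1 - ρ * Y) * (1 - e * kk)
            - Lm * w * ((1 - ρ * X) * (1 - ρ * Y) * (1 - e * kk)) := by ring
      rw [e3] at hμμ
      linarith
  · -- one large parameter
    set m := max X (max Y kk) with hm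
    have hXm : X ≤ m := le_max_left _ _
    have hYm : Y ≤ m := (le_max_left _ _).trans (le_max_right _ _)
    have hkm : kk ≤ m := (le_max_right _ _).trans (le_max_right _ _)
    have hTm : T * w < m := by
      by_contra hcon
      push Not at hcon
      exact hsm ⟨hXm.trans hcon, hYm.trans hcon, hkm.trans hcon⟩
    have hTw : 0 < T * w := by positivity
    have hm0 : 0 < m := hTw.trans hTm
    have hs1 := hlt1 m hTm hYm hkm
    have hs2 := hlt2 m hTm hXm hkm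
    have hpow : ∀ z : ℝ, 0 ≤ z → z ^ (2 * ρ) = z ^ κ * z := by
      intro z hz
      rcases hz.eq_or_lt with hz | hz
      · rw [← hz, Real.zero_rpow (by linarith)]; simp
      · rw [← Real.rpow_add_one hz.ne']
        congr 1
        rw [hρ]; ring
    have r3 : (1 + κ) / 8 = ρ / 4 := by rw [hρ]; ring
    have hRle : (X ^ (2 * ρ) + Y ^ (2 * ρ)) * (1 / 2 + 2 * ω) ≤ ρ * X / 4 + ρ * Y / 4 := by
      have r1 : X ^ (2 * ρ) ≤ (1 + κ) / 8 * X := by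
        rw [hpow X hX0]
        exact mul_le_mul_of_nonneg_right
          ((Real.rpow_le_rpow hX0 hX hκ.le).trans h.ε2) hX0
      have r2 : Y ^ (2 * ρ) ≤ (1 + κ) / 8 * Y := by
        rw [hpow Y hY0]
        exact mul_le_mul_of_nonneg_right
          ((Real.rpow_le_rpow hY0 hY hκ.le).trans h.ε2) hY0
      rw [r3] at r1 r2
      have r4 : 0 ≤ X ^ (2 * ρ) := Real.rpow_nonneg hX0 _
      have r5 : 0 ≤ Y ^ (2 * ρ) := Real.rpow_nonneg hY0 _
      calc (X ^ (2 * ρ) + Y ^ (2 * ρ)) * (1 / 2 + 2 * ω)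
          ≤ (X ^ (2 * ρ) + Y ^ (2 * ρ)) * 1 :=
            mul_le_mul_of_nonneg_left (by linarith) (by linarith)
        _ ≤ _ := by linarith
    have hD2 := num2 ha0 hb0 hc0 ha1 hb1 hc1
    have hμμ := mu_mul hμ0.1 hμ0.2 hD0
    have hT2 := h.T2
    have hT3 := h.T3
    rw [← hθd] at hT2 hT3
    have hgain : 8 * (T ^ (-θ) * m) ≤ ρ * X / 4 + ρ * Y / 4 + e * kk / 2 := by
      rw [r3] at hT2
      rw [← hed] at hT3
      rcases le_total X (max Y kk) with q | q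
      · have hm1 : m = max Y kk := max_eq_right q
        rcases le_total Y kk with q' | q'
        · have hm2 : m = kk := by rw [hm1, max_eq_right q']
          have : 8 * T ^ (-θ) * m ≤ e / 2 * m := mul_le_mul_of_nonneg_right hT3 hm0.le
          rw [hm2] at this ⊢
          linarith
        · have hm2 : m = Y := by rw [hm1, max_eq_left q']
          have : 8 * T ^ (-θ) * m ≤ ρ / 4 * m := mul_le_mul_of_nonneg_right hT2 hm0.le
          rw [hm2] at this ⊢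
          linarith
      · have hm1 : m = X := max_eq_left q
        have : 8 * T ^ (-θ) * m ≤ ρ / 4 * m := mul_le_mul_of_nonneg_right hT2 hm0.le
        rw [hm1] at this ⊢
        linarith
    have hLL : LL ρ e ω s μ x y k ≤ 1 := by linarith
    have hpre2 : (1 - w) ^ (2 * θ) ≤ 1 := by
      have : 0 ≤ 2 * θ * w := by positivity
      linarith
    calc (1 - w) ^ (2 * θ) * LL ρ e ω s μ x y k
        ≤ (1 - w) ^ (2 * θ) * 1 := mul_le_mul_of_nonneg_left hLL hpre0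
      _ ≤ 1 := by rw [mul_one]; exact hpre2
      _ ≤ _ := by linarith

/-- **core inequality** -/
theorem core (h : Ok κ r w ε T A Lm) {s : Finset ℕ} {N : ℕ} (hs : s ⊆ range (N + 1))
    {μ x y : ℕ → ℝ} {k : ℕ → ℕ → ℝ} (hμ : ∀ v ∈ s, 0 ≤ μ v ∧ μ v ≤ 1)
    (hμ1 : ∀ v ∈ s, v ≠ 0 → μ v ≤ 1 - Lm * w)
    (hx : ∀ v, 0 ≤ x v) (hy : ∀ v, 0 ≤ y v)
    (hx1 : ∑ v ∈ s, x v ≤ 1) (hy1 : ∑ v ∈ s, y v ≤ 1) (hk : ∀ i j, 0 ≤ k i j)
    (hk1 : k 0 0 + ∑ d ∈ Icc 1 N, (k d 0 + k 0 d) ≤ 1) :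
    (1 - w) ^ (2 * th κ r) * LL ((1 + κ) / 2) (1 / r) (w ^ (th κ r)) s μ x y k ≤
      1 + (4 + 3 * T ^ 2 + 2 * T ^ (1 + κ)) * w ^ (1 + κ) := by
  by_cases hc : ∃ v0 ∈ s, ∑ v ∈ s.erase v0, x v ≤ ε ∧ ∑ v ∈ s.erase v0, y v ≤ ε
  · obtain ⟨v0, h0, hX, hY⟩ := hc
    exact case2 h hs hμ hμ1 hx hy hx1 hy1 hk hk1 h0 hX hY
  · have h1 := case1 h hx hy hx1 hy1 hc
    have h2 := LL_crude (ρ := (1 + κ) / 2) h.e0.le h.ω0.le hμ hx hy (k_le_one hk hk1 hs)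
    have hpre0 := h.pre0
    have hpre2 : (1 - w) ^ (2 * th κ r) ≤ 1 :=
      h.pre1.trans (by nlinarith [mul_nonneg h.θ0.le h.w0.le])
    have hT := h.T1
    have hw := h.w0
    have : 0 ≤ (4 + 3 * T ^ 2 + 2 * T ^ (1 + κ)) * w ^ (1 + κ) := by positivity
    calc (1 - w) ^ (2 * th κ r) * LL ((1 + κ) / 2) (1 / r) (w ^ (th κ r)) s μ x y k
        ≤ (1 - w) ^ (2 * th κ r) * 1 := mul_le_mul_of_nonneg_left (h2.trans h1) hpre0
      _ ≤ 1 := by rw [mul_one]; exact hpre2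
      _ ≤ _ := by linarith

end

end Crest.Agent.R4C.MStTx590
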