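import Crest.Agent.R4C.MStT_590
import Crest.Agent.R4C.Base_935

/-!
# Row 4: one-prime inequality of THEOREM (T), general exponents (helper590, note 2740 (B1))

* `exists_ok` : the constants exist.
* `MT κ r Λ p a C` : the one-prime inequality with constant `C`.
* `mt_small`, `mt_large` : it holds with `1 + C₀ p^{-(1+κ)}` for large `p`, with an absolute constant
  for every prime.
-/

set_option autoImplicit false

open Finset

namespace Crest.Agent.R4C.MStTx590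

open Multix251 Basex935

variable {κ r : ℝ}

lemma exists_ok (hκ : 0 < κ) (hκ1 : κ < 1) (hr : 2 / (1 - κ) < r) :
    ∃ ε T A Lm w0 : ℝ, 0 ≤ Lm ∧ 0 < w0 ∧ w0 ≤ 1 / (2 * (Lm + 1)) ∧ 1 ≤ T ∧
      ∀ w : ℝ, 0 < w → w ≤ w0 → Ok κ r w ε T A Lm := by
  have h1 : 0 < 1 - κ := by linarith
  have hr2 : 2 < r := by
    have h2 : (2:ℝ) ≤ 2 / (1 - κ) := by
      rw [le_div_iff₀ h1]; linarith
    linarith
  have hθ : 0 < th κ r := by
    have h2 : 1 / r < (1 - κ) / 2 := by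
      have := one_div_lt_one_div_of_lt (by positivity) hr
      rw [one_div_div] at this
      exact this
    unfold th; linarith
  set ρ := (1 + κ) / 2 with hρ
  have hρ0 : 0 < ρ := by positivity
  set ε := min (1/4 : ℝ) (min ((1/8 : ℝ) ^ (1 / ρ)) (((1 + κ) / 8) ^ (1 / κ))) with hε
  have hε0 : 0 < ε := by
    rw [hε]
    refine lt_min (by norm_num) (lt_min ?_ ?_)
    · exact Real.rpow_pos_of_pos (by norm_num) _
    · exact Real.rpow_pos_of_pos (by positivity) _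
  set c := min ((1 + κ) / 64) (1 / r / 16) with hc
  have hc0 : 0 < c := lt_min (by positivity) (by positivity)
  have hc1 : c ≤ 1 := (min_le_left _ _).trans (by linarith)
  set T := c ^ (-(1 / th κ r)) with hT
  have hT1 : 1 ≤ T := Real.one_le_rpow_of_pos_of_le_one_of_nonpos hc0 hc1 (by
    have : 0 < 1 / th κ r := by positivity
    linarith)
  have hTc : T ^ (-(th κ r)) = c := by
    rw [hT, ← Real.rpow_mul hc0.le]
    have : -(1 / th κ r) * -(th κ r) = 1 := by field_simp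
    rw [this, Real.rpow_one]
  set A := ((2:ℝ) ^ (1 / r)) ^ (1 / th κ r) with hA
  have hA0 : 0 < A := by positivity
  have hA1 : A ^ (th κ r) = 2 ^ (1 / r) := by
    rw [hA, ← Real.rpow_mul (by positivity)]
    have : 1 / th κ r * th κ r = 1 := by field_simp
    rw [this, Real.rpow_one]
  set Lm := 32 * th κ r * A with hLm
  have hLm0 : 0 ≤ Lm := by positivity
  set z := min (1/32 : ℝ) (κ * ε / 8) with hz
  have hz0 : 0 < z := lt_min (by norm_num) (by positivity)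
  set w0 := min (1/2 : ℝ) (min (z ^ (1 / th κ r)) (1 / (2 * (Lm + 1)))) with hw0
  have hw00 : 0 < w0 := lt_min (by norm_num) (lt_min (by positivity) (by positivity))
  refine ⟨ε, T, A, Lm, w0, hLm0, hw00, (min_le_right _ _).trans (min_le_right _ _), hT1, ?_⟩
  intro w hw hww
  have hwz : w ^ (th κ r) ≤ z := by
    have : w ≤ z ^ (1 / th κ r) := hww.trans ((min_le_right _ _).trans (min_le_left _ _))
    calc w ^ (th κ r) ≤ (z ^ (1 / th κ r)) ^ (th κ r) := Real.rpow_le_rpow hw.le this hθ.le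
      _ = z := by
        rw [← Real.rpow_mul hz0.le]
        have : 1 / th κ r * th κ r = 1 := by field_simp
        rw [this, Real.rpow_one]
  refine ⟨hκ, hκ1, hr, hw, hww.trans (min_le_left _ _), hε0, min_le_left _ _, ?_, ?_, hT1, ?_, ?_,
    hA0, hA1, hwz.trans (min_le_left _ _), ?_, le_rfl, ?_⟩
  · calc ε ^ ((1 + κ) / 2) ≤ ((1/8 : ℝ) ^ (1 / ρ)) ^ ρ :=
          Real.rpow_le_rpow hε0.le ((min_le_right _ _).trans (min_le_left _ _)) hρ0.le
      _ = 1/8 := by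
        rw [← Real.rpow_mul (by norm_num)]
        have : 1 / ρ * ρ = 1 := by field_simp
        rw [this, Real.rpow_one]
  · calc ε ^ κ ≤ (((1 + κ) / 8) ^ (1 / κ)) ^ κ :=
          Real.rpow_le_rpow hε0.le ((min_le_right _ _).trans (min_le_right _ _)) hκ.le
      _ = (1 + κ) / 8 := by
        rw [← Real.rpow_mul (by positivity)]
        have : 1 / κ * κ = 1 := by field_simp
        rw [this, Real.rpow_one]
  · rw [hTc]
    have : c ≤ (1 + κ) / 64 := min_le_left _ _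
    linarith
  · rw [hTc]
    have : c ≤ 1 / r / 16 := min_le_right _ _
    linarith
  · have : z ≤ κ * ε / 8 := min_le_right _ _
    linarith
  · have h2 : w ≤ 1 / (2 * (Lm + 1)) := hww.trans ((min_le_right _ _).trans (min_le_right _ _))
    rw [le_div_iff₀ (by positivity)] at h2
    nlinarith

/-- anatomy factor of one prime -/
noncomputable def lam1 (Λ w : ℝ) (v : ℕ) : ℝ := if v = 0 then 1 else 1 + Λ * w

/-- the one-prime inequality -/
def MT (κ r Λ : ℝ) (p a : ℕ) (C : ℝ) : Prop :=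
  ∀ (F G : ℕ → ℝ) (K : ℕ → ℕ → ℝ), (∀ v, 0 ≤ F v) → (∀ v, 0 ≤ G v) → (∀ i j, 0 ≤ K i j) →
    ∑ v ∈ range (a + 1), ∑ v' ∈ range (a + 1),
      nup p a v * nup p a v' * ((p : ℝ) ^ (min v v')) ^ (1 - κ)
        * (F v * G v' * K (v - v') (v' - v)) ≤
    C * ((∑ v ∈ range (a + 1), nup p a v * lam1 Λ (1 / p) v * F v ^ (2 / (1 + κ))) ^ ((1 + κ) / 2)
      * (∑ v ∈ range (a + 1), nup p a v * lam1 Λ (1 / p) v * G v ^ (2 / (1 + κ))) ^ ((1 + κ) / 2)
      * (∑ i ∈ range (a + 1), ∑ j ∈ range (a + 1), nup p a i * nup p a j * K i j ^ r) ^ (1 / r))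

lemma dist_add_two_min (v v' : ℕ) : v + v' = 2 * min v v' + Nat.dist v v' := by
  unfold Nat.dist; omega

lemma expo {p : ℕ} (hp : 0 < p) (v v' : ℕ) :
    ((p : ℝ) ^ (min v v')) ^ (1 - κ) *
      (((1 / (p : ℝ)) ^ v) ^ (1 - (1 + κ) / 2) * ((1 / (p : ℝ)) ^ v') ^ (1 - (1 + κ) / 2)) =
      ((1 / (p : ℝ)) ^ (Nat.dist v v')) ^ (1 - (1 + κ) / 2) := by
  have hp0 : (0:ℝ) < p := by exact_mod_cast hp
  have e1 : ((p : ℝ) ^ (min v v')) ^ (1 - κ) = (((p : ℝ) ^ (min v v')) ^ 2) ^ (1 - (1 + κ) / 2) := by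
    rw [← Real.rpow_natCast (_ ^ _) 2, ← Real.rpow_mul (by positivity)]
    congr 1
    push_cast
    ring
  rw [e1, ← Real.mul_rpow (by positivity) (by positivity), ← Real.mul_rpow (by positivity)
    (by positivity)]
  congr 1
  have h := dist_add_two_min v v'
  rw [← pow_add, h, pow_add, ← pow_mul]
  have e2 : (p : ℝ) ^ (min v v' * 2) * (1 / (p : ℝ)) ^ (2 * min v v') = 1 := by
    rw [mul_comm 2, ← mul_pow, mul_one_div_cancel hp0.ne', one_pow]
  rw [← mul_assoc, e2, one_mul]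

lemma lam_bound {L w ρ : ℝ} (hL : 0 ≤ L) (hw : 0 < w) (hw1 : w ≤ 1 / (2 * (L + 1)))
    (hρ : 1/2 ≤ ρ) :
    (1 + (6 * L + 6) * w) ^ (-ρ) ≤ (1 - w) ^ (1 - ρ) * (1 - L * w) := by
  have hLw : 2 * (L + 1) * w ≤ 1 := by
    rw [le_div_iff₀ (by positivity)] at hw1
    linarith
  have hw2 : w ≤ 1/2 := by nlinarith
  have h1 : (1 + (6 * L + 6) * w) ^ (-ρ) ≤ 1 / (1 + (2 * L + 2) * w) := by
    have hb : 1 ≤ 1 + (6 * L + 6) * w := by nlinarith
    calc (1 + (6 * L + 6) * w) ^ (-ρ) ≤ (1 + (6 * L + 6) * w) ^ (-(1/2 : ℝ)) :=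
          Real.rpow_le_rpow_of_exponent_le hb (by linarith)
      _ = 1 / Real.sqrt (1 + (6 * L + 6) * w) := by
          rw [Real.rpow_neg (by linarith), Real.sqrt_eq_rpow, one_div ((1 + (6 * L + 6) * w) ^ _)]
      _ ≤ 1 / (1 + (2 * L + 2) * w) := by
          apply one_div_le_one_div_of_le (by nlinarith)
          apply Real.le_sqrt_of_sq_le
          have hq : 0 ≤ (L + 1) * w := by positivity
          have hq1 : (L + 1) * w ≤ 1/2 := by linarith
          nlinarith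
  have h2 : 1 - w ≤ (1 - w) ^ (1 - ρ) := by
    calc 1 - w = (1 - w) ^ (1:ℝ) := (Real.rpow_one _).symm
      _ ≤ (1 - w) ^ (1 - ρ) :=
        Real.rpow_le_rpow_of_exponent_ge (by linarith) (by linarith) (by linarith)
  have h3 : 0 ≤ 1 - L * w := by nlinarith
  refine h1.trans (le_trans ?_ (mul_le_mul_of_nonneg_right h2 h3))
  have hq : 0 ≤ (L + 1) * w := by positivity
  have hq1 : (L + 1) * w ≤ 1/2 := by linarith
  rw [div_le_iff₀ (by nlinarith)]
  have h4 : 1 - (L + 1) * w ≤ (1 - w) * (1 - L * w) := by nlinarith [mul_nonneg hL (sq_nonneg w)]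
  have h5 : 1 ≤ (1 - (L + 1) * w) * (1 + (2 * L + 2) * w) := by
    nlinarith [mul_nonneg hq (sub_nonneg.2 hq1)]
  have h6 : 0 ≤ 1 + (2 * L + 2) * w := by nlinarith
  exact h5.trans (mul_le_mul_of_nonneg_right h4 h6)

/-- one variable: `ν F = ν^{1-ρ} λ^{-ρ} (ν λ F^q)^ρ` -/
lemma one_var (hκ : 0 < κ) {n l F : ℝ} (hn : 0 < n) (hl : 0 < l) (hF : 0 ≤ F) :
    n * F = n ^ (1 - (1 + κ) / 2) * l ^ (-((1 + κ) / 2)) *
      (n * l * F ^ (2 / (1 + κ))) ^ ((1 + κ) / 2) := by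
  have hF2 : (F ^ (2 / (1 + κ))) ^ ((1 + κ) / 2) = F := by
    rw [← Real.rpow_mul hF]
    have : 2 / (1 + κ) * ((1 + κ) / 2) = 1 := by field_simp
    rw [this, Real.rpow_one]
  rw [Real.mul_rpow (by positivity) (Real.rpow_nonneg hF _), hF2, Real.mul_rpow hn.le hl.le]
  have e1 : n ^ (1 - (1 + κ) / 2) * n ^ ((1 + κ) / 2) = n := by
    rw [← Real.rpow_add hn]; simp
  have e2 : l ^ (-((1 + κ) / 2)) * l ^ ((1 + κ) / 2) = 1 := by
    rw [← Real.rpow_add hl]; simp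
  calc n * F = (n ^ (1 - (1 + κ) / 2) * n ^ ((1 + κ) / 2)) *
        (l ^ (-((1 + κ) / 2)) * l ^ ((1 + κ) / 2)) * F := by rw [e1, e2, mul_one]
    _ = _ := by ring

/-- relation variable -/
lemma rel_var {r n K : ℝ} (hr : 0 < r) (hn : 0 < n) (hK : 0 ≤ K) :
    K = n ^ (-(1 / r)) * (n * K ^ r) ^ (1 / r) := by
  have hK2 : (K ^ r) ^ (1 / r) = K := by
    rw [← Real.rpow_mul hK]
    have : r * (1 / r) = 1 := by field_simp
    rw [this, Real.rpow_one]
  rw [Real.mul_rpow hn.le (Real.rpow_nonneg hK _), hK2, ← mul_assoc, ← Real.rpow_add hn]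
  simp

lemma nup_pos {p : ℕ} (hp : 2 ≤ p) (a v : ℕ) : 0 < nup p a v := by
  have hp0 : (0:ℝ) < p := by exact_mod_cast (by omega : 0 < p)
  have h1 : (1:ℝ) / p ≤ 1 / 2 := one_div_le_one_div_of_le two_pos (by exact_mod_cast hp)
  unfold nup
  split_ifs
  · have : (0:ℝ) < 1 - 1 / p := by linarith
    positivity
  · positivity

/-- the pointwise estimate, with a free majorant `μ` of `ν^{1-ρ} λ^{-ρ} w^{-v(1-ρ)}` -/
lemma term_le (hκ : 0 < κ) (hκ1 : κ < 1) (hr : 0 < r) {Λ : ℝ} (hΛ : 0 ≤ Λ) {p a : ℕ} (hp : 2 ≤ p)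
    {μ : ℕ → ℝ} (hμ0 : ∀ v, 0 ≤ μ v)
    (hμ : ∀ v ∈ range (a + 1), (nup p a v) ^ (1 - (1 + κ) / 2) *
      (lam1 Λ (1 / p) v) ^ (-((1 + κ) / 2)) ≤ ((1 / (p : ℝ)) ^ v) ^ (1 - (1 + κ) / 2) * μ v)
    {F G : ℕ → ℝ} {K : ℕ → ℕ → ℝ} (hF : ∀ v, 0 ≤ F v) (hG : ∀ v, 0 ≤ G v) (hK : ∀ i j, 0 ≤ K i j)
    {NF NG NK : ℝ} (hNF : 0 < NF) (hNG : 0 < NG) (hNK : 0 < NK)
    {v v' : ℕ} (hv : v ∈ range (a + 1)) (hv' : v' ∈ range (a + 1)) :
    nup p a v * nup p a v' * ((p : ℝ) ^ (min v v')) ^ (1 - κ)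
        * (F v * G v' * K (v - v') (v' - v)) ≤
    (NF ^ ((1 + κ) / 2) * NG ^ ((1 + κ) / 2) * NK ^ (1 / r)) *
      ((1 - 1 / (p : ℝ)) ^ (-(2 * (1 / r))) *
      (μ v * μ v' * (((1 / (p : ℝ)) ^ (th κ r)) ^ (Nat.dist v v') *
        ((nup p a v * lam1 Λ (1 / p) v * F v ^ (2 / (1 + κ))) / NF *
          ((nup p a v' * lam1 Λ (1 / p) v' * G v' ^ (2 / (1 + κ))) / NG)) ^ ((1 + κ) / 2)) *
        ((nup p a (v - v') * nup p a (v' - v) * K (v - v') (v' - v) ^ r) / NK) ^ (1 / r))) := by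
  have hp0 : (0:ℝ) < p := by exact_mod_cast (by omega : 0 < p)
  have hw1 : (1:ℝ) / p ≤ 1 / 2 := one_div_le_one_div_of_le two_pos (by exact_mod_cast hp)
  have hw0 : (0:ℝ) < 1 / p := by positivity
  have hnp := nup_pos hp a
  have hlam : ∀ v, 0 < lam1 Λ (1 / (p:ℝ)) v := by
    intro v
    unfold lam1
    split_ifs
    · norm_num
    · positivity
  set ρ := (1 + κ) / 2 with hρ
  set w := 1 / (p : ℝ) with hw
  set θ := th κ r with hθ
  set α := nup p a v * lam1 Λ w v * F v ^ (2 / (1 + κ)) with hα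
  set β := nup p a v' * lam1 Λ w v' * G v' ^ (2 / (1 + κ)) with hβ
  set γ := nup p a (v - v') * nup p a (v' - v) * K (v - v') (v' - v) ^ r with hγ
  set n := nup p a (v - v') * nup p a (v' - v) with hn
  have hn0 : 0 < n := mul_pos (hnp _) (hnp _)
  have hα0 : 0 ≤ α := mul_nonneg (mul_nonneg (hnp v).le (hlam v).le) (Real.rpow_nonneg (hF v) _)
  have hβ0 : 0 ≤ β := mul_nonneg (mul_nonneg (hnp v').le (hlam v').le) (Real.rpow_nonneg (hG v') _)
  have hγ0 : 0 ≤ γ := mul_nonneg hn0.le (Real.rpow_nonneg (hK _ _) _)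
  have e1 := one_var hκ (hnp v) (hlam v) (hF v)
  have e2 := one_var hκ (hnp v') (hlam v') (hG v')
  have e3 := rel_var hr hn0 (hK (v - v') (v' - v))
  rw [← hρ, ← hα] at e1
  rw [← hρ, ← hβ] at e2
  rw [← hγ] at e3
  -- bound of n^{-1/r}
  have hnle : n ^ (-(1 / r)) ≤ (1 - w) ^ (-(2 * (1 / r))) * (w ^ (Nat.dist v v')) ^ (-(1 / r)) := by
    have hvr := mem_range.1 hv
    have hvr' := mem_range.1 hv'
    have h1 : (1 - w) * w ^ (v - v') ≤ nup p a (v - v') := nup_ge (by omega) a _ (by omega)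
    have h2 : (1 - w) * w ^ (v' - v) ≤ nup p a (v' - v) := nup_ge (by omega) a _ (by omega)
    have hw1' : 0 < 1 - w := by linarith
    have h3 : (1 - w) ^ (2:ℝ) * w ^ (Nat.dist v v') ≤ n := by
      calc (1 - w) ^ (2:ℝ) * w ^ (Nat.dist v v')
          = ((1 - w) * w ^ (v - v')) * ((1 - w) * w ^ (v' - v)) := by
            have e5 : Nat.dist v v' = (v - v') + (v' - v) := rfl
            rw [e5, pow_add, Real.rpow_two]; ring
        _ ≤ _ := mul_le_mul h1 h2 (by positivity) (hnp _).le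
    calc n ^ (-(1 / r)) ≤ ((1 - w) ^ (2:ℝ) * w ^ (Nat.dist v v')) ^ (-(1 / r)) :=
          Real.rpow_le_rpow_of_nonpos (by positivity) h3 (by
            have : 0 < 1 / r := by positivity
            linarith)
      _ = _ := by
          rw [Real.mul_rpow (by positivity) (by positivity), ← Real.rpow_mul hw1'.le]
          congr 2
          ring
  have hsplit : ∀ z N : ℝ, 0 ≤ z → 0 < N → z ^ ρ = N ^ ρ * (z / N) ^ ρ := by
    intro z N hz hN
    rw [← Real.mul_rpow hN.le (by positivity)]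
    congr 1
    field_simp
  have hsplit2 : γ ^ (1 / r) = NK ^ (1 / r) * (γ / NK) ^ (1 / r) := by
    rw [← Real.mul_rpow hNK.le (by positivity)]
    congr 1
    field_simp
  have hx0 : 0 ≤ α / NF := by positivity
  have hy0 : 0 ≤ β / NG := by positivity
  have hk0 : 0 ≤ γ / NK := by positivity
  have hgk : 0 ≤ ((p : ℝ) ^ (min v v')) ^ (1 - κ) := by positivity
  -- assemble
  have A1 : nup p a v * F v ≤ (w ^ v) ^ (1 - ρ) * μ v * (NF ^ ρ * (α / NF) ^ ρ) := by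
    rw [e1, hsplit α NF hα0 hNF]
    exact mul_le_mul_of_nonneg_right (hμ v hv) (by positivity)
  have A2 : nup p a v' * G v' ≤ (w ^ v') ^ (1 - ρ) * μ v' * (NG ^ ρ * (β / NG) ^ ρ) := by
    rw [e2, hsplit β NG hβ0 hNG]
    exact mul_le_mul_of_nonneg_right (hμ v' hv') (by positivity)
  have A3 : K (v - v') (v' - v) ≤ ((1 - w) ^ (-(2 * (1 / r))) *
      (w ^ (Nat.dist v v')) ^ (-(1 / r))) * (NK ^ (1 / r) * (γ / NK) ^ (1 / r)) := by
    rw [e3, hsplit2]
    exact mul_le_mul_of_nonneg_right hnle (by positivity)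
  have hμv := hμ0 v
  have hμv' := hμ0 v'
  have B1 : 0 ≤ (w ^ v) ^ (1 - ρ) * μ v * (NF ^ ρ * (α / NF) ^ ρ) := by positivity
  have B2 : 0 ≤ (w ^ v') ^ (1 - ρ) * μ v' * (NG ^ ρ * (β / NG) ^ ρ) := by positivity
  have hexp := expo (κ := κ) (by omega : 0 < p) v v'
  rw [← hw, ← hρ] at hexp
  have hpow : (w ^ (Nat.dist v v')) ^ (1 - ρ) * (w ^ (Nat.dist v v')) ^ (-(1 / r)) =
      (w ^ θ) ^ (Nat.dist v v') := by
    rw [omega_pow hw0.le, ← Real.rpow_add (by positivity)]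
    congr 1
    rw [hθ, hρ]
    unfold th
    ring
  calc nup p a v * nup p a v' * ((p : ℝ) ^ (min v v')) ^ (1 - κ)
        * (F v * G v' * K (v - v') (v' - v))
      = ((p : ℝ) ^ (min v v')) ^ (1 - κ) * ((nup p a v * F v) * (nup p a v' * G v')
          * K (v - v') (v' - v)) := by ring
    _ ≤ ((p : ℝ) ^ (min v v')) ^ (1 - κ) *
          (((w ^ v) ^ (1 - ρ) * μ v * (NF ^ ρ * (α / NF) ^ ρ)) *
          ((w ^ v') ^ (1 - ρ) * μ v' * (NG ^ ρ * (β / NG) ^ ρ)) *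
          (((1 - w) ^ (-(2 * (1 / r))) * (w ^ (Nat.dist v v')) ^ (-(1 / r))) *
            (NK ^ (1 / r) * (γ / NK) ^ (1 / r)))) := by
        refine mul_le_mul_of_nonneg_left ?_ hgk
        refine mul_le_mul (mul_le_mul A1 A2 ?_ B1) A3 (hK _ _) (mul_nonneg B1 B2)
        exact mul_nonneg (hnp _).le (hG _)
    _ = (((p : ℝ) ^ (min v v')) ^ (1 - κ) * ((w ^ v) ^ (1 - ρ) * (w ^ v') ^ (1 - ρ))) *
          (w ^ (Nat.dist v v')) ^ (-(1 / r)) * (NF ^ ρ * NG ^ ρ * NK ^ (1 / r)) *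
          ((1 - w) ^ (-(2 * (1 / r))) * (μ v * μ v' * ((α / NF) ^ ρ * (β / NG) ^ ρ) *
            (γ / NK) ^ (1 / r))) := by ring
    _ = _ := by
        rw [hexp, hpow, Real.mul_rpow hx0 hy0]
        ring

/-- the norms dominate: normalised shares -/
lemma MT_of {Λ : ℝ} (hκ : 0 < κ) (hκ1 : κ < 1) (hr : 0 < r) (hΛ : 0 ≤ Λ) {p a : ℕ} (hp : 2 ≤ p)
    {μ : ℕ → ℝ} (hμ0 : ∀ v, 0 ≤ μ v)
    (hμ : ∀ v ∈ range (a + 1), (nup p a v) ^ (1 - (1 + κ) / 2) *
      (lam1 Λ (1 / p) v) ^ (-((1 + κ) / 2)) ≤ ((1 / (p : ℝ)) ^ v) ^ (1 - (1 + κ) / 2) * μ v)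
    {C : ℝ} (hC : 0 ≤ C)
    (hcore : ∀ (x y : ℕ → ℝ) (k : ℕ → ℕ → ℝ), (∀ v, 0 ≤ x v) → (∀ v, 0 ≤ y v) →
      ∑ v ∈ range (a + 1), x v ≤ 1 → ∑ v ∈ range (a + 1), y v ≤ 1 → (∀ i j, 0 ≤ k i j) →
      k 0 0 + ∑ d ∈ Icc 1 a, (k d 0 + k 0 d) ≤ 1 →
      (1 - 1 / (p : ℝ)) ^ (-(2 * (1 / r))) *
        LL ((1 + κ) / 2) (1 / r) ((1 / (p : ℝ)) ^ (th κ r)) (range (a + 1)) μ x y k ≤ C) :
    MT κ r Λ p a C := by
  intro F G K hF hG hK
  have hp0 : (0:ℝ) < p := by exact_mod_cast (by omega : 0 < p)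
  have hnp := nup_pos hp a
  have hlam : ∀ v, 0 < lam1 Λ (1 / (p:ℝ)) v := by
    intro v
    unfold lam1
    split_ifs
    · norm_num
    · positivity
  set NF := ∑ v ∈ range (a + 1), nup p a v * lam1 Λ (1 / p) v * F v ^ (2 / (1 + κ)) with hNF
  set NG := ∑ v ∈ range (a + 1), nup p a v * lam1 Λ (1 / p) v * G v ^ (2 / (1 + κ)) with hNG
  set NK := ∑ i ∈ range (a + 1), ∑ j ∈ range (a + 1), nup p a i * nup p a j * K i j ^ r with hNK
  have tF : ∀ v, 0 ≤ nup p a v * lam1 Λ (1 / p) v * F v ^ (2 / (1 + κ)) := fun v =>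
    mul_nonneg (mul_nonneg (hnp v).le (hlam v).le) (Real.rpow_nonneg (hF v) _)
  have tG : ∀ v, 0 ≤ nup p a v * lam1 Λ (1 / p) v * G v ^ (2 / (1 + κ)) := fun v =>
    mul_nonneg (mul_nonneg (hnp v).le (hlam v).le) (Real.rpow_nonneg (hG v) _)
  have tK : ∀ i j, 0 ≤ nup p a i * nup p a j * K i j ^ r := fun i j =>
    mul_nonneg (mul_nonneg (hnp i).le (hnp j).le) (Real.rpow_nonneg (hK i j) _)
  have nF : 0 ≤ NF := sum_nonneg fun v _ => tF v
  have nG : 0 ≤ NG := sum_nonneg fun v _ => tG v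
  have nK : 0 ≤ NK := sum_nonneg fun i _ => sum_nonneg fun j _ => tK i j
  have hRHS : 0 ≤ C * (NF ^ ((1 + κ) / 2) * NG ^ ((1 + κ) / 2) * NK ^ (1 / r)) := by positivity
  have hq : (2 / (1 + κ)) ≠ 0 := by positivity
  -- degenerate cases
  rcases nF.eq_or_lt with z | pF
  · have hz : ∀ v ∈ range (a + 1), F v = 0 := by
      intro v hv
      have h1 := (sum_eq_zero_iff_of_nonneg (fun v _ => tF v)).1 z.symm v hv
      have h2 : F v ^ (2 / (1 + κ)) = 0 := by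
        rcases mul_eq_zero.1 h1 with h3 | h3
        · exact absurd h3 (mul_pos (hnp v) (hlam v)).ne'
        · exact h3
      exact (Real.rpow_eq_zero (hF v) hq).1 h2
    rw [sum_eq_zero]
    · exact hRHS
    · intro v hv
      refine sum_eq_zero fun v' _ => ?_
      rw [hz v hv]; ring
  rcases nG.eq_or_lt with z | pG
  · have hz : ∀ v ∈ range (a + 1), G v = 0 := by
      intro v hv
      have h1 := (sum_eq_zero_iff_of_nonneg (fun v _ => tG v)).1 z.symm v hv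
      have h2 : G v ^ (2 / (1 + κ)) = 0 := by
        rcases mul_eq_zero.1 h1 with h3 | h3
        · exact absurd h3 (mul_pos (hnp v) (hlam v)).ne'
        · exact h3
      exact (Real.rpow_eq_zero (hG v) hq).1 h2
    rw [sum_eq_zero]
    · exact hRHS
    · intro v hv
      refine sum_eq_zero fun v' hv' => ?_
      rw [hz v' hv']; ring
  rcases nK.eq_or_lt with z | pK
  · have hz : ∀ i ∈ range (a + 1), ∀ j ∈ range (a + 1), K i j = 0 := by
      intro i hi j hj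
      have h0 := (sum_eq_zero_iff_of_nonneg (fun i _ => sum_nonneg fun j _ => tK i j)).1 z.symm i hi
      have h1 := (sum_eq_zero_iff_of_nonneg (fun j _ => tK i j)).1 h0 j hj
      have h2 : K i j ^ r = 0 := by
        rcases mul_eq_zero.1 h1 with h3 | h3
        · exact absurd h3 (mul_pos (hnp i) (hnp j)).ne'
        · exact h3
      exact (Real.rpow_eq_zero (hK i j) hr.ne').1 h2
    rw [sum_eq_zero]
    · exact hRHS
    · intro v hv
      refine sum_eq_zero fun v' hv' => ?_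
      rw [mem_range] at hv hv'
      rw [hz (v - v') (mem_range.2 (by omega)) (v' - v) (mem_range.2 (by omega))]; ring
  -- main case
  set x : ℕ → ℝ := fun v => (nup p a v * lam1 Λ (1 / p) v * F v ^ (2 / (1 + κ))) / NF with hx
  set y : ℕ → ℝ := fun v => (nup p a v * lam1 Λ (1 / p) v * G v ^ (2 / (1 + κ))) / NG with hy
  set k : ℕ → ℕ → ℝ := fun i j => (nup p a i * nup p a j * K i j ^ r) / NK with hk
  have hx0 : ∀ v, 0 ≤ x v := fun v => div_nonneg (tF v) nF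
  have hy0 : ∀ v, 0 ≤ y v := fun v => div_nonneg (tG v) nG
  have hk0 : ∀ i j, 0 ≤ k i j := fun i j => div_nonneg (tK i j) nK
  have hx1 : ∑ v ∈ range (a + 1), x v ≤ 1 := by
    rw [hx, ← sum_div, ← hNF, div_self pF.ne']
  have hy1 : ∑ v ∈ range (a + 1), y v ≤ 1 := by
    rw [hy, ← sum_div, ← hNG, div_self pG.ne']
  have hk1 : k 0 0 + ∑ d ∈ Icc 1 a, (k d 0 + k 0 d) ≤ 1 := by
    have e1 : ∑ i ∈ range (a + 1), ∑ j ∈ range (a + 1), k i j = 1 := by
      rw [hk]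
      simp_rw [← sum_div]
      rw [← hNK, div_self pK.ne']
    have e2 : range (a + 1) = insert 0 (Icc 1 a) := by
      ext i
      rw [mem_range, mem_insert, mem_Icc]
      omega
    have h0 : (0:ℕ) ∉ Icc 1 a := by rw [mem_Icc]; omega
    rw [e2, sum_insert h0, sum_insert h0] at e1
    have e3 : ∑ i ∈ Icc 1 a, k i 0 ≤ ∑ i ∈ Icc 1 a, ∑ j ∈ insert 0 (Icc 1 a), k i j := by
      refine sum_le_sum fun i _ => ?_
      exact single_le_sum (f := fun j => k i j) (fun j _ => hk0 i j) (mem_insert_self _ _)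
    rw [sum_add_distrib]
    linarith
  have hc := hcore x y k hx0 hy0 hx1 hy1 hk0 hk1
  have hN : 0 ≤ NF ^ ((1 + κ) / 2) * NG ^ ((1 + κ) / 2) * NK ^ (1 / r) := by positivity
  calc ∑ v ∈ range (a + 1), ∑ v' ∈ range (a + 1),
        nup p a v * nup p a v' * ((p : ℝ) ^ (min v v')) ^ (1 - κ)
          * (F v * G v' * K (v - v') (v' - v))
      ≤ ∑ v ∈ range (a + 1), ∑ v' ∈ range (a + 1),
        (NF ^ ((1 + κ) / 2) * NG ^ ((1 + κ) / 2) * NK ^ (1 / r)) *
        ((1 - 1 / (p : ℝ)) ^ (-(2 * (1 / r))) *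
        (μ v * μ v' * (((1 / (p : ℝ)) ^ (th κ r)) ^ (Nat.dist v v') *
          (x v * y v') ^ ((1 + κ) / 2)) * (k (v - v') (v' - v)) ^ (1 / r))) :=
        sum_le_sum fun v hv => sum_le_sum fun v' hv' =>
          term_le hκ hκ1 hr hΛ hp hμ0 hμ hF hG hK pF pG pK hv hv'
    _ = (NF ^ ((1 + κ) / 2) * NG ^ ((1 + κ) / 2) * NK ^ (1 / r)) *
        ((1 - 1 / (p : ℝ)) ^ (-(2 * (1 / r))) *
        LL ((1 + κ) / 2) (1 / r) ((1 / (p : ℝ)) ^ (th κ r)) (range (a + 1)) μ x y k) := by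
        unfold LL
        simp_rw [mul_sum]
    _ ≤ (NF ^ ((1 + κ) / 2) * NG ^ ((1 + κ) / 2) * NK ^ (1 / r)) * C :=
        mul_le_mul_of_nonneg_left hc hN
    _ = _ := by ring

lemma LL_scale {ρ e ω c : ℝ} {s : Finset ℕ} {μ x y : ℕ → ℝ} {k : ℕ → ℕ → ℝ} :
    LL ρ e ω s (fun v => c * μ v) x y k = c * c * LL ρ e ω s μ x y k := by
  unfold LL
  rw [mul_sum]
  refine sum_congr rfl fun v _ => ?_
  rw [mul_sum]
  exact sum_congr rfl fun v' _ => by ring

/-- **one-prime inequality, large primes** -/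
theorem mt_small (hκ : 0 < κ) (hκ1 : κ < 1) (hr : 2 / (1 - κ) < r) :
    ∃ Λ C0 w0 : ℝ, 0 ≤ Λ ∧ 0 ≤ C0 ∧ 0 < w0 ∧ ∀ p a : ℕ, 2 ≤ p → 0 < a → 1 / (p : ℝ) ≤ w0 →
      MT κ r Λ p a (1 + C0 * (1 / (p : ℝ)) ^ (1 + κ)) := by
  obtain ⟨ε, T, A, Lm, w0, hLm, hw0, hw0', hT, hok⟩ := exists_ok hκ hκ1 hr
  refine ⟨6 * Lm + 6, 4 + 3 * T ^ 2 + 2 * T ^ (1 + κ), w0, by positivity, by positivity, hw0, ?_⟩
  intro p a hp ha hpw
  have hp0 : (0:ℝ) < p := by exact_mod_cast (by omega : 0 < p)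
  have hw : (0:ℝ) < 1 / p := by positivity
  have h := hok (1 / (p : ℝ)) hw hpw
  have hw2 := h.w1
  have hr0 : 0 < r := by linarith [h.r0]
  have hρ : (1:ℝ)/2 ≤ (1 + κ) / 2 := by linarith
  have h1w : 0 < 1 - 1 / (p:ℝ) := by linarith
  have hL1 : 0 ≤ 1 - Lm * (1 / (p:ℝ)) := by linarith [h.L2]
  set μ' : ℕ → ℝ := fun v => if v = 0 then 1 else 1 - Lm * (1 / (p:ℝ)) with hμ'
  have hμ'0 : ∀ v, 0 ≤ μ' v := by
    intro v
    simp only [hμ']
    split_ifs
    · norm_num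
    · exact hL1
  have hμ'1 : ∀ v, μ' v ≤ 1 := by
    intro v
    simp only [hμ']
    split_ifs
    · exact le_rfl
    · have : 0 ≤ Lm * (1 / (p:ℝ)) := by positivity
      linarith
  refine MT_of hκ hκ1 hr0 (by positivity) hp
    (μ := fun v => (1 - 1 / (p:ℝ)) ^ (1 - (1 + κ) / 2) * μ' v)
    (fun v => mul_nonneg (Real.rpow_nonneg h1w.le _) (hμ'0 v)) ?_ (by positivity) ?_
  · intro v hv
    rw [mem_range] at hv
    by_cases hv0 : v = 0
    · subst hv0
      have e1 : nup p a 0 = 1 - 1 / (p:ℝ) := by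
        unfold nup
        rw [if_pos ha]; simp
      rw [e1]
      simp [lam1, hμ']
    · have e1 : lam1 (6 * Lm + 6) (1 / (p:ℝ)) v = 1 + (6 * Lm + 6) * (1 / (p:ℝ)) := by
        unfold lam1; rw [if_neg hv0]
      have e2 : μ' v = 1 - Lm * (1 / (p:ℝ)) := by simp only [hμ']; rw [if_neg hv0]
      rw [e1, e2]
      refine mul_le_mul ?_ (lam_bound hLm hw (hpw.trans hw0') hρ) (by positivity) (by positivity)
      exact Real.rpow_le_rpow (nup_pos hp a v).le (nup_le (by omega) a v (by omega)) (by linarith)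
  · intro x y k hx hy hx1 hy1 hk hk1
    rw [LL_scale]
    have hc := core h (s := range (a + 1)) (N := a) (le_refl _) (μ := μ') (x := x) (y := y) (k := k)
      (fun v _ => ⟨hμ'0 v, hμ'1 v⟩) (fun v _ hv0 => by simp only [hμ']; rw [if_neg hv0]) hx hy hx1
      hy1 hk hk1
    refine le_trans (le_of_eq ?_) hc
    rw [← mul_assoc]
    congr 1
    rw [← Real.rpow_add h1w, ← Real.rpow_add h1w]
    congr 1
    unfold th
    ring

lemma geomS {ω : ℝ} (h0 : 0 ≤ ω) (h1 : ω < 1) (t : Finset ℕ) (v : ℕ) :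
    ∑ v' ∈ t, ω ^ (Nat.dist v v') ≤ 2 / (1 - ω) := by
  have hs : Summable (fun j : ℕ => ω ^ j) := summable_geometric_of_lt_one h0 h1
  have e : ∑ v' ∈ t, ω ^ (Nat.dist v v') =
      ∑ v' ∈ t.filter (fun v' => v ≤ v'), ω ^ (Nat.dist v v') +
      ∑ v' ∈ t.filter (fun v' => ¬ v ≤ v'), ω ^ (Nat.dist v v') :=
    (sum_filter_add_sum_filter_not t _ _).symm
  have r1 : ∑ v' ∈ t.filter (fun v' => v ≤ v'), ω ^ (Nat.dist v v') ≤ (1 - ω)⁻¹ := by
    rw [← tsum_geometric_of_lt_one h0 h1]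
    calc ∑ v' ∈ t.filter (fun v' => v ≤ v'), ω ^ (Nat.dist v v')
        = ∑ j ∈ (t.filter (fun v' => v ≤ v')).image (fun v' => v' - v), ω ^ j := by
          rw [sum_image]
          · refine sum_congr rfl fun v' hv' => ?_
            rw [mem_filter] at hv'
            rw [Nat.dist_eq_sub_of_le hv'.2]
          · intro a ha b hb hab
            rw [mem_coe, mem_filter] at ha hb
            simp only at hab
            omega
      _ ≤ _ := hs.sum_le_tsum _ (fun j _ => by positivity)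
  have r2 : ∑ v' ∈ t.filter (fun v' => ¬ v ≤ v'), ω ^ (Nat.dist v v') ≤ (1 - ω)⁻¹ := by
    rw [← tsum_geometric_of_lt_one h0 h1]
    calc ∑ v' ∈ t.filter (fun v' => ¬ v ≤ v'), ω ^ (Nat.dist v v')
        = ∑ j ∈ (t.filter (fun v' => ¬ v ≤ v')).image (fun v' => v - v'), ω ^ j := by
          rw [sum_image]
          · refine sum_congr rfl fun v' hv' => ?_
            rw [mem_filter] at hv'
            rw [Nat.dist_eq_sub_of_le_right (by omega)]
          · intro a ha b hb hab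
            rw [mem_coe, mem_filter] at ha hb
            simp only at hab
            omega
      _ ≤ _ := hs.sum_le_tsum _ (fun j _ => by positivity)
  rw [e]
  calc _ ≤ (1 - ω)⁻¹ + (1 - ω)⁻¹ := add_le_add r1 r2
    _ = 2 / (1 - ω) := by ring

lemma dsum_le {ρ ω : ℝ} (h0 : 0 ≤ ω) (h1 : ω < 1) (hρ : 1/2 ≤ ρ) (s : Finset ℕ) (x y : ℕ → ℝ)
    (hx : ∀ v, 0 ≤ x v) (hy : ∀ v, 0 ≤ y v) (hx1 : ∑ v ∈ s, x v ≤ 1) (hy1 : ∑ v ∈ s, y v ≤ 1) :
    ∑ v ∈ s, ∑ v' ∈ s, ω ^ (Nat.dist v v') * (x v * y v') ^ ρ ≤ 2 / (1 - ω) := by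
  have sx := pow_sum_le' hρ zero_le_one s x hx hx1
  have sy := pow_sum_le' hρ zero_le_one s y hy hy1
  rw [Real.one_rpow] at sx sy
  have hS : 0 ≤ 2 / (1 - ω) := div_nonneg two_pos.le (by linarith)
  calc ∑ v ∈ s, ∑ v' ∈ s, ω ^ (Nat.dist v v') * (x v * y v') ^ ρ
      ≤ ∑ v ∈ s, ∑ v' ∈ s, (ω ^ (Nat.dist v v') * (x v ^ (2 * ρ) / 2)
          + ω ^ (Nat.dist v v') * (y v' ^ (2 * ρ) / 2)) := by
        refine sum_le_sum fun v _ => sum_le_sum fun v' _ => ?_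
        rw [← mul_add]
        refine mul_le_mul_of_nonneg_left ?_ (by positivity)
        have := amgm (κ := ρ) (hx v) (hy v')
        linarith
    _ = ∑ v ∈ s, (∑ v' ∈ s, ω ^ (Nat.dist v v')) * (x v ^ (2 * ρ) / 2)
        + ∑ v' ∈ s, (∑ v ∈ s, ω ^ (Nat.dist v' v)) * (y v' ^ (2 * ρ) / 2) := by
        simp_rw [sum_add_distrib, sum_mul]
        congr 1
        rw [sum_comm]
        refine sum_congr rfl fun v' _ => sum_congr rfl fun v _ => ?_
        rw [Nat.dist_comm]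
    _ ≤ ∑ v ∈ s, (2 / (1 - ω)) * (x v ^ (2 * ρ) / 2)
        + ∑ v' ∈ s, (2 / (1 - ω)) * (y v' ^ (2 * ρ) / 2) := by
        refine add_le_add (sum_le_sum fun v _ => ?_) (sum_le_sum fun v _ => ?_)
        · refine mul_le_mul_of_nonneg_right (geomS h0 h1 s v) ?_
          have := Real.rpow_nonneg (hx v) (2 * ρ)
          positivity
        · refine mul_le_mul_of_nonneg_right (geomS h0 h1 s v) ?_
          have := Real.rpow_nonneg (hy v) (2 * ρ)
          positivity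
    _ = (2 / (1 - ω)) * ((∑ v ∈ s, x v ^ (2 * ρ) + ∑ v ∈ s, y v ^ (2 * ρ)) / 2) := by
        rw [← mul_sum, ← mul_sum, ← sum_div, ← sum_div]; ring
    _ ≤ (2 / (1 - ω)) * 1 := mul_le_mul_of_nonneg_left (by linarith) hS
    _ = _ := mul_one _

/-- **one-prime inequality, every prime**, constant independent of the exponent -/
theorem mt_large (hκ : 0 < κ) (hκ1 : κ < 1) (hr : 2 / (1 - κ) < r) {Λ : ℝ} (hΛ : 0 ≤ Λ) {p a : ℕ}
    (hp : 2 ≤ p) : MT κ r Λ p a (4 / (1 - (1/2 : ℝ) ^ (th κ r))) := by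
  have h1 : 0 < 1 - κ := by linarith
  have hr2 : 2 < r := by
    have h2 : (2:ℝ) ≤ 2 / (1 - κ) := by
      rw [le_div_iff₀ h1]; linarith
    linarith
  have hθ : 0 < th κ r := by
    have h2 : 1 / r < (1 - κ) / 2 := by
      have := one_div_lt_one_div_of_lt (by positivity) hr
      rw [one_div_div] at this
      exact this
    unfold th; linarith
  have hp0 : (0:ℝ) < p := by exact_mod_cast (by omega : 0 < p)
  have hw : (0:ℝ) < 1 / p := by positivity
  have hw1 : (1:ℝ) / p ≤ 1 / 2 := one_div_le_one_div_of_le two_pos (by exact_mod_cast hp)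
  have h1w : 0 < 1 - 1 / (p:ℝ) := by linarith
  have he : 0 < 1 / r := by positivity
  have he1 : 1 / r ≤ 1 / 2 := one_div_le_one_div_of_le two_pos hr2.le
  have hhalf : (1/2 : ℝ) ^ (th κ r) < 1 := Real.rpow_lt_one (by norm_num) (by norm_num) hθ
  have hω1 : (1 / (p:ℝ)) ^ (th κ r) ≤ (1/2 : ℝ) ^ (th κ r) := Real.rpow_le_rpow hw.le hw1 hθ.le
  have hω0 : 0 ≤ (1 / (p:ℝ)) ^ (th κ r) := Real.rpow_nonneg hw.le _
  refine MT_of hκ hκ1 (by linarith) hΛ hp (μ := fun _ => 1) (fun _ => zero_le_one) ?_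
    (div_nonneg (by norm_num) (by linarith)) ?_
  · intro v hv
    rw [mem_range] at hv
    refine mul_le_mul ?_ ?_ ?_ (by positivity)
    · exact Real.rpow_le_rpow (nup_pos hp a v).le (nup_le (by omega) a v (by omega)) (by linarith)
    · refine Real.rpow_le_one_of_one_le_of_nonpos ?_ (by linarith)
      unfold lam1
      split_ifs
      · exact le_rfl
      · have : 0 ≤ Λ * (1 / (p:ℝ)) := by positivity
        linarith
    · refine Real.rpow_nonneg ?_ _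
      unfold lam1
      split_ifs
      · norm_num
      · positivity
  · intro x y k hx hy hx1 hy1 hk hk1
    have hk2 := k_le_one hk hk1 (s := range (a + 1)) (le_refl _)
    have hc := LL_crude (ρ := (1 + κ) / 2) he.le hω0 (s := range (a + 1)) (μ := fun _ => 1)
      (x := x) (y := y) (k := k) (fun _ _ => ⟨zero_le_one, le_rfl⟩) hx hy hk2
    rw [← dc] at hc
    have hd := dsum_le (ρ := (1 + κ) / 2) hω0 (lt_of_le_of_lt hω1 hhalf) (by linarith)
      (range (a + 1)) x y hx hy hx1 hy1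
    have hpre : (1 - 1 / (p : ℝ)) ^ (-(2 * (1 / r))) ≤ 2 := by
      calc (1 - 1 / (p : ℝ)) ^ (-(2 * (1 / r))) ≤ (1/2 : ℝ) ^ (-(2 * (1 / r))) :=
            Real.rpow_le_rpow_of_nonpos (by norm_num) (by linarith) (by linarith)
        _ = 2 ^ (2 * (1 / r)) := by
            rw [show (1/2 : ℝ) = 2⁻¹ by norm_num, Real.inv_rpow two_pos.le, Real.rpow_neg two_pos.le,
              inv_inv]
        _ ≤ 2 ^ (1:ℝ) := Real.rpow_le_rpow_of_exponent_le (by norm_num) (by linarith)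
        _ = 2 := Real.rpow_one 2
    have hden : 2 / (1 - (1 / (p:ℝ)) ^ (th κ r)) ≤ 2 / (1 - (1/2 : ℝ) ^ (th κ r)) :=
      div_le_div_of_nonneg_left (by norm_num) (by linarith) (by linarith)
    have hLL := hc.trans (hd.trans hden)
    have hpre0 : 0 ≤ (1 - 1 / (p : ℝ)) ^ (-(2 * (1 / r))) := Real.rpow_nonneg h1w.le _
    have h2 : 0 ≤ 2 / (1 - (1/2 : ℝ) ^ (th κ r)) := div_nonneg (by norm_num) (by linarith)
    calc (1 - 1 / (p : ℝ)) ^ (-(2 * (1 / r))) *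
          LL ((1 + κ) / 2) (1 / r) ((1 / (p : ℝ)) ^ (th κ r)) (range (a + 1)) (fun _ => 1) x y k
        ≤ (1 - 1 / (p : ℝ)) ^ (-(2 * (1 / r))) * (2 / (1 - (1/2 : ℝ) ^ (th κ r))) :=
          mul_le_mul_of_nonneg_left hLL hpre0
      _ ≤ 2 * (2 / (1 - (1/2 : ℝ) ^ (th κ r))) := mul_le_mul_of_nonneg_right hpre h2
      _ = _ := by ring

end Crest.Agent.R4C.MStTx590
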