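import Crest.Agent.R4C.Base_935

/-!
# Row 4, low half of MX (2832(A), 2960): HVW with a relation, in two exponents (helper808)

`TGen κ r Λ C` = Theorem (T) for general `M` (590's BLOCK S9 (B1)), taken as a hypothesis.

For a relation `R` between the coprime cofactors `(b/g, c/g)` of natural density `≤ τ` and
functions `0 ≤ f, f' ≤ 1` on the divisors of `M`, the pairs with `G < gcd ≤ 2 G` satisfy

* `mxlow`      : `Σ gcd ν ν f f' 1_R ≤ 2 C τ^(1/r) G^κ (D f)^((1+κ)/2) (D f')^((1+κ)/2)`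
* `mxlow_v`    : the same as `2 C τ^(1/r) G⁻¹ (v v')^((1+κ)/2)`, `v = G D f`, `v' = G D f'`
* `mxlow_two`  : two exponents `η < η'`: `(v v')^((1+η)/2)` if `v v' ≥ 1`, `(v v')^((1+η')/2)` if
  `v v' ≤ 1` (i.e. the minimum of the two)
* `mxlow_plain`: plain masses when the anatomy weight is `≤ A` on the supports.

`D f = Σ ν(b) a(b) f(b)`, `a(b) = ∏_{p ∣ b} (1 + Λ/p)`.
-/

set_option autoImplicit false

open Finset

namespace Crest.Agent.R4C.MXlowx808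

open Basex935

/-- anatomy weight -/
noncomputable def aw (Λ : ℝ) (b : ℕ) : ℝ := ∏ p ∈ b.primeFactors, (1 + Λ / (p : ℝ))

lemma aw_ge {Λ : ℝ} (hΛ : 0 ≤ Λ) (b : ℕ) : 1 ≤ aw Λ b := by
  unfold aw
  refine Finset.one_le_prod ?_
  intro p _
  have : 0 ≤ Λ / (p : ℝ) := by positivity
  linarith

lemma aw_pos {Λ : ℝ} (hΛ : 0 ≤ Λ) (b : ℕ) : 0 < aw Λ b := lt_of_lt_of_le one_pos (aw_ge hΛ b)

/-- weighted mass -/
noncomputable def DD (Λ : ℝ) (M : ℕ) (f : ℕ → ℝ) : ℝ := ∑ b ∈ M.divisors, nu M b * aw Λ b * f b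

/-- natural density of a kernel on coprime pairs -/
noncomputable def dens (M : ℕ) (K : ℕ → ℕ → ℝ) : ℝ :=
  ∑ s ∈ M.divisors, ∑ t ∈ M.divisors, if Nat.Coprime s t then nu M s * nu M t * K s t else 0

/-- THEOREM (T) for general `M` (hypothesis) -/
def TGen (κ r Λ C : ℝ) : Prop :=
  ∀ (M : ℕ) (f f' : ℕ → ℝ) (K : ℕ → ℕ → ℝ), M ≠ 0 →
    (∀ b, 0 ≤ f b) → (∀ b, 0 ≤ f' b) → (∀ s t, 0 ≤ K s t) →
    ∑ b ∈ M.divisors, ∑ c ∈ M.divisors, nu M b * nu M c * (Nat.gcd b c : ℝ) ^ (1 - κ) *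
        (f b * f' c * K (b / Nat.gcd b c) (c / Nat.gcd b c))
      ≤ C * ((DD Λ M fun b => f b ^ (2 / (1 + κ))) ^ ((1 + κ) / 2) *
          (DD Λ M fun b => f' b ^ (2 / (1 + κ))) ^ ((1 + κ) / 2)) *
        (dens M fun s t => K s t ^ r) ^ (1 / r)

lemma DD_nonneg {Λ : ℝ} (hΛ : 0 ≤ Λ) (M : ℕ) {f : ℕ → ℝ} (hf : ∀ b, 0 ≤ f b) : 0 ≤ DD Λ M f :=
  Finset.sum_nonneg fun b _ => mul_nonneg (mul_nonneg (nu_nonneg M b) (aw_pos hΛ b).le) (hf b)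

lemma DD_mono {Λ : ℝ} (hΛ : 0 ≤ Λ) (M : ℕ) {f f' : ℕ → ℝ} (h : ∀ b, f b ≤ f' b) :
    DD Λ M f ≤ DD Λ M f' :=
  Finset.sum_le_sum fun b _ =>
    mul_le_mul_of_nonneg_left (h b) (mul_nonneg (nu_nonneg M b) (aw_pos hΛ b).le)

lemma dens_nonneg (M : ℕ) {K : ℕ → ℕ → ℝ} (hK : ∀ s t, 0 ≤ K s t) : 0 ≤ dens M K := by
  unfold dens
  refine Finset.sum_nonneg fun s _ => Finset.sum_nonneg fun t _ => ?_
  split_ifs
  · exact mul_nonneg (mul_nonneg (nu_nonneg M s) (nu_nonneg M t)) (hK s t)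
  · exact le_rfl

lemma DD_pow_le {Λ κ : ℝ} (hΛ : 0 ≤ Λ) (hκ0 : 0 < κ) (hκ1 : κ < 1) (M : ℕ) {f : ℕ → ℝ}
    (hf : ∀ b, 0 ≤ f b) (hf1 : ∀ b, f b ≤ 1) :
    DD Λ M (fun b => f b ^ (2 / (1 + κ))) ≤ DD Λ M f := by
  refine DD_mono hΛ M fun b => ?_
  have hq : 1 ≤ 2 / (1 + κ) := by
    rw [le_div_iff₀ (by linarith)]
    linarith
  rcases eq_or_lt_of_le (hf b) with h0 | h0
  · rw [← h0, Real.zero_rpow (by positivity)]
  · calc f b ^ (2 / (1 + κ)) ≤ f b ^ (1 : ℝ) :=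
          Real.rpow_le_rpow_of_exponent_ge h0 (hf1 b) hq
      _ = f b := Real.rpow_one _

/-- **HVW with a relation** at the dyadic scale `G < gcd ≤ 2 G`. -/
theorem mxlow {κ r Λ C : ℝ} (hκ0 : 0 < κ) (hκ1 : κ < 1) (hr : 0 < r) (hΛ : 0 ≤ Λ) (hC : 0 ≤ C)
    (hT : TGen κ r Λ C) {M : ℕ} (hM : M ≠ 0) {f f' : ℕ → ℝ}
    (hf : ∀ b, 0 ≤ f b) (hf1 : ∀ b, f b ≤ 1) (hf' : ∀ b, 0 ≤ f' b) (hf1' : ∀ b, f' b ≤ 1)
    {K : ℕ → ℕ → ℝ} (hK : ∀ s t, 0 ≤ K s t) (hK1 : ∀ s t, K s t ≤ 1) (hr1 : 1 ≤ r)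
    {τ : ℝ} (hτ : dens M K ≤ τ) {G : ℝ} (hG : 0 < G) :
    ∑ b ∈ M.divisors, ∑ c ∈ M.divisors,
        (if G < (Nat.gcd b c : ℝ) ∧ (Nat.gcd b c : ℝ) ≤ 2 * G then
          (Nat.gcd b c : ℝ) * nu M b * nu M c *
            (f b * f' c * K (b / Nat.gcd b c) (c / Nat.gcd b c)) else 0)
      ≤ 2 * C * τ ^ (1 / r) * G ^ κ *
        ((DD Λ M f) ^ ((1 + κ) / 2) * (DD Λ M f') ^ ((1 + κ) / 2)) := by
  have hρ : 0 < (1 + κ) / 2 := by linarith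
  have hbase := hT M f f' K hM hf hf' hK
  have hstep : ∑ b ∈ M.divisors, ∑ c ∈ M.divisors,
        (if G < (Nat.gcd b c : ℝ) ∧ (Nat.gcd b c : ℝ) ≤ 2 * G then
          (Nat.gcd b c : ℝ) * nu M b * nu M c *
            (f b * f' c * K (b / Nat.gcd b c) (c / Nat.gcd b c)) else 0)
      ≤ (2 * G) ^ κ * ∑ b ∈ M.divisors, ∑ c ∈ M.divisors, nu M b * nu M c *
        (Nat.gcd b c : ℝ) ^ (1 - κ) * (f b * f' c * K (b / Nat.gcd b c) (c / Nat.gcd b c)) := by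
    rw [Finset.mul_sum]
    refine Finset.sum_le_sum fun b _ => ?_
    rw [Finset.mul_sum]
    refine Finset.sum_le_sum fun c _ => ?_
    have hk : 0 ≤ f b * f' c * K (b / Nat.gcd b c) (c / Nat.gcd b c) :=
      mul_nonneg (mul_nonneg (hf b) (hf' c)) (hK _ _)
    have hn : 0 ≤ nu M b * nu M c := mul_nonneg (nu_nonneg M b) (nu_nonneg M c)
    split_ifs with h
    · have hg : 0 < (Nat.gcd b c : ℝ) := lt_trans hG h.1
      have h1 : (Nat.gcd b c : ℝ) ≤ (2 * G) ^ κ * (Nat.gcd b c : ℝ) ^ (1 - κ) := by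
        calc (Nat.gcd b c : ℝ) = (Nat.gcd b c : ℝ) ^ κ * (Nat.gcd b c : ℝ) ^ (1 - κ) := by
              rw [← Real.rpow_add hg]
              norm_num
          _ ≤ (2 * G) ^ κ * (Nat.gcd b c : ℝ) ^ (1 - κ) :=
              mul_le_mul_of_nonneg_right (Real.rpow_le_rpow hg.le h.2 hκ0.le)
                (Real.rpow_nonneg hg.le _)
      calc (Nat.gcd b c : ℝ) * nu M b * nu M c *
              (f b * f' c * K (b / Nat.gcd b c) (c / Nat.gcd b c))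
          = (Nat.gcd b c : ℝ) * ((nu M b * nu M c) *
              (f b * f' c * K (b / Nat.gcd b c) (c / Nat.gcd b c))) := by ring
        _ ≤ ((2 * G) ^ κ * (Nat.gcd b c : ℝ) ^ (1 - κ)) * ((nu M b * nu M c) *
              (f b * f' c * K (b / Nat.gcd b c) (c / Nat.gcd b c))) :=
            mul_le_mul_of_nonneg_right h1 (mul_nonneg hn hk)
        _ = _ := by ring
    · exact mul_nonneg (Real.rpow_nonneg (by linarith) _)
        (mul_nonneg (mul_nonneg hn (Real.rpow_nonneg (Nat.cast_nonneg _) _)) hk)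
  refine hstep.trans ?_
  -- bound the right side of (T)
  have hD1 : (DD Λ M fun b => f b ^ (2 / (1 + κ))) ^ ((1 + κ) / 2) ≤ (DD Λ M f) ^ ((1 + κ) / 2) :=
    Real.rpow_le_rpow (DD_nonneg hΛ M fun b => Real.rpow_nonneg (hf b) _)
      (DD_pow_le hΛ hκ0 hκ1 M hf hf1) hρ.le
  have hD2 : (DD Λ M fun b => f' b ^ (2 / (1 + κ))) ^ ((1 + κ) / 2) ≤
      (DD Λ M f') ^ ((1 + κ) / 2) :=
    Real.rpow_le_rpow (DD_nonneg hΛ M fun b => Real.rpow_nonneg (hf' b) _)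
      (DD_pow_le hΛ hκ0 hκ1 M hf' hf1') hρ.le
  have hdens : (dens M fun s t => K s t ^ r) ≤ τ := by
    refine le_trans ?_ hτ
    unfold dens
    refine Finset.sum_le_sum fun s _ => Finset.sum_le_sum fun t _ => ?_
    split_ifs
    · refine mul_le_mul_of_nonneg_left ?_ (mul_nonneg (nu_nonneg M s) (nu_nonneg M t))
      show K s t ^ r ≤ K s t
      rcases eq_or_lt_of_le (hK s t) with h0 | h0
      · rw [← h0, Real.zero_rpow hr.ne']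
      · calc K s t ^ r ≤ K s t ^ (1 : ℝ) :=
              Real.rpow_le_rpow_of_exponent_ge h0 (hK1 s t) hr1
          _ = K s t := Real.rpow_one _
    · exact le_rfl
  have hdens0 : 0 ≤ dens M fun s t => K s t ^ r :=
    dens_nonneg M fun s t => Real.rpow_nonneg (hK s t) _
  have hdp : (dens M fun s t => K s t ^ r) ^ (1 / r) ≤ τ ^ (1 / r) :=
    Real.rpow_le_rpow hdens0 hdens (by positivity)
  have hτ0 : 0 ≤ τ := hdens0.trans hdens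
  have h2 : (2 : ℝ) ^ κ ≤ 2 := by
    calc (2 : ℝ) ^ κ ≤ (2 : ℝ) ^ (1 : ℝ) :=
          Real.rpow_le_rpow_of_exponent_le (by norm_num) hκ1.le
      _ = 2 := Real.rpow_one _
  have hGk : (2 * G) ^ κ = 2 ^ κ * G ^ κ := Real.mul_rpow (by norm_num) hG.le
  have hG0 : 0 ≤ G ^ κ := Real.rpow_nonneg hG.le _
  have hDf : 0 ≤ (DD Λ M f) ^ ((1 + κ) / 2) := Real.rpow_nonneg (DD_nonneg hΛ M hf) _
  have hDf' : 0 ≤ (DD Λ M f') ^ ((1 + κ) / 2) := Real.rpow_nonneg (DD_nonneg hΛ M hf') _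
  have hT0 : 0 ≤ τ ^ (1 / r) := Real.rpow_nonneg hτ0 _
  calc (2 * G) ^ κ * ∑ b ∈ M.divisors, ∑ c ∈ M.divisors, nu M b * nu M c *
        (Nat.gcd b c : ℝ) ^ (1 - κ) * (f b * f' c * K (b / Nat.gcd b c) (c / Nat.gcd b c))
      ≤ (2 * G) ^ κ * (C * ((DD Λ M fun b => f b ^ (2 / (1 + κ))) ^ ((1 + κ) / 2) *
          (DD Λ M fun b => f' b ^ (2 / (1 + κ))) ^ ((1 + κ) / 2)) *
        (dens M fun s t => K s t ^ r) ^ (1 / r)) :=
        mul_le_mul_of_nonneg_left hbase (Real.rpow_nonneg (by linarith) _)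
    _ ≤ (2 * G) ^ κ * (C * ((DD Λ M f) ^ ((1 + κ) / 2) * (DD Λ M f') ^ ((1 + κ) / 2)) *
        τ ^ (1 / r)) := by
        refine mul_le_mul_of_nonneg_left ?_ (Real.rpow_nonneg (by linarith) _)
        refine mul_le_mul ?_ hdp (Real.rpow_nonneg hdens0 _) (by positivity)
        refine mul_le_mul_of_nonneg_left ?_ hC
        exact mul_le_mul hD1 hD2 (Real.rpow_nonneg (DD_nonneg hΛ M fun b =>
          Real.rpow_nonneg (hf' b) _) _) hDf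
    _ = 2 ^ κ * (C * τ ^ (1 / r) * G ^ κ *
        ((DD Λ M f) ^ ((1 + κ) / 2) * (DD Λ M f') ^ ((1 + κ) / 2))) := by
        rw [hGk]; ring
    _ ≤ 2 * (C * τ ^ (1 / r) * G ^ κ *
        ((DD Λ M f) ^ ((1 + κ) / 2) * (DD Λ M f') ^ ((1 + κ) / 2))) :=
        mul_le_mul_of_nonneg_right h2 (by positivity)
    _ = _ := by ring

lemma vform {κ G x y : ℝ} (hG : 0 < G) (hx : 0 ≤ x) (hy : 0 ≤ y) :
    G ^ κ * (x ^ ((1 + κ) / 2) * y ^ ((1 + κ) / 2)) =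
      G⁻¹ * ((G * x) * (G * y)) ^ ((1 + κ) / 2) := by
  have h1 : (G * x) * (G * y) = (G * G) * (x * y) := by ring
  have hGG : (G * G) ^ ((1 + κ) / 2) = G * G ^ κ := by
    rw [Real.mul_rpow hG.le hG.le, ← Real.rpow_add hG]
    have : (1 + κ) / 2 + (1 + κ) / 2 = 1 + κ := by ring
    rw [this, Real.rpow_add hG, Real.rpow_one]
  rw [h1, Real.mul_rpow (mul_nonneg hG.le hG.le) (mul_nonneg hx hy), hGG, Real.mul_rpow hx hy]
  field_simp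

/-- the energy of the related pairs at the dyadic gcd scale `G` -/
noncomputable def ER (M : ℕ) (G : ℝ) (f f' : ℕ → ℝ) (K : ℕ → ℕ → ℝ) : ℝ :=
  ∑ b ∈ M.divisors, ∑ c ∈ M.divisors,
        (if G < (Nat.gcd b c : ℝ) ∧ (Nat.gcd b c : ℝ) ≤ 2 * G then
          (Nat.gcd b c : ℝ) * nu M b * nu M c *
            (f b * f' c * K (b / Nat.gcd b c) (c / Nat.gcd b c)) else 0)

/-- `mxlow` with the effective masses `v = G D f`, `v' = G D f'` -/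
theorem mxlow_v {κ r Λ C : ℝ} (hκ0 : 0 < κ) (hκ1 : κ < 1) (hr1 : 1 ≤ r) (hΛ : 0 ≤ Λ) (hC : 0 ≤ C)
    (hT : TGen κ r Λ C) {M : ℕ} (hM : M ≠ 0) {f f' : ℕ → ℝ}
    (hf : ∀ b, 0 ≤ f b) (hf1 : ∀ b, f b ≤ 1) (hf' : ∀ b, 0 ≤ f' b) (hf1' : ∀ b, f' b ≤ 1)
    {K : ℕ → ℕ → ℝ} (hK : ∀ s t, 0 ≤ K s t) (hK1 : ∀ s t, K s t ≤ 1)
    {τ : ℝ} (hτ : dens M K ≤ τ) {G : ℝ} (hG : 0 < G) :
    ER M G f f' K ≤ 2 * C * τ ^ (1 / r) * G⁻¹ *
        ((G * DD Λ M f) * (G * DD Λ M f')) ^ ((1 + κ) / 2) := by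
  have h := mxlow hκ0 hκ1 (by linarith) hΛ hC hT hM hf hf1 hf' hf1' hK hK1 hr1 hτ hG
  rw [mul_assoc (2 * C * τ ^ (1 / r)), vform hG (DD_nonneg hΛ M hf) (DD_nonneg hΛ M hf'),
    ← mul_assoc] at h
  exact h

/-- two exponents `η`, `η'`: both bounds hold, so one may take the better one
(`η` if `v v' ≥ 1`, `η' > η` if `v v' ≤ 1`). -/
theorem mxlow_two {η η' r Λ C : ℝ} (hη0 : 0 < η) (hη1 : η < 1) (hη0' : 0 < η') (hη1' : η' < 1)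
    (hr1 : 1 ≤ r) (hΛ : 0 ≤ Λ) (hC : 0 ≤ C) (hT : TGen η r Λ C) (hT' : TGen η' r Λ C)
    {M : ℕ} (hM : M ≠ 0) {f f' : ℕ → ℝ}
    (hf : ∀ b, 0 ≤ f b) (hf1 : ∀ b, f b ≤ 1) (hf' : ∀ b, 0 ≤ f' b) (hf1' : ∀ b, f' b ≤ 1)
    {K : ℕ → ℕ → ℝ} (hK : ∀ s t, 0 ≤ K s t) (hK1 : ∀ s t, K s t ≤ 1)
    {τ : ℝ} (hτ : dens M K ≤ τ) {G : ℝ} (hG : 0 < G) :
    ER M G f f' K ≤ 2 * C * τ ^ (1 / r) * G⁻¹ *
        min (((G * DD Λ M f) * (G * DD Λ M f')) ^ ((1 + η) / 2))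
          (((G * DD Λ M f) * (G * DD Λ M f')) ^ ((1 + η') / 2)) := by
  have hpos : 0 ≤ 2 * C * τ ^ (1 / r) * G⁻¹ := by
    have : 0 ≤ τ := (dens_nonneg M hK).trans hτ
    positivity
  rw [mul_min_of_nonneg _ _ hpos]
  exact le_min (mxlow_v hη0 hη1 hr1 hΛ hC hT hM hf hf1 hf' hf1' hK hK1 hτ hG)
    (mxlow_v hη0' hη1' hr1 hΛ hC hT' hM hf hf1 hf' hf1' hK hK1 hτ hG)

/-- plain mass -/
noncomputable def mass (M : ℕ) (f : ℕ → ℝ) : ℝ := ∑ b ∈ M.divisors, nu M b * f b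

lemma DD_le_plain {Λ A : ℝ} {M : ℕ} {f : ℕ → ℝ} (hf : ∀ b, 0 ≤ f b)
    (hA : ∀ b ∈ M.divisors, f b ≠ 0 → aw Λ b ≤ A) : DD Λ M f ≤ A * mass M f := by
  unfold DD mass
  rw [Finset.mul_sum]
  refine Finset.sum_le_sum fun b hb => ?_
  by_cases h : f b = 0
  · rw [h]; simp
  · have := hA b hb h
    calc nu M b * aw Λ b * f b = aw Λ b * (nu M b * f b) := by ring
      _ ≤ A * (nu M b * f b) :=
          mul_le_mul_of_nonneg_right this (mul_nonneg (nu_nonneg M b) (hf b))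

/-- plain masses, if the anatomy weight is at most `A` on the supports -/
theorem mxlow_plain {κ r Λ C A : ℝ} (hκ0 : 0 < κ) (hκ1 : κ < 1) (hr1 : 1 ≤ r) (hΛ : 0 ≤ Λ)
    (hC : 0 ≤ C) (hA : 0 ≤ A) (hT : TGen κ r Λ C) {M : ℕ} (hM : M ≠ 0) {f f' : ℕ → ℝ}
    (hf : ∀ b, 0 ≤ f b) (hf1 : ∀ b, f b ≤ 1) (hf' : ∀ b, 0 ≤ f' b) (hf1' : ∀ b, f' b ≤ 1)
    (hAf : ∀ b ∈ M.divisors, f b ≠ 0 → aw Λ b ≤ A)
    (hAf' : ∀ b ∈ M.divisors, f' b ≠ 0 → aw Λ b ≤ A)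
    {K : ℕ → ℕ → ℝ} (hK : ∀ s t, 0 ≤ K s t) (hK1 : ∀ s t, K s t ≤ 1)
    {τ : ℝ} (hτ : dens M K ≤ τ) {G : ℝ} (hG : 0 < G) :
    ER M G f f' K ≤ 2 * C * A ^ (1 + κ) * τ ^ (1 / r) * G⁻¹ *
        ((G * mass M f) * (G * mass M f')) ^ ((1 + κ) / 2) := by
  have h := mxlow_v hκ0 hκ1 hr1 hΛ hC hT hM hf hf1 hf' hf1' hK hK1 hτ hG
  have hτ0 : 0 ≤ τ := (dens_nonneg M hK).trans hτ
  have m1 : 0 ≤ mass M f :=
    Finset.sum_nonneg fun b _ => mul_nonneg (nu_nonneg M b) (hf b)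
  have m2 : 0 ≤ mass M f' :=
    Finset.sum_nonneg fun b _ => mul_nonneg (nu_nonneg M b) (hf' b)
  have h1 := DD_le_plain hf hAf
  have h2 := DD_le_plain hf' hAf'
  have hd1 := DD_nonneg (Λ := Λ) hΛ M hf
  have hd2 := DD_nonneg (Λ := Λ) hΛ M hf'
  have hρ : 0 ≤ (1 + κ) / 2 := by linarith
  have h3 : ((G * DD Λ M f) * (G * DD Λ M f')) ^ ((1 + κ) / 2) ≤
      A ^ (1 + κ) * ((G * mass M f) * (G * mass M f')) ^ ((1 + κ) / 2) := by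
    have e1 : A ^ (1 + κ) = (A * A) ^ ((1 + κ) / 2) := by
      rcases eq_or_lt_of_le hA with h0 | h0
      · rw [← h0, Real.zero_rpow (by linarith), mul_zero, Real.zero_rpow (by linarith)]
      · rw [Real.mul_rpow hA hA, ← Real.rpow_add h0]
        congr 1; ring
    rw [e1, ← Real.mul_rpow (mul_nonneg hA hA) (by positivity)]
    refine Real.rpow_le_rpow (by positivity) ?_ hρ
    calc (G * DD Λ M f) * (G * DD Λ M f') ≤ (G * (A * mass M f)) * (G * (A * mass M f')) := by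
          refine mul_le_mul (mul_le_mul_of_nonneg_left h1 hG.le)
            (mul_le_mul_of_nonneg_left h2 hG.le) (by positivity) (by positivity)
      _ = _ := by ring
  refine h.trans ?_
  calc 2 * C * τ ^ (1 / r) * G⁻¹ * ((G * DD Λ M f) * (G * DD Λ M f')) ^ ((1 + κ) / 2)
      ≤ 2 * C * τ ^ (1 / r) * G⁻¹ *
        (A ^ (1 + κ) * ((G * mass M f) * (G * mass M f')) ^ ((1 + κ) / 2)) :=
        mul_le_mul_of_nonneg_left h3 (by positivity)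
    _ = _ := by ring

end Crest.Agent.R4C.MXlowx808
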