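import Crest.Agent.R4C.Rule_945

/-!
# Row 4, block S6: mismatched certificates, arithmetic part (helper100)

A good pair `b = g s`, `c = g s'` (cut `x`), fractions `f`, `f'` giving the same point
(`gap f f' s s' h = 0`).

* `key_eq`, `den_dvd` : the denominators;
* `fact_k0` : `v_q (k0 x b f) = v_q (den f) - v_q (lam x b)`;
* **`fact_k0_le_ell`** : a prime `q > x` dividing `k0 x b f` but not `k0 x c f'` is a deficit of
  `c`, `v_q (k0 x b f) ≤ v_q (ell x c)`;
* **`upp_k0_dvd_ell`** : `k0 x c f' ≤ x` implies `upp x (k0 x b f) ∣ ell x c`.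
-/

set_option autoImplicit false

namespace Crest.Agent.R4C.MismAx100

open Crest.Agent.R4C.FLDefx935 Crest.Agent.R4C.BoostCx972 Crest.Agent.R4C.Cutx50
  Crest.Agent.R4C.Rulex945 Crest.Agent.R4C.Basex935

variable {M : ℕ} {F : FL M} {g s s' : ℕ} {h : ℤ} {f f' : ℚ}

lemma gap_symm (h0 : gap f f' s s' h = 0) : gap f' f s' s (-h) = 0 := by
  unfold gap at h0 ⊢
  push_cast
  linear_combination -h0

lemma key_eq (h0 : gap f f' s s' h = 0) :
    ((s : ℤ) * f.num + h * f.den) * f'.den = (s' : ℤ) * f'.num * f.den := by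
  have h1 : (f.num : ℚ) = f * f.den := (Rat.mul_den_eq_num f).symm
  have h2 : (f'.num : ℚ) = f' * f'.den := (Rat.mul_den_eq_num f').symm
  have h3 : (((s : ℤ) * f.num + h * f.den) * f'.den : ℚ) = (s' : ℚ) * f'.num * f.den := by
    unfold gap at h0
    push_cast
    rw [h1, h2]
    linear_combination (f.den : ℚ) * f'.den * h0
  exact_mod_cast h3

lemma isCoprime_num_den (f : ℚ) : IsCoprime f.num (f.den : ℤ) := by
  rw [Int.isCoprime_iff_gcd_eq_one]
  exact f.reduced

/-- `den f ∣ s · den f'` -/
lemma den_dvd (h0 : gap f f' s s' h = 0) : f.den ∣ s * f'.den := by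
  have h1 := key_eq h0
  have h2 : (f.den : ℤ) ∣ f.num * ((s : ℤ) * f'.den) := by
    refine ⟨(s' : ℤ) * f'.num - h * f'.den, ?_⟩
    linear_combination h1
  have h3 := (isCoprime_num_den f).symm.dvd_of_dvd_mul_left h2
  exact_mod_cast h3

/-- `q ∤ s`, `q ∣ den f`: `v_q (s') + v_q (den f) ≤ v_q (den f')` -/
lemma fact_den_ge (hs' : s' ≠ 0) (h0 : gap f f' s s' h = 0) {q : ℕ} (hq : q.Prime)
    (hqs : ¬ q ∣ s) (hqf : q ∣ f.den) :
    s'.factorization q + f.den.factorization q ≤ f'.den.factorization q := by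
  have h1 := key_eq h0
  have hqz : Prime (q : ℤ) := Nat.prime_iff_prime_int.1 hq
  have hnum : ¬ (q : ℤ) ∣ f.num := fun hc => by
    have h2 := (isCoprime_num_den f).of_isCoprime_of_dvd_left hc
    have h3 := h2.isUnit_of_dvd' (dvd_refl (q : ℤ)) (by exact_mod_cast hqf)
    exact hqz.not_isUnit h3
  have hn : ¬ (q : ℤ) ∣ (s : ℤ) * f.num + h * f.den := fun hc => by
    have h2 : (q : ℤ) ∣ h * f.den := Dvd.dvd.mul_left (by exact_mod_cast hqf) _
    have h3 : (q : ℤ) ∣ (s : ℤ) * f.num := (dvd_add_left h2).1 hc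
    rcases hqz.dvd_or_dvd h3 with h4 | h4
    · exact hqs (by exact_mod_cast h4)
    · exact hnum h4
  have hn0 : ((s : ℤ) * f.num + h * f.den).natAbs ≠ 0 := fun hc => by
    rw [Int.natAbs_eq_zero] at hc
    exact hn (hc ▸ dvd_zero _)
  have hnq : ¬ q ∣ ((s : ℤ) * f.num + h * f.den).natAbs := fun hc =>
    hn (Int.natCast_dvd.2 hc)
  have h2 : ((s : ℤ) * f.num + h * f.den).natAbs * f'.den = s' * f'.num.natAbs * f.den := by
    have h3 := congrArg Int.natAbs h1
    simpa [Int.natAbs_mul] using h3
  have hfn0 : f'.num.natAbs ≠ 0 := fun hc => by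
    rw [hc] at h2
    have h3 : ((s : ℤ) * f.num + h * f.den).natAbs * f'.den = 0 := by rw [h2]; ring
    rcases Nat.mul_eq_zero.1 h3 with h4 | h4
    · exact hn0 h4
    · exact f'.den_pos.ne' h4
  have h3 := congrArg (fun n : ℕ => n.factorization q) h2
  beta_reduce at h3
  rw [Nat.factorization_mul hn0 f'.den_pos.ne', Finsupp.add_apply,
    Nat.factorization_mul (mul_ne_zero hs' hfn0) f.den_pos.ne', Finsupp.add_apply,
    Nat.factorization_mul hs' hfn0, Finsupp.add_apply,
    Nat.factorization_eq_zero_of_not_dvd hnq] at h3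
  omega

/-- valuation of the minimal denominator -/
lemma fact_k0 (x b : ℕ) (f : ℚ) (q : ℕ) : (k0 F x b f).factorization q =
    f.den.factorization q - (F.lam x b).factorization q := by
  unfold k0
  rw [Nat.factorization_div (Nat.gcd_dvd_left _ _), Finsupp.tsub_apply,
    Nat.factorization_gcd f.den_pos.ne' (FL.lam_pos x b).ne', Finsupp.inf_apply]
  omega

/-- **a prime `q > x` of `k0 x b f` which does not divide `k0 x c f'` is a deficit of `c`** -/
theorem fact_k0_le_ell {x : ℕ} (hM : 0 < M) (hb : g * s ∣ M) (hc : g * s' ∣ M)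
    (hcop : Nat.Coprime s s') (hgood : F.good x (g * s) (g * s'))
    (h0 : gap f f' s s' h = 0) {q : ℕ} (hq : q.Prime) (hx : x < q)
    (hk' : ¬ q ∣ k0 F x (g * s') f') :
    (k0 F x (g * s) f).factorization q ≤ (F.ell x (g * s')).factorization q := by
  have hb0 : g * s ≠ 0 := (Nat.pos_of_dvd_of_pos hb hM).ne'
  have hc0 : g * s' ≠ 0 := (Nat.pos_of_dvd_of_pos hc hM).ne'
  have hg : g ≠ 0 := fun hh => hb0 (by rw [hh, zero_mul])
  have hs : s ≠ 0 := fun hh => hb0 (by rw [hh, mul_zero])
  have hs' : s' ≠ 0 := fun hh => hc0 (by rw [hh, mul_zero])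
  have hpb : (g * s).factorization q = g.factorization q + s.factorization q := by
    rw [Nat.factorization_mul hg hs, Finsupp.add_apply]
  have hpc : (g * s').factorization q = g.factorization q + s'.factorization q := by
    rw [Nat.factorization_mul hg hs', Finsupp.add_apply]
  -- valuations of `s`, `s'`
  have hss : s.factorization q = 0 ∨ s'.factorization q = 0 := by
    by_cases h1 : q ∣ s
    · right
      refine Nat.factorization_eq_zero_of_not_dvd fun h2 => ?_
      have h3 := Nat.dvd_gcd h1 h2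
      rw [hcop.gcd_eq_one] at h3
      exact hq.one_lt.ne' (Nat.dvd_one.1 h3)
    · left
      exact Nat.factorization_eq_zero_of_not_dvd h1
  have ha' : f'.den.factorization q ≤ (F.lam x (g * s')).factorization q := by
    have h1 := Nat.factorization_eq_zero_of_not_dvd hk'
    rw [fact_k0] at h1
    omega
  have hden : f.den.factorization q ≤ s.factorization q + f'.den.factorization q := by
    have h1 := (Nat.factorization_le_iff_dvd f.den_pos.ne'
      (mul_ne_zero hs f'.den_pos.ne')).2 (den_dvd h0) q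
    rwa [Nat.factorization_mul hs f'.den_pos.ne', Finsupp.add_apply] at h1
  rw [fact_k0]
  by_cases hqm : q ∈ M.primeFactors
  swap
  · -- `q ∤ M`
    have h1 := FL.fact_zero hM hb hqm
    have h2 : (F.lam x (g * s')).factorization q = 0 := by
      rw [FL.fact_lam hM hc, if_neg hqm]
    have h3 := FL.fact_zero hM hc hqm
    omega
  have hlb : (F.lam x (g * s)).factorization q = F.lamE x (g * s) q := by
    rw [FL.fact_lam hM hb, if_pos hqm]
  have hlc : (F.lam x (g * s')).factorization q = F.lamE x (g * s') q := by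
    rw [FL.fact_lam hM hc, if_pos hqm]
  have hec : (F.ell x (g * s')).factorization q = F.ellE x (g * s') q := by
    rw [FL.fact_ell, if_pos hqm]
  have hctr := FL.ctr_eq hb hc hgood.1 hq hx.le
  rw [hlc] at ha'
  rw [hlb, hec]
  unfold FL.lamE at ha' ⊢
  unfold FL.ellE
  rw [if_pos hx] at ha' ⊢
  rw [if_pos hx]
  rw [← hctr] at ha' ⊢
  cases hst : F.ctr (g * s) q with
  | none =>
    have h1 := hgood.1 q hq hx hst
    rw [hst] at ha'
    simp only at ha' ⊢
    have h2 : s.factorization q = 0 := by
      rcases hss with h2 | h2 <;> omega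
    omega
  | some v =>
    rw [hst] at ha'
    simp only at ha' ⊢
    by_cases hlt : f.den.factorization q ≤ (g * s).factorization q - v
    · omega
    rcases hgood.2 q hq hx v hst with h1 | h1
    · -- `v_q b = v`
      by_cases h3 : f.den.factorization q ≤ s.factorization q
      · rcases hss with h2 | h2 <;> omega
      · exfalso
        -- `a > v_q s`: `a' > 0`
        have h4 : 0 < f'.den.factorization q := by omega
        have h5 : s.factorization q = 0 := by
          rcases hss with h2 | h2 <;> omega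
        have h6 : ¬ q ∣ s := fun hc' => by
          have := hq.factorization_pos_of_dvd hs hc'
          omega
        have h7 : q ∣ f.den := Nat.dvd_of_factorization_pos (by omega)
        have h8 := fact_den_ge hs' h0 hq h6 h7
        omega
    · -- `v_q c = v`
      omega

/-- **the part `> x` of `k0 x b f` divides the deficit word of `c`** -/
theorem upp_k0_dvd_ell {x : ℕ} (hM : 0 < M) (hb : g * s ∣ M) (hc : g * s' ∣ M)
    (hcop : Nat.Coprime s s') (hgood : F.good x (g * s) (g * s'))
    (h0 : gap f f' s s' h = 0) (hk' : k0 F x (g * s') f' ≤ x) :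
    upp x (k0 F x (g * s) f) ∣ F.ell x (g * s') := by
  rw [← Nat.factorization_le_iff_dvd (upp_pos _ _).ne' (FL.ell_pos x _).ne']
  intro q
  rw [fact_upp]
  by_cases hx : q ≤ x
  · rw [if_neg (not_not.2 hx)]; exact Nat.zero_le _
  · rw [if_pos hx]
    by_cases hq : q.Prime
    · refine fact_k0_le_ell hM hb hc hcop hgood h0 hq (by omega) fun hd => ?_
      have := Nat.le_of_dvd (k0_pos x _ _) hd
      omega
    · rw [Nat.factorization_eq_zero_of_not_prime _ hq]; exact Nat.zero_le _

end Crest.Agent.R4C.MismAx100
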