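import Mathlib

/-!
# Row 4: multi-state one-prime inequality (note 2630, Lemma M), for prime powers

One prime `p`, exponents `v ∈ s`; `x v`, `y v` = mass shares.  `κ = (1+η)/2`,
`ω = p^{-(1-κ-δ)}` (cross weight of one step, enhanced by `p^δ`).
* `cross_le`     : `∑_{v ≠ v'} ω^{|v-v'|} (x v * y v')^κ ≤ 2 ω (∑ x^{2κ} + ∑ y^{2κ})`
* `removed_le`   : blocks with both exponents `≠ v0` cost `≤ 3 max(X,Y)^{2κ}`
* `multi`        : Lemma M.
-/

set_option autoImplicit false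

open Finset

namespace Crest.Agent.R4C.Multix251

/-- total weight of the block matrix without the diagonal -/
noncomputable def cross (κ ω : ℝ) (s t : Finset ℕ) (x y : ℕ → ℝ) : ℝ :=
  ∑ v ∈ s, ∑ v' ∈ t.filter (· ≠ v), ω ^ (Nat.dist v v') * (x v * y v') ^ κ

noncomputable def diag (κ : ℝ) (s : Finset ℕ) (x y : ℕ → ℝ) : ℝ :=
  ∑ v ∈ s, (x v * y v) ^ κ

lemma geom_right {ω : ℝ} (h0 : 0 ≤ ω) (h1 : ω ≤ 1/2) (t : Finset ℕ) (v : ℕ) :
    ∑ v' ∈ t.filter (fun v' => v < v'), ω ^ (Nat.dist v v') ≤ 2 * ω := by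
  have hlt : ω < 1 := by linarith
  have e : ∑ v' ∈ t.filter (fun v' => v < v'), ω ^ (Nat.dist v v')
      = ∑ j ∈ (t.filter (fun v' => v < v')).image (fun v' => v' - v - 1), ω ^ (j + 1) := by
    rw [sum_image]
    · apply sum_congr rfl
      intro a ha
      rw [mem_filter] at ha
      have : Nat.dist v a = a - v - 1 + 1 := by
        rw [Nat.dist_eq_sub_of_le ha.2.le]; omega
      rw [this]
    · intro a ha b hb hab
      rw [mem_coe, mem_filter] at ha hb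
      simp only at hab
      omega
  rw [e]
  have hs : Summable (fun j : ℕ => ω ^ (j + 1)) := by
    simp_rw [pow_succ]
    exact (summable_geometric_of_lt_one h0 hlt).mul_right ω
  calc ∑ j ∈ (t.filter (fun v' => v < v')).image (fun v' => v' - v - 1), ω ^ (j + 1)
      ≤ ∑' j : ℕ, ω ^ (j + 1) := hs.sum_le_tsum _ (fun j _ => by positivity)
    _ = (1 - ω)⁻¹ * ω := by
        simp_rw [pow_succ]
        rw [tsum_mul_right, tsum_geometric_of_lt_one h0 hlt]
    _ ≤ 2 * ω := by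
        apply mul_le_mul_of_nonneg_right _ h0
        rw [inv_le_comm₀ (by linarith) (by norm_num)]
        linarith

lemma geom_left {ω : ℝ} (h0 : 0 ≤ ω) (h1 : ω ≤ 1/2) (t : Finset ℕ) (v : ℕ) :
    ∑ v' ∈ t.filter (fun v' => v' < v), ω ^ (Nat.dist v v') ≤ 2 * ω := by
  have hlt : ω < 1 := by linarith
  have e : ∑ v' ∈ t.filter (fun v' => v' < v), ω ^ (Nat.dist v v')
      = ∑ j ∈ (t.filter (fun v' => v' < v)).image (fun v' => v - v' - 1), ω ^ (j + 1) := by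
    rw [sum_image]
    · apply sum_congr rfl
      intro a ha
      rw [mem_filter] at ha
      have : Nat.dist v a = v - a - 1 + 1 := by
        rw [Nat.dist_eq_sub_of_le_right ha.2.le]; omega
      rw [this]
    · intro a ha b hb hab
      rw [mem_coe, mem_filter] at ha hb
      simp only at hab
      omega
  rw [e]
  have hs : Summable (fun j : ℕ => ω ^ (j + 1)) := by
    simp_rw [pow_succ]
    exact (summable_geometric_of_lt_one h0 hlt).mul_right ω
  calc ∑ j ∈ (t.filter (fun v' => v' < v)).image (fun v' => v - v' - 1), ω ^ (j + 1)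
      ≤ ∑' j : ℕ, ω ^ (j + 1) := hs.sum_le_tsum _ (fun j _ => by positivity)
    _ = (1 - ω)⁻¹ * ω := by
        simp_rw [pow_succ]
        rw [tsum_mul_right, tsum_geometric_of_lt_one h0 hlt]
    _ ≤ 2 * ω := by
        apply mul_le_mul_of_nonneg_right _ h0
        rw [inv_le_comm₀ (by linarith) (by norm_num)]
        linarith

lemma geom_both {ω : ℝ} (h0 : 0 ≤ ω) (h1 : ω ≤ 1/2) (t : Finset ℕ) (v : ℕ) :
    ∑ v' ∈ t.filter (· ≠ v), ω ^ (Nat.dist v v') ≤ 4 * ω := by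
  have e : t.filter (· ≠ v) = t.filter (fun v' => v < v') ∪ t.filter (fun v' => v' < v) := by
    ext a
    simp only [mem_filter, mem_union]
    constructor
    · rintro ⟨h, hne⟩
      rcases lt_or_gt_of_ne hne with h' | h'
      · exact Or.inr ⟨h, h'⟩
      · exact Or.inl ⟨h, h'⟩
    · rintro (⟨h, h'⟩ | ⟨h, h'⟩)
      · exact ⟨h, h'.ne'⟩
      · exact ⟨h, h'.ne⟩
  rw [e, sum_union]
  · have := geom_right h0 h1 t v
    have := geom_left h0 h1 t v
    linarith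
  · rw [disjoint_left]
    intro a ha hb
    rw [mem_filter] at ha hb
    omega

lemma amgm {κ a b : ℝ} (ha : 0 ≤ a) (hb : 0 ≤ b) :
    (a * b) ^ κ ≤ (a ^ (2 * κ) + b ^ (2 * κ)) / 2 := by
  rw [Real.mul_rpow ha hb]
  have e : ∀ c : ℝ, 0 ≤ c → c ^ (2 * κ) = (c ^ κ) ^ 2 := by
    intro c hc
    rw [mul_comm, Real.rpow_mul hc]
    norm_num
  rw [e a ha, e b hb]
  nlinarith [sq_nonneg (a ^ κ - b ^ κ)]

/-- blocks off the diagonal -/
lemma cross_le {κ ω : ℝ} (h0 : 0 ≤ ω) (h1 : ω ≤ 1/2) (s t : Finset ℕ) (x y : ℕ → ℝ)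
    (hx : ∀ v, 0 ≤ x v) (hy : ∀ v, 0 ≤ y v) :
    cross κ ω s t x y ≤ 2 * ω * (∑ v ∈ s, x v ^ (2 * κ) + ∑ v ∈ t, y v ^ (2 * κ)) := by
  unfold cross
  have step : ∀ v ∈ s, ∀ v' ∈ t.filter (· ≠ v), ω ^ (Nat.dist v v') * (x v * y v') ^ κ ≤
      ω ^ (Nat.dist v v') * (x v ^ (2 * κ) / 2) + ω ^ (Nat.dist v v') * (y v' ^ (2 * κ) / 2) := by
    intro v _ v' _
    rw [← mul_add]
    apply mul_le_mul_of_nonneg_left _ (by positivity)
    have := amgm (κ := κ) (hx v) (hy v')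
    linarith
  calc ∑ v ∈ s, ∑ v' ∈ t.filter (· ≠ v), ω ^ (Nat.dist v v') * (x v * y v') ^ κ
      ≤ ∑ v ∈ s, ∑ v' ∈ t.filter (· ≠ v), (ω ^ (Nat.dist v v') * (x v ^ (2 * κ) / 2)
          + ω ^ (Nat.dist v v') * (y v' ^ (2 * κ) / 2)) :=
        sum_le_sum fun v hv => sum_le_sum fun v' hv' => step v hv v' hv'
    _ = ∑ v ∈ s, (∑ v' ∈ t.filter (· ≠ v), ω ^ (Nat.dist v v')) * (x v ^ (2 * κ) / 2)
        + ∑ v ∈ s, ∑ v' ∈ t.filter (· ≠ v), ω ^ (Nat.dist v v') * (y v' ^ (2 * κ) / 2) := by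
        rw [← sum_add_distrib]
        apply sum_congr rfl
        intro v _
        rw [sum_add_distrib, sum_mul]
    _ = ∑ v ∈ s, (∑ v' ∈ t.filter (· ≠ v), ω ^ (Nat.dist v v')) * (x v ^ (2 * κ) / 2)
        + ∑ v' ∈ t, (∑ v ∈ s.filter (· ≠ v'), ω ^ (Nat.dist v' v)) * (y v' ^ (2 * κ) / 2) := by
        congr 1
        simp_rw [sum_filter, sum_mul]
        rw [sum_comm]
        apply sum_congr rfl
        intro v' _
        apply sum_congr rfl
        intro v _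
        rw [Nat.dist_comm]
        by_cases h : v' = v
        · subst h; simp
        · rw [if_pos h, if_pos (Ne.symm h)]
    _ ≤ ∑ v ∈ s, (4 * ω) * (x v ^ (2 * κ) / 2) + ∑ v' ∈ t, (4 * ω) * (y v' ^ (2 * κ) / 2) := by
        apply add_le_add
        · apply sum_le_sum
          intro v _
          apply mul_le_mul_of_nonneg_right (geom_both h0 h1 t v)
          have := Real.rpow_nonneg (hx v) (2 * κ)
          positivity
        · apply sum_le_sum
          intro v _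
          apply mul_le_mul_of_nonneg_right (geom_both h0 h1 s v)
          have := Real.rpow_nonneg (hy v) (2 * κ)
          positivity
    _ = 2 * ω * (∑ v ∈ s, x v ^ (2 * κ) + ∑ v ∈ t, y v ^ (2 * κ)) := by
        rw [← mul_sum, ← mul_sum, ← sum_div, ← sum_div]; ring

lemma diag_le {κ : ℝ} (s : Finset ℕ) (x y : ℕ → ℝ) (hx : ∀ v, 0 ≤ x v) (hy : ∀ v, 0 ≤ y v) :
    diag κ s x y ≤ (∑ v ∈ s, x v ^ (2 * κ) + ∑ v ∈ s, y v ^ (2 * κ)) / 2 := by
  unfold diag
  rw [← sum_add_distrib, sum_div]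
  exact sum_le_sum fun v _ => amgm (hx v) (hy v)

/-- if all shares are `≤ Z` and the total is `≤ Z` then `∑ x^{2κ} ≤ Z^{2κ}`; more precisely
`∑ x^{2κ} ≤ Z^η ∑ x`. -/
lemma pow_sum_le {κ Z : ℝ} (hκ : 1/2 ≤ κ) (s : Finset ℕ) (x : ℕ → ℝ)
    (hx : ∀ v, 0 ≤ x v) (hZ : ∀ v ∈ s, x v ≤ Z) :
    ∑ v ∈ s, x v ^ (2 * κ) ≤ Z ^ (2 * κ - 1) * ∑ v ∈ s, x v := by
  rw [mul_sum]
  apply sum_le_sum
  intro v hv
  rcases (hx v).eq_or_lt with h | h
  · rw [← h, Real.zero_rpow (by linarith)]; simp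
  · have e : x v ^ (2 * κ) = x v ^ (2 * κ - 1) * x v := by
      rw [← Real.rpow_add_one h.ne']; ring_nf
    rw [e]
    apply mul_le_mul_of_nonneg_right _ (hx v)
    exact Real.rpow_le_rpow (hx v) (hZ v hv) (by linarith)

lemma pow_sum_le' {κ Z : ℝ} (hκ : 1/2 ≤ κ) (hZ0 : 0 ≤ Z) (s : Finset ℕ) (x : ℕ → ℝ)
    (hx : ∀ v, 0 ≤ x v) (hZ : ∑ v ∈ s, x v ≤ Z) :
    ∑ v ∈ s, x v ^ (2 * κ) ≤ Z ^ (2 * κ) := by
  have h1 : ∀ v ∈ s, x v ≤ Z := fun v hv =>
    (single_le_sum (f := x) (fun i _ => hx i) hv).trans hZ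
  refine (pow_sum_le hκ s x hx h1).trans ?_
  rcases hZ0.eq_or_lt with h | h
  · have : ∑ v ∈ s, x v = 0 := le_antisymm (h ▸ hZ) (sum_nonneg fun v _ => hx v)
    rw [this, mul_zero]; exact Real.rpow_nonneg hZ0 _
  · calc Z ^ (2 * κ - 1) * ∑ v ∈ s, x v ≤ Z ^ (2 * κ - 1) * Z :=
          mul_le_mul_of_nonneg_left hZ (Real.rpow_nonneg hZ0 _)
      _ = Z ^ (2 * κ) := by rw [← Real.rpow_add_one h.ne']; ring_nf

/-- all blocks with both exponents different from the centre `v0` (the part removed when the prime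
becomes passive) -/
lemma removed_le {κ ω : ℝ} (hκ : 1/2 ≤ κ) (h0 : 0 ≤ ω) (h1 : ω ≤ 1/2) (s : Finset ℕ)
    (x y : ℕ → ℝ) (hx : ∀ v, 0 ≤ x v) (hy : ∀ v, 0 ≤ y v) (v0 : ℕ) {Z : ℝ}
    (hX : ∑ v ∈ s.erase v0, x v ≤ Z) (hY : ∑ v ∈ s.erase v0, y v ≤ Z) :
    diag κ (s.erase v0) x y + cross κ ω (s.erase v0) (s.erase v0) x y ≤ 3 * Z ^ (2 * κ) := by
  have hZ0 : 0 ≤ Z := (sum_nonneg fun v _ => hx v).trans hX
  have a := pow_sum_le' hκ hZ0 _ x hx hX
  have b := pow_sum_le' hκ hZ0 _ y hy hY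
  have c := diag_le (κ := κ) (s.erase v0) x y hx hy
  have d := cross_le (κ := κ) h0 h1 (s.erase v0) (s.erase v0) x y hx hy
  have hp : 0 ≤ Z ^ (2 * κ) := Real.rpow_nonneg hZ0 _
  nlinarith

lemma diag_erase {κ : ℝ} {s : Finset ℕ} {x y : ℕ → ℝ} {v0 : ℕ} (h : v0 ∈ s) :
    diag κ s x y = (x v0 * y v0) ^ κ + diag κ (s.erase v0) x y := by
  unfold diag
  rw [← add_sum_erase s _ h]

lemma cross_erase {κ ω : ℝ} {s : Finset ℕ} {x y : ℕ → ℝ} {v0 : ℕ} (h : v0 ∈ s) :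
    cross κ ω s s x y = ∑ v' ∈ s.filter (· ≠ v0), ω ^ (Nat.dist v0 v') * (x v0 * y v') ^ κ
      + ∑ v ∈ s.filter (· ≠ v0), ω ^ (Nat.dist v0 v) * (x v * y v0) ^ κ
      + cross κ ω (s.erase v0) (s.erase v0) x y := by
  unfold cross
  rw [← add_sum_erase s _ h, add_assoc]
  congr 1
  have e : s.filter (· ≠ v0) = s.erase v0 := by
    ext a; simp only [mem_filter, mem_erase]; tauto
  rw [e, ← sum_add_distrib]
  apply sum_congr rfl
  intro v hv
  have hv' := mem_erase.1 hv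
  have e2 : s.filter (· ≠ v) = insert v0 ((s.erase v0).filter (· ≠ v)) := by
    ext a
    simp only [mem_filter, mem_insert, mem_erase]
    constructor
    · rintro ⟨h1, h2⟩
      by_cases ha : a = v0
      · exact Or.inl ha
      · exact Or.inr ⟨⟨ha, h1⟩, h2⟩
    · rintro (h1 | ⟨⟨h1, h2⟩, h3⟩)
      · exact ⟨h1 ▸ h, h1 ▸ (Ne.symm hv'.1)⟩
      · exact ⟨h2, h3⟩
  rw [e2, sum_insert (by simp)]
  rw [Nat.dist_comm]

/-- the constants of Lemma M -/
structure Adm (κ ω : ℝ) : Prop where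
  κ1 : 1/2 < κ
  κ2 : κ < 1
  ω0 : 0 < ω
  ω1 : ω ≤ 1/32
  u1 : 32 * ω / κ ≤ 1/4
  e1 : 16 * ω / (2 * κ - 1) ≤ 1/64
  e2 : (16 * ω / (2 * κ - 1)) ^ (2 * κ - 1) ≤ κ / 8

/-- the threshold `x1 = (32 ω / κ)^{1/(1-κ)} = A0 w^{1-δ'}` -/
noncomputable def Z1 (κ ω : ℝ) : ℝ := (32 * ω / κ) ^ (1 / (1 - κ))

lemma Z1_le {κ ω : ℝ} (h : Adm κ ω) : Z1 κ ω ≤ 8 * ω / κ := by
  have hk : 0 < κ := by linarith [h.κ1]
  have hu0 : 0 < 32 * ω / κ := by have := h.ω0; positivity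
  unfold Z1
  have h2 : (2:ℝ) ≤ 1 / (1 - κ) := by
    rw [le_div_iff₀ (by linarith [h.κ2])]; linarith [h.κ1]
  calc (32 * ω / κ) ^ (1 / (1 - κ)) ≤ (32 * ω / κ) ^ (2:ℝ) :=
        Real.rpow_le_rpow_of_exponent_ge hu0 (by linarith [h.u1]) h2
    _ = (32 * ω / κ) ^ 2 := by norm_num
    _ ≤ (1/4) * (32 * ω / κ) := by nlinarith [h.u1]
    _ = 8 * ω / κ := by ring

lemma Z1_pos {κ ω : ℝ} (h : Adm κ ω) : 0 < Z1 κ ω := by
  have hk : 0 < κ := by linarith [h.κ1]
  have := h.ω0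
  unfold Z1; positivity

/-- one of the shares is not concentrated -/
lemma spread {κ ω : ℝ} (h : Adm κ ω) (s : Finset ℕ) (x : ℕ → ℝ)
    (hx : ∀ v, 0 ≤ x v) (h1 : ∑ v ∈ s, x v = 1)
    (hm : ∀ v ∈ s, x v ≤ 1 - 16 * ω / (2 * κ - 1)) :
    ∑ v ∈ s, x v ^ (2 * κ) ≤ 1 - 16 * ω := by
  have hη : 0 < 2 * κ - 1 := by linarith [h.κ1]
  have a := pow_sum_le h.κ1.le s x hx hm
  rw [h1, mul_one] at a
  refine a.trans ?_
  set ε := 16 * ω / (2 * κ - 1) with hε
  have he0 : 0 ≤ ε := by have := h.ω0; positivity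
  have b : (1 - ε) ^ (2 * κ - 1) ≤ 1 - (2 * κ - 1) * ε := by
    have := _root_.rpow_one_add_le_one_add_mul_self (s := -ε) (p := 2 * κ - 1)
      (by linarith [h.e1]) hη.le (by linarith [h.κ2])
    calc (1 - ε) ^ (2 * κ - 1) = (1 + -ε) ^ (2 * κ - 1) := by ring_nf
      _ ≤ 1 + (2 * κ - 1) * (-ε) := this
      _ = _ := by ring
  have c : (2 * κ - 1) * ε = 16 * ω := by rw [hε]; field_simp
  linarith

lemma pow_sum_one {κ : ℝ} (hκ : 1/2 ≤ κ) (s : Finset ℕ) (x : ℕ → ℝ)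
    (hx : ∀ v, 0 ≤ x v) (h1 : ∑ v ∈ s, x v = 1) : ∑ v ∈ s, x v ^ (2 * κ) ≤ 1 := by
  have := pow_sum_le' hκ zero_le_one s x hx h1.le
  simpa using this

/-- **Lemma M** (note 2630). -/
theorem multi {κ ω : ℝ} (h : Adm κ ω) (s : Finset ℕ) (x y : ℕ → ℝ)
    (hx : ∀ v, 0 ≤ x v) (hy : ∀ v, 0 ≤ y v) (hx1 : ∑ v ∈ s, x v = 1) (hy1 : ∑ v ∈ s, y v = 1) :
    (∃ v0 ∈ s, ∑ v ∈ s.erase v0, x v ≤ Z1 κ ω ∧ ∑ v ∈ s.erase v0, y v ≤ Z1 κ ω) ∨
      diag κ s x y + cross κ ω s s x y ≤ 1 - κ / 2 * Z1 κ ω := by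
  have hk : 0 < κ := by linarith [h.κ1]
  have hω := h.ω0
  have hω1 := h.ω1
  have hη : 0 < 2 * κ - 1 := by linarith [h.κ1]
  have hZ := Z1_le h
  have hZp := Z1_pos h
  have hkZ : κ / 2 * Z1 κ ω ≤ 4 * ω := by
    calc κ / 2 * Z1 κ ω ≤ κ / 2 * (8 * ω / κ) := mul_le_mul_of_nonneg_left hZ (by positivity)
      _ = 4 * ω := by field_simp; ring
  have hD := diag_le (κ := κ) s x y hx hy
  have hC := cross_le (κ := κ) hω.le (by linarith) s s x y hx hy
  have sx := pow_sum_one h.κ1.le s x hx hx1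
  have sy := pow_sum_one h.κ1.le s y hy hy1
  by_cases cx : ∀ v ∈ s, x v ≤ 1 - 16 * ω / (2 * κ - 1)
  · right
    have := spread h s x hx hx1 cx
    nlinarith
  by_cases cy : ∀ v ∈ s, y v ≤ 1 - 16 * ω / (2 * κ - 1)
  · right
    have := spread h s y hy hy1 cy
    nlinarith
  push Not at cx cy
  obtain ⟨v0, hv0, hxv⟩ := cx
  obtain ⟨v1, hv1, hyv⟩ := cy
  set ε := 16 * ω / (2 * κ - 1) with hε
  have he0 : 0 < ε := by positivity
  have he1 : ε ≤ 1/64 := h.e1
  have ex := add_sum_erase s x hv0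
  have ey := add_sum_erase s y hv1
  rw [hx1] at ex; rw [hy1] at ey
  have hX : ∑ v ∈ s.erase v0, x v ≤ ε := by linarith
  have hY : ∑ v ∈ s.erase v1, y v ≤ ε := by linarith
  have hxle : ∀ v ∈ s, x v ≤ 1 := fun v hv => by
    rw [← hx1]; exact single_le_sum (f := x) (fun i _ => hx i) hv
  have hyle : ∀ v ∈ s, y v ≤ 1 := fun v hv => by
    rw [← hy1]; exact single_le_sum (f := y) (fun i _ => hy i) hv
  by_cases hv : v0 = v1
  · -- same centre
    subst hv
    set X := ∑ v ∈ s.erase v0, x v with hXd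
    set Y := ∑ v ∈ s.erase v0, y v with hYd
    by_cases hsmall : X ≤ Z1 κ ω ∧ Y ≤ Z1 κ ω
    · exact Or.inl ⟨v0, hv0, hsmall⟩
    right
    have hX0 : 0 ≤ X := sum_nonneg fun v _ => hx v
    have hY0 : 0 ≤ Y := sum_nonneg fun v _ => hy v
    set Z := max X Y with hZd
    have hXZ : X ≤ Z := le_max_left _ _
    have hYZ : Y ≤ Z := le_max_right _ _
    have hZε : Z ≤ ε := max_le hX hY
    have hZ1Z : Z1 κ ω ≤ Z := by
      by_contra hcon
      push Not at hcon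
      exact hsmall ⟨hXZ.trans hcon.le, hYZ.trans hcon.le⟩
    have hZpos : 0 < Z := hZp.trans_le hZ1Z
    -- main diagonal block
    have m1 : (x v0 * y v0) ^ κ ≤ 1 - κ * Z := by
      have hle : x v0 * y v0 ≤ 1 - Z := by
        have e1 : x v0 = 1 - X := by linarith
        have e2 : y v0 = 1 - Y := by linarith
        rcases le_total X Y with hxy | hxy
        · have : Z = Y := max_eq_right hxy
          rw [this, ← e2]
          calc x v0 * y v0 ≤ 1 * y v0 := mul_le_mul_of_nonneg_right (hxle v0 hv0) (hy v0)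
            _ = y v0 := one_mul _
        · have : Z = X := max_eq_left hxy
          rw [this, ← e1]
          calc x v0 * y v0 ≤ x v0 * 1 := mul_le_mul_of_nonneg_left (hyle v0 hv0) (hx v0)
            _ = x v0 := mul_one _
      calc (x v0 * y v0) ^ κ ≤ (1 - Z) ^ κ :=
            Real.rpow_le_rpow (mul_nonneg (hx _) (hy _)) hle hk.le
        _ = (1 + -Z) ^ κ := by ring_nf
        _ ≤ 1 + κ * (-Z) := _root_.rpow_one_add_le_one_add_mul_self
            (by linarith) hk.le h.κ2.le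
        _ = 1 - κ * Z := by ring
    have hrem := removed_le h.κ1.le hω.le (by linarith) s x y hx hy v0 hXZ hYZ
    -- cross terms touching the centre
    have hZκ : 0 ≤ Z ^ κ := Real.rpow_nonneg hZpos.le _
    have ce : s.filter (· ≠ v0) = s.erase v0 := by
      ext a; simp only [mem_filter, mem_erase]; tauto
    have c1 : ∑ v' ∈ s.filter (· ≠ v0), ω ^ (Nat.dist v0 v') * (x v0 * y v') ^ κ ≤ 4 * ω * Z ^ κ := by
      calc ∑ v' ∈ s.filter (· ≠ v0), ω ^ (Nat.dist v0 v') * (x v0 * y v') ^ κ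
          ≤ ∑ v' ∈ s.filter (· ≠ v0), ω ^ (Nat.dist v0 v') * Z ^ κ := by
            apply sum_le_sum
            intro v' hv'
            apply mul_le_mul_of_nonneg_left _ (by positivity)
            apply Real.rpow_le_rpow (mul_nonneg (hx _) (hy _)) _ hk.le
            have : y v' ≤ Y := by
              rw [ce] at hv'
              exact single_le_sum (f := y) (fun i _ => hy i) hv'
            calc x v0 * y v' ≤ 1 * y v' := mul_le_mul_of_nonneg_right (hxle v0 hv0) (hy _)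
              _ ≤ Z := by rw [one_mul]; linarith
        _ = (∑ v' ∈ s.filter (· ≠ v0), ω ^ (Nat.dist v0 v')) * Z ^ κ := by rw [sum_mul]
        _ ≤ 4 * ω * Z ^ κ := mul_le_mul_of_nonneg_right (geom_both hω.le (by linarith) s v0) hZκ
    have c2 : ∑ v ∈ s.filter (· ≠ v0), ω ^ (Nat.dist v0 v) * (x v * y v0) ^ κ ≤ 4 * ω * Z ^ κ := by
      calc ∑ v ∈ s.filter (· ≠ v0), ω ^ (Nat.dist v0 v) * (x v * y v0) ^ κ
          ≤ ∑ v' ∈ s.filter (· ≠ v0), ω ^ (Nat.dist v0 v') * Z ^ κ := by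
            apply sum_le_sum
            intro v' hv'
            apply mul_le_mul_of_nonneg_left _ (by positivity)
            apply Real.rpow_le_rpow (mul_nonneg (hx _) (hy _)) _ hk.le
            have : x v' ≤ X := by
              rw [ce] at hv'
              exact single_le_sum (f := x) (fun i _ => hx i) hv'
            calc x v' * y v0 ≤ x v' * 1 := mul_le_mul_of_nonneg_left (hyle v0 hv0) (hx _)
              _ ≤ Z := by rw [mul_one]; linarith
        _ = (∑ v' ∈ s.filter (· ≠ v0), ω ^ (Nat.dist v0 v')) * Z ^ κ := by rw [sum_mul]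
        _ ≤ 4 * ω * Z ^ κ := mul_le_mul_of_nonneg_right (geom_both hω.le (by linarith) s v0) hZκ
    -- numbers
    have n1 : Z ^ (2 * κ) ≤ κ / 8 * Z := by
      have e : Z ^ (2 * κ) = Z ^ (2 * κ - 1) * Z := by
        rw [← Real.rpow_add_one hZpos.ne']; ring_nf
      rw [e]
      apply mul_le_mul_of_nonneg_right _ hZpos.le
      exact (Real.rpow_le_rpow hZpos.le hZε hη.le).trans h.e2
    have n2 : 8 * ω * Z ^ κ ≤ κ / 4 * Z := by
      have hu0 : 0 < 32 * ω / κ := by positivity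
      have e : 32 * ω / κ ≤ Z ^ (1 - κ) := by
        calc 32 * ω / κ = (Z1 κ ω) ^ (1 - κ) := by
              unfold Z1
              rw [← Real.rpow_mul hu0.le]
              have : 1 / (1 - κ) * (1 - κ) = 1 := by
                field_simp [show (1 - κ) ≠ 0 by linarith [h.κ2]]
              rw [this, Real.rpow_one]
          _ ≤ Z ^ (1 - κ) := Real.rpow_le_rpow hZp.le hZ1Z (by linarith [h.κ2])
      have e3 : Z = Z ^ (1 - κ) * Z ^ κ := by
        rw [← Real.rpow_add hZpos]; norm_num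
      calc 8 * ω * Z ^ κ = κ / 4 * ((32 * ω / κ) * Z ^ κ) := by field_simp; ring
        _ ≤ κ / 4 * (Z ^ (1 - κ) * Z ^ κ) := by
            apply mul_le_mul_of_nonneg_left _ (by positivity)
            exact mul_le_mul_of_nonneg_right e hZκ
        _ = κ / 4 * Z := by rw [← e3]
    have hde := diag_erase (κ := κ) (x := x) (y := y) hv0
    have hce := cross_erase (κ := κ) (ω := ω) (x := x) (y := y) hv0
    have hfin : κ / 2 * Z1 κ ω ≤ κ / 2 * Z := mul_le_mul_of_nonneg_left hZ1Z (by positivity)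
    -- the removed blocks cost `≤ 3 Z^{2κ} ≤ 3κ/8 Z`; we need a sharper split
    have hdr : diag κ (s.erase v0) x y ≤ Z ^ (2 * κ) := by
      have a := pow_sum_le' h.κ1.le hZpos.le _ x hx hXZ
      have b := pow_sum_le' h.κ1.le hZpos.le _ y hy hYZ
      have c := diag_le (κ := κ) (s.erase v0) x y hx hy
      linarith
    have hcr : cross κ ω (s.erase v0) (s.erase v0) x y ≤ 4 * ω * Z ^ (2 * κ) := by
      have a := pow_sum_le' h.κ1.le hZpos.le _ x hx hXZ
      have b := pow_sum_le' h.κ1.le hZpos.le _ y hy hYZ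
      have c := cross_le (κ := κ) hω.le (by linarith) (s.erase v0) (s.erase v0) x y hx hy
      nlinarith
    have hcr' : 4 * ω * Z ^ (2 * κ) ≤ Z ^ (2 * κ) := by
      have : 0 ≤ Z ^ (2 * κ) := Real.rpow_nonneg hZpos.le _
      nlinarith
    rw [hde, hce]
    linarith
  · -- different centres
    right
    have hsq : ∀ c : ℝ, 0 ≤ c → c ≤ ε → c ^ κ ≤ 1/8 := by
      intro c hc0 hc
      calc c ^ κ ≤ ε ^ κ := Real.rpow_le_rpow hc0 hc hk.le
        _ ≤ ε ^ (1/2 : ℝ) := Real.rpow_le_rpow_of_exponent_ge he0 (by linarith) h.κ1.le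
        _ ≤ (1/64 : ℝ) ^ (1/2 : ℝ) := Real.rpow_le_rpow he0.le he1 (by norm_num)
        _ = 1/8 := by
            rw [show (1/64 : ℝ) = (1/8) ^ (2:ℝ) by norm_num, ← Real.rpow_mul (by norm_num)]
            norm_num
    have hv1' : v1 ∈ s.erase v0 := mem_erase.2 ⟨fun hh => hv hh.symm, hv1⟩
    have hv0' : v0 ∈ s.erase v1 := mem_erase.2 ⟨hv, hv0⟩
    have xv1 : x v1 ≤ ε := (single_le_sum (f := x) (fun i _ => hx i) hv1').trans hX
    have yv0 : y v0 ≤ ε := (single_le_sum (f := y) (fun i _ => hy i) hv0').trans hY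
    have d0 : (x v0 * y v0) ^ κ ≤ 1/8 := by
      apply hsq _ (mul_nonneg (hx _) (hy _))
      calc x v0 * y v0 ≤ 1 * y v0 := mul_le_mul_of_nonneg_right (hxle v0 hv0) (hy _)
        _ ≤ ε := by rw [one_mul]; exact yv0
    have d1 : (x v1 * y v1) ^ κ ≤ 1/8 := by
      apply hsq _ (mul_nonneg (hx _) (hy _))
      calc x v1 * y v1 ≤ x v1 * 1 := mul_le_mul_of_nonneg_left (hyle v1 hv1) (hx _)
        _ ≤ ε := by rw [mul_one]; exact xv1
    have d2 : diag κ ((s.erase v0).erase v1) x y ≤ ε := by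
      have hx2 : ∑ v ∈ (s.erase v0).erase v1, x v ≤ ε :=
        (sum_le_sum_of_subset_of_nonneg (erase_subset _ _) (fun i _ _ => hx i)).trans hX
      have hy2 : ∑ v ∈ (s.erase v0).erase v1, y v ≤ ε := by
        rw [erase_right_comm]
        exact (sum_le_sum_of_subset_of_nonneg (erase_subset _ _) (fun i _ _ => hy i)).trans hY
      have a := pow_sum_le' h.κ1.le he0.le _ x hx hx2
      have b := pow_sum_le' h.κ1.le he0.le _ y hy hy2
      have c := diag_le (κ := κ) ((s.erase v0).erase v1) x y hx hy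
      have d : ε ^ (2 * κ) ≤ ε := by
        calc ε ^ (2 * κ) ≤ ε ^ (1:ℝ) :=
              Real.rpow_le_rpow_of_exponent_ge he0 (by linarith) (by linarith [h.κ1])
          _ = ε := Real.rpow_one _
      linarith
    have e1 := diag_erase (κ := κ) (x := x) (y := y) hv0
    have e2 := diag_erase (κ := κ) (x := x) (y := y) hv1'
    have hC' : cross κ ω s s x y ≤ 1/8 := by nlinarith
    rw [e1, e2]
    linarith

end Crest.Agent.R4C.Multix251
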