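import Mathlib

/-!
# Lemma SP of BLOCK NH (656, row 4; GW section): liftings are the rule (helper726)

`On K y τ` : `y` has a fraction `a/k` with `k max(1, τ |y - a/k|) < K`.
If `p y` has depth `< K` at the scale `τ` then usually `y` has depth `< K` at the scale `τ p`:
the primes `p ∈ (X, X²]` for which this fails have total mass `∑ 1/p ≤ C min(τ, X)^{-1/4}`
(`X ≤ τ^B`, `K^64 ≤ min(τ, X)`).
-/

set_option autoImplicit false

namespace Crest.Agent.R4C.SPx726

open Finset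

/-- `y` has depth `< K` at the scale `τ` -/
def On (K y τ : ℝ) : Prop :=
  ∃ (a : ℤ) (k : ℕ), 1 ≤ k ∧ (k : ℝ) * max 1 (τ * |y - a / k|) < K

/-- the datum of a prime which does not lift -/
def Dat (K y τ : ℝ) (p : ℕ) : Prop :=
  ∃ (a : ℤ) (k : ℕ), 1 ≤ k ∧ (k : ℝ) < K ∧ |(k : ℝ) * p * y - a| < K / τ ∧ ¬ (p : ℤ) ∣ a

lemma dat_of {K y τ : ℝ} {p : ℕ} (hτ : 0 < τ) (hp : 0 < p) (h : On K (p * y) τ)
    (hn : ¬ On K y (τ * p)) : Dat K y τ p := by
  obtain ⟨a, k, hk, h1⟩ := h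
  have hk0 : (0 : ℝ) < k := by exact_mod_cast hk
  have hp0 : (0 : ℝ) < p := by exact_mod_cast hp
  refine ⟨a, k, hk, ?_, ?_, ?_⟩
  · have h2 : (1 : ℝ) ≤ max 1 (τ * |(p : ℝ) * y - a / k|) := le_max_left _ _
    nlinarith
  · have h2 : τ * |(p : ℝ) * y - a / k| ≤ max 1 (τ * |(p : ℝ) * y - a / k|) := le_max_right _ _
    have h3 : (k : ℝ) * (τ * |(p : ℝ) * y - a / k|) < K :=
      lt_of_le_of_lt (mul_le_mul_of_nonneg_left h2 hk0.le) h1
    have h4 : (k : ℝ) * p * y - a = k * ((p : ℝ) * y - a / k) := by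
      field_simp
    rw [h4, abs_mul, abs_of_pos hk0, lt_div_iff₀ hτ]
    linarith
  · rintro ⟨a', ha'⟩
    refine hn ⟨a', k, hk, ?_⟩
    have e : τ * p * |y - a' / k| = τ * |(p : ℝ) * y - a / k| := by
      have h4 : (p : ℝ) * y - a / k = p * (y - a' / k) := by
        rw [ha']
        push_cast
        field_simp
      rw [h4, abs_mul, abs_of_pos hp0]
      ring
    rw [e]
    exact h1

/-! ### counting -/

lemma card_le_real {ι κ : Type*} [DecidableEq κ] (s : Finset ι) (t : Finset κ) (f : ι → κ)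
    (hf : ∀ a ∈ s, f a ∈ t) (c : ℝ) (h : ∀ b ∈ t, ((s.filter (fun a => f a = b)).card : ℝ) ≤ c) :
    (s.card : ℝ) ≤ t.card * c := by
  rw [Finset.card_eq_sum_card_fiberwise hf]
  push_cast
  calc ∑ b ∈ t, ((s.filter (fun a => f a = b)).card : ℝ) ≤ ∑ _b ∈ t, c := Finset.sum_le_sum h
    _ = t.card * c := by rw [Finset.sum_const, nsmul_eq_mul]

/-- spaced integers in an interval -/
lemma card_spaced (S : Finset ℕ) (A H W : ℝ) (hH : 0 ≤ H) (hW : 0 < W)
    (h1 : ∀ n ∈ S, A ≤ n ∧ (n : ℝ) ≤ A + H)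
    (h2 : ∀ n ∈ S, ∀ n' ∈ S, n < n' → W ≤ (n' : ℝ) - n) : (S.card : ℝ) ≤ H / W + 1 := by
  have hinj : Set.InjOn (fun n : ℕ => ⌊((n : ℝ) - A) / W⌋₊) S := by
    have key : ∀ n ∈ S, ∀ n' ∈ S, n < n' →
        ⌊((n : ℝ) - A) / W⌋₊ < ⌊((n' : ℝ) - A) / W⌋₊ := by
      intro n hn n' hn' hlt
      have h3 := h2 n hn n' hn' hlt
      have h4 : 0 ≤ ((n : ℝ) - A) / W := div_nonneg (by linarith [(h1 n hn).1]) hW.le
      have h5 : ((n : ℝ) - A) / W + 1 ≤ ((n' : ℝ) - A) / W := by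
        rw [← sub_nonneg]
        have : ((n' : ℝ) - A) / W - (((n : ℝ) - A) / W + 1) = ((n' : ℝ) - n - W) / W := by
          field_simp
          ring
        rw [this]
        exact div_nonneg (by linarith) hW.le
      calc ⌊((n : ℝ) - A) / W⌋₊ < ⌊((n : ℝ) - A) / W⌋₊ + 1 := Nat.lt_succ_self _
        _ = ⌊((n : ℝ) - A) / W + 1⌋₊ := (Nat.floor_add_one h4).symm
        _ ≤ _ := Nat.floor_le_floor h5
    intro n hn n' hn' he
    rcases lt_trichotomy n n' with h | h | h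
    · exact absurd he (key n hn n' hn' h).ne
    · exact h
    · exact absurd he (key n' hn' n hn h).ne'
  have hmaps : ∀ n ∈ S, (fun n : ℕ => ⌊((n : ℝ) - A) / W⌋₊) n ∈ Finset.range (⌊H / W⌋₊ + 1) := by
    intro n hn
    rw [Finset.mem_range, Nat.lt_succ_iff]
    refine Nat.floor_le_floor ?_
    exact div_le_div_of_nonneg_right (by linarith [(h1 n hn).2]) hW.le
  have h3 := Finset.card_le_card_of_injOn _ hmaps hinj
  rw [Finset.card_range] at h3
  have h4 : ((⌊H / W⌋₊ + 1 : ℕ) : ℝ) ≤ H / W + 1 := by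
    push_cast
    have := Nat.floor_le (div_nonneg hH hW.le)
    linarith
  exact le_trans (by exact_mod_cast h3) h4

/-- integers in `(R, 2R]` with `n M` close to a nonzero integer -/
lemma card_nonzero (S : Finset ℕ) (R M e : ℝ) (hR : 0 < R) (he : 0 ≤ e) (he2 : e ≤ 1 / 2)
    (h1 : ∀ n ∈ S, R < n ∧ (n : ℝ) ≤ 2 * R)
    (h2 : ∀ n ∈ S, ∃ j : ℤ, j ≠ 0 ∧ |(n : ℝ) * M - j| < e) :
    (S.card : ℝ) ≤ 8 * R * e + 4 * R * |M| := by
  classical
  rcases S.eq_empty_or_nonempty with rfl | ⟨n0, hn0⟩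
  · simp only [Finset.card_empty, Nat.cast_zero]
    positivity
  -- positive integer version
  have h3 : ∀ n ∈ S, ∃ j : ℕ, 1 ≤ j ∧ |(n : ℝ) * |M| - j| < e := by
    intro n hn
    obtain ⟨j, hj, hj2⟩ := h2 n hn
    have hnn : (0 : ℝ) ≤ (n : ℝ) * |M| := mul_nonneg (Nat.cast_nonneg _) (abs_nonneg _)
    have h4 : ∃ j' : ℤ, j' ≠ 0 ∧ |(n : ℝ) * |M| - j'| < e := by
      rcases le_or_gt 0 M with hM | hM
      · exact ⟨j, hj, by rwa [abs_of_nonneg hM]⟩
      · refine ⟨-j, neg_ne_zero.2 hj, ?_⟩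
        rw [abs_of_neg hM]
        push_cast
        have : (n : ℝ) * -M - -(j : ℝ) = -((n : ℝ) * M - j) := by ring
        rw [this, abs_neg]
        exact hj2
    obtain ⟨j', hj', hj2'⟩ := h4
    have h5 := abs_lt.1 hj2'
    have h6 : (-1 : ℝ) < (j' : ℝ) := by linarith [h5.2]
    have h7 : (-1 : ℤ) < j' := by exact_mod_cast h6
    have h8 : 1 ≤ j' := by omega
    refine ⟨j'.toNat, by omega, ?_⟩
    have h9 : ((j'.toNat : ℕ) : ℝ) = (j' : ℝ) := by
      have : ((j'.toNat : ℤ) : ℝ) = (j' : ℝ) := by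
        rw [Int.toNat_of_nonneg (by omega)]
      exact_mod_cast this
    rw [h9]
    exact hj2'
  choose! j hj1 hj2 using h3
  have hM : 0 < |M| := by
    rcases (abs_nonneg M).eq_or_lt with h | h
    · exfalso
      have h4 := hj2 n0 hn0
      rw [← h, mul_zero, zero_sub, abs_neg, abs_of_nonneg (Nat.cast_nonneg _)] at h4
      have h5 : (1 : ℝ) ≤ j n0 := by exact_mod_cast hj1 n0 hn0
      linarith
    · exact h
  have hRM : 1 / 4 ≤ R * |M| := by
    have h4 := abs_lt.1 (hj2 n0 hn0)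
    have h5 : (1 : ℝ) ≤ j n0 := by exact_mod_cast hj1 n0 hn0
    have h6 : (n0 : ℝ) * |M| ≤ 2 * R * |M| :=
      mul_le_mul_of_nonneg_right (h1 n0 hn0).2 hM.le
    nlinarith [h4.1]
  set J : ℕ := ⌊2 * R * |M| + 1 / 2⌋₊ with hJ
  have hmaps : ∀ n ∈ S, j n ∈ Finset.Icc 1 J := by
    intro n hn
    rw [Finset.mem_Icc]
    refine ⟨hj1 n hn, ?_⟩
    rw [hJ]
    refine Nat.le_floor ?_
    have h4 := abs_lt.1 (hj2 n hn)
    have h6 : (n : ℝ) * |M| ≤ 2 * R * |M| :=
      mul_le_mul_of_nonneg_right (h1 n hn).2 hM.le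
    linarith [h4.1]
  have h5 := card_le_real S (Finset.Icc 1 J) j hmaps (2 * e / |M| + 1) (by
    intro i _
    have h6 := card_spaced (S.filter (fun n => j n = i)) ((i : ℝ) / |M| - e / |M|)
      (2 * e / |M|) 1 (by positivity) one_pos (by
        intro n hn
        rw [Finset.mem_filter] at hn
        have h7 := abs_lt.1 (hj2 n hn.1)
        rw [hn.2] at h7
        constructor
        · rw [← sub_div, div_le_iff₀ hM]
          linarith [h7.1]
        · have : (i : ℝ) / |M| - e / |M| + 2 * e / |M| = (i + e) / |M| := by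
            field_simp
            ring
          rw [this, le_div_iff₀ hM]
          linarith [h7.2]) (by
        intro n _ n' _ hlt
        have : (n : ℝ) + 1 ≤ n' := by exact_mod_cast hlt
        linarith)
    rw [div_one] at h6
    exact h6)
  rw [Nat.card_Icc, Nat.add_sub_cancel] at h5
  have h6 : (J : ℝ) ≤ 2 * R * |M| + 1 / 2 := Nat.floor_le (by positivity)
  have h7 : 0 ≤ 2 * e / |M| + 1 := by positivity
  calc (S.card : ℝ) ≤ J * (2 * e / |M| + 1) := h5
    _ ≤ (4 * (R * |M|)) * (2 * e / |M| + 1) := mul_le_mul_of_nonneg_right (by linarith) h7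
    _ = 8 * R * e + 4 * R * |M| := by
        field_simp
        ring

/-! ### one small prime -/

/-- two primes of the set: one of them is large -/
lemma two_primes {K y τ : ℝ} {p p' : ℕ} (hτ : 0 < τ) (hp : p.Prime) (hp' : p'.Prime)
    (hne : p ≠ p') (hKp : K ≤ p) (h : Dat K y τ p) (h' : Dat K y τ p') :
    τ < K ^ 2 * (p + p') := by
  obtain ⟨a, k, hk, hkK, h1, h2⟩ := h
  obtain ⟨a', k', hk', hkK', h1', _⟩ := h'
  have hk0 : (0 : ℝ) < k := by exact_mod_cast hk
  have hk0' : (0 : ℝ) < k' := by exact_mod_cast hk'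
  have hp0 : (0 : ℝ) < p := by exact_mod_cast hp.pos
  have hp0' : (0 : ℝ) < p' := by exact_mod_cast hp'.pos
  have hK : 0 < K := hk0.trans hkK
  have hδ : 0 < K / τ := div_pos hK hτ
  -- nonzero integer
  have hz : a * (k' * p' : ℕ) - a' * (k * p : ℕ) ≠ 0 := by
    intro hz
    have h3 : (p : ℤ) ∣ a * (k' * p' : ℕ) := by
      rw [sub_eq_zero] at hz
      rw [hz]
      push_cast
      exact Dvd.intro_left (a' * k) (by ring)
    have hpz : Prime (p : ℤ) := Nat.prime_iff_prime_int.1 hp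
    rcases hpz.dvd_or_dvd h3 with h4 | h4
    · exact h2 h4
    · have h5 : p ∣ k' * p' := by exact_mod_cast h4
      rcases hp.dvd_mul.1 h5 with h6 | h6
      · have h7 := Nat.le_of_dvd hk' h6
        have h8 : (p : ℝ) ≤ k' := by exact_mod_cast h7
        linarith
      · exact hne ((Nat.prime_dvd_prime_iff_eq hp hp').1 h6)
  have h3 : (1 : ℝ) ≤ |((a * (k' * p' : ℕ) - a' * (k * p : ℕ) : ℤ) : ℝ)| := by
    rw [← Int.cast_abs]
    exact_mod_cast Int.one_le_abs hz
  have h4 : ((a * (k' * p' : ℕ) - a' * (k * p : ℕ) : ℤ) : ℝ) =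
      (k : ℝ) * p * ((k' : ℝ) * p' * y - a') - (k' : ℝ) * p' * ((k : ℝ) * p * y - a) := by
    push_cast
    ring
  rw [h4] at h3
  have h5 : |(k : ℝ) * p * ((k' : ℝ) * p' * y - a') - (k' : ℝ) * p' * ((k : ℝ) * p * y - a)| ≤
      (k : ℝ) * p * |(k' : ℝ) * p' * y - a'| + (k' : ℝ) * p' * |(k : ℝ) * p * y - a| := by
    refine (abs_sub _ _).trans (le_of_eq ?_)
    rw [abs_mul ((k : ℝ) * p), abs_mul ((k' : ℝ) * p'), abs_of_pos (mul_pos hk0 hp0),
      abs_of_pos (mul_pos hk0' hp0')]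
  have h6 : (k : ℝ) * p * |(k' : ℝ) * p' * y - a'| < K * p * (K / τ) := by
    refine mul_lt_mul'' ?_ h1' (by positivity) (abs_nonneg _)
    exact mul_lt_mul_of_pos_right hkK hp0
  have h7 : (k' : ℝ) * p' * |(k : ℝ) * p * y - a| < K * p' * (K / τ) := by
    refine mul_lt_mul'' ?_ h1 (by positivity) (abs_nonneg _)
    exact mul_lt_mul_of_pos_right hkK' hp0'
  have h8 : 1 < K * p * (K / τ) + K * p' * (K / τ) := by linarith
  have h9 : K * p * (K / τ) + K * p' * (K / τ) = K ^ 2 * (p + p') / τ := by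
    field_simp
  rw [h9, lt_div_iff₀ hτ] at h8
  linarith

/-! ### a dyadic block -/

lemma block {K y τ R : ℝ} (hτ : 0 < τ) (hK : 1 ≤ K) (hKτ : 2 * K ^ 2 ≤ Real.sqrt τ)
    (hR : τ / (2 * K ^ 2) ≤ R) (S : Finset ℕ)
    (h : ∀ p ∈ S, p.Prime ∧ R < p ∧ (p : ℝ) ≤ 2 * R ∧ Dat K y τ p) :
    (S.card : ℝ) ≤ 44 * R * K ^ 4 / Real.sqrt τ := by
  classical
  have hK0 : 0 < K := by linarith
  have hs : 0 < Real.sqrt τ := Real.sqrt_pos.2 hτ
  have hss : Real.sqrt τ * Real.sqrt τ = τ := Real.mul_self_sqrt hτ.le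
  have sqd : ∀ x : ℝ, Real.sqrt τ * (x / τ) = x / Real.sqrt τ := by
    intro x
    rw [eq_div_iff hs.ne']
    calc Real.sqrt τ * (x / τ) * Real.sqrt τ = (Real.sqrt τ * Real.sqrt τ) * (x / τ) := by ring
      _ = τ * (x / τ) := by rw [hss]
      _ = x := by field_simp
  have hR0 : 0 < R := lt_of_lt_of_le (by positivity) hR
  have hsR : Real.sqrt τ ≤ R := by
    refine le_trans ?_ hR
    rw [le_div_iff₀ (by positivity)]
    nlinarith
  have hK1 : K ≤ K ^ 2 := by nlinarith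
  have hK2 : 1 ≤ K ^ 2 := by nlinarith
  have hK34 : K ^ 3 ≤ K ^ 4 := pow_le_pow_right₀ hK (by norm_num)
  have hK24 : K ^ 2 ≤ K ^ 4 := pow_le_pow_right₀ hK (by norm_num)
  choose! a k hk hkK hd hna using fun p (hp : p ∈ S) => (h p hp).2.2.2
  have hceil : ((⌈K⌉₊ : ℕ) : ℝ) ≤ 2 * K := by
    have := Nat.ceil_lt_add_one hK0.le
    linarith
  by_cases hA : ∃ (w : ℕ) (m : ℤ), 1 ≤ w ∧ (w : ℝ) ≤ Real.sqrt τ ∧ |(w : ℝ) * y - m| < 2 * K / τ
  · obtain ⟨w, m, hw, hw2, hw3⟩ := hA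
    have hw0 : (0 : ℝ) < w := by exact_mod_cast hw
    set θ : ℝ := (w : ℝ) * y - m with hθ
    have hmaps : ∀ p ∈ S, k p ∈ Finset.range ⌈K⌉₊ := fun p hp => by
      rw [Finset.mem_range, Nat.lt_ceil]
      exact hkK p hp
    have h1 := card_le_real S (Finset.range ⌈K⌉₊) k hmaps (16 * R * K ^ 2 / Real.sqrt τ) (by
      intro κ hκ
      rw [Finset.mem_range, Nat.lt_ceil] at hκ
      have h2 := card_nonzero (S.filter (fun p => k p = κ)) R ((κ : ℝ) * θ) ((w : ℝ) * (K / τ))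
        hR0 (by positivity) (by
          have e1 : (w : ℝ) * (K / τ) ≤ Real.sqrt τ * (K / τ) :=
            mul_le_mul_of_nonneg_right hw2 (by positivity)
          rw [sqd] at e1
          refine e1.trans ?_
          rw [div_le_iff₀ hs]
          nlinarith) (fun p hp => by
          rw [Finset.mem_filter] at hp
          exact ⟨(h p hp.1).2.1, (h p hp.1).2.2.1⟩) (fun p hp => by
          rw [Finset.mem_filter] at hp
          obtain ⟨hpS, hpk⟩ := hp
          have hpp := (h p hpS).1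
          refine ⟨(w : ℤ) * a p - (κ : ℤ) * p * m, ?_, ?_⟩
          · intro hz
            have h3 : (p : ℤ) ∣ (w : ℤ) * a p := by
              rw [sub_eq_zero] at hz
              rw [hz]
              exact Dvd.intro_left ((κ : ℤ) * m) (by ring)
            have hpz : Prime (p : ℤ) := Nat.prime_iff_prime_int.1 hpp
            rcases hpz.dvd_or_dvd h3 with h4 | h4
            · have h5 : p ∣ w := by exact_mod_cast h4
              have h6 : (p : ℝ) ≤ w := by exact_mod_cast Nat.le_of_dvd hw h5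
              have h7 := (h p hpS).2.1
              linarith
            · exact hna p hpS h4
          · have e : (p : ℝ) * ((κ : ℝ) * θ) - (((w : ℤ) * a p - (κ : ℤ) * p * m : ℤ) : ℝ) =
                (w : ℝ) * ((k p : ℝ) * p * y - a p) := by
              rw [hpk, hθ]
              push_cast
              ring
            rw [e, abs_mul, abs_of_pos hw0]
            exact mul_lt_mul_of_pos_left (hd p hpS) hw0)
      refine h2.trans ?_
      have hM : |(κ : ℝ) * θ| ≤ K * (2 * K / τ) := by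
        rw [abs_mul, abs_of_nonneg (Nat.cast_nonneg κ)]
        exact mul_le_mul hκ.le hw3.le (abs_nonneg _) hK0.le
      have e1 : (w : ℝ) * (K / τ) ≤ K ^ 2 / Real.sqrt τ := by
        rw [← sqd]
        exact mul_le_mul hw2 (div_le_div_of_nonneg_right hK1 hτ.le) (by positivity) hs.le
      have e3 : K * (2 * K / τ) ≤ 2 * (K ^ 2 / Real.sqrt τ) := by
        have e4 : K * (2 * K / τ) = 2 * (K ^ 2 / τ) := by ring
        rw [e4]
        refine mul_le_mul_of_nonneg_left ?_ (by norm_num)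
        refine div_le_div_of_nonneg_left (by positivity) hs ?_
        nlinarith
      calc 8 * R * ((w : ℝ) * (K / τ)) + 4 * R * |(κ : ℝ) * θ|
          ≤ 8 * R * (K ^ 2 / Real.sqrt τ) + 4 * R * (2 * (K ^ 2 / Real.sqrt τ)) :=
            add_le_add (mul_le_mul_of_nonneg_left e1 (by positivity))
              (mul_le_mul_of_nonneg_left (hM.trans e3) (by positivity))
        _ = 16 * R * K ^ 2 / Real.sqrt τ := by ring)
    rw [Finset.card_range] at h1
    refine h1.trans ?_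
    calc ((⌈K⌉₊ : ℕ) : ℝ) * (16 * R * K ^ 2 / Real.sqrt τ)
        ≤ (2 * K) * (16 * R * K ^ 2 / Real.sqrt τ) :=
          mul_le_mul_of_nonneg_right hceil (by positivity)
      _ = 32 * R * K ^ 3 / Real.sqrt τ := by ring
      _ ≤ 44 * R * K ^ 4 / Real.sqrt τ := by
          refine div_le_div_of_nonneg_right ?_ hs.le
          have : R * K ^ 3 ≤ R * K ^ 4 := mul_le_mul_of_nonneg_left hK34 hR0.le
          have h0 : 0 ≤ R * K ^ 3 := by positivity
          linarith
  · push Not at hA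
    have hmaps : ∀ p ∈ S, (fun p => (k p, (a p % (k p : ℤ)).toNat)) p ∈
        Finset.range ⌈K⌉₊ ×ˢ Finset.range ⌈K⌉₊ := fun p hp => by
      rw [Finset.mem_product, Finset.mem_range, Finset.mem_range, Nat.lt_ceil]
      refine ⟨hkK p hp, ?_⟩
      have h3 : (0 : ℤ) < k p := by exact_mod_cast hk p hp
      have h4 := Int.emod_lt_of_pos (a p) h3
      have h5 := Int.emod_nonneg (a p) h3.ne'
      have h6 : k p < ⌈K⌉₊ := Nat.lt_ceil.2 (hkK p hp)
      simp only
      omega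
    have h1 := card_le_real S (Finset.range ⌈K⌉₊ ×ˢ Finset.range ⌈K⌉₊)
      (fun p => (k p, (a p % (k p : ℤ)).toNat)) hmaps (R / Real.sqrt τ + 1) (by
      intro κ _
      refine card_spaced _ R R (Real.sqrt τ) hR0.le hs (fun p hp => ?_) (fun p hp p' hp' hlt => ?_)
      · rw [Finset.mem_filter] at hp
        exact ⟨(h p hp.1).2.1.le, by linarith [(h p hp.1).2.2.1]⟩
      · rw [Finset.mem_filter] at hp hp'
        by_contra hc
        rw [not_le] at hc
        obtain ⟨hpS, hpk⟩ := hp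
        obtain ⟨hpS', hpk'⟩ := hp'
        rw [← hpk'] at hpk
        simp only [Prod.mk.injEq] at hpk
        obtain ⟨ek, ea⟩ := hpk
        have h3 : (0 : ℤ) < k p := by exact_mod_cast hk p hpS
        have h5 := Int.emod_nonneg (a p) h3.ne'
        have h6 := Int.emod_nonneg (a p') h3.ne'
        rw [← ek] at ea
        have h7 : a p' % (k p : ℤ) = a p % (k p : ℤ) := by omega
        have h8 : (k p : ℤ) ∣ a p' - a p := Int.ModEq.dvd h7.symm
        obtain ⟨z, hz⟩ := h8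
        have hkp : (0 : ℝ) < k p := by exact_mod_cast hk p hpS
        have h9 := hA (p' - p) z (by omega) (by
          rw [Nat.cast_sub hlt.le]
          exact hc.le)
        rw [Nat.cast_sub hlt.le] at h9
        have hz' : (a p' : ℝ) - a p = k p * z := by exact_mod_cast hz
        have d1 := hd p hpS
        have d2 := hd p' hpS'
        rw [← ek] at d2
        have e : (k p : ℝ) * (((p' : ℝ) - p) * y - z) =
            ((k p : ℝ) * p' * y - a p') - ((k p : ℝ) * p * y - a p) := by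
          have : (k p : ℝ) * z = a p' - a p := hz'.symm
          linear_combination -this
        have h10 : |(k p : ℝ) * (((p' : ℝ) - p) * y - z)| < 2 * K / τ := by
          rw [e]
          refine lt_of_le_of_lt (abs_sub _ _) ?_
          have : 2 * K / τ = K / τ + K / τ := by ring
          rw [this]
          exact add_lt_add d2 d1
        rw [abs_mul, abs_of_pos hkp] at h10
        have h11 : (1 : ℝ) ≤ k p := by exact_mod_cast hk p hpS
        have h12 := abs_nonneg (((p' : ℝ) - p) * y - z)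
        nlinarith)
    rw [Finset.card_product, Finset.card_range] at h1
    refine h1.trans ?_
    push_cast
    have h2 : ((⌈K⌉₊ : ℕ) : ℝ) * (⌈K⌉₊ : ℕ) ≤ 4 * K ^ 2 := by
      have h3 : (0 : ℝ) ≤ (⌈K⌉₊ : ℕ) := Nat.cast_nonneg _
      nlinarith
    have h3 : 0 ≤ R / Real.sqrt τ + 1 := by positivity
    have h4 : 1 ≤ 2 * K ^ 2 * R / τ := by
      rw [le_div_iff₀ hτ, one_mul]
      rw [div_le_iff₀ (by positivity)] at hR
      linarith
    have h5 : 2 * K ^ 2 * R / τ ≤ 2 * K ^ 2 * R / Real.sqrt τ := by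
      refine div_le_div_of_nonneg_left (by positivity) hs ?_
      nlinarith
    calc ((⌈K⌉₊ : ℕ) : ℝ) * (⌈K⌉₊ : ℕ) * (R / Real.sqrt τ + 1)
        ≤ 4 * K ^ 2 * (R / Real.sqrt τ + 1) := mul_le_mul_of_nonneg_right h2 h3
      _ ≤ 4 * K ^ 2 * (R / Real.sqrt τ + 2 * K ^ 2 * R / Real.sqrt τ) :=
          mul_le_mul_of_nonneg_left (by linarith) (by positivity)
      _ = (4 * (R * K ^ 2) + 8 * (R * K ^ 4)) / Real.sqrt τ := by ring
      _ ≤ 44 * R * K ^ 4 / Real.sqrt τ := by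
          refine div_le_div_of_nonneg_right ?_ hs.le
          have : R * K ^ 2 ≤ R * K ^ 4 := mul_le_mul_of_nonneg_left hK24 hR0.le
          have h0 : 0 ≤ R * K ^ 4 := by positivity
          linarith

/-! ### dyadic summation -/

lemma dyadic_sum (F : Finset ℕ) {Z c : ℝ} (n : ℕ) (hZ : 0 < Z)
    (h1 : ∀ p ∈ F, Z < p ∧ (p : ℝ) ≤ 2 ^ n * Z)
    (h : ∀ i < n, ∀ S ⊆ F, (∀ p ∈ S, 2 ^ i * Z < p ∧ (p : ℝ) ≤ 2 * (2 ^ i * Z)) →
      (S.card : ℝ) ≤ c * (2 ^ i * Z)) :
    ∑ p ∈ F, (1 : ℝ) / p ≤ n * c := by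
  classical
  have hex : ∀ p ∈ F, ∃ i, (p : ℝ) ≤ 2 ^ (i + 1) * Z := by
    intro p hp
    refine ⟨n, (h1 p hp).2.trans ?_⟩
    refine mul_le_mul_of_nonneg_right ?_ hZ.le
    exact pow_le_pow_right₀ (by norm_num) (Nat.le_succ n)
  set f : ℕ → ℕ := fun p => if h : ∃ i, (p : ℝ) ≤ 2 ^ (i + 1) * Z then Nat.find h else 0 with hf
  have hfs : ∀ p ∈ F, (p : ℝ) ≤ 2 * (2 ^ f p * Z) ∧ 2 ^ f p * Z < p ∧ f p < n := by
    intro p hp
    have hh := hex p hp
    have e : f p = Nat.find hh := by rw [hf]; simp only [dif_pos hh]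
    rw [e]
    have h2 := Nat.find_spec hh
    obtain ⟨h3, h4⟩ := h1 p hp
    have hn0 : 0 < n := by
      rcases Nat.eq_zero_or_pos n with h0 | h0
      · rw [h0] at h4
        simp only [pow_zero, one_mul] at h4
        linarith
      · exact h0
    refine ⟨by rw [pow_succ] at h2; linarith, ?_, ?_⟩
    · rcases Nat.eq_zero_or_pos (Nat.find hh) with h0 | h0
      · rw [h0]; simpa using h3
      · have h5 := Nat.find_min hh (show Nat.find hh - 1 < Nat.find hh by omega)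
        rw [show Nat.find hh - 1 + 1 = Nat.find hh by omega] at h5
        exact not_le.1 h5
    · have h5 : Nat.find hh ≤ n - 1 := by
        refine Nat.find_min' hh ?_
        rw [show n - 1 + 1 = n by omega]
        exact h4
      omega
  have h2 : ∑ p ∈ F, (1 : ℝ) / p =
      ∑ i ∈ Finset.range n, ∑ p ∈ F.filter (fun p => f p = i), (1 : ℝ) / p :=
    (Finset.sum_fiberwise_of_maps_to (fun p hp => Finset.mem_range.2 (hfs p hp).2.2) _).symm
  rw [h2]
  have h3 : ∀ i ∈ Finset.range n, ∑ p ∈ F.filter (fun p => f p = i), (1 : ℝ) / p ≤ c := by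
    intro i hi
    have hpi : (0 : ℝ) < 2 ^ i * Z := by positivity
    have h4 := h i (Finset.mem_range.1 hi) (F.filter (fun p => f p = i)) (Finset.filter_subset _ _)
      (fun p hp => by
        rw [Finset.mem_filter] at hp
        obtain ⟨h5, h6, _⟩ := hfs p hp.1
        rw [hp.2] at h5 h6
        exact ⟨h6, h5⟩)
    have h5 : ∑ p ∈ F.filter (fun p => f p = i), (1 : ℝ) / p ≤
        (F.filter (fun p => f p = i)).card * (1 / (2 ^ i * Z)) := by
      rw [← nsmul_eq_mul]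
      refine Finset.sum_le_card_nsmul _ _ _ fun p hp => ?_
      rw [Finset.mem_filter] at hp
      have h6 := (hfs p hp.1).2.1
      rw [hp.2] at h6
      exact one_div_le_one_div_of_le hpi h6.le
    refine h5.trans ?_
    rw [mul_one_div, div_le_iff₀ hpi]
    exact h4
  calc _ ≤ ∑ _i ∈ Finset.range n, c := Finset.sum_le_sum h3
    _ = n * c := by rw [Finset.sum_const, Finset.card_range, nsmul_eq_mul]

lemma ceil_logb_le {X : ℝ} (hX : 2 ≤ X) : (⌈Real.logb 2 X⌉₊ : ℝ) ≤ 3 * Real.log X ∧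
    X ≤ 2 ^ ⌈Real.logb 2 X⌉₊ := by
  have hX0 : 0 < X := by linarith
  constructor
  · have h1 := Nat.ceil_lt_add_one (Real.logb_nonneg (by norm_num : (1:ℝ) < 2) (by linarith : 1 ≤ X))
    have h2 : Real.logb 2 X = Real.log X / Real.log 2 := rfl
    have hl := Real.log_two_gt_d9
    have hlX : Real.log 2 ≤ Real.log X := Real.log_le_log (by norm_num) hX
    have h3 : Real.log X / Real.log 2 ≤ 3 / 2 * Real.log X := by
      rw [div_le_iff₀ (by linarith)]
      nlinarith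
    have h4 : 1 ≤ 3 / 2 * Real.log X := by linarith
    rw [h2] at h1
    rw [h2]
    linarith
  · have h1 := Nat.le_ceil (Real.logb 2 X)
    rw [Real.logb_le_iff_le_rpow (by norm_num) hX0] at h1
    rwa [Real.rpow_natCast] at h1

/-- **LEMMA SP** (656's leaf). -/
theorem sp (B : ℝ) (hB : 1 ≤ B) : ∃ C : ℝ, 0 < C ∧ ∀ (y τ K X : ℝ), 1 ≤ τ → 2 ≤ X → X ≤ τ ^ B →
    K ^ 64 ≤ τ → K ^ 64 ≤ X → ∀ F : Finset ℕ,
    (∀ p ∈ F, p.Prime ∧ X < p ∧ (p : ℝ) ≤ X ^ 2 ∧ On K (p * y) τ ∧ ¬ On K y (τ * p)) →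
    ∑ p ∈ F, (1 : ℝ) / p ≤ C * (min τ X) ^ (-(1 / 4) : ℝ) := by
  classical
  refine ⟨2 * 16 ^ B + 1 + 2112 * B, by positivity, ?_⟩
  intro y τ K X hτ hX hXB hKτ hKX F hF
  have hτ0 : 0 < τ := by linarith
  have hX0 : 0 < X := by linarith
  have hm0 : 0 < min τ X := lt_min hτ0 hX0
  have hmpos : 0 < (min τ X) ^ (-(1 / 4) : ℝ) := Real.rpow_pos_of_pos hm0 _
  have h16 : (0 : ℝ) < 16 ^ B := Real.rpow_pos_of_pos (by norm_num) _
  rcases F.eq_empty_or_nonempty with rfl | ⟨p0, hp0⟩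
  · rw [Finset.sum_empty]
    positivity
  have hK1 : 1 < K := by
    obtain ⟨a, k, hk, h1⟩ := (hF p0 hp0).2.2.2.1
    have hk1 : (1 : ℝ) ≤ k := by exact_mod_cast hk
    have h2 : (1 : ℝ) ≤ max 1 (τ * |(p0 : ℝ) * y - a / k|) := le_max_left _ _
    nlinarith
  have hK0 : 0 < K := by linarith
  -- the cost of a single prime
  have hXm : 1 / X ≤ (min τ X) ^ (-(1 / 4) : ℝ) := by
    have h1 : X ^ (-(1 / 4) : ℝ) ≤ (min τ X) ^ (-(1 / 4) : ℝ) :=
      Real.rpow_le_rpow_of_nonpos hm0 (min_le_right _ _) (by norm_num)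
    have h2 : X ^ (-1 : ℝ) ≤ X ^ (-(1 / 4) : ℝ) :=
      Real.rpow_le_rpow_of_exponent_le (by linarith) (by norm_num)
    rw [Real.rpow_neg_one, ← one_div] at h2
    exact h2.trans h1
  rcases lt_or_ge τ 16 with hτ16 | hτ16
  · -- small scales: trivial bound
    have h1 : ∑ p ∈ F, (1 : ℝ) / p ≤ F.card * (1 / X) := by
      rw [← nsmul_eq_mul]
      exact Finset.sum_le_card_nsmul _ _ _ fun p hp =>
        one_div_le_one_div_of_le hX0 (hF p hp).2.1.le
    have h2 : (F.card : ℝ) ≤ X ^ 2 := by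
      have hsub : F ⊆ Finset.Icc 1 ⌊X ^ 2⌋₊ := fun p hp => by
        rw [Finset.mem_Icc]
        exact ⟨(hF p hp).1.one_lt.le, Nat.le_floor (hF p hp).2.2.1⟩
      have h3 := Finset.card_le_card hsub
      rw [Nat.card_Icc, Nat.add_sub_cancel] at h3
      exact le_trans (by exact_mod_cast h3) (Nat.floor_le (by positivity))
    have h3 : ∑ p ∈ F, (1 : ℝ) / p ≤ X := by
      refine h1.trans ((mul_le_mul_of_nonneg_right h2 (by positivity)).trans (le_of_eq ?_))
      field_simp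
    have h4 : X ≤ 16 ^ B := hXB.trans (Real.rpow_le_rpow hτ0.le hτ16.le (by linarith))
    have h5 : 1 / 2 ≤ (min τ X) ^ (-(1 / 4) : ℝ) := by
      have h6 : (16 : ℝ) ^ (-(1 / 4) : ℝ) ≤ (min τ X) ^ (-(1 / 4) : ℝ) :=
        Real.rpow_le_rpow_of_nonpos hm0 ((min_le_left _ _).trans hτ16.le) (by norm_num)
      have h7 : (16 : ℝ) ^ (-(1 / 4) : ℝ) = 1 / 2 := by
        rw [show (16 : ℝ) = 2 ^ (4 : ℝ) by norm_num, ← Real.rpow_mul (by norm_num),
          show (4 : ℝ) * -(1 / 4) = -1 by norm_num, Real.rpow_neg_one]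
        norm_num
      rwa [h7] at h6
    calc ∑ p ∈ F, (1 : ℝ) / p ≤ 16 ^ B := h3.trans h4
      _ = (2 * 16 ^ B) * (1 / 2) := by ring
      _ ≤ (2 * 16 ^ B) * (min τ X) ^ (-(1 / 4) : ℝ) :=
          mul_le_mul_of_nonneg_left h5 (by positivity)
      _ ≤ _ := mul_le_mul_of_nonneg_right (by linarith) hmpos.le
  · -- the root `u = τ^(1/16)`
    set u : ℝ := τ ^ (1 / 16 : ℝ) with hu
    have hu0 : 0 < u := Real.rpow_pos_of_pos hτ0 _
    have hu16 : u ^ 16 = τ := by
      rw [hu, ← Real.rpow_natCast, ← Real.rpow_mul hτ0.le]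
      norm_num
    have hu1 : 1 ≤ u := by
      rw [hu]
      exact Real.one_le_rpow hτ (by norm_num)
    have hsq : Real.sqrt τ = u ^ 8 := by
      rw [← hu16, show u ^ 16 = (u ^ 8) ^ 2 by ring]
      exact Real.sqrt_sq (by positivity)
    have hK4 : K ^ 4 ≤ u := by
      have h1 : (K ^ 4) ^ 16 ≤ u ^ 16 := by
        rw [hu16, ← pow_mul]
        exact hKτ
      exact (pow_le_pow_iff_left₀ (by positivity) hu0.le (by norm_num)).1 h1
    have hK2 : 2 * K ^ 2 ≤ Real.sqrt τ := by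
      rw [hsq]
      have h1 : (2 * K ^ 2) ^ 32 ≤ (u ^ 8) ^ 32 := by
        have h2 : (2 * K ^ 2) ^ 32 = 2 ^ 32 * K ^ 64 := by ring
        have h3 : (u ^ 8) ^ 32 = (u ^ 16) ^ 15 * u ^ 16 := by ring
        rw [h2, h3, hu16]
        refine mul_le_mul ?_ hKτ (by positivity) (by positivity)
        calc (2 : ℝ) ^ 32 ≤ 16 ^ 15 := by norm_num
          _ ≤ τ ^ 15 := pow_le_pow_left₀ (by norm_num) hτ16 15
      exact (pow_le_pow_iff_left₀ (by positivity) (by positivity) (by norm_num)).1 h1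
    have hum : (u ^ 4)⁻¹ ≤ (min τ X) ^ (-(1 / 4) : ℝ) := by
      have h1 : τ ^ (-(1 / 4) : ℝ) ≤ (min τ X) ^ (-(1 / 4) : ℝ) :=
        Real.rpow_le_rpow_of_nonpos hm0 (min_le_left _ _) (by norm_num)
      have h2 : τ ^ (-(1 / 4) : ℝ) = (u ^ 4)⁻¹ := by
        rw [Real.rpow_neg hτ0.le, hu, ← Real.rpow_natCast (τ ^ (1 / 16 : ℝ)) 4,
          ← Real.rpow_mul hτ0.le]
        norm_num
      rwa [h2] at h1
    set Z0 : ℝ := τ / (2 * K ^ 2) with hZ0
    have hZ0p : 0 < Z0 := by positivity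
    -- data
    have hdat : ∀ p ∈ F, Dat K y τ p := fun p hp =>
      dat_of hτ0 (hF p hp).1.pos (hF p hp).2.2.2.1 (hF p hp).2.2.2.2
    have hKp : ∀ p ∈ F, K ≤ p := fun p hp => by
      have h1 : K ≤ K ^ 64 := le_self_pow₀ hK1.le (by norm_num)
      linarith [(hF p hp).2.1]
    -- split
    have hsplit := Finset.sum_filter_add_sum_filter_not F (fun p : ℕ => (p : ℝ) ≤ Z0)
      (fun p => (1 : ℝ) / p)
    have hF1 : ∑ p ∈ F.filter (fun p : ℕ => (p : ℝ) ≤ Z0), (1 : ℝ) / p ≤ 1 / X := by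
      have hc : (F.filter (fun p : ℕ => (p : ℝ) ≤ Z0)).card ≤ 1 := by
        rw [Finset.card_le_one]
        intro p hp p' hp'
        rw [Finset.mem_filter] at hp hp'
        by_contra hne
        have h1 := two_primes hτ0 (hF p hp.1).1 (hF p' hp'.1).1 hne (hKp p hp.1) (hdat p hp.1)
          (hdat p' hp'.1)
        have h2 : K ^ 2 * ((p : ℝ) + p') ≤ K ^ 2 * (Z0 + Z0) :=
          mul_le_mul_of_nonneg_left (add_le_add hp.2 hp'.2) (by positivity)
        have h3 : K ^ 2 * (Z0 + Z0) = τ := by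
          rw [hZ0]
          field_simp
          ring
        linarith
      have h1 : ∑ p ∈ F.filter (fun p : ℕ => (p : ℝ) ≤ Z0), (1 : ℝ) / p ≤
          (F.filter (fun p : ℕ => (p : ℝ) ≤ Z0)).card * (1 / X) := by
        rw [← nsmul_eq_mul]
        exact Finset.sum_le_card_nsmul _ _ _ fun p hp =>
          one_div_le_one_div_of_le hX0 (hF p (Finset.mem_filter.1 hp).1).2.1.le
      refine h1.trans ?_
      have h2 : ((F.filter (fun p : ℕ => (p : ℝ) ≤ Z0)).card : ℝ) ≤ 1 := by exact_mod_cast hc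
      have h3 : 0 ≤ 1 / X := by positivity
      nlinarith
    obtain ⟨hn1, hn2⟩ := ceil_logb_le hX
    set n : ℕ := ⌈Real.logb 2 X⌉₊ with hn
    have hF2 : ∑ p ∈ F.filter (fun p : ℕ => ¬ (p : ℝ) ≤ Z0), (1 : ℝ) / p ≤
        n * (44 * K ^ 4 / Real.sqrt τ) := by
      refine dyadic_sum _ (Z := max X Z0) n (lt_max_of_lt_left hX0) (fun p hp => ?_)
        (fun i _ S hS hSi => ?_)
      · rw [Finset.mem_filter, not_le] at hp
        refine ⟨max_lt (hF p hp.1).2.1 hp.2, (hF p hp.1).2.2.1.trans ?_⟩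
        calc X ^ 2 = X * X := by ring
          _ ≤ 2 ^ n * max X Z0 := mul_le_mul hn2 (le_max_left _ _) hX0.le (by positivity)
      · have hpi : (1 : ℝ) ≤ 2 ^ i := one_le_pow₀ (by norm_num)
        have hmx : 0 < max X Z0 := lt_max_of_lt_left hX0
        have hR : τ / (2 * K ^ 2) ≤ 2 ^ i * max X Z0 := by
          have h1 : Z0 ≤ max X Z0 := le_max_right _ _
          nlinarith
        have h1 := block (y := y) hτ0 hK1.le hK2 hR S (fun p hp => by
          have hpF := (Finset.mem_filter.1 (hS hp)).1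
          exact ⟨(hF p hpF).1, (hSi p hp).1, (hSi p hp).2, hdat p hpF⟩)
        refine h1.trans (le_of_eq ?_)
        ring
    have h1 : 44 * K ^ 4 / Real.sqrt τ ≤ 44 * (u ^ 7)⁻¹ := by
      rw [hsq, div_le_iff₀ (by positivity)]
      have h2 : 44 * (u ^ 7)⁻¹ * u ^ 8 = 44 * u := by
        field_simp
      rw [h2]
      linarith
    have h2 : Real.log X ≤ B * (16 * u) := by
      have h3 : Real.log X ≤ B * Real.log τ := by
        rw [← Real.log_rpow hτ0]
        exact Real.log_le_log hX0 hXB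
      have h4 : Real.log τ ≤ 16 * u := by
        rw [← hu16, Real.log_pow]
        have h5 := Real.log_le_sub_one_of_pos hu0
        push_cast
        linarith
      exact h3.trans (mul_le_mul_of_nonneg_left h4 (by linarith))
    have h3 : (n : ℝ) * (44 * K ^ 4 / Real.sqrt τ) ≤ 2112 * B * (u ^ 4)⁻¹ := by
      calc (n : ℝ) * (44 * K ^ 4 / Real.sqrt τ) ≤ (3 * (B * (16 * u))) * (44 * (u ^ 7)⁻¹) :=
            mul_le_mul (hn1.trans (by linarith)) h1 (by positivity) (by positivity)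
        _ = 2112 * B * (u ^ 6)⁻¹ := by
            field_simp
            ring
        _ ≤ 2112 * B * (u ^ 4)⁻¹ := by
            refine mul_le_mul_of_nonneg_left ?_ (by positivity)
            exact inv_anti₀ (by positivity) (pow_le_pow_right₀ hu1 (by norm_num))
    have h4 : 2112 * B * (u ^ 4)⁻¹ ≤ 2112 * B * (min τ X) ^ (-(1 / 4) : ℝ) :=
      mul_le_mul_of_nonneg_left hum (by positivity)
    have h5 : 0 ≤ 2 * (16 : ℝ) ^ B * (min τ X) ^ (-(1 / 4) : ℝ) := by positivity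
    calc ∑ p ∈ F, (1 : ℝ) / p ≤ 1 / X + n * (44 * K ^ 4 / Real.sqrt τ) := by
          rw [← hsplit]
          exact add_le_add hF1 hF2
      _ ≤ (min τ X) ^ (-(1 / 4) : ℝ) + 2112 * B * (min τ X) ^ (-(1 / 4) : ℝ) :=
          add_le_add hXm (h3.trans h4)
      _ ≤ _ := by
          rw [add_mul, add_mul, one_mul]
          linarith

end Crest.Agent.R4C.SPx726
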