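import Crest.Agent.R4C.CutSum_516
import Crest.Agent.R4C.NHU_656
import Crest.Agent.R4C.SP_726
import Crest.Agent.R4C.DispRare_617

/-!
# Row 4: classes (NC) and (a2) of BLOCK NH (656, note 3754), marked-letter form (helper516)

Marked letter `mk S ∈ S`, `below` / `above` = the letters of `S` below / above it.
`On K y τ` : the point `y` has a fraction of depth `< K` at scale `τ`.
`SPst B` = statement of SP_726, `DRst` = statement of DispRare_617 (both proved: `spst`, `drst`).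
* `nc_marked` : from `SPst B`, the words with a marked letter `p ≤ τ^B`, `τ = t * ∏ below`,
  `On K (p y) τ`, `¬ On K y (τ p)` (`y = ∏ above * γ`, `K` a function of the letters below) have
  natural mass `≤ C y0^{-c}` (`P ⊆ [y0, ∞)`).
* `a2_marked` : the same from `DRst` for `p > τ^8` with a label `k ≤ √τ` of depth `< 3 p^del`.
* `spst` : `SPst B` holds (SP_726).
* `nc` : natural mass of the runs with `ps ≤ cut t_J` is `≤ C y^{-c}` (NHdef_656 / NHU_656 language).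
* `a2` : natural mass of the runs with `ps > cut t_J` and a label `k ≤ √t_J` of depth `< 3 ps^δ`.
-/

set_option autoImplicit false

namespace Crest.Agent.R4C.NCA2x516

open Finset Crest.Agent.R4C.GWhx656 Crest.Agent.R4C.CutSumx516 Crest.Agent.R4C.NHx656

/-- statement of SP_726 -/
def SPst (B : ℝ) : Prop := ∃ C c : ℝ, 0 < C ∧ 0 < c ∧ ∀ (y τ K X : ℝ) (F : Finset ℕ),
  2 ≤ X → X ≤ τ ^ B → 1 ≤ K → K ^ 64 ≤ min τ X →
  (∀ p ∈ F, p.Prime ∧ X < (p : ℝ) ∧ (p : ℝ) ≤ X ^ 2 ∧ On K (p * y) τ ∧ ¬ On K y (τ * p)) →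
  ∑ p ∈ F, (1 : ℝ) / p ≤ C * (min τ X) ^ (-c)

/-- statement of DispRare_617 -/
def DRst : Prop := ∃ C c τ0 : ℝ, 0 < C ∧ 0 < c ∧ ∀ (y τ K del : ℝ) (F : Finset ℕ),
  τ0 ≤ τ → 1 ≤ K → K ^ 64 ≤ τ → del ≤ 1 / 8 →
  (∀ p ∈ F, p.Prime ∧ τ ^ 8 < (p : ℝ) ∧ On K (p * y) τ ∧ ¬ On K y (τ * p) ∧
    ∃ (a : ℤ) (k : ℕ), 0 < k ∧ (k : ℝ) ≤ τ ^ (1 / 2 : ℝ) ∧
      (k : ℝ) * max 1 (τ * p * |y - a / k|) < 3 * (p : ℝ) ^ del) →
  ∑ p ∈ F, (1 : ℝ) / p ≤ C * τ ^ (-c)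

/-! ### block sums -/

lemma two_pow_ge (j : ℕ) : j + 1 ≤ 2 ^ j := Nat.lt_two_pow_self

/-- sum over the loglog blocks of `(ρ, τ^B]` -/
lemma block_sum {B c : ℝ} (hB : 1 ≤ B) (hc : 0 < c) : ∃ C' : ℝ, 0 < C' ∧
    ∀ (D : ℝ) (F : Finset ℕ) (ρ τ : ℝ), 0 ≤ D → 2 ≤ ρ → ρ ≤ τ →
      (∀ p ∈ F, ρ < (p : ℝ) ∧ (p : ℝ) ≤ τ ^ B) →
      (∀ X : ℝ, ρ ≤ X → X ≤ τ ^ B →
        ∑ p ∈ F.filter (fun p : ℕ => X < (p : ℝ) ∧ (p : ℝ) ≤ X ^ 2), (1 : ℝ) / p ≤
          D * (min τ X) ^ (-c)) →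
      ∑ p ∈ F, (1 : ℝ) / p ≤ C' * D * ρ ^ (-(c / 2)) := by
  classical
  have h2c : (2 : ℝ) ^ (-c) < 1 := Real.rpow_lt_one_of_one_lt_of_neg (by norm_num) (by linarith)
  have h2c0 : 0 < (2 : ℝ) ^ (-c) := Real.rpow_pos_of_pos (by norm_num) _
  refine ⟨(4 * B / c + 1) + 1 / (1 - (2 : ℝ) ^ (-c)), by
    have : 0 < 1 - (2 : ℝ) ^ (-c) := by linarith
    positivity, ?_⟩
  intro D F ρ τ hD hρ hρτ hF hX
  have hρ1 : 1 ≤ ρ := by linarith
  have hρ0 : 0 < ρ := by linarith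
  have hτ0 : 0 < τ := by linarith
  have hτ1 : 1 ≤ τ := by linarith
  -- the step
  set term : ℕ → ℝ := fun j => D * (τ ^ (-c) + (ρ ^ (2 ^ j)) ^ (-c)) with hterm
  have hstep : ∀ N : ℕ, (∀ j < N, ρ ^ (2 ^ j) ≤ τ ^ B) →
      ∑ p ∈ F.filter (fun p : ℕ => (p : ℝ) ≤ ρ ^ (2 ^ N)), (1 : ℝ) / p ≤
        ∑ j ∈ range N, term j := by
    intro N
    induction N with
    | zero =>
      intro _
      have : F.filter (fun p : ℕ => (p : ℝ) ≤ ρ ^ (2 ^ 0)) = ∅ := by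
        rw [filter_eq_empty_iff]
        intro p hp
        rw [pow_zero, pow_one, not_le]
        exact (hF p hp).1
      rw [this]
      simp
    | succ N ih =>
      intro hN
      have ih' := ih fun j hj => hN j (by omega)
      have hXN := hX (ρ ^ (2 ^ N)) (le_self_pow₀ hρ1 (by positivity)) (hN N (by omega))
      rw [sum_range_succ]
      have hsub : F.filter (fun p : ℕ => (p : ℝ) ≤ ρ ^ (2 ^ (N + 1))) ⊆
          F.filter (fun p : ℕ => (p : ℝ) ≤ ρ ^ (2 ^ N)) ∪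
          F.filter (fun p : ℕ => ρ ^ (2 ^ N) < (p : ℝ) ∧ (p : ℝ) ≤ (ρ ^ (2 ^ N)) ^ 2) := by
        intro p hp
        rw [mem_filter] at hp
        rw [mem_union, mem_filter, mem_filter]
        rcases le_or_gt (p : ℝ) (ρ ^ (2 ^ N)) with h | h
        · exact Or.inl ⟨hp.1, h⟩
        · refine Or.inr ⟨hp.1, h, ?_⟩
          rw [← pow_mul, ← pow_succ]
          exact hp.2
      calc ∑ p ∈ F.filter (fun p : ℕ => (p : ℝ) ≤ ρ ^ (2 ^ (N + 1))), (1 : ℝ) / p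
          ≤ ∑ p ∈ F.filter (fun p : ℕ => (p : ℝ) ≤ ρ ^ (2 ^ N)) ∪
            F.filter (fun p : ℕ => ρ ^ (2 ^ N) < (p : ℝ) ∧ (p : ℝ) ≤ (ρ ^ (2 ^ N)) ^ 2),
            (1 : ℝ) / p := sum_le_sum_of_subset_of_nonneg hsub fun _ _ _ => by positivity
        _ ≤ ∑ p ∈ F.filter (fun p : ℕ => (p : ℝ) ≤ ρ ^ (2 ^ N)), (1 : ℝ) / p +
            ∑ p ∈ F.filter (fun p : ℕ => ρ ^ (2 ^ N) < (p : ℝ) ∧ (p : ℝ) ≤ (ρ ^ (2 ^ N)) ^ 2),
            (1 : ℝ) / p := by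
            rw [← sum_union_inter]
            exact le_add_of_nonneg_right (sum_nonneg fun _ _ => by positivity)
        _ ≤ ∑ j ∈ range N, term j + term N := by
            refine add_le_add ih' (hXN.trans ?_)
            refine mul_le_mul_of_nonneg_left ?_ hD
            have hX0 : 0 < ρ ^ (2 ^ N) := by positivity
            rcases le_total τ (ρ ^ (2 ^ N)) with h | h
            · rw [min_eq_left h]
              exact le_add_of_nonneg_right (Real.rpow_nonneg hX0.le _)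
            · rw [min_eq_right h]
              exact le_add_of_nonneg_left (Real.rpow_nonneg hτ0.le _)
  -- choice of `N`
  have hex : ∃ N : ℕ, τ ^ B ≤ ρ ^ (2 ^ N) := by
    obtain ⟨n, hn⟩ := pow_unbounded_of_one_lt (τ ^ B) (by linarith : 1 < ρ)
    exact ⟨n, hn.le.trans (pow_le_pow_right₀ hρ1 Nat.lt_two_pow_self.le)⟩
  set N := Nat.find hex with hN
  have hN1 : τ ^ B ≤ ρ ^ (2 ^ N) := Nat.find_spec hex
  have hN2 : ∀ j < N, ρ ^ (2 ^ j) ≤ τ ^ B := fun j hj => (not_le.1 (Nat.find_min hex hj)).le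
  have hall : F.filter (fun p : ℕ => (p : ℝ) ≤ ρ ^ (2 ^ N)) = F := by
    rw [filter_eq_self]
    intro p hp
    exact (hF p hp).2.trans hN1
  have h1 := hstep N hN2
  rw [hall] at h1
  -- number of blocks
  have hl2 : (1 / 2 : ℝ) ≤ Real.log ρ := by
    have h := Real.log_le_log (by norm_num : (0 : ℝ) < 2) hρ
    linarith [Real.log_two_gt_d9]
  have hlτ : 0 ≤ Real.log τ := Real.log_nonneg hτ1
  have hNle : (N : ℝ) ≤ 2 * B * Real.log τ + 1 := by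
    rcases Nat.eq_zero_or_pos N with h0 | h0
    · rw [h0]
      have : 0 ≤ 2 * B * Real.log τ := by positivity
      push_cast
      linarith
    · have h2 := hN2 (N - 1) (by omega)
      have h3 := Real.log_le_log (by positivity) h2
      rw [Real.log_pow, Real.log_rpow hτ0] at h3
      have h4 : (N : ℝ) ≤ ((2 ^ (N - 1) : ℕ) : ℝ) := by
        have := two_pow_ge (N - 1)
        have h5 : N ≤ 2 ^ (N - 1) := by omega
        exact_mod_cast h5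
      have h5 : (N : ℝ) * (1 / 2) ≤ ((2 ^ (N - 1) : ℕ) : ℝ) * Real.log ρ :=
        mul_le_mul h4 hl2 (by norm_num) (Nat.cast_nonneg _)
      linarith
  -- first sum
  have hs1 : (N : ℝ) * τ ^ (-c) ≤ (4 * B / c + 1) * ρ ^ (-(c / 2)) := by
    have h2 : Real.log τ ≤ τ ^ (c / 2) / (c / 2) := Real.log_le_rpow_div hτ0.le (by linarith)
    have h3 : 1 ≤ τ ^ (c / 2) := Real.one_le_rpow hτ1 (by linarith)
    have h4 : (N : ℝ) ≤ (4 * B / c + 1) * τ ^ (c / 2) := by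
      calc (N : ℝ) ≤ 2 * B * Real.log τ + 1 := hNle
        _ ≤ 2 * B * (τ ^ (c / 2) / (c / 2)) + τ ^ (c / 2) :=
            add_le_add (mul_le_mul_of_nonneg_left h2 (by linarith)) h3
        _ = _ := by field_simp; ring
    have h5 : τ ^ (c / 2) * τ ^ (-c) = τ ^ (-(c / 2)) := by
      rw [← Real.rpow_add hτ0]
      congr 1
      ring
    have h6 : τ ^ (-(c / 2)) ≤ ρ ^ (-(c / 2)) :=
      Real.rpow_le_rpow_of_nonpos hρ0 hρτ (by linarith)
    calc (N : ℝ) * τ ^ (-c) ≤ (4 * B / c + 1) * τ ^ (c / 2) * τ ^ (-c) :=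
          mul_le_mul_of_nonneg_right h4 (Real.rpow_nonneg hτ0.le _)
      _ = (4 * B / c + 1) * τ ^ (-(c / 2)) := by rw [mul_assoc, h5]
      _ ≤ _ := mul_le_mul_of_nonneg_left h6 (by positivity)
  -- second sum
  have hs2 : ∑ j ∈ range N, (ρ ^ (2 ^ j)) ^ (-c) ≤ 1 / (1 - (2 : ℝ) ^ (-c)) * ρ ^ (-(c / 2)) := by
    have h2 : ∀ j ∈ range N, (ρ ^ (2 ^ j)) ^ (-c) ≤ ρ ^ (-(c / 2)) * ((2 : ℝ) ^ (-c)) ^ j := by
      intro j _
      calc (ρ ^ (2 ^ j)) ^ (-c) ≤ (ρ ^ (j + 1)) ^ (-c) := by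
            refine Real.rpow_le_rpow_of_nonpos (by positivity) ?_ (by linarith)
            exact pow_le_pow_right₀ hρ1 (two_pow_ge j)
        _ = ρ ^ (-c) * (ρ ^ (-c)) ^ j := by
            rw [← Real.rpow_natCast, ← Real.rpow_natCast, ← Real.rpow_mul hρ0.le,
              ← Real.rpow_mul hρ0.le, ← Real.rpow_add hρ0]
            congr 1
            push_cast
            ring
        _ ≤ ρ ^ (-(c / 2)) * ((2 : ℝ) ^ (-c)) ^ j := by
            refine mul_le_mul ?_ ?_ (by positivity) (by positivity)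
            · exact Real.rpow_le_rpow_of_exponent_le hρ1 (by linarith)
            · refine pow_le_pow_left₀ (by positivity) ?_ _
              exact Real.rpow_le_rpow_of_nonpos (by norm_num) hρ (by linarith)
    refine (sum_le_sum h2).trans ?_
    rw [← mul_sum, mul_comm]
    refine mul_le_mul_of_nonneg_right ?_ (by positivity)
    have h3 : (1 - (2 : ℝ) ^ (-c)) * ∑ j ∈ range N, ((2 : ℝ) ^ (-c)) ^ j =
        1 - ((2 : ℝ) ^ (-c)) ^ N := mul_neg_geom_sum _ _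
    rw [le_div_iff₀ (by linarith), mul_comm, h3]
    have : 0 ≤ ((2 : ℝ) ^ (-c)) ^ N := by positivity
    linarith
  calc ∑ p ∈ F, (1 : ℝ) / p ≤ ∑ j ∈ range N, term j := h1
    _ = D * ((N : ℝ) * τ ^ (-c) + ∑ j ∈ range N, (ρ ^ (2 ^ j)) ^ (-c)) := by
        rw [hterm, ← mul_sum, sum_add_distrib, sum_const, card_range, nsmul_eq_mul]
    _ ≤ D * ((4 * B / c + 1) * ρ ^ (-(c / 2)) + 1 / (1 - (2 : ℝ) ^ (-c)) * ρ ^ (-(c / 2))) :=
        mul_le_mul_of_nonneg_left (add_le_add hs1 hs2) hD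
    _ = _ := by ring

/-! ### marked letters -/

/-- letters below `p` -/
def below (S : Finset ℕ) (p : ℕ) : Finset ℕ := S.filter (· < p)

/-- letters above `p` -/
def above (S : Finset ℕ) (p : ℕ) : Finset ℕ := S.filter (p < ·)

/-- product of the letters -/
noncomputable def pr (S : Finset ℕ) : ℝ := ∏ p ∈ S, (p : ℝ)

lemma one_le_pr {S : Finset ℕ} (h : ∀ p ∈ S, 1 ≤ p) : 1 ≤ pr S := by
  unfold pr
  have h1 := Finset.prod_le_prod (s := S) (f := fun _ : ℕ => (1 : ℝ)) (g := fun p : ℕ => (p : ℝ))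
    (fun _ _ => zero_le_one) (fun p hp => by exact_mod_cast h p hp)
  simpa using h1

lemma le_pr {S : Finset ℕ} (h : ∀ p ∈ S, 1 ≤ p) {q : ℕ} (hq : q ∈ S) : (q : ℝ) ≤ pr S := by
  unfold pr
  rw [← mul_prod_erase S (fun p : ℕ => (p : ℝ)) hq]
  have h1 : 1 ≤ ∏ p ∈ S.erase q, (p : ℝ) := one_le_pr fun p hp => h p (mem_of_mem_erase hp)
  have h2 : (0 : ℝ) ≤ q := Nat.cast_nonneg _
  nlinarith

/-- for a letter inserted directly above `ρ`: the letters below -/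
lemma below_insert {P : Finset ℕ} {E : Finset (Finset ℕ)} {mk : Finset ℕ → ℕ} {S1 : Finset ℕ}
    {ρ p : ℕ} (hp : p ∈ ins P E mk S1 ρ) : below (insert p S1) p = S1.filter (· ≤ ρ) := by
  rw [mem_ins] at hp
  obtain ⟨_, h2, _, _, h5, h6⟩ := hp
  unfold below
  ext q
  simp only [mem_filter, mem_insert]
  constructor
  · rintro ⟨rfl | h, hq⟩
    · exact absurd hq (lt_irrefl _)
    · exact ⟨h, h6 q h hq⟩
  · rintro ⟨h, hq⟩
    exact ⟨Or.inr h, lt_of_le_of_lt hq h5⟩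

/-- for a letter inserted directly above `ρ`: the letters above -/
lemma above_insert {P : Finset ℕ} {E : Finset (Finset ℕ)} {mk : Finset ℕ → ℕ} {S1 : Finset ℕ}
    {ρ p : ℕ} (hp : p ∈ ins P E mk S1 ρ) : above (insert p S1) p = S1.filter (ρ < ·) := by
  rw [mem_ins] at hp
  obtain ⟨_, h2, _, _, h5, h6⟩ := hp
  unfold above
  ext q
  simp only [mem_filter, mem_insert]
  constructor
  · rintro ⟨rfl | h, hq⟩
    · exact absurd hq (lt_irrefl _)
    · exact ⟨h, h5.trans hq⟩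
  · rintro ⟨h, hq⟩
    refine ⟨Or.inr h, ?_⟩
    rcases lt_trichotomy p q with h' | h' | h'
    · exact h'
    · exact absurd h (h' ▸ h2)
    · exact absurd hq (not_lt.2 (h6 q h h'))

/-- common part of the two classes: the marked letter `p` of `S`, `τ = t * ∏ below`, `y = ∏ above * γ`,
`K` = a function of the letters below -/
structure Mk (t γ : ℝ) (K' : Finset ℕ → ℝ) (S : Finset ℕ) (p : ℕ) : Prop where
  mem : p ∈ S
  ne : (below S p).Nonempty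
  K64 : ∀ q ∈ below S p, K' (below S p) ^ 64 ≤ (q : ℝ)
  on : On (K' (below S p)) (p * (pr (above S p) * γ)) (t * pr (below S p))
  off : ¬ On (K' (below S p)) (pr (above S p) * γ) (t * pr (below S p) * p)

lemma rpow_sub_one_le {c y : ℝ} (hc : 0 < c) (hy : 2 ≤ y) :
    (y - 1) ^ (-c) ≤ 2 ^ c * y ^ (-c) := by
  have h1 : y / 2 ≤ y - 1 := by linarith
  have h2 : (y - 1) ^ (-c) ≤ (y / 2) ^ (-c) :=
    Real.rpow_le_rpow_of_nonpos (by linarith) h1 (by linarith)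
  refine h2.trans (le_of_eq ?_)
  rw [Real.div_rpow (by linarith) (by norm_num), Real.rpow_neg (by norm_num : (0 : ℝ) ≤ 2) c,
    div_inv_eq_mul, mul_comm]

/-- **class (NC), marked form** -/
theorem nc_marked {B : ℝ} (hB : 1 ≤ B) (hSP : SPst B) : ∃ C c : ℝ, 0 < C ∧ 0 < c ∧
    ∀ (P : Finset ℕ) (y t γ : ℝ) (E : Finset (Finset ℕ)) (mk : Finset ℕ → ℕ)
      (K' : Finset ℕ → ℝ), 2 ≤ y → 1 ≤ t → (∀ p ∈ P, p.Prime) → (∀ p ∈ P, y ≤ (p : ℝ)) →
      (∀ S ∈ E, S ⊆ P) → (∀ S ∈ E, Mk t γ K' S (mk S)) →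
      (∀ S ∈ E, (mk S : ℝ) ≤ (t * pr (below S (mk S))) ^ B) →
      ∑ S ∈ E, law P S ≤ C * y ^ (-c) := by
  classical
  obtain ⟨C, c, hC, hc, hSP⟩ := hSP
  obtain ⟨C', hC', hblk⟩ := block_sum hB hc
  refine ⟨(2 / (c / 2)) * (C' * C) * 2 ^ (c / 2), c / 2, by positivity, by positivity, ?_⟩
  intro P y t γ E mk K' hy ht hPp hPy hE hMk hle
  have hP2 : ∀ p ∈ P, 2 ≤ p := fun p hp => (hPp p hp).two_le
  have hlow : ∀ S ∈ E, ∃ ρ ∈ S, ρ < mk S := by
    intro S hS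
    obtain ⟨q, hq⟩ := (hMk S hS).ne
    exact ⟨q, (mem_filter.1 hq).1, (mem_filter.1 hq).2⟩
  have hfib : ∀ S1 ⊆ P, ∀ ρ ∈ S1, ∑ p ∈ ins P E mk S1 ρ, (1 : ℝ) / p ≤
      (C' * C) * (ρ : ℝ) ^ (-(c / 2)) := by
    intro S1 hS1 ρ hρ
    set F := ins P E mk S1 ρ with hF
    rcases F.eq_empty_or_nonempty with h0 | ⟨p0, hp0⟩
    · rw [h0, sum_empty]
      positivity
    set τ : ℝ := t * pr (S1.filter (· ≤ ρ)) with hτ
    set Y : ℝ := pr (S1.filter (ρ < ·)) * γ with hY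
    set K : ℝ := K' (S1.filter (· ≤ ρ)) with hK
    have hρy : y ≤ (ρ : ℝ) := hPy ρ (hS1 hρ)
    have hρm : ρ ∈ S1.filter (· ≤ ρ) := mem_filter.2 ⟨hρ, le_rfl⟩
    have h1S : ∀ p ∈ S1.filter (· ≤ ρ), 1 ≤ p := fun p hp => by
      have := hP2 p (hS1 (mem_filter.1 hp).1); omega
    have hρτ : (ρ : ℝ) ≤ τ := by
      have h1 := le_pr h1S hρm
      have h2 : 0 ≤ pr (S1.filter (· ≤ ρ)) := zero_le_one.trans (one_le_pr h1S)
      rw [hτ]
      nlinarith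
    -- data of a member
    have hdat : ∀ p ∈ F, ((p : ℝ) ≤ τ ^ B) ∧ On K (p * Y) τ ∧ ¬ On K Y (τ * p) ∧
        K ^ 64 ≤ (ρ : ℝ) ∧ (ρ : ℝ) < p ∧ p.Prime := by
      intro p hp
      have hm := mem_ins.1 hp
      have hb := below_insert hp
      have ha := above_insert hp
      have h1 := hMk _ hm.2.2.1
      have h2 := hle _ hm.2.2.1
      rw [hm.2.2.2.1] at h1 h2
      obtain ⟨_, _, h3, h4, h5⟩ := h1
      rw [hb] at h2 h3 h4 h5
      rw [ha] at h4 h5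
      exact ⟨h2, h4, h5, h3 ρ hρm, by exact_mod_cast hm.2.2.2.2.1, hPp p hm.1⟩
    have hK64 : K ^ 64 ≤ (ρ : ℝ) := (hdat p0 hp0).2.2.2.1
    have hK1 : 1 ≤ K := (hdat p0 hp0).2.1.one_lt.le
    refine hblk C F ρ τ hC.le (hy.trans hρy) hρτ
      (fun p hp => ⟨(hdat p hp).2.2.2.2.1, (hdat p hp).1⟩) ?_
    intro X hX hXB
    refine hSP Y τ K X _ ((hy.trans hρy).trans hX) hXB hK1
      (le_min (hK64.trans hρτ) (hK64.trans hX)) fun p hp => ?_
    obtain ⟨hp1, hp2, hp3⟩ := mem_filter.1 hp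
    obtain ⟨_, h4, h5, _, _, h6⟩ := hdat p hp1
    exact ⟨h6, hp2, hp3, h4, h5⟩
  have h := cut_sum (c := c / 2) (by positivity) hy (by positivity : 0 ≤ C' * C) hP2 hPy hE mk
    (fun S hS => (hMk S hS).mem) hlow hfib
  refine h.trans ?_
  calc 2 / (c / 2) * (C' * C) * (y - 1) ^ (-(c / 2))
      ≤ 2 / (c / 2) * (C' * C) * (2 ^ (c / 2) * y ^ (-(c / 2))) :=
        mul_le_mul_of_nonneg_left (rpow_sub_one_le (by positivity) hy) (by positivity)
    _ = _ := by ring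

/-- **class (a2), marked form** -/
theorem a2_marked (hDR : DRst) : ∃ C c y0 : ℝ, 0 < C ∧ 0 < c ∧ 2 ≤ y0 ∧
    ∀ (P : Finset ℕ) (y t γ del : ℝ) (E : Finset (Finset ℕ)) (mk : Finset ℕ → ℕ)
      (K' : Finset ℕ → ℝ), y0 ≤ y → 1 ≤ t → del ≤ 1 / 8 → (∀ p ∈ P, p.Prime) → (∀ p ∈ P, y ≤ (p : ℝ)) →
      (∀ S ∈ E, S ⊆ P) → (∀ S ∈ E, Mk t γ K' S (mk S)) →
      (∀ S ∈ E, (t * pr (below S (mk S))) ^ 8 < (mk S : ℝ) ∧
        ∃ (a : ℤ) (k : ℕ), 0 < k ∧ (k : ℝ) ≤ (t * pr (below S (mk S))) ^ (1 / 2 : ℝ) ∧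
          (k : ℝ) * max 1 (t * pr (below S (mk S)) * mk S *
            |pr (above S (mk S)) * γ - a / k|) < 3 * (mk S : ℝ) ^ del) →
      ∑ S ∈ E, law P S ≤ C * y ^ (-c) := by
  classical
  obtain ⟨C, c, τ0, hC, hc, hDR⟩ := hDR
  refine ⟨(2 / c) * C * 2 ^ c, c, max 2 τ0, by positivity, hc, le_max_left _ _, ?_⟩
  intro P y t γ del E mk K' hy0 ht hdel hPp hPy hE hMk hle
  have hy : 2 ≤ y := (le_max_left _ _).trans hy0
  have hyτ : τ0 ≤ y := (le_max_right _ _).trans hy0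
  have hP2 : ∀ p ∈ P, 2 ≤ p := fun p hp => (hPp p hp).two_le
  have hlow : ∀ S ∈ E, ∃ ρ ∈ S, ρ < mk S := by
    intro S hS
    obtain ⟨q, hq⟩ := (hMk S hS).ne
    exact ⟨q, (mem_filter.1 hq).1, (mem_filter.1 hq).2⟩
  have hfib : ∀ S1 ⊆ P, ∀ ρ ∈ S1, ∑ p ∈ ins P E mk S1 ρ, (1 : ℝ) / p ≤
      C * (ρ : ℝ) ^ (-c) := by
    intro S1 hS1 ρ hρ
    set F := ins P E mk S1 ρ with hF
    rcases F.eq_empty_or_nonempty with h0 | ⟨p0, hp0⟩
    · rw [h0, sum_empty]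
      positivity
    set τ : ℝ := t * pr (S1.filter (· ≤ ρ)) with hτ
    set Y : ℝ := pr (S1.filter (ρ < ·)) * γ with hY
    set K : ℝ := K' (S1.filter (· ≤ ρ)) with hK
    have hρy : y ≤ (ρ : ℝ) := hPy ρ (hS1 hρ)
    have hρm : ρ ∈ S1.filter (· ≤ ρ) := mem_filter.2 ⟨hρ, le_rfl⟩
    have h1S : ∀ p ∈ S1.filter (· ≤ ρ), 1 ≤ p := fun p hp => by
      have := hP2 p (hS1 (mem_filter.1 hp).1); omega
    have hρτ : (ρ : ℝ) ≤ τ := by
      have h1 := le_pr h1S hρm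
      have h2 : 0 ≤ pr (S1.filter (· ≤ ρ)) := zero_le_one.trans (one_le_pr h1S)
      rw [hτ]
      nlinarith
    have hdat : ∀ p ∈ F, On K (p * Y) τ ∧ ¬ On K Y (τ * p) ∧ K ^ 64 ≤ (ρ : ℝ) ∧ p.Prime ∧
        τ ^ 8 < (p : ℝ) ∧ ∃ (a : ℤ) (k : ℕ), 0 < k ∧ (k : ℝ) ≤ τ ^ (1 / 2 : ℝ) ∧
          (k : ℝ) * max 1 (τ * p * |Y - a / k|) < 3 * (p : ℝ) ^ del := by
      intro p hp
      have hm := mem_ins.1 hp
      have hb := below_insert hp
      have ha := above_insert hp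
      have h1 := hMk _ hm.2.2.1
      have h2 := hle _ hm.2.2.1
      rw [hm.2.2.2.1] at h1 h2
      obtain ⟨_, _, h3, h4, h5⟩ := h1
      rw [hb] at h2 h3 h4 h5
      rw [ha] at h2 h4 h5
      exact ⟨h4, h5, h3 ρ hρm, hPp p hm.1, h2.1, h2.2⟩
    have hK64 : K ^ 64 ≤ (ρ : ℝ) := (hdat p0 hp0).2.2.1
    have hK1 : 1 ≤ K := (hdat p0 hp0).1.one_lt.le
    have h := hDR Y τ K del F (hyτ.trans (hρy.trans hρτ)) hK1 (hK64.trans hρτ) hdel fun p hp => by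
      obtain ⟨h4, h5, _, h6, h7, h8⟩ := hdat p hp
      exact ⟨h6, h7, h4, h5, h8⟩
    refine h.trans (mul_le_mul_of_nonneg_left ?_ hC.le)
    exact Real.rpow_le_rpow_of_nonpos (by linarith) hρτ (by linarith)
  have h := cut_sum hc hy hC.le hP2 hPy hE mk (fun S hS => (hMk S hS).mem) hlow hfib
  refine h.trans ?_
  calc 2 / c * C * (y - 1) ^ (-c) ≤ 2 / c * C * (2 ^ c * y ^ (-c)) :=
        mul_le_mul_of_nonneg_left (rpow_sub_one_le hc hy) (by positivity)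
    _ = _ := by ring

/-! ### in the language of NHdef_656 -/

/-- SP_726 -/
theorem spst {B : ℝ} (hB : 1 ≤ B) : SPst B := by
  obtain ⟨C, hC, h⟩ := SPx726.sp B hB
  refine ⟨C, 1 / 4, hC, by norm_num, ?_⟩
  intro y τ K X F hX hXB hK hmin hF
  have h1 : K ^ 64 ≤ τ := hmin.trans (min_le_left _ _)
  have h2 : K ^ 64 ≤ X := hmin.trans (min_le_right _ _)
  have h3 : 1 ≤ K ^ 64 := one_le_pow₀ hK
  exact h y τ K X (h3.trans h1) hX hXB h1 h2 F hF

/-- DispRare_617 -/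
theorem drst : DRst := by
  obtain ⟨C, c, hC, hc, h⟩ := DispRarex617.disprare_on
  exact ⟨C, c, 16, hC, hc, fun y τ K del F hτ hK hKτ hdel hF => h y τ K del hτ hK hKτ hdel F hF⟩

lemma cast_pr (S : Finset ℕ) : ((∏ p ∈ S, p : ℕ) : ℝ) = pr S := by
  unfold pr
  push_cast
  rfl

variable {δ γ t : ℝ} {S : Finset ℕ}

lemma mn_below (h : Run δ γ t S) : mn (below S (ps δ γ t S)) = mn S := by
  have h1 : mn S ∈ below S (ps δ γ t S) := mem_filter.2 ⟨mn_mem h.1, h.lt⟩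
  have h2 : mn (below S (ps δ γ t S)) ≤ mn S := mn_le h1
  have h3 : mn (below S (ps δ γ t S)) ∈ S := (mem_filter.1 (mn_mem ⟨_, h1⟩)).1
  have h4 := mn_le h3
  omega

lemma K1_below (h : Run δ γ t S) : K1 δ (below S (ps δ γ t S)) = K1 δ S := by
  unfold K1
  rw [mn_below h]

/-- the marked letter `ps` of a run -/
lemma mk_of_run (h : Run δ γ t S)
    (h64 : ∀ q ∈ S, K1 δ S ^ 64 ≤ (q : ℝ)) : Mk t γ (K1 δ) S (ps δ γ t S) := by
  set p := ps δ γ t S with hp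
  obtain ⟨hpS, hoff⟩ := ps_spec h.2.2
  rw [← hp] at hpS hoff
  have hne : (below S p).Nonempty := ⟨mn S, mem_filter.2 ⟨mn_mem h.1, h.lt⟩⟩
  set r := (below S p).max' hne with hr
  have hrm := mem_filter.1 (max'_mem _ hne)
  rw [← hr] at hrm
  have hon := on_of_lt_ps hrm.1 hrm.2
  -- the letters `≤ r` are the letters `< p`
  have e1 : S.filter (· ≤ r) = below S p := by
    unfold below
    ext x
    simp only [mem_filter]
    constructor
    · rintro ⟨h1, h2⟩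
      exact ⟨h1, lt_of_le_of_lt h2 hrm.2⟩
    · rintro ⟨h1, h2⟩
      exact ⟨h1, le_max' _ _ (mem_filter.2 ⟨h1, h2⟩)⟩
  have e2 : S.filter (r < ·) = insert p (above S p) := by
    unfold above
    ext x
    simp only [mem_filter, mem_insert]
    constructor
    · rintro ⟨h1, h2⟩
      rcases lt_trichotomy p x with h3 | h3 | h3
      · exact Or.inr ⟨h1, h3⟩
      · exact Or.inl h3.symm
      · have h4 : x ≤ r := le_max' (below S p) x (mem_filter.2 ⟨h1, h3⟩)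
        omega
    · rintro (rfl | ⟨h1, h2⟩)
      · exact ⟨hpS, hrm.2⟩
      · exact ⟨h1, hrm.2.trans h2⟩
  have e3 : S.filter (· ≤ p) = insert p (below S p) := by
    unfold below
    ext x
    simp only [mem_filter, mem_insert]
    constructor
    · rintro ⟨h1, h2⟩
      rcases lt_or_eq_of_le h2 with h3 | h3
      · exact Or.inr ⟨h1, h3⟩
      · exact Or.inl h3
    · rintro (rfl | ⟨h1, h2⟩)
      · exact ⟨hpS, le_rfl⟩
      · exact ⟨h1, h2.le⟩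
  have n1 : p ∉ above S p := fun hx => lt_irrefl _ (mem_filter.1 hx).2
  have n2 : p ∉ below S p := fun hx => lt_irrefl _ (mem_filter.1 hx).2
  have hK : K1 δ (below S p) = K1 δ S := K1_below h
  refine ⟨hpS, hne, ?_, ?_, ?_⟩
  · intro q hq
    rw [hK]
    exact h64 q (mem_filter.1 hq).1
  · rw [hK]
    unfold pt sc at hon
    rw [e1, e2, prod_insert n1] at hon
    push_cast at hon
    rw [mul_assoc] at hon
    exact hon
  · rw [hK]
    unfold pt sc at hoff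
    rw [e3, prod_insert n2] at hoff
    push_cast at hoff
    have e4 : t * ((p : ℝ) * ∏ q ∈ below S p, (q : ℝ)) = t * pr (below S p) * p := by
      unfold pr
      ring
    rw [e4] at hoff
    exact hoff

/-- `K1^64 ≤` every letter for large letters -/
lemma K1_pow_le (hδ : δ ≤ 1 / 128) (hS : S.Nonempty) {y : ℝ} (hy : (3 : ℝ) ^ 128 ≤ y)
    (hSy : ∀ p ∈ S, y ≤ (p : ℝ)) : ∀ q ∈ S, K1 δ S ^ 64 ≤ (q : ℝ) := by
  intro q hq
  have h1 : (mn S : ℝ) ≤ q := by exact_mod_cast mn_le hq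
  refine le_trans ?_ h1
  have hm : (3 : ℝ) ^ 128 ≤ (mn S : ℝ) := hy.trans (hSy _ (mn_mem hS))
  have hm1 : (1 : ℝ) ≤ (mn S : ℝ) := by
    have : (1 : ℝ) ≤ 3 ^ 128 := by norm_num
    linarith
  have hm0 : (0 : ℝ) ≤ (mn S : ℝ) := by linarith
  unfold K1
  calc (3 * (mn S : ℝ) ^ δ) ^ 64 ≤ (3 * (mn S : ℝ) ^ (1 / 128 : ℝ)) ^ 64 := by
        refine pow_le_pow_left₀ (by positivity) ?_ _
        exact mul_le_mul_of_nonneg_left (Real.rpow_le_rpow_of_exponent_le hm1 hδ) (by norm_num)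
    _ = 3 ^ 64 * (mn S : ℝ) ^ (1 / 2 : ℝ) := by
        rw [mul_pow, ← Real.rpow_natCast ((mn S : ℝ) ^ (1 / 128 : ℝ)), ← Real.rpow_mul hm0]
        norm_num
    _ ≤ (mn S : ℝ) ^ (1 / 2 : ℝ) * (mn S : ℝ) ^ (1 / 2 : ℝ) := by
        refine mul_le_mul_of_nonneg_right ?_ (by positivity)
        calc (3 : ℝ) ^ 64 = ((3 : ℝ) ^ 128) ^ (1 / 2 : ℝ) := by
              rw [← Real.rpow_natCast, ← Real.rpow_natCast, ← Real.rpow_mul (by norm_num)]
              norm_num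
          _ ≤ _ := Real.rpow_le_rpow (by norm_num) hm (by norm_num)
    _ = (mn S : ℝ) := by
        rw [← Real.rpow_add (by linarith)]
        norm_num

/-- **class (NC)**: the runs lost at a letter `ps ≤ cut t_J`, `t_J = t ∏_{q < ps} q` -/
theorem nc {B : ℝ} (hB : 1 ≤ B) : ∃ C c : ℝ, 0 < C ∧ 0 < c ∧
    ∀ (δ γ t y : ℝ) (cut : ℝ → ℝ) (P : Finset ℕ) (E : Finset (Finset ℕ)),
      δ ≤ 1 / 128 → (3 : ℝ) ^ 128 ≤ y → 1 ≤ t → (∀ τ, 1 ≤ τ → cut τ ≤ τ ^ B) →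
      (∀ p ∈ P, p.Prime) → (∀ p ∈ P, y ≤ (p : ℝ)) → (∀ S ∈ E, S ⊆ P) →
      (∀ S ∈ E, Run δ γ t S ∧
        (ps δ γ t S : ℝ) ≤ cut (t * ((∏ q ∈ S.filter (· < ps δ γ t S), q : ℕ) : ℝ))) →
      ∑ S ∈ E, law P S ≤ C * y ^ (-c) := by
  obtain ⟨C, c, hC, hc, h⟩ := nc_marked hB (spst hB)
  refine ⟨C, c, hC, hc, ?_⟩
  intro δ γ t y cut P E hδ hy ht hcut hPp hPy hE hrun
  have hy2 : 2 ≤ y := le_trans (by norm_num) hy
  refine h P y t γ E (ps δ γ t) (K1 δ) hy2 ht hPp hPy hE ?_ ?_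
  · intro S hS
    have h1 := hrun S hS
    exact mk_of_run h1.1
      (K1_pow_le hδ h1.1.1 hy fun p hp => hPy p (hE S hS hp))
  · intro S hS
    obtain ⟨h1, h2⟩ := hrun S hS
    have h3 : 1 ≤ pr (below S (ps δ γ t S)) := one_le_pr fun p hp =>
      (hPp p (hE S hS (mem_filter.1 hp).1)).one_lt.le
    have h4 : 1 ≤ t * pr (below S (ps δ γ t S)) := by nlinarith
    have h5 := h2.trans (hcut _ (by rw [cast_pr]; exact h4))
    rw [cast_pr] at h5
    exact h5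

/-- **class (a2)**: the runs lost at a letter `ps > cut t_J` where the point has a label with small
denominator `k ≤ √t_J` and depth `< 3 ps^δ` -/
theorem a2 : ∃ C c y0 : ℝ, 0 < C ∧ 0 < c ∧
    ∀ (δ γ t y : ℝ) (cut : ℝ → ℝ) (P : Finset ℕ) (E : Finset (Finset ℕ)),
      δ ≤ 1 / 128 → y0 ≤ y → 1 ≤ t → (∀ τ, y ≤ τ → τ ^ 8 ≤ cut τ) →
      (∀ p ∈ P, p.Prime) → (∀ p ∈ P, y ≤ (p : ℝ)) → (∀ S ∈ E, S ⊆ P) →
      (∀ S ∈ E, Run δ γ t S ∧
        cut (t * ((∏ q ∈ S.filter (· < ps δ γ t S), q : ℕ) : ℝ)) < (ps δ γ t S : ℝ) ∧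
        ∃ (a : ℤ) (k : ℕ), 0 < k ∧
          (k : ℝ) ≤ (t * ((∏ q ∈ S.filter (· < ps δ γ t S), q : ℕ) : ℝ)) ^ (1 / 2 : ℝ) ∧
          (k : ℝ) * max 1 (sc t S (ps δ γ t S) * |pt γ S (ps δ γ t S) - a / k|) <
            3 * (ps δ γ t S : ℝ) ^ δ) →
      ∑ S ∈ E, law P S ≤ C * y ^ (-c) := by
  obtain ⟨C, c, y0, hC, hc, hy02, h⟩ := a2_marked drst
  refine ⟨C, c, max y0 (3 ^ 128), hC, hc, ?_⟩
  intro δ γ t y cut P E hδ hy ht hcut hPp hPy hE hrun
  have hy1 : y0 ≤ y := (le_max_left _ _).trans hy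
  have hy2 : (3 : ℝ) ^ 128 ≤ y := (le_max_right _ _).trans hy
  refine h P y t γ δ E (ps δ γ t) (K1 δ) hy1 ht (hδ.trans (by norm_num)) hPp hPy hE ?_ ?_
  · intro S hS
    have h1 := hrun S hS
    exact mk_of_run h1.1
      (K1_pow_le hδ h1.1.1 hy2 fun p hp => hPy p (hE S hS hp))
  · intro S hS
    obtain ⟨h1, h2, a, k, h3, h4, h5⟩ := hrun S hS
    set p := ps δ γ t S with hp
    have hpS : p ∈ S := (ps_spec h1.2.2).1
    have hb1 : ∀ q ∈ below S p, 1 ≤ q := fun q hq =>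
      (hPp q (hE S hS (mem_filter.1 hq).1)).one_lt.le
    have hmn : mn S ∈ below S p := mem_filter.2 ⟨mn_mem h1.1, h1.lt⟩
    have hpr : (mn S : ℝ) ≤ pr (below S p) := le_pr hb1 hmn
    have hyt : y ≤ t * pr (below S p) := by
      have h6 : y ≤ (mn S : ℝ) := hPy _ (hE S hS (mn_mem h1.1))
      have h7 : 0 ≤ pr (below S p) := zero_le_one.trans (one_le_pr hb1)
      nlinarith
    rw [cast_pr] at h2 h4
    refine ⟨(hcut _ hyt).trans_lt h2, a, k, h3, h4, ?_⟩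
    have e3 : S.filter (· ≤ p) = insert p (below S p) := by
      unfold below
      ext x
      simp only [mem_filter, mem_insert]
      constructor
      · rintro ⟨h1, h2⟩
        rcases lt_or_eq_of_le h2 with h3 | h3
        · exact Or.inr ⟨h1, h3⟩
        · exact Or.inl h3
      · rintro (rfl | ⟨h1, h2⟩)
        · exact ⟨hpS, le_rfl⟩
        · exact ⟨h1, h2.le⟩
    have n2 : p ∉ below S p := fun hx => lt_irrefl _ (mem_filter.1 hx).2
    have e4 : sc t S p = t * pr (below S p) * p := by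
      unfold sc
      rw [e3, prod_insert n2]
      push_cast
      unfold pr
      ring
    have e5 : pt γ S p = pr (above S p) * γ := by
      unfold pt
      rw [cast_pr]
      rfl
    rw [e4, e5] at h5
    exact h5

end Crest.Agent.R4C.NCA2x516
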