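import Crest.Agent.R4C.NHdef_656

/-!
# Row 4, BLOCK NH (3754): first letter with a light gap, and the window (helper114)

* `sum_law_mem` : `∑_{S ⊆ P, r ∈ S} law P S = 1/r`.
* `own` : the words whose first letter `mn S` has `∑_{q ∈ P, q < mn S} 1/q ≤ s` have natural mass
  `≤ s + 1/y`.
* `window` : the smallest `Z ≥ 1` with `∑_{q ∈ P, Z < q < Y} 1/q ≤ s`.
-/

set_option autoImplicit false

open Finset

namespace Crest.Agent.R4C.Ownx114

open Crest.Agent.R4C.GWhx656 Crest.Agent.R4C.NHx656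

lemma law_insert {P' T : Finset ℕ} {r : ℕ} (hr : r ∉ P') (hT : T ⊆ P') :
    law (insert r P') (insert r T) = (1 / (r : ℝ)) * law P' T := by
  have hrT : r ∉ T := fun h => hr (hT h)
  have e : insert r P' \ insert r T = P' \ T := by
    ext p
    simp only [mem_sdiff, mem_insert, not_or]
    constructor
    · rintro ⟨h1 | h1, h2, h3⟩
      · exact absurd h1 h2
      · exact ⟨h1, h3⟩
    · rintro ⟨h1, h2⟩
      exact ⟨Or.inr h1, fun h => hr (h ▸ h1), h2⟩
  unfold law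
  rw [e, prod_insert hrT, mul_assoc]

theorem sum_law_mem (P : Finset ℕ) {r : ℕ} (hr : r ∈ P) :
    ∑ S ∈ P.powerset with r ∈ S, law P S = 1 / (r : ℝ) := by
  classical
  obtain ⟨P', hP', rfl⟩ : ∃ P', r ∉ P' ∧ P = insert r P' :=
    ⟨P.erase r, notMem_erase r P, (insert_erase hr).symm⟩
  rw [sum_filter, sum_powerset_insert hP']
  have h1 : ∑ T ∈ P'.powerset, (if r ∈ T then law (insert r P') T else 0) = 0 := by
    refine sum_eq_zero fun T hT => ?_
    rw [if_neg fun h => hP' (mem_powerset.1 hT h)]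
  have h2 : ∑ T ∈ P'.powerset, (if r ∈ insert r T then law (insert r P') (insert r T) else 0) =
      ∑ T ∈ P'.powerset, (1 / (r : ℝ)) * law P' T := by
    refine sum_congr rfl fun T hT => ?_
    rw [if_pos (mem_insert_self r T), law_insert hP' (mem_powerset.1 hT)]
  rw [h1, h2, zero_add, ← mul_sum, sum_law, mul_one]

/-- **first letter with coin mass `≤ s` below it** -/
theorem own {P : Finset ℕ} {y s : ℝ} (hP : ∀ p ∈ P, p.Prime) (hy : 2 ≤ y)
    (hPy : ∀ p ∈ P, y ≤ (p : ℝ)) (hs : 0 ≤ s) :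
    ∑ S ∈ P.powerset with S.Nonempty ∧ ∑ q ∈ P with q < mn S, (1 : ℝ) / q ≤ s, law P S ≤
      s + 1 / y := by
  classical
  set E := P.powerset.filter fun S => S.Nonempty ∧ ∑ q ∈ P with q < mn S, (1 : ℝ) / q ≤ s with hE
  set P0 := P.filter fun r => ∑ q ∈ P with q < r, (1 : ℝ) / q ≤ s with hP0
  have hmaps : ∀ S ∈ E, mn S ∈ P0 := by
    intro S hS
    rw [hE, mem_filter, mem_powerset] at hS
    rw [hP0, mem_filter]
    exact ⟨hS.1 (mn_mem hS.2.1), hS.2.2⟩
  have hP1 : ∀ p ∈ P, 1 ≤ p := fun p hp => (hP p hp).one_lt.le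
  have h1 : ∑ S ∈ E, law P S ≤ ∑ r ∈ P0, (1 : ℝ) / r := by
    rw [← sum_fiberwise_of_maps_to hmaps]
    refine sum_le_sum fun r hr => ?_
    have hrP : r ∈ P := (mem_filter.1 hr).1
    rw [← sum_law_mem P hrP]
    refine sum_le_sum_of_subset_of_nonneg ?_ fun S _ _ => law_nonneg hP1
    intro S hS
    rw [mem_filter] at hS ⊢
    have h2 := (mem_filter.1 hS.1)
    refine ⟨h2.1, ?_⟩
    rw [← hS.2]
    exact mn_mem h2.2.1
  refine h1.trans ?_
  have hy0 : 0 < y := by linarith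
  rcases P0.eq_empty_or_nonempty with h0 | hne
  · rw [h0, sum_empty]; positivity
  · set m := P0.max' hne with hm
    have hmP0 : m ∈ P0 := max'_mem _ _
    have hmP := (mem_filter.1 hmP0).1
    have hms := (mem_filter.1 hmP0).2
    have hsub : P0 ⊆ insert m (P.filter (fun q => q < m)) := by
      intro r hr
      rw [mem_insert, mem_filter]
      rcases (le_max' P0 r hr).eq_or_lt with h | h
      · exact Or.inl h
      · exact Or.inr ⟨(mem_filter.1 hr).1, h⟩
    have hmn : m ∉ P.filter (fun q => q < m) := by simp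
    calc ∑ r ∈ P0, (1 : ℝ) / r ≤ ∑ r ∈ insert m (P.filter (fun q => q < m)), (1 : ℝ) / r :=
          sum_le_sum_of_subset_of_nonneg hsub fun _ _ _ => by positivity
      _ = 1 / (m : ℝ) + ∑ q ∈ P with q < m, (1 : ℝ) / q := sum_insert hmn
      _ ≤ 1 / y + s := add_le_add (one_div_le_one_div_of_le hy0 (hPy m hmP)) hms
      _ = s + 1 / y := by ring

/-- **window**: smallest `Z ≥ 1` with coin mass `≤ s` in `(Z, Y)` -/
theorem window (P : Finset ℕ) {s : ℝ} (hs : 0 ≤ s) (Y : ℝ) :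
    ∃ Z : ℝ, 1 ≤ Z ∧ ∑ q ∈ P with Z < ((q : ℕ) : ℝ) ∧ ((q : ℕ) : ℝ) < Y, (1 : ℝ) / q ≤ s ∧
      ∀ c : ℝ, ∑ q ∈ P with c < ((q : ℕ) : ℝ) ∧ ((q : ℕ) : ℝ) < Y, (1 : ℝ) / q ≤ s →
        Z ≤ max 1 c := by
  classical
  set f : ℝ → ℝ := fun c => ∑ q ∈ P with c < ((q : ℕ) : ℝ) ∧ ((q : ℕ) : ℝ) < Y, (1 : ℝ) / q with hf
  have hanti : ∀ c c' : ℝ, c ≤ c' → f c' ≤ f c := by
    intro c c' h
    refine sum_le_sum_of_subset_of_nonneg ?_ fun _ _ _ => by positivity
    intro q hq
    rw [mem_filter] at hq ⊢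
    exact ⟨hq.1, h.trans_lt hq.2.1, hq.2.2⟩
  set cand : Finset ℝ := insert 1 ((P.image (fun q : ℕ => (q : ℝ))).filter (fun z => 1 ≤ z))
    with hcand
  have hc1 : ∀ z ∈ cand, 1 ≤ z := by
    intro z hz
    rw [hcand, mem_insert, mem_filter] at hz
    rcases hz with h | h
    · exact h.ge
    · exact h.2
  have hne : (1 : ℝ) ∈ cand := mem_insert_self _ _
  -- the largest candidate works
  have hmaxf : f (cand.max' ⟨1, hne⟩) = 0 := by
    refine sum_eq_zero fun q hq => ?_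
    exfalso
    rw [mem_filter] at hq
    have h1 : (1 : ℝ) ≤ cand.max' ⟨1, hne⟩ := le_max' _ _ hne
    have h2 : (q : ℝ) ∈ cand := by
      rw [hcand, mem_insert, mem_filter]
      exact Or.inr ⟨mem_image_of_mem _ hq.1, (h1.trans_lt hq.2.1).le⟩
    exact absurd (le_max' _ _ h2) (not_le.2 hq.2.1)
  set good := cand.filter (fun z => f z ≤ s) with hgood
  have hgne : good.Nonempty := ⟨cand.max' ⟨1, hne⟩, by
    rw [hgood, mem_filter]
    exact ⟨max'_mem _ _, by rw [hmaxf]; exact hs⟩⟩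
  set Z := good.min' hgne with hZ
  have hZg : Z ∈ good := min'_mem _ _
  rw [hgood, mem_filter] at hZg
  refine ⟨Z, hc1 Z hZg.1, hZg.2, fun c hc => ?_⟩
  set c' := max 1 c with hc'
  have h1 : f c' ≤ s := (hanti c c' (le_max_right _ _)).trans hc
  -- the largest candidate below `c'`
  set low := cand.filter (fun z => z ≤ c') with hlow
  have hlne : low.Nonempty := ⟨1, by
    rw [hlow, mem_filter]
    exact ⟨hne, le_max_left _ _⟩⟩
  set z' := low.max' hlne with hz'
  have hz'l : z' ∈ low := max'_mem _ _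
  have hz'l2 := hz'l
  rw [hlow, mem_filter] at hz'l2
  have h2 : f z' ≤ f c' := by
    refine sum_le_sum_of_subset_of_nonneg ?_ fun _ _ _ => by positivity
    intro q hq
    rw [mem_filter] at hq ⊢
    refine ⟨hq.1, ?_, hq.2.2⟩
    by_contra hcon
    have h3 : (q : ℝ) ∈ low := by
      rw [hlow, mem_filter, hcand, mem_insert, mem_filter]
      exact ⟨Or.inr ⟨mem_image_of_mem _ hq.1, ((hc1 z' hz'l2.1).trans_lt hq.2.1).le⟩,
        not_lt.1 hcon⟩
    exact absurd (le_max' _ _ h3) (not_le.2 hq.2.1)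
  have h3 : z' ∈ good := by
    rw [hgood, mem_filter]
    exact ⟨hz'l2.1, h2.trans h1⟩
  exact (min'_le _ _ h3).trans hz'l2.2

end Crest.Agent.R4C.Ownx114
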