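import Crest.Agent.R4C.NHU_656
import Crest.Agent.R4C.GWK_821
import Crest.Agent.R4C.Own_114

/-!
# Row 4, block NH (3)(K) + (E): classes E_b and E_a1 (helper656)

`Cell γ t K0 Λ S` : `(∏ S) γ` is within `1/t` of one of the targets `α ∈ Λ` mod 1, and the word has
depth `≥ K0` at scale `t`.
-/

set_option autoImplicit false

namespace Crest.Agent.R4C.NHx656

open Finset Crest.Agent.R4C.GWhx656 Crest.Agent.R4C.GWhBx656

/-- the cell of the node: targets `Λ`, depth at least `K0` -/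
def Cell (γ t K0 : ℝ) (Λ : Finset ℝ) (S : Finset ℕ) : Prop :=
  (∃ α ∈ Λ, ∃ m : ℤ, |((∏ p ∈ S, p : ℕ) : ℝ) * γ - α - m| ≤ 1 / t) ∧
    ¬ On K0 (((∏ p ∈ S, p : ℕ) : ℝ) * γ) t

lemma heavy_of_not_on {K0 x t : ℝ} (hK : 1 ≤ K0) (ht : 0 < t) (h : ¬ On K0 x t) :
    GWKx821.Heavy t (Real.sqrt K0) x := by
  intro a v hv hvK
  have hK0 : 0 < K0 := by linarith
  have hs1 : 1 ≤ Real.sqrt K0 := by
    rw [Real.one_le_sqrt]; exact hK
  have hs0 : 0 < Real.sqrt K0 := by linarith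
  have hss : Real.sqrt K0 * Real.sqrt K0 = K0 := Real.mul_self_sqrt hK0.le
  have hsK : Real.sqrt K0 ≤ K0 := by nlinarith
  have hv0 : 0 < v := hv
  have h1 : K0 ≤ (v : ℝ) * max 1 (t * |x - a / v|) := by
    by_contra hcon
    exact h ⟨a, v, hv0, not_le.1 hcon⟩
  rcases le_total (t * |x - a / v|) 1 with h2 | h2
  · rw [max_eq_left h2] at h1
    linarith
  · rw [max_eq_right h2] at h1
    rw [div_le_iff₀ ht]
    have h3 : (v : ℝ) * (t * |x - a / v|) ≤ Real.sqrt K0 * (t * |x - a / v|) :=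
      mul_le_mul_of_nonneg_right hvK.le (by linarith)
    have h4 : Real.sqrt K0 * Real.sqrt K0 ≤ Real.sqrt K0 * (t * |x - a / v|) := by
      rw [hss]; linarith
    have h5 := le_of_mul_le_mul_left h4 hs0
    linarith

lemma sum_biUnion_le' {ι : Type*} (L : Finset ι) (F : ι → Finset ℕ) (f : ℕ → ℝ)
    (hf : ∀ x, 0 ≤ f x) : ∑ x ∈ L.biUnion F, f x ≤ ∑ i ∈ L, ∑ x ∈ F i, f x := by
  classical
  induction L using Finset.induction_on with
  | empty => simp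
  | insert a L ha ih =>
    rw [biUnion_insert, sum_insert ha]
    calc ∑ x ∈ F a ∪ L.biUnion F, f x ≤ ∑ x ∈ F a, f x + ∑ x ∈ L.biUnion F, f x := by
          rw [← sum_union_inter]
          exact le_add_of_nonneg_right (sum_nonneg fun x _ => hf x)
      _ ≤ _ := by linarith

/-- **(K)** -/
theorem hypK : ∃ C : ℝ, 0 < C ∧ ∀ (P : Finset ℕ) (E : Finset (Finset ℕ)) (r : Finset ℕ → ℕ)
    (γ t K0 y : ℝ) (Λ : Finset ℝ), (∀ p ∈ P, p.Prime) → 1 ≤ K0 → Real.sqrt K0 ≤ t →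
    t ^ 4 ≤ y → 16 ≤ y → (∀ S ∈ E, Cell γ t K0 Λ S) →
    HypK P E r y (Λ.card * (C / Real.sqrt (Real.sqrt K0)) + 1 / y) := by
  classical
  obtain ⟨C, hC, hgwk⟩ := GWKx821.gwk
  refine ⟨C, hC, ?_⟩
  intro P E r γ t K0 y Λ hP hK ht hty hy16 hcell S1 X hX
  have hK0 : 0 < K0 := by linarith
  have hs1 : 1 ≤ Real.sqrt K0 := by rw [Real.one_le_sqrt]; exact hK
  have ht0 : 0 < t := by linarith
  set F := cand P E r S1 X (X ^ 2) with hF
  have hsplit : F ⊆ (F.filter fun ρ : ℕ => (ρ : ℝ) ≤ X) ∪ (F.filter fun ρ : ℕ => X < (ρ : ℝ)) := by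
    intro ρ hρ
    rw [mem_union, mem_filter, mem_filter]
    rcases le_or_gt (ρ : ℝ) X with h | h
    · exact Or.inl ⟨hρ, h⟩
    · exact Or.inr ⟨hρ, h⟩
  have hA : ∑ ρ ∈ F.filter (fun ρ : ℕ => (ρ : ℝ) ≤ X), (1 : ℝ) / ρ ≤ 1 / y := by
    have hcard : (F.filter fun ρ : ℕ => (ρ : ℝ) ≤ X).card ≤ 1 := by
      rw [card_le_one]
      intro a ha b hb
      rw [mem_filter, hF, mem_cand] at ha hb
      have h1 : (a : ℝ) = X := le_antisymm ha.2 ha.1.2.1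
      have h2 : (b : ℝ) = X := le_antisymm hb.2 hb.1.2.1
      exact_mod_cast h1.trans h2.symm
    have h1 : ∀ ρ ∈ F.filter (fun ρ : ℕ => (ρ : ℝ) ≤ X), (1 : ℝ) / ρ ≤ 1 / y := by
      intro ρ hρ
      rw [mem_filter, hF, mem_cand] at hρ
      exact one_div_le_one_div_of_le (by linarith) (hX.trans hρ.1.2.1)
    have h2 := sum_le_card_nsmul _ _ _ h1
    refine h2.trans ?_
    rw [nsmul_eq_mul]
    have h3 : ((F.filter fun ρ : ℕ => (ρ : ℝ) ≤ X).card : ℝ) ≤ 1 := by exact_mod_cast hcard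
    have h4 : (0 : ℝ) ≤ 1 / y := by positivity
    nlinarith
  have hB : ∑ ρ ∈ F.filter (fun ρ : ℕ => X < (ρ : ℝ)), (1 : ℝ) / ρ ≤
      Λ.card * (C / Real.sqrt (Real.sqrt K0)) := by
    have hcov : F.filter (fun ρ : ℕ => X < (ρ : ℝ)) ⊆
        Λ.biUnion fun α => (F.filter (fun ρ : ℕ => X < (ρ : ℝ))).filter fun ρ : ℕ =>
          ∃ m : ℤ, |(ρ : ℝ) * (((∏ p ∈ S1, p : ℕ) : ℝ) * γ) - α - m| ≤ 1 / t := by
      intro ρ hρ
      have hρ' := hρ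
      rw [mem_filter, hF, mem_cand] at hρ'
      obtain ⟨⟨h1, h2, h3, h4, h5, h6, h7⟩, h8⟩ := hρ'
      obtain ⟨⟨α, hα, m, hm⟩, _⟩ := hcell _ h5
      rw [mem_biUnion]
      refine ⟨α, hα, mem_filter.2 ⟨hρ, m, ?_⟩⟩
      rw [prod_insert h4] at hm
      push_cast at hm ⊢
      rwa [mul_assoc] at hm
    refine (sum_le_sum_of_subset_of_nonneg hcov fun ρ _ _ => by positivity).trans ?_
    refine (sum_biUnion_le' Λ _ (fun ρ : ℕ => (1 : ℝ) / ρ) fun ρ => by positivity).trans ?_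
    have hc : ∑ _α ∈ Λ, C / Real.sqrt (Real.sqrt K0) = Λ.card * (C / Real.sqrt (Real.sqrt K0)) := by
      rw [sum_const, nsmul_eq_mul]
    rw [← hc]
    refine sum_le_sum fun α _ => ?_
    refine hgwk (((∏ p ∈ S1, p : ℕ) : ℝ) * γ) α t (Real.sqrt K0) X hs1 ht (hty.trans hX)
      (hy16.trans hX) _ fun ρ hρ => ?_
    rw [mem_filter, mem_filter, hF, mem_cand] at hρ
    obtain ⟨⟨⟨h1, h2, h3, h4, h5, h6, h7⟩, h8⟩, h9⟩ := hρ
    refine ⟨hP ρ h1, h8, h3, h9, ?_⟩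
    have h10 := (hcell _ h5).2
    rw [prod_insert h4] at h10
    push_cast at h10 ⊢
    rw [mul_assoc] at h10
    exact heavy_of_not_on hK ht0 h10
  calc ∑ ρ ∈ F, (1 : ℝ) / ρ ≤ ∑ ρ ∈ (F.filter fun ρ : ℕ => (ρ : ℝ) ≤ X) ∪
        (F.filter fun ρ : ℕ => X < (ρ : ℝ)), (1 : ℝ) / ρ :=
        sum_le_sum_of_subset_of_nonneg hsplit fun ρ _ _ => by positivity
    _ ≤ ∑ ρ ∈ F.filter (fun ρ : ℕ => (ρ : ℝ) ≤ X), (1 : ℝ) / ρ +
        ∑ ρ ∈ F.filter (fun ρ : ℕ => X < (ρ : ℝ)), (1 : ℝ) / ρ := by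
        rw [← sum_union_inter]
        exact le_add_of_nonneg_right (sum_nonneg fun ρ _ => by positivity)
    _ ≤ _ := by linarith

/-! ### (E) -/

/-- scale before the letter `r` -/
noncomputable def scb (t : ℝ) (S : Finset ℕ) (r : ℕ) : ℝ :=
  t * ((∏ p ∈ S.filter (· < r), p : ℕ) : ℝ)

lemma log_scb {t : ℝ} (ht : 0 < t) {S : Finset ℕ} (hS : ∀ p ∈ S, 0 < p) (r : ℕ) :
    Real.log (scb t S r) = Real.log t + ∑ q ∈ S.filter (· < r), Real.log q := by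
  unfold scb
  have h1 : ∀ q ∈ S.filter (· < r), (q : ℝ) ≠ 0 := fun q hq => by
    have := hS q (mem_filter.1 hq).1
    positivity
  push_cast
  rw [Real.log_mul ht.ne' (prod_ne_zero_iff.2 h1), Real.log_prod h1]

lemma le_scb {t : ℝ} (ht : 0 ≤ t) {S : Finset ℕ} (hS : ∀ p ∈ S, 0 < p) (r : ℕ) :
    t ≤ scb t S r := by
  unfold scb
  have h1 : 0 < ∏ p ∈ S.filter (· < r), p := prod_pos fun p hp => hS p (mem_filter.1 hp).1
  have h2 : (1 : ℝ) ≤ ((∏ p ∈ S.filter (· < r), p : ℕ) : ℝ) := by exact_mod_cast h1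
  nlinarith

/-- common part of the classes E_b, E_a1 -/
theorem classE (A : ℝ) (hA : 1 ≤ A) : ∃ C : ℝ, 0 < C ∧ ∀ (P : Finset ℕ) (E : Finset (Finset ℕ))
    (cut : ℝ → ℝ) (δ γ t s K0 y : ℝ) (Λ : Finset ℝ) (Y : Finset ℕ → ℝ),
    (∀ p ∈ P, p.Prime) → (∀ p ∈ P, y ≤ (p : ℝ)) → 1 ≤ K0 → Real.sqrt K0 ≤ t → t ^ 4 ≤ y →
    16 ≤ y → 0 ≤ s → (∀ τ, t ≤ τ → 1 ≤ cut τ ∧ cut τ ≤ τ ^ A) →
    (∀ S ∈ E, S ⊆ P) → (∀ S ∈ E, Cell γ t K0 Λ S) → (∀ S ∈ E, Run δ γ t S) →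
    (∀ S ∈ E, (∀ q ∈ lo (ps δ γ t) S, (q : ℝ) < Y (up (ps δ γ t) S)) ∧
      ∑ q ∈ P.filter (fun q : ℕ => cut (scb t S (ps δ γ t S)) < (q : ℝ) ∧
        (q : ℝ) < Y (up (ps δ γ t) S)), (1 : ℝ) / q ≤ s) →
    ∑ S ∈ E, law P S ≤ 4 * s + C * (Λ.card / Real.sqrt (Real.sqrt K0) + 1 / y) := by
  classical
  have hA0 : 0 < A := by linarith
  obtain ⟨C1, hC1, hg⟩ := gwhyp' (1 / (2 * A)) (by positivity) (by
    rw [div_le_one (by positivity)]; linarith)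
  obtain ⟨C2, hC2, hk⟩ := hypK
  refine ⟨C1 * (C2 + 1), by positivity, ?_⟩
  intro P E cut δ γ t s K0 y Λ Y hP hPy hK0 hKt hty hy hs hcut hE hcell hrun hY
  have hK0' : 0 < K0 := by linarith
  have hs1 : 1 ≤ Real.sqrt K0 := by rw [Real.one_le_sqrt]; exact hK0
  have hss : 0 < Real.sqrt (Real.sqrt K0) := Real.sqrt_pos.2 (by linarith)
  have ht1 : 1 ≤ t := hs1.trans hKt
  have hty1 : t ≤ y := (le_self_pow₀ ht1 (by norm_num)).trans hty
  choose Z hZ1 hZ2 hZ3 using fun U : Finset ℕ => Ownx114.window P hs (Y U)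
  have hκ : 0 ≤ Λ.card * (C2 / Real.sqrt (Real.sqrt K0)) + 1 / y := by positivity
  have hmain := hg P y s _ E (ps δ γ t) Z Y (by linarith) hs hκ hP hPy hE
    (hypU (by linarith) E hrun) (hk P E (ps δ γ t) γ t K0 y Λ hP hK0 hKt hty hy hcell) ?_
  · refine hmain.trans ?_
    have e1 : C1 * (Λ.card * (C2 / Real.sqrt (Real.sqrt K0)) + 1 / y) ≤
        C1 * (C2 + 1) * (Λ.card / Real.sqrt (Real.sqrt K0) + 1 / y) := by
      rw [mul_assoc]
      refine mul_le_mul_of_nonneg_left ?_ hC1.le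
      have h1 : (0 : ℝ) ≤ 1 / y := by positivity
      have h2 : (0 : ℝ) ≤ Λ.card / Real.sqrt (Real.sqrt K0) := by positivity
      have h3 : Λ.card * (C2 / Real.sqrt (Real.sqrt K0)) =
        C2 * (Λ.card / Real.sqrt (Real.sqrt K0)) := by ring
      rw [h3]
      nlinarith
    linarith
  · intro S hS
    set r := ps δ γ t with hr
    have hSP := hE S hS
    have hpos : ∀ p ∈ S, 0 < p := fun p hp => (hP p (hSP hp)).pos
    have hne : (lo r S).Nonempty := ⟨_, (hrun S hS).mn_mem_lo⟩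
    obtain ⟨hY1, hY2⟩ := hY S hS
    set ρ := (lo r S).max' hne with hρ
    have hρm : ρ ∈ lo r S := max'_mem _ _
    have hρy : y ≤ (ρ : ℝ) := hPy ρ (hSP (filter_subset _ _ hρm))
    rcases lt_or_ge (Z (up r S)) (ρ : ℝ) with h | h
    · exact Or.inl ⟨⟨ρ, hρm, fun q hq => le_max' _ _ hq, h, hY1 ρ hρm⟩, hZ2 _⟩
    · refine Or.inr ⟨hne, fun q hq => ?_, ?_⟩
      · have h1 : (q : ℝ) ≤ ρ := by exact_mod_cast le_max' _ _ hq
        exact h1.trans h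
      · have hts : t ≤ scb t S (r S) := le_scb (by linarith) hpos _
        have hsc0 : 0 < scb t S (r S) := by linarith
        obtain ⟨hc1, hc2⟩ := hcut _ hts
        have h1 : Z (up r S) ≤ cut (scb t S (r S)) := by
          refine (hZ3 _ _ hY2).trans (max_le hc1 le_rfl)
        have h2 : Real.log (Z (up r S)) ≤ A * Real.log (scb t S (r S)) := by
          rw [← Real.log_rpow hsc0]
          exact Real.log_le_log (by linarith [hZ1 (up r S)]) (h1.trans hc2)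
        have h3 := log_scb (by linarith : 0 < t) hpos (r S)
        have h4 : Real.log t ≤ Real.log ρ := Real.log_le_log (by linarith) (hty1.trans hρy)
        have h5 : Real.log ρ ≤ ∑ q ∈ lo r S, Real.log q := by
          refine single_le_sum (f := fun q : ℕ => Real.log q) (fun q hq => ?_) hρm
          exact Real.log_natCast_nonneg q
        have h6 : ∑ q ∈ S.filter (· < r S), Real.log q = ∑ q ∈ lo r S, Real.log q := rfl
        rw [h6] at h3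
        rw [div_mul_eq_mul_div, one_mul, div_le_iff₀ (by positivity)]
        nlinarith

/-! ### the classes -/

lemma mn_up {δ γ t : ℝ} {S : Finset ℕ} (h : Run δ γ t S) :
    mn (up (ps δ γ t) S) = ps δ γ t S := by
  have h1 : ps δ γ t S ∈ up (ps δ γ t) S := mem_filter.2 ⟨(ps_spec h.2.2).1, le_refl _⟩
  have h2 : (up (ps δ γ t) S).Nonempty := ⟨_, h1⟩
  have h3 := mn_mem h2
  have h4 := (mem_filter.1 h3).2
  have h5 := mn_le h1
  omega

lemma up_filter {δ γ t : ℝ} (S : Finset ℕ) :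
    (up (ps δ γ t) S).filter (ps δ γ t S < ·) = S.filter (ps δ γ t S < ·) := by
  unfold up
  ext p
  simp only [mem_filter]
  constructor
  · rintro ⟨⟨h1, _⟩, h3⟩
    exact ⟨h1, h3⟩
  · rintro ⟨h1, h2⟩
    exact ⟨⟨h1, h2.le⟩, h2⟩

lemma mem_nc {cut : ℝ → ℝ} {δ γ t : ℝ} {P S : Finset ℕ} {r q : ℕ} :
    q ∈ nc cut δ γ t P S r ↔ q ∈ P ∧ cut (scb t S r) < (q : ℝ) ∧ q < r ∧
      ¬ On (3 * (q : ℝ) ^ δ) (pt γ S r) (sc t S r) := by
  unfold nc scb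
  simp only [mem_filter]

lemma K_mono {δ : ℝ} (hδ : 0 ≤ δ) {a b : ℕ} (h : a ≤ b) :
    3 * (a : ℝ) ^ δ ≤ 3 * (b : ℝ) ^ δ := by
  have h1 : (a : ℝ) ≤ b := by exact_mod_cast h
  have := Real.rpow_le_rpow (Nat.cast_nonneg a) h1 hδ
  linarith

/-- **class E_b**: all coins of the gap are natural -/
theorem classEb (A : ℝ) (hA : 1 ≤ A) : ∃ C : ℝ, 0 < C ∧ ∀ (P : Finset ℕ) (E : Finset (Finset ℕ))
    (cut : ℝ → ℝ) (δ γ t s K0 y : ℝ) (Λ : Finset ℝ), 0 ≤ δ →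
    (∀ p ∈ P, p.Prime) → (∀ p ∈ P, y ≤ (p : ℝ)) → 1 ≤ K0 → Real.sqrt K0 ≤ t → t ^ 4 ≤ y →
    16 ≤ y → 0 ≤ s → (∀ τ, t ≤ τ → 1 ≤ cut τ ∧ cut τ ≤ τ ^ A) →
    (∀ S ∈ E, S ⊆ P) → (∀ S ∈ E, Cell γ t K0 Λ S) → (∀ S ∈ E, Run δ γ t S) →
    (∀ S ∈ E, ∑ q ∈ nc cut δ γ t P S (ps δ γ t S), (1 : ℝ) / q ≤ s) →
    (∀ S ∈ E, ¬ On (3 * (ps δ γ t S : ℝ) ^ δ) (pt γ S (ps δ γ t S)) (sc t S (ps δ γ t S))) →
    ∑ S ∈ E, law P S ≤ 4 * s + C * (Λ.card / Real.sqrt (Real.sqrt K0) + 1 / y) := by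
  classical
  obtain ⟨C, hC, hg⟩ := classE A hA
  refine ⟨C, hC, ?_⟩
  intro P E cut δ γ t s K0 y Λ hδ hP hPy hK0 hKt hty hy hs hcut hE hcell hrun hnc hnon
  refine hg P E cut δ γ t s K0 y Λ (fun U => (mn U : ℝ)) hP hPy hK0 hKt hty hy hs hcut hE hcell
    hrun fun S hS => ⟨fun q hq => ?_, ?_⟩
  · have h1 := mn_up (hrun S hS)
    have h2 := (mem_filter.1 hq).2
    rw [h1]
    exact_mod_cast h2
  · refine le_trans (sum_le_sum_of_subset_of_nonneg ?_ fun _ _ _ => by positivity) (hnc S hS)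
    intro q hq
    rw [mem_filter] at hq
    obtain ⟨h1, h2, h3⟩ := hq
    rw [mn_up (hrun S hS)] at h3
    have h4 : q < ps δ γ t S := by exact_mod_cast h3
    rw [mem_nc]
    exact ⟨h1, h2, h4, fun hon => hnon S hS (hon.mono (K_mono hδ h4.le))⟩

/-- admissible reduced denominators, seen from the upper part -/
def Fr (δ γ : ℝ) (U : Finset ℕ) (k : ℕ) : Prop :=
  ∃ a : ℤ, 0 < k ∧ IsCoprime a (k : ℤ) ∧
    (k : ℝ) * max 1 ((mn U : ℝ) * |((∏ p ∈ U.filter (mn U < ·), p : ℕ) : ℝ) * γ - a / k|) <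
      3 * (mn U : ℝ) ^ δ

/-- the denominator -/
noncomputable def kf (δ γ : ℝ) (U : Finset ℕ) : ℕ := sInf {k : ℕ | Fr δ γ U k}

lemma num_ok {x δ : ℝ} (hx : 324 ≤ x) (hδ : δ ≤ 1 / 4) :
    3 * x ^ δ * (3 * x ^ δ) * (1 / x + 1 / x) ≤ 1 := by
  have hx0 : 0 < x := by linarith
  have h1 : x ^ δ ≤ x ^ (1 / 4 : ℝ) := Real.rpow_le_rpow_of_exponent_le (by linarith) hδ
  have h0 : 0 ≤ x ^ δ := Real.rpow_nonneg hx0.le _
  have h2 : x ^ (1 / 4 : ℝ) * x ^ (1 / 4 : ℝ) = x ^ (1 / 2 : ℝ) := by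
    rw [← Real.rpow_add hx0]; norm_num
  have h3 : x ^ (1 / 2 : ℝ) * x ^ (1 / 2 : ℝ) = x := by
    rw [← Real.rpow_add hx0]; norm_num
  have h4 : 18 ≤ x ^ (1 / 2 : ℝ) := by
    have h5 : (0 : ℝ) ≤ x ^ (1 / 2 : ℝ) := Real.rpow_nonneg hx0.le _
    nlinarith
  have h5 : x ^ δ * x ^ δ ≤ x ^ (1 / 2 : ℝ) := by
    rw [← h2]
    exact mul_le_mul h1 h1 h0 (Real.rpow_nonneg hx0.le _)
  have h6 : 3 * x ^ δ * (3 * x ^ δ) * (1 / x + 1 / x) = 18 * (x ^ δ * x ^ δ) / x := by ring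
  rw [h6, div_le_one hx0]
  nlinarith

/-- reduced fractions which are equal have equal denominators -/
lemma den_eq {a a' : ℤ} {k k' : ℕ} (h : IsCoprime a (k : ℤ)) (h' : IsCoprime a' (k' : ℤ))
    (he : a * k' = a' * k) : k = k' := by
  have h1 : (k : ℤ) ∣ k' := by
    have : (k : ℤ) ∣ a * k' := by rw [he]; exact dvd_mul_left _ _
    exact h.symm.dvd_of_dvd_mul_left this
  have h2 : (k' : ℤ) ∣ k := by
    have : (k' : ℤ) ∣ a' * k := by rw [← he]; exact dvd_mul_left _ _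
    exact h'.symm.dvd_of_dvd_mul_left this
  exact Nat.dvd_antisymm (Int.natCast_dvd_natCast.1 h1) (Int.natCast_dvd_natCast.1 h2)

lemma den_le {a a' : ℤ} {k k' : ℕ} (h : IsCoprime a (k : ℤ)) (hk' : 0 < k')
    (he : a * k' = a' * k) : k ≤ k' := by
  have h1 : (k : ℤ) ∣ k' := by
    have : (k : ℤ) ∣ a * k' := by rw [he]; exact dvd_mul_left _ _
    exact h.symm.dvd_of_dvd_mul_left this
  exact Nat.le_of_dvd hk' (Int.natCast_dvd_natCast.1 h1)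

lemma kf_eq {δ γ : ℝ} {U : Finset ℕ} (hx : (324 : ℝ) ≤ mn U) (hδ : δ ≤ 1 / 4) {k : ℕ}
    (h : Fr δ γ U k) : kf δ γ U = k := by
  have h1 : Fr δ γ U (kf δ γ U) := Nat.sInf_mem (⟨k, h⟩ : {k : ℕ | Fr δ γ U k}.Nonempty)
  obtain ⟨a, h2, h3, h4⟩ := h
  obtain ⟨a', h2', h3', h4'⟩ := h1
  have hm : (0 : ℝ) < mn U := by linarith
  exact (den_eq h3 h3' (frac_unique h2 h2' hm hm h4 h4' (num_ok hx hδ))).symm

/-- **class E_a1**: the centre is on the fraction `a/k` with `k > √t_J` -/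
theorem classEa (A : ℝ) (hA : 1 ≤ A) : ∃ C : ℝ, 0 < C ∧ ∀ (P : Finset ℕ) (E : Finset (Finset ℕ))
    (cut : ℝ → ℝ) (δ γ t s K0 y : ℝ) (Λ : Finset ℝ), 0 < δ → δ ≤ 1 / 4 →
    (∀ p ∈ P, p.Prime) → (∀ p ∈ P, y ≤ (p : ℝ)) → 1 ≤ K0 → Real.sqrt K0 ≤ t → t ^ 4 ≤ y →
    324 ≤ y → 0 ≤ s → (∀ τ, t ≤ τ → 1 ≤ cut τ ∧ cut τ ≤ τ ^ A) →
    (∀ S ∈ E, S ⊆ P) → (∀ S ∈ E, Cell γ t K0 Λ S) → (∀ S ∈ E, Run δ γ t S) →
    (∀ S ∈ E, ∑ q ∈ nc cut δ γ t P S (ps δ γ t S), (1 : ℝ) / q ≤ s) →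
    (∀ S ∈ E, ∃ (a : ℤ) (k : ℕ), 0 < k ∧ IsCoprime a (k : ℤ) ∧
      (k : ℝ) * max 1 (sc t S (ps δ γ t S) * |pt γ S (ps δ γ t S) - a / k|) <
        3 * (ps δ γ t S : ℝ) ^ δ ∧ scb t S (ps δ γ t S) < (k : ℝ) ^ 2) →
    ∑ S ∈ E, law P S ≤ 4 * s + C * (Λ.card / Real.sqrt (Real.sqrt K0) + 1 / y) := by
  classical
  obtain ⟨C, hC, hg⟩ := classE A hA
  refine ⟨C, hC, ?_⟩
  intro P E cut δ γ t s K0 y Λ hδ0 hδ hP hPy hK0 hKt hty hy hs hcut hE hcell hrun hnc hfr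
  have hs1 : 1 ≤ Real.sqrt K0 := by rw [Real.one_le_sqrt]; exact hK0
  have ht1 : 1 ≤ t := hs1.trans hKt
  set r := ps δ γ t with hr
  -- data of a word
  have key : ∀ S ∈ E, (∀ q ∈ lo r S, 3 * (q : ℝ) ^ δ < kf δ γ (up r S)) ∧
      ∀ q ∈ P, q < r S → 3 * (q : ℝ) ^ δ < kf δ γ (up r S) →
        ¬ On (3 * (q : ℝ) ^ δ) (pt γ S (r S)) (sc t S (r S)) := by
    intro S hS
    obtain ⟨a, k, hk0, hco, hfr1, hfr2⟩ := hfr S hS
    have hSP := hE S hS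
    have hpos : ∀ p ∈ S, 0 < p := fun p hp => (hP p (hSP hp)).pos
    have hrS : r S ∈ S := (ps_spec (hrun S hS).2.2).1
    have hmn : mn (up r S) = r S := mn_up (hrun S hS)
    have hry : y ≤ (r S : ℝ) := hPy _ (hSP hrS)
    have hr324 : (324 : ℝ) ≤ r S := hy.trans hry
    have hr0 : (0 : ℝ) < r S := by linarith
    have hsc : (r S : ℝ) ≤ sc t S (r S) := by
      unfold sc
      have h1 : r S ≤ ∏ p ∈ S.filter (· ≤ r S), p := by
        refine Nat.le_of_dvd (prod_pos fun p hp => hpos p (mem_filter.1 hp).1) ?_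
        exact dvd_prod_of_mem _ (mem_filter.2 ⟨hrS, le_refl _⟩)
      have h2 : (r S : ℝ) ≤ ((∏ p ∈ S.filter (· ≤ r S), p : ℕ) : ℝ) := by exact_mod_cast h1
      nlinarith
    have hFr : Fr δ γ (up r S) k := by
      refine ⟨a, hk0, hco, ?_⟩
      rw [hmn, up_filter]
      refine lt_of_le_of_lt ?_ hfr1
      refine mul_le_mul_of_nonneg_left (max_le_max le_rfl ?_) (Nat.cast_nonneg _)
      exact mul_le_mul_of_nonneg_right hsc (abs_nonneg _)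
    have hkf : kf δ γ (up r S) = k := kf_eq (by rw [hmn]; exact hr324) hδ hFr
    rw [hkf]
    refine ⟨fun q hq => ?_, fun q hqP hqr hqk hon => ?_⟩
    · -- `3 q^δ ≤ √q ≤ √t_J < k`
      have hq' := mem_filter.1 hq
      have hqy : (324 : ℝ) ≤ q := hy.trans (hPy q (hSP hq'.1))
      have hq0 : (0 : ℝ) < q := by linarith
      have h1 : (q : ℝ) ≤ scb t S (r S) := by
        unfold scb
        have h1 : q ≤ ∏ p ∈ S.filter (· < r S), p := by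
          refine Nat.le_of_dvd (prod_pos fun p hp => hpos p (mem_filter.1 hp).1) ?_
          exact dvd_prod_of_mem _ (mem_filter.2 ⟨hq'.1, hq'.2⟩)
        have h2 : (q : ℝ) ≤ ((∏ p ∈ S.filter (· < r S), p : ℕ) : ℝ) := by exact_mod_cast h1
        nlinarith
      have h2 : (q : ℝ) < (k : ℝ) ^ 2 := lt_of_le_of_lt h1 hfr2
      have h3 : (q : ℝ) ^ δ ≤ (q : ℝ) ^ (1 / 4 : ℝ) :=
        Real.rpow_le_rpow_of_exponent_le (by linarith) hδ
      have h4 : ((q : ℝ) ^ (1 / 4 : ℝ)) ^ 4 = q := by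
        rw [← Real.rpow_natCast, ← Real.rpow_mul hq0.le]; norm_num
      have h5 : 0 < (q : ℝ) ^ (1 / 4 : ℝ) := Real.rpow_pos_of_pos hq0 _
      set u := (q : ℝ) ^ (1 / 4 : ℝ) with hu
      have h6 : 3 < u := by
        by_contra hcon
        have h7 : u ^ 4 ≤ 3 ^ 4 := pow_le_pow_left₀ h5.le (not_lt.1 hcon) 4
        rw [h4] at h7
        have h8 : (3 : ℝ) ^ 4 = 81 := by norm_num
        linarith
      have h7 : u ^ 2 < k := by
        have h8 : (u ^ 2) ^ 2 < (k : ℝ) ^ 2 := by rw [← pow_mul]; norm_num; rw [h4]; exact h2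
        exact lt_of_pow_lt_pow_left₀ 2 (Nat.cast_nonneg _) h8
      nlinarith
    · obtain ⟨a', k', hk', hlt⟩ := hon
      have hq0 : (0 : ℝ) ≤ (q : ℝ) ^ δ := Real.rpow_nonneg (Nat.cast_nonneg _) _
      have hKm := K_mono hδ0.le hqr.le
      have hscp : 0 < sc t S (r S) := by linarith
      have hnum : 3 * (r S : ℝ) ^ δ * (3 * (q : ℝ) ^ δ) * (1 / sc t S (r S) + 1 / sc t S (r S)) ≤ 1 := by
        refine le_trans ?_ (num_ok hr324 hδ)
        have h1 : 1 / sc t S (r S) ≤ 1 / (r S : ℝ) := one_div_le_one_div_of_le hr0 hsc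
        have h2 : 0 ≤ 1 / sc t S (r S) := by positivity
        have h3 : 0 ≤ 3 * (r S : ℝ) ^ δ := by positivity
        refine mul_le_mul (mul_le_mul_of_nonneg_left hKm h3) (by linarith) (by linarith)
          (by positivity)
      have he := frac_unique hk0 hk' hscp hscp hfr1 hlt hnum
      have h1 := den_le hco hk' he
      have h2 : (k : ℝ) ≤ k' := by exact_mod_cast h1
      have h3 : (k' : ℝ) < 3 * (q : ℝ) ^ δ := by
        refine lt_of_le_of_lt ?_ hlt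
        exact le_mul_of_one_le_right (Nat.cast_nonneg _) (le_max_left _ _)
      linarith
  refine hg P E cut δ γ t s K0 y Λ
    (fun U => min (mn U : ℝ) (((kf δ γ U : ℝ) / 3) ^ (1 / δ))) hP hPy hK0 hKt hty (by linarith) hs
    hcut hE hcell hrun fun S hS => ⟨fun q hq => ?_, ?_⟩
  · obtain ⟨h1, _⟩ := key S hS
    have h2 := (mem_filter.1 hq).2
    have h3 := h1 q hq
    refine lt_min ?_ ?_
    · rw [mn_up (hrun S hS)]
      exact_mod_cast h2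
    · have h4 : (q : ℝ) ^ δ < (kf δ γ (up r S) : ℝ) / 3 := by linarith
      have h5 : (q : ℝ) = ((q : ℝ) ^ δ) ^ (1 / δ) := by
        rw [← Real.rpow_mul (Nat.cast_nonneg _), mul_one_div_cancel hδ0.ne', Real.rpow_one]
      rw [h5]
      exact Real.rpow_lt_rpow (Real.rpow_nonneg (Nat.cast_nonneg _) _) h4 (by positivity)
  · refine le_trans (sum_le_sum_of_subset_of_nonneg ?_ fun _ _ _ => by positivity) (hnc S hS)
    intro q hq
    rw [mem_filter] at hq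
    obtain ⟨h1, h2, h3⟩ := hq
    have h3' := h3.trans_le (min_le_left _ _)
    have h3'' := h3.trans_le (min_le_right _ _)
    rw [mn_up (hrun S hS)] at h3'
    have h4 : q < r S := by exact_mod_cast h3'
    rw [mem_nc]
    refine ⟨h1, h2, h4, (key S hS).2 q h1 h4 ?_⟩
    have h5 : (q : ℝ) = ((q : ℝ) ^ δ) ^ (1 / δ) := by
      rw [← Real.rpow_mul (Nat.cast_nonneg _), mul_one_div_cancel hδ0.ne', Real.rpow_one]
    rw [h5] at h3''
    have h6 := (Real.rpow_lt_rpow_iff (Real.rpow_nonneg (Nat.cast_nonneg _) _) (by positivity)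
      (by positivity)).1 h3''
    linarith

end Crest.Agent.R4C.NHx656
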