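import Crest.Agent.R4C.NHE_656
import Crest.Agent.R4C.NCA2_516

/-!
# Row 4, block NH: natural hypothesis of the GW section (helper656)

`nh`: the words `S ⊆ P` in the cell of the node (targets `Λ`, depth `≥ K0` at scale `t`) which are
BAD (the run centre does not exist at the first letter and the gap before it is light, or it is lost
at `ps` and the gap before `ps` is empty or light (natural coins, mass `≤ s`)) have natural mass
`≤ C (s + |Λ| / √√K0 + y^{-c})`.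
-/

set_option autoImplicit false

namespace Crest.Agent.R4C.NHx656

open Finset Crest.Agent.R4C.GWhx656 Crest.Agent.R4C.GWhBx656

lemma reduce_frac (a : ℤ) {k : ℕ} (hk : 0 < k) : ∃ (a' : ℤ) (k' : ℕ), 0 < k' ∧
    IsCoprime a' (k' : ℤ) ∧ k' ≤ k ∧ (a : ℝ) / k = a' / k' := by
  set q : ℚ := Rat.divInt a k with hq
  refine ⟨q.num, q.den, q.den_pos, ?_, ?_, ?_⟩
  · rw [Int.isCoprime_iff_gcd_eq_one]
    exact q.reduced
  · have h := Rat.den_dvd a (k : ℤ)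
    rw [← hq] at h
    exact Nat.le_of_dvd hk (Int.natCast_dvd_natCast.1 h)
  · have h1 : ((q : ℚ) : ℝ) = (a : ℝ) / k := by
      rw [hq, Rat.divInt_eq_div]
      push_cast
      rfl
    rw [← h1, Rat.cast_def]

/-- **BLOCK NH** -/
theorem nh (A δ : ℝ) (hA : 1 ≤ A) (hδ0 : 0 < δ) (hδ : δ ≤ 1 / 128) : ∃ C c y0 : ℝ,
    0 < C ∧ 0 < c ∧ 2 ≤ y0 ∧ ∀ (cut : ℝ → ℝ) (P : Finset ℕ) (γ t s K0 y : ℝ) (Λ : Finset ℝ),
      y0 ≤ y → 0 ≤ s → 1 ≤ K0 → Real.sqrt K0 ≤ t → t ^ 4 ≤ y →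
      (∀ τ, 1 ≤ τ → 1 ≤ cut τ ∧ cut τ ≤ τ ^ A) → (∀ τ, y ≤ τ → τ ^ 8 ≤ cut τ) →
      (∀ p ∈ P, p.Prime) → (∀ p ∈ P, y ≤ (p : ℝ)) → (∀ p ∈ P, cut t < (p : ℝ)) →
      ∀ E : Finset (Finset ℕ), (∀ S ∈ E, S ⊆ P ∧ Cell γ t K0 Λ S ∧ Bad cut δ γ t s P S) →
      ∑ S ∈ E, law P S ≤ C * (s + Λ.card / Real.sqrt (Real.sqrt K0) + y ^ (-c)) := by
  classical
  obtain ⟨Cb, hCb, hb⟩ := classEb A hA
  obtain ⟨Ca, hCa, ha⟩ := classEa A hA
  obtain ⟨Cn, cn, hCn, hcn, hn⟩ := NCA2x516.nc hA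
  obtain ⟨C2, c2, y2, hC2, hc2, h2⟩ := NCA2x516.a2
  set c := min 1 (min cn c2) with hc
  have hc0 : 0 < c := lt_min one_pos (lt_min hcn hc2)
  refine ⟨9 + Ca + Cb + Cn + C2 + 1, c, max (3 ^ 128) y2, by positivity, hc0,
    le_trans (by norm_num) (le_max_left _ _), ?_⟩
  intro cut P γ t s K0 y Λ hy0 hs hK0 hKt hty hcut hcut8 hP hPy hPc E hE
  have hy128 : (3 : ℝ) ^ 128 ≤ y := (le_max_left _ _).trans hy0
  have hyy2 : y2 ≤ y := (le_max_right _ _).trans hy0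
  have hy324 : 324 ≤ y := le_trans (by norm_num) hy128
  have hs1 : 1 ≤ Real.sqrt K0 := by rw [Real.one_le_sqrt]; exact hK0
  have ht1 : 1 ≤ t := hs1.trans hKt
  have hP2 : ∀ p ∈ P, 1 ≤ p := fun p hp => (hP p hp).one_lt.le
  have hlaw0 : ∀ S, 0 ≤ law P S := fun S => law_nonneg hP2
  -- the classes
  set E1 := P.powerset.filter fun S => S.Nonempty ∧ ∑ q ∈ P with q < mn S, (1 : ℝ) / q ≤ s with hE1
  set EN := P.powerset.filter fun S => Run δ γ t S ∧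
    (ps δ γ t S : ℝ) ≤ cut (t * ((∏ q ∈ S.filter (· < ps δ γ t S), q : ℕ) : ℝ)) with hEN
  set E2 := P.powerset.filter fun S => Run δ γ t S ∧
    cut (t * ((∏ q ∈ S.filter (· < ps δ γ t S), q : ℕ) : ℝ)) < (ps δ γ t S : ℝ) ∧
        ∃ (a : ℤ) (k : ℕ), 0 < k ∧
          (k : ℝ) ≤ (t * ((∏ q ∈ S.filter (· < ps δ γ t S), q : ℕ) : ℝ)) ^ (1 / 2 : ℝ) ∧
          (k : ℝ) * max 1 (sc t S (ps δ γ t S) * |pt γ S (ps δ γ t S) - a / k|) <
            3 * (ps δ γ t S : ℝ) ^ δ with hE2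
  set Eb := P.powerset.filter fun S => Cell γ t K0 Λ S ∧ Run δ γ t S ∧
    ∑ q ∈ nc cut δ γ t P S (ps δ γ t S), (1 : ℝ) / q ≤ s ∧
    ¬ On (3 * (ps δ γ t S : ℝ) ^ δ) (pt γ S (ps δ γ t S)) (sc t S (ps δ γ t S)) with hEb
  set Ea := P.powerset.filter fun S => Cell γ t K0 Λ S ∧ Run δ γ t S ∧
    ∑ q ∈ nc cut δ γ t P S (ps δ γ t S), (1 : ℝ) / q ≤ s ∧
    ∃ (a : ℤ) (k : ℕ), 0 < k ∧ IsCoprime a (k : ℤ) ∧
      (k : ℝ) * max 1 (sc t S (ps δ γ t S) * |pt γ S (ps δ γ t S) - a / k|) <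
        3 * (ps δ γ t S : ℝ) ^ δ ∧ scb t S (ps δ γ t S) < (k : ℝ) ^ 2 with hEa
  have hcover : E ⊆ E1 ∪ (EN ∪ (E2 ∪ (Eb ∪ Ea))) := by
    intro S hS
    obtain ⟨hSP, hcell, hne, hbad⟩ := hE S hS
    have hSpow : S ∈ P.powerset := mem_powerset.2 hSP
    rcases hbad with ⟨hnon, hlt⟩ | ⟨hon, hlost, hlt⟩
    · refine mem_union_left _ (mem_filter.2 ⟨hSpow, hne, ?_⟩)
      refine le_trans (sum_le_sum_of_subset_of_nonneg ?_ fun _ _ _ => by positivity) hlt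
      intro q hq
      rw [mem_filter] at hq
      rw [mem_nc]
      have h1 : scb t S (mn S) = t := by
        unfold scb
        have h2 : S.filter (· < mn S) = ∅ := by
          ext p
          simp only [mem_filter, notMem_empty, iff_false, not_and, not_lt]
          exact fun h => mn_le h
        rw [h2]
        simp
      refine ⟨hq.1, ?_, hq.2, fun h => hnon ?_⟩
      · rw [h1]; exact hPc q hq.1
      · exact h.mono (K_mono hδ0.le hq.2.le)
    · have hrun : Run δ γ t S := ⟨hne, hon, hlost⟩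
      refine mem_union_right _ ?_
      by_cases hnc : (ps δ γ t S : ℝ) ≤ cut (t * ((∏ q ∈ S.filter (· < ps δ γ t S), q : ℕ) : ℝ))
      · exact mem_union_left _ (mem_filter.2 ⟨hSpow, hrun, hnc⟩)
      refine mem_union_right _ ?_
      have hlt' := hlt.resolve_left hnc
      by_cases hon' : On (3 * (ps δ γ t S : ℝ) ^ δ) (pt γ S (ps δ γ t S)) (sc t S (ps δ γ t S))
      · obtain ⟨a, k, hk, hk2⟩ := hon'
        obtain ⟨a', k', hk', hco, hkk, he⟩ := reduce_frac a hk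
        have hk3 : (k' : ℝ) * max 1 (sc t S (ps δ γ t S) * |pt γ S (ps δ γ t S) - a' / k'|) <
            3 * (ps δ γ t S : ℝ) ^ δ := by
          rw [← he]
          refine lt_of_le_of_lt ?_ hk2
          refine mul_le_mul_of_nonneg_right (by exact_mod_cast hkk) ?_
          exact le_trans zero_le_one (le_max_left _ _)
        by_cases hbig : scb t S (ps δ γ t S) < (k' : ℝ) ^ 2
        · exact mem_union_right _ (mem_union_right _ (mem_filter.2
            ⟨hSpow, hcell, hrun, hlt', a', k', hk', hco, hk3, hbig⟩))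
        · refine mem_union_left _ (mem_filter.2 ⟨hSpow, hrun, not_le.1 hnc, a', k', hk', ?_, hk3⟩)
          have h3 : (k' : ℝ) ^ 2 ≤ scb t S (ps δ γ t S) := not_lt.1 hbig
          have h4 : (k' : ℝ) = ((k' : ℝ) ^ 2) ^ (1 / 2 : ℝ) := by
            rw [← Real.rpow_natCast, ← Real.rpow_mul (Nat.cast_nonneg _)]
            norm_num
          rw [h4]
          exact Real.rpow_le_rpow (by positivity) h3 (by norm_num)
      · exact mem_union_right _ (mem_union_left _ (mem_filter.2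
            ⟨hSpow, hcell, hrun, hlt', hon'⟩))
  have hunion : ∀ F G : Finset (Finset ℕ), ∑ S ∈ F ∪ G, law P S ≤
      ∑ S ∈ F, law P S + ∑ S ∈ G, law P S := by
    intro F G
    rw [← sum_union_inter]
    exact le_add_of_nonneg_right (sum_nonneg fun S _ => hlaw0 S)
  have hy1 : 1 ≤ y := by linarith
  have hypow : ∀ c' : ℝ, c ≤ c' → y ^ (-c') ≤ y ^ (-c) := fun c' hc' =>
    Real.rpow_le_rpow_of_exponent_le hy1 (by linarith)
  have hyinv : 1 / y ≤ y ^ (-c) := by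
    refine le_trans (le_of_eq ?_) (hypow 1 (min_le_left _ _))
    rw [Real.rpow_neg_one, one_div]
  have hb1 : ∑ S ∈ E1, law P S ≤ s + 1 / y := Ownx114.own hP (by linarith) hPy hs
  have hb2 : ∑ S ∈ EN, law P S ≤ Cn * y ^ (-cn) :=
    hn δ γ t y cut P EN hδ hy128 ht1 (fun τ hτ => (hcut τ hτ).2) hP hPy
      (fun S hS => mem_powerset.1 (mem_filter.1 hS).1) fun S hS => (mem_filter.1 hS).2
  have hb3 : ∑ S ∈ E2, law P S ≤ C2 * y ^ (-c2) :=
    h2 δ γ t y cut P E2 hδ hyy2 ht1 hcut8 hP hPy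
      (fun S hS => mem_powerset.1 (mem_filter.1 hS).1) fun S hS => (mem_filter.1 hS).2
  have hb4 : ∑ S ∈ Eb, law P S ≤ 4 * s + Cb * (Λ.card / Real.sqrt (Real.sqrt K0) + 1 / y) :=
    hb P Eb cut δ γ t s K0 y Λ hδ0.le hP hPy hK0 hKt hty (by linarith) hs
      (fun τ hτ => hcut τ (ht1.trans hτ))
      (fun S hS => mem_powerset.1 (mem_filter.1 hS).1) (fun S hS => (mem_filter.1 hS).2.1)
      (fun S hS => (mem_filter.1 hS).2.2.1) (fun S hS => (mem_filter.1 hS).2.2.2.1)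
      fun S hS => (mem_filter.1 hS).2.2.2.2
  have hb5 : ∑ S ∈ Ea, law P S ≤ 4 * s + Ca * (Λ.card / Real.sqrt (Real.sqrt K0) + 1 / y) :=
    ha P Ea cut δ γ t s K0 y Λ hδ0 (by linarith) hP hPy hK0 hKt hty hy324 hs
      (fun τ hτ => hcut τ (ht1.trans hτ))
      (fun S hS => mem_powerset.1 (mem_filter.1 hS).1) (fun S hS => (mem_filter.1 hS).2.1)
      (fun S hS => (mem_filter.1 hS).2.2.1) (fun S hS => (mem_filter.1 hS).2.2.2.1)
      fun S hS => (mem_filter.1 hS).2.2.2.2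
  have hb2' : Cn * y ^ (-cn) ≤ Cn * y ^ (-c) :=
    mul_le_mul_of_nonneg_left (hypow _ ((min_le_right _ _).trans (min_le_left _ _))) hCn.le
  have hb3' : C2 * y ^ (-c2) ≤ C2 * y ^ (-c) :=
    mul_le_mul_of_nonneg_left (hypow _ ((min_le_right _ _).trans (min_le_right _ _))) hC2.le
  set κ := (Λ.card : ℝ) / Real.sqrt (Real.sqrt K0) with hκ
  have hκ0 : 0 ≤ κ := by positivity
  set u := y ^ (-c) with hu
  have hu0 : 0 ≤ u := by positivity
  have hb4' : Cb * (κ + 1 / y) ≤ Cb * (κ + u) :=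
    mul_le_mul_of_nonneg_left (by linarith) hCb.le
  have hb5' : Ca * (κ + 1 / y) ≤ Ca * (κ + u) :=
    mul_le_mul_of_nonneg_left (by linarith) hCa.le
  have htot : ∑ S ∈ E, law P S ≤ (s + 1 / y) + (Cn * u + (C2 * u +
      ((4 * s + Cb * (κ + u)) + (4 * s + Ca * (κ + u))))) := by
    refine (sum_le_sum_of_subset_of_nonneg hcover fun S _ _ => hlaw0 S).trans ?_
    have h1 := hunion E1 (EN ∪ (E2 ∪ (Eb ∪ Ea)))
    have h2 := hunion EN (E2 ∪ (Eb ∪ Ea))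
    have h3 := hunion E2 (Eb ∪ Ea)
    have h4 := hunion Eb Ea
    linarith
  refine htot.trans ?_
  have e1 : (9 + Ca + Cb + Cn + C2 + 1) * (s + κ + u) =
      9 * s + u + Cn * u + C2 * u + Cb * (κ + u) + Ca * (κ + u) +
      (Ca + Cb + Cn + C2 + 1) * s + (9 + Cn + C2 + 1) * κ + 9 * u := by ring
  rw [e1]
  have h5 : 0 ≤ (Ca + Cb + Cn + C2 + 1) * s := by positivity
  have h6 : 0 ≤ (9 + Cn + C2 + 1) * κ := by positivity
  linarith

end Crest.Agent.R4C.NHx656
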