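import Crest.Agent.R4C.VecNPw_50

/-!
# Row 4: non-pure pairs, low word unique PER BOX (helper48)

`UniqBox` : 50's `Uniq` of `VecNPj_50`, but only for pairs whose low parts have the same dyadic
sizes (`Nat.log 2 (low X b)`, `Nat.log 2 (low X c)`): this is what uniqueness of the centres in a
box (`BoxUniq_60`) gives.  In a class the size of `low X c` is determined by the size of `low X b`
up to three values, and `f = ∑_U f 1[size U]`, so the sum over the boxes costs a factor `3`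
(Cauchy): `np_box_one`.  `np_boxw`, `np_SetBd_box` : one block, all classes with
`W0 ≤ u u'` (`u, u'` the low word), weight `bst · (u u')^{1/4}`, gain `W0^{-1/8}`.
-/

set_option autoImplicit false

open Finset
open Crest.Agent.R4C.Basex935 Crest.Agent.R4C.Cutx50 Crest.Agent.R4C.HeavyLx50
open Crest.Agent.R4C.FLDefx935
open Crest.Agent.R4C.BoostRx398 (bst tf one_le_tf)
open Crest.Agent.R4C.FixedWordx423 (wd wd_pos)
open Crest.Agent.R4C.NonPureBlkx559 (Xj Xj_two log_Xj)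
open Crest.Agent.R4C.VecNPx50

namespace Crest.Agent.R4C.NPBoxx48

/-- dyadic size of the low part -/
def sz (X b : ℕ) : ℕ := Nat.log 2 (low X b)

/-- in every class and every box the low word is determined by the upper words -/
def UniqBox (M X : ℕ) (P : ℕ → ℕ → Prop) : Prop :=
  ∀ a a' e b c b1 c1, b ∣ M → c ∣ M → b1 ∣ M → c1 ∣ M → P b c → P b1 c1 →
    Cls X a a' e b c → Cls X a a' e b1 c1 → sz X b = sz X b1 → sz X c = sz X c1 →
    upp (2 ^ (a + a' + 2)) b = upp (2 ^ (a + a' + 2)) b1 →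
    upp (2 ^ (a + a' + 2)) c = upp (2 ^ (a + a' + 2)) c1 →
    wd (low (2 ^ (a + a' + 2)) b) (low (2 ^ (a + a' + 2)) c) =
      wd (low (2 ^ (a + a' + 2)) b1) (low (2 ^ (a + a' + 2)) c1)

lemma Uniq.box {M X : ℕ} {P : ℕ → ℕ → Prop} (h : Uniq M X P) : UniqBox M X P :=
  fun a a' e b c b1 c1 hb hc hb1 hc1 hP hP1 hcl hcl1 _ _ hu hu' =>
    h a a' e b c b1 c1 hb hc hb1 hc1 hP hP1 hcl hcl1 hu hu'

/-- the low part is the low gcd times the low word -/
lemma low_split {b c : ℕ} (X : ℕ) (hb : 0 < b) (hc : 0 < c) :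
    low X b = low X (Nat.gcd b c) * low X (wd b c).1 := by
  have hg : 0 < Nat.gcd b c := Nat.gcd_pos_of_pos_left _ hb
  have hw := wd_pos hb hc
  refine Nat.eq_of_factorization_eq (low_pos _ _).ne'
    (Nat.mul_pos (low_pos _ _) (low_pos _ _)).ne' fun q => ?_
  have e : b = Nat.gcd b c * (wd b c).1 := (Nat.mul_div_cancel' (Nat.gcd_dvd_left b c)).symm
  have e2 : b.factorization q = (Nat.gcd b c).factorization q + ((wd b c).1).factorization q := by
    conv_lhs => rw [e]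
    rw [Nat.factorization_mul hg.ne' hw.1.ne', Finsupp.add_apply]
  rw [Nat.factorization_mul (low_pos _ _).ne' (low_pos _ _).ne', Finsupp.add_apply, fact_low,
    fact_low, fact_low, e2]
  split_ifs <;> simp

lemma sz_le {X a a' e b c : ℕ} (hb : 0 < b) (hc : 0 < c) (h : Cls X a a' e b c) :
    sz X c + a ≤ sz X b + a' + 1 := by
  have h1 := low_split X hb hc
  have h2 := low_split X hc hb
  have e1 : (wd c b).1 = (wd b c).2 := by simp [wd, Nat.gcd_comm c b]
  rw [e1, Nat.gcd_comm c b] at h2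
  set G := low X (Nat.gcd b c) with hG
  have hG0 : 0 < G := low_pos _ _
  have p1 : 0 < low X (wd b c).1 := low_pos _ _
  have p2 : 0 < low X (wd b c).2 := low_pos _ _
  have q1 : 2 ^ a ≤ low X (wd b c).1 := by rw [← h.1]; exact Nat.pow_log_le_self 2 p1.ne'
  have q2 : low X (wd b c).2 < 2 ^ (a' + 1) := by
    rw [← h.2.1]; exact Nat.lt_pow_succ_log_self (by norm_num) _
  have q3 : 2 ^ sz X c ≤ low X c := Nat.pow_log_le_self 2 (low_pos _ _).ne'
  have q4 : low X b < 2 ^ (sz X b + 1) := Nat.lt_pow_succ_log_self (by norm_num) _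
  have k : 2 ^ (sz X c + a) < 2 ^ (sz X b + a' + 2) := by
    calc 2 ^ (sz X c + a) = 2 ^ sz X c * 2 ^ a := pow_add _ _ _
      _ ≤ low X c * low X (wd b c).1 := Nat.mul_le_mul q3 q1
      _ = (low X (Nat.gcd b c) * low X (wd b c).1) * low X (wd b c).2 := by rw [h2, hG]; ring
      _ = low X b * low X (wd b c).2 := by rw [← hG, ← h1]
      _ < 2 ^ (sz X b + 1) * 2 ^ (a' + 1) := Nat.mul_lt_mul'' q4 q2
      _ = 2 ^ (sz X b + a' + 2) := by rw [← pow_add]; congr 1; ring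
  have := (Nat.pow_lt_pow_iff_right (by norm_num : 1 < 2)).1 k
  omega

lemma cls_swap {X a a' e b c : ℕ} (h : Cls X a a' e b c) : Cls X a' a e c b := by
  have e1 : (wd c b).1 = (wd b c).2 := by simp [wd, Nat.gcd_comm c b]
  have e2 : (wd c b).2 = (wd b c).1 := by simp [wd, Nat.gcd_comm c b]
  refine ⟨?_, ?_, ?_⟩
  · rw [e1]; exact h.2.1
  · rw [e2]; exact h.1
  · rw [e1, e2, mul_comm, h.2.2]; ring

lemma sz_le' {X a a' e b c : ℕ} (hb : 0 < b) (hc : 0 < c) (h : Cls X a a' e b c) :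
    sz X b + a' ≤ sz X c + a + 1 := sz_le hc hb (cls_swap h)

/-- Cauchy over the boxes -/
lemma box_cauchy (N : ℕ) (x y : ℕ → ℝ) (hx : ∀ i, 0 ≤ x i) (hy : ∀ i, 0 ≤ y i) {A B : ℝ}
    (hA : ∑ i ∈ range N, x i ≤ A) (hB : ∑ i ∈ range N, y i ≤ B) :
    ∑ i ∈ range N, √(x i) * √(y i) ≤ √A * √B := by
  have h1 := Real.sum_sqrt_mul_sqrt_le (range N) hx hy
  exact h1.trans (mul_le_mul (Real.sqrt_le_sqrt hA) (Real.sqrt_le_sqrt hB)
    (Real.sqrt_nonneg _) (Real.sqrt_nonneg _))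

open Classical in
/-- one class, uniqueness per box -/
theorem np_box_one : ∃ C : ℝ, 0 < C ∧ ∀ (M : ℕ) (F : FL M), 0 < M → ∀ X : ℕ, 2 ≤ X →
    ∀ S : Finset ℕ, (∀ p ∈ S, p ≤ X) → ∀ P : ℕ → ℕ → Prop,
    (∀ b c, b ∣ M → c ∣ M → P b c → NPX F X b c) → UniqBox M X P →
    ∀ a a' e : ℕ, ∀ (f g : ℕ → ℝ), (∀ b, 0 ≤ f b) → (∀ b, 0 ≤ g b) → (∀ b, f b ≤ 1) →
    (∀ b, g b ≤ 1) →
    frm M (fun b c => if P b c ∧ Cls X a a' e b c then bst S M b c * (f b * g c) else 0) ≤
      C * (Real.log X) ^ (-(1 / 2 : ℝ)) / √((2 : ℝ) ^ a * 2 ^ a') *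
        (√(Ex M f) * √(Ex M g)) := by
  obtain ⟨C, hC, h⟩ := np_one
  refine ⟨3 * C, by positivity, fun M F hM X hX S hS P hP hU a a' e f g hf hg hf1 hg1 => ?_⟩
  have hX' : (2 : ℝ) ≤ (X : ℝ) := by exact_mod_cast hX
  have hlog : 0 < Real.log X := Real.log_pos (by linarith)
  set E : ℝ := C * (Real.log X) ^ (-(1 / 2 : ℝ)) / √((2 : ℝ) ^ a * 2 ^ a') with hE
  have hE0 : 0 ≤ E := div_nonneg (mul_nonneg hC.le (Real.rpow_nonneg hlog.le _)) (Real.sqrt_nonneg _)
  -- the pieces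
  set fU : ℕ → ℕ → ℝ := fun U b => if sz X b = U then f b else 0 with hfU
  set gU : ℕ → ℕ → ℕ → ℝ := fun d U c => if sz X c + a + 1 = U + a' + d then g c else 0 with hgU
  have hf0' : ∀ U b, 0 ≤ fU U b := fun U b => by
    simp only [hfU]; split_ifs; exacts [hf b, le_rfl]
  have hf1' : ∀ U b, fU U b ≤ 1 := fun U b => by
    simp only [hfU]; split_ifs; exacts [hf1 b, zero_le_one]
  have hg0' : ∀ d U c, 0 ≤ gU d U c := fun d U c => by
    simp only [hgU]; split_ifs; exacts [hg c, le_rfl]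
  have hg1' : ∀ d U c, gU d U c ≤ 1 := fun d U c => by
    simp only [hgU]; split_ifs; exacts [hg1 c, zero_le_one]
  obtain ⟨PU, hPU⟩ : ∃ PU : ℕ → ℕ → ℕ → ℕ → Prop, ∀ d U b c, PU d U b c ↔
    (P b c ∧ sz X b = U ∧ sz X c + a + 1 = U + a' + d) := ⟨_, fun _ _ _ _ => Iff.rfl⟩
  have hbf : ∀ b c, 0 ≤ bst S M b c * (f b * g c) := fun b c =>
    mul_nonneg (bst_nonneg _ _ _ _) (mul_nonneg (hf _) (hg _))
  have hbU : ∀ d U b c, 0 ≤ bst S M b c * (fU U b * gU d U c) := fun d U b c =>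
    mul_nonneg (bst_nonneg _ _ _ _) (mul_nonneg (hf0' _ _) (hg0' _ _ _))
  -- each piece
  have key : ∀ d U, frm M (fun b c => if PU d U b c ∧ Cls X a a' e b c then
      bst S M b c * (fU U b * gU d U c) else 0) ≤
      E * (√(Ex M (fU U)) * √(Ex M (gU d U))) := by
    intro d U
    refine h M F hM X hX S hS (PU d U)
      (fun b c hb hc hh => hP b c hb hc ((hPU _ _ _ _).1 hh).1) ?_ a a' e
      (fU U) (gU d U) (hf0' U) (hg0' d U) (hf1' U) (hg1' d U)
    intro a2 a2' e2 b c b1 c1 hb hc hb1 hc1 h1 h2 hcl hcl1 hu hu'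
    rw [hPU] at h1 h2
    refine hU a2 a2' e2 b c b1 c1 hb hc hb1 hc1 h1.1 h2.1 hcl hcl1 ?_ ?_ hu hu'
    · rw [h1.2.1, h2.2.1]
    · have := h1.2.2; have := h2.2.2; omega
  -- cover
  have hcov : frm M (fun b c => if P b c ∧ Cls X a a' e b c then bst S M b c * (f b * g c) else 0) ≤
      ∑ d ∈ range 3, ∑ U ∈ range (M + 1), frm M (fun b c =>
        if PU d U b c ∧ Cls X a a' e b c then bst S M b c * (fU U b * gU d U c) else 0) := by
    have e1 : ∑ d ∈ range 3, ∑ U ∈ range (M + 1), frm M (fun b c =>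
        if PU d U b c ∧ Cls X a a' e b c then bst S M b c * (fU U b * gU d U c) else 0) =
        frm M (fun b c => ∑ d ∈ range 3, ∑ U ∈ range (M + 1),
        if PU d U b c ∧ Cls X a a' e b c then bst S M b c * (fU U b * gU d U c) else 0) := by
      exact (Finset.sum_congr rfl fun d _ => frm_sum _ _ _).trans (frm_sum _ _ _)
    rw [e1]
    refine frm_mono fun b c hb hc => ?_
    have hnn : ∀ d U, (0 : ℝ) ≤ if PU d U b c ∧ Cls X a a' e b c then
        bst S M b c * (fU U b * gU d U c) else 0 := by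
      intro d U; split_ifs; exacts [hbU d U b c, le_rfl]
    by_cases hh : P b c ∧ Cls X a a' e b c
    · have hb0 : 0 < b := Nat.pos_of_dvd_of_pos hb hM
      have hc0 : 0 < c := Nat.pos_of_dvd_of_pos hc hM
      have k1 := sz_le hb0 hc0 hh.2
      have k2 := sz_le' hb0 hc0 hh.2
      have hU0 : sz X b ∈ range (M + 1) := by
        rw [Finset.mem_range]
        have : low X b ≤ M := Nat.le_of_dvd hM ((low_dvd_self X b).trans hb)
        have := Nat.log_le_self 2 (low X b)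
        unfold sz; omega
      obtain ⟨d, hd, hd'⟩ : ∃ d ∈ range 3, sz X c + a + 1 = sz X b + a' + d :=
        ⟨sz X c + a + 1 - (sz X b + a'), Finset.mem_range.2 (by omega), by omega⟩
      rw [if_pos hh]
      have hPP : PU d (sz X b) b c ∧ Cls X a a' e b c := ⟨(hPU _ _ _ _).2 ⟨hh.1, rfl, hd'⟩, hh.2⟩
      have hval : bst S M b c * (f b * g c) = if PU d (sz X b) b c ∧ Cls X a a' e b c then
          bst S M b c * (fU (sz X b) b * gU d (sz X b) c) else 0 := by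
        rw [if_pos hPP]
        simp only [hfU, hgU, if_true, if_pos hd']
      rw [hval]
      refine le_trans ?_ (Finset.single_le_sum (f := fun d => ∑ U ∈ range (M + 1),
        if PU d U b c ∧ Cls X a a' e b c then bst S M b c * (fU U b * gU d U c) else 0)
        (fun d _ => Finset.sum_nonneg fun U _ => hnn d U) hd)
      exact Finset.single_le_sum (f := fun U =>
        if PU d U b c ∧ Cls X a a' e b c then bst S M b c * (fU U b * gU d U c) else 0)
        (fun U _ => hnn d U) hU0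
    · rw [if_neg hh]
      exact Finset.sum_nonneg fun d _ => Finset.sum_nonneg fun U _ => hnn d U
  -- masses
  have hEf : ∑ U ∈ range (M + 1), Ex M (fU U) ≤ Ex M f := by
    rw [Ex_sum]
    refine Ex_mono M fun b _ => ?_
    simp only [hfU]
    rw [Finset.sum_ite_eq]
    split_ifs; exacts [le_rfl, hf b]
  have hEg : ∀ d, ∑ U ∈ range (M + 1), Ex M (gU d U) ≤ Ex M g := by
    intro d
    rw [Ex_sum]
    refine Ex_mono M fun c _ => ?_
    simp only [hgU]
    by_cases hex : ∃ U ∈ range (M + 1), sz X c + a + 1 = U + a' + d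
    · obtain ⟨U0, hU0, hU0'⟩ := hex
      rw [Finset.sum_eq_single U0]
      · rw [if_pos hU0']
      · intro U _ hne
        rw [if_neg (fun hh => hne (by omega))]
      · exact fun hh => absurd hU0 hh
    · push Not at hex
      rw [Finset.sum_eq_zero]
      · exact hg c
      · intro U hU
        rw [if_neg (hex U hU)]
  calc _ ≤ ∑ d ∈ range 3, ∑ U ∈ range (M + 1), E * (√(Ex M (fU U)) * √(Ex M (gU d U))) :=
        hcov.trans (Finset.sum_le_sum fun d _ => Finset.sum_le_sum fun U _ => key d U)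
    _ ≤ ∑ d ∈ range 3, E * (√(Ex M f) * √(Ex M g)) := by
        refine Finset.sum_le_sum fun d _ => ?_
        rw [← Finset.mul_sum]
        exact mul_le_mul_of_nonneg_left (box_cauchy (M + 1) _ _ (fun U => Ex_nonneg M (hf0' U))
          (fun U => Ex_nonneg M (hg0' d U)) hEf (hEg d)) hE0
    _ = _ := by
        rw [Finset.sum_const, Finset.card_range, nsmul_eq_mul, hE]
        push_cast
        ring

/-! ### all classes, gain in the size of the word -/

/-- `r = 2^{-1/8}` -/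
noncomputable def rho8 : ℝ := (2 : ℝ) ^ (-(1 / 8 : ℝ))

lemma rho8_pos : 0 < rho8 := Real.rpow_pos_of_pos (by norm_num) _

lemma rho8_lt : rho8 < 1 := Real.rpow_lt_one_of_one_lt_of_neg (by norm_num) (by norm_num)

lemma rho8_sq (a : ℕ) : rho4 ^ a = rho8 ^ a * rho8 ^ a := by
  have : rho4 = rho8 * rho8 := by
    unfold rho4 rho8
    rw [← Real.rpow_add (by norm_num)]
    norm_num
  rw [this, mul_pow]

lemma geo8_le (N : ℕ) : ∑ a ∈ range N, rho8 ^ a ≤ (1 - rho8)⁻¹ :=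
  sum_le_hasSum _ (fun n _ => pow_nonneg rho8_pos.le n)
    (hasSum_geometric_of_lt_one rho8_pos.le rho8_lt)

/-- the decay of the large classes -/
lemma rho8_large {W0 : ℝ} (hW0 : 1 ≤ W0) {a a' : ℕ} (h : W0 ≤ 2 ^ (a + 1) * 2 ^ (a' + 1)) :
    rho8 ^ a * rho8 ^ a' ≤ 2 * W0 ^ (-(1 / 8 : ℝ)) := by
  have hW : 0 < W0 := by linarith
  have e : rho8 ^ a * rho8 ^ a' = ((2 : ℝ) ^ (a + a')) ^ (-(1 / 8 : ℝ)) := by
    unfold rho8
    rw [← pow_add, ← Real.rpow_natCast, ← Real.rpow_natCast, ← Real.rpow_mul (by norm_num),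
      ← Real.rpow_mul (by norm_num), mul_comm]
  have h4 : W0 / 4 ≤ 2 ^ (a + a') := by
    rw [div_le_iff₀ (by norm_num)]
    refine h.trans (le_of_eq ?_)
    rw [pow_add, pow_add, pow_add]; ring
  rw [e]
  have h5 : ((2 : ℝ) ^ (a + a')) ^ (-(1 / 8 : ℝ)) ≤ (W0 / 4) ^ (-(1 / 8 : ℝ)) :=
    Real.rpow_le_rpow_of_nonpos (by positivity) h4 (by norm_num)
  refine h5.trans ?_
  rw [div_eq_mul_inv, Real.mul_rpow hW.le (by norm_num), mul_comm]
  refine mul_le_mul_of_nonneg_right ?_ (Real.rpow_nonneg hW.le _)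
  rw [Real.inv_rpow (by norm_num), Real.rpow_neg (by norm_num), inv_inv]
  calc (4 : ℝ) ^ (1 / 8 : ℝ) ≤ (4 : ℝ) ^ (1 / 2 : ℝ) :=
        Real.rpow_le_rpow_of_exponent_le (by norm_num) (by norm_num)
    _ = 2 := by rw [← Real.sqrt_eq_rpow, show (4 : ℝ) = 2 ^ 2 by norm_num, Real.sqrt_sq (by norm_num)]

open Classical in
/-- **one block, all classes with `W0 ≤ u u'`, weight `bst · (u u')^{1/4}`, uniqueness per box** -/
theorem np_boxw : ∃ C : ℝ, 0 < C ∧ ∀ (M : ℕ) (F : FL M), 0 < M → ∀ X : ℕ, 2 ≤ X →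
    ∀ S : Finset ℕ, (∀ p ∈ S, p ≤ X) → ∀ W0 : ℝ, 1 ≤ W0 → ∀ P : ℕ → ℕ → Prop,
    (∀ b c, b ∣ M → c ∣ M → P b c → NPX F X b c) →
    (∀ b c, b ∣ M → c ∣ M → P b c → W0 ≤ ((low X (wd b c).1 * low X (wd b c).2 : ℕ) : ℝ)) →
    UniqBox M X P →
    SetBd M (fun b c => if P b c then bst S M b c * lw X b c else 0)
      (C * (Real.log X) ^ (-(1 / 2 : ℝ)) * W0 ^ (-(1 / 8 : ℝ))) := by
  obtain ⟨C, hC, h⟩ := np_box_one
  have hr0 := rho8_pos
  have hr1 := rho8_lt
  have hR : 0 < (1 - rho8)⁻¹ := inv_pos.2 (by linarith)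
  refine ⟨8 * C * (1 - rho8)⁻¹ ^ 2, by positivity,
    fun M F hM X hX S hS W0 hW0 P hP hPW hU f g hf hg hf1 hg1 => ?_⟩
  have hX' : (2 : ℝ) ≤ (X : ℝ) := by exact_mod_cast hX
  have hlog : 0 < Real.log X := Real.log_pos (by linarith)
  set D := √(Ex M f) * √(Ex M g) with hD
  have hD0 : 0 ≤ D := mul_nonneg (Real.sqrt_nonneg _) (Real.sqrt_nonneg _)
  set L := (Real.log X) ^ (-(1 / 2 : ℝ)) with hL
  have hL0 : 0 ≤ L := Real.rpow_nonneg hlog.le _
  set V := W0 ^ (-(1 / 8 : ℝ)) with hV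
  have hV0 : 0 ≤ V := Real.rpow_nonneg (by linarith) _
  have hbf : ∀ b c, 0 ≤ bst S M b c * (f b * g c) := fun b c =>
    mul_nonneg (bst_nonneg _ _ _ _) (mul_nonneg (hf _) (hg _))
  set T : Finset (ℕ × ℕ × ℕ) := range (M + 1) ×ˢ (range (M + 1) ×ˢ range 2) with hT
  set κ : ℝ := (2 : ℝ) ^ (1 / 4 : ℝ) with hκ
  have hκ0 : 0 < κ := Real.rpow_pos_of_pos (by norm_num) _
  -- a large class
  have hlarge : ∀ a a' e b c, b ∣ M → c ∣ M → P b c → Cls X a a' e b c →
      W0 ≤ 2 ^ (a + 1) * 2 ^ (a' + 1) := by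
    intro a a' e b c hb hc hPP hcl
    have h3 : ((low X (wd b c).1 : ℕ) : ℝ) ≤ 2 ^ (a + 1) := by
      have : low X (wd b c).1 < 2 ^ (a + 1) := by
        rw [← hcl.1]; exact Nat.lt_pow_succ_log_self (by norm_num) _
      exact_mod_cast this.le
    have h4 : ((low X (wd b c).2 : ℕ) : ℝ) ≤ 2 ^ (a' + 1) := by
      have : low X (wd b c).2 < 2 ^ (a' + 1) := by
        rw [← hcl.2.1]; exact Nat.lt_pow_succ_log_self (by norm_num) _
      exact_mod_cast this.le
    refine (hPW b c hb hc hPP).trans ?_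
    push_cast
    exact mul_le_mul h3 h4 (by positivity) (by positivity)
  have h1 : frm M (fun b c => (if P b c then bst S M b c * lw X b c else 0) * (f b * g c)) ≤
      ∑ t ∈ T, frm M (fun b c => (2 * κ ^ t.1 * κ ^ t.2.1) *
        (if P b c ∧ Cls X t.1 t.2.1 t.2.2 b c then bst S M b c * (f b * g c) else 0)) := by
    rw [frm_sum]
    refine frm_mono fun b c hb hc => ?_
    have hnn : ∀ t ∈ T, (0 : ℝ) ≤ (2 * κ ^ t.1 * κ ^ t.2.1) *
        (if P b c ∧ Cls X t.1 t.2.1 t.2.2 b c then bst S M b c * (f b * g c) else 0) := by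
      intro t _
      refine mul_nonneg (by positivity) ?_
      split_ifs
      · exact hbf b c
      · exact le_rfl
    by_cases hPP : P b c
    · obtain ⟨a, ha, a', ha', e, he, hcls⟩ := exists_cls (X := X) hM hb hc
      have hmem : (a, a', e) ∈ T := by
        rw [hT, Finset.mem_product, Finset.mem_product]
        exact ⟨ha, ha', he⟩
      refine le_trans ?_ (Finset.single_le_sum hnn hmem)
      rw [if_pos hPP, if_pos ⟨hPP, hcls⟩]
      calc bst S M b c * lw X b c * (f b * g c) = lw X b c * (bst S M b c * (f b * g c)) := by ring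
        _ ≤ _ := mul_le_mul_of_nonneg_right (lw_cls hcls) (hbf b c)
    · rw [if_neg hPP, zero_mul]
      exact Finset.sum_nonneg hnn
  refine h1.trans ?_
  have h2 : ∀ t ∈ T, frm M (fun b c => (2 * κ ^ t.1 * κ ^ t.2.1) *
        (if P b c ∧ Cls X t.1 t.2.1 t.2.2 b c then bst S M b c * (f b * g c) else 0)) ≤
      (4 * (C * L * V * D)) * (rho8 ^ t.1 * rho8 ^ t.2.1) := by
    intro t _
    have e : frm M (fun b c => (2 * κ ^ t.1 * κ ^ t.2.1) *
        (if P b c ∧ Cls X t.1 t.2.1 t.2.2 b c then bst S M b c * (f b * g c) else 0)) =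
        (2 * κ ^ t.1 * κ ^ t.2.1) * frm M (fun b c =>
        (if P b c ∧ Cls X t.1 t.2.1 t.2.2 b c then bst S M b c * (f b * g c) else 0)) := by
      unfold frm
      rw [Finset.mul_sum]
      refine Finset.sum_congr rfl fun b _ => ?_
      rw [Finset.mul_sum]
      exact Finset.sum_congr rfl fun c _ => by ring
    rw [e]
    by_cases hW : W0 ≤ 2 ^ (t.1 + 1) * 2 ^ (t.2.1 + 1)
    · refine (mul_le_mul_of_nonneg_left
        (h M F hM X hX S hS P hP hU t.1 t.2.1 t.2.2 f g hf hg hf1 hg1) (by positivity)).trans ?_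
      have e2 : (2 * κ ^ t.1 * κ ^ t.2.1) * (C * L / √((2 : ℝ) ^ t.1 * 2 ^ t.2.1) * D) =
          (2 * (C * L * D)) * ((rho8 ^ t.1 * rho8 ^ t.2.1) * (rho8 ^ t.1 * rho8 ^ t.2.1)) := by
        have e3 : (rho8 ^ t.1 * rho8 ^ t.2.1) * (rho8 ^ t.1 * rho8 ^ t.2.1) =
            rho4 ^ t.1 * rho4 ^ t.2.1 := by rw [rho8_sq, rho8_sq]; ring
        rw [e3, Real.sqrt_mul (by positivity), ← rho4_sq, ← rho4_sq]
        have k1 : √((2 : ℝ) ^ t.1) ≠ 0 := by positivity
        have k2 : √((2 : ℝ) ^ t.2.1) ≠ 0 := by positivity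
        field_simp
        rw [hκ]
        ring
      rw [← hL, ← hD, e2]
      have k3 := rho8_large hW0 hW
      have k4 : 0 ≤ rho8 ^ t.1 * rho8 ^ t.2.1 := by positivity
      calc 2 * (C * L * D) * ((rho8 ^ t.1 * rho8 ^ t.2.1) * (rho8 ^ t.1 * rho8 ^ t.2.1)) ≤
          2 * (C * L * D) * ((2 * V) * (rho8 ^ t.1 * rho8 ^ t.2.1)) :=
            mul_le_mul_of_nonneg_left (mul_le_mul_of_nonneg_right k3 k4) (by positivity)
        _ = _ := by ring
    · have e0 : frm M (fun b c =>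
          (if P b c ∧ Cls X t.1 t.2.1 t.2.2 b c then bst S M b c * (f b * g c) else 0)) = 0 := by
        unfold frm
        refine Finset.sum_eq_zero fun b hb => Finset.sum_eq_zero fun c hc => ?_
        have hno : ¬ (P b c ∧ Cls X t.1 t.2.1 t.2.2 b c) := fun hh =>
          hW (hlarge _ _ _ b c (Nat.dvd_of_mem_divisors hb) (Nat.dvd_of_mem_divisors hc) hh.1 hh.2)
        simp only [hno, if_false, mul_zero]
      rw [e0, mul_zero]
      positivity
  refine (Finset.sum_le_sum h2).trans ?_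
  rw [← Finset.mul_sum, hT, Finset.sum_product]
  have hg8 := geo8_le (M + 1)
  have h3 : ∀ a ∈ range (M + 1), ∑ x ∈ range (M + 1) ×ˢ range 2, rho8 ^ a * rho8 ^ x.1 ≤
      rho8 ^ a * (2 * (1 - rho8)⁻¹) := by
    intro a _
    rw [Finset.sum_product]
    simp only [Finset.sum_const, Finset.card_range, nsmul_eq_mul]
    rw [← Finset.mul_sum, ← Finset.mul_sum]
    have h4 : 0 ≤ rho8 ^ a := by positivity
    push_cast
    nlinarith
  have h5 : ∑ a ∈ range (M + 1), ∑ x ∈ range (M + 1) ×ˢ range 2, rho8 ^ a * rho8 ^ x.1 ≤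
      2 * (1 - rho8)⁻¹ ^ 2 := by
    refine (Finset.sum_le_sum h3).trans ?_
    rw [← Finset.sum_mul]
    calc _ ≤ (1 - rho8)⁻¹ * (2 * (1 - rho8)⁻¹) := mul_le_mul_of_nonneg_right hg8 (by positivity)
      _ = _ := by ring
  calc 4 * (C * L * V * D) * _ ≤ 4 * (C * L * V * D) * (2 * (1 - rho8)⁻¹ ^ 2) :=
        mul_le_mul_of_nonneg_left h5 (by positivity)
    _ = _ := by ring

open Classical in
/-- **block `j`**: any relation with words unique per box, words `≥ W0` -/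
theorem np_SetBd_box : ∃ C : ℝ, 0 < C ∧ ∀ (M : ℕ) (F : FL M), 0 < M → ∀ j : ℕ, 1 ≤ j →
    ∀ W0 : ℝ, 1 ≤ W0 → ∀ P : ℕ → ℕ → Prop,
    (∀ b c, b ∣ M → c ∣ M → P b c → NPX F (Xj j) b c) →
    (∀ b c, b ∣ M → c ∣ M → P b c →
      W0 ≤ ((low (Xj j) (wd b c).1 * low (Xj j) (wd b c).2 : ℕ) : ℝ)) →
    UniqBox M (Xj j) P →
    SetBd M (fun b c => if P b c then bst (pr (Xj j)) M b c * lw (Xj j) b c else 0)
      (C * ((√2)⁻¹) ^ j * W0 ^ (-(1 / 8 : ℝ))) := by
  obtain ⟨C, hC, h⟩ := np_boxw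
  have hl2 : 0 < Real.log 2 := Real.log_pos (by norm_num)
  refine ⟨C * (√(Real.log 2 / 2))⁻¹, by positivity, fun M F hM j hj W0 hW0 P hP hPW hU => ?_⟩
  have hV0 : 0 ≤ W0 ^ (-(1 / 8 : ℝ)) := Real.rpow_nonneg (by linarith) _
  refine SetBd.mono (h M F hM (Xj j) (Xj_two hj) (pr (Xj j)) (fun p hp => (mem_pr.1 hp).1) W0 hW0
    P hP hPW hU) (fun _ _ _ _ => le_rfl) ?_
  refine mul_le_mul_of_nonneg_right ?_ hV0
  calc C * (Real.log (Xj j)) ^ (-(1 / 2 : ℝ)) ≤
        C * ((√(Real.log 2 / 2))⁻¹ * ((√2)⁻¹) ^ j) :=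
        mul_le_mul_of_nonneg_left (log_pow_le hj) hC.le
    _ = _ := by ring

end Crest.Agent.R4C.NPBoxx48
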