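import Crest.Agent.R4C.NPBox_48
import Crest.Agent.R4C.BoxUniq_60

/-!
# Row 4: the low word of a common point without explained low primes (helper48)

BLOCK S6 v1.2 (3463 + 3495), CASE B, `E` empty (11's (P2)): `b = g s`, `c = g s'`, common point
`s f + h = s' f'`, no differing prime `≤ X` is explained.  Then
`low X (den f') * low X s = low X (den f) * low X s'` (`low_den`): the low word is the reduced form
of `low X (den f) : low X (den f')`.  With the uniqueness of the centres in a box (`BoxUniq_60`) it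
is unique per box (`uniq_point`), so the non-pure part over one block of cuts costs `C 2^{-j/2}`
(`np_point`), weight = full boost at the primes `≤ Xj j` times `(u u')^{1/4}`.
-/

set_option autoImplicit false

open Finset
open Crest.Agent.R4C.Basex935 Crest.Agent.R4C.Cutx50 Crest.Agent.R4C.FLDefx935
open Crest.Agent.R4C.BoostRx398 (bst)
open Crest.Agent.R4C.FixedWordx423 (wd wd_pos)
open Crest.Agent.R4C.VecPurex520 (wd_low)
open Crest.Agent.R4C.NonPureBlkx559 (Xj Xj_two log_Xj)
open Crest.Agent.R4C.VecNPx50 Crest.Agent.R4C.NPBoxx48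
open Crest.Agent.R4C.S4x74 (explL)
open Crest.Agent.R4C.Rulex945 Crest.Agent.R4C.BoxUniqx60

namespace Crest.Agent.R4C.NPInstx48

/-! ### arithmetic of a common point -/

/-- the numerators `A = s num f + h den f`, `B = s' num f' - h den f'` -/
lemma point_eq {s s' : ℕ} {h : ℤ} {f f' : ℚ} (e : (s : ℚ) * f + h = s' * f') :
    ((s : ℤ) * f.num + h * f.den) * f'.den = s' * f'.num * f.den := by
  have hd : (f.den : ℚ) ≠ 0 := by exact_mod_cast f.den_pos.ne'
  have hd' : (f'.den : ℚ) ≠ 0 := by exact_mod_cast f'.den_pos.ne'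
  have e1 : f * f.den = f.num := Rat.mul_den_eq_num f
  have e2 : f' * f'.den = f'.num := Rat.mul_den_eq_num f'
  have h1 : (((s : ℤ) * f.num + h * f.den) * f'.den : ℚ) = s' * f'.num * f.den := by
    push_cast
    rw [← e1, ← e2]
    calc ((s : ℚ) * (f * f.den) + h * f.den) * f'.den = (s * f + h) * (f.den * f'.den) := by ring
      _ = (s' * f') * (f.den * f'.den) := by rw [e]
      _ = _ := by ring
  exact_mod_cast h1

lemma point_swap {s s' : ℕ} {h : ℤ} {f f' : ℚ} (e : (s : ℚ) * f + h = s' * f') :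
    (s' : ℚ) * f' + ((-h : ℤ) : ℚ) = s * f := by
  push_cast
  rw [← e]; ring

/-- comparison of the factorizations at a prime which does not divide the numerator `A` -/
lemma fact_of_not_dvd {s s' : ℕ} {h : ℤ} {f f' : ℚ} (hs' : 0 < s')
    (e : (s : ℚ) * f + h = s' * f') {p : ℕ} (hp : p.Prime)
    (hA : ¬ (p : ℤ) ∣ s * f.num + h * f.den) :
    f'.den.factorization p =
      s'.factorization p + f'.num.natAbs.factorization p + f.den.factorization p := by
  have h1 := point_eq e
  have hA0 : (s : ℤ) * f.num + h * f.den ≠ 0 := fun h0 => hA (h0 ▸ dvd_zero _)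
  have h2 := congrArg Int.natAbs h1
  rw [Int.natAbs_mul, Int.natAbs_mul, Int.natAbs_mul, Int.natAbs_natCast, Int.natAbs_natCast,
    Int.natAbs_natCast] at h2
  have hA1 : ((s : ℤ) * f.num + h * f.den).natAbs ≠ 0 := Int.natAbs_ne_zero.2 hA0
  have hd : f.den ≠ 0 := f.den_pos.ne'
  have hd' : f'.den ≠ 0 := f'.den_pos.ne'
  have hn' : f'.num.natAbs ≠ 0 := by
    intro h0
    rw [h0, mul_zero, zero_mul] at h2
    exact (mul_ne_zero hA1 hd') h2
  have h3 : ((((s : ℤ) * f.num + h * f.den).natAbs * f'.den).factorization p : ℕ) =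
      (s' * f'.num.natAbs * f.den).factorization p := by rw [h2]
  rw [Nat.factorization_mul hA1 hd', Nat.factorization_mul (mul_ne_zero hs'.ne' hn') hd,
    Nat.factorization_mul hs'.ne' hn', Finsupp.add_apply, Finsupp.add_apply,
    Finsupp.add_apply] at h3
  have h4 : ((s : ℤ) * f.num + h * f.den).natAbs.factorization p = 0 := by
    refine Nat.factorization_eq_zero_of_not_dvd fun hd => hA ?_
    exact Int.natCast_dvd.2 hd
  omega

lemma num_fact_zero {f : ℚ} {p : ℕ} (hp : p.Prime) (h : p ∣ f.den) :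
    f.num.natAbs.factorization p = 0 := by
  refine Nat.factorization_eq_zero_of_not_dvd fun hd => ?_
  have := Nat.dvd_gcd hd h
  rw [f.reduced] at this
  exact hp.one_lt.ne' (Nat.dvd_one.1 this)

/-- the member with the larger letter at a prime not explained has it in its denominator -/
lemma den_right {s s' : ℕ} {h : ℤ} {f f' : ℚ} (hs' : 0 < s')
    (e : (s : ℚ) * f + h = s' * f') {p : ℕ} (hp : p.Prime) (hps' : p ∣ s')
    (hA : ¬ (p : ℤ) ∣ s * f.num + h * f.den) :
    f'.den.factorization p = s'.factorization p + f.den.factorization p := by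
  have h1 := fact_of_not_dvd hs' e hp hA
  have h2 : 0 < s'.factorization p := hp.factorization_pos_of_dvd hs'.ne' hps'
  have h3 : p ∣ f'.den := by
    by_contra hc
    have := Nat.factorization_eq_zero_of_not_dvd hc
    omega
  rw [num_fact_zero hp h3] at h1
  omega

/-- at a common prime the denominators agree -/
lemma den_common {s s' : ℕ} {h : ℤ} {f f' : ℚ} (hs : 0 < s) (hs' : 0 < s')
    (e : (s : ℚ) * f + h = s' * f') {p : ℕ} (hp : p.Prime) (hps : ¬ p ∣ s) (hps' : ¬ p ∣ s') :
    f'.den.factorization p = f.den.factorization p := by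
  have hs0 : s.factorization p = 0 := Nat.factorization_eq_zero_of_not_dvd hps
  have hs0' : s'.factorization p = 0 := Nat.factorization_eq_zero_of_not_dvd hps'
  have hpi : Prime (p : ℤ) := Nat.prime_iff_prime_int.1 hp
  -- a prime of `den f` does not divide `A`
  have key : ∀ {s s' : ℕ} {h : ℤ} {f f' : ℚ}, 0 < s' → (s : ℚ) * f + h = s' * f' → ¬ p ∣ s →
      s'.factorization p = 0 → p ∣ f.den → f'.den.factorization p = f.den.factorization p := by
    intro s s' h f f' hs' e hps hs0' hd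
    have hA : ¬ (p : ℤ) ∣ s * f.num + h * f.den := by
      intro hc
      have hd' : (p : ℤ) ∣ (f.den : ℤ) := by exact_mod_cast hd
      have h1 : (p : ℤ) ∣ s * f.num := (dvd_add_left (hd'.mul_left h)).1 hc
      have h2 : ¬ (p : ℤ) ∣ (s : ℤ) := fun h3 => hps (by exact_mod_cast h3)
      have h3 := (hpi.dvd_or_dvd h1).resolve_left h2
      have h4 : IsCoprime f.num (f.den : ℤ) := by
        rw [Int.isCoprime_iff_gcd_eq_one]; exact f.reduced
      exact hpi.not_isUnit (h4.isUnit_of_dvd' h3 hd')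
    have h1 := fact_of_not_dvd hs' e hp hA
    have h2 : 0 < f.den.factorization p := hp.factorization_pos_of_dvd f.den_pos.ne' hd
    have h3 : p ∣ f'.den := by
      by_contra hc
      have := Nat.factorization_eq_zero_of_not_dvd hc
      omega
    rw [num_fact_zero hp h3] at h1
    omega
  by_cases hd : p ∣ f.den
  · exact key hs' e hps hs0' hd
  · by_cases hd' : p ∣ f'.den
    · exact (key hs (point_swap e) hps' hs0 hd').symm
    · rw [Nat.factorization_eq_zero_of_not_dvd hd, Nat.factorization_eq_zero_of_not_dvd hd']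

/-- **the word of a common point**: no explained differing prime `≤ X` -/
theorem low_den {s s' : ℕ} {h : ℤ} {f f' : ℚ} (hs : 0 < s) (hs' : 0 < s')
    (hc : Nat.Coprime s s') (e : (s : ℚ) * f + h = s' * f') {X : ℕ}
    (h1 : ∀ p, p.Prime → p ≤ X → p ∣ s' → ¬ explL s h f p)
    (h2 : ∀ p, p.Prime → p ≤ X → p ∣ s → ¬ explL s' (-h) f' p) :
    low X f'.den * low X s = low X f.den * low X s' := by
  refine Nat.eq_of_factorization_eq (Nat.mul_pos (low_pos _ _) (low_pos _ _)).ne'
    (Nat.mul_pos (low_pos _ _) (low_pos _ _)).ne' fun p => ?_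
  rw [Nat.factorization_mul (low_pos _ _).ne' (low_pos _ _).ne',
    Nat.factorization_mul (low_pos _ _).ne' (low_pos _ _).ne', Finsupp.add_apply,
    Finsupp.add_apply, fact_low, fact_low, fact_low, fact_low]
  by_cases hX : p ≤ X
  · rw [if_pos hX, if_pos hX, if_pos hX, if_pos hX]
    by_cases hp : p.Prime
    · by_cases hps' : p ∣ s'
      · have hps : ¬ p ∣ s := fun hps => by
          have := Nat.dvd_gcd hps hps'
          rw [hc.gcd_eq_one] at this
          exact hp.one_lt.ne' (Nat.dvd_one.1 this)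
        have h3 := den_right hs' e hp hps' (h1 p hp hX hps')
        rw [Nat.factorization_eq_zero_of_not_dvd hps]
        omega
      · by_cases hps : p ∣ s
        · have h3 := den_right hs (point_swap e) hp hps (h2 p hp hX hps)
          rw [Nat.factorization_eq_zero_of_not_dvd hps']
          omega
        · have h3 := den_common hs hs' e hp hps hps'
          rw [Nat.factorization_eq_zero_of_not_dvd hps, Nat.factorization_eq_zero_of_not_dvd hps']
          omega
    · simp [Nat.factorization_eq_zero_of_not_prime _ hp]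
  · rw [if_neg hX, if_neg hX, if_neg hX, if_neg hX]

lemma low_coprime {s s' : ℕ} (X : ℕ) (hc : Nat.Coprime s s') :
    Nat.Coprime (low X s) (low X s') :=
  Nat.Coprime.coprime_dvd_left (low_dvd_self X s)
    (Nat.Coprime.coprime_dvd_right (low_dvd_self X s') hc)

/-- a reduced fraction is determined by its value -/
lemma word_eq {a b a1 b1 D D' : ℕ} (hD : 0 < D) (hD' : 0 < D') (hc : Nat.Coprime a b)
    (hc1 : Nat.Coprime a1 b1) (h : D' * a = D * b) (h1 : D' * a1 = D * b1) :
    a = a1 ∧ b = b1 := by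
  have e : a * b1 = a1 * b := by
    have h2 : D' * D * (a * b1) = D' * D * (a1 * b) := by
      calc D' * D * (a * b1) = (D' * a) * (D * b1) := by ring
        _ = (D * b) * (D' * a1) := by rw [h, h1]
        _ = _ := by ring
    exact Nat.eq_of_mul_eq_mul_left (Nat.mul_pos hD' hD) h2
  have d1 : a ∣ a1 := hc.dvd_of_dvd_mul_right (e ▸ dvd_mul_right a b1)
  have d2 : a1 ∣ a := hc1.dvd_of_dvd_mul_right (e.symm ▸ dvd_mul_right a1 b)
  have d3 : b ∣ b1 := hc.symm.dvd_of_dvd_mul_left (e.symm ▸ dvd_mul_left b a1)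
  have d4 : b1 ∣ b := hc1.symm.dvd_of_dvd_mul_left (e ▸ dvd_mul_left b1 a)
  exact ⟨Nat.dvd_antisymm d1 d2, Nat.dvd_antisymm d3 d4⟩

/-! ### uniqueness per box -/

variable {M : ℕ} (F : FL M) (P : Par)

/-- the pair has a common point with tree centres of depth `≤ K` at scales whose cuts are `≥ X`,
and no differing prime `≤ X` is explained by it -/
def PtX (X : ℕ) (K : ℝ) (b c : ℕ) : Prop :=
  ∃ (m m' : ℕ) (f f' : ℚ) (h : ℤ), X ≤ P.cut m ∧ X ≤ P.cut m' ∧
    4 * K ^ 2 < 2 ^ m ∧ 4 * K ^ 2 < 2 ^ m' ∧ TC F P m b f ∧ TC F P m' c f' ∧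
    dep F P m b f ≤ K ∧ dep F P m' c f' ≤ K ∧
    ((wd b c).1 : ℚ) * f + h = (wd b c).2 * f' ∧
    (∀ p, p.Prime → p ≤ X → p ∣ (wd b c).2 → ¬ explL (wd b c).1 h f p) ∧
    (∀ p, p.Prime → p ≤ X → p ∣ (wd b c).1 → ¬ explL (wd b c).2 (-h) f' p)

variable {F P}

/-- words of one box differ by a factor `≤ 2` -/
lemma box_le {X b b1 : ℕ} (hb : 0 < b) (hb1 : 0 < b1) (h : upp X b = upp X b1)
    (hs : sz X b = sz X b1) : (b : ℝ) ≤ 2 * b1 := by
  have e1 := low_mul_upp X hb.ne'
  have e2 := low_mul_upp X hb1.ne'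
  have h1 : low X b < 2 ^ (sz X b + 1) := Nat.lt_pow_succ_log_self (by norm_num) _
  have h2 : 2 ^ sz X b1 ≤ low X b1 := Nat.pow_log_le_self 2 (low_pos _ _).ne'
  have h3 : low X b ≤ 2 * low X b1 := by
    rw [hs] at h1
    have : 2 ^ (sz X b1 + 1) = 2 * 2 ^ sz X b1 := by ring
    omega
  have h4 : b ≤ 2 * b1 := by
    calc b = low X b * upp X b := e1.symm
      _ ≤ 2 * low X b1 * upp X b := Nat.mul_le_mul_right _ h3
      _ = 2 * (low X b1 * upp X b1) := by rw [h]; ring
      _ = 2 * b1 := by rw [e2]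
  exact_mod_cast h4

lemma upp_of_cut {y X b b1 : ℕ} (hyX : y ≤ X) (h : upp y b = upp y b1) : upp X b = upp X b1 := by
  rw [← upp_upp hyX b, ← upp_upp hyX b1, h]

theorem uniq_point (hL : 0 < P.L) (hM : 0 < M) (hcut : Monotone P.cut) (X : ℕ) (K : ℝ) :
    UniqBox M X (fun b c => NPX F X b c ∧ PtX F P X K b c) := by
  intro a a' e b c b1 c1 hb hc hb1 hc1 hP hP1 hcl hcl1 hsb hsc hub huc
  obtain ⟨hN, m, m', f, f', h, x1, x2, k1, k2, t1, t2, d1, d2, ept, ex, ex'⟩ := hP
  obtain ⟨hN1, m1, m1', f1, f1', h1, y1, y2, l1, l2, u1, u2, v1, v2, ept1, ey, ey'⟩ := hP1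
  have hb0 : 0 < b := Nat.pos_of_dvd_of_pos hb hM
  have hc0 : 0 < c := Nat.pos_of_dvd_of_pos hc hM
  have hb10 : 0 < b1 := Nat.pos_of_dvd_of_pos hb1 hM
  have hc10 : 0 < c1 := Nat.pos_of_dvd_of_pos hc1 hM
  obtain ⟨hyX, e1, e2, _, _⟩ := cls_cut hN.size hcl
  obtain ⟨_, g1, g2, _, _⟩ := cls_cut hN1.size hcl1
  have hub' := upp_of_cut hyX hub
  have huc' := upp_of_cut hyX huc
  have e4 : (2 : ℝ) * 2 * K ^ 2 = 4 * K ^ 2 := by ring
  have hf : f = f1 := box_unique' hL hM hcut hb hb1 x1 y1 (SameUp.of_upp hub') (by norm_num)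
    (box_le hb0 hb10 hub' hsb) (box_le hb10 hb0 hub'.symm hsb.symm) t1 u1 d1 v1
    (by rw [e4]; exact k1) (by rw [e4]; exact l1)
  have hf' : f' = f1' := box_unique' hL hM hcut hc hc1 x2 y2 (SameUp.of_upp huc') (by norm_num)
    (box_le hc0 hc10 huc' hsc) (box_le hc10 hc0 huc'.symm hsc.symm) t2 u2 d2 v2
    (by rw [e4]; exact k2) (by rw [e4]; exact l2)
  subst hf; subst hf'
  have hw := wd_pos hb0 hc0
  have hw1 := wd_pos hb10 hc10
  have hcop : Nat.Coprime (wd b c).1 (wd b c).2 :=
    Nat.coprime_div_gcd_div_gcd (Nat.gcd_pos_of_pos_left _ hb0)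
  have hcop1 : Nat.Coprime (wd b1 c1).1 (wd b1 c1).2 :=
    Nat.coprime_div_gcd_div_gcd (Nat.gcd_pos_of_pos_left _ hb10)
  have q1 := low_den hw.1 hw.2 hcop ept ex ex'
  have q2 := low_den hw1.1 hw1.2 hcop1 ept1 ey ey'
  have q3 := word_eq (low_pos X f.den) (low_pos X f'.den) (low_coprime X hcop)
    (low_coprime X hcop1) q1 q2
  rw [wd_low _ hb0.ne' hc0.ne', wd_low _ hb10.ne' hc10.ne', e1, e2, g1, g2, q3.1, q3.2]

open Classical in
/-- **non-pure pairs of one block with a common point and no explained low prime** -/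
theorem np_point : ∃ C : ℝ, 0 < C ∧ ∀ (M : ℕ) (F : FL M) (P : Par), 0 < M → 0 < P.L →
    Monotone P.cut → ∀ (j : ℕ), 1 ≤ j → ∀ K : ℝ,
    SetBd M (fun b c => if NPX F (Xj j) b c ∧ PtX F P (Xj j) K b c then
      bst (pr (Xj j)) M b c * lw (Xj j) b c else 0) (C * ((√2)⁻¹) ^ j) := by
  obtain ⟨C, hC, h⟩ := np_SetBd_box
  refine ⟨C, hC, fun M F P hM hL hcut j hj K => ?_⟩
  have h1 := h M F hM j hj 1 le_rfl (fun b c => NPX F (Xj j) b c ∧ PtX F P (Xj j) K b c)
    (fun b c _ _ hh => hh.1) (fun b c _ _ _ => by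
      have : 0 < low (Xj j) (wd b c).1 * low (Xj j) (wd b c).2 :=
        Nat.mul_pos (low_pos _ _) (low_pos _ _)
      exact_mod_cast this) (uniq_point hL hM hcut (Xj j) K)
  rw [Real.one_rpow, mul_one] at h1
  convert h1

end Crest.Agent.R4C.NPInstx48
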