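import Crest.Agent.R4C.NPInst_48
import Crest.Agent.R4C.SplitDef_945
import Crest.Agent.R4C.SamePt_217

/-!
# Row 4: class CNP of `SplitDef_945`, uniqueness per box and block reduction (helper217)

`PtU F P X K b c h f f'` : the linked offset `h` is a common point of tree centres `f, f'` of depth
`≤ K` at scales whose cuts are `≥ X`, and nothing explained differs `≤ X` (`NoEx`) or the low word at
`X` is short (`32 Π < depth`).

* `two_box` : two different low words of one box (same class, same dyadic sizes, same letters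
  `> X`) with the same common point: `depth ≤ 32 Π`;
* `uniq_all` : `UniqBox` for `NPX ∧ PtU`;
* `off_unique` : `f, f', h` are determined by the pair;
* `np_all` : `SetBd` for one block, constant `C (√2)^{-j}`;
* `ptU_of_BS`, `npx_of` : reduction of `CNP` at the level `t` to the block of `t`.
-/

set_option autoImplicit false

open Finset
open Crest.Agent.R4C.Basex935 Crest.Agent.R4C.Cutx50 Crest.Agent.R4C.FLDefx935
open Crest.Agent.R4C.BoostRx398 (bst)
open Crest.Agent.R4C.BoostCx972 (gap)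
open Crest.Agent.R4C.FixedWordx423 (wd wd_pos)
open Crest.Agent.R4C.VecPurex520 (wd_low part_div_gcd)
open Crest.Agent.R4C.NonPureBlkx559 (Xj Xj_two log_Xj)
open Crest.Agent.R4C.CrCountx935 Crest.Agent.R4C.Bridgex882
open Crest.Agent.R4C.VecNPx50 Crest.Agent.R4C.NPBoxx48 Crest.Agent.R4C.NPInstx48
open Crest.Agent.R4C.S2bx284 (InLat two_words dep_mono)
open Crest.Agent.R4C.Rulex945 Crest.Agent.R4C.BoxUniqx60 Crest.Agent.R4C.Sharedx11
  Crest.Agent.R4C.Splitx945

namespace Crest.Agent.R4C.NPsx217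

open Crest.Agent.R4C.SamePtx217 (kd an kd_pos kd_mul an_coprime inLat_of_point)

variable {M : ℕ}

/-! ### denominators -/

/-- a small `k0` divides the denominator of `(upp X s) f` -/
lemma k0_dvd_kd {F : FL M} {X b s : ℕ} {f : ℚ} (hk : k0 F X b f ≤ X) :
    k0 F X b f ∣ kd f (upp X s) := by
  set Λ := upp X s with hΛ
  have h1 := k0_mul (F := F) X b f
  have h2 := kd_mul f Λ
  have h3 : Nat.Coprime (Nat.gcd f.den Λ) (k0 F X b f) := by
    refine Nat.coprime_of_dvd fun p hp h4 h5 => ?_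
    have h6 : p ≤ k0 F X b f := Nat.le_of_dvd (k0_pos X b f) h5
    have h7 : p ∣ upp X s := h4.trans (Nat.gcd_dvd_right _ _)
    have h8 : ¬ p ≤ X := prime_dvd_part (fun p => ¬ p ≤ X) hp h7
    exact h8 (h6.trans hk)
  have h4 : Nat.gcd f.den Λ ∣ Nat.gcd f.den (F.lam X b) := by
    refine h3.dvd_of_dvd_mul_left ?_
    rw [h1]
    exact Nat.gcd_dvd_left _ _
  obtain ⟨r, hr⟩ := h4
  have hG : 0 < Nat.gcd f.den Λ := Nat.gcd_pos_of_pos_left _ f.den_pos
  refine ⟨r, Nat.eq_of_mul_eq_mul_left hG ?_⟩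
  rw [h2]
  calc f.den = k0 F X b f * Nat.gcd f.den (F.lam X b) := h1.symm
    _ = k0 F X b f * (Nat.gcd f.den Λ * r) := by rw [hr]
    _ = _ := by ring

lemma log_lt {a b : ℕ} (hb : 0 < b) (h : Nat.log 2 a = Nat.log 2 b) : a < 2 * b := by
  have h1 : a < 2 ^ (Nat.log 2 a + 1) := Nat.lt_pow_succ_log_self (by norm_num) _
  have h2 : 2 ^ Nat.log 2 b ≤ b := Nat.pow_log_le_self 2 hb.ne'
  rw [h, pow_succ] at h1
  omega

/-- the upper word of a pair is determined by the letters `> X` -/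
lemma upp_word {X b c b1 c1 : ℕ} (hb : b ≠ 0) (hc : c ≠ 0) (hb1 : b1 ≠ 0) (hc1 : c1 ≠ 0)
    (h : upp X b = upp X b1) (h' : upp X c = upp X c1) :
    upp X (b / Nat.gcd b c) = upp X (b1 / Nat.gcd b1 c1) := by
  have e1 : upp X (b / Nat.gcd b c) = upp X b / Nat.gcd (upp X b) (upp X c) :=
    part_div_gcd (fun p => ¬ p ≤ X) hb hc
  have e2 : upp X (b1 / Nat.gcd b1 c1) = upp X b1 / Nat.gcd (upp X b1) (upp X c1) :=
    part_div_gcd (fun p => ¬ p ≤ X) hb1 hc1
  rw [e1, e2, h, h']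

/-! ### two words of one box with the same common point -/

/-- lower bound for the depth of `S2b` -/
lemma depx_le_dep {F : FL M} {X b : ℕ} {f : ℚ} {γ L t δ δ' : ℝ} {k k' u v : ℕ} (hk : k0 F X b f ∣ k)
    (hk0 : 0 < k) (hk0' : 0 < k') (ht : (b : ℝ) * |γ - f| / L ≤ 4 * (t * u * |δ|)) :
    depx F γ L X b f ≤ 4 * S2bx284.dep k k' t δ δ' u v := by
  unfold depx S2bx284.dep
  have h1 : (k0 F X b f : ℝ) ≤ (Nat.lcm k k' : ℝ) := by
    exact_mod_cast Nat.le_of_dvd (Nat.lcm_pos hk0 hk0') (hk.trans (Nat.dvd_lcm_left _ _))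
  have h2 : max 1 ((b : ℝ) * |γ - f| / L) ≤ 4 * max 1 (max (t * u * |δ|) (t * v * |δ'|)) := by
    refine max_le ?_ (ht.trans ?_)
    · have : (1 : ℝ) ≤ max 1 (max (t * u * |δ|) (t * v * |δ'|)) := le_max_left _ _
      linarith
    · refine mul_le_mul_of_nonneg_left ?_ (by norm_num)
      exact (le_max_left _ _).trans (le_max_right _ _)
  have h3 : (0 : ℝ) ≤ max 1 ((b : ℝ) * |γ - f| / L) := zero_le_one.trans (le_max_left _ _)
  calc (k0 F X b f : ℝ) * max 1 ((b : ℝ) * |γ - f| / L) ≤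
      (Nat.lcm k k' : ℝ) * (4 * max 1 (max (t * u * |δ|) (t * v * |δ'|))) :=
        mul_le_mul h1 h2 h3 (Nat.cast_nonneg _)
    _ = _ := by ring

lemma dep_swap (k k' : ℕ) (t δ δ' : ℝ) (u v : ℕ) :
    S2bx284.dep k k' t δ δ' u v = S2bx284.dep k' k t δ' δ v u := by
  unfold S2bx284.dep
  rw [Nat.lcm_comm, max_comm (t * u * |δ|)]

/-- **two different words of one box** -/
theorem two_box {F : FL M} {γ L : ℝ} (hL : 0 < L) {X b c b1 c1 : ℕ} {h h1 : ℤ} {f f' : ℚ}
    (hb : 0 < b) (hc : 0 < c) (hb1 : 0 < b1) (hc1 : 0 < c1)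
    (hub : upp X b = upp X b1) (huc : upp X c = upp X c1)
    (hsb : sz X b = sz X b1)
    (hu : Nat.log 2 (low X (b / Nat.gcd b c)) = Nat.log 2 (low X (b1 / Nat.gcd b1 c1)))
    (hv : Nat.log 2 (low X (c / Nat.gcd b c)) = Nat.log 2 (low X (c1 / Nat.gcd b1 c1)))
    (pt : gap f f' (b / Nat.gcd b c) (c / Nat.gcd b c) h = 0)
    (pt1 : gap f f' (b1 / Nat.gcd b1 c1) (c1 / Nat.gcd b1 c1) h1 = 0)
    (lk : h ∈ Lnk γ L b c) (lk1 : h1 ∈ Lnk γ L b1 c1)
    (kX : k0 F X b f ≤ X) (kX' : k0 F X c f' ≤ X)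
    (hne : (low X (b / Nat.gcd b c), low X (c / Nat.gcd b c)) ≠
      (low X (b1 / Nat.gcd b1 c1), low X (c1 / Nat.gcd b1 c1))) :
    depx F γ L X b f ≤ 32 * ((low X (b / Nat.gcd b c) : ℝ) * low X (c / Nat.gcd b c)) ∧
    depx F γ L X c f' ≤ 32 * ((low X (b / Nat.gcd b c) : ℝ) * low X (c / Nat.gcd b c)) := by
  set g := Nat.gcd b c with hg
  set g1 := Nat.gcd b1 c1 with hg1
  set s := b / g with hs
  set s' := c / g with hs'
  set s1 := b1 / g1 with hs1
  set s1' := c1 / g1 with hs1'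
  have g0 : 0 < g := Nat.gcd_pos_of_pos_left _ hb
  have g10 : 0 < g1 := Nat.gcd_pos_of_pos_left _ hb1
  have eb : g * s = b := Nat.mul_div_cancel' (Nat.gcd_dvd_left b c)
  have ec : g * s' = c := Nat.mul_div_cancel' (Nat.gcd_dvd_right b c)
  have eb1 : g1 * s1 = b1 := Nat.mul_div_cancel' (Nat.gcd_dvd_left b1 c1)
  have ec1 : g1 * s1' = c1 := Nat.mul_div_cancel' (Nat.gcd_dvd_right b1 c1)
  have s0 : 0 < s := Nat.pos_of_ne_zero fun h => by rw [h, mul_zero] at eb; omega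
  have s0' : 0 < s' := Nat.pos_of_ne_zero fun h => by rw [h, mul_zero] at ec; omega
  have s10 : 0 < s1 := Nat.pos_of_ne_zero fun h => by rw [h, mul_zero] at eb1; omega
  have s10' : 0 < s1' := Nat.pos_of_ne_zero fun h => by rw [h, mul_zero] at ec1; omega
  set u := low X s with hud
  set v := low X s' with hvd
  set u1 := low X s1 with hu1d
  set v1 := low X s1' with hv1d
  set x := upp X s with hx
  set x' := upp X s' with hx'
  have ex : upp X s1 = x := (upp_word hb.ne' hc.ne' hb1.ne' hc1.ne' hub huc).symm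
  have ex' : upp X s1' = x' := by
    have := upp_word hc.ne' hb.ne' hc1.ne' hb1.ne' huc hub
    rw [Nat.gcd_comm c b, Nat.gcd_comm c1 b1] at this
    exact this.symm
  have us : u * x = s := low_mul_upp X s0.ne'
  have vs : v * x' = s' := low_mul_upp X s0'.ne'
  have us1 : u1 * x = s1 := by rw [← ex]; exact low_mul_upp X s10.ne'
  have vs1 : v1 * x' = s1' := by rw [← ex']; exact low_mul_upp X s10'.ne'
  have u0 : 0 < u := low_pos _ _
  have v0 : 0 < v := low_pos _ _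
  have u10 : 0 < u1 := low_pos _ _
  have v10 : 0 < v1 := low_pos _ _
  have x0 : 0 < x := upp_pos _ _
  have x0' : 0 < x' := upp_pos _ _
  -- sizes
  have hg4 : (g : ℝ) ≤ 4 * g1 := by
    have h1 := box_le hb hb1 hub hsb
    have h2 : u1 < 2 * u := log_lt u0 hu.symm
    have h3 : (u1 : ℝ) ≤ 2 * u := by exact_mod_cast h2.le
    have e1 : (b : ℝ) = g * (u * x) := by rw [← eb, ← us]; push_cast; ring
    have e2 : (b1 : ℝ) = g1 * (u1 * x) := by rw [← eb1, ← us1]; push_cast; ring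
    have hx0 : (0 : ℝ) < u * x := by positivity
    have h4 : (g : ℝ) * (u * x) ≤ 4 * g1 * (u * x) := by
      calc (g : ℝ) * (u * x) = b := e1.symm
        _ ≤ 2 * b1 := h1
        _ = 2 * g1 * x * u1 := by rw [e2]; ring
        _ ≤ 2 * g1 * x * (2 * u) := mul_le_mul_of_nonneg_left h3 (by positivity)
        _ = _ := by ring
    exact le_of_mul_le_mul_right h4 hx0
  have gR : (0 : ℝ) < g := by exact_mod_cast g0
  have g1R : (0 : ℝ) < g1 := by exact_mod_cast g10
  set t : ℝ := min (g : ℝ) g1 / L with ht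
  have t0 : 0 < t := div_pos (lt_min gR g1R) hL
  have ht4 : (g : ℝ) / L ≤ 4 * t := by
    rw [ht, ← mul_div_assoc]
    refine div_le_div_of_nonneg_right ?_ hL.le
    rcases min_choice (g : ℝ) g1 with h | h
    · rw [h]; linarith
    · rw [h]; exact hg4
  set δ : ℝ := x * (γ - f) with hδ
  set δ' : ℝ := x' * (γ - f') with hδ'
  -- the strip
  have strip : ∀ {σ σ' U V G : ℕ} {H : ℤ}, U * x = σ → V * x' = σ' → gap f f' σ σ' H = 0 →
      H ∈ Hf γ (L / (G : ℕ)) σ σ' → t ≤ G / L → 0 < G → |(U : ℝ) * δ - V * δ'| < 1 / t := by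
    intro σ σ' U V G H e1 e2 e3 e4 e5 e6
    have hGR : (0 : ℝ) < G := by exact_mod_cast e6
    have h1 := mem_Hf.1 e4
    have h2 : (σ : ℝ) * f - σ' * f' + H = 0 := by
      have : (((σ : ℚ) * f - σ' * f' + H : ℚ) : ℝ) = 0 := by
        unfold BoostCx972.gap at e3
        rw [e3]; norm_num
      push_cast at this
      exact this
    have h3 : (U : ℝ) * δ - V * δ' = ((σ : ℝ) - σ') * γ + H := by
      have e1' : (U : ℝ) * x = σ := by exact_mod_cast e1
      have e2' : (V : ℝ) * x' = σ' := by exact_mod_cast e2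
      rw [hδ, hδ']
      calc (U : ℝ) * (x * (γ - f)) - V * (x' * (γ - f')) =
          (U * x) * (γ - f) - (V * x') * (γ - f') := by ring
        _ = σ * (γ - f) - σ' * (γ - f') := by rw [e1', e2']
        _ = _ := by linear_combination (-1) * h2
    rw [h3]
    refine h1.trans_le ?_
    rw [one_div]
    have : (L / (G : ℝ)) = ((G : ℝ) / L)⁻¹ := by rw [inv_div]
    rw [this]
    exact inv_anti₀ t0 e5
  have S1 : |(u : ℝ) * δ - v * δ'| < 1 / t := by
    refine strip us vs pt lk ?_ g0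
    rw [ht]
    exact div_le_div_of_nonneg_right (min_le_left _ _) hL.le
  have S2 : |(u1 : ℝ) * δ - v1 * δ'| < 1 / t := by
    refine strip us1 vs1 pt1 lk1 ?_ g10
    rw [ht]
    exact div_le_div_of_nonneg_right (min_le_right _ _) hL.le
  -- the lattice
  have lat : ∀ {σ σ' U V : ℕ} {H : ℤ}, U * x = σ → V * x' = σ' → gap f f' σ σ' H = 0 →
      InLat (an f x) (kd f x) (an f' x') (kd f' x') U V := by
    intro σ σ' U V H e1 e2 e3
    have h1 : ((U * (x * 1) : ℕ) : ℚ) * f - ((V * (x' * 1) : ℕ) : ℚ) * f' + H = 0 := by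
      rw [mul_one, mul_one, e1, e2]
      exact e3
    have := inLat_of_point h1
    rwa [one_mul, one_mul] at this
  have hco : Nat.Coprime u v := by
    refine low_coprime X ?_
    exact Nat.coprime_div_gcd_div_gcd g0
  have hco1 : Nat.Coprime u1 v1 := by
    refine low_coprime X ?_
    exact Nat.coprime_div_gcd_div_gcd g10
  have h2w := two_words t0 (kd_pos f x) (kd_pos f' x') (an_coprime f x) (an_coprime f' x')
    (lat us vs pt) (lat us1 vs1 pt1) S1 S2 hco hco1 u0 v0 u10 v10 hne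
  have h3w := (dep_mono (k := kd f x) (k' := kd f' x') (δ := δ) (δ' := δ') t0.le
    (le_max_left u u1) (le_max_left v v1)).trans h2w
  have h4w : (2 : ℝ) * ((max u u1 : ℕ) * (max v v1 : ℕ)) ≤ 8 * ((u : ℝ) * v) := by
    have a1 : max u u1 ≤ 2 * u := max_le (by omega) (log_lt u0 hu.symm).le
    have a2 : max v v1 ≤ 2 * v := max_le (by omega) (log_lt v0 hv.symm).le
    have a1' : ((max u u1 : ℕ) : ℝ) ≤ 2 * u := by exact_mod_cast a1
    have a2' : ((max v v1 : ℕ) : ℝ) ≤ 2 * v := by exact_mod_cast a2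
    calc (2 : ℝ) * ((max u u1 : ℕ) * (max v v1 : ℕ)) ≤ 2 * ((2 * u) * (2 * v)) :=
          mul_le_mul_of_nonneg_left (mul_le_mul a1' a2' (Nat.cast_nonneg _) (by positivity))
            (by norm_num)
      _ = _ := by ring
  have h5w := h3w.trans h4w
  -- displacement
  have disp : ∀ {d σ U y : ℕ} {e : ℚ}, g * σ = d → U * y = σ →
      (d : ℝ) * |γ - e| / L ≤ 4 * (t * U * |(y : ℝ) * (γ - e)|) := by
    intro d σ U y e e1 e2
    have e1' : (d : ℝ) = g * (U * y) := by rw [← e1, ← e2]; push_cast; ring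
    rw [abs_mul, Nat.abs_cast, e1']
    calc (g : ℝ) * (U * y) * |γ - e| / L = (g : ℝ) / L * (U * y * |γ - e|) := by ring
      _ ≤ 4 * t * (U * y * |γ - e|) := mul_le_mul_of_nonneg_right ht4 (by positivity)
      _ = _ := by ring
  constructor
  · have h6 := depx_le_dep (F := F) (γ := γ) (L := L) (δ' := δ') (v := v)
      (k0_dvd_kd (F := F) (s := s) kX) (kd_pos f x) (kd_pos f' x')
      (disp (e := f) eb us)
    linarith
  · have h6 := depx_le_dep (F := F) (γ := γ) (L := L) (δ' := δ) (v := u)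
      (k0_dvd_kd (F := F) (s := s') kX') (kd_pos f' x') (kd_pos f x)
      (disp (e := f') ec vs)
    rw [dep_swap] at h5w
    linarith

/-! ### the relation -/

/-- `f` is a tree centre of `b` of depth `≤ K` at a scale whose cut is `≥ X` -/
def Cen (F : FL M) (P : Par) (X : ℕ) (K : ℝ) (b : ℕ) (f : ℚ) : Prop :=
  ∃ m, X ≤ P.cut m ∧ 4 * K ^ 2 < 2 ^ m ∧ TC F P m b f ∧ dep F P m b f ≤ K

/-- product of the low word at the cut `X` -/
noncomputable def Pw (X b c : ℕ) : ℝ :=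
  (low X (b / Nat.gcd b c) : ℝ) * low X (c / Nat.gcd b c)

lemma one_le_Pw (X b c : ℕ) : 1 ≤ Pw X b c := by
  unfold Pw
  have h1 : (1 : ℝ) ≤ low X (b / Nat.gcd b c) := by exact_mod_cast low_pos _ _
  have h2 : (1 : ℝ) ≤ low X (c / Nat.gcd b c) := by exact_mod_cast low_pos _ _
  nlinarith

/-- common point with small depths at the cut `X`; nothing explained differs or the low word is
short -/
structure PtU (F : FL M) (P : Par) (X : ℕ) (K : ℝ) (b c : ℕ) (h : ℤ) (f f' : ℚ) : Prop where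
  cb : Cen F P X K b f
  cc : Cen F P X K c f'
  pt : gap f f' (b / Nat.gcd b c) (c / Nat.gcd b c) h = 0
  lnk : h ∈ Lnk P.γ P.L b c
  alt : NoEx X b c f f' ∨ 32 * Pw X b c < depx F P.γ P.L X b f ∨
    32 * Pw X b c < depx F P.γ P.L X c f'

variable {F : FL M} {P : Par}

lemma Cen.unique (hL : 0 < P.L) (hM : 0 < M) (hcut : Monotone P.cut) {X b b1 : ℕ} {K : ℝ}
    {f f1 : ℚ} (hb : b ∣ M) (hb1 : b1 ∣ M) (hu : upp X b = upp X b1) (hs : sz X b = sz X b1)
    (h : Cen F P X K b f) (h1 : Cen F P X K b1 f1) : f = f1 := by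
  obtain ⟨m, a1, a2, a3, a4⟩ := h
  obtain ⟨m1, b1', b2, b3, b4⟩ := h1
  have hb0 := Nat.pos_of_dvd_of_pos hb hM
  have hb10 := Nat.pos_of_dvd_of_pos hb1 hM
  have e4 : (2 : ℝ) * 2 * K ^ 2 = 4 * K ^ 2 := by ring
  exact box_unique' hL hM hcut hb hb1 a1 b1' (SameUp.of_upp hu) (by norm_num)
    (box_le hb0 hb10 hu hs) (box_le hb10 hb0 hu.symm hs.symm) a3 b3 a4 b4
    (by rw [e4]; exact a2) (by rw [e4]; exact b2)

/-- the depth is the same at `X` -/
lemma depx_eq (hM : 0 < M) {X x b : ℕ} {K : ℝ} {f : ℚ} (hb : b ∣ M) (hX : X ≤ x)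
    (hK : depx F P.γ P.L x b f ≤ K) (hKX : K ≤ X) :
    depx F P.γ P.L X b f = depx F P.γ P.L x b f := by
  have h1 : (k0 F x b f : ℝ) ≤ X := (k0_le_depx x b f).trans (hK.trans hKX)
  have h2 : k0 F x b f ≤ X := by exact_mod_cast h1
  have h3 := k0_const (F := F) hM hb hX h2
  unfold depx
  rw [h3]

lemma Cen.kX (hM : 0 < M) {X b : ℕ} {K : ℝ} {f : ℚ} (hb : b ∣ M) (hKX : K ≤ X)
    (h : Cen F P X K b f) : (k0 F X b f : ℝ) ≤ K ∧ k0 F X b f ≤ X ∧
      depx F P.γ P.L X b f ≤ K := by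
  obtain ⟨m, a1, _, _, a4⟩ := h
  rw [dep_eq] at a4
  have h1 := depx_eq (P := P) hM hb a1 a4 hKX
  have h2 : depx F P.γ P.L X b f ≤ K := h1 ▸ a4
  have h3 : (k0 F X b f : ℝ) ≤ K := (k0_le_depx (γ := P.γ) (L := P.L) X b f).trans h2
  exact ⟨h3, by exact_mod_cast h3.trans hKX, h2⟩

/-- **uniqueness per box** -/
theorem uniq_all (hL : 0 < P.L) (hM : 0 < M) (hcut : Monotone P.cut) {X : ℕ} {K : ℝ}
    (hKX : K ≤ X) :
    UniqBox M X (fun b c => NPX F X b c ∧ ∃ h f f', PtU F P X K b c h f f') := by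
  intro a a' e b c b1 c1 hb hc hb1 hc1 hP hP1 hcl hcl1 hsb hsc hub huc
  obtain ⟨hN, h, f, f', hp⟩ := hP
  obtain ⟨hN1, h1, f1, f1', hp1⟩ := hP1
  have hb0 : 0 < b := Nat.pos_of_dvd_of_pos hb hM
  have hc0 : 0 < c := Nat.pos_of_dvd_of_pos hc hM
  have hb10 : 0 < b1 := Nat.pos_of_dvd_of_pos hb1 hM
  have hc10 : 0 < c1 := Nat.pos_of_dvd_of_pos hc1 hM
  obtain ⟨hyX, e1, e2, _, _⟩ := cls_cut hN.size hcl
  obtain ⟨_, g1, g2, _, _⟩ := cls_cut hN1.size hcl1
  have hub' := upp_of_cut hyX hub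
  have huc' := upp_of_cut hyX huc
  have hf : f = f1 := hp.cb.unique hL hM hcut hb hb1 hub' hsb hp1.cb
  have hf' : f' = f1' := hp.cc.unique hL hM hcut hc hc1 huc' hsc hp1.cc
  subst hf; subst hf'
  rw [wd_low _ hb0.ne' hc0.ne', wd_low _ hb10.ne' hc10.ne', e1, e2, g1, g2]
  obtain ⟨_, kX, dX⟩ := hp.cb.kX hM hb hKX
  obtain ⟨_, kX', dX'⟩ := hp.cc.kX hM hc hKX
  obtain ⟨_, kX1, dX1⟩ := hp1.cb.kX hM hb1 hKX
  obtain ⟨_, kX1', dX1'⟩ := hp1.cc.kX hM hc1 hKX
  by_contra hne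
  have t1 := two_box (F := F) hL hb0 hc0 hb10 hc10 hub' huc' hsb
    (hcl.1.trans hcl1.1.symm) (hcl.2.1.trans hcl1.2.1.symm) hp.pt hp1.pt hp.lnk hp1.lnk kX kX' hne
  have t2 := two_box (F := F) hL hb10 hc10 hb0 hc0 hub'.symm huc'.symm hsb.symm
    (hcl1.1.trans hcl.1.symm) (hcl1.2.1.trans hcl.2.1.symm) hp1.pt hp.pt hp1.lnk hp.lnk kX1 kX1'
    (fun h => hne h.symm)
  rcases hp.alt with hn | h3 | h3
  · rcases hp1.alt with hn1 | h4 | h4
    · -- nothing explained
      apply hne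
      have eb : Nat.gcd b c * (b / Nat.gcd b c) = b := Nat.mul_div_cancel' (Nat.gcd_dvd_left b c)
      have ec : Nat.gcd b c * (c / Nat.gcd b c) = c := Nat.mul_div_cancel' (Nat.gcd_dvd_right b c)
      have eb1 : Nat.gcd b1 c1 * (b1 / Nat.gcd b1 c1) = b1 :=
        Nat.mul_div_cancel' (Nat.gcd_dvd_left b1 c1)
      have ec1 : Nat.gcd b1 c1 * (c1 / Nat.gcd b1 c1) = c1 :=
        Nat.mul_div_cancel' (Nat.gcd_dvd_right b1 c1)
      have hco : Nat.Coprime (b / Nat.gcd b c) (c / Nat.gcd b c) :=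
        Nat.coprime_div_gcd_div_gcd (Nat.gcd_pos_of_pos_left _ hb0)
      have hco1 : Nat.Coprime (b1 / Nat.gcd b1 c1) (c1 / Nat.gcd b1 c1) :=
        Nat.coprime_div_gcd_div_gcd (Nat.gcd_pos_of_pos_left _ hb10)
      have q1 := Sharedx11.word_eq (F := F) (x := X) (g := Nat.gcd b c) hM
        (by rw [eb]; exact hb) (by rw [ec]; exact hc) hco hp.pt (by rw [eb, ec]; exact hn)
      have q2 := Sharedx11.word_eq (F := F) (x := X) (g := Nat.gcd b1 c1) hM
        (by rw [eb1]; exact hb1) (by rw [ec1]; exact hc1) hco1 hp1.pt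
        (by rw [eb1, ec1]; exact hn1)
      rw [eb, ec] at q1
      rw [eb1, ec1, ← k0_eq (F := F) hb hb1 le_rfl (SameUp.of_upp hub') f,
        ← k0_eq (F := F) hc hc1 le_rfl (SameUp.of_upp huc') f'] at q2
      have q3 := NPInstx48.word_eq (D := low X (k0 F X b f)) (D' := low X (k0 F X c f'))
        (low_pos _ _) (low_pos _ _) (Sharedx11.low_coprime hco) (Sharedx11.low_coprime hco1)
        (by rw [mul_comm, q1, mul_comm]) (by rw [mul_comm, q2, mul_comm])
      exact Prod.ext q3.1 q3.2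
    · exact absurd t2.1 (not_le.2 h4)
    · exact absurd t2.2 (not_le.2 h4)
  · exact absurd t1.1 (not_le.2 h3)
  · exact absurd t1.2 (not_le.2 h3)

/-- the centres and the offset are determined by the pair -/
theorem off_unique (hL : 0 < P.L) (hM : 0 < M) (hcut : Monotone P.cut) {X b c : ℕ} {K : ℝ}
    {h h1 : ℤ} {f f' f1 f1' : ℚ} (hb : b ∣ M) (hc : c ∣ M) (hp : PtU F P X K b c h f f')
    (hp1 : PtU F P X K b c h1 f1 f1') : h = h1 := by
  have hf : f = f1 := hp.cb.unique hL hM hcut hb hb rfl rfl hp1.cb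
  have hf' : f' = f1' := hp.cc.unique hL hM hcut hc hc rfl rfl hp1.cc
  subst hf; subst hf'
  have e1 := hp.pt
  have e2 := hp1.pt
  unfold BoostCx972.gap at e1 e2
  have : (h : ℚ) = h1 := by linarith
  exact_mod_cast this

open Classical in
/-- **one block** -/
theorem np_all : ∃ C : ℝ, 0 < C ∧ ∀ (M : ℕ) (F : FL M) (P : Par), 0 < M → 0 < P.L →
    Monotone P.cut → ∀ (j : ℕ), 1 ≤ j → ∀ K : ℝ, K ≤ Xj j →
    SetBd M (fun b c => if NPX F (Xj j) b c ∧ ∃ h f f', PtU F P (Xj j) K b c h f f' then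
      bst (pr (Xj j)) M b c * lw (Xj j) b c else 0) (C * ((√2)⁻¹) ^ j) := by
  obtain ⟨C, hC, h⟩ := np_SetBd_box
  refine ⟨C, hC, fun M F P hM hL hcut j hj K hKX => ?_⟩
  have h1 := h M F hM j hj 1 le_rfl
    (fun b c => NPX F (Xj j) b c ∧ ∃ h f f', PtU F P (Xj j) K b c h f f')
    (fun b c _ _ hh => hh.1) (fun b c _ _ _ => by
      have : 0 < low (Xj j) (wd b c).1 * low (Xj j) (wd b c).2 :=
        Nat.mul_pos (low_pos _ _) (low_pos _ _)
      exact_mod_cast this) (uniq_all hL hM hcut hKX)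
  rw [Real.one_rpow, mul_one] at h1
  convert h1

/-! ### reduction of `CNP` to blocks -/

lemma ell_dvd {x y b : ℕ} (hxy : x ≤ y) : F.ell y b ∣ F.ell x b := by
  unfold FL.ell
  refine Finset.prod_dvd_prod_of_dvd _ _ fun p _ => pow_dvd_pow _ ?_
  unfold FL.ellE
  by_cases h1 : y < p
  · rw [if_pos h1, if_pos (lt_of_le_of_lt hxy h1)]
  · rw [if_neg h1]
    exact Nat.zero_le _

lemma low_le_low {x y s : ℕ} (hxy : x ≤ y) : low x s ≤ low y s := by
  refine Nat.le_of_dvd (low_pos _ _) ?_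
  rw [← low_low hxy s]
  exact low_dvd_self _ _

lemma ix_cen {t X b : ℕ} {K : ℝ} {f : ℚ} (hcut : Monotone P.cut) (hX : X ≤ P.cut t)
    (hK2 : 4 * K ^ 2 < 2 ^ t) (hI : Ix F P t b f) (hd : dep F P t b f ≤ K) :
    Cen F P X K b f := by
  obtain ⟨m, h1, h2, h3⟩ := hI
  refine ⟨m, hX.trans (hcut h1), hK2.trans_le (pow_le_pow_right₀ (by norm_num) h1), h2, ?_⟩
  unfold dep at hd ⊢
  rw [h3]
  exact hd

/-- **from the level `t` to the cut `X ≤ cut t`** -/
theorem ptU_of_BS (hM : 0 < M) (hcut : Monotone P.cut) {t X b c : ℕ} {K : ℝ} {h : ℤ} {f f' : ℚ}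
    (hb : b ∣ M) (hc : c ∣ M) (hX : X ≤ P.cut t) (hEK : P.E t ^ 4 ≤ K) (hK2 : 4 * K ^ 2 < 2 ^ t)
    (hKX : K ≤ X) (hB : BS F P t b c h f f') (hl : h ∈ Lnk P.γ P.L b c)
    (halt : NoEx (P.cut t) b c f f' ∨ ¬ BigW F P t b c f f') : PtU F P X K b c h f f' := by
  have db := hB.db.trans hEK
  have dc := hB.dc.trans hEK
  have e1 : depx F P.γ P.L X b f = dep F P t b f := depx_eq (P := P) hM hb hX db hKX
  have e2 : depx F P.γ P.L X c f' = dep F P t c f' := depx_eq (P := P) hM hc hX dc hKX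
  refine ⟨ix_cen hcut hX hK2 hB.ib db, ix_cen hcut hX hK2 hB.ic dc, hB.toBP.pt, hl, ?_⟩
  have hPw : 32 * Pw X b c ≤ 128 * ((low (P.cut t) (b / Nat.gcd b c) : ℝ) *
      low (P.cut t) (c / Nat.gcd b c)) ^ 3 := by
    have h1 := one_le_Pw X b c
    have h2 : Pw X b c ≤ (low (P.cut t) (b / Nat.gcd b c) : ℝ) *
        low (P.cut t) (c / Nat.gcd b c) := by
      unfold Pw
      have a1 : (low X (b / Nat.gcd b c) : ℝ) ≤ low (P.cut t) (b / Nat.gcd b c) := by
        exact_mod_cast low_le_low hX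
      have a2 : (low X (c / Nat.gcd b c) : ℝ) ≤ low (P.cut t) (c / Nat.gcd b c) := by
        exact_mod_cast low_le_low hX
      exact mul_le_mul a1 a2 (Nat.cast_nonneg _) (Nat.cast_nonneg _)
    set w := (low (P.cut t) (b / Nat.gcd b c) : ℝ) * low (P.cut t) (c / Nat.gcd b c)
    have hw : 1 ≤ w := h1.trans h2
    nlinarith [pow_le_pow_right₀ hw (show 1 ≤ 3 by norm_num), pow_one w]
  rcases halt with hn | hs
  · left
    exact fun p hp hpX => hn p hp (hpX.trans hX)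
  · right
    unfold BigW at hs
    rw [not_and_or, not_le, not_le] at hs
    rcases hs with hs | hs
    · left
      rw [e1]
      exact hPw.trans_lt hs
    · right
      rw [e2]
      exact hPw.trans_lt hs

/-- size of the low word and non-purity at `X` -/
theorem npx_of (hM : 0 < M) {t X b c : ℕ} {K : ℝ} {h : ℤ} {f f' : ℚ} (hb : b ∣ M)
    (hc : c ∣ M) (hX : X ≤ P.cut t) (hKX : 4 * K ^ 2 ≤ X) (hg : F.good X b c)
    (hnp : ¬ Pure F (P.cut t) b c) (hp : PtU F P X K b c h f f') : NPX F X b c := by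
  have hb0 := Nat.pos_of_dvd_of_pos hb hM
  have hK1 : 1 ≤ K := by
    obtain ⟨m, _, _, _, h4⟩ := hp.cb
    exact (one_le_dep (F := F) (P := P) m b f).trans h4
  have hKX' : K ≤ X := by nlinarith
  obtain ⟨k1, _, d1⟩ := hp.cb.kX hM hb hKX'
  obtain ⟨k2, _, d2⟩ := hp.cc.kX hM hc hKX'
  refine ⟨hg, ?_, ?_⟩
  · rintro ⟨h1, h2⟩
    refine hnp ⟨?_, ?_⟩
    · have := ell_dvd (F := F) (b := b) hX
      rw [h1] at this
      exact Nat.dvd_one.1 this
    · have := ell_dvd (F := F) (b := c) hX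
      rw [h2] at this
      exact Nat.dvd_one.1 this
  · have key : Pw X b c ≤ K ^ 2 := by
      rcases hp.alt with hn | hs | hs
      · have eb : Nat.gcd b c * (b / Nat.gcd b c) = b := Nat.mul_div_cancel' (Nat.gcd_dvd_left b c)
        have ec : Nat.gcd b c * (c / Nat.gcd b c) = c :=
          Nat.mul_div_cancel' (Nat.gcd_dvd_right b c)
        have hco : Nat.Coprime (b / Nat.gcd b c) (c / Nat.gcd b c) :=
          Nat.coprime_div_gcd_div_gcd (Nat.gcd_pos_of_pos_left _ hb0)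
        have q1 := low_s_dvd_k0 (F := F) (x := X) (g := Nat.gcd b c) hM
          (by rw [eb]; exact hb) (by rw [ec]; exact hc) hco hp.pt (by rw [eb, ec]; exact hn)
        have q2 := low_s_dvd_k0 (F := F) (x := X) (g := Nat.gcd b c) hM
          (by rw [ec]; exact hc) (by rw [eb]; exact hb) hco.symm (S7dx14.gap_symm hp.pt)
          (by rw [eb, ec]; exact hn.symm)
        rw [eb] at q1
        rw [ec] at q2
        have q1' : (low X (b / Nat.gcd b c) : ℝ) ≤ K :=
          le_trans (by exact_mod_cast Nat.le_of_dvd (k0_pos _ _ _) q1) k1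
        have q2' : (low X (c / Nat.gcd b c) : ℝ) ≤ K :=
          le_trans (by exact_mod_cast Nat.le_of_dvd (k0_pos _ _ _) q2) k2
        unfold Pw
        rw [sq]
        exact mul_le_mul q1' q2' (Nat.cast_nonneg _) (by linarith)
      · have := one_le_Pw X b c
        nlinarith
      · have := one_le_Pw X b c
        nlinarith
    have h4 : ((4 * (low X (wd b c).1 * low X (wd b c).2) : ℕ) : ℝ) ≤ X := by
      push_cast
      have : (4 : ℝ) * Pw X b c ≤ 4 * K ^ 2 := by linarith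
      unfold Pw at this
      exact this.trans hKX
    exact_mod_cast h4

end Crest.Agent.R4C.NPsx217
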