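import Mathlib

/-!
# Row 4: averages over the offset (helper60, note 2999 (2))

`H` a finite set of integers with `|#{h ∈ H : h ≡ a mod D} - N / D| ≤ 1` for all `D, a` (an interval
of length `N`), `P` a finite set of primes with residues `r p`, and local factors
`α p + β p * [p ∣ h - r p]`.  Then
`Σ_{h ∈ H} Π_{p ∈ P} (α + β [..]) ≤ N Π (α + β / p) + Π (|α| + |β|)`.
-/

set_option autoImplicit false

open Finset

namespace Crest.Agent.R4C.NearAbsx60

/-- Chinese remainder, integer form -/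
lemma exists_crt (P : Finset ℕ) (hP : ∀ p ∈ P, p.Prime) (r : ℕ → ℤ) :
    ∃ a : ℤ, ∀ h : ℤ, (∀ p ∈ P, (p : ℤ) ∣ h - r p) ↔ ((∏ p ∈ P, p : ℕ) : ℤ) ∣ h - a := by
  classical
  obtain ⟨k, hk⟩ := Nat.chineseRemainderOfFinset (fun p => (r p % (p : ℤ)).toNat) (fun p => p) P
    (fun p hp => (hP p hp).ne_zero)
    (fun p hp q hq hne => (Nat.coprime_primes (hP p hp) (hP q hq)).2 hne)
  have hkr : ∀ p ∈ P, (p : ℤ) ∣ (k : ℤ) - r p := by
    intro p hp
    have h1 := hk p hp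
    have hp0 : (0 : ℤ) < p := by exact_mod_cast (hP p hp).pos
    have h2 : ((k : ℕ) : ℤ) ≡ (((r p % (p : ℤ)).toNat : ℕ) : ℤ) [ZMOD (p : ℤ)] := by
      exact_mod_cast h1
    rw [Int.toNat_of_nonneg (Int.emod_nonneg _ hp0.ne')] at h2
    have h3 : (k : ℤ) ≡ r p [ZMOD (p : ℤ)] := h2.trans (Int.mod_modEq _ _)
    exact (Int.modEq_iff_dvd.1 h3.symm)
  refine ⟨k, fun h => ⟨fun h1 => ?_, fun h1 p hp => ?_⟩⟩
  · have h2 : ∀ p ∈ P, (fun q : ℕ => (q : ℤ)) p ∣ h - k := by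
      intro p hp
      have e : h - (k : ℤ) = (h - r p) - ((k : ℤ) - r p) := by ring
      rw [e]
      exact dvd_sub (h1 p hp) (hkr p hp)
    have h3 := Finset.prod_dvd_of_coprime (s := fun q : ℕ => (q : ℤ))
      (fun p hp q hq hne => by
        have h4 : Nat.Coprime p q := (Nat.coprime_primes (hP p hp) (hP q hq)).2 hne
        exact Nat.isCoprime_iff_coprime.2 h4) h2
    push_cast
    exact h3
  · have h2 : (p : ℤ) ∣ ((∏ p ∈ P, p : ℕ) : ℤ) := by
      exact_mod_cast Finset.dvd_prod_of_mem (fun p => p) hp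
    have e : h - r p = (h - k) + ((k : ℤ) - r p) := by ring
    rw [e]
    exact dvd_add (h2.trans h1) (hkr p hp)

open Classical in
/-- **average over the offset** -/
theorem sum_prod_le (H : Finset ℤ) {N : ℝ}
    (hH : ∀ D : ℕ, 0 < D → ∀ a : ℤ,
      |((H.filter (fun h => (D : ℤ) ∣ h - a)).card : ℝ) - N / D| ≤ 1)
    (P : Finset ℕ) (hP : ∀ p ∈ P, p.Prime) (r : ℕ → ℤ) (α β : ℕ → ℝ) :
    ∑ h ∈ H, ∏ p ∈ P, (α p + β p * (if (p : ℤ) ∣ h - r p then 1 else 0)) ≤
      N * ∏ p ∈ P, (α p + β p / p) + ∏ p ∈ P, (|α p| + |β p|) := by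
  have e1 : ∀ h ∈ H, ∏ p ∈ P, (α p + β p * (if (p : ℤ) ∣ h - r p then 1 else 0)) =
      ∑ t ∈ P.powerset, (∏ p ∈ t, β p) * (∏ p ∈ P \ t, α p) *
        (if (∀ p ∈ t, (p : ℤ) ∣ h - r p) then (1 : ℝ) else 0) := by
    intro h _
    have e0 : ∏ p ∈ P, (α p + β p * (if (p : ℤ) ∣ h - r p then 1 else 0)) =
        ∏ p ∈ P, ((β p * (if (p : ℤ) ∣ h - r p then 1 else 0)) + α p) :=
      Finset.prod_congr rfl fun p _ => by ring
    rw [e0, Finset.prod_add]
    refine Finset.sum_congr rfl fun t _ => ?_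
    rw [Finset.prod_mul_distrib]
    have e2 : ∏ p ∈ t, (if (p : ℤ) ∣ h - r p then (1 : ℝ) else 0) =
        if (∀ p ∈ t, (p : ℤ) ∣ h - r p) then (1 : ℝ) else 0 := by
      by_cases hc : ∀ p ∈ t, (p : ℤ) ∣ h - r p
      · rw [if_pos hc]
        exact Finset.prod_eq_one fun p hp => if_pos (hc p hp)
      · rw [if_neg hc]
        push Not at hc
        obtain ⟨p, hp, hpc⟩ := hc
        exact Finset.prod_eq_zero hp (if_neg hpc)
    rw [e2]
    ring
  rw [Finset.sum_congr rfl e1, Finset.sum_comm]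
  have e3 : ∀ t ∈ P.powerset, ∑ h ∈ H, (∏ p ∈ t, β p) * (∏ p ∈ P \ t, α p) *
        (if (∀ p ∈ t, (p : ℤ) ∣ h - r p) then (1 : ℝ) else 0) ≤
      N * ((∏ p ∈ t, β p / p) * (∏ p ∈ P \ t, α p)) +
        (∏ p ∈ t, |β p|) * (∏ p ∈ P \ t, |α p|) := by
    intro t ht
    rw [Finset.mem_powerset] at ht
    obtain ⟨a, ha⟩ := exists_crt t (fun p hp => hP p (ht hp)) r
    set D : ℕ := ∏ p ∈ t, p with hD
    have hD0 : 0 < D := Finset.prod_pos fun p hp => (hP p (ht hp)).pos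
    have e4 : ∑ h ∈ H, (if (∀ p ∈ t, (p : ℤ) ∣ h - r p) then (1 : ℝ) else 0) =
        ((H.filter (fun h => (D : ℤ) ∣ h - a)).card : ℝ) := by
      rw [Finset.card_filter]
      push_cast
      refine Finset.sum_congr rfl fun h _ => ?_
      by_cases hc : (D : ℤ) ∣ h - a
      · rw [if_pos ((ha h).2 hc), if_pos hc]
      · rw [if_neg (fun h1 => hc ((ha h).1 h1)), if_neg hc]
    rw [← Finset.mul_sum, e4]
    set K := ((H.filter (fun h => (D : ℤ) ∣ h - a)).card : ℝ) with hK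
    set c := (∏ p ∈ t, β p) * (∏ p ∈ P \ t, α p) with hc
    have hb := hH D hD0 a
    rw [← hK] at hb
    have h5 : c * K ≤ c * (N / D) + |c| := by
      have h6 : c * (K - N / D) ≤ |c| * |K - N / D| := by
        rw [← abs_mul]; exact le_abs_self _
      have h7 : |c| * |K - N / D| ≤ |c| * 1 := mul_le_mul_of_nonneg_left hb (abs_nonneg c)
      linarith [mul_sub c K (N / D)]
    refine h5.trans (le_of_eq ?_)
    have e6 : ∏ p ∈ t, β p / (p : ℝ) = (∏ p ∈ t, β p) / (D : ℝ) := by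
      rw [Finset.prod_div_distrib, hD]
      push_cast
      rfl
    rw [e6, hc, abs_mul, Finset.abs_prod, Finset.abs_prod]
    ring
  refine (Finset.sum_le_sum e3).trans (le_of_eq ?_)
  rw [Finset.sum_add_distrib, ← Finset.mul_sum]
  congr 1
  · congr 1
    rw [← Finset.prod_add]
    exact Finset.prod_congr rfl fun p _ => add_comm _ _
  · rw [← Finset.prod_add]
    exact Finset.prod_congr rfl fun p _ => add_comm _ _

/-- number of integers `≡ a mod D` in an open real interval of length `N` -/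
lemma card_ap {x N : ℝ} (hN : 0 ≤ N) (H : Finset ℤ) (hH : ∀ h : ℤ, h ∈ H ↔ x < h ∧ (h : ℝ) < x + N)
    (D : ℕ) (hD : 0 < D) (a : ℤ) :
    (open Classical in |((H.filter (fun h => (D : ℤ) ∣ h - a)).card : ℝ) - N / D|) ≤ 1 := by
  classical
  have hDr : (0 : ℝ) < D := by exact_mod_cast hD
  have hDz : (D : ℤ) ≠ 0 := by exact_mod_cast hD.ne'
  -- the set is in bijection with the integers k with  (x - a)/D < k < (x + N - a)/D
  set u : ℝ := (x - a) / D with hu
  set v : ℝ := (x + N - a) / D with hv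
  have huv : v - u = N / D := by rw [hu, hv]; ring
  have hND : 0 ≤ N / D := by positivity
  have hcard : (H.filter (fun h => (D : ℤ) ∣ h - a)).card = (Finset.Ioo ⌊u⌋ ⌈v⌉).card := by
    symm
    refine Finset.card_bij (fun k _ => a + D * k) ?_ ?_ ?_
    · intro k hk
      rw [Finset.mem_Ioo] at hk
      rw [Finset.mem_filter, hH]
      have h1 : u < k := Int.floor_lt.1 hk.1
      have h2 : (k : ℝ) < v := Int.lt_ceil.1 hk.2
      rw [hu, div_lt_iff₀ hDr] at h1
      rw [hv, lt_div_iff₀ hDr] at h2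
      push_cast
      refine ⟨⟨by linarith, by linarith⟩, ⟨k, by ring⟩⟩
    · intro k _ k' _ he
      have he' : a + (D : ℤ) * k = a + D * k' := he
      have : (D : ℤ) * k = D * k' := by linarith
      exact mul_left_cancel₀ hDz this
    · intro h hh
      rw [Finset.mem_filter, hH] at hh
      obtain ⟨⟨h1, h2⟩, k, hk⟩ := hh
      refine ⟨k, ?_, by linarith⟩
      have e : (h : ℝ) = a + D * k := by
        have : h = a + D * k := by linarith
        rw [this]; push_cast; ring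
      rw [Finset.mem_Ioo, Int.floor_lt, Int.lt_ceil, hu, hv, div_lt_iff₀ hDr, lt_div_iff₀ hDr]
      constructor <;> [linarith [e]; linarith [e]]
  rw [hcard, Int.card_Ioo]
  have hf1 := Int.floor_le u
  have hf2 := Int.lt_floor_add_one u
  have hc1 := Int.le_ceil v
  have hc2 := Int.ceil_lt_add_one v
  rcases le_or_gt 0 (⌈v⌉ - ⌊u⌋ - 1) with h0 | h0
  · have e : (((⌈v⌉ - ⌊u⌋ - 1).toNat : ℕ) : ℝ) = (⌈v⌉ : ℝ) - ⌊u⌋ - 1 := by
      have : (((⌈v⌉ - ⌊u⌋ - 1).toNat : ℕ) : ℤ) = ⌈v⌉ - ⌊u⌋ - 1 := Int.toNat_of_nonneg h0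
      exact_mod_cast this
    rw [e, abs_le]
    constructor <;> linarith
  · have e : (⌈v⌉ - ⌊u⌋ - 1).toNat = 0 := Int.toNat_of_nonpos h0.le
    rw [e, abs_le]
    have h1 : (⌈v⌉ : ℝ) - ⌊u⌋ < 1 := by
      have : ⌈v⌉ - ⌊u⌋ < 1 := by omega
      exact_mod_cast this
    push_cast
    constructor <;> linarith

end Crest.Agent.R4C.NearAbsx60
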