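import Crest.Agent.R4C.B3Rule_360

/-!
# Row 4, BLOCK S7: near pairs of the label rule (helper360)

`near_rule` : with the labels of Rule_945 the pairs with `gcd ≤ T0 L` cost `≤ C m` up to the
offsets `EE` : offsets with an aligned same-point common prime `> exp (max(1, L/g)^(1/8))`, and all
offsets of the pairs which are not good above this bound.
-/

set_option autoImplicit false

open Finset

namespace Crest.Agent.R4C.NearRulex360

open Crest.Agent.R4C.Basex935 Crest.Agent.R4C.PrefixMx882 Crest.Agent.R4C.CrCountx935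
  Crest.Agent.R4C.CrCoinx935 Crest.Agent.R4C.Bridgex882 Crest.Agent.R4C.NearAbsx60
  Crest.Agent.R4C.NearBoostx60 Crest.Agent.R4C.FLDefx935 Crest.Agent.R4C.BoostCx972
  Crest.Agent.R4C.S7cx14 Crest.Agent.R4C.Rulex945 Crest.Agent.R4C.NearTotx360
  Crest.Agent.R4C.B3Rulex360

/-- the near bound `exp (max(1, L/g)^(1/8))` -/
noncomputable def XX (L : ℝ) (g : ℕ) : ℝ := Real.exp ((max 1 (L / g)) ^ (1 / 8 : ℝ))

section rule

variable {M : ℕ} (F : FL M) (P : Par)

/-- a common prime `p > X` whose two centres are the same point at the offset `h` -/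
def SameAt (b c : ℕ) (X : ℝ) (h : ℤ) : Prop :=
  ∃ p ∈ P2 M (lamR F P) b c, X < (p : ℝ) ∧ ∃ f f', Fc F P b p = some f ∧ Fc F P c p = some f' ∧
    ¬ p ∣ f.den ∧ ¬ p ∣ f'.den ∧ gap f f' (b / Nat.gcd b c) (c / Nat.gcd b c) h = 0

open Classical in
/-- the exceptional offsets -/
noncomputable def EE (b c : ℕ) : Finset ℤ :=
  (Lnk P.γ P.L b c).filter fun h =>
    ¬ F.good ⌊XX P.L (Nat.gcd b c)⌋₊ b c ∨ SameAt F P b c (XX P.L (Nat.gcd b c)) h

variable {F P}

lemma XX_gt (L : ℝ) (g : ℕ) : 2 < XX L g := by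
  unfold XX
  have h1 : (1 : ℝ) ≤ (max 1 (L / g)) ^ (1 / 8 : ℝ) :=
    Real.one_le_rpow (le_max_left _ _) (by norm_num)
  have h2 := Real.exp_one_gt_d9
  have h3 : Real.exp 1 ≤ Real.exp ((max 1 (L / g)) ^ (1 / 8 : ℝ)) := Real.exp_le_exp.2 h1
  linarith

lemma L_le_XX {L : ℝ} {g : ℕ} (hg : 0 < g) :
    L ≤ g * Real.exp (10 * (XX L g) ^ (4 / 5 : ℝ)) := by
  have hgR : (0 : ℝ) < g := by exact_mod_cast hg
  set v := (max 1 (L / g)) ^ (1 / 8 : ℝ) with hv
  have hm : (1 : ℝ) ≤ max 1 (L / g) := le_max_left _ _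
  have hv1 : 1 ≤ v := Real.one_le_rpow hm (by norm_num)
  have hv8 : v ^ 8 = max 1 (L / g) := by
    rw [hv, ← Real.rpow_natCast, ← Real.rpow_mul (by linarith)]
    norm_num
  have h1 : v ≤ Real.exp v := by
    have := Real.add_one_le_exp v
    linarith
  have h2 : v ^ 8 ≤ Real.exp (8 * v) := by
    have e : Real.exp (8 * v) = (Real.exp v) ^ 8 := by
      rw [← Real.exp_nat_mul]; norm_num
    rw [e]
    exact pow_le_pow_left₀ (by linarith) h1 8
  have h3 : (XX L g) ^ (4 / 5 : ℝ) = Real.exp (v * (4 / 5)) := by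
    unfold XX
    rw [← hv, Real.exp_mul]
  have h4 : 8 * v ≤ 10 * (XX L g) ^ (4 / 5 : ℝ) := by
    rw [h3]
    have := Real.add_one_le_exp (v * (4 / 5))
    linarith
  have h5 : L / g ≤ Real.exp (10 * (XX L g) ^ (4 / 5 : ℝ)) := by
    calc L / g ≤ max 1 (L / g) := le_max_right _ _
      _ = v ^ 8 := hv8.symm
      _ ≤ Real.exp (8 * v) := h2
      _ ≤ _ := Real.exp_le_exp.2 h4
  rw [div_le_iff₀ hgR] at h5
  linarith

open Classical in
/-- the hypothesis of `near_total` for the rule -/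
theorem K_rule (hY : ∀ i, P.Y i = 2 ^ i)
    (hthr : ∀ b i, P.thr b i ≤ Real.exp ((P.Y (i - 1) : ℝ) ^ (4 / 5 : ℝ))) (hL : 0 < P.L)
    (hM : 0 < M) {b c : ℕ} (hb : b ∣ M) (hc : c ∣ M) {h : ℤ} (hh : h ∈ Lnk P.γ P.L b c)
    (hE : h ∉ EE F P b c) :
    ∏ p ∈ (P2 M (lamR F P) b c).filter (fun p : ℕ => XX P.L (Nat.gcd b c) < (p : ℝ) ∧
      (p : ℤ) ∣ h - res (lamR F P) b c p), (1 - 1 / (p : ℝ))⁻¹ ≤ KB := by
  have hb0 : 0 < b := Nat.pos_of_dvd_of_pos hb hM
  have hc0 : 0 < c := Nat.pos_of_dvd_of_pos hc hM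
  set g := Nat.gcd b c with hg
  have hg0 : 0 < g := Nat.gcd_pos_of_pos_left c hb0
  have hgR : (0 : ℝ) < g := by exact_mod_cast hg0
  set s := b / g with hs
  set s' := c / g with hs'
  have hgs : g * s = b := Nat.mul_div_cancel' (Nat.gcd_dvd_left b c)
  have hgs' : g * s' = c := Nat.mul_div_cancel' (Nat.gcd_dvd_right b c)
  have hs0 : 0 < s := Nat.pos_of_ne_zero fun h0 => by rw [h0, mul_zero] at hgs; omega
  have hcop : Nat.Coprime s s' := Nat.coprime_div_gcd_div_gcd hg0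
  set X := XX P.L g with hX
  have hX2 : 2 < X := XX_gt _ _
  unfold EE at hE
  rw [mem_filter, not_and_or] at hE
  have hE1 : F.good ⌊X⌋₊ b c ∧ ¬ SameAt F P b c X h := by
    rcases hE with h1 | h1
    · exact absurd hh h1
    · rw [not_or, not_not] at h1
      exact h1
  obtain ⟨hgood, hsame⟩ := hE1
  have hlink : (g : ℝ) * |((s : ℝ) - s') * P.γ + h| ≤ P.L := by
    unfold Lnk at hh
    rw [mem_Hf] at hh
    have h1 := hh.le
    rw [le_div_iff₀ hgR] at h1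
    rw [mul_comm]
    exact h1
  have hlab := isLab (F := F) (P := P)
  refine B3_rule (F := F) hY hthr hL hM (g := g) (s := s) (s' := s') (by rw [hgs]; exact hb)
    (by rw [hgs']; exact hc) hs0 hcop h hlink hX2 (L_le_XX hg0)
    (x0 := ⌊X⌋₊) (Nat.floor_le (by linarith)) (by rw [hgs, hgs']; exact hgood) _ ?_
  intro p hp
  rw [mem_filter] at hp
  obtain ⟨hp2, hpX, hpr⟩ := hp
  have hpp := prime_P2 hp2
  have hp2' := hp2
  unfold P2 at hp2
  rw [mem_filter] at hp2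
  obtain ⟨_, h1, h2, h3, h4⟩ := hp2
  obtain ⟨a, ha⟩ := Option.ne_none_iff_exists'.1 h3
  obtain ⟨a', ha'⟩ := Option.ne_none_iff_exists'.1 h4
  obtain ⟨f, hf1, hf2, hf3⟩ := hlab.spec hpp ha
  obtain ⟨f', hf1', hf2', hf3'⟩ := hlab.spec hpp ha'
  have hgap : gap f f' s s' h ≠ 0 := by
    intro h0
    exact hsame ⟨p, hp2', hpX, f, f', hf1, hf1', hf2, hf2', h0⟩
  refine ⟨hpp, hpX.le, f, f', by rw [hgs]; exact hf1, by rw [hgs']; exact hf1', hgap, ?_⟩
  rw [← dvd_gap_iff_D0 hg0 hs0 hcop hpp hf2 hf2', ← class_iff_gap hpp hf2 hf2' hf3 hf3']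
  unfold res at hpr
  rw [← hg, if_neg h2, if_neg h1, ha, ha', Option.getD_some, Option.getD_some] at hpr
  have e : h - (s : ℤ) * a + (s' : ℤ) * a' = h - ((s : ℤ) * a - (s' : ℤ) * a') := by ring
  rw [e]
  exact hpr

open Classical in
/-- energy of the unkilled exceptional offsets of one pair (without the factor `L`) -/
noncomputable def EnEE (F : FL M) (P : Par) (b c : ℕ) : ℝ :=
  (Nat.gcd b c : ℝ) * nu M b * nu M c *
    ∑ h ∈ (EE F P b c).filter (fun h => ¬ killedB (lamR F P) b c h), boostB M (lamR F P) b c h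

open Classical in
/-- splitting of the energy of a pair -/
lemma EnB_split (b c : ℕ) :
    EnB P.γ P.L M (lamR F P) b c = EnE P.γ P.L M (lamR F P) (EE F P b c) b c + EnEE F P b c := by
  unfold EnB EnE EnEE
  rw [← mul_add]
  congr 1
  rw [← sum_filter_add_sum_filter_not
    ((Lnk P.γ P.L b c).filter (fun h => ¬ killedB (lamR F P) b c h)) (fun h => h ∉ EE F P b c)]
  congr 1
  · rw [filter_filter]
  · refine sum_congr ?_ fun _ _ => rfl
    ext h
    simp only [mem_filter, not_not]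
    constructor
    · rintro ⟨⟨_, h2⟩, h3⟩
      exact ⟨h3, h2⟩
    · rintro ⟨h1, h2⟩
      refine ⟨⟨?_, h2⟩, h1⟩
      unfold EE at h1
      exact (mem_filter.1 h1).1

end rule

open Classical in
/-- **near pairs of the label rule** -/
theorem near_rule {T0 : ℝ} (hT0 : 1 ≤ T0) : ∃ C : ℝ, 0 < C ∧ ∀ (M : ℕ) (F : FL M) (P : Par)
    (B : Finset ℕ), (∀ i, P.Y i = 2 ^ i) →
    (∀ b i, P.thr b i ≤ Real.exp ((P.Y (i - 1) : ℝ) ^ (4 / 5 : ℝ))) → 0 < P.L → 0 < M →
    B ⊆ M.divisors → P.L * ∑ b ∈ B, nu M b ≤ 1 →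
    P.L * ∑ b ∈ B, ∑ c ∈ (B.erase b).filter (fun c => (Nat.gcd b c : ℝ) ≤ T0 * P.L),
      EnB P.γ P.L M (lamR F P) b c ≤ C * (P.L * ∑ b ∈ B, nu M b) +
    P.L * ∑ b ∈ B, ∑ c ∈ (B.erase b).filter (fun c => (Nat.gcd b c : ℝ) ≤ T0 * P.L),
      EnEE F P b c := by
  obtain ⟨C, hC, H⟩ := near_total hT0
  refine ⟨C * KB, mul_pos hC (by have := one_le_KB; linarith), ?_⟩
  intro M F P B hY hthr hL hM hB hm
  have h1 := H P.γ P.L M B (lamR F P) (fun b c => EE F P b c) KB hL hM hB hm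
    (by have := one_le_KB; linarith) fun b hb c hc _ _ h hh _ hE =>
      K_rule hY hthr hL hM (Nat.dvd_of_mem_divisors (hB hb)) (Nat.dvd_of_mem_divisors (hB hc))
        hh hE
  have h2 : P.L * ∑ b ∈ B, ∑ c ∈ (B.erase b).filter (fun c => (Nat.gcd b c : ℝ) ≤ T0 * P.L),
      EnB P.γ P.L M (lamR F P) b c =
      P.L * (∑ b ∈ B, ∑ c ∈ (B.erase b).filter (fun c => (Nat.gcd b c : ℝ) ≤ T0 * P.L),
        EnE P.γ P.L M (lamR F P) (EE F P b c) b c) +
      P.L * ∑ b ∈ B, ∑ c ∈ (B.erase b).filter (fun c => (Nat.gcd b c : ℝ) ≤ T0 * P.L),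
        EnEE F P b c := by
    rw [← mul_add, ← sum_add_distrib]
    congr 1
    refine sum_congr rfl fun b _ => ?_
    rw [← sum_add_distrib]
    exact sum_congr rfl fun c _ => EnB_split b c
  rw [h2]
  exact add_le_add h1 le_rfl

end Crest.Agent.R4C.NearRulex360
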