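import Crest.Agent.R4C.FLSh_326
import Crest.Agent.R4C.Law_69

/-!
# Node masses of the F-Λ tree and heavy exceptions inside a node (helper634; row 4, GW section)

`F : FL M` with `NodeShares F B A s` (`FLSh_326.flam_full`).
* `node_mass` : `ν(B ∩ node of b at the cut x) ≤ ∏_{p > x branched} (1 - 1/p) · ν(B)`.
* `Cell F x b` : pure cell of `b` at the cut `x`: words with the same letters `≤ x`, the same
  branched letters `> x`, and letters `≥` centre at the passive primes `> x`.
* `cell_mean` : `∑_{c ∈ Cell x b} ν(c) · mass M (ind B) y (upp y c) ≤ cen_y(b) · ν(B) · ν(Cell x b)`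
  for every cut `y ≥ x` (natural expectation inside the node, no martingale).
* `exc_cell` : natural probability, given the cell, of the heavy exceptions in the gaps.
-/

set_option autoImplicit false

open Finset

namespace Crest.Agent.R4C.NodeMassx634

open Crest.Agent.R4C.Basex935 Crest.Agent.R4C.Cutx50 Crest.Agent.R4C.Lawx69
  Crest.Agent.R4C.FLDefx935 Crest.Agent.R4C.FLShx326
open Crest.Agent.R4C.FLExx326 (ind ind_nonneg)

/-! ### Node masses -/

/-- branched primes of `b` above `x` -/
def br {M : ℕ} (F : FL M) (x b : ℕ) : Finset ℕ :=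
  M.primeFactors.filter (fun q => x < q ∧ F.ctr b q = none)

/-- product over the branched primes -/
noncomputable def Nb {M : ℕ} (F : FL M) (x b : ℕ) : ℝ := ∏ q ∈ br F x b, (1 - 1 / (q : ℝ))

lemma one_sub_inv_nonneg {q : ℕ} (hq : q.Prime) : (0 : ℝ) ≤ 1 - 1 / (q : ℝ) := by
  have h : (1 : ℝ) ≤ q := by exact_mod_cast hq.one_lt.le
  have : (1 : ℝ) / q ≤ 1 := by
    rw [div_le_one (by linarith)]
    exact h
  linarith

lemma Nb_nonneg {M : ℕ} (F : FL M) (x b : ℕ) : 0 ≤ Nb F x b :=
  Finset.prod_nonneg fun _ hq =>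
    one_sub_inv_nonneg (Nat.prime_of_mem_primeFactors (Finset.mem_filter.1 hq).1)

lemma same_succ {M : ℕ} {F : FL M} {x b c : ℕ} (h : F.same x b c) : F.same (x + 1) b c :=
  fun q hq hx hn => h q hq (by omega) hn

open Classical in
/-- **mass of `B` in a node** -/
theorem node_mass {M : ℕ} (hM : 0 < M) {F : FL M} {B : Finset ℕ} {A s : ℝ}
    (hS : NodeShares F B A s) {b : ℕ} {x0 : ℕ}
    (hq : ∀ q : ℕ, q.Prime → x0 < q → 1 / (q : ℝ) ≤ A * (q : ℝ) ^ (-s)) :
    ∀ x : ℕ, x0 ≤ x → ∑ c ∈ B, (if F.same x b c then nu M c else 0) ≤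
      Nb F x b * ∑ c ∈ B, nu M c := by
  -- trivial for large `x`
  have hbase : ∀ x, M ≤ x → ∑ c ∈ B, (if F.same x b c then nu M c else 0) ≤
      Nb F x b * ∑ c ∈ B, nu M c := by
    intro x hx
    have h1 : br F x b = ∅ := by
      unfold br
      rw [Finset.filter_eq_empty_iff]
      rintro q hq ⟨h, _⟩
      have := Nat.le_of_dvd hM (Nat.dvd_of_mem_primeFactors hq)
      omega
    unfold Nb
    rw [h1, Finset.prod_empty, one_mul]
    refine Finset.sum_le_sum fun c _ => ?_
    split_ifs
    · exact le_rfl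
    · exact nu_nonneg _ _
  -- one step down
  have hstep : ∀ x, x0 ≤ x → (∑ c ∈ B, (if F.same (x + 1) b c then nu M c else 0) ≤
      Nb F (x + 1) b * ∑ c ∈ B, nu M c) → ∑ c ∈ B, (if F.same x b c then nu M c else 0) ≤
      Nb F x b * ∑ c ∈ B, nu M c := by
    intro x hx ih
    have hmono : ∑ c ∈ B, (if F.same x b c then nu M c else 0) ≤
        ∑ c ∈ B, (if F.same (x + 1) b c then nu M c else 0) := by
      refine Finset.sum_le_sum fun c _ => ?_
      by_cases h : F.same x b c
      · rw [if_pos h, if_pos (same_succ h)]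
      · rw [if_neg h]
        split_ifs
        · exact nu_nonneg _ _
        · exact le_rfl
    by_cases hp : x + 1 ∈ M.primeFactors ∧ F.ctr b (x + 1) = none
    · -- branched prime
      obtain ⟨hpM, hpn⟩ := hp
      have hpp := Nat.prime_of_mem_primeFactors hpM
      have hbr : br F x b = insert (x + 1) (br F (x + 1) b) := by
        ext q
        unfold br
        rw [Finset.mem_insert, Finset.mem_filter, Finset.mem_filter]
        constructor
        · rintro ⟨h1, h2, h3⟩
          by_cases h : q = x + 1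
          · exact Or.inl h
          · exact Or.inr ⟨h1, by omega, h3⟩
        · rintro (h | ⟨h1, h2, h3⟩)
          · rw [h]
            exact ⟨hpM, by omega, hpn⟩
          · exact ⟨h1, by omega, h3⟩
      have hnot : x + 1 ∉ br F (x + 1) b := by
        unfold br
        rw [Finset.mem_filter]
        rintro ⟨_, h, _⟩
        omega
      have hNb : Nb F x b = (1 - 1 / ((x + 1 : ℕ) : ℝ)) * Nb F (x + 1) b := by
        unfold Nb
        rw [hbr, Finset.prod_insert hnot]
      have h1 := (hS b (x + 1) hpp).2 hpn (b.factorization (x + 1))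
      have h2 := hq (x + 1) hpp (by omega)
      set T := ∑ c ∈ B, (if F.same (x + 1) b c then nu M c else 0) with hT
      have hT0 : 0 ≤ T := Finset.sum_nonneg fun c _ => by
        split_ifs
        · exact nu_nonneg _ _
        · exact le_rfl
      have h3 : ∑ c ∈ B, (if F.same x b c then nu M c else 0) +
          ∑ c ∈ B, (if F.same (x + 1) b c ∧ c.factorization (x + 1) ≠ b.factorization (x + 1)
            then nu M c else 0) ≤ T := by
        rw [hT, ← Finset.sum_add_distrib]
        refine Finset.sum_le_sum fun c _ => ?_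
        by_cases h : F.same x b c
        · have he : b.factorization (x + 1) = c.factorization (x + 1) :=
            h (x + 1) hpp (by omega) hpn
          rw [if_pos h, if_pos (same_succ h), if_neg (fun h' => h'.2 he.symm), add_zero]
        · rw [if_neg h, zero_add]
          by_cases h' : F.same (x + 1) b c
          · rw [if_pos h']
            split_ifs
            · exact le_rfl
            · exact nu_nonneg _ _
          · rw [if_neg h', if_neg (fun h2 => h' h2.1)]
      have h4 : 1 / ((x + 1 : ℕ) : ℝ) * T ≤ A * ((x + 1 : ℕ) : ℝ) ^ (-s) * T :=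
        mul_le_mul_of_nonneg_right h2 hT0
      have h5 : ∑ c ∈ B, (if F.same x b c then nu M c else 0) ≤
          (1 - 1 / ((x + 1 : ℕ) : ℝ)) * T := by
        have := h1.le
        linarith
      rw [hNb]
      calc ∑ c ∈ B, (if F.same x b c then nu M c else 0)
          ≤ (1 - 1 / ((x + 1 : ℕ) : ℝ)) * T := h5
        _ ≤ (1 - 1 / ((x + 1 : ℕ) : ℝ)) * (Nb F (x + 1) b * ∑ c ∈ B, nu M c) :=
            mul_le_mul_of_nonneg_left ih (one_sub_inv_nonneg hpp)
        _ = _ := by ring
    · have hbr : br F x b = br F (x + 1) b := by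
        ext q
        unfold br
        rw [Finset.mem_filter, Finset.mem_filter]
        constructor
        · rintro ⟨h1, h2, h3⟩
          refine ⟨h1, ?_, h3⟩
          by_contra h
          have : q = x + 1 := by omega
          exact hp ⟨this ▸ h1, this ▸ h3⟩
        · rintro ⟨h1, h2, h3⟩
          exact ⟨h1, by omega, h3⟩
      have hNb : Nb F x b = Nb F (x + 1) b := by
        unfold Nb
        rw [hbr]
      rw [hNb]
      exact hmono.trans ih
  -- downward induction
  intro x hx
  by_cases hxM : M ≤ x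
  · exact hbase x hxM
  · obtain ⟨n, hn⟩ := Nat.exists_eq_add_of_le (show x ≤ M by omega)
    have key : ∀ n x, x0 ≤ x → M = x + n → ∑ c ∈ B, (if F.same x b c then nu M c else 0) ≤
        Nb F x b * ∑ c ∈ B, nu M c := by
      intro n
      induction n with
      | zero =>
        intro x _ h
        exact hbase x (by omega)
      | succ n ih =>
        intro x hx h
        exact hstep x hx (ih (x + 1) (by omega) (by omega))
    exact key n x hx hn

/-! ### The pure cell -/

/-- local condition of the pure cell -/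
def CP {M : ℕ} (F : FL M) (x b p v : ℕ) : Prop :=
  (p ≤ x → v = b.factorization p) ∧ (x < p → (F.ctr b p = none → v = b.factorization p) ∧
    ∀ w, F.ctr b p = some w → w ≤ v)

open Classical in
/-- pure cell of `b` at the cut `x` -/
noncomputable def Cell {M : ℕ} (F : FL M) (x b : ℕ) : Finset ℕ :=
  M.divisors.filter (fun c => ∀ p ∈ M.primeFactors, CP F x b p (c.factorization p))

open Classical in
lemma mem_Cell {M : ℕ} {F : FL M} {x b c : ℕ} : c ∈ Cell F x b ↔
    (c ∣ M ∧ M ≠ 0) ∧ ∀ p ∈ M.primeFactors, CP F x b p (c.factorization p) := by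
  unfold Cell
  rw [Finset.mem_filter, Nat.mem_divisors]

lemma self_mem_Cell {M : ℕ} (hM : 0 < M) {F : FL M} {x b : ℕ} (hb : b ∣ M)
    (h : F.ell x b = 1) : b ∈ Cell F x b := by
  rw [mem_Cell]
  refine ⟨⟨hb, hM.ne'⟩, fun p hp => ⟨fun _ => rfl, fun hx => ⟨fun _ => rfl, fun w hw => ?_⟩⟩⟩
  have h1 := FL.fact_ell (F := F) (x := x) (b := b) (p := p)
  rw [h, if_pos hp] at h1
  simp only [Nat.factorization_one, Finsupp.coe_zero, Pi.zero_apply, FL.ellE, if_pos hx, hw] at h1
  omega

/-- the cell: same letters `≤ x`, same node, no deficit -/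
lemma mem_Cell_iff {M : ℕ} (hM : 0 < M) {F : FL M} {x b c : ℕ} (hb : b ∣ M) (hc : c ∣ M) :
    c ∈ Cell F x b ↔ low x c = low x b ∧ F.same x b c ∧ F.ell x c = 1 := by
  rw [mem_Cell]
  constructor
  · rintro ⟨_, h⟩
    have hsame : F.same x b c := by
      intro q hq hx hn
      by_cases hqM : q ∈ M.primeFactors
      · exact (((h q hqM).2 hx).1 hn).symm
      · rw [FL.fact_zero hM hb hqM, FL.fact_zero hM hc hqM]
    refine ⟨?_, hsame, ?_⟩
    · refine Nat.eq_of_factorization_eq (low_pos _ _).ne' (low_pos _ _).ne' fun p => ?_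
      rw [fact_low, fact_low]
      by_cases hp : p ≤ x
      · rw [if_pos hp, if_pos hp]
        by_cases hpM : p ∈ M.primeFactors
        · exact (h p hpM).1 hp
        · rw [FL.fact_zero hM hb hpM, FL.fact_zero hM hc hpM]
      · rw [if_neg hp, if_neg hp]
    · refine Nat.eq_of_factorization_eq (FL.ell_pos x c).ne' one_ne_zero fun p => ?_
      rw [FL.fact_ell]
      simp only [Nat.factorization_one, Finsupp.coe_zero, Pi.zero_apply]
      by_cases hpM : p ∈ M.primeFactors
      · rw [if_pos hpM]
        unfold FL.ellE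
        by_cases hx : x < p
        · rw [if_pos hx]
          have hpp := Nat.prime_of_mem_primeFactors hpM
          have hctr : F.ctr b p = F.ctr c p := FL.ctr_eq hb hc hsame hpp hx.le
          cases hcc : F.ctr c p with
          | none => rfl
          | some v =>
            have := ((h p hpM).2 hx).2 v (hctr.trans hcc)
            simp only
            omega
        · rw [if_neg hx]
      · rw [if_neg hpM]
  · rintro ⟨h1, h2, h3⟩
    refine ⟨⟨hc, hM.ne'⟩, fun p hp => ⟨fun hx => ?_, fun hx => ⟨fun hn => ?_, fun w hw => ?_⟩⟩⟩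
    · have h4 : (low x c).factorization p = (low x b).factorization p := by rw [h1]
      rwa [fact_low, fact_low, if_pos hx, if_pos hx] at h4
    · exact (h2 p (Nat.prime_of_mem_primeFactors hp) hx hn).symm
    · have hctr : F.ctr b p = F.ctr c p :=
        FL.ctr_eq hb hc h2 (Nat.prime_of_mem_primeFactors hp) hx.le
      have h4 := FL.fact_ell (F := F) (x := x) (b := c) (p := p)
      rw [h3, if_pos hp] at h4
      rw [hctr] at hw
      simp only [Nat.factorization_one, Finsupp.coe_zero, Pi.zero_apply, FL.ellE, if_pos hx, hw]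
        at h4
      omega

/-- in the cell `uu` and `cen` at cuts `y ≥ x` : `uu = low * cen`, `cen` constant -/
lemma cell_cen {M : ℕ} (hM : 0 < M) {F : FL M} {x y b c : ℕ} (hb : b ∣ M) (hc : c ∣ M)
    (hxy : x ≤ y) (h : c ∈ Cell F x b) :
    F.cen y c = F.cen y b ∧ F.uu y c = low y c * F.cen y b := by
  rw [mem_Cell_iff hM hb hc] at h
  obtain ⟨_, h2, h3⟩ := h
  have e1 : F.cen y c = F.cen y b := by
    unfold FL.cen
    refine Finset.prod_congr rfl fun p hp => ?_
    congr 1
    unfold FL.cenE
    by_cases hx : y < p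
    · rw [if_pos hx, if_pos hx]
      have hpp := Nat.prime_of_mem_primeFactors hp
      have hctr : F.ctr b p = F.ctr c p := FL.ctr_eq hb hc h2 hpp (by omega)
      rw [← hctr]
      cases hcc : F.ctr b p with
      | none => exact (h2 p hpp (by omega) hcc).symm
      | some v => rfl
    · rw [if_neg hx, if_neg hx]
  have e2 : F.ell y c = 1 := by
    refine Nat.eq_of_factorization_eq (FL.ell_pos y c).ne' one_ne_zero fun p => ?_
    have h4 : (F.ell x c).factorization p = 0 := by rw [h3]; simp
    rw [FL.fact_ell] at h4 ⊢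
    simp only [Nat.factorization_one, Finsupp.coe_zero, Pi.zero_apply]
    by_cases hp : p ∈ M.primeFactors
    · rw [if_pos hp] at h4 ⊢
      unfold FL.ellE at h4 ⊢
      by_cases hy : y < p
      · rw [if_pos (by omega)] at h4
        rw [if_pos hy]
        exact h4
      · rw [if_neg hy]
    · rw [if_neg hp]
  refine ⟨e1, ?_⟩
  have h5 := FL.uu_mul_ell (F := F) (x := y) hM hc
  rw [e2, mul_one, e1] at h5
  exact h5

/-! ### Product structure of the cell -/

open Classical in
/-- indicator of the local conditions `≤ y` -/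
noncomputable def Ilo {M : ℕ} (F : FL M) (x y b n : ℕ) : ℝ :=
  if ∀ p ∈ M.primeFactors, p ≤ y → CP F x b p (n.factorization p) then 1 else 0

open Classical in
/-- indicator of the local conditions `> y` -/
noncomputable def Iup {M : ℕ} (F : FL M) (x y b z : ℕ) : ℝ :=
  if ∀ p ∈ M.primeFactors, y < p → CP F x b p (z.factorization p) then 1 else 0

lemma Ilo_nonneg {M : ℕ} (F : FL M) (x y b n : ℕ) : 0 ≤ Ilo F x y b n := by
  unfold Ilo; split_ifs <;> norm_num

lemma Iup_nonneg {M : ℕ} (F : FL M) (x y b n : ℕ) : 0 ≤ Iup F x y b n := by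
  unfold Iup; split_ifs <;> norm_num

open Classical in
lemma cell_ind {M : ℕ} (F : FL M) (x y b c : ℕ) (hc : c ∈ M.divisors) :
    (if c ∈ Cell F x b then (1 : ℝ) else 0) = Ilo F x y b (low y c) * Iup F x y b (upp y c) := by
  unfold Ilo Iup
  rw [Nat.mem_divisors] at hc
  by_cases h : c ∈ Cell F x b
  · rw [if_pos h]
    rw [mem_Cell] at h
    rw [if_pos, if_pos, one_mul]
    · intro p hp hy
      rw [fact_upp, if_pos (by omega)]
      exact h.2 p hp
    · intro p hp hy
      rw [fact_low, if_pos hy]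
      exact h.2 p hp
  · rw [if_neg h]
    by_cases h1 : ∀ p ∈ M.primeFactors, p ≤ y → CP F x b p ((low y c).factorization p)
    · by_cases h2 : ∀ p ∈ M.primeFactors, y < p → CP F x b p ((upp y c).factorization p)
      · exfalso
        apply h
        rw [mem_Cell]
        refine ⟨hc, fun p hp => ?_⟩
        by_cases hy : p ≤ y
        · have := h1 p hp hy
          rwa [fact_low, if_pos hy] at this
        · have := h2 p hp (by omega)
          rwa [fact_upp, if_pos hy] at this
      · rw [if_neg h2, mul_zero]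
    · rw [if_neg h1, zero_mul]

open Classical in
/-- sums over the cell factor at every cut -/
theorem cell_split {M : ℕ} (hM : 0 < M) (F : FL M) (x y b : ℕ) (G : ℕ → ℝ) :
    ∑ c ∈ Cell F x b, nu M c * G (upp y c) =
      Ex (low y M) (Ilo F x y b) * Ex (upp y M) (fun z => Iup F x y b z * G z) := by
  have h1 := Ex_indep (fun p => p ≤ y) hM (Ilo F x y b) (fun z => Iup F x y b z * G z)
  refine Eq.trans ?_ h1
  unfold Cell Ex
  rw [Finset.sum_filter]
  refine Finset.sum_congr rfl fun c hc => ?_
  have h2 := cell_ind F x y b c hc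
  have e1 : part (fun p => p ≤ y) c = low y c := rfl
  have e2 : part (fun p => ¬ p ≤ y) c = upp y c := rfl
  simp only [e1, e2]
  have h3 : (if ∀ p ∈ M.primeFactors, CP F x b p (c.factorization p) then
      nu M c * G (upp y c) else 0) =
      (if c ∈ Cell F x b then (1 : ℝ) else 0) * (nu M c * G (upp y c)) := by
    rw [Nat.mem_divisors] at hc
    by_cases h : ∀ p ∈ M.primeFactors, CP F x b p (c.factorization p)
    · rw [if_pos h, if_pos (mem_Cell.2 ⟨hc, h⟩), one_mul]
    · rw [if_neg h, if_neg (fun h' => h (mem_Cell.1 h').2), zero_mul]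
  rw [h3, h2]
  ring

/-- natural mass of the cell -/
noncomputable def cm {M : ℕ} (F : FL M) (x b : ℕ) : ℝ := ∑ c ∈ Cell F x b, nu M c

lemma cm_nonneg {M : ℕ} (F : FL M) (x b : ℕ) : 0 ≤ cm F x b :=
  Finset.sum_nonneg fun _ _ => nu_nonneg _ _

lemma cm_split {M : ℕ} (hM : 0 < M) (F : FL M) (x y b : ℕ) :
    cm F x b = Ex (low y M) (Ilo F x y b) * Ex (upp y M) (Iup F x y b) := by
  have h := cell_split hM F x y b (fun _ => 1)
  unfold cm
  simpa using h

/-! ### The upper factor -/

lemma cast_cen {M : ℕ} (F : FL M) (y b : ℕ) :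
    (F.cen y b : ℝ) = ∏ p ∈ M.primeFactors, (p : ℝ) ^ F.cenE y b p := by
  unfold FL.cen
  push_cast
  rfl

open Classical in
/-- local mass of the cell condition above `y ≥ x` -/
lemma local_mass {M : ℕ} {F : FL M} {x y b p : ℕ} (hb : b ∣ M) (hM : 0 < M)
    (hp : p ∈ M.primeFactors) (hxy : x ≤ y) (hy : y < p) :
    (if F.ctr b p = none then 1 - 1 / (p : ℝ) else 1) ≤ (p : ℝ) ^ F.cenE y b p *
      ∑ v ∈ range (M.factorization p + 1), nup p (M.factorization p) v *
        (if CP F x b p v then 1 else 0) := by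
  have hpp := Nat.prime_of_mem_primeFactors hp
  have hp0 : (0 : ℝ) < p := by exact_mod_cast hpp.pos
  have hbp : b.factorization p ≤ M.factorization p :=
    (Nat.factorization_le_iff_dvd (fun h => hM.ne' (Nat.eq_zero_of_zero_dvd (h ▸ hb))) hM.ne').2
      hb p
  unfold FL.cenE
  rw [if_pos hy]
  cases hc : F.ctr b p with
  | none =>
    rw [if_pos rfl]
    simp only
    have h1 : nup p (M.factorization p) (b.factorization p) ≤
        ∑ v ∈ range (M.factorization p + 1), nup p (M.factorization p) v *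
        (if CP F x b p v then 1 else 0) := by
      refine le_trans (le_of_eq ?_) (Finset.single_le_sum
        (f := fun v => nup p (M.factorization p) v * (if CP F x b p v then 1 else 0))
        (fun v _ => mul_nonneg (nup_nonneg hpp.pos _ _) (by split_ifs <;> norm_num))
        (Finset.mem_range.2 (by omega : b.factorization p < M.factorization p + 1)))
      rw [if_pos, mul_one]
      exact ⟨fun _ => rfl, fun _ => ⟨fun _ => rfl, fun w hw => by rw [hc] at hw; simp at hw⟩⟩
    have h2 := nup_ge hpp.pos (M.factorization p) (b.factorization p) hbp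
    calc 1 - 1 / (p : ℝ) = (p : ℝ) ^ b.factorization p *
          ((1 - 1 / (p : ℝ)) * (1 / (p : ℝ)) ^ b.factorization p) := by
          rw [one_div, inv_pow]
          field_simp
      _ ≤ (p : ℝ) ^ b.factorization p * nup p (M.factorization p) (b.factorization p) :=
          mul_le_mul_of_nonneg_left h2 (by positivity)
      _ ≤ _ := mul_le_mul_of_nonneg_left h1 (by positivity)
  | some w =>
    rw [if_neg (by simp)]
    simp only
    have hw : w ≤ M.factorization p := F.le hb hpp hc
    have h1 : ∑ v ∈ range (M.factorization p + 1), nup p (M.factorization p) v *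
        (if CP F x b p v then 1 else 0) = (1 / (p : ℝ)) ^ w := by
      rw [← PrefixMx882.nup_tail p hw]
      have e : Finset.Ico w (M.factorization p + 1) ⊆ range (M.factorization p + 1) := by
        intro v hv
        rw [Finset.mem_Ico] at hv
        exact Finset.mem_range.2 hv.2
      rw [← Finset.sum_subset e]
      · refine Finset.sum_congr rfl fun v hv => ?_
        rw [Finset.mem_Ico] at hv
        rw [if_pos, mul_one]
        refine ⟨fun h => by omega, fun _ => ⟨fun h => by rw [hc] at h; simp at h, fun w' hw' => ?_⟩⟩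
        rw [hc, Option.some.injEq] at hw'
        omega
      · intro v hv hn
        rw [Finset.mem_range] at hv
        rw [Finset.mem_Ico] at hn
        rw [if_neg, mul_zero]
        intro h
        have := (h.2 (by omega)).2 w hc
        exact hn ⟨this, hv⟩
    rw [h1, one_div, inv_pow]
    rw [mul_inv_cancel₀ (by positivity)]

lemma pf_upp {M y : ℕ} (hM : 0 < M) : (upp y M).primeFactors =
    M.primeFactors.filter (fun p => y < p) := by
  ext p
  rw [Finset.mem_filter, Nat.mem_primeFactors, Nat.mem_primeFactors]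
  constructor
  · rintro ⟨h1, h2, h3⟩
    refine ⟨⟨h1, h2.trans (upp_dvd_self _ _), hM.ne'⟩, ?_⟩
    have := prime_dvd_part (fun p => ¬ p ≤ y) h1 h2
    omega
  · rintro ⟨⟨h1, h2, _⟩, h4⟩
    refine ⟨h1, ?_, (upp_pos _ _).ne'⟩
    refine (h1.dvd_iff_one_le_factorization (upp_pos _ _).ne').2 ?_
    rw [fact_upp, if_pos (by omega)]
    exact (h1.dvd_iff_one_le_factorization hM.ne').1 h2

open Classical in
/-- **lower bound of the natural mass of the cell above `y`** -/
theorem Nb_le {M : ℕ} (hM : 0 < M) {F : FL M} {x y b : ℕ} (hb : b ∣ M) (hxy : x ≤ y) :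
    Nb F y b ≤ (F.cen y b : ℝ) * Ex (upp y M) (Iup F x y b) := by
  have e1 : Ex (upp y M) (Iup F x y b) =
      ∏ p ∈ (upp y M).primeFactors, ∑ v ∈ range ((upp y M).factorization p + 1),
        nup p ((upp y M).factorization p) v * (if CP F x b p v then 1 else 0) := by
    rw [← Ex_prod (upp_pos y M) (fun p v => if CP F x b p v then (1 : ℝ) else 0)]
    unfold Ex
    refine Finset.sum_congr rfl fun z _ => ?_
    congr 1
    unfold Iup
    rw [pf_upp hM]
    by_cases h : ∀ p ∈ M.primeFactors, y < p → CP F x b p (z.factorization p)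
    · rw [if_pos h]
      symm
      refine Finset.prod_eq_one fun p hp => ?_
      rw [Finset.mem_filter] at hp
      rw [if_pos (h p hp.1 hp.2)]
    · rw [if_neg h]
      push Not at h
      obtain ⟨p, h1, h2, h3⟩ := h
      symm
      exact Finset.prod_eq_zero (Finset.mem_filter.2 ⟨h1, h2⟩) (if_neg h3)
  have e2 : ∏ p ∈ (upp y M).primeFactors, ∑ v ∈ range ((upp y M).factorization p + 1),
        nup p ((upp y M).factorization p) v * (if CP F x b p v then (1 : ℝ) else 0) =
      ∏ p ∈ M.primeFactors with y < p, ∑ v ∈ range (M.factorization p + 1),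
        nup p (M.factorization p) v * (if CP F x b p v then 1 else 0) := by
    rw [pf_upp hM]
    refine Finset.prod_congr rfl fun p hp => ?_
    rw [Finset.mem_filter] at hp
    rw [fact_upp, if_pos (by omega)]
  have e3 : (F.cen y b : ℝ) = ∏ p ∈ M.primeFactors with y < p, (p : ℝ) ^ F.cenE y b p := by
    rw [cast_cen, Finset.prod_filter]
    refine Finset.prod_congr rfl fun p _ => ?_
    by_cases h : y < p
    · rw [if_pos h]
    · rw [if_neg h]
      unfold FL.cenE
      rw [if_neg h, pow_zero]
  have e4 : Nb F y b = ∏ p ∈ M.primeFactors with y < p,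
      (if F.ctr b p = none then 1 - 1 / (p : ℝ) else 1) := by
    unfold Nb br
    rw [Finset.prod_filter, Finset.prod_filter]
    refine Finset.prod_congr rfl fun p _ => ?_
    by_cases h : y < p <;> by_cases h' : F.ctr b p = none <;> simp [h, h']
  rw [e1, e2, e3, e4, ← Finset.prod_mul_distrib]
  refine Finset.prod_le_prod (fun p hp => ?_) fun p hp => ?_
  · rw [Finset.mem_filter] at hp
    split_ifs
    · exact one_sub_inv_nonneg (Nat.prime_of_mem_primeFactors hp.1)
    · norm_num
  · rw [Finset.mem_filter] at hp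
    exact local_mass hb hM hp.1 hxy hp.2


lemma same_of_Iup {M : ℕ} (hM : 0 < M) {F : FL M} {x y b c : ℕ} (hb : b ∣ M) (hc : c ∣ M)
    (hxy : x ≤ y) (h : Iup F x y b (upp y c) ≠ 0) : F.same y b c := by
  unfold Iup at h
  split_ifs at h with h1
  · intro q hq hy hn
    by_cases hqM : q ∈ M.primeFactors
    · have h2 := h1 q hqM hy
      rw [fact_upp, if_pos (by omega)] at h2
      exact ((h2.2 (by omega)).1 hn).symm
    · rw [FL.fact_zero hM hb hqM, FL.fact_zero hM hc hqM]
  · exact absurd rfl h

lemma Iup_le_one {M : ℕ} (F : FL M) (x y b n : ℕ) : Iup F x y b n ≤ 1 := by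
  unfold Iup; split_ifs <;> norm_num

open Classical in
/-- **natural expectation of the node masses inside a cell**: cut `y ≥ x` -/
theorem cell_mean {M : ℕ} (hM : 0 < M) {F : FL M} {B : Finset ℕ} (hB : B ⊆ M.divisors)
    {A s : ℝ} (hS : NodeShares F B A s) {x0 : ℕ}
    (hq : ∀ q : ℕ, q.Prime → x0 < q → 1 / (q : ℝ) ≤ A * (q : ℝ) ^ (-s))
    {x y b : ℕ} (hb : b ∣ M) (hx0 : x0 ≤ y) (hxy : x ≤ y) :
    ∑ c ∈ Cell F x b, nu M c * mass M (ind B) y (upp y c) ≤
      F.cen y b * (∑ c ∈ B, nu M c) * cm F x b := by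
  rw [cell_split hM F x y b (fun z => mass M (ind B) y z), cm_split hM F x y b]
  have hB0 : 0 ≤ ∑ c ∈ B, nu M c := Finset.sum_nonneg fun _ _ => nu_nonneg _ _
  have h1 : Ex (upp y M) (fun z => Iup F x y b z * mass M (ind B) y z) ≤
      (F.cen y b : ℝ) * (∑ c ∈ B, nu M c) * Ex (upp y M) (Iup F x y b) := by
    rw [← Ex_cut' hM y (ind B) (Iup F x y b)]
    calc Ex M (fun c => Iup F x y b (upp y c) * ind B c)
        ≤ ∑ c ∈ B, (if F.same y b c then nu M c else 0) := by
          unfold Ex
          rw [← Finset.sum_subset hB (fun c _ hc => by simp [ind, hc])]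
          refine Finset.sum_le_sum fun c hc => ?_
          have hcM := Nat.dvd_of_mem_divisors (hB hc)
          have h0 := nu_nonneg M c
          have e : ind B c = 1 := by simp [ind, hc]
          beta_reduce
          rw [e, mul_one]
          by_cases h : F.same y b c
          · rw [if_pos h]
            have := Iup_le_one F x y b (upp y c)
            nlinarith
          · rw [if_neg h]
            have : Iup F x y b (upp y c) = 0 := by
              by_contra h'
              exact h (same_of_Iup hM hb hcM hxy h')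
            rw [this, mul_zero]
      _ ≤ Nb F y b * ∑ c ∈ B, nu M c := node_mass hM hS hq y hx0
      _ ≤ ((F.cen y b : ℝ) * Ex (upp y M) (Iup F x y b)) * ∑ c ∈ B, nu M c :=
          mul_le_mul_of_nonneg_right (Nb_le hM hb hxy) hB0
      _ = _ := by ring
  calc Ex (low y M) (Ilo F x y b) *
        Ex (upp y M) (fun z => Iup F x y b z * mass M (ind B) y z)
      ≤ Ex (low y M) (Ilo F x y b) *
        ((F.cen y b : ℝ) * (∑ c ∈ B, nu M c) * Ex (upp y M) (Iup F x y b)) :=
        mul_le_mul_of_nonneg_left h1 (Ex_nonneg _ fun n => Ilo_nonneg F x y b n)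
    _ = _ := by ring

/-- **pointwise**: node masses at the cuts inside the prefix -/
lemma low_point {M : ℕ} (hM : 0 < M) {f : ℕ → ℝ} (hf : ∀ b, 0 ≤ f b) {x y c : ℕ} (hc : c ∣ M)
    (hyx : y ≤ x) : (low y c : ℝ) * mass M f y (upp y c) * Vm (low x M) (low x c) ≤
      (low x c : ℝ) * mass M f x (upp x c) := by
  have hc0 : c ≠ 0 := (Nat.pos_of_dvd_of_pos hc hM).ne'
  set E := upp y (low x c) with hE
  set T := upp x c with hT
  have hE0 : 0 < E := upp_pos _ _
  have hET : upp y c = E * T := by
    refine Nat.eq_of_factorization_eq (upp_pos _ _).ne' (mul_ne_zero hE0.ne' (upp_pos _ _).ne')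
      fun p => ?_
    rw [Nat.factorization_mul hE0.ne' (upp_pos _ _).ne', Finsupp.add_apply, hE]
    simp only [fact_upp, fact_low]
    by_cases h1 : p ≤ y
    · have h2 : p ≤ x := h1.trans hyx
      simp [h1, h2]
    · by_cases h2 : p ≤ x <;> simp [h1, h2]
  have hlow : (low x c : ℝ) = low y c * E := by
    have h1 := low_mul_upp y (low_pos x c).ne'
    rw [low_low hyx] at h1
    rw [← h1]
    push_cast
    rfl
  have hEd : E ∣ upp y (low x M) := upp_dvd y (low_pos x M).ne' (low_dvd x hM.ne' hc)
  have h2 : nu (upp y (low x M)) E * mass M f y (E * T) ≤ mass M f x T := by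
    have h1 : mass M f x T = Ex (upp y (low x M))
        (fun E' => mass (low x M) (fun n => f (n * T)) y E') := Ex_cut (low_pos x M) y _
    rw [h1]
    refine le_trans (le_of_eq ?_) (Finset.single_le_sum (f := fun E' => nu (upp y (low x M)) E' *
      mass (low x M) (fun n => f (n * T)) y E')
      (fun E' _ => mul_nonneg (nu_nonneg _ _) (mass_nonneg _ (fun _ => hf _) _ _))
      (Nat.mem_divisors.2 ⟨hEd, (upp_pos _ _).ne'⟩))
    congr 1
    unfold mass
    rw [low_low hyx]
    congr 1
    funext n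
    beta_reduce
    rw [mul_assoc]
  have hnu := nu_eq_Vm (upp_pos y (low x M)) hEd
  have hV : Vm (low x M) (low x c) ≤ Vm (upp y (low x M)) E := by
    rw [Vm_cut (fun p => p ≤ y) (low_pos x M)]
    have e1 : part (fun p => ¬ p ≤ y) (low x M) = upp y (low x M) := rfl
    have e2 : part (fun p => ¬ p ≤ y) (low x c) = E := rfl
    rw [e1, e2]
    have h3 := Vm_le_one (part (fun p => p ≤ y) (low x M)) (part (fun p => p ≤ y) (low x c))
    have h4 := (Vm_pos (M := upp y (low x M)) E).le
    have h5 := (Vm_pos (M := part (fun p => p ≤ y) (low x M))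
      (part (fun p => p ≤ y) (low x c))).le
    nlinarith
  have hm0 : 0 ≤ mass M f y (E * T) := mass_nonneg M hf _ _
  have hl0 : (0 : ℝ) ≤ low y c := Nat.cast_nonneg _
  have hE0' : (0 : ℝ) < E := by exact_mod_cast hE0
  rw [hET, hlow]
  calc (low y c : ℝ) * mass M f y (E * T) * Vm (low x M) (low x c)
      ≤ (low y c : ℝ) * mass M f y (E * T) * Vm (upp y (low x M)) E :=
        mul_le_mul_of_nonneg_left hV (mul_nonneg hl0 hm0)
    _ = (low y c : ℝ) * E * (nu (upp y (low x M)) E * mass M f y (E * T)) := by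
        rw [hnu]
        field_simp
    _ ≤ (low y c : ℝ) * E * mass M f x T :=
        mul_le_mul_of_nonneg_left h2 (mul_nonneg hl0 hE0'.le)

/-! ### Heavy exceptions -/

open Classical in
/-- Markov at one cut `y ≥ x` -/
theorem cell_markov {M : ℕ} (hM : 0 < M) {F : FL M} {B : Finset ℕ} (hB : B ⊆ M.divisors)
    {A s : ℝ} (hS : NodeShares F B A s) {x0 : ℕ}
    (hq : ∀ q : ℕ, q.Prime → x0 < q → 1 / (q : ℝ) ≤ A * (q : ℝ) ^ (-s))
    {x y b : ℕ} (hb : b ∣ M) (hx0 : x0 ≤ y) (hxy : x ≤ y) {L h z : ℝ} (hL : 0 ≤ L)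
    (hh : 0 ≤ h) (hz : 0 < z) :
    ∑ c ∈ (Cell F x b).filter (fun c => (F.uu y c : ℝ) ≤ h * L ∧
      z ≤ (low y c : ℝ) * mass M (ind B) y (upp y c)), nu M c ≤
      cm F x b * (L * ∑ c ∈ B, nu M c) * (h / z) := by
  have hmean := cell_mean hM hB hS hq hb hx0 hxy
  have hcen : (0 : ℝ) < F.cen y b := by exact_mod_cast FL.cen_pos y b
  have hmn : ∀ c, 0 ≤ mass M (ind B) y (upp y c) := fun c =>
    mass_nonneg M (ind_nonneg B) _ _
  have h1 : (F.cen y b : ℝ) * z * ∑ c ∈ (Cell F x b).filter (fun c => (F.uu y c : ℝ) ≤ h * L ∧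
      z ≤ (low y c : ℝ) * mass M (ind B) y (upp y c)), nu M c ≤
      h * L * ∑ c ∈ Cell F x b, nu M c * mass M (ind B) y (upp y c) := by
    rw [Finset.sum_filter, Finset.mul_sum, Finset.mul_sum]
    refine Finset.sum_le_sum fun c hc => ?_
    have hcM : c ∣ M := (mem_Cell.1 hc).1.1
    have h0 := nu_nonneg M c
    split_ifs with h2
    · have h3 := (cell_cen hM hb hcM hxy hc).2
      have h4 : (F.uu y c : ℝ) = low y c * F.cen y b := by exact_mod_cast h3
      have h5 : (F.cen y b : ℝ) * z ≤ h * L * mass M (ind B) y (upp y c) := by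
        calc (F.cen y b : ℝ) * z
            ≤ F.cen y b * ((low y c : ℝ) * mass M (ind B) y (upp y c)) :=
              mul_le_mul_of_nonneg_left h2.2 hcen.le
          _ = (F.uu y c : ℝ) * mass M (ind B) y (upp y c) := by rw [h4]; ring
          _ ≤ _ := mul_le_mul_of_nonneg_right h2.1 (hmn c)
      calc (F.cen y b : ℝ) * z * nu M c ≤ h * L * mass M (ind B) y (upp y c) * nu M c :=
            mul_le_mul_of_nonneg_right h5 h0
        _ = _ := by ring
    · rw [mul_zero]
      exact mul_nonneg (mul_nonneg hh hL) (mul_nonneg h0 (hmn c))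
  have h2 : (F.cen y b : ℝ) * z * ∑ c ∈ (Cell F x b).filter (fun c => (F.uu y c : ℝ) ≤ h * L ∧
      z ≤ (low y c : ℝ) * mass M (ind B) y (upp y c)), nu M c ≤
      (F.cen y b : ℝ) * z * (cm F x b * (L * ∑ c ∈ B, nu M c) * (h / z)) := by
    refine h1.trans ((mul_le_mul_of_nonneg_left hmean (mul_nonneg hh hL)).trans (le_of_eq ?_))
    field_simp
  exact le_of_mul_le_mul_left h2 (mul_pos hcen hz)

/-- heavy exception: in one of the blocks `k0 ≤ k < K` with `uu (2^k) ≤ h k * L` some node mass
at a cut `2^l`, `l ≤ k`, is large -/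
def ExcF {M : ℕ} (F : FL M) (f : ℕ → ℝ) (L : ℝ) (h H : ℕ → ℝ) (k0 K c : ℕ) : Prop :=
  ∃ k, k0 ≤ k ∧ k < K ∧ (F.uu (2 ^ k) c : ℝ) ≤ h k * L ∧
    ∃ l ≤ k, H k ≤ (low (2 ^ l) c : ℝ) * mass M f (2 ^ l) (upp (2 ^ l) c)

open Classical in
/-- **HEAVY EXCEPTIONS IN A CELL**: natural probability given the cell -/
theorem exc_cell {M : ℕ} (hM : 0 < M) {F : FL M} {B : Finset ℕ} (hB : B ⊆ M.divisors)
    {A s : ℝ} (hS : NodeShares F B A s) {x0 : ℕ}
    (hq : ∀ q : ℕ, q.Prime → x0 < q → 1 / (q : ℝ) ≤ A * (q : ℝ) ^ (-s))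
    {x b : ℕ} (hb : b ∣ M) (hx0 : x0 ≤ x) {L : ℝ} (hL : 0 ≤ L) {h H : ℕ → ℝ} {k0 : ℕ} (K : ℕ)
    (hx : x ≤ 2 ^ k0) (hh : ∀ k, 0 ≤ h k) (hH : ∀ k, 0 < H k) :
    ∑ c ∈ (Cell F x b).filter (fun c => ExcF F (ind B) L h H k0 K c), nu M c ≤
      cm F x b * (L * ∑ c ∈ B, nu M c) *
        ∑ k ∈ Finset.Ico k0 K, h k / H k * (k + 1 + 1 / Vm (low x M) (low x b)) := by
  set V := Vm (low x M) (low x b) with hVdef
  have hV0 : 0 < V := Vm_pos _
  have hcm := cm_nonneg F x b
  have hB0 : 0 ≤ ∑ c ∈ B, nu M c := Finset.sum_nonneg fun _ _ => nu_nonneg _ _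
  -- the events
  let E : ℕ → ℕ → ℕ → Prop := fun k y c => (F.uu y c : ℝ) ≤ h k * L ∧
    H k ≤ (low y c : ℝ) * mass M (ind B) y (upp y c)
  let J : ℕ → ℕ → Prop := fun k c => (F.uu x c : ℝ) ≤ h k * L ∧
    H k * V ≤ (low x c : ℝ) * mass M (ind B) x (upp x c)
  have hpE : ∀ k l c, 0 ≤ (if x ≤ 2 ^ l ∧ E k (2 ^ l) c then nu M c else 0) := fun k l c => by
    split_ifs
    · exact nu_nonneg _ _
    · exact le_rfl
  have hpJ : ∀ k c, 0 ≤ (if J k c then nu M c else 0) := fun k c => by
    split_ifs
    · exact nu_nonneg _ _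
    · exact le_rfl
  have hptw : ∀ c ∈ Cell F x b, (if ExcF F (ind B) L h H k0 K c then nu M c else 0) ≤
      ∑ k ∈ Finset.Ico k0 K, (∑ l ∈ Finset.range (k + 1),
        (if x ≤ 2 ^ l ∧ E k (2 ^ l) c then nu M c else 0) + (if J k c then nu M c else 0)) := by
    intro c hc
    have hcM : c ∣ M := (mem_Cell.1 hc).1.1
    have hlowc : low x c = low x b := ((mem_Cell_iff hM hb hcM).1 hc).1
    have hpos : ∀ k ∈ Finset.Ico k0 K, 0 ≤ ∑ l ∈ Finset.range (k + 1),
        (if x ≤ 2 ^ l ∧ E k (2 ^ l) c then nu M c else 0) + (if J k c then nu M c else 0) :=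
      fun k _ => add_nonneg (Finset.sum_nonneg fun l _ => hpE k l c) (hpJ k c)
    split_ifs with hE
    · obtain ⟨k, hk1, hk2, hu, l, hl, hth⟩ := hE
      refine le_trans ?_ (Finset.single_le_sum hpos (Finset.mem_Ico.2 ⟨hk1, hk2⟩))
      by_cases hxl : x ≤ 2 ^ l
      · have hul : F.uu (2 ^ l) c ∣ F.uu (2 ^ k) c :=
          FL.uu_dvd_uu (Nat.pow_le_pow_right (by norm_num) hl)
        have hul' : (F.uu (2 ^ l) c : ℝ) ≤ F.uu (2 ^ k) c := by
          exact_mod_cast Nat.le_of_dvd (FL.uu_pos _ _) hul
        have h1 := Finset.single_le_sum (fun l _ => hpE k l c)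
          (Finset.mem_range.2 (Nat.lt_succ_of_le hl))
        rw [if_pos ⟨hxl, hul'.trans hu, hth⟩] at h1
        have := hpJ k c
        linarith
      · have hul : F.uu x c ∣ F.uu (2 ^ k) c :=
          FL.uu_dvd_uu (hx.trans (Nat.pow_le_pow_right (by norm_num) hk1))
        have hul' : (F.uu x c : ℝ) ≤ F.uu (2 ^ k) c := by
          exact_mod_cast Nat.le_of_dvd (FL.uu_pos _ _) hul
        have h2 := low_point hM (ind_nonneg B) hcM
          (show 2 ^ l ≤ x by omega)
        rw [hlowc, ← hVdef] at h2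
        have h3 : H k * V ≤ (low x c : ℝ) * mass M (ind B) x (upp x c) := by
          rw [hlowc]
          exact (mul_le_mul_of_nonneg_right hth hV0.le).trans h2
        have hJ : J k c := ⟨hul'.trans hu, h3⟩
        rw [if_pos hJ]
        have := Finset.sum_nonneg (s := Finset.range (k + 1)) (fun l _ => hpE k l c)
        linarith
    · exact Finset.sum_nonneg hpos
  have hcell : ∀ k y, x0 ≤ y → x ≤ y → ∑ c ∈ Cell F x b, (if E k y c then nu M c else 0) ≤
      cm F x b * (L * ∑ c ∈ B, nu M c) * (h k / H k) := by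
    intro k y h1 h2
    rw [← Finset.sum_filter]
    exact cell_markov hM hB hS hq hb h1 h2 hL (hh k) (hH k)
  calc ∑ c ∈ (Cell F x b).filter (fun c => ExcF F (ind B) L h H k0 K c), nu M c
      = ∑ c ∈ Cell F x b, (if ExcF F (ind B) L h H k0 K c then nu M c else 0) :=
        Finset.sum_filter _ _
    _ ≤ ∑ c ∈ Cell F x b, ∑ k ∈ Finset.Ico k0 K, (∑ l ∈ Finset.range (k + 1),
        (if x ≤ 2 ^ l ∧ E k (2 ^ l) c then nu M c else 0) + (if J k c then nu M c else 0)) :=
        Finset.sum_le_sum hptw
    _ = ∑ k ∈ Finset.Ico k0 K, (∑ l ∈ Finset.range (k + 1),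
        ∑ c ∈ Cell F x b, (if x ≤ 2 ^ l ∧ E k (2 ^ l) c then nu M c else 0) +
        ∑ c ∈ Cell F x b, (if J k c then nu M c else 0)) := by
        rw [Finset.sum_comm]
        refine Finset.sum_congr rfl fun k _ => ?_
        rw [Finset.sum_add_distrib, Finset.sum_comm]
    _ ≤ ∑ k ∈ Finset.Ico k0 K, (∑ l ∈ Finset.range (k + 1),
        cm F x b * (L * ∑ c ∈ B, nu M c) * (h k / H k) +
        cm F x b * (L * ∑ c ∈ B, nu M c) * (h k / (H k * V))) := by
        refine Finset.sum_le_sum fun k _ => add_le_add (Finset.sum_le_sum fun l _ => ?_) ?_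
        · by_cases hxl : x ≤ 2 ^ l
          · refine le_trans (le_of_eq ?_) (hcell k (2 ^ l) (hx0.trans hxl) hxl)
            refine Finset.sum_congr rfl fun c _ => ?_
            simp only [hxl, true_and]
          · refine le_trans (le_of_eq (Finset.sum_eq_zero fun c _ => ?_)) ?_
            · rw [if_neg (fun h => hxl h.1)]
            · exact mul_nonneg (mul_nonneg hcm (mul_nonneg hL hB0)) (div_nonneg (hh k) (hH k).le)
        · rw [← Finset.sum_filter]
          exact cell_markov hM hB hS hq hb hx0 le_rfl hL (hh k) (mul_pos (hH k) hV0)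
    _ = _ := by
        rw [Finset.mul_sum (Finset.Ico k0 K)]
        refine Finset.sum_congr rfl fun k _ => ?_
        rw [Finset.sum_const, Finset.card_range, nsmul_eq_mul]
        have hk := (hH k).ne'
        push_cast
        field_simp

end Crest.Agent.R4C.NodeMassx634
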