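import Crest.Agent.R4C.NonPureFL_559

/-!
# Row 4: non-pure good pairs with TWO cuts (helper559; leaf (b) of BLOCK S3 v1.1, note 3138)

`nonpureA` : the leaf estimate of `NonPure_559` where the deficits `l, l'` are restricted to an
allowed set `Al`, and only allowed `l` are counted.
`nonpure_fl2` : `F : FL M`, cuts `X0 ≤ X1`.  Pairs with equal parts `≤ X0`, good above `X0`, all primes
of `ell_{X0}(b) ell_{X0}(c)` are `> X1`, not pure, `X < gcd ≤ 2X`, weighted with any factor `θ(low part)`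
such that `θ(e) e ν(e) ≤ 1` (e.g. `1`, or the full boost `1 / V_{≤ X0}`):
`≤ 3 √ρ (Σ ν f²)^{1/2} (Σ ν g²)^{1/2}`, `ρ` = relative number of `X1`-rough integers.
`nonpure_fl2_log` : `≤ C (log X1)^{-1/2} …`.
-/

set_option autoImplicit false

open Finset
open Crest.Agent.R4C.Basex935 Crest.Agent.R4C.Cutx50 Crest.Agent.R4C.FLDefx935
open Crest.Agent.R4C.NonPurex559 Crest.Agent.R4C.NonPureFLx559

namespace Crest.Agent.R4C.NonPure2x559

open Classical

lemma sum_sq_leA {M H : ℕ} (Al : ℕ → Prop) (hM : 0 < M) (hH : H ∣ M) (i : ℕ) :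
    ∑ b ∈ M.divisors.filter (fun b => cl H b = i ∧ Al (cf H b)), (Nat.gcd H b : ℝ) ^ 2 * nu M b ≤
      H * (((M.divisors.filter (fun l => Nat.log 2 l = i ∧ Al l)).card : ℝ) / 2 ^ i) := by
  classical
  have hH0 : 0 < H := Nat.pos_of_dvd_of_pos hH hM
  set S := M.divisors.filter (fun b => cl H b = i ∧ Al (cf H b)) with hS
  set D := M.divisors.filter (fun l => Nat.log 2 l = i ∧ Al l) with hD
  have hmap : ∀ b ∈ S, cf H b ∈ D := by
    intro b hb
    rw [hS, Finset.mem_filter] at hb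
    rw [hD, Finset.mem_filter, Nat.mem_divisors]
    exact ⟨⟨cf_dvd.trans hH, hM.ne'⟩, hb.2.1, hb.2.2⟩
  rw [← Finset.sum_fiberwise_of_maps_to hmap]
  have hterm : ∀ l ∈ D, ∑ b ∈ S.filter (fun b => cf H b = l), (Nat.gcd H b : ℝ) ^ 2 * nu M b ≤
      H * (1 / 2 ^ i) := by
    intro l hl
    rw [hD, Finset.mem_filter, Nat.mem_divisors] at hl
    have hl0 : 0 < l := Nat.pos_of_dvd_of_pos hl.1.1 hM
    by_cases hlH : l ∣ H
    · have hg0 : 0 < H / l := Nat.div_pos (Nat.le_of_dvd hH0 hlH) hl0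
      have hgM : H / l ∣ M := (Nat.div_dvd_of_dvd hlH).trans hH
      have hle : ∑ b ∈ S.filter (fun b => cf H b = l), (Nat.gcd H b : ℝ) ^ 2 * nu M b ≤
          ∑ b ∈ M.divisors.filter (fun b => H / l ∣ b), ((H / l : ℕ) : ℝ) ^ 2 * nu M b := by
        have hsub : S.filter (fun b => cf H b = l) ⊆ M.divisors.filter (fun b => H / l ∣ b) := by
          intro b hb
          rw [Finset.mem_filter, hS, Finset.mem_filter] at hb
          rw [Finset.mem_filter]
          refine ⟨hb.1.1, ?_⟩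
          have h1 := cf_mul (H := H) (b := b)
          rw [hb.2] at h1
          have h2 : H / l = Nat.gcd H b := by
            rw [← h1, Nat.mul_div_cancel_left _ hl0, h1]
          rw [h2]; exact Nat.gcd_dvd_right H b
        refine (Finset.sum_le_sum fun b hb => ?_).trans
          (Finset.sum_le_sum_of_subset_of_nonneg hsub fun b _ _ =>
            mul_nonneg (by positivity) (nu_nonneg _ _))
        rw [Finset.mem_filter] at hb
        have h1 := cf_mul (H := H) (b := b)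
        rw [hb.2] at h1
        have h2 : H / l = Nat.gcd H b := by
          rw [← h1, Nat.mul_div_cancel_left _ hl0, h1]
        rw [h2]
      refine hle.trans ?_
      rw [← Finset.mul_sum, mass_mult hM hgM]
      have hgR : (0 : ℝ) < ((H / l : ℕ) : ℝ) := by exact_mod_cast hg0
      have hlR : (0 : ℝ) < (l : ℝ) := by exact_mod_cast hl0
      have h3 : (H : ℝ) = l * ((H / l : ℕ) : ℝ) := by
        exact_mod_cast (Nat.mul_div_cancel' hlH).symm
      have h4 : ((H / l : ℕ) : ℝ) ^ 2 * (1 / ((H / l : ℕ) : ℝ)) = ((H / l : ℕ) : ℝ) := by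
        field_simp
      rw [h4]
      have h5 : ((2 : ℝ) ^ i) ≤ l := by
        have : 2 ^ i ≤ l := by
          rw [← hl.2.1]; exact Nat.pow_log_le_self 2 hl0.ne'
        exact_mod_cast this
      rw [mul_one_div, le_div_iff₀ (by positivity)]
      calc ((H / l : ℕ) : ℝ) * 2 ^ i ≤ ((H / l : ℕ) : ℝ) * l :=
            mul_le_mul_of_nonneg_left h5 hgR.le
        _ = H := by rw [h3]; ring
    · have : S.filter (fun b => cf H b = l) = ∅ := by
        rw [Finset.eq_empty_iff_forall_notMem]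
        intro b hb
        rw [Finset.mem_filter] at hb
        exact hlH (hb.2 ▸ cf_dvd)
      rw [this, Finset.sum_empty]
      positivity
  refine (Finset.sum_le_sum hterm).trans (le_of_eq ?_)
  rw [Finset.sum_const, nsmul_eq_mul]
  ring

/-- `A_i ≤ (H N_i / 2^i)^{1/2} m_i^{1/2}` -/
lemma class_leA {M H : ℕ} (Al : ℕ → Prop) (hM : 0 < M) (hH : H ∣ M) (f : ℕ → ℝ) (i : ℕ) :
    ∑ b ∈ M.divisors.filter (fun b => cl H b = i ∧ Al (cf H b)), (Nat.gcd H b : ℝ) * nu M b * f b ≤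
      √(H * (((M.divisors.filter (fun l => Nat.log 2 l = i ∧ Al l)).card : ℝ) / 2 ^ i)) *
      √(∑ b ∈ M.divisors.filter (fun b => cl H b = i ∧ Al (cf H b)), nu M b * f b ^ 2) := by
  have h1 : ∑ b ∈ M.divisors.filter (fun b => cl H b = i ∧ Al (cf H b)), (Nat.gcd H b : ℝ) * nu M b * f b =
      ∑ b ∈ M.divisors.filter (fun b => cl H b = i ∧ Al (cf H b)),
        ((Nat.gcd H b : ℝ) * √(nu M b)) * (√(nu M b) * f b) := by
    refine Finset.sum_congr rfl fun b _ => ?_
    have := Real.mul_self_sqrt (nu_nonneg M b)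
    calc (Nat.gcd H b : ℝ) * nu M b * f b = (Nat.gcd H b : ℝ) * (√(nu M b) * √(nu M b)) * f b := by
          rw [this]
      _ = _ := by ring
  rw [h1]
  refine (Real.sum_mul_le_sqrt_mul_sqrt _ _ _).trans ?_
  refine mul_le_mul (Real.sqrt_le_sqrt ?_) (Real.sqrt_le_sqrt (le_of_eq ?_)) (Real.sqrt_nonneg _)
    (Real.sqrt_nonneg _)
  · refine le_trans (le_of_eq ?_) (sum_sq_leA Al hM hH i)
    refine Finset.sum_congr rfl fun b _ => ?_
    rw [mul_pow, Real.sq_sqrt (nu_nonneg M b)]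
  · refine Finset.sum_congr rfl fun b _ => ?_
    rw [mul_pow, Real.sq_sqrt (nu_nonneg M b)]

/-- relative size of a dyadic class of divisors -/
noncomputable def xrA (Al : ℕ → Prop) (M i : ℕ) : ℝ :=
  ((M.divisors.filter (fun l => Nat.log 2 l = i ∧ Al l)).card : ℝ) / 2 ^ i

lemma xrA_nonneg (Al : ℕ → Prop) (M i : ℕ) : 0 ≤ xrA Al M i := by unfold xrA; positivity

lemma xrA_le_one (Al : ℕ → Prop) (M i : ℕ) : xrA Al M i ≤ 1 := by
  unfold xrA
  rw [div_le_one (by positivity)]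
  have h1 : M.divisors.filter (fun l => Nat.log 2 l = i ∧ Al l) ⊆
      Finset.Ico (2 ^ i) (2 ^ (i + 1)) := by
    intro l hl
    rw [Finset.mem_filter] at hl
    have hl0 : l ≠ 0 := (Nat.pos_of_mem_divisors hl.1).ne'
    rw [Finset.mem_Ico]
    constructor
    · rw [← hl.2.1]; exact Nat.pow_log_le_self 2 hl0
    · rw [← hl.2.1]; exact Nat.lt_pow_succ_log_self (by norm_num) l
  have h2 := Finset.card_le_card h1
  rw [Nat.card_Ico] at h2
  have h3 : 2 ^ (i + 1) - 2 ^ i = 2 ^ i := by rw [pow_succ]; omega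
  rw [h3] at h2
  exact_mod_cast h2

theorem nonpureA {M H : ℕ} (Al : ℕ → Prop) (hM : 0 < M) (hH : H ∣ M) {ρ : ℝ}
    (hρ : ∀ i, 1 ≤ i → ((M.divisors.filter (fun l => Nat.log 2 l = i ∧ Al l)).card : ℝ) ≤ ρ * 2 ^ i)
    (f g : ℕ → ℝ) (hf : ∀ b, 0 ≤ f b) (hg : ∀ b, 0 ≤ g b) {X : ℝ} (hX : 0 < X) :
    ∑ b ∈ M.divisors, ∑ c ∈ M.divisors,
      (if X < (Nat.gcd b c : ℝ) ∧ (Nat.gcd b c : ℝ) ≤ 2 * X ∧ lvl M H b c ∧ ¬ (H ∣ b ∧ H ∣ c) ∧
          Al (cf H b) ∧ Al (cf H c) then
        (Nat.gcd b c : ℝ) * nu M b * nu M c * (f b * g c) else 0) ≤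
      3 * √ρ * (√(∑ b ∈ M.divisors, nu M b * f b ^ 2) * √(∑ b ∈ M.divisors, nu M b * g b ^ 2)) := by
  have hH0 : 0 < H := Nat.pos_of_dvd_of_pos hH hM
  have hHR : (0 : ℝ) < H := by exact_mod_cast hH0
  -- the level of the scale
  have hex : ∃ n : ℕ, (H : ℝ) / X ≤ 2 ^ n := by
    obtain ⟨n, hn⟩ := pow_unbounded_of_one_lt ((H : ℝ) / X) (by norm_num : (1 : ℝ) < 2)
    exact ⟨n, hn.le⟩
  set n := Nat.find hex with hn
  have hn1 : (H : ℝ) / X ≤ 2 ^ n := Nat.find_spec hex
  have hn2 : ∀ m : ℕ, (H : ℝ) / X ≤ 2 ^ m → n ≤ m := fun m hm => Nat.find_min' hex hm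
  set G : ℕ → ℝ := fun b => if Al (cf H b) then (Nat.gcd H b : ℝ) * nu M b * f b else 0 with hGdef
  set G' : ℕ → ℝ := fun b => if Al (cf H b) then (Nat.gcd H b : ℝ) * nu M b * g b else 0 with hGdef'
  have hG0 : ∀ b, 0 ≤ G b := fun b => by
    rw [hGdef]; simp only; split_ifs
    · exact mul_nonneg (mul_nonneg (by positivity) (nu_nonneg _ _)) (hf b)
    · exact le_rfl
  have hG0' : ∀ b, 0 ≤ G' b := fun b => by
    rw [hGdef']; simp only; split_ifs
    · exact mul_nonneg (mul_nonneg (by positivity) (nu_nonneg _ _)) (hg b)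
    · exact le_rfl
  let Q : ℕ → ℕ → ℝ := fun i j =>
    if (i + j + 1 = n ∨ i + j + 2 = n ∨ i + j + 3 = n) ∧ ¬ (i = 0 ∧ j = 0) then 1 else 0
  have hQ0 : ∀ i j, 0 ≤ Q i j := fun i j => by simp only [Q]; split_ifs <;> norm_num
  -- termwise
  have hterm : ∀ b ∈ M.divisors, ∀ c ∈ M.divisors,
      (if X < (Nat.gcd b c : ℝ) ∧ (Nat.gcd b c : ℝ) ≤ 2 * X ∧ lvl M H b c ∧ ¬ (H ∣ b ∧ H ∣ c) ∧
          Al (cf H b) ∧ Al (cf H c) then
        (Nat.gcd b c : ℝ) * nu M b * nu M c * (f b * g c) else 0) ≤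
      Q (cl H b) (cl H c) * ((1 / (H : ℝ)) * (G b * G' c)) := by
    intro b hb c hc
    have hbM := Nat.dvd_of_mem_divisors hb
    have hcM := Nat.dvd_of_mem_divisors hc
    split_ifs with h
    · obtain ⟨h1, h2, h3, h4, hal, hal'⟩ := h
      have hid := gcd_lvl hM.ne' hH hbM hcM h3
      have hidR : (Nat.gcd b c : ℝ) * H = (Nat.gcd H b : ℝ) * (Nat.gcd H c : ℝ) := by
        exact_mod_cast hid
      have hgH : (0 : ℝ) < (Nat.gcd b c : ℝ) := lt_trans hX h1
      have hgb : (0 : ℝ) < (Nat.gcd H b : ℝ) := by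
        exact_mod_cast Nat.gcd_pos_of_pos_left b hH0
      have hgc : (0 : ℝ) < (Nat.gcd H c : ℝ) := by
        exact_mod_cast Nat.gcd_pos_of_pos_left c hH0
      have hlb : (cf H b : ℝ) * (Nat.gcd H b : ℝ) = H := by exact_mod_cast cf_mul (H := H) (b := b)
      have hlc : (cf H c : ℝ) * (Nat.gcd H c : ℝ) = H := by exact_mod_cast cf_mul (H := H) (b := c)
      have hll : (cf H b : ℝ) * (cf H c : ℝ) * (Nat.gcd b c : ℝ) = H := by
        have e1 : ((cf H b : ℝ) * (cf H c : ℝ) * (Nat.gcd b c : ℝ)) * H = (H : ℝ) * H := by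
          calc ((cf H b : ℝ) * (cf H c : ℝ) * (Nat.gcd b c : ℝ)) * H
              = (cf H b : ℝ) * (cf H c : ℝ) * ((Nat.gcd b c : ℝ) * H) := by ring
            _ = ((cf H b : ℝ) * (Nat.gcd H b : ℝ)) * ((cf H c : ℝ) * (Nat.gcd H c : ℝ)) := by
                rw [hidR]; ring
            _ = _ := by rw [hlb, hlc]
        exact mul_right_cancel₀ hHR.ne' e1
      have hb1 : (2 : ℝ) ^ (cl H b) ≤ cf H b := by
        have : 2 ^ (cl H b) ≤ cf H b := Nat.pow_log_le_self 2 (cf_pos hH0).ne'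
        exact_mod_cast this
      have hb2 : (cf H b : ℝ) < 2 ^ (cl H b + 1) := by
        have : cf H b < 2 ^ (cl H b + 1) := Nat.lt_pow_succ_log_self (by norm_num) _
        exact_mod_cast this
      have hc1 : (2 : ℝ) ^ (cl H c) ≤ cf H c := by
        have : 2 ^ (cl H c) ≤ cf H c := Nat.pow_log_le_self 2 (cf_pos hH0).ne'
        exact_mod_cast this
      have hc2 : (cf H c : ℝ) < 2 ^ (cl H c + 1) := by
        have : cf H c < 2 ^ (cl H c + 1) := Nat.lt_pow_succ_log_self (by norm_num) _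
        exact_mod_cast this
      have hb0 : (0 : ℝ) < 2 ^ (cl H b) := by positivity
      have hc0 : (0 : ℝ) < 2 ^ (cl H c) := by positivity
      have hll2 : (cf H b : ℝ) * (cf H c : ℝ) = H / (Nat.gcd b c : ℝ) := by
        rw [eq_div_iff hgH.ne']; exact hll
      -- 2^{i+j} < H / X
      have hlow : (2 : ℝ) ^ (cl H b + cl H c) < H / X := by
        calc (2 : ℝ) ^ (cl H b + cl H c) = 2 ^ (cl H b) * 2 ^ (cl H c) := pow_add _ _ _
          _ ≤ (cf H b : ℝ) * (cf H c : ℝ) := mul_le_mul hb1 hc1 hc0.le (hb0.le.trans hb1)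
          _ = H / (Nat.gcd b c : ℝ) := hll2
          _ < H / X := div_lt_div_of_pos_left hHR hX h1
      have hupp : H / X ≤ (2 : ℝ) ^ (cl H b + cl H c + 3) := by
        have e1 : H / (2 * X) ≤ (cf H b : ℝ) * (cf H c : ℝ) := by
          rw [hll2]
          exact div_le_div_of_nonneg_left hHR.le hgH h2
        have e2 : (cf H b : ℝ) * (cf H c : ℝ) ≤ 2 ^ (cl H b + 1) * 2 ^ (cl H c + 1) :=
          mul_le_mul hb2.le hc2.le (by positivity) (by positivity)
        have e3 : H / X = 2 * (H / (2 * X)) := by field_simp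
        rw [e3]
        calc 2 * (H / (2 * X)) ≤ 2 * (2 ^ (cl H b + 1) * 2 ^ (cl H c + 1)) := by linarith
          _ = _ := by rw [← pow_add, ← pow_succ']; congr 1; omega
      have hlt : cl H b + cl H c < n := by
        by_contra hcon
        push Not at hcon
        have : (2 : ℝ) ^ n ≤ 2 ^ (cl H b + cl H c) := pow_le_pow_right₀ (by norm_num) hcon
        linarith
      have hge : n ≤ cl H b + cl H c + 3 := hn2 _ hupp
      have hnz : ¬ (cl H b = 0 ∧ cl H c = 0) := by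
        rintro ⟨e1, e2⟩
        apply h4
        constructor
        · rw [← cf_eq_one hH0]
          have hp := cf_pos (b := b) hH0
          rw [e1] at hb2
          have : cf H b < 2 ^ (0 + 1) := by exact_mod_cast hb2
          omega
        · rw [← cf_eq_one hH0]
          have hp := cf_pos (b := c) hH0
          rw [e2] at hc2
          have : cf H c < 2 ^ (0 + 1) := by exact_mod_cast hc2
          omega
      have hQ1 : Q (cl H b) (cl H c) = 1 := by
        simp only [Q]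
        rw [if_pos ⟨by omega, hnz⟩]
      rw [hQ1, one_mul]
      refine le_of_eq ?_
      simp only [hGdef, hGdef', hal, hal', if_true]
      have e4 : (Nat.gcd b c : ℝ) = (1 / (H : ℝ)) * ((Nat.gcd H b : ℝ) * (Nat.gcd H c : ℝ)) := by
        rw [← hidR]; field_simp
      rw [e4]; ring
    · exact mul_nonneg (hQ0 _ _) (mul_nonneg (by positivity) (mul_nonneg (hG0 _) (hG0' _)))
  refine (Finset.sum_le_sum fun b hb => Finset.sum_le_sum fun c hc => hterm b hb c hc).trans ?_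
  -- group into classes
  have hmap : ∀ b ∈ M.divisors, cl H b ∈ range (H + 1) := by
    intro b _
    rw [Finset.mem_range]
    have h1 : Nat.log 2 (cf H b) ≤ cf H b := Nat.log_le_self _ _
    have h2 : cf H b ≤ H := Nat.le_of_dvd hH0 cf_dvd
    unfold cl; omega
  set A : ℕ → ℝ := fun i => ∑ b ∈ M.divisors.filter (fun b => cl H b = i), G b with hA
  set A' : ℕ → ℝ := fun i => ∑ b ∈ M.divisors.filter (fun b => cl H b = i), G' b with hA'
  have hA0 : ∀ i, 0 ≤ A i := fun i => Finset.sum_nonneg fun b _ => hG0 b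
  have hA0' : ∀ i, 0 ≤ A' i := fun i => Finset.sum_nonneg fun b _ => hG0' b
  have hgroup : ∑ b ∈ M.divisors, ∑ c ∈ M.divisors,
      Q (cl H b) (cl H c) * ((1 / (H : ℝ)) * (G b * G' c)) =
      ∑ i ∈ range (H + 1), ∑ j ∈ range (H + 1), Q i j * ((1 / (H : ℝ)) * (A i * A' j)) := by
    rw [← Finset.sum_fiberwise_of_maps_to hmap]
    refine Finset.sum_congr rfl fun i _ => ?_
    have e1 : ∀ b ∈ M.divisors.filter (fun b => cl H b = i), ∑ c ∈ M.divisors,
        Q (cl H b) (cl H c) * ((1 / (H : ℝ)) * (G b * G' c)) =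
        ∑ j ∈ range (H + 1), Q i j * ((1 / (H : ℝ)) * (G b * A' j)) := by
      intro b hb
      rw [Finset.mem_filter] at hb
      rw [hb.2, ← Finset.sum_fiberwise_of_maps_to hmap]
      refine Finset.sum_congr rfl fun j _ => ?_
      rw [hA']
      simp only
      rw [Finset.mul_sum, Finset.mul_sum, Finset.mul_sum]
      refine Finset.sum_congr rfl fun c hc => ?_
      rw [Finset.mem_filter] at hc
      rw [hc.2]
    rw [Finset.sum_congr rfl e1, Finset.sum_comm]
    refine Finset.sum_congr rfl fun j _ => ?_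
    rw [← Finset.mul_sum, ← Finset.mul_sum, ← Finset.sum_mul]
  rw [hgroup]
  -- estimate
  set m : ℕ → ℝ := fun i => ∑ b ∈ M.divisors.filter (fun b => cl H b = i), nu M b * f b ^ 2 with hm
  set m' : ℕ → ℝ := fun i => ∑ b ∈ M.divisors.filter (fun b => cl H b = i), nu M b * g b ^ 2 with hm'
  have hAgen : ∀ (φ : ℕ → ℝ) (i : ℕ), ∑ b ∈ M.divisors.filter (fun b => cl H b = i),
      (if Al (cf H b) then (Nat.gcd H b : ℝ) * nu M b * φ b else 0) ≤
      √(H * xrA Al M i) * √(∑ b ∈ M.divisors.filter (fun b => cl H b = i), nu M b * φ b ^ 2) := by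
    intro φ i
    have e1 : ∑ b ∈ M.divisors.filter (fun b => cl H b = i),
        (if Al (cf H b) then (Nat.gcd H b : ℝ) * nu M b * φ b else 0) =
        ∑ b ∈ M.divisors.filter (fun b => cl H b = i ∧ Al (cf H b)),
          (Nat.gcd H b : ℝ) * nu M b * φ b := by
      rw [← Finset.filter_filter, Finset.sum_filter (p := fun b => Al (cf H b))]
    rw [e1]
    refine (class_leA Al hM hH φ i).trans ?_
    refine mul_le_mul_of_nonneg_left (Real.sqrt_le_sqrt ?_) (Real.sqrt_nonneg _)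
    refine Finset.sum_le_sum_of_subset_of_nonneg (fun b hb => ?_) fun b _ _ =>
      mul_nonneg (nu_nonneg _ _) (by positivity)
    rw [Finset.mem_filter] at hb ⊢
    exact ⟨hb.1, hb.2.1⟩
  have hm0 : ∀ i, 0 ≤ m i := fun i =>
    Finset.sum_nonneg fun b _ => mul_nonneg (nu_nonneg _ _) (by positivity)
  have hm0' : ∀ i, 0 ≤ m' i := fun i =>
    Finset.sum_nonneg fun b _ => mul_nonneg (nu_nonneg _ _) (by positivity)
  have hAle : ∀ i, A i ≤ √(H * xrA Al M i) * √(m i) := fun i => hAgen f i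
  have hAle' : ∀ i, A' i ≤ √(H * xrA Al M i) * √(m' i) := fun i => hAgen g i
  have hsumm : ∑ i ∈ range (H + 1), m i = ∑ b ∈ M.divisors, nu M b * f b ^ 2 :=
    Finset.sum_fiberwise_of_maps_to hmap _
  have hsumm' : ∑ i ∈ range (H + 1), m' i = ∑ b ∈ M.divisors, nu M b * g b ^ 2 :=
    Finset.sum_fiberwise_of_maps_to hmap _
  have hxx : ∀ i j, ¬ (i = 0 ∧ j = 0) → √(xrA Al M i) * √(xrA Al M j) ≤ √ρ := by
    intro i j hij
    have h1 : ∀ k, √(xrA Al M k) ≤ 1 := fun k => by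
      rw [← Real.sqrt_one]; exact Real.sqrt_le_sqrt (xrA_le_one Al M k)
    have h2 : ∀ k, 1 ≤ k → √(xrA Al M k) ≤ √ρ := fun k hk => Real.sqrt_le_sqrt (by
      unfold xrA
      rw [div_le_iff₀ (by positivity)]
      exact hρ k hk)
    by_cases hi : i = 0
    · have hj : 1 ≤ j := by omega
      calc √(xrA Al M i) * √(xrA Al M j) ≤ 1 * √ρ :=
            mul_le_mul (h1 i) (h2 j hj) (Real.sqrt_nonneg _) (by norm_num)
        _ = √ρ := one_mul _
    · have hi1 : 1 ≤ i := by omega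
      calc √(xrA Al M i) * √(xrA Al M j) ≤ √ρ * 1 :=
            mul_le_mul (h2 i hi1) (h1 j) (Real.sqrt_nonneg _) (Real.sqrt_nonneg _)
        _ = √ρ := mul_one _
  have hij : ∀ i j, Q i j * ((1 / (H : ℝ)) * (A i * A' j)) ≤
      √ρ * ((if i + j = n - 1 then √(m i) * √(m' j) else 0) +
        (if i + j = n - 2 then √(m i) * √(m' j) else 0) +
        (if i + j = n - 3 then √(m i) * √(m' j) else 0)) := by
    intro i j
    have hmm : 0 ≤ √(m i) * √(m' j) := mul_nonneg (Real.sqrt_nonneg _) (Real.sqrt_nonneg _)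
    have hs : ∀ k, 0 ≤ (if i + j = k then √(m i) * √(m' j) else 0) := by
      intro k; split_ifs
      · exact hmm
      · exact le_rfl
    by_cases hq : (i + j + 1 = n ∨ i + j + 2 = n ∨ i + j + 3 = n) ∧ ¬ (i = 0 ∧ j = 0)
    · have hQ1 : Q i j = 1 := by simp only [Q]; rw [if_pos hq]
      rw [hQ1, one_mul]
      have h1 : (1 / (H : ℝ)) * (A i * A' j) ≤ √ρ * (√(m i) * √(m' j)) := by
        have e1 : A i * A' j ≤ (√(H * xrA Al M i) * √(m i)) * (√(H * xrA Al M j) * √(m' j)) :=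
          mul_le_mul (hAle i) (hAle' j) (hA0' j)
            (mul_nonneg (Real.sqrt_nonneg _) (Real.sqrt_nonneg _))
        have e2 : (√(H * xrA Al M i) * √(m i)) * (√(H * xrA Al M j) * √(m' j)) =
            H * ((√(xrA Al M i) * √(xrA Al M j)) * (√(m i) * √(m' j))) := by
          rw [Real.sqrt_mul hHR.le, Real.sqrt_mul hHR.le]
          have := Real.mul_self_sqrt hHR.le
          calc _ = (√(H : ℝ) * √(H : ℝ)) * ((√(xrA Al M i) * √(xrA Al M j)) * (√(m i) * √(m' j))) := by ring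
            _ = _ := by rw [this]
        calc (1 / (H : ℝ)) * (A i * A' j)
            ≤ (1 / (H : ℝ)) * (H * ((√(xrA Al M i) * √(xrA Al M j)) * (√(m i) * √(m' j)))) := by
              refine mul_le_mul_of_nonneg_left (e1.trans (le_of_eq e2)) (by positivity)
          _ = (√(xrA Al M i) * √(xrA Al M j)) * (√(m i) * √(m' j)) := by field_simp
          _ ≤ √ρ * (√(m i) * √(m' j)) := mul_le_mul_of_nonneg_right (hxx i j hq.2) hmm
      refine h1.trans (mul_le_mul_of_nonneg_left ?_ (Real.sqrt_nonneg _))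
      rcases hq.1 with h | h | h
      · have : i + j = n - 1 := by omega
        have e := hs (n - 2)
        have e' := hs (n - 3)
        rw [if_pos this]; linarith
      · have : i + j = n - 2 := by omega
        have e := hs (n - 1)
        have e' := hs (n - 3)
        rw [if_pos this]; linarith
      · have : i + j = n - 3 := by omega
        have e := hs (n - 1)
        have e' := hs (n - 2)
        rw [if_pos this]; linarith
    · have hQ1 : Q i j = 0 := by simp only [Q]; rw [if_neg hq]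
      rw [hQ1, zero_mul]
      have e := hs (n - 1)
      have e' := hs (n - 2)
      have e'' := hs (n - 3)
      exact mul_nonneg (Real.sqrt_nonneg _) (by linarith)
  refine (Finset.sum_le_sum fun i _ => Finset.sum_le_sum fun j _ => hij i j).trans ?_
  have hd : ∀ s, ∑ i ∈ range (H + 1), ∑ j ∈ range (H + 1),
      (if i + j = s then √(m i) * √(m' j) else 0) ≤
      √(∑ b ∈ M.divisors, nu M b * f b ^ 2) * √(∑ b ∈ M.divisors, nu M b * g b ^ 2) := by
    intro s
    have := diag_le (H + 1) s m m' hm0 hm0'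
    rwa [hsumm, hsumm'] at this
  have e1 : ∑ i ∈ range (H + 1), ∑ j ∈ range (H + 1),
      √ρ * ((if i + j = n - 1 then √(m i) * √(m' j) else 0) +
        (if i + j = n - 2 then √(m i) * √(m' j) else 0) +
        (if i + j = n - 3 then √(m i) * √(m' j) else 0)) =
      √ρ * ((∑ i ∈ range (H + 1), ∑ j ∈ range (H + 1),
          (if i + j = n - 1 then √(m i) * √(m' j) else 0)) +
        (∑ i ∈ range (H + 1), ∑ j ∈ range (H + 1),
          (if i + j = n - 2 then √(m i) * √(m' j) else 0)) +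
        (∑ i ∈ range (H + 1), ∑ j ∈ range (H + 1),
          (if i + j = n - 3 then √(m i) * √(m' j) else 0))) := by
    rw [← Finset.sum_add_distrib, ← Finset.sum_add_distrib, Finset.mul_sum]
    refine Finset.sum_congr rfl fun i _ => ?_
    rw [← Finset.sum_add_distrib, ← Finset.sum_add_distrib, Finset.mul_sum]
  rw [e1]
  have h1 := hd (n - 1)
  have h2 := hd (n - 2)
  have h3 := hd (n - 3)
  have hρ0 := Real.sqrt_nonneg ρ
  nlinarith [mul_le_mul_of_nonneg_left (add_le_add (add_le_add h1 h2) h3) hρ0]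


/-! ### F-Λ structures -/

section FLpart

variable {M : ℕ} {F : FL M}

/-- the deficit read in the leaf is the deficit of the structure -/
lemma cf_eq_ell {x b0 z : ℕ} (hM : M ≠ 0) (hb0 : b0 ∣ M) (hz : z ∣ part (Ps F x b0) M) :
    cf (Hc F x b0) z = F.ell x (z * wd F x b0) := by
  obtain ⟨hb1, _, hb3⟩ := class_mem (F := F) (x := x) hM hb0 hz
  have hH0 : Hc F x b0 ≠ 0 := part_ne _ _
  have hz0 : z ≠ 0 := fun hc => part_ne (Ps F x b0) M (Nat.eq_zero_of_zero_dvd (hc ▸ hz))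
  have hw0 : wd F x b0 ≠ 0 := part_ne _ _
  refine Nat.eq_of_factorization_eq (cf_pos (Nat.pos_of_ne_zero hH0)).ne'
    (FL.ell_pos _ _).ne' fun p => ?_
  have e1 : (cf (Hc F x b0) z).factorization p =
      (Hc F x b0).factorization p - min ((Hc F x b0).factorization p) (z.factorization p) := by
    unfold cf
    rw [Nat.factorization_div (Nat.gcd_dvd_left _ _), Nat.factorization_gcd hH0 hz0]
    rfl
  rw [e1, FL.fact_ell]
  by_cases hpm : p ∈ M.primeFactors
  · rw [if_pos hpm]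
    have hpp := Nat.prime_of_mem_primeFactors hpm
    unfold FL.ellE
    by_cases hx : x < p
    · rw [if_pos hx, ← FL.ctr_eq hb0 hb1 hb3 hpp hx.le]
      cases hv : F.ctr b0 p with
      | none =>
        simp only
        have : (Hc F x b0).factorization p = 0 := by
          unfold Hc
          rw [fact_part, if_neg (not_ps.2 (Or.inr ⟨hx, hv⟩))]
        rw [this]; omega
      | some v =>
        simp only
        rw [fact_Hc hpm hx hv]
        have e2 : (z * wd F x b0).factorization p = z.factorization p := by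
          rw [Nat.factorization_mul hz0 hw0, Finsupp.add_apply,
            fact_zero_of_dvd_part (fun p => ¬ Ps F x b0 p) (wd_dvd hM hb0)
              (not_not.2 ⟨hx, v, hv⟩), add_zero]
        rw [e2]; omega
    · rw [if_neg hx]
      have : (Hc F x b0).factorization p = 0 := by
        unfold Hc
        rw [fact_part, if_neg (not_ps.2 (Or.inl (by omega)))]
      rw [this]; omega
  · rw [if_neg hpm]
    have : (Hc F x b0).factorization p = 0 := by
      unfold Hc
      rw [fact_part, FL.fact_cen, if_neg hpm]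
      split_ifs <;> rfl
    rw [this]; omega

/-- the weight outside the passive primes is at most the weight of the low part -/
lemma wd_weight {x b0 : ℕ} (hM : 0 < M) (hb0 : b0 ∣ M) :
    (wd F x b0 : ℝ) * nu (part (fun p => ¬ Ps F x b0 p) M) (wd F x b0) ≤
      (low x b0 : ℝ) * nu (low x M) (low x b0) := by
  set S := Ps F x b0 with hS
  set M2 := part (fun p => ¬ S p) M with hM2
  set w := wd F x b0 with hw
  have hM2p : 0 < M2 := part_pos _ _
  have hwM : w ∣ M2 := wd_dvd hM.ne' hb0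
  have hw0 : 0 < w := Nat.pos_of_dvd_of_pos hwM hM2p
  have hnS : ∀ p, p ≤ x → ¬ S p := fun p hp h => by have := h.1; omega
  have e1 : low x M2 = low x M := by
    refine Nat.eq_of_factorization_eq (low_pos _ _).ne' (low_pos _ _).ne' fun p => ?_
    rw [fact_low, fact_low]
    by_cases hp : p ≤ x
    · rw [if_pos hp, if_pos hp, hM2, fact_part, if_pos (hnS p hp)]
    · rw [if_neg hp, if_neg hp]
  have e2 : low x w = low x b0 := by
    refine Nat.eq_of_factorization_eq (low_pos _ _).ne' (low_pos _ _).ne' fun p => ?_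
    rw [fact_low, fact_low]
    by_cases hp : p ≤ x
    · rw [if_pos hp, if_pos hp, hw]
      unfold wd
      rw [fact_part, if_pos (hnS p hp)]
    · rw [if_neg hp, if_neg hp]
  have h1 : low x w ∣ low x M2 := low_dvd x hM2p.ne' hwM
  have h2 : upp x w ∣ upp x M2 := upp_dvd x hM2p.ne' hwM
  have h3 : nu M2 w = nu (low x M2) (low x w) * nu (upp x M2) (upp x w) := by
    conv_lhs => rw [← low_mul_upp x hw0.ne']
    exact nu_low_upp hM2p h1 h2
  have h4 : (w : ℝ) = (low x w : ℝ) * (upp x w : ℝ) := by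
    exact_mod_cast (low_mul_upp x hw0.ne').symm
  have h5 := mul_nu_le (upp_pos x M2) h2
  have h6 : 0 ≤ (low x w : ℝ) * nu (low x M2) (low x w) :=
    mul_nonneg (by positivity) (nu_nonneg _ _)
  rw [h3, ← e1, ← e2]
  calc (w : ℝ) * (nu (low x M2) (low x w) * nu (upp x M2) (upp x w))
      = ((low x w : ℝ) * nu (low x M2) (low x w)) * ((upp x w : ℝ) * nu (upp x M2) (upp x w)) := by
        conv_lhs => rw [h4]
        ring
    _ ≤ ((low x w : ℝ) * nu (low x M2) (low x w)) * 1 := mul_le_mul_of_nonneg_left h5 h6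
    _ = _ := mul_one _

/-- all primes of `l` are `> X1` -/
def Rgh (X1 l : ℕ) : Prop := ∀ p : ℕ, p.Prime → p ∣ l → X1 < p

variable (F)

/-- one term: equal below `X0`, good above `X0`, deficits `X1`-rough, not pure, `X < gcd ≤ 2X`,
extra factor `θ` of the low part -/
noncomputable def tm2 (X0 X1 : ℕ) (θ : ℕ → ℝ) (X : ℝ) (f g : ℕ → ℝ) (b c : ℕ) : ℝ :=
  if X < (Nat.gcd b c : ℝ) ∧ (Nat.gcd b c : ℝ) ≤ 2 * X ∧ low X0 b = low X0 c ∧ F.good X0 b c ∧
      ¬ (F.ell X0 b = 1 ∧ F.ell X0 c = 1) ∧ Rgh X1 (F.ell X0 b) ∧ Rgh X1 (F.ell X0 c) then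
    (Nat.gcd b c : ℝ) * nu M b * nu M c * (f b * g c) * θ (low X0 b) else 0

variable {F}

lemma class_energy2 {x X1 b0 : ℕ} (hM : 0 < M) (hb0 : b0 ∣ M) {ρ : ℝ}
    (hρ : ∀ i, 1 ≤ i → ((M.divisors.filter (fun l => Nat.log 2 l = i ∧ Rgh X1 l)).card : ℝ) ≤
      ρ * 2 ^ i)
    (θ : ℕ → ℝ) (hθ0 : ∀ e, 0 ≤ θ e)
    (hθ : ∀ e, e ∣ low x M → θ e * ((e : ℝ) * nu (low x M) e) ≤ 1)
    (f g : ℕ → ℝ) (hf : ∀ b, 0 ≤ f b) (hg : ∀ b, 0 ≤ g b) {X : ℝ} (hX : 0 < X) :
    ∑ b ∈ M.divisors.filter (fun b => lab F x b = lab F x b0),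
      ∑ c ∈ M.divisors.filter (fun b => lab F x b = lab F x b0), tm2 F x X1 θ X f g b c ≤
      3 * √ρ * (√(∑ b ∈ M.divisors.filter (fun b => lab F x b = lab F x b0), nu M b * f b ^ 2) *
        √(∑ b ∈ M.divisors.filter (fun b => lab F x b = lab F x b0), nu M b * g b ^ 2)) := by
  set S := Ps F x b0 with hS
  set M1 := part S M with hM1
  set w := wd F x b0 with hw
  set M2 := part (fun p => ¬ S p) M with hM2
  set e0 := low x b0 with he0
  have hM1p : 0 < M1 := part_pos _ _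
  have hM2p : 0 < M2 := part_pos _ _
  have hwM : w ∣ M2 := wd_dvd hM.ne' hb0
  have hw0 : 0 < w := Nat.pos_of_dvd_of_pos hwM hM2p
  have hwR : (0 : ℝ) < w := by exact_mod_cast hw0
  have hnu : ∀ z, z ∣ M1 → nu M (z * w) = nu M1 z * nu M2 w := fun z hz => nu_cut S hM hz hwM
  have hgcd : ∀ z z', z ∣ M1 → z' ∣ M1 → Nat.gcd (z * w) (z' * w) = Nat.gcd z z' * w := by
    intro z z' hz hz'
    rw [gcd_cut S hz hwM hz' hwM, Nat.gcd_self]
  have hν2 := nu_nonneg M2 w
  have hρ1 : ∀ i, 1 ≤ i → ((M1.divisors.filter (fun l => Nat.log 2 l = i ∧ Rgh X1 l)).card : ℝ) ≤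
      ρ * 2 ^ i := by
    intro i hi
    refine le_trans ?_ (hρ i hi)
    have : M1.divisors.filter (fun l => Nat.log 2 l = i ∧ Rgh X1 l) ⊆
        M.divisors.filter (fun l => Nat.log 2 l = i ∧ Rgh X1 l) := by
      intro l hl
      rw [Finset.mem_filter, Nat.mem_divisors] at hl ⊢
      exact ⟨⟨hl.1.1.trans (part_dvd_self _ _), hM.ne'⟩, hl.2⟩
    exact_mod_cast Finset.card_le_card this
  have hmain := nonpureA (Rgh X1) hM1p (Hc_dvd (F := F) (x := x) hM.ne' hb0) hρ1
    (fun z => f (z * w)) (fun z => g (z * w)) (fun z => hf _) (fun z => hg _)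
    (X := X / w) (by positivity)
  -- right side
  have hR1 : ∑ b ∈ M.divisors.filter (fun b => lab F x b = lab F x b0), nu M b * f b ^ 2 =
      nu M2 w * ∑ z ∈ M1.divisors, nu M1 z * f (z * w) ^ 2 := by
    rw [class_sum hM.ne' hb0, Finset.mul_sum]
    refine Finset.sum_congr rfl fun z hz => ?_
    rw [hnu z (Nat.dvd_of_mem_divisors hz)]; ring
  have hR2 : ∑ b ∈ M.divisors.filter (fun b => lab F x b = lab F x b0), nu M b * g b ^ 2 =
      nu M2 w * ∑ z ∈ M1.divisors, nu M1 z * g (z * w) ^ 2 := by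
    rw [class_sum hM.ne' hb0, Finset.mul_sum]
    refine Finset.sum_congr rfl fun z hz => ?_
    rw [hnu z (Nat.dvd_of_mem_divisors hz)]; ring
  rw [hR1, hR2, class_sum hM.ne' hb0]
  have hL : ∀ z ∈ M1.divisors, ∑ c ∈ M.divisors.filter (fun b => lab F x b = lab F x b0),
      tm2 F x X1 θ X f g (z * w) c ≤ (w * nu M2 w * nu M2 w * θ e0) * ∑ z' ∈ M1.divisors,
        (if X / w < (Nat.gcd z z' : ℝ) ∧ (Nat.gcd z z' : ℝ) ≤ 2 * (X / w) ∧
            lvl M1 (Hc F x b0) z z' ∧ ¬ (Hc F x b0 ∣ z ∧ Hc F x b0 ∣ z') ∧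
            Rgh X1 (cf (Hc F x b0) z) ∧ Rgh X1 (cf (Hc F x b0) z') then
          (Nat.gcd z z' : ℝ) * nu M1 z * nu M1 z' * (f (z * w) * g (z' * w)) else 0) := by
    intro z hz
    rw [class_sum hM.ne' hb0, Finset.mul_sum]
    refine Finset.sum_le_sum fun z' hz' => ?_
    have hz := Nat.dvd_of_mem_divisors hz
    have hz' := Nat.dvd_of_mem_divisors hz'
    obtain ⟨hb1, hb2, hb3⟩ := class_mem (F := F) (x := x) hM.ne' hb0 hz
    obtain ⟨hc1, hc2, hc3⟩ := class_mem (F := F) (x := x) hM.ne' hb0 hz'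
    have hell := cf_eq_ell (F := F) (x := x) hM.ne' hb0 hz
    have hell' := cf_eq_ell (F := F) (x := x) hM.ne' hb0 hz'
    change cf (Hc F x b0) z = F.ell x (z * w) at hell
    change cf (Hc F x b0) z' = F.ell x (z' * w) at hell'
    change z * w ∣ M at hb1
    change z' * w ∣ M at hc1
    change e0 = low x (z * w) at hb2
    have hH0 : 0 < Hc F x b0 := part_pos _ _
    have hzz : (Nat.gcd (z * w) (z' * w) : ℝ) = (Nat.gcd z z' : ℝ) * w := by
      rw [hgcd z z' hz hz']; push_cast; ring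
    have hfz : ∀ y p, y ∣ M1 → S p → (y * w).factorization p = y.factorization p := by
      intro y p hy hp
      have hy0 : y ≠ 0 := fun hc => hM1p.ne' (Nat.eq_zero_of_zero_dvd (hc ▸ hy))
      rw [Nat.factorization_mul hy0 hw0.ne', Finsupp.add_apply,
        fact_zero_of_dvd_part (fun p => ¬ S p) hwM (not_not.2 hp), add_zero]
    unfold tm2
    split_ifs with h1 h2 h2
    · refine le_of_eq ?_
      rw [hzz, hnu z hz, hnu z' hz', ← hb2]
      ring
    · exfalso
      obtain ⟨g1, g2, _, g4, g5, g6, g7⟩ := h1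
      apply h2
      rw [hzz] at g1 g2
      refine ⟨?_, ?_, ?_, ?_, ?_, ?_⟩
      · rw [div_lt_iff₀ hwR]; exact g1
      · rw [show 2 * (X / (w : ℝ)) = 2 * X / w by ring, le_div_iff₀ hwR]; exact g2
      · intro p hp
        have hpp := Nat.prime_of_mem_primeFactors hp
        have hpd := Nat.dvd_of_mem_primeFactors hp
        have hSp : S p := prime_dvd_part S hpp hpd
        have hpm : p ∈ M.primeFactors := by
          rw [Nat.mem_primeFactors]
          exact ⟨hpp, hpd.trans (part_dvd_self _ _), hM.ne'⟩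
        obtain ⟨hx, v, hv⟩ := hSp
        have hSp : S p := ⟨hx, v, hv⟩
        rw [fact_Hc hpm hx hv]
        have h3 := g4.2 p hpp hx v (by rw [← FL.ctr_eq hb0 hb1 hb3 hpp hx.le]; exact hv)
        rw [hfz z p hz hSp, hfz z' p hz' hSp] at h3
        exact h3
      · rintro ⟨e1, e2⟩
        refine g5 ⟨?_, ?_⟩
        · rw [← hell]; exact (cf_eq_one hH0).2 e1
        · rw [← hell']; exact (cf_eq_one hH0).2 e2
      · rw [hell]; exact g6
      · rw [hell']; exact g7
    · exact mul_nonneg (mul_nonneg (mul_nonneg (mul_nonneg hwR.le hν2) hν2) (hθ0 _))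
        (mul_nonneg (mul_nonneg (mul_nonneg (by positivity) (nu_nonneg _ _)) (nu_nonneg _ _))
          (mul_nonneg (hf _) (hg _)))
    · rw [mul_zero]
  refine (Finset.sum_le_sum hL).trans ?_
  rw [← Finset.mul_sum]
  set A := ∑ z ∈ M1.divisors, nu M1 z * f (z * w) ^ 2 with hA
  set B := ∑ z ∈ M1.divisors, nu M1 z * g (z * w) ^ 2 with hB
  have hA0 : 0 ≤ A := Finset.sum_nonneg fun z _ => mul_nonneg (nu_nonneg _ _) (by positivity)
  have hB0 : 0 ≤ B := Finset.sum_nonneg fun z _ => mul_nonneg (nu_nonneg _ _) (by positivity)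
  have h3 : √(nu M2 w * A) * √(nu M2 w * B) = nu M2 w * (√A * √B) := by
    rw [Real.sqrt_mul hν2, Real.sqrt_mul hν2]
    have := Real.mul_self_sqrt hν2
    calc _ = (√(nu M2 w) * √(nu M2 w)) * (√A * √B) := by ring
      _ = _ := by rw [this]
  rw [h3]
  have hkey : (w * nu M2 w * nu M2 w * θ e0) ≤ nu M2 w := by
    have h4 : (w : ℝ) * nu M2 w ≤ (e0 : ℝ) * nu (low x M) e0 := wd_weight hM hb0
    have h5 := hθ e0 (low_dvd x hM.ne' hb0)
    calc w * nu M2 w * nu M2 w * θ e0 = (θ e0 * (w * nu M2 w)) * nu M2 w := by ring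
      _ ≤ (θ e0 * ((e0 : ℝ) * nu (low x M) e0)) * nu M2 w :=
          mul_le_mul_of_nonneg_right (mul_le_mul_of_nonneg_left h4 (hθ0 _)) hν2
      _ ≤ 1 * nu M2 w := mul_le_mul_of_nonneg_right h5 hν2
      _ = nu M2 w := one_mul _
  have hAB : 0 ≤ 3 * √ρ * (√A * √B) :=
    mul_nonneg (mul_nonneg (by norm_num) (Real.sqrt_nonneg _))
      (mul_nonneg (Real.sqrt_nonneg _) (Real.sqrt_nonneg _))
  calc _ ≤ (w * nu M2 w * nu M2 w * θ e0) * (3 * √ρ * (√A * √B)) := by
        refine mul_le_mul_of_nonneg_left ?_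
          (mul_nonneg (mul_nonneg (mul_nonneg hwR.le hν2) hν2) (hθ0 _))
        convert hmain using 6
    _ ≤ nu M2 w * (3 * √ρ * (√A * √B)) := mul_le_mul_of_nonneg_right hkey hAB
    _ = _ := by ring

/-- **(III) with two cuts**: non-pure good pairs, fixed dyadic gcd -/
theorem nonpure_fl2 (F : FL M) (hM : 0 < M) (X0 X1 : ℕ) {ρ : ℝ}
    (hρ : ∀ i, 1 ≤ i → ((M.divisors.filter (fun l => Nat.log 2 l = i ∧ Rgh X1 l)).card : ℝ) ≤
      ρ * 2 ^ i)
    (θ : ℕ → ℝ) (hθ0 : ∀ e, 0 ≤ θ e)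
    (hθ : ∀ e, e ∣ low X0 M → θ e * ((e : ℝ) * nu (low X0 M) e) ≤ 1)
    (f g : ℕ → ℝ) (hf : ∀ b, 0 ≤ f b) (hg : ∀ b, 0 ≤ g b) {X : ℝ} (hX : 0 < X) :
    ∑ b ∈ M.divisors, ∑ c ∈ M.divisors, tm2 F X0 X1 θ X f g b c ≤
      3 * √ρ * (√(∑ b ∈ M.divisors, nu M b * f b ^ 2) *
        √(∑ b ∈ M.divisors, nu M b * g b ^ 2)) := by
  set I := M.divisors.image (lab F X0) with hI
  have hmap : ∀ b ∈ M.divisors, lab F X0 b ∈ I := fun b hb => Finset.mem_image_of_mem _ hb
  have e1 : ∑ b ∈ M.divisors, ∑ c ∈ M.divisors, tm2 F X0 X1 θ X f g b c =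
      ∑ k ∈ I, ∑ b ∈ M.divisors.filter (fun b => lab F X0 b = k),
        ∑ c ∈ M.divisors.filter (fun b => lab F X0 b = k), tm2 F X0 X1 θ X f g b c := by
    rw [← Finset.sum_fiberwise_of_maps_to hmap]
    refine Finset.sum_congr rfl fun k _ => Finset.sum_congr rfl fun b hb => ?_
    rw [Finset.mem_filter] at hb
    rw [Finset.sum_filter]
    refine Finset.sum_congr rfl fun c hc => ?_
    by_cases h : lab F X0 c = k
    · rw [if_pos h]
    · rw [if_neg h]
      unfold tm2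
      rw [if_neg]
      rintro ⟨_, _, h3, h4, _⟩
      apply h
      rw [← hb.2]
      exact (lab_eq (Nat.dvd_of_mem_divisors hb.1) (Nat.dvd_of_mem_divisors hc) h3 h4.1).symm
  rw [e1]
  set A : ℕ × (ℕ → Option ℕ × ℕ) → ℝ := fun k =>
    ∑ b ∈ M.divisors.filter (fun b => lab F X0 b = k), nu M b * f b ^ 2 with hA
  set B : ℕ × (ℕ → Option ℕ × ℕ) → ℝ := fun k =>
    ∑ b ∈ M.divisors.filter (fun b => lab F X0 b = k), nu M b * g b ^ 2 with hB
  have hA0 : ∀ k, 0 ≤ A k := fun k =>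
    Finset.sum_nonneg fun z _ => mul_nonneg (nu_nonneg _ _) (by positivity)
  have hB0 : ∀ k, 0 ≤ B k := fun k =>
    Finset.sum_nonneg fun z _ => mul_nonneg (nu_nonneg _ _) (by positivity)
  have h1 : ∀ k ∈ I, ∑ b ∈ M.divisors.filter (fun b => lab F X0 b = k),
        ∑ c ∈ M.divisors.filter (fun b => lab F X0 b = k), tm2 F X0 X1 θ X f g b c ≤
        3 * √ρ * (√(A k) * √(B k)) := by
    intro k hk
    rw [hI, Finset.mem_image] at hk
    obtain ⟨b0, hb0, rfl⟩ := hk
    exact class_energy2 hM (Nat.dvd_of_mem_divisors hb0) hρ θ hθ0 hθ f g hf hg hX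
  refine (Finset.sum_le_sum h1).trans ?_
  rw [← Finset.mul_sum]
  refine mul_le_mul_of_nonneg_left ?_ (mul_nonneg (by norm_num) (Real.sqrt_nonneg _))
  have hsA : ∑ k ∈ I, A k = ∑ b ∈ M.divisors, nu M b * f b ^ 2 :=
    Finset.sum_fiberwise_of_maps_to hmap _
  have hsB : ∑ k ∈ I, B k = ∑ b ∈ M.divisors, nu M b * g b ^ 2 :=
    Finset.sum_fiberwise_of_maps_to hmap _
  refine (Real.sum_mul_le_sqrt_mul_sqrt _ _ _).trans (le_of_eq ?_)
  rw [← hsA, ← hsB]
  congr 1
  · congr 1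
    exact Finset.sum_congr rfl fun k _ => Real.sq_sqrt (hA0 k)
  · congr 1
    exact Finset.sum_congr rfl fun k _ => Real.sq_sqrt (hB0 k)

end FLpart

/-- relative number of `X1`-rough integers -/
lemma rough_rho : ∃ C : ℝ, 0 < C ∧ ∀ M X1 : ℕ, 2 ≤ X1 → ∀ i, 1 ≤ i →
    ((M.divisors.filter (fun l => Nat.log 2 l = i ∧ Rgh X1 l)).card : ℝ) ≤
      (C / Real.log X1) * 2 ^ i := by
  obtain ⟨C, hC, h⟩ := Roughx882.rough_count'
  refine ⟨C, hC, fun M X1 hx i hi => ?_⟩
  have hx' : (2 : ℝ) ≤ (X1 : ℝ) := by exact_mod_cast hx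
  have h1 := h X1 hx' (2 ^ i) (Nat.one_le_two_pow)
    (M.divisors.filter (fun l => Nat.log 2 l = i ∧ Rgh X1 l)) (fun l hl => by
      rw [Finset.mem_filter] at hl
      have hl0 : l ≠ 0 := (Nat.pos_of_mem_divisors hl.1).ne'
      have e1 : 2 ^ i ≤ l := by rw [← hl.2.1]; exact Nat.pow_log_le_self 2 hl0
      have e2 : l < 2 ^ (i + 1) := by
        rw [← hl.2.1]; exact Nat.lt_pow_succ_log_self (by norm_num) l
      have e3 : 2 ≤ 2 ^ i := by
        calc 2 = 2 ^ 1 := by norm_num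
          _ ≤ 2 ^ i := Nat.pow_le_pow_right (by norm_num) hi
      refine ⟨e1, ?_, by omega, fun p hp hpl => ?_⟩
      · rw [pow_succ] at e2; omega
      · exact_mod_cast hl.2.2 p hp hpl)
  refine h1.trans (le_of_eq ?_)
  push_cast
  ring

/-- **(III), two cuts, with the rough count inserted** -/
theorem nonpure_fl2_log : ∃ C : ℝ, 0 < C ∧ ∀ (M : ℕ) (F : FL M), 0 < M → ∀ X0 X1 : ℕ, 2 ≤ X1 →
    ∀ θ : ℕ → ℝ, (∀ e, 0 ≤ θ e) → (∀ e, e ∣ low X0 M → θ e * ((e : ℝ) * nu (low X0 M) e) ≤ 1) →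
    ∀ (f g : ℕ → ℝ), (∀ b, 0 ≤ f b) → (∀ b, 0 ≤ g b) → ∀ X : ℝ, 0 < X →
    ∑ b ∈ M.divisors, ∑ c ∈ M.divisors, tm2 F X0 X1 θ X f g b c ≤
      C * (Real.log X1) ^ (-(1 / 2 : ℝ)) * (√(∑ b ∈ M.divisors, nu M b * f b ^ 2) *
        √(∑ b ∈ M.divisors, nu M b * g b ^ 2)) := by
  obtain ⟨C, hC, h⟩ := rough_rho
  refine ⟨3 * √C, by positivity, fun M F hM X0 X1 hx θ hθ0 hθ f g hf hg X hX => ?_⟩
  have hx' : (2 : ℝ) ≤ (X1 : ℝ) := by exact_mod_cast hx
  have hlog : 0 < Real.log X1 := Real.log_pos (by linarith)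
  refine (nonpure_fl2 F hM X0 X1 (h M X1 hx) θ hθ0 hθ f g hf hg hX).trans (le_of_eq ?_)
  have h2 : √(C / Real.log X1) = √C * (Real.log X1) ^ (-(1 / 2 : ℝ)) := by
    rw [Real.sqrt_div hC.le, Real.rpow_neg hlog.le, ← Real.sqrt_eq_rpow]
    rfl
  rw [h2]; ring

end Crest.Agent.R4C.NonPure2x559
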