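import Crest.Agent.R4C.Base_935

/-!
# Row 4: the non-pure part of Theorem C in `L²` form (helper559, note 2977 (3))

`M` : the product of the passive primes (with exponents), `H ∣ M` : the centre word.
A pair `b, c ∣ M` is *level* if at every prime of `M` one of `b, c` has the exponent of `H`.
With `l = H / gcd (H, b)`, `l' = H / gcd (H, c)` : a pair is *pure* if `l = l' = 1`.

Theorem `nonpure` : if every dyadic class `[2^i, 2^(i+1))`, `i ≥ 1`, contains at most `ρ 2^i`
divisors of `M` (e.g. `M` is `x`-rough, `ρ = C / log x`), then for every `X > 0` and all `f, g ≥ 0`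

`Σ_{level, X < gcd(b,c) ≤ 2X, (l,l') ≠ (1,1)} gcd(b,c) ν(b) ν(c) f(b) g(c)
   ≤ 3 √ρ (Σ ν f²)^{1/2} (Σ ν g²)^{1/2}`.

No loss in the scale, no anatomy.
-/

set_option autoImplicit false

open Finset
open Crest.Agent.R4C.Basex935

namespace Crest.Agent.R4C.NonPurex559

/-- one of `b, c` has the exponent of `H`, at every prime of `M` (`= ThmRx19.lvl`) -/
def lvl (M H b c : ℕ) : Prop :=
  ∀ p ∈ M.primeFactors, b.factorization p = H.factorization p ∨ c.factorization p = H.factorization p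

/-- cofactor of the centre word -/
def cf (H b : ℕ) : ℕ := H / Nat.gcd H b

lemma gcd_lvl {M H b c : ℕ} (hM : M ≠ 0) (hH : H ∣ M) (hb : b ∣ M) (hc : c ∣ M)
    (h : lvl M H b c) : Nat.gcd b c * H = Nat.gcd H b * Nat.gcd H c := by
  have hH0 : H ≠ 0 := fun e => hM (Nat.eq_zero_of_zero_dvd (e ▸ hH))
  have hb0 : b ≠ 0 := fun e => hM (Nat.eq_zero_of_zero_dvd (e ▸ hb))
  have hc0 : c ≠ 0 := fun e => hM (Nat.eq_zero_of_zero_dvd (e ▸ hc))
  have h1 : Nat.gcd b c ≠ 0 := Nat.gcd_ne_zero_left hb0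
  have h2 : Nat.gcd H b ≠ 0 := Nat.gcd_ne_zero_left hH0
  have h3 : Nat.gcd H c ≠ 0 := Nat.gcd_ne_zero_left hH0
  apply Nat.eq_of_factorization_eq (mul_ne_zero h1 hH0) (mul_ne_zero h2 h3)
  intro p
  rw [Nat.factorization_mul h1 hH0, Nat.factorization_mul h2 h3, Nat.factorization_gcd hb0 hc0,
    Nat.factorization_gcd hH0 hb0, Nat.factorization_gcd hH0 hc0]
  simp only [Finsupp.add_apply, Finsupp.inf_apply]
  by_cases hp : p ∈ M.primeFactors
  · rcases h p hp with e | e
    · rw [e]; simp only [inf_idem]; omega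
    · rw [e]; simp only [inf_idem]
      rw [inf_comm]
  · have hz : ∀ n, n ∣ M → n.factorization p = 0 := by
      intro n hn
      by_contra hne
      apply hp
      have h4 : p ∈ n.primeFactors := by
        rw [← Nat.support_factorization, Finsupp.mem_support_iff]
        exact hne
      exact Nat.primeFactors_mono hn hM h4
    rw [hz b hb, hz c hc, hz H hH]
    simp

lemma cf_mul {H b : ℕ} : cf H b * Nat.gcd H b = H := Nat.div_mul_cancel (Nat.gcd_dvd_left H b)

lemma cf_pos {H b : ℕ} (hH : 0 < H) : 0 < cf H b :=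
  Nat.div_pos (Nat.le_of_dvd hH (Nat.gcd_dvd_left H b)) (Nat.gcd_pos_of_pos_left b hH)

lemma cf_dvd {H b : ℕ} : cf H b ∣ H := Nat.div_dvd_of_dvd (Nat.gcd_dvd_left H b)

lemma cf_eq_one {H b : ℕ} (hH : 0 < H) : cf H b = 1 ↔ H ∣ b := by
  constructor
  · intro h
    have h1 := cf_mul (H := H) (b := b)
    rw [h, one_mul] at h1
    exact h1 ▸ Nat.gcd_dvd_right H b
  · intro h
    unfold cf
    rw [Nat.gcd_eq_left h, Nat.div_self hH]

/-- mass of the multiples of `h` -/
lemma mass_mult {M : ℕ} (hM : 0 < M) {h : ℕ} (hh : h ∣ M) :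
    ∑ b ∈ M.divisors.filter (fun b => h ∣ b), nu M b = 1 / h := by
  have hh0 : 0 < h := Nat.pos_of_dvd_of_pos hh hM
  have hk : 0 < M / h := Nat.div_pos (Nat.le_of_dvd hM hh) hh0
  have h1 : ∑ b ∈ M.divisors.filter (fun b => h ∣ b), nu M b =
      ∑ b ∈ (M / h).divisors, nu M (h * b) := by
    symm
    refine Finset.sum_bij (fun b _ => h * b) ?_ ?_ ?_ ?_
    · intro b hb
      rw [Finset.mem_filter, Nat.mem_divisors]
      refine ⟨⟨?_, hM.ne'⟩, dvd_mul_right h b⟩
      have := Nat.mul_dvd_mul (dvd_refl h) (Nat.dvd_of_mem_divisors hb)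
      rwa [Nat.mul_div_cancel' hh] at this
    · intro b _ b' _ e
      exact Nat.eq_of_mul_eq_mul_left hh0 e
    · intro b hb
      rw [Finset.mem_filter] at hb
      obtain ⟨k, rfl⟩ := hb.2
      refine ⟨k, ?_, rfl⟩
      rw [Nat.mem_divisors]
      refine ⟨?_, hk.ne'⟩
      exact Nat.dvd_div_of_mul_dvd (Nat.dvd_of_mem_divisors hb.1)
    · intro b _; rfl
  rw [h1]
  have h2 : ∀ b ∈ (M / h).divisors, nu M (h * b) = (1 / (h : ℝ)) * nu (M / h) b := by
    intro b _
    unfold nu
    rw [← Nat.div_div_eq_div_mul]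
    have h3 : (M : ℝ) = h * ((M / h : ℕ) : ℝ) := by
      exact_mod_cast (Nat.mul_div_cancel' hh).symm
    rw [h3]
    have h4 : (h : ℝ) ≠ 0 := by exact_mod_cast hh0.ne'
    have h5 : ((M / h : ℕ) : ℝ) ≠ 0 := by exact_mod_cast hk.ne'
    field_simp
  rw [Finset.sum_congr rfl h2, ← Finset.mul_sum, sum_nu hk, mul_one]

/-- dyadic class of the cofactor -/
def cl (H b : ℕ) : ℕ := Nat.log 2 (cf H b)

lemma sum_sq_le {M H : ℕ} (hM : 0 < M) (hH : H ∣ M) (i : ℕ) :
    ∑ b ∈ M.divisors.filter (fun b => cl H b = i), (Nat.gcd H b : ℝ) ^ 2 * nu M b ≤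
      H * (((M.divisors.filter (fun l => Nat.log 2 l = i)).card : ℝ) / 2 ^ i) := by
  classical
  have hH0 : 0 < H := Nat.pos_of_dvd_of_pos hH hM
  set S := M.divisors.filter (fun b => cl H b = i) with hS
  set D := M.divisors.filter (fun l => Nat.log 2 l = i) with hD
  have hmap : ∀ b ∈ S, cf H b ∈ D := by
    intro b hb
    rw [hS, Finset.mem_filter] at hb
    rw [hD, Finset.mem_filter, Nat.mem_divisors]
    exact ⟨⟨cf_dvd.trans hH, hM.ne'⟩, hb.2⟩
  rw [← Finset.sum_fiberwise_of_maps_to hmap]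
  have hterm : ∀ l ∈ D, ∑ b ∈ S.filter (fun b => cf H b = l), (Nat.gcd H b : ℝ) ^ 2 * nu M b ≤
      H * (1 / 2 ^ i) := by
    intro l hl
    rw [hD, Finset.mem_filter, Nat.mem_divisors] at hl
    have hl0 : 0 < l := Nat.pos_of_dvd_of_pos hl.1.1 hM
    by_cases hlH : l ∣ H
    · have hg0 : 0 < H / l := Nat.div_pos (Nat.le_of_dvd hH0 hlH) hl0
      have hgM : H / l ∣ M := (Nat.div_dvd_of_dvd hlH).trans hH
      have hle : ∑ b ∈ S.filter (fun b => cf H b = l), (Nat.gcd H b : ℝ) ^ 2 * nu M b ≤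
          ∑ b ∈ M.divisors.filter (fun b => H / l ∣ b), ((H / l : ℕ) : ℝ) ^ 2 * nu M b := by
        have hsub : S.filter (fun b => cf H b = l) ⊆ M.divisors.filter (fun b => H / l ∣ b) := by
          intro b hb
          rw [Finset.mem_filter, hS, Finset.mem_filter] at hb
          rw [Finset.mem_filter]
          refine ⟨hb.1.1, ?_⟩
          have h1 := cf_mul (H := H) (b := b)
          rw [hb.2] at h1
          have h2 : H / l = Nat.gcd H b := by
            rw [← h1, Nat.mul_div_cancel_left _ hl0, h1]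
          rw [h2]; exact Nat.gcd_dvd_right H b
        refine (Finset.sum_le_sum fun b hb => ?_).trans
          (Finset.sum_le_sum_of_subset_of_nonneg hsub fun b _ _ =>
            mul_nonneg (by positivity) (nu_nonneg _ _))
        rw [Finset.mem_filter] at hb
        have h1 := cf_mul (H := H) (b := b)
        rw [hb.2] at h1
        have h2 : H / l = Nat.gcd H b := by
          rw [← h1, Nat.mul_div_cancel_left _ hl0, h1]
        rw [h2]
      refine hle.trans ?_
      rw [← Finset.mul_sum, mass_mult hM hgM]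
      have hgR : (0 : ℝ) < ((H / l : ℕ) : ℝ) := by exact_mod_cast hg0
      have hlR : (0 : ℝ) < (l : ℝ) := by exact_mod_cast hl0
      have h3 : (H : ℝ) = l * ((H / l : ℕ) : ℝ) := by
        exact_mod_cast (Nat.mul_div_cancel' hlH).symm
      have h4 : ((H / l : ℕ) : ℝ) ^ 2 * (1 / ((H / l : ℕ) : ℝ)) = ((H / l : ℕ) : ℝ) := by
        field_simp
      rw [h4]
      have h5 : ((2 : ℝ) ^ i) ≤ l := by
        have : 2 ^ i ≤ l := by
          rw [← hl.2]; exact Nat.pow_log_le_self 2 hl0.ne'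
        exact_mod_cast this
      rw [mul_one_div, le_div_iff₀ (by positivity)]
      calc ((H / l : ℕ) : ℝ) * 2 ^ i ≤ ((H / l : ℕ) : ℝ) * l :=
            mul_le_mul_of_nonneg_left h5 hgR.le
        _ = H := by rw [h3]; ring
    · have : S.filter (fun b => cf H b = l) = ∅ := by
        rw [Finset.eq_empty_iff_forall_notMem]
        intro b hb
        rw [Finset.mem_filter] at hb
        exact hlH (hb.2 ▸ cf_dvd)
      rw [this, Finset.sum_empty]
      positivity
  refine (Finset.sum_le_sum hterm).trans (le_of_eq ?_)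
  rw [Finset.sum_const, nsmul_eq_mul]
  ring

/-- `A_i ≤ (H N_i / 2^i)^{1/2} m_i^{1/2}` -/
lemma class_le {M H : ℕ} (hM : 0 < M) (hH : H ∣ M) (f : ℕ → ℝ) (i : ℕ) :
    ∑ b ∈ M.divisors.filter (fun b => cl H b = i), (Nat.gcd H b : ℝ) * nu M b * f b ≤
      √(H * (((M.divisors.filter (fun l => Nat.log 2 l = i)).card : ℝ) / 2 ^ i)) *
      √(∑ b ∈ M.divisors.filter (fun b => cl H b = i), nu M b * f b ^ 2) := by
  have h1 : ∑ b ∈ M.divisors.filter (fun b => cl H b = i), (Nat.gcd H b : ℝ) * nu M b * f b =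
      ∑ b ∈ M.divisors.filter (fun b => cl H b = i),
        ((Nat.gcd H b : ℝ) * √(nu M b)) * (√(nu M b) * f b) := by
    refine Finset.sum_congr rfl fun b _ => ?_
    have := Real.mul_self_sqrt (nu_nonneg M b)
    calc (Nat.gcd H b : ℝ) * nu M b * f b = (Nat.gcd H b : ℝ) * (√(nu M b) * √(nu M b)) * f b := by
          rw [this]
      _ = _ := by ring
  rw [h1]
  refine (Real.sum_mul_le_sqrt_mul_sqrt _ _ _).trans ?_
  refine mul_le_mul (Real.sqrt_le_sqrt ?_) (Real.sqrt_le_sqrt (le_of_eq ?_)) (Real.sqrt_nonneg _)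
    (Real.sqrt_nonneg _)
  · refine le_trans (le_of_eq ?_) (sum_sq_le hM hH i)
    refine Finset.sum_congr rfl fun b _ => ?_
    rw [mul_pow, Real.sq_sqrt (nu_nonneg M b)]
  · refine Finset.sum_congr rfl fun b _ => ?_
    rw [mul_pow, Real.sq_sqrt (nu_nonneg M b)]

/-- bilinear Cauchy along `i + j = s` -/
lemma diag_le (N s : ℕ) (a b : ℕ → ℝ) (ha : ∀ i, 0 ≤ a i) (hb : ∀ i, 0 ≤ b i) :
    ∑ i ∈ range N, ∑ j ∈ range N, (if i + j = s then √(a i) * √(b j) else 0) ≤
      √(∑ i ∈ range N, a i) * √(∑ j ∈ range N, b j) := by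
  classical
  have h1 : ∀ i ∈ range N, ∑ j ∈ range N, (if i + j = s then √(a i) * √(b j) else 0) ≤
      √(a i) * √(if i ≤ s ∧ s - i < N then b (s - i) else 0) := by
    intro i _
    by_cases h : i ≤ s ∧ s - i < N
    · rw [if_pos h]
      rw [Finset.sum_eq_single_of_mem (s - i) (Finset.mem_range.2 h.2)]
      · rw [if_pos (by omega)]
      · intro j _ hj
        rw [if_neg (by omega)]
    · rw [if_neg h]
      refine le_of_eq ?_
      rw [Real.sqrt_zero, mul_zero]
      refine Finset.sum_eq_zero fun j hj => ?_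
      rw [Finset.mem_range] at hj
      rw [if_neg (by omega)]
  refine (Finset.sum_le_sum h1).trans ?_
  refine (Real.sum_mul_le_sqrt_mul_sqrt _ _ _).trans ?_
  refine mul_le_mul (Real.sqrt_le_sqrt (le_of_eq ?_)) (Real.sqrt_le_sqrt ?_) (Real.sqrt_nonneg _)
    (Real.sqrt_nonneg _)
  · exact Finset.sum_congr rfl fun i _ => Real.sq_sqrt (ha i)
  · calc ∑ i ∈ range N, √(if i ≤ s ∧ s - i < N then b (s - i) else 0) ^ 2
        = ∑ i ∈ range N, (if i ≤ s ∧ s - i < N then b (s - i) else 0) := by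
          refine Finset.sum_congr rfl fun i _ => Real.sq_sqrt ?_
          split_ifs
          · exact hb _
          · exact le_rfl
      _ = ∑ i ∈ (range N).filter (fun i => i ≤ s ∧ s - i < N), b (s - i) := by
          rw [Finset.sum_filter]
      _ = ∑ j ∈ ((range N).filter (fun i => i ≤ s ∧ s - i < N)).image (fun i => s - i), b j := by
          rw [Finset.sum_image]
          intro i hi j hj e
          rw [Finset.mem_coe, Finset.mem_filter] at hi hj
          simp only at e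
          omega
      _ ≤ ∑ j ∈ range N, b j := by
          refine Finset.sum_le_sum_of_subset_of_nonneg ?_ fun j _ _ => hb j
          intro j hj
          rw [Finset.mem_image] at hj
          obtain ⟨i, hi, rfl⟩ := hj
          rw [Finset.mem_filter] at hi
          exact Finset.mem_range.2 hi.2.2

/-- relative size of a dyadic class of divisors -/
noncomputable def xr (M i : ℕ) : ℝ := ((M.divisors.filter (fun l => Nat.log 2 l = i)).card : ℝ) / 2 ^ i

lemma xr_nonneg (M i : ℕ) : 0 ≤ xr M i := by unfold xr; positivity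

lemma xr_le_one (M i : ℕ) : xr M i ≤ 1 := by
  unfold xr
  rw [div_le_one (by positivity)]
  have h1 : M.divisors.filter (fun l => Nat.log 2 l = i) ⊆ Finset.Ico (2 ^ i) (2 ^ (i + 1)) := by
    intro l hl
    rw [Finset.mem_filter] at hl
    have hl0 : l ≠ 0 := (Nat.pos_of_mem_divisors hl.1).ne'
    rw [Finset.mem_Ico]
    constructor
    · rw [← hl.2]; exact Nat.pow_log_le_self 2 hl0
    · rw [← hl.2]; exact Nat.lt_pow_succ_log_self (by norm_num) l
  have h2 := Finset.card_le_card h1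
  rw [Nat.card_Ico] at h2
  have h3 : 2 ^ (i + 1) - 2 ^ i = 2 ^ i := by rw [pow_succ]; omega
  rw [h3] at h2
  exact_mod_cast h2

open Classical in
theorem nonpure {M H : ℕ} (hM : 0 < M) (hH : H ∣ M) {ρ : ℝ}
    (hρ : ∀ i, 1 ≤ i → ((M.divisors.filter (fun l => Nat.log 2 l = i)).card : ℝ) ≤ ρ * 2 ^ i)
    (f g : ℕ → ℝ) (hf : ∀ b, 0 ≤ f b) (hg : ∀ b, 0 ≤ g b) {X : ℝ} (hX : 0 < X) :
    ∑ b ∈ M.divisors, ∑ c ∈ M.divisors,
      (if X < (Nat.gcd b c : ℝ) ∧ (Nat.gcd b c : ℝ) ≤ 2 * X ∧ lvl M H b c ∧ ¬ (H ∣ b ∧ H ∣ c) then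
        (Nat.gcd b c : ℝ) * nu M b * nu M c * (f b * g c) else 0) ≤
      3 * √ρ * (√(∑ b ∈ M.divisors, nu M b * f b ^ 2) * √(∑ b ∈ M.divisors, nu M b * g b ^ 2)) := by
  have hH0 : 0 < H := Nat.pos_of_dvd_of_pos hH hM
  have hHR : (0 : ℝ) < H := by exact_mod_cast hH0
  -- the level of the scale
  have hex : ∃ n : ℕ, (H : ℝ) / X ≤ 2 ^ n := by
    obtain ⟨n, hn⟩ := pow_unbounded_of_one_lt ((H : ℝ) / X) (by norm_num : (1 : ℝ) < 2)
    exact ⟨n, hn.le⟩
  set n := Nat.find hex with hn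
  have hn1 : (H : ℝ) / X ≤ 2 ^ n := Nat.find_spec hex
  have hn2 : ∀ m : ℕ, (H : ℝ) / X ≤ 2 ^ m → n ≤ m := fun m hm => Nat.find_min' hex hm
  set G : ℕ → ℝ := fun b => (Nat.gcd H b : ℝ) * nu M b * f b with hGdef
  set G' : ℕ → ℝ := fun b => (Nat.gcd H b : ℝ) * nu M b * g b with hGdef'
  have hG0 : ∀ b, 0 ≤ G b := fun b =>
    mul_nonneg (mul_nonneg (by positivity) (nu_nonneg _ _)) (hf b)
  have hG0' : ∀ b, 0 ≤ G' b := fun b =>
    mul_nonneg (mul_nonneg (by positivity) (nu_nonneg _ _)) (hg b)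
  let Q : ℕ → ℕ → ℝ := fun i j =>
    if (i + j + 1 = n ∨ i + j + 2 = n ∨ i + j + 3 = n) ∧ ¬ (i = 0 ∧ j = 0) then 1 else 0
  have hQ0 : ∀ i j, 0 ≤ Q i j := fun i j => by simp only [Q]; split_ifs <;> norm_num
  -- termwise
  have hterm : ∀ b ∈ M.divisors, ∀ c ∈ M.divisors,
      (if X < (Nat.gcd b c : ℝ) ∧ (Nat.gcd b c : ℝ) ≤ 2 * X ∧ lvl M H b c ∧ ¬ (H ∣ b ∧ H ∣ c) then
        (Nat.gcd b c : ℝ) * nu M b * nu M c * (f b * g c) else 0) ≤
      Q (cl H b) (cl H c) * ((1 / (H : ℝ)) * (G b * G' c)) := by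
    intro b hb c hc
    have hbM := Nat.dvd_of_mem_divisors hb
    have hcM := Nat.dvd_of_mem_divisors hc
    split_ifs with h
    · obtain ⟨h1, h2, h3, h4⟩ := h
      have hid := gcd_lvl hM.ne' hH hbM hcM h3
      have hidR : (Nat.gcd b c : ℝ) * H = (Nat.gcd H b : ℝ) * (Nat.gcd H c : ℝ) := by
        exact_mod_cast hid
      have hgH : (0 : ℝ) < (Nat.gcd b c : ℝ) := lt_trans hX h1
      have hgb : (0 : ℝ) < (Nat.gcd H b : ℝ) := by
        exact_mod_cast Nat.gcd_pos_of_pos_left b hH0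
      have hgc : (0 : ℝ) < (Nat.gcd H c : ℝ) := by
        exact_mod_cast Nat.gcd_pos_of_pos_left c hH0
      have hlb : (cf H b : ℝ) * (Nat.gcd H b : ℝ) = H := by exact_mod_cast cf_mul (H := H) (b := b)
      have hlc : (cf H c : ℝ) * (Nat.gcd H c : ℝ) = H := by exact_mod_cast cf_mul (H := H) (b := c)
      have hll : (cf H b : ℝ) * (cf H c : ℝ) * (Nat.gcd b c : ℝ) = H := by
        have e1 : ((cf H b : ℝ) * (cf H c : ℝ) * (Nat.gcd b c : ℝ)) * H = (H : ℝ) * H := by
          calc ((cf H b : ℝ) * (cf H c : ℝ) * (Nat.gcd b c : ℝ)) * H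
              = (cf H b : ℝ) * (cf H c : ℝ) * ((Nat.gcd b c : ℝ) * H) := by ring
            _ = ((cf H b : ℝ) * (Nat.gcd H b : ℝ)) * ((cf H c : ℝ) * (Nat.gcd H c : ℝ)) := by
                rw [hidR]; ring
            _ = _ := by rw [hlb, hlc]
        exact mul_right_cancel₀ hHR.ne' e1
      have hb1 : (2 : ℝ) ^ (cl H b) ≤ cf H b := by
        have : 2 ^ (cl H b) ≤ cf H b := Nat.pow_log_le_self 2 (cf_pos hH0).ne'
        exact_mod_cast this
      have hb2 : (cf H b : ℝ) < 2 ^ (cl H b + 1) := by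
        have : cf H b < 2 ^ (cl H b + 1) := Nat.lt_pow_succ_log_self (by norm_num) _
        exact_mod_cast this
      have hc1 : (2 : ℝ) ^ (cl H c) ≤ cf H c := by
        have : 2 ^ (cl H c) ≤ cf H c := Nat.pow_log_le_self 2 (cf_pos hH0).ne'
        exact_mod_cast this
      have hc2 : (cf H c : ℝ) < 2 ^ (cl H c + 1) := by
        have : cf H c < 2 ^ (cl H c + 1) := Nat.lt_pow_succ_log_self (by norm_num) _
        exact_mod_cast this
      have hb0 : (0 : ℝ) < 2 ^ (cl H b) := by positivity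
      have hc0 : (0 : ℝ) < 2 ^ (cl H c) := by positivity
      have hll2 : (cf H b : ℝ) * (cf H c : ℝ) = H / (Nat.gcd b c : ℝ) := by
        rw [eq_div_iff hgH.ne']; exact hll
      -- 2^{i+j} < H / X
      have hlow : (2 : ℝ) ^ (cl H b + cl H c) < H / X := by
        calc (2 : ℝ) ^ (cl H b + cl H c) = 2 ^ (cl H b) * 2 ^ (cl H c) := pow_add _ _ _
          _ ≤ (cf H b : ℝ) * (cf H c : ℝ) := mul_le_mul hb1 hc1 hc0.le (hb0.le.trans hb1)
          _ = H / (Nat.gcd b c : ℝ) := hll2
          _ < H / X := div_lt_div_of_pos_left hHR hX h1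
      have hupp : H / X ≤ (2 : ℝ) ^ (cl H b + cl H c + 3) := by
        have e1 : H / (2 * X) ≤ (cf H b : ℝ) * (cf H c : ℝ) := by
          rw [hll2]
          exact div_le_div_of_nonneg_left hHR.le hgH h2
        have e2 : (cf H b : ℝ) * (cf H c : ℝ) ≤ 2 ^ (cl H b + 1) * 2 ^ (cl H c + 1) :=
          mul_le_mul hb2.le hc2.le (by positivity) (by positivity)
        have e3 : H / X = 2 * (H / (2 * X)) := by field_simp
        rw [e3]
        calc 2 * (H / (2 * X)) ≤ 2 * (2 ^ (cl H b + 1) * 2 ^ (cl H c + 1)) := by linarith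
          _ = _ := by rw [← pow_add, ← pow_succ']; congr 1; omega
      have hlt : cl H b + cl H c < n := by
        by_contra hcon
        push Not at hcon
        have : (2 : ℝ) ^ n ≤ 2 ^ (cl H b + cl H c) := pow_le_pow_right₀ (by norm_num) hcon
        linarith
      have hge : n ≤ cl H b + cl H c + 3 := hn2 _ hupp
      have hnz : ¬ (cl H b = 0 ∧ cl H c = 0) := by
        rintro ⟨e1, e2⟩
        apply h4
        constructor
        · rw [← cf_eq_one hH0]
          have hp := cf_pos (b := b) hH0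
          rw [e1] at hb2
          have : cf H b < 2 ^ (0 + 1) := by exact_mod_cast hb2
          omega
        · rw [← cf_eq_one hH0]
          have hp := cf_pos (b := c) hH0
          rw [e2] at hc2
          have : cf H c < 2 ^ (0 + 1) := by exact_mod_cast hc2
          omega
      have hQ1 : Q (cl H b) (cl H c) = 1 := by
        simp only [Q]
        rw [if_pos ⟨by omega, hnz⟩]
      rw [hQ1, one_mul]
      refine le_of_eq ?_
      simp only [hGdef, hGdef']
      have e4 : (Nat.gcd b c : ℝ) = (1 / (H : ℝ)) * ((Nat.gcd H b : ℝ) * (Nat.gcd H c : ℝ)) := by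
        rw [← hidR]; field_simp
      rw [e4]; ring
    · exact mul_nonneg (hQ0 _ _) (mul_nonneg (by positivity) (mul_nonneg (hG0 _) (hG0' _)))
  refine (Finset.sum_le_sum fun b hb => Finset.sum_le_sum fun c hc => hterm b hb c hc).trans ?_
  -- group into classes
  have hmap : ∀ b ∈ M.divisors, cl H b ∈ range (H + 1) := by
    intro b _
    rw [Finset.mem_range]
    have h1 : Nat.log 2 (cf H b) ≤ cf H b := Nat.log_le_self _ _
    have h2 : cf H b ≤ H := Nat.le_of_dvd hH0 cf_dvd
    unfold cl; omega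
  set A : ℕ → ℝ := fun i => ∑ b ∈ M.divisors.filter (fun b => cl H b = i), G b with hA
  set A' : ℕ → ℝ := fun i => ∑ b ∈ M.divisors.filter (fun b => cl H b = i), G' b with hA'
  have hA0 : ∀ i, 0 ≤ A i := fun i => Finset.sum_nonneg fun b _ => hG0 b
  have hA0' : ∀ i, 0 ≤ A' i := fun i => Finset.sum_nonneg fun b _ => hG0' b
  have hgroup : ∑ b ∈ M.divisors, ∑ c ∈ M.divisors,
      Q (cl H b) (cl H c) * ((1 / (H : ℝ)) * (G b * G' c)) =
      ∑ i ∈ range (H + 1), ∑ j ∈ range (H + 1), Q i j * ((1 / (H : ℝ)) * (A i * A' j)) := by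
    rw [← Finset.sum_fiberwise_of_maps_to hmap]
    refine Finset.sum_congr rfl fun i _ => ?_
    have e1 : ∀ b ∈ M.divisors.filter (fun b => cl H b = i), ∑ c ∈ M.divisors,
        Q (cl H b) (cl H c) * ((1 / (H : ℝ)) * (G b * G' c)) =
        ∑ j ∈ range (H + 1), Q i j * ((1 / (H : ℝ)) * (G b * A' j)) := by
      intro b hb
      rw [Finset.mem_filter] at hb
      rw [hb.2, ← Finset.sum_fiberwise_of_maps_to hmap]
      refine Finset.sum_congr rfl fun j _ => ?_
      rw [hA']
      simp only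
      rw [Finset.mul_sum, Finset.mul_sum, Finset.mul_sum]
      refine Finset.sum_congr rfl fun c hc => ?_
      rw [Finset.mem_filter] at hc
      rw [hc.2]
    rw [Finset.sum_congr rfl e1, Finset.sum_comm]
    refine Finset.sum_congr rfl fun j _ => ?_
    rw [← Finset.mul_sum, ← Finset.mul_sum, ← Finset.sum_mul]
  rw [hgroup]
  -- estimate
  set m : ℕ → ℝ := fun i => ∑ b ∈ M.divisors.filter (fun b => cl H b = i), nu M b * f b ^ 2 with hm
  set m' : ℕ → ℝ := fun i => ∑ b ∈ M.divisors.filter (fun b => cl H b = i), nu M b * g b ^ 2 with hm'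
  have hm0 : ∀ i, 0 ≤ m i := fun i =>
    Finset.sum_nonneg fun b _ => mul_nonneg (nu_nonneg _ _) (by positivity)
  have hm0' : ∀ i, 0 ≤ m' i := fun i =>
    Finset.sum_nonneg fun b _ => mul_nonneg (nu_nonneg _ _) (by positivity)
  have hAle : ∀ i, A i ≤ √(H * xr M i) * √(m i) := fun i => class_le hM hH f i
  have hAle' : ∀ i, A' i ≤ √(H * xr M i) * √(m' i) := fun i => class_le hM hH g i
  have hsumm : ∑ i ∈ range (H + 1), m i = ∑ b ∈ M.divisors, nu M b * f b ^ 2 :=
    Finset.sum_fiberwise_of_maps_to hmap _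
  have hsumm' : ∑ i ∈ range (H + 1), m' i = ∑ b ∈ M.divisors, nu M b * g b ^ 2 :=
    Finset.sum_fiberwise_of_maps_to hmap _
  have hxx : ∀ i j, ¬ (i = 0 ∧ j = 0) → √(xr M i) * √(xr M j) ≤ √ρ := by
    intro i j hij
    have h1 : ∀ k, √(xr M k) ≤ 1 := fun k => by
      rw [← Real.sqrt_one]; exact Real.sqrt_le_sqrt (xr_le_one M k)
    have h2 : ∀ k, 1 ≤ k → √(xr M k) ≤ √ρ := fun k hk => Real.sqrt_le_sqrt (by
      unfold xr
      rw [div_le_iff₀ (by positivity)]
      exact hρ k hk)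
    by_cases hi : i = 0
    · have hj : 1 ≤ j := by omega
      calc √(xr M i) * √(xr M j) ≤ 1 * √ρ :=
            mul_le_mul (h1 i) (h2 j hj) (Real.sqrt_nonneg _) (by norm_num)
        _ = √ρ := one_mul _
    · have hi1 : 1 ≤ i := by omega
      calc √(xr M i) * √(xr M j) ≤ √ρ * 1 :=
            mul_le_mul (h2 i hi1) (h1 j) (Real.sqrt_nonneg _) (Real.sqrt_nonneg _)
        _ = √ρ := mul_one _
  have hij : ∀ i j, Q i j * ((1 / (H : ℝ)) * (A i * A' j)) ≤
      √ρ * ((if i + j = n - 1 then √(m i) * √(m' j) else 0) +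
        (if i + j = n - 2 then √(m i) * √(m' j) else 0) +
        (if i + j = n - 3 then √(m i) * √(m' j) else 0)) := by
    intro i j
    have hmm : 0 ≤ √(m i) * √(m' j) := mul_nonneg (Real.sqrt_nonneg _) (Real.sqrt_nonneg _)
    have hs : ∀ k, 0 ≤ (if i + j = k then √(m i) * √(m' j) else 0) := by
      intro k; split_ifs
      · exact hmm
      · exact le_rfl
    by_cases hq : (i + j + 1 = n ∨ i + j + 2 = n ∨ i + j + 3 = n) ∧ ¬ (i = 0 ∧ j = 0)
    · have hQ1 : Q i j = 1 := by simp only [Q]; rw [if_pos hq]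
      rw [hQ1, one_mul]
      have h1 : (1 / (H : ℝ)) * (A i * A' j) ≤ √ρ * (√(m i) * √(m' j)) := by
        have e1 : A i * A' j ≤ (√(H * xr M i) * √(m i)) * (√(H * xr M j) * √(m' j)) :=
          mul_le_mul (hAle i) (hAle' j) (hA0' j)
            (mul_nonneg (Real.sqrt_nonneg _) (Real.sqrt_nonneg _))
        have e2 : (√(H * xr M i) * √(m i)) * (√(H * xr M j) * √(m' j)) =
            H * ((√(xr M i) * √(xr M j)) * (√(m i) * √(m' j))) := by
          rw [Real.sqrt_mul hHR.le, Real.sqrt_mul hHR.le]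
          have := Real.mul_self_sqrt hHR.le
          calc _ = (√(H : ℝ) * √(H : ℝ)) * ((√(xr M i) * √(xr M j)) * (√(m i) * √(m' j))) := by ring
            _ = _ := by rw [this]
        calc (1 / (H : ℝ)) * (A i * A' j)
            ≤ (1 / (H : ℝ)) * (H * ((√(xr M i) * √(xr M j)) * (√(m i) * √(m' j)))) := by
              refine mul_le_mul_of_nonneg_left (e1.trans (le_of_eq e2)) (by positivity)
          _ = (√(xr M i) * √(xr M j)) * (√(m i) * √(m' j)) := by field_simp
          _ ≤ √ρ * (√(m i) * √(m' j)) := mul_le_mul_of_nonneg_right (hxx i j hq.2) hmm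
      refine h1.trans (mul_le_mul_of_nonneg_left ?_ (Real.sqrt_nonneg _))
      rcases hq.1 with h | h | h
      · have : i + j = n - 1 := by omega
        have e := hs (n - 2)
        have e' := hs (n - 3)
        rw [if_pos this]; linarith
      · have : i + j = n - 2 := by omega
        have e := hs (n - 1)
        have e' := hs (n - 3)
        rw [if_pos this]; linarith
      · have : i + j = n - 3 := by omega
        have e := hs (n - 1)
        have e' := hs (n - 2)
        rw [if_pos this]; linarith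
    · have hQ1 : Q i j = 0 := by simp only [Q]; rw [if_neg hq]
      rw [hQ1, zero_mul]
      have e := hs (n - 1)
      have e' := hs (n - 2)
      have e'' := hs (n - 3)
      exact mul_nonneg (Real.sqrt_nonneg _) (by linarith)
  refine (Finset.sum_le_sum fun i _ => Finset.sum_le_sum fun j _ => hij i j).trans ?_
  have hd : ∀ s, ∑ i ∈ range (H + 1), ∑ j ∈ range (H + 1),
      (if i + j = s then √(m i) * √(m' j) else 0) ≤
      √(∑ b ∈ M.divisors, nu M b * f b ^ 2) * √(∑ b ∈ M.divisors, nu M b * g b ^ 2) := by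
    intro s
    have := diag_le (H + 1) s m m' hm0 hm0'
    rwa [hsumm, hsumm'] at this
  have e1 : ∑ i ∈ range (H + 1), ∑ j ∈ range (H + 1),
      √ρ * ((if i + j = n - 1 then √(m i) * √(m' j) else 0) +
        (if i + j = n - 2 then √(m i) * √(m' j) else 0) +
        (if i + j = n - 3 then √(m i) * √(m' j) else 0)) =
      √ρ * ((∑ i ∈ range (H + 1), ∑ j ∈ range (H + 1),
          (if i + j = n - 1 then √(m i) * √(m' j) else 0)) +
        (∑ i ∈ range (H + 1), ∑ j ∈ range (H + 1),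
          (if i + j = n - 2 then √(m i) * √(m' j) else 0)) +
        (∑ i ∈ range (H + 1), ∑ j ∈ range (H + 1),
          (if i + j = n - 3 then √(m i) * √(m' j) else 0))) := by
    rw [← Finset.sum_add_distrib, ← Finset.sum_add_distrib, Finset.mul_sum]
    refine Finset.sum_congr rfl fun i _ => ?_
    rw [← Finset.sum_add_distrib, ← Finset.sum_add_distrib, Finset.mul_sum]
  rw [e1]
  have h1 := hd (n - 1)
  have h2 := hd (n - 2)
  have h3 := hd (n - 3)
  have hρ0 := Real.sqrt_nonneg ρ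
  nlinarith [mul_le_mul_of_nonneg_left (add_le_add (add_le_add h1 h2) h3) hρ0]

end Crest.Agent.R4C.NonPurex559
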