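import Crest.Agent.R4C.Pair_14
import Crest.Agent.R4C.Rule_945

/-!
# Row 4: cover of the linked good pairs of one scale, in the language of `Rule_945` (helper14)

* `TC_of_TC` : a tree label `Pairx14.TC` at the cut `P.cut m` is the tree centre `Rulex945.TC`;
* `Expl` : an explained differing prime (`p ∣ al` missing in `c`, or `p ∣ al'` missing in `b`);
* **`cover_good`** : unkilled linked pair, good at `P.cut m`, scale `2^m`:
  `Rare`, `Dom`, `UD b c`, `UD c b`, or both members have tree centres `f`, `f'` at the scale `2^m`,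
  the same point, and for the LARGEST explained differing prime `p ≤ P.cut m`: every differing
  prime in `(p, P.cut m]` divides `k0 b f` or `k0 c f'`, and at the member missing `p` the centre is
  too deep for the threshold or a centre of a larger scale is used (`Alt`);
* `cover_goodB` : the same for `b, c`, `h ∈ Lnk`, `¬ killedB`.
-/

set_option autoImplicit false

namespace Crest.Agent.R4C.PairRx14

open Crest.Agent.R4C.FLDefx935 Crest.Agent.R4C.BoostCx972 Crest.Agent.R4C.CrCoinx935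
  Crest.Agent.R4C.CrCountx935 Crest.Agent.R4C.Bridgex882
  Crest.Agent.R4C.S7cx14 Crest.Agent.R4C.S7dx14 Crest.Agent.R4C.Chainx81
  Crest.Agent.R4C.Cutx50 Crest.Agent.R4C.S2bx284 Crest.Agent.R4C.S2x232
  Crest.Agent.R4C.Pairx14

variable {M : ℕ} {F : FL M} {P : Rulex945.Par}

/-- a tree label gives the tree centre of `Rule_945` -/
lemma TC_of_TC {E : ℝ} {m b : ℕ} {a : ℤ} {k : ℕ} (hM : 0 < M) (hb : b ∣ M) (hL : 0 ≤ P.L)
    (hE : E ≤ P.E m) (h : Pairx14.TC F P.γ P.L E (P.cut m) b a k)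
    (hs : (2 : ℝ) ^ m * P.L ≤ F.uu (P.cut m) b) :
    Rulex945.TC F P m b (fr F (P.cut m) b a k) := by
  refine ⟨?_, ?_, hs⟩
  · have h1 : Rulex945.k0 F (P.cut m) b (fr F (P.cut m) b a k) ≤ k := Rulex945.k0_le h.isC
    have h2 : (Rulex945.k0 F (P.cut m) b (fr F (P.cut m) b a k) : ℝ) ≤ k := by exact_mod_cast h1
    exact h2.trans (h.le.trans hE)
  · exact (h.disp_le hM hb).trans (mul_le_mul_of_nonneg_right hE hL)

/-- the minimal denominator of `a/(k lam)` is `k` -/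
lemma k0_fr {x b : ℕ} {a : ℤ} {k : ℕ} (hk : 0 < k) (hcop : IsCoprime a (k : ℤ)) :
    Rulex945.k0 F x b (fr F x b a k) = k := by
  refine Nat.dvd_antisymm (Rulex945.k0_dvd ⟨hk, fr_den_dvd a k⟩) ?_
  have h1 := (Rulex945.isC_k0 (F := F) x b (fr F x b a k)).2
  obtain ⟨u, hu⟩ := h1
  set f := fr F x b a k with hf
  set K := Rulex945.k0 F x b f with hK
  have hl := FL.lam_pos (F := F) x b
  have hlQ : (F.lam x b : ℚ) ≠ 0 := by exact_mod_cast hl.ne'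
  have hkQ : (k : ℚ) ≠ 0 := by exact_mod_cast hk.ne'
  have e1 : f * ((k : ℚ) * F.lam x b) = a := by
    rw [hf]; unfold fr; field_simp
  have e2 : f * f.den = f.num := Rat.mul_den_eq_num f
  have e3 : (K : ℚ) * F.lam x b = f.den * u := by exact_mod_cast hu
  -- `K a = k (num u)`
  have e4 : (K : ℚ) * a = k * (f.num * u) := by
    have : (K : ℚ) * a = k * (f * ((K : ℚ) * F.lam x b)) := by rw [← e1]; ring
    rw [this, e3, ← e2]; ring
  have e5 : (K : ℤ) * a = k * (f.num * u) := by exact_mod_cast e4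
  have h2 : (k : ℤ) ∣ (K : ℤ) * a := ⟨_, e5⟩
  exact Int.natCast_dvd_natCast.1 (hcop.symm.dvd_of_dvd_mul_right h2)

/-- what happens at a missing prime `p` of `b` where the tree centre `f` of the scale `2^m` is
not used -/
def Alt (F : FL M) (P : Rulex945.Par) (m b : ℕ) (f : ℚ) (p : ℕ) : Prop :=
  P.thr b (P.blk p) < Rulex945.dep F P m b f ∨ ∃ (m₂ : ℕ) (f₂ : ℚ), m < m₂ ∧ f ≠ f₂ ∧
    Rulex945.TC F P m₂ b f₂ ∧ Rulex945.dep F P m₂ b f₂ ≤ P.thr b (P.blk p) ∧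
    Rulex945.Fc F P b p = some f₂ ∧ P.Y (P.blk p) ≤ P.cut m₂

/-- explained differing prime missing in `b` -/
def ExL (b c : ℕ) (f f' : ℚ) (p : ℕ) : Prop :=
  p.Prime ∧ p ∣ c / Nat.gcd b c ∧ p ∣ alC c b f' f

lemma alt_left (hL : 0 < P.L) (hM : 0 < M) (hN : (M : ℝ) / P.L ≤ P.N)
    (hE : ∀ m, P.m0 ≤ m → 2 * P.E m ^ 3 < 2 ^ m) {g s s' m p : ℕ} {f f' : ℚ} {h : ℤ}
    (hb : g * s ∣ M) (hm : P.m0 ≤ m) (hT : Rulex945.TC F P m (g * s) f)
    (hp : P.Y (P.blk p) ≤ P.cut m) (hpp : p.Prime) (hg : 0 < g) (hs : 0 < s) (hs' : 0 < s')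
    (hcop : Nat.Coprime s s') (h0 : BoostCx972.gap f f' s s' h = 0)
    (hk : ¬ killedL (Rulex945.lamR F P) (g * s) (g * s') s s' h)
    (hpa : p ∣ alC (g * s') (g * s) f' f) : Alt F P m (g * s) f p := by
  rcases Rulex945.case_of hL hM hN hE hb hm hT hp with h1 | h1 | ⟨m₂, f₂, h1, h2, h3, h4, h5, h6⟩
  · exact absurd h1 (unkilled_ne Rulex945.isLab hg hs hs' hcop h0 hk hpp hpa)
  · exact Or.inl h1
  · exact Or.inr ⟨m₂, f₂, h1, h2, h3, h4, h5, h6⟩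

lemma alt_right (hL : 0 < P.L) (hM : 0 < M) (hN : (M : ℝ) / P.L ≤ P.N)
    (hE : ∀ m, P.m0 ≤ m → 2 * P.E m ^ 3 < 2 ^ m) {g s s' m p : ℕ} {f f' : ℚ} {h : ℤ}
    (hc : g * s' ∣ M) (hm : P.m0 ≤ m) (hT : Rulex945.TC F P m (g * s') f')
    (hp : P.Y (P.blk p) ≤ P.cut m) (hpp : p.Prime) (hg : 0 < g) (hs : 0 < s) (hs' : 0 < s')
    (hcop : Nat.Coprime s s') (h0 : BoostCx972.gap f f' s s' h = 0)
    (hk : ¬ killedL (Rulex945.lamR F P) (g * s) (g * s') s s' h)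
    (hpa : p ∣ alC (g * s) (g * s') f f') : Alt F P m (g * s') f' p := by
  rcases Rulex945.case_of hL hM hN hE hc hm hT hp with h1 | h1 | ⟨m₂, f₂, h1, h2, h3, h4, h5, h6⟩
  · exact absurd h1 (unkilled_ne' Rulex945.isLab hg hs hs' hcop h0 hk hpp hpa)
  · exact Or.inl h1
  · exact Or.inr ⟨m₂, f₂, h1, h2, h3, h4, h5, h6⟩

/-- the labelled case of the cover: both tree centres, same point, largest explained prime -/
structure LabPair (F : FL M) (P : Rulex945.Par) (m g s s' : ℕ) (h : ℤ) (f f' : ℚ) (p : ℕ) :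
    Prop where
  tcb : Rulex945.TC F P m (g * s) f
  tcc : Rulex945.TC F P m (g * s') f'
  pt : BoostCx972.gap f f' s s' h = 0
  prime : p.Prime
  le : p ≤ P.cut m
  /-- `p` is explained, and the member missing it does not use its centre -/
  alt : (p ∣ s' ∧ p ∣ alC (g * s') (g * s) f' f ∧ Alt F P m (g * s) f p) ∨
    (p ∣ s ∧ p ∣ alC (g * s) (g * s') f f' ∧ Alt F P m (g * s') f' p)
  /-- the differing primes in `(p, cut]` are unexplained -/
  top : ∀ r : ℕ, r.Prime → p < r → r ≤ P.cut m →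
    (r ∣ s → r ∣ Rulex945.k0 F (P.cut m) (g * s) f) ∧
    (r ∣ s' → r ∣ Rulex945.k0 F (P.cut m) (g * s') f')
  /-- strong form: no prime in `(p, cut]` is explained -/
  topE : ∀ r : ℕ, r.Prime → p < r → r ≤ P.cut m →
    ¬ r ∣ alC (g * s) (g * s') f f' ∧ ¬ r ∣ alC (g * s') (g * s) f' f
  /-- the explicit labels of S2 (`k = k0 b f`, `k' = k0 c f'`), and the word is not short -/
  lab : ∃ (E : ℝ) (a : ℤ) (k : ℕ) (a' : ℤ) (k' : ℕ), 0 < E ∧ 2 * E ≤ P.E m ∧ 8 * E ^ 5 ≤ 2 ^ m ∧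
    Pairx14.TC F P.γ P.L (2 * E) (P.cut m) (g * s) a k ∧
    Pairx14.TC F P.γ P.L (2 * E) (P.cut m) (g * s') a' k' ∧
    f = fr F (P.cut m) (g * s) a k ∧ f' = fr F (P.cut m) (g * s') a' k' ∧
    Rulex945.k0 F (P.cut m) (g * s) f = k ∧ Rulex945.k0 F (P.cut m) (g * s') f' = k' ∧
    Labd (upp (P.cut m) s * P.γ) (upp (P.cut m) s' * P.γ) (2 ^ m) E
      ((F.ell (P.cut m) (g * s') : ℕ) * a) k ((F.ell (P.cut m) (g * s) : ℕ) * a') k'
      (low (P.cut m) s) (low (P.cut m) s') ∧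
    ¬ IsShort k k' (2 ^ m)
      (upp (P.cut m) s * P.γ - ((F.ell (P.cut m) (g * s') : ℕ) * a : ℤ) / k)
      (upp (P.cut m) s' * P.γ - ((F.ell (P.cut m) (g * s) : ℕ) * a' : ℤ) / k')
      (low (P.cut m) s) (low (P.cut m) s')

/-- `al ∣ s`-free version: a prime of `al'` divides `s'` -/
lemma al'_dvd {g s s' : ℕ} {f f' : ℚ} {h : ℤ} (hg : 0 < g) (hs : 0 < s) (hs' : 0 < s')
    (hcop : Nat.Coprime s s') (h0 : BoostCx972.gap f f' s s' h = 0) :
    alC (g * s') (g * s) f' f ∣ s' := al_dvd_s hg hs' hs hcop.symm (gap_symm h0)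

/-- **COVER, good pairs of one scale**, dominant words with size bound -/
theorem cover_goodD {D : ℝ} {m g s s' : ℕ} {h : ℤ} (hL : 0 < P.L) (hM : 0 < M)
    (hN : (M : ℝ) / P.L ≤ P.N) (hE : ∀ m, P.m0 ≤ m → 2 * P.E m ^ 3 < 2 ^ m) (hm : P.m0 ≤ m)
    (hact : ∀ p, p ≤ P.cut m → P.Y (P.blk p) ≤ P.cut m)
    (hb : g * s ∣ M) (hc : g * s' ∣ M) (hcop : Nat.Coprime s s')
    (hx : F.good (P.cut m) (g * s) (g * s')) (hD : 4 ≤ D) (hT : 8 * (4 * D ^ 8) ^ 5 ≤ (2 : ℝ) ^ m)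
    (hDE : 2 * (4 * D ^ 8) ≤ P.E m)
    (hg1 : (2 : ℝ) ^ m * P.L ≤ g) (hg2 : (g : ℝ) ≤ 2 * ((2 : ℝ) ^ m * P.L))
    (hl : |((s : ℝ) - s') * P.γ + h| < P.L / g)
    (hk : ¬ killedL (Rulex945.lamR F P) (g * s) (g * s') s s' h) :
    Rare (upp (P.cut m) s * P.γ) (upp (P.cut m) s' * P.γ) (2 ^ m) D (low (P.cut m) s)
      (low (P.cut m) s') ∨
    S2cx284.DomB (upp (P.cut m) s * P.γ) (upp (P.cut m) s' * P.γ) (2 ^ m) D (low (P.cut m) s)
      (low (P.cut m) s') ∨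
    UD F P.γ (2 ^ m) (4 * D ^ 8) (P.cut m) (g * s) (g * s') ∨
    UD F P.γ (2 ^ m) (4 * D ^ 8) (P.cut m) (g * s') (g * s) ∨
    ∃ (f f' : ℚ) (p : ℕ), LabPair F P m g s s' h f f' p := by
  classical
  have hg0 : g * s ≠ 0 := (Nat.pos_of_dvd_of_pos hb hM).ne'
  have hg0' : g * s' ≠ 0 := (Nat.pos_of_dvd_of_pos hc hM).ne'
  have hg : 0 < g := Nat.pos_of_ne_zero fun h => hg0 (by rw [h, zero_mul])
  have hs : 0 < s := Nat.pos_of_ne_zero fun h => hg0 (by rw [h, mul_zero])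
  have hs' : 0 < s' := Nat.pos_of_ne_zero fun h => hg0' (by rw [h, mul_zero])
  have hgR : (0 : ℝ) < g := by exact_mod_cast hg
  have h2m : (0 : ℝ) < 2 ^ m := by positivity
  have hl' : |((s : ℝ) - s') * P.γ + h| < 1 / (2 : ℝ) ^ m := by
    refine hl.trans_le ?_
    rw [div_le_div_iff₀ hgR h2m]
    linarith
  rcases pair_glue2 hM hb hc hcop hx hD hT hg2 hl' with h1 | h1 | h1 | h1 |
    ⟨a, k, a', k', htc, htc', hgap, hlabd, hshort, p₀, hp₀, hp₀x, hp₀e⟩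
  · exact Or.inl h1
  · exact Or.inr (Or.inl h1)
  · exact Or.inr (Or.inr (Or.inl h1))
  · exact Or.inr (Or.inr (Or.inr (Or.inl h1)))
  right; right; right; right
  have hu : (2 : ℝ) ^ m * P.L ≤ F.uu (P.cut m) (g * s) :=
    hg1.trans (by exact_mod_cast uu_ge hM hb hc hcop hx)
  have hu' : (2 : ℝ) ^ m * P.L ≤ F.uu (P.cut m) (g * s') :=
    hg1.trans (by exact_mod_cast uu_ge hM hc hb hcop.symm (FL.good_symm hb hc hx))
  set f := fr F (P.cut m) (g * s) a k with hf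
  set f' := fr F (P.cut m) (g * s') a' k' with hf'
  have tb : Rulex945.TC F P m (g * s) f := TC_of_TC hM hb hL.le hDE htc hu
  have tc : Rulex945.TC F P m (g * s') f' := TC_of_TC hM hc hL.le hDE htc' hu'
  -- the set of explained differing primes
  set S := (Finset.range (P.cut m + 1)).filter (fun p => p.Prime ∧
    (p ∣ alC (g * s) (g * s') f f' ∨ p ∣ alC (g * s') (g * s) f' f)) with hS
  have hmem : ∀ p, p ∈ S ↔ p ≤ P.cut m ∧ p.Prime ∧
      (p ∣ alC (g * s) (g * s') f f' ∨ p ∣ alC (g * s') (g * s) f' f) := by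
    intro p
    rw [hS, Finset.mem_filter, Finset.mem_range, Nat.lt_succ_iff]
  have hne : S.Nonempty := by
    refine ⟨p₀, (hmem p₀).2 ⟨hp₀x, hp₀, ?_⟩⟩
    rcases hp₀e with ⟨_, h2⟩ | ⟨_, h2⟩
    · exact Or.inl h2
    · exact Or.inr h2
  set p := S.max' hne with hp
  obtain ⟨hpx, hpp, hpe⟩ := (hmem p).1 (S.max'_mem hne)
  refine ⟨f, f', p, tb, tc, hgap, hpp, hpx, ?_, ?_, ?_, ⟨4 * D ^ 8, a, k, a', k', by positivity, hDE,
    hT, htc, htc', rfl, rfl, k0_fr htc.pos htc.cop, k0_fr htc'.pos htc'.cop, hlabd, hshort⟩⟩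
  · rcases hpe with h1 | h1
    · right
      exact ⟨h1.trans (al_dvd_s hg hs hs' hcop hgap), h1,
        alt_right hL hM hN hE hc hm tc (hact p hpx) hpp hg hs hs' hcop hgap hk h1⟩
    · left
      exact ⟨h1.trans (al'_dvd hg hs hs' hcop hgap), h1,
        alt_left hL hM hN hE hb hm tb (hact p hpx) hpp hg hs hs' hcop hgap hk h1⟩
  · intro r hr hpr hrx
    have hrS : r ∉ S := fun hc => by
      have := S.le_max' r hc
      omega
    have hrn : ¬ r ∣ alC (g * s) (g * s') f f' ∧ ¬ r ∣ alC (g * s') (g * s) f' f := by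
      constructor
      · intro hc; exact hrS ((hmem r).2 ⟨hrx, hr, Or.inl hc⟩)
      · intro hc; exact hrS ((hmem r).2 ⟨hrx, hr, Or.inr hc⟩)
    constructor
    · intro hrs
      by_contra hcon
      exact hrn.1 (expl_of_not_dvd hM hb hg hs' hcop.symm (Rulex945.isC_k0 (F := F) _ _ f)
        hr hrx hrs hcon)
    · intro hrs
      by_contra hcon
      exact hrn.2 (expl_of_not_dvd hM hc hg hs hcop (Rulex945.isC_k0 (F := F) _ _ f')
        hr hrx hrs hcon)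
  · intro r hr hpr hrx
    have hrS : r ∉ S := fun hc => by
      have := S.le_max' r hc
      omega
    exact ⟨fun hc => hrS ((hmem r).2 ⟨hrx, hr, Or.inl hc⟩),
      fun hc => hrS ((hmem r).2 ⟨hrx, hr, Or.inr hc⟩)⟩

/-- **COVER, good pairs of one scale** -/
theorem cover_good {D : ℝ} {m g s s' : ℕ} {h : ℤ} (hL : 0 < P.L) (hM : 0 < M)
    (hN : (M : ℝ) / P.L ≤ P.N) (hE : ∀ m, P.m0 ≤ m → 2 * P.E m ^ 3 < 2 ^ m) (hm : P.m0 ≤ m)
    (hact : ∀ p, p ≤ P.cut m → P.Y (P.blk p) ≤ P.cut m)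
    (hb : g * s ∣ M) (hc : g * s' ∣ M) (hcop : Nat.Coprime s s')
    (hx : F.good (P.cut m) (g * s) (g * s')) (hD : 4 ≤ D) (hT : 8 * (4 * D ^ 8) ^ 5 ≤ (2 : ℝ) ^ m)
    (hDE : 2 * (4 * D ^ 8) ≤ P.E m)
    (hg1 : (2 : ℝ) ^ m * P.L ≤ g) (hg2 : (g : ℝ) ≤ 2 * ((2 : ℝ) ^ m * P.L))
    (hl : |((s : ℝ) - s') * P.γ + h| < P.L / g)
    (hk : ¬ killedL (Rulex945.lamR F P) (g * s) (g * s') s s' h) :
    Rare (upp (P.cut m) s * P.γ) (upp (P.cut m) s' * P.γ) (2 ^ m) D (low (P.cut m) s)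
      (low (P.cut m) s') ∨
    Dom (upp (P.cut m) s * P.γ) (upp (P.cut m) s' * P.γ) (2 ^ m) (low (P.cut m) s)
      (low (P.cut m) s') ∨
    UD F P.γ (2 ^ m) (4 * D ^ 8) (P.cut m) (g * s) (g * s') ∨
    UD F P.γ (2 ^ m) (4 * D ^ 8) (P.cut m) (g * s') (g * s) ∨
    ∃ (f f' : ℚ) (p : ℕ), LabPair F P m g s s' h f f' p := by
  rcases cover_goodD hL hM hN hE hm hact hb hc hcop hx hD hT hDE hg1 hg2 hl hk with
    h1 | h1 | h1 | h1 | h1
  · exact Or.inl h1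
  · exact Or.inr (Or.inl h1.1)
  · exact Or.inr (Or.inr (Or.inl h1))
  · exact Or.inr (Or.inr (Or.inr (Or.inl h1)))
  · exact Or.inr (Or.inr (Or.inr (Or.inr h1)))

/-! ### the depth of the word and the depths of the members -/

/-- depth of the word of the pair at the scale `2^m` -/
noncomputable def depW (F : FL M) (P : Rulex945.Par) (m g s s' : ℕ) (f f' : ℚ) : ℝ :=
  (Nat.lcm (Rulex945.k0 F (P.cut m) (g * s) f) (Rulex945.k0 F (P.cut m) (g * s') f') : ℝ) *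
    max 1 (max (2 ^ m * (s * |P.γ - f|)) (2 ^ m * (s' * |P.γ - f'|)))

/-- `δ = upp s (γ - f)` -/
lemma del_eq {x g s s' k : ℕ} {a : ℤ} {γ : ℝ} (hM : 0 < M) (hb : g * s ∣ M) (hc : g * s' ∣ M)
    (hcop : Nat.Coprime s s') (hx : F.good x (g * s) (g * s')) (hk : 0 < k) :
    (upp x s : ℝ) * γ - ((F.ell x (g * s') : ℕ) * a : ℤ) / k =
      upp x s * (γ - (fr F x (g * s) a k : ℚ)) := by
  have hl : (0 : ℝ) < F.lam x (g * s) := by exact_mod_cast FL.lam_pos (F := F) x (g * s)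
  have hkR : (0 : ℝ) < k := by exact_mod_cast hk
  have hup : (upp x s : ℝ) = F.lam x (g * s) * F.ell x (g * s') := by
    exact_mod_cast upp_cof hM hb hc hcop hx
  have e : ((fr F x (g * s) a k : ℚ) : ℝ) = a / (k * F.lam x (g * s)) := by
    unfold fr; push_cast; rfl
  rw [mul_sub, e, hup]
  push_cast
  field_simp

/-- the same point and the link: the two displacements differ by less than `1` -/
lemma disp_close {g s s' m : ℕ} {f f' : ℚ} {h : ℤ} {γ L : ℝ} (hL : 0 < L)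
    (hg1 : (2 : ℝ) ^ m * L ≤ g) (hl : |((s : ℝ) - s') * γ + h| < L / g)
    (h0 : BoostCx972.gap f f' s s' h = 0) :
    (2 : ℝ) ^ m * (s' * |γ - f'|) ≤ (2 : ℝ) ^ m * (s * |γ - f|) + 1 := by
  have h2m : (0 : ℝ) < 2 ^ m := by positivity
  have hgR : (0 : ℝ) < g := lt_of_lt_of_le (by positivity) hg1
  have h1 : |((s : ℝ) - s') * γ + h| < 1 / (2 : ℝ) ^ m := by
    refine hl.trans_le ?_
    rw [div_le_div_iff₀ hgR h2m]
    linarith
  have h0' : (s : ℝ) * f - s' * f' + h = 0 := by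
    unfold BoostCx972.gap at h0
    exact_mod_cast h0
  have e : (s' : ℝ) * (γ - f') = s * (γ - f) - (((s : ℝ) - s') * γ + h) := by
    linear_combination h0'
  have h3 : (s' : ℝ) * |γ - f'| ≤ s * |γ - f| + 1 / 2 ^ m := by
    calc (s' : ℝ) * |γ - f'| = |(s' : ℝ) * (γ - f')| := by
          rw [abs_mul, abs_of_nonneg (Nat.cast_nonneg s' : (0 : ℝ) ≤ s')]
      _ ≤ |(s : ℝ) * (γ - f)| + |((s : ℝ) - s') * γ + h| := by rw [e]; exact abs_sub _ _
      _ ≤ _ := by rw [abs_mul, abs_of_nonneg (Nat.cast_nonneg s : (0 : ℝ) ≤ s)]; linarith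
  calc (2 : ℝ) ^ m * (s' * |γ - f'|) ≤ 2 ^ m * (s * |γ - f| + 1 / 2 ^ m) :=
        mul_le_mul_of_nonneg_left h3 h2m.le
    _ = _ := by field_simp

/-- `dep b ≤ 2 dep w` -/
theorem dep_le_depW {m g s s' : ℕ} {f f' : ℚ} (hL : 0 < P.L)
    (hg2 : (g : ℝ) ≤ 2 * ((2 : ℝ) ^ m * P.L)) :
    Rulex945.dep F P m (g * s) f ≤ 2 * depW F P m g s s' f f' := by
  unfold Rulex945.dep depW
  set k := Rulex945.k0 F (P.cut m) (g * s) f with hk
  set k' := Rulex945.k0 F (P.cut m) (g * s') f' with hk'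
  have hkp : 0 < k := Rulex945.k0_pos _ _ _
  have hkp' : 0 < k' := Rulex945.k0_pos _ _ _
  have h1 : (k : ℝ) ≤ Nat.lcm k k' := by
    exact_mod_cast Nat.le_of_dvd (Nat.lcm_pos hkp hkp') (Nat.dvd_lcm_left _ _)
  set X := (2 : ℝ) ^ m * (s * |P.γ - f|) with hX
  set X' := (2 : ℝ) ^ m * (s' * |P.γ - f'|) with hX'
  have hX0 : 0 ≤ X := by positivity
  have h2 : ((g * s : ℕ) : ℝ) * |P.γ - f| / P.L ≤ 2 * X := by
    rw [div_le_iff₀ hL, hX]
    push_cast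
    have h3 : 0 ≤ (s : ℝ) * |P.γ - f| := by positivity
    calc (g : ℝ) * s * |P.γ - f| = g * (s * |P.γ - f|) := by ring
      _ ≤ (2 * ((2 : ℝ) ^ m * P.L)) * (s * |P.γ - f|) := mul_le_mul_of_nonneg_right hg2 h3
      _ = _ := by ring
  have h4 : max 1 (((g * s : ℕ) : ℝ) * |P.γ - f| / P.L) ≤ 2 * max 1 (max X X') := by
    refine max_le ?_ ?_
    · have := le_max_left (1 : ℝ) (max X X'); linarith
    · have := (le_max_left X X').trans (le_max_right (1 : ℝ) (max X X')); linarith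
  calc (k : ℝ) * max 1 (((g * s : ℕ) : ℝ) * |P.γ - f| / P.L)
      ≤ Nat.lcm k k' * (2 * max 1 (max X X')) :=
        mul_le_mul h1 h4 (by positivity) (by positivity)
    _ = _ := by ring

/-- `dep w ≤ 2 (k'/gcd(k,k')) dep b` -/
theorem depW_le {m g s s' : ℕ} {f f' : ℚ} {h : ℤ} (hL : 0 < P.L)
    (hg1 : (2 : ℝ) ^ m * P.L ≤ g) (hl : |((s : ℝ) - s') * P.γ + h| < P.L / g)
    (h0 : BoostCx972.gap f f' s s' h = 0) :
    depW F P m g s s' f f' ≤
      2 * ((Rulex945.k0 F (P.cut m) (g * s') f' / Nat.gcd (Rulex945.k0 F (P.cut m) (g * s) f)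
        (Rulex945.k0 F (P.cut m) (g * s') f') : ℕ) : ℝ) * Rulex945.dep F P m (g * s) f := by
  unfold Rulex945.dep depW
  set k := Rulex945.k0 F (P.cut m) (g * s) f with hk
  set k' := Rulex945.k0 F (P.cut m) (g * s') f' with hk'
  have hkp : 0 < k := Rulex945.k0_pos _ _ _
  have e1 : Nat.lcm k k' = k * (k' / Nat.gcd k k') := by
    unfold Nat.lcm
    exact Nat.mul_div_assoc _ (Nat.gcd_dvd_right _ _)
  set X := (2 : ℝ) ^ m * (s * |P.γ - f|) with hX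
  set X' := (2 : ℝ) ^ m * (s' * |P.γ - f'|) with hX'
  have hXX : X' ≤ X + 1 := disp_close hL hg1 hl h0
  have hX0 : 0 ≤ X := by positivity
  have h2 : X ≤ ((g * s : ℕ) : ℝ) * |P.γ - f| / P.L := by
    rw [le_div_iff₀ hL, hX]
    push_cast
    have h3 : 0 ≤ (s : ℝ) * |P.γ - f| := by positivity
    calc (2 : ℝ) ^ m * (s * |P.γ - f|) * P.L = ((2 : ℝ) ^ m * P.L) * (s * |P.γ - f|) := by ring
      _ ≤ g * (s * |P.γ - f|) := mul_le_mul_of_nonneg_right hg1 h3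
      _ = _ := by ring
  have h4 : max 1 (max X X') ≤ 2 * max 1 (((g * s : ℕ) : ℝ) * |P.γ - f| / P.L) := by
    set Y := ((g * s : ℕ) : ℝ) * |P.γ - f| / P.L with hY
    have h5 := le_max_left (1 : ℝ) Y
    have h6 := le_max_right (1 : ℝ) Y
    refine max_le (by linarith) (max_le (by linarith) ?_)
    linarith
  rw [e1]
  push_cast
  calc (k : ℝ) * ((k' / Nat.gcd k k' : ℕ) : ℝ) * max 1 (max X X')
      ≤ (k : ℝ) * ((k' / Nat.gcd k k' : ℕ) : ℝ) *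
        (2 * max 1 (((g * s : ℕ) : ℝ) * |P.γ - f| / P.L)) :=
        mul_le_mul_of_nonneg_left h4 (by positivity)
    _ = _ := by push_cast; ring

/-- **the labels of a labelled pair, in the language of `S2b_284`**: the depth of the word is
`depW`, and the word is not short: `depW < 64` or `depW < (s_low s'_low)^3` -/
theorem LabPair.labels {m g s s' p : ℕ} {h : ℤ} {f f' : ℚ} (hM : 0 < M) (hb : g * s ∣ M)
    (hc : g * s' ∣ M) (hcop : Nat.Coprime s s') (hx : F.good (P.cut m) (g * s) (g * s'))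
    (hP : LabPair F P m g s s' h f f' p) :
    ∃ (E : ℝ) (A : ℤ) (k : ℕ) (A' : ℤ) (k' : ℕ), 0 < E ∧ 2 * E ≤ P.E m ∧ 8 * E ^ 5 ≤ 2 ^ m ∧
      Rulex945.k0 F (P.cut m) (g * s) f = k ∧ Rulex945.k0 F (P.cut m) (g * s') f' = k' ∧
      Labd (upp (P.cut m) s * P.γ) (upp (P.cut m) s' * P.γ) (2 ^ m) E A k A' k'
        (low (P.cut m) s) (low (P.cut m) s') ∧
      dep k k' (2 ^ m) (upp (P.cut m) s * P.γ - A / k) (upp (P.cut m) s' * P.γ - A' / k')
        (low (P.cut m) s) (low (P.cut m) s') = depW F P m g s s' f f' ∧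
      ¬ IsShort k k' (2 ^ m) (upp (P.cut m) s * P.γ - A / k) (upp (P.cut m) s' * P.γ - A' / k')
        (low (P.cut m) s) (low (P.cut m) s') ∧
      (depW F P m g s s' f f' < 64 ∨
        depW F P m g s s' f f' < ((low (P.cut m) s : ℝ) * low (P.cut m) s') ^ 3) := by
  obtain ⟨E, a, k, a', k', hE, hE2, hE5, htc, htc', hf, hf', hk, hk', hlab, hsh⟩ := hP.lab
  have hg0 : g * s ≠ 0 := (Nat.pos_of_dvd_of_pos hb hM).ne'
  have hg0' : g * s' ≠ 0 := (Nat.pos_of_dvd_of_pos hc hM).ne'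
  have hs : s ≠ 0 := fun h => hg0 (by rw [h, mul_zero])
  have hs' : s' ≠ 0 := fun h => hg0' (by rw [h, mul_zero])
  have h2m : (0 : ℝ) < 2 ^ m := by positivity
  set x := P.cut m with hxdef
  have e1 : (upp x s : ℝ) * P.γ - ((F.ell x (g * s') : ℕ) * a : ℤ) / k = upp x s * (P.γ - f) := by
    rw [hf]; exact del_eq hM hb hc hcop hx htc.pos
  have e2 : (upp x s' : ℝ) * P.γ - ((F.ell x (g * s) : ℕ) * a' : ℤ) / k' =
      upp x s' * (P.γ - f') := by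
    rw [hf']; exact del_eq hM hc hb hcop.symm (FL.good_symm hb hc hx) htc'.pos
  have e3 : (low x s : ℝ) * upp x s = s := by exact_mod_cast low_mul_upp x hs
  have e4 : (low x s' : ℝ) * upp x s' = s' := by exact_mod_cast low_mul_upp x hs'
  have hdep : dep k k' (2 ^ m) (upp x s * P.γ - ((F.ell x (g * s') : ℕ) * a : ℤ) / k)
      (upp x s' * P.γ - ((F.ell x (g * s) : ℕ) * a' : ℤ) / k') (low x s) (low x s') =
      depW F P m g s s' f f' := by
    unfold dep depW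
    rw [e1, e2, hk, hk', abs_mul, abs_mul, abs_of_nonneg (Nat.cast_nonneg (upp x s) : (0:ℝ) ≤ _),
      abs_of_nonneg (Nat.cast_nonneg (upp x s') : (0:ℝ) ≤ _)]
    congr 2
    congr 1
    · rw [← e3]; ring
    · rw [← e4]; ring
  refine ⟨E, (F.ell x (g * s') : ℕ) * a, k, (F.ell x (g * s) : ℕ) * a', k', hE, hE2, hE5, hk, hk',
    hlab, hdep, hsh, ?_⟩
  by_contra hcon
  push Not at hcon
  exact hsh ⟨by rw [hdep]; exact hcon.1, by rw [hdep]; exact hcon.2⟩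

/-- **COVER in the language of `KCb`**, dominant words with size bound -/
theorem cover_goodBD {D : ℝ} {m b c : ℕ} {h : ℤ} (hL : 0 < P.L) (hM : 0 < M)
    (hN : (M : ℝ) / P.L ≤ P.N) (hE : ∀ m, P.m0 ≤ m → 2 * P.E m ^ 3 < 2 ^ m) (hm : P.m0 ≤ m)
    (hact : ∀ p, p ≤ P.cut m → P.Y (P.blk p) ≤ P.cut m)
    (hb : b ∣ M) (hc : c ∣ M)
    (hx : F.good (P.cut m) b c) (hD : 4 ≤ D) (hT : 8 * (4 * D ^ 8) ^ 5 ≤ (2 : ℝ) ^ m)
    (hDE : 2 * (4 * D ^ 8) ≤ P.E m)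
    (hg1 : (2 : ℝ) ^ m * P.L ≤ Nat.gcd b c) (hg2 : (Nat.gcd b c : ℝ) ≤ 2 * ((2 : ℝ) ^ m * P.L))
    (hl : h ∈ Lnk P.γ P.L b c) (hk : ¬ killedB (Rulex945.lamR F P) b c h) :
    Rare (upp (P.cut m) (b / Nat.gcd b c) * P.γ) (upp (P.cut m) (c / Nat.gcd b c) * P.γ) (2 ^ m) D
      (low (P.cut m) (b / Nat.gcd b c)) (low (P.cut m) (c / Nat.gcd b c)) ∨
    S2cx284.DomB (upp (P.cut m) (b / Nat.gcd b c) * P.γ) (upp (P.cut m) (c / Nat.gcd b c) * P.γ)
      (2 ^ m) D (low (P.cut m) (b / Nat.gcd b c)) (low (P.cut m) (c / Nat.gcd b c)) ∨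
    UD F P.γ (2 ^ m) (4 * D ^ 8) (P.cut m) b c ∨
    UD F P.γ (2 ^ m) (4 * D ^ 8) (P.cut m) c b ∨
    ∃ (f f' : ℚ) (p : ℕ), LabPair F P m (Nat.gcd b c) (b / Nat.gcd b c) (c / Nat.gcd b c) h
      f f' p := by
  have hb0 : 0 < b := Nat.pos_of_dvd_of_pos hb hM
  have hg : 0 < Nat.gcd b c := Nat.gcd_pos_of_pos_left _ hb0
  have e1 : Nat.gcd b c * (b / Nat.gcd b c) = b := Nat.mul_div_cancel' (Nat.gcd_dvd_left _ _)
  have e2 : Nat.gcd b c * (c / Nat.gcd b c) = c := Nat.mul_div_cancel' (Nat.gcd_dvd_right _ _)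
  have hcop : Nat.Coprime (b / Nat.gcd b c) (c / Nat.gcd b c) :=
    Nat.coprime_div_gcd_div_gcd hg
  have hk' : ¬ killedL (Rulex945.lamR F P) (Nat.gcd b c * (b / Nat.gcd b c))
      (Nat.gcd b c * (c / Nat.gcd b c)) (b / Nat.gcd b c) (c / Nat.gcd b c) h := by
    rw [e1, e2]
    exact fun hh => hk (Rulex945.killedB_iff.2 hh)
  have hl' : |(((b / Nat.gcd b c : ℕ) : ℝ) - ((c / Nat.gcd b c : ℕ) : ℝ)) * P.γ + h| <
      P.L / (Nat.gcd b c : ℕ) := mem_Hf.1 hl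
  have := cover_goodD (F := F) (P := P) (D := D) (m := m) (g := Nat.gcd b c)
    (s := b / Nat.gcd b c) (s' := c / Nat.gcd b c) (h := h) hL hM hN hE hm hact
    (by rw [e1]; exact hb) (by rw [e2]; exact hc) hcop (by rw [e1, e2]; exact hx) hD hT hDE
    hg1 hg2 hl' hk'
  rw [e1, e2] at this
  exact this

/-- **COVER in the language of `KCb`** -/
theorem cover_goodB {D : ℝ} {m b c : ℕ} {h : ℤ} (hL : 0 < P.L) (hM : 0 < M)
    (hN : (M : ℝ) / P.L ≤ P.N) (hE : ∀ m, P.m0 ≤ m → 2 * P.E m ^ 3 < 2 ^ m) (hm : P.m0 ≤ m)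
    (hact : ∀ p, p ≤ P.cut m → P.Y (P.blk p) ≤ P.cut m)
    (hb : b ∣ M) (hc : c ∣ M)
    (hx : F.good (P.cut m) b c) (hD : 4 ≤ D) (hT : 8 * (4 * D ^ 8) ^ 5 ≤ (2 : ℝ) ^ m)
    (hDE : 2 * (4 * D ^ 8) ≤ P.E m)
    (hg1 : (2 : ℝ) ^ m * P.L ≤ Nat.gcd b c) (hg2 : (Nat.gcd b c : ℝ) ≤ 2 * ((2 : ℝ) ^ m * P.L))
    (hl : h ∈ Lnk P.γ P.L b c) (hk : ¬ killedB (Rulex945.lamR F P) b c h) :
    Rare (upp (P.cut m) (b / Nat.gcd b c) * P.γ) (upp (P.cut m) (c / Nat.gcd b c) * P.γ) (2 ^ m) D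
      (low (P.cut m) (b / Nat.gcd b c)) (low (P.cut m) (c / Nat.gcd b c)) ∨
    Dom (upp (P.cut m) (b / Nat.gcd b c) * P.γ) (upp (P.cut m) (c / Nat.gcd b c) * P.γ) (2 ^ m)
      (low (P.cut m) (b / Nat.gcd b c)) (low (P.cut m) (c / Nat.gcd b c)) ∨
    UD F P.γ (2 ^ m) (4 * D ^ 8) (P.cut m) b c ∨
    UD F P.γ (2 ^ m) (4 * D ^ 8) (P.cut m) c b ∨
    ∃ (f f' : ℚ) (p : ℕ), LabPair F P m (Nat.gcd b c) (b / Nat.gcd b c) (c / Nat.gcd b c) h
      f f' p := by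
  rcases cover_goodBD hL hM hN hE hm hact hb hc hx hD hT hDE hg1 hg2 hl hk with
    h1 | h1 | h1 | h1 | h1
  · exact Or.inl h1
  · exact Or.inr (Or.inl h1.1)
  · exact Or.inr (Or.inr (Or.inl h1))
  · exact Or.inr (Or.inr (Or.inr (Or.inl h1)))
  · exact Or.inr (Or.inr (Or.inr (Or.inr h1)))

end Crest.Agent.R4C.PairRx14
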