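import Crest.Agent.R4C.S2b_284

/-! Row 4: S2 classification with the SIZE BOUND of the dominant word (helper284).

`classify_domB`, `pair_classB` = `S2bx284.classify_dom`, `S2bx284.pair_class` where the dominant
alternative carries `u ≤ 4 D^8` and `v ≤ 4 D^8`. -/

set_option autoImplicit false

open Finset

namespace Crest.Agent.R4C.S2cx284

open Crest.Agent.R4C.S2x232 Crest.Agent.R4C.S2bx284

/-- dominant word with both entries `≤ 4 D^8` -/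
def DomB (ξ ξ' t D : ℝ) (u v : ℕ) : Prop :=
  Dom ξ ξ' t u v ∧ (u:ℝ) ≤ 4 * D^8 ∧ (v:ℝ) ≤ 4 * D^8

/-- **THEOREM S2, final form with size bound** -/
theorem classify_domB {ξ ξ' t D : ℝ} (hD : 4 ≤ D) (ht : 8*(4*D^8)^5 ≤ t) {u v : ℕ}
    (hco : Nat.Coprime u v) (hN : NN ξ ξ' t u v) :
    Rare ξ ξ' t D u v ∨ DomB ξ ξ' t D u v ∨
      ∃ (a : ℤ) (k : ℕ) (a' : ℤ) (k' : ℕ), Labd ξ ξ' t (4*D^8) a k a' k' u v ∧
        (u, v) ≠ (k / Nat.gcd k k', k' / Nat.gcd k k') ∧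
        ¬ IsShort k k' t (ξ - a/k) (ξ' - a'/k') u v := by
  have hD1 : 1 ≤ D := by linarith
  have hD8 : D ≤ 4 * D^8 := by
    have h7 : (1:ℝ) ≤ D^7 := one_le_pow₀ hD1
    have e : D^8 = D^7 * D := by ring
    rw [e]; nlinarith
  have hE : 1 ≤ 4 * D^8 := by linarith
  have h2D : 2 * D ≤ t := by
    have h1 : 4 * D^8 ≤ (4*D^8)^5 := le_self_pow₀ hE (by norm_num)
    linarith
  have ht0 : 0 < t := by linarith
  have huR : (1:ℝ) ≤ u := by exact_mod_cast hN.1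
  have hvR : (1:ℝ) ≤ v := by exact_mod_cast hN.2.1
  rcases classify hD h2D hco hN with h | h | ⟨a, k, a', k', hL⟩
  · exact Or.inl h
  · refine Or.inr (Or.inl ⟨dom_of_uniq hD h, ?_, ?_⟩)
    · have h1 := h.2.2.1
      have h2 : D^2 ≤ D^8 := pow_le_pow_right₀ hD1 (by norm_num)
      have h3 : 0 < D^2 := by positivity
      linarith
    · have h1 := h.2.2.2.1
      have h2 : D^2 ≤ D^8 := pow_le_pow_right₀ hD1 (by norm_num)
      have h3 : 0 < D^2 := by positivity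
      linarith
  · right
    by_cases h1 : (u, v) = (k / Nat.gcd k k', k' / Nat.gcd k k')
    · left
      have e1 : u = k / Nat.gcd k k' := congrArg Prod.fst h1
      have e2 : v = k' / Nat.gcd k k' := congrArg Prod.snd h1
      refine ⟨dom_of_label hE ht hco hN hL e1 e2, ?_, ?_⟩
      · exact le_trans (by exact_mod_cast e1 ▸ Nat.div_le_self k _) hL.1.2.2.1
      · exact le_trans (by exact_mod_cast e2 ▸ Nat.div_le_self k' _) hL.2.2.2.1
    by_cases h2 : IsShort k k' t (ξ - a/k) (ξ' - a'/k') u v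
    · left
      have hdep := dep_le hE ht0 hN.1 hN.2.1 hL
      have hP : (u:ℝ) * v ≤ 4 * D^8 := by
        have h3 : ((u:ℝ) * v)^3 ≤ (4 * D^8)^3 := h2.2.trans hdep
        exact le_of_pow_le_pow_left₀ (by norm_num) (by linarith) h3
      exact ⟨dom_of_short hE ht hco hN hL h2, by nlinarith, by nlinarith⟩
    right
    exact ⟨a, k, a', k', hL, h1, h2⟩

/-- **S2 for a linked pair**, with the size bound: rare box, dominant word (entries `≤ 4 D^8`), or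
labelled (not short) with a killing prime. -/
theorem pair_classB {γ t D : ℝ} (hD : 4 ≤ D) (ht : 8*(4*D^8)^5 ≤ t) {s s' s₀ x s₀' x' : ℕ}
    {h : ℤ} (hsx : s = s₀ * x) (hsx' : s' = s₀' * x') (hs : 0 < s) (hs' : 0 < s')
    (hcop : Nat.Coprime s s') (hl : |((s : ℝ) - s') * γ + h| < 1 / t) :
    Rare (x * γ) (x' * γ) t D s₀ s₀' ∨ DomB (x * γ) (x' * γ) t D s₀ s₀' ∨
      ∃ (a : ℤ) (k : ℕ) (a' : ℤ) (k' : ℕ), Labd (x * γ) (x' * γ) t (4*D^8) a k a' k' s₀ s₀' ∧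
        ¬ IsShort k k' t (x * γ - a/k) (x' * γ - a'/k') s₀ s₀' ∧
        ((∃ p : ℕ, p.Prime ∧ p ∣ s₀' ∧ ¬ p ∣ s ∧ ¬ p ∣ k * x ∧
            ∀ c : ℤ, (p : ℤ) ∣ a + k * x * c → (p : ℤ) ∣ h - s * c) ∨
          (∃ p : ℕ, p.Prime ∧ p ∣ s₀ ∧ ¬ p ∣ s' ∧ ¬ p ∣ k' * x' ∧
            ∀ c : ℤ, (p : ℤ) ∣ a' + k' * x' * c → (p : ℤ) ∣ h + s' * c)) := by
  have hs0 : 0 < s₀ := Nat.pos_of_ne_zero (by rintro rfl; simp at hsx; omega)
  have hs0' : 0 < s₀' := Nat.pos_of_ne_zero (by rintro rfl; simp at hsx'; omega)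
  have hco : Nat.Coprime s₀ s₀' :=
    Nat.Coprime.coprime_dvd_left (Dvd.intro _ hsx.symm)
      (Nat.Coprime.coprime_dvd_right (Dvd.intro _ hsx'.symm) hcop)
  have hN : NN (x * γ) (x' * γ) t s₀ s₀' := by
    refine ⟨hs0, hs0', -h, ?_⟩
    have e : (s₀:ℝ) * (x * γ) - s₀' * (x' * γ) - ((-h : ℤ) : ℝ) = ((s : ℝ) - s') * γ + h := by
      rw [hsx, hsx']; push_cast; ring
    rw [e]; exact hl
  rcases classify_domB hD ht hco hN with h1 | h1 | ⟨a, k, a', k', hL, hne, hsh⟩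
  · exact Or.inl h1
  · exact Or.inr (Or.inl h1)
  right; right
  refine ⟨a, k, a', k', hL, hsh, ?_⟩
  have hD8 : (1:ℝ) ≤ 4 * D^8 := by
    have h7 : (1:ℝ) ≤ D^8 := one_le_pow₀ (by linarith)
    linarith
  have hE0 : 0 < 4 * D^8 := by linarith
  have htE : (4*D^8)^2 * (1 + 2 * (4*D^8)) ≤ t := by
    have h2 : (4*D^8)^2 * (1 + 2 * (4*D^8)) ≤ 3 * (4*D^8)^3 := by
      have : 0 < (4*D^8)^2 := by positivity
      nlinarith
    have h3 : (4*D^8)^3 ≤ (4*D^8)^5 := pow_le_pow_right₀ hD8 (by norm_num)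
    have h4 : 0 < (4*D^8)^5 := by positivity
    linarith
  obtain ⟨⟨hk, hc, hkE, hd⟩, ⟨hk', hc', hkE', hd'⟩⟩ := hL
  obtain ⟨r, r', e1, e2, -, -, K1, K2⟩ := KillS2x949.kill_lemma hsx hsx' hs hs' hcop hk hk' hc hc'
    hE0 htE hkE hkE' hl hd hd'
  rcases KillS2x949.special_or_kill (r := r) (r' := r') with ⟨q1, q2⟩ | ⟨p, hp, hpr⟩ | ⟨p, hp, hpr⟩
  · exfalso
    apply hne
    rw [e1, e2, q1, q2, mul_one, mul_one]
  · left
    obtain ⟨-, b2, b3, b4⟩ := K1 p hp hpr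
    exact ⟨p, hp, by rw [e2]; exact hpr.mul_left _, b2, b3, b4⟩
  · right
    obtain ⟨-, b2, b3, b4⟩ := K2 p hp hpr
    exact ⟨p, hp, by rw [e1]; exact hpr.mul_left _, b2, b3, b4⟩

end Crest.Agent.R4C.S2cx284
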