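import Crest.Agent.R4C.S7d_14
import Crest.Agent.R4C.S2c_284
import Crest.Agent.R4C.Chain_81
import Crest.Agent.R4C.S2b_284

/-!
# Row 4: glue between the classification S2 at the cut `P0` and the tree centres (helper14)

`b = g s`, `c = g s'`, `s, s'` coprime, good at the cut `x` (`= P0`), linked with offset `h` at
the scale `T` (`T L ≤ g ≤ 2 T L`).  Low words `low x s`, `low x s'`; targets
`upp x s * γ`, `upp x s' * γ`, `upp x s = lam x b * ell x c` (`upp_cof`).

* `TC F γ L E x b a k` : `a/k` is a tree label of `b` at the cut `x`; the centre is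
  `fr F x b a k = a / (k lam x b)`; `TC_unique`, `TC.isC`, `TC.disp_le`;
* `UD` : unexplained deficit (literal relation of `LemQ_491`);
* **`pair_glue`** : `Rare`, `Dom`, `UD b c`, `UD c b`, or both members have tree labels whose
  centres are the same point, not short, and some prime `p ≤ x` of `al` or `al'` exists;
* `dvd_al_of_dvd` : a differing prime not dividing the denominator is explained;
* `dvd_al_of_kill` : a killing prime is explained.
-/

set_option autoImplicit false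

namespace Crest.Agent.R4C.Pairx14

open Crest.Agent.R4C.FLDefx935 Crest.Agent.R4C.BoostCx972 Crest.Agent.R4C.CrCoinx935
  Crest.Agent.R4C.S7cx14 Crest.Agent.R4C.S7dx14 Crest.Agent.R4C.Chainx81
  Crest.Agent.R4C.Cutx50 Crest.Agent.R4C.S2bx284 Crest.Agent.R4C.S2x232
  Crest.Agent.R4C.Centx949

variable {M : ℕ} {F : FL M}

/-! ### explained primes -/

section expl

variable {g s s' : ℕ} {h : ℤ} {f f' : ℚ}

/-- a differing prime (`p ∣ s'`) not dividing the denominator of the centre of `c = g s'` divides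
`al'` (any centre of `b`, no hypothesis on the points) -/
lemma dvd_al_of_dvd (hg : 0 < g) (hs : 0 < s) (hcop : Nat.Coprime s s') {p : ℕ} (hp : p.Prime)
    (hps : p ∣ s') (hden : ¬ p ∣ f'.den) : p ∣ alC (g * s') (g * s) f' f := by
  have hb0 : 0 < g * s := Nat.mul_pos hg hs
  have he := eC_pos hb0 (g * s') f f'
  have h1 : alC (g * s') (g * s) f' f * eC (g * s) (g * s') f f' * Nat.gcd (g * s') f'.den =
      g * s' := by
    rw [eC_comm, alC_mul, mul_comm, gnum_mul]
  obtain ⟨u, hu⟩ := eC_dvd_g (g := g) hcop f f'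
  have h2 : alC (g * s') (g * s) f' f * Nat.gcd (g * s') f'.den = u * s' := by
    refine Nat.eq_of_mul_eq_mul_left he ?_
    calc eC (g * s) (g * s') f f' * (alC (g * s') (g * s) f' f * Nat.gcd (g * s') f'.den)
        = alC (g * s') (g * s) f' f * eC (g * s) (g * s') f f' * Nat.gcd (g * s') f'.den := by ring
      _ = g * s' := h1
      _ = (eC (g * s) (g * s') f f' * u) * s' := by rw [← hu]
      _ = _ := by ring
  have h3 : p ∣ alC (g * s') (g * s) f' f * Nat.gcd (g * s') f'.den := by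
    rw [h2]; exact hps.mul_left _
  exact ((hp.dvd_mul).1 h3).resolve_right fun hc => hden (hc.trans (Nat.gcd_dvd_right _ _))

lemma dvd_al_of_dvd' (hg : 0 < g) (hs' : 0 < s') (hcop : Nat.Coprime s s') {p : ℕ}
    (hp : p.Prime) (hps : p ∣ s) (hden : ¬ p ∣ f.den) : p ∣ alC (g * s) (g * s') f f' :=
  dvd_al_of_dvd hg hs' hcop.symm hp hps hden

/-- **a killing prime is explained** -/
lemma dvd_al_of_kill (hg : 0 < g) (hs : 0 < s) (hs' : 0 < s') (hcop : Nat.Coprime s s')
    (h0 : gap f f' s s' h = 0) {p : ℕ} (hp : p.Prime) (hps' : p ∣ s') (hps : ¬ p ∣ s)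
    (hden : ¬ p ∣ f.den)
    (hk : ∀ c : ℤ, (p : ℤ) ∣ f.num + f.den * c → (p : ℤ) ∣ h - s * c) :
    p ∣ alC (g * s') (g * s) f' f := by
  have hpz : Prime (p : ℤ) := Nat.prime_iff_prime_int.1 hp
  obtain ⟨n, n', hn⟩ := exists_shift hcop h
  have h1 := al_mul_eq hg hs hs' hcop h0 hn
  have hc := cls_spec hp hden
  have h2 := hk _ hc
  have hps'z : (p : ℤ) ∣ s' := Int.natCast_dvd_natCast.2 hps'
  have h3 : (p : ℤ) ∣ s * (n - cls f p) := by
    have e : (s : ℤ) * (n - cls f p) = (h - s * cls f p) + s' * n' := by rw [hn]; ring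
    rw [e]
    exact dvd_add h2 (hps'z.mul_right _)
  have h4 : (p : ℤ) ∣ n - cls f p :=
    (hpz.dvd_or_dvd h3).resolve_left fun hc => hps (Int.natCast_dvd_natCast.1 hc)
  have h5 : (p : ℤ) ∣ f.num + n * f.den := by
    have e : f.num + n * f.den = (f.num + f.den * cls f p) + f.den * (n - cls f p) := by ring
    rw [e]
    exact dvd_add hc (h4.mul_left _)
  have h6 : (p : ℤ) ∣ (alC (g * s') (g * s) f' f : ℤ) * (f'.num + n' * f'.den) := by
    rw [← h1]
    exact h5.mul_left _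
  by_contra hcon
  have h7 : (p : ℤ) ∣ f'.num + n' * f'.den :=
    (hpz.dvd_or_dvd h6).resolve_left fun hc => hcon (Int.natCast_dvd_natCast.1 hc)
  have hden' : ¬ p ∣ f'.den := by
    intro hd
    have h8 : (p : ℤ) ∣ f'.den := Int.natCast_dvd_natCast.2 hd
    have h9 : (p : ℤ) ∣ f'.num := by
      have e : f'.num = (f'.num + n' * f'.den) - n' * f'.den := by ring
      rw [e]
      exact dvd_sub h7 (h8.mul_left _)
    have h10 : p ∣ Nat.gcd f'.num.natAbs f'.den := Nat.dvd_gcd (Int.natCast_dvd.1 h9) hd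
    rw [f'.reduced] at h10
    exact hp.one_lt.ne' (Nat.dvd_one.1 h10)
  exact hcon (dvd_al_of_dvd hg hs hcop hp hps' hden')

lemma dvd_al_of_kill' (hg : 0 < g) (hs : 0 < s) (hs' : 0 < s') (hcop : Nat.Coprime s s')
    (h0 : gap f f' s s' h = 0) {p : ℕ} (hp : p.Prime) (hps : p ∣ s) (hps' : ¬ p ∣ s')
    (hden : ¬ p ∣ f'.den)
    (hk : ∀ c : ℤ, (p : ℤ) ∣ f'.num + f'.den * c → (p : ℤ) ∣ h + s' * c) :
    p ∣ alC (g * s) (g * s') f f' := by
  refine dvd_al_of_kill hg hs' hs hcop.symm (gap_symm h0) hp hps hps' hden fun c hc => ?_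
  have e : -h - (s' : ℤ) * c = -(h + s' * c) := by ring
  rw [e]
  exact (dvd_neg).2 (hk c hc)

end expl

/-! ### tree labels -/

/-- `a/k` is a tree label of `b` at the cut `x` (depth parameter `E`) -/
structure TC (F : FL M) (γ L E : ℝ) (x b : ℕ) (a : ℤ) (k : ℕ) : Prop where
  pos : 0 < k
  cop : IsCoprime a (k : ℤ)
  le : (k : ℝ) ≤ E
  near : (F.uu x b : ℝ) * |(F.lam x b : ℝ) * γ - a / k| ≤ E * L

lemma TC.mono {γ L E E' : ℝ} {x b : ℕ} {a : ℤ} {k : ℕ} (hL : 0 ≤ L) (hE : E ≤ E')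
    (h : TC F γ L E x b a k) : TC F γ L E' x b a k :=
  ⟨h.pos, h.cop, h.le.trans hE, h.near.trans (mul_le_mul_of_nonneg_right hE hL)⟩

/-- the denominator of the centre -/
lemma fr_den_dvd {x b : ℕ} (a : ℤ) (k : ℕ) : (fr F x b a k).den ∣ k * F.lam x b := by
  have h := Rat.den_dvd a ((k * F.lam x b : ℕ) : ℤ)
  rw [Rat.divInt_eq_div] at h
  have e : (fr F x b a k) = (a : ℚ) / (((k * F.lam x b : ℕ) : ℤ) : ℚ) := by
    unfold fr; push_cast; rfl
  rw [e]
  exact_mod_cast h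

lemma TC.isC {γ L E : ℝ} {x b : ℕ} {a : ℤ} {k : ℕ} (h : TC F γ L E x b a k) :
    IsC F x b k (fr F x b a k) := ⟨h.pos, fr_den_dvd a k⟩

lemma TC.disp_le {γ L E : ℝ} {x b : ℕ} {a : ℤ} {k : ℕ} (hM : 0 < M) (hb : b ∣ M)
    (h : TC F γ L E x b a k) : disp γ b (fr F x b a k) ≤ E * L := by
  rw [disp_fr hM hb a h.pos γ]; exact h.near

/-- **uniqueness** of the tree label -/
lemma TC_unique {γ L E : ℝ} {x b : ℕ} {a a' : ℤ} {k k' : ℕ} (_hL : 0 ≤ L)
    (hbig : 2 * E ^ 3 * L < F.uu x b) (h : TC F γ L E x b a k) (h' : TC F γ L E x b a' k') :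
    a = a' ∧ k = k' := by
  have hk := h.pos
  have hk' := h'.pos
  have hkR : (0 : ℝ) < k := by exact_mod_cast hk
  have hkR' : (0 : ℝ) < k' := by exact_mod_cast hk'
  have hE : 0 < E := hkR.trans_le h.le
  have huR : (0 : ℝ) < F.uu x b := by exact_mod_cast FL.uu_pos (F := F) x b
  set X : ℤ := a * k' - a' * k with hX
  have e1 : (X : ℝ) = (k * k') * (((F.lam x b : ℝ) * γ - a' / k') - ((F.lam x b : ℝ) * γ - a / k)) := by
    rw [hX]; push_cast; field_simp; ring
  have h1 : |(X : ℝ)| * F.uu x b ≤ (E * E) * (E * L + E * L) := by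
    rw [e1, abs_mul, abs_of_pos (mul_pos hkR hkR')]
    have h2 := abs_sub ((F.lam x b : ℝ) * γ - a' / k') ((F.lam x b : ℝ) * γ - a / k)
    have h3 : |((F.lam x b : ℝ) * γ - a' / k') - ((F.lam x b : ℝ) * γ - a / k)| * F.uu x b ≤
        E * L + E * L := by
      calc _ ≤ (|(F.lam x b : ℝ) * γ - a' / k'| + |(F.lam x b : ℝ) * γ - a / k|) * F.uu x b :=
            mul_le_mul_of_nonneg_right h2 huR.le
        _ = F.uu x b * |(F.lam x b : ℝ) * γ - a' / k'| + F.uu x b * |(F.lam x b : ℝ) * γ - a / k| := by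
            ring
        _ ≤ _ := add_le_add h'.near h.near
    calc (k * k' : ℝ) * |((F.lam x b : ℝ) * γ - a' / k') - ((F.lam x b : ℝ) * γ - a / k)| * F.uu x b
        = (k * k' : ℝ) * (|((F.lam x b : ℝ) * γ - a' / k') - ((F.lam x b : ℝ) * γ - a / k)| *
          F.uu x b) := by ring
      _ ≤ (E * E) * (E * L + E * L) :=
          mul_le_mul (mul_le_mul h.le h'.le hkR'.le hE.le) h3 (by positivity) (by positivity)
  have hX0 : X = 0 := by
    by_contra hne
    have h2 : (1 : ℝ) ≤ |(X : ℝ)| := by exact_mod_cast Int.one_le_abs hne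
    have h3 : (F.uu x b : ℝ) ≤ |(X : ℝ)| * F.uu x b := le_mul_of_one_le_left huR.le h2
    have h4 : (E * E) * (E * L + E * L) = 2 * E ^ 3 * L := by ring
    linarith
  have e2 : a * (k' : ℤ) = a' * k := by rw [hX] at hX0; linarith
  have d1 : (k : ℤ) ∣ k' := h.cop.symm.dvd_of_dvd_mul_left ⟨a', by rw [e2]; ring⟩
  have d2 : (k' : ℤ) ∣ k := h'.cop.symm.dvd_of_dvd_mul_left ⟨a, by rw [← e2]; ring⟩
  have hkk : k = k' := Nat.dvd_antisymm (Int.natCast_dvd_natCast.1 d1)
    (Int.natCast_dvd_natCast.1 d2)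
  subst hkk
  exact ⟨mul_right_cancel₀ (by exact_mod_cast hk.ne') e2, rfl⟩

/-- `uu ≥ g` for a good pair -/
lemma uu_ge {x : ℕ} {g s s' : ℕ} (hM : 0 < M) (hb : g * s ∣ M) (hc : g * s' ∣ M)
    (hcop : Nat.Coprime s s') (hx : F.good x (g * s) (g * s')) : g ≤ F.uu x (g * s) := by
  have h1 := gcd_le_uu hM hb hc hx
  rwa [Nat.gcd_mul_left, hcop.gcd_eq_one, mul_one] at h1

/-- the rough part of the cofactor -/
lemma upp_cof {x g s s' : ℕ} (hM : 0 < M) (hb : g * s ∣ M) (hc : g * s' ∣ M)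
    (hcop : Nat.Coprime s s') (hx : F.good x (g * s) (g * s')) :
    upp x s = F.lam x (g * s) * F.ell x (g * s') := by
  have hg0 : g * s ≠ 0 := (Nat.pos_of_dvd_of_pos hb hM).ne'
  have hg : 0 < g := Nat.pos_of_ne_zero fun h => hg0 (by rw [h, zero_mul])
  have hs : 0 < s := Nat.pos_of_ne_zero fun h => hg0 (by rw [h, mul_zero])
  have h1 := div_gcd hM hb hc hx
  have e1 : Nat.gcd (g * s) (g * s') = g := by
    rw [Nat.gcd_mul_left, hcop.gcd_eq_one, mul_one]
  rw [e1, Nat.mul_div_cancel_left _ hg] at h1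
  have hl := FL.lam_pos (F := F) x (g * s)
  have he := FL.ell_pos (F := F) x (g * s')
  have hsig : 0 < sig x (g * s) (g * s') := by
    refine Nat.pos_of_ne_zero fun h => ?_
    rw [h, zero_mul] at h1
    omega
  refine Nat.eq_of_factorization_eq (upp_pos x s).ne' (Nat.mul_pos hl he).ne' fun p => ?_
  rw [fact_upp, Nat.factorization_mul hl.ne' he.ne', Finsupp.add_apply]
  by_cases hxp : p ≤ x
  · have hx' : ¬ x < p := by omega
    rw [FL.fact_lam hM hb, FL.fact_ell]
    simp [hxp, FL.lamE, FL.ellE, hx']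
  · simp only [hxp, not_false_eq_true, if_true]
    have h2 : (sig x (g * s) (g * s')).factorization p = 0 := by
      have hd : sig x (g * s) (g * s') ∣ low x (g * s) :=
        Nat.div_dvd_of_dvd (Nat.gcd_dvd_left _ _)
      have h3 := (Nat.factorization_le_iff_dvd hsig.ne' (low_pos x (g * s)).ne').2 hd p
      rw [fact_low, if_neg hxp] at h3
      omega
    have h3 : s.factorization p = (sig x (g * s) (g * s') *
        (F.ell x (g * s') * F.lam x (g * s))).factorization p := by rw [← h1]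
    rw [h3, Nat.factorization_mul hsig.ne' (Nat.mul_pos he hl).ne',
      Nat.factorization_mul he.ne' hl.ne', Finsupp.add_apply, Finsupp.add_apply, h2]
    omega

/-- **unexplained deficit**: the literal relation of `LemQ_491` between `θ = lam x b * γ` and
`l = ell x c` -/
def UD (F : FL M) (γ T E : ℝ) (x b c : ℕ) : Prop :=
  ∃ (k : ℕ) (a : ℤ), 1 ≤ k ∧ (k : ℝ) ≤ E ∧ IsCoprime a (k : ℤ) ∧ ¬ ((F.ell x c : ℕ) : ℤ) ∣ a ∧
    |(F.lam x b : ℝ) * γ - (a : ℝ) / (k * (F.ell x c : ℕ))| ≤ E / (T * (F.ell x c : ℕ))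

/-- one side of the glue -/
lemma side {γ T E L : ℝ} {x g s s' : ℕ} (hM : 0 < M) (hb : g * s ∣ M) (hc : g * s' ∣ M)
    (hcop : Nat.Coprime s s') (hx : F.good x (g * s) (g * s')) (hT : 0 < T) (hE : 0 ≤ E)
    (hgT : (g : ℝ) ≤ 2 * (T * L)) {a : ℤ} {k : ℕ}
    (hL : Lab (upp x s * γ) E (E / (T * low x s)) a k) :
    UD F γ T E x (g * s) (g * s') ∨ ∃ a₁ : ℤ, a = (F.ell x (g * s') : ℕ) * a₁ ∧
      TC F γ L (2 * E) x (g * s) a₁ k ∧
      (s : ℚ) * fr F x (g * s) a₁ k = (low x s : ℚ) * a / k := by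
  obtain ⟨hk, hcopa, hkE, hd⟩ := hL
  have hg0 : g * s ≠ 0 := (Nat.pos_of_dvd_of_pos hb hM).ne'
  have hs : 0 < s := Nat.pos_of_ne_zero fun h => hg0 (by rw [h, mul_zero])
  have hup := upp_cof hM hb hc hcop hx
  set lam := F.lam x (g * s) with hlam
  set ell := F.ell x (g * s') with hell
  have hl : 0 < lam := FL.lam_pos x _
  have he : 0 < ell := FL.ell_pos x _
  have hlR : (0 : ℝ) < lam := by exact_mod_cast hl
  have heR : (0 : ℝ) < ell := by exact_mod_cast he
  have hkR : (0 : ℝ) < k := by exact_mod_cast hk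
  have hS0 : 0 < low x s := low_pos x s
  have hS0R : (0 : ℝ) < low x s := by exact_mod_cast hS0
  have hupR : (upp x s : ℝ) = lam * ell := by exact_mod_cast hup
  have key : |(lam : ℝ) * γ - (a : ℝ) / (k * ell)| ≤ E / (T * low x s) / ell := by
    rw [le_div_iff₀ heR]
    nth_rewrite 2 [← abs_of_pos heR]
    rw [← abs_mul]
    have e : ((lam : ℝ) * γ - (a : ℝ) / (k * ell)) * ell = upp x s * γ - a / k := by
      rw [hupR]; field_simp
    rw [e]
    exact hd
  by_cases hdiv : ((ell : ℕ) : ℤ) ∣ a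
  · right
    obtain ⟨a₁, ha₁⟩ := hdiv
    refine ⟨a₁, ha₁, ⟨hk, ?_, ?_, ?_⟩, ?_⟩
    · rw [ha₁] at hcopa
      exact hcopa.of_mul_left_right
    · linarith
    · have e1 : (a : ℝ) / (k * ell) = a₁ / k := by
        rw [ha₁]; push_cast; field_simp
      rw [e1] at key
      -- `uu = g low ell`
      have h2 : F.uu x (g * s) * lam = g * s := FL.uu_mul_lam hM hb
      have h3 : low x s * upp x s = s := low_mul_upp x hs.ne'
      have h4 : F.uu x (g * s) = g * (low x s * ell) := by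
        refine Nat.eq_of_mul_eq_mul_right hl ?_
        rw [h2]
        nth_rewrite 1 [← h3]
        rw [hup]; ring
      have h4R : (F.uu x (g * s) : ℝ) = g * (low x s * ell) := by exact_mod_cast h4
      rw [h4R]
      calc (g : ℝ) * (low x s * ell) * |(lam : ℝ) * γ - a₁ / k|
          ≤ (g : ℝ) * (low x s * ell) * (E / (T * low x s) / ell) :=
            mul_le_mul_of_nonneg_left key (by positivity)
        _ = g * (E / T) := by field_simp
        _ ≤ (2 * (T * L)) * (E / T) := mul_le_mul_of_nonneg_right hgT (by positivity)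
        _ = 2 * E * L := by field_simp
    · have h3 : (low x s : ℚ) * upp x s = s := by exact_mod_cast low_mul_upp x hs.ne'
      have hupQ : (upp x s : ℚ) = lam * ell := by exact_mod_cast hup
      have hlQ : (lam : ℚ) ≠ 0 := by exact_mod_cast hl.ne'
      have hkQ : (k : ℚ) ≠ 0 := by
        have : k ≠ 0 := by omega
        exact_mod_cast this
      rw [← h3, hupQ, ha₁]
      unfold fr
      rw [← hlam]
      push_cast
      field_simp
  · left
    refine ⟨k, a, hk, hkE, hcopa, hdiv, key.trans ?_⟩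
    rw [div_div, ← hell]
    refine div_le_div_of_nonneg_left hE (by positivity) ?_
    have h1 : (1 : ℝ) ≤ low x s := by exact_mod_cast hS0
    calc T * (ell : ℝ) = T * 1 * ell := by ring
      _ ≤ T * low x s * ell := by gcongr

/-- **GLUE, with the explicit labels of `S2b_284`** -/
theorem pair_glue2 {γ T D L : ℝ} {x g s s' : ℕ} (hM : 0 < M) (hb : g * s ∣ M) (hc : g * s' ∣ M)
    (hcop : Nat.Coprime s s') (hx : F.good x (g * s) (g * s')) (hD : 4 ≤ D)
    (hT : 8 * (4 * D ^ 8) ^ 5 ≤ T) (hgT : (g : ℝ) ≤ 2 * (T * L)) {h : ℤ}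
    (hl : |((s : ℝ) - s') * γ + h| < 1 / T) :
    Rare (upp x s * γ) (upp x s' * γ) T D (low x s) (low x s') ∨
    S2cx284.DomB (upp x s * γ) (upp x s' * γ) T D (low x s) (low x s') ∨
    UD F γ T (4 * D ^ 8) x (g * s) (g * s') ∨ UD F γ T (4 * D ^ 8) x (g * s') (g * s) ∨
    ∃ (a : ℤ) (k : ℕ) (a' : ℤ) (k' : ℕ),
      TC F γ L (2 * (4 * D ^ 8)) x (g * s) a k ∧ TC F γ L (2 * (4 * D ^ 8)) x (g * s') a' k' ∧
      gap (fr F x (g * s) a k) (fr F x (g * s') a' k') s s' h = 0 ∧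
      Labd (upp x s * γ) (upp x s' * γ) T (4 * D ^ 8) ((F.ell x (g * s') : ℕ) * a) k
        ((F.ell x (g * s) : ℕ) * a') k' (low x s) (low x s') ∧
      ¬ IsShort k k' T (upp x s * γ - ((F.ell x (g * s') : ℕ) * a : ℤ) / k)
        (upp x s' * γ - ((F.ell x (g * s) : ℕ) * a' : ℤ) / k') (low x s) (low x s') ∧
      ∃ p : ℕ, p.Prime ∧ p ≤ x ∧
        ((p ∣ s ∧ p ∣ alC (g * s) (g * s') (fr F x (g * s) a k) (fr F x (g * s') a' k')) ∨
        (p ∣ s' ∧ p ∣ alC (g * s') (g * s) (fr F x (g * s') a' k') (fr F x (g * s) a k))) := by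
  have hg0 : g * s ≠ 0 := (Nat.pos_of_dvd_of_pos hb hM).ne'
  have hg0' : g * s' ≠ 0 := (Nat.pos_of_dvd_of_pos hc hM).ne'
  have hg : 0 < g := Nat.pos_of_ne_zero fun h => hg0 (by rw [h, zero_mul])
  have hs : 0 < s := Nat.pos_of_ne_zero fun h => hg0 (by rw [h, mul_zero])
  have hs' : 0 < s' := Nat.pos_of_ne_zero fun h => hg0' (by rw [h, mul_zero])
  have hsx : s = low x s * upp x s := (low_mul_upp x hs.ne').symm
  have hsx' : s' = low x s' * upp x s' := (low_mul_upp x hs'.ne').symm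
  have hD8 : (1 : ℝ) ≤ 4 * D ^ 8 := by
    have h7 : (1 : ℝ) ≤ D ^ 8 := one_le_pow₀ (by linarith)
    linarith
  have hE0 : 0 < 4 * D ^ 8 := by linarith
  have hT0 : 0 < T := lt_of_lt_of_le (by positivity) hT
  rcases S2cx284.pair_classB hD hT hsx hsx' hs hs' hcop hl with h1 | h1 | ⟨a, k, a', k', hL, hsh, hkill⟩
  · exact Or.inl h1
  · exact Or.inr (Or.inl h1)
  right; right
  obtain ⟨hL1, hL2⟩ := hL
  rcases side hM hb hc hcop hx hT0 hE0.le hgT hL1 with h1 | ⟨a₁, ea, htc, hsf⟩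
  · exact Or.inl h1
  right
  rcases side hM hc hb hcop.symm (FL.good_symm hb hc hx) hT0 hE0.le hgT hL2 with
    h1 | ⟨a₁', ea', htc', hsf'⟩
  · exact Or.inl h1
  right
  set f := fr F x (g * s) a₁ k with hf
  set f' := fr F x (g * s') a₁' k' with hf'
  have hkQ : (k : ℚ) ≠ 0 := by exact_mod_cast htc.pos.ne'
  have hkQ' : (k' : ℚ) ≠ 0 := by exact_mod_cast htc'.pos.ne'
  -- the same point
  have htE : (4 * D ^ 8) ^ 2 * (1 + 2 * (4 * D ^ 8)) ≤ T := by
    have h2 : (4 * D ^ 8) ^ 2 * (1 + 2 * (4 * D ^ 8)) ≤ 3 * (4 * D ^ 8) ^ 3 := by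
      have : 0 < (4 * D ^ 8) ^ 2 := by positivity
      nlinarith
    have h3 : (4 * D ^ 8) ^ 3 ≤ (4 * D ^ 8) ^ 5 := pow_le_pow_right₀ hD8 (by norm_num)
    have h4 : 0 < (4 * D ^ 8) ^ 5 := by positivity
    linarith
  have hL1c := hL1
  have hL2c := hL2
  obtain ⟨_, _, hkE, hd⟩ := hL1
  obtain ⟨_, _, hkE', hd'⟩ := hL2
  have hl' : |((low x s : ℝ) * upp x s - low x s' * upp x s') * γ + h| < 1 / T := by
    have e : ((low x s : ℝ) * upp x s - low x s' * upp x s') = (s : ℝ) - s' := by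
      have e1 : (low x s : ℝ) * upp x s = s := by exact_mod_cast hsx.symm
      have e2 : (low x s' : ℝ) * upp x s' = s' := by exact_mod_cast hsx'.symm
      rw [e1, e2]
    rw [e]; exact hl
  have hz := KillS2x949.same_pt (low_pos x s) (low_pos x s') htc.pos htc'.pos hE0 htE hkE hkE' hl'
    hd hd'
  have hgap : gap f f' s s' h = 0 := by
    unfold BoostCx972.gap
    rw [hsf, hsf']
    have hzQ : (low x s : ℚ) * a * k' - low x s' * a' * k + h * (k * k') = 0 := by exact_mod_cast hz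
    field_simp
    linear_combination hzQ
  refine ⟨a₁, k, a₁', k', htc, htc', hgap, ?_, ?_, ?_⟩
  · rw [← ea, ← ea']
    exact ⟨hL1c, hL2c⟩
  · rw [← ea, ← ea']
    exact hsh
  · -- killing prime
    have hup := upp_cof hM hb hc hcop hx
    have hup' := upp_cof hM hc hb hcop.symm (FL.good_symm hb hc hx)
    -- relation between the reduced fraction and `a / (k X)`
    have frac : ∀ {b c : ℕ} {X : ℕ} {a : ℤ} {k : ℕ} {a₁ : ℤ}, 0 < k → X = F.lam x b * F.ell x c →
        a = (F.ell x c : ℕ) * a₁ → ∀ p : ℕ, p.Prime → ¬ p ∣ k * X →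
        ¬ p ∣ (fr F x b a₁ k).den ∧ ∀ c : ℤ, (p : ℤ) ∣ (fr F x b a₁ k).num +
          (fr F x b a₁ k).den * c → (p : ℤ) ∣ a + k * X * c := by
      intro b c X a k a₁ hk hX ha p hp hpk
      have hdd := fr_den_dvd (F := F) (x := x) (b := b) a₁ k
      have hnd : ¬ p ∣ (fr F x b a₁ k).den := fun hc => hpk (by
        rw [hX, ← mul_assoc]; exact (hc.trans hdd).mul_right _)
      refine ⟨hnd, fun c' hc' => ?_⟩
      have hXpos : 0 < X := by
        rw [hX]; exact Nat.mul_pos (FL.lam_pos _ _) (FL.ell_pos _ _)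
      -- `num * (k X) = a * den`
      have e1 : (fr F x b a₁ k).num * ((k : ℤ) * X) = a * (fr F x b a₁ k).den := by
        have h1 : ((fr F x b a₁ k).num : ℚ) = fr F x b a₁ k * (fr F x b a₁ k).den :=
          (Rat.mul_den_eq_num _).symm
        have h2 : ((fr F x b a₁ k).num : ℚ) * ((k : ℚ) * X) = a * (fr F x b a₁ k).den := by
          rw [h1]
          have hlQ : (F.lam x b : ℚ) ≠ 0 := by exact_mod_cast (FL.lam_pos (F := F) x b).ne'
          have hkQ : (k : ℚ) ≠ 0 := by exact_mod_cast hk.ne'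
          have e3 : fr F x b a₁ k * ((k : ℚ) * X) = a := by
            rw [hX, ha]
            unfold fr
            push_cast
            field_simp
          linear_combination ((fr F x b a₁ k).den : ℚ) * e3
        exact_mod_cast h2
      have e2 : ((fr F x b a₁ k).den : ℤ) * (a + k * X * c') =
          (k * X) * ((fr F x b a₁ k).num + (fr F x b a₁ k).den * c') := by
        linear_combination -e1
      have h3 : (p : ℤ) ∣ ((fr F x b a₁ k).den : ℤ) * (a + k * X * c') := by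
        rw [e2]; exact hc'.mul_left _
      exact ((Nat.prime_iff_prime_int.1 hp).dvd_or_dvd h3).resolve_left fun hc =>
        hnd (Int.natCast_dvd_natCast.1 hc)
    rcases hkill with ⟨p, hp, hp1, hp2, hp3, hp4⟩ | ⟨p, hp, hp1, hp2, hp3, hp4⟩
    · obtain ⟨k1, k2⟩ := frac htc.pos hup ea p hp hp3
      have hps' : p ∣ s' := hp1.trans (low_dvd_self x s')
      refine ⟨p, hp, prime_dvd_part (fun p => p ≤ x) hp hp1, Or.inr ⟨hps', ?_⟩⟩
      exact dvd_al_of_kill hg hs hs' hcop hgap hp hps' hp2 k1 fun c hc => hp4 c (k2 c hc)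
    · obtain ⟨k1, k2⟩ := frac htc'.pos hup' ea' p hp hp3
      have hps : p ∣ s := hp1.trans (low_dvd_self x s)
      refine ⟨p, hp, prime_dvd_part (fun p => p ≤ x) hp hp1, Or.inl ⟨hps, ?_⟩⟩
      exact dvd_al_of_kill' hg hs hs' hcop hgap hp hps hp2 k1 fun c hc => hp4 c (k2 c hc)

/-- **GLUE**: a linked pair, good at the cut `x`, at the scale `T`: rare box, dominant word,
unexplained deficit, or tree centres of both members at the cut `x` which are the same point,
with an explained differing prime `≤ x`. -/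
theorem pair_glue {γ T D L : ℝ} {x g s s' : ℕ} (hM : 0 < M) (hb : g * s ∣ M) (hc : g * s' ∣ M)
    (hcop : Nat.Coprime s s') (hx : F.good x (g * s) (g * s')) (hD : 4 ≤ D)
    (hT : 8 * (4 * D ^ 8) ^ 5 ≤ T) (hgT : (g : ℝ) ≤ 2 * (T * L)) {h : ℤ}
    (hl : |((s : ℝ) - s') * γ + h| < 1 / T) :
    Rare (upp x s * γ) (upp x s' * γ) T D (low x s) (low x s') ∨
    Dom (upp x s * γ) (upp x s' * γ) T (low x s) (low x s') ∨
    UD F γ T (4 * D ^ 8) x (g * s) (g * s') ∨ UD F γ T (4 * D ^ 8) x (g * s') (g * s) ∨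
    ∃ (a : ℤ) (k : ℕ) (a' : ℤ) (k' : ℕ),
      TC F γ L (2 * (4 * D ^ 8)) x (g * s) a k ∧ TC F γ L (2 * (4 * D ^ 8)) x (g * s') a' k' ∧
      gap (fr F x (g * s) a k) (fr F x (g * s') a' k') s s' h = 0 ∧
      ¬ IsShort k k' T (upp x s * γ - ((F.ell x (g * s') : ℕ) * a : ℤ) / k)
        (upp x s' * γ - ((F.ell x (g * s) : ℕ) * a' : ℤ) / k') (low x s) (low x s') ∧
      ∃ p : ℕ, p.Prime ∧ p ≤ x ∧
        ((p ∣ s ∧ p ∣ alC (g * s) (g * s') (fr F x (g * s) a k) (fr F x (g * s') a' k')) ∨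
        (p ∣ s' ∧ p ∣ alC (g * s') (g * s) (fr F x (g * s') a' k') (fr F x (g * s) a k))) := by
  rcases pair_glue2 hM hb hc hcop hx hD hT hgT hl with h1 | h1 | h1 | h1 |
    ⟨a, k, a', k', h1, h2, h3, -, h4, h5⟩
  · exact Or.inl h1
  · exact Or.inr (Or.inl h1.1)
  · exact Or.inr (Or.inr (Or.inl h1))
  · exact Or.inr (Or.inr (Or.inr (Or.inl h1)))
  · exact Or.inr (Or.inr (Or.inr (Or.inr ⟨a, k, a', k', h1, h2, h3, h4, h5⟩)))

/-- differing primes `≤ x` not dividing `k'` are explained by the tree centre of `c` -/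
lemma expl_of_not_dvd {x g s s' k' : ℕ} {f f' : ℚ} (hM : 0 < M) (hc : g * s' ∣ M) (hg : 0 < g)
    (hs : 0 < s) (hcop : Nat.Coprime s s') (hf' : IsC F x (g * s') k' f') {p : ℕ}
    (hp : p.Prime) (hpx : p ≤ x) (hps : p ∣ s') (hpk : ¬ p ∣ k') :
    p ∣ alC (g * s') (g * s) f' f := by
  refine dvd_al_of_dvd hg hs hcop hp hps fun hd => ?_
  rcases (hp.dvd_mul).1 (hd.trans hf'.2) with h1 | h1
  · exact hpk h1
  · have := (FL.prime_dvd_lam hM hc hp h1).1
    omega

/-- the common centre kills at every explained prime: an unkilled pair does not use it there -/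
theorem unkilled_ne {Fc : ℕ → ℕ → Option ℚ} {lam : ℕ → ℕ → Option ℤ} (hF : IsLab Fc lam)
    {q q' g s s' p : ℕ} {h : ℤ} {f f' : ℚ} (hg : 0 < g) (hs : 0 < s) (hs' : 0 < s')
    (hcop : Nat.Coprime s s') (h0 : gap f f' s s' h = 0) (hk : ¬ killedL lam q q' s s' h)
    (hp : p.Prime) (hpa : p ∣ alC (g * s') (g * s) f' f) : Fc q p ≠ some f :=
  fun hc => hk (killedL_of_al' hF hg hs hs' hcop h0 hp hpa hc)

theorem unkilled_ne' {Fc : ℕ → ℕ → Option ℚ} {lam : ℕ → ℕ → Option ℤ} (hF : IsLab Fc lam)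
    {q q' g s s' p : ℕ} {h : ℤ} {f f' : ℚ} (hg : 0 < g) (hs : 0 < s) (hs' : 0 < s')
    (hcop : Nat.Coprime s s') (h0 : gap f f' s s' h = 0) (hk : ¬ killedL lam q q' s s' h)
    (hp : p.Prime) (hpa : p ∣ alC (g * s) (g * s') f f') : Fc q' p ≠ some f' :=
  fun hc => hk (killedL_of_al hF hg hs hs' hcop h0 hp hpa hc)

end Crest.Agent.R4C.Pairx14
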