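import Crest.Agent.R4C.Base_935

/-!
# Row 4: the pure part of Theorem C in `L²` form (helper232)

`PureRel M R` : `R` is contained in the relation "pure pair" of some adaptive tree which reads the
primes of `M` one by one (in ANY order): at a *free* prime the exponents `v, v'` of the two members
satisfy `min v v' = 0` and either the rest is a pure pair or the rest is equal and `v ≠ v'`;
at a *branched* prime the exponents are equal, and the rest of the tree may depend on them.

Theorem `pure_energy`: for every `f ≥ 0`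

`Σ_{b,c ∣ M, R b c} gcd(b,c) ν(b) ν(c) f(b) f(c) ≤ Σ_b ν(b) f(b)² (4 - 3 b ν(b)) ≤ 4 Σ ν f²`.
-/

set_option autoImplicit false

open Finset
open Crest.Agent.R4C.Basex935

namespace Crest.Agent.R4C.PureL2x232

/-- `R` is (contained in) the pure relation of some adaptive tree on the divisors of `M` -/
inductive PureRel : ℕ → (ℕ → ℕ → Prop) → Prop
  /-- nothing is read any more, no pair -/
  | base {M : ℕ} {R : ℕ → ℕ → Prop} (h : ∀ b c, b ∣ M → c ∣ M → ¬ R b c) : PureRel M R
  /-- a free prime -/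
  | free {p a M1 : ℕ} {R R1 : ℕ → ℕ → Prop} (hp : p.Prime) (hM : 0 < M1) (hnd : ¬ p ∣ M1)
      (h1 : PureRel M1 R1)
      (h : ∀ v v' b c, v ≤ a → v' ≤ a → b ∣ M1 → c ∣ M1 → R (p ^ v * b) (p ^ v' * c) →
        min v v' = 0 ∧ (R1 b c ∨ (b = c ∧ v ≠ v'))) : PureRel (p ^ a * M1) R
  /-- a branched prime -/
  | branch {p a M1 : ℕ} {R : ℕ → ℕ → Prop} {R1 : ℕ → ℕ → ℕ → Prop} (hp : p.Prime)
      (hM : 0 < M1) (hnd : ¬ p ∣ M1) (h1 : ∀ v, v ≤ a → PureRel M1 (R1 v))
      (h : ∀ v v' b c, v ≤ a → v' ≤ a → b ∣ M1 → c ∣ M1 → R (p ^ v * b) (p ^ v' * c) →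
        v = v' ∧ R1 v b c) : PureRel (p ^ a * M1) R

lemma V_le {M b : ℕ} (hb : b ∣ M) : (b : ℝ) * nu M b ≤ 1 := by
  rcases Nat.eq_zero_or_pos M with hM | hM
  · subst hM; unfold nu; simp
  · unfold nu
    have h1 : ((M / b).totient : ℝ) ≤ ((M / b : ℕ) : ℝ) := by exact_mod_cast Nat.totient_le _
    have h2 : (b : ℝ) * ((M / b : ℕ) : ℝ) = M := by
      exact_mod_cast Nat.mul_div_cancel' hb
    have hMR : (0:ℝ) < M := by exact_mod_cast hM
    rw [mul_div_assoc', div_le_one hMR]
    calc (b:ℝ) * ((M / b).totient : ℝ) ≤ b * ((M / b : ℕ) : ℝ) :=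
          mul_le_mul_of_nonneg_left h1 (by positivity)
      _ = M := h2

lemma V_nonneg (M b : ℕ) : 0 ≤ (b : ℝ) * nu M b := mul_nonneg (by positivity) (nu_nonneg _ _)

lemma theta_le {p : ℕ} (hp : p.Prime) (a v : ℕ) (hv : v ≤ a) :
    (p:ℝ)^v * nup p a v ≤ 1 := by
  have h := nup_le hp.pos a v hv
  have hpR : (0:ℝ) < (p:ℝ)^v := by have := hp.pos; positivity
  calc (p:ℝ)^v * nup p a v ≤ (p:ℝ)^v * (1/(p:ℝ))^v := mul_le_mul_of_nonneg_left h hpR.le
    _ = 1 := by
      rw [← mul_pow, mul_one_div_cancel (by exact_mod_cast hp.ne_zero), one_pow]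

/-- the one-prime inequality behind everything (`V = 1` is the extremal case) -/
lemma one_prime {w V f0 h S : ℝ} (hw0 : 0 < w) (hw1 : w ≤ 1) (hV0 : 0 ≤ V) (hV1 : V ≤ 1)
    (hS : h^2 ≤ w * S) :
    2 * ((1 - w) * f0) * h * V + ((1 - w) * f0 + h)^2 * (4 - 3*V) ≤
      (1 - w) * f0^2 * (4 - 3 * ((1 - w) * V)) + S * (4 - 3 * V) := by
  -- write h = w f1
  set f1 := h / w with hf1
  have hh : h = w * f1 := by rw [hf1]; field_simp
  have hS' : w * f1^2 ≤ S := by
    rw [hh] at hS
    have : w * (w * f1^2) ≤ w * S := by nlinarith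
    exact le_of_mul_le_mul_left this hw0
  have h43 : 0 ≤ 4 - 3 * V := by linarith
  have key : 0 ≤ (4 - 3*V) * (f1 - f0)^2 - 2 * V * f0 * (f1 - f0) + V * f0^2 := by
    -- = 4(1-V) d² + V (d - f0)²
    have e : (4 - 3*V) * (f1 - f0)^2 - 2 * V * f0 * (f1 - f0) + V * f0^2
        = 4 * (1 - V) * (f1 - f0)^2 + V * ((f1 - f0) - f0)^2 := by ring
    rw [e]
    have : 0 ≤ 1 - V := by linarith
    positivity
  have e2 : (1 - w) * f0^2 * (4 - 3 * ((1 - w) * V)) + w * f1^2 * (4 - 3 * V)
      - (2 * ((1 - w) * f0) * h * V + ((1 - w) * f0 + h)^2 * (4 - 3*V))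
      = w * (1 - w) * ((4 - 3*V) * (f1 - f0)^2 - 2 * V * f0 * (f1 - f0) + V * f0^2) := by
    rw [hh]; ring
  have h3 : 0 ≤ w * (1 - w) := mul_nonneg hw0.le (by linarith)
  have h4 := mul_nonneg h3 key
  have h5 : w * f1^2 * (4 - 3*V) ≤ S * (4 - 3*V) := mul_le_mul_of_nonneg_right hS' h43
  linarith

lemma frm_mono {M : ℕ} {F G : ℕ → ℕ → ℝ} (h : ∀ b c, b ∣ M → c ∣ M → F b c ≤ G b c) :
    frm M F ≤ frm M G := by
  unfold frm
  refine Finset.sum_le_sum fun b hb => Finset.sum_le_sum fun c hc => ?_
  rw [Nat.mem_divisors] at hb hc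
  exact mul_le_mul_of_nonneg_left (h b c hb.1 hc.1)
    (mul_nonneg (mul_nonneg (by positivity) (nu_nonneg _ _)) (nu_nonneg _ _))

lemma frm_nonneg {M : ℕ} {F : ℕ → ℕ → ℝ} (h : ∀ b c, b ∣ M → c ∣ M → 0 ≤ F b c) :
    0 ≤ frm M F := by
  unfold frm
  refine Finset.sum_nonneg fun b hb => Finset.sum_nonneg fun c hc => ?_
  rw [Nat.mem_divisors] at hb hc
  exact mul_nonneg (mul_nonneg (mul_nonneg (by positivity) (nu_nonneg _ _)) (nu_nonneg _ _))
    (h b c hb.1 hc.1)

lemma frm_add {M : ℕ} (F G : ℕ → ℕ → ℝ) :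
    frm M (fun b c => F b c + G b c) = frm M F + frm M G := by
  unfold frm
  simp only [mul_add, Finset.sum_add_distrib]

/-- the diagonal form -/
lemma frm_diag {M : ℕ} (F : ℕ → ℕ → ℝ) :
    frm M (fun b c => if b = c then F b c else 0) =
      ∑ b ∈ M.divisors, nu M b * ((b:ℝ) * nu M b) * F b b := by
  classical
  unfold frm
  refine Finset.sum_congr rfl fun b hb => ?_
  rw [Finset.sum_eq_single b]
  · dsimp only
    rw [if_pos rfl, Nat.gcd_self]; ring
  · intro c _ hc
    dsimp only
    rw [if_neg (fun h => hc h.symm), mul_zero]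
  · intro h; exact absurd hb h

/-- law of the exponent: total mass -/
lemma sum_nup {p : ℕ} (hp : p.Prime) (a : ℕ) :
    ∑ v ∈ range (a + 1), nup p a v = 1 := by
  have h := sum_nu (M := p ^ a) (pow_pos hp.pos a)
  rw [Nat.sum_divisors_prime_pow hp] at h
  rw [← h]
  refine Finset.sum_congr rfl fun v hv => ?_
  rw [Finset.mem_range] at hv
  rw [nu_prime_pow hp (by omega)]

lemma frm_sum {M : ℕ} (s : Finset ℕ) (F : ℕ → ℕ → ℕ → ℝ) :
    frm M (fun b c => ∑ i ∈ s, F i b c) = ∑ i ∈ s, frm M (F i) := by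
  unfold frm
  simp only [Finset.mul_sum]
  rw [Finset.sum_comm]
  rw [Finset.sum_comm]
  calc ∑ b ∈ M.divisors, ∑ c ∈ M.divisors, ∑ i ∈ s, (Nat.gcd b c : ℝ) * nu M b * nu M c * F i b c
      = ∑ b ∈ M.divisors, ∑ i ∈ s, ∑ c ∈ M.divisors,
          (Nat.gcd b c : ℝ) * nu M b * nu M c * F i b c :=
        Finset.sum_congr rfl fun b _ => Finset.sum_comm
    _ = _ := Finset.sum_comm

lemma frm_smul {M : ℕ} (w : ℝ) (F : ℕ → ℕ → ℝ) :
    frm M (fun b c => w * F b c) = w * frm M F := by
  unfold frm
  simp only [Finset.mul_sum]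
  refine Finset.sum_congr rfl fun b _ => Finset.sum_congr rfl fun c _ => by ring

open Classical in
lemma frm_avg {M1 : ℕ} (s : Finset ℕ) (w : ℕ → ℝ) (g : ℕ → ℕ → ℝ) (R1 : ℕ → ℕ → Prop) :
    ∑ v ∈ s, ∑ v' ∈ s, w v * w v' *
      frm M1 (fun b c => if R1 b c then g v b * g v' c else 0) =
    frm M1 (fun b c => if R1 b c then (∑ v ∈ s, w v * g v b) * (∑ v' ∈ s, w v' * g v' c)
      else 0) := by
  have e : (fun b c => if R1 b c then (∑ v ∈ s, w v * g v b) * (∑ v' ∈ s, w v' * g v' c) else 0)
      = fun b c => ∑ v ∈ s, (fun b c => ∑ v' ∈ s, (fun b c => (w v * w v') *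
        (if R1 b c then g v b * g v' c else 0)) b c) b c := by
    funext b c
    dsimp only
    split_ifs with h
    · rw [Finset.sum_mul_sum]
      refine Finset.sum_congr rfl fun v _ => Finset.sum_congr rfl fun v' _ => by ring
    · simp
  rw [e]
  rw [frm_sum s (fun v b c => ∑ v' ∈ s, (w v * w v') * (if R1 b c then g v b * g v' c else 0))]
  refine Finset.sum_congr rfl fun v _ => ?_
  rw [frm_sum s (fun v' b c => (w v * w v') * (if R1 b c then g v b * g v' c else 0))]
  refine Finset.sum_congr rfl fun v' _ => ?_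
  rw [frm_smul]

lemma sum_offdiag (a : ℕ) (F : ℕ → ℕ → ℝ) :
    ∑ v ∈ range (a + 1), ∑ v' ∈ range (a + 1), (if v ≠ v' ∧ min v v' = 0 then F v v' else 0) =
      ∑ v ∈ Finset.Ico 1 (a+1), F 0 v + ∑ v ∈ Finset.Ico 1 (a+1), F v 0 := by
  have hr : range (a+1) = insert 0 (Finset.Ico 1 (a+1)) := by
    ext x; simp only [Finset.mem_range, Finset.mem_insert, Finset.mem_Ico]; omega
  have h0 : (0:ℕ) ∉ Finset.Ico 1 (a+1) := by simp
  rw [hr, Finset.sum_insert h0, Finset.sum_insert h0]
  congr 1
  · rw [if_neg (by simp), zero_add]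
    refine Finset.sum_congr rfl fun v hv => ?_
    rw [Finset.mem_Ico] at hv
    rw [if_pos]
    exact ⟨by omega, by omega⟩
  · refine Finset.sum_congr rfl fun v hv => ?_
    rw [Finset.mem_Ico] at hv
    rw [Finset.sum_insert h0, if_pos ⟨by omega, by omega⟩]
    have : ∑ x ∈ Finset.Ico 1 (a+1), (if v ≠ x ∧ min v x = 0 then F v x else 0) = 0 := by
      refine Finset.sum_eq_zero fun x hx => ?_
      rw [Finset.mem_Ico] at hx
      rw [if_neg]
      omega
    rw [this, add_zero]

open Classical in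
/-- **PURE PART OF THEOREM C, `L²` form**: the energy of the pure pairs against any `f ≥ 0` -/
theorem pure_energy {M : ℕ} {R : ℕ → ℕ → Prop} (hR : PureRel M R) :
    ∀ f : ℕ → ℝ, (∀ b, 0 ≤ f b) →
      frm M (fun b c => if R b c then f b * f c else 0) ≤
        ∑ b ∈ M.divisors, nu M b * (f b ^ 2 * (4 - 3 * ((b:ℝ) * nu M b))) := by
  induction hR with
  | @base M R h =>
    intro f hf
    have h0 : frm M (fun b c => if R b c then f b * f c else 0) ≤ frm M (fun _ _ => 0) :=
      frm_mono (fun b c hb hc => by rw [if_neg (h b c hb hc)])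
    refine h0.trans ?_
    have e : frm M (fun _ _ => (0:ℝ)) = 0 := by unfold frm; simp
    rw [e]
    refine Finset.sum_nonneg fun b hb => ?_
    rw [Nat.mem_divisors] at hb
    have h1 := V_le hb.1
    exact mul_nonneg (nu_nonneg _ _) (mul_nonneg (sq_nonneg _) (by linarith))
  | @branch p a M1 R R1 hp hM hnd h1 h ih =>
    intro f hf
    rw [frm_split hp a hM hnd, sum_split hp a hM hnd]
    refine Finset.sum_le_sum fun v hv => ?_
    rw [Finset.mem_range] at hv
    have hva : v ≤ a := by omega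
    have hcop : Nat.Coprime (p ^ a) M1 :=
      Nat.Coprime.pow_left a ((Nat.Prime.coprime_iff_not_dvd hp).2 hnd)
    -- only v' = v
    have hle : ∑ v' ∈ range (a + 1), (p : ℝ) ^ (min v v') * nup p a v * nup p a v' *
        frm M1 (fun b c => if R (p ^ v * b) (p ^ v' * c) then f (p ^ v * b) * f (p ^ v' * c) else 0)
        ≤ (p:ℝ)^v * nup p a v * nup p a v *
          frm M1 (fun b c => if R1 v b c then f (p ^ v * b) * f (p ^ v * c) else 0) := by
      rw [← Finset.sum_subset (s₁ := {v})]
      · rw [Finset.sum_singleton, min_self]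
        refine mul_le_mul_of_nonneg_left ?_ (mul_nonneg (mul_nonneg (by positivity)
          (nup_nonneg hp.pos _ _)) (nup_nonneg hp.pos _ _))
        refine frm_mono fun b c hb hc => ?_
        split_ifs with h2 h3 h3
        · exact le_rfl
        · exact absurd (h v v b c hva hva hb hc h2).2 h3
        · exact mul_nonneg (hf _) (hf _)
        · exact le_rfl
      · intro x hx; rw [Finset.mem_singleton] at hx; rw [hx]; exact Finset.mem_range.2 hv
      · intro v' hv' hne
        rw [Finset.mem_range] at hv'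
        rw [Finset.mem_singleton] at hne
        have e : frm M1 (fun b c => if R (p ^ v * b) (p ^ v' * c) then
            f (p ^ v * b) * f (p ^ v' * c) else 0) = 0 := by
          unfold frm
          refine Finset.sum_eq_zero fun b hb => Finset.sum_eq_zero fun c hc => ?_
          rw [Nat.mem_divisors] at hb hc
          dsimp only
          rw [if_neg, mul_zero]
          intro h2
          exact hne (h v v' b c hva (by omega) hb.1 hc.1 h2).1.symm
        rw [e, mul_zero]
    refine hle.trans ?_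
    have ih1 := ih v hva (fun b => f (p ^ v * b)) (fun b => hf _)
    have hθ := theta_le hp a v hva
    have hn := nup_nonneg hp.pos a v
    have hθ0 : 0 ≤ (p:ℝ)^v * nup p a v := mul_nonneg (by positivity) hn
    calc (p:ℝ)^v * nup p a v * nup p a v *
          frm M1 (fun b c => if R1 v b c then f (p ^ v * b) * f (p ^ v * c) else 0)
        ≤ (p:ℝ)^v * nup p a v * nup p a v *
          ∑ b ∈ M1.divisors, nu M1 b * (f (p ^ v * b) ^ 2 * (4 - 3 * ((b:ℝ) * nu M1 b))) :=
          mul_le_mul_of_nonneg_left ih1 (mul_nonneg hθ0 hn)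
      _ ≤ _ := by
        rw [Finset.mul_sum]
        refine Finset.sum_le_sum fun b hb => ?_
        rw [Nat.mem_divisors] at hb
        rw [nu_mul hcop (pow_dvd_pow p hva) hb.1, nu_prime_pow hp hva]
        have hV1 := V_le hb.1
        have hV0 := V_nonneg M1 b
        have hνb := nu_nonneg M1 b
        push_cast
        have e1 : (p:ℝ)^v * nup p a v * nup p a v *
            (nu M1 b * (f (p ^ v * b) ^ 2 * (4 - 3 * ((b:ℝ) * nu M1 b))))
            = (nup p a v * nu M1 b * f (p ^ v * b) ^ 2) *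
              (((p:ℝ)^v * nup p a v) * (4 - 3 * ((b:ℝ) * nu M1 b))) := by ring
        have e2 : nup p a v * nu M1 b * (f (p ^ v * b) ^ 2 *
            (4 - 3 * ((p:ℝ) ^ v * (b:ℝ) * (nup p a v * nu M1 b))))
            = (nup p a v * nu M1 b * f (p ^ v * b) ^ 2) *
              (4 - 3 * (((p:ℝ)^v * nup p a v) * ((b:ℝ) * nu M1 b))) := by ring
        rw [e1, e2]
        refine mul_le_mul_of_nonneg_left ?_ (mul_nonneg (mul_nonneg hn hνb) (sq_nonneg _))
        nlinarith
  | @free p a M1 R R1 hp hM hnd h1 h ih =>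
    intro f hf
    have hcop : Nat.Coprime (p ^ a) M1 :=
      Nat.Coprime.pow_left a ((Nat.Prime.coprime_iff_not_dvd hp).2 hnd)
    have hnn : ∀ v, 0 ≤ nup p a v := fun v => nup_nonneg hp.pos a v
    set fb : ℕ → ℝ := fun b => ∑ v ∈ range (a + 1), nup p a v * f (p ^ v * b) with hfb
    have hfb0 : ∀ b, 0 ≤ fb b := fun b => Finset.sum_nonneg fun v _ => mul_nonneg (hnn v) (hf _)
    -- the two pieces
    have hsplit : frm (p ^ a * M1) (fun b c => if R b c then f b * f c else 0) ≤
        frm M1 (fun b c => if R1 b c then fb b * fb c else 0) +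
        ∑ b ∈ M1.divisors, nu M1 b * ((b:ℝ) * nu M1 b) *
          (2 * (nup p a 0 * f (p^0 * b)) * ∑ v ∈ Finset.Ico 1 (a+1), nup p a v * f (p ^ v * b)) := by
      -- pointwise domination
      have hdom : frm (p ^ a * M1) (fun b c => if R b c then f b * f c else 0) ≤
          ∑ v ∈ range (a + 1), ∑ v' ∈ range (a + 1), (nup p a v * nup p a v' *
            frm M1 (fun b c => if R1 b c then f (p ^ v * b) * f (p ^ v' * c) else 0)
            + (if v ≠ v' ∧ min v v' = 0 then nup p a v * nup p a v' * frm M1 (fun b c =>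
              if b = c then f (p ^ v * b) * f (p ^ v' * c) else 0) else 0)) := by
        rw [frm_split hp a hM hnd]
        refine Finset.sum_le_sum fun v hv => Finset.sum_le_sum fun v' hv' => ?_
        rw [Finset.mem_range] at hv hv'
        have hnn2 : 0 ≤ nup p a v * nup p a v' := mul_nonneg (hnn v) (hnn v')
        by_cases hmin : min v v' = 0
        · rw [hmin, pow_zero, one_mul]
          by_cases hvv : v = v'
          · rw [if_neg (fun hc => hc.1 hvv), add_zero]
            refine mul_le_mul_of_nonneg_left (frm_mono fun b c hb hc => ?_) hnn2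
            split_ifs with h2 h3 h3
            · exact le_rfl
            · rcases (h v v' b c (by omega) (by omega) hb hc h2).2 with h4 | h4
              · exact absurd h4 h3
              · exact absurd hvv h4.2
            · exact mul_nonneg (hf _) (hf _)
            · exact le_rfl
          · rw [if_pos ⟨hvv, rfl⟩, ← mul_add, ← frm_add]
            refine mul_le_mul_of_nonneg_left (frm_mono fun b c hb hc => ?_) hnn2
            have h5 : 0 ≤ f (p ^ v * b) * f (p ^ v' * c) := mul_nonneg (hf _) (hf _)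
            by_cases h2 : R (p ^ v * b) (p ^ v' * c)
            · rw [if_pos h2]
              rcases (h v v' b c (by omega) (by omega) hb hc h2).2 with h4 | h4
              · rw [if_pos h4]
                have : (0:ℝ) ≤ if b = c then f (p ^ v * b) * f (p ^ v' * c) else 0 := by
                  split_ifs <;> [exact h5; exact le_rfl]
                linarith
              · rw [if_pos h4.1]
                have : (0:ℝ) ≤ if R1 b c then f (p ^ v * b) * f (p ^ v' * c) else 0 := by
                  split_ifs <;> [exact h5; exact le_rfl]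
                linarith
            · rw [if_neg h2]
              refine add_nonneg ?_ ?_ <;> split_ifs <;> first | exact h5 | exact le_rfl
        · rw [if_neg (fun hc => hmin hc.2), add_zero]
          have e : frm M1 (fun b c => if R (p ^ v * b) (p ^ v' * c) then
            f (p ^ v * b) * f (p ^ v' * c) else 0) = 0 := by
            unfold frm
            refine Finset.sum_eq_zero fun b hb => Finset.sum_eq_zero fun c hc => ?_
            rw [Nat.mem_divisors] at hb hc
            dsimp only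
            rw [if_neg, mul_zero]
            intro h2
            exact hmin (h v v' b c (by omega) (by omega) hb.1 hc.1 h2).1
          rw [e, mul_zero]
          refine mul_nonneg hnn2 (frm_nonneg fun b c _ _ => ?_)
          split_ifs
          · exact mul_nonneg (hf _) (hf _)
          · exact le_rfl
      refine hdom.trans (le_of_eq ?_)
      simp only [Finset.sum_add_distrib]
      congr 1
      · -- the averaged form
        exact frm_avg (range (a+1)) (nup p a) (fun v b => f (p ^ v * b)) R1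
      · rw [sum_offdiag a (fun v v' => nup p a v * nup p a v' * frm M1 (fun b c =>
              if b = c then f (p ^ v * b) * f (p ^ v' * c) else 0))]
        simp only [frm_diag (fun b c => f (p ^ _ * b) * f (p ^ _ * c)), Finset.mul_sum]
        rw [Finset.sum_comm, Finset.sum_comm (s := Finset.Ico 1 (a+1)), ← Finset.sum_add_distrib]
        refine Finset.sum_congr rfl fun b _ => ?_
        rw [← Finset.sum_add_distrib]
        refine Finset.sum_congr rfl fun v _ => by ring
    have ih1 := ih fb hfb0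
    refine hsplit.trans ((add_le_add_left ih1 _).trans ?_)
    rw [sum_split hp a hM hnd, Finset.sum_comm, ← Finset.sum_add_distrib]
    refine Finset.sum_le_sum fun b hb => ?_
    rw [Nat.mem_divisors] at hb
    have hνb := nu_nonneg M1 b
    have hV1 := V_le hb.1
    have hV0 := V_nonneg M1 b
    set V := (b:ℝ) * nu M1 b with hV
    have hr : range (a+1) = insert 0 (Finset.Ico 1 (a+1)) := by
      ext x; simp only [Finset.mem_range, Finset.mem_insert, Finset.mem_Ico]; omega
    have h0 : (0:ℕ) ∉ Finset.Ico 1 (a+1) := by simp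
    set H := ∑ v ∈ Finset.Ico 1 (a+1), nup p a v * f (p ^ v * b) with hH
    set S := ∑ v ∈ Finset.Ico 1 (a+1), nup p a v * f (p ^ v * b)^2 with hS
    set w := ∑ v ∈ Finset.Ico 1 (a+1), nup p a v with hw
    have hfbb : fb b = nup p a 0 * f (p^0 * b) + H := by
      simp only [hfb]; rw [hr, Finset.sum_insert h0]
    have hw1 : nup p a 0 + w = 1 := by
      have := sum_nup hp a
      rw [hr, Finset.sum_insert h0] at this
      exact this
    have hw0 : 0 ≤ w := Finset.sum_nonneg fun v _ => hnn v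
    have hCS : H^2 ≤ w * S := by
      have := Finset.sum_sq_le_sum_mul_sum_of_sq_eq_mul (Finset.Ico 1 (a+1))
        (f := fun v => nup p a v) (g := fun v => nup p a v * f (p ^ v * b)^2)
        (r := fun v => nup p a v * f (p ^ v * b)) (fun v _ => hnn v)
        (fun v _ => mul_nonneg (hnn v) (sq_nonneg _)) (fun v _ => by ring)
      exact this
    -- the right side
    have hrhs : nu M1 b * ((1 - w) * f (p^0*b)^2 * (4 - 3 * ((1 - w) * V)) + S * (4 - 3*V)) ≤
        ∑ v ∈ range (a + 1), nu (p ^ a * M1) (p ^ v * b) * (f (p ^ v * b) ^ 2 *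
          (4 - 3 * (((p ^ v * b : ℕ) : ℝ) * nu (p ^ a * M1) (p ^ v * b)))) := by
      rw [hr, Finset.sum_insert h0, mul_add]
      refine add_le_add (le_of_eq ?_) ?_
      · rw [nu_mul hcop (pow_dvd_pow p (Nat.zero_le a)) hb.1, nu_prime_pow hp (Nat.zero_le a)]
        have e0 : nup p a 0 = 1 - w := by linarith
        rw [e0, hV]; push_cast; ring
      · rw [hS, Finset.sum_mul, Finset.mul_sum]
        refine Finset.sum_le_sum fun v hv => ?_
        rw [Finset.mem_Ico] at hv
        have hva : v ≤ a := by omega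
        rw [nu_mul hcop (pow_dvd_pow p hva) hb.1, nu_prime_pow hp hva]
        have hθ := theta_le hp a v hva
        push_cast
        have e2 : nup p a v * nu M1 b * (f (p ^ v * b) ^ 2 *
            (4 - 3 * ((p:ℝ) ^ v * (b:ℝ) * (nup p a v * nu M1 b))))
            = (nup p a v * nu M1 b * f (p ^ v * b) ^ 2) *
              (4 - 3 * (((p:ℝ)^v * nup p a v) * V)) := by rw [hV]; ring
        have e1 : nu M1 b * (nup p a v * f (p ^ v * b) ^ 2 * (4 - 3 * V))
            = (nup p a v * nu M1 b * f (p ^ v * b) ^ 2) * (4 - 3 * V) := by ring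
        rw [e1, e2]
        refine mul_le_mul_of_nonneg_left ?_ (mul_nonneg (mul_nonneg (hnn v) hνb) (sq_nonneg _))
        nlinarith
    refine le_trans ?_ hrhs
    have hlhs : nu M1 b * (fb b ^ 2 * (4 - 3 * V)) + nu M1 b * V *
        (2 * (nup p a 0 * f (p ^ 0 * b)) * H) = nu M1 b * (2 * ((1 - w) * f (p^0*b)) * H * V +
          ((1 - w) * f (p^0*b) + H)^2 * (4 - 3*V)) := by
      rw [hfbb, show nup p a 0 = 1 - w by linarith]; ring
    rw [hlhs]
    refine mul_le_mul_of_nonneg_left ?_ hνb
    rcases hw0.eq_or_lt with h00 | hpos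
    · -- w = 0
      have hH0 : H = 0 := by
        rw [← h00, zero_mul] at hCS
        exact pow_eq_zero_iff (two_ne_zero) |>.1 (le_antisymm hCS (sq_nonneg _))
      rw [← h00, hH0]
      have hS0 : 0 ≤ S := Finset.sum_nonneg fun v _ => mul_nonneg (hnn v) (sq_nonneg _)
      have : 0 ≤ S * (4 - 3 * V) := mul_nonneg hS0 (by linarith)
      nlinarith
    · exact one_prime hpos (by linarith [hnn 0]) hV0 hV1 hCS

open Classical in
/-- the convenient form with the constant 4 -/
theorem pure_energy' {M : ℕ} {R : ℕ → ℕ → Prop} (hR : PureRel M R)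
    (f : ℕ → ℝ) (hf : ∀ b, 0 ≤ f b) :
    frm M (fun b c => if R b c then f b * f c else 0) ≤
      4 * ∑ b ∈ M.divisors, nu M b * f b ^ 2 := by
  refine (pure_energy hR f hf).trans ?_
  rw [Finset.mul_sum]
  refine Finset.sum_le_sum fun b _ => ?_
  have h1 := V_nonneg M b
  have h2 := nu_nonneg M b
  have h3 : 0 ≤ nu M b * f b^2 := mul_nonneg h2 (sq_nonneg _)
  nlinarith

open Classical in
/-- bilinear form -/
theorem pure_energy_bilin {M : ℕ} {R : ℕ → ℕ → Prop} (hR : PureRel M R)
    (f g : ℕ → ℝ) (hf : ∀ b, 0 ≤ f b) (hg : ∀ b, 0 ≤ g b) {x : ℝ} (hx : 0 < x) :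
    frm M (fun b c => if R b c then f b * g c else 0) ≤
      8 * (x * ∑ b ∈ M.divisors, nu M b * f b ^ 2 + x⁻¹ * ∑ b ∈ M.divisors, nu M b * g b ^ 2) := by
  have hsx : 0 < Real.sqrt x := Real.sqrt_pos.2 hx
  set y := Real.sqrt x with hy
  have hyy : y * y = x := Real.mul_self_sqrt hx.le
  set h : ℕ → ℝ := fun b => y * f b + y⁻¹ * g b with hh
  have hh0 : ∀ b, 0 ≤ h b := fun b => add_nonneg (mul_nonneg hsx.le (hf b))
    (mul_nonneg (inv_nonneg.2 hsx.le) (hg b))
  have h1 : frm M (fun b c => if R b c then f b * g c else 0) ≤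
      frm M (fun b c => if R b c then h b * h c else 0) := by
    refine frm_mono fun b c _ _ => ?_
    split_ifs
    · simp only [hh]
      have e : (y * f b + y⁻¹ * g b) * (y * f c + y⁻¹ * g c)
          = f b * g c + (y * y * (f b * f c) + g b * f c + y⁻¹ * y⁻¹ * (g b * g c)) := by
        field_simp; ring
      rw [e]
      have a1 := mul_nonneg (hf b) (hf c)
      have a2 := mul_nonneg (hg b) (hf c)
      have a3 := mul_nonneg (hg b) (hg c)
      have : 0 ≤ y * y * (f b * f c) + g b * f c + y⁻¹ * y⁻¹ * (g b * g c) := by positivity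
      linarith
    · exact le_rfl
  refine h1.trans ((pure_energy' hR h hh0).trans ?_)
  rw [Finset.mul_sum, Finset.mul_sum, Finset.mul_sum, ← Finset.sum_add_distrib, Finset.mul_sum]
  refine Finset.sum_le_sum fun b _ => ?_
  have h2 := nu_nonneg M b
  have h3 : h b ^ 2 ≤ 2 * (x * f b^2 + x⁻¹ * g b^2) := by
    simp only [hh]
    have e : x⁻¹ = y⁻¹ * y⁻¹ := by rw [← hyy, mul_inv]
    rw [e, ← hyy]
    nlinarith [sq_nonneg (y * f b - y⁻¹ * g b)]
  have h4 := mul_le_mul_of_nonneg_left h3 h2
  calc 4 * (nu M b * h b ^ 2) ≤ 4 * (nu M b * (2 * (x * f b^2 + x⁻¹ * g b^2))) := by linarith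
    _ = 8 * (x * (nu M b * f b ^ 2) + x⁻¹ * (nu M b * g b ^ 2)) := by ring

end Crest.Agent.R4C.PureL2x232
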