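import Crest.Agent.R4C.PureL2_232

/-!
# Row 4: the pure part of Theorem C in `L²` form, general centres (helper232)

Extension of `PureL2_232`: a passive prime may have any centre `v0` (0 = free, a = forced):
`min (v, v') = v0`.
-/

set_option autoImplicit false

open Finset
open Crest.Agent.R4C.Basex935

namespace Crest.Agent.R4C.PureL2x232

/-- the law of the exponent given `v ≥ v0` is natural again -/
lemma nup_shift {p : ℕ} (a v0 j : ℕ) (hv0 : v0 ≤ a) :
    nup p a (v0 + j) = (1 / (p:ℝ)) ^ v0 * nup p (a - v0) j := by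
  unfold nup
  by_cases h : v0 + j < a
  · rw [if_pos h, if_pos (by omega), pow_add]; ring
  · rw [if_neg h, if_neg (by omega), ← pow_add]
    congr 1; omega

open Classical in
/-- the one-prime step at a passive prime (free form) -/
lemma free_core {p : ℕ} (hp : p.Prime) (a : ℕ) {M1 : ℕ} {R1 : ℕ → ℕ → Prop}
    (ih : ∀ f : ℕ → ℝ, (∀ b, 0 ≤ f b) →
      frm M1 (fun b c => if R1 b c then f b * f c else 0) ≤
        ∑ b ∈ M1.divisors, nu M1 b * (f b ^ 2 * (4 - 3 * ((b:ℝ) * nu M1 b))))
    (F : ℕ → ℕ → ℝ) (hF : ∀ v b, 0 ≤ F v b) :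
    (∑ v ∈ range (a + 1), ∑ v' ∈ range (a + 1), (nup p a v * nup p a v' *
            frm M1 (fun b c => if R1 b c then F v b * F v' c else 0)
            + (if v ≠ v' ∧ min v v' = 0 then nup p a v * nup p a v' * frm M1 (fun b c =>
              if b = c then F v b * F v' c else 0) else 0))) ≤
    ∑ v ∈ range (a + 1), ∑ b ∈ M1.divisors, nup p a v * nu M1 b * (F v b ^ 2 *
          (4 - 3 * ((p:ℝ)^v * nup p a v * ((b:ℝ) * nu M1 b)))) := by
  have hnn : ∀ v, 0 ≤ nup p a v := fun v => nup_nonneg hp.pos a v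
  set fb : ℕ → ℝ := fun b => ∑ v ∈ range (a + 1), nup p a v * F v b with hfb
  have hfb0 : ∀ b, 0 ≤ fb b := fun b => Finset.sum_nonneg fun v _ => mul_nonneg (hnn v) (hF _ _)
  have hsplit : (∑ v ∈ range (a + 1), ∑ v' ∈ range (a + 1), (nup p a v * nup p a v' *
            frm M1 (fun b c => if R1 b c then F v b * F v' c else 0)
            + (if v ≠ v' ∧ min v v' = 0 then nup p a v * nup p a v' * frm M1 (fun b c =>
              if b = c then F v b * F v' c else 0) else 0))) =
      frm M1 (fun b c => if R1 b c then fb b * fb c else 0) +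
      ∑ b ∈ M1.divisors, nu M1 b * ((b:ℝ) * nu M1 b) *
        (2 * (nup p a 0 * F 0 b) * ∑ v ∈ Finset.Ico 1 (a+1), nup p a v * F v b) := by
    simp only [Finset.sum_add_distrib]
    congr 1
    · exact frm_avg (range (a+1)) (nup p a) F R1
    · rw [sum_offdiag a (fun v v' => nup p a v * nup p a v' * frm M1 (fun b c =>
            if b = c then F v b * F v' c else 0))]
      simp only [frm_diag (fun b c => F _ b * F _ c), Finset.mul_sum]
      rw [Finset.sum_comm, Finset.sum_comm (s := Finset.Ico 1 (a+1)), ← Finset.sum_add_distrib]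
      refine Finset.sum_congr rfl fun b _ => ?_
      rw [← Finset.sum_add_distrib]
      refine Finset.sum_congr rfl fun v _ => by ring
  have ih1 := ih fb hfb0
  rw [hsplit]
  refine (add_le_add_left ih1 _).trans ?_
  rw [Finset.sum_comm, ← Finset.sum_add_distrib]
  refine Finset.sum_le_sum fun b hb => ?_
  rw [Nat.mem_divisors] at hb
  have hνb := nu_nonneg M1 b
  have hV1 := V_le hb.1
  have hV0 := V_nonneg M1 b
  set V := (b:ℝ) * nu M1 b with hV
  have hr : range (a+1) = insert 0 (Finset.Ico 1 (a+1)) := by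
    ext x; simp only [Finset.mem_range, Finset.mem_insert, Finset.mem_Ico]; omega
  have h0 : (0:ℕ) ∉ Finset.Ico 1 (a+1) := by simp
  set H := ∑ v ∈ Finset.Ico 1 (a+1), nup p a v * F v b with hH
  set S := ∑ v ∈ Finset.Ico 1 (a+1), nup p a v * F v b^2 with hS
  set w := ∑ v ∈ Finset.Ico 1 (a+1), nup p a v with hw
  have hfbb : fb b = nup p a 0 * F 0 b + H := by
    simp only [hfb]; rw [hr, Finset.sum_insert h0]
  have hw1 : nup p a 0 + w = 1 := by
    have := sum_nup hp a
    rw [hr, Finset.sum_insert h0] at this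
    exact this
  have hw0 : 0 ≤ w := Finset.sum_nonneg fun v _ => hnn v
  have hCS : H^2 ≤ w * S := by
    refine Finset.sum_sq_le_sum_mul_sum_of_sq_le_mul (Finset.Ico 1 (a+1))
      (f := fun v => nup p a v) (g := fun v => nup p a v * F v b^2)
      (r := fun v => nup p a v * F v b) (fun v _ => hnn v)
      (fun v _ => mul_nonneg (hnn v) (sq_nonneg _)) (fun v _ => le_of_eq (by ring))
  -- the right side
  have hrhs : nu M1 b * ((1 - w) * F 0 b^2 * (4 - 3 * ((1 - w) * V)) + S * (4 - 3*V)) ≤
      ∑ v ∈ range (a + 1), nup p a v * nu M1 b * (F v b ^ 2 *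
        (4 - 3 * ((p:ℝ)^v * nup p a v * V))) := by
    rw [hr, Finset.sum_insert h0, mul_add]
    refine add_le_add (le_of_eq ?_) ?_
    · have e0 : nup p a 0 = 1 - w := by linarith
      rw [e0]; ring
    · rw [hS, Finset.sum_mul, Finset.mul_sum]
      refine Finset.sum_le_sum fun v hv => ?_
      rw [Finset.mem_Ico] at hv
      have hva : v ≤ a := by omega
      have hθ := theta_le hp a v hva
      have e2 : nup p a v * nu M1 b * (F v b ^ 2 *
          (4 - 3 * ((p:ℝ) ^ v * nup p a v * V)))
          = (nup p a v * nu M1 b * F v b ^ 2) *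
            (4 - 3 * (((p:ℝ)^v * nup p a v) * V)) := by ring
      have e1 : nu M1 b * (nup p a v * F v b ^ 2 * (4 - 3 * V))
          = (nup p a v * nu M1 b * F v b ^ 2) * (4 - 3 * V) := by ring
      rw [e1, e2]
      refine mul_le_mul_of_nonneg_left ?_ (mul_nonneg (mul_nonneg (hnn v) hνb) (sq_nonneg _))
      nlinarith
  refine le_trans ?_ hrhs
  have hlhs : nu M1 b * (fb b ^ 2 * (4 - 3 * V)) + nu M1 b * V *
      (2 * (nup p a 0 * F 0 b) * H) = nu M1 b * (2 * ((1 - w) * F 0 b) * H * V +
        ((1 - w) * F 0 b + H)^2 * (4 - 3*V)) := by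
    rw [hfbb, show nup p a 0 = 1 - w by linarith]; ring
  rw [hlhs]
  refine mul_le_mul_of_nonneg_left ?_ hνb
  rcases hw0.eq_or_lt with h00 | hpos
  · -- w = 0
    have hH0 : H = 0 := by
      rw [← h00, zero_mul] at hCS
      exact pow_eq_zero_iff (two_ne_zero) |>.1 (le_antisymm hCS (sq_nonneg _))
    rw [← h00, hH0]
    have hS0 : 0 ≤ S := Finset.sum_nonneg fun v _ => mul_nonneg (hnn v) (sq_nonneg _)
    have : 0 ≤ S * (4 - 3 * V) := mul_nonneg hS0 (by linarith)
    nlinarith
  · exact one_prime hpos (by linarith [hnn 0]) hV0 hV1 hCS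

/-- `R` is (contained in) the pure relation of some adaptive tree on the divisors of `M`;
passive primes have an arbitrary centre `v0` (`cent`). -/
inductive PureRelC : ℕ → (ℕ → ℕ → Prop) → Prop
  /-- nothing is read any more, no pair -/
  | base {M : ℕ} {R : ℕ → ℕ → Prop} (h : ∀ b c, b ∣ M → c ∣ M → ¬ R b c) : PureRelC M R
  /-- a passive prime with centre `v0` -/
  | cent {p a M1 : ℕ} {R R1 : ℕ → ℕ → Prop} (v0 : ℕ) (hp : p.Prime) (hM : 0 < M1)
      (hnd : ¬ p ∣ M1) (hv0 : v0 ≤ a) (h1 : PureRelC M1 R1)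
      (h : ∀ v v' b c, v ≤ a → v' ≤ a → b ∣ M1 → c ∣ M1 → R (p ^ v * b) (p ^ v' * c) →
        min v v' = v0 ∧ (R1 b c ∨ (b = c ∧ v ≠ v'))) : PureRelC (p ^ a * M1) R
  /-- a branched prime -/
  | branch {p a M1 : ℕ} {R : ℕ → ℕ → Prop} {R1 : ℕ → ℕ → ℕ → Prop} (hp : p.Prime)
      (hM : 0 < M1) (hnd : ¬ p ∣ M1) (h1 : ∀ v, v ≤ a → PureRelC M1 (R1 v))
      (h : ∀ v v' b c, v ≤ a → v' ≤ a → b ∣ M1 → c ∣ M1 → R (p ^ v * b) (p ^ v' * c) →
        v = v' ∧ R1 v b c) : PureRelC (p ^ a * M1) R

lemma sum_shift {a v0 : ℕ} (h : v0 ≤ a) (G : ℕ → ℝ) (hG : ∀ v, v < v0 → G v = 0) :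
    ∑ v ∈ range (a + 1), G v = ∑ j ∈ range (a - v0 + 1), G (v0 + j) := by
  have e : a + 1 = v0 + (a - v0 + 1) := by omega
  rw [e, Finset.sum_range_add]
  rw [Finset.sum_eq_zero (fun v hv => hG v (Finset.mem_range.1 hv)), zero_add]

lemma sum_shift_le {a v0 : ℕ} (h : v0 ≤ a) (G : ℕ → ℝ) (hG : ∀ v, 0 ≤ G v) :
    ∑ j ∈ range (a - v0 + 1), G (v0 + j) ≤ ∑ v ∈ range (a + 1), G v := by
  have e : a + 1 = v0 + (a - v0 + 1) := by omega
  have h2 : ∑ v ∈ range (a + 1), G v =
      ∑ v ∈ range v0, G v + ∑ j ∈ range (a - v0 + 1), G (v0 + j) := by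
    conv_lhs => rw [e]
    exact Finset.sum_range_add G v0 (a - v0 + 1)
  have := Finset.sum_nonneg (s := range v0) (fun v _ => hG v)
  rw [h2]
  linarith

open Classical in
/-- **PURE PART OF THEOREM C, `L²` form, general centres** -/
theorem pure_energyC {M : ℕ} {R : ℕ → ℕ → Prop} (hR : PureRelC M R) :
    ∀ f : ℕ → ℝ, (∀ b, 0 ≤ f b) →
      frm M (fun b c => if R b c then f b * f c else 0) ≤
        ∑ b ∈ M.divisors, nu M b * (f b ^ 2 * (4 - 3 * ((b:ℝ) * nu M b))) := by
  induction hR with
  | @base M R h =>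
    intro f hf
    exact pure_energy (PureRel.base h) f hf
  | @branch p a M1 R R1 hp hM hnd h1 h ih =>
    intro f hf
    rw [frm_split hp a hM hnd, sum_split hp a hM hnd]
    refine Finset.sum_le_sum fun v hv => ?_
    rw [Finset.mem_range] at hv
    have hva : v ≤ a := by omega
    have hcop : Nat.Coprime (p ^ a) M1 :=
      Nat.Coprime.pow_left a ((Nat.Prime.coprime_iff_not_dvd hp).2 hnd)
    -- only v' = v
    have hle : ∑ v' ∈ range (a + 1), (p : ℝ) ^ (min v v') * nup p a v * nup p a v' *
        frm M1 (fun b c => if R (p ^ v * b) (p ^ v' * c) then f (p ^ v * b) * f (p ^ v' * c) else 0)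
        ≤ (p:ℝ)^v * nup p a v * nup p a v *
          frm M1 (fun b c => if R1 v b c then f (p ^ v * b) * f (p ^ v * c) else 0) := by
      rw [← Finset.sum_subset (s₁ := {v})]
      · rw [Finset.sum_singleton, min_self]
        refine mul_le_mul_of_nonneg_left ?_ (mul_nonneg (mul_nonneg (by positivity)
          (nup_nonneg hp.pos _ _)) (nup_nonneg hp.pos _ _))
        refine frm_mono fun b c hb hc => ?_
        split_ifs with h2 h3 h3
        · exact le_rfl
        · exact absurd (h v v b c hva hva hb hc h2).2 h3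
        · exact mul_nonneg (hf _) (hf _)
        · exact le_rfl
      · intro x hx; rw [Finset.mem_singleton] at hx; rw [hx]; exact Finset.mem_range.2 hv
      · intro v' hv' hne
        rw [Finset.mem_range] at hv'
        rw [Finset.mem_singleton] at hne
        have e : frm M1 (fun b c => if R (p ^ v * b) (p ^ v' * c) then
            f (p ^ v * b) * f (p ^ v' * c) else 0) = 0 := by
          unfold frm
          refine Finset.sum_eq_zero fun b hb => Finset.sum_eq_zero fun c hc => ?_
          rw [Nat.mem_divisors] at hb hc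
          dsimp only
          rw [if_neg, mul_zero]
          intro h2
          exact hne (h v v' b c hva (by omega) hb.1 hc.1 h2).1.symm
        rw [e, mul_zero]
    refine hle.trans ?_
    have ih1 := ih v hva (fun b => f (p ^ v * b)) (fun b => hf _)
    have hθ := theta_le hp a v hva
    have hn := nup_nonneg hp.pos a v
    have hθ0 : 0 ≤ (p:ℝ)^v * nup p a v := mul_nonneg (by positivity) hn
    calc (p:ℝ)^v * nup p a v * nup p a v *
          frm M1 (fun b c => if R1 v b c then f (p ^ v * b) * f (p ^ v * c) else 0)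
        ≤ (p:ℝ)^v * nup p a v * nup p a v *
          ∑ b ∈ M1.divisors, nu M1 b * (f (p ^ v * b) ^ 2 * (4 - 3 * ((b:ℝ) * nu M1 b))) :=
          mul_le_mul_of_nonneg_left ih1 (mul_nonneg hθ0 hn)
      _ ≤ _ := by
        rw [Finset.mul_sum]
        refine Finset.sum_le_sum fun b hb => ?_
        rw [Nat.mem_divisors] at hb
        rw [nu_mul hcop (pow_dvd_pow p hva) hb.1, nu_prime_pow hp hva]
        have hV1 := V_le hb.1
        have hV0 := V_nonneg M1 b
        have hνb := nu_nonneg M1 b
        push_cast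
        have e1 : (p:ℝ)^v * nup p a v * nup p a v *
            (nu M1 b * (f (p ^ v * b) ^ 2 * (4 - 3 * ((b:ℝ) * nu M1 b))))
            = (nup p a v * nu M1 b * f (p ^ v * b) ^ 2) *
              (((p:ℝ)^v * nup p a v) * (4 - 3 * ((b:ℝ) * nu M1 b))) := by ring
        have e2 : nup p a v * nu M1 b * (f (p ^ v * b) ^ 2 *
            (4 - 3 * ((p:ℝ) ^ v * (b:ℝ) * (nup p a v * nu M1 b))))
            = (nup p a v * nu M1 b * f (p ^ v * b) ^ 2) *
              (4 - 3 * (((p:ℝ)^v * nup p a v) * ((b:ℝ) * nu M1 b))) := by ring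
        rw [e1, e2]
        refine mul_le_mul_of_nonneg_left ?_ (mul_nonneg (mul_nonneg hn hνb) (sq_nonneg _))
        nlinarith
  | @cent p a M1 R R1 v0 hp hM hnd hv0 h1 h ih =>
    intro f hf
    have hcop : Nat.Coprime (p ^ a) M1 :=
      Nat.Coprime.pow_left a ((Nat.Prime.coprime_iff_not_dvd hp).2 hnd)
    have hpR : (0:ℝ) < p := by exact_mod_cast hp.pos
    set π : ℝ := (1/(p:ℝ))^v0 with hπ
    have hπ0 : 0 < π := by positivity
    have hpp : (p:ℝ)^v0 * π = 1 := by
      rw [hπ, ← mul_pow, mul_one_div_cancel hpR.ne', one_pow]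
    set F : ℕ → ℕ → ℝ := fun j b => f (p ^ (v0 + j) * b) with hF
    have hF0 : ∀ j b, 0 ≤ F j b := fun j b => hf _
    have hnn : ∀ v, 0 ≤ nup p (a - v0) v := fun v => nup_nonneg hp.pos _ v
    -- vanishing
    have hvan : ∀ v v', v ≤ a → v' ≤ a → min v v' ≠ v0 →
        frm M1 (fun b c => if R (p ^ v * b) (p ^ v' * c) then
            f (p ^ v * b) * f (p ^ v' * c) else 0) = 0 := by
      intro v v' hv hv' hne
      unfold frm
      refine Finset.sum_eq_zero fun b hb => Finset.sum_eq_zero fun c hc => ?_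
      rw [Nat.mem_divisors] at hb hc
      dsimp only
      rw [if_neg, mul_zero]
      intro h2
      exact hne (h v v' b c hv hv' hb.1 hc.1 h2).1
    have hLHS : frm (p ^ a * M1) (fun b c => if R b c then f b * f c else 0) ≤
        π * ∑ j ∈ range (a - v0 + 1), ∑ j' ∈ range (a - v0 + 1),
          (nup p (a - v0) j * nup p (a - v0) j' *
            frm M1 (fun b c => if R1 b c then F j b * F j' c else 0)
            + (if j ≠ j' ∧ min j j' = 0 then nup p (a - v0) j * nup p (a - v0) j' *
              frm M1 (fun b c => if b = c then F j b * F j' c else 0) else 0)) := by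
      rw [frm_split hp a hM hnd]
      rw [Finset.sum_congr rfl (fun v hv => sum_shift hv0 _ (fun v' hv' => by
        rw [Finset.mem_range] at hv
        rw [hvan v v' (by omega) (by omega) (by omega), mul_zero]))]
      rw [sum_shift hv0 _ (fun v hv => Finset.sum_eq_zero fun j hj => by
        rw [Finset.mem_range] at hj
        rw [hvan v (v0+j) (by omega) (by omega) (by omega), mul_zero])]
      rw [Finset.mul_sum]
      refine Finset.sum_le_sum fun j hj => ?_
      rw [Finset.mul_sum]
      refine Finset.sum_le_sum fun j' hj' => ?_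
      rw [Finset.mem_range] at hj hj'
      have hnn2 : 0 ≤ nup p (a - v0) j * nup p (a - v0) j' := mul_nonneg (hnn j) (hnn j')
      rw [nup_shift a v0 j hv0, nup_shift a v0 j' hv0]
      by_cases hmin : min j j' = 0
      · have hm : min (v0 + j) (v0 + j') = v0 := by omega
        rw [hm]
        have e : (p:ℝ)^v0 * ((1/(p:ℝ))^v0 * nup p (a - v0) j) *
            ((1/(p:ℝ))^v0 * nup p (a - v0) j') = π * (nup p (a - v0) j * nup p (a - v0) j') := by
          rw [← hπ]
          calc (p:ℝ)^v0 * (π * nup p (a - v0) j) * (π * nup p (a - v0) j')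
              = ((p:ℝ)^v0 * π) * (π * (nup p (a - v0) j * nup p (a - v0) j')) := by ring
            _ = _ := by rw [hpp, one_mul]
        rw [e, mul_assoc]
        refine mul_le_mul_of_nonneg_left ?_ hπ0.le
        by_cases hjj : j = j'
        · rw [if_neg (fun hc => hc.1 hjj), add_zero]
          refine mul_le_mul_of_nonneg_left (frm_mono fun b c hb hc => ?_) hnn2
          split_ifs with h2 h3 h3
          · exact le_rfl
          · rcases (h _ _ b c (by omega) (by omega) hb hc h2).2 with h4 | h4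
            · exact absurd h4 h3
            · exact absurd (by rw [hjj]) h4.2
          · exact mul_nonneg (hf _) (hf _)
          · exact le_rfl
        · rw [if_pos ⟨hjj, hmin⟩, ← mul_add, ← frm_add]
          refine mul_le_mul_of_nonneg_left (frm_mono fun b c hb hc => ?_) hnn2
          have h5 : 0 ≤ F j b * F j' c := mul_nonneg (hF0 _ _) (hF0 _ _)
          by_cases h2 : R (p ^ (v0 + j) * b) (p ^ (v0 + j') * c)
          · rw [if_pos h2]
            rcases (h _ _ b c (by omega) (by omega) hb hc h2).2 with h4 | h4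
            · rw [if_pos h4]
              have : (0:ℝ) ≤ if b = c then F j b * F j' c else 0 := by
                split_ifs <;> [exact h5; exact le_rfl]
              simp only [hF] at this ⊢
              linarith
            · rw [if_pos h4.1]
              have : (0:ℝ) ≤ if R1 b c then F j b * F j' c else 0 := by
                split_ifs <;> [exact h5; exact le_rfl]
              simp only [hF] at this ⊢
              linarith
          · rw [if_neg h2]
            refine add_nonneg ?_ ?_ <;> split_ifs <;> first | exact h5 | exact le_rfl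
      · rw [hvan (v0+j) (v0+j') (by omega) (by omega) (by omega), mul_zero]
        rw [if_neg (fun hc => hmin hc.2), add_zero]
        refine mul_nonneg hπ0.le (mul_nonneg hnn2 (frm_nonneg fun b c _ _ => ?_))
        split_ifs
        · exact mul_nonneg (hF0 _ _) (hF0 _ _)
        · exact le_rfl
    refine hLHS.trans ((mul_le_mul_of_nonneg_left (free_core hp (a - v0) ih F hF0) hπ0.le).trans ?_)
    rw [sum_split hp a hM hnd]
    have hVp : ∀ v b, v ≤ a → b ∣ M1 → 0 ≤ nu (p ^ a * M1) (p ^ v * b) * (f (p ^ v * b) ^ 2 *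
        (4 - 3 * (((p ^ v * b : ℕ) : ℝ) * nu (p ^ a * M1) (p ^ v * b)))) := by
      intro v b hv hb
      have hd : p ^ v * b ∣ p ^ a * M1 := Nat.mul_dvd_mul (pow_dvd_pow p hv) hb
      have h1 := V_le hd
      exact mul_nonneg (nu_nonneg _ _) (mul_nonneg (sq_nonneg _) (by linarith))
    have hsh := sum_shift_le hv0 (fun v => if v ≤ a then
      ∑ b ∈ M1.divisors, nu (p ^ a * M1) (p ^ v * b) * (f (p ^ v * b) ^ 2 *
        (4 - 3 * (((p ^ v * b : ℕ) : ℝ) * nu (p ^ a * M1) (p ^ v * b)))) else 0) (fun v => by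
          split_ifs with hv
          · refine Finset.sum_nonneg fun b hb => ?_
            rw [Nat.mem_divisors] at hb
            exact hVp v b hv hb.1
          · exact le_rfl)
    have e2 : ∑ v ∈ range (a + 1), (if v ≤ a then
      ∑ b ∈ M1.divisors, nu (p ^ a * M1) (p ^ v * b) * (f (p ^ v * b) ^ 2 *
        (4 - 3 * (((p ^ v * b : ℕ) : ℝ) * nu (p ^ a * M1) (p ^ v * b)))) else 0) =
        ∑ v ∈ range (a + 1), ∑ b ∈ M1.divisors, nu (p ^ a * M1) (p ^ v * b) *
          (f (p ^ v * b) ^ 2 *
        (4 - 3 * (((p ^ v * b : ℕ) : ℝ) * nu (p ^ a * M1) (p ^ v * b)))) := by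
      refine Finset.sum_congr rfl fun v hv => ?_
      rw [Finset.mem_range] at hv
      rw [if_pos (by omega)]
    rw [e2] at hsh
    refine le_trans (le_of_eq ?_) hsh
    rw [Finset.mul_sum]
    refine Finset.sum_congr rfl fun j hj => ?_
    rw [Finset.mem_range] at hj
    rw [if_pos (by omega), Finset.mul_sum]
    refine Finset.sum_congr rfl fun b hb => ?_
    rw [Nat.mem_divisors] at hb
    rw [nu_mul hcop (pow_dvd_pow p (by omega)) hb.1, nu_prime_pow hp (by omega),
      nup_shift a v0 j hv0]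
    push_cast
    rw [← hπ]
    have e3 : (p:ℝ)^(v0+j) * (b:ℝ) * (π * nup p (a - v0) j * nu M1 b) =
        (p:ℝ)^j * nup p (a - v0) j * ((b:ℝ) * nu M1 b) := by
      rw [pow_add]
      calc (p:ℝ)^v0 * (p:ℝ)^j * (b:ℝ) * (π * nup p (a - v0) j * nu M1 b)
          = ((p:ℝ)^v0 * π) * ((p:ℝ)^j * nup p (a - v0) j * ((b:ℝ) * nu M1 b)) := by ring
        _ = _ := by rw [hpp, one_mul]
    rw [e3]
    simp only [hF]
    ring

open Classical in
/-- the convenient form with the constant 4 -/
theorem pure_energyC' {M : ℕ} {R : ℕ → ℕ → Prop} (hR : PureRelC M R)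
    (f : ℕ → ℝ) (hf : ∀ b, 0 ≤ f b) :
    frm M (fun b c => if R b c then f b * f c else 0) ≤
      4 * ∑ b ∈ M.divisors, nu M b * f b ^ 2 := by
  refine (pure_energyC hR f hf).trans ?_
  rw [Finset.mul_sum]
  refine Finset.sum_le_sum fun b _ => ?_
  have h1 := V_nonneg M b
  have h2 := nu_nonneg M b
  have h3 : 0 ≤ nu M b * f b^2 := mul_nonneg h2 (sq_nonneg _)
  nlinarith

end Crest.Agent.R4C.PureL2x232
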