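import Crest.Agent.R4C.RareFLb_208
import Crest.Agent.R4C.NonPureFL_559

/-!
# LEMMA III-R (helper208): FL-coupled rare relations on the deficit

(935 3246 (3), 208 3284, 578 3290.)  `rare_fl` : `F : FL M`, cut `x`; good pairs `(b, c)` whose
partner's deficit `ell x c` lies in a set `R b` of relative density `≤ ρ` on every dyadic class, and
whose low words differ by at most `2^n`: energy in the window `[X, 2X)`
`≤ C (n+1)^2 X^(2κ-1) ρ^(1-κ) (Σ ν f)^κ (Σ ν g)^κ`, any `1/2 < κ < 1`, general `M`, no property of `F`.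
-/

set_option autoImplicit false
set_option linter.unusedSectionVars false

namespace Crest.Agent.R4C.RareFLx208

open Finset
open Crest.Agent.R4C.Basex935 Crest.Agent.R4C.Cutx50 Crest.Agent.R4C.FLDefx935
open Crest.Agent.R4C.NonPurex559 (lvl cf cl gcd_lvl mass_mult cf_mul cf_pos cf_dvd)
open Crest.Agent.R4C.NonPureFLx559 (Ps wd lab lab_eq of_lab_eq class_mem class_sum wd_dvd Hc
  fact_Hc Hc_dvd mul_nu_le not_ps)

open Classical

variable {M : ℕ} {F : FL M}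

lemma part_upp {x : ℕ} {S : ℕ → Prop} (hS : ∀ p, S p → x < p) (M : ℕ) :
    part S (upp x M) = part S M := by
  refine Nat.eq_of_factorization_eq (part_ne _ _) (part_ne _ _) fun p => ?_
  rw [fact_part, fact_part, fact_upp]
  by_cases h : S p
  · rw [if_pos h, if_pos h, if_pos (by have := hS p h; omega)]
  · rw [if_neg h, if_neg h]

section cls

variable {x T0 z u : ℕ} (hM : 0 < M) (hT0 : T0 ∣ upp x M)

include hM hT0

lemma T0_dvd : T0 ∣ M := hT0.trans (upp_dvd_self x M)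

lemma w_dvd : wd F x T0 ∣ part (fun p => ¬ Ps F x T0 p) (upp x M) :=
  part_dvd _ (upp_pos x M).ne' hT0

lemma z_dvd (hz : z ∣ part (Ps F x T0) M) : z ∣ part (Ps F x T0) (upp x M) := by
  rw [part_upp (fun p hp => hp.1) M]; exact hz

lemma zw_dvd (hz : z ∣ part (Ps F x T0) M) : z * wd F x T0 ∣ upp x M := by
  rw [← part_mul (Ps F x T0) (upp_pos x M).ne']
  exact Nat.mul_dvd_mul (z_dvd hM hT0 hz) (w_dvd hM hT0)

lemma uzw_dvd (hz : z ∣ part (Ps F x T0) M) (hu : u ∣ low x M) : u * (z * wd F x T0) ∣ M := by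
  conv_rhs => rw [← low_mul_upp x hM.ne']
  exact Nat.mul_dvd_mul hu (zw_dvd hM hT0 hz)

lemma fact_uzw (hz : z ∣ part (Ps F x T0) M) (hu : u ∣ low x M) (p : ℕ) (hp : x < p) :
    (u * (z * wd F x T0)).factorization p = (z * wd F x T0).factorization p := by
  have h1 : u ≠ 0 := fun hc => (low_pos x M).ne' (Nat.eq_zero_of_zero_dvd (hc ▸ hu))
  have h2 : z * wd F x T0 ≠ 0 := fun hc =>
    (upp_pos x M).ne' (Nat.eq_zero_of_zero_dvd (hc ▸ zw_dvd hM hT0 hz))
  rw [Nat.factorization_mul h1 h2, Finsupp.add_apply,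
    fact_zero_of_dvd_part (fun p => p ≤ x) (M := M) hu (by omega), zero_add]

lemma same_uzw (hz : z ∣ part (Ps F x T0) M) (hu : u ∣ low x M) :
    F.same x T0 (u * (z * wd F x T0)) := by
  intro q hq hx hn
  rw [fact_uzw hM hT0 hz hu q hx]
  exact (class_mem hM.ne' (T0_dvd hM hT0) hz).2.2 q hq hx hn

lemma fact_uzw_ps (hz : z ∣ part (Ps F x T0) M) (hu : u ∣ low x M) (p : ℕ) (hp : Ps F x T0 p) :
    (u * (z * wd F x T0)).factorization p = z.factorization p := by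
  rw [fact_uzw hM hT0 hz hu p hp.1]
  have h1 : z ≠ 0 := fun hc => part_ne (Ps F x T0) M (Nat.eq_zero_of_zero_dvd (hc ▸ hz))
  have h2 : wd F x T0 ≠ 0 := part_ne _ _
  rw [Nat.factorization_mul h1 h2, Finsupp.add_apply,
    fact_zero_of_dvd_part (fun p => ¬ Ps F x T0 p) (w_dvd hM hT0) (not_not.2 hp), add_zero]

/-- the deficit word of `u z w` -/
lemma ell_uzw (hz : z ∣ part (Ps F x T0) M) (hu : u ∣ low x M) :
    F.ell x (u * (z * wd F x T0)) = cf (Hc F x T0) z := by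
  have hT0M := T0_dvd hM hT0
  have hz0 : z ≠ 0 := fun hc => part_ne (Ps F x T0) M (Nat.eq_zero_of_zero_dvd (hc ▸ hz))
  have hHd : Hc F x T0 ∣ M := (Hc_dvd hM.ne' hT0M).trans (part_dvd_self _ _)
  have hH0 : Hc F x T0 ≠ 0 := part_ne _ _
  have hbM := uzw_dvd hM hT0 hz hu
  have hsame := same_uzw hM hT0 hz hu
  refine Nat.eq_of_factorization_eq (FL.ell_pos _ _).ne' (cf_pos (Nat.pos_of_ne_zero hH0)).ne'
    fun p => ?_
  have e2 : (cf (Hc F x T0) z).factorization p = (Hc F x T0).factorization p - z.factorization p := by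
    unfold cf
    rw [Nat.factorization_div (Nat.gcd_dvd_left _ _), Finsupp.tsub_apply,
      Nat.factorization_gcd hH0 hz0, Finsupp.inf_apply]
    omega
  rw [e2, FL.fact_ell]
  by_cases hpm : p ∈ M.primeFactors
  · rw [if_pos hpm]
    have hpp := Nat.prime_of_mem_primeFactors hpm
    unfold FL.ellE
    by_cases hx : x < p
    · rw [if_pos hx, ← FL.ctr_eq hT0M hbM hsame hpp hx.le]
      cases hv : F.ctr T0 p with
      | none =>
        have : ¬ Ps F x T0 p := by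
          rintro ⟨_, v, h⟩
          rw [hv] at h; cases h
        unfold Hc
        rw [fact_part, if_neg this]
        simp
      | some v =>
        simp only
        rw [fact_Hc hpm hx hv, fact_uzw_ps hM hT0 hz hu p ⟨hx, v, hv⟩]
    · rw [if_neg hx]
      have : ¬ Ps F x T0 p := fun h => hx h.1
      unfold Hc
      rw [fact_part, if_neg this]
      simp
  · rw [if_neg hpm, FL.fact_zero hM hHd hpm]
    simp

end cls

/-- one term -/
noncomputable def tm (F : FL M) (x n : ℕ) (X : ℝ) (R : ℕ → ℕ → Prop) (f g : ℕ → ℝ)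
    (b c : ℕ) : ℝ :=
  if X ≤ (Nat.gcd b c : ℝ) ∧ (Nat.gcd b c : ℝ) < 2 * X ∧ F.good x b c ∧ R b (F.ell x c) ∧
      low x b ≤ 2 ^ n * Nat.gcd (low x b) (low x c) ∧
      low x c ≤ 2 ^ n * Nat.gcd (low x b) (low x c) then
    (Nat.gcd b c : ℝ) * nu M b * nu M c * (f b * g c) else 0

/-- functions on the cell -/
noncomputable def fc (F : FL M) (x T0 : ℕ) (f : ℕ → ℝ) (u z : ℕ) : ℝ :=
  if u ∣ low x M ∧ z ∣ part (Ps F x T0) M then f (u * (z * wd F x T0)) else 0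

lemma nu_uzw {x T0 z u : ℕ} (hM : 0 < M) (hT0 : T0 ∣ upp x M) (hz : z ∣ part (Ps F x T0) M)
    (hu : u ∣ low x M) : nu M (u * (z * wd F x T0)) = nu (low x M) u *
      (nu (part (Ps F x T0) M) z * nu (part (fun p => ¬ Ps F x T0 p) (upp x M)) (wd F x T0)) := by
  rw [nu_low_upp hM hu (zw_dvd hM hT0 hz),
    nu_cut (Ps F x T0) (upp_pos x M) (z_dvd hM hT0 hz) (w_dvd hM hT0),
    part_upp (fun p hp => hp.1) M]

lemma tm_le_tq {x n T0 z u z' u' : ℕ} {X : ℝ} {R : ℕ → ℕ → Prop} {f g : ℕ → ℝ}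
    (hM : 0 < M) (hT0 : T0 ∣ upp x M) (hf : ∀ b, 0 ≤ f b) (hg : ∀ b, 0 ≤ g b)
    (hz : z ∣ part (Ps F x T0) M)
    (hu : u ∣ low x M) (hz' : z' ∣ part (Ps F x T0) M) (hu' : u' ∣ low x M) :
    tm F x n X R f g (u * (z * wd F x T0)) (u' * (z' * wd F x T0)) ≤
      ((wd F x T0 : ℝ) * nu (part (fun p => ¬ Ps F x T0 p) (upp x M)) (wd F x T0) *
        nu (part (fun p => ¬ Ps F x T0 p) (upp x M)) (wd F x T0)) *
      tq (low x M) (part (Ps F x T0) M) (Hc F x T0) n (X / wd F x T0)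
        (fun u z l => R (u * (z * wd F x T0)) l) (fc F x T0 f) (fc F x T0 g) z z' u u' := by
  set w := wd F x T0 with hw
  set M2 := part (fun p => ¬ Ps F x T0 p) (upp x M) with hM2
  set M1 := part (Ps F x T0) M with hM1
  have hT0M := T0_dvd hM hT0
  have hw0 : 0 < w := part_pos _ _
  have hwR : (0:ℝ) < w := by exact_mod_cast hw0
  have hbM := uzw_dvd hM hT0 hz hu
  have hcM := uzw_dvd hM hT0 hz' hu'
  rw [← hw] at hbM hcM
  have hsb := same_uzw hM hT0 hz hu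
  have hsc := same_uzw hM hT0 hz' hu'
  rw [← hw] at hsb hsc
  have hg1 : Nat.gcd (u * (z * w)) (u' * (z' * w)) = Nat.gcd u u' * (Nat.gcd z z' * w) := by
    have h1 := gcd_cut (fun p => p ≤ x) (M := M) (M' := M) (n := u) (n' := u') (T := z * w)
      (T' := z' * w) hu (zw_dvd hM hT0 hz) hu' (zw_dvd hM hT0 hz')
    rw [h1, gcd_cut (Ps F x T0) (M := upp x M) (M' := upp x M) (z_dvd hM hT0 hz) (w_dvd hM hT0)
      (z_dvd hM hT0 hz') (w_dvd hM hT0), Nat.gcd_self]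
  have hg2 : (Nat.gcd (u * (z * w)) (u' * (z' * w)) : ℝ) =
      ((Nat.gcd u u' : ℝ) * (Nat.gcd z z' : ℝ)) * w := by
    rw [hg1]; push_cast; ring
  have hlb : low x (u * (z * w)) = u := low_of_mul hu (zw_dvd hM hT0 hz)
  have hlc : low x (u' * (z' * w)) = u' := low_of_mul hu' (zw_dvd hM hT0 hz')
  have hcoef : 0 ≤ (w : ℝ) * nu M2 w * nu M2 w :=
    mul_nonneg (mul_nonneg hwR.le (nu_nonneg _ _)) (nu_nonneg _ _)
  have hfb : fc F x T0 f u z = f (u * (z * w)) := by unfold fc; rw [if_pos ⟨hu, hz⟩]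
  have hgc : fc F x T0 g u' z' = g (u' * (z' * w)) := by unfold fc; rw [if_pos ⟨hu', hz'⟩]
  unfold tm tq
  rw [hlb, hlc, hfb, hgc]
  by_cases h : X ≤ (Nat.gcd (u * (z * w)) (u' * (z' * w)) : ℝ) ∧
      (Nat.gcd (u * (z * w)) (u' * (z' * w)) : ℝ) < 2 * X ∧ F.good x (u * (z * w)) (u' * (z' * w)) ∧
      R (u * (z * w)) (F.ell x (u' * (z' * w))) ∧ u ≤ 2 ^ n * Nat.gcd u u' ∧
      u' ≤ 2 ^ n * Nat.gcd u u'
  · rw [if_pos h]
    obtain ⟨h1, h2, h3, h4, h5, h6⟩ := h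
    rw [if_pos]
    · rw [hg2, nu_uzw hM hT0 hz hu, nu_uzw hM hT0 hz' hu']
      refine le_of_eq ?_
      ring
    · refine ⟨?_, ?_, ?_, ?_, h5, h6⟩
      · rw [div_le_iff₀ hwR, ← hg2]; exact h1
      · rw [show 2 * (X / (w:ℝ)) = 2 * X / w by ring, lt_div_iff₀ hwR, ← hg2]; exact h2
      · intro p hp
        have hpp := Nat.prime_of_mem_primeFactors hp
        have hpd := Nat.dvd_of_mem_primeFactors hp
        have hSp : Ps F x T0 p := prime_dvd_part _ hpp hpd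
        have hpm : p ∈ M.primeFactors := by
          rw [Nat.mem_primeFactors]
          exact ⟨hpp, hpd.trans (part_dvd_self _ _), hM.ne'⟩
        obtain ⟨hx, v, hv⟩ := hSp
        have hSp : Ps F x T0 p := ⟨hx, v, hv⟩
        rw [fact_Hc hpm hx hv]
        have h7 := h3.2 p hpp hx v (by rw [← FL.ctr_eq hT0M hbM hsb hpp hx.le]; exact hv)
        rw [fact_uzw_ps hM hT0 hz hu p hSp, fact_uzw_ps hM hT0 hz' hu' p hSp] at h7
        exact h7
      · rw [ell_uzw hM hT0 hz' hu'] at h4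
        exact h4
  · rw [if_neg h]
    refine mul_nonneg hcoef ?_
    split_ifs
    · exact mul_nonneg (mul_nonneg (by positivity) (mul_nonneg (mul_nonneg (nu_nonneg _ _)
        (nu_nonneg _ _)) (mul_nonneg (nu_nonneg _ _) (nu_nonneg _ _))))
        (mul_nonneg (hf _) (hg _))
    · exact le_rfl


/-- mass of the cell -/
lemma cell_mass {x T0 : ℕ} (hM : 0 < M) (hT0 : T0 ∣ upp x M) (f : ℕ → ℝ) :
    ∑ T ∈ M.divisors.filter (fun b => lab F x b = lab F x T0),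
      nu (upp x M) T * ∑ u ∈ (low x M).divisors, nu (low x M) u * f (u * T) =
    nu (part (fun p => ¬ Ps F x T0 p) (upp x M)) (wd F x T0) *
      ∑ z ∈ (part (Ps F x T0) M).divisors, nu (part (Ps F x T0) M) z *
        ∑ u ∈ (low x M).divisors, nu (low x M) u * fc F x T0 f u z := by
  rw [class_sum hM.ne' (T0_dvd hM hT0), Finset.mul_sum]
  refine Finset.sum_congr rfl fun z hz => ?_
  have hz := Nat.dvd_of_mem_divisors hz
  rw [nu_cut (Ps F x T0) (upp_pos x M) (z_dvd hM hT0 hz) (w_dvd hM hT0),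
    part_upp (fun p hp => hp.1) M]
  have e : ∑ u ∈ (low x M).divisors, nu (low x M) u * fc F x T0 f u z =
      ∑ u ∈ (low x M).divisors, nu (low x M) u * f (u * (z * wd F x T0)) := by
    refine Finset.sum_congr rfl fun u hu => ?_
    unfold fc
    rw [if_pos ⟨Nat.dvd_of_mem_divisors hu, hz⟩]
  rw [e]
  ring

/-- the classes of upper words -/
lemma upp_class {x T0 : ℕ} (hM : 0 < M) (hT0 : T0 ∣ upp x M) :
    (upp x M).divisors.filter (fun T => lab F x T = lab F x T0) =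
      M.divisors.filter (fun b => lab F x b = lab F x T0) := by
  have hlow : ∀ T, T ∣ upp x M → low x T = 1 := by
    intro T hT
    have h := low_of_mul (x := x) (n := 1) (T := T) (M := M) (M' := M) (one_dvd _) hT
    rwa [one_mul] at h
  ext b
  rw [Finset.mem_filter, Finset.mem_filter, Nat.mem_divisors, Nat.mem_divisors]
  constructor
  · rintro ⟨⟨h1, _⟩, h3⟩
    exact ⟨⟨h1.trans (upp_dvd_self x M), hM.ne'⟩, h3⟩
  · rintro ⟨⟨h1, _⟩, h3⟩
    refine ⟨⟨?_, (upp_pos x M).ne'⟩, h3⟩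
    have h4 := (of_lab_eq hM.ne' h1 (T0_dvd hM hT0) h3).1
    rw [hlow T0 hT0] at h4
    have hb0 : b ≠ 0 := fun hc => hM.ne' (Nat.eq_zero_of_zero_dvd (hc ▸ h1))
    have h5 := low_mul_upp x hb0
    rw [h4, one_mul] at h5
    rw [← h5]
    exact upp_dvd x hM.ne' h1

/-- powers of `w` and `ν` -/
lemma fin_arith {κ C ρ X w ν A B : ℝ} (hκ1 : κ < 1) (hC0 : 0 ≤ C) (hρ0 : 0 ≤ ρ)
    (hX : 0 < X) (hwR : 0 < w) (hνp : 0 < ν) (h1 : w * ν ≤ 1) (hA0 : 0 ≤ A) (hB0 : 0 ≤ B)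
    (n : ℕ) :
    (w * ν * ν) * (64 * C * (n + 1) ^ 2 * ((X / w) ^ (2 * κ - 1) * ρ ^ (1 - κ)) *
      (A ^ κ * B ^ κ)) ≤ 64 * C * (n + 1) ^ 2 * (X ^ (2 * κ - 1) * ρ ^ (1 - κ)) *
        ((ν * A) ^ κ * (ν * B) ^ κ) := by
  have hν0 := hνp.le
  have hAκ : 0 ≤ A ^ κ := Real.rpow_nonneg hA0 _
  have hBκ : 0 ≤ B ^ κ := Real.rpow_nonneg hB0 _
  have hρκ : 0 ≤ ρ ^ (1 - κ) := Real.rpow_nonneg hρ0 _
  have hXκ : 0 ≤ X ^ (2 * κ - 1) := Real.rpow_nonneg hX.le _
  rw [Real.mul_rpow hν0 hA0, Real.mul_rpow hν0 hB0, Real.div_rpow hX.le hwR.le]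
  have hkey : (w * ν * ν) / w ^ (2 * κ - 1) ≤ ν ^ κ * ν ^ κ := by
    rw [div_le_iff₀ (Real.rpow_pos_of_pos hwR _)]
    have e1 : w * ν * ν = (w * ν) ^ (2 - 2 * κ) * (ν ^ κ * ν ^ κ * w ^ (2 * κ - 1)) := by
      rw [Real.mul_rpow hwR.le hν0]
      have e2 : w = w ^ (2 - 2 * κ) * w ^ (2 * κ - 1) := by
        rw [← Real.rpow_add hwR, show 2 - 2 * κ + (2 * κ - 1) = (1:ℝ) by ring, Real.rpow_one]
      have e3 : ν * ν = ν ^ (2 - 2 * κ) * (ν ^ κ * ν ^ κ) := by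
        rw [← Real.rpow_add hνp, ← Real.rpow_add hνp,
          show 2 - 2 * κ + (κ + κ) = (2:ℝ) by ring, Real.rpow_two]
        ring
      calc w * ν * ν = w * (ν * ν) := by ring
        _ = (w ^ (2 - 2 * κ) * w ^ (2 * κ - 1)) * (ν ^ (2 - 2 * κ) * (ν ^ κ * ν ^ κ)) := by
            rw [← e2, ← e3]
        _ = _ := by ring
    rw [e1]
    have h2 : (w * ν) ^ (2 - 2 * κ) ≤ 1 :=
      Real.rpow_le_one (mul_nonneg hwR.le hν0) h1 (by linarith)
    have h3 : 0 ≤ ν ^ κ * ν ^ κ * w ^ (2 * κ - 1) :=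
      mul_nonneg (mul_nonneg (Real.rpow_nonneg hν0 _) (Real.rpow_nonneg hν0 _))
        (Real.rpow_nonneg hwR.le _)
    exact mul_le_of_le_one_left h3 h2
  have hrest : 0 ≤ 64 * C * (n + 1) ^ 2 * (X ^ (2 * κ - 1) * ρ ^ (1 - κ)) * (A ^ κ * B ^ κ) := by
    positivity
  calc (w * ν * ν) * (64 * C * (n + 1) ^ 2 *
        (X ^ (2 * κ - 1) / w ^ (2 * κ - 1) * ρ ^ (1 - κ)) * (A ^ κ * B ^ κ))
      = ((w * ν * ν) / w ^ (2 * κ - 1)) *
        (64 * C * (n + 1) ^ 2 * (X ^ (2 * κ - 1) * ρ ^ (1 - κ)) * (A ^ κ * B ^ κ)) := by ring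
    _ ≤ (ν ^ κ * ν ^ κ) *
        (64 * C * (n + 1) ^ 2 * (X ^ (2 * κ - 1) * ρ ^ (1 - κ)) * (A ^ κ * B ^ κ)) :=
        mul_le_mul_of_nonneg_right hkey hrest
    _ = _ := by ring

/-- energy of one cell -/
lemma cell_energy {κ C ρ X : ℝ} {x n T0 : ℕ} {R : ℕ → ℕ → Prop} {f g : ℕ → ℝ}
    (hκ : 1 / 2 ≤ κ) (hκ1 : κ < 1) (hC0 : 0 ≤ C) (hρ0 : 0 ≤ ρ)
    (hM : 0 < M) (hT0 : T0 ∣ upp x M) (hX : 0 < X)
    (hC : ∀ (M : ℕ) (X : ℝ) (f f' : ℕ → ℝ), M ≠ 0 → 0 < X →
      (∀ x, 0 ≤ f x) → (∀ x, f x ≤ 1) → (∀ x, 0 ≤ f' x) → (∀ x, f' x ≤ 1) →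
      ∑ b ∈ M.divisors, ∑ c ∈ M.divisors,
        (if X ≤ (Nat.gcd b c : ℝ) ∧ (Nat.gcd b c : ℝ) < 2 * X then
          (Nat.gcd b c : ℝ) * nu M b * nu M c * (f b * f' c)
        else 0) ≤ C * X ^ (2 * κ - 1) *
          ((∑ b ∈ M.divisors, nu M b * f b) ^ κ * (∑ b ∈ M.divisors, nu M b * f' b) ^ κ))
    (hf : ∀ b, 0 ≤ f b) (hf1 : ∀ b, f b ≤ 1) (hg : ∀ b, 0 ≤ g b) (hg1 : ∀ b, g b ≤ 1)
    (hR : ∀ b j, b ∣ M → f b ≠ 0 → ((M.divisors.filter (fun l => Nat.log 2 l = j ∧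
      (∀ p : ℕ, p.Prime → p ∣ l → x < p) ∧ R b l)).card : ℝ) ≤ ρ * 2 ^ j) :
    ∑ T ∈ M.divisors.filter (fun b => lab F x b = lab F x T0),
      ∑ T' ∈ M.divisors.filter (fun b => lab F x b = lab F x T0),
        ∑ u ∈ (low x M).divisors, ∑ u' ∈ (low x M).divisors,
          tm F x n X R f g (u * T) (u' * T') ≤
      64 * C * (n + 1) ^ 2 * (X ^ (2 * κ - 1) * ρ ^ (1 - κ)) *
        ((∑ T ∈ M.divisors.filter (fun b => lab F x b = lab F x T0),
          nu (upp x M) T * ∑ u ∈ (low x M).divisors, nu (low x M) u * f (u * T)) ^ κ *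
        (∑ T ∈ M.divisors.filter (fun b => lab F x b = lab F x T0),
          nu (upp x M) T * ∑ u ∈ (low x M).divisors, nu (low x M) u * g (u * T)) ^ κ) := by
  have hκ0 : 0 ≤ κ := by linarith
  rw [cell_mass hM hT0 f, cell_mass hM hT0 g]
  have hT0M := T0_dvd hM hT0
  rw [class_sum hM.ne' hT0M]
  simp_rw [class_sum hM.ne' hT0M]
  set w := wd F x T0 with hw
  set M2 := part (fun p => ¬ Ps F x T0 p) (upp x M) with hM2
  set M1 := part (Ps F x T0) M with hM1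
  have hM1p : 0 < M1 := part_pos _ _
  have hM2p : 0 < M2 := part_pos _ _
  have hw0 : 0 < w := part_pos _ _
  have hwR : (0:ℝ) < w := by exact_mod_cast hw0
  have hwM2 : w ∣ M2 := w_dvd hM hT0
  have hν0 : 0 ≤ nu M2 w := nu_nonneg _ _
  have hνp : 0 < nu M2 w := nu_pos hM2p hwM2
  have hfc : ∀ (h : ℕ → ℝ), (∀ b, 0 ≤ h b) → ∀ u z, 0 ≤ fc F x T0 h u z := by
    intro h hh u z; unfold fc; split_ifs; exacts [hh _, le_rfl]
  have hfc1 : ∀ (h : ℕ → ℝ), (∀ b, h b ≤ 1) → ∀ u z, fc F x T0 h u z ≤ 1 := by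
    intro h hh u z; unfold fc; split_ifs; exacts [hh _, zero_le_one]
  have hRc : ∀ u z j, fc F x T0 f u z ≠ 0 →
      ((M1.divisors.filter (fun l => Nat.log 2 l = j ∧ R (u * (z * w)) l)).card : ℝ) ≤
        ρ * 2 ^ j := by
    intro u z j h
    have huz : u ∣ low x M ∧ z ∣ M1 := by
      by_contra hc
      apply h
      unfold fc
      rw [if_neg hc]
    have hfb : f (u * (z * w)) ≠ 0 := by
      unfold fc at h
      rw [if_pos huz] at h
      exact h
    refine le_trans ?_ (hR (u * (z * w)) j (uzw_dvd hM hT0 huz.2 huz.1) hfb)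
    have : M1.divisors.filter (fun l => Nat.log 2 l = j ∧ R (u * (z * w)) l) ⊆
        M.divisors.filter (fun l => Nat.log 2 l = j ∧ (∀ p : ℕ, p.Prime → p ∣ l → x < p) ∧
          R (u * (z * w)) l) := by
      intro l hl
      rw [Finset.mem_filter, Nat.mem_divisors] at hl ⊢
      refine ⟨⟨hl.1.1.trans (part_dvd_self _ _), hM.ne'⟩, hl.2.1, fun p hp hpl => ?_, hl.2.2⟩
      exact (prime_dvd_part (Ps F x T0) hp (hpl.trans hl.1.1)).1
    exact_mod_cast Finset.card_le_card this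
  have hcell := cell (n := n) (R := fun u z l => R (u * (z * w)) l) hκ hκ1 hC0 hρ0 (low_pos x M)
    hM1p (Hc_dvd (F := F) (x := x) hM.ne' hT0M)
    (X := X / w) (by positivity) hC (hfc f hf) (hfc1 f hf1) (hfc g hg) (hfc1 g hg1) hRc
  have hL : ∀ z ∈ M1.divisors, ∀ z' ∈ M1.divisors, ∀ u ∈ (low x M).divisors,
      ∀ u' ∈ (low x M).divisors, tm F x n X R f g (u * (z * w)) (u' * (z' * w)) ≤
      (w * nu M2 w * nu M2 w) * tq (low x M) M1 (Hc F x T0) n (X / w)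
        (fun u z l => R (u * (z * w)) l) (fc F x T0 f) (fc F x T0 g) z z' u u' := by
    intro z hz z' hz' u hu u' hu'
    exact tm_le_tq hM hT0 hf hg (Nat.dvd_of_mem_divisors hz) (Nat.dvd_of_mem_divisors hu)
      (Nat.dvd_of_mem_divisors hz') (Nat.dvd_of_mem_divisors hu')
  refine (Finset.sum_le_sum fun z hz => Finset.sum_le_sum fun z' hz' =>
    Finset.sum_le_sum fun u hu => Finset.sum_le_sum fun u' hu' =>
      hL z hz z' hz' u hu u' hu').trans ?_
  simp_rw [← Finset.mul_sum]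
  set A := ∑ z ∈ M1.divisors, nu M1 z * ∑ u ∈ (low x M).divisors, nu (low x M) u *
    fc F x T0 f u z with hA
  set B := ∑ z ∈ M1.divisors, nu M1 z * ∑ u ∈ (low x M).divisors, nu (low x M) u *
    fc F x T0 g u z with hB
  have hA0 : 0 ≤ A := Finset.sum_nonneg fun z _ => mul_nonneg (nu_nonneg _ _)
    (Finset.sum_nonneg fun u _ => mul_nonneg (nu_nonneg _ _) (hfc f hf _ _))
  have hB0 : 0 ≤ B := Finset.sum_nonneg fun z _ => mul_nonneg (nu_nonneg _ _)
    (Finset.sum_nonneg fun u _ => mul_nonneg (nu_nonneg _ _) (hfc g hg _ _))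
  refine (mul_le_mul_of_nonneg_left hcell (mul_nonneg (mul_nonneg hwR.le hν0) hν0)).trans ?_
  exact fin_arith hκ1 hC0 hρ0 hX hwR hνp (mul_nu_le hM2p hwM2) hA0 hB0 n

/-- **LEMMA III-R** (935 3246 (3), 208 3284, 578 3290).  Good pairs at the cut `x`, whose partner's
deficit `ell x c` lies in a set `R b` of relative density `≤ ρ` (on every dyadic class) and whose low
words differ by at most `2^n`.  `f, g` : values in `[0,1]`. -/
theorem rare_fl {κ : ℝ} (hκ : 1 / 2 < κ) (hκ1 : κ < 1) :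
    ∃ C : ℝ, 0 < C ∧ ∀ (M : ℕ) (F : FL M) (x n : ℕ) (ρ X : ℝ) (R : ℕ → ℕ → Prop) (f g : ℕ → ℝ),
      0 < M → 0 ≤ ρ → 0 < X → (∀ b, 0 ≤ f b) → (∀ b, f b ≤ 1) → (∀ b, 0 ≤ g b) →
      (∀ b, g b ≤ 1) →
      (∀ b j, b ∣ M → f b ≠ 0 → ((M.divisors.filter (fun l => Nat.log 2 l = j ∧
        (∀ p : ℕ, p.Prime → p ∣ l → x < p) ∧ R b l)).card : ℝ) ≤ ρ * 2 ^ j) →
      ∑ b ∈ M.divisors, ∑ c ∈ M.divisors, tm F x n X R f g b c ≤
        C * (n + 1) ^ 2 * (X ^ (2 * κ - 1) * ρ ^ (1 - κ)) *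
          ((∑ b ∈ M.divisors, nu M b * f b) ^ κ * (∑ b ∈ M.divisors, nu M b * g b) ^ κ) := by
  obtain ⟨C, hC0, hC⟩ := ThmRx19.hvw_b hκ hκ1
  refine ⟨64 * C, by positivity, ?_⟩
  intro M F x n ρ X R f g hM hρ0 hX hf hf1 hg hg1 hR
  set E : ℕ → ℕ → ℝ := fun T T' => ∑ u ∈ (low x M).divisors, ∑ u' ∈ (low x M).divisors,
    tm F x n X R f g (u * T) (u' * T') with hE
  have e0 : ∑ b ∈ M.divisors, ∑ c ∈ M.divisors, tm F x n X R f g b c =
      ∑ T ∈ (upp x M).divisors, ∑ T' ∈ (upp x M).divisors, E T T' := by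
    rw [sum_low_upp hM x]
    refine Finset.sum_congr rfl fun T _ => ?_
    rw [Finset.sum_congr rfl fun u _ => sum_low_upp hM x _, Finset.sum_comm]
  set I := (upp x M).divisors.image (lab F x) with hI
  have hmap : ∀ b ∈ (upp x M).divisors, lab F x b ∈ I := fun b hb =>
    Finset.mem_image_of_mem _ hb
  -- different classes do not interact
  have hlow : ∀ T, T ∣ upp x M → low x T = 1 := by
    intro T hT
    have h := low_of_mul (x := x) (n := 1) (T := T) (M := M) (M' := M) (one_dvd _) hT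
    rwa [one_mul] at h
  have hzero : ∀ T ∈ (upp x M).divisors, ∀ T' ∈ (upp x M).divisors, lab F x T ≠ lab F x T' →
      E T T' = 0 := by
    intro T hT T' hT' hne
    have hTd := Nat.dvd_of_mem_divisors hT
    have hTd' := Nat.dvd_of_mem_divisors hT'
    refine Finset.sum_eq_zero fun u hu => Finset.sum_eq_zero fun u' hu' => ?_
    have hu := Nat.dvd_of_mem_divisors hu
    have hu' := Nat.dvd_of_mem_divisors hu'
    unfold tm
    rw [if_neg]
    rintro ⟨_, _, h3, _⟩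
    apply hne
    have hTM := hTd.trans (upp_dvd_self x M)
    have hTM' := hTd'.trans (upp_dvd_self x M)
    have hfac : ∀ (u T : ℕ), u ∣ low x M → T ∣ upp x M → ∀ q, x < q →
        (u * T).factorization q = T.factorization q := by
      intro u T hu hT q hq
      have h1 : u ≠ 0 := fun hc => (low_pos x M).ne' (Nat.eq_zero_of_zero_dvd (hc ▸ hu))
      have h2 : T ≠ 0 := fun hc => (upp_pos x M).ne' (Nat.eq_zero_of_zero_dvd (hc ▸ hT))
      rw [Nat.factorization_mul h1 h2, Finsupp.add_apply,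
        fact_zero_of_dvd_part (fun p => p ≤ x) (M := M) hu (by omega), zero_add]
    have huT : u * T ∣ M := by
      conv_rhs => rw [← low_mul_upp x hM.ne']
      exact Nat.mul_dvd_mul hu hTd
    have huT' : u' * T' ∣ M := by
      conv_rhs => rw [← low_mul_upp x hM.ne']
      exact Nat.mul_dvd_mul hu' hTd'
    have hs1 : F.same x T (u * T) := fun q hq hx _ => (hfac u T hu hTd q hx).symm
    have hs2 : F.same x T' (u' * T') := fun q hq hx _ => (hfac u' T' hu' hTd' q hx).symm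
    refine lab_eq hTM hTM' (by rw [hlow T hTd, hlow T' hTd']) ?_
    exact FL.same_trans hTM huT hs1 (FL.same_trans huT huT' h3.1 (FL.same_symm hTM' huT' hs2))
  have e1 : ∑ T ∈ (upp x M).divisors, ∑ T' ∈ (upp x M).divisors, E T T' =
      ∑ k ∈ I, ∑ T ∈ (upp x M).divisors.filter (fun b => lab F x b = k),
        ∑ T' ∈ (upp x M).divisors.filter (fun b => lab F x b = k), E T T' := by
    rw [← Finset.sum_fiberwise_of_maps_to hmap]
    refine Finset.sum_congr rfl fun k _ => Finset.sum_congr rfl fun T hT => ?_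
    rw [Finset.mem_filter] at hT
    rw [Finset.sum_filter]
    refine Finset.sum_congr rfl fun T' hT' => ?_
    by_cases h : lab F x T' = k
    · rw [if_pos h]
    · rw [if_neg h]
      exact hzero T hT.1 T' hT' (by rw [hT.2]; exact fun h' => h h'.symm)
  set A : (ℕ → ℝ) → ℕ × (ℕ → Option ℕ × ℕ) → ℝ := fun f k =>
    ∑ T ∈ (upp x M).divisors.filter (fun b => lab F x b = k),
      nu (upp x M) T * ∑ u ∈ (low x M).divisors, nu (low x M) u * f (u * T) with hA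
  have hA0 : ∀ f : ℕ → ℝ, (∀ b, 0 ≤ f b) → ∀ k, 0 ≤ A f k := fun f hf k =>
    Finset.sum_nonneg fun z _ => mul_nonneg (nu_nonneg _ _)
      (Finset.sum_nonneg fun u _ => mul_nonneg (nu_nonneg _ _) (hf _))
  have hsA : ∀ f : ℕ → ℝ, ∑ k ∈ I, A f k = ∑ b ∈ M.divisors, nu M b * f b := by
    intro f
    rw [sum_low_upp hM x, hA]
    simp only
    rw [Finset.sum_fiberwise_of_maps_to hmap]
    refine Finset.sum_congr rfl fun T hT => ?_
    rw [Finset.mul_sum]
    refine Finset.sum_congr rfl fun u hu => ?_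
    rw [nu_low_upp hM (Nat.dvd_of_mem_divisors hu) (Nat.dvd_of_mem_divisors hT)]
    ring
  have h1 : ∀ k ∈ I, ∑ T ∈ (upp x M).divisors.filter (fun b => lab F x b = k),
        ∑ T' ∈ (upp x M).divisors.filter (fun b => lab F x b = k), E T T' ≤
        64 * C * (n + 1) ^ 2 * (X ^ (2 * κ - 1) * ρ ^ (1 - κ)) * (A f k ^ κ * A g k ^ κ) := by
    intro k hk
    rw [hI, Finset.mem_image] at hk
    obtain ⟨T0, hT0, rfl⟩ := hk
    have hT0 := Nat.dvd_of_mem_divisors hT0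
    have h := cell_energy (F := F) (n := n) (R := R) (f := f) (g := g) hκ.le hκ1 hC0.le hρ0 hM hT0
      hX hC hf hf1 hg hg1 hR
    simp only [hA, hE]
    rw [upp_class hM hT0]
    exact h
  rw [e0, e1]
  refine (Finset.sum_le_sum h1).trans ?_
  rw [← Finset.mul_sum]
  have h2 := cauchy_sup I (A f) (A g) (fun k _ => hA0 f hf k) (fun k _ => hA0 g hg k) hκ.le
  rw [hsA f, hsA g] at h2
  exact mul_le_mul_of_nonneg_left h2 (by positivity)

end Crest.Agent.R4C.RareFLx208
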