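import Crest.Agent.R4C.NonPure_559

/-!
# LEMMA III-R, part a (helper208): Hölder / Cauchy lemmas and the level sum over one box

(935 3246 (3), 208 3284, 578 3290.)  `lvl_box`: one pair of dyadic classes of deficits `(l, l')`
with a relation of density `ρ` in `l'`.
-/

set_option autoImplicit false

namespace Crest.Agent.R4C.RareFLx208

open Finset
open Crest.Agent.R4C.Basex935
open Crest.Agent.R4C.NonPurex559 (lvl cf cl gcd_lvl mass_mult cf_mul cf_pos cf_dvd diag_le xr_le_one)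

/-- Hölder -/
lemma hold {ι : Type*} (s : Finset ι) (a b : ι → ℝ) (ha : ∀ i ∈ s, 0 ≤ a i)
    (hb : ∀ i ∈ s, 0 ≤ b i) {κ : ℝ} (h0 : 0 < κ) (h1 : κ < 1) :
    ∑ i ∈ s, a i ^ (1 - κ) * b i ^ κ ≤ (∑ i ∈ s, a i) ^ (1 - κ) * (∑ i ∈ s, b i) ^ κ := by
  have h2 : 0 < 1 - κ := by linarith
  have hpq : ((1 - κ)⁻¹).HolderConjugate (κ⁻¹) := by
    rw [Real.holderConjugate_iff]
    refine ⟨(one_lt_inv₀ h2).2 (by linarith), ?_⟩
    rw [inv_inv, inv_inv]; ring
  have h := Real.inner_le_Lp_mul_Lq_of_nonneg s hpq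
    (f := fun i => a i ^ (1 - κ)) (g := fun i => b i ^ κ)
    (fun i hi => Real.rpow_nonneg (ha i hi) _) (fun i hi => Real.rpow_nonneg (hb i hi) _)
  refine h.trans (le_of_eq ?_)
  rw [one_div, one_div, inv_inv, inv_inv]
  congr 1
  · congr 1
    refine Finset.sum_congr rfl fun i hi => ?_
    rw [← Real.rpow_mul (ha i hi), mul_inv_cancel₀ h2.ne', Real.rpow_one]
  · congr 1
    refine Finset.sum_congr rfl fun i hi => ?_
    rw [← Real.rpow_mul (hb i hi), mul_inv_cancel₀ h0.ne', Real.rpow_one]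

/-- `Σ a^q ≤ (Σ a)^q` -/
lemma supadd {ι : Type*} (s : Finset ι) (a : ι → ℝ) (ha : ∀ i ∈ s, 0 ≤ a i) {q : ℝ} (hq : 1 ≤ q) :
    ∑ i ∈ s, a i ^ q ≤ (∑ i ∈ s, a i) ^ q := by
  have hS : 0 ≤ ∑ i ∈ s, a i := Finset.sum_nonneg ha
  have hq1 : 0 ≤ q - 1 := by linarith
  have e : ∀ y : ℝ, 0 ≤ y → y ^ q = y * y ^ (q - 1) := by
    intro y hy
    have h := Real.rpow_add_of_nonneg hy (by norm_num : (0:ℝ) ≤ 1) hq1
    rw [Real.rpow_one] at h
    rw [← h]; congr 1; ring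
  rw [e _ hS, Finset.sum_mul]
  refine Finset.sum_le_sum fun i hi => ?_
  rw [e _ (ha i hi)]
  refine mul_le_mul_of_nonneg_left ?_ (ha i hi)
  exact Real.rpow_le_rpow (ha i hi) (Finset.single_le_sum ha hi) hq1

/-- Cauchy and superadditivity -/
lemma cauchy_sup {ι : Type*} (s : Finset ι) (a b : ι → ℝ) (ha : ∀ i ∈ s, 0 ≤ a i)
    (hb : ∀ i ∈ s, 0 ≤ b i) {κ : ℝ} (h0 : 1 / 2 ≤ κ) :
    ∑ i ∈ s, a i ^ κ * b i ^ κ ≤ (∑ i ∈ s, a i) ^ κ * (∑ i ∈ s, b i) ^ κ := by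
  have hκ0 : 0 ≤ κ := by linarith
  have e : ∀ y : ℝ, 0 ≤ y → (y ^ κ) ^ 2 = y ^ (2 * κ) := by
    intro y hy
    rw [← Real.rpow_natCast, ← Real.rpow_mul hy]; congr 1; push_cast; ring
  have e2 : ∀ y : ℝ, 0 ≤ y → √(y ^ (2 * κ)) = y ^ κ := by
    intro y hy
    rw [← e y hy, Real.sqrt_sq (Real.rpow_nonneg hy _)]
  refine (Real.sum_mul_le_sqrt_mul_sqrt _ _ _).trans ?_
  refine mul_le_mul ?_ ?_ (Real.sqrt_nonneg _) (Real.rpow_nonneg (Finset.sum_nonneg ha) _)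
  · rw [← e2 _ (Finset.sum_nonneg ha)]
    refine Real.sqrt_le_sqrt ?_
    rw [Finset.sum_congr rfl fun i hi => e _ (ha i hi)]
    exact supadd s a ha (by linarith)
  · rw [← e2 _ (Finset.sum_nonneg hb)]
    refine Real.sqrt_le_sqrt ?_
    rw [Finset.sum_congr rfl fun i hi => e _ (hb i hi)]
    exact supadd s b hb (by linarith)

lemma card_cl_le (M i : ℕ) : ((M.divisors.filter (fun l => Nat.log 2 l = i)).card : ℝ) ≤ 2 ^ i := by
  have h := xr_le_one M i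
  unfold Crest.Agent.R4C.NonPurex559.xr at h
  rwa [div_le_one (by positivity)] at h

/-- mass of a dyadic class of cofactors with a weight depending on the cofactor -/
lemma mass_cl {M H : ℕ} (hM : 0 < M) (hH : H ∣ M) (i : ℕ) (w : ℕ → ℝ) (hw : ∀ l, 0 ≤ w l) :
    ∑ z ∈ M.divisors.filter (fun z => cl H z = i), nu M z * w (cf H z) ≤
      2 ^ (i + 1) / H * ∑ l ∈ M.divisors.filter (fun l => Nat.log 2 l = i), w l := by
  classical
  have hH0 : 0 < H := Nat.pos_of_dvd_of_pos hH hM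
  have hHR : (0 : ℝ) < H := by exact_mod_cast hH0
  set S := M.divisors.filter (fun b => cl H b = i) with hS
  set D := M.divisors.filter (fun l => Nat.log 2 l = i) with hD
  have hmap : ∀ b ∈ S, cf H b ∈ D := by
    intro b hb
    rw [hS, Finset.mem_filter] at hb
    rw [hD, Finset.mem_filter, Nat.mem_divisors]
    exact ⟨⟨cf_dvd.trans hH, hM.ne'⟩, hb.2⟩
  rw [← Finset.sum_fiberwise_of_maps_to hmap, Finset.mul_sum]
  refine Finset.sum_le_sum fun l hl => ?_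
  rw [hD, Finset.mem_filter, Nat.mem_divisors] at hl
  have hl0 : 0 < l := Nat.pos_of_dvd_of_pos hl.1.1 hM
  have e1 : ∑ b ∈ S.filter (fun b => cf H b = l), nu M b * w (cf H b) =
      (∑ b ∈ S.filter (fun b => cf H b = l), nu M b) * w l := by
    rw [Finset.sum_mul]
    refine Finset.sum_congr rfl fun b hb => ?_
    rw [(Finset.mem_filter.1 hb).2]
  rw [e1]
  refine mul_le_mul_of_nonneg_right ?_ (hw l)
  by_cases hlH : l ∣ H
  · have hg0 : 0 < H / l := Nat.div_pos (Nat.le_of_dvd hH0 hlH) hl0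
    have hgM : H / l ∣ M := (Nat.div_dvd_of_dvd hlH).trans hH
    have hsub : S.filter (fun b => cf H b = l) ⊆ M.divisors.filter (fun b => H / l ∣ b) := by
      intro b hb
      rw [Finset.mem_filter, hS, Finset.mem_filter] at hb
      rw [Finset.mem_filter]
      refine ⟨hb.1.1, ?_⟩
      have h1 := cf_mul (H := H) (b := b)
      rw [hb.2] at h1
      have h2 : H / l = Nat.gcd H b := by
        rw [← h1, Nat.mul_div_cancel_left _ hl0, h1]
      rw [h2]; exact Nat.gcd_dvd_right H b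
    refine (Finset.sum_le_sum_of_subset_of_nonneg hsub fun b _ _ => nu_nonneg _ _).trans ?_
    rw [mass_mult hM hgM]
    have h3 : (H : ℝ) = l * ((H / l : ℕ) : ℝ) := by
      exact_mod_cast (Nat.mul_div_cancel' hlH).symm
    have hgR : (0 : ℝ) < ((H / l : ℕ) : ℝ) := by exact_mod_cast hg0
    have h5 : (l : ℝ) ≤ 2 ^ (i + 1) := by
      have : l < 2 ^ (i + 1) := by
        rw [← hl.2]; exact Nat.lt_pow_succ_log_self (by norm_num) l
      exact_mod_cast this.le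
    rw [div_le_div_iff₀ hgR hHR, one_mul, h3]
    exact mul_le_mul_of_nonneg_right h5 hgR.le
  · have : S.filter (fun b => cf H b = l) = ∅ := by
      rw [Finset.eq_empty_iff_forall_notMem]
      intro b hb
      rw [Finset.mem_filter] at hb
      exact hlH (hb.2 ▸ cf_dvd)
    rw [this, Finset.sum_empty]
    positivity

/-- the level sum over one pair of dyadic classes of deficits -/
lemma lvl_box {M H : ℕ} (hM : 0 < M) (hH : H ∣ M) {κ : ℝ} (h0 : 1 / 2 ≤ κ) (h1 : κ < 1) {ρ : ℝ}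
    (hρ0 : 0 ≤ ρ) (V : ℕ → ℕ → ℝ) (Vt V' : ℕ → ℝ) (hV : ∀ z l, 0 ≤ V z l)
    (hVt : ∀ z l, V z l ≤ Vt z) (hV' : ∀ z, 0 ≤ V' z) (j : ℕ)
    (hR : ∀ z, ∑ l ∈ M.divisors.filter (fun l => Nat.log 2 l = j), V z l ≤ ρ * 2 ^ j * Vt z)
    (i : ℕ) :
    ∑ z ∈ M.divisors.filter (fun z => cl H z = i),
      ∑ z' ∈ M.divisors.filter (fun z => cl H z = j),
        nu M z * nu M z' * ((V z (cf H z')) ^ κ * (V' z') ^ κ) ≤
    (2 * 4 ^ i / H) ^ (1 - κ) * (2 * 4 ^ j * ρ / H) ^ (1 - κ) *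
      ((∑ z ∈ M.divisors.filter (fun z => cl H z = i), nu M z * Vt z) ^ κ *
        (∑ z' ∈ M.divisors.filter (fun z => cl H z = j), nu M z' * V' z') ^ κ) := by
  classical
  have hκ0 : 0 < κ := by linarith
  have h1κ : 0 < 1 - κ := by linarith
  have hH0 : 0 < H := Nat.pos_of_dvd_of_pos hH hM
  have hHR : (0 : ℝ) < H := by exact_mod_cast hH0
  set S := M.divisors.filter (fun z => cl H z = i) with hS
  set S' := M.divisors.filter (fun z => cl H z = j) with hS'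
  have hνpow : ∀ z (y : ℝ), 0 ≤ y → (nu M z) ^ (1 - κ) * (nu M z * y) ^ κ = nu M z * y ^ κ := by
    intro z y hy
    rw [Real.mul_rpow (nu_nonneg _ _) hy, ← mul_assoc,
      ← Real.rpow_add_of_nonneg (nu_nonneg _ _) h1κ.le hκ0.le]
    rw [show 1 - κ + κ = 1 by ring, Real.rpow_one]
  have hVt0 : ∀ z, 0 ≤ Vt z := fun z => (hV z 0).trans (hVt z 0)
  set U : ℕ → ℝ := fun l => ∑ z ∈ S, nu M z * V z l with hU
  set m := ∑ z ∈ S, nu M z * Vt z with hm
  set m' := ∑ z' ∈ S', nu M z' * V' z' with hm'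
  have hU0 : ∀ l, 0 ≤ U l := fun l => Finset.sum_nonneg fun z _ => mul_nonneg (nu_nonneg _ _) (hV _ _)
  have hUm : ∀ l, U l ≤ m := fun l =>
    Finset.sum_le_sum fun z _ => mul_le_mul_of_nonneg_left (hVt _ _) (nu_nonneg _ _)
  have hm0 : 0 ≤ m := (hU0 0).trans (hUm 0)
  -- mass of a class
  have hmass : ∑ z ∈ S, nu M z ≤ 2 * 4 ^ i / H := by
    have h := mass_cl hM hH i (fun _ => 1) (fun _ => zero_le_one)
    simp only [mul_one] at h
    refine h.trans ?_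
    rw [Finset.sum_const, nsmul_eq_mul, mul_one]
    calc (2:ℝ) ^ (i + 1) / H * ((M.divisors.filter (fun l => Nat.log 2 l = i)).card : ℝ)
        ≤ 2 ^ (i + 1) / H * 2 ^ i :=
          mul_le_mul_of_nonneg_left (card_cl_le M i) (by positivity)
      _ = 2 * 4 ^ i / H := by
          rw [show (4:ℝ) ^ i = 2 ^ i * 2 ^ i by rw [← mul_pow]; norm_num, pow_succ]; ring
  -- inner sum
  have hin : ∀ l, ∑ z ∈ S, nu M z * V z l ^ κ ≤ (2 * 4 ^ i / H) ^ (1 - κ) * U l ^ κ := by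
    intro l
    have h := hold S (fun z => nu M z) (fun z => nu M z * V z l) (fun z _ => nu_nonneg _ _)
      (fun z _ => mul_nonneg (nu_nonneg _ _) (hV _ _)) hκ0 h1
    rw [Finset.sum_congr rfl fun z _ => hνpow z (V z l) (hV z l)] at h
    refine h.trans ?_
    refine mul_le_mul_of_nonneg_right ?_ (Real.rpow_nonneg (hU0 l) _)
    exact Real.rpow_le_rpow (Finset.sum_nonneg fun z _ => nu_nonneg _ _) hmass h1κ.le
  have hA0 : (0:ℝ) ≤ (2 * 4 ^ i / H) ^ (1 - κ) := by positivity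
  -- swap
  have hsw : ∑ z ∈ S, ∑ z' ∈ S', nu M z * nu M z' * ((V z (cf H z')) ^ κ * (V' z') ^ κ) ≤
      (2 * 4 ^ i / H) ^ (1 - κ) * ∑ z' ∈ S', nu M z' * (U (cf H z') ^ κ * V' z' ^ κ) := by
    rw [Finset.sum_comm, Finset.mul_sum]
    refine Finset.sum_le_sum fun z' _ => ?_
    calc ∑ z ∈ S, nu M z * nu M z' * ((V z (cf H z')) ^ κ * (V' z') ^ κ)
        = (nu M z' * V' z' ^ κ) * ∑ z ∈ S, nu M z * V z (cf H z') ^ κ := by
          rw [Finset.mul_sum]; exact Finset.sum_congr rfl fun z _ => by ring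
      _ ≤ (nu M z' * V' z' ^ κ) * ((2 * 4 ^ i / H) ^ (1 - κ) * U (cf H z') ^ κ) :=
          mul_le_mul_of_nonneg_left (hin _)
            (mul_nonneg (nu_nonneg _ _) (Real.rpow_nonneg (hV' _) _))
      _ = _ := by ring
  refine hsw.trans ?_
  -- outer sum
  have hUκ : ∀ l, U l ^ κ ≤ m ^ (2 * κ - 1) * U l ^ (1 - κ) := by
    intro l
    have h2 : 0 ≤ 2 * κ - 1 := by linarith
    have e : U l ^ κ = U l ^ (2 * κ - 1) * U l ^ (1 - κ) := by
      rw [← Real.rpow_add_of_nonneg (hU0 l) h2 h1κ.le]; congr 1; ring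
    rw [e]
    exact mul_le_mul_of_nonneg_right (Real.rpow_le_rpow (hU0 l) (hUm l) h2)
      (Real.rpow_nonneg (hU0 l) _)
  have hout : ∑ z' ∈ S', nu M z' * (U (cf H z') ^ κ * V' z' ^ κ) ≤
      m ^ (2 * κ - 1) * ((∑ z' ∈ S', nu M z' * U (cf H z')) ^ (1 - κ) * m' ^ κ) := by
    have h := hold S' (fun z => nu M z * U (cf H z)) (fun z => nu M z * V' z)
      (fun z _ => mul_nonneg (nu_nonneg _ _) (hU0 _))
      (fun z _ => mul_nonneg (nu_nonneg _ _) (hV' _)) hκ0 h1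
    refine le_trans ?_ (mul_le_mul_of_nonneg_left h (Real.rpow_nonneg hm0 _))
    rw [Finset.mul_sum]
    refine Finset.sum_le_sum fun z' _ => ?_
    rw [Real.mul_rpow (nu_nonneg _ _) (hU0 _)]
    have e := hνpow z' (V' z') (hV' z')
    calc nu M z' * (U (cf H z') ^ κ * V' z' ^ κ)
        ≤ nu M z' * ((m ^ (2 * κ - 1) * U (cf H z') ^ (1 - κ)) * V' z' ^ κ) :=
          mul_le_mul_of_nonneg_left (mul_le_mul_of_nonneg_right (hUκ _)
            (Real.rpow_nonneg (hV' _) _)) (nu_nonneg _ _)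
      _ = m ^ (2 * κ - 1) * (U (cf H z') ^ (1 - κ) * (nu M z' * V' z' ^ κ)) := by ring
      _ = m ^ (2 * κ - 1) * (U (cf H z') ^ (1 - κ) *
            ((nu M z') ^ (1 - κ) * (nu M z' * V' z') ^ κ)) := by rw [e]
      _ = _ := by ring
  have hUs : ∑ z' ∈ S', nu M z' * U (cf H z') ≤ (2 * 4 ^ j * ρ / H) * m := by
    refine (mass_cl hM hH j U hU0).trans ?_
    have h2 : ∑ l ∈ M.divisors.filter (fun l => Nat.log 2 l = j), U l ≤ ρ * 2 ^ j * m := by
      simp only [hU]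
      rw [Finset.sum_comm, hm, Finset.mul_sum]
      refine Finset.sum_le_sum fun z _ => ?_
      rw [← Finset.mul_sum]
      calc nu M z * ∑ l ∈ M.divisors.filter (fun l => Nat.log 2 l = j), V z l
          ≤ nu M z * (ρ * 2 ^ j * Vt z) := mul_le_mul_of_nonneg_left (hR z) (nu_nonneg _ _)
        _ = _ := by ring
    calc (2:ℝ) ^ (j + 1) / H * ∑ l ∈ M.divisors.filter (fun l => Nat.log 2 l = j), U l
        ≤ 2 ^ (j + 1) / H * (ρ * 2 ^ j * m) := mul_le_mul_of_nonneg_left h2 (by positivity)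
      _ = 2 * 4 ^ j * ρ / H * m := by
          rw [show (4:ℝ) ^ j = 2 ^ j * 2 ^ j by rw [← mul_pow]; norm_num, pow_succ]; ring
  have hB0 : (0:ℝ) ≤ 2 * 4 ^ j * ρ / H := by positivity
  have hm'0 : 0 ≤ m' := Finset.sum_nonneg fun z _ => mul_nonneg (nu_nonneg _ _) (hV' _)
  have hfin : m ^ (2 * κ - 1) * ((∑ z' ∈ S', nu M z' * U (cf H z')) ^ (1 - κ) * m' ^ κ) ≤
      (2 * 4 ^ j * ρ / H) ^ (1 - κ) * (m ^ κ * m' ^ κ) := by
    have h2 : (∑ z' ∈ S', nu M z' * U (cf H z')) ^ (1 - κ) ≤ ((2 * 4 ^ j * ρ / H) * m) ^ (1 - κ) :=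
      Real.rpow_le_rpow (Finset.sum_nonneg fun z _ => mul_nonneg (nu_nonneg _ _) (hU0 _)) hUs h1κ.le
    rw [Real.mul_rpow hB0 hm0] at h2
    have e : m ^ κ = m ^ (2 * κ - 1) * m ^ (1 - κ) := by
      rw [← Real.rpow_add_of_nonneg hm0 (by linarith) h1κ.le]; congr 1; ring
    calc m ^ (2 * κ - 1) * ((∑ z' ∈ S', nu M z' * U (cf H z')) ^ (1 - κ) * m' ^ κ)
        ≤ m ^ (2 * κ - 1) * (((2 * 4 ^ j * ρ / H) ^ (1 - κ) * m ^ (1 - κ)) * m' ^ κ) :=
          mul_le_mul_of_nonneg_left (mul_le_mul_of_nonneg_right h2 (Real.rpow_nonneg hm'0 _))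
            (Real.rpow_nonneg hm0 _)
      _ = _ := by rw [e]; ring
  calc (2 * 4 ^ i / (H:ℝ)) ^ (1 - κ) * ∑ z' ∈ S', nu M z' * (U (cf H z') ^ κ * V' z' ^ κ)
      ≤ (2 * 4 ^ i / H) ^ (1 - κ) * ((2 * 4 ^ j * ρ / H) ^ (1 - κ) * (m ^ κ * m' ^ κ)) :=
        mul_le_mul_of_nonneg_left (hout.trans hfin) hA0
    _ = _ := by ring

end Crest.Agent.R4C.RareFLx208
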