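import Crest.Agent.R4C.RareFLa_208
import Crest.Agent.R4C.HVWt_19

/-!
# LEMMA III-R, part b (helper208): the theorem on one cell

`M0` : low primes, `M1` : passive primes above the cut, `H ∣ M1` : centre word.
`cell` : energy of the level pairs with `R u z (cf H z')`, `u, u' ≤ 2^n gcd (u, u')`.
-/

set_option autoImplicit false

namespace Crest.Agent.R4C.RareFLx208

open Finset
open Crest.Agent.R4C.Basex935
open Crest.Agent.R4C.NonPurex559 (lvl cf cl gcd_lvl mass_mult cf_mul cf_pos cf_dvd diag_le xr_le_one)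

/-- sum over a matching of the boxes -/
lemma diag_box (N N' : ℕ) (c : ℕ → ℕ → Prop) [∀ i j, Decidable (c i j)]
    (hc1 : ∀ i j j', c i j → c i j' → j = j')
    (hc2 : ∀ i i' j, c i j → c i' j → i = i') (a b : ℕ → ℝ) (ha : ∀ i, 0 ≤ a i)
    (hb : ∀ i, 0 ≤ b i) {κ : ℝ} (h0 : 1 / 2 ≤ κ) :
    ∑ i ∈ range N, ∑ j ∈ range N', (if c i j then a i ^ κ * b j ^ κ else 0) ≤
      (∑ i ∈ range N, a i) ^ κ * (∑ j ∈ range N', b j) ^ κ := by
  classical
  have hκ0 : 0 ≤ κ := by linarith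
  rw [← Finset.sum_product' (s := range N) (t := range N')
    (f := fun i j => if c i j then a i ^ κ * b j ^ κ else 0), ← Finset.sum_filter]
  set S := (range N ×ˢ range N').filter (fun p => c p.1 p.2) with hS
  refine (cauchy_sup S (fun p => a p.1) (fun p => b p.2) (fun p _ => ha _) (fun p _ => hb _)
    h0).trans ?_
  have e1 : ∑ p ∈ S, a p.1 ≤ ∑ i ∈ range N, a i := by
    rw [← Finset.sum_image (f := a) (g := Prod.fst) (s := S)]
    · refine Finset.sum_le_sum_of_subset_of_nonneg ?_ fun i _ _ => ha i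
      intro i hi
      rw [Finset.mem_image] at hi
      obtain ⟨p, hp, rfl⟩ := hi
      rw [hS, Finset.mem_filter, Finset.mem_product] at hp
      exact hp.1.1
    · rintro ⟨i, j⟩ hp ⟨i', j'⟩ hp' e
      rw [Finset.mem_coe, hS, Finset.mem_filter] at hp hp'
      simp only at e hp hp'
      subst e
      rw [hc1 i j j' hp.2 hp'.2]
  have e2 : ∑ p ∈ S, b p.2 ≤ ∑ i ∈ range N', b i := by
    rw [← Finset.sum_image (f := b) (g := Prod.snd) (s := S)]
    · refine Finset.sum_le_sum_of_subset_of_nonneg ?_ fun i _ _ => hb i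
      intro i hi
      rw [Finset.mem_image] at hi
      obtain ⟨p, hp, rfl⟩ := hi
      rw [hS, Finset.mem_filter, Finset.mem_product] at hp
      exact hp.1.2
    · rintro ⟨i, j⟩ hp ⟨i', j'⟩ hp' e
      rw [Finset.mem_coe, hS, Finset.mem_filter] at hp hp'
      simp only at e hp hp'
      subst e
      rw [hc2 i i' j hp.2 hp'.2]
  refine mul_le_mul (Real.rpow_le_rpow (Finset.sum_nonneg fun p _ => ha _) e1 hκ0)
    (Real.rpow_le_rpow (Finset.sum_nonneg fun p _ => hb _) e2 hκ0)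
    (Real.rpow_nonneg (Finset.sum_nonneg fun p _ => hb _) _)
    (Real.rpow_nonneg (Finset.sum_nonneg fun p _ => ha _) _)

open Classical in
/-- one term: low words `u, u'`, passive words `z, z'` -/
noncomputable def tq (M0 M1 H n : ℕ) (X : ℝ) (R : ℕ → ℕ → ℕ → Prop) (f f' : ℕ → ℕ → ℝ)
    (z z' u u' : ℕ) : ℝ :=
  if X ≤ (Nat.gcd u u' : ℝ) * (Nat.gcd z z' : ℝ) ∧
      (Nat.gcd u u' : ℝ) * (Nat.gcd z z' : ℝ) < 2 * X ∧ lvl M1 H z z' ∧ R u z (cf H z') ∧
      u ≤ 2 ^ n * Nat.gcd u u' ∧ u' ≤ 2 ^ n * Nat.gcd u u' then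
    (Nat.gcd u u' : ℝ) * (Nat.gcd z z' : ℝ) * (nu M0 u * nu M0 u' * (nu M1 z * nu M1 z')) *
      (f u z * f' u' z') else 0

/-- arithmetic of the box -/
lemma box_arith {κ H X ρ K : ℝ} (h0 : 1 / 2 ≤ κ) (h1 : κ < 1) (hH : 0 < H) (hX : 0 < X)
    (hρ : 0 ≤ ρ) (hK : 0 < K) (i j : ℕ) (hw : K * H < 8 * X * 2 ^ (i + j)) :
    H / 2 ^ (i + j) * (K ^ (2 * κ - 1) *
      ((2 * 4 ^ i / H) ^ (1 - κ) * (2 * 4 ^ j * ρ / H) ^ (1 - κ))) ≤
      16 * (X ^ (2 * κ - 1) * ρ ^ (1 - κ)) := by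
  set Q := H / 2 ^ (i + j) with hQ
  have hQ0 : 0 < Q := by positivity
  have h1κ : 0 < 1 - κ := by linarith
  have h2κ : 0 ≤ 2 * κ - 1 := by linarith
  have e1 : (2 * 4 ^ i / H) ^ (1 - κ) * (2 * 4 ^ j * ρ / H) ^ (1 - κ) =
      (2 / Q) ^ (2 - 2 * κ) * ρ ^ (1 - κ) := by
    rw [← Real.mul_rpow (by positivity) (by positivity)]
    have e : 2 * 4 ^ i / H * (2 * 4 ^ j * ρ / H) = (2 / Q) ^ 2 * ρ := by
      rw [hQ, show (4:ℝ) ^ i = 2 ^ i * 2 ^ i by rw [← mul_pow]; norm_num,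
        show (4:ℝ) ^ j = 2 ^ j * 2 ^ j by rw [← mul_pow]; norm_num, pow_add]
      field_simp
    rw [e, Real.mul_rpow (by positivity) hρ, ← Real.rpow_natCast, ← Real.rpow_mul (by positivity)]
    congr 2
    push_cast; ring
  rw [e1]
  have e2 : Q * (2 / Q) ^ (2 - 2 * κ) = 2 ^ (2 - 2 * κ) * Q ^ (2 * κ - 1) := by
    rw [Real.div_rpow (by norm_num) hQ0.le]
    have : Q = Q ^ (2 - 2 * κ) * Q ^ (2 * κ - 1) := by
      rw [← Real.rpow_add hQ0]
      rw [show 2 - 2 * κ + (2 * κ - 1) = (1:ℝ) by ring, Real.rpow_one]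
    have hne : Q ^ (2 - 2 * κ) ≠ 0 := (Real.rpow_pos_of_pos hQ0 _).ne'
    calc Q * (2 ^ (2 - 2 * κ) / Q ^ (2 - 2 * κ))
        = (Q ^ (2 - 2 * κ) * Q ^ (2 * κ - 1)) * (2 ^ (2 - 2 * κ) / Q ^ (2 - 2 * κ)) := by
          rw [← this]
      _ = _ := by field_simp
  have e3 : (K * Q) ^ (2 * κ - 1) ≤ 8 * X ^ (2 * κ - 1) := by
    have h3 : K * Q ≤ 8 * X := by
      rw [hQ, mul_div_assoc', div_le_iff₀ (by positivity)]
      exact hw.le
    calc (K * Q) ^ (2 * κ - 1) ≤ (8 * X) ^ (2 * κ - 1) :=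
          Real.rpow_le_rpow (by positivity) h3 h2κ
      _ = 8 ^ (2 * κ - 1) * X ^ (2 * κ - 1) := Real.mul_rpow (by norm_num) hX.le
      _ ≤ 8 ^ (1:ℝ) * X ^ (2 * κ - 1) := by
          refine mul_le_mul_of_nonneg_right ?_ (Real.rpow_nonneg hX.le _)
          exact Real.rpow_le_rpow_of_exponent_le (by norm_num) (by linarith)
      _ = _ := by rw [Real.rpow_one]
  have e4 : (2:ℝ) ^ (2 - 2 * κ) ≤ 2 := by
    calc (2:ℝ) ^ (2 - 2 * κ) ≤ 2 ^ (1:ℝ) :=
          Real.rpow_le_rpow_of_exponent_le (by norm_num) (by linarith)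
      _ = 2 := Real.rpow_one _
  have hρ' : 0 ≤ ρ ^ (1 - κ) := Real.rpow_nonneg hρ _
  calc Q * (K ^ (2 * κ - 1) * ((2 / Q) ^ (2 - 2 * κ) * ρ ^ (1 - κ)))
      = (Q * (2 / Q) ^ (2 - 2 * κ)) * K ^ (2 * κ - 1) * ρ ^ (1 - κ) := by ring
    _ = 2 ^ (2 - 2 * κ) * (K * Q) ^ (2 * κ - 1) * ρ ^ (1 - κ) := by
        rw [e2, Real.mul_rpow hK.le hQ0.le]; ring
    _ ≤ 2 * (8 * X ^ (2 * κ - 1)) * ρ ^ (1 - κ) := by
        refine mul_le_mul_of_nonneg_right ?_ hρ'
        exact mul_le_mul e4 e3 (Real.rpow_nonneg (by positivity) _) (by norm_num)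
    _ = _ := by ring


section cellsec

open Classical

variable {M0 M1 H n : ℕ} {X : ℝ} {R : ℕ → ℕ → ℕ → Prop} {f f' : ℕ → ℕ → ℝ}

/-- restricted low mass -/
noncomputable def Vl (M0 n : ℕ) (R : ℕ → ℕ → ℕ → Prop) (f : ℕ → ℕ → ℝ) (s z l : ℕ) : ℝ :=
  ∑ u ∈ M0.divisors, nu M0 u *
    (if R u z l ∧ s ≤ Nat.log 2 u ∧ Nat.log 2 u ≤ s + n then f u z else 0)

/-- low mass near the level `s` -/
noncomputable def Vt (M0 n : ℕ) (f : ℕ → ℕ → ℝ) (s z : ℕ) : ℝ :=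
  ∑ u ∈ M0.divisors, nu M0 u *
    (if s ≤ Nat.log 2 u ∧ Nat.log 2 u ≤ s + n then f u z else 0)

lemma Vl_nonneg (hf : ∀ u z, 0 ≤ f u z) (s z l : ℕ) : 0 ≤ Vl M0 n R f s z l :=
  Finset.sum_nonneg fun u _ => mul_nonneg (nu_nonneg _ _) (by split_ifs; exacts [hf _ _, le_rfl])

lemma Vt_nonneg (hf : ∀ u z, 0 ≤ f u z) (s z : ℕ) : 0 ≤ Vt M0 n f s z :=
  Finset.sum_nonneg fun u _ => mul_nonneg (nu_nonneg _ _) (by split_ifs; exacts [hf _ _, le_rfl])

lemma Vl_le_Vt (hf : ∀ u z, 0 ≤ f u z) (s z l : ℕ) : Vl M0 n R f s z l ≤ Vt M0 n f s z := by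
  refine Finset.sum_le_sum fun u _ => mul_le_mul_of_nonneg_left ?_ (nu_nonneg _ _)
  by_cases h : s ≤ Nat.log 2 u ∧ Nat.log 2 u ≤ s + n
  · rw [if_pos h]
    split_ifs
    · exact le_rfl
    · exact hf _ _
  · rw [if_neg h, if_neg fun h' => h h'.2]

lemma sum_Vl_le {ρ : ℝ} (hf : ∀ u z, 0 ≤ f u z) (s z j : ℕ)
    (hR : ∀ u, f u z ≠ 0 → ((M1.divisors.filter (fun l => Nat.log 2 l = j ∧ R u z l)).card : ℝ) ≤
      ρ * 2 ^ j) :
    ∑ l ∈ M1.divisors.filter (fun l => Nat.log 2 l = j), Vl M0 n R f s z l ≤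
      ρ * 2 ^ j * Vt M0 n f s z := by
  unfold Vl Vt
  rw [Finset.sum_comm, Finset.mul_sum]
  refine Finset.sum_le_sum fun u _ => ?_
  rw [← Finset.mul_sum]
  have h1 : ∑ l ∈ M1.divisors.filter (fun l => Nat.log 2 l = j),
      (if R u z l ∧ s ≤ Nat.log 2 u ∧ Nat.log 2 u ≤ s + n then f u z else 0) ≤
      ρ * 2 ^ j * (if s ≤ Nat.log 2 u ∧ Nat.log 2 u ≤ s + n then f u z else 0) := by
    by_cases h : s ≤ Nat.log 2 u ∧ Nat.log 2 u ≤ s + n
    · rw [if_pos h]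
      by_cases hfu : f u z = 0
      · rw [hfu, mul_zero]
        exact Finset.sum_nonpos fun l _ => by split_ifs <;> exact le_rfl
      have e : ∑ l ∈ M1.divisors.filter (fun l => Nat.log 2 l = j),
          (if R u z l ∧ s ≤ Nat.log 2 u ∧ Nat.log 2 u ≤ s + n then f u z else 0) =
          ((M1.divisors.filter (fun l => Nat.log 2 l = j ∧ R u z l)).card : ℝ) * f u z := by
        have e' : ∑ l ∈ (M1.divisors.filter (fun l => Nat.log 2 l = j)).filter (fun l => R u z l),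
            f u z = ∑ l ∈ M1.divisors.filter (fun l => Nat.log 2 l = j),
            if R u z l then f u z else 0 := Finset.sum_filter _ _
        rw [Finset.filter_filter, Finset.sum_const, nsmul_eq_mul] at e'
        rw [e']
        refine Finset.sum_congr rfl fun l _ => ?_
        by_cases hl : R u z l
        · rw [if_pos ⟨hl, h⟩, if_pos hl]
        · rw [if_neg fun h' => hl h'.1, if_neg hl]
      rw [e]
      exact mul_le_mul_of_nonneg_right (hR u hfu) (hf _ _)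
    · rw [if_neg h, mul_zero]
      exact Finset.sum_nonpos fun l _ => by rw [if_neg fun h' => h h'.2]
  calc nu M0 u * _ ≤ nu M0 u * (ρ * 2 ^ j *
        (if s ≤ Nat.log 2 u ∧ Nat.log 2 u ≤ s + n then f u z else 0)) :=
        mul_le_mul_of_nonneg_left h1 (nu_nonneg _ _)
    _ = _ := by ring

lemma sum_s_Vt_le (N : ℕ) (hf : ∀ u z, 0 ≤ f u z) (z : ℕ) :
    ∑ s ∈ range N, Vt M0 n f s z ≤ (n + 1) * ∑ u ∈ M0.divisors, nu M0 u * f u z := by
  unfold Vt
  rw [Finset.sum_comm, Finset.mul_sum]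
  refine Finset.sum_le_sum fun u _ => ?_
  rw [← Finset.mul_sum]
  have h1 : ∑ s ∈ range N, (if s ≤ Nat.log 2 u ∧ Nat.log 2 u ≤ s + n then f u z else 0) ≤
      (n + 1) * f u z := by
    rw [← Finset.sum_filter, Finset.sum_const, nsmul_eq_mul]
    refine mul_le_mul_of_nonneg_right ?_ (hf _ _)
    have hsub : (range N).filter (fun s => s ≤ Nat.log 2 u ∧ Nat.log 2 u ≤ s + n) ⊆
        Finset.Icc (Nat.log 2 u - n) (Nat.log 2 u) := by
      intro s hs
      rw [Finset.mem_filter] at hs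
      rw [Finset.mem_Icc]
      omega
    have h2 := Finset.card_le_card hsub
    rw [Nat.card_Icc] at h2
    have h3 : Nat.log 2 u + 1 - (Nat.log 2 u - n) ≤ n + 1 := by omega
    exact_mod_cast h2.trans h3
  calc nu M0 u * _ ≤ nu M0 u * ((n + 1) * f u z) :=
        mul_le_mul_of_nonneg_left h1 (nu_nonneg _ _)
    _ = _ := by ring

/-- the low sum at one level for one pair of passive words -/
lemma low_sum {κ C : ℝ} (hM0 : 0 < M0) (hM1 : 0 < M1) (hH : H ∣ M1)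
    (hC : ∀ (M : ℕ) (X : ℝ) (f f' : ℕ → ℝ), M ≠ 0 → 0 < X →
      (∀ x, 0 ≤ f x) → (∀ x, f x ≤ 1) → (∀ x, 0 ≤ f' x) → (∀ x, f' x ≤ 1) →
      ∑ b ∈ M.divisors, ∑ c ∈ M.divisors,
        (if X ≤ (Nat.gcd b c : ℝ) ∧ (Nat.gcd b c : ℝ) < 2 * X then
          (Nat.gcd b c : ℝ) * nu M b * nu M c * (f b * f' c)
        else 0) ≤ C * X ^ (2 * κ - 1) *
          ((∑ b ∈ M.divisors, nu M b * f b) ^ κ * (∑ b ∈ M.divisors, nu M b * f' b) ^ κ))
    (hf : ∀ u z, 0 ≤ f u z) (hf1 : ∀ u z, f u z ≤ 1) (hf' : ∀ u z, 0 ≤ f' u z)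
    (hf1' : ∀ u z, f' u z ≤ 1) (s i j z z' : ℕ) (hz : z ∣ M1) (hz' : z' ∣ M1)
    (hi : cl H z = i) (hj : cl H z' = j) :
    ∑ u ∈ M0.divisors, ∑ u' ∈ M0.divisors,
      (if Nat.log 2 (Nat.gcd u u') = s then tq M0 M1 H n X R f f' z z' u u' else 0) ≤
      if (H : ℝ) * 2 ^ s < 8 * X * 2 ^ (i + j) ∧ X * 2 ^ (i + j) < 2 * (H * 2 ^ s) then
        (H : ℝ) / 2 ^ (i + j) * C * ((2:ℝ) ^ s) ^ (2 * κ - 1) *
          (nu M1 z * nu M1 z' * (Vl M0 n R f s z (cf H z') ^ κ * Vt M0 n f' s z' ^ κ)) else 0 := by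
  have hH0 : 0 < H := Nat.pos_of_dvd_of_pos hH hM1
  have hHR : (0 : ℝ) < H := by exact_mod_cast hH0
  have hid : lvl M1 H z z' → (cf H z : ℝ) * (cf H z' : ℝ) * (Nat.gcd z z' : ℝ) = H := by
    intro h3
    have hid := gcd_lvl hM1.ne' hH hz hz' h3
    have hidR : (Nat.gcd z z' : ℝ) * H = (Nat.gcd H z : ℝ) * (Nat.gcd H z' : ℝ) := by
      exact_mod_cast hid
    have hlb : (cf H z : ℝ) * (Nat.gcd H z : ℝ) = H := by exact_mod_cast cf_mul (H := H) (b := z)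
    have hlc : (cf H z' : ℝ) * (Nat.gcd H z' : ℝ) = H := by exact_mod_cast cf_mul (H := H) (b := z')
    have e1 : ((cf H z : ℝ) * (cf H z' : ℝ) * (Nat.gcd z z' : ℝ)) * H = (H : ℝ) * H := by
      calc ((cf H z : ℝ) * (cf H z' : ℝ) * (Nat.gcd z z' : ℝ)) * H
          = (cf H z : ℝ) * (cf H z' : ℝ) * ((Nat.gcd z z' : ℝ) * H) := by ring
        _ = ((cf H z : ℝ) * (Nat.gcd H z : ℝ)) * ((cf H z' : ℝ) * (Nat.gcd H z' : ℝ)) := by
            rw [hidR]; ring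
        _ = _ := by rw [hlb, hlc]
    exact mul_right_cancel₀ hHR.ne' e1
  have hb1 : (2 : ℝ) ^ i ≤ cf H z := by
    have : 2 ^ i ≤ cf H z := by rw [← hi]; exact Nat.pow_log_le_self 2 (cf_pos hH0).ne'
    exact_mod_cast this
  have hb2 : (cf H z : ℝ) < 2 ^ (i + 1) := by
    have : cf H z < 2 ^ (i + 1) := by rw [← hi]; exact Nat.lt_pow_succ_log_self (by norm_num) _
    exact_mod_cast this
  have hc1 : (2 : ℝ) ^ j ≤ cf H z' := by
    have : 2 ^ j ≤ cf H z' := by rw [← hj]; exact Nat.pow_log_le_self 2 (cf_pos hH0).ne'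
    exact_mod_cast this
  have hc2 : (cf H z' : ℝ) < 2 ^ (j + 1) := by
    have : cf H z' < 2 ^ (j + 1) := by rw [← hj]; exact Nat.lt_pow_succ_log_self (by norm_num) _
    exact_mod_cast this
  have hll1 : (2 : ℝ) ^ (i + j) ≤ (cf H z : ℝ) * (cf H z' : ℝ) := by
    rw [pow_add]
    exact mul_le_mul hb1 hc1 (by positivity) ((by positivity : (0:ℝ) ≤ 2 ^ i).trans hb1)
  have hll2 : (cf H z : ℝ) * (cf H z' : ℝ) < 4 * 2 ^ (i + j) := by
    calc (cf H z : ℝ) * (cf H z' : ℝ) < 2 ^ (i + 1) * 2 ^ (j + 1) :=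
          mul_lt_mul'' hb2 hc2 (by positivity) (by positivity)
      _ = _ := by rw [pow_succ, pow_succ, pow_add]; ring
  -- pointwise
  have hpt : ∀ u ∈ M0.divisors, ∀ u' ∈ M0.divisors,
      (if Nat.log 2 (Nat.gcd u u') = s then tq M0 M1 H n X R f f' z z' u u' else 0) ≤
      if (H : ℝ) * 2 ^ s < 8 * X * 2 ^ (i + j) ∧ X * 2 ^ (i + j) < 2 * (H * 2 ^ s) then
        (H : ℝ) / 2 ^ (i + j) * (nu M1 z * nu M1 z') *
        (if (2:ℝ) ^ s ≤ (Nat.gcd u u' : ℝ) ∧ (Nat.gcd u u' : ℝ) < 2 * 2 ^ s then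
          (Nat.gcd u u' : ℝ) * nu M0 u * nu M0 u' *
            ((if R u z (cf H z') ∧ s ≤ Nat.log 2 u ∧ Nat.log 2 u ≤ s + n then f u z else 0) *
              (if s ≤ Nat.log 2 u' ∧ Nat.log 2 u' ≤ s + n then f' u' z' else 0))
        else 0) else 0 := by
    intro u hu u' hu'
    have hu0 : 0 < u := Nat.pos_of_mem_divisors hu
    have hu'0 : 0 < u' := Nat.pos_of_mem_divisors hu'
    set g := Nat.gcd u u' with hg
    have hg0 : 0 < g := Nat.gcd_pos_of_pos_left _ hu0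
    have hrhs : 0 ≤ (H : ℝ) / 2 ^ (i + j) * (nu M1 z * nu M1 z') *
        (if (2:ℝ) ^ s ≤ (g : ℝ) ∧ (g : ℝ) < 2 * 2 ^ s then
          (g : ℝ) * nu M0 u * nu M0 u' *
            ((if R u z (cf H z') ∧ s ≤ Nat.log 2 u ∧ Nat.log 2 u ≤ s + n then f u z else 0) *
              (if s ≤ Nat.log 2 u' ∧ Nat.log 2 u' ≤ s + n then f' u' z' else 0))
        else 0) := by
      refine mul_nonneg (mul_nonneg (by positivity) (mul_nonneg (nu_nonneg _ _) (nu_nonneg _ _))) ?_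
      split_ifs
      all_goals first
        | exact le_rfl
        | exact mul_nonneg (mul_nonneg (mul_nonneg (by positivity) (nu_nonneg _ _))
            (nu_nonneg _ _)) (mul_nonneg (hf _ _) (hf' _ _))
        | (simp)
    by_cases hs : Nat.log 2 g = s
    · rw [if_pos hs]
      unfold tq
      rw [← hg]
      by_cases h : X ≤ (g : ℝ) * (Nat.gcd z z' : ℝ) ∧
          (g : ℝ) * (Nat.gcd z z' : ℝ) < 2 * X ∧ lvl M1 H z z' ∧ R u z (cf H z') ∧
          u ≤ 2 ^ n * g ∧ u' ≤ 2 ^ n * g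
      · rw [if_pos h]
        obtain ⟨h1, h2, h3, h4, h5, h6⟩ := h
        have hgs1 : (2:ℝ) ^ s ≤ (g : ℝ) := by
          have : 2 ^ s ≤ g := by rw [← hs]; exact Nat.pow_log_le_self 2 hg0.ne'
          exact_mod_cast this
        have hgs2 : (g : ℝ) < 2 * 2 ^ s := by
          have : g < 2 ^ (s + 1) := by rw [← hs]; exact Nat.lt_pow_succ_log_self (by norm_num) _
          rw [pow_succ] at this
          have h7 : (g : ℝ) < 2 ^ s * 2 := by exact_mod_cast this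
          linarith
        have hgs3 : g < 2 ^ (s + 1) := by
          rw [← hs]; exact Nat.lt_pow_succ_log_self (by norm_num) _
        have hidz := hid h3
        set G := (Nat.gcd z z' : ℝ) with hG
        have hG0 : 0 < G := by
          rw [hG]
          have : 0 < z := Nat.pos_of_dvd_of_pos hz hM1
          exact_mod_cast Nat.gcd_pos_of_pos_left _ this
        set L2 := (cf H z : ℝ) * (cf H z' : ℝ) with hL2
        have hP0 : (0:ℝ) < 2 ^ (i + j) := by positivity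
        have hK0 : (0:ℝ) < 2 ^ s := by positivity
        -- `G ≤ H / 2^{i+j}`
        have hGle : G ≤ H / 2 ^ (i + j) := by
          rw [le_div_iff₀ hP0, ← hidz]
          calc G * 2 ^ (i + j) ≤ G * L2 := mul_le_mul_of_nonneg_left hll1 hG0.le
            _ = L2 * G := mul_comm _ _
        have hGge : (H : ℝ) < 4 * 2 ^ (i + j) * G := by
          rw [← hidz]; exact mul_lt_mul_of_pos_right hll2 hG0
        have hw1 : (H : ℝ) * 2 ^ s < 8 * X * 2 ^ (i + j) := by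
          calc (H : ℝ) * 2 ^ s < 4 * 2 ^ (i + j) * G * 2 ^ s :=
                mul_lt_mul_of_pos_right hGge hK0
            _ ≤ 4 * 2 ^ (i + j) * G * g :=
                mul_le_mul_of_nonneg_left hgs1 (by positivity)
            _ = 4 * 2 ^ (i + j) * (g * G) := by ring
            _ < 4 * 2 ^ (i + j) * (2 * X) := mul_lt_mul_of_pos_left h2 (by positivity)
            _ = _ := by ring
        have hw2 : X * 2 ^ (i + j) < 2 * (H * 2 ^ s) := by
          have hgR : (0:ℝ) < g := by exact_mod_cast hg0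
          calc X * 2 ^ (i + j) ≤ (g * G) * 2 ^ (i + j) :=
                mul_le_mul_of_nonneg_right h1 hP0.le
            _ ≤ g * (H / 2 ^ (i + j)) * 2 ^ (i + j) := by
                refine mul_le_mul_of_nonneg_right ?_ hP0.le
                exact mul_le_mul_of_nonneg_left hGle hgR.le
            _ = g * H := by field_simp
            _ < (2 * 2 ^ s) * H := mul_lt_mul_of_pos_right hgs2 hHR
            _ = _ := by ring
        rw [if_pos ⟨hw1, hw2⟩, if_pos ⟨hgs1, hgs2⟩]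
        have hlu : s ≤ Nat.log 2 u ∧ Nat.log 2 u ≤ s + n := by
          constructor
          · rw [← hs]
            exact Nat.log_mono_right (Nat.le_of_dvd hu0 (Nat.gcd_dvd_left _ _))
          · have : Nat.log 2 u < s + n + 1 := by
              refine Nat.log_lt_of_lt_pow hu0.ne' (lt_of_le_of_lt h5 ?_)
              calc 2 ^ n * g < 2 ^ n * 2 ^ (s + 1) := Nat.mul_lt_mul_of_pos_left hgs3 (by positivity)
                _ = 2 ^ (s + n + 1) := by rw [← pow_add]; congr 1; omega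
            omega
        have hlu' : s ≤ Nat.log 2 u' ∧ Nat.log 2 u' ≤ s + n := by
          constructor
          · rw [← hs]
            exact Nat.log_mono_right (Nat.le_of_dvd hu'0 (Nat.gcd_dvd_right _ _))
          · have : Nat.log 2 u' < s + n + 1 := by
              refine Nat.log_lt_of_lt_pow hu'0.ne' (lt_of_le_of_lt h6 ?_)
              calc 2 ^ n * g < 2 ^ n * 2 ^ (s + 1) := Nat.mul_lt_mul_of_pos_left hgs3 (by positivity)
                _ = 2 ^ (s + n + 1) := by rw [← pow_add]; congr 1; omega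
            omega
        rw [if_pos ⟨h4, hlu⟩, if_pos hlu']
        have hpos : 0 ≤ (g : ℝ) * (nu M0 u * nu M0 u' * (nu M1 z * nu M1 z')) *
            (f u z * f' u' z') :=
          mul_nonneg (mul_nonneg (by positivity) (mul_nonneg (mul_nonneg (nu_nonneg _ _)
            (nu_nonneg _ _)) (mul_nonneg (nu_nonneg _ _) (nu_nonneg _ _))))
            (mul_nonneg (hf _ _) (hf' _ _))
        calc (g : ℝ) * G * (nu M0 u * nu M0 u' * (nu M1 z * nu M1 z')) * (f u z * f' u' z')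
            = G * ((g : ℝ) * (nu M0 u * nu M0 u' * (nu M1 z * nu M1 z')) *
              (f u z * f' u' z')) := by ring
          _ ≤ H / 2 ^ (i + j) * ((g : ℝ) * (nu M0 u * nu M0 u' * (nu M1 z * nu M1 z')) *
              (f u z * f' u' z')) := mul_le_mul_of_nonneg_right hGle hpos
          _ = _ := by ring
      · rw [if_neg h]
        split_ifs
        all_goals first
          | exact le_rfl
          | exact mul_nonneg (mul_nonneg (by positivity) (mul_nonneg (nu_nonneg _ _)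
              (nu_nonneg _ _))) (mul_nonneg (mul_nonneg (mul_nonneg (by positivity)
              (nu_nonneg _ _)) (nu_nonneg _ _)) (mul_nonneg (hf _ _) (hf' _ _)))
          | (simp)
    · rw [if_neg hs]
      by_cases hw : (H : ℝ) * 2 ^ s < 8 * X * 2 ^ (i + j) ∧ X * 2 ^ (i + j) < 2 * (H * 2 ^ s)
      · rw [if_pos hw]; exact hrhs
      · rw [if_neg hw]
  refine (Finset.sum_le_sum fun u hu => Finset.sum_le_sum fun u' hu' => hpt u hu u' hu').trans ?_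
  by_cases hw : (H : ℝ) * 2 ^ s < 8 * X * 2 ^ (i + j) ∧ X * 2 ^ (i + j) < 2 * (H * 2 ^ s)
  · simp only [if_pos hw]
    simp_rw [← Finset.mul_sum]
    have h := hC M0 (2 ^ s)
      (fun u => if R u z (cf H z') ∧ s ≤ Nat.log 2 u ∧ Nat.log 2 u ≤ s + n then f u z else 0)
      (fun u' => if s ≤ Nat.log 2 u' ∧ Nat.log 2 u' ≤ s + n then f' u' z' else 0)
      hM0.ne' (by positivity)
      (fun x => by split_ifs; exacts [hf _ _, le_rfl])
      (fun x => by split_ifs; exacts [hf1 _ _, zero_le_one])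
      (fun x => by split_ifs; exacts [hf' _ _, le_rfl])
      (fun x => by split_ifs; exacts [hf1' _ _, zero_le_one])
    have hpos : 0 ≤ (H : ℝ) / 2 ^ (i + j) * (nu M1 z * nu M1 z') :=
      mul_nonneg (by positivity) (mul_nonneg (nu_nonneg _ _) (nu_nonneg _ _))
    refine (mul_le_mul_of_nonneg_left h hpos).trans (le_of_eq ?_)
    unfold Vl Vt
    ring
  · simp only [if_neg hw]
    rw [Finset.sum_const_zero, Finset.sum_const_zero]


lemma sum_cl {M H : ℕ} (hM : 0 < M) (hH : H ∣ M) (G : ℕ → ℝ) :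
    ∑ z ∈ M.divisors, G z = ∑ i ∈ range (H + 1), ∑ z ∈ M.divisors.filter (fun z => cl H z = i), G z := by
  have hH0 : 0 < H := Nat.pos_of_dvd_of_pos hH hM
  have hmap : ∀ b ∈ M.divisors, cl H b ∈ range (H + 1) := by
    intro b _
    rw [Finset.mem_range]
    have h1 : Nat.log 2 (cf H b) ≤ cf H b := Nat.log_le_self _ _
    have h2 : cf H b ≤ H := Nat.le_of_dvd hH0 cf_dvd
    unfold cl; omega
  exact (Finset.sum_fiberwise_of_maps_to hmap _).symm

lemma sum_cl2 {M H : ℕ} (hM : 0 < M) (hH : H ∣ M) (G : ℕ → ℕ → ℝ) :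
    ∑ z ∈ M.divisors, ∑ z' ∈ M.divisors, G z z' = ∑ i ∈ range (H + 1), ∑ j ∈ range (H + 1),
      ∑ z ∈ M.divisors.filter (fun z => cl H z = i),
        ∑ z' ∈ M.divisors.filter (fun z => cl H z = j), G z z' := by
  rw [sum_cl hM hH]
  refine Finset.sum_congr rfl fun i _ => ?_
  rw [Finset.sum_congr rfl fun z _ => sum_cl hM hH (G z)]
  exact Finset.sum_comm

/-- all boxes at one low level -/
lemma level_sum {κ C ρ : ℝ} (hκ : 1 / 2 ≤ κ) (hκ1 : κ < 1) (hC0 : 0 ≤ C) (hρ0 : 0 ≤ ρ)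
    (hM0 : 0 < M0) (hM1 : 0 < M1) (hH : H ∣ M1) (hX : 0 < X)
    (hC : ∀ (M : ℕ) (X : ℝ) (f f' : ℕ → ℝ), M ≠ 0 → 0 < X →
      (∀ x, 0 ≤ f x) → (∀ x, f x ≤ 1) → (∀ x, 0 ≤ f' x) → (∀ x, f' x ≤ 1) →
      ∑ b ∈ M.divisors, ∑ c ∈ M.divisors,
        (if X ≤ (Nat.gcd b c : ℝ) ∧ (Nat.gcd b c : ℝ) < 2 * X then
          (Nat.gcd b c : ℝ) * nu M b * nu M c * (f b * f' c)
        else 0) ≤ C * X ^ (2 * κ - 1) *
          ((∑ b ∈ M.divisors, nu M b * f b) ^ κ * (∑ b ∈ M.divisors, nu M b * f' b) ^ κ))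
    (hf : ∀ u z, 0 ≤ f u z) (hf1 : ∀ u z, f u z ≤ 1) (hf' : ∀ u z, 0 ≤ f' u z)
    (hf1' : ∀ u z, f' u z ≤ 1)
    (hR : ∀ u z j, f u z ≠ 0 →
      ((M1.divisors.filter (fun l => Nat.log 2 l = j ∧ R u z l)).card : ℝ) ≤ ρ * 2 ^ j) (s : ℕ) :
    ∑ z ∈ M1.divisors, ∑ z' ∈ M1.divisors, ∑ u ∈ M0.divisors, ∑ u' ∈ M0.divisors,
      (if Nat.log 2 (Nat.gcd u u') = s then tq M0 M1 H n X R f f' z z' u u' else 0) ≤
      64 * C * (X ^ (2 * κ - 1) * ρ ^ (1 - κ)) *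
        ((∑ z ∈ M1.divisors, nu M1 z * Vt M0 n f s z) ^ κ *
          (∑ z ∈ M1.divisors, nu M1 z * Vt M0 n f' s z) ^ κ) := by
  have hH0 : 0 < H := Nat.pos_of_dvd_of_pos hH hM1
  have hHR : (0 : ℝ) < H := by exact_mod_cast hH0
  set a : ℕ → ℝ := fun i => ∑ z ∈ M1.divisors.filter (fun z => cl H z = i), nu M1 z * Vt M0 n f s z
    with ha
  set b : ℕ → ℝ := fun i => ∑ z ∈ M1.divisors.filter (fun z => cl H z = i), nu M1 z * Vt M0 n f' s z
    with hb
  have ha0 : ∀ i, 0 ≤ a i := fun i =>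
    Finset.sum_nonneg fun z _ => mul_nonneg (nu_nonneg _ _) (Vt_nonneg hf _ _)
  have hb0 : ∀ i, 0 ≤ b i := fun i =>
    Finset.sum_nonneg fun z _ => mul_nonneg (nu_nonneg _ _) (Vt_nonneg hf' _ _)
  set B := X ^ (2 * κ - 1) * ρ ^ (1 - κ) with hB
  have hB0 : 0 ≤ B := mul_nonneg (Real.rpow_nonneg hX.le _) (Real.rpow_nonneg hρ0 _)
  -- first index with `H 2^s < 8 X 2^k`
  have hex : ∃ k : ℕ, (H : ℝ) * 2 ^ s < 8 * X * 2 ^ k := by
    obtain ⟨k, hk⟩ := pow_unbounded_of_one_lt ((H : ℝ) * 2 ^ s / (8 * X)) (by norm_num : (1:ℝ) < 2)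
    refine ⟨k, ?_⟩
    rw [div_lt_iff₀ (by positivity)] at hk
    linarith
  set k0 := Nat.find hex with hk0
  have hk1 : (H : ℝ) * 2 ^ s < 8 * X * 2 ^ k0 := Nat.find_spec hex
  have hwin : ∀ k : ℕ, (H : ℝ) * 2 ^ s < 8 * X * 2 ^ k ∧ X * 2 ^ k < 2 * (H * 2 ^ s) →
      k0 ≤ k ∧ k < k0 + 4 := by
    rintro k ⟨h1, h2⟩
    refine ⟨Nat.find_min' hex h1, ?_⟩
    have h3 : X * 2 ^ k < X * 2 ^ (k0 + 4) := by
      calc X * 2 ^ k < 2 * (H * 2 ^ s) := h2
        _ ≤ 2 * (8 * X * 2 ^ k0) := by linarith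
        _ = X * 2 ^ (k0 + 4) := by rw [pow_add]; ring
    have h4 : (2:ℝ) ^ k < 2 ^ (k0 + 4) := lt_of_mul_lt_mul_left h3 hX.le
    exact (pow_lt_pow_iff_right₀ (by norm_num)).1 h4
  rw [sum_cl2 hM1 hH]
  have hbox : ∀ i ∈ range (H + 1), ∀ j ∈ range (H + 1),
      ∑ z ∈ M1.divisors.filter (fun z => cl H z = i),
        ∑ z' ∈ M1.divisors.filter (fun z => cl H z = j), ∑ u ∈ M0.divisors, ∑ u' ∈ M0.divisors,
      (if Nat.log 2 (Nat.gcd u u') = s then tq M0 M1 H n X R f f' z z' u u' else 0) ≤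
      ∑ d ∈ range 4, (16 * C * B) * (if i + j = k0 + d then a i ^ κ * b j ^ κ else 0) := by
    intro i _ j _
    have hab : 0 ≤ a i ^ κ * b j ^ κ :=
      mul_nonneg (Real.rpow_nonneg (ha0 _) _) (Real.rpow_nonneg (hb0 _) _)
    have h1 : ∑ z ∈ M1.divisors.filter (fun z => cl H z = i),
        ∑ z' ∈ M1.divisors.filter (fun z => cl H z = j), ∑ u ∈ M0.divisors, ∑ u' ∈ M0.divisors,
        (if Nat.log 2 (Nat.gcd u u') = s then tq M0 M1 H n X R f f' z z' u u' else 0) ≤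
        ∑ z ∈ M1.divisors.filter (fun z => cl H z = i),
        ∑ z' ∈ M1.divisors.filter (fun z => cl H z = j),
        (if (H : ℝ) * 2 ^ s < 8 * X * 2 ^ (i + j) ∧ X * 2 ^ (i + j) < 2 * (H * 2 ^ s) then
        (H : ℝ) / 2 ^ (i + j) * C * ((2:ℝ) ^ s) ^ (2 * κ - 1) *
          (nu M1 z * nu M1 z' * (Vl M0 n R f s z (cf H z') ^ κ * Vt M0 n f' s z' ^ κ)) else 0) := by
      refine Finset.sum_le_sum fun z hz => Finset.sum_le_sum fun z' hz' => ?_
      rw [Finset.mem_filter, Nat.mem_divisors] at hz hz'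
      exact low_sum hM0 hM1 hH hC hf hf1 hf' hf1' s i j z z' hz.1.1 hz'.1.1 hz.2 hz'.2
    refine h1.trans ?_
    by_cases hw : (H : ℝ) * 2 ^ s < 8 * X * 2 ^ (i + j) ∧ X * 2 ^ (i + j) < 2 * (H * 2 ^ s)
    · simp only [if_pos hw]
      simp_rw [← Finset.mul_sum]
      have h2 := lvl_box hM1 hH hκ hκ1 hρ0 (fun z l => Vl M0 n R f s z l) (fun z => Vt M0 n f s z)
        (fun z => Vt M0 n f' s z) (fun z l => Vl_nonneg hf s z l) (fun z l => Vl_le_Vt hf s z l)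
        (fun z => Vt_nonneg hf' s z) j
        (fun z => sum_Vl_le hf s z j (fun u hu => hR u z j hu)) i
      have hpos : 0 ≤ (H : ℝ) / 2 ^ (i + j) * C * ((2:ℝ) ^ s) ^ (2 * κ - 1) := by positivity
      have h3 := mul_le_mul_of_nonneg_left h2 hpos
      have h4 := box_arith (K := (2:ℝ) ^ s) hκ hκ1 hHR hX hρ0 (by positivity) i j
        (by rw [mul_comm]; exact hw.1)
      have h5 : (H : ℝ) / 2 ^ (i + j) * C * ((2:ℝ) ^ s) ^ (2 * κ - 1) *
          ((2 * 4 ^ i / H) ^ (1 - κ) * (2 * 4 ^ j * ρ / H) ^ (1 - κ) * (a i ^ κ * b j ^ κ)) ≤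
          (16 * C * B) * (a i ^ κ * b j ^ κ) := by
        calc (H : ℝ) / 2 ^ (i + j) * C * ((2:ℝ) ^ s) ^ (2 * κ - 1) *
          ((2 * 4 ^ i / H) ^ (1 - κ) * (2 * 4 ^ j * ρ / H) ^ (1 - κ) * (a i ^ κ * b j ^ κ))
            = ((H : ℝ) / 2 ^ (i + j) * (((2:ℝ) ^ s) ^ (2 * κ - 1) *
              ((2 * 4 ^ i / H) ^ (1 - κ) * (2 * 4 ^ j * ρ / H) ^ (1 - κ)))) *
              (C * (a i ^ κ * b j ^ κ)) := by ring
          _ ≤ (16 * (X ^ (2 * κ - 1) * ρ ^ (1 - κ))) * (C * (a i ^ κ * b j ^ κ)) :=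
              mul_le_mul_of_nonneg_right h4 (mul_nonneg hC0 hab)
          _ = _ := by rw [hB]; ring
      refine (h3.trans h5).trans (mul_le_mul_of_nonneg_left ?_ (by positivity))
      obtain ⟨h6, h7⟩ := hwin (i + j) hw
      have h8 : i + j - k0 ∈ range 4 := by rw [Finset.mem_range]; omega
      refine le_trans ?_ (Finset.single_le_sum
        (f := fun d => if i + j = k0 + d then a i ^ κ * b j ^ κ else 0) (fun d _ => ?_) h8)
      · rw [if_pos (by omega)]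
      · split_ifs
        · exact hab
        · exact le_rfl
    · simp only [if_neg hw]
      rw [Finset.sum_const_zero, Finset.sum_const_zero]
      refine Finset.sum_nonneg fun d _ => ?_
      split_ifs
      · exact mul_nonneg (by positivity) hab
      · rw [mul_zero]
  refine (Finset.sum_le_sum fun i hi => Finset.sum_le_sum fun j hj => hbox i hi j hj).trans ?_
  have e1 : ∑ i ∈ range (H + 1), ∑ j ∈ range (H + 1), ∑ d ∈ range 4,
      (16 * C * B) * (if i + j = k0 + d then a i ^ κ * b j ^ κ else 0) =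
      ∑ d ∈ range 4, (16 * C * B) * ∑ i ∈ range (H + 1), ∑ j ∈ range (H + 1),
        (if i + j = k0 + d then a i ^ κ * b j ^ κ else 0) := by
    simp_rw [Finset.mul_sum]
    rw [Finset.sum_congr rfl fun i _ => Finset.sum_comm, Finset.sum_comm]
  rw [e1]
  have h9 : ∀ d ∈ range 4, (16 * C * B) * ∑ i ∈ range (H + 1), ∑ j ∈ range (H + 1),
        (if i + j = k0 + d then a i ^ κ * b j ^ κ else 0) ≤
      (16 * C * B) * ((∑ z ∈ M1.divisors, nu M1 z * Vt M0 n f s z) ^ κ *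
          (∑ z ∈ M1.divisors, nu M1 z * Vt M0 n f' s z) ^ κ) := by
    intro d _
    refine mul_le_mul_of_nonneg_left ?_ (by positivity)
    refine (diag_box (H + 1) (H + 1) (fun i j => i + j = k0 + d) (fun i j j' h h' => by omega)
      (fun i i' j h h' => by omega) a b ha0 hb0 hκ).trans (le_of_eq ?_)
    rw [ha, hb]
    simp only
    rw [← sum_cl hM1 hH, ← sum_cl hM1 hH]
  refine (Finset.sum_le_sum h9).trans (le_of_eq ?_)
  rw [Finset.sum_const, Finset.card_range, nsmul_eq_mul, hB]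
  push_cast
  ring

/-- **the cell theorem** -/
theorem cell {κ C ρ : ℝ} (hκ : 1 / 2 ≤ κ) (hκ1 : κ < 1) (hC0 : 0 ≤ C) (hρ0 : 0 ≤ ρ)
    (hM0 : 0 < M0) (hM1 : 0 < M1) (hH : H ∣ M1) (hX : 0 < X)
    (hC : ∀ (M : ℕ) (X : ℝ) (f f' : ℕ → ℝ), M ≠ 0 → 0 < X →
      (∀ x, 0 ≤ f x) → (∀ x, f x ≤ 1) → (∀ x, 0 ≤ f' x) → (∀ x, f' x ≤ 1) →
      ∑ b ∈ M.divisors, ∑ c ∈ M.divisors,
        (if X ≤ (Nat.gcd b c : ℝ) ∧ (Nat.gcd b c : ℝ) < 2 * X then
          (Nat.gcd b c : ℝ) * nu M b * nu M c * (f b * f' c)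
        else 0) ≤ C * X ^ (2 * κ - 1) *
          ((∑ b ∈ M.divisors, nu M b * f b) ^ κ * (∑ b ∈ M.divisors, nu M b * f' b) ^ κ))
    (hf : ∀ u z, 0 ≤ f u z) (hf1 : ∀ u z, f u z ≤ 1) (hf' : ∀ u z, 0 ≤ f' u z)
    (hf1' : ∀ u z, f' u z ≤ 1)
    (hR : ∀ u z j, f u z ≠ 0 →
      ((M1.divisors.filter (fun l => Nat.log 2 l = j ∧ R u z l)).card : ℝ) ≤ ρ * 2 ^ j) :
    ∑ z ∈ M1.divisors, ∑ z' ∈ M1.divisors, ∑ u ∈ M0.divisors, ∑ u' ∈ M0.divisors,
      tq M0 M1 H n X R f f' z z' u u' ≤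
      64 * C * (n + 1) ^ 2 * (X ^ (2 * κ - 1) * ρ ^ (1 - κ)) *
        ((∑ z ∈ M1.divisors, nu M1 z * ∑ u ∈ M0.divisors, nu M0 u * f u z) ^ κ *
          (∑ z ∈ M1.divisors, nu M1 z * ∑ u ∈ M0.divisors, nu M0 u * f' u z) ^ κ) := by
  have hκ0 : 0 ≤ κ := by linarith
  set B := X ^ (2 * κ - 1) * ρ ^ (1 - κ) with hB
  have hB0 : 0 ≤ B := mul_nonneg (Real.rpow_nonneg hX.le _) (Real.rpow_nonneg hρ0 _)
  have e1 : ∑ z ∈ M1.divisors, ∑ z' ∈ M1.divisors, ∑ u ∈ M0.divisors, ∑ u' ∈ M0.divisors,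
      tq M0 M1 H n X R f f' z z' u u' =
      ∑ s ∈ range (M0 + 1), ∑ z ∈ M1.divisors, ∑ z' ∈ M1.divisors, ∑ u ∈ M0.divisors,
        ∑ u' ∈ M0.divisors,
        (if Nat.log 2 (Nat.gcd u u') = s then tq M0 M1 H n X R f f' z z' u u' else 0) := by
    symm
    rw [Finset.sum_comm]
    refine Finset.sum_congr rfl fun z _ => ?_
    rw [Finset.sum_comm]
    refine Finset.sum_congr rfl fun z' _ => ?_
    rw [Finset.sum_comm]
    refine Finset.sum_congr rfl fun u hu => ?_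
    rw [Finset.sum_comm]
    refine Finset.sum_congr rfl fun u' _ => ?_
    rw [Finset.sum_ite_eq, if_pos]
    rw [Finset.mem_range]
    have hu0 : 0 < u := Nat.pos_of_mem_divisors hu
    have h1 : Nat.log 2 (Nat.gcd u u') ≤ Nat.gcd u u' := Nat.log_le_self _ _
    have h2 : Nat.gcd u u' ≤ u := Nat.le_of_dvd hu0 (Nat.gcd_dvd_left _ _)
    have h3 : u ≤ M0 := Nat.le_of_dvd hM0 (Nat.dvd_of_mem_divisors hu)
    omega
  rw [e1]
  refine (Finset.sum_le_sum fun s _ => level_sum hκ hκ1 hC0 hρ0 hM0 hM1 hH hX hC hf hf1 hf' hf1' hR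
    s).trans ?_
  rw [← Finset.mul_sum, ← hB]
  set a : ℕ → ℝ := fun s => ∑ z ∈ M1.divisors, nu M1 z * Vt M0 n f s z with ha
  set b : ℕ → ℝ := fun s => ∑ z ∈ M1.divisors, nu M1 z * Vt M0 n f' s z with hb
  set m := ∑ z ∈ M1.divisors, nu M1 z * ∑ u ∈ M0.divisors, nu M0 u * f u z with hm
  set m' := ∑ z ∈ M1.divisors, nu M1 z * ∑ u ∈ M0.divisors, nu M0 u * f' u z with hm'
  have ha0 : ∀ s, 0 ≤ a s := fun s =>
    Finset.sum_nonneg fun z _ => mul_nonneg (nu_nonneg _ _) (Vt_nonneg hf _ _)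
  have hb0 : ∀ s, 0 ≤ b s := fun s =>
    Finset.sum_nonneg fun z _ => mul_nonneg (nu_nonneg _ _) (Vt_nonneg hf' _ _)
  have hm0 : 0 ≤ m := Finset.sum_nonneg fun z _ => mul_nonneg (nu_nonneg _ _)
    (Finset.sum_nonneg fun u _ => mul_nonneg (nu_nonneg _ _) (hf _ _))
  have hm0' : 0 ≤ m' := Finset.sum_nonneg fun z _ => mul_nonneg (nu_nonneg _ _)
    (Finset.sum_nonneg fun u _ => mul_nonneg (nu_nonneg _ _) (hf' _ _))
  have hsa : ∑ s ∈ range (M0 + 1), a s ≤ (n + 1) * m := by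
    simp only [ha]
    rw [Finset.sum_comm, hm, Finset.mul_sum]
    refine Finset.sum_le_sum fun z _ => ?_
    rw [← Finset.mul_sum]
    calc _ ≤ nu M1 z * ((n + 1) * ∑ u ∈ M0.divisors, nu M0 u * f u z) :=
          mul_le_mul_of_nonneg_left (sum_s_Vt_le _ hf z) (nu_nonneg _ _)
      _ = _ := by ring
  have hsb : ∑ s ∈ range (M0 + 1), b s ≤ (n + 1) * m' := by
    simp only [hb]
    rw [Finset.sum_comm, hm', Finset.mul_sum]
    refine Finset.sum_le_sum fun z _ => ?_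
    rw [← Finset.mul_sum]
    calc _ ≤ nu M1 z * ((n + 1) * ∑ u ∈ M0.divisors, nu M0 u * f' u z) :=
          mul_le_mul_of_nonneg_left (sum_s_Vt_le _ hf' z) (nu_nonneg _ _)
      _ = _ := by ring
  have h2 : ∑ s ∈ range (M0 + 1), a s ^ κ * b s ^ κ ≤ (n + 1) ^ 2 * (m ^ κ * m' ^ κ) := by
    refine (cauchy_sup (range (M0 + 1)) a b (fun s _ => ha0 s) (fun s _ => hb0 s) hκ).trans ?_
    have hn0 : (0:ℝ) ≤ (n:ℝ) + 1 := by positivity
    have h3 : (∑ s ∈ range (M0 + 1), a s) ^ κ ≤ (n + 1) * m ^ κ := by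
      calc (∑ s ∈ range (M0 + 1), a s) ^ κ ≤ ((n + 1) * m) ^ κ :=
            Real.rpow_le_rpow (Finset.sum_nonneg fun s _ => ha0 s) hsa hκ0
        _ = (n + 1) ^ κ * m ^ κ := Real.mul_rpow hn0 hm0
        _ ≤ (n + 1) ^ (1:ℝ) * m ^ κ := by
            refine mul_le_mul_of_nonneg_right ?_ (Real.rpow_nonneg hm0 _)
            exact Real.rpow_le_rpow_of_exponent_le (by linarith [Nat.cast_nonneg (α := ℝ) n]) hκ1.le
        _ = _ := by rw [Real.rpow_one]
    have h4 : (∑ s ∈ range (M0 + 1), b s) ^ κ ≤ (n + 1) * m' ^ κ := by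
      calc (∑ s ∈ range (M0 + 1), b s) ^ κ ≤ ((n + 1) * m') ^ κ :=
            Real.rpow_le_rpow (Finset.sum_nonneg fun s _ => hb0 s) hsb hκ0
        _ = (n + 1) ^ κ * m' ^ κ := Real.mul_rpow hn0 hm0'
        _ ≤ (n + 1) ^ (1:ℝ) * m' ^ κ := by
            refine mul_le_mul_of_nonneg_right ?_ (Real.rpow_nonneg hm0' _)
            exact Real.rpow_le_rpow_of_exponent_le (by linarith [Nat.cast_nonneg (α := ℝ) n]) hκ1.le
        _ = _ := by rw [Real.rpow_one]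
    calc _ ≤ ((n + 1) * m ^ κ) * ((n + 1) * m' ^ κ) :=
          mul_le_mul h3 h4 (Real.rpow_nonneg (Finset.sum_nonneg fun s _ => hb0 s) _)
            (mul_nonneg hn0 (Real.rpow_nonneg hm0 _))
      _ = _ := by ring
  calc 64 * C * B * ∑ s ∈ range (M0 + 1), a s ^ κ * b s ^ κ
      ≤ 64 * C * B * ((n + 1) ^ 2 * (m ^ κ * m' ^ κ)) :=
        mul_le_mul_of_nonneg_left h2 (by positivity)
    _ = _ := by ring

end cellsec

end Crest.Agent.R4C.RareFLx208
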