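import Crest.Agent.R4C.Law_69
import Crest.Agent.Lib.Mertens

/-!
# Row 4: Rankin tail of the smooth part under the exact law, general `M` (helper808)

* `local_le`   : one prime: `E x^v ≤ 1 + (x-1)/p/(1-c)` if `x/p ≤ c < 1`, `x ≥ 1`;
* `Ex_low_rpow`: `E (b_{≤y})^(1/log y) ≤ e^14` (`y ≥ 8`);
* `low_tail`   : `P(b_{≤y} ≥ z) ≤ e^14 z^(-1/log y)`;
* `low_tail'`  : the same for the law of `low y M`.
-/

set_option autoImplicit false

open Finset

namespace Crest.Agent.R4C.RelTailx808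

open Basex935 Cutx50 Lawx69

lemma geom_le {q c : ℝ} (hq : 0 ≤ q) (hqc : q ≤ c) (hc : c < 1) (a : ℕ) :
    ∑ j ∈ range a, q ^ j ≤ 1 / (1 - c) := by
  have h1 : 0 < 1 - q := by linarith
  have h2 : (∑ j ∈ range a, q ^ j) * (1 - q) = 1 - q ^ a := by
    have := geom_sum_mul q a
    linarith
  have h3 : ∑ j ∈ range a, q ^ j ≤ 1 / (1 - q) := by
    rw [le_div_iff₀ h1, h2]
    have : 0 ≤ q ^ a := pow_nonneg hq a
    linarith
  exact h3.trans (one_div_le_one_div_of_le (by linarith) (by linarith))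

lemma local_eq (p a : ℕ) (x : ℝ) :
    ∑ v ∈ range (a + 1), nup p a v * x ^ v =
      1 + (x - 1) * (1 / (p : ℝ)) * ∑ j ∈ range a, (1 / (p : ℝ) * x) ^ j := by
  have h0 : ∑ v ∈ range (a + 1), nup p a v * x ^ v =
      ∑ v ∈ range a, (1 - 1 / (p : ℝ)) * (1 / (p : ℝ) * x) ^ v + (1 / (p : ℝ) * x) ^ a := by
    rw [sum_range_succ]
    congr 1
    · refine sum_congr rfl fun v hv => ?_
      rw [mem_range] at hv
      unfold nup
      rw [if_pos hv, mul_pow]
      ring
    · unfold nup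
      rw [if_neg (lt_irrefl a), mul_pow]
  rw [h0]
  induction a with
  | zero => simp
  | succ a ih =>
    have ih' := ih (by
      rw [sum_range_succ]
      congr 1
      · refine sum_congr rfl fun v hv => ?_
        rw [mem_range] at hv
        unfold nup
        rw [if_pos hv, mul_pow]
        ring
      · unfold nup
        rw [if_neg (lt_irrefl a), mul_pow])
    rw [sum_range_succ, sum_range_succ (fun j => (1 / (p : ℝ) * x) ^ j)]
    have e : (1 / (p : ℝ) * x) ^ (a + 1) = (1 / (p : ℝ) * x) ^ a * (1 / (p : ℝ) * x) := pow_succ _ _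
    rw [e]
    linear_combination ih'

lemma local_le {p a : ℕ} {x c : ℝ} (hx : 1 ≤ x) (hc : c < 1) (h : 1 / (p : ℝ) * x ≤ c) :
    ∑ v ∈ range (a + 1), nup p a v * x ^ v ≤ 1 + (x - 1) * (1 / (p : ℝ)) * (1 / (1 - c)) := by
  rw [local_eq]
  have h1 : 0 ≤ 1 / (p : ℝ) * x := by positivity
  have h2 := geom_le h1 h hc a
  have h3 : 0 ≤ (x - 1) * (1 / (p : ℝ)) := mul_nonneg (by linarith) (by positivity)
  have := mul_le_mul_of_nonneg_left h2 h3
  linarith

lemma exp_le_two {u : ℝ} (h0 : 0 ≤ u) (h1 : u ≤ 1) : Real.exp u - 1 ≤ 2 * u := by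
  have hconv := convexOn_exp.2 (Set.mem_univ (0 : ℝ)) (Set.mem_univ (1 : ℝ))
    (by linarith : (0 : ℝ) ≤ 1 - u) h0 (by ring)
  simp only [smul_eq_mul, mul_zero, mul_one, zero_add, Real.exp_zero] at hconv
  have he := Real.exp_one_lt_d9
  nlinarith

lemma log_eight : (2 : ℝ) ≤ Real.log 8 := by
  have h : Real.log 8 = 3 * Real.log 2 := by
    rw [show (8 : ℝ) = 2 ^ (3 : ℕ) by norm_num, Real.log_pow]
    norm_num
  have := Real.log_two_gt_d9
  rw [h]
  linarith

/-- the local factor at a prime `p ≤ y` with the exponent `σ = 1/log y` -/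
lemma local_rankin {p a y : ℕ} (hp : p.Prime) (hy : 8 ≤ y) (hpy : p ≤ y) :
    ∑ v ∈ range (a + 1), nup p a v * ((p : ℝ) ^ (1 / Real.log y)) ^ v ≤
      Real.exp (8 * (1 / Real.log y) * (Real.log p / p)) := by
  have hp0 : (0 : ℝ) < p := by exact_mod_cast hp.pos
  have hp2 : (2 : ℝ) ≤ p := by exact_mod_cast hp.two_le
  have hy8 : (8 : ℝ) ≤ y := by exact_mod_cast hy
  have hly : 2 ≤ Real.log y := log_eight.trans (Real.log_le_log (by norm_num) hy8)
  have hly0 : 0 < Real.log y := by linarith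
  have hlp : 0 ≤ Real.log p := Real.log_nonneg (by linarith)
  have hlpy : Real.log p ≤ Real.log y := Real.log_le_log hp0 (by exact_mod_cast hpy)
  set σ := 1 / Real.log y with hσ
  have hσ0 : 0 < σ := by positivity
  have hσ1 : σ ≤ 1 / 2 := one_div_le_one_div_of_le (by norm_num) hly
  have hu1 : σ * Real.log p ≤ 1 := by
    rw [hσ, one_div, ← div_eq_inv_mul, div_le_one hly0]
    exact hlpy
  have hu0 : 0 ≤ σ * Real.log p := mul_nonneg hσ0.le hlp
  have hx : (p : ℝ) ^ σ = Real.exp (σ * Real.log p) := by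
    rw [Real.rpow_def_of_pos hp0, mul_comm]
  have hx1 : 1 ≤ (p : ℝ) ^ σ := by
    rw [hx]
    exact Real.one_le_exp hu0
  have hwx : 1 / (p : ℝ) * (p : ℝ) ^ σ ≤ 3 / 4 := by
    have e1 : 1 / (p : ℝ) * (p : ℝ) ^ σ = (p : ℝ) ^ (σ - 1) := by
      rw [Real.rpow_sub hp0, Real.rpow_one]
      ring
    rw [e1]
    calc (p : ℝ) ^ (σ - 1) ≤ (p : ℝ) ^ (-(1 / 2) : ℝ) :=
          Real.rpow_le_rpow_of_exponent_le (by linarith) (by linarith)
      _ ≤ (2 : ℝ) ^ (-(1 / 2) : ℝ) :=
          Real.rpow_le_rpow_of_nonpos (by norm_num) hp2 (by norm_num)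
      _ ≤ 3 / 4 := by
          rw [Real.rpow_neg (by norm_num), ← Real.sqrt_eq_rpow, inv_le_comm₀ (by positivity)
            (by norm_num)]
          apply Real.le_sqrt_of_sq_le
          norm_num
  have h := local_le (a := a) hx1 (by norm_num : (3 / 4 : ℝ) < 1) hwx
  refine h.trans ?_
  have h2 : (p : ℝ) ^ σ - 1 ≤ 2 * (σ * Real.log p) := by
    rw [hx]
    exact exp_le_two hu0 hu1
  have h3 : ((p : ℝ) ^ σ - 1) * (1 / (p : ℝ)) * (1 / (1 - 3 / 4)) ≤
      8 * σ * (Real.log p / p) := by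
    have h4 : 0 ≤ 1 / (p : ℝ) := by positivity
    have h5 := mul_le_mul_of_nonneg_right h2 h4
    calc ((p : ℝ) ^ σ - 1) * (1 / (p : ℝ)) * (1 / (1 - 3 / 4))
        = 4 * (((p : ℝ) ^ σ - 1) * (1 / (p : ℝ))) := by ring
      _ ≤ 4 * (2 * (σ * Real.log p) * (1 / (p : ℝ))) := by linarith
      _ = 8 * σ * (Real.log p / p) := by ring
  calc 1 + ((p : ℝ) ^ σ - 1) * (1 / (p : ℝ)) * (1 / (1 - 3 / 4))
      ≤ 8 * σ * (Real.log p / p) + 1 := by linarith
    _ ≤ _ := Real.add_one_le_exp _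

lemma low_rpow {M y b : ℕ} (hM : 0 < M) (hb : b ∣ M) (σ : ℝ) :
    ((low y b : ℕ) : ℝ) ^ σ =
      ∏ p ∈ M.primeFactors, (if p ≤ y then ((p : ℝ) ^ σ) ^ (b.factorization p) else 1) := by
  have hb0 : b ≠ 0 := (Nat.pos_of_dvd_of_pos hb hM).ne'
  unfold low part
  push_cast
  rw [← Real.finsetProd_rpow _ _ (fun p _ => by positivity)]
  rw [Finset.prod_filter]
  have hsub : b.primeFactors ⊆ M.primeFactors := Nat.primeFactors_mono hb hM.ne'
  rw [← Finset.prod_subset hsub]
  · refine prod_congr rfl fun p _ => ?_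
    split_ifs
    · rw [← Real.rpow_natCast, ← Real.rpow_mul (Nat.cast_nonneg p), mul_comm,
        Real.rpow_mul (Nat.cast_nonneg p), Real.rpow_natCast]
    · rfl
  · intro p _ hp
    have : b.factorization p = 0 := by
      rw [← Nat.support_factorization] at hp
      exact Finsupp.notMem_support_iff.1 hp
    split_ifs
    · rw [this, pow_zero]
    · rfl

/-- `E (b_{≤ y})^{1/log y} ≤ e^14` -/
theorem Ex_low_rpow {M y : ℕ} (hM : 0 < M) (hy : 8 ≤ y) :
    Ex M (fun b => ((low y b : ℕ) : ℝ) ^ (1 / Real.log y)) ≤ Real.exp 14 := by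
  set σ := 1 / Real.log y with hσ
  have hy8 : (8 : ℝ) ≤ y := by exact_mod_cast hy
  have hly : 2 ≤ Real.log y := log_eight.trans (Real.log_le_log (by norm_num) hy8)
  have hly0 : 0 < Real.log y := by linarith
  have hσ0 : 0 < σ := by positivity
  have e1 : Ex M (fun b => ((low y b : ℕ) : ℝ) ^ σ) =
      Ex M (fun b => ∏ p ∈ M.primeFactors,
        (fun (p v : ℕ) => if p ≤ y then ((p : ℝ) ^ σ) ^ v else 1) p (b.factorization p)) := by
    unfold Ex
    refine sum_congr rfl fun b hb => ?_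
    rw [Nat.mem_divisors] at hb
    beta_reduce
    rw [low_rpow hM hb.1]
  rw [e1, Ex_prod hM (fun (p v : ℕ) => if p ≤ y then ((p : ℝ) ^ σ) ^ v else 1)]
  have e2 : ∀ p ∈ M.primeFactors, ∑ v ∈ range (M.factorization p + 1),
      nup p (M.factorization p) v * (if p ≤ y then ((p : ℝ) ^ σ) ^ v else 1) ≤
      Real.exp (if p ≤ y then 8 * σ * (Real.log p / p) else 0) := by
    intro p hp
    have hpp := Nat.prime_of_mem_primeFactors hp
    split_ifs with h
    · exact local_rankin hpp hy h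
    · rw [Real.exp_zero]
      have := local_eq p (M.factorization p) 1
      simp only [one_pow, sub_self, zero_mul, add_zero] at this
      exact this.le
  have e3 : ∀ p ∈ M.primeFactors, 0 ≤ ∑ v ∈ range (M.factorization p + 1),
      nup p (M.factorization p) v * (if p ≤ y then ((p : ℝ) ^ σ) ^ v else 1) := by
    intro p hp
    refine sum_nonneg fun v _ => mul_nonneg
      (nup_nonneg (Nat.prime_of_mem_primeFactors hp).pos _ _) ?_
    split_ifs <;> positivity
  refine (Finset.prod_le_prod e3 e2).trans ?_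
  rw [← Real.exp_sum]
  apply Real.exp_le_exp.2
  rw [← Finset.sum_filter, ← Finset.mul_sum]
  have h3 : ∑ p ∈ M.primeFactors.filter (fun p => p ≤ y), Real.log p / (p : ℝ) ≤
      Crest.Agent.Lib.Mertens.A y := by
    unfold Crest.Agent.Lib.Mertens.A
    refine Finset.sum_le_sum_of_subset_of_nonneg ?_ ?_
    · intro p hp
      rw [Finset.mem_filter] at hp
      exact Nat.mem_primesLE.2 ⟨hp.2, Nat.prime_of_mem_primeFactors hp.1⟩
    · intro p hp _
      have := Nat.prime_of_mem_primesLE hp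
      exact div_nonneg (Real.log_nonneg (by exact_mod_cast this.one_le)) (Nat.cast_nonneg _)
  have h4 := Crest.Agent.Lib.Mertens.A_le y (by omega)
  have h5 : Real.log 4 ≤ 3 / 2 := by
    have : Real.log 4 = 2 * Real.log 2 := by
      rw [show (4 : ℝ) = 2 ^ (2 : ℕ) by norm_num, Real.log_pow]
      norm_num
    have h6 := Real.log_two_lt_d9
    rw [this]
    linarith
  calc 8 * σ * ∑ p ∈ M.primeFactors.filter (fun p => p ≤ y), Real.log p / (p : ℝ)
      ≤ 8 * σ * (Real.log y + 3 / 2) := by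
        refine mul_le_mul_of_nonneg_left (by linarith) (by positivity)
    _ = 8 * (σ * Real.log y) + 12 * σ := by ring
    _ = 8 + 12 * σ := by
        rw [hσ, one_div, inv_mul_cancel₀ hly0.ne']
        ring
    _ ≤ 14 := by
        have : σ ≤ 1 / 2 := one_div_le_one_div_of_le (by norm_num) hly
        linarith

/-- **Rankin tail** -/
theorem low_tail {M y : ℕ} (hM : 0 < M) (hy : 8 ≤ y) {z : ℝ} (hz : 0 < z) :
    ∑ b ∈ M.divisors with z ≤ ((low y b : ℕ) : ℝ), nu M b ≤
      Real.exp 14 * z ^ (-(1 / Real.log y)) := by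
  set σ := 1 / Real.log y with hσ
  have hy8 : (8 : ℝ) ≤ y := by exact_mod_cast hy
  have hly : 2 ≤ Real.log y := log_eight.trans (Real.log_le_log (by norm_num) hy8)
  have hσ0 : 0 < σ := by positivity
  have h := Ex_low_rpow hM hy
  rw [← hσ] at h
  have hzσ : 0 < z ^ (-σ) := Real.rpow_pos_of_pos hz _
  calc ∑ b ∈ M.divisors with z ≤ ((low y b : ℕ) : ℝ), nu M b
      ≤ ∑ b ∈ M.divisors with z ≤ ((low y b : ℕ) : ℝ),
        z ^ (-σ) * (nu M b * ((low y b : ℕ) : ℝ) ^ σ) := by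
        refine sum_le_sum fun b hb => ?_
        rw [Finset.mem_filter] at hb
        have h1 : 1 ≤ z ^ (-σ) * ((low y b : ℕ) : ℝ) ^ σ := by
          have h2 : z ^ σ ≤ ((low y b : ℕ) : ℝ) ^ σ := Real.rpow_le_rpow hz.le hb.2 hσ0.le
          calc (1 : ℝ) = z ^ (-σ) * z ^ σ := by
                rw [← Real.rpow_add hz]
                simp
            _ ≤ _ := mul_le_mul_of_nonneg_left h2 hzσ.le
        calc nu M b = nu M b * 1 := (mul_one _).symm
          _ ≤ nu M b * (z ^ (-σ) * ((low y b : ℕ) : ℝ) ^ σ) :=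
              mul_le_mul_of_nonneg_left h1 (nu_nonneg _ _)
          _ = _ := by ring
    _ ≤ ∑ b ∈ M.divisors, z ^ (-σ) * (nu M b * ((low y b : ℕ) : ℝ) ^ σ) :=
        sum_le_sum_of_subset_of_nonneg (filter_subset _ _) fun b _ _ =>
          mul_nonneg hzσ.le (mul_nonneg (nu_nonneg _ _) (by positivity))
    _ = z ^ (-σ) * Ex M (fun b => ((low y b : ℕ) : ℝ) ^ σ) := by
        unfold Ex
        rw [← mul_sum]
    _ ≤ z ^ (-σ) * Real.exp 14 := mul_le_mul_of_nonneg_left h hzσ.le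
    _ = _ := mul_comm _ _

lemma low_self_of_dvd {M y n : ℕ} (hn : n ∣ low y M) : low y n = n := by
  have h := low_of_mul (x := y) (T := 1) (M' := M) hn (one_dvd _)
  rwa [mul_one] at h

/-- the tail for the law on the divisors of `low y M` -/
theorem low_tail' {M y : ℕ} (hy : 8 ≤ y) {z : ℝ} (hz : 0 < z) :
    ∑ n ∈ (low y M).divisors.filter (fun n : ℕ => z ≤ (n : ℝ)), nu (low y M) n ≤
      Real.exp 14 * z ^ (-(1 / Real.log y)) := by
  have h := low_tail (M := low y M) (low_pos y M) hy hz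
  refine le_trans (le_of_eq ?_) h
  refine sum_congr ?_ fun _ _ => rfl
  refine filter_congr fun n hn => ?_
  rw [Nat.mem_divisors] at hn
  rw [low_self_of_dvd hn.1]

end Crest.Agent.R4C.RelTailx808
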