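import Crest.Agent.R4C.Rare_473
import Crest.Agent.R4C.ThmR_19

/-!
# Row 4: second moment of the divisor function on `Y`-smooth words, Rankin weight (helper590)

`∑_{n ∣ M} τ(n)² n^{-(1 - 1/log Y)} ≤ C (log Y)^4` if all primes of `M` are `≤ Y`, `Y ≥ 16`.
-/

set_option autoImplicit false

namespace Crest.Agent.R4C.TauMomx590

open Finset Crest.Agent.R4C.Basex935 Crest.Agent.R4C.ThmRx19

/-- exact partial sum of `∑ (k+1)² y^k` -/
lemma tau_sum_eq (y : ℝ) (n : ℕ) :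
    (1 - y) ^ 3 * ∑ k ∈ range n, ((k : ℝ) + 1) ^ 2 * y ^ k =
      1 + y - y ^ n * ((n * (1 - y)) ^ 2 + 2 * n * (1 - y) + (1 + y)) := by
  induction n with
  | zero => simp
  | succ n ih =>
    rw [Finset.sum_range_succ, mul_add, ih, pow_succ]
    push_cast
    ring

lemma tau_sum_le {y : ℝ} (h0 : 0 ≤ y) (h1 : y < 1) (n : ℕ) :
    ∑ k ∈ range n, ((k : ℝ) + 1) ^ 2 * y ^ k ≤ (1 + y) / (1 - y) ^ 3 := by
  have h3 : 0 < (1 - y) ^ 3 := pow_pos (by linarith) 3
  rw [le_div_iff₀ h3, mul_comm, tau_sum_eq]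
  have : 0 ≤ y ^ n * ((n * (1 - y)) ^ 2 + 2 * n * (1 - y) + (1 + y)) := by
    have h4 : 0 ≤ 1 - y := by linarith
    have h5 : 0 ≤ 1 + y := by linarith
    positivity
  linarith

lemma one_sub_exp {y : ℝ} (h0 : 0 ≤ y) (h1 : y ≤ 7 / 10) :
    1 ≤ (1 - y) * Real.exp (y + 3 * y ^ 2) := by
  have hx : 0 ≤ y + 3 * y ^ 2 := by positivity
  have h2 := Real.quadratic_le_exp_of_nonneg hx
  have h3 : 1 + (y + 3 * y ^ 2) + (y + 3 * y ^ 2) ^ 2 / 2 ≤ Real.exp (y + 3 * y ^ 2) := h2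
  have h4 : 1 ≤ (1 - y) * (1 + (y + 3 * y ^ 2) + (y + 3 * y ^ 2) ^ 2 / 2) := by
    nlinarith [mul_nonneg h0 h0, mul_nonneg (mul_nonneg h0 h0) h0,
      mul_nonneg (mul_nonneg h0 h0) (by linarith : (0 : ℝ) ≤ 7 / 10 - y),
      mul_nonneg (mul_nonneg (mul_nonneg h0 h0) h0) (by linarith : (0 : ℝ) ≤ 7 / 10 - y)]
  exact h4.trans (mul_le_mul_of_nonneg_left h3 (by linarith))

lemma tau_fac_le {y : ℝ} (h0 : 0 ≤ y) (h1 : y ≤ 7 / 10) :
    (1 + y) / (1 - y) ^ 3 ≤ Real.exp (4 * y + 9 * y ^ 2) := by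
  have h3 : 0 < (1 - y) ^ 3 := pow_pos (by linarith) 3
  have hs := one_sub_exp h0 h1
  rw [div_le_iff₀ h3]
  have e1 : Real.exp (4 * y + 9 * y ^ 2) = Real.exp y * Real.exp (y + 3 * y ^ 2) ^ 3 := by
    rw [← Real.exp_nat_mul, ← Real.exp_add]; congr 1; push_cast; ring
  rw [e1]
  have h4 : 1 + y ≤ Real.exp y := by linarith [Real.add_one_le_exp y]
  have h5 : (1 : ℝ) ≤ ((1 - y) * Real.exp (y + 3 * y ^ 2)) ^ 3 := one_le_pow₀ hs
  calc 1 + y ≤ Real.exp y * 1 := by linarith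
    _ ≤ Real.exp y * ((1 - y) * Real.exp (y + 3 * y ^ 2)) ^ 3 :=
        mul_le_mul_of_nonneg_left h5 (Real.exp_pos _).le
    _ = _ := by ring

/-- the moment as an exponential of prime sums -/
lemma tau_prod {κ : ℝ} {Y : ℝ} (hκ : κ = 1 / Real.log Y) (hY : 16 ≤ Y) : ∀ M : ℕ, 0 < M →
    ((∀ p, p.Prime → p ∣ M → (p : ℝ) ≤ Y) →
      ∑ n ∈ M.divisors, ((n.divisors.card : ℝ)) ^ 2 * (n : ℝ) ^ (-(1 - κ)) ≤
        Real.exp (∑ p ∈ M.primeFactors,
          (4 * ((p : ℝ) ^ (-(1 - κ))) + 9 * ((p : ℝ) ^ (-(1 - κ))) ^ 2))) := by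
  apply ind_max
  · intro _
    simp
  · intro p a M1 hp ha hM1 hnd hlt ih hprime
    have hcop : Nat.Coprime (p ^ a) M1 :=
      Nat.Coprime.pow_left a ((Nat.Prime.coprime_iff_not_dvd hp).2 hnd)
    have hpY : (p : ℝ) ≤ Y := hprime p hp ((dvd_pow_self p ha.ne').mul_right M1)
    have hp0 : (0 : ℝ) < p := by exact_mod_cast hp.pos
    have ih' := ih (fun r hr hrd => hprime r hr (hrd.mul_left _))
    obtain ⟨-, -, hx3⟩ := Rarex473.px_facts hY hp hpY
    set y : ℝ := (p : ℝ) ^ (-(1 - κ)) with hy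
    have hy0 : 0 ≤ y := by rw [hy]; positivity
    have hy1 : y ≤ 7 / 10 := by
      have : y = 1 / (p : ℝ) * (p : ℝ) ^ (1 / Real.log Y) := by
        rw [hy, hκ, show -(1 - 1 / Real.log Y) = (-1 : ℝ) + 1 / Real.log Y by ring,
          Real.rpow_add hp0, Real.rpow_neg_one, one_div (p : ℝ)]
      rw [this]; exact hx3
    rw [sum_divisors_pp hp hnd]
    have e1 : ∑ i ∈ range (a + 1), ∑ q ∈ M1.divisors,
        (((p ^ i * q).divisors.card : ℕ) : ℝ) ^ 2 * ((p ^ i * q : ℕ) : ℝ) ^ (-(1 - κ)) =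
        (∑ i ∈ range (a + 1), ((i : ℝ) + 1) ^ 2 * y ^ i) *
          ∑ q ∈ M1.divisors, ((q.divisors.card : ℝ)) ^ 2 * (q : ℝ) ^ (-(1 - κ)) := by
      rw [Finset.sum_mul]
      refine Finset.sum_congr rfl fun i _ => ?_
      rw [Finset.mul_sum]
      refine Finset.sum_congr rfl fun q hq => ?_
      have hqc : Nat.Coprime (p ^ i) q := Nat.Coprime.pow_left i
        ((Nat.Prime.coprime_iff_not_dvd hp).2
          (fun h => hnd (h.trans (Nat.dvd_of_mem_divisors hq))))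
      rw [hqc.card_divisors_mul, Nat.divisors_prime_pow hp, Finset.card_map, Finset.card_range]
      have hpow : ((p : ℝ) ^ i) ^ (-(1 - κ)) = y ^ i := by
        rw [hy, ← Real.rpow_natCast, ← Real.rpow_natCast, ← Real.rpow_mul hp0.le,
          ← Real.rpow_mul hp0.le, mul_comm]
      push_cast
      rw [Real.mul_rpow (by positivity) (by positivity), hpow]
      ring
    rw [e1]
    have hpf : (p ^ a * M1).primeFactors = insert p M1.primeFactors := by
      rw [hcop.primeFactors_mul, Nat.primeFactors_prime_pow ha.ne' hp, Finset.insert_eq]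
    have hpn : p ∉ M1.primeFactors := fun h => hnd (Nat.dvd_of_mem_primeFactors h)
    rw [hpf, Finset.sum_insert hpn, Real.exp_add]
    refine mul_le_mul ((tau_sum_le hy0 (by linarith) _).trans (tau_fac_le hy0 hy1)) ih'
      (Finset.sum_nonneg fun q _ => by positivity) (Real.exp_pos _).le

lemma sum_inv_le {Y : ℝ} (hY : 2 ≤ Y) {s : Finset ℕ} (hs : ∀ p ∈ s, p.Prime ∧ (p : ℝ) ≤ Y) :
    ∑ p ∈ s, 1 / (p : ℝ) ≤ Real.log (Real.log Y) + 28 := by
  have hm := Lib.Mertens.mertens_two 2 Y le_rfl hY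
  have hl2 : 0.6931471803 < Real.log 2 := Real.log_two_gt_d9
  have h1 : ∑ p ∈ s, 1 / (p : ℝ) ≤ 1 / 2 + ∑ p ∈ Lib.Mertens.pr 2 Y, 1 / (p : ℝ) := by
    have hsub : s ⊆ insert 2 (Lib.Mertens.pr 2 Y) := by
      intro p hp
      obtain ⟨h3, h4⟩ := hs p hp
      rw [Finset.mem_insert]
      by_cases h : p = 2
      · exact Or.inl h
      · right
        rw [Lib.Mertens.mem_pr (by norm_num) (by linarith)]
        refine ⟨⟨?_, h4⟩, h3⟩
        have : 2 < p := lt_of_le_of_ne h3.two_le (Ne.symm h)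
        exact_mod_cast this
    refine (Finset.sum_le_sum_of_subset_of_nonneg hsub fun _ _ _ => by positivity).trans ?_
    by_cases h2 : (2 : ℕ) ∈ Lib.Mertens.pr 2 Y
    · rw [Finset.insert_eq_of_mem h2]; linarith
    · rw [Finset.sum_insert h2]; norm_num
  have h2 := (abs_le.1 hm).2
  have h3 : 18 / Real.log 2 ≤ 26 := by
    rw [div_le_iff₀ (by linarith)]; linarith
  have h4 : -(Real.log (Real.log 2)) ≤ 1 / 2 := by
    have hlog : Real.log (1 / Real.log 2) ≤ 1 / Real.log 2 - 1 :=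
      Real.log_le_sub_one_of_pos (by positivity)
    rw [one_div, Real.log_inv] at hlog
    have : (Real.log 2)⁻¹ ≤ 3 / 2 := by
      rw [inv_le_comm₀ (by linarith) (by norm_num)]; linarith
    linarith
  linarith

lemma sum_sq_le (s : Finset ℕ) (hs : ∀ p ∈ s, p.Prime) :
    ∑ p ∈ s, 1 / (p : ℝ) ^ 2 ≤ 2 := by
  have h1 : s ⊆ Finset.Ioc 1 (s.sup id + 1) := by
    intro p hp
    rw [Finset.mem_Ioc]
    have := Finset.le_sup (f := id) hp
    simp only [id] at this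
    exact ⟨(hs p hp).one_lt, by omega⟩
  refine (Finset.sum_le_sum_of_subset_of_nonneg h1 fun _ _ _ => by positivity).trans ?_
  have h2 : ∀ n : ℕ, 1 ≤ n → ∑ k ∈ Finset.Ioc 1 n, 1 / (k : ℝ) ^ 2 ≤ 1 - 1 / (n : ℝ) := by
    intro n hn
    induction n, hn using Nat.le_induction with
    | base => simp
    | succ n hn ih =>
      rw [Finset.sum_Ioc_succ_top hn]
      have hn0 : (0 : ℝ) < n := by exact_mod_cast hn
      have h3 : 1 / ((n + 1 : ℕ) : ℝ) ^ 2 ≤ 1 / (n : ℝ) - 1 / ((n + 1 : ℕ) : ℝ) := by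
        push_cast
        rw [div_sub_div _ _ hn0.ne' (by positivity), div_le_div_iff₀ (by positivity) (by positivity)]
        nlinarith
      linarith
  have h3 := h2 (s.sup id + 1) (by omega)
  have h4 : 0 ≤ 1 / ((s.sup id + 1 : ℕ) : ℝ) := by positivity
  linarith

/-- **second moment of `τ` with Rankin weight** -/
theorem tau_moment_four : ∃ C : ℝ, 0 < C ∧ ∀ (Y : ℝ) (M : ℕ), 16 ≤ Y → 0 < M →
    (∀ p, p.Prime → p ∣ M → (p : ℝ) ≤ Y) →
    ∑ n ∈ M.divisors, ((n.divisors.card : ℝ)) ^ 2 * (n : ℝ) ^ (-(1 - 1 / Real.log Y)) ≤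
      C * Real.log Y ^ 4 := by
  refine ⟨Real.exp 300, Real.exp_pos _, ?_⟩
  intro Y M hY hM hprime
  have hlY16 : Real.log 16 ≤ Real.log Y := Real.log_le_log (by norm_num) hY
  have hl16 : 0 < Real.log 16 := Real.log_pos (by norm_num)
  have hlY : 0 < Real.log Y := hl16.trans_le hlY16
  refine (tau_prod rfl hY M hM hprime).trans ?_
  have hlog4 : Real.log Y ^ 4 = Real.exp (4 * Real.log (Real.log Y)) := by
    have : Real.exp (Real.log (Real.log Y)) = Real.log Y := Real.exp_log hlY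
    calc Real.log Y ^ 4 = Real.exp (Real.log (Real.log Y)) ^ 4 := by rw [this]
      _ = _ := by rw [← Real.exp_nat_mul]; norm_num
  rw [hlog4, ← Real.exp_add, Real.exp_le_exp]
  have hs : ∀ p ∈ M.primeFactors, p.Prime ∧ (p : ℝ) ≤ Y := fun p hp =>
    ⟨Nat.prime_of_mem_primeFactors hp,
      hprime p (Nat.prime_of_mem_primeFactors hp) (Nat.dvd_of_mem_primeFactors hp)⟩
  have h1 := sum_inv_le (by linarith : (2 : ℝ) ≤ Y) hs
  have h2 := sum_sq_le M.primeFactors fun p hp => (hs p hp).1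
  have hfl : 1 ≤ ⌊Y⌋₊ := by
    rw [Nat.one_le_floor_iff]; linarith
  have h3 : ∑ p ∈ M.primeFactors, Real.log p / p ≤ 2 * Real.log Y := by
    have g1 : ∑ p ∈ M.primeFactors, Real.log p / p ≤ Lib.Mertens.A ⌊Y⌋₊ := by
      unfold Lib.Mertens.A
      refine Finset.sum_le_sum_of_subset_of_nonneg ?_ ?_
      · intro p hp
        have hpp := hs p hp
        rw [Nat.mem_primesLE]
        exact ⟨Nat.le_floor hpp.2, hpp.1⟩
      · intro p hp _
        have hpp := Nat.prime_of_mem_primesLE hp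
        exact div_nonneg (Real.log_nonneg (by exact_mod_cast hpp.one_lt.le)) (Nat.cast_nonneg _)
    have g2 := Lib.Mertens.A_le ⌊Y⌋₊ hfl
    have g3 : Real.log (⌊Y⌋₊ : ℕ) ≤ Real.log Y :=
      Real.log_le_log (by exact_mod_cast hfl) (Nat.floor_le (by linarith))
    have g4 : Real.log 4 ≤ Real.log 16 := Real.log_le_log (by norm_num) (by norm_num)
    linarith
  -- pointwise
  have hpt : ∀ p ∈ M.primeFactors,
      4 * ((p : ℝ) ^ (-(1 - 1 / Real.log Y))) + 9 * ((p : ℝ) ^ (-(1 - 1 / Real.log Y))) ^ 2 ≤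
        4 * (1 / (p : ℝ)) + 7 / Real.log Y * (Real.log p / p) + 72 * (1 / (p : ℝ) ^ 2) := by
    intro p hp
    obtain ⟨hp1, hp2⟩ := hs p hp
    have hp0 : (0 : ℝ) < p := by exact_mod_cast hp1.pos
    obtain ⟨hx1, hx2, -⟩ := Rarex473.px_facts hY hp1 hp2
    set x : ℝ := (p : ℝ) ^ (1 / Real.log Y) with hx
    have hxe : x ≤ 2.7182818286 := by
      have : x ≤ Real.exp 1 := by
        rw [hx, Real.rpow_def_of_pos hp0]
        apply Real.exp_le_exp.2
        rw [mul_one_div, div_le_one hlY]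
        exact Real.log_le_log hp0 hp2
      linarith [Real.exp_one_lt_d9]
    have hy : (p : ℝ) ^ (-(1 - 1 / Real.log Y)) = x / p := by
      rw [show -(1 - 1 / Real.log Y) = 1 / Real.log Y - 1 by ring, Real.rpow_sub hp0,
        Real.rpow_one]
    rw [hy]
    have h5 : 4 * (x / p) ≤ 4 * (1 / (p : ℝ)) + 7 / Real.log Y * (Real.log p / p) := by
      have : x ≤ 1 + 7 / 4 * (Real.log p / Real.log Y) := by linarith
      calc 4 * (x / p) ≤ 4 * ((1 + 7 / 4 * (Real.log p / Real.log Y)) / p) := by gcongr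
        _ = _ := by field_simp
    have h6 : 9 * (x / p) ^ 2 ≤ 72 * (1 / (p : ℝ) ^ 2) := by
      rw [div_pow]
      have hx8 : x ^ 2 ≤ 8 := by nlinarith
      calc 9 * (x ^ 2 / (p : ℝ) ^ 2) ≤ 9 * (8 / (p : ℝ) ^ 2) := by gcongr
        _ = _ := by ring
    linarith
  refine (Finset.sum_le_sum hpt).trans ?_
  rw [Finset.sum_add_distrib, Finset.sum_add_distrib, ← Finset.mul_sum, ← Finset.mul_sum,
    ← Finset.mul_sum]
  have h7 : 7 / Real.log Y * ∑ p ∈ M.primeFactors, Real.log p / p ≤ 14 := by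
    calc _ ≤ 7 / Real.log Y * (2 * Real.log Y) := mul_le_mul_of_nonneg_left h3 (by positivity)
      _ = 14 := by field_simp; norm_num
  linarith

/-- 442's form -/
theorem tau_moment : ∃ C : ℝ, 0 < C ∧ ∀ (Y : ℝ) (M : ℕ), 16 ≤ Y → 0 < M →
    (∀ p, p.Prime → p ∣ M → (p : ℝ) ≤ Y) →
    ∑ n ∈ M.divisors, ((n.divisors.card : ℝ)) ^ 2 * (n : ℝ) ^ (-(1 - 1 / Real.log Y)) ≤
      C * Real.log Y ^ 30 := by
  obtain ⟨C, hC, h⟩ := tau_moment_four
  refine ⟨C, hC, fun Y M hY hM hp => (h Y M hY hM hp).trans ?_⟩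
  refine mul_le_mul_of_nonneg_left ?_ hC.le
  refine pow_le_pow_right₀ ?_ (by norm_num)
  have h1 : Real.log (Real.exp 1) ≤ Real.log Y :=
    Real.log_le_log (Real.exp_pos _) (by linarith [Real.exp_one_lt_d9])
  rwa [Real.log_exp] at h1

end Crest.Agent.R4C.TauMomx590
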