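import Crest.Agent.R4C.MXlowB_808
import Crest.Agent.R4C.RelTail_808
import Crest.Agent.R4C.TauMom_590

/-!
# Row 4: low words with a relation, exact (weight free) masses, decay in both masses (helper442)

All primes of `N` are `≤ Y`.  `low_bound`: for every `1/2 < κ < 1`

`ER N G g g' K ≤ C (log Y)^A τ^((1-κ)/8) G⁻¹ (x y)^κ exp (-(θ₀/log Y) (|log x| + |log y|))`

if `G Ex g ≤ x`, `G Ex g' ≤ y`, `K ∈ [0,1]` has natural density `≤ τ`.  Inputs: THEOREM (T) for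
arbitrary `M` (590/808) at two exponents, Rankin (808), the row bound.
-/

set_option autoImplicit false

open Finset

namespace Crest.Agent.R4C.RareLowx442

open Basex935 Cutx50 MXlowx808 MXlowBx808 Lawx69 RelTailx808

/-! ### elementary inequalities -/

/-- Hölder, two factors -/
lemma holder2 {ι : Type*} (s : Finset ι) (a b : ι → ℝ) (ha : ∀ i ∈ s, 0 ≤ a i)
    (hb : ∀ i ∈ s, 0 ≤ b i) {θ : ℝ} (h0 : 0 < θ) (h1 : θ < 1) :
    ∑ i ∈ s, a i ^ θ * b i ^ (1 - θ) ≤ (∑ i ∈ s, a i) ^ θ * (∑ i ∈ s, b i) ^ (1 - θ) := by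
  have hθ' : 0 < 1 - θ := by linarith
  have hpq : (1 / θ).HolderConjugate (1 / (1 - θ)) := by
    rw [Real.holderConjugate_iff]
    refine ⟨?_, ?_⟩
    · rw [lt_div_iff₀ h0]; linarith
    · simp
  have h := Real.inner_le_Lp_mul_Lq_of_nonneg s hpq (f := fun i => a i ^ θ)
    (g := fun i => b i ^ (1 - θ)) (fun i hi => Real.rpow_nonneg (ha i hi) _)
    (fun i hi => Real.rpow_nonneg (hb i hi) _)
  have e1 : ∑ i ∈ s, (a i ^ θ) ^ (1 / θ) = ∑ i ∈ s, a i := by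
    refine sum_congr rfl fun i hi => ?_
    rw [← Real.rpow_mul (ha i hi), mul_one_div_cancel h0.ne', Real.rpow_one]
  have e2 : ∑ i ∈ s, (b i ^ (1 - θ)) ^ (1 / (1 - θ)) = ∑ i ∈ s, b i := by
    refine sum_congr rfl fun i hi => ?_
    rw [← Real.rpow_mul (hb i hi), mul_one_div_cancel hθ'.ne', Real.rpow_one]
  rw [e1, e2, one_div_one_div, one_div_one_div] at h
  exact h

/-- `σ(u)/u ≤ ∏ (1 + 2/p)` -/
lemma sum_inv_divisors_le : ∀ u : ℕ, 0 < u → ∑ d ∈ u.divisors, 1 / (d : ℝ) ≤ aw 2 u := by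
  refine ind_min ?_ ?_
  · simp [aw]
  · intro p a M1 hp ha hM h _ ih
    have hp2 : (2 : ℝ) ≤ p := by exact_mod_cast hp.two_le
    have hp0 : (0 : ℝ) < p := by linarith
    rw [sum_split hp a hM h]
    have e1 : ∀ v ∈ range (a + 1), ∑ b1 ∈ M1.divisors, 1 / ((p ^ v * b1 : ℕ) : ℝ) =
        (1 / (p : ℝ)) ^ v * ∑ b1 ∈ M1.divisors, 1 / (b1 : ℝ) := by
      intro v _
      rw [mul_sum]
      refine sum_congr rfl fun b _ => ?_
      push_cast
      rw [one_div_pow]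
      rw [one_div_mul_one_div]
    rw [sum_congr rfl e1, ← sum_mul]
    have haw : aw 2 (p ^ a * M1) = (1 + 2 / (p : ℝ)) * aw 2 M1 := by
      unfold aw
      rw [Nat.primeFactors_mul (pow_ne_zero _ hp.ne_zero) hM.ne',
        Nat.primeFactors_prime_pow ha.ne' hp, ← insert_eq, prod_insert]
      intro hc
      exact h (Nat.dvd_of_mem_primeFactors hc)
    rw [haw]
    have hq : (1 : ℝ) / p ≤ 1 / 2 := one_div_le_one_div_of_le (by norm_num) hp2
    have hq0 : (0 : ℝ) ≤ 1 / p := by positivity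
    have hg := geom_le hq0 hq (by norm_num : (1 : ℝ) / 2 < 1) a
    have hs : ∑ v ∈ range (a + 1), (1 / (p : ℝ)) ^ v ≤ 1 + 2 / (p : ℝ) := by
      rw [Finset.sum_range_succ']
      simp only [pow_succ, pow_zero]
      rw [← sum_mul]
      have h2 : (∑ i ∈ range a, (1 / (p : ℝ)) ^ i) * (1 / (p : ℝ)) ≤ 2 * (1 / (p : ℝ)) := by
        refine mul_le_mul_of_nonneg_right ?_ hq0
        norm_num at hg ⊢
        exact hg
      have e : 2 * (1 / (p : ℝ)) = 2 / p := by ring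
      linarith
    refine mul_le_mul hs ih (sum_nonneg fun _ _ => by positivity) ?_
    positivity

/-- anatomy weight of a `Y`-smooth word -/
lemma aw_le {Λ : ℝ} (hΛ : 0 ≤ Λ) {N Y u : ℕ} (hN : 0 < N) (hY : 8 ≤ Y)
    (hNY : ∀ p ∈ N.primeFactors, p ≤ Y) (hu : u ∣ N) :
    aw Λ u ≤ Real.exp (28 * Λ) * (Real.log Y) ^ Λ := by
  have hY8 : (8 : ℝ) ≤ Y := by exact_mod_cast hY
  have hly : 2 ≤ Real.log Y := log_eight.trans (Real.log_le_log (by norm_num) hY8)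
  have h1 : aw Λ u ≤ Real.exp (∑ p ∈ u.primeFactors, Λ / (p : ℝ)) := by
    unfold aw
    rw [Real.exp_sum]
    refine Finset.prod_le_prod (fun p _ => by positivity) fun p _ => ?_
    rw [add_comm]
    exact Real.add_one_le_exp _
  refine h1.trans ?_
  have h2 := TauMomx590.sum_inv_le (Y := (Y : ℝ)) (by linarith) (s := u.primeFactors)
    (fun p hp => ⟨Nat.prime_of_mem_primeFactors hp, by
      exact_mod_cast hNY p (Nat.primeFactors_mono hu hN.ne' hp)⟩)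
  have e : ∑ p ∈ u.primeFactors, Λ / (p : ℝ) = Λ * ∑ p ∈ u.primeFactors, 1 / (p : ℝ) := by
    rw [mul_sum]
    exact sum_congr rfl fun p _ => by ring
  rw [e, Real.rpow_def_of_pos (by linarith), ← Real.exp_add]
  refine Real.exp_le_exp.2 ?_
  nlinarith

/-- `(x y)^(κ ± ε)` -/
lemma Ex_eq_mass (N : ℕ) (g : ℕ → ℝ) : Ex N g = MXlowx808.mass N g := rfl

lemma DD_le {Λ : ℝ} {N : ℕ} {W : ℝ} (hW : ∀ u, u ∣ N → aw Λ u ≤ W) {g : ℕ → ℝ}
    (hg : ∀ b, 0 ≤ g b) : DD Λ N g ≤ W * Ex N g :=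
  DD_le_plain hg fun b hb _ => hW b (Nat.dvd_of_mem_divisors hb)

/-! ### the window form of THEOREM (T) for unbounded kernels -/

lemma er_nonneg (N : ℕ) (G : ℝ) {g g' : ℕ → ℝ} {K : ℕ → ℕ → ℝ} (hg : ∀ b, 0 ≤ g b)
    (hg' : ∀ b, 0 ≤ g' b) (hK : ∀ s t, 0 ≤ K s t) : 0 ≤ ER N G g g' K := by
  unfold ER
  refine sum_nonneg fun b _ => sum_nonneg fun c _ => ?_
  split_ifs
  · exact mul_nonneg (mul_nonneg (mul_nonneg (Nat.cast_nonneg _) (nu_nonneg _ _)) (nu_nonneg _ _))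
      (mul_nonneg (mul_nonneg (hg _) (hg' _)) (hK _ _))
  · exact le_rfl

lemma er_mono (N : ℕ) (G : ℝ) {g g' : ℕ → ℝ} {K K' : ℕ → ℕ → ℝ} (hg : ∀ b, 0 ≤ g b)
    (hg' : ∀ b, 0 ≤ g' b) (h : ∀ s t, 0 < s → 0 < t → K s t ≤ K' s t) :
    ER N G g g' K ≤ ER N G g g' K' := by
  unfold ER
  refine sum_le_sum fun b hb => sum_le_sum fun c hc => ?_
  have hb0 : 0 < b := Nat.pos_of_mem_divisors hb
  have hc0 : 0 < c := Nat.pos_of_mem_divisors hc
  split_ifs
  · refine mul_le_mul_of_nonneg_left ?_ (mul_nonneg (mul_nonneg (Nat.cast_nonneg _)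
      (nu_nonneg _ _)) (nu_nonneg _ _))
    refine mul_le_mul_of_nonneg_left (h _ _ ?_ ?_) (mul_nonneg (hg _) (hg' _))
    · exact Nat.div_pos (Nat.le_of_dvd hb0 (Nat.gcd_dvd_left b c)) (Nat.gcd_pos_of_pos_left c hb0)
    · exact Nat.div_pos (Nat.le_of_dvd hc0 (Nat.gcd_dvd_right b c)) (Nat.gcd_pos_of_pos_left c hb0)
  · exact le_rfl

lemma er_T {κ r Λ C : ℝ} (hκ0 : 0 < κ) (hκ1 : κ < 1) (hΛ : 0 ≤ Λ) (hC : 0 ≤ C)
    (hT : TGen κ r Λ C) {M : ℕ} (hM : M ≠ 0) {f f' : ℕ → ℝ}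
    (hf : ∀ b, 0 ≤ f b) (hf1 : ∀ b, f b ≤ 1) (hf' : ∀ b, 0 ≤ f' b) (hf1' : ∀ b, f' b ≤ 1)
    {K : ℕ → ℕ → ℝ} (hK : ∀ s t, 0 ≤ K s t) {G : ℝ} (hG : 0 < G) :
    ER M G f f' K ≤ 2 * C * (dens M fun s t => K s t ^ r) ^ (1 / r) * G ^ κ *
        ((DD Λ M f) ^ ((1 + κ) / 2) * (DD Λ M f') ^ ((1 + κ) / 2)) := by
  have hρ : 0 < (1 + κ) / 2 := by linarith
  have hbase := hT M f f' K hM hf hf' hK
  have hstep : ER M G f f' K
      ≤ (2 * G) ^ κ * ∑ b ∈ M.divisors, ∑ c ∈ M.divisors, nu M b * nu M c *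
        (Nat.gcd b c : ℝ) ^ (1 - κ) * (f b * f' c * K (b / Nat.gcd b c) (c / Nat.gcd b c)) := by
    unfold ER
    rw [Finset.mul_sum]
    refine Finset.sum_le_sum fun b _ => ?_
    rw [Finset.mul_sum]
    refine Finset.sum_le_sum fun c _ => ?_
    have hk : 0 ≤ f b * f' c * K (b / Nat.gcd b c) (c / Nat.gcd b c) :=
      mul_nonneg (mul_nonneg (hf b) (hf' c)) (hK _ _)
    have hn : 0 ≤ nu M b * nu M c := mul_nonneg (nu_nonneg M b) (nu_nonneg M c)
    split_ifs with h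
    · have hg : 0 < (Nat.gcd b c : ℝ) := lt_trans hG h.1
      have h1 : (Nat.gcd b c : ℝ) ≤ (2 * G) ^ κ * (Nat.gcd b c : ℝ) ^ (1 - κ) := by
        calc (Nat.gcd b c : ℝ) = (Nat.gcd b c : ℝ) ^ κ * (Nat.gcd b c : ℝ) ^ (1 - κ) := by
              rw [← Real.rpow_add hg]
              norm_num
          _ ≤ (2 * G) ^ κ * (Nat.gcd b c : ℝ) ^ (1 - κ) :=
              mul_le_mul_of_nonneg_right (Real.rpow_le_rpow hg.le h.2 hκ0.le)
                (Real.rpow_nonneg hg.le _)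
      calc (Nat.gcd b c : ℝ) * nu M b * nu M c *
              (f b * f' c * K (b / Nat.gcd b c) (c / Nat.gcd b c))
          = (Nat.gcd b c : ℝ) * ((nu M b * nu M c) *
              (f b * f' c * K (b / Nat.gcd b c) (c / Nat.gcd b c))) := by ring
        _ ≤ ((2 * G) ^ κ * (Nat.gcd b c : ℝ) ^ (1 - κ)) * ((nu M b * nu M c) *
              (f b * f' c * K (b / Nat.gcd b c) (c / Nat.gcd b c))) :=
            mul_le_mul_of_nonneg_right h1 (mul_nonneg hn hk)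
        _ = _ := by ring
    · exact mul_nonneg (Real.rpow_nonneg (by linarith) _)
        (mul_nonneg (mul_nonneg hn (Real.rpow_nonneg (Nat.cast_nonneg _) _)) hk)
  refine hstep.trans ?_
  have hD1 : (DD Λ M fun b => f b ^ (2 / (1 + κ))) ^ ((1 + κ) / 2) ≤ (DD Λ M f) ^ ((1 + κ) / 2) :=
    Real.rpow_le_rpow (DD_nonneg hΛ M fun b => Real.rpow_nonneg (hf b) _)
      (DD_pow_le hΛ hκ0 hκ1 M hf hf1) hρ.le
  have hD2 : (DD Λ M fun b => f' b ^ (2 / (1 + κ))) ^ ((1 + κ) / 2) ≤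
      (DD Λ M f') ^ ((1 + κ) / 2) :=
    Real.rpow_le_rpow (DD_nonneg hΛ M fun b => Real.rpow_nonneg (hf' b) _)
      (DD_pow_le hΛ hκ0 hκ1 M hf' hf1') hρ.le
  set δ := (dens M fun s t => K s t ^ r) ^ (1 / r) with hδ
  have hdens0 : 0 ≤ dens M fun s t => K s t ^ r :=
    dens_nonneg M fun s t => Real.rpow_nonneg (hK s t) _
  have hδ0 : 0 ≤ δ := Real.rpow_nonneg hdens0 _
  have h2 : (2 : ℝ) ^ κ ≤ 2 := by
    calc (2 : ℝ) ^ κ ≤ (2 : ℝ) ^ (1 : ℝ) :=
          Real.rpow_le_rpow_of_exponent_le (by norm_num) hκ1.le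
      _ = 2 := Real.rpow_one _
  have hGk : (2 * G) ^ κ = 2 ^ κ * G ^ κ := Real.mul_rpow (by norm_num) hG.le
  have hG0 : 0 ≤ G ^ κ := Real.rpow_nonneg hG.le _
  have hDf : 0 ≤ (DD Λ M f) ^ ((1 + κ) / 2) := Real.rpow_nonneg (DD_nonneg hΛ M hf) _
  have hDf' : 0 ≤ (DD Λ M f') ^ ((1 + κ) / 2) := Real.rpow_nonneg (DD_nonneg hΛ M hf') _
  calc (2 * G) ^ κ * ∑ b ∈ M.divisors, ∑ c ∈ M.divisors, nu M b * nu M c *
        (Nat.gcd b c : ℝ) ^ (1 - κ) * (f b * f' c * K (b / Nat.gcd b c) (c / Nat.gcd b c))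
      ≤ (2 * G) ^ κ * (C * ((DD Λ M fun b => f b ^ (2 / (1 + κ))) ^ ((1 + κ) / 2) *
          (DD Λ M fun b => f' b ^ (2 / (1 + κ))) ^ ((1 + κ) / 2)) * δ) :=
        mul_le_mul_of_nonneg_left hbase (Real.rpow_nonneg (by linarith) _)
    _ ≤ (2 * G) ^ κ * (C * ((DD Λ M f) ^ ((1 + κ) / 2) * (DD Λ M f') ^ ((1 + κ) / 2)) * δ) := by
        refine mul_le_mul_of_nonneg_left ?_ (Real.rpow_nonneg (by linarith) _)
        refine mul_le_mul_of_nonneg_right ?_ hδ0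
        refine mul_le_mul_of_nonneg_left ?_ hC
        exact mul_le_mul hD1 hD2 (Real.rpow_nonneg (DD_nonneg hΛ M fun b =>
          Real.rpow_nonneg (hf' b) _) _) hDf
    _ = 2 ^ κ * (C * δ * G ^ κ *
        ((DD Λ M f) ^ ((1 + κ) / 2) * (DD Λ M f') ^ ((1 + κ) / 2))) := by
        rw [hGk]; ring
    _ ≤ 2 * (C * δ * G ^ κ *
        ((DD Λ M f) ^ ((1 + κ) / 2) * (DD Λ M f') ^ ((1 + κ) / 2))) :=
        mul_le_mul_of_nonneg_right h2 (by positivity)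
    _ = _ := by ring

/-! ### Rankin weight -/

lemma dens_eq (N : ℕ) (K : ℕ → ℕ → ℝ) : dens N K =
    ∑ x ∈ N.divisors ×ˢ N.divisors,
      (if Nat.Coprime x.1 x.2 then nu N x.1 * nu N x.2 else 0) * K x.1 x.2 := by
  unfold MXlowx808.dens
  rw [sum_product]
  refine sum_congr rfl fun s _ => sum_congr rfl fun t _ => ?_
  dsimp only
  split_ifs
  · rfl
  · rw [zero_mul]

lemma low_eq_self {N Y b : ℕ} (hN : 0 < N) (hNY : ∀ p ∈ N.primeFactors, p ≤ Y) (hb : b ∣ N) :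
    low Y b = b := by
  have hb0 : b ≠ 0 := (Nat.pos_of_dvd_of_pos hb hN).ne'
  refine Nat.eq_of_factorization_eq (low_pos _ _).ne' hb0 fun p => ?_
  rw [fact_low]
  split_ifs with h
  · rfl
  · symm
    by_contra hc
    apply h
    refine hNY p (Nat.primeFactors_mono hb hN.ne' ?_)
    rw [← Nat.support_factorization]
    exact Finsupp.mem_support_iff.2 hc

/-- Rankin: `E s^σ ≤ e^14` for `σ ≤ 1/log Y` -/
lemma dens_rankin {N Y : ℕ} (hN : 0 < N) (hY : 8 ≤ Y) (hNY : ∀ p ∈ N.primeFactors, p ≤ Y)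
    {σ : ℝ} (hσ : σ ≤ 1 / Real.log Y) :
    dens N (fun s _ => (s : ℝ) ^ σ) ≤ Real.exp 14 := by
  have h := Ex_low_rpow hN hY
  have h1 : Ex N (fun b => (b : ℝ) ^ σ) ≤ Real.exp 14 := by
    refine le_trans ?_ h
    refine Ex_mono N fun b hb => ?_
    rw [low_eq_self hN hNY hb]
    refine Real.rpow_le_rpow_of_exponent_le ?_ hσ
    exact_mod_cast Nat.pos_of_dvd_of_pos hb hN
  refine le_trans ?_ h1
  unfold MXlowx808.dens Ex
  refine sum_le_sum fun s _ => ?_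
  have hs : 0 ≤ nu N s * (s : ℝ) ^ σ := mul_nonneg (nu_nonneg _ _) (by positivity)
  calc ∑ t ∈ N.divisors, (if Nat.Coprime s t then nu N s * nu N t * (s : ℝ) ^ σ else 0)
      ≤ ∑ t ∈ N.divisors, nu N t * (nu N s * (s : ℝ) ^ σ) := by
        refine sum_le_sum fun t _ => ?_
        split_ifs
        · exact le_of_eq (by ring)
        · exact mul_nonneg (nu_nonneg _ _) hs
    _ = nu N s * (s : ℝ) ^ σ := by rw [← sum_mul, sum_nu hN, one_mul]

/-- the density of `(K s^θ)^r` -/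
lemma dens_weight {N Y : ℕ} (hN : 0 < N) (hY : 8 ≤ Y) (hNY : ∀ p ∈ N.primeFactors, p ≤ Y)
    {K : ℕ → ℕ → ℝ} (hK : ∀ s t, 0 ≤ K s t) (hK1 : ∀ s t, K s t ≤ 1) {τ r θ : ℝ} (hr : 1 ≤ r)
    (hτ : dens N K ≤ τ) (hθ : 2 * (r * θ) ≤ 1 / Real.log Y) :
    dens N (fun s t => (K s t * (s : ℝ) ^ θ) ^ r) ≤ Real.exp 7 * τ ^ ((1 : ℝ) / 2) := by
  have hr0 : 0 < r := by linarith
  have hτ0 : 0 ≤ τ := (dens_nonneg N hK).trans hτ
  set w : ℕ × ℕ → ℝ := fun x => if Nat.Coprime x.1 x.2 then nu N x.1 * nu N x.2 else 0 with hw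
  have hw0 : ∀ x, 0 ≤ w x := by
    intro x
    simp only [hw]
    split_ifs
    · exact mul_nonneg (nu_nonneg _ _) (nu_nonneg _ _)
    · exact le_rfl
  have h := holder2 (N.divisors ×ˢ N.divisors) (fun x => w x * K x.1 x.2)
    (fun x => w x * (x.1 : ℝ) ^ (2 * (r * θ))) (fun x _ => mul_nonneg (hw0 x) (hK _ _))
    (fun x _ => mul_nonneg (hw0 x) (by positivity)) (θ := 1 / 2) (by norm_num) (by norm_num)
  have e1 : ∑ x ∈ N.divisors ×ˢ N.divisors, w x * K x.1 x.2 = dens N K := (dens_eq N K).symm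
  have e2 : ∑ x ∈ N.divisors ×ˢ N.divisors, w x * (x.1 : ℝ) ^ (2 * (r * θ)) =
      dens N (fun s _ => (s : ℝ) ^ (2 * (r * θ))) :=
    (dens_eq N (fun s _ => (s : ℝ) ^ (2 * (r * θ)))).symm
  rw [e1, e2] at h
  have h3 : dens N (fun s t => (K s t * (s : ℝ) ^ θ) ^ r) ≤
      ∑ i ∈ N.divisors ×ˢ N.divisors, (w i * K i.1 i.2) ^ ((1 : ℝ) / 2) *
        (w i * (i.1 : ℝ) ^ (2 * (r * θ))) ^ (1 - (1 : ℝ) / 2) := by
    rw [dens_eq]
    refine sum_le_sum fun x _ => ?_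
    have hx : (0 : ℝ) ≤ (x.1 : ℝ) := Nat.cast_nonneg _
    have hk := hK x.1 x.2
    have a1 : (K x.1 x.2 * (x.1 : ℝ) ^ θ) ^ r = K x.1 x.2 ^ r * (x.1 : ℝ) ^ (r * θ) := by
      rw [Real.mul_rpow hk (by positivity), ← Real.rpow_mul hx, mul_comm θ r]
    have a2 : (w x * K x.1 x.2) ^ ((1 : ℝ) / 2) * (w x * (x.1 : ℝ) ^ (2 * (r * θ))) ^ (1 - (1 : ℝ) / 2)
        = w x * (K x.1 x.2 ^ ((1 : ℝ) / 2) * (x.1 : ℝ) ^ (r * θ)) := by
      have e3 : (1 : ℝ) - 1 / 2 = 1 / 2 := by norm_num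
      rw [e3, Real.mul_rpow (hw0 x) hk, Real.mul_rpow (hw0 x) (by positivity),
        ← Real.rpow_mul hx]
      have e4 : 2 * (r * θ) * (1 / 2) = r * θ := by ring
      have e5 : w x ^ ((1 : ℝ) / 2) * w x ^ ((1 : ℝ) / 2) = w x := by
        rw [← Real.mul_rpow (hw0 x) (hw0 x), ← sq, ← Real.rpow_natCast, ← Real.rpow_mul (hw0 x)]
        norm_num
      rw [e4]
      calc _ = (w x ^ ((1 : ℝ) / 2) * w x ^ ((1 : ℝ) / 2)) *
            (K x.1 x.2 ^ ((1 : ℝ) / 2) * (x.1 : ℝ) ^ (r * θ)) := by ring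
        _ = _ := by rw [e5]
    rw [a2]
    show w x * (K x.1 x.2 * (x.1 : ℝ) ^ θ) ^ r ≤ _
    rw [a1]
    refine mul_le_mul_of_nonneg_left ?_ (hw0 x)
    refine mul_le_mul_of_nonneg_right ?_ (by positivity)
    rcases eq_or_lt_of_le hk with h0 | h0
    · rw [← h0, Real.zero_rpow hr0.ne', Real.zero_rpow (by norm_num)]
    · exact Real.rpow_le_rpow_of_exponent_ge h0 (hK1 _ _) (by linarith)
  refine h3.trans (h.trans ?_)
  have e3 : (1 : ℝ) - 1 / 2 = 1 / 2 := by norm_num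
  rw [e3]
  have h4 : (dens N fun s _ => (s : ℝ) ^ (2 * (r * θ))) ^ ((1 : ℝ) / 2) ≤ Real.exp 7 := by
    have h5 := dens_rankin hN hY hNY hθ
    calc (dens N fun s _ => (s : ℝ) ^ (2 * (r * θ))) ^ ((1 : ℝ) / 2) ≤
          (Real.exp 14) ^ ((1 : ℝ) / 2) :=
          Real.rpow_le_rpow (dens_nonneg N fun _ _ => by positivity) h5 (by norm_num)
      _ = Real.exp 7 := by
          rw [← Real.exp_mul]; norm_num
  rw [mul_comm (Real.exp 7)]
  exact mul_le_mul (Real.rpow_le_rpow (dens_nonneg N hK) hτ (by norm_num)) h4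
    (Real.rpow_nonneg (dens_nonneg N fun _ _ => by positivity) _) (Real.rpow_nonneg hτ0 _)

/-! ### row bound -/

lemma row_le {N : ℕ} (hN : 0 < N) {W : ℝ} (hW : ∀ u, u ∣ N → aw 2 u ≤ W)
    {g g' : ℕ → ℝ} (hg : ∀ b, 0 ≤ g b) (hg1' : ∀ b, g' b ≤ 1) (G : ℝ) :
    ER N G g g' (fun s _ => 1 / (s : ℝ)) ≤ W * Ex N g := by
  unfold ER Ex
  rw [mul_sum]
  refine sum_le_sum fun b hb => ?_
  have hb0 : 0 < b := Nat.pos_of_mem_divisors hb
  have hbN : b ∣ N := Nat.dvd_of_mem_divisors hb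
  have hb0' : (0 : ℝ) < b := by exact_mod_cast hb0
  calc ∑ c ∈ N.divisors, (if G < (Nat.gcd b c : ℝ) ∧ (Nat.gcd b c : ℝ) ≤ 2 * G then
          (Nat.gcd b c : ℝ) * nu N b * nu N c *
            (g b * g' c * (1 / ((b / Nat.gcd b c : ℕ) : ℝ))) else 0)
      ≤ ∑ c ∈ N.divisors, (nu N b * g b) * ∑ d ∈ b.divisors,
          (if d ∣ c then nu N c * ((d : ℝ) * (d / b)) else 0) := by
        refine sum_le_sum fun c hc => ?_
        have hg0 : 0 < Nat.gcd b c := Nat.gcd_pos_of_pos_left c hb0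
        have hgr : (0 : ℝ) < (Nat.gcd b c : ℕ) := by exact_mod_cast hg0
        have hn : 0 ≤ nu N b * g b := mul_nonneg (nu_nonneg _ _) (hg b)
        have hs : ∀ d ∈ b.divisors, 0 ≤ (if d ∣ c then nu N c * ((d : ℝ) * (d / b)) else 0) := by
          intro d _
          split_ifs
          · exact mul_nonneg (nu_nonneg _ _) (by positivity)
          · exact le_rfl
        have h1 : nu N c * ((Nat.gcd b c : ℝ) * (Nat.gcd b c / b)) ≤ ∑ d ∈ b.divisors,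
            (if d ∣ c then nu N c * ((d : ℝ) * (d / b)) else 0) := by
          have := single_le_sum hs (Nat.mem_divisors.2 ⟨Nat.gcd_dvd_left b c, hb0.ne'⟩)
          rw [if_pos (Nat.gcd_dvd_right b c)] at this
          exact this
        split_ifs
        · have e1 : (1 : ℝ) / ((b / Nat.gcd b c : ℕ) : ℝ) = (Nat.gcd b c : ℝ) / b := by
            rw [Nat.cast_div (Nat.gcd_dvd_left b c) hgr.ne']
            rw [one_div_div]
          rw [e1]
          calc (Nat.gcd b c : ℝ) * nu N b * nu N c * (g b * g' c * ((Nat.gcd b c : ℝ) / b))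
              = (nu N b * g b) * (g' c * (nu N c * ((Nat.gcd b c : ℝ) * (Nat.gcd b c / b)))) := by
                ring
            _ ≤ (nu N b * g b) * (1 * (nu N c * ((Nat.gcd b c : ℝ) * (Nat.gcd b c / b)))) := by
                refine mul_le_mul_of_nonneg_left ?_ hn
                refine mul_le_mul_of_nonneg_right (hg1' c) ?_
                exact mul_nonneg (nu_nonneg _ _) (by positivity)
            _ ≤ _ := by
                rw [one_mul]
                exact mul_le_mul_of_nonneg_left h1 hn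
        · exact mul_nonneg hn (sum_nonneg hs)
    _ = (nu N b * g b) * ∑ d ∈ b.divisors, ∑ c ∈ N.divisors,
          (if d ∣ c then nu N c * ((d : ℝ) * (d / b)) else 0) := by
        rw [← mul_sum, sum_comm]
    _ ≤ (nu N b * g b) * ∑ d ∈ b.divisors, (d : ℝ) / b := by
        refine mul_le_mul_of_nonneg_left ?_ (mul_nonneg (nu_nonneg _ _) (hg b))
        refine sum_le_sum fun d hd => ?_
        have hd0 : (0 : ℝ) < d := by exact_mod_cast Nat.pos_of_mem_divisors hd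
        have h2 := prob_dvd_le hN d
        rw [← sum_filter, ← sum_mul]
        calc (∑ c ∈ N.divisors with d ∣ c, nu N c) * ((d : ℝ) * (d / b)) ≤
              1 / (d : ℝ) * ((d : ℝ) * (d / b)) :=
              mul_le_mul_of_nonneg_right h2 (by positivity)
          _ = (d : ℝ) / b := by field_simp
    _ = (nu N b * g b) * ∑ d ∈ b.divisors, 1 / (d : ℝ) := by
        congr 1
        rw [← Nat.sum_div_divisors b (fun d => 1 / (d : ℝ))]
        refine sum_congr rfl fun d hd => ?_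
        have hdb := Nat.dvd_of_mem_divisors hd
        have hd0 : (d : ℝ) ≠ 0 := by exact_mod_cast (Nat.pos_of_mem_divisors hd).ne'
        rw [Nat.cast_div hdb hd0, one_div_div]
    _ ≤ (nu N b * g b) * W :=
        mul_le_mul_of_nonneg_left ((sum_inv_divisors_le b hb0).trans (hW b hbN))
          (mul_nonneg (nu_nonneg _ _) (hg b))
    _ = _ := by ring

/-! ### Hölder between the row bound and (T) -/

lemma er_eq (N : ℕ) (G : ℝ) (g g' : ℕ → ℝ) (K : ℕ → ℕ → ℝ) : ER N G g g' K =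
    ∑ x ∈ (N.divisors ×ˢ N.divisors).filter (fun x : ℕ × ℕ =>
        G < (Nat.gcd x.1 x.2 : ℝ) ∧ (Nat.gcd x.1 x.2 : ℝ) ≤ 2 * G),
      ((Nat.gcd x.1 x.2 : ℝ) * nu N x.1 * nu N x.2 * (g x.1 * g' x.2)) *
        K (x.1 / Nat.gcd x.1 x.2) (x.2 / Nat.gcd x.1 x.2) := by
  unfold ER
  rw [sum_filter, sum_product]
  refine sum_congr rfl fun s _ => sum_congr rfl fun t _ => ?_
  dsimp only
  split_ifs
  · ring
  · rfl

lemma er_swap (N : ℕ) (G : ℝ) (g g' : ℕ → ℝ) (K : ℕ → ℕ → ℝ) :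
    ER N G g g' K = ER N G g' g (fun s t => K t s) := by
  unfold ER
  rw [sum_comm]
  refine sum_congr rfl fun c _ => sum_congr rfl fun b _ => ?_
  rw [Nat.gcd_comm c b]
  split_ifs
  · ring
  · rfl

lemma dens_swap (N : ℕ) (K : ℕ → ℕ → ℝ) : dens N (fun s t => K t s) = dens N K := by
  unfold MXlowx808.dens
  rw [sum_comm]
  refine sum_congr rfl fun c _ => sum_congr rfl fun b _ => ?_
  by_cases h : Nat.Coprime b c
  · rw [if_pos h, if_pos h.symm]; ring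
  · rw [if_neg h, if_neg (fun hc => h (Nat.Coprime.symm hc))]

lemma er_holder {N : ℕ} {G : ℝ} {g g' : ℕ → ℝ} {K : ℕ → ℕ → ℝ} (hg : ∀ b, 0 ≤ g b)
    (hg' : ∀ b, 0 ≤ g' b) (hK : ∀ s t, 0 ≤ K s t) (hK1 : ∀ s t, K s t ≤ 1) {θ : ℝ} (h0 : 0 < θ)
    (h1 : θ < 1) :
    ER N G g g' K ≤ (ER N G g g' (fun s _ => 1 / (s : ℝ))) ^ θ *
      (ER N G g g' (fun s t => K s t * (s : ℝ) ^ (θ / (1 - θ)))) ^ (1 - θ) := by
  have hθ' : 0 < 1 - θ := by linarith
  rw [er_eq N G g g' K, er_eq N G g g' (fun s _ => 1 / (s : ℝ)),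
    er_eq N G g g' (fun s t => K s t * (s : ℝ) ^ (θ / (1 - θ)))]
  have hw : ∀ x : ℕ × ℕ, 0 ≤ (Nat.gcd x.1 x.2 : ℝ) * nu N x.1 * nu N x.2 * (g x.1 * g' x.2) :=
    fun x => mul_nonneg (mul_nonneg (mul_nonneg (Nat.cast_nonneg _) (nu_nonneg _ _))
      (nu_nonneg _ _)) (mul_nonneg (hg _) (hg' _))
  refine le_trans ?_ (holder2 _ _ _ (fun x _ => mul_nonneg (hw x) (by positivity))
    (fun x _ => mul_nonneg (hw x) (mul_nonneg (hK _ _) (by positivity))) h0 h1)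
  refine sum_le_sum fun x hx => ?_
  rw [mem_filter, mem_product] at hx
  have hb0 : 0 < x.1 := Nat.pos_of_mem_divisors hx.1.1
  have hs0 : 0 < x.1 / Nat.gcd x.1 x.2 :=
    Nat.div_pos (Nat.le_of_dvd hb0 (Nat.gcd_dvd_left _ _)) (Nat.gcd_pos_of_pos_left _ hb0)
  set s := x.1 / Nat.gcd x.1 x.2 with hs
  set t := x.2 / Nat.gcd x.1 x.2 with ht
  set w := (Nat.gcd x.1 x.2 : ℝ) * nu N x.1 * nu N x.2 * (g x.1 * g' x.2) with hwdef
  have hw0 : 0 ≤ w := hw x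
  have hsr : (0 : ℝ) < s := by exact_mod_cast hs0
  have hk := hK s t
  have e1 : (w * (1 / (s : ℝ))) ^ θ * (w * (K s t * (s : ℝ) ^ (θ / (1 - θ)))) ^ (1 - θ) =
      w * K s t ^ (1 - θ) := by
    rw [Real.mul_rpow hw0 (by positivity), Real.mul_rpow hw0 (mul_nonneg hk (by positivity)),
      Real.mul_rpow hk (by positivity), ← Real.rpow_mul hsr.le, div_mul_cancel₀ _ hθ'.ne',
      one_div, Real.inv_rpow hsr.le]
    have e2 : w ^ θ * w ^ (1 - θ) = w := by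
      rcases eq_or_lt_of_le hw0 with h | h
      · rw [← h, Real.zero_rpow h0.ne', zero_mul]
      · rw [← Real.rpow_add h]; simp
    have e3 : ((s : ℝ) ^ θ)⁻¹ * (s : ℝ) ^ θ = 1 := inv_mul_cancel₀ (by positivity)
    calc w ^ θ * ((s : ℝ) ^ θ)⁻¹ * (w ^ (1 - θ) * (K s t ^ (1 - θ) * (s : ℝ) ^ θ))
        = (w ^ θ * w ^ (1 - θ)) * K s t ^ (1 - θ) * (((s : ℝ) ^ θ)⁻¹ * (s : ℝ) ^ θ) := by ring
      _ = w * K s t ^ (1 - θ) := by rw [e2, e3, mul_one]
  show w * K s t ≤ (w * (1 / (s : ℝ))) ^ θ * (w * (K s t * (s : ℝ) ^ (θ / (1 - θ)))) ^ (1 - θ)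
  rw [e1]
  refine mul_le_mul_of_nonneg_left ?_ hw0
  rcases eq_or_lt_of_le hk with h | h
  · rw [← h, Real.zero_rpow hθ'.ne']
  · calc K s t = K s t ^ (1 : ℝ) := (Real.rpow_one _).symm
      _ ≤ K s t ^ (1 - θ) := Real.rpow_le_rpow_of_exponent_ge h (hK1 s t) (by linarith)

/-- one exponent, Rankin weight -/
lemma s2_bound {κ r Λ C : ℝ} (hκ0 : 0 < κ) (hκ1 : κ < 1) (hr : 1 ≤ r) (hΛ : 0 ≤ Λ) (hC : 0 ≤ C)
    (hT : TGen κ r Λ C) {N Y : ℕ} (hN : 0 < N) (hY : 8 ≤ Y) (hNY : ∀ p ∈ N.primeFactors, p ≤ Y)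
    {W : ℝ} (hW1 : 1 ≤ W) (hW : ∀ u, u ∣ N → aw Λ u ≤ W)
    {g g' : ℕ → ℝ} (hg : ∀ b, 0 ≤ g b) (hg1 : ∀ b, g b ≤ 1) (hg' : ∀ b, 0 ≤ g' b)
    (hg1' : ∀ b, g' b ≤ 1) {K : ℕ → ℕ → ℝ} (hK : ∀ s t, 0 ≤ K s t) (hK1 : ∀ s t, K s t ≤ 1)
    {τ θ G x y : ℝ} (hτ : dens N K ≤ τ) (hθ : 2 * (r * θ) ≤ 1 / Real.log Y) (hG : 0 < G)
    (hx0 : 0 < x) (hy0 : 0 < y) (hx : G * Ex N g ≤ x) (hy : G * Ex N g' ≤ y) :
    ER N G g g' (fun s t => K s t * (s : ℝ) ^ θ) ≤
      2 * C * Real.exp 7 * W ^ 2 * τ ^ (1 / (2 * r)) * G⁻¹ * (x * y) ^ ((1 + κ) / 2) := by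
  have hr0 : 0 < r := by linarith
  have hτ0 : 0 ≤ τ := (dens_nonneg N hK).trans hτ
  have hρ : 0 < (1 + κ) / 2 := by linarith
  have hW0 : 0 < W := by linarith
  have h := er_T hκ0 hκ1 hΛ hC hT hN.ne' hg hg1 hg' hg1'
    (K := fun s t => K s t * (s : ℝ) ^ θ) (fun s t => mul_nonneg (hK s t) (by positivity)) hG
  refine h.trans ?_
  set ρ := (1 + κ) / 2 with hρdef
  have hd := dens_weight hN hY hNY hK hK1 hr hτ hθ
  have hd0 : 0 ≤ dens N (fun s t => (K s t * (s : ℝ) ^ θ) ^ r) :=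
    dens_nonneg N fun s t => Real.rpow_nonneg (mul_nonneg (hK s t) (by positivity)) _
  have h1 : (dens N (fun s t => (K s t * (s : ℝ) ^ θ) ^ r)) ^ (1 / r) ≤
      Real.exp 7 * τ ^ (1 / (2 * r)) := by
    calc (dens N (fun s t => (K s t * (s : ℝ) ^ θ) ^ r)) ^ (1 / r)
        ≤ (Real.exp 7 * τ ^ ((1 : ℝ) / 2)) ^ (1 / r) :=
          Real.rpow_le_rpow hd0 hd (by positivity)
      _ = (Real.exp 7) ^ (1 / r) * τ ^ (1 / (2 * r)) := by
          rw [Real.mul_rpow (Real.exp_pos _).le (Real.rpow_nonneg hτ0 _), ← Real.rpow_mul hτ0]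
          congr 2
          field_simp
      _ ≤ Real.exp 7 * τ ^ (1 / (2 * r)) := by
          refine mul_le_mul_of_nonneg_right ?_ (Real.rpow_nonneg hτ0 _)
          calc (Real.exp 7) ^ (1 / r) ≤ (Real.exp 7) ^ (1 : ℝ) := by
                refine Real.rpow_le_rpow_of_exponent_le ?_ ?_
                · exact Real.one_le_exp (by norm_num)
                · rw [div_le_one hr0]; exact hr
            _ = Real.exp 7 := Real.rpow_one _
  have hEx0 : 0 ≤ Ex N g := Ex_nonneg N hg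
  have hEx0' : 0 ≤ Ex N g' := Ex_nonneg N hg'
  have hD1 : DD Λ N g ≤ W * (x / G) := by
    refine (DD_le hW hg).trans (mul_le_mul_of_nonneg_left ?_ hW0.le)
    rw [le_div_iff₀ hG]; linarith
  have hD2 : DD Λ N g' ≤ W * (y / G) := by
    refine (DD_le hW hg').trans (mul_le_mul_of_nonneg_left ?_ hW0.le)
    rw [le_div_iff₀ hG]; linarith
  have h2 : (DD Λ N g) ^ ρ * (DD Λ N g') ^ ρ ≤ W ^ 2 * ((G ^ ρ)⁻¹ * (G ^ ρ)⁻¹) * (x * y) ^ ρ := by
    calc (DD Λ N g) ^ ρ * (DD Λ N g') ^ ρ ≤ (W * (x / G)) ^ ρ * (W * (y / G)) ^ ρ := by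
          refine mul_le_mul (Real.rpow_le_rpow (DD_nonneg hΛ N hg) hD1 hρ.le)
            (Real.rpow_le_rpow (DD_nonneg hΛ N hg') hD2 hρ.le)
            (Real.rpow_nonneg (DD_nonneg hΛ N hg') _) (by positivity)
      _ = (W ^ ρ * W ^ ρ) * ((G ^ ρ)⁻¹ * (G ^ ρ)⁻¹) * (x * y) ^ ρ := by
          rw [Real.mul_rpow hW0.le (by positivity), Real.mul_rpow hW0.le (by positivity),
            Real.div_rpow hx0.le hG.le, Real.div_rpow hy0.le hG.le, Real.mul_rpow hx0.le hy0.le]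
          ring
      _ ≤ W ^ 2 * ((G ^ ρ)⁻¹ * (G ^ ρ)⁻¹) * (x * y) ^ ρ := by
          have h3 : W ^ ρ ≤ W := by
            calc W ^ ρ ≤ W ^ (1 : ℝ) := Real.rpow_le_rpow_of_exponent_le hW1 (by linarith)
              _ = W := Real.rpow_one _
          have h4 : W ^ ρ * W ^ ρ ≤ W ^ 2 := by
            rw [sq]
            exact mul_le_mul h3 h3 (by positivity) hW0.le
          refine mul_le_mul_of_nonneg_right ?_ (by positivity)
          exact mul_le_mul_of_nonneg_right h4 (by positivity)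
  have h5 : G ^ κ * ((G ^ ρ)⁻¹ * (G ^ ρ)⁻¹) = G⁻¹ := by
    rw [← mul_inv, ← Real.rpow_add hG, ← Real.rpow_neg hG.le, ← Real.rpow_add hG]
    have : κ + -(ρ + ρ) = -1 := by rw [hρdef]; ring
    rw [this, Real.rpow_neg_one]
  have hDD0 : 0 ≤ (DD Λ N g) ^ ρ * (DD Λ N g') ^ ρ :=
    mul_nonneg (Real.rpow_nonneg (DD_nonneg hΛ N hg) _) (Real.rpow_nonneg (DD_nonneg hΛ N hg') _)
  calc 2 * C * (dens N (fun s t => (K s t * (s : ℝ) ^ θ) ^ r)) ^ (1 / r) * G ^ κ *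
        ((DD Λ N g) ^ ρ * (DD Λ N g') ^ ρ)
      ≤ 2 * C * (Real.exp 7 * τ ^ (1 / (2 * r))) * G ^ κ *
        ((DD Λ N g) ^ ρ * (DD Λ N g') ^ ρ) := by
        refine mul_le_mul_of_nonneg_right ?_ hDD0
        refine mul_le_mul_of_nonneg_right ?_ (by positivity)
        exact mul_le_mul_of_nonneg_left h1 (by positivity)
    _ ≤ 2 * C * (Real.exp 7 * τ ^ (1 / (2 * r))) * G ^ κ *
        (W ^ 2 * ((G ^ ρ)⁻¹ * (G ^ ρ)⁻¹) * (x * y) ^ ρ) :=
        mul_le_mul_of_nonneg_left h2 (by positivity)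
    _ = 2 * C * Real.exp 7 * W ^ 2 * τ ^ (1 / (2 * r)) * (G ^ κ * ((G ^ ρ)⁻¹ * (G ^ ρ)⁻¹)) *
        (x * y) ^ ρ := by ring
    _ = _ := by rw [h5]

/-! ### the low bound -/

lemma aw_mono {Λ Λ' : ℝ} (hΛ : 0 ≤ Λ) (h : Λ ≤ Λ') (b : ℕ) : aw Λ b ≤ aw Λ' b := by
  unfold aw
  refine Finset.prod_le_prod (fun p _ => by positivity) fun p _ => ?_
  have : Λ / (p : ℝ) ≤ Λ' / p := div_le_div_of_nonneg_right h (Nat.cast_nonneg p)
  linarith

/-- one direction: Hölder with the row bound of the first variable -/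
lemma one_dir {κ ε θ W P S R E G x y τ a : ℝ} (hκ : 1 / 2 < κ) (hκ1 : κ < 1) (hθ0 : 0 < θ)
    (hθ : θ ≤ 1 / 2) (hθε : 2 * θ ≤ ε) (hW : 1 ≤ W) (hP : 1 ≤ P) (hG : 0 < G) (hx : 0 < x)
    (hτ0 : 0 ≤ τ) (hτ1 : τ ≤ 1) (ha : 0 < a) (hS0 : 0 ≤ S) (hR0 : 0 ≤ R)
    (hS : S ≤ P * τ ^ (2 * a) * G⁻¹ * Real.exp (κ * (Real.log x + Real.log y) -
      ε * |Real.log x + Real.log y|))
    (hR : R ≤ W * (x / G)) (hE : E ≤ R ^ θ * S ^ (1 - θ)) :
    E ≤ W * P * τ ^ a * G⁻¹ * Real.exp (κ * (Real.log x + Real.log y) +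
      θ / 2 * (Real.log x - Real.log y)) := by
  have hθ1 : 0 < 1 - θ := by linarith
  have hW0 : 0 < W := by linarith
  have hP0 : 0 < P := by linarith
  set lx := Real.log x with hlx
  set ly := Real.log y with hly
  have hxe : x = Real.exp lx := (Real.exp_log hx).symm
  have h1 : R ^ θ ≤ W * (G ^ θ)⁻¹ * Real.exp (θ * lx) := by
    calc R ^ θ ≤ (W * (x / G)) ^ θ := Real.rpow_le_rpow hR0 hR hθ0.le
      _ = W ^ θ * (G ^ θ)⁻¹ * Real.exp (θ * lx) := by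
          rw [Real.mul_rpow hW0.le (by positivity), Real.div_rpow hx.le hG.le, hxe,
            ← Real.exp_mul, mul_comm lx θ]
          ring
      _ ≤ W * (G ^ θ)⁻¹ * Real.exp (θ * lx) := by
          refine mul_le_mul_of_nonneg_right ?_ (Real.exp_pos _).le
          refine mul_le_mul_of_nonneg_right ?_ (by positivity)
          calc W ^ θ ≤ W ^ (1 : ℝ) := Real.rpow_le_rpow_of_exponent_le hW (by linarith)
            _ = W := Real.rpow_one _
  have h2 : S ^ (1 - θ) ≤ P * τ ^ a * (G ^ (1 - θ))⁻¹ *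
      Real.exp ((1 - θ) * (κ * (lx + ly) - ε * |lx + ly|)) := by
    calc S ^ (1 - θ) ≤ (P * τ ^ (2 * a) * G⁻¹ * Real.exp (κ * (lx + ly) - ε * |lx + ly|)) ^ (1 - θ) :=
          Real.rpow_le_rpow hS0 hS hθ1.le
      _ = P ^ (1 - θ) * τ ^ (2 * a * (1 - θ)) * (G ^ (1 - θ))⁻¹ *
          Real.exp ((1 - θ) * (κ * (lx + ly) - ε * |lx + ly|)) := by
          have p1 : 0 ≤ τ ^ (2 * a) := Real.rpow_nonneg hτ0 _
          rw [Real.mul_rpow (by positivity) (Real.exp_pos _).le,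
            Real.mul_rpow (by positivity) (by positivity), Real.mul_rpow hP0.le p1,
            ← Real.rpow_mul hτ0, Real.inv_rpow hG.le, ← Real.exp_mul]
          congr 2
          ring
      _ ≤ _ := by
          refine mul_le_mul_of_nonneg_right ?_ (Real.exp_pos _).le
          refine mul_le_mul_of_nonneg_right ?_ (by positivity)
          refine mul_le_mul ?_ ?_ (Real.rpow_nonneg hτ0 _) hP0.le
          · calc P ^ (1 - θ) ≤ P ^ (1 : ℝ) := Real.rpow_le_rpow_of_exponent_le hP (by linarith)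
              _ = P := Real.rpow_one _
          · rcases eq_or_lt_of_le hτ0 with h | h
            · rw [← h, Real.zero_rpow (by positivity), Real.zero_rpow ha.ne']
            · refine Real.rpow_le_rpow_of_exponent_ge h hτ1 ?_
              nlinarith
  refine hE.trans ((mul_le_mul h1 h2 (Real.rpow_nonneg hS0 _) (by positivity)).trans ?_)
  have e1 : W * (G ^ θ)⁻¹ * Real.exp (θ * lx) * (P * τ ^ a * (G ^ (1 - θ))⁻¹ *
      Real.exp ((1 - θ) * (κ * (lx + ly) - ε * |lx + ly|))) =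
      W * P * τ ^ a * ((G ^ θ)⁻¹ * (G ^ (1 - θ))⁻¹) *
        Real.exp (θ * lx + (1 - θ) * (κ * (lx + ly) - ε * |lx + ly|)) := by
    rw [Real.exp_add]; ring
  have e2 : (G ^ θ)⁻¹ * (G ^ (1 - θ))⁻¹ = G⁻¹ := by
    rw [← mul_inv, ← Real.rpow_add hG]
    simp
  rw [e1, e2]
  refine mul_le_mul_of_nonneg_left (Real.exp_le_exp.2 ?_) (by positivity)
  have ha1 := le_abs_self (lx + ly)
  have ha2 := neg_abs_le (lx + ly)
  have ha3 := abs_nonneg (lx + ly)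
  have hd : θ * (1 / 2 - κ) * (lx + ly) ≤ θ * (κ - 1 / 2) * |lx + ly| := by
    have : 0 ≤ θ * (κ - 1 / 2) := by
      apply mul_nonneg hθ0.le; linarith
    nlinarith
  have hc : θ * (κ - 1 / 2) ≤ (1 - θ) * ε := by
    nlinarith
  have hc' : θ * (κ - 1 / 2) * |lx + ly| ≤ (1 - θ) * ε * |lx + ly| :=
    mul_le_mul_of_nonneg_right hc ha3
  nlinarith

set_option maxHeartbeats 1600000 in
/-- **LOW BOUND**: relation of natural density `τ` between `Y`-smooth words, exact masses,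
decay in both masses. -/
theorem low_bound {κ : ℝ} (hκ : 1 / 2 < κ) (hκ1 : κ < 1) :
    ∃ A C θ0 : ℝ, 0 ≤ A ∧ 1 ≤ C ∧ 0 < θ0 ∧ ∀ (N Y : ℕ) (g g' : ℕ → ℝ) (K : ℕ → ℕ → ℝ)
      (τ G x y : ℝ), 0 < N → 8 ≤ Y → (∀ p ∈ N.primeFactors, p ≤ Y) →
      (∀ b, 0 ≤ g b) → (∀ b, g b ≤ 1) → (∀ b, 0 ≤ g' b) → (∀ b, g' b ≤ 1) →
      (∀ s t, 0 ≤ K s t) → (∀ s t, K s t ≤ 1) → dens N K ≤ τ → τ ≤ 1 → 0 < G →
      0 < x → 0 < y → G * Ex N g ≤ x → G * Ex N g' ≤ y →
      ER N G g g' K ≤ C * Real.log Y ^ A * τ ^ ((1 - κ) / 8) * G⁻¹ * (x * y) ^ κ *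
        Real.exp (-(θ0 / Real.log Y) * (|Real.log x| + |Real.log y|)) := by
  set ε := min ((κ - 1 / 2) / 2) ((1 - κ) / 4) with hε
  have hε0 : 0 < ε := lt_min (by linarith) (by linarith)
  have hε1 : ε ≤ (κ - 1 / 2) / 2 := min_le_left _ _
  have hε2 : ε ≤ (1 - κ) / 4 := min_le_right _ _
  set r := 2 / (1 - κ) with hr
  have h1κ : 0 < 1 - κ := by linarith
  have hr0 : 0 < r := by positivity
  have hr1 : 1 ≤ r := by rw [hr, le_div_iff₀ h1κ]; linarith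
  have hrr : 1 / (2 * r) = 2 * ((1 - κ) / 8) := by rw [hr]; field_simp; norm_num
  obtain ⟨Λ1, C1, hΛ1, hC1, T1⟩ := tgen (κ := 2 * (κ + ε) - 1) (r := r) (by linarith) (by linarith)
    (by
      rw [hr]
      apply div_lt_div_of_pos_left (by norm_num) (by linarith) (by linarith))
  obtain ⟨Λ2, C2, hΛ2, hC2, T2⟩ := tgen (κ := 2 * (κ - ε) - 1) (r := r) (by linarith) (by linarith)
    (by
      rw [hr]
      apply div_lt_div_of_pos_left (by norm_num) (by linarith) (by linarith))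
  set Λ := max (max Λ1 Λ2) 2 with hΛ
  have hΛ1' : Λ1 ≤ Λ := (le_max_left _ _).trans (le_max_left _ _)
  have hΛ2' : Λ2 ≤ Λ := (le_max_right _ _).trans (le_max_left _ _)
  have hΛ3' : 2 ≤ Λ := le_max_right _ _
  have hΛ0 : 0 ≤ Λ := by linarith
  set C0 := max C1 C2 with hC0
  have hC0' : 1 ≤ C0 := hC1.trans (le_max_left _ _)
  have T1' := TGen.mono (by linarith) hΛ1 hΛ1' (by linarith) (le_max_left C1 C2) T1
  have T2' := TGen.mono (by linarith) hΛ2 hΛ2' (by linarith) (le_max_right C1 C2) T2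
  rw [← hC0] at T1' T2'
  set θ2 := min ((1 - κ) / 8) ε with hθ2
  have hθ20 : 0 < θ2 := lt_min (by linarith) hε0
  have hθ21 : θ2 ≤ (1 - κ) / 8 := min_le_left _ _
  have hθ22 : θ2 ≤ ε := min_le_right _ _
  refine ⟨3 * Λ, 2 * C0 * Real.exp 7 * Real.exp (84 * Λ), θ2 / 2, by positivity, ?_, by positivity,
    ?_⟩
  · have e1 : (1 : ℝ) ≤ Real.exp 7 := Real.one_le_exp (by norm_num)
    have e2 : (1 : ℝ) ≤ Real.exp (84 * Λ) := Real.one_le_exp (by positivity)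
    have e3 : (1 : ℝ) ≤ 2 * C0 := by linarith
    exact one_le_mul_of_one_le_of_one_le (one_le_mul_of_one_le_of_one_le e3 e1) e2
  intro N Y g g' K τ G x y hN hY hNY hg hg1 hg' hg1' hK hK1 hτ hτ1 hG hx0 hy0 hx hy
  have hY8 : (8 : ℝ) ≤ Y := by exact_mod_cast hY
  have hly : 2 ≤ Real.log Y := log_eight.trans (Real.log_le_log (by norm_num) hY8)
  have hly0 : 0 < Real.log Y := by linarith
  have hτ0 : 0 ≤ τ := (dens_nonneg N hK).trans hτ
  set W := Real.exp (28 * Λ) * Real.log Y ^ Λ with hWdef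
  have hW1 : 1 ≤ W := by
    rw [hWdef]
    exact one_le_mul_of_one_le_of_one_le (Real.one_le_exp (by positivity))
      (Real.one_le_rpow (by linarith) hΛ0)
  have hW : ∀ u, u ∣ N → aw Λ u ≤ W := fun u hu => aw_le hΛ0 hN hY hNY hu
  have hW2 : ∀ u, u ∣ N → aw 2 u ≤ W := fun u hu => (aw_mono (by norm_num) hΛ3' u).trans (hW u hu)
  set θ := θ2 / Real.log Y with hθ
  have hθ0 : 0 < θ := by positivity
  have hθle : θ ≤ θ2 / 2 := div_le_div_of_nonneg_left hθ20.le (by norm_num) hly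
  have hθh : θ ≤ 1 / 2 := by linarith
  have hθ1 : 0 < 1 - θ := by linarith
  have hθε : 2 * θ ≤ ε := by linarith
  -- the Rankin exponent
  have hRk : 2 * (r * (θ / (1 - θ))) ≤ 1 / Real.log Y := by
    have h1 : θ / (1 - θ) ≤ 2 * θ := by
      rw [div_le_iff₀ hθ1]; nlinarith
    have h2 : 2 * (r * (θ / (1 - θ))) ≤ 4 * r * θ := by nlinarith
    refine h2.trans ?_
    have h3 : 4 * r * θ2 ≤ 1 := by
      calc 4 * r * θ2 ≤ 4 * r * ((1 - κ) / 8) := mul_le_mul_of_nonneg_left hθ21 (by positivity)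
        _ = 1 := by rw [hr]; field_simp; norm_num
    rw [hθ]
    calc 4 * r * (θ2 / Real.log Y) = (4 * r * θ2) / Real.log Y := by ring
      _ ≤ 1 / Real.log Y := div_le_div_of_nonneg_right h3 hly0.le
  set P := 2 * C0 * Real.exp 7 * W ^ 2 with hP
  have hP1 : 1 ≤ P := by
    have e1 : (1 : ℝ) ≤ Real.exp 7 := Real.one_le_exp (by norm_num)
    have e3 : (1 : ℝ) ≤ 2 * C0 := by linarith
    exact one_le_mul_of_one_le_of_one_le (one_le_mul_of_one_le_of_one_le e3 e1) (one_le_pow₀ hW1)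
  -- the bound for the weighted form, both directions
  have key : ∀ (g g' : ℕ → ℝ) (K : ℕ → ℕ → ℝ) (x y : ℝ), (∀ b, 0 ≤ g b) → (∀ b, g b ≤ 1) →
      (∀ b, 0 ≤ g' b) → (∀ b, g' b ≤ 1) → (∀ s t, 0 ≤ K s t) → (∀ s t, K s t ≤ 1) →
      dens N K ≤ τ → 0 < x → 0 < y → G * Ex N g ≤ x → G * Ex N g' ≤ y →
      ER N G g g' (fun s t => K s t * (s : ℝ) ^ (θ / (1 - θ))) ≤
        P * τ ^ (2 * ((1 - κ) / 8)) * G⁻¹ * Real.exp (κ * (Real.log x + Real.log y) -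
          ε * |Real.log x + Real.log y|) := by
    intro g g' K x y hg hg1 hg' hg1' hK hK1 hτ hx0 hy0 hx hy
    have b1 := s2_bound (κ := 2 * (κ + ε) - 1) (by linarith) (by linarith) hr1 hΛ0 (by linarith)
      T1' hN hY hNY hW1 hW hg hg1 hg' hg1' hK hK1 hτ hRk hG hx0 hy0 hx hy
    have b2 := s2_bound (κ := 2 * (κ - ε) - 1) (by linarith) (by linarith) hr1 hΛ0 (by linarith)
      T2' hN hY hNY hW1 hW hg hg1 hg' hg1' hK hK1 hτ hRk hG hx0 hy0 hx hy
    rw [hrr, ← hP] at b1 b2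
    have e1 : (1 + (2 * (κ + ε) - 1)) / 2 = κ + ε := by ring
    have e2 : (1 + (2 * (κ - ε) - 1)) / 2 = κ - ε := by ring
    rw [e1] at b1
    rw [e2] at b2
    have e3 : ∀ s : ℝ, (x * y) ^ s = Real.exp (s * (Real.log x + Real.log y)) := by
      intro s
      rw [Real.rpow_def_of_pos (mul_pos hx0 hy0), Real.log_mul hx0.ne' hy0.ne', mul_comm]
    rw [e3] at b1 b2
    rcases le_total 0 (Real.log x + Real.log y) with hs | hs
    · refine b2.trans (le_of_eq ?_)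
      rw [abs_of_nonneg hs]; ring_nf
    · refine b1.trans (le_of_eq ?_)
      rw [abs_of_nonpos hs]; ring_nf
  have hS1 := key g g' K x y hg hg1 hg' hg1' hK hK1 hτ hx0 hy0 hx hy
  have hS2 := key g' g (fun s t => K t s) y x hg' hg1' hg hg1 (fun s t => hK t s)
    (fun s t => hK1 t s) (by rw [dens_swap]; exact hτ) hy0 hx0 hy hx
  have hrow : ∀ (g g' : ℕ → ℝ) (x : ℝ), (∀ b, 0 ≤ g b) → (∀ b, g' b ≤ 1) →
      G * Ex N g ≤ x → ER N G g g' (fun s _ => 1 / (s : ℝ)) ≤ W * (x / G) := by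
    intro g g' x hg hg1' hx
    refine (row_le hN hW2 hg hg1' G).trans (mul_le_mul_of_nonneg_left ?_ (by linarith))
    rw [le_div_iff₀ hG]; linarith
  have hE1 : ER N G g g' K ≤ W * P * τ ^ ((1 - κ) / 8) * G⁻¹ *
      Real.exp (κ * (Real.log x + Real.log y) + θ / 2 * (Real.log x - Real.log y)) :=
    one_dir hκ hκ1 hθ0 hθh hθε hW1 hP1 hG hx0 hτ0 hτ1 (by linarith)
      (er_nonneg N G hg hg' fun s t => mul_nonneg (hK s t) (by positivity))
      (er_nonneg N G hg hg' fun s t => by positivity) hS1 (hrow g g' x hg hg1' hx)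
      (er_holder hg hg' hK hK1 hθ0 (by linarith))
  have hE2 : ER N G g g' K ≤ W * P * τ ^ ((1 - κ) / 8) * G⁻¹ *
      Real.exp (κ * (Real.log y + Real.log x) + θ / 2 * (Real.log y - Real.log x)) := by
    rw [er_swap]
    exact one_dir hκ hκ1 hθ0 hθh hθε hW1 hP1 hG hy0 hτ0 hτ1 (by linarith)
      (er_nonneg N G hg' hg fun s t => mul_nonneg (hK t s) (by positivity))
      (er_nonneg N G hg' hg fun s t => by positivity) hS2 (hrow g' g y hg' hg1 hy)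
      (er_holder hg' hg (fun s t => hK t s) (fun s t => hK1 t s) hθ0 (by linarith))
  have hE3 : ER N G g g' K ≤ W * P * τ ^ ((1 - κ) / 8) * G⁻¹ *
      Real.exp (κ * (Real.log x + Real.log y) - θ / 2 * |Real.log x + Real.log y|) := by
    have h1 : ER N G g g' K ≤ ER N G g g' (fun s t => K s t * (s : ℝ) ^ (θ / (1 - θ))) := by
      refine er_mono N G hg hg' fun s t hs _ => ?_
      refine le_mul_of_one_le_right (hK s t) (Real.one_le_rpow ?_ (by positivity))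
      exact_mod_cast hs
    refine h1.trans (hS1.trans ?_)
    have hτa : τ ^ (2 * ((1 - κ) / 8)) ≤ τ ^ ((1 - κ) / 8) := by
      rcases eq_or_lt_of_le hτ0 with h | h
      · rw [← h, Real.zero_rpow (by positivity), Real.zero_rpow (by positivity)]
      · exact Real.rpow_le_rpow_of_exponent_ge h hτ1 (by linarith)
    have hexp : Real.exp (κ * (Real.log x + Real.log y) - ε * |Real.log x + Real.log y|) ≤
        Real.exp (κ * (Real.log x + Real.log y) - θ / 2 * |Real.log x + Real.log y|) := by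
      apply Real.exp_le_exp.2
      have := abs_nonneg (Real.log x + Real.log y)
      nlinarith
    refine mul_le_mul ?_ hexp (Real.exp_pos _).le (by positivity)
    refine mul_le_mul_of_nonneg_right ?_ (by positivity)
    refine mul_le_mul ?_ hτa (Real.rpow_nonneg hτ0 _) (by positivity)
    exact le_mul_of_one_le_left (by linarith) hW1
  -- combine
  have hpre : W * P * τ ^ ((1 - κ) / 8) * G⁻¹ =
      2 * C0 * Real.exp 7 * Real.exp (84 * Λ) * Real.log Y ^ (3 * Λ) * τ ^ ((1 - κ) / 8) * G⁻¹ := by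
    have e1 : W ^ 3 = Real.exp (84 * Λ) * Real.log Y ^ (3 * Λ) := by
      rw [hWdef, mul_pow, ← Real.exp_nat_mul, ← Real.rpow_natCast, ← Real.rpow_mul hly0.le]
      push_cast
      congr 2
      · ring
      · ring
    calc W * P * τ ^ ((1 - κ) / 8) * G⁻¹ = 2 * C0 * Real.exp 7 * W ^ 3 * τ ^ ((1 - κ) / 8) * G⁻¹ := by
          rw [hP]; ring
      _ = _ := by rw [e1]; ring
  have hQ0 : 0 ≤ W * P * τ ^ ((1 - κ) / 8) * G⁻¹ := by positivity
  have hxy : (x * y) ^ κ = Real.exp (κ * (Real.log x + Real.log y)) := by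
    rw [Real.rpow_def_of_pos (mul_pos hx0 hy0), Real.log_mul hx0.ne' hy0.ne', mul_comm]
  have hfin : ER N G g g' K ≤ W * P * τ ^ ((1 - κ) / 8) * G⁻¹ *
      Real.exp (κ * (Real.log x + Real.log y) - θ / 2 * (|Real.log x| + |Real.log y|)) := by
    rcases le_total 0 (Real.log x) with h1 | h1 <;> rcases le_total 0 (Real.log y) with h2 | h2
    · refine hE3.trans (le_of_eq ?_)
      rw [abs_of_nonneg h1, abs_of_nonneg h2, abs_of_nonneg (add_nonneg h1 h2)]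
    · refine hE2.trans (le_of_eq ?_)
      rw [abs_of_nonneg h1, abs_of_nonpos h2]; ring_nf
    · refine hE1.trans (le_of_eq ?_)
      rw [abs_of_nonpos h1, abs_of_nonneg h2]; ring_nf
    · refine hE3.trans (le_of_eq ?_)
      rw [abs_of_nonpos h1, abs_of_nonpos h2, abs_of_nonpos (add_nonpos h1 h2)]; ring_nf
  refine hfin.trans (le_of_eq ?_)
  have e5 : Real.exp (κ * (Real.log x + Real.log y) - θ / 2 * (|Real.log x| + |Real.log y|)) =
      Real.exp (κ * (Real.log x + Real.log y)) *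
        Real.exp (-(θ2 / 2 / Real.log Y) * (|Real.log x| + |Real.log y|)) := by
    rw [← Real.exp_add]
    congr 1
    rw [hθ]; ring
  rw [hpre, hxy, e5]
  ring

end Crest.Agent.R4C.RareLowx442
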