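import Crest.Agent.R4C.RelDeg_15
import Crest.Agent.R4C.HDdef_529

/-!
# Row 4, GW section, vector case: `RelDeg_15.Rel` in the data `gn` of `HDdef_529` (helper15)

* `relOk`, `relOk_swap` : `RelOk` for `Rel Z W R` and for its transpose;
* `gn_deg`, `gn_deg_swap` : the field `deg` of `GN.Ok`, both orders;
* `gR` : related nodes have the same mass;
* `Dl_real_le` : `Dl (Cl A B) R ≤ 2 A B² (R + 4 A + 4 B + 1)`.
-/

set_option autoImplicit false

open Finset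
open Crest.Agent.R4C.GWdefx982 Crest.Agent.R4C.HDx529

namespace Crest.Agent.R4C.RelDegx15

variable {Z : World}

lemma relOk (Z : World) (W : Finset (ℕ × ℕ)) (R : ℝ) : RelOk Z W R (Rel Z W R) :=
  fun _ _ h => h

/-- the transposed relation -/
def RelT (Z : World) (W : Finset (ℕ × ℕ)) (R : ℝ) (ν ν' : Node) : Prop := Rel Z W R ν' ν

lemma relT_iff (hZ : Z.Ok) {W : Finset (ℕ × ℕ)} {R : ℝ} {ν ν' : Node} :
    RelT Z W R ν ν' ↔ Rel Z (W.image Prod.swap) R ν ν' := by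
  constructor
  · intro h
    exact rel_swap hZ h
  · intro h
    have h1 := rel_swap hZ h
    have e : (W.image Prod.swap).image Prod.swap = W := by
      ext p
      simp only [mem_image]
      constructor
      · rintro ⟨q, ⟨r, hr, rfl⟩, rfl⟩
        rwa [Prod.swap_swap]
      · intro hp
        exact ⟨p.swap, ⟨p, hp, rfl⟩, Prod.swap_swap p⟩
    rw [e] at h1
    exact h1

lemma relOk_swap (hZ : Z.Ok) (W : Finset (ℕ × ℕ)) (R : ℝ) :
    RelOk Z (W.image Prod.swap) R (RelT Z W R) :=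
  fun _ _ h => (relT_iff hZ).1 h

/-- the class of the transposed relation -/
lemma relT_Cl (hZ : Z.Ok) {A B : ℕ} {R : ℝ} {ν ν' : Node} :
    RelT Z (Cl A B) R ν ν' ↔ Rel Z (Cl B A) R ν ν' := by
  rw [relT_iff hZ, Cl_swap]

/-- field `deg` -/
theorem gn_deg (hZ : Z.Ok) (hσ : Z.σ ≤ 1) {W : Finset (ℕ × ℕ)} (hW : ∀ p ∈ W, 0 < p.2) {R : ℝ}
    (hR : 0 ≤ R) (KV : ℝ) (T : Finset Node) (z n : Node) :
    ∑ z' ∈ T, (((gn Z (Rel Z W R) KV).Out z n z').card : ℝ) ≤ (Dl W R : ℝ) := by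
  classical
  have h := sum_out_le hZ hσ hW hR T n
  have h2 : ∑ z' ∈ T, (((gn Z (Rel Z W R) KV).Out z n z').card : ℝ) =
      ((∑ z' ∈ T, ((Z.Nd z').filter fun ν' => Rel Z W R n ν').card : ℕ) : ℝ) := by
    push_cast
    refine sum_congr rfl fun z' _ => ?_
    unfold GWrelx8.GN.Out
    show (((Z.Nd z').filter fun ν' => Rel Z W R n ν').card : ℝ) = _
    congr!
  rw [h2]
  exact_mod_cast h

/-- field `deg` for the transposed relation -/
theorem gn_deg_swap (hZ : Z.Ok) (hσ : Z.σ ≤ 1) {W : Finset (ℕ × ℕ)} (hW : ∀ p ∈ W, 0 < p.1) {R : ℝ}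
    (hR : 0 ≤ R) (KV : ℝ) (T : Finset Node) (z n : Node) :
    ∑ z' ∈ T, (((gn Z (RelT Z W R) KV).Out z n z').card : ℝ) ≤ (Dl (W.image Prod.swap) R : ℝ) := by
  have e : RelT Z W R = Rel Z (W.image Prod.swap) R := by
    funext ν ν'
    exact propext (relT_iff hZ)
  rw [e]
  refine gn_deg hZ hσ (fun p hp => ?_) hR KV T z n
  obtain ⟨q, hq, rfl⟩ := mem_image.1 hp
  exact hW q hq

/-- related nodes have the same mass -/
lemma Rel.g_eq {W : Finset (ℕ × ℕ)} {R : ℝ} {ν ν' : Node} (h : Rel Z W R ν ν') :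
    Z.g ν = Z.g ν' := by
  unfold World.g
  rw [h.1, h.2.1]

lemma Dl_real_le {A B : ℕ} {R : ℝ} (hR : 0 ≤ R) :
    (Dl (Cl A B) R : ℝ) ≤ 2 * A * B ^ 2 * (R + 4 * A + 4 * B + 1) := by
  have h1 : (Dl (Cl A B) R : ℝ) ≤
      ((2 * A * B ^ 2 * (2 * ⌊R / 2⌋₊ + 4 * A + 4 * B + 1) : ℕ) : ℝ) := by
    exact_mod_cast Dl_le (A := A) (B := B) R
  refine h1.trans ?_
  push_cast
  refine mul_le_mul_of_nonneg_left ?_ (by positivity)
  have h2 : (⌊R / 2⌋₊ : ℝ) ≤ R / 2 := Nat.floor_le (by positivity)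
  linarith

end Crest.Agent.R4C.RelDegx15
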