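import Crest.Agent.R4C.FLDef_935
import Crest.Agent.R4C.Law_69

/-!
# Row 4: two-sided `L²` row lemma, the side of the member WITH arbitrary weights (helper823)

Abstract part: nested partial equivalence relations `E x` (`x : ℕ`, finer when `x` grows) on a
finite weighted set, class averages `cx`, dual Doob inequality

`Σ ν (Σ_x cx x (h x))² ≤ 4 Σ ν (Σ_x h x)²`.

F-Λ part (notes 3094 (1), 3229 (3)): for an F-Λ structure `F : FL M` let `PureFrom F x b c` :
letters `< x` equal; at every prime `q ≥ x`: branched letters equal, passive letters have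
minimum = centre.  Then for all `f, h x ≥ 0`

`Σ_{x ∈ s} frm M (1[PureFrom F x b c] f b * h x c) ≤ 2 ‖f‖ ‖Σ_x h x‖`   (`L²(ν)` norms).
-/

set_option autoImplicit false

open Finset
open Crest.Agent.R4C.Basex935 Crest.Agent.R4C.Cutx50 Crest.Agent.R4C.FLDefx935

namespace Crest.Agent.R4C.RowPx823

/-! ### Abstract class averages -/

section abstract

open Classical

variable {ι : Type*} (D : Finset ι) (ν : ι → ℝ) (E : ℕ → ι → ι → Prop)

/-- mass of the class of `b` -/
noncomputable def mu (x : ℕ) (b : ι) : ℝ := ∑ c ∈ D with E x b c, ν c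

/-- class average -/
noncomputable def cx (x : ℕ) (g : ι → ℝ) (b : ι) : ℝ :=
  (∑ c ∈ D with E x b c, ν c * g c) / mu D ν E x b

variable {D ν E}

lemma mu_nonneg (hν : ∀ b ∈ D, 0 ≤ ν b) (x : ℕ) (b : ι) : 0 ≤ mu D ν E x b :=
  Finset.sum_nonneg fun c hc => hν c (Finset.mem_filter.1 hc).1

lemma cx_nonneg (hν : ∀ b ∈ D, 0 ≤ ν b) (x : ℕ) {g : ι → ℝ} (hg : ∀ b ∈ D, 0 ≤ g b) (b : ι) :
    0 ≤ cx D ν E x g b := by
  refine div_nonneg (Finset.sum_nonneg fun c hc => ?_) (mu_nonneg hν x b)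
  have := (Finset.mem_filter.1 hc).1
  exact mul_nonneg (hν c this) (hg c this)

lemma mu_congr (hs : ∀ x b c, E x b c → E x c b) (ht : ∀ x a b c, E x a b → E x b c → E x a c)
    {x : ℕ} {b c : ι} (h : E x b c) : mu D ν E x b = mu D ν E x c := by
  unfold mu
  congr 1
  ext d
  simp only [Finset.mem_filter, and_congr_right_iff]
  intro _
  exact ⟨fun h1 => ht _ _ _ _ (hs _ _ _ h) h1, fun h1 => ht _ _ _ _ h h1⟩

lemma cx_congr (hs : ∀ x b c, E x b c → E x c b) (ht : ∀ x a b c, E x a b → E x b c → E x a c)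
    {x : ℕ} {b c : ι} (h : E x b c) (g : ι → ℝ) : cx D ν E x g b = cx D ν E x g c := by
  unfold cx
  rw [mu_congr hs ht h]
  congr 2
  ext d
  simp only [Finset.mem_filter, and_congr_right_iff]
  intro _
  exact ⟨fun h1 => ht _ _ _ _ (hs _ _ _ h) h1, fun h1 => ht _ _ _ _ h h1⟩

/-- outside the domain the average vanishes -/
lemma cx_of_not_dom (hs : ∀ x b c, E x b c → E x c b)
    (ht : ∀ x a b c, E x a b → E x b c → E x a c) {x : ℕ} {b : ι} (h : ¬ E x b b) (g : ι → ℝ) :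
    cx D ν E x g b = 0 := by
  unfold cx
  have : D.filter (fun c => E x b c) = ∅ := by
    refine Finset.filter_eq_empty_iff.2 fun c _ hc => h (ht _ _ _ _ hc (hs _ _ _ hc))
  rw [this, Finset.sum_empty, zero_div]

/-- sums against a function constant on the classes -/
lemma sum_mul_cx (hν : ∀ b ∈ D, 0 ≤ ν b) (hs : ∀ x b c, E x b c → E x c b)
    (ht : ∀ x a b c, E x a b → E x b c → E x a c) (x : ℕ) (u g : ι → ℝ)
    (hu : ∀ b c, E x b c → u b = u c) (hu0 : ∀ b, u b ≠ 0 → E x b b) :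
    ∑ b ∈ D, ν b * u b * cx D ν E x g b = ∑ b ∈ D, ν b * u b * g b := by
  have e1 : ∑ b ∈ D, ν b * u b * cx D ν E x g b
      = ∑ b ∈ D, ∑ c ∈ D, if E x b c then ν b * u b * (ν c * g c) / mu D ν E x b else 0 := by
    refine Finset.sum_congr rfl fun b _ => ?_
    rw [← Finset.sum_filter]
    unfold cx
    rw [← mul_div_assoc, Finset.mul_sum, Finset.sum_div]
  have e2 : ∑ b ∈ D, ∑ c ∈ D, (if E x b c then ν b * u b * (ν c * g c) / mu D ν E x b else 0)
      = ∑ c ∈ D, ∑ b ∈ D, if E x c b then ν b * (u c * (ν c * g c) / mu D ν E x c) else 0 := by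
    rw [Finset.sum_comm]
    refine Finset.sum_congr rfl fun c _ => Finset.sum_congr rfl fun b _ => ?_
    by_cases h : E x b c
    · rw [if_pos h, if_pos (hs _ _ _ h), mu_congr hs ht h, hu _ _ h]
      ring
    · rw [if_neg h, if_neg (fun hc => h (hs _ _ _ hc))]
  rw [e1, e2]
  refine Finset.sum_congr rfl fun c hc => ?_
  rw [← Finset.sum_filter, ← Finset.sum_mul]
  change mu D ν E x c * _ = _
  by_cases h0 : mu D ν E x c = 0
  · -- the class of `c` has mass zero
    by_cases huc : u c = 0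
    · rw [huc]; ring
    · have hcc := hu0 c huc
      have hνc : ν c = 0 := by
        have h1 : ν c ≤ mu D ν E x c :=
          Finset.single_le_sum (f := ν) (fun d hd => hν d (Finset.mem_filter.1 hd).1)
            (Finset.mem_filter.2 ⟨hc, hcc⟩)
        linarith [hν c hc]
      rw [hνc]; ring
  · field_simp

/-- self-adjointness -/
lemma cx_adj (hs : ∀ x b c, E x b c → E x c b)
    (ht : ∀ x a b c, E x a b → E x b c → E x a c) (x : ℕ) (h g : ι → ℝ) :
    ∑ b ∈ D, ν b * h b * cx D ν E x g b = ∑ b ∈ D, ν b * cx D ν E x h b * g b := by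
  have e1 : ∑ b ∈ D, ν b * h b * cx D ν E x g b
      = ∑ b ∈ D, ∑ c ∈ D, if E x b c then ν b * h b * (ν c * g c) / mu D ν E x b else 0 := by
    refine Finset.sum_congr rfl fun b _ => ?_
    rw [← Finset.sum_filter]
    unfold cx
    rw [← mul_div_assoc, Finset.mul_sum, Finset.sum_div]
  have e3 : ∑ b ∈ D, ν b * cx D ν E x h b * g b
      = ∑ c ∈ D, ∑ b ∈ D, if E x c b then ν b * h b * (ν c * g c) / mu D ν E x c else 0 := by
    refine Finset.sum_congr rfl fun c _ => ?_
    rw [← Finset.sum_filter]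
    unfold cx
    rw [mul_comm (ν c), mul_assoc, div_mul_eq_mul_div, Finset.sum_mul, Finset.sum_div]
  rw [e1, e3, Finset.sum_comm]
  refine Finset.sum_congr rfl fun c _ => Finset.sum_congr rfl fun b _ => ?_
  by_cases h' : E x b c
  · rw [if_pos h', if_pos (hs _ _ _ h'), mu_congr hs ht h']
  · rw [if_neg h', if_neg (fun hc => h' (hs _ _ _ hc))]

/-- **dual Doob inequality** -/
theorem dual_doob (hν : ∀ b ∈ D, 0 ≤ ν b) (hs : ∀ x b c, E x b c → E x c b)
    (ht : ∀ x a b c, E x a b → E x b c → E x a c)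
    (hn : ∀ x y b c, x ≤ y → E x b b → E y b c → E x b c)
    (hd : ∀ x y b, x ≤ y → E x b b → E y b b)
    (s : Finset ℕ) (h : ℕ → ι → ℝ) (hh : ∀ x ∈ s, ∀ b ∈ D, 0 ≤ h x b) :
    ∑ b ∈ D, ν b * (∑ x ∈ s, cx D ν E x (h x) b) ^ 2 ≤
      4 * ∑ b ∈ D, ν b * (∑ x ∈ s, h x b) ^ 2 := by
  set Z : ι → ℝ := fun b => ∑ x ∈ s, cx D ν E x (h x) b with hZ
  set R : ι → ℝ := fun b => ∑ x ∈ s, h x b with hR
  have hc0 : ∀ x ∈ s, ∀ b, 0 ≤ cx D ν E x (h x) b := fun x hx b => cx_nonneg hν x (hh x hx) b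
  have hZ0 : ∀ b, 0 ≤ Z b := fun b => Finset.sum_nonneg fun x hx => hc0 x hx b
  have hR0 : ∀ b ∈ D, 0 ≤ R b := fun b hb => Finset.sum_nonneg fun x hx => hh x hx b hb
  -- cross terms
  have hcross : ∀ x ∈ s, ∀ y ∈ s, x ≤ y →
      ∑ b ∈ D, ν b * cx D ν E x (h x) b * cx D ν E y (h y) b
        = ∑ b ∈ D, ν b * cx D ν E x (h x) b * h y b := by
    intro x _ y _ hxy
    refine sum_mul_cx hν hs ht y _ _ ?_ ?_
    · intro b c hbc
      by_cases hb : E x b b
      · exact cx_congr hs ht (hn x y b c hxy hb hbc) _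
      · have hc : ¬ E x c c := fun hc => hb (by
          have := hn x y c b hxy hc (hs _ _ _ hbc)
          exact ht _ _ _ _ (hs _ _ _ this) this)
        rw [cx_of_not_dom hs ht hb, cx_of_not_dom hs ht hc]
    · intro b hb
      refine hd x y b hxy ?_
      by_contra hcon
      exact hb (cx_of_not_dom hs ht hcon _)
  -- Z² ≤ 2 Σ_{x ≤ y}
  have h1 : ∑ b ∈ D, ν b * Z b ^ 2 ≤ 2 * ∑ b ∈ D, ν b * Z b * R b := by
    have hpt : ∀ b ∈ D, ν b * Z b ^ 2 ≤
        2 * ∑ x ∈ s, ∑ y ∈ s with x ≤ y, ν b * cx D ν E x (h x) b * cx D ν E y (h y) b := by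
      intro b hb
      have e : ν b * Z b ^ 2 =
          ∑ x ∈ s, ∑ y ∈ s, ν b * cx D ν E x (h x) b * cx D ν E y (h y) b := by
        simp only [hZ]
        rw [pow_two, Finset.sum_mul_sum, Finset.mul_sum]
        refine Finset.sum_congr rfl fun x _ => ?_
        rw [Finset.mul_sum]
        exact Finset.sum_congr rfl fun y _ => by ring
      rw [e]
      have h2 : ∑ x ∈ s, ∑ y ∈ s, ν b * cx D ν E x (h x) b * cx D ν E y (h y) b ≤
          ∑ x ∈ s, (∑ y ∈ s with x ≤ y, ν b * cx D ν E x (h x) b * cx D ν E y (h y) b)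
          + ∑ x ∈ s, (∑ y ∈ s with y ≤ x, ν b * cx D ν E x (h x) b * cx D ν E y (h y) b) := by
        rw [← Finset.sum_add_distrib]
        refine Finset.sum_le_sum fun x hx => ?_
        rw [Finset.sum_filter, Finset.sum_filter, ← Finset.sum_add_distrib]
        refine Finset.sum_le_sum fun y hy => ?_
        have h3 : 0 ≤ ν b * cx D ν E x (h x) b * cx D ν E y (h y) b :=
          mul_nonneg (mul_nonneg (hν b hb) (hc0 x hx b)) (hc0 y hy b)
        rcases le_total x y with h4 | h4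
        · rw [if_pos h4]
          split_ifs <;> linarith
        · rw [if_pos h4]
          split_ifs <;> linarith
      have h5 : ∑ x ∈ s, (∑ y ∈ s with y ≤ x, ν b * cx D ν E x (h x) b * cx D ν E y (h y) b)
          = ∑ x ∈ s, (∑ y ∈ s with x ≤ y, ν b * cx D ν E x (h x) b * cx D ν E y (h y) b) := by
        simp only [Finset.sum_filter]
        rw [Finset.sum_comm]
        refine Finset.sum_congr rfl fun x _ => Finset.sum_congr rfl fun y _ => ?_
        split_ifs <;> ring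
      rw [h5] at h2
      linarith
    calc ∑ b ∈ D, ν b * Z b ^ 2
        ≤ ∑ b ∈ D, 2 * ∑ x ∈ s, ∑ y ∈ s with x ≤ y,
            ν b * cx D ν E x (h x) b * cx D ν E y (h y) b := Finset.sum_le_sum hpt
      _ = 2 * ∑ x ∈ s, ∑ y ∈ s with x ≤ y,
            ∑ b ∈ D, ν b * cx D ν E x (h x) b * cx D ν E y (h y) b := by
          rw [← Finset.mul_sum, Finset.sum_comm]
          refine congrArg (fun t : ℝ => 2 * t) ?_
          refine Finset.sum_congr rfl fun x _ => ?_
          rw [Finset.sum_comm]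
      _ = 2 * ∑ x ∈ s, ∑ y ∈ s with x ≤ y, ∑ b ∈ D, ν b * cx D ν E x (h x) b * h y b := by
          refine congrArg (fun t : ℝ => 2 * t) ?_
          refine Finset.sum_congr rfl fun x hx => Finset.sum_congr rfl fun y hy => ?_
          rw [Finset.mem_filter] at hy
          exact hcross x hx y hy.1 hy.2
      _ ≤ 2 * ∑ x ∈ s, ∑ y ∈ s, ∑ b ∈ D, ν b * cx D ν E x (h x) b * h y b := by
          refine mul_le_mul_of_nonneg_left (Finset.sum_le_sum fun x hx => ?_) (by norm_num)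
          refine Finset.sum_le_sum_of_subset_of_nonneg (Finset.filter_subset _ _) ?_
          intro y hy _
          exact Finset.sum_nonneg fun b hb =>
            mul_nonneg (mul_nonneg (hν b hb) (hc0 x hx b)) (hh y hy b hb)
      _ = 2 * ∑ b ∈ D, ν b * Z b * R b := by
          have hp : ∀ b : ι, ν b * Z b * R b =
              ∑ x ∈ s, ∑ y ∈ s, ν b * cx D ν E x (h x) b * h y b := by
            intro b
            have e1 : Z b * R b = ∑ x ∈ s, ∑ y ∈ s, cx D ν E x (h x) b * h y b :=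
              Finset.sum_mul_sum s s (fun x => cx D ν E x (h x) b) (fun y => h y b)
            rw [mul_assoc, e1, Finset.mul_sum]
            refine Finset.sum_congr rfl fun x _ => ?_
            rw [Finset.mul_sum]
            exact Finset.sum_congr rfl fun y _ => by ring
          have hq : ∑ b ∈ D, ν b * Z b * R b =
              ∑ x ∈ s, ∑ y ∈ s, ∑ b ∈ D, ν b * cx D ν E x (h x) b * h y b := by
            rw [Finset.sum_congr rfl fun b _ => hp b, Finset.sum_comm]
            refine Finset.sum_congr rfl fun x _ => ?_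
            rw [Finset.sum_comm]
          rw [hq]
  -- 2 Z R ≤ Z²/2 + 2 R²
  have h6 : 2 * ∑ b ∈ D, ν b * Z b * R b ≤
      (1/2) * ∑ b ∈ D, ν b * Z b ^ 2 + 2 * ∑ b ∈ D, ν b * R b ^ 2 := by
    rw [Finset.mul_sum, Finset.mul_sum, Finset.mul_sum, ← Finset.sum_add_distrib]
    refine Finset.sum_le_sum fun b hb => ?_
    have h7 := hν b hb
    have h8 : 0 ≤ ν b * (Z b - 2 * R b) ^ 2 := mul_nonneg h7 (sq_nonneg _)
    nlinarith
  linarith

/-- **row lemma, abstract form** -/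
theorem row_abs (hν : ∀ b ∈ D, 0 ≤ ν b) (hs : ∀ x b c, E x b c → E x c b)
    (ht : ∀ x a b c, E x a b → E x b c → E x a c)
    (hn : ∀ x y b c, x ≤ y → E x b b → E y b c → E x b c)
    (hd : ∀ x y b, x ≤ y → E x b b → E y b b)
    (s : Finset ℕ) (h : ℕ → ι → ℝ) (hh : ∀ x ∈ s, ∀ b ∈ D, 0 ≤ h x b) (f : ι → ℝ) :
    ∑ x ∈ s, ∑ b ∈ D, ν b * f b * cx D ν E x (h x) b ≤
      2 * (Real.sqrt (∑ b ∈ D, ν b * f b ^ 2) *
        Real.sqrt (∑ b ∈ D, ν b * (∑ x ∈ s, h x b) ^ 2)) := by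
  set Z : ι → ℝ := fun b => ∑ x ∈ s, cx D ν E x (h x) b with hZ
  have e : ∑ x ∈ s, ∑ b ∈ D, ν b * f b * cx D ν E x (h x) b = ∑ b ∈ D, ν b * f b * Z b := by
    rw [Finset.sum_comm]
    refine Finset.sum_congr rfl fun b _ => ?_
    simp only [hZ]
    rw [Finset.mul_sum]
  rw [e]
  have hcs : ∑ b ∈ D, ν b * f b * Z b ≤
      Real.sqrt (∑ b ∈ D, ν b * f b ^ 2) * Real.sqrt (∑ b ∈ D, ν b * Z b ^ 2) := by
    have h1 := Real.sum_mul_le_sqrt_mul_sqrt D (fun b => Real.sqrt (ν b) * f b)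
      (fun b => Real.sqrt (ν b) * Z b)
    have e1 : ∀ b ∈ D, Real.sqrt (ν b) * f b * (Real.sqrt (ν b) * Z b) = ν b * f b * Z b := by
      intro b hb
      have := Real.mul_self_sqrt (hν b hb)
      calc _ = (Real.sqrt (ν b) * Real.sqrt (ν b)) * f b * Z b := by ring
        _ = _ := by rw [this]
    have e2 : ∀ g : ι → ℝ, ∀ b ∈ D, (Real.sqrt (ν b) * g b) ^ 2 = ν b * g b ^ 2 := by
      intro g b hb
      rw [mul_pow, Real.sq_sqrt (hν b hb)]
    rw [Finset.sum_congr rfl e1, Finset.sum_congr rfl (e2 f), Finset.sum_congr rfl (e2 Z)] at h1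
    exact h1
  refine hcs.trans ?_
  have h2 := dual_doob hν hs ht hn hd s h hh
  have h3 : Real.sqrt (∑ b ∈ D, ν b * Z b ^ 2) ≤
      2 * Real.sqrt (∑ b ∈ D, ν b * (∑ x ∈ s, h x b) ^ 2) := by
    have : Real.sqrt (4 * ∑ b ∈ D, ν b * (∑ x ∈ s, h x b) ^ 2)
        = 2 * Real.sqrt (∑ b ∈ D, ν b * (∑ x ∈ s, h x b) ^ 2) := by
      rw [Real.sqrt_mul (by norm_num)]
      congr 1
      rw [show (4:ℝ) = 2 ^ 2 by norm_num]
      exact Real.sqrt_sq (by norm_num)
    rw [← this]
    exact Real.sqrt_le_sqrt h2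
  calc Real.sqrt (∑ b ∈ D, ν b * f b ^ 2) * Real.sqrt (∑ b ∈ D, ν b * Z b ^ 2)
      ≤ Real.sqrt (∑ b ∈ D, ν b * f b ^ 2) *
        (2 * Real.sqrt (∑ b ∈ D, ν b * (∑ x ∈ s, h x b) ^ 2)) :=
        mul_le_mul_of_nonneg_left h3 (Real.sqrt_nonneg _)
    _ = _ := by ring

end abstract

/-! ### The classes of an F-Λ structure -/

section FLpart

variable {M : ℕ} (F : FL M)

/-- pure from `x` on: letters `< x` equal, branched letters `≥ x` equal, passive letters `≥ x`
have minimum = centre -/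
def PureFrom (x b c : ℕ) : Prop :=
  ∀ q, q.Prime → (q < x → b.factorization q = c.factorization q) ∧
    (x ≤ q → (F.ctr b q = none → b.factorization q = c.factorization q) ∧
      (∀ v, F.ctr b q = some v → min (b.factorization q) (c.factorization q) = v))

/-- the class relation: letters `< x` equal, same node, no deficits at primes `≥ x` -/
def Cls (x b c : ℕ) : Prop :=
  b ∣ M ∧ c ∣ M ∧ ∀ q, q.Prime → (q < x → b.factorization q = c.factorization q) ∧
    (x ≤ q → F.ctr b q = F.ctr c q ∧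
      (F.ctr b q = none → b.factorization q = c.factorization q) ∧
      (∀ v, F.ctr b q = some v → v ≤ b.factorization q ∧ v ≤ c.factorization q))

variable {F}

lemma cls_symm (x b c : ℕ) (h : Cls F x b c) : Cls F x c b := by
  refine ⟨h.2.1, h.1, fun q hq => ?_⟩
  obtain ⟨h1, h2⟩ := h.2.2 q hq
  refine ⟨fun hx => (h1 hx).symm, fun hx => ?_⟩
  obtain ⟨e, h3, h4⟩ := h2 hx
  refine ⟨e.symm, fun hn => (h3 (e.trans hn)).symm, fun v hv => ?_⟩
  exact (h4 v (e.trans hv)).symm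

lemma cls_trans (x a b c : ℕ) (h : Cls F x a b) (h' : Cls F x b c) : Cls F x a c := by
  refine ⟨h.1, h'.2.1, fun q hq => ?_⟩
  obtain ⟨h1, h2⟩ := h.2.2 q hq
  obtain ⟨h1', h2'⟩ := h'.2.2 q hq
  refine ⟨fun hx => (h1 hx).trans (h1' hx), fun hx => ?_⟩
  obtain ⟨e, h3, h4⟩ := h2 hx
  obtain ⟨e', h3', h4'⟩ := h2' hx
  refine ⟨e.trans e', fun hn => (h3 hn).trans (h3' (e ▸ hn)), fun v hv => ?_⟩
  exact ⟨(h4 v hv).1, (h4' v (e ▸ hv)).2⟩

lemma cls_nest (x y b c : ℕ) (hxy : x ≤ y) (hb : Cls F x b b) (h : Cls F y b c) :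
    Cls F x b c := by
  -- letters in [x, y) are equal, so statuses agree everywhere ≥ x
  have hsame : ∀ q, q.Prime → F.ctr b q = none → b.factorization q = c.factorization q := by
    intro q hq hn
    rcases lt_or_ge q y with hqy | hqy
    · exact (h.2.2 q hq).1 hqy
    · exact ((h.2.2 q hq).2 hqy).2.1 hn
  have hctr : ∀ q, q.Prime → F.ctr b q = F.ctr c q := fun q hq =>
    F.coh h.1 h.2.1 hq fun r hr _ hn => hsame r hr hn
  refine ⟨h.1, h.2.1, fun q hq => ⟨fun hx => (h.2.2 q hq).1 (lt_of_lt_of_le hx hxy),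
    fun hx => ⟨hctr q hq, hsame q hq, fun v hv => ?_⟩⟩⟩
  rcases lt_or_ge q y with hqy | hqy
  · have e := (h.2.2 q hq).1 hqy
    have h1 := ((hb.2.2 q hq).2 hx).2.2 v hv
    rw [← e]
    exact ⟨h1.1, h1.1⟩
  · exact ((h.2.2 q hq).2 hqy).2.2 v hv

lemma cls_dom (x y b : ℕ) (hxy : x ≤ y) (hb : Cls F x b b) : Cls F y b b := by
  refine ⟨hb.1, hb.1, fun q hq => ⟨fun _ => rfl, fun hx => ⟨rfl, fun _ => rfl, fun v hv => ?_⟩⟩⟩
  exact ((hb.2.2 q hq).2 (hxy.trans hx)).2.2 v hv

/-- a `PureFrom` pair lies in one class -/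
lemma cls_of_pure {x b c : ℕ} (hb : b ∣ M) (hc : c ∣ M) (h : PureFrom F x b c) :
    Cls F x b c := by
  have hsame : ∀ q, q.Prime → F.ctr b q = none → b.factorization q = c.factorization q := by
    intro q hq hn
    rcases lt_or_ge q x with hqx | hqx
    · exact (h q hq).1 hqx
    · exact ((h q hq).2 hqx).1 hn
  have hctr : ∀ q, q.Prime → F.ctr b q = F.ctr c q := fun q hq =>
    F.coh hb hc hq fun r hr _ hn => hsame r hr hn
  refine ⟨hb, hc, fun q hq => ⟨(h q hq).1, fun hx => ⟨hctr q hq, hsame q hq, fun v hv => ?_⟩⟩⟩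
  have h1 := ((h q hq).2 hx).2 v hv
  omega

/-- the gcd of a `PureFrom` pair divides the whole class -/
lemma gcd_dvd_cls {x b c d : ℕ} (hM : 0 < M) (hb : b ∣ M) (hc : c ∣ M)
    (h : PureFrom F x b c) (hd : Cls F x b d) : Nat.gcd b c ∣ d := by
  have hb0 : b ≠ 0 := (Nat.pos_of_dvd_of_pos hb hM).ne'
  have hc0 : c ≠ 0 := (Nat.pos_of_dvd_of_pos hc hM).ne'
  have hd0 : d ≠ 0 := (Nat.pos_of_dvd_of_pos hd.2.1 hM).ne'
  have hg0 : Nat.gcd b c ≠ 0 := Nat.gcd_ne_zero_left hb0
  rw [← Nat.factorization_le_iff_dvd hg0 hd0]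
  intro q
  by_cases hq : q.Prime
  · rw [Nat.factorization_gcd hb0 hc0, Finsupp.inf_apply]
    rcases lt_or_ge q x with hqx | hqx
    · rw [← (hd.2.2 q hq).1 hqx]
      exact inf_le_left
    · obtain ⟨_, h3, h4⟩ := (hd.2.2 q hq).2 hqx
      cases hs : F.ctr b q with
      | none => rw [← h3 hs]; exact inf_le_left
      | some v =>
        have h5 := ((h q hq).2 hqx).2 v hs
        have h6 := (h4 v hs).2
        have : b.factorization q ⊓ c.factorization q = min (b.factorization q) (c.factorization q) :=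
          rfl
        rw [this, h5]
        exact h6
  · rw [Nat.factorization_eq_zero_of_not_prime _ hq]
    exact Nat.zero_le _

open Classical in
/-- **row lemma, weights on arbitrary words** (note 3229 (3)) -/
theorem row_present (hM : 0 < M) (s : Finset ℕ) (h : ℕ → ℕ → ℝ)
    (hh : ∀ x ∈ s, ∀ b, b ∣ M → 0 ≤ h x b) (f : ℕ → ℝ) (hf : ∀ b, b ∣ M → 0 ≤ f b) :
    ∑ x ∈ s, frm M (fun b c => if PureFrom F x b c then f b * h x c else 0) ≤
      2 * (Real.sqrt (∑ b ∈ M.divisors, nu M b * f b ^ 2) *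
        Real.sqrt (∑ b ∈ M.divisors, nu M b * (∑ x ∈ s, h x b) ^ 2)) := by
  have hmain := row_abs (D := M.divisors) (ν := nu M) (E := Cls F)
    (fun b _ => nu_nonneg M b) cls_symm cls_trans cls_nest cls_dom s h
    (fun x hx b hb => hh x hx b (Nat.dvd_of_mem_divisors hb)) f
  refine le_trans (Finset.sum_le_sum fun x hx => ?_) hmain
  unfold frm
  refine Finset.sum_le_sum fun b hb => ?_
  have hbM := Nat.dvd_of_mem_divisors hb
  unfold cx
  rw [← mul_div_assoc, Finset.mul_sum, Finset.sum_div, Finset.sum_filter]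
  refine Finset.sum_le_sum fun c hc => ?_
  have hcM := Nat.dvd_of_mem_divisors hc
  have hνb := nu_nonneg M b
  have hνc := nu_nonneg M c
  have hfb := hf b hbM
  have hhc := hh x hx c hcM
  beta_reduce
  by_cases hp : PureFrom F x b c
  · have hcls := cls_of_pure hbM hcM hp
    rw [if_pos hp, if_pos hcls]
    have hνc' : 0 < nu M c := nu_pos hM hcM
    have hmu : 0 < mu M.divisors (nu M) (Cls F) x b := by
      refine lt_of_lt_of_le hνc' ?_
      exact Finset.single_le_sum (f := nu M) (fun d _ => nu_nonneg M d)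
        (Finset.mem_filter.2 ⟨hc, hcls⟩)
    have hg0 : 0 < Nat.gcd b c :=
      Nat.gcd_pos_of_pos_left _ (Nat.pos_of_dvd_of_pos hbM hM)
    have hmu1 : mu M.divisors (nu M) (Cls F) x b ≤ 1 / (Nat.gcd b c : ℝ) := by
      refine le_trans ?_ (Lawx69.prob_dvd_le hM (Nat.gcd b c))
      unfold mu
      refine Finset.sum_le_sum_of_subset_of_nonneg ?_ fun d _ _ => nu_nonneg M d
      intro d hd
      rw [Finset.mem_filter] at hd ⊢
      exact ⟨hd.1, gcd_dvd_cls hM hbM hcM hp hd.2⟩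
    have hgR : (0:ℝ) < (Nat.gcd b c : ℝ) := by exact_mod_cast hg0
    have h1 : (Nat.gcd b c : ℝ) ≤ 1 / mu M.divisors (nu M) (Cls F) x b := by
      rw [le_div_iff₀ hmu]
      rw [le_div_iff₀ hgR] at hmu1
      linarith
    calc (Nat.gcd b c : ℝ) * nu M b * nu M c * (f b * h x c)
        = (Nat.gcd b c : ℝ) * (nu M b * f b * (nu M c * h x c)) := by ring
      _ ≤ (1 / mu M.divisors (nu M) (Cls F) x b) * (nu M b * f b * (nu M c * h x c)) :=
          mul_le_mul_of_nonneg_right h1 (by positivity)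
      _ = _ := by ring
  · rw [if_neg hp, mul_zero]
    split_ifs
    · refine div_nonneg (by positivity) (mu_nonneg (fun d _ => nu_nonneg M d) _ _)
    · exact le_rfl

end FLpart

end Crest.Agent.R4C.RowPx823
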