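import Crest.Agent.R4C.RowL2_423
import Crest.Agent.R4C.RowP_823
import Crest.Agent.R4C.PrefixM_882
import Crest.Agent.R4C.LTw_662

/-!
# Row 4: BOOSTED `L²` row lemmas (helper899)

`frm M` carries the factor `gcd ν ν`; for pairs with equal letters below `x` this contains
`Vx M x b = ∏_{q < x, v_q b < v_q M} (1 - 1/q)`.  The boost cancels (part of) this factor.  Here the
row lemmas of `RowL2_423` and `RowP_823` are proved with the full factor `1 / Vx M x b`
(helper5's note 3094 (1), helper823's note 3229 (3)).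

* `row_mainB`    : `∑_x frm M (1[pd F x b c] A x b f c / Vx M x b) ≤ ∑ ν Phi(f, RR F A)`.
* `row_bilinB`   : two functions, row sums `≤ ρ` (`1 ≤ ρ`): `≤ 14 ρ ‖f‖ ‖g‖`.
* `row_presentB` : `∑_x frm M (1[PureFrom F x b c] f b h x c / Vx M x b) ≤ 2 ‖f‖ ‖∑_x h x‖`.
* `wbd_alpha`, `wbd_beta` : the kernels as `WBd` (weighted set bounds).
-/

set_option autoImplicit false

namespace Crest.Agent.R4C.RowBx899

open Finset Crest.Agent.R4C.Basex935 Crest.Agent.R4C.FLDefx935 Crest.Agent.R4C.PureL2x232
  Crest.Agent.R4C.RowL2x423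

variable {p a M1 : ℕ}

lemma one_sub_pos {q : ℕ} (hq : q.Prime) : 0 < 1 - 1 / (q : ℝ) := by
  have h2 : (2 : ℝ) ≤ q := by exact_mod_cast hq.two_le
  have : 1 / (q : ℝ) ≤ 1 / 2 := one_div_le_one_div_of_le (by norm_num) h2
  linarith

lemma Vx_pos (M x b : ℕ) : 0 < Vx M x b :=
  Finset.prod_pos fun _ hq =>
    one_sub_pos (Nat.prime_of_mem_primeFactors (Finset.mem_filter.1 hq).1)

/-- `Vx` at a prime `x ≤ p`, `p` the top prime -/
lemma Vx_top (hp : p.Prime) (hM : 0 < M1) (_hnd : ¬ p ∣ M1) (ha : 0 < a) {x v b : ℕ}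
    (hx : x ≤ p) (hb : b ∣ M1) : Vx (p ^ a * M1) x (p ^ v * b) = Vx M1 x b := by
  unfold Vx
  congr 1
  ext q
  simp only [Finset.mem_filter]
  rw [pf_insert hp hM ha, Finset.mem_insert]
  have hb0 := mem_ne_zero hM hb
  constructor
  · rintro ⟨h1, h2, h3⟩
    have hqp : q ≠ p := by omega
    rw [fac_ne hp hb0 hqp, fac_ne hp hM.ne' hqp] at h3
    exact ⟨h1.resolve_left hqp, h2, h3⟩
  · rintro ⟨h1, h2, h3⟩
    have hqp : q ≠ p := by omega
    rw [fac_ne hp hb0 hqp, fac_ne hp hM.ne' hqp]
    exact ⟨Or.inr h1, h2, h3⟩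

/-- `b ν(b) = Vx M x b` when all primes of `M` are `< x` -/
lemma diag_Vx {M x b : ℕ} (hM : 0 < M) (hmax : ∀ r, r.Prime → r ∣ M → r < x) (hb : b ∣ M) :
    (b : ℝ) * nu M b = Vx M x b := by
  rw [PrefixMx882.diag hM hb]
  unfold Vx PrefixMx882.free
  congr 1
  ext q
  simp only [Finset.mem_filter]
  constructor
  · rintro ⟨h1, h2⟩
    exact ⟨h1, hmax q (Nat.prime_of_mem_primeFactors h1) (Nat.dvd_of_mem_primeFactors h1), h2⟩
  · rintro ⟨h1, _, h2⟩
    exact ⟨h1, h2⟩

open Classical in
/-- **the boosted row theorem** -/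
theorem row_mainB : ∀ M : ℕ, 0 < M → (∀ (F : FL M) (A : ℕ → ℕ → ℝ) (f : ℕ → ℝ),
    (∀ b, 0 ≤ f b) → (∀ x b, 0 ≤ A x b) → (∀ x b, A x b ≤ f b) →
    SS F (fun x b => A x b / Vx M x b) f ≤ ∑ b ∈ M.divisors, nu M b * Phi (f b) (RR F A b)) := by
  refine ind_max ?_ ?_
  · intro F A f hf hA hAf
    unfold SS
    rw [Nat.primeFactors_one, Finset.sum_empty]
    exact Finset.sum_nonneg fun b _ => mul_nonneg (nu_nonneg _ _) (Phi_nonneg _ _)
  · intro p a M1 hp ha hM hnd hmax ih F A f hf hA hAf
    have hcop : Nat.Coprime (p ^ a) M1 :=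
      Nat.Coprime.pow_left a ((Nat.Prime.coprime_iff_not_dvd hp).2 hnd)
    have hMM : 0 < p ^ a * M1 := Nat.mul_pos (pow_pos hp.pos a) hM
    have hnn : ∀ v, 0 ≤ nup p a v := fun v => nup_nonneg hp.pos a v
    have hstat : ∀ v b, v ≤ a → b ∣ M1 → F.ctr (p ^ v * b) p = F.ctr 1 p := fun v b hv hb =>
      ctr_top hMM hp F (top_le_p hp hmax) (Nat.mul_dvd_mul (pow_dvd_pow p hv) hb) (one_dvd _)
    -- the weight with the boost
    set A' : ℕ → ℕ → ℝ := fun x b => A x b / Vx (p ^ a * M1) x b with hA'
    have hA'0 : ∀ x b, 0 ≤ A' x b := fun x b => div_nonneg (hA x b) (Vx_nonneg _ _ _)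
    have hA'e : ∀ x v b, x ≤ p → b ∣ M1 → A' x (p ^ v * b) = A x (p ^ v * b) / Vx M1 x b := by
      intro x v b hx hb
      simp only [hA']
      rw [Vx_top hp hM hnd ha hx hb]
    have hrhs : ∑ b ∈ (p ^ a * M1).divisors, nu (p ^ a * M1) b * Phi (f b) (RR F A b) =
        ∑ v ∈ range (a + 1), ∑ b ∈ M1.divisors,
          nup p a v * (nu M1 b * Phi (f (p ^ v * b)) (RR F A (p ^ v * b))) := by
      rw [sum_split hp a hM hnd]
      refine Finset.sum_congr rfl fun v hv => Finset.sum_congr rfl fun b hb => ?_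
      rw [Finset.mem_range] at hv
      rw [Nat.mem_divisors] at hb
      rw [nu_mul hcop (pow_dvd_pow p (by omega)) hb.1, nu_prime_pow hp (by omega), mul_assoc]
    have hlhs : SS F A' f = ∑ x ∈ insert p M1.primeFactors,
        ∑ v ∈ range (a + 1), ∑ v' ∈ range (a + 1),
        (p : ℝ) ^ (min v v') * nup p a v * nup p a v' *
        frm M1 (fun b c => if pd F x (p ^ v * b) (p ^ v' * c) then
          A' x (p ^ v * b) * f (p ^ v' * c) else 0) := by
      unfold SS
      rw [pf_insert hp hM ha]
      exact Finset.sum_congr rfl fun x _ => frm_split hp a hM hnd _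
    rw [hrhs, hlhs]
    cases hs : F.ctr 1 p with
    | none =>
      -- branched
      have hzero : ∀ v b c x, v ≤ a → b ∣ M1 → x = p → ¬ pd F x (p ^ v * b) c := by
        intro v b c x hv hb hx h
        subst hx
        have := h.2.1
        rw [hstat v b hv hb, hs] at this
        cases this
      rw [Finset.sum_comm]
      refine Finset.sum_le_sum fun v hv => ?_
      rw [Finset.mem_range] at hv
      have hva : v ≤ a := by omega
      rw [Finset.sum_insert (p_notMem hnd)]
      have h1 : ∑ v' ∈ range (a + 1), (p : ℝ) ^ (min v v') * nup p a v * nup p a v' *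
          frm M1 (fun b c => if pd F p (p ^ v * b) (p ^ v' * c) then
          A' p (p ^ v * b) * f (p ^ v' * c) else 0) ≤ 0 := by
        refine Finset.sum_nonpos fun v' _ => ?_
        refine mul_nonpos_of_nonneg_of_nonpos (mul_nonneg (mul_nonneg (by positivity) (hnn _))
          (hnn _)) (frm_le_zero fun b c hb hc => ?_)
        rw [if_neg (hzero v b _ p hva hb rfl)]
      have h2 : ∑ x ∈ M1.primeFactors, ∑ v' ∈ range (a + 1),
          (p : ℝ) ^ (min v v') * nup p a v * nup p a v' *
          frm M1 (fun b c => if pd F x (p ^ v * b) (p ^ v' * c) then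
          A' x (p ^ v * b) * f (p ^ v' * c) else 0) ≤
          (p : ℝ) ^ v * nup p a v * nup p a v *
            SS (restr hp hM hnd F v hva) (fun x b => A x (p ^ v * b) / Vx M1 x b)
              (fun b => f (p ^ v * b)) := by
        unfold SS
        rw [Finset.mul_sum]
        refine Finset.sum_le_sum fun x hx => ?_
        have hxp : x.Prime := Nat.prime_of_mem_primeFactors hx
        have hxlt : x < p := hmax x hxp (Nat.dvd_of_mem_primeFactors hx)
        rw [Finset.sum_eq_single_of_mem v (Finset.mem_range.2 hv)]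
        · rw [min_self]
          refine mul_le_mul_of_nonneg_left (frm_mono fun b c hb hc => ?_)
            (mul_nonneg (mul_nonneg (by positivity) (hnn _)) (hnn _))
          rw [hA'e x v b hxlt.le hb]
          by_cases h : pd F x (p ^ v * b) (p ^ v * c)
          · have h3 := pd_branch hp hM hnd F hxlt hva hb hc (by rw [hstat v b hva hb, hs]) h
            rw [if_pos h, if_pos h3.2]
          · rw [if_neg h]
            split_ifs
            · exact mul_nonneg (div_nonneg (hA _ _) (Vx_nonneg _ _ _)) (hf _)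
            · exact le_rfl
        · intro v' hv' hne
          have e : frm M1 (fun b c => if pd F x (p ^ v * b) (p ^ v' * c) then
              A' x (p ^ v * b) * f (p ^ v' * c) else 0) = 0 := by
            unfold frm
            refine Finset.sum_eq_zero fun b hb => Finset.sum_eq_zero fun c hc => ?_
            rw [Nat.mem_divisors] at hb hc
            dsimp only
            rw [if_neg, mul_zero]
            intro h
            exact hne (pd_branch hp hM hnd F hxlt hva hb.1 hc.1
              (by rw [hstat v b hva hb.1, hs]) h).1.symm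
          rw [e, mul_zero]
      have h3 := ih (restr hp hM hnd F v hva) (fun x b => A x (p ^ v * b))
        (fun b => f (p ^ v * b)) (fun b => hf _) (fun x b => hA _ _) (fun x b => hAf _ _)
      have hθ := theta_le hp a v hva
      have hθ0 : 0 ≤ (p : ℝ) ^ v * nup p a v := mul_nonneg (by positivity) (hnn v)
      calc _ ≤ 0 + (p : ℝ) ^ v * nup p a v * nup p a v *
            SS (restr hp hM hnd F v hva) (fun x b => A x (p ^ v * b) / Vx M1 x b)
              (fun b => f (p ^ v * b)) :=
            add_le_add h1 h2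
        _ ≤ 0 + (p : ℝ) ^ v * nup p a v * nup p a v * ∑ b ∈ M1.divisors, nu M1 b *
            Phi (f (p ^ v * b)) (RR (restr hp hM hnd F v hva) (fun x b => A x (p ^ v * b)) b) :=
            add_le_add_right (mul_le_mul_of_nonneg_left h3 (mul_nonneg hθ0 (hnn v))) _
        _ ≤ _ := by
          rw [zero_add, Finset.mul_sum]
          refine Finset.sum_le_sum fun b hb => ?_
          rw [Nat.mem_divisors] at hb
          have hνb := nu_nonneg M1 b
          have h4 : Phi (f (p ^ v * b))
              (RR (restr hp hM hnd F v hva) (fun x b => A x (p ^ v * b)) b) ≤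
              Phi (f (p ^ v * b)) (RR F A (p ^ v * b)) := by
            refine Phi_mono (hf _) (RR_nonneg _ (fun x b => hA _ _) _) ?_
            rw [RR_restr hp hM hnd F _ hva, RR_split hp hM hnd ha F A hb.1]
            refine le_add_of_nonneg_left ?_
            split_ifs
            · exact mul_nonneg (by positivity) (hA _ _)
            · exact le_rfl
          have h5 := Phi_nonneg (f (p ^ v * b)) (RR F A (p ^ v * b))
          calc (p : ℝ) ^ v * nup p a v * nup p a v * (nu M1 b * Phi (f (p ^ v * b))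
              (RR (restr hp hM hnd F v hva) (fun x b => A x (p ^ v * b)) b))
              ≤ (p : ℝ) ^ v * nup p a v * nup p a v *
                (nu M1 b * Phi (f (p ^ v * b)) (RR F A (p ^ v * b))) :=
                mul_le_mul_of_nonneg_left (mul_le_mul_of_nonneg_left h4 hνb)
                  (mul_nonneg hθ0 (hnn v))
            _ ≤ 1 * nup p a v * (nu M1 b * Phi (f (p ^ v * b)) (RR F A (p ^ v * b))) :=
                mul_le_mul_of_nonneg_right (mul_le_mul_of_nonneg_right hθ (hnn v))
                  (mul_nonneg hνb h5)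
            _ = _ := by rw [one_mul]
    | some v0 =>
      -- passive, centre `v0`
      have hv0 : v0 ≤ a := by
        have h1 := F.le (one_dvd _) hp hs
        rwa [fac_self hp hM.ne' hnd] at h1
      have hv0m : v0 ∈ range (a + 1) := Finset.mem_range.2 (by omega)
      set F1 := restr hp hM hnd F v0 hv0 with hF1
      set π : ℝ := (1 / (p : ℝ)) ^ v0 with hπ
      have hπ0 : 0 ≤ π := by positivity
      have hmn : ∀ v, 0 ≤ ml p a v0 v := ml_nonneg hp a v0
      have hst : ∀ v b, v ≤ a → b ∣ M1 → F.ctr (p ^ v * b) p = some v0 := fun v b hv hb =>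
        (hstat v b hv hb).trans hs
      have hcoef : ∀ v v', min v v' = v0 → (p : ℝ) ^ (min v v') * nup p a v * nup p a v' =
          π * (ml p a v0 v * ml p a v0 v') := by
        intro v v' hmin
        unfold ml
        rw [if_pos (by omega), if_pos (by omega), hmin]
        calc (p : ℝ) ^ v0 * nup p a v * nup p a v'
            = 1 * ((p : ℝ) ^ v0 * nup p a v * nup p a v') := (one_mul _).symm
          _ = (π * (p : ℝ) ^ v0) * ((p : ℝ) ^ v0 * nup p a v * nup p a v') := by
              rw [hπ, pi_mul hp]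
          _ = _ := by ring
      set Ap : ℕ → ℝ := fun b => if v0 < a then A p (p ^ v0 * b) else 0 with hAp
      have hAp0 : ∀ b, 0 ≤ Ap b := by
        intro b
        simp only [hAp]
        split_ifs
        · exact hA _ _
        · exact le_rfl
      have hApf : ∀ b, Ap b ≤ f (p ^ v0 * b) := by
        intro b
        simp only [hAp]
        split_ifs
        · exact hAf _ _
        · exact hf _
      rw [Finset.sum_insert (p_notMem hnd)]
      -- the primes below `p`
      have hlow : ∑ x ∈ M1.primeFactors, ∑ v ∈ range (a + 1), ∑ v' ∈ range (a + 1),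
          (p : ℝ) ^ (min v v') * nup p a v * nup p a v' *
          frm M1 (fun b c => if pd F x (p ^ v * b) (p ^ v' * c) then
            A' x (p ^ v * b) * f (p ^ v' * c) else 0) ≤
          π * SS F1 (fun x b => (∑ v ∈ range (a + 1), ml p a v0 v * A x (p ^ v * b)) / Vx M1 x b)
            (fun b => ∑ v ∈ range (a + 1), ml p a v0 v * f (p ^ v * b)) := by
        unfold SS
        rw [Finset.mul_sum]
        refine Finset.sum_le_sum fun x hx => ?_
        have hxp : x.Prime := Nat.prime_of_mem_primeFactors hx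
        have hxlt : x < p := hmax x hxp (Nat.dvd_of_mem_primeFactors hx)
        have hdiv : ∀ b, (∑ v ∈ range (a + 1), ml p a v0 v * A x (p ^ v * b)) / Vx M1 x b =
            ∑ v ∈ range (a + 1), ml p a v0 v * (A x (p ^ v * b) / Vx M1 x b) := by
          intro b
          rw [Finset.sum_div]
          exact Finset.sum_congr rfl fun v _ => by ring
        simp only [hdiv]
        rw [← frm_avg2 (range (a + 1)) (ml p a v0) (fun v b => A x (p ^ v * b) / Vx M1 x b)
          (fun v b => f (p ^ v * b)) (pd F1 x)]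
        rw [Finset.mul_sum]
        refine Finset.sum_le_sum fun v hv => ?_
        rw [Finset.mul_sum]
        refine Finset.sum_le_sum fun v' hv' => ?_
        rw [Finset.mem_range] at hv hv'
        have hva : v ≤ a := by omega
        by_cases hmin : min v v' = v0
        · rw [hcoef v v' hmin, mul_assoc]
          refine mul_le_mul_of_nonneg_left (mul_le_mul_of_nonneg_left (frm_mono fun b c hb hc => ?_)
            (mul_nonneg (hmn v) (hmn v'))) hπ0
          rw [hA'e x v b hxlt.le hb]
          by_cases h : pd F x (p ^ v * b) (p ^ v' * c)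
          · rw [if_pos h, if_pos (pd_passive hp hM hnd F hxlt hxp hva hv0 hb hc (hst v b hva hb) h).2]
          · rw [if_neg h]
            split_ifs
            · exact mul_nonneg (div_nonneg (hA _ _) (Vx_nonneg _ _ _)) (hf _)
            · exact le_rfl
        · have e : frm M1 (fun b c => if pd F x (p ^ v * b) (p ^ v' * c) then
              A' x (p ^ v * b) * f (p ^ v' * c) else 0) = 0 := by
            unfold frm
            refine Finset.sum_eq_zero fun b hb => Finset.sum_eq_zero fun c hc => ?_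
            rw [Nat.mem_divisors] at hb hc
            dsimp only
            rw [if_neg, mul_zero]
            intro h
            exact hmin (pd_passive hp hM hnd F hxlt hxp hva hv0 hb.1 hc.1 (hst v b hva hb.1) h).1
          rw [e, mul_zero]
          refine mul_nonneg hπ0 (mul_nonneg (mul_nonneg (hmn v) (hmn v')) (frm_nonneg fun b c _ _ => ?_))
          split_ifs
          · exact mul_nonneg (div_nonneg (hA _ _) (Vx_nonneg _ _ _)) (hf _)
          · exact le_rfl
      -- the prime `p`
      have hfz : ∀ v v', v ≤ a → ¬ (v = v0 ∧ v < v') →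
          frm M1 (fun b c => if pd F p (p ^ v * b) (p ^ v' * c) then
              A' p (p ^ v * b) * f (p ^ v' * c) else 0) = 0 := by
        intro v v' hva hne
        unfold frm
        refine Finset.sum_eq_zero fun b hb => Finset.sum_eq_zero fun c hc => ?_
        rw [Nat.mem_divisors] at hb hc
        dsimp only
        rw [if_neg, mul_zero]
        intro h
        obtain ⟨_, h2, h3⟩ := pd_top hp hM hnd hmax F hb.1 hc.1 h
        rw [hst v b hva hb.1] at h2
        cases h2
        exact hne ⟨rfl, h3⟩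
      have htop : ∑ v ∈ range (a + 1), ∑ v' ∈ range (a + 1),
          (p : ℝ) ^ (min v v') * nup p a v * nup p a v' *
          frm M1 (fun b c => if pd F p (p ^ v * b) (p ^ v' * c) then
            A' p (p ^ v * b) * f (p ^ v' * c) else 0) ≤
          π * ∑ b ∈ M1.divisors, nu M1 b * (ml p a v0 v0 * Ap b *
            ∑ v' ∈ (range (a + 1)).erase v0, ml p a v0 v' * f (p ^ v' * b)) := by
        rw [Finset.sum_eq_single_of_mem v0 hv0m]
        · have e1 : π * ∑ b ∈ M1.divisors, nu M1 b * (ml p a v0 v0 * Ap b *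
              ∑ v' ∈ (range (a + 1)).erase v0, ml p a v0 v' * f (p ^ v' * b)) =
              ∑ v' ∈ (range (a + 1)).erase v0, π * (ml p a v0 v0 * ml p a v0 v') *
                ∑ b ∈ M1.divisors, nu M1 b * (Ap b * f (p ^ v' * b)) := by
            simp only [Finset.mul_sum]
            rw [Finset.sum_comm]
            refine Finset.sum_congr rfl fun v' _ => Finset.sum_congr rfl fun b _ => by ring
          rw [e1, ← Finset.add_sum_erase _ _ hv0m, hfz v0 v0 hv0 (by omega), mul_zero, zero_add]
          refine Finset.sum_le_sum fun v' hv' => ?_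
          have hv'a : v' ≤ a := by
            have := Finset.mem_range.1 (Finset.mem_of_mem_erase hv')
            omega
          have hrn : 0 ≤ ∑ b ∈ M1.divisors, nu M1 b * (Ap b * f (p ^ v' * b)) :=
            Finset.sum_nonneg fun b _ => mul_nonneg (nu_nonneg _ _) (mul_nonneg (hAp0 _) (hf _))
          by_cases hlt : v0 < v'
          · rw [hcoef v0 v' (min_eq_left hlt.le)]
            refine mul_le_mul_of_nonneg_left ?_ (mul_nonneg hπ0 (mul_nonneg (hmn _) (hmn _)))
            have hAe : ∀ b, b ∣ M1 → A' p (p ^ v0 * b) = Ap b / Vx M1 p b := fun b hb => by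
              rw [hA'e p v0 b le_rfl hb]
              simp only [hAp]
              rw [if_pos (by omega)]
            have h1 : frm M1 (fun b c => if pd F p (p ^ v0 * b) (p ^ v' * c) then
                A' p (p ^ v0 * b) * f (p ^ v' * c) else 0) ≤
                frm M1 (fun b c => if b = c then Ap b / Vx M1 p b * f (p ^ v' * c) else 0) := by
              refine frm_mono fun b c hb hc => ?_
              by_cases h : pd F p (p ^ v0 * b) (p ^ v' * c)
              · rw [if_pos h, if_pos (pd_top hp hM hnd hmax F hb hc h).1, hAe b hb]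
              · rw [if_neg h]
                split_ifs
                · exact mul_nonneg (div_nonneg (hAp0 _) (Vx_nonneg _ _ _)) (hf _)
                · exact le_rfl
            refine h1.trans ?_
            rw [frm_diag (fun b c => Ap b / Vx M1 p b * f (p ^ v' * c))]
            refine Finset.sum_le_sum fun b hb => ?_
            rw [Nat.mem_divisors] at hb
            rw [diag_Vx hM hmax hb.1]
            refine le_of_eq ?_
            have h2 := (Vx_pos M1 p b).ne'
            field_simp
          · rw [hfz v0 v' hv0 (by omega), mul_zero]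
            exact mul_nonneg (mul_nonneg hπ0 (mul_nonneg (hmn _) (hmn _))) hrn
        · intro v hv hne
          refine Finset.sum_eq_zero fun v' _ => ?_
          rw [hfz v v' (by have := Finset.mem_range.1 hv; omega) (fun h => hne h.1), mul_zero]
      have hih := ih F1 (fun x b => ∑ v ∈ range (a + 1), ml p a v0 v * A x (p ^ v * b))
        (fun b => ∑ v ∈ range (a + 1), ml p a v0 v * f (p ^ v * b))
        (fun b => Finset.sum_nonneg fun v _ => mul_nonneg (hmn v) (hf _))
        (fun x b => Finset.sum_nonneg fun v _ => mul_nonneg (hmn v) (hA _ _))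
        (fun x b => Finset.sum_le_sum fun v _ => mul_le_mul_of_nonneg_left (hAf _ _) (hmn v))
      have hp2 : (1 : ℝ) / p ≤ 1 / 2 := one_div_le_one_div_of_le (by norm_num)
        (by exact_mod_cast hp.two_le)
      refine (add_le_add htop (hlow.trans (mul_le_mul_of_nonneg_left hih hπ0))).trans ?_
      rw [← mul_add, ← Finset.sum_add_distrib, Finset.sum_comm, Finset.mul_sum]
      refine Finset.sum_le_sum fun b hb => ?_
      rw [Nat.mem_divisors] at hb
      have hνb := nu_nonneg M1 b
      -- the row sums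
      have hRR : RR F1 (fun x b => ∑ v ∈ range (a + 1), ml p a v0 v * A x (p ^ v * b)) b =
          ∑ v ∈ range (a + 1), ml p a v0 v * RR F A (p ^ v * b) -
            ml p a v0 v0 * (1 / (p : ℝ) * Ap b) := by
        rw [hF1, RR_restr hp hM hnd F _ hv0]
        have e1 : ∑ v ∈ range (a + 1), ml p a v0 v * RR F A (p ^ v * b) =
            ∑ v ∈ range (a + 1), ml p a v0 v *
              (if F.ctr (p ^ v * b) p = some v ∧ v < a then 1 / (p : ℝ) * A p (p ^ v * b) else 0) +
            ∑ v ∈ range (a + 1), ml p a v0 v * ∑ x ∈ M1.primeFactors,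
              (if F.ctr (p ^ v0 * b) x = some (b.factorization x) ∧
              b.factorization x < M1.factorization x
              then 1 / (x : ℝ) * A x (p ^ v * b) else 0) := by
          rw [← Finset.sum_add_distrib]
          refine Finset.sum_congr rfl fun v hv => ?_
          have hva : v ≤ a := by have := Finset.mem_range.1 hv; omega
          rw [RR_split hp hM hnd ha F A hb.1, mul_add]
          congr 2
          refine Finset.sum_congr rfl fun x hx => ?_
          rw [ctr_passive hp hM F hva hv0 hb.1 (Nat.prime_of_mem_primeFactors hx)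
            (hst v b hva hb.1)]
        have e2 : ∑ v ∈ range (a + 1), ml p a v0 v *
              (if F.ctr (p ^ v * b) p = some v ∧ v < a then 1 / (p : ℝ) * A p (p ^ v * b) else 0) =
            ml p a v0 v0 * (1 / (p : ℝ) * Ap b) := by
          rw [Finset.sum_eq_single_of_mem v0 hv0m]
          · simp only [hAp]
            by_cases hva : v0 < a
            · rw [if_pos ⟨hst v0 b hv0 hb.1, hva⟩, if_pos hva]
            · rw [if_neg (fun h => hva h.2), if_neg hva, mul_zero, mul_zero, mul_zero]
          · intro v hv hne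
            have hva : v ≤ a := by have := Finset.mem_range.1 hv; omega
            rw [if_neg, mul_zero]
            rw [hst v b hva hb.1]
            intro h
            exact hne (Option.some.inj h.1).symm
        rw [e1, e2, add_sub_cancel_left]
        simp only [Finset.mul_sum]
        rw [Finset.sum_comm]
        refine Finset.sum_congr rfl fun x _ => ?_
        split_ifs with h
        · exact Finset.sum_congr rfl fun v _ => by ring
        · simp
      have hstep := step_sum (range (a + 1)) (ml p a v0) (fun v => f (p ^ v * b))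
        (fun v => RR F A (p ^ v * b)) hv0m (fun v _ => hmn v) (sum_ml hp hv0) hp2
        (ml_self_ge hp hv0) (fun v => hf _) (fun v => RR_nonneg F hA _) (hAp0 b)
        (hApf b) (by
          rw [RR_split hp hM hnd ha F A hb.1]
          have h1 : 1 / (p : ℝ) * Ap b ≤ (if F.ctr (p ^ v0 * b) p = some v0 ∧ v0 < a then
              1 / (p : ℝ) * A p (p ^ v0 * b) else 0) := by
            simp only [hAp]
            by_cases hva : v0 < a
            · rw [if_pos hva, if_pos ⟨hst v0 b hv0 hb.1, hva⟩]
            · rw [if_neg hva, if_neg (fun h => hva h.2), mul_zero]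
          refine h1.trans (le_add_of_nonneg_right (Finset.sum_nonneg fun x _ => ?_))
          split_ifs
          · exact mul_nonneg (by positivity) (hA _ _)
          · exact le_rfl)
      rw [hRR]
      calc π * (nu M1 b * (ml p a v0 v0 * Ap b *
            ∑ v' ∈ (range (a + 1)).erase v0, ml p a v0 v' * f (p ^ v' * b)) +
            nu M1 b * Phi (∑ v ∈ range (a + 1), ml p a v0 v * f (p ^ v * b))
              (∑ v ∈ range (a + 1), ml p a v0 v * RR F A (p ^ v * b) -
                ml p a v0 v0 * (1 / (p : ℝ) * Ap b)))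
          = (π * nu M1 b) * (Phi (∑ v ∈ range (a + 1), ml p a v0 v * f (p ^ v * b))
              (∑ v ∈ range (a + 1), ml p a v0 v * RR F A (p ^ v * b) -
                ml p a v0 v0 * (1 / (p : ℝ) * Ap b)) +
              ml p a v0 v0 * Ap b *
            ∑ v' ∈ (range (a + 1)).erase v0, ml p a v0 v' * f (p ^ v' * b)) := by ring
        _ ≤ (π * nu M1 b) * ∑ v ∈ range (a + 1),
              ml p a v0 v * Phi (f (p ^ v * b)) (RR F A (p ^ v * b)) :=
            mul_le_mul_of_nonneg_left hstep (mul_nonneg hπ0 hνb)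
        _ ≤ _ := by
            rw [Finset.mul_sum]
            refine Finset.sum_le_sum fun v _ => ?_
            have h1 := pi_ml_le hp a v0 v
            have h2 := Phi_nonneg (f (p ^ v * b)) (RR F A (p ^ v * b))
            calc π * nu M1 b * (ml p a v0 v * Phi (f (p ^ v * b)) (RR F A (p ^ v * b)))
                = (π * ml p a v0 v) * (nu M1 b * Phi (f (p ^ v * b)) (RR F A (p ^ v * b))) := by
                  ring
              _ ≤ _ := mul_le_mul_of_nonneg_right h1 (mul_nonneg hνb h2)
              _ = _ := by ring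

/-! ### User forms -/

/-- weights in `[0,1]`, row sums `≤ 1` -/
theorem row_energyB {M : ℕ} (hM : 0 < M) (F : FL M) (α : ℕ → ℕ → ℝ) (f : ℕ → ℝ)
    (hf : ∀ b, 0 ≤ f b) (h0 : ∀ x b, 0 ≤ α x b) (h1 : ∀ x b, α x b ≤ 1)
    (hr : ∀ b, b ∣ M → RR F α b ≤ 1) :
    SS F (fun x b => α x b * f b / Vx M x b) f ≤ 7 / 2 * ∑ b ∈ M.divisors, nu M b * f b ^ 2 := by
  refine (row_mainB M hM F (fun x b => α x b * f b) f hf (fun x b => mul_nonneg (h0 x b) (hf b))
    (fun x b => mul_le_of_le_one_left (hf b) (h1 x b))).trans ?_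
  rw [Finset.mul_sum]
  refine Finset.sum_le_sum fun b hb => ?_
  rw [Nat.mem_divisors] at hb
  rw [RR_mul]
  have h2 := hr b hb.1
  have h3 := RR_nonneg F h0 b
  have h4 : (1 + RR F α b) ^ 2 ≤ 2 ^ 2 := pow_le_pow_left₀ (by linarith) (by linarith) 2
  have e : Phi (f b) (RR F α b * f b) = (1 / 2 + 3 / 4 * (1 + RR F α b) ^ 2) * f b ^ 2 := by
    unfold Phi; ring
  rw [e]
  calc nu M b * ((1 / 2 + 3 / 4 * (1 + RR F α b) ^ 2) * f b ^ 2)
      ≤ nu M b * ((7 / 2) * f b ^ 2) :=
        mul_le_mul_of_nonneg_left (mul_le_mul_of_nonneg_right (by linarith) (sq_nonneg _))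
          (nu_nonneg _ _)
    _ = _ := by ring

open Classical in
/-- two functions, with a parameter -/
theorem row_bilinB' {M : ℕ} (hM : 0 < M) (F : FL M) (α : ℕ → ℕ → ℝ) (f g : ℕ → ℝ)
    (hf : ∀ b, 0 ≤ f b) (hg : ∀ b, 0 ≤ g b) (h0 : ∀ x b, 0 ≤ α x b) (h1 : ∀ x b, α x b ≤ 1)
    (hr : ∀ b, b ∣ M → RR F α b ≤ 1) {y : ℝ} (hy : 0 < y) :
    SS F (fun x b => α x b * f b / Vx M x b) g ≤
      7 * (y * ∑ b ∈ M.divisors, nu M b * f b ^ 2 + y⁻¹ * ∑ b ∈ M.divisors, nu M b * g b ^ 2) := by
  have hsy : 0 < Real.sqrt y := Real.sqrt_pos.2 hy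
  set s := Real.sqrt y with hs
  have hss : s * s = y := Real.mul_self_sqrt hy.le
  set h : ℕ → ℝ := fun b => s * f b + s⁻¹ * g b with hh
  have hsi : 0 ≤ s⁻¹ := inv_nonneg.2 hsy.le
  have hh0 : ∀ b, 0 ≤ h b := fun b => add_nonneg (mul_nonneg hsy.le (hf b)) (mul_nonneg hsi (hg b))
  have e1 : SS F (fun x b => α x b * f b / Vx M x b) g ≤
      SS F (fun x b => α x b * h b / Vx M x b) h := by
    unfold SS
    refine Finset.sum_le_sum fun x _ => PureL2x232.frm_mono fun b c _ _ => ?_
    split_ifs
    · have e2 : f b * g c ≤ h b * h c := by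
        simp only [hh]
        have e3 : (s * f b + s⁻¹ * g b) * (s * f c + s⁻¹ * g c) =
            (s * s⁻¹) * (f b * g c) + (s * s * (f b * f c) + (s⁻¹ * s) * (g b * f c) +
              s⁻¹ * s⁻¹ * (g b * g c)) := by ring
        rw [e3, mul_inv_cancel₀ hsy.ne', one_mul]
        have a1 := mul_nonneg (hf b) (hf c)
        have a2 := mul_nonneg (hg b) (hf c)
        have a3 := mul_nonneg (hg b) (hg c)
        have : 0 ≤ s * s * (f b * f c) + (s⁻¹ * s) * (g b * f c) + s⁻¹ * s⁻¹ * (g b * g c) := by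
          positivity
        linarith
      calc α x b * f b / Vx M x b * g c = α x b / Vx M x b * (f b * g c) := by ring
        _ ≤ α x b / Vx M x b * (h b * h c) :=
          mul_le_mul_of_nonneg_left e2 (div_nonneg (h0 x b) (Vx_nonneg _ _ _))
        _ = _ := by ring
    · exact le_rfl
  refine (e1.trans (row_energyB hM F α h hh0 h0 h1 hr)).trans ?_
  rw [Finset.mul_sum, Finset.mul_sum, Finset.mul_sum, ← Finset.sum_add_distrib, Finset.mul_sum]
  refine Finset.sum_le_sum fun b _ => ?_
  have h2 := nu_nonneg M b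
  have h3 : h b ^ 2 ≤ 2 * (y * f b ^ 2 + y⁻¹ * g b ^ 2) := by
    simp only [hh]
    have e : y⁻¹ = s⁻¹ * s⁻¹ := by rw [← hss, mul_inv]
    rw [e, ← hss]
    nlinarith [sq_nonneg (s * f b - s⁻¹ * g b)]
  have h4 := mul_le_mul_of_nonneg_left h3 h2
  calc 7 / 2 * (nu M b * h b ^ 2) ≤ 7 / 2 * (nu M b * (2 * (y * f b ^ 2 + y⁻¹ * g b ^ 2))) := by
        linarith
    _ = 7 * (y * (nu M b * f b ^ 2) + y⁻¹ * (nu M b * g b ^ 2)) := by ring

/-- from `≤ C (y A + y⁻¹ B)` for all `y > 0` to `≤ 2 C √(A B)` -/
lemma opt {S C A B : ℝ} (hC : 0 ≤ C) (hA : 0 ≤ A) (hB : 0 ≤ B)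
    (h : ∀ y : ℝ, 0 < y → S ≤ C * (y * A + y⁻¹ * B)) : S ≤ 2 * C * √(A * B) := by
  refine le_of_forall_pos_le_add fun ε hε => ?_
  -- perturb `A`, `B` by a small positive amount
  have key : ∀ t : ℝ, 0 < t → S ≤ 2 * C * √((A + t) * (B + t)) := by
    intro t ht
    have hA1 : 0 < A + t := by linarith
    have hB1 : 0 < B + t := by linarith
    have h1 := h (√((B + t) / (A + t))) (Real.sqrt_pos.2 (div_pos hB1 hA1))
    have hq : 0 < (B + t) / (A + t) := div_pos hB1 hA1
    have e1 : √((B + t) / (A + t)) * (A + t) = √((A + t) * (B + t)) := by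
      have : √((A + t) * (B + t)) = √((B + t) / (A + t) * (A + t) ^ 2) := by
        congr 1
        field_simp
      rw [this, Real.sqrt_mul hq.le, Real.sqrt_sq hA1.le]
    have e2 : (√((B + t) / (A + t)))⁻¹ * (B + t) = √((A + t) * (B + t)) := by
      have e3 : √((A + t) * (B + t)) = √((A + t) / (B + t) * (B + t) ^ 2) := by
        congr 1
        field_simp
      rw [e3, Real.sqrt_mul (div_pos hA1 hB1).le, Real.sqrt_sq hB1.le, ← Real.sqrt_inv, inv_div]
    have hy0 : 0 < √((B + t) / (A + t)) := Real.sqrt_pos.2 hq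
    calc S ≤ C * (√((B + t) / (A + t)) * A + (√((B + t) / (A + t)))⁻¹ * B) := h1
      _ ≤ C * (√((B + t) / (A + t)) * (A + t) + (√((B + t) / (A + t)))⁻¹ * (B + t)) := by
          refine mul_le_mul_of_nonneg_left (add_le_add ?_ ?_) hC
          · exact mul_le_mul_of_nonneg_left (by linarith) hy0.le
          · exact mul_le_mul_of_nonneg_left (by linarith) (inv_nonneg.2 hy0.le)
      _ = _ := by rw [e1, e2]; ring
  -- continuity at `t = 0`
  have hcont : Filter.Tendsto (fun t : ℝ => 2 * C * √((A + t) * (B + t))) (nhdsWithin 0 (Set.Ioi 0))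
      (nhds (2 * C * √((A + 0) * (B + 0)))) := by
    have : Continuous fun t : ℝ => 2 * C * √((A + t) * (B + t)) := by fun_prop
    exact (this.tendsto 0).mono_left nhdsWithin_le_nhds
  have h2 : S ≤ 2 * C * √((A + 0) * (B + 0)) :=
    ge_of_tendsto hcont (Filter.eventually_of_mem self_mem_nhdsWithin fun t ht => key t ht)
  rw [add_zero, add_zero] at h2
  linarith

open Classical in
/-- **two functions**, weights `≤ ρ`, row sums `≤ ρ` -/
theorem row_bilinB {M : ℕ} (hM : 0 < M) (F : FL M) (α : ℕ → ℕ → ℝ) (f g : ℕ → ℝ) {ρ : ℝ}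
    (hρ : 0 < ρ) (hf : ∀ b, 0 ≤ f b) (hg : ∀ b, 0 ≤ g b) (h0 : ∀ x b, 0 ≤ α x b)
    (h1 : ∀ x b, α x b ≤ ρ) (hr : ∀ b, b ∣ M → RR F α b ≤ ρ) :
    SS F (fun x b => α x b * f b / Vx M x b) g ≤
      14 * ρ * √((∑ b ∈ M.divisors, nu M b * f b ^ 2) * ∑ b ∈ M.divisors, nu M b * g b ^ 2) := by
  set A := ∑ b ∈ M.divisors, nu M b * f b ^ 2 with hA
  set B := ∑ b ∈ M.divisors, nu M b * g b ^ 2 with hB
  have hA0 : 0 ≤ A := Finset.sum_nonneg fun b _ => mul_nonneg (nu_nonneg _ _) (sq_nonneg _)
  have hB0 : 0 ≤ B := Finset.sum_nonneg fun b _ => mul_nonneg (nu_nonneg _ _) (sq_nonneg _)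
  have h2 : ∀ y : ℝ, 0 < y → SS F (fun x b => α x b / ρ * f b / Vx M x b) g ≤
      7 * (y * A + y⁻¹ * B) := by
    intro y hy
    refine row_bilinB' hM F (fun x b => α x b / ρ) f g hf hg (fun x b => div_nonneg (h0 x b) hρ.le)
      (fun x b => (div_le_one hρ).2 (h1 x b)) (fun b hb => ?_) hy
    have e : RR F (fun x b => α x b / ρ) b = RR F α b / ρ := by
      unfold RR
      rw [Finset.sum_div]
      refine Finset.sum_congr rfl fun x _ => ?_
      split_ifs
      · ring
      · rw [zero_div]
    rw [e, div_le_one hρ]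
    exact hr b hb
  have h3 := opt (by norm_num) hA0 hB0 h2
  have e : SS F (fun x b => α x b * f b / Vx M x b) g =
      ρ * SS F (fun x b => α x b / ρ * f b / Vx M x b) g := by
    unfold SS
    rw [Finset.mul_sum]
    refine Finset.sum_congr rfl fun x _ => ?_
    rw [← frm_smul]
    congr 1
    funext b c
    split_ifs
    · field_simp
    · rw [mul_zero]
  rw [e]
  calc ρ * SS F (fun x b => α x b / ρ * f b / Vx M x b) g ≤ ρ * (2 * 7 * √(A * B)) :=
        mul_le_mul_of_nonneg_left h3 hρ.le
    _ = _ := by ring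

/-! ### The member with the larger letter carries the weight -/

section present

open Crest.Agent.R4C.Cutx50 Crest.Agent.R4C.RowPx823

open Classical in
/-- mass of the words with the letters of `b` below `x` which `g` divides, `g ∣ b` full below `x` -/
lemma mass_prefix {M x b g : ℕ} (hM : 0 < M) (hb : b ∣ M) (hg : g ≠ 0)
    (hgx : ∀ q, q.Prime → q < x → g.factorization q = b.factorization q) :
    ∑ d ∈ M.divisors with (∀ q, q.Prime → q < x → b.factorization q = d.factorization q) ∧ g ∣ d,
      nu M d ≤ Vx M x b / g := by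
  classical
  set S : ℕ → Prop := fun q => q < x with hS
  have hb0 : b ≠ 0 := mem_ne_zero hM hb
  set w := part S b with hw
  set g1 := part (fun p => ¬ S p) g with hg1
  have hw0 : 0 < w := part_pos _ _
  have hg10 : 0 < g1 := part_pos _ _
  have hwM : w ∣ part S M := part_dvd S hM.ne' hb
  have hgw : part S g = w := by
    refine Nat.eq_of_factorization_eq (part_ne _ _) (part_ne _ _) fun q => ?_
    rw [fact_part, hw, fact_part]
    by_cases hq : q.Prime
    · by_cases hqx : S q
      · rw [if_pos hqx, if_pos hqx, hgx q hq hqx]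
      · rw [if_neg hqx, if_neg hqx]
    · rw [Nat.factorization_eq_zero_of_not_prime _ hq, Nat.factorization_eq_zero_of_not_prime _ hq]
  have hgf : w * g1 = g := by rw [← hgw]; exact part_mul S hg
  rw [Finset.sum_filter, sum_cut S hM]
  have h1 : ∀ T ∈ (part (fun p => ¬ S p) M).divisors, ∀ n ∈ (part S M).divisors,
      (if (∀ q, q.Prime → q < x → b.factorization q = (n * T).factorization q) ∧ g ∣ n * T then
        nu M (n * T) else 0) ≤ if n = w then (if g1 ∣ T then
          nu (part S M) w * nu (part (fun p => ¬ S p) M) T else 0) else 0 := by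
    intro T hT n hn
    rw [Nat.mem_divisors] at hT hn
    split_ifs with h2 h3 h4 h4
    · rw [nu_cut S hM hn.1 hT.1, h3]
    · exfalso
      apply h4
      have h5 : g1 ∣ part (fun p => ¬ S p) (n * T) := by
        have h6 : n * T ≠ 0 := by
          refine mul_ne_zero ?_ ?_
          · exact fun hc => part_ne S M (Nat.eq_zero_of_zero_dvd (hc ▸ hn.1))
          · exact fun hc => part_ne _ M (Nat.eq_zero_of_zero_dvd (hc ▸ hT.1))
        exact part_dvd _ h6 h2.2
      rwa [part_of_mul' S hn.1 hT.1] at h5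
    · exfalso
      apply h3
      have h5 : part S (n * T) = n := part_of_mul S hn.1 hT.1
      rw [← h5]
      refine Nat.eq_of_factorization_eq (part_ne _ _) (part_ne _ _) fun q => ?_
      rw [fact_part, hw, fact_part]
      by_cases hq : q.Prime
      · by_cases hqx : S q
        · rw [if_pos hqx, if_pos hqx, h2.1 q hq hqx]
        · rw [if_neg hqx, if_neg hqx]
      · rw [Nat.factorization_eq_zero_of_not_prime _ hq,
          Nat.factorization_eq_zero_of_not_prime _ hq]
    · exact mul_nonneg (nu_nonneg _ _) (nu_nonneg _ _)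
    · exact le_rfl
    · exact le_rfl
  refine (Finset.sum_le_sum fun T hT => Finset.sum_le_sum fun n hn => h1 T hT n hn).trans ?_
  have hwm : w ∈ (part S M).divisors := Nat.mem_divisors.2 ⟨hwM, part_ne _ _⟩
  have h2 : ∑ T ∈ (part (fun p => ¬ S p) M).divisors, ∑ n ∈ (part S M).divisors,
      (if n = w then (if g1 ∣ T then
          nu (part S M) w * nu (part (fun p => ¬ S p) M) T else 0) else 0) =
      nu (part S M) w * ∑ T ∈ (part (fun p => ¬ S p) M).divisors with g1 ∣ T,
        nu (part (fun p => ¬ S p) M) T := by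
    rw [Finset.mul_sum, Finset.sum_filter]
    refine Finset.sum_congr rfl fun T _ => ?_
    rw [Finset.sum_ite_eq' _ w, if_pos hwm]
  rw [h2]
  have h3 := Lawx69.prob_dvd_le (M := part (fun p => ¬ S p) M) (part_pos _ _) g1
  have hmax : ∀ r, r.Prime → r ∣ part S M → r < x := fun r hr hd => prime_dvd_part S hr hd
  have h4 := diag_Vx (M := part S M) (x := x) (part_pos _ _) hmax hwM
  have h5 : Vx (part S M) x w = Vx M x b := by
    unfold Vx
    congr 1
    ext q
    simp only [Finset.mem_filter]
    have hf : ∀ {n : ℕ}, q < x → (part S n).factorization q = n.factorization q := fun {n} hq => by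
      rw [fact_part, if_pos hq]
    constructor
    · rintro ⟨h1, h2, h3⟩
      rw [hw, hf h2, hf h2] at h3
      refine ⟨?_, h2, h3⟩
      exact Nat.mem_primeFactors.2 ⟨Nat.prime_of_mem_primeFactors h1,
        (Nat.dvd_of_mem_primeFactors h1).trans (part_dvd_self S M), hM.ne'⟩
    · rintro ⟨h1, h2, h3⟩
      have h6 : M.factorization q ≠ 0 := by omega
      refine ⟨?_, h2, by rw [hw, hf h2, hf h2]; exact h3⟩
      rw [← Nat.support_factorization, Finsupp.mem_support_iff, hf h2]
      exact h6
  have hwr : (0 : ℝ) < w := by exact_mod_cast hw0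
  have hg1r : (0 : ℝ) < g1 := by exact_mod_cast hg10
  have h6 : nu (part S M) w = Vx M x b / w := by
    rw [eq_div_iff hwr.ne', ← h5, ← h4]; ring
  have hgr : (g : ℝ) = w * g1 := by rw [← hgf]; push_cast; ring
  calc nu (part S M) w * ∑ T ∈ (part (fun p => ¬ S p) M).divisors with g1 ∣ T,
        nu (part (fun p => ¬ S p) M) T ≤ nu (part S M) w * (1 / (g1 : ℝ)) :=
        mul_le_mul_of_nonneg_left h3 (nu_nonneg _ _)
    _ = Vx M x b / g := by
        rw [h6, hgr]
        field_simp

open Classical in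
/-- **row lemma, weights on arbitrary words, boosted** (note 3229 (3)) -/
theorem row_presentB {M : ℕ} (hM : 0 < M) (F : FL M) (s : Finset ℕ) (h : ℕ → ℕ → ℝ)
    (hh : ∀ x ∈ s, ∀ b, b ∣ M → 0 ≤ h x b) (f : ℕ → ℝ) (hf : ∀ b, b ∣ M → 0 ≤ f b) :
    ∑ x ∈ s, frm M (fun b c => if PureFrom F x b c then f b * h x c / Vx M x b else 0) ≤
      2 * (Real.sqrt (∑ b ∈ M.divisors, nu M b * f b ^ 2) *
        Real.sqrt (∑ b ∈ M.divisors, nu M b * (∑ x ∈ s, h x b) ^ 2)) := by
  have hmain := row_abs (D := M.divisors) (ν := nu M) (E := Cls F)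
    (fun b _ => nu_nonneg M b) cls_symm cls_trans cls_nest cls_dom s h
    (fun x hx b hb => hh x hx b (Nat.dvd_of_mem_divisors hb)) f
  refine le_trans (Finset.sum_le_sum fun x hx => ?_) hmain
  unfold frm
  refine Finset.sum_le_sum fun b hb => ?_
  have hbM := Nat.dvd_of_mem_divisors hb
  unfold cx
  rw [← mul_div_assoc, Finset.mul_sum, Finset.sum_div, Finset.sum_filter]
  refine Finset.sum_le_sum fun c hc => ?_
  have hcM := Nat.dvd_of_mem_divisors hc
  have hνb := nu_nonneg M b
  have hνc := nu_nonneg M c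
  have hfb := hf b hbM
  have hhc := hh x hx c hcM
  have hV := Vx_pos M x b
  beta_reduce
  by_cases hp : PureFrom F x b c
  · have hcls := cls_of_pure hbM hcM hp
    rw [if_pos hp, if_pos hcls]
    have hνc' : 0 < nu M c := nu_pos hM hcM
    have hmu : 0 < mu M.divisors (nu M) (Cls F) x b := by
      refine lt_of_lt_of_le hνc' ?_
      exact Finset.single_le_sum (f := nu M) (fun d _ => nu_nonneg M d)
        (Finset.mem_filter.2 ⟨hc, hcls⟩)
    have hg0 : 0 < Nat.gcd b c :=
      Nat.gcd_pos_of_pos_left _ (Nat.pos_of_dvd_of_pos hbM hM)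
    have hb0 : b ≠ 0 := mem_ne_zero hM hbM
    have hc0 : c ≠ 0 := mem_ne_zero hM hcM
    have hmu1 : mu M.divisors (nu M) (Cls F) x b ≤ Vx M x b / (Nat.gcd b c : ℝ) := by
      refine le_trans ?_ (mass_prefix hM hbM hg0.ne' fun q hq hqx => ?_)
      · unfold mu
        refine Finset.sum_le_sum_of_subset_of_nonneg ?_ fun d _ _ => nu_nonneg M d
        intro d hd
        rw [Finset.mem_filter] at hd ⊢
        exact ⟨hd.1, fun q hq hqx => (hd.2.2.2 q hq).1 hqx, gcd_dvd_cls hM hbM hcM hp hd.2⟩
      · rw [Nat.factorization_gcd hb0 hc0, Finsupp.inf_apply, ← (hp q hq).1 hqx]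
        exact inf_idem _
    have hgR : (0:ℝ) < (Nat.gcd b c : ℝ) := by exact_mod_cast hg0
    have h1 : (Nat.gcd b c : ℝ) / Vx M x b ≤ 1 / mu M.divisors (nu M) (Cls F) x b := by
      rw [le_div_iff₀ hmu, div_mul_eq_mul_div, div_le_one hV]
      rw [le_div_iff₀ hgR] at hmu1
      linarith
    calc (Nat.gcd b c : ℝ) * nu M b * nu M c * (f b * h x c / Vx M x b)
        = ((Nat.gcd b c : ℝ) / Vx M x b) * (nu M b * f b * (nu M c * h x c)) := by ring
      _ ≤ (1 / mu M.divisors (nu M) (Cls F) x b) * (nu M b * f b * (nu M c * h x c)) :=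
          mul_le_mul_of_nonneg_right h1 (by positivity)
      _ = _ := by ring
  · rw [if_neg hp, mul_zero]
    split_ifs
    · refine div_nonneg (by positivity) (mu_nonneg (fun d _ => nu_nonneg M d) _ _)
    · exact le_rfl

end present

/-! ### The kernels as weighted set bounds -/

section kernels

open Crest.Agent.R4C.LTwx662 Crest.Agent.R4C.RowPx823

lemma wbd_swap {M : ℕ} {W : ℕ → ℕ → ℝ} {E : ℝ} (h : WBd M W E) :
    WBd M (fun z z' => W z' z) E := by
  intro S S' hS hS'
  have h1 := h S' S hS' hS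
  rw [Finset.sum_comm] at h1
  rw [mul_comm (∑ z ∈ S, nu M z)]
  refine le_trans (le_of_eq ?_) h1
  refine Finset.sum_congr rfl fun z _ => Finset.sum_congr rfl fun z' _ => ?_
  rw [Nat.gcd_comm z' z]
  ring

/-- a kernel form bound for indicators of sets gives `WBd` -/
lemma wbd_of_ind {M : ℕ} {W : ℕ → ℕ → ℝ} {E : ℝ}
    (h : ∀ S S' : Finset ℕ, S ⊆ M.divisors → S' ⊆ M.divisors →
      frm M (fun b c => (if b ∈ S then (1 : ℝ) else 0) * (if c ∈ S' then 1 else 0) * W b c) ≤
        E * √((∑ z ∈ S, nu M z) * ∑ z ∈ S', nu M z)) : WBd M W E := by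
  intro S S' hS hS'
  refine le_trans (le_of_eq ?_) (h S S' hS hS')
  unfold frm
  rw [← Finset.sum_subset hS]
  · refine Finset.sum_congr rfl fun z hz => ?_
    rw [← Finset.sum_subset hS']
    · refine Finset.sum_congr rfl fun z' hz' => ?_
      dsimp only
      rw [if_pos hz, if_pos hz']
      ring
    · intro z' _ hz'
      dsimp only
      rw [if_neg hz']
      ring
  · intro z _ hz
    refine Finset.sum_eq_zero fun z' _ => ?_
    dsimp only
    rw [if_neg hz]
    ring

lemma sum_ind_sq {M : ℕ} {S : Finset ℕ} (hS : S ⊆ M.divisors) :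
    ∑ b ∈ M.divisors, nu M b * (if b ∈ S then (1 : ℝ) else 0) ^ 2 = ∑ z ∈ S, nu M z := by
  rw [← Finset.sum_subset hS]
  · refine Finset.sum_congr rfl fun z hz => ?_
    rw [if_pos hz]; ring
  · intro z _ hz
    rw [if_neg hz]; ring

open Classical in
/-- **(alpha)**: weight of the member with the centre letter at `x`, row sums `≤ ρ` -/
theorem wbd_alpha {M : ℕ} (hM : 0 < M) (F : FL M) (α : ℕ → ℕ → ℝ) {ρ : ℝ} (hρ : 0 < ρ)
    (h0 : ∀ x b, 0 ≤ α x b) (h1 : ∀ x b, α x b ≤ ρ) (hr : ∀ b, b ∣ M → RR F α b ≤ ρ) :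
    WBd M (fun b c => ∑ x ∈ M.primeFactors, if pd F x b c then α x b / Vx M x b else 0)
      (14 * ρ) := by
  refine wbd_of_ind fun S S' hS hS' => ?_
  have h := row_bilinB hM F α (fun b => if b ∈ S then (1 : ℝ) else 0)
    (fun b => if b ∈ S' then (1 : ℝ) else 0) hρ (fun b => by split_ifs <;> norm_num)
    (fun b => by split_ifs <;> norm_num) h0 h1 hr
  rw [sum_ind_sq hS, sum_ind_sq hS'] at h
  refine le_trans (le_of_eq ?_) h
  unfold SS
  rw [← PureL2x232.frm_sum M.primeFactors (fun x b c => if pd F x b c then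
    α x b * (if b ∈ S then (1 : ℝ) else 0) / Vx M x b * (if c ∈ S' then (1 : ℝ) else 0) else 0)]
  congr 1
  funext b c
  rw [Finset.mul_sum]
  refine Finset.sum_congr rfl fun x _ => ?_
  by_cases h : pd F x b c
  · rw [if_pos h, if_pos h]; ring
  · rw [if_neg h, if_neg h, mul_zero]

open Classical in
/-- **(beta)**: weight of the other member, sums `≤ ρ` -/
theorem wbd_beta {M : ℕ} (hM : 0 < M) (F : FL M) (s : Finset ℕ) (h : ℕ → ℕ → ℝ) {ρ : ℝ}
    (hρ : 0 ≤ ρ) (hh : ∀ x b, 0 ≤ h x b) (hr : ∀ b, b ∣ M → ∑ x ∈ s, h x b ≤ ρ) :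
    WBd M (fun b c => ∑ x ∈ s, if PureFrom F x b c then h x c / Vx M x b else 0)
      (2 * ρ) := by
  refine wbd_of_ind fun S S' hS hS' => ?_
  have h1 := row_presentB hM F s (fun x c => h x c * (if c ∈ S' then (1 : ℝ) else 0))
    (fun x _ b _ => mul_nonneg (hh x b) (by split_ifs <;> norm_num))
    (fun b => if b ∈ S then (1 : ℝ) else 0) (fun b _ => by split_ifs <;> norm_num)
  have h2 : ∑ b ∈ M.divisors, nu M b * (∑ x ∈ s, h x b * (if b ∈ S' then (1 : ℝ) else 0)) ^ 2 ≤
      ρ ^ 2 * ∑ z ∈ S', nu M z := by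
    rw [← sum_ind_sq hS', Finset.mul_sum]
    refine Finset.sum_le_sum fun b hb => ?_
    rw [← Finset.sum_mul]
    have h3 := hr b (Nat.dvd_of_mem_divisors hb)
    have h4 : 0 ≤ ∑ x ∈ s, h x b := Finset.sum_nonneg fun x _ => hh x b
    have h5 : (∑ x ∈ s, h x b) ^ 2 ≤ ρ ^ 2 := pow_le_pow_left₀ h4 h3 2
    have h6 := nu_nonneg M b
    calc nu M b * ((∑ x ∈ s, h x b) * (if b ∈ S' then (1 : ℝ) else 0)) ^ 2
        = (∑ x ∈ s, h x b) ^ 2 * (nu M b * (if b ∈ S' then (1 : ℝ) else 0) ^ 2) := by ring
      _ ≤ _ := mul_le_mul_of_nonneg_right h5 (mul_nonneg h6 (sq_nonneg _))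
  rw [sum_ind_sq hS] at h1
  have h3 : √(∑ b ∈ M.divisors, nu M b * (∑ x ∈ s, h x b * (if b ∈ S' then (1 : ℝ) else 0)) ^ 2) ≤
      ρ * √(∑ z ∈ S', nu M z) := by
    refine (Real.sqrt_le_sqrt h2).trans (le_of_eq ?_)
    rw [Real.sqrt_mul (sq_nonneg ρ), Real.sqrt_sq hρ]
  calc _ = ∑ x ∈ s, frm M (fun b c => if PureFrom F x b c then (if b ∈ S then (1 : ℝ) else 0) *
        (h x c * (if c ∈ S' then (1 : ℝ) else 0)) / Vx M x b else 0) := by
        rw [← PureL2x232.frm_sum s (fun x b c => if PureFrom F x b c then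
          (if b ∈ S then (1 : ℝ) else 0) * (h x c * (if c ∈ S' then (1 : ℝ) else 0)) / Vx M x b
          else 0)]
        congr 1
        funext b c
        rw [Finset.mul_sum]
        refine Finset.sum_congr rfl fun x _ => ?_
        by_cases h : PureFrom F x b c
        · rw [if_pos h, if_pos h]; ring
        · rw [if_neg h, if_neg h, mul_zero]
    _ ≤ _ := h1
    _ ≤ 2 * (√(∑ z ∈ S, nu M z) * (ρ * √(∑ z ∈ S', nu M z))) := by
        refine mul_le_mul_of_nonneg_left (mul_le_mul_of_nonneg_left h3 (Real.sqrt_nonneg _))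
          (by norm_num)
    _ = _ := by
        rw [Real.sqrt_mul (AsmLevx946.sum_nu_nonneg _ _)]
        ring

/-- diagonal with the full boost -/
theorem wbd_diag {M : ℕ} (hM : 0 < M) :
    WBd M (fun b c => if b = c then ((b : ℝ) * nu M b)⁻¹ else 0) 1 := by
  refine wbd_of_ind fun S S' hS hS' => ?_
  have e : frm M (fun b c => (if b ∈ S then (1 : ℝ) else 0) * (if c ∈ S' then 1 else 0) *
      (if b = c then ((b : ℝ) * nu M b)⁻¹ else 0)) =
      frm M (fun b c => if b = c then (if b ∈ S then (1 : ℝ) else 0) *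
        (if c ∈ S' then 1 else 0) * ((b : ℝ) * nu M b)⁻¹ else 0) := by
    congr 1
    funext b c
    by_cases h : b = c
    · rw [if_pos h, if_pos h]
    · rw [if_neg h, if_neg h, mul_zero]
  rw [e, frm_diag (fun b c => (if b ∈ S then (1 : ℝ) else 0) *
    (if c ∈ S' then 1 else 0) * ((b : ℝ) * nu M b)⁻¹)]
  have h1 : ∀ b ∈ M.divisors, nu M b * ((b : ℝ) * nu M b) * ((if b ∈ S then (1 : ℝ) else 0) *
      (if b ∈ S' then 1 else 0) * ((b : ℝ) * nu M b)⁻¹) =
      (√(nu M b) * (if b ∈ S then (1 : ℝ) else 0)) * (√(nu M b) * (if b ∈ S' then 1 else 0)) := by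
    intro b hb
    have hbM := Nat.dvd_of_mem_divisors hb
    have h2 : 0 < nu M b := nu_pos hM hbM
    have h3 : (0 : ℝ) < b := by exact_mod_cast Nat.pos_of_dvd_of_pos hbM hM
    have h4 := Real.mul_self_sqrt h2.le
    calc _ = (nu M b * ((b : ℝ) * nu M b * ((b : ℝ) * nu M b)⁻¹)) *
          ((if b ∈ S then (1 : ℝ) else 0) * (if b ∈ S' then 1 else 0)) := by ring
      _ = nu M b * ((if b ∈ S then (1 : ℝ) else 0) * (if b ∈ S' then 1 else 0)) := by
          rw [mul_inv_cancel₀ (mul_pos h3 h2).ne', mul_one]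
      _ = (√(nu M b) * √(nu M b)) * ((if b ∈ S then (1 : ℝ) else 0) *
          (if b ∈ S' then 1 else 0)) := by rw [h4]
      _ = _ := by ring
  rw [Finset.sum_congr rfl h1]
  have h2 := Real.sum_mul_le_sqrt_mul_sqrt M.divisors
    (fun b => √(nu M b) * (if b ∈ S then (1 : ℝ) else 0))
    (fun b => √(nu M b) * (if b ∈ S' then (1 : ℝ) else 0))
  have h3 : ∀ T : Finset ℕ, T ⊆ M.divisors →
      ∑ b ∈ M.divisors, (√(nu M b) * (if b ∈ T then (1 : ℝ) else 0)) ^ 2 = ∑ z ∈ T, nu M z := by
    intro T hT
    rw [← sum_ind_sq hT]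
    refine Finset.sum_congr rfl fun b _ => ?_
    rw [mul_pow, Real.sq_sqrt (nu_nonneg _ _)]
  rw [h3 S hS, h3 S' hS'] at h2
  rw [one_mul, Real.sqrt_mul (AsmLevx946.sum_nu_nonneg _ _)]
  exact h2

end kernels

end Crest.Agent.R4C.RowBx899
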