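import Crest.Agent.R4C.RowL2a_423

/-!
# Row 4: the `L²` ROW LEMMA with arbitrary weights (helper423; helper5's note 3094 (1))

`F : FL M` = 935's abstract F-Λ structure (`FLDef_935`): general `M`, general centres.

* `pd F x b c` : same letters below `x`; `x` is passive, `b` has the centre letter at `x` and `c` a
  larger one; above `x` the pair is pure (same letters at the branched primes, `min = centre` at the
  passive primes).  `pureP` = both orders; `pd_or` = criterion; `pd_unique`.
* `RR F A b = ∑ A x b / x` over the passive primes `x` at which `b` has the centre letter and the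
  centre is not the top letter.
* `row_main` : `f ≥ 0`, `0 ≤ A x b ≤ f b` (ARBITRARY functions of the whole word `b`):
  `SS F A f = ∑_x ∑_{pd F x b c} gcd ν ν A x b f c ≤ ∑ ν (f²/2 + (3/4) (f + RR F A)²)`.
* `row_energy` : `α x b ∈ [0,1]`, row sums `RR F α b ≤ 1` : energy `≤ (7/2) ∑ ν f²`;
  `row_energy_rho`, `row_bilin` (two functions), `row_pure` (both orders, any kernel `K` dominated
  by the weights: `≤ 7 ∑ ν f²`).
* `tele_le`, `RR_le_one`, `RR_Vx` : row sums of thinned weights are `≤ 1`.
-/

set_option autoImplicit false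

namespace Crest.Agent.R4C.RowL2x423

open Finset Crest.Agent.R4C.Basex935 Crest.Agent.R4C.FLDefx935 Crest.Agent.R4C.PureL2x232

section fac

variable {p : ℕ}

lemma fac_self {v b : ℕ} (hp : p.Prime) (hb : b ≠ 0) (hnd : ¬ p ∣ b) :
    (p ^ v * b).factorization p = v := by
  rw [Nat.factorization_mul (pow_ne_zero _ hp.ne_zero) hb, Finsupp.add_apply,
    hp.factorization_pow, Finsupp.single_eq_same, Nat.factorization_eq_zero_of_not_dvd hnd, add_zero]

lemma fac_ne {v b r : ℕ} (hp : p.Prime) (hb : b ≠ 0) (hr : r ≠ p) :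
    (p ^ v * b).factorization r = b.factorization r := by
  rw [Nat.factorization_mul (pow_ne_zero _ hp.ne_zero) hb, Finsupp.add_apply,
    hp.factorization_pow, Finsupp.single_eq_of_ne hr, zero_add]

end fac

variable {p a M1 : ℕ}

lemma mem_ne_zero (hM : 0 < M1) {b : ℕ} (hb : b ∣ M1) : b ≠ 0 :=
  (Nat.pos_of_dvd_of_pos hb hM).ne'

/-- the structure below the top prime `p`, letter `v` at `p` -/
def restr (hp : p.Prime) (hM : 0 < M1) (hnd : ¬ p ∣ M1) (F : FL (p ^ a * M1)) (v : ℕ)
    (hv : v ≤ a) : FL M1 where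
  ctr b q := if q = p then some 0 else F.ctr (p ^ v * b) q
  coh := by
    intro b c q hb hc hq h
    by_cases hqp : q = p
    · simp [hqp]
    · simp only [hqp, if_false]
      refine F.coh (Nat.mul_dvd_mul (pow_dvd_pow p hv) hb)
        (Nat.mul_dvd_mul (pow_dvd_pow p hv) hc) hq ?_
      intro r hr hqr hn
      by_cases hrp : r = p
      · subst hrp
        rw [fac_self hp (mem_ne_zero hM hb) (fun hh => hnd (hh.trans hb)),
          fac_self hp (mem_ne_zero hM hc) (fun hh => hnd (hh.trans hc))]
      · rw [fac_ne hp (mem_ne_zero hM hb) hrp, fac_ne hp (mem_ne_zero hM hc) hrp]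
        exact h r hr hqr (by simp only [hrp, if_false]; exact hn)
  le := by
    intro b q v' hb hq h
    by_cases hqp : q = p
    · simp only [hqp, if_true] at h
      cases h
      exact Nat.zero_le _
    · simp only [hqp, if_false] at h
      have := F.le (Nat.mul_dvd_mul (pow_dvd_pow p hv) hb) hq h
      rwa [fac_ne hp hM.ne' hqp] at this

/-- **the pure pairs with smallest differing prime `x`**, `b` has the centre letter at `x` -/
def pd {M : ℕ} (F : FL M) (x b c : ℕ) : Prop :=
  (∀ q, q.Prime → q < x → b.factorization q = c.factorization q) ∧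
  F.ctr b x = some (b.factorization x) ∧ b.factorization x < c.factorization x ∧
  F.same x b c ∧
  (∀ q, q.Prime → x < q → ∀ v, F.ctr b q = some v →
    min (b.factorization q) (c.factorization q) = v)

open Classical in
/-- the energy -/
noncomputable def SS {M : ℕ} (F : FL M) (A : ℕ → ℕ → ℝ) (f : ℕ → ℝ) : ℝ :=
  ∑ x ∈ M.primeFactors, frm M (fun b c => if pd F x b c then A x b * f c else 0)

/-- the row sums -/
noncomputable def RR {M : ℕ} (F : FL M) (A : ℕ → ℕ → ℝ) (b : ℕ) : ℝ :=
  ∑ x ∈ M.primeFactors, if F.ctr b x = some (b.factorization x) ∧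
    b.factorization x < M.factorization x then 1 / (x : ℝ) * A x b else 0

lemma RR_nonneg {M : ℕ} (F : FL M) {A : ℕ → ℕ → ℝ} (hA : ∀ x b, 0 ≤ A x b) (b : ℕ) :
    0 ≤ RR F A b := by
  refine Finset.sum_nonneg fun x _ => ?_
  split_ifs
  · exact mul_nonneg (by positivity) (hA _ _)
  · exact le_rfl

lemma pf_insert (hp : p.Prime) (hM : 0 < M1) (ha : 0 < a) :
    (p ^ a * M1).primeFactors = insert p M1.primeFactors := by
  rw [Nat.primeFactors_mul (pow_ne_zero _ hp.ne_zero) hM.ne', Nat.primeFactors_prime_pow ha.ne' hp]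
  rfl

lemma p_notMem (hnd : ¬ p ∣ M1) : p ∉ M1.primeFactors := fun h =>
  hnd (Nat.dvd_of_mem_primeFactors h)

/-- the status of the top prime is constant -/
lemma ctr_top {M : ℕ} (hM : 0 < M) (hp : p.Prime) (F : FL M)
    (hmax : ∀ q, q.Prime → q ∣ M → q ≤ p) {b c : ℕ} (hb : b ∣ M) (hc : c ∣ M) :
    F.ctr b p = F.ctr c p := by
  refine F.coh hb hc hp fun q hq hpq _ => ?_
  have h : ∀ {b}, b ∣ M → b.factorization q = 0 := fun {b} hb =>
    Nat.factorization_eq_zero_of_not_dvd fun hh =>
      absurd (hmax q hq (hh.trans hb)) (not_le.2 hpq)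
  rw [h hb, h hc]

lemma top_le_p (hp : p.Prime) (hmax : ∀ r, r.Prime → r ∣ M1 → r < p) :
    ∀ q, q.Prime → q ∣ p ^ a * M1 → q ≤ p := by
  intro q hq hd
  rcases (Nat.Prime.dvd_mul hq).1 hd with h | h
  · exact le_of_eq ((Nat.prime_dvd_prime_iff_eq hq hp).1 (hq.dvd_of_dvd_pow h))
  · exact (hmax q hq h).le

/-- pairs below a branched top prime -/
lemma pd_branch (hp : p.Prime) (hM : 0 < M1) (hnd : ¬ p ∣ M1) (F : FL (p ^ a * M1))
    {x : ℕ} (hx : x < p) {v v' b c : ℕ} (hv : v ≤ a) (hb : b ∣ M1) (hc : c ∣ M1)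
    (hn : F.ctr (p ^ v * b) p = none) (h : pd F x (p ^ v * b) (p ^ v' * c)) :
    v = v' ∧ pd (restr hp hM hnd F v hv) x b c := by
  obtain ⟨h1, h2, h3, h4, h5⟩ := h
  have hb0 := mem_ne_zero hM hb
  have hc0 := mem_ne_zero hM hc
  have hbp : ¬ p ∣ b := fun hh => hnd (hh.trans hb)
  have hcp : ¬ p ∣ c := fun hh => hnd (hh.trans hc)
  have hvv : v = v' := by
    have := h4 p hp hx hn
    rwa [fac_self hp hb0 hbp, fac_self hp hc0 hcp] at this
  refine ⟨hvv, ?_, ?_, ?_, ?_, ?_⟩
  · intro q hq hqx
    have := h1 q hq hqx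
    rwa [fac_ne hp hb0 (by omega), fac_ne hp hc0 (by omega)] at this
  · change (if x = p then some 0 else F.ctr (p ^ v * b) x) = _
    rw [if_neg hx.ne, h2, fac_ne hp hb0 hx.ne]
  · rwa [fac_ne hp hb0 hx.ne, fac_ne hp hc0 hx.ne] at h3
  · intro q hq hxq hn'
    change (if q = p then some 0 else F.ctr (p ^ v * b) q) = none at hn'
    by_cases hqp : q = p
    · simp [hqp] at hn'
    · rw [if_neg hqp] at hn'
      have := h4 q hq hxq hn'
      rwa [fac_ne hp hb0 hqp, fac_ne hp hc0 hqp] at this
  · intro q hq hxq w hw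
    change (if q = p then some 0 else F.ctr (p ^ v * b) q) = some w at hw
    by_cases hqp : q = p
    · rw [if_pos hqp] at hw
      cases hw
      rw [hqp, Nat.factorization_eq_zero_of_not_dvd hbp, Nat.factorization_eq_zero_of_not_dvd hcp]
      rfl
    · rw [if_neg hqp] at hw
      have := h5 q hq hxq w hw
      rwa [fac_ne hp hb0 hqp, fac_ne hp hc0 hqp] at this

/-- the status below a passive top prime does not depend on its letter -/
lemma ctr_passive (hp : p.Prime) (hM : 0 < M1) (F : FL (p ^ a * M1))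
    {v0 v v' b q : ℕ} (hv : v ≤ a) (hv' : v' ≤ a) (hb : b ∣ M1) (hq : q.Prime)
    (hs : F.ctr (p ^ v * b) p = some v0) :
    F.ctr (p ^ v * b) q = F.ctr (p ^ v' * b) q := by
  have hb0 := mem_ne_zero hM hb
  refine F.coh (Nat.mul_dvd_mul (pow_dvd_pow p hv) hb) (Nat.mul_dvd_mul (pow_dvd_pow p hv') hb) hq ?_
  intro r hr hqr hn
  have hrp : r ≠ p := by
    rintro rfl
    rw [hs] at hn
    cases hn
  rw [fac_ne hp hb0 hrp, fac_ne hp hb0 hrp]

/-- pairs below a passive top prime -/
lemma pd_passive (hp : p.Prime) (hM : 0 < M1) (hnd : ¬ p ∣ M1) (F : FL (p ^ a * M1))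
    {x v0 : ℕ} (hx : x < p) (hxp : x.Prime) {v v' b c : ℕ} (hv : v ≤ a) (hv0 : v0 ≤ a)
    (hb : b ∣ M1) (hc : c ∣ M1)
    (hs : F.ctr (p ^ v * b) p = some v0) (h : pd F x (p ^ v * b) (p ^ v' * c)) :
    min v v' = v0 ∧ pd (restr hp hM hnd F v0 hv0) x b c := by
  obtain ⟨h1, h2, h3, h4, h5⟩ := h
  have hb0 := mem_ne_zero hM hb
  have hc0 := mem_ne_zero hM hc
  have hbp : ¬ p ∣ b := fun hh => hnd (hh.trans hb)
  have hcp : ¬ p ∣ c := fun hh => hnd (hh.trans hc)
  have hc1 : ∀ q, q.Prime → F.ctr (p ^ v0 * b) q = F.ctr (p ^ v * b) q := fun q hq =>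
    (ctr_passive hp hM F hv hv0 hb hq hs).symm
  refine ⟨?_, ?_, ?_, ?_, ?_, ?_⟩
  · have := h5 p hp hx v0 hs
    rwa [fac_self hp hb0 hbp, fac_self hp hc0 hcp] at this
  · intro q hq hqx
    have := h1 q hq hqx
    rwa [fac_ne hp hb0 (by omega), fac_ne hp hc0 (by omega)] at this
  · change (if x = p then some 0 else F.ctr (p ^ v0 * b) x) = _
    rw [if_neg hx.ne, hc1 x hxp, h2, fac_ne hp hb0 hx.ne]
  · rwa [fac_ne hp hb0 hx.ne, fac_ne hp hc0 hx.ne] at h3
  · intro q hq hxq hn'
    change (if q = p then some 0 else F.ctr (p ^ v0 * b) q) = none at hn'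
    by_cases hqp : q = p
    · simp [hqp] at hn'
    · rw [if_neg hqp, hc1 q hq] at hn'
      have := h4 q hq hxq hn'
      rwa [fac_ne hp hb0 hqp, fac_ne hp hc0 hqp] at this
  · intro q hq hxq w hw
    change (if q = p then some 0 else F.ctr (p ^ v0 * b) q) = some w at hw
    by_cases hqp : q = p
    · rw [if_pos hqp] at hw
      cases hw
      rw [hqp, Nat.factorization_eq_zero_of_not_dvd hbp, Nat.factorization_eq_zero_of_not_dvd hcp]
      rfl
    · rw [if_neg hqp, hc1 q hq] at hw
      have := h5 q hq hxq w hw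
      rwa [fac_ne hp hb0 hqp, fac_ne hp hc0 hqp] at this

/-- pairs which differ first at the top prime -/
lemma pd_top (hp : p.Prime) (hM : 0 < M1) (hnd : ¬ p ∣ M1)
    (hmax : ∀ r, r.Prime → r ∣ M1 → r < p) (F : FL (p ^ a * M1))
    {v v' b c : ℕ} (hb : b ∣ M1) (hc : c ∣ M1) (h : pd F p (p ^ v * b) (p ^ v' * c)) :
    b = c ∧ F.ctr (p ^ v * b) p = some v ∧ v < v' := by
  obtain ⟨h1, h2, h3, _, _⟩ := h
  have hb0 := mem_ne_zero hM hb
  have hc0 := mem_ne_zero hM hc
  have hbp : ¬ p ∣ b := fun hh => hnd (hh.trans hb)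
  have hcp : ¬ p ∣ c := fun hh => hnd (hh.trans hc)
  rw [fac_self hp hb0 hbp] at h2 h3
  rw [fac_self hp hc0 hcp] at h3
  refine ⟨?_, h2, h3⟩
  refine Nat.eq_of_factorization_eq hb0 hc0 fun q => ?_
  by_cases hq : q.Prime
  · rcases lt_trichotomy q p with hlt | heq | hgt
    · have := h1 q hq hlt
      rwa [fac_ne hp hb0 hlt.ne, fac_ne hp hc0 hlt.ne] at this
    · rw [heq, Nat.factorization_eq_zero_of_not_dvd hbp, Nat.factorization_eq_zero_of_not_dvd hcp]
    · rw [Nat.factorization_eq_zero_of_not_dvd fun hh =>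
          absurd (hmax q hq (hh.trans hb)) (by omega),
        Nat.factorization_eq_zero_of_not_dvd fun hh =>
          absurd (hmax q hq (hh.trans hc)) (by omega)]
  · rw [Nat.factorization_eq_zero_of_not_prime _ hq, Nat.factorization_eq_zero_of_not_prime _ hq]

open Classical in
/-- averaging in both members, two functions -/
lemma frm_avg2 {M1 : ℕ} (s : Finset ℕ) (w : ℕ → ℝ) (g h : ℕ → ℕ → ℝ) (R1 : ℕ → ℕ → Prop) :
    ∑ v ∈ s, ∑ v' ∈ s, w v * w v' *
      frm M1 (fun b c => if R1 b c then g v b * h v' c else 0) =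
    frm M1 (fun b c => if R1 b c then (∑ v ∈ s, w v * g v b) * (∑ v' ∈ s, w v' * h v' c)
      else 0) := by
  have e : (fun b c => if R1 b c then (∑ v ∈ s, w v * g v b) * (∑ v' ∈ s, w v' * h v' c) else 0)
      = fun b c => ∑ v ∈ s, (fun b c => ∑ v' ∈ s, (fun b c => (w v * w v') *
        (if R1 b c then g v b * h v' c else 0)) b c) b c := by
    funext b c
    dsimp only
    split_ifs with h
    · rw [Finset.sum_mul_sum]
      refine Finset.sum_congr rfl fun v _ => Finset.sum_congr rfl fun v' _ => by ring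
    · simp
  rw [e]
  rw [frm_sum s (fun v b c => ∑ v' ∈ s, (w v * w v') * (if R1 b c then g v b * h v' c else 0))]
  refine Finset.sum_congr rfl fun v _ => ?_
  rw [frm_sum s (fun v' b c => (w v * w v') * (if R1 b c then g v b * h v' c else 0))]
  refine Finset.sum_congr rfl fun v' _ => ?_
  rw [frm_smul]

/-- law of the letter of a passive prime with centre `v0`, given that it is `≥ v0` -/
noncomputable def ml (p a v0 v : ℕ) : ℝ := if v0 ≤ v then (p : ℝ) ^ v0 * nup p a v else 0

lemma ml_nonneg (hp : p.Prime) (a v0 v : ℕ) : 0 ≤ ml p a v0 v := by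
  unfold ml
  split_ifs
  · exact mul_nonneg (by positivity) (nup_nonneg hp.pos _ _)
  · exact le_rfl

lemma pi_mul (hp : p.Prime) (v0 : ℕ) : (1 / (p : ℝ)) ^ v0 * (p : ℝ) ^ v0 = 1 := by
  rw [← mul_pow, one_div_mul_cancel (by exact_mod_cast hp.ne_zero), one_pow]

lemma pi_ml_le (hp : p.Prime) (a v0 v : ℕ) : (1 / (p : ℝ)) ^ v0 * ml p a v0 v ≤ nup p a v := by
  unfold ml
  split_ifs
  · rw [← mul_assoc, pi_mul hp, one_mul]
  · rw [mul_zero]
    exact nup_nonneg hp.pos _ _

lemma sum_ml (hp : p.Prime) {a v0 : ℕ} (hv0 : v0 ≤ a) :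
    ∑ v ∈ range (a + 1), ml p a v0 v = 1 := by
  rw [sum_shift hv0 _ (fun v hv => by unfold ml; rw [if_neg (by omega)]), ← sum_nup hp (a - v0)]
  refine Finset.sum_congr rfl fun j hj => ?_
  unfold ml
  rw [if_pos (by omega), nup_shift a v0 j hv0, ← mul_assoc, mul_comm ((p : ℝ) ^ v0), pi_mul hp,
    one_mul]

lemma ml_self_ge (hp : p.Prime) {a v0 : ℕ} (hv0 : v0 ≤ a) : 1 - 1 / (p : ℝ) ≤ ml p a v0 v0 := by
  unfold ml
  rw [if_pos le_rfl]
  have h := nup_ge hp.pos a v0 hv0
  have hp0 : (0 : ℝ) ≤ (p : ℝ) ^ v0 := by positivity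
  calc 1 - 1 / (p : ℝ) = (p : ℝ) ^ v0 * ((1 - 1 / (p : ℝ)) * (1 / (p : ℝ)) ^ v0) := by
        rw [mul_comm (1 - 1 / (p : ℝ)), ← mul_assoc, mul_comm ((p : ℝ) ^ v0), pi_mul hp, one_mul]
    _ ≤ _ := mul_le_mul_of_nonneg_left h hp0

/-- splitting of the row sums at the top prime -/
lemma RR_split (hp : p.Prime) (hM : 0 < M1) (hnd : ¬ p ∣ M1) (ha : 0 < a)
    (F : FL (p ^ a * M1)) (A : ℕ → ℕ → ℝ) {v b : ℕ} (hb : b ∣ M1) :
    RR F A (p ^ v * b) = (if F.ctr (p ^ v * b) p = some v ∧ v < a then
      1 / (p : ℝ) * A p (p ^ v * b) else 0)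
      + ∑ x ∈ M1.primeFactors, (if F.ctr (p ^ v * b) x = some (b.factorization x) ∧
        b.factorization x < M1.factorization x then 1 / (x : ℝ) * A x (p ^ v * b) else 0) := by
  have hb0 := mem_ne_zero hM hb
  have hbp : ¬ p ∣ b := fun hh => hnd (hh.trans hb)
  unfold RR
  rw [pf_insert hp hM ha, Finset.sum_insert (p_notMem hnd), fac_self hp hb0 hbp,
    fac_self hp hM.ne' hnd]
  congr 1
  refine Finset.sum_congr rfl fun x hx => ?_
  have hxp : x ≠ p := fun h => p_notMem hnd (h ▸ hx)
  rw [fac_ne hp hb0 hxp, fac_ne hp hM.ne' hxp]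

lemma RR_restr (hp : p.Prime) (hM : 0 < M1) (hnd : ¬ p ∣ M1)
    (F : FL (p ^ a * M1)) (A : ℕ → ℕ → ℝ) {v b : ℕ} (hv : v ≤ a) :
    RR (restr hp hM hnd F v hv) A b =
      ∑ x ∈ M1.primeFactors, (if F.ctr (p ^ v * b) x = some (b.factorization x) ∧
        b.factorization x < M1.factorization x then 1 / (x : ℝ) * A x b else 0) := by
  unfold RR
  refine Finset.sum_congr rfl fun x hx => ?_
  have hxp : x ≠ p := fun h => p_notMem hnd (h ▸ hx)
  change (if (if x = p then some 0 else F.ctr (p ^ v * b) x) = some (b.factorization x) ∧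
    b.factorization x < M1.factorization x then 1 / (x : ℝ) * A x b else 0) = _
  rw [if_neg hxp]

lemma frm_le_zero {M : ℕ} {G : ℕ → ℕ → ℝ} (h : ∀ b c, b ∣ M → c ∣ M → G b c ≤ 0) :
    frm M G ≤ 0 := by
  have h0 : frm M (fun _ _ => (0 : ℝ)) = 0 := by unfold frm; simp
  rw [← h0]
  exact frm_mono h

open Classical in
/-- **the row theorem** -/
theorem row_main : ∀ M : ℕ, 0 < M → (∀ (F : FL M) (A : ℕ → ℕ → ℝ) (f : ℕ → ℝ),
    (∀ b, 0 ≤ f b) → (∀ x b, 0 ≤ A x b) → (∀ x b, A x b ≤ f b) →
    SS F A f ≤ ∑ b ∈ M.divisors, nu M b * Phi (f b) (RR F A b)) := by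
  refine ind_max ?_ ?_
  · intro F A f hf hA hAf
    unfold SS
    rw [Nat.primeFactors_one, Finset.sum_empty]
    exact Finset.sum_nonneg fun b _ => mul_nonneg (nu_nonneg _ _) (Phi_nonneg _ _)
  · intro p a M1 hp ha hM hnd hmax ih F A f hf hA hAf
    have hcop : Nat.Coprime (p ^ a) M1 :=
      Nat.Coprime.pow_left a ((Nat.Prime.coprime_iff_not_dvd hp).2 hnd)
    have hMM : 0 < p ^ a * M1 := Nat.mul_pos (pow_pos hp.pos a) hM
    have hnn : ∀ v, 0 ≤ nup p a v := fun v => nup_nonneg hp.pos a v
    have hstat : ∀ v b, v ≤ a → b ∣ M1 → F.ctr (p ^ v * b) p = F.ctr 1 p := fun v b hv hb =>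
      ctr_top hMM hp F (top_le_p hp hmax) (Nat.mul_dvd_mul (pow_dvd_pow p hv) hb) (one_dvd _)
    have hrhs : ∑ b ∈ (p ^ a * M1).divisors, nu (p ^ a * M1) b * Phi (f b) (RR F A b) =
        ∑ v ∈ range (a + 1), ∑ b ∈ M1.divisors,
          nup p a v * (nu M1 b * Phi (f (p ^ v * b)) (RR F A (p ^ v * b))) := by
      rw [sum_split hp a hM hnd]
      refine Finset.sum_congr rfl fun v hv => Finset.sum_congr rfl fun b hb => ?_
      rw [Finset.mem_range] at hv
      rw [Nat.mem_divisors] at hb
      rw [nu_mul hcop (pow_dvd_pow p (by omega)) hb.1, nu_prime_pow hp (by omega), mul_assoc]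
    have hlhs : SS F A f = ∑ x ∈ insert p M1.primeFactors,
        ∑ v ∈ range (a + 1), ∑ v' ∈ range (a + 1),
        (p : ℝ) ^ (min v v') * nup p a v * nup p a v' *
        frm M1 (fun b c => if pd F x (p ^ v * b) (p ^ v' * c) then
          A x (p ^ v * b) * f (p ^ v' * c) else 0) := by
      unfold SS
      rw [pf_insert hp hM ha]
      exact Finset.sum_congr rfl fun x _ => frm_split hp a hM hnd _
    rw [hrhs, hlhs]
    cases hs : F.ctr 1 p with
    | none =>
      -- branched
      have hzero : ∀ v b c x, v ≤ a → b ∣ M1 → x = p → ¬ pd F x (p ^ v * b) c := by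
        intro v b c x hv hb hx h
        subst hx
        have := h.2.1
        rw [hstat v b hv hb, hs] at this
        cases this
      rw [Finset.sum_comm]
      refine Finset.sum_le_sum fun v hv => ?_
      rw [Finset.mem_range] at hv
      have hva : v ≤ a := by omega
      rw [Finset.sum_insert (p_notMem hnd)]
      have h1 : ∑ v' ∈ range (a + 1), (p : ℝ) ^ (min v v') * nup p a v * nup p a v' *
          frm M1 (fun b c => if pd F p (p ^ v * b) (p ^ v' * c) then
          A p (p ^ v * b) * f (p ^ v' * c) else 0) ≤ 0 := by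
        refine Finset.sum_nonpos fun v' _ => ?_
        refine mul_nonpos_of_nonneg_of_nonpos (mul_nonneg (mul_nonneg (by positivity) (hnn _))
          (hnn _)) (frm_le_zero fun b c hb hc => ?_)
        rw [if_neg (hzero v b _ p hva hb rfl)]
      have h2 : ∑ x ∈ M1.primeFactors, ∑ v' ∈ range (a + 1),
          (p : ℝ) ^ (min v v') * nup p a v * nup p a v' *
          frm M1 (fun b c => if pd F x (p ^ v * b) (p ^ v' * c) then
          A x (p ^ v * b) * f (p ^ v' * c) else 0) ≤
          (p : ℝ) ^ v * nup p a v * nup p a v *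
            SS (restr hp hM hnd F v hva) (fun x b => A x (p ^ v * b)) (fun b => f (p ^ v * b)) := by
        unfold SS
        rw [Finset.mul_sum]
        refine Finset.sum_le_sum fun x hx => ?_
        have hxp : x.Prime := Nat.prime_of_mem_primeFactors hx
        have hxlt : x < p := hmax x hxp (Nat.dvd_of_mem_primeFactors hx)
        rw [Finset.sum_eq_single_of_mem v (Finset.mem_range.2 hv)]
        · rw [min_self]
          refine mul_le_mul_of_nonneg_left (frm_mono fun b c hb hc => ?_)
            (mul_nonneg (mul_nonneg (by positivity) (hnn _)) (hnn _))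
          by_cases h : pd F x (p ^ v * b) (p ^ v * c)
          · have h3 := pd_branch hp hM hnd F hxlt hva hb hc (by rw [hstat v b hva hb, hs]) h
            rw [if_pos h, if_pos h3.2]
          · rw [if_neg h]
            split_ifs
            · exact mul_nonneg (hA _ _) (hf _)
            · exact le_rfl
        · intro v' hv' hne
          have e : frm M1 (fun b c => if pd F x (p ^ v * b) (p ^ v' * c) then
              A x (p ^ v * b) * f (p ^ v' * c) else 0) = 0 := by
            unfold frm
            refine Finset.sum_eq_zero fun b hb => Finset.sum_eq_zero fun c hc => ?_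
            rw [Nat.mem_divisors] at hb hc
            dsimp only
            rw [if_neg, mul_zero]
            intro h
            exact hne (pd_branch hp hM hnd F hxlt hva hb.1 hc.1
              (by rw [hstat v b hva hb.1, hs]) h).1.symm
          rw [e, mul_zero]
      have h3 := ih (restr hp hM hnd F v hva) (fun x b => A x (p ^ v * b))
        (fun b => f (p ^ v * b)) (fun b => hf _) (fun x b => hA _ _) (fun x b => hAf _ _)
      have hθ := theta_le hp a v hva
      have hθ0 : 0 ≤ (p : ℝ) ^ v * nup p a v := mul_nonneg (by positivity) (hnn v)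
      calc _ ≤ 0 + (p : ℝ) ^ v * nup p a v * nup p a v *
            SS (restr hp hM hnd F v hva) (fun x b => A x (p ^ v * b)) (fun b => f (p ^ v * b)) :=
            add_le_add h1 h2
        _ ≤ 0 + (p : ℝ) ^ v * nup p a v * nup p a v * ∑ b ∈ M1.divisors, nu M1 b *
            Phi (f (p ^ v * b)) (RR (restr hp hM hnd F v hva) (fun x b => A x (p ^ v * b)) b) :=
            add_le_add_right (mul_le_mul_of_nonneg_left h3 (mul_nonneg hθ0 (hnn v))) _
        _ ≤ _ := by
          rw [zero_add, Finset.mul_sum]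
          refine Finset.sum_le_sum fun b hb => ?_
          rw [Nat.mem_divisors] at hb
          have hνb := nu_nonneg M1 b
          have h4 : Phi (f (p ^ v * b))
              (RR (restr hp hM hnd F v hva) (fun x b => A x (p ^ v * b)) b) ≤
              Phi (f (p ^ v * b)) (RR F A (p ^ v * b)) := by
            refine Phi_mono (hf _) (RR_nonneg _ (fun x b => hA _ _) _) ?_
            rw [RR_restr hp hM hnd F _ hva, RR_split hp hM hnd ha F A hb.1]
            refine le_add_of_nonneg_left ?_
            split_ifs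
            · exact mul_nonneg (by positivity) (hA _ _)
            · exact le_rfl
          have h5 := Phi_nonneg (f (p ^ v * b)) (RR F A (p ^ v * b))
          calc (p : ℝ) ^ v * nup p a v * nup p a v * (nu M1 b * Phi (f (p ^ v * b))
              (RR (restr hp hM hnd F v hva) (fun x b => A x (p ^ v * b)) b))
              ≤ (p : ℝ) ^ v * nup p a v * nup p a v *
                (nu M1 b * Phi (f (p ^ v * b)) (RR F A (p ^ v * b))) :=
                mul_le_mul_of_nonneg_left (mul_le_mul_of_nonneg_left h4 hνb)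
                  (mul_nonneg hθ0 (hnn v))
            _ ≤ 1 * nup p a v * (nu M1 b * Phi (f (p ^ v * b)) (RR F A (p ^ v * b))) :=
                mul_le_mul_of_nonneg_right (mul_le_mul_of_nonneg_right hθ (hnn v))
                  (mul_nonneg hνb h5)
            _ = _ := by rw [one_mul]
    | some v0 =>
      -- passive, centre `v0`
      have hv0 : v0 ≤ a := by
        have h1 := F.le (one_dvd _) hp hs
        rwa [fac_self hp hM.ne' hnd] at h1
      have hv0m : v0 ∈ range (a + 1) := Finset.mem_range.2 (by omega)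
      set F1 := restr hp hM hnd F v0 hv0 with hF1
      set π : ℝ := (1 / (p : ℝ)) ^ v0 with hπ
      have hπ0 : 0 ≤ π := by positivity
      have hmn : ∀ v, 0 ≤ ml p a v0 v := ml_nonneg hp a v0
      have hst : ∀ v b, v ≤ a → b ∣ M1 → F.ctr (p ^ v * b) p = some v0 := fun v b hv hb =>
        (hstat v b hv hb).trans hs
      have hcoef : ∀ v v', min v v' = v0 → (p : ℝ) ^ (min v v') * nup p a v * nup p a v' =
          π * (ml p a v0 v * ml p a v0 v') := by
        intro v v' hmin
        unfold ml
        rw [if_pos (by omega), if_pos (by omega), hmin]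
        calc (p : ℝ) ^ v0 * nup p a v * nup p a v'
            = 1 * ((p : ℝ) ^ v0 * nup p a v * nup p a v') := (one_mul _).symm
          _ = (π * (p : ℝ) ^ v0) * ((p : ℝ) ^ v0 * nup p a v * nup p a v') := by
              rw [hπ, pi_mul hp]
          _ = _ := by ring
      set Ap : ℕ → ℝ := fun b => if v0 < a then A p (p ^ v0 * b) else 0 with hAp
      have hAp0 : ∀ b, 0 ≤ Ap b := by
        intro b
        simp only [hAp]
        split_ifs
        · exact hA _ _
        · exact le_rfl
      have hApf : ∀ b, Ap b ≤ f (p ^ v0 * b) := by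
        intro b
        simp only [hAp]
        split_ifs
        · exact hAf _ _
        · exact hf _
      rw [Finset.sum_insert (p_notMem hnd)]
      -- the primes below `p`
      have hlow : ∑ x ∈ M1.primeFactors, ∑ v ∈ range (a + 1), ∑ v' ∈ range (a + 1),
          (p : ℝ) ^ (min v v') * nup p a v * nup p a v' *
          frm M1 (fun b c => if pd F x (p ^ v * b) (p ^ v' * c) then
            A x (p ^ v * b) * f (p ^ v' * c) else 0) ≤
          π * SS F1 (fun x b => ∑ v ∈ range (a + 1), ml p a v0 v * A x (p ^ v * b))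
            (fun b => ∑ v ∈ range (a + 1), ml p a v0 v * f (p ^ v * b)) := by
        unfold SS
        rw [Finset.mul_sum]
        refine Finset.sum_le_sum fun x hx => ?_
        have hxp : x.Prime := Nat.prime_of_mem_primeFactors hx
        have hxlt : x < p := hmax x hxp (Nat.dvd_of_mem_primeFactors hx)
        rw [← frm_avg2 (range (a + 1)) (ml p a v0) (fun v b => A x (p ^ v * b))
          (fun v b => f (p ^ v * b)) (pd F1 x)]
        rw [Finset.mul_sum]
        refine Finset.sum_le_sum fun v hv => ?_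
        rw [Finset.mul_sum]
        refine Finset.sum_le_sum fun v' hv' => ?_
        rw [Finset.mem_range] at hv hv'
        have hva : v ≤ a := by omega
        by_cases hmin : min v v' = v0
        · rw [hcoef v v' hmin, mul_assoc]
          refine mul_le_mul_of_nonneg_left (mul_le_mul_of_nonneg_left (frm_mono fun b c hb hc => ?_)
            (mul_nonneg (hmn v) (hmn v'))) hπ0
          by_cases h : pd F x (p ^ v * b) (p ^ v' * c)
          · rw [if_pos h, if_pos (pd_passive hp hM hnd F hxlt hxp hva hv0 hb hc (hst v b hva hb) h).2]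
          · rw [if_neg h]
            split_ifs
            · exact mul_nonneg (hA _ _) (hf _)
            · exact le_rfl
        · have e : frm M1 (fun b c => if pd F x (p ^ v * b) (p ^ v' * c) then
              A x (p ^ v * b) * f (p ^ v' * c) else 0) = 0 := by
            unfold frm
            refine Finset.sum_eq_zero fun b hb => Finset.sum_eq_zero fun c hc => ?_
            rw [Nat.mem_divisors] at hb hc
            dsimp only
            rw [if_neg, mul_zero]
            intro h
            exact hmin (pd_passive hp hM hnd F hxlt hxp hva hv0 hb.1 hc.1 (hst v b hva hb.1) h).1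
          rw [e, mul_zero]
          refine mul_nonneg hπ0 (mul_nonneg (mul_nonneg (hmn v) (hmn v')) (frm_nonneg fun b c _ _ => ?_))
          split_ifs
          · exact mul_nonneg (hA _ _) (hf _)
          · exact le_rfl
      -- the prime `p`
      have hfz : ∀ v v', v ≤ a → ¬ (v = v0 ∧ v < v') →
          frm M1 (fun b c => if pd F p (p ^ v * b) (p ^ v' * c) then
              A p (p ^ v * b) * f (p ^ v' * c) else 0) = 0 := by
        intro v v' hva hne
        unfold frm
        refine Finset.sum_eq_zero fun b hb => Finset.sum_eq_zero fun c hc => ?_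
        rw [Nat.mem_divisors] at hb hc
        dsimp only
        rw [if_neg, mul_zero]
        intro h
        obtain ⟨_, h2, h3⟩ := pd_top hp hM hnd hmax F hb.1 hc.1 h
        rw [hst v b hva hb.1] at h2
        cases h2
        exact hne ⟨rfl, h3⟩
      have htop : ∑ v ∈ range (a + 1), ∑ v' ∈ range (a + 1),
          (p : ℝ) ^ (min v v') * nup p a v * nup p a v' *
          frm M1 (fun b c => if pd F p (p ^ v * b) (p ^ v' * c) then
            A p (p ^ v * b) * f (p ^ v' * c) else 0) ≤
          π * ∑ b ∈ M1.divisors, nu M1 b * (ml p a v0 v0 * Ap b *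
            ∑ v' ∈ (range (a + 1)).erase v0, ml p a v0 v' * f (p ^ v' * b)) := by
        rw [Finset.sum_eq_single_of_mem v0 hv0m]
        · have e1 : π * ∑ b ∈ M1.divisors, nu M1 b * (ml p a v0 v0 * Ap b *
              ∑ v' ∈ (range (a + 1)).erase v0, ml p a v0 v' * f (p ^ v' * b)) =
              ∑ v' ∈ (range (a + 1)).erase v0, π * (ml p a v0 v0 * ml p a v0 v') *
                ∑ b ∈ M1.divisors, nu M1 b * (Ap b * f (p ^ v' * b)) := by
            simp only [Finset.mul_sum]
            rw [Finset.sum_comm]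
            refine Finset.sum_congr rfl fun v' _ => Finset.sum_congr rfl fun b _ => by ring
          rw [e1, ← Finset.add_sum_erase _ _ hv0m, hfz v0 v0 hv0 (by omega), mul_zero, zero_add]
          refine Finset.sum_le_sum fun v' hv' => ?_
          have hv'a : v' ≤ a := by
            have := Finset.mem_range.1 (Finset.mem_of_mem_erase hv')
            omega
          have hrn : 0 ≤ ∑ b ∈ M1.divisors, nu M1 b * (Ap b * f (p ^ v' * b)) :=
            Finset.sum_nonneg fun b _ => mul_nonneg (nu_nonneg _ _) (mul_nonneg (hAp0 _) (hf _))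
          by_cases hlt : v0 < v'
          · rw [hcoef v0 v' (min_eq_left hlt.le)]
            refine mul_le_mul_of_nonneg_left ?_ (mul_nonneg hπ0 (mul_nonneg (hmn _) (hmn _)))
            have hAe : ∀ b, A p (p ^ v0 * b) = Ap b := fun b => by
              simp only [hAp]
              rw [if_pos (by omega)]
            have h1 : frm M1 (fun b c => if pd F p (p ^ v0 * b) (p ^ v' * c) then
                A p (p ^ v0 * b) * f (p ^ v' * c) else 0) ≤
                frm M1 (fun b c => if b = c then Ap b * f (p ^ v' * c) else 0) := by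
              refine frm_mono fun b c hb hc => ?_
              by_cases h : pd F p (p ^ v0 * b) (p ^ v' * c)
              · rw [if_pos h, if_pos (pd_top hp hM hnd hmax F hb hc h).1, hAe]
              · rw [if_neg h]
                split_ifs
                · exact mul_nonneg (hAp0 _) (hf _)
                · exact le_rfl
            refine h1.trans ?_
            rw [frm_diag (fun b c => Ap b * f (p ^ v' * c))]
            refine Finset.sum_le_sum fun b hb => ?_
            rw [Nat.mem_divisors] at hb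
            have h2 := V_le hb.1
            have h3 := nu_nonneg M1 b
            have h4 : 0 ≤ Ap b * f (p ^ v' * b) := mul_nonneg (hAp0 _) (hf _)
            calc nu M1 b * ((b : ℝ) * nu M1 b) * (Ap b * f (p ^ v' * b))
                ≤ nu M1 b * 1 * (Ap b * f (p ^ v' * b)) :=
                  mul_le_mul_of_nonneg_right (mul_le_mul_of_nonneg_left h2 h3) h4
              _ = _ := by rw [mul_one]
          · rw [hfz v0 v' hv0 (by omega), mul_zero]
            exact mul_nonneg (mul_nonneg hπ0 (mul_nonneg (hmn _) (hmn _))) hrn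
        · intro v hv hne
          refine Finset.sum_eq_zero fun v' _ => ?_
          rw [hfz v v' (by have := Finset.mem_range.1 hv; omega) (fun h => hne h.1), mul_zero]
      have hih := ih F1 (fun x b => ∑ v ∈ range (a + 1), ml p a v0 v * A x (p ^ v * b))
        (fun b => ∑ v ∈ range (a + 1), ml p a v0 v * f (p ^ v * b))
        (fun b => Finset.sum_nonneg fun v _ => mul_nonneg (hmn v) (hf _))
        (fun x b => Finset.sum_nonneg fun v _ => mul_nonneg (hmn v) (hA _ _))
        (fun x b => Finset.sum_le_sum fun v _ => mul_le_mul_of_nonneg_left (hAf _ _) (hmn v))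
      have hp2 : (1 : ℝ) / p ≤ 1 / 2 := one_div_le_one_div_of_le (by norm_num)
        (by exact_mod_cast hp.two_le)
      refine (add_le_add htop (hlow.trans (mul_le_mul_of_nonneg_left hih hπ0))).trans ?_
      rw [← mul_add, ← Finset.sum_add_distrib, Finset.sum_comm, Finset.mul_sum]
      refine Finset.sum_le_sum fun b hb => ?_
      rw [Nat.mem_divisors] at hb
      have hνb := nu_nonneg M1 b
      -- the row sums
      have hRR : RR F1 (fun x b => ∑ v ∈ range (a + 1), ml p a v0 v * A x (p ^ v * b)) b =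
          ∑ v ∈ range (a + 1), ml p a v0 v * RR F A (p ^ v * b) -
            ml p a v0 v0 * (1 / (p : ℝ) * Ap b) := by
        rw [hF1, RR_restr hp hM hnd F _ hv0]
        have e1 : ∑ v ∈ range (a + 1), ml p a v0 v * RR F A (p ^ v * b) =
            ∑ v ∈ range (a + 1), ml p a v0 v *
              (if F.ctr (p ^ v * b) p = some v ∧ v < a then 1 / (p : ℝ) * A p (p ^ v * b) else 0) +
            ∑ v ∈ range (a + 1), ml p a v0 v * ∑ x ∈ M1.primeFactors,
              (if F.ctr (p ^ v0 * b) x = some (b.factorization x) ∧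
              b.factorization x < M1.factorization x
              then 1 / (x : ℝ) * A x (p ^ v * b) else 0) := by
          rw [← Finset.sum_add_distrib]
          refine Finset.sum_congr rfl fun v hv => ?_
          have hva : v ≤ a := by have := Finset.mem_range.1 hv; omega
          rw [RR_split hp hM hnd ha F A hb.1, mul_add]
          congr 2
          refine Finset.sum_congr rfl fun x hx => ?_
          rw [ctr_passive hp hM F hva hv0 hb.1 (Nat.prime_of_mem_primeFactors hx)
            (hst v b hva hb.1)]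
        have e2 : ∑ v ∈ range (a + 1), ml p a v0 v *
              (if F.ctr (p ^ v * b) p = some v ∧ v < a then 1 / (p : ℝ) * A p (p ^ v * b) else 0) =
            ml p a v0 v0 * (1 / (p : ℝ) * Ap b) := by
          rw [Finset.sum_eq_single_of_mem v0 hv0m]
          · simp only [hAp]
            by_cases hva : v0 < a
            · rw [if_pos ⟨hst v0 b hv0 hb.1, hva⟩, if_pos hva]
            · rw [if_neg (fun h => hva h.2), if_neg hva, mul_zero, mul_zero, mul_zero]
          · intro v hv hne
            have hva : v ≤ a := by have := Finset.mem_range.1 hv; omega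
            rw [if_neg, mul_zero]
            rw [hst v b hva hb.1]
            intro h
            exact hne (Option.some.inj h.1).symm
        rw [e1, e2, add_sub_cancel_left]
        simp only [Finset.mul_sum]
        rw [Finset.sum_comm]
        refine Finset.sum_congr rfl fun x _ => ?_
        split_ifs with h
        · exact Finset.sum_congr rfl fun v _ => by ring
        · simp
      have hstep := step_sum (range (a + 1)) (ml p a v0) (fun v => f (p ^ v * b))
        (fun v => RR F A (p ^ v * b)) hv0m (fun v _ => hmn v) (sum_ml hp hv0) hp2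
        (ml_self_ge hp hv0) (fun v => hf _) (fun v => RR_nonneg F hA _) (hAp0 b)
        (hApf b) (by
          rw [RR_split hp hM hnd ha F A hb.1]
          have h1 : 1 / (p : ℝ) * Ap b ≤ (if F.ctr (p ^ v0 * b) p = some v0 ∧ v0 < a then
              1 / (p : ℝ) * A p (p ^ v0 * b) else 0) := by
            simp only [hAp]
            by_cases hva : v0 < a
            · rw [if_pos hva, if_pos ⟨hst v0 b hv0 hb.1, hva⟩]
            · rw [if_neg hva, if_neg (fun h => hva h.2), mul_zero]
          refine h1.trans (le_add_of_nonneg_right (Finset.sum_nonneg fun x _ => ?_))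
          split_ifs
          · exact mul_nonneg (by positivity) (hA _ _)
          · exact le_rfl)
      rw [hRR]
      calc π * (nu M1 b * (ml p a v0 v0 * Ap b *
            ∑ v' ∈ (range (a + 1)).erase v0, ml p a v0 v' * f (p ^ v' * b)) +
            nu M1 b * Phi (∑ v ∈ range (a + 1), ml p a v0 v * f (p ^ v * b))
              (∑ v ∈ range (a + 1), ml p a v0 v * RR F A (p ^ v * b) -
                ml p a v0 v0 * (1 / (p : ℝ) * Ap b)))
          = (π * nu M1 b) * (Phi (∑ v ∈ range (a + 1), ml p a v0 v * f (p ^ v * b))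
              (∑ v ∈ range (a + 1), ml p a v0 v * RR F A (p ^ v * b) -
                ml p a v0 v0 * (1 / (p : ℝ) * Ap b)) +
              ml p a v0 v0 * Ap b *
            ∑ v' ∈ (range (a + 1)).erase v0, ml p a v0 v' * f (p ^ v' * b)) := by ring
        _ ≤ (π * nu M1 b) * ∑ v ∈ range (a + 1),
              ml p a v0 v * Phi (f (p ^ v * b)) (RR F A (p ^ v * b)) :=
            mul_le_mul_of_nonneg_left hstep (mul_nonneg hπ0 hνb)
        _ ≤ _ := by
            rw [Finset.mul_sum]
            refine Finset.sum_le_sum fun v _ => ?_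
            have h1 := pi_ml_le hp a v0 v
            have h2 := Phi_nonneg (f (p ^ v * b)) (RR F A (p ^ v * b))
            calc π * nu M1 b * (ml p a v0 v * Phi (f (p ^ v * b)) (RR F A (p ^ v * b)))
                = (π * ml p a v0 v) * (nu M1 b * Phi (f (p ^ v * b)) (RR F A (p ^ v * b))) := by
                  ring
              _ ≤ _ := mul_le_mul_of_nonneg_right h1 (mul_nonneg hνb h2)

/-! ### User forms -/

lemma RR_mul {M : ℕ} (F : FL M) (α : ℕ → ℕ → ℝ) (f : ℕ → ℝ) (b : ℕ) :
    RR F (fun x b => α x b * f b) b = RR F α b * f b := by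
  unfold RR
  rw [Finset.sum_mul]
  refine Finset.sum_congr rfl fun x _ => ?_
  split_ifs
  · ring
  · rw [zero_mul]

/-- **`L²` row lemma**, weights `α x b ∈ [0,1]` with row sums `≤ ρ` -/
theorem row_energy_rho {M : ℕ} (hM : 0 < M) (F : FL M) (α : ℕ → ℕ → ℝ) (f : ℕ → ℝ) {ρ : ℝ}
    (hf : ∀ b, 0 ≤ f b) (h0 : ∀ x b, 0 ≤ α x b) (h1 : ∀ x b, α x b ≤ 1)
    (hr : ∀ b, b ∣ M → RR F α b ≤ ρ) :
    SS F (fun x b => α x b * f b) f ≤
      (1 / 2 + 3 / 4 * (1 + ρ) ^ 2) * ∑ b ∈ M.divisors, nu M b * f b ^ 2 := by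
  refine (row_main M hM F _ f hf (fun x b => mul_nonneg (h0 x b) (hf b))
    (fun x b => mul_le_of_le_one_left (hf b) (h1 x b))).trans ?_
  rw [Finset.mul_sum]
  refine Finset.sum_le_sum fun b hb => ?_
  rw [Nat.mem_divisors] at hb
  rw [RR_mul]
  have h2 := hr b hb.1
  have h3 := RR_nonneg F h0 b
  have h4 : (1 + RR F α b) ^ 2 ≤ (1 + ρ) ^ 2 := pow_le_pow_left₀ (by linarith) (by linarith) 2
  have e : Phi (f b) (RR F α b * f b) = (1 / 2 + 3 / 4 * (1 + RR F α b) ^ 2) * f b ^ 2 := by
    unfold Phi; ring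
  rw [e]
  calc nu M b * ((1 / 2 + 3 / 4 * (1 + RR F α b) ^ 2) * f b ^ 2)
      ≤ nu M b * ((1 / 2 + 3 / 4 * (1 + ρ) ^ 2) * f b ^ 2) :=
        mul_le_mul_of_nonneg_left (mul_le_mul_of_nonneg_right (by linarith) (sq_nonneg _))
          (nu_nonneg _ _)
    _ = _ := by ring

/-- **`L²` row lemma**: row bound `∑ α x b / x ≤ 1` gives `≤ (7/2) ∑ ν f²` -/
theorem row_energy {M : ℕ} (hM : 0 < M) (F : FL M) (α : ℕ → ℕ → ℝ) (f : ℕ → ℝ)
    (hf : ∀ b, 0 ≤ f b) (h0 : ∀ x b, 0 ≤ α x b) (h1 : ∀ x b, α x b ≤ 1)
    (hr : ∀ b, b ∣ M → RR F α b ≤ 1) :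
    SS F (fun x b => α x b * f b) f ≤ 7 / 2 * ∑ b ∈ M.divisors, nu M b * f b ^ 2 := by
  refine (row_energy_rho hM F α f hf h0 h1 hr).trans (le_of_eq ?_)
  norm_num

/-- the smallest differing prime is unique -/
lemma pd_unique {M : ℕ} {F : FL M} {x x' b c : ℕ} (hx : x.Prime) (hx' : x'.Prime)
    (h : pd F x b c) (h' : pd F x' b c) : x = x' := by
  rcases lt_trichotomy x x' with h1 | h1 | h1
  · exact absurd (h'.1 x hx h1) h.2.2.1.ne
  · exact h1
  · exact absurd (h.1 x' hx' h1) h'.2.2.1.ne

lemma pd_mem {M : ℕ} (hM : 0 < M) {F : FL M} {x b c : ℕ} (hx : x.Prime) (hc : c ∣ M)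
    (h : pd F x b c) : x ∈ M.primeFactors := by
  refine Nat.mem_primeFactors.2 ⟨hx, ?_, hM.ne'⟩
  refine Dvd.dvd.trans ?_ hc
  by_contra hh
  have h1 := h.2.2.1
  rw [Nat.factorization_eq_zero_of_not_dvd hh] at h1
  omega

open Classical in
/-- `SS` as one pair form -/
lemma SS_eq {M : ℕ} (hM : 0 < M) (F : FL M) (A : ℕ → ℕ → ℝ) (f : ℕ → ℝ) (K : ℕ → ℕ → ℝ)
    (hK : ∀ x b c, x.Prime → b ∣ M → c ∣ M → pd F x b c → K b c ≤ A x b * f c)
    (hA : ∀ x b, 0 ≤ A x b) (hf : ∀ b, 0 ≤ f b) :
    frm M (fun b c => if ∃ x, x.Prime ∧ pd F x b c then K b c else 0) ≤ SS F A f := by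
  unfold SS
  rw [← PureL2x232.frm_sum M.primeFactors
    (fun x b c => if pd F x b c then A x b * f c else 0)]
  refine PureL2x232.frm_mono fun b c hb hc => ?_
  by_cases h : ∃ x, x.Prime ∧ pd F x b c
  · rw [if_pos h]
    obtain ⟨x, hx, hxd⟩ := h
    refine (hK x b c hx hb hc hxd).trans ?_
    refine le_trans (le_of_eq ?_) (Finset.single_le_sum (f := fun x =>
      if pd F x b c then A x b * f c else 0) (fun y _ => ?_) (pd_mem hM hx hc hxd))
    · simp only [if_pos hxd]
    · split_ifs
      · exact mul_nonneg (hA _ _) (hf _)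
      · exact le_rfl
  · rw [if_neg h]
    refine Finset.sum_nonneg fun x _ => ?_
    split_ifs
    · exact mul_nonneg (hA _ _) (hf _)
    · exact le_rfl

/-- pure pair: different words, smallest differing prime `x` passive, pure from `x` on -/
def pureP {M : ℕ} (F : FL M) (b c : ℕ) : Prop := ∃ x, x.Prime ∧ (pd F x b c ∨ pd F x c b)

lemma frm_comm {M : ℕ} (G : ℕ → ℕ → ℝ) : frm M (fun b c => G c b) = frm M G := by
  unfold frm
  rw [Finset.sum_comm]
  refine Finset.sum_congr rfl fun b _ => Finset.sum_congr rfl fun c _ => ?_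
  rw [Nat.gcd_comm c b]
  ring

open Classical in
/-- **`L²` row lemma, both orders**: `K` any pair weight, dominated by the row weight of the member
which has the centre letter at the smallest differing prime -/
theorem row_pure {M : ℕ} (hM : 0 < M) (F : FL M) (α : ℕ → ℕ → ℝ) (f : ℕ → ℝ) (K : ℕ → ℕ → ℝ)
    (hf : ∀ b, 0 ≤ f b) (h0 : ∀ x b, 0 ≤ α x b) (h1 : ∀ x b, α x b ≤ 1)
    (hr : ∀ b, b ∣ M → RR F α b ≤ 1)
    (hK1 : ∀ x b c, x.Prime → b ∣ M → c ∣ M → pd F x b c → K b c ≤ α x b)
    (hK2 : ∀ x b c, x.Prime → b ∣ M → c ∣ M → pd F x c b → K b c ≤ α x c) :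
    frm M (fun b c => if pureP F b c then K b c * (f b * f c) else 0) ≤
      7 * ∑ b ∈ M.divisors, nu M b * f b ^ 2 := by
  have e1 := row_energy hM F α f hf h0 h1 hr
  have hA : ∀ x b, 0 ≤ α x b * f b := fun x b => mul_nonneg (h0 x b) (hf b)
  -- the two orders
  have e2 : frm M (fun b c => if ∃ x, x.Prime ∧ pd F x b c then max (K b c * (f b * f c)) 0 else 0)
      ≤ SS F (fun x b => α x b * f b) f := by
    refine SS_eq hM F _ f _ (fun x b c hx hb hc h => ?_) hA hf
    have h2 := mul_le_mul_of_nonneg_right (hK1 x b c hx hb hc h) (mul_nonneg (hf b) (hf c))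
    refine max_le ?_ (mul_nonneg (hA x b) (hf c))
    calc K b c * (f b * f c) ≤ α x b * (f b * f c) := h2
      _ = _ := by ring
  have e3 : frm M (fun b c => if ∃ x, x.Prime ∧ pd F x b c then max (K c b * (f b * f c)) 0 else 0)
      ≤ SS F (fun x b => α x b * f b) f := by
    refine SS_eq hM F _ f _ (fun x b c hx hb hc h => ?_) hA hf
    have h2 := mul_le_mul_of_nonneg_right (hK2 x c b hx hc hb h) (mul_nonneg (hf b) (hf c))
    refine max_le ?_ (mul_nonneg (hA x b) (hf c))
    calc K c b * (f b * f c) ≤ α x b * (f b * f c) := h2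
      _ = _ := by ring
  rw [← frm_comm (fun b c => if ∃ x, x.Prime ∧ pd F x b c then max (K c b * (f b * f c)) 0 else 0)]
    at e3
  have e4 : frm M (fun b c => if pureP F b c then K b c * (f b * f c) else 0) ≤
      frm M (fun b c => (if ∃ x, x.Prime ∧ pd F x b c then max (K b c * (f b * f c)) 0 else 0) +
        (if ∃ x, x.Prime ∧ pd F x c b then max (K b c * (f c * f b)) 0 else 0)) := by
    refine PureL2x232.frm_mono fun b c hb hc => ?_
    have n1 : (0 : ℝ) ≤ if ∃ x, x.Prime ∧ pd F x b c then max (K b c * (f b * f c)) 0 else 0 := by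
      split_ifs
      · exact le_max_right _ _
      · exact le_rfl
    have n2 : (0 : ℝ) ≤ if ∃ x, x.Prime ∧ pd F x c b then max (K b c * (f c * f b)) 0 else 0 := by
      split_ifs
      · exact le_max_right _ _
      · exact le_rfl
    by_cases h : pureP F b c
    · rw [if_pos h]
      obtain ⟨x, hx, h2 | h2⟩ := h
      · have h3 : ∃ x, x.Prime ∧ pd F x b c := ⟨x, hx, h2⟩
        rw [if_pos h3] at n1 ⊢
        linarith [le_max_left (K b c * (f b * f c)) 0]
      · have h3 : ∃ x, x.Prime ∧ pd F x c b := ⟨x, hx, h2⟩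
        rw [if_pos h3] at n2 ⊢
        have h4 := le_max_left (K b c * (f c * f b)) 0
        have h5 : f c * f b = f b * f c := mul_comm _ _
        rw [h5] at h4 n2 ⊢
        linarith
    · rw [if_neg h]
      linarith
  rw [PureL2x232.frm_add] at e4
  linarith

/-- criterion: agreement below `x`, same node and `min = centre` from `x` on, different at `x` -/
lemma pd_or {M : ℕ} {F : FL M} {x b c : ℕ} (hb : b ∣ M) (hc : c ∣ M) (hx : x.Prime)
    (hlow : ∀ q, q.Prime → q < x → b.factorization q = c.factorization q)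
    (hne : b.factorization x ≠ c.factorization x)
    (hsame : ∀ q, q.Prime → x ≤ q → F.ctr b q = none → b.factorization q = c.factorization q)
    (hmin : ∀ q, q.Prime → x ≤ q → ∀ v, F.ctr b q = some v →
      min (b.factorization q) (c.factorization q) = v) :
    pd F x b c ∨ pd F x c b := by
  have hs : F.same x b c := fun q hq hxq hn => hsame q hq hxq.le hn
  have hs' : F.same x c b := FL.same_symm hb hc hs
  cases h : F.ctr b x with
  | none => exact absurd (hsame x hx le_rfl h) hne
  | some v =>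
    have h1 := hmin x hx le_rfl v h
    rcases lt_or_gt_of_ne hne with h2 | h2
    · left
      refine ⟨hlow, ?_, h2, hs, fun q hq hxq w hw => hmin q hq hxq.le w hw⟩
      rw [h]
      congr 1
      omega
    · right
      refine ⟨fun q hq hqx => (hlow q hq hqx).symm, ?_, h2, hs', fun q hq hxq w hw => ?_⟩
      · rw [← FL.ctr_eq hb hc hs hx le_rfl, h]
        congr 1
        omega
      · rw [min_comm]
        refine hmin q hq hxq.le w ?_
        rw [FL.ctr_eq hb hc hs hq hxq.le]
        exact hw

/-- every pure pair consists of different words -/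
lemma pureP_ne {M : ℕ} {F : FL M} {b c : ℕ} (h : pureP F b c) : b ≠ c := by
  rintro rfl
  obtain ⟨x, _, h | h⟩ := h
  · exact absurd h.2.2.1 (lt_irrefl _)
  · exact absurd h.2.2.1 (lt_irrefl _)

open Classical in
/-- bilinear form -/
theorem row_bilin {M : ℕ} (hM : 0 < M) (F : FL M) (α : ℕ → ℕ → ℝ) (f g : ℕ → ℝ)
    (hf : ∀ b, 0 ≤ f b) (hg : ∀ b, 0 ≤ g b) (h0 : ∀ x b, 0 ≤ α x b) (h1 : ∀ x b, α x b ≤ 1)
    (hr : ∀ b, b ∣ M → RR F α b ≤ 1) {y : ℝ} (hy : 0 < y) :
    SS F (fun x b => α x b * f b) g ≤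
      7 * (y * ∑ b ∈ M.divisors, nu M b * f b ^ 2 + y⁻¹ * ∑ b ∈ M.divisors, nu M b * g b ^ 2) := by
  have hsy : 0 < Real.sqrt y := Real.sqrt_pos.2 hy
  set s := Real.sqrt y with hs
  have hss : s * s = y := Real.mul_self_sqrt hy.le
  set h : ℕ → ℝ := fun b => s * f b + s⁻¹ * g b with hh
  have hsi : 0 ≤ s⁻¹ := inv_nonneg.2 hsy.le
  have hh0 : ∀ b, 0 ≤ h b := fun b => add_nonneg (mul_nonneg hsy.le (hf b)) (mul_nonneg hsi (hg b))
  have e1 : SS F (fun x b => α x b * f b) g ≤ SS F (fun x b => α x b * h b) h := by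
    unfold SS
    refine Finset.sum_le_sum fun x _ => PureL2x232.frm_mono fun b c _ _ => ?_
    split_ifs
    · have e2 : f b * g c ≤ h b * h c := by
        simp only [hh]
        have e3 : (s * f b + s⁻¹ * g b) * (s * f c + s⁻¹ * g c) =
            (s * s⁻¹) * (f b * g c) + (s * s * (f b * f c) + (s⁻¹ * s) * (g b * f c) +
              s⁻¹ * s⁻¹ * (g b * g c)) := by ring
        rw [e3, mul_inv_cancel₀ hsy.ne', one_mul]
        have a1 := mul_nonneg (hf b) (hf c)
        have a2 := mul_nonneg (hg b) (hf c)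
        have a3 := mul_nonneg (hg b) (hg c)
        have : 0 ≤ s * s * (f b * f c) + (s⁻¹ * s) * (g b * f c) + s⁻¹ * s⁻¹ * (g b * g c) := by
          positivity
        linarith
      calc α x b * f b * g c = α x b * (f b * g c) := by ring
        _ ≤ α x b * (h b * h c) := mul_le_mul_of_nonneg_left e2 (h0 x b)
        _ = _ := by ring
    · exact le_rfl
  refine (e1.trans (row_energy hM F α h hh0 h0 h1 hr)).trans ?_
  rw [Finset.mul_sum, Finset.mul_sum, Finset.mul_sum, ← Finset.sum_add_distrib, Finset.mul_sum]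
  refine Finset.sum_le_sum fun b _ => ?_
  have h2 := nu_nonneg M b
  have h3 : h b ^ 2 ≤ 2 * (y * f b ^ 2 + y⁻¹ * g b ^ 2) := by
    simp only [hh]
    have e : y⁻¹ = s⁻¹ * s⁻¹ := by rw [← hss, mul_inv]
    rw [e, ← hss]
    nlinarith [sq_nonneg (s * f b - s⁻¹ * g b)]
  have h4 := mul_le_mul_of_nonneg_left h3 h2
  calc 7 / 2 * (nu M b * h b ^ 2) ≤ 7 / 2 * (nu M b * (2 * (y * f b ^ 2 + y⁻¹ * g b ^ 2))) := by
        linarith
    _ = 7 * (y * (nu M b * f b ^ 2) + y⁻¹ * (nu M b * g b ^ 2)) := by ring

/-! ### Row sums of thinned weights -/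

/-- telescoping: `∑_{x ∈ D} (1/x) ∏_{q ∈ D, q < x} (1 - 1/q) ≤ 1` -/
lemma tele_le (D : Finset ℕ) (hD : ∀ x ∈ D, 1 ≤ x) :
    ∑ x ∈ D, 1 / (x : ℝ) * ∏ q ∈ D.filter (· < x), (1 - 1 / (q : ℝ)) ≤ 1 := by
  classical
  have key : ∀ D : Finset ℕ, ∑ x ∈ D, 1 / (x : ℝ) * ∏ q ∈ D.filter (· < x), (1 - 1 / (q : ℝ)) =
      1 - ∏ q ∈ D, (1 - 1 / (q : ℝ)) := by
    intro D
    induction D using Finset.induction_on_max with
    | empty => simp
    | insert y D hy ih =>
      have hyD : y ∉ D := fun h => lt_irrefl _ (hy y h)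
      rw [Finset.sum_insert hyD, Finset.prod_insert hyD]
      have e1 : (insert y D).filter (· < y) = D := by
        ext z
        simp only [Finset.mem_filter, Finset.mem_insert]
        constructor
        · rintro ⟨h1 | h1, h2⟩
          · omega
          · exact h1
        · intro h1
          exact ⟨Or.inr h1, hy z h1⟩
      have e2 : ∀ x ∈ D, (insert y D).filter (· < x) = D.filter (· < x) := by
        intro x hx
        have := hy x hx
        ext z
        simp only [Finset.mem_filter, Finset.mem_insert]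
        constructor
        · rintro ⟨h1 | h1, h2⟩
          · omega
          · exact ⟨h1, h2⟩
        · rintro ⟨h1, h2⟩
          exact ⟨Or.inr h1, h2⟩
      rw [e1, Finset.sum_congr rfl (fun x hx => by rw [e2 x hx]), ih]
      ring
  rw [key]
  have : 0 ≤ ∏ q ∈ D, (1 - 1 / (q : ℝ)) := by
    refine Finset.prod_nonneg fun q hq => ?_
    have h1 : (1 : ℝ) ≤ q := by exact_mod_cast hD q hq
    have h2 : 1 / (q : ℝ) ≤ 1 := by
      rw [div_le_one (by linarith)]; exact h1
    linarith
  linarith

/-- row sums of weights which are thinned at the primes of `D b` below `x`, and vanish off `D b` -/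
lemma RR_le_one {M : ℕ} (F : FL M) (α : ℕ → ℕ → ℝ) (b : ℕ) (D : Finset ℕ)
    (hD : ∀ x ∈ D, x.Prime) (h0 : ∀ x, 0 ≤ α x b)
    (h1 : ∀ x ∈ M.primeFactors, F.ctr b x = some (b.factorization x) →
      b.factorization x < M.factorization x → x ∉ D → α x b = 0)
    (h2 : ∀ x ∈ D, α x b ≤ ∏ q ∈ D.filter (· < x), (1 - 1 / (q : ℝ))) : RR F α b ≤ 1 := by
  classical
  refine le_trans ?_ (tele_le D (fun x hx => (hD x hx).one_lt.le))
  unfold RR
  calc ∑ x ∈ M.primeFactors, (if F.ctr b x = some (b.factorization x) ∧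
        b.factorization x < M.factorization x then 1 / (x : ℝ) * α x b else 0)
      ≤ ∑ x ∈ M.primeFactors, (if x ∈ D then 1 / (x : ℝ) * α x b else 0) := by
        refine Finset.sum_le_sum fun x hx => ?_
        by_cases hxD : x ∈ D
        · rw [if_pos hxD]
          split_ifs
          · exact le_rfl
          · exact mul_nonneg (by positivity) (h0 x)
        · rw [if_neg hxD]
          split_ifs with h
          · rw [h1 x hx h.1 h.2 hxD, mul_zero]
          · exact le_rfl
    _ ≤ ∑ x ∈ D, 1 / (x : ℝ) * α x b := by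
        rw [← Finset.sum_filter]
        refine Finset.sum_le_sum_of_subset_of_nonneg ?_ fun x _ _ =>
          mul_nonneg (by positivity) (h0 x)
        intro x hx
        exact (Finset.mem_filter.1 hx).2
    _ ≤ _ := Finset.sum_le_sum fun x hx => mul_le_mul_of_nonneg_left (h2 x hx) (by positivity)

/-- the natural weight: `V_{<x}(b) = ∏_{q < x, v_q b < v_q M} (1 - 1/q)` has row sums
`≤ 1` -/
noncomputable def Vx (M x b : ℕ) : ℝ :=
  ∏ q ∈ M.primeFactors.filter (fun q => q < x ∧ b.factorization q < M.factorization q),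
    (1 - 1 / (q : ℝ))

lemma one_sub_nonneg {q : ℕ} (hq : q.Prime) : 0 ≤ 1 - 1 / (q : ℝ) := by
  have h1 : (1 : ℝ) ≤ q := by exact_mod_cast hq.one_lt.le
  have h2 : 1 / (q : ℝ) ≤ 1 := by
    rw [div_le_one (by linarith)]; exact h1
  linarith

lemma Vx_nonneg (M x b : ℕ) : 0 ≤ Vx M x b :=
  Finset.prod_nonneg fun _ hq =>
    one_sub_nonneg (Nat.prime_of_mem_primeFactors (Finset.mem_filter.1 hq).1)

lemma Vx_le_one (M x b : ℕ) : Vx M x b ≤ 1 :=
  Finset.prod_le_one (fun _ hq =>
    one_sub_nonneg (Nat.prime_of_mem_primeFactors (Finset.mem_filter.1 hq).1))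
    fun q _ => by
      have : (0 : ℝ) ≤ 1 / (q : ℝ) := by positivity
      linarith

lemma RR_Vx {M : ℕ} (F : FL M) (b : ℕ) : RR F (Vx M) b ≤ 1 := by
  classical
  refine RR_le_one F (Vx M) b
    (M.primeFactors.filter (fun q => b.factorization q < M.factorization q))
    (fun x hx => Nat.prime_of_mem_primeFactors (Finset.mem_filter.1 hx).1)
    (fun x => Vx_nonneg M x b) ?_ ?_
  · intro x hx _ h2 h3
    exact absurd (Finset.mem_filter.2 ⟨hx, h2⟩) h3
  · intro x _
    refine le_of_eq ?_
    unfold Vx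
    congr 1
    ext q
    simp only [Finset.mem_filter]
    tauto

end Crest.Agent.R4C.RowL2x423
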