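import Crest.Agent.R4C.FLDef_935
import Crest.Agent.R4C.PureL2c_232

/-!
# Row 4: the `L²` ROW LEMMA, one-prime step (helper423; helper5's note 3094 (1))

`F : FL M` = 935's abstract F-Λ structure (`FLDef_935`), general `M`, general centres.

* `pd F x b c` : `b, c` have the same letters below `x`; `x` is passive, `b` has the centre letter at
  `x` and `c` a larger one; above `x` the pair is pure (same letters at the branched primes,
  `min = centre` at the passive primes).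
* data: `f ≥ 0` and `0 ≤ A x b ≤ f b`, ARBITRARY functions of the whole word `b`
  (`A x b = a_x(b) f(b)`, the `a_x(b) ∈ [0,1]` may contain labels and coins of `b`);
  `RR F A b = ∑_x A x b / x` over the passive primes `x` at which `b` has the centre letter.
* `row_main` : `∑_x ∑_{b,c : pd F x b c} gcd ν ν A x b f c ≤ ∑ ν (f²/2 + (3/4) (f + RR)²)`.
* `row_energy` : if `∑ a_x(b)/x ≤ 1`, then the energy is `≤ (7/2) ∑ ν f²`.

The proof is one step of a potential at the top prime; no martingale, no Doob.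
-/

set_option autoImplicit false

namespace Crest.Agent.R4C.RowL2x423

open Finset Crest.Agent.R4C.Basex935 Crest.Agent.R4C.FLDefx935 Crest.Agent.R4C.PureL2x232

/-- the potential -/
noncomputable def Phi (F R : ℝ) : ℝ := 1 / 2 * F ^ 2 + 3 / 4 * (F + R) ^ 2

lemma Phi_nonneg (F R : ℝ) : 0 ≤ Phi F R := by unfold Phi; positivity

lemma Phi_mono {F R R' : ℝ} (hF : 0 ≤ F) (hR : 0 ≤ R) (h : R ≤ R') : Phi F R ≤ Phi F R' := by
  unfold Phi
  have h1 : (F + R) ^ 2 ≤ (F + R') ^ 2 := pow_le_pow_left₀ (by linarith) (by linarith) 2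
  linarith

lemma step_scalar {μ w F0 G0 A h T X Y : ℝ} (hμ0 : 0 ≤ μ) (hμw : μ ≤ w) (hw : w ≤ 1 / 2)
    (hF0 : 0 ≤ F0) (hA0 : 0 ≤ A) (hAF : A ≤ F0) (hG : F0 + w * A ≤ G0) (h0 : 0 ≤ h) (hT : h ≤ T)
    (hX0 : 0 ≤ X) (hY0 : 0 ≤ Y) (hX : h ^ 2 ≤ μ * X) (hY : T ^ 2 ≤ μ * Y) :
    1 / 2 * ((1 - μ) * F0 + h) ^ 2 + 3 / 4 * ((1 - μ) * G0 + T - (1 - μ) * (w * A)) ^ 2 +
        (1 - μ) * A * h ≤
      1 / 2 * ((1 - μ) * F0 ^ 2 + X) + 3 / 4 * ((1 - μ) * G0 ^ 2 + Y) := by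
  have hw0 : 0 ≤ w := hμ0.trans hμw
  rcases hμ0.eq_or_lt with h1 | hμ
  · subst h1
    have hh : h = 0 := by
      have : h ^ 2 ≤ 0 := by linarith
      exact pow_eq_zero_iff (two_ne_zero) |>.1 (le_antisymm this (sq_nonneg _))
    have hT' : T = 0 := by
      have : T ^ 2 ≤ 0 := by linarith
      exact pow_eq_zero_iff (two_ne_zero) |>.1 (le_antisymm this (sq_nonneg _))
    subst hh
    subst hT'
    have e1 : 0 ≤ w * A := mul_nonneg hw0 hA0
    have e2 : 0 ≤ G0 - w * A := by linarith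
    have e3 : (G0 - w * A) ^ 2 ≤ G0 ^ 2 := pow_le_pow_left₀ e2 (by linarith) 2
    have e4 : (1 - (0 : ℝ)) * G0 + 0 - (1 - 0) * (w * A) = G0 - w * A := by ring
    rw [e4]
    linarith
  · set Fs := h / μ with hFs
    set Gs := T / μ with hGs
    have eh : h = μ * Fs := by rw [hFs]; field_simp
    have eT : T = μ * Gs := by rw [hGs]; field_simp
    have hFs0 : 0 ≤ Fs := div_nonneg h0 hμ.le
    have hGF : Fs ≤ Gs := by rw [hFs, hGs]; gcongr
    have hX' : μ * Fs ^ 2 ≤ X := by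
      rw [eh] at hX
      have : μ * (μ * Fs ^ 2) ≤ μ * X := by linarith
      exact le_of_mul_le_mul_left this hμ
    have hY' : μ * Gs ^ 2 ≤ Y := by
      rw [eT] at hY
      have : μ * (μ * Gs ^ 2) ≤ μ * Y := by linarith
      exact le_of_mul_le_mul_left this hμ
    have h1μ : 0 ≤ 1 - μ := by linarith
    set ε := (1 - μ) * (w * A) with hε
    have hε0 : 0 ≤ ε := mul_nonneg h1μ (mul_nonneg hw0 hA0)
    set Gb := (1 - μ) * G0 + μ * Gs with hGb
    set Fb := (1 - μ) * F0 + μ * Fs with hFb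
    have hFb0 : 0 ≤ Fb := by positivity
    have hGb' : Fb + ε ≤ Gb := by
      rw [hFb, hε, hGb]
      linarith [mul_le_mul_of_nonneg_left hG h1μ, mul_le_mul_of_nonneg_left hGF hμ.le]
    have k1 : 2 * ε * Fb ≤ 2 * ε * Gb - ε ^ 2 := by
      have := mul_le_mul_of_nonneg_left hGb' hε0
      have h2 : 0 ≤ ε ^ 2 := sq_nonneg _
      linarith
    have k2 : (1 - μ) * μ * A * Fb ≤ ε * Fb := by
      rw [hε]
      have : μ * (A * Fb) ≤ w * (A * Fb) := mul_le_mul_of_nonneg_right hμw (mul_nonneg hA0 hFb0)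
      linarith [mul_le_mul_of_nonneg_left this h1μ]
    set δ := Fs - F0 with hδ
    have k3 : 0 ≤ 1 / 2 * δ ^ 2 + 1 / 2 * A * F0 + (3 / 2 * μ - 1) * A * δ := by
      rcases le_total δ 0 with h2 | h2
      · have h3 : 0 ≤ (1 - 3 / 2 * μ) * A * (-δ) :=
          mul_nonneg (mul_nonneg (by linarith) hA0) (by linarith)
        have h4 : 0 ≤ A * F0 := mul_nonneg hA0 hF0
        linarith [sq_nonneg δ]
      · have h3 : 0 ≤ μ * (A * δ) := mul_nonneg hμ.le (mul_nonneg hA0 h2)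
        have h4 : A * A ≤ A * F0 := mul_le_mul_of_nonneg_left hAF hA0
        linarith [sq_nonneg (δ - A)]
    have k4 : 0 ≤ μ * (1 - μ) * (1 / 2 * δ ^ 2 + 1 / 2 * A * F0 + (3 / 2 * μ - 1) * A * δ) :=
      mul_nonneg (mul_nonneg hμ.le h1μ) k3
    have k5 : 0 ≤ μ * (1 - μ) * (G0 - Gs) ^ 2 :=
      mul_nonneg (mul_nonneg hμ.le h1μ) (sq_nonneg _)
    have e1 : (1 - μ) * F0 ^ 2 + μ * Fs ^ 2 - Fb ^ 2 = μ * (1 - μ) * δ ^ 2 := by
      rw [hFb, hδ]; ring
    have e2 : (1 - μ) * G0 ^ 2 + μ * Gs ^ 2 - (Gb - ε) ^ 2 =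
        μ * (1 - μ) * (G0 - Gs) ^ 2 + (2 * ε * Gb - ε ^ 2) := by
      rw [hGb]; ring
    have e3 : μ * (1 - μ) * (1 / 2 * δ ^ 2 + 1 / 2 * A * F0 + (3 / 2 * μ - 1) * A * δ) =
        1 / 2 * (μ * (1 - μ) * δ ^ 2) + 3 / 2 * ((1 - μ) * μ * A * Fb) - (1 - μ) * A * (μ * Fs) := by
      rw [hFb, hδ]; ring
    rw [eh, eT]
    have e4 : (1 - μ) * F0 + μ * Fs = Fb := rfl
    have e5 : (1 - μ) * G0 + μ * Gs = Gb := rfl
    rw [e4, e5]
    linarith

/-- one step at a passive prime, all letters at once -/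
lemma step_sum (s : Finset ℕ) (m F R : ℕ → ℝ) {v0 : ℕ} (hv0 : v0 ∈ s) (hm : ∀ v ∈ s, 0 ≤ m v)
    (hm1 : ∑ v ∈ s, m v = 1) {w A : ℝ} (hw : w ≤ 1 / 2) (hmw : 1 - w ≤ m v0)
    (hF : ∀ v, 0 ≤ F v) (hR : ∀ v, 0 ≤ R v) (hA0 : 0 ≤ A) (hAF : A ≤ F v0)
    (hAR : w * A ≤ R v0) :
    Phi (∑ v ∈ s, m v * F v) (∑ v ∈ s, m v * R v - m v0 * (w * A)) +
        m v0 * A * ∑ v ∈ s.erase v0, m v * F v ≤
      ∑ v ∈ s, m v * Phi (F v) (R v) := by
  classical
  have e0 : ∀ G : ℕ → ℝ, ∑ v ∈ s, G v = G v0 + ∑ v ∈ s.erase v0, G v := fun G =>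
    (Finset.add_sum_erase s G hv0).symm
  set μ := ∑ v ∈ s.erase v0, m v with hμ
  have hm0 : m v0 = 1 - μ := by
    have := e0 m
    rw [hm1] at this
    linarith
  have hme : ∀ v ∈ s.erase v0, 0 ≤ m v := fun v hv => hm v (Finset.mem_of_mem_erase hv)
  have hμ0 : 0 ≤ μ := Finset.sum_nonneg hme
  set h := ∑ v ∈ s.erase v0, m v * F v with hh
  set T := ∑ v ∈ s.erase v0, m v * (F v + R v) with hT
  set X := ∑ v ∈ s.erase v0, m v * F v ^ 2 with hX
  set Y := ∑ v ∈ s.erase v0, m v * (F v + R v) ^ 2 with hY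
  have hhX : h ^ 2 ≤ μ * X := by
    refine Finset.sum_sq_le_sum_mul_sum_of_sq_le_mul _ hme
      (fun v hv => mul_nonneg (hme v hv) (sq_nonneg _)) (fun v _ => le_of_eq (by ring))
  have hTY : T ^ 2 ≤ μ * Y := by
    refine Finset.sum_sq_le_sum_mul_sum_of_sq_le_mul _ hme
      (fun v hv => mul_nonneg (hme v hv) (sq_nonneg _)) (fun v _ => le_of_eq (by ring))
  have h0 : 0 ≤ h := Finset.sum_nonneg fun v hv => mul_nonneg (hme v hv) (hF v)
  have hhT : h ≤ T := Finset.sum_le_sum fun v hv =>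
    mul_le_mul_of_nonneg_left (by linarith [hR v]) (hme v hv)
  have hX0 : 0 ≤ X := Finset.sum_nonneg fun v hv => mul_nonneg (hme v hv) (sq_nonneg _)
  have hY0 : 0 ≤ Y := Finset.sum_nonneg fun v hv => mul_nonneg (hme v hv) (sq_nonneg _)
  have key := step_scalar (μ := μ) (w := w) (F0 := F v0) (G0 := F v0 + R v0) (A := A) hμ0
    (by linarith) hw (hF v0) hA0 hAF (by linarith) h0 hhT hX0 hY0 hhX hTY
  have eF : ∑ v ∈ s, m v * F v = (1 - μ) * F v0 + h := by rw [e0, hm0]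
  have eR : ∑ v ∈ s, m v * F v + (∑ v ∈ s, m v * R v - m v0 * (w * A)) =
      (1 - μ) * (F v0 + R v0) + T - (1 - μ) * (w * A) := by
    have : ∑ v ∈ s, m v * F v + ∑ v ∈ s, m v * R v = ∑ v ∈ s, m v * (F v + R v) := by
      rw [← Finset.sum_add_distrib]
      exact Finset.sum_congr rfl fun v _ => by ring
    rw [← add_sub_assoc, this, e0 (fun v => m v * (F v + R v)), hm0]
  have eP : ∑ v ∈ s, m v * Phi (F v) (R v) =
      1 / 2 * ((1 - μ) * F v0 ^ 2 + X) + 3 / 4 * ((1 - μ) * (F v0 + R v0) ^ 2 + Y) := by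
    rw [e0, hm0]
    have : ∑ v ∈ s.erase v0, m v * Phi (F v) (R v) = 1 / 2 * X + 3 / 4 * Y := by
      rw [hX, hY, Finset.mul_sum, Finset.mul_sum, ← Finset.sum_add_distrib]
      refine Finset.sum_congr rfl fun v _ => ?_
      unfold Phi; ring
    rw [this]
    unfold Phi
    ring
  rw [eP]
  refine le_trans (le_of_eq ?_) key
  unfold Phi
  rw [eR, eF, hm0]

end Crest.Agent.R4C.RowL2x423
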