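import Mathlib

/-!
# Row 4, BLOCK S4 (note 2774): centres = reduced fractions (helper74)

`b : ℕ` an item (`b = M / q`), `f : ℚ` a fraction close to `γ`.
* `bet b f = gcd b f.den` (β), `kk b f = f.den / β` (k), `gg b f = b / β` (g_f(b)),
  `dd γ b f = b |γ - f|` (D_f(b)), `zz b f n = b (f + n)` (z), `WW f n = P + Q n`.
* `tr s s' h f = (s f + h)/s'` : the transferred centre (`b = g s`, `b' = g s'`, `h = s n - s' n'`).
-/

set_option autoImplicit false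

namespace Crest.Agent.R4C.S4x74

/-- `β = gcd(b, den f)` -/
def bet (b : ℕ) (f : ℚ) : ℕ := Nat.gcd b f.den

/-- `k = den f / β` -/
def kk (b : ℕ) (f : ℚ) : ℕ := f.den / bet b f

/-- `g_f(b) = b / β` -/
def gg (b : ℕ) (f : ℚ) : ℕ := b / bet b f

/-- displacement `D_f(b) = b |γ - f|` -/
noncomputable def dd (γ : ℝ) (b : ℕ) (f : ℚ) : ℝ := b * |γ - (f : ℝ)|

/-- the point `z = b (f + n)` -/
def zz (b : ℕ) (f : ℚ) (n : ℤ) : ℚ := b * (f + n)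

/-- `W = P + Q n` -/
def WW (f : ℚ) (n : ℤ) : ℤ := f.num + f.den * n

/-- transferred centre -/
def tr (s s' : ℕ) (h : ℤ) (f : ℚ) : ℚ := (s * f + h) / s'

/-- `f` is a centre of `b` of type `(K, D)` at window `L` -/
def IsCen (γ L K D : ℝ) (b : ℕ) (f : ℚ) : Prop := (kk b f : ℝ) ≤ K ∧ dd γ b f ≤ D * L

lemma bet_pos (b : ℕ) (f : ℚ) : 0 < bet b f := Nat.gcd_pos_of_pos_right _ f.den_pos

lemma bet_dvd (b : ℕ) (f : ℚ) : bet b f ∣ b := Nat.gcd_dvd_left _ _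

lemma bet_dvd_den (b : ℕ) (f : ℚ) : bet b f ∣ f.den := Nat.gcd_dvd_right _ _

lemma kk_mul_bet (b : ℕ) (f : ℚ) : kk b f * bet b f = f.den :=
  Nat.div_mul_cancel (bet_dvd_den b f)

lemma gg_mul_bet (b : ℕ) (f : ℚ) : gg b f * bet b f = b :=
  Nat.div_mul_cancel (bet_dvd b f)

lemma kk_pos (b : ℕ) (f : ℚ) : 0 < kk b f :=
  Nat.div_pos (Nat.le_of_dvd f.den_pos (bet_dvd_den b f)) (bet_pos b f)

lemma gg_pos {b : ℕ} (hb : 0 < b) (f : ℚ) : 0 < gg b f :=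
  Nat.div_pos (Nat.le_of_dvd hb (bet_dvd b f)) (bet_pos b f)

lemma gg_dvd (b : ℕ) (f : ℚ) : gg b f ∣ b := ⟨bet b f, (gg_mul_bet b f).symm⟩

lemma kk_dvd_den (b : ℕ) (f : ℚ) : kk b f ∣ f.den := ⟨bet b f, (kk_mul_bet b f).symm⟩

lemma coprime_gg_kk {b : ℕ} (f : ℚ) : Nat.Coprime (gg b f) (kk b f) :=
  Nat.coprime_div_gcd_div_gcd (bet_pos b f)

lemma dd_nonneg (γ : ℝ) (b : ℕ) (f : ℚ) : 0 ≤ dd γ b f := by unfold dd; positivity

lemma isCoprime_WW (f : ℚ) (n : ℤ) : IsCoprime (WW f n) (f.den : ℤ) := by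
  have h : IsCoprime f.num (f.den : ℤ) := by
    rw [Int.isCoprime_iff_gcd_eq_one]
    exact f.reduced
  exact h.add_mul_left_left n

lemma isCoprime_WW_kk (b : ℕ) (f : ℚ) (n : ℤ) : IsCoprime (WW f n) (kk b f : ℤ) :=
  (isCoprime_WW f n).of_isCoprime_of_dvd_right (Int.natCast_dvd_natCast.2 (kk_dvd_den b f))

lemma isCoprime_WW_bet (b : ℕ) (f : ℚ) (n : ℤ) : IsCoprime (WW f n) (bet b f : ℤ) :=
  (isCoprime_WW f n).of_isCoprime_of_dvd_right (Int.natCast_dvd_natCast.2 (bet_dvd_den b f))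

lemma zz_eq (b : ℕ) (f : ℚ) (n : ℤ) :
    zz b f n = (((gg b f : ℤ) * WW f n : ℤ) : ℚ) / ((kk b f : ℤ) : ℚ) := by
  have hk : ((kk b f : ℕ) : ℚ) ≠ 0 := by exact_mod_cast (kk_pos b f).ne'
  have hB : ((bet b f : ℕ) : ℚ) ≠ 0 := by exact_mod_cast (bet_pos b f).ne'
  have hd : (f.den : ℚ) ≠ 0 := by exact_mod_cast f.den_pos.ne'
  have h1 : (f.den : ℚ) = kk b f * bet b f := by exact_mod_cast (kk_mul_bet b f).symm
  have h2 : (b : ℚ) = gg b f * bet b f := by exact_mod_cast (gg_mul_bet b f).symm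
  have h3 : f * f.den = f.num := Rat.mul_den_eq_num f
  have h4 : f + n = (WW f n : ℚ) / f.den := by
    unfold WW
    push_cast
    rw [eq_div_iff hd, add_mul, h3]
    ring
  unfold zz
  rw [h4, h1, h2]
  push_cast
  field_simp

lemma natAbs_coprime {a b : ℤ} (h : IsCoprime a b) : Nat.Coprime a.natAbs b.natAbs :=
  Int.isCoprime_iff_gcd_eq_one.1 h

lemma coprime_num (b : ℕ) (f : ℚ) (n : ℤ) :
    IsCoprime ((gg b f : ℤ) * WW f n) (kk b f : ℤ) :=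
  IsCoprime.mul_left (Nat.isCoprime_iff_coprime.2 (coprime_gg_kk f)) (isCoprime_WW_kk b f n)

/-- S4 (1): `num z = g_f(b) W` -/
lemma zz_num (b : ℕ) (f : ℚ) (n : ℤ) : (zz b f n).num = (gg b f : ℤ) * WW f n := by
  rw [zz_eq]
  exact Rat.num_div_eq_of_coprime (by exact_mod_cast kk_pos b f) (natAbs_coprime (coprime_num b f n))

/-- S4 (1): `den z = k` -/
lemma zz_den (b : ℕ) (f : ℚ) (n : ℤ) : (zz b f n).den = kk b f := by
  have h := Rat.den_div_eq_of_coprime (a := (gg b f : ℤ) * WW f n) (b := (kk b f : ℤ))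
    (by exact_mod_cast kk_pos b f) (natAbs_coprime (coprime_num b f n))
  rw [← zz_eq] at h
  exact_mod_cast h

/-- S4 (1): `gcd(b, num z) = g_f(b)` -/
lemma gcd_num (b : ℕ) (f : ℚ) (n : ℤ) : Nat.gcd b (zz b f n).num.natAbs = gg b f := by
  rw [zz_num, Int.natAbs_mul, Int.natAbs_natCast]
  have h1 : Nat.gcd (bet b f) (WW f n).natAbs = 1 := by
    have h2 := natAbs_coprime (isCoprime_WW_bet b f n)
    rw [Int.natAbs_natCast] at h2
    exact h2.symm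
  calc Nat.gcd b (gg b f * (WW f n).natAbs)
      = Nat.gcd (gg b f * bet b f) (gg b f * (WW f n).natAbs) := by rw [gg_mul_bet]
    _ = gg b f := by rw [Nat.gcd_mul_left, h1, mul_one]

/-! ### points of different centres -/

lemma diff_dvd (b b' : ℕ) (f f' : ℚ) (n n' : ℤ) :
    ∃ m : ℤ, (zz b f n - zz b' f' n') * ((kk b f : ℚ) * kk b' f') =
      (Nat.gcd (gg b f) (gg b' f') : ℕ) * (m : ℚ) := by
  obtain ⟨c, hc⟩ := Nat.gcd_dvd_left (gg b f) (gg b' f')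
  obtain ⟨c', hc'⟩ := Nat.gcd_dvd_right (gg b f) (gg b' f')
  refine ⟨c * WW f n * kk b' f' - c' * WW f' n' * kk b f, ?_⟩
  have hk : ((kk b f : ℕ) : ℚ) ≠ 0 := by exact_mod_cast (kk_pos b f).ne'
  have hk' : ((kk b' f' : ℕ) : ℚ) ≠ 0 := by exact_mod_cast (kk_pos b' f').ne'
  have e1 : ((gg b f : ℕ) : ℚ) = (Nat.gcd (gg b f) (gg b' f') : ℕ) * c := by exact_mod_cast hc
  have e2 : ((gg b' f' : ℕ) : ℚ) = (Nat.gcd (gg b f) (gg b' f') : ℕ) * c' := by exact_mod_cast hc'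
  rw [zz_eq, zz_eq]
  push_cast
  have e3 : ((gg b f : ℕ) : ℚ) * WW f n / kk b f - (gg b' f' : ℕ) * WW f' n' / kk b' f' =
      ((gg b f : ℕ) * WW f n * kk b' f' - (gg b' f' : ℕ) * WW f' n' * kk b f) /
        (kk b f * kk b' f') := by
    field_simp
  rw [e3, div_mul_cancel₀ _ (mul_ne_zero hk hk'), e1, e2]
  simp only [← e1, ← e2]
  ring_nf
  rw [e1, e2]
  ring

/-- two points closer than `gcd / (k k')` are equal -/
lemma zz_eq_of_close {b b' : ℕ} {f f' : ℚ} {n n' : ℤ}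
    (hc : ((kk b f : ℝ) * kk b' f') * |((zz b f n : ℚ) : ℝ) - ((zz b' f' n' : ℚ) : ℝ)| <
      (Nat.gcd (gg b f) (gg b' f') : ℕ)) : zz b f n = zz b' f' n' := by
  obtain ⟨m, hm⟩ := diff_dvd b b' f f' n n'
  have hm' : (((zz b f n : ℚ) : ℝ) - ((zz b' f' n' : ℚ) : ℝ)) * ((kk b f : ℝ) * kk b' f') =
      (Nat.gcd (gg b f) (gg b' f') : ℕ) * (m : ℝ) := by exact_mod_cast hm
  have hk : (0 : ℝ) < kk b f := by exact_mod_cast kk_pos b f
  have hk' : (0 : ℝ) < kk b' f' := by exact_mod_cast kk_pos b' f'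
  have h1 : ((kk b f : ℝ) * kk b' f') * |((zz b f n : ℚ) : ℝ) - ((zz b' f' n' : ℚ) : ℝ)| =
      (Nat.gcd (gg b f) (gg b' f') : ℕ) * |(m : ℝ)| := by
    rw [← abs_of_pos (mul_pos hk hk'), ← abs_mul, mul_comm, hm', abs_mul, Nat.abs_cast]
  rw [h1] at hc
  have hG : (0 : ℝ) < (Nat.gcd (gg b f) (gg b' f') : ℕ) := by
    by_contra h0
    have h0' : ((Nat.gcd (gg b f) (gg b' f') : ℕ) : ℝ) = 0 :=
      le_antisymm (not_lt.1 h0) (by positivity)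
    rw [h0'] at hc
    simp at hc
  have h2 : |(m : ℝ)| < 1 := by
    by_contra h3
    have := mul_le_mul_of_nonneg_left (not_lt.1 h3) hG.le
    linarith
  have h4 : m = 0 := by
    have : |m| < 1 := by exact_mod_cast h2
    exact Int.abs_lt_one_iff.1 this
  rw [h4] at hm
  simp only [Int.cast_zero, mul_zero, mul_eq_zero] at hm
  have hkq : ((kk b f : ℕ) : ℚ) ≠ 0 := by exact_mod_cast (kk_pos b f).ne'
  have hkq' : ((kk b' f' : ℕ) : ℚ) ≠ 0 := by exact_mod_cast (kk_pos b' f').ne'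
  rcases hm with h5 | h5 | h5
  · exact sub_eq_zero.1 h5
  · exact absurd h5 hkq
  · exact absurd h5 hkq'

lemma abs_hit_sub_zz (γ : ℝ) (b : ℕ) (f : ℚ) (n : ℤ) :
    |(b : ℝ) * (γ + n) - ((zz b f n : ℚ) : ℝ)| = dd γ b f := by
  unfold zz dd
  push_cast
  rw [← mul_sub, abs_mul, Nat.abs_cast]
  congr 2
  ring

/-- S4 (5), uniqueness: two different centres of one item -/
theorem uniq_le {γ : ℝ} {b : ℕ} (hb : 0 < b) {f₁ f₂ : ℚ} (hne : f₁ ≠ f₂) :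
    ((Nat.gcd (gg b f₁) (gg b f₂) : ℕ) : ℝ) ≤
      (kk b f₁ : ℝ) * kk b f₂ * (dd γ b f₁ + dd γ b f₂) := by
  by_contra hc
  rw [not_le] at hc
  have hb0 : (b : ℚ) ≠ 0 := by exact_mod_cast hb.ne'
  have hk : (0 : ℝ) < kk b f₁ := by exact_mod_cast kk_pos b f₁
  have hk' : (0 : ℝ) < kk b f₂ := by exact_mod_cast kk_pos b f₂
  have h1 : zz b f₁ 0 = zz b f₂ 0 := by
    refine zz_eq_of_close (lt_of_le_of_lt ?_ hc)
    refine mul_le_mul_of_nonneg_left ?_ (mul_pos hk hk').le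
    have e1 := abs_hit_sub_zz γ b f₁ 0
    have e2 := abs_hit_sub_zz γ b f₂ 0
    have e3 : ((zz b f₁ 0 : ℚ) : ℝ) - ((zz b f₂ 0 : ℚ) : ℝ) =
        ((b : ℝ) * (γ + (0 : ℤ)) - ((zz b f₂ 0 : ℚ) : ℝ)) -
          ((b : ℝ) * (γ + (0 : ℤ)) - ((zz b f₁ 0 : ℚ) : ℝ)) := by ring
    rw [e3]
    have := abs_sub ((b : ℝ) * (γ + (0 : ℤ)) - ((zz b f₂ 0 : ℚ) : ℝ))
      ((b : ℝ) * (γ + (0 : ℤ)) - ((zz b f₁ 0 : ℚ) : ℝ))
    rw [e1, e2] at this
    linarith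
  apply hne
  unfold zz at h1
  have h2 := mul_left_cancel₀ hb0 h1
  simpa using h2

/-- solvability of `s n - s' n' = h` -/
lemma exists_hits {s s' : ℕ} (hc : Nat.Coprime s s') (h : ℤ) :
    ∃ n n' : ℤ, h = s * n - s' * n' := by
  obtain ⟨u, v, huv⟩ := Nat.isCoprime_iff_coprime.2 hc
  refine ⟨h * u, -(h * v), ?_⟩
  linear_combination -h * huv

lemma tr_zz {g s s' : ℕ} (hs' : 0 < s') {f : ℚ} {h n n' : ℤ}
    (hn : h = s * n - s' * n') : zz (g * s') (tr s s' h f) n' = zz (g * s) f n := by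
  have hs0 : (s' : ℚ) ≠ 0 := by exact_mod_cast hs'.ne'
  unfold zz tr
  rw [hn]
  push_cast
  field_simp
  ring

lemma eq_tr_of_zz {g s s' : ℕ} (hg : 0 < g) (hs' : 0 < s') {f f' : ℚ} {h n n' : ℤ}
    (hn : h = s * n - s' * n') (hz : zz (g * s) f n = zz (g * s') f' n') : f' = tr s s' h f := by
  have hs0 : (s' : ℚ) ≠ 0 := by exact_mod_cast hs'.ne'
  have hg0 : (g : ℚ) ≠ 0 := by exact_mod_cast hg.ne'
  rw [← tr_zz hs' hn] at hz
  unfold zz at hz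
  have hb0 : ((g * s' : ℕ) : ℚ) ≠ 0 := by
    push_cast
    exact mul_ne_zero hg0 hs0
  have := mul_left_cancel₀ hb0 hz
  linarith

lemma tr_tr {s s' : ℕ} (hs : 0 < s) (hs' : 0 < s') (h : ℤ) (f : ℚ) :
    tr s' s (-h) (tr s s' h f) = f := by
  have hs0 : (s : ℚ) ≠ 0 := by exact_mod_cast hs.ne'
  have hs0' : (s' : ℚ) ≠ 0 := by exact_mod_cast hs'.ne'
  unfold tr
  push_cast
  field_simp
  ring

lemma mul_tr {s s' : ℕ} (hs' : 0 < s') (h : ℤ) (f : ℚ) : s' * tr s s' h f = s * f + h := by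
  have hs0' : (s' : ℚ) ≠ 0 := by exact_mod_cast hs'.ne'
  unfold tr
  field_simp

/-- S4 (4), same point: linked items with centres whose points have a large common divisor -/
theorem same_point {γ Δ : ℝ} {g s s' : ℕ} (hg : 0 < g) (hs' : 0 < s')
    (hc : Nat.Coprime s s') {h : ℤ} {f f' : ℚ} (hl : |((s : ℝ) - s') * γ + h| < Δ)
    (hsm : (kk (g * s) f : ℝ) * kk (g * s') f' *
      (dd γ (g * s) f + dd γ (g * s') f' + g * Δ) ≤
        (Nat.gcd (gg (g * s) f) (gg (g * s') f') : ℕ)) : f' = tr s s' h f := by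
  obtain ⟨n, n', hn⟩ := exists_hits hc h
  refine eq_tr_of_zz hg hs' hn (zz_eq_of_close (lt_of_lt_of_le ?_ hsm))
  have hk : (0 : ℝ) < kk (g * s) f := by exact_mod_cast kk_pos _ f
  have hk' : (0 : ℝ) < kk (g * s') f' := by exact_mod_cast kk_pos _ f'
  have hg0 : (0 : ℝ) < g := by exact_mod_cast hg
  refine mul_lt_mul_of_pos_left ?_ (mul_pos hk hk')
  have e1 := abs_hit_sub_zz γ (g * s) f n
  have e2 := abs_hit_sub_zz γ (g * s') f' n'
  have e3 : |((g * s : ℕ) : ℝ) * (γ + n) - ((g * s' : ℕ) : ℝ) * (γ + n')| < g * Δ := by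
    have : ((g * s : ℕ) : ℝ) * (γ + n) - ((g * s' : ℕ) : ℝ) * (γ + n') =
        g * (((s : ℝ) - s') * γ + h) := by
      rw [hn]; push_cast; ring
    rw [this, abs_mul, Nat.abs_cast]
    exact mul_lt_mul_of_pos_left hl hg0
  have e4 : ((zz (g * s) f n : ℚ) : ℝ) - ((zz (g * s') f' n' : ℚ) : ℝ) =
      (((g * s : ℕ) : ℝ) * (γ + n) - ((g * s' : ℕ) : ℝ) * (γ + n')) -
        (((g * s : ℕ) : ℝ) * (γ + n) - ((zz (g * s) f n : ℚ) : ℝ)) +
        (((g * s' : ℕ) : ℝ) * (γ + n') - ((zz (g * s') f' n' : ℚ) : ℝ)) := by ring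
  rw [e4]
  have h5 := abs_add_le ((((g * s : ℕ) : ℝ) * (γ + n) - ((g * s' : ℕ) : ℝ) * (γ + n')) -
        (((g * s : ℕ) : ℝ) * (γ + n) - ((zz (g * s) f n : ℚ) : ℝ)))
        (((g * s' : ℕ) : ℝ) * (γ + n') - ((zz (g * s') f' n' : ℚ) : ℝ))
  have h6 := abs_sub (((g * s : ℕ) : ℝ) * (γ + n) - ((g * s' : ℕ) : ℝ) * (γ + n'))
        (((g * s : ℕ) : ℝ) * (γ + n) - ((zz (g * s) f n : ℚ) : ℝ))
  rw [e1] at h6
  rw [e2] at h5
  linarith

end Crest.Agent.R4C.S4x74
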