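import Crest.Agent.Lib.Mertens
import Crest.Agent.R4C.S4def_74

/-!
# Row 4, BLOCK S4 v1 (note 2774), item (8): sparsity of the `β`'s, and Mertens upper bounds
(helper682)

A centre of `b` is a reduced fraction `f`; `β = gcd(b, den f)`, `den f = k β`, `g = b/β`,
`t_f(b) = g/L`, displacement `b |γ - f|`.

* `Cen γ L t D k β` : `β` occurs for some `(b,f)` with `den = k`, scale `≥ t`, displacement `≤ D L`.
* `seven`, `sparse_a` : two different `β`'s: the larger one is `≥ t/(2kD)`.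
* `sparse_b` : at most `1 + 8kDX/t` of them in `[X, 2X)`.
* `sum_inv_beta_le`, `sparse_c` : `∑ 1/β ≤ (12kD/t)(1+log N)`,
  `∑ 1/s ≤ (12kD/t)(1+log N)^2` over the `s ≤ N` divisible by some non exceptional `β`.
* `prod_inv_le`, `sum_inv_le` : Mertens upper bounds.
-/

set_option autoImplicit false

namespace Crest.Agent.R4C.S4cx682

open Finset

/-- `β` occurs as `gcd(b, den f)` for a centre `f` of some `b`, with `den f = k β`,
scale `b/(β L) ≥ t` and displacement `b |γ - f| ≤ D L` -/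
def Cen (γ L t D : ℝ) (k β : ℕ) : Prop := ∃ (b : ℕ) (f : ℚ), 0 < b ∧ Nat.gcd b f.den = β ∧
  f.den = k * β ∧ t * L * β ≤ b ∧ b * |γ - f| ≤ D * L

/-- gap of two different rationals whose denominators divide `m` -/
lemma gap {f f' : ℚ} {m : ℕ} (hm : 0 < m) (h : f.den ∣ m) (h' : f'.den ∣ m) (hne : f ≠ f') :
    1 ≤ (m : ℝ) * |(f : ℝ) - f'| := by
  obtain ⟨c, hc⟩ := h
  obtain ⟨c', hc'⟩ := h'
  have e : ∀ (g : ℚ) (d : ℕ), m = g.den * d → (m : ℚ) * g = ((g.num * d : ℤ) : ℚ) := by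
    intro g d hd
    rw [hd]
    push_cast
    have := Rat.mul_den_eq_num g
    calc (g.den : ℚ) * d * g = (g * g.den) * d := by ring
      _ = g.num * d := by rw [this]
  have h1 := e f c hc
  have h2 := e f' c' hc'
  have h3 : (m : ℚ) * (f - f') = ((f.num * c - f'.num * c' : ℤ) : ℚ) := by
    rw [mul_sub, h1, h2]; push_cast; ring
  have h4 : (f.num * c - f'.num * c' : ℤ) ≠ 0 := by
    intro h0
    rw [h0, Int.cast_zero, mul_eq_zero] at h3
    rcases h3 with h3 | h3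
    · exact hm.ne' (by exact_mod_cast h3)
    · exact hne (sub_eq_zero.1 h3)
  have h5 : (1 : ℚ) ≤ |(m : ℚ) * (f - f')| := by
    rw [h3, ← Int.cast_abs]
    exact_mod_cast Int.one_le_abs h4
  rw [abs_mul, Nat.abs_cast] at h5
  have h6 : ((1 : ℚ) : ℝ) ≤ (((m : ℚ) * |f - f'| : ℚ) : ℝ) := by exact_mod_cast h5
  push_cast at h6
  exact h6

/-- (7), first half: two different centres with the same `k`, `b ≤ b'` -/
theorem seven {γ L D : ℝ} {k b b' β β' : ℕ} {f f' : ℚ} (hb : 0 < b) (hbb : b ≤ b')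
    (hβ : Nat.gcd b f.den = β) (hβ' : Nat.gcd b' f'.den = β')
    (hk : f.den = k * β) (hk' : f'.den = k * β')
    (hd : b * |γ - f| ≤ D * L) (hd' : b' * |γ - f'| ≤ D * L) (hne : f ≠ f') :
    (b : ℝ) * Nat.gcd β β' ≤ 2 * (D * L) * k * β * β' := by
  have hβ0 : 0 < β := hβ ▸ Nat.gcd_pos_of_pos_left _ hb
  have hβ'0 : 0 < β' := hβ' ▸ Nat.gcd_pos_of_pos_left _ (hb.trans_le hbb)
  have hk0 : 0 < k := by
    rcases Nat.eq_zero_or_pos k with h | h
    · rw [h, zero_mul] at hk; exact absurd hk f.den_pos.ne'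
    · exact h
  have hb0 : (0 : ℝ) < b := by exact_mod_cast hb
  have hbb' : (b : ℝ) ≤ b' := by exact_mod_cast hbb
  set l := Nat.lcm β β' with hl
  have hl0 : 0 < l := Nat.lcm_pos hβ0 hβ'0
  have h1 := gap (f := f) (f' := f') (m := k * l) (Nat.mul_pos hk0 hl0)
    (hk ▸ Nat.mul_dvd_mul_left k (Nat.dvd_lcm_left _ _))
    (hk' ▸ Nat.mul_dvd_mul_left k (Nat.dvd_lcm_right _ _)) hne
  have h2 : |(f : ℝ) - f'| ≤ |γ - f| + |γ - f'| := by
    have : (f : ℝ) - f' = (γ - f') - (γ - f) := by ring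
    rw [this]
    refine (abs_sub _ _).trans ?_
    linarith
  have h3 : (b : ℝ) * |(f : ℝ) - f'| ≤ 2 * (D * L) := by
    have h4 : (b : ℝ) * |γ - f'| ≤ b' * |γ - f'| := by gcongr
    nlinarith [abs_nonneg ((f : ℝ) - f')]
  have h5 : (Nat.gcd β β' : ℝ) * l = β * β' := by
    rw [hl]; exact_mod_cast Nat.gcd_mul_lcm β β'
  have hkl : (0 : ℝ) ≤ (k : ℝ) * l := by positivity
  push_cast at h1
  have hg : (0 : ℝ) ≤ Nat.gcd β β' := Nat.cast_nonneg _
  calc (b : ℝ) * Nat.gcd β β' = (b : ℝ) * Nat.gcd β β' * 1 := by ring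
    _ ≤ (b : ℝ) * Nat.gcd β β' * ((k : ℝ) * l * |(f : ℝ) - f'|) := by gcongr
    _ = ((b : ℝ) * |(f : ℝ) - f'|) * (k * (Nat.gcd β β' * l)) := by ring
    _ ≤ (2 * (D * L)) * (k * (Nat.gcd β β' * l)) := by gcongr
    _ = 2 * (D * L) * k * β * β' := by rw [h5]; ring

/-- **(8a)** different `β`'s (same `k`): the larger one is `≥ t/(2kD)` -/
theorem sparse_a {γ L t D : ℝ} {k β β' : ℕ} (hL : 0 < L) (hD : 0 ≤ D)
    (h : Cen γ L t D k β) (h' : Cen γ L t D k β') (hne : β ≠ β') :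
    t ≤ 2 * k * D * (max β β' : ℕ) := by
  obtain ⟨b, f, hb, hβ, hk, ht, hd⟩ := h
  obtain ⟨b', f', hb', hβ', hk', ht', hd'⟩ := h'
  have hff : f ≠ f' := by
    intro he
    have hk0 : 0 < k := by
      rcases Nat.eq_zero_or_pos k with h | h
      · rw [h, zero_mul] at hk; exact absurd hk f.den_pos.ne'
      · exact h
    exact hne (Nat.eq_of_mul_eq_mul_left hk0 (by rw [← hk, ← hk', he]))
  have hβ0 : 0 < β := hβ ▸ Nat.gcd_pos_of_pos_left _ hb
  have hβ'0 : 0 < β' := hβ' ▸ Nat.gcd_pos_of_pos_left _ hb'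
  have key : ∀ {b β β' : ℕ}, 0 < β → 0 < β' → t * L * β ≤ b →
      (b : ℝ) * Nat.gcd β β' ≤ 2 * (D * L) * k * β * β' → t ≤ 2 * k * D * β' := by
    intro b β β' h1 h2 h3 h4
    have h1' : (0 : ℝ) < β := by exact_mod_cast h1
    have h5 : (1 : ℝ) ≤ Nat.gcd β β' := by exact_mod_cast Nat.gcd_pos_of_pos_left _ h1
    have h6 : (b : ℝ) ≤ 2 * (D * L) * k * β * β' := by
      have : (0 : ℝ) ≤ b := Nat.cast_nonneg _
      nlinarith
    have h7 : t * (L * β) ≤ (2 * k * D * β') * (L * β) := by nlinarith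
    exact le_of_mul_le_mul_right h7 (by positivity)
  have hm : ∀ x : ℕ, x ≤ max β β' → 2 * (k : ℝ) * D * x ≤ 2 * k * D * (max β β' : ℕ) := by
    intro x hx
    have : (x : ℝ) ≤ (max β β' : ℕ) := by exact_mod_cast hx
    gcongr
  rcases le_total b b' with hbb | hbb
  · have h7 := seven hb hbb hβ hβ' hk hk' hd hd' hff
    exact (key hβ0 hβ'0 ht h7).trans (hm _ (le_max_right _ _))
  · have h7 := seven hb' hbb hβ' hβ hk' hk hd' hd (Ne.symm hff)
    exact (key hβ'0 hβ0 ht' h7).trans (hm _ (le_max_left _ _))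

/-- finite sets with gaps `≥ δ` in an interval of length `l` -/
lemma card_le_of_gap {ι : Type*} (S : Finset ι) (x : ι → ℝ) {a l δ : ℝ} (hδ : 0 < δ) (hl : 0 ≤ l)
    (h1 : ∀ i ∈ S, a ≤ x i ∧ x i ≤ a + l)
    (h2 : ∀ i ∈ S, ∀ j ∈ S, i ≠ j → δ ≤ |x i - x j|) : (S.card : ℝ) ≤ 1 + l / δ := by
  classical
  have hinj : Set.InjOn (fun i => ⌊(x i - a) / δ⌋₊) (S : Set ι) := by
    intro i hi j hj he
    by_contra hne
    have hi' := Finset.mem_coe.1 hi
    have hj' := Finset.mem_coe.1 hj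
    have h3 := h2 i hi' j hj' hne
    simp only at he
    have e1 : 0 ≤ (x i - a) / δ := div_nonneg (by linarith [(h1 i hi').1]) hδ.le
    have e2 : 0 ≤ (x j - a) / δ := div_nonneg (by linarith [(h1 j hj').1]) hδ.le
    have e3 := Nat.floor_le e1
    have e4 := Nat.lt_floor_add_one ((x i - a) / δ)
    have e5 := Nat.floor_le e2
    have e6 := Nat.lt_floor_add_one ((x j - a) / δ)
    rw [he] at e3 e4
    have e7 : |(x i - a) / δ - (x j - a) / δ| < 1 := by
      rw [abs_lt]; constructor <;> linarith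
    have e8 : (x i - a) / δ - (x j - a) / δ = (x i - x j) / δ := by ring
    rw [e8, abs_div, abs_of_pos hδ, div_lt_one hδ] at e7
    linarith
  have hsub : S.image (fun i => ⌊(x i - a) / δ⌋₊) ⊆ Finset.range (⌊l / δ⌋₊ + 1) := by
    intro n hn
    obtain ⟨i, hi, rfl⟩ := Finset.mem_image.1 hn
    rw [Finset.mem_range, Nat.lt_succ_iff]
    refine Nat.floor_le_floor ?_
    have := (h1 i hi).2
    gcongr
    linarith
  have h3 : S.card ≤ ⌊l / δ⌋₊ + 1 := by
    rw [← Finset.card_image_of_injOn hinj]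
    calc _ ≤ (Finset.range (⌊l / δ⌋₊ + 1)).card := Finset.card_le_card hsub
      _ = _ := Finset.card_range _
  have h4 : (⌊l / δ⌋₊ : ℝ) ≤ l / δ := Nat.floor_le (by positivity)
  have h5 : (S.card : ℝ) ≤ ⌊l / δ⌋₊ + 1 := by exact_mod_cast h3
  linarith

/-- **(8b)** at most `1 + 8kDX/t` values of `β` in `[X, 2X)` -/
theorem sparse_b {γ L t D X : ℝ} {k : ℕ} (hL : 0 < L) (hD : 0 ≤ D) (ht : 0 < t) (hX : 0 < X)
    (S : Finset ℕ) (hS : ∀ β ∈ S, X ≤ β ∧ (β : ℝ) < 2 * X ∧ Cen γ L t D k β) :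
    (S.card : ℝ) ≤ 1 + 8 * k * D * X / t := by
  classical
  rcases S.eq_empty_or_nonempty with rfl | hne
  · simp; positivity
  have hk0 : 0 < k := by
    obtain ⟨β, hβ⟩ := hne
    obtain ⟨b, f, hb, h1, hk, -⟩ := (hS β hβ).2.2
    rcases Nat.eq_zero_or_pos k with h | h
    · rw [h, zero_mul] at hk; exact absurd hk f.den_pos.ne'
    · exact h
  have hk' : (0 : ℝ) < k := by exact_mod_cast hk0
  choose! b f hb hβ hk hts hd using fun β hβ => (hS β hβ).2.2
  have hr : ∀ β ∈ S, |γ - f β| ≤ D / (X * t) := by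
    intro β hβS
    have h1 : (0 : ℝ) < b β := by exact_mod_cast hb β hβS
    have h2 : X * t * L ≤ b β := by
      have := (hS β hβS).1
      calc X * t * L = t * L * X := by ring
        _ ≤ t * L * β := by gcongr
        _ ≤ _ := hts β hβS
    rw [le_div_iff₀ (by positivity)]
    have h3 : |γ - f β| * (X * t) * L ≤ D * L := by
      calc |γ - f β| * (X * t) * L = |γ - f β| * (X * t * L) := by ring
        _ ≤ |γ - f β| * b β := by gcongr
        _ = b β * |γ - f β| := by ring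
        _ ≤ _ := hd β hβS
    exact le_of_mul_le_mul_right h3 hL
  have h1 := card_le_of_gap S (fun β => (f β : ℝ)) (a := γ - D / (X * t)) (l := 2 * (D / (X * t)))
    (δ := 1 / (4 * k * X ^ 2)) (by positivity) (by positivity)
    (fun β hβS => by
      have := abs_le.1 (hr β hβS)
      constructor <;> linarith [this.1, this.2])
    (fun β hβS β' hβ'S hne => by
      have hβ0 : 0 < β := hβ β hβS ▸ Nat.gcd_pos_of_pos_left _ (hb β hβS)
      have hβ'0 : 0 < β' := hβ β' hβ'S ▸ Nat.gcd_pos_of_pos_left _ (hb β' hβ'S)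
      have hff : f β ≠ f β' := by
        intro he
        exact hne (Nat.eq_of_mul_eq_mul_left hk0 (by rw [← hk β hβS, ← hk β' hβ'S, he]))
      have h2 := gap (f := f β) (f' := f β') (m := k * (β * β')) (by positivity)
        (by rw [hk β hβS]; exact Nat.mul_dvd_mul_left k (Nat.dvd_mul_right _ _))
        (by rw [hk β' hβ'S]; exact Nat.mul_dvd_mul_left k (Nat.dvd_mul_left _ _)) hff
      have h3 : ((k * (β * β') : ℕ) : ℝ) ≤ 4 * k * X ^ 2 := by
        push_cast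
        have e1 := (hS β hβS).2.1.le
        have e2 := (hS β' hβ'S).2.1.le
        have e3 : (β : ℝ) * β' ≤ (2 * X) * (2 * X) := by gcongr
        nlinarith
      rw [div_le_iff₀ (by positivity)]
      calc (1 : ℝ) ≤ ((k * (β * β') : ℕ) : ℝ) * |(f β : ℝ) - f β'| := h2
        _ ≤ (4 * k * X ^ 2) * |(f β : ℝ) - f β'| := by gcongr
        _ = _ := by ring)
  refine h1.trans (le_of_eq ?_)
  field_simp
  ring


open Crest.Agent.R4C.S4x74 in
/-- `Cen` in the language of `S4def_74` -/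
theorem cen_iff {γ L t D : ℝ} {k β : ℕ} :
    Cen γ L t D k β ↔ ∃ (b : ℕ) (f : ℚ), 0 < b ∧ bet b f = β ∧ kk b f = k ∧
      t * L ≤ gg b f ∧ dd γ b f ≤ D * L := by
  constructor
  · rintro ⟨b, f, hb, hβ, hk, ht, hd⟩
    have hβ' : bet b f = β := hβ
    have hβ0 : 0 < β := hβ' ▸ bet_pos b f
    have hk' : kk b f = k := by
      refine Nat.eq_of_mul_eq_mul_right hβ0 ?_
      rw [← hk, ← hβ']
      exact kk_mul_bet b f
    refine ⟨b, f, hb, hβ', hk', ?_, hd⟩
    have h1 : (gg b f : ℝ) * β = b := by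
      rw [← hβ']; exact_mod_cast gg_mul_bet b f
    rw [← h1] at ht
    exact le_of_mul_le_mul_right ht (by exact_mod_cast hβ0)
  · rintro ⟨b, f, hb, hβ, hk, ht, hd⟩
    have hβ0 : 0 < β := hβ ▸ bet_pos b f
    refine ⟨b, f, hb, hβ, ?_, ?_, hd⟩
    · rw [← hk, ← hβ]
      exact (kk_mul_bet b f).symm
    · have h1 : (gg b f : ℝ) * β = b := by
        rw [← hβ]; exact_mod_cast gg_mul_bet b f
      rw [← h1]
      exact mul_le_mul_of_nonneg_right ht (Nat.cast_nonneg _)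

open Crest.Agent.R4C.S4x74 in
/-- `Cen` for a centre of `b` -/
theorem cen_of {γ L t D : ℝ} {b : ℕ} {f : ℚ} (hb : 0 < b)
    (ht : t * L ≤ gg b f) (hd : dd γ b f ≤ D * L) : Cen γ L t D (kk b f) (bet b f) :=
  cen_iff.2 ⟨b, f, hb, rfl, rfl, ht, hd⟩

/-- union bound for sums of nonnegative terms -/
lemma sum_biUnion_le' {ι : Type*} [DecidableEq ι] (B : Finset ι) (T : ι → Finset ℕ) (f : ℕ → ℝ)
    (hf : ∀ n, 0 ≤ f n) : ∑ x ∈ B.biUnion T, f x ≤ ∑ i ∈ B, ∑ x ∈ T i, f x := by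
  induction B using Finset.induction_on with
  | empty => simp
  | insert a B ha ih =>
    rw [Finset.biUnion_insert, Finset.sum_insert ha]
    have h := Finset.sum_union_inter (s₁ := T a) (s₂ := B.biUnion T) (f := f)
    have h2 : 0 ≤ ∑ x ∈ T a ∩ B.biUnion T, f x := Finset.sum_nonneg fun _ _ => hf _
    linarith

lemma Cen.pos {γ L t D : ℝ} {k β : ℕ} (h : Cen γ L t D k β) : 0 < β := by
  obtain ⟨b, f, hb, hβ, -⟩ := h
  exact hβ ▸ Nat.gcd_pos_of_pos_left _ hb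

lemma Cen.kpos {γ L t D : ℝ} {k β : ℕ} (h : Cen γ L t D k β) : 0 < k := by
  obtain ⟨b, f, hb, hβ, hk, -⟩ := h
  rcases Nat.eq_zero_or_pos k with h | h
  · rw [h, zero_mul] at hk; exact absurd hk f.den_pos.ne'
  · exact h

/-- harmonic sum -/
lemma harm_le (N : ℕ) : ∑ n ∈ Finset.Icc 1 N, (1 : ℝ) / n ≤ 1 + Real.log N := by
  have h := harmonic_le_one_add_log N
  rw [harmonic_eq_sum_Icc] at h
  push_cast at h
  simpa [one_div] using h

/-- multiples of `β` -/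
lemma sum_mult_le (N β : ℕ) (hβ : 0 < β) :
    ∑ s ∈ (Finset.Icc 1 N).filter (fun s => β ∣ s), (1 : ℝ) / s ≤ (1 / β) * (1 + Real.log N) := by
  have hβ' : (0 : ℝ) < β := by exact_mod_cast hβ
  have h1 : ∑ s ∈ (Finset.Icc 1 N).filter (fun s => β ∣ s), (1 : ℝ) / s ≤
      ∑ n ∈ Finset.Icc 1 N, (1 / (β : ℝ)) * (1 / n) := by
    have e : (Finset.Icc 1 N).filter (fun s => β ∣ s) ⊆
        (Finset.Icc 1 N).image (fun n => β * n) := by
      intro s hs
      rw [Finset.mem_filter, Finset.mem_Icc] at hs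
      obtain ⟨⟨h1, h2⟩, n, rfl⟩ := hs
      rw [Finset.mem_image]
      refine ⟨n, Finset.mem_Icc.2 ⟨?_, ?_⟩, rfl⟩
      · exact Nat.pos_of_ne_zero (by rintro rfl; simp at h1)
      · exact (Nat.le_mul_of_pos_left n hβ).trans h2
    refine (Finset.sum_le_sum_of_subset_of_nonneg e (fun _ _ _ => by positivity)).trans ?_
    rw [Finset.sum_image (fun x _ y _ h => Nat.eq_of_mul_eq_mul_left hβ h)]
    refine le_of_eq (Finset.sum_congr rfl fun n _ => ?_)
    push_cast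
    rw [one_div_mul_one_div]
  refine h1.trans ?_
  rw [← Finset.mul_sum]
  exact mul_le_mul_of_nonneg_left (harm_le N) (by positivity)

/-- **(8c), first part**: `∑ 1/β ≤ (12kD/t)(1+log N)` over the non exceptional `β ≤ N` -/
theorem sum_inv_beta_le {γ L t D : ℝ} {k N : ℕ} (hL : 0 < L) (hD : 0 < D) (ht : 0 < t)
    (hN : 1 ≤ N) (B : Finset ℕ) (hB : ∀ β ∈ B, β ≤ N ∧ t ≤ 2 * k * D * β ∧ Cen γ L t D k β) :
    ∑ β ∈ B, (1 : ℝ) / β ≤ 12 * k * D / t * (1 + Real.log N) := by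
  classical
  have hlN : 0 ≤ Real.log N := Real.log_nonneg (by exact_mod_cast hN)
  rcases B.eq_empty_or_nonempty with rfl | hne
  · simp only [Finset.sum_empty]; positivity
  have hk0 : (0 : ℝ) < k := by
    obtain ⟨β, hβ⟩ := hne
    exact_mod_cast (hB β hβ).2.2.kpos
  have hβ1 : ∀ β ∈ B, 1 ≤ β := fun β hβ => (hB β hβ).2.2.pos
  rcases le_total t (2 * k * D) with h1 | h1
  · have h2 : ∑ β ∈ B, (1 : ℝ) / β ≤ 1 + Real.log N := by
      refine le_trans (Finset.sum_le_sum_of_subset_of_nonneg ?_ (fun _ _ _ => by positivity))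
        (harm_le N)
      intro β hβ
      exact Finset.mem_Icc.2 ⟨hβ1 β hβ, (hB β hβ).1⟩
    have h3 : 1 ≤ 12 * k * D / t := by
      rw [le_div_iff₀ ht]; nlinarith [mul_pos hk0 hD]
    nlinarith
  · -- dyadic blocks from `X0 = t/(2kD) ≥ 1`
    set X0 : ℝ := t / (2 * k * D) with hX0
    have hX1 : 1 ≤ X0 := by rw [hX0, le_div_iff₀ (by positivity)]; linarith
    have hX0p : 0 < X0 := by linarith
    have hinv : 1 / X0 = 2 * k * D / t := by rw [hX0]; field_simp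
    have hge : ∀ β ∈ B, X0 ≤ β := by
      intro β hβ
      rw [hX0, div_le_iff₀ (by positivity)]
      have := (hB β hβ).2.1
      linarith
    set J := Nat.log 2 N with hJ
    set Bj : ℕ → Finset ℕ := fun j => B.filter fun β : ℕ => X0 * 2 ^ j ≤ β ∧ (β : ℝ) < X0 * 2 ^ (j + 1)
      with hBj
    have hcov : B ⊆ (Finset.range (J + 1)).biUnion Bj := by
      intro β hβ
      have h2 : 1 ≤ (β : ℝ) / X0 := by rw [le_div_iff₀ hX0p]; linarith [hge β hβ]
      obtain ⟨j, h3, h4⟩ := exists_nat_pow_near h2 (one_lt_two : (1 : ℝ) < 2)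
      rw [le_div_iff₀ hX0p] at h3
      rw [div_lt_iff₀ hX0p] at h4
      rw [Finset.mem_biUnion]
      refine ⟨j, ?_, ?_⟩
      · rw [Finset.mem_range, Nat.lt_succ_iff, hJ]
        refine Nat.le_log_of_pow_le (by norm_num) ?_
        have h5 : ((2 ^ j : ℕ) : ℝ) ≤ N := by
          push_cast
          have h6 : (β : ℝ) ≤ N := by exact_mod_cast (hB β hβ).1
          have h7 : (0 : ℝ) < 2 ^ j := by positivity
          nlinarith
        exact_mod_cast h5
      · rw [hBj, Finset.mem_filter]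
        exact ⟨hβ, by linarith, by linarith⟩
    have hblock : ∀ j, ∑ β ∈ Bj j, (1 : ℝ) / β ≤ (1 / X0) * ((1 / 2) ^ j + 4) := by
      intro j
      have hXj : 0 < X0 * 2 ^ j := by positivity
      have hc := sparse_b (γ := γ) (L := L) (t := t) (D := D) (k := k) hL hD.le ht hXj (Bj j)
        (fun β hβ => by
          rw [hBj, Finset.mem_filter] at hβ
          refine ⟨hβ.2.1, ?_, (hB β hβ.1).2.2⟩
          have := hβ.2.2
          rw [pow_succ] at this
          linarith)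
      have h2 : ∑ β ∈ Bj j, (1 : ℝ) / β ≤ ∑ β ∈ Bj j, 1 / (X0 * 2 ^ j) := by
        refine Finset.sum_le_sum fun β hβ => ?_
        rw [hBj, Finset.mem_filter] at hβ
        exact one_div_le_one_div_of_le hXj hβ.2.1
      refine h2.trans ?_
      rw [Finset.sum_const, nsmul_eq_mul]
      have h3 : 1 + 8 * k * D * (X0 * 2 ^ j) / t = 1 + 4 * 2 ^ j := by
        rw [hX0]; field_simp; ring
      rw [h3] at hc
      calc ((Bj j).card : ℝ) * (1 / (X0 * 2 ^ j)) ≤ (1 + 4 * 2 ^ j) * (1 / (X0 * 2 ^ j)) := by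
            gcongr
        _ = _ := by
            rw [one_div_pow]
            have : (2 : ℝ) ^ j ≠ 0 := by positivity
            field_simp
    have hsum : ∑ β ∈ B, (1 : ℝ) / β ≤ ∑ j ∈ Finset.range (J + 1), (1 / X0) * ((1 / 2) ^ j + 4) := by
      calc ∑ β ∈ B, (1 : ℝ) / β ≤ ∑ β ∈ (Finset.range (J + 1)).biUnion Bj, (1 : ℝ) / β :=
            Finset.sum_le_sum_of_subset_of_nonneg hcov (fun _ _ _ => by positivity)
        _ ≤ ∑ j ∈ Finset.range (J + 1), ∑ β ∈ Bj j, (1 : ℝ) / β :=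
            sum_biUnion_le' _ _ _ (fun _ => by positivity)
        _ ≤ _ := Finset.sum_le_sum fun j _ => hblock j
    have hgeo : ∑ j ∈ Finset.range (J + 1), ((1 : ℝ) / 2) ^ j ≤ 2 := by
      have := geom_sum_eq (x := (1 : ℝ) / 2) (by norm_num) (J + 1)
      rw [this]
      have h5 : (0 : ℝ) ≤ (1 / 2) ^ (J + 1) := by positivity
      rw [div_le_iff_of_neg (by norm_num)]
      linarith
    have hJl : (J : ℝ) ≤ 3 / 2 * Real.log N := by
      have h6 : 2 ^ J ≤ N := Nat.pow_log_le_self 2 (by omega)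
      have h7 : (J : ℝ) * Real.log 2 ≤ Real.log N := by
        rw [← Real.log_pow]
        apply Real.log_le_log (by positivity)
        exact_mod_cast h6
      have h8 := Real.log_two_gt_d9
      have h9 : (0 : ℝ) ≤ J := Nat.cast_nonneg _
      nlinarith
    refine hsum.trans ?_
    rw [← Finset.mul_sum, Finset.sum_add_distrib, Finset.sum_const, Finset.card_range, hinv,
      nsmul_eq_mul]
    have h10 : (0 : ℝ) ≤ 2 * k * D / t := by positivity
    calc 2 * k * D / t * (∑ j ∈ Finset.range (J + 1), ((1 : ℝ) / 2) ^ j + ((J + 1 : ℕ) : ℝ) * 4)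
        ≤ 2 * k * D / t * (6 * (1 + Real.log N)) := by
          refine mul_le_mul_of_nonneg_left ?_ h10
          push_cast
          linarith
      _ = _ := by ring

/-- **(8c)** `∑ 1/s ≤ (12kD/t)(1+log N)^2` over the `s ≤ N` divisible by a non exceptional `β` -/
theorem sparse_c {γ L t D : ℝ} {k N : ℕ} (hL : 0 < L) (hD : 0 < D) (ht : 0 < t)
    (hN : 1 ≤ N) (S : Finset ℕ)
    (hS : ∀ s ∈ S, 1 ≤ s ∧ s ≤ N ∧ ∃ β : ℕ, β ∣ s ∧ t ≤ 2 * k * D * β ∧ Cen γ L t D k β) :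
    ∑ s ∈ S, (1 : ℝ) / s ≤ 12 * k * D / t * (1 + Real.log N) ^ 2 := by
  classical
  set B := (Finset.Icc 1 N).filter fun β : ℕ => t ≤ 2 * k * D * β ∧ Cen γ L t D k β with hB
  have h1 := sum_inv_beta_le (γ := γ) (L := L) hL hD ht hN B (fun β hβ => by
    rw [hB, Finset.mem_filter, Finset.mem_Icc] at hβ
    exact ⟨hβ.1.2, hβ.2⟩)
  have hlN : 0 ≤ Real.log N := Real.log_nonneg (by exact_mod_cast hN)
  have h2 : S ⊆ B.biUnion fun β => (Finset.Icc 1 N).filter fun s => β ∣ s := by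
    intro s hs
    obtain ⟨h3, h4, β, h5, h6, h7⟩ := hS s hs
    rw [Finset.mem_biUnion]
    refine ⟨β, ?_, ?_⟩
    · rw [hB, Finset.mem_filter, Finset.mem_Icc]
      exact ⟨⟨h7.pos, (Nat.le_of_dvd h3 h5).trans h4⟩, h6, h7⟩
    · rw [Finset.mem_filter, Finset.mem_Icc]
      exact ⟨⟨h3, h4⟩, h5⟩
  calc ∑ s ∈ S, (1 : ℝ) / s
      ≤ ∑ s ∈ B.biUnion fun β => (Finset.Icc 1 N).filter fun s => β ∣ s, (1 : ℝ) / s :=
        Finset.sum_le_sum_of_subset_of_nonneg h2 (fun _ _ _ => by positivity)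
    _ ≤ ∑ β ∈ B, ∑ s ∈ (Finset.Icc 1 N).filter (fun s => β ∣ s), (1 : ℝ) / s :=
        sum_biUnion_le' _ _ _ (fun _ => by positivity)
    _ ≤ ∑ β ∈ B, (1 / (β : ℝ)) * (1 + Real.log N) := by
        refine Finset.sum_le_sum fun β hβ => sum_mult_le N β ?_
        rw [hB, Finset.mem_filter, Finset.mem_Icc] at hβ
        exact hβ.1.1
    _ = (∑ β ∈ B, (1 : ℝ) / β) * (1 + Real.log N) := by rw [Finset.sum_mul]
    _ ≤ (12 * k * D / t * (1 + Real.log N)) * (1 + Real.log N) := by gcongr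
    _ = _ := by ring

/-- **(8c) with the exceptional `β`**: if all `β`'s are `≥ A` -/
theorem sparse_c' {γ L t D A : ℝ} {k N : ℕ} (hL : 0 < L) (hD : 0 < D) (ht : 0 < t) (hA : 0 < A)
    (hN : 1 ≤ N) (S : Finset ℕ)
    (hS : ∀ s ∈ S, 1 ≤ s ∧ s ≤ N ∧ ∃ β : ℕ, β ∣ s ∧ A ≤ β ∧ Cen γ L t D k β) :
    ∑ s ∈ S, (1 : ℝ) / s ≤
      12 * k * D / t * (1 + Real.log N) ^ 2 + 1 / A * (1 + Real.log N) := by
  classical
  have hlN : 0 ≤ Real.log N := Real.log_nonneg (by exact_mod_cast hN)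
  set S1 := S.filter fun s => ∃ β : ℕ, β ∣ s ∧ t ≤ 2 * k * D * β ∧ Cen γ L t D k β with hS1
  have h1 := sparse_c (γ := γ) (L := L) (k := k) hL hD ht hN S1 (fun s hs => by
    rw [hS1, Finset.mem_filter] at hs
    exact ⟨(hS s hs.1).1, (hS s hs.1).2.1, hs.2⟩)
  have h2 : ∑ s ∈ S.filter (fun s : ℕ => ¬ ∃ β : ℕ, β ∣ s ∧ t ≤ 2 * k * D * β ∧ Cen γ L t D k β),
      (1 : ℝ) / s ≤ 1 / A * (1 + Real.log N) := by
    rcases (S.filter (fun s : ℕ => ¬ ∃ β : ℕ, β ∣ s ∧ t ≤ 2 * k * D * β ∧ Cen γ L t D k β)).eq_empty_or_nonempty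
      with h | ⟨s0, hs0⟩
    · rw [h, Finset.sum_empty]; positivity
    · rw [Finset.mem_filter] at hs0
      obtain ⟨-, -, β0, hd0, hA0, hc0⟩ := hS s0 hs0.1
      have hx0 : ¬ t ≤ 2 * k * D * β0 := fun h => hs0.2 ⟨β0, hd0, h, hc0⟩
      have hsub : S.filter (fun s : ℕ => ¬ ∃ β : ℕ, β ∣ s ∧ t ≤ 2 * k * D * β ∧ Cen γ L t D k β) ⊆
          (Finset.Icc 1 N).filter fun s => β0 ∣ s := by
        intro s hs
        rw [Finset.mem_filter] at hs
        obtain ⟨h3, h4, β, hd, hA', hc⟩ := hS s hs.1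
        have hx : ¬ t ≤ 2 * k * D * β := fun h => hs.2 ⟨β, hd, h, hc⟩
        have hββ : β = β0 := by
          by_contra hne
          have := sparse_a hL hD.le hc hc0 hne
          rcases le_total β β0 with h5 | h5
          · rw [max_eq_right h5] at this; exact hx0 this
          · rw [max_eq_left h5] at this; exact hx this
        rw [Finset.mem_filter, Finset.mem_Icc]
        exact ⟨⟨h3, h4⟩, hββ ▸ hd⟩
      refine (Finset.sum_le_sum_of_subset_of_nonneg hsub (fun _ _ _ => by positivity)).trans ?_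
      refine (sum_mult_le N β0 hc0.pos).trans ?_
      have := one_div_le_one_div_of_le hA hA0
      gcongr
  have h3 := Finset.sum_filter_add_sum_filter_not S
    (fun s : ℕ => ∃ β : ℕ, β ∣ s ∧ t ≤ 2 * k * D * β ∧ Cen γ L t D k β) (fun s : ℕ => (1 : ℝ) / s)
  linarith

/-! ### Mertens upper bounds -/

/-- constant of `prod_inv_le` -/
noncomputable def CM : ℝ := 2 * (Real.exp (22 / Real.log 2) / Real.log 2)

lemma CM_pos : 0 < CM := by
  have := Real.log_pos (one_lt_two : (1 : ℝ) < 2)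
  unfold CM; positivity

lemma two_le_CM : 2 ≤ CM := by
  have h0 := Real.log_pos (one_lt_two : (1 : ℝ) < 2)
  have h1 : Real.log 2 < 1 := by linarith [Real.log_two_lt_d9]
  have h2 : 1 ≤ Real.exp (22 / Real.log 2) := Real.one_le_exp (by positivity)
  have h3 : 1 ≤ Real.exp (22 / Real.log 2) / Real.log 2 := by
    rw [le_div_iff₀ h0]; linarith
  unfold CM; linarith

lemma primes_split {X : ℕ} (hX : 2 ≤ X) :
    (Finset.Icc 1 X).filter Nat.Prime = insert 2 (Lib.Mertens.pr 2 X) := by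
  ext p
  rw [Finset.mem_insert, Lib.Mertens.pr, Finset.mem_filter, Finset.mem_filter, Finset.mem_Icc,
    Finset.mem_Ioc, Nat.floor_natCast, Nat.floor_ofNat]
  constructor
  · rintro ⟨⟨h1, h2⟩, h3⟩
    rcases h3.two_le.eq_or_lt with h4 | h4
    · exact Or.inl h4.symm
    · exact Or.inr ⟨⟨h4, h2⟩, h3⟩
  · rintro (rfl | ⟨⟨h1, h2⟩, h3⟩)
    · exact ⟨⟨by omega, hX⟩, Nat.prime_two⟩
    · exact ⟨⟨by omega, h2⟩, h3⟩

/-- `∏_{p ≤ X} (1 - 1/p)⁻¹ ≤ C (1 + log X)` -/
theorem prod_inv_le (X : ℕ) (hX : 1 ≤ X) :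
    ∏ p ∈ (Finset.Icc 1 X).filter Nat.Prime, (1 - 1 / (p : ℝ))⁻¹ ≤ CM * (1 + Real.log X) := by
  rcases hX.eq_or_lt with rfl | hX
  · have : (Finset.Icc 1 1).filter Nat.Prime = ∅ := by decide
    rw [this]
    simp only [Finset.prod_empty, Nat.cast_one, Real.log_one, add_zero, mul_one]
    linarith [two_le_CM]
  have hX2 : (2 : ℝ) ≤ X := by exact_mod_cast hX
  have hl2 := Real.log_pos (one_lt_two : (1 : ℝ) < 2)
  have hlX : 0 < Real.log X := Real.log_pos (by linarith)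
  rw [primes_split hX, Finset.prod_insert (by
    rw [Lib.Mertens.pr, Finset.mem_filter, Finset.mem_Ioc, Nat.floor_ofNat]; omega)]
  have h1 := (Lib.Mertens.mertens_three 2 X le_rfl hX2).1
  rw [Finset.prod_inv_distrib]
  have h2 : 0 < Real.exp (-(22 / Real.log 2)) * (Real.log 2 / Real.log X) := by positivity
  have h3 := inv_anti₀ h2 h1
  have h4 : (Real.exp (-(22 / Real.log 2)) * (Real.log 2 / Real.log X))⁻¹ =
      Real.exp (22 / Real.log 2) / Real.log 2 * Real.log X := by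
    rw [Real.exp_neg]; field_simp
  rw [h4] at h3
  have h5 : ((1 : ℝ) - 1 / ((2 : ℕ) : ℝ))⁻¹ = 2 := by norm_num
  rw [h5]
  calc 2 * (∏ p ∈ Lib.Mertens.pr 2 X, (1 - 1 / (p : ℝ)))⁻¹
      ≤ 2 * (Real.exp (22 / Real.log 2) / Real.log 2 * Real.log X) := by gcongr
    _ = CM * Real.log X := by unfold CM; ring
    _ ≤ CM * (1 + Real.log X) := by
        have := CM_pos
        gcongr
        linarith

/-- the product over a subset of the primes `≤ X` -/
theorem prod_inv_le_of_subset (X : ℕ) (hX : 1 ≤ X) (P : Finset ℕ)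
    (hP : ∀ p ∈ P, p.Prime ∧ p ≤ X) :
    ∏ p ∈ P, (1 - 1 / (p : ℝ))⁻¹ ≤ CM * (1 + Real.log X) := by
  refine le_trans ?_ (prod_inv_le X hX)
  have hsub : P ⊆ (Finset.Icc 1 X).filter Nat.Prime := by
    intro p hp
    exact Finset.mem_filter.2 ⟨Finset.mem_Icc.2 ⟨(hP p hp).1.one_lt.le, (hP p hp).2⟩, (hP p hp).1⟩
  have hone : ∀ p : ℕ, p.Prime → (1 : ℝ) ≤ (1 - 1 / (p : ℝ))⁻¹ := by
    intro p hpp
    have h1 : (1 : ℝ) / p < 1 := by
      rw [div_lt_one (by exact_mod_cast hpp.pos)]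
      exact_mod_cast hpp.one_lt
    refine (one_le_inv₀ (by linarith)).2 ?_
    have : (0 : ℝ) ≤ 1 / p := by positivity
    linarith
  rw [← Finset.prod_sdiff hsub]
  have h1 : 1 ≤ ∏ p ∈ (Finset.Icc 1 X).filter Nat.Prime \ P, (1 - 1 / (p : ℝ))⁻¹ := by
    refine Finset.prod_induction _ (fun x : ℝ => 1 ≤ x) (fun a b ha hb => ?_) le_rfl ?_
    · nlinarith
    · intro p hp
      exact hone p (Finset.mem_filter.1 (Finset.mem_sdiff.1 hp).1).2
  have h2 : 0 ≤ ∏ p ∈ P, (1 - 1 / (p : ℝ))⁻¹ :=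
    Finset.prod_nonneg fun p hp => (zero_le_one.trans (hone p (hP p hp).1))
  nlinarith

/-- lower form: `1 ≤ C (1 + log X) ∏_{p ∈ P} (1 - 1/p)` -/
theorem one_le_prod (X : ℕ) (hX : 1 ≤ X) (P : Finset ℕ) (hP : ∀ p ∈ P, p.Prime ∧ p ≤ X) :
    1 ≤ CM * (1 + Real.log X) * ∏ p ∈ P, (1 - 1 / (p : ℝ)) := by
  have h := prod_inv_le_of_subset X hX P hP
  rw [Finset.prod_inv_distrib] at h
  have hpos : 0 < ∏ p ∈ P, (1 - 1 / (p : ℝ)) := by
    refine Finset.prod_pos fun p hp => ?_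
    have h1 : (1 : ℝ) / p < 1 := by
      rw [div_lt_one (by exact_mod_cast (hP p hp).1.pos)]
      exact_mod_cast (hP p hp).1.one_lt
    linarith
  rw [inv_le_iff_one_le_mul₀ hpos] at h
  exact h

/-- `∑_{p ≤ X} 1/p ≤ log log X + C` for `X ≥ 2` -/
theorem sum_inv_le (X : ℕ) (hX : 2 ≤ X) (P : Finset ℕ) (hP : ∀ p ∈ P, p.Prime ∧ p ≤ X) :
    ∑ p ∈ P, (1 : ℝ) / p ≤ Real.log (Real.log X) + 28 := by
  have hX2 : (2 : ℝ) ≤ X := by exact_mod_cast hX
  have hl2 := Real.log_two_gt_d9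
  have h0 : ∑ p ∈ P, (1 : ℝ) / p ≤ ∑ p ∈ (Finset.Icc 1 X).filter Nat.Prime, (1 : ℝ) / p := by
    refine Finset.sum_le_sum_of_subset_of_nonneg ?_ (fun _ _ _ => by positivity)
    intro p hp
    exact Finset.mem_filter.2 ⟨Finset.mem_Icc.2 ⟨(hP p hp).1.one_lt.le, (hP p hp).2⟩, (hP p hp).1⟩
  refine h0.trans ?_
  rw [primes_split hX, Finset.sum_insert (by
    rw [Lib.Mertens.pr, Finset.mem_filter, Finset.mem_Ioc, Nat.floor_ofNat]; omega)]
  have h1 := (abs_le.1 (Lib.Mertens.mertens_two 2 X le_rfl hX2)).2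
  have h2 : 18 / Real.log 2 ≤ 26 := by
    rw [div_le_iff₀ (by linarith)]; linarith
  have h3 : -(1 / 2 : ℝ) ≤ Real.log (Real.log 2) := by
    have h4 : Real.log (1 / (Real.log 2)) ≤ 1 / Real.log 2 - 1 :=
      Real.log_le_sub_one_of_pos (by positivity)
    rw [one_div, Real.log_inv] at h4
    have h5 : (Real.log 2)⁻¹ ≤ 3 / 2 := by
      rw [inv_le_comm₀ (by linarith) (by norm_num)]; linarith
    linarith
  push_cast
  linarith

end Crest.Agent.R4C.S4cx682
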