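import Crest.Agent.R4C.FLDef_935
import Crest.Agent.R4C.BoostC_972

/-!
# Row 4, block S7: centres read through an F-Λ structure (helper14, note 3110)

`F : FL M` (FLDef_935), a centre of `b` at the cut `x` with denominator `k` is any fraction `f`
whose denominator divides `k · lam x b` (`IsC F x b k f`).

* `kden_mul_dvd`, `uu_dvd_gnum` : `kden b f · κ ∣ k`, `uu x b ∣ gnum b f · κ`, `κ = gcd(uu x b, k)`;
* `uC_dvd_good`, **`mulC_dvd`** : for a pair `b, c` good at the two cuts, the multiplier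
  `kden · kden' · (g / eC)` of `D0` divides `k k'` (unexplained common primes cost nothing);
* **`D0_abs_good`** : `|D0| g ≤ k k' (D_f(b) + D_{f'}(c) + g |(s-s')γ+h|)`;
* `same_point_good` : same point as soon as the right-hand side is `< g`;
* `prod_pf_dvd_le`, `prod_setN_ge_le`, **`prod_setN_good`** : the product over the charged primes
  `≥ P` whose two centres are different points.
-/

set_option autoImplicit false

namespace Crest.Agent.R4C.S7cx14

open Crest.Agent.R4C.FLDefx935 Crest.Agent.R4C.BoostCx972 Crest.Agent.R4C.CrCoinx935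

variable {M : ℕ} {F : FL M}

/-- `f` is a centre of `b` at the cut `x` with denominator `k` -/
def IsC (F : FL M) (x b k : ℕ) (f : ℚ) : Prop := 0 < k ∧ f.den ∣ k * F.lam x b

/-- the part of `k` common with `uu x b` -/
def kap (F : FL M) (x b k : ℕ) : ℕ := Nat.gcd (F.uu x b) k

lemma kap_pos {x b k : ℕ} : 0 < kap F x b k := Nat.gcd_pos_of_pos_left _ (FL.uu_pos x b)

lemma kden_mul_dvd {x b k : ℕ} {f : ℚ} (hM : 0 < M) (hb : b ∣ M) (hf : IsC F x b k f) :
    kden b f * kap F x b k ∣ k := by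
  obtain ⟨_, m, hm⟩ := hf
  have hl : 0 < F.lam x b := FL.lam_pos x b
  have hu : F.uu x b * F.lam x b = b := FL.uu_mul_lam hM hb
  have hk := kden_mul b f
  have h1 : Nat.gcd b f.den * m = F.lam x b * Nat.gcd (F.uu x b * m) k := by
    rw [← Nat.gcd_mul_right, ← hm]
    nth_rewrite 1 [← hu]
    rw [← Nat.gcd_mul_left]
    congr 1 <;> ring
  have h2 : kap F x b k ∣ Nat.gcd (F.uu x b * m) k :=
    Nat.dvd_gcd ((Nat.gcd_dvd_left _ _).mul_right _) (Nat.gcd_dvd_right _ _)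
  obtain ⟨r, hr⟩ := h2
  refine ⟨r, Nat.eq_of_mul_eq_mul_right hl ?_⟩
  calc k * F.lam x b = f.den * m := hm
    _ = kden b f * (Nat.gcd b f.den * m) := by
        nth_rewrite 1 [← hk]; ring
    _ = kden b f * (F.lam x b * (kap F x b k * r)) := by rw [h1, hr]
    _ = _ := by ring

lemma kden_le {x b k : ℕ} {f : ℚ} (hM : 0 < M) (hb : b ∣ M) (hf : IsC F x b k f) :
    kden b f ≤ k :=
  Nat.le_of_dvd hf.1 ((dvd_mul_right _ _).trans (kden_mul_dvd hM hb hf))

lemma beta_dvd {x b k : ℕ} {f : ℚ} (hM : 0 < M) (hb : b ∣ M) (hf : IsC F x b k f) :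
    Nat.gcd b f.den ∣ kap F x b k * F.lam x b := by
  have hu : F.uu x b * F.lam x b = b := FL.uu_mul_lam hM hb
  unfold kap
  rw [← Nat.gcd_mul_right, hu]
  exact Nat.gcd_dvd_gcd_of_dvd_right _ hf.2

lemma uu_dvd_gnum {x b k : ℕ} {f : ℚ} (hM : 0 < M) (hb : b ∣ M) (hf : IsC F x b k f) :
    F.uu x b ∣ gnum b f * kap F x b k := by
  have hl : 0 < F.lam x b := FL.lam_pos x b
  have hu : F.uu x b * F.lam x b = b := FL.uu_mul_lam hM hb
  obtain ⟨r, hr⟩ := beta_dvd hM hb hf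
  refine ⟨r, Nat.eq_of_mul_eq_mul_right hl ?_⟩
  calc gnum b f * kap F x b k * F.lam x b = gnum b f * (kap F x b k * F.lam x b) := by ring
    _ = gnum b f * (Nat.gcd b f.den * r) := by rw [hr]
    _ = (Nat.gcd b f.den * gnum b f) * r := by ring
    _ = b * r := by rw [gnum_mul]
    _ = _ := by nth_rewrite 1 [← hu]; ring

section pair

variable {g s s' x x' k k' : ℕ} {f f' : ℚ}

/-- unexplained common part -/
lemma uC_dvd_good (hM : 0 < M) (hb : g * s ∣ M) (hc : g * s' ∣ M) (hs : 0 < s)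
    (hcop : Nat.Coprime s s') (hf : IsC F x (g * s) k f) (hf' : IsC F x' (g * s') k' f')
    (hx : F.good x (g * s) (g * s')) (hx' : F.good x' (g * s) (g * s')) :
    uC g s s' f f' ∣ kap F x (g * s) k * kap F x' (g * s') k' := by
  have hg0 : g * s ≠ 0 := (Nat.pos_of_dvd_of_pos hb hM).ne'
  have hgpos : 0 < g := Nat.pos_of_ne_zero fun h => hg0 (by rw [h, zero_mul])
  have e1 : Nat.gcd (g * s) (g * s') = g := by
    rw [Nat.gcd_mul_left, hcop.gcd_eq_one, mul_one]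
  have e2 : Nat.gcd (g * s') (g * s) = g := by rw [Nat.gcd_comm, e1]
  have h1 : g ∣ F.uu x (g * s) := by
    have := FL.good_gcd_dvd_uu hM hb hc hx
    rwa [e1] at this
  have h2 : g ∣ F.uu x' (g * s') := by
    have := FL.good_gcd_dvd_uu hM hc hb (FL.good_symm hb hc hx')
    rwa [e2] at this
  set κ := kap F x (g * s) k with hκ
  set κ' := kap F x' (g * s') k' with hκ'
  have h3 : g ∣ gnum (g * s) f * (κ * κ') := by
    rw [← mul_assoc]
    exact (h1.trans (uu_dvd_gnum hM hb hf)).mul_right _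
  have h4 : g ∣ gnum (g * s') f' * (κ * κ') := by
    rw [mul_comm κ κ', ← mul_assoc]
    exact (h2.trans (uu_dvd_gnum hM hc hf')).mul_right _
  have h5 := Nat.dvd_gcd h3 h4
  rw [Nat.gcd_mul_right] at h5
  have h6 := eC_mul_uC (g := g) hcop f f'
  nth_rewrite 1 [← h6] at h5
  exact Nat.dvd_of_mul_dvd_mul_left (eC_pos (Nat.mul_pos hgpos hs) _ _ _) h5

/-- **(A)** the multiplier divides `k k'` -/
theorem mulC_dvd (hM : 0 < M) (hb : g * s ∣ M) (hc : g * s' ∣ M) (hs : 0 < s)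
    (hcop : Nat.Coprime s s') (hf : IsC F x (g * s) k f) (hf' : IsC F x' (g * s') k' f')
    (hx : F.good x (g * s) (g * s')) (hx' : F.good x' (g * s) (g * s')) :
    mulC g s s' f f' ∣ k * k' := by
  unfold mulC
  calc kden (g * s) f * kden (g * s') f' * uC g s s' f f' ∣
        kden (g * s) f * kden (g * s') f' * (kap F x (g * s) k * kap F x' (g * s') k') :=
        mul_dvd_mul_left _ (uC_dvd_good hM hb hc hs hcop hf hf' hx hx')
    _ = (kden (g * s) f * kap F x (g * s) k) * (kden (g * s') f' * kap F x' (g * s') k') := by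
        ring
    _ ∣ k * k' := mul_dvd_mul (kden_mul_dvd hM hb hf) (kden_mul_dvd hM hc hf')

/-- **(A)** size of the integer `D0` for a good pair -/
theorem D0_abs_good {γ : ℝ} (hM : 0 < M) (hb : g * s ∣ M) (hc : g * s' ∣ M) (hs : 0 < s)
    (hcop : Nat.Coprime s s') (h : ℤ)
    (hf : IsC F x (g * s) k f) (hf' : IsC F x' (g * s') k' f')
    (hx : F.good x (g * s) (g * s')) (hx' : F.good x' (g * s) (g * s')) :
    |(D0 g s s' h f f' : ℝ)| * g ≤ k * k' * (((g * s : ℕ) : ℝ) * |γ - f| +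
      ((g * s' : ℕ) : ℝ) * |γ - f'| + g * |((s : ℝ) - s') * γ + h|) := by
  have hg0 : g * s ≠ 0 := (Nat.pos_of_dvd_of_pos hb hM).ne'
  have hg : 0 < g := Nat.pos_of_ne_zero fun h => hg0 (by rw [h, zero_mul])
  have h1 := D0_cast hg hs hcop h f f'
  have h1' : (D0 g s s' h f f' : ℝ) = (gap f f' s s' h : ℚ) * (mulC g s s' f f' : ℝ) := by
    exact_mod_cast congrArg (fun y : ℚ => (y : ℝ)) h1
  have h2 : mulC g s s' f f' ≤ k * k' :=
    Nat.le_of_dvd (Nat.mul_pos hf.1 hf'.1) (mulC_dvd hM hb hc hs hcop hf hf' hx hx')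
  have h2' : (mulC g s s' f f' : ℝ) ≤ k * k' := by exact_mod_cast h2
  have h3 := gap_abs_le (γ := γ) g s s' h f f'
  rw [h1', abs_mul, Nat.abs_cast]
  rw [abs_mul, Nat.abs_cast] at h3
  calc |((gap f f' s s' h : ℚ) : ℝ)| * (mulC g s s' f f' : ℝ) * g
      = (mulC g s s' f f' : ℝ) * ((g : ℝ) * |((gap f f' s s' h : ℚ) : ℝ)|) := by ring
    _ ≤ (k * k' : ℝ) * (((g * s : ℕ) : ℝ) * |γ - f| +
      ((g * s' : ℕ) : ℝ) * |γ - f'| + g * |((s : ℝ) - s') * γ + h|) :=
        mul_le_mul h2' h3 (by positivity) (by positivity)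

/-- same point -/
theorem same_point_good {γ : ℝ} (hM : 0 < M) (hb : g * s ∣ M) (hc : g * s' ∣ M) (hs : 0 < s)
    (hcop : Nat.Coprime s s') {h : ℤ}
    (hf : IsC F x (g * s) k f) (hf' : IsC F x' (g * s') k' f')
    (hx : F.good x (g * s) (g * s')) (hx' : F.good x' (g * s) (g * s'))
    (hlt : (k : ℝ) * k' * (((g * s : ℕ) : ℝ) * |γ - f| +
      ((g * s' : ℕ) : ℝ) * |γ - f'| + g * |((s : ℝ) - s') * γ + h|) < g) :
    gap f f' s s' h = 0 := by
  have hg0 : g * s ≠ 0 := (Nat.pos_of_dvd_of_pos hb hM).ne'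
  have hg : 0 < g := Nat.pos_of_ne_zero fun h => hg0 (by rw [h, zero_mul])
  rw [← D0_eq_zero hg hs hcop]
  by_contra hne
  have h1 := (D0_abs_good (γ := γ) hM hb hc hs hcop h hf hf' hx hx').trans_lt hlt
  have h2 : (1 : ℝ) ≤ |(D0 g s s' h f f' : ℝ)| := by exact_mod_cast Int.one_le_abs hne
  have h3 : (0 : ℝ) ≤ g := Nat.cast_nonneg _
  nlinarith

end pair

/-! ### the product over the primes `≥ P` dividing an integer -/

lemma pf_le_exp {p : ℕ} (hp : p.Prime) : pf p ≤ Real.exp (2 / p) := by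
  have h2 : (2 : ℝ) ≤ p := by exact_mod_cast hp.two_le
  have h0 : (0 : ℝ) < p := by linarith
  have h1 : (0 : ℝ) < 1 - 1 / (p : ℝ) := one_sub_inv_pos hp
  unfold pf
  rw [inv_le_comm₀ h1 (Real.exp_pos _), ← Real.exp_neg]
  -- `exp(-2/p) ≤ 1 - 1/p`
  have h3 : Real.exp (-(2 / (p : ℝ))) ≤ 1 / (1 + 2 / p) := by
    rw [Real.exp_neg, one_div]
    refine inv_anti₀ (by positivity) ?_
    have := Real.add_one_le_exp (2 / (p : ℝ))
    linarith
  refine h3.trans ?_
  rw [div_le_iff₀ (by positivity)]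
  have h4 : (1 - 1 / (p : ℝ)) * (1 + 2 / p) = 1 + (1 / p) * (1 - 2 / p) := by ring
  rw [h4]
  have h5 : (0 : ℝ) ≤ 1 - 2 / p := by
    rw [sub_nonneg, div_le_one h0]; exact h2
  have h6 : (0 : ℝ) ≤ 1 / p * (1 - 2 / p) := by positivity
  linarith

/-- **primes `≥ P` dividing a nonzero integer** -/
theorem prod_pf_dvd_le {j : ℤ} (hj : j ≠ 0) {P : ℝ} (hP : 1 < P) {A : Finset ℕ}
    (hA : ∀ p ∈ A, p.Prime ∧ P ≤ p ∧ (p : ℤ) ∣ j) :
    ∏ p ∈ A, pf p ≤ Real.exp (2 * Real.log |(j : ℝ)| / (P * Real.log P)) := by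
  have hlP : 0 < Real.log P := Real.log_pos hP
  have h0 : 0 < P := by linarith
  have hj1 : (1 : ℝ) ≤ |(j : ℝ)| := by exact_mod_cast Int.one_le_abs hj
  -- `∏ p ≤ |j|`
  have h1 : ∏ p ∈ A, p ∣ j.natAbs := by
    refine Finset.prod_primes_dvd _ (fun p hp => (hA p hp).1.prime) fun p hp => ?_
    exact Int.natCast_dvd.1 (hA p hp).2.2
  have h2 : (∏ p ∈ A, (p : ℝ)) ≤ |(j : ℝ)| := by
    have h3 := Nat.le_of_dvd (Int.natAbs_pos.2 hj) h1
    have h4 : ((∏ p ∈ A, p : ℕ) : ℝ) ≤ (j.natAbs : ℕ) := by exact_mod_cast h3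
    rw [Nat.cast_natAbs] at h4
    push_cast at h4
    exact h4
  have h3 : P ^ A.card ≤ |(j : ℝ)| := by
    refine le_trans ?_ h2
    rw [← Finset.prod_const]
    exact Finset.prod_le_prod (fun _ _ => h0.le) fun p hp => (hA p hp).2.1
  have h4 : (A.card : ℝ) * Real.log P ≤ Real.log |(j : ℝ)| := by
    have := Real.log_le_log (pow_pos h0 _) h3
    rwa [Real.log_pow] at this
  calc ∏ p ∈ A, pf p ≤ ∏ _p ∈ A, Real.exp (2 / P) := by
        refine Finset.prod_le_prod (fun p hp => (pf_pos (hA p hp).1).le) fun p hp => ?_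
        refine (pf_le_exp (hA p hp).1).trans (Real.exp_le_exp.2 ?_)
        exact div_le_div_of_nonneg_left (by norm_num) h0 (hA p hp).2.1
    _ = Real.exp (A.card * (2 / P)) := by
        rw [Finset.prod_const, ← Real.exp_nat_mul]
    _ ≤ _ := by
        refine Real.exp_le_exp.2 ?_
        rw [le_div_iff₀ (by positivity)]
        calc (A.card : ℝ) * (2 / P) * (P * Real.log P) = 2 * (A.card * Real.log P) := by
              field_simp
          _ ≤ 2 * Real.log |(j : ℝ)| := by linarith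

open Classical in
/-- the charged primes `≥ y` whose two centres are different points, grouped by the pair of
centres; `P v` is a lower bound of the primes at which the pair `v` of centres is used -/
theorem prod_setN_ge_le {Fc : ℕ → ℕ → Option ℚ} {g q q' s s' : ℕ} (hg : 0 < g) (hs : 0 < s)
    (hcop : Nat.Coprime s s') (h : ℤ) (y C0 : ℝ) (T : Finset (ℚ × ℚ)) (P : ℚ × ℚ → ℝ)
    (hP : ∀ v ∈ T, 1 < P v)
    (hT : ∀ p ∈ (q * q').primeFactors, y ≤ p → ¬ p ∣ s → ¬ p ∣ s' → ∀ f f', Fc q p = some f →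
      Fc q' p = some f' → gap f f' s s' h ≠ 0 → (f, f') ∈ T ∧ P (f, f') ≤ p)
    (hD : ∀ v ∈ T, gap v.1 v.2 s s' h ≠ 0 →
      Real.log |(D0 g s s' h v.1 v.2 : ℝ)| ≤ C0 * P v) :
    ∏ p ∈ (setN Fc g q q' s s' h).filter (fun p : ℕ => y ≤ (p : ℝ)), pf p ≤
      Real.exp (2 * C0 * ∑ v ∈ T.filter (fun v => gap v.1 v.2 s s' h ≠ 0),
        1 / Real.log (P v)) := by
  classical
  set T' := T.filter (fun v => gap v.1 v.2 s s' h ≠ 0) with hT'
  set S := (setN Fc g q q' s s' h).filter (fun p : ℕ => y ≤ (p : ℝ)) with hS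
  -- primes grouped by pair
  set W : ℚ × ℚ → Finset ℕ := fun v => S.filter fun p : ℕ => P v ≤ (p : ℝ) ∧
    (p : ℤ) ∣ D0 g s s' h v.1 v.2 with hW
  have hprime : ∀ p ∈ S, p.Prime := fun p hp => prime_setN (Finset.mem_filter.1 hp).1
  have hcov : S ⊆ T'.biUnion W := by
    intro p hp
    have hp' := hp
    rw [hS, Finset.mem_filter] at hp
    obtain ⟨hp1, hp2⟩ := hp
    unfold setN at hp1
    rw [Finset.mem_filter] at hp1
    obtain ⟨h0, h2, h3, f, f', hf1, hf1', _, _, hgap, hDD⟩ := hp1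
    obtain ⟨h4, h5⟩ := hT p h0 hp2 h2 h3 f f' hf1 hf1' hgap
    rw [Finset.mem_biUnion]
    exact ⟨(f, f'), Finset.mem_filter.2 ⟨h4, hgap⟩, Finset.mem_filter.2 ⟨hp', h5, hDD⟩⟩
  have hWp : ∀ v ∈ T', ∀ p ∈ W v, p.Prime := fun v _ p hp =>
    hprime p (Finset.mem_filter.1 hp).1
  calc ∏ p ∈ S, pf p ≤ ∏ p ∈ T'.biUnion W, pf p := by
        refine prod_pf_mono hcov fun p hp => ?_
        obtain ⟨v, hv, hpv⟩ := Finset.mem_biUnion.1 hp
        exact hWp v hv p hpv
    _ ≤ ∏ v ∈ T', ∏ p ∈ W v, pf p := prod_pf_biUnion T' W hWp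
    _ ≤ ∏ v ∈ T', Real.exp (2 * C0 * (1 / Real.log (P v))) := by
        refine Finset.prod_le_prod (fun v hv => (prod_pf_pos (hWp v hv)).le) fun v hv => ?_
        rw [hT', Finset.mem_filter] at hv
        have hPv := hP v hv.1
        have hl : 0 < Real.log (P v) := Real.log_pos hPv
        have hD0 : D0 g s s' h v.1 v.2 ≠ 0 := fun hc => hv.2 ((D0_eq_zero hg hs hcop).1 hc)
        refine (prod_pf_dvd_le hD0 hPv (A := W v) fun p hp => ?_).trans (Real.exp_le_exp.2 ?_)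
        · obtain ⟨h1, h2, h3⟩ := Finset.mem_filter.1 hp
          exact ⟨hprime p h1, h2, h3⟩
        · rw [div_le_iff₀ (by have : 0 < P v := by linarith
                              positivity)]
          have h1 := hD v hv.1 hv.2
          calc 2 * Real.log |(D0 g s s' h v.1 v.2 : ℝ)| ≤ 2 * (C0 * P v) := by linarith
            _ = 2 * C0 * (1 / Real.log (P v)) * (P v * Real.log (P v)) := by
                field_simp
    _ = _ := by rw [← Real.exp_sum, Finset.mul_sum]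

/-! ### good pairs -/

open Classical in
/-- **(B)** B3 for a good pair: the centres used at the common primes `≥ y` are centres of the
F-Λ structure at cuts where the pair is good.
`w v = k k' (1 + (D+D')/L)/t` bounds `|D0|`, `log w ≤ C0 P`. -/
theorem prod_setN_good {Fc : ℕ → ℕ → Option ℚ} {g q q' s s' : ℕ} {γ : ℝ} (hM : 0 < M)
    (hb : g * s ∣ M) (hc : g * s' ∣ M) (hs : 0 < s) (hcop : Nat.Coprime s s') (h : ℤ)
    (y C0 : ℝ) (T : Finset (ℚ × ℚ)) (P : ℚ × ℚ → ℝ) (hP : ∀ v ∈ T, 1 < P v)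
    (hT : ∀ p ∈ (q * q').primeFactors, y ≤ p → ¬ p ∣ s → ¬ p ∣ s' → ∀ f f', Fc q p = some f →
      Fc q' p = some f' → gap f f' s s' h ≠ 0 → (f, f') ∈ T ∧ P (f, f') ≤ p)
    (hC : ∀ v ∈ T, ∃ x x' k k' : ℕ, IsC F x (g * s) k v.1 ∧ IsC F x' (g * s') k' v.2 ∧
      F.good x (g * s) (g * s') ∧ F.good x' (g * s) (g * s') ∧
      (k : ℝ) * k' * (((g * s : ℕ) : ℝ) * |γ - v.1| + ((g * s' : ℕ) : ℝ) * |γ - v.2| +
        g * |((s : ℝ) - s') * γ + h|) ≤ g * Real.exp (C0 * P v)) :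
    ∏ p ∈ (setN Fc g q q' s s' h).filter (fun p : ℕ => y ≤ (p : ℝ)), pf p ≤
      Real.exp (2 * C0 * ∑ v ∈ T.filter (fun v => gap v.1 v.2 s s' h ≠ 0),
        1 / Real.log (P v)) := by
  have hg0 : g * s ≠ 0 := (Nat.pos_of_dvd_of_pos hb hM).ne'
  have hg : 0 < g := Nat.pos_of_ne_zero fun h => hg0 (by rw [h, zero_mul])
  have hgR : (0 : ℝ) < g := by exact_mod_cast hg
  refine prod_setN_ge_le hg hs hcop h y C0 T P hP hT fun v hv hgap => ?_
  obtain ⟨x, x', k, k', hf, hf', hx, hx', hle⟩ := hC v hv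
  have h1 := (D0_abs_good (γ := γ) hM hb hc hs hcop h hf hf' hx hx').trans hle
  have hD0 : D0 g s s' h v.1 v.2 ≠ 0 := fun hc => hgap ((D0_eq_zero hg hs hcop).1 hc)
  have h2 : (1 : ℝ) ≤ |(D0 g s s' h v.1 v.2 : ℝ)| := by exact_mod_cast Int.one_le_abs hD0
  have h3 : |(D0 g s s' h v.1 v.2 : ℝ)| ≤ Real.exp (C0 * P v) := by
    rw [mul_comm (g : ℝ)] at h1
    exact le_of_mul_le_mul_right h1 hgR
  calc Real.log |(D0 g s s' h v.1 v.2 : ℝ)| ≤ Real.log (Real.exp (C0 * P v)) :=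
        Real.log_le_log (by linarith) h3
    _ = C0 * P v := Real.log_exp _

end Crest.Agent.R4C.S7cx14
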