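import Crest.Agent.R4C.S7c_14

/-!
# Row 4, block S7: same point, no conflict (helper14, note 3110 (C))

`b = g s`, `c = g s'`, `s, s'` coprime, centres `f` of `b`, `f'` of `c`, `gap f f' s s' h = 0`
(same point).  `al = gnum b f / e`, `al' = gnum c f' / e`, `e = eC = gcd(gnum b f, gnum c f')`.

* `al_dvd_s`, `al_coprime_den` : `al ∣ s`, `al` coprime to `den f'`;
* `killedL_of_al`, `killedL_of_al'` : if `q'` uses `f'` at a prime of `al`, the pair is killed
  (any exponents, no hypothesis on `f`);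
* `al_eq_one_or` : unkilled, no conflict below `X` : `al = 1` or `X < al`;
* `zone_arith`, `zone_min` : `min(t_f, t_{f'}) ≤ t₀` or `t₀ min^(a-1) < 1`;
* `prod_setN_idx` : the non-coincident product with an arbitrary index set (blocks).
-/

set_option autoImplicit false

namespace Crest.Agent.R4C.S7dx14

open Crest.Agent.R4C.FLDefx935 Crest.Agent.R4C.BoostCx972 Crest.Agent.R4C.CrCoinx935
  Crest.Agent.R4C.S7cx14

/-- quotient of `g_f(b)` by the common part -/
def alC (b c : ℕ) (f f' : ℚ) : ℕ := gnum b f / eC b c f f'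

lemma eC_comm (b c : ℕ) (f f' : ℚ) : eC b c f f' = eC c b f' f := Nat.gcd_comm _ _

lemma alC_mul (b c : ℕ) (f f' : ℚ) : alC b c f f' * eC b c f f' = gnum b f :=
  Nat.div_mul_cancel (Nat.gcd_dvd_left _ _)

lemma alC_pos {b c : ℕ} (hb : 0 < b) (f f' : ℚ) : 0 < alC b c f f' := by
  refine Nat.pos_of_ne_zero fun h => ?_
  have h1 := alC_mul b c f f'
  rw [h, zero_mul] at h1
  exact (gnum_pos hb f).ne h1

lemma alC_coprime {b c : ℕ} (hb : 0 < b) (f f' : ℚ) :
    Nat.Coprime (alC b c f f') (alC c b f' f) := by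
  have h1 : alC c b f' f = gnum c f' / eC b c f f' := by
    unfold alC
    rw [eC_comm]
  rw [h1]
  exact Nat.coprime_div_gcd_div_gcd (eC_pos hb c f f')

/-- `gcd (gnum b f) (kden b f) = 1` -/
lemma gnum_kden_coprime {b : ℕ} (f : ℚ) : Nat.Coprime (gnum b f) (kden b f) := by
  have := Nat.coprime_div_gcd_div_gcd (beta_pos b f)
  exact this

section same

variable {g s s' : ℕ} {h : ℤ} {f f' : ℚ}

/-- shifted numerators: with `h = s n - s' n'` the points are `b (f + n) = c (f' + n')` -/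
lemma al_mul_eq (hg : 0 < g) (hs : 0 < s) (hs' : 0 < s') (_hcop : Nat.Coprime s s')
    (h0 : gap f f' s s' h = 0) {n n' : ℤ} (hn : h = s * n - s' * n') :
    (alC (g * s) (g * s') f f' : ℤ) * (f.num + n * f.den) =
      (alC (g * s') (g * s) f' f : ℤ) * (f'.num + n' * f'.den) := by
  set b := g * s with hb
  set c := g * s' with hc
  have hb0 : 0 < b := Nat.mul_pos hg hs
  have hc0 : 0 < c := Nat.mul_pos hg hs'
  -- the rational equality
  have e1 : (b : ℚ) * (f + n) = c * (f' + n') := by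
    have : (g : ℚ) * gap f f' s s' h = 0 := by rw [h0, mul_zero]
    unfold gap at this
    rw [hn] at this
    push_cast at this
    rw [hb, hc]
    push_cast
    linear_combination this
  have hf : (f.num : ℚ) = f * f.den := (Rat.mul_den_eq_num f).symm
  have hf' : (f'.num : ℚ) = f' * f'.den := (Rat.mul_den_eq_num f').symm
  have hd : (f.den : ℚ) = Nat.gcd b f.den * kden b f := by exact_mod_cast (kden_mul b f).symm
  have hd' : (f'.den : ℚ) = Nat.gcd c f'.den * kden c f' := by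
    exact_mod_cast (kden_mul c f').symm
  have hbq : (b : ℚ) = Nat.gcd b f.den * gnum b f := by exact_mod_cast (gnum_mul b f).symm
  have hcq : (c : ℚ) = Nat.gcd c f'.den * gnum c f' := by exact_mod_cast (gnum_mul c f').symm
  have hβ : (Nat.gcd b f.den : ℚ) ≠ 0 := by exact_mod_cast (beta_pos b f).ne'
  have hβ' : (Nat.gcd c f'.den : ℚ) ≠ 0 := by exact_mod_cast (beta_pos c f').ne'
  have hk : (kden b f : ℚ) ≠ 0 := by exact_mod_cast (kden_pos b f).ne'
  have hk' : (kden c f' : ℚ) ≠ 0 := by exact_mod_cast (kden_pos c f').ne'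
  -- `gnum · P̃ · kden' = gnum' · P̃' · kden`
  have e2 : (gnum b f : ℚ) * (f.num + n * f.den) * kden c f' =
      gnum c f' * (f'.num + n' * f'.den) * kden b f := by
    have h1 : (gnum b f : ℚ) * (f.num + n * f.den) = kden b f * (b * (f + n)) := by
      have h2 : (Nat.gcd b f.den : ℚ) * ((gnum b f : ℚ) * (f.num + n * f.den)) =
          Nat.gcd b f.den * (kden b f * (b * (f + n))) := by
        rw [hf]
        linear_combination (-(f + n) * f.den) * hbq + (b * (f + n)) * hd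
      exact mul_left_cancel₀ hβ h2
    have h1' : (gnum c f' : ℚ) * (f'.num + n' * f'.den) = kden c f' * (c * (f' + n')) := by
      have h2 : (Nat.gcd c f'.den : ℚ) * ((gnum c f' : ℚ) * (f'.num + n' * f'.den)) =
          Nat.gcd c f'.den * (kden c f' * (c * (f' + n'))) := by
        rw [hf']
        linear_combination (-(f' + n') * f'.den) * hcq + (c * (f' + n')) * hd'
      exact mul_left_cancel₀ hβ' h2
    rw [h1, h1', e1]
    ring
  -- integers
  have e3 : (gnum b f : ℤ) * (f.num + n * f.den) * kden c f' =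
      gnum c f' * (f'.num + n' * f'.den) * kden b f := by exact_mod_cast e2
  -- coprimality of `gnum P̃` and `kden`
  have hcopP : ∀ (d : ℕ) (u : ℚ) (m : ℤ), IsCoprime ((gnum d u : ℤ) * (u.num + m * u.den))
      (kden d u : ℤ) := by
    intro d u m
    refine IsCoprime.mul_left ?_ ?_
    · rw [Nat.isCoprime_iff_coprime]
      exact gnum_kden_coprime u
    · have h1 : IsCoprime (u.num + m * u.den) (u.den : ℤ) := by
        have h2 : IsCoprime u.num (u.den : ℤ) := by
          rw [Int.isCoprime_iff_gcd_eq_one]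
          exact u.reduced
        exact (IsCoprime.add_mul_left_left h2 m |> fun h => by
          rwa [mul_comm (u.den : ℤ) m] at h)
      exact h1.of_isCoprime_of_dvd_right (Int.natCast_dvd_natCast.2 (kden_dvd d u))
  have hkk : kden b f = kden c f' := by
    have h1 : (kden b f : ℤ) ∣ kden c f' := by
      refine (hcopP b f n).symm.dvd_of_dvd_mul_left ?_
      rw [e3]
      exact dvd_mul_left _ _
    have h2 : (kden c f' : ℤ) ∣ kden b f := by
      refine (hcopP c f' n').symm.dvd_of_dvd_mul_left ?_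
      rw [← e3]
      exact dvd_mul_left _ _
    exact Nat.dvd_antisymm (Int.natCast_dvd_natCast.1 h1) (Int.natCast_dvd_natCast.1 h2)
  have e4 : (gnum b f : ℤ) * (f.num + n * f.den) = gnum c f' * (f'.num + n' * f'.den) := by
    rw [hkk] at e3
    exact mul_right_cancel₀ (by exact_mod_cast (kden_pos c f').ne') e3
  have e5 : (gnum b f : ℤ) = alC b c f f' * eC b c f f' := by exact_mod_cast (alC_mul b c f f').symm
  have e6 : (gnum c f' : ℤ) = alC c b f' f * eC b c f f' := by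
    rw [eC_comm]
    exact_mod_cast (alC_mul c b f' f).symm
  rw [e5, e6] at e4
  have he : (eC b c f f' : ℤ) ≠ 0 := by exact_mod_cast (eC_pos hb0 c f f').ne'
  refine mul_right_cancel₀ he ?_
  linear_combination e4

/-- `al` divides the shifted numerator of `f'` -/
lemma al_dvd_num (hg : 0 < g) (hs : 0 < s) (hs' : 0 < s') (hcop : Nat.Coprime s s')
    (h0 : gap f f' s s' h = 0) {n n' : ℤ} (hn : h = s * n - s' * n') :
    (alC (g * s) (g * s') f f' : ℤ) ∣ f'.num + n' * f'.den := by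
  have h1 := al_mul_eq hg hs hs' hcop h0 hn
  have h2 : IsCoprime (alC (g * s) (g * s') f f' : ℤ) (alC (g * s') (g * s) f' f : ℤ) := by
    rw [Nat.isCoprime_iff_coprime]
    exact alC_coprime (Nat.mul_pos hg hs) f f'
  exact h2.dvd_of_dvd_mul_left ⟨_, h1.symm⟩

lemma exists_shift (hcop : Nat.Coprime s s') (h : ℤ) : ∃ n n' : ℤ, h = s * n - s' * n' := by
  have hb := Nat.gcd_eq_gcd_ab s s'
  rw [hcop.gcd_eq_one] at hb
  push_cast at hb
  exact ⟨h * Nat.gcdA s s', -(h * Nat.gcdB s s'), by linear_combination h * hb⟩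

/-- `al` is coprime to the denominator of `f'` -/
lemma al_coprime_den (hg : 0 < g) (hs : 0 < s) (hs' : 0 < s') (hcop : Nat.Coprime s s')
    (h0 : gap f f' s s' h = 0) : Nat.Coprime (alC (g * s) (g * s') f f') f'.den := by
  obtain ⟨n, n', hn⟩ := exists_shift hcop h
  have h1 := al_dvd_num hg hs hs' hcop h0 hn
  have h2 : IsCoprime (f'.num + n' * f'.den) (f'.den : ℤ) := by
    have h3 : IsCoprime f'.num (f'.den : ℤ) := by
      rw [Int.isCoprime_iff_gcd_eq_one]
      exact f'.reduced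
    have := IsCoprime.add_mul_left_left h3 n'
    rwa [mul_comm (f'.den : ℤ) n'] at this
  rw [← Nat.isCoprime_iff_coprime]
  exact h2.of_isCoprime_of_dvd_left h1

/-- `al ∣ s` -/
lemma al_dvd_s (hg : 0 < g) (hs : 0 < s) (hs' : 0 < s') (hcop : Nat.Coprime s s')
    (h0 : gap f f' s s' h = 0) : alC (g * s) (g * s') f f' ∣ s := by
  set b := g * s with hb
  set c := g * s' with hc
  have hb0 : 0 < b := Nat.mul_pos hg hs
  have he := eC_pos hb0 c f f'
  have h1 : alC b c f f' * eC b c f f' * Nat.gcd b f.den = g * s := by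
    rw [alC_mul, mul_comm, gnum_mul]
  have h2 : alC c b f' f * eC b c f f' * Nat.gcd c f'.den = g * s' := by
    rw [eC_comm, alC_mul, mul_comm, gnum_mul]
  -- `al · β · s' = s · al' · β'`
  have h3 : alC b c f f' * (Nat.gcd b f.den * s') = s * alC c b f' f * Nat.gcd c f'.den := by
    have h4 : (g * eC b c f f') * (alC b c f f' * (Nat.gcd b f.den * s')) =
        (g * eC b c f f') * (s * alC c b f' f * Nat.gcd c f'.den) := by
      calc (g * eC b c f f') * (alC b c f f' * (Nat.gcd b f.den * s'))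
          = (alC b c f f' * eC b c f f' * Nat.gcd b f.den) * (g * s') := by ring
        _ = (g * s) * (alC c b f' f * eC b c f f' * Nat.gcd c f'.den) := by rw [h1, h2]
        _ = _ := by ring
    exact Nat.eq_of_mul_eq_mul_left (Nat.mul_pos hg he) h4
  have h5 : alC b c f f' ∣ s * alC c b f' f * Nat.gcd c f'.den := ⟨_, h3.symm⟩
  have h6 : Nat.Coprime (alC b c f f') (Nat.gcd c f'.den) :=
    (al_coprime_den hg hs hs' hcop h0).coprime_dvd_right (Nat.gcd_dvd_right _ _)
  exact (alC_coprime hb0 f f').dvd_of_dvd_mul_right (h6.dvd_of_dvd_mul_right h5)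

lemma gap_symm (h0 : gap f f' s s' h = 0) : gap f' f s' s (-h) = 0 := by
  unfold gap at h0 ⊢
  push_cast
  linear_combination -h0

/-- **kill, right member**: `q'` uses `f'` at a prime of `al` -/
theorem killedL_of_al {Fc : ℕ → ℕ → Option ℚ} {lam : ℕ → ℕ → Option ℤ} (hF : IsLab Fc lam)
    {q q' p : ℕ} (hg : 0 < g) (hs : 0 < s) (hs' : 0 < s') (hcop : Nat.Coprime s s')
    (h0 : gap f f' s s' h = 0) (hp : p.Prime) (hpa : p ∣ alC (g * s) (g * s') f f')
    (hFq : Fc q' p = some f') : killedL lam q q' s s' h := by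
  have hps : p ∣ s := hpa.trans (al_dvd_s hg hs hs' hcop h0)
  have hden : ¬ p ∣ f'.den := fun hc => by
    have := Nat.dvd_gcd hpa hc
    rw [(al_coprime_den hg hs hs' hcop h0).gcd_eq_one] at this
    exact hp.one_lt.ne' (Nat.dvd_one.1 this)
  obtain ⟨a, ha⟩ := hF.legal hp hFq hden
  obtain ⟨f₁, h1, _, h3⟩ := hF.spec hp ha
  rw [hFq, Option.some.injEq] at h1
  subst h1
  obtain ⟨n, n', hn⟩ := exists_shift hcop h
  have h4 : (p : ℤ) ∣ f'.num + n' * f'.den :=
    (Int.natCast_dvd_natCast.2 hpa).trans (al_dvd_num hg hs hs' hcop h0 hn)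
  refine Or.inr ⟨p, hp, hps, a, ha, ?_⟩
  -- `p ∣ den (a - n')`, hence `a ≡ n'`
  have h5 : (p : ℤ) ∣ f'.den * (a - n') := by
    have : f'.den * (a - n') = (f'.num + f'.den * a) - (f'.num + n' * f'.den) := by ring
    rw [this]
    exact dvd_sub h3 h4
  have h6 : (p : ℤ) ∣ a - n' := by
    refine ((Nat.prime_iff_prime_int.1 hp).dvd_or_dvd h5).resolve_left fun hc => hden ?_
    exact_mod_cast hc
  have h7 : h + s' * a = s * n + s' * (a - n') := by rw [hn]; ring
  rw [h7]
  exact dvd_add ((Int.natCast_dvd_natCast.2 hps).mul_right _) (h6.mul_left _)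

/-- **kill, left member**: `q` uses `f` at a prime of `al'` -/
theorem killedL_of_al' {Fc : ℕ → ℕ → Option ℚ} {lam : ℕ → ℕ → Option ℤ} (hF : IsLab Fc lam)
    {q q' p : ℕ} (hg : 0 < g) (hs : 0 < s) (hs' : 0 < s') (hcop : Nat.Coprime s s')
    (h0 : gap f f' s s' h = 0) (hp : p.Prime) (hpa : p ∣ alC (g * s') (g * s) f' f)
    (hFq : Fc q p = some f) : killedL lam q q' s s' h := by
  have h1 := killedL_of_al (q := q') (q' := q) hF hg hs' hs hcop.symm (gap_symm h0) hp hpa hFq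
  rcases h1 with ⟨r, hr, h2, a, h3, h4⟩ | ⟨r, hr, h2, a, h3, h4⟩
  · refine Or.inr ⟨r, hr, h2, a, h3, ?_⟩
    have : h + s' * a = -(-h - s' * a) := by ring
    rw [this]
    exact (dvd_neg).2 h4
  · refine Or.inl ⟨r, hr, h2, a, h3, ?_⟩
    have : h - s * a = -(-h + s * a) := by ring
    rw [this]
    exact (dvd_neg).2 h4

/-- unkilled and no conflict at the primes of `al` below `X` -/
theorem al_eq_one_or {Fc : ℕ → ℕ → Option ℚ} {lam : ℕ → ℕ → Option ℤ} (hF : IsLab Fc lam)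
    {q q' : ℕ} (hg : 0 < g) (hs : 0 < s) (hs' : 0 < s') (hcop : Nat.Coprime s s')
    (h0 : gap f f' s s' h = 0) (hk : ¬ killedL lam q q' s s' h) {X : ℝ}
    (hX : ∀ p : ℕ, p.Prime → p ∣ alC (g * s) (g * s') f f' → (p : ℝ) ≤ X → Fc q' p = some f') :
    alC (g * s) (g * s') f f' = 1 ∨ X < alC (g * s) (g * s') f f' := by
  by_cases h1 : alC (g * s) (g * s') f f' = 1
  · exact Or.inl h1
  right
  obtain ⟨p, hp, hpa⟩ := Nat.exists_prime_and_dvd h1
  by_contra hc
  rw [not_lt] at hc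
  have h2 : (p : ℝ) ≤ alC (g * s) (g * s') f f' := by
    exact_mod_cast Nat.le_of_dvd (alC_pos (Nat.mul_pos hg hs) f f') hpa
  exact hk (killedL_of_al hF hg hs hs' hcop h0 hp hpa (hX p hp hpa (h2.trans hc)))

theorem al_eq_one_or' {Fc : ℕ → ℕ → Option ℚ} {lam : ℕ → ℕ → Option ℤ} (hF : IsLab Fc lam)
    {q q' : ℕ} (hg : 0 < g) (hs : 0 < s) (hs' : 0 < s') (hcop : Nat.Coprime s s')
    (h0 : gap f f' s s' h = 0) (hk : ¬ killedL lam q q' s s' h) {X : ℝ}
    (hX : ∀ p : ℕ, p.Prime → p ∣ alC (g * s') (g * s) f' f → (p : ℝ) ≤ X → Fc q p = some f) :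
    alC (g * s') (g * s) f' f = 1 ∨ X < alC (g * s') (g * s) f' f := by
  by_cases h1 : alC (g * s') (g * s) f' f = 1
  · exact Or.inl h1
  right
  obtain ⟨p, hp, hpa⟩ := Nat.exists_prime_and_dvd h1
  by_contra hc
  rw [not_lt] at hc
  have h2 : (p : ℝ) ≤ alC (g * s') (g * s) f' f := by
    exact_mod_cast Nat.le_of_dvd (alC_pos (Nat.mul_pos hg hs') f' f) hpa
  exact hk (killedL_of_al' hF hg hs hs' hcop h0 hp hpa (hX p hp hpa (h2.trans hc)))

end same

/-- arithmetic of the zone: `(t₀ al')^a < al` and `(t₀ al)^a < al'` -/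
lemma zone_arith {t₀ u v : ℝ} (ht : 0 < t₀) (hu : 0 < u) (hv : 0 < v) {a : ℕ} (ha : 1 ≤ a)
    (h1 : (t₀ * v) ^ a < u) (h2 : (t₀ * u) ^ a < v) :
    t₀ * (min (t₀ * u) (t₀ * v)) ^ (a - 1) < 1 := by
  obtain ⟨n, rfl⟩ : ∃ n, a = n + 1 := ⟨a - 1, by omega⟩
  rw [Nat.add_sub_cancel]
  rcases le_total u v with huv | huv
  · -- `min = t₀ u`
    rw [min_eq_left (mul_le_mul_of_nonneg_left huv ht.le)]
    have h3 : (t₀ * u) ^ n ≤ (t₀ * v) ^ n :=
      pow_le_pow_left₀ (by positivity) (mul_le_mul_of_nonneg_left huv ht.le) n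
    have h4 : (t₀ * v) ^ n * (t₀ * v) < u := by rw [← pow_succ]; exact h1
    have h5 : (t₀ * v) ^ n * (t₀ * v) < v := h4.trans_le huv
    have h6 : (t₀ * v) ^ n * t₀ < 1 := by
      by_contra hc
      rw [not_lt] at hc
      have : v ≤ (t₀ * v) ^ n * t₀ * v := le_mul_of_one_le_left hv.le hc
      nlinarith
    calc t₀ * (t₀ * u) ^ n ≤ t₀ * (t₀ * v) ^ n := mul_le_mul_of_nonneg_left h3 ht.le
      _ = (t₀ * v) ^ n * t₀ := by ring
      _ < 1 := h6
  · rw [min_eq_right (mul_le_mul_of_nonneg_left huv ht.le)]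
    have h3 : (t₀ * v) ^ n ≤ (t₀ * u) ^ n :=
      pow_le_pow_left₀ (by positivity) (mul_le_mul_of_nonneg_left huv ht.le) n
    have h4 : (t₀ * u) ^ n * (t₀ * u) < v := by rw [← pow_succ]; exact h2
    have h5 : (t₀ * u) ^ n * (t₀ * u) < u := h4.trans_le huv
    have h6 : (t₀ * u) ^ n * t₀ < 1 := by
      by_contra hc
      rw [not_lt] at hc
      have : u ≤ (t₀ * u) ^ n * t₀ * u := le_mul_of_one_le_left hu.le hc
      nlinarith
    calc t₀ * (t₀ * v) ^ n ≤ t₀ * (t₀ * u) ^ n := mul_le_mul_of_nonneg_left h3 ht.le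
      _ = (t₀ * u) ^ n * t₀ := by ring
      _ < 1 := h6

/-- **(C) the zone.** Same point, not killed, no conflict at the primes below the activation
bounds `t_{f'}(c)^a`, `t_f(b)^a`: then `min(t_f, t_{f'}) ≤ t₀` or `t₀ min^(a-1) < 1`,
`t₀ = e/L`. -/
theorem zone_min {Fc : ℕ → ℕ → Option ℚ} {lam : ℕ → ℕ → Option ℤ} (hF : IsLab Fc lam)
    {q q' g s s' : ℕ} {h : ℤ} {f f' : ℚ} {L : ℝ} (hL : 0 < L) {a : ℕ} (ha : 1 ≤ a)
    (hg : 0 < g) (hs : 0 < s) (hs' : 0 < s') (hcop : Nat.Coprime s s')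
    (h0 : gap f f' s s' h = 0) (hk : ¬ killedL lam q q' s s' h)
    (hX' : ∀ p : ℕ, p.Prime → p ∣ alC (g * s) (g * s') f f' →
      (p : ℝ) ≤ ((gnum (g * s') f' : ℝ) / L) ^ a → Fc q' p = some f')
    (hX : ∀ p : ℕ, p.Prime → p ∣ alC (g * s') (g * s) f' f →
      (p : ℝ) ≤ ((gnum (g * s) f : ℝ) / L) ^ a → Fc q p = some f) :
    min ((gnum (g * s) f : ℝ) / L) ((gnum (g * s') f' : ℝ) / L) ≤
        (eC (g * s) (g * s') f f' : ℝ) / L ∨
      (eC (g * s) (g * s') f f' : ℝ) / L *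
        (min ((gnum (g * s) f : ℝ) / L) ((gnum (g * s') f' : ℝ) / L)) ^ (a - 1) < 1 := by
  set b := g * s with hb
  set c := g * s' with hc
  have hb0 : 0 < b := Nat.mul_pos hg hs
  have hc0 : 0 < c := Nat.mul_pos hg hs'
  have he : (0 : ℝ) < eC b c f f' := by exact_mod_cast eC_pos hb0 c f f'
  have e1 : (gnum b f : ℝ) / L = (eC b c f f' : ℝ) / L * alC b c f f' := by
    have : (gnum b f : ℝ) = alC b c f f' * eC b c f f' := by exact_mod_cast (alC_mul b c f f').symm
    rw [this]; ring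
  have e2 : (gnum c f' : ℝ) / L = (eC b c f f' : ℝ) / L * alC c b f' f := by
    have : (gnum c f' : ℝ) = alC c b f' f * eC b c f f' := by
      rw [eC_comm]; exact_mod_cast (alC_mul c b f' f).symm
    rw [this]; ring
  have ht : 0 < (eC b c f f' : ℝ) / L := div_pos he hL
  rcases al_eq_one_or hF hg hs hs' hcop h0 hk hX' with h1 | h1
  · left
    refine (min_le_left _ _).trans (le_of_eq ?_)
    rw [e1, ← hb, ← hc] at *
    rw [h1]; simp
  rcases al_eq_one_or' hF hg hs hs' hcop h0 hk hX with h2 | h2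
  · left
    refine (min_le_right _ _).trans (le_of_eq ?_)
    rw [e2, ← hb, ← hc] at *
    rw [h2]; simp
  right
  rw [e1, e2]
  refine zone_arith ht (by exact_mod_cast alC_pos hb0 f f') (by exact_mod_cast alC_pos hc0 f' f)
    ha ?_ ?_
  · rw [← e2]; exact h1
  · rw [← e1]; exact h2

/-! ### the non-coincident product with an arbitrary index set -/

open Classical in
/-- the charged primes `≥ y` whose two centres are different points; the primes are grouped by an
index set (pairs of centres, or dyadic blocks): at the primes of group `i` the pair of centres is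
`v i`, the primes are `≥ P i`, and `log |D0| ≤ E i` -/
theorem prod_setN_idx {ι : Type*} {Fc : ℕ → ℕ → Option ℚ} {g q q' s s' : ℕ} (hg : 0 < g)
    (hs : 0 < s) (hcop : Nat.Coprime s s') (h : ℤ) (y : ℝ) (I : Finset ι) (v : ι → ℚ × ℚ)
    (P E : ι → ℝ) (hP : ∀ i ∈ I, 1 < P i)
    (hT : ∀ p ∈ (q * q').primeFactors, y ≤ p → ¬ p ∣ s → ¬ p ∣ s' → ∀ f f', Fc q p = some f →
      Fc q' p = some f' → gap f f' s s' h ≠ 0 → ∃ i ∈ I, v i = (f, f') ∧ P i ≤ p)
    (hE0 : ∀ i ∈ I, 0 ≤ E i)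
    (hE : ∀ i ∈ I, gap (v i).1 (v i).2 s s' h ≠ 0 →
      Real.log |(D0 g s s' h (v i).1 (v i).2 : ℝ)| ≤ E i) :
    ∏ p ∈ (setN Fc g q q' s s' h).filter (fun p : ℕ => y ≤ (p : ℝ)), pf p ≤
      Real.exp (∑ i ∈ I, 2 * E i / (P i * Real.log (P i))) := by
  classical
  set S := (setN Fc g q q' s s' h).filter (fun p : ℕ => y ≤ (p : ℝ)) with hS
  set W : ι → Finset ℕ := fun i => S.filter fun p : ℕ => P i ≤ (p : ℝ) ∧
    gap (v i).1 (v i).2 s s' h ≠ 0 ∧ (p : ℤ) ∣ D0 g s s' h (v i).1 (v i).2 with hW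
  have hprime : ∀ p ∈ S, p.Prime := fun p hp => prime_setN (Finset.mem_filter.1 hp).1
  have hcov : S ⊆ I.biUnion W := by
    intro p hp
    have hp' := hp
    rw [hS, Finset.mem_filter] at hp
    obtain ⟨hp1, hp2⟩ := hp
    unfold setN at hp1
    rw [Finset.mem_filter] at hp1
    obtain ⟨h0, h2, h3, f, f', hf1, hf1', _, _, hgap, hDD⟩ := hp1
    obtain ⟨i, hi, hv, h5⟩ := hT p h0 hp2 h2 h3 f f' hf1 hf1' hgap
    rw [Finset.mem_biUnion]
    refine ⟨i, hi, Finset.mem_filter.2 ⟨hp', h5, ?_, ?_⟩⟩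
    · rw [hv]; exact hgap
    · rw [hv]; exact hDD
  have hWp : ∀ i ∈ I, ∀ p ∈ W i, p.Prime := fun i _ p hp => hprime p (Finset.mem_filter.1 hp).1
  calc ∏ p ∈ S, pf p ≤ ∏ p ∈ I.biUnion W, pf p := by
        refine prod_pf_mono hcov fun p hp => ?_
        obtain ⟨i, hi, hpi⟩ := Finset.mem_biUnion.1 hp
        exact hWp i hi p hpi
    _ ≤ ∏ i ∈ I, ∏ p ∈ W i, pf p := prod_pf_biUnion I W hWp
    _ ≤ ∏ i ∈ I, Real.exp (2 * E i / (P i * Real.log (P i))) := by
        refine Finset.prod_le_prod (fun i hi => (prod_pf_pos (hWp i hi)).le) fun i hi => ?_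
        have hPi := hP i hi
        have hP0 : 0 < P i := by linarith
        have hl : 0 < Real.log (P i) := Real.log_pos hPi
        by_cases hgap : gap (v i).1 (v i).2 s s' h = 0
        · have hemp : W i = ∅ := by
            rw [hW]
            refine Finset.filter_eq_empty_iff.2 fun p _ hc => hc.2.1 hgap
          rw [hemp, Finset.prod_empty]
          refine Real.one_le_exp ?_
          have := hE0 i hi
          positivity
        have hD0 : D0 g s s' h (v i).1 (v i).2 ≠ 0 := fun hc =>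
          hgap ((D0_eq_zero hg hs hcop).1 hc)
        refine (prod_pf_dvd_le hD0 hPi (A := W i) fun p hp => ?_).trans (Real.exp_le_exp.2 ?_)
        · obtain ⟨h1, h2, _, h3⟩ := Finset.mem_filter.1 hp
          exact ⟨hprime p h1, h2, h3⟩
        · exact div_le_div_of_nonneg_right (by linarith [hE i hi hgap]) (by positivity)
    _ = _ := by rw [← Real.exp_sum]

open Classical in
/-- the same for a good pair of an F-Λ structure:
`E i = log (k k' (D + D' + L')/g)` -/
theorem prod_setN_idx_good {ι : Type*} {M : ℕ} {F : FL M} {Fc : ℕ → ℕ → Option ℚ}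
    {g q q' s s' : ℕ} {γ : ℝ} (hM : 0 < M) (hb : g * s ∣ M) (hc : g * s' ∣ M) (hs : 0 < s)
    (hcop : Nat.Coprime s s') (h : ℤ) (y : ℝ) (I : Finset ι) (v : ι → ℚ × ℚ)
    (P E : ι → ℝ) (hP : ∀ i ∈ I, 1 < P i)
    (hT : ∀ p ∈ (q * q').primeFactors, y ≤ p → ¬ p ∣ s → ¬ p ∣ s' → ∀ f f', Fc q p = some f →
      Fc q' p = some f' → gap f f' s s' h ≠ 0 → ∃ i ∈ I, v i = (f, f') ∧ P i ≤ p)
    (hE0 : ∀ i ∈ I, 0 ≤ E i)
    (hC : ∀ i ∈ I, ∃ x x' k k' : ℕ, IsC F x (g * s) k (v i).1 ∧ IsC F x' (g * s') k' (v i).2 ∧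
      F.good x (g * s) (g * s') ∧ F.good x' (g * s) (g * s') ∧
      (k : ℝ) * k' * (((g * s : ℕ) : ℝ) * |γ - (v i).1| + ((g * s' : ℕ) : ℝ) * |γ - (v i).2| +
        g * |((s : ℝ) - s') * γ + h|) ≤ g * Real.exp (E i)) :
    ∏ p ∈ (setN Fc g q q' s s' h).filter (fun p : ℕ => y ≤ (p : ℝ)), pf p ≤
      Real.exp (∑ i ∈ I, 2 * E i / (P i * Real.log (P i))) := by
  have hg0 : g * s ≠ 0 := (Nat.pos_of_dvd_of_pos hb hM).ne'
  have hg : 0 < g := Nat.pos_of_ne_zero fun h => hg0 (by rw [h, zero_mul])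
  have hgR : (0 : ℝ) < g := by exact_mod_cast hg
  refine prod_setN_idx hg hs hcop h y I v P E hP hT hE0 fun i hi hgap => ?_
  obtain ⟨x, x', k, k', hf, hf', hx, hx', hle⟩ := hC i hi
  have h1 := (D0_abs_good (γ := γ) hM hb hc hs hcop h hf hf' hx hx').trans hle
  have hD0 : D0 g s s' h (v i).1 (v i).2 ≠ 0 := fun hc => hgap ((D0_eq_zero hg hs hcop).1 hc)
  have h2 : (1 : ℝ) ≤ |(D0 g s s' h (v i).1 (v i).2 : ℝ)| := by
    exact_mod_cast Int.one_le_abs hD0
  have h3 : |(D0 g s s' h (v i).1 (v i).2 : ℝ)| ≤ Real.exp (E i) := by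
    rw [mul_comm (g : ℝ)] at h1
    exact le_of_mul_le_mul_right h1 hgR
  calc Real.log |(D0 g s s' h (v i).1 (v i).2 : ℝ)| ≤ Real.log (Real.exp (E i)) :=
        Real.log_le_log (by linarith) h3
    _ = E i := Real.log_exp _

end Crest.Agent.R4C.S7dx14
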