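import Crest.Agent.R4C.PairR_14

/-!
# Row 4, S6-1: per-pair logic of a shared centre (helper11)

`b = g s`, `c = g s'`, `s, s'` coprime, centres `f` of `b`, `f'` of `c`, same point
(`gap f f' s s' h = 0`), any cut `x` (`x = P.cut m`), `k0 F x b f` = minimal denominator of `f` at
the cut `x` (`Rule_945`), `kap0 F x b f = gcd (uu x b) (k0 F x b f)`.

* `kden_mul_kap` : `kden b f * kap0 = k0`;  `kden_eq_of_gap` : same point => `kden` equal;
* `low_gnum` : `low x (gnum b f) * low x kap0 = low x b`;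
* `NoEx` : no explained differing prime `≤ x`; **`word_eq`** :
  `low x s * low x (k0 c) = low x s' * low x (k0 b)`, so the low word is the reduced fraction of the
  two `k0` (`low_s_eq`, `low_s_dvd_k0`);
* **`uu_eq_good`** : `uu x b = g * low x s * ell x c` for a pair good at `x`;
  `uu_le_pure`, `scale_of_pure` : pure, no explained prime : `uu x b ≤ g * k0 x b f`;
* **`upp_k0_dvd`** : `upp x (k0 x b f) ∣ ell x c * k0 x c f'` (good at `x`, same point);
* `k0_ne`, `lt_k0_of_ne` : if `k0` changes between the cuts `x ≤ y` then `k0 y > x`;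
* `elig_le_mst` : monotonicity of the index of the rule; `alt_deep` : no conflict below the block of
  the shared prime;
* `Al` : aligned (shared) prime, `isE_iff`, `ms` = smaller scale used, `Al.le_cut`, `Al.ms_mono`,
  `alSet`, `exists_top`, `al_le_cut` : all aligned primes are at most the cut of the scale of the
  largest one;
* `Norm`, `Norm.index`, `lt_dep_of_not_norm` : normal members / mismatch;
* `AltN`, `ShPair` : the common form of the `(H)`/`(L)` pairs at a reference scale `2^m`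
  (`ShPair.of_labPair` : `LabPair` of `PairR_14` is the case `mb = mc = m`);
* **`split_same`**, **`split_aligned`** : CASE B at the largest aligned prime: bad | mismatch |
  no explained prime | `ShPair`.
-/

set_option autoImplicit false

namespace Crest.Agent.R4C.Sharedx11

open Crest.Agent.R4C.FLDefx935 Crest.Agent.R4C.BoostCx972 Crest.Agent.R4C.CrCoinx935
  Crest.Agent.R4C.S7cx14 Crest.Agent.R4C.S7dx14 Crest.Agent.R4C.Cutx50
  Crest.Agent.R4C.Rulex945

/-! ### low parts -/

lemma low_mul (x : ℕ) {a b : ℕ} (ha : a ≠ 0) (hb : b ≠ 0) :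
    low x (a * b) = low x a * low x b := by
  refine Nat.eq_of_factorization_eq (low_pos x _).ne'
    (mul_ne_zero (low_pos x a).ne' (low_pos x b).ne') fun p => ?_
  rw [Nat.factorization_mul (low_pos x a).ne' (low_pos x b).ne', Finsupp.add_apply, fact_low,
    fact_low, fact_low, Nat.factorization_mul ha hb, Finsupp.add_apply]
  by_cases h : p ≤ x <;> simp [h]

lemma low_eq_one {x a : ℕ} (ha : a ≠ 0) (h : ∀ p, p.Prime → p ∣ a → x < p) : low x a = 1 := by
  refine Nat.eq_of_factorization_eq (low_pos x _).ne' one_ne_zero fun p => ?_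
  rw [fact_low, Nat.factorization_one, Finsupp.coe_zero, Pi.zero_apply]
  by_cases hp : p ≤ x
  · rw [if_pos hp]
    by_contra hc
    have hpp : p.Prime := by
      by_contra hnp
      exact hc (Nat.factorization_eq_zero_of_not_prime a hnp)
    have := h p hpp (Nat.dvd_of_factorization_pos hc)
    omega
  · rw [if_neg hp]

lemma low_coprime {x a b : ℕ} (h : Nat.Coprime a b) : Nat.Coprime (low x a) (low x b) :=
  Nat.Coprime.coprime_dvd_left (low_dvd_self x a)
    (Nat.Coprime.coprime_dvd_right (low_dvd_self x b) h)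

section arith

variable {M : ℕ} {F : FL M}

lemma low_lam {x b : ℕ} (hM : 0 < M) (hb : b ∣ M) : low x (F.lam x b) = 1 :=
  low_eq_one (FL.lam_pos x b).ne' fun _ hp h => (FL.prime_dvd_lam hM hb hp h).1

lemma low_uu {x b : ℕ} (hM : 0 < M) (hb : b ∣ M) : low x (F.uu x b) = low x b := by
  have h := FL.uu_mul_lam (F := F) (x := x) hM hb
  calc low x (F.uu x b) = low x (F.uu x b) * low x (F.lam x b) := by
        rw [low_lam hM hb, mul_one]
    _ = low x (F.uu x b * F.lam x b) := (low_mul x (FL.uu_pos x b).ne' (FL.lam_pos x b).ne').symm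
    _ = low x b := by rw [h]

/-- the unexplained part of `k0` -/
def kap0 (F : FL M) (x b : ℕ) (f : ℚ) : ℕ := Nat.gcd (F.uu x b) (k0 F x b f)

lemma kap0_pos {x b : ℕ} (f : ℚ) : 0 < kap0 F x b f := Nat.gcd_pos_of_pos_left _ (FL.uu_pos x b)

/-- the explained part of the excess word -/
def lam1 (F : FL M) (x b : ℕ) (f : ℚ) : ℕ := F.lam x b / Nat.gcd f.den (F.lam x b)

lemma lam1_mul (x b : ℕ) (f : ℚ) : lam1 F x b f * Nat.gcd f.den (F.lam x b) = F.lam x b :=
  Nat.div_mul_cancel (Nat.gcd_dvd_right _ _)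

lemma lam1_pos (x b : ℕ) (f : ℚ) : 0 < lam1 F x b f := by
  refine Nat.pos_of_ne_zero fun h => ?_
  have h1 := lam1_mul (F := F) x b f
  rw [h, zero_mul] at h1
  exact (FL.lam_pos (F := F) x b).ne h1

lemma k0_lam1_coprime (x b : ℕ) (f : ℚ) : Nat.Coprime (k0 F x b f) (lam1 F x b f) :=
  Nat.coprime_div_gcd_div_gcd (Nat.gcd_pos_of_pos_left _ f.den_pos)

lemma beta_eq {x b : ℕ} (hM : 0 < M) (hb : b ∣ M) (f : ℚ) :
    Nat.gcd b f.den = Nat.gcd f.den (F.lam x b) * kap0 F x b f := by
  have hu : F.uu x b * F.lam x b = b := FL.uu_mul_lam hM hb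
  set G := Nat.gcd f.den (F.lam x b) with hG
  have h1 : lam1 F x b f * G = F.lam x b := lam1_mul x b f
  have h2 : k0 F x b f * G = f.den := k0_mul x b f
  have h3 : Nat.gcd (F.uu x b * lam1 F x b f) (k0 F x b f) = kap0 F x b f :=
    Nat.Coprime.gcd_mul_right_cancel _ (k0_lam1_coprime x b f).symm
  calc Nat.gcd b f.den = Nat.gcd (F.uu x b * lam1 F x b f * G) (k0 F x b f * G) := by
        rw [h2, mul_assoc, h1, hu]
    _ = Nat.gcd (F.uu x b * lam1 F x b f) (k0 F x b f) * G := Nat.gcd_mul_right _ _ _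
    _ = _ := by rw [h3, mul_comm]

/-- **`k0 = kden * kap0`** -/
lemma kden_mul_kap {x b : ℕ} (hM : 0 < M) (hb : b ∣ M) (f : ℚ) :
    kden b f * kap0 F x b f = k0 F x b f := by
  have h1 := kden_mul b f
  have h2 : k0 F x b f * Nat.gcd f.den (F.lam x b) = f.den := k0_mul x b f
  have hG : 0 < Nat.gcd f.den (F.lam x b) := Nat.gcd_pos_of_pos_left _ f.den_pos
  refine Nat.eq_of_mul_eq_mul_right hG ?_
  have h3 := beta_eq (F := F) (x := x) hM hb f
  calc kden b f * kap0 F x b f * Nat.gcd f.den (F.lam x b) =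
        (Nat.gcd f.den (F.lam x b) * kap0 F x b f) * kden b f := by ring
    _ = Nat.gcd b f.den * kden b f := by rw [← h3]
    _ = f.den := h1
    _ = _ := h2.symm

/-- `gnum * kap0 = uu * lam1` -/
lemma gnum_mul_kap {x b : ℕ} (hM : 0 < M) (hb : b ∣ M) (f : ℚ) :
    gnum b f * kap0 F x b f = F.uu x b * lam1 F x b f := by
  have hu : F.uu x b * F.lam x b = b := FL.uu_mul_lam hM hb
  have h1 := gnum_mul b f
  have h2 : lam1 F x b f * Nat.gcd f.den (F.lam x b) = F.lam x b := lam1_mul x b f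
  have hG : 0 < Nat.gcd f.den (F.lam x b) := Nat.gcd_pos_of_pos_left _ f.den_pos
  refine Nat.eq_of_mul_eq_mul_right hG ?_
  rw [beta_eq (F := F) (x := x) hM hb f] at h1
  calc gnum b f * kap0 F x b f * Nat.gcd f.den (F.lam x b) =
        Nat.gcd f.den (F.lam x b) * kap0 F x b f * gnum b f := by ring
    _ = b := h1
    _ = F.uu x b * F.lam x b := hu.symm
    _ = F.uu x b * (lam1 F x b f * Nat.gcd f.den (F.lam x b)) := congrArg _ h2.symm
    _ = _ := by ring

lemma low_lam1 {x b : ℕ} (hM : 0 < M) (hb : b ∣ M) (f : ℚ) : low x (lam1 F x b f) = 1 := by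
  refine low_eq_one (lam1_pos x b f).ne' fun p hp h => ?_
  exact (FL.prime_dvd_lam hM hb hp (h.trans (Dvd.intro _ (lam1_mul x b f)))).1

/-- **low letters are explained up to `kap0`** -/
lemma low_gnum {x b : ℕ} (hM : 0 < M) (hb : b ∣ M) (f : ℚ) :
    low x (gnum b f) * low x (kap0 F x b f) = low x b := by
  have hb0 : 0 < b := Nat.pos_of_dvd_of_pos hb hM
  have h := congrArg (low x) (gnum_mul_kap (F := F) (x := x) hM hb f)
  rw [low_mul x (gnum_pos hb0 f).ne' (kap0_pos f).ne',
    low_mul x (FL.uu_pos x b).ne' (lam1_pos x b f).ne', low_lam1 hM hb, mul_one,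
    low_uu hM hb] at h
  exact h

/-! ### same point -/

/-- `kden` is the denominator of the point -/
lemma kden_eq_den {b : ℕ} (f : ℚ) : kden b f = ((b : ℚ) * f).den := by
  have hk : (0 : ℤ) < kden b f := by exact_mod_cast kden_pos b f
  have h1 : (b : ℚ) * f = ((gnum b f * f.num : ℤ) : ℚ) / ((kden b f : ℤ) : ℚ) := by
    have h2 := kden_b_f b f
    have h3 : ((kden b f : ℤ) : ℚ) ≠ 0 := by exact_mod_cast hk.ne'
    rw [eq_div_iff h3]
    push_cast
    linear_combination h2
  have hc : Nat.Coprime (gnum b f * f.num : ℤ).natAbs (kden b f : ℤ).natAbs := by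
    rw [Int.natAbs_mul, Int.natAbs_natCast, Int.natAbs_natCast]
    refine Nat.Coprime.mul_left (gnum_kden_coprime f) ?_
    exact Nat.Coprime.coprime_dvd_right (kden_dvd b f) f.reduced
  have h4 := Rat.den_div_eq_of_coprime hk hc
  rw [← h1] at h4
  exact_mod_cast h4.symm

/-- **same point: same denominator** -/
lemma kden_eq_of_gap {g s s' : ℕ} {h : ℤ} {f f' : ℚ} (hcop : Nat.Coprime s s')
    (h0 : gap f f' s s' h = 0) : kden (g * s) f = kden (g * s') f' := by
  obtain ⟨n, n', hn⟩ := exists_shift hcop h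
  have e1 : ((g * s : ℕ) : ℚ) * f + ((g * s * n : ℤ) : ℚ) =
      ((g * s' : ℕ) : ℚ) * f' + ((g * s' * n' : ℤ) : ℚ) := by
    have h1 : (g : ℚ) * gap f f' s s' h = 0 := by rw [h0, mul_zero]
    unfold gap at h1
    rw [hn] at h1
    push_cast at h1 ⊢
    linear_combination h1
  have e2 := congrArg Rat.den e1
  rw [Rat.add_intCast_den, Rat.add_intCast_den] at e2
  rw [kden_eq_den, kden_eq_den]
  exact e2

/-- no explained differing prime `≤ x` -/
def NoEx (x b c : ℕ) (f f' : ℚ) : Prop :=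
  ∀ p : ℕ, p.Prime → p ≤ x → ¬ p ∣ alC b c f f' ∧ ¬ p ∣ alC c b f' f

lemma NoEx.symm {x b c : ℕ} {f f' : ℚ} (h : NoEx x b c f f') : NoEx x c b f' f :=
  fun p hp hx => ⟨(h p hp hx).2, (h p hp hx).1⟩

lemma low_gnum_eC {x b c : ℕ} {f f' : ℚ} (hb : 0 < b) (hn : NoEx x b c f f') :
    low x (gnum b f) = low x (eC b c f f') := by
  rw [← alC_mul b c f f', low_mul x (alC_pos hb f f').ne' (eC_pos hb c f f').ne',
    low_eq_one (alC_pos hb f f').ne' fun p hp hd => ?_, one_mul]
  by_contra hc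
  exact (hn p hp (not_lt.1 hc)).1 hd

lemma low_gnum_eq {x b c : ℕ} {f f' : ℚ} (hb : 0 < b) (hc : 0 < c) (hn : NoEx x b c f f') :
    low x (gnum b f) = low x (gnum c f') := by
  rw [low_gnum_eC hb hn, low_gnum_eC hc hn.symm, eC_comm]

section pair

variable {g s s' x x' : ℕ} {h : ℤ} {f f' : ℚ}

/-- **the low word is determined by the two denominators** (any two cuts `≥ x` may be used for the
denominators: here the same cut) -/
theorem word_eq (hM : 0 < M) (hb : g * s ∣ M) (hc : g * s' ∣ M) (hcop : Nat.Coprime s s')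
    (h0 : gap f f' s s' h = 0) (hn : NoEx x (g * s) (g * s') f f') :
    low x s * low x (k0 F x (g * s') f') = low x s' * low x (k0 F x (g * s) f) := by
  have hb0 : 0 < g * s := Nat.pos_of_dvd_of_pos hb hM
  have hc0 : 0 < g * s' := Nat.pos_of_dvd_of_pos hc hM
  have hg : 0 < g := Nat.pos_of_ne_zero fun h => by rw [h, zero_mul] at hb0; omega
  have hs : 0 < s := Nat.pos_of_ne_zero fun h => by rw [h, mul_zero] at hb0; omega
  have hs' : 0 < s' := Nat.pos_of_ne_zero fun h => by rw [h, mul_zero] at hc0; omega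
  have e1 : low x (g * s) = low x g * low x s := low_mul x hg.ne' hs.ne'
  have e2 : low x (g * s') = low x g * low x s' := low_mul x hg.ne' hs'.ne'
  have a1 := low_gnum (F := F) (x := x) hM hb f
  have a2 := low_gnum (F := F) (x := x) hM hc f'
  have a3 := low_gnum_eq hb0 hc0 hn
  have k1 : low x (k0 F x (g * s) f) = low x (kden (g * s) f) * low x (kap0 F x (g * s) f) := by
    rw [← low_mul x (kden_pos _ f).ne' (kap0_pos f).ne', kden_mul_kap hM hb]
  have k2 : low x (k0 F x (g * s') f') =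
      low x (kden (g * s') f') * low x (kap0 F x (g * s') f') := by
    rw [← low_mul x (kden_pos _ f').ne' (kap0_pos f').ne', kden_mul_kap hM hc]
  have k3 : kden (g * s) f = kden (g * s') f' := kden_eq_of_gap hcop h0
  rw [← a3] at a2
  rw [e1] at a1
  rw [e2] at a2
  refine Nat.eq_of_mul_eq_mul_left (low_pos x g) ?_
  rw [k1, k2, ← k3]
  calc low x g * (low x s * (low x (kden (g * s) f) * low x (kap0 F x (g * s') f'))) =
        (low x g * low x s) * (low x (kden (g * s) f) * low x (kap0 F x (g * s') f')) := by ring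
    _ = (low x g * low x s') * (low x (kden (g * s) f) * low x (kap0 F x (g * s) f)) := by
        rw [← a1, ← a2]; ring
    _ = _ := by ring

/-- the low word divides `k0` -/
theorem low_s_dvd_k0 (hM : 0 < M) (hb : g * s ∣ M) (hc : g * s' ∣ M) (hcop : Nat.Coprime s s')
    (h0 : gap f f' s s' h = 0) (hn : NoEx x (g * s) (g * s') f f') :
    low x s ∣ k0 F x (g * s) f := by
  have h1 := word_eq (F := F) hM hb hc hcop h0 hn
  have h2 : low x s ∣ low x s' * low x (k0 F x (g * s) f) := ⟨_, h1.symm⟩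
  exact ((low_coprime hcop).dvd_of_dvd_mul_left h2).trans (low_dvd_self x _)

/-- the low word is the reduced fraction of the two denominators -/
theorem low_s_eq (hM : 0 < M) (hb : g * s ∣ M) (hc : g * s' ∣ M) (hcop : Nat.Coprime s s')
    (h0 : gap f f' s s' h = 0) (hn : NoEx x (g * s) (g * s') f f') :
    low x s = low x (k0 F x (g * s) f) /
      Nat.gcd (low x (k0 F x (g * s) f)) (low x (k0 F x (g * s') f')) := by
  have h1 := word_eq (F := F) hM hb hc hcop h0 hn
  set A := low x (k0 F x (g * s) f) with hA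
  set A' := low x (k0 F x (g * s') f') with hA'
  have hA0 : 0 < A := low_pos _ _
  have hA0' : 0 < A' := low_pos _ _
  have hG : 0 < Nat.gcd A A' := Nat.gcd_pos_of_pos_left _ hA0
  have hco : Nat.Coprime (low x s) (low x s') := low_coprime hcop
  -- `A = low s * r`, `A' = low s' * r`
  obtain ⟨r, hr⟩ : low x s ∣ A := hco.dvd_of_dvd_mul_left ⟨_, h1.symm⟩
  have hr' : A' = low x s' * r := by
    rw [hr] at h1
    have h2 : low x s * A' = low x s * (low x s' * r) := by rw [h1]; ring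
    exact Nat.eq_of_mul_eq_mul_left (low_pos x s) h2
  have hr0 : 0 < r := Nat.pos_of_ne_zero fun h => by rw [h, mul_zero] at hr; omega
  have e : Nat.gcd A A' = r := by
    rw [hr, hr', Nat.gcd_mul_right, hco.gcd_eq_one, one_mul]
  rw [e, hr, Nat.mul_div_cancel _ hr0]

/-- **`uu x b = gcd(b,c) * low x s * ell x c`** for a pair good at `x` -/
theorem uu_eq_good (hM : 0 < M) (hb : g * s ∣ M) (hc : g * s' ∣ M) (hcop : Nat.Coprime s s')
    (hx : F.good x (g * s) (g * s')) :
    F.uu x (g * s) = g * low x s * F.ell x (g * s') := by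
  have hb0 : 0 < g * s := Nat.pos_of_dvd_of_pos hb hM
  have hc0 : 0 < g * s' := Nat.pos_of_dvd_of_pos hc hM
  have hg : 0 < g := Nat.pos_of_ne_zero fun h => by rw [h, zero_mul] at hb0; omega
  have hs : 0 < s := Nat.pos_of_ne_zero fun h => by rw [h, mul_zero] at hb0; omega
  have hs' : 0 < s' := Nat.pos_of_ne_zero fun h => by rw [h, mul_zero] at hc0; omega
  have h1 := FL.uu_mul_ell (F := F) (x := x) hM hb
  have h2 := FL.good_gcd hM hb hc hx
  rw [Nat.gcd_mul_left, hcop.gcd_eq_one, mul_one, low_mul x hg.ne' hs.ne',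
    low_mul x hg.ne' hs'.ne', Nat.gcd_mul_left, (low_coprime hcop).gcd_eq_one, mul_one] at h2
  rw [low_mul x hg.ne' hs.ne'] at h1
  refine Nat.eq_of_mul_eq_mul_right (FL.ell_pos (F := F) x (g * s)) ?_
  calc F.uu x (g * s) * F.ell x (g * s) = low x g * low x s * F.cen x (g * s) := h1
    _ = low x s * (low x g * F.cen x (g * s)) := by ring
    _ = low x s * (g * (F.ell x (g * s) * F.ell x (g * s'))) := by rw [h2]
    _ = _ := by ring

/-- **deficits from large primes**: the part `> x` of the denominator of `b` divides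
`ell x c * k0 x c f'` -/
theorem upp_k0_dvd (hM : 0 < M) (hb : g * s ∣ M) (hc : g * s' ∣ M) (hcop : Nat.Coprime s s')
    (h0 : gap f f' s s' h = 0) (hx : F.good x (g * s) (g * s')) :
    upp x (k0 F x (g * s) f) ∣ F.ell x (g * s') * k0 F x (g * s') f' := by
  have hb0 : 0 < g * s := Nat.pos_of_dvd_of_pos hb hM
  have hc0 : 0 < g * s' := Nat.pos_of_dvd_of_pos hc hM
  have hg : 0 < g := Nat.pos_of_ne_zero fun h => by rw [h, zero_mul] at hb0; omega
  have hs : 0 < s := Nat.pos_of_ne_zero fun h => by rw [h, mul_zero] at hb0; omega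
  have hs' : 0 < s' := Nat.pos_of_ne_zero fun h => by rw [h, mul_zero] at hc0; omega
  have hk1 : k0 F x (g * s) f ≠ 0 := (k0_pos x _ f).ne'
  have hk2 : k0 F x (g * s') f' ≠ 0 := (k0_pos x _ f').ne'
  have hl2 : F.ell x (g * s') ≠ 0 := (FL.ell_pos x _).ne'
  rw [← Nat.factorization_le_iff_dvd (upp_pos x _).ne' (mul_ne_zero hl2 hk2)]
  intro q
  rw [fact_upp, Nat.factorization_mul hl2 hk2, Finsupp.add_apply]
  by_cases hq : ¬ q ≤ x
  · rw [if_pos hq]
    -- valuations
    have hu1 : F.uu x (g * s) ≠ 0 := (FL.uu_pos x _).ne'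
    have hu2 : F.uu x (g * s') ≠ 0 := (FL.uu_pos x _).ne'
    have ha1 : kap0 F x (g * s) f ≠ 0 := (kap0_pos f).ne'
    have ha2 : kap0 F x (g * s') f' ≠ 0 := (kap0_pos f').ne'
    have hn1 : gnum (g * s) f ≠ 0 := (gnum_pos hb0 f).ne'
    have hn2 : gnum (g * s') f' ≠ 0 := (gnum_pos hc0 f').ne'
    have hm1 : lam1 F x (g * s) f ≠ 0 := (lam1_pos x _ f).ne'
    have hm2 : lam1 F x (g * s') f' ≠ 0 := (lam1_pos x _ f').ne'
    have hd1 : kden (g * s) f ≠ 0 := (kden_pos _ f).ne'
    have hd2 : kden (g * s') f' ≠ 0 := (kden_pos _ f').ne'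
    have hlow : ∀ a : ℕ, (low x a).factorization q = 0 := fun a => by
      rw [fact_low, if_neg hq]
    have e1 : (k0 F x (g * s) f).factorization q =
        (kden (g * s) f).factorization q + (kap0 F x (g * s) f).factorization q := by
      rw [← kden_mul_kap (F := F) (x := x) hM hb f, Nat.factorization_mul hd1 ha1,
        Finsupp.add_apply]
    have e2 : (k0 F x (g * s') f').factorization q =
        (kden (g * s') f').factorization q + (kap0 F x (g * s') f').factorization q := by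
      rw [← kden_mul_kap (F := F) (x := x) hM hc f', Nat.factorization_mul hd2 ha2,
        Finsupp.add_apply]
    have e3 : kden (g * s) f = kden (g * s') f' := kden_eq_of_gap hcop h0
    by_cases hz : (kap0 F x (g * s) f).factorization q = 0
    · rw [e1, e2, hz, e3]
      omega
    · have hqp : q.Prime := by
        by_contra hnp
        exact hz (Nat.factorization_eq_zero_of_not_prime _ hnp)
      have hqk : q ∣ kap0 F x (g * s) f := Nat.dvd_of_factorization_pos hz
      have hqk0 : q ∣ k0 F x (g * s) f := hqk.trans (Nat.gcd_dvd_right _ _)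
      -- `q ∤ lam1 b`
      have hl1 : (lam1 F x (g * s) f).factorization q = 0 := by
        refine Nat.factorization_eq_zero_of_not_dvd fun hd => ?_
        have := Nat.dvd_gcd hqk0 hd
        rw [(k0_lam1_coprime x (g * s) f).gcd_eq_one] at this
        exact hqp.one_lt.ne' (Nat.dvd_one.1 this)
      -- `q ∤ al'`
      have hqd : q ∣ f.den := hqk0.trans (Dvd.intro _ (k0_mul x (g * s) f))
      have hal : (alC (g * s') (g * s) f' f).factorization q = 0 := by
        refine Nat.factorization_eq_zero_of_not_dvd fun hd => ?_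
        have h1 := al_coprime_den hg hs' hs hcop.symm (gap_symm h0)
        have := Nat.dvd_gcd hd hqd
        rw [h1.gcd_eq_one] at this
        exact hqp.one_lt.ne' (Nat.dvd_one.1 this)
      have f1 : (gnum (g * s) f).factorization q + (kap0 F x (g * s) f).factorization q =
          (F.uu x (g * s)).factorization q := by
        have := congrArg (fun n : ℕ => n.factorization q) (gnum_mul_kap (F := F) (x := x) hM hb f)
        rw [Nat.factorization_mul hn1 ha1, Nat.factorization_mul hu1 hm1, Finsupp.add_apply,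
          Finsupp.add_apply, hl1, add_zero] at this
        exact this
      have f2 : (F.uu x (g * s')).factorization q ≤
          (gnum (g * s') f').factorization q + (kap0 F x (g * s') f').factorization q := by
        have := congrArg (fun n : ℕ => n.factorization q)
          (gnum_mul_kap (F := F) (x := x) hM hc f')
        rw [Nat.factorization_mul hn2 ha2, Nat.factorization_mul hu2 hm2, Finsupp.add_apply,
          Finsupp.add_apply] at this
        omega
      have f3 : (gnum (g * s') f').factorization q ≤ (gnum (g * s) f).factorization q := by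
        have h1 : (gnum (g * s') f').factorization q =
            (eC (g * s') (g * s) f' f).factorization q := by
          have := congrArg (fun n : ℕ => n.factorization q) (alC_mul (g * s') (g * s) f' f)
          rw [Nat.factorization_mul (alC_pos hc0 f' f).ne' (eC_pos hc0 _ f' f).ne',
            Finsupp.add_apply, hal, zero_add] at this
          exact this.symm
        rw [h1]
        have h2 : eC (g * s') (g * s) f' f ∣ gnum (g * s) f := Nat.gcd_dvd_right _ _
        exact (Nat.factorization_le_iff_dvd (eC_pos hc0 _ f' f).ne' hn1).2 h2 q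
      have g1 : (F.uu x (g * s)).factorization q =
          g.factorization q + (F.ell x (g * s')).factorization q := by
        rw [uu_eq_good hM hb hc hcop hx,
          Nat.factorization_mul (mul_ne_zero hg.ne' (low_pos x s).ne') hl2,
          Nat.factorization_mul hg.ne' (low_pos x s).ne', Finsupp.add_apply, Finsupp.add_apply,
          hlow, add_zero]
      have g2 : g.factorization q ≤ (F.uu x (g * s')).factorization q := by
        have h1 := uu_eq_good (F := F) hM hc hb hcop.symm (FL.good_symm hb hc hx)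
        rw [h1, Nat.factorization_mul (mul_ne_zero hg.ne' (low_pos x s').ne')
          (FL.ell_pos x _).ne', Nat.factorization_mul hg.ne' (low_pos x s').ne',
          Finsupp.add_apply, Finsupp.add_apply]
        omega
      rw [e1, e2, e3]
      omega
  · rw [if_neg hq]
    exact Nat.zero_le _

/-- pure pair without explained prime `≤ x`: `uu x b ≤ g * k0` (so `T ≥ t / E`) -/
theorem uu_le_pure (hM : 0 < M) (hb : g * s ∣ M) (hc : g * s' ∣ M) (hcop : Nat.Coprime s s')
    (h0 : gap f f' s s' h = 0) (hx : F.good x (g * s) (g * s')) (hl : F.ell x (g * s') = 1)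
    (hn : NoEx x (g * s) (g * s') f f') : F.uu x (g * s) ≤ g * k0 F x (g * s) f := by
  rw [uu_eq_good hM hb hc hcop hx, hl, mul_one]
  exact Nat.mul_le_mul_left _ (Nat.le_of_dvd (k0_pos x _ f) (low_s_dvd_k0 hM hb hc hcop h0 hn))

/-- without purity: `uu x b ≤ g * k0 * ell x c` -/
theorem uu_le (hM : 0 < M) (hb : g * s ∣ M) (hc : g * s' ∣ M) (hcop : Nat.Coprime s s')
    (h0 : gap f f' s s' h = 0) (hx : F.good x (g * s) (g * s'))
    (hn : NoEx x (g * s) (g * s') f f') :
    F.uu x (g * s) ≤ g * k0 F x (g * s) f * F.ell x (g * s') := by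
  rw [uu_eq_good hM hb hc hcop hx]
  exact Nat.mul_le_mul_right _ (Nat.mul_le_mul_left _
    (Nat.le_of_dvd (k0_pos x _ f) (low_s_dvd_k0 hM hb hc hcop h0 hn)))

end pair

end arith

/-! ### growth of `k0` in the cut -/

/-- if `k0` changes between two cuts, a prime above the lower cut divides the larger one -/
lemma k0_ne {M : ℕ} {F : FL M} {x y b : ℕ} {f : ℚ} (hM : 0 < M) (hb : b ∣ M) (hxy : x ≤ y)
    (hne : k0 F x b f ≠ k0 F y b f) : ∃ q : ℕ, q.Prime ∧ x < q ∧ q ∣ k0 F y b f := by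
  obtain ⟨r, hr⟩ := k0_mono (F := F) (b := b) hxy f
  have hr1 : r ≠ 1 := fun h => hne (by rw [hr, h, mul_one])
  obtain ⟨q, hq, hqr⟩ := Nat.exists_prime_and_dvd hr1
  have h1 : k0 F x b f * Nat.gcd f.den (F.lam x b) = f.den := k0_mul x b f
  have h2 : k0 F y b f * Nat.gcd f.den (F.lam y b) = f.den := k0_mul y b f
  have h3 : r * Nat.gcd f.den (F.lam y b) = Nat.gcd f.den (F.lam x b) := by
    refine Nat.eq_of_mul_eq_mul_left (k0_pos (F := F) x b f) ?_
    rw [h1, ← mul_assoc, ← hr, h2]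
  have h4 : q ∣ F.lam x b := (hqr.trans (Dvd.intro _ h3)).trans (Nat.gcd_dvd_right _ _)
  exact ⟨q, hq, (FL.prime_dvd_lam hM hb hq h4).1, hqr.trans (Dvd.intro_left _ hr.symm)⟩

lemma lt_k0_of_ne {M : ℕ} {F : FL M} {x y b : ℕ} {f : ℚ} (hM : 0 < M) (hb : b ∣ M)
    (hxy : x ≤ y) (hne : k0 F x b f ≠ k0 F y b f) : x < k0 F y b f := by
  obtain ⟨q, _, h2, h3⟩ := k0_ne hM hb hxy hne
  exact h2.trans_le (Nat.le_of_dvd (k0_pos y b f) h3)

/-! ### the rule -/

section rule

open PairRx14

variable {M : ℕ} {F : FL M} {P : Par}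

/-- **monotonicity of the index**: a scale eligible at a lower block is at most the scale used at a
higher block -/
theorem elig_le_mst (hL : 0 < P.L) (hM : 0 < M) (hN : (M : ℝ) / P.L ≤ P.N)
    (hcut : Monotone P.cut) (hthr : ∀ b, Monotone (P.thr b)) {b p q m : ℕ} {f : ℚ} (hb : b ∣ M)
    (hq : elig F P b q m) (hp : Fc F P b p = some f) (hpq : P.blk q ≤ P.blk p) :
    m ≤ mst F P b p := by
  classical
  obtain ⟨_, h2, _, _⟩ := Fc_spec hp
  by_contra hc
  obtain ⟨a1, _, f₁, a3, a4⟩ := hq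
  have h5 : elig F P b p m :=
    ⟨a1, h2.trans (hcut (not_le.1 hc).le), f₁, a3, a4.trans (hthr b hpq)⟩
  exact hc (Nat.le_findGreatest (a3.le_N hL hN hM hb) h5)

/-- at a block not above the block of `p`, the centre used at `p` is not overtaken: an explained
prime which it does not kill is too deep for the threshold -/
theorem alt_deep (hL : 0 < P.L) (hM : 0 < M) (hN : (M : ℝ) / P.L ≤ P.N)
    (hcut : Monotone P.cut) (hthr : ∀ b, Monotone (P.thr b)) {b p q : ℕ} {f : ℚ} (hb : b ∣ M)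
    (hm0 : P.m0 ≤ mst F P b p) (hp : Fc F P b p = some f) (hpq : P.blk q ≤ P.blk p)
    (ha : Alt F P (mst F P b p) b f q) : P.thr b (P.blk q) < dep F P (mst F P b p) b f := by
  rcases ha with h | ⟨m₂, f₂, h1, h2, h3, h4, h5, h6⟩
  · exact h
  · exfalso
    have h7 : elig F P b q m₂ := ⟨hm0.trans h1.le, h6, f₂, h3, h4⟩
    have := elig_le_mst hL hM hN hcut hthr hb h7 hp hpq
    omega

/-- an aligned (shared) prime of `b = g s`, `c = g s'` at the offset `h`: both centres are used
there and give the same point -/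
structure Al (F : FL M) (P : Par) (b c s s' : ℕ) (h : ℤ) (p : ℕ) (f f' : ℚ) : Prop where
  prime : p.Prime
  ns : ¬ p ∣ s
  ns' : ¬ p ∣ s'
  used : Fc F P b p = some f
  used' : Fc F P c p = some f'
  den : ¬ p ∣ f.den
  den' : ¬ p ∣ f'.den
  pt : BoostCx972.gap f f' s s' h = 0

lemma isE_iff {b c s s' p : ℕ} {h : ℤ} (hp : p.Prime) :
    IsE (Fc F P) b c s s' h p ↔ ∃ f f', Al F P b c s s' h p f f' := by
  constructor
  · rintro ⟨h1, h2, f, f', h3, h4, h5, h6, h7⟩
    exact ⟨f, f', hp, h1, h2, h3, h4, h5, h6, h7⟩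
  · rintro ⟨f, f', _, h1, h2, h3, h4, h5, h6, h7⟩
    exact ⟨h1, h2, f, f', h3, h4, h5, h6, h7⟩

/-- the scale of a shared prime: the smaller of the two scales used -/
noncomputable def ms (F : FL M) (P : Par) (b c p : ℕ) : ℕ := min (mst F P b p) (mst F P c p)

/-- an aligned prime is at most the cut of its scale -/
lemma Al.le_cut (hY : StrictMono P.Y) {b c s s' p : ℕ} {h : ℤ} {f f' : ℚ}
    (ha : Al F P b c s s' h p f f') : p ≤ P.cut (ms F P b c p) := by
  obtain ⟨_, h1, _, _⟩ := Fc_spec ha.used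
  obtain ⟨_, h2, _, _⟩ := Fc_spec ha.used'
  have h3 := Par.le_blk (P := P) hY p
  unfold ms
  rcases min_choice (mst F P b p) (mst F P c p) with e | e
  · rw [e]; exact h3.trans h1
  · rw [e]; exact h3.trans h2

/-- the scale of an aligned prime is monotone in the prime -/
lemma Al.ms_mono (hL : 0 < P.L) (hM : 0 < M) (hN : (M : ℝ) / P.L ≤ P.N) (hY : StrictMono P.Y)
    (hcut : Monotone P.cut) (hthr : ∀ b, Monotone (P.thr b)) {b c s s' p q : ℕ} {h : ℤ}
    {f f' f₁ f₁' : ℚ} (hb : b ∣ M) (hc : c ∣ M) (ha : Al F P b c s s' h p f f')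
    (hq : Al F P b c s s' h q f₁ f₁') (hqp : q ≤ p) : ms F P b c q ≤ ms F P b c p := by
  have hblk := Par.blk_mono (P := P) hY hqp
  obtain ⟨a1, a2, a3, a4⟩ := Fc_spec hq.used
  obtain ⟨b1, b2, b3, b4⟩ := Fc_spec hq.used'
  exact min_le_min (elig_le_mst hL hM hN hcut hthr hb ⟨a1, a2, _, a3, a4⟩ ha.used hblk)
    (elig_le_mst hL hM hN hcut hthr hc ⟨b1, b2, _, b3, b4⟩ ha.used' hblk)

/-- **normal member** of a shared centre at the scale `2^m` (`m ≤ m_d`, `m_d` = scale used): the
denominator is the same at the two cuts, or `f` is the tree centre at the scale `2^m` -/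
def Norm (F : FL M) (P : Par) (m md d : ℕ) (f : ℚ) : Prop :=
  k0 F (P.cut m) d f = k0 F (P.cut md) d f ∨ TC F P m d f

/-- a member which is not normal has depth above the cut -/
lemma lt_dep_of_not_norm (hM : 0 < M) (hcut : Monotone P.cut) {m md d : ℕ} {f : ℚ} (hd : d ∣ M)
    (hm : m ≤ md) (hn : ¬ Norm F P m md d f) : (P.cut m : ℝ) < dep F P md d f ∧
      ¬ TC F P m d f := by
  unfold Norm at hn
  rw [not_or] at hn
  refine ⟨lt_of_lt_of_le ?_ (k0_le_dep md d f), hn.2⟩
  exact_mod_cast lt_k0_of_ne hM hd (hcut hm) hn.1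

/-- a normal member has an index `m' ≥ m` at which `f` is its tree centre with the depth of the
scale `2^m` -/
lemma Norm.index {m md d : ℕ} {f : ℚ} (hm : m ≤ md) (hT : TC F P md d f)
    (hn : Norm F P m md d f) : ∃ m', m ≤ m' ∧ m' ≤ md ∧ TC F P m' d f ∧
      dep F P m' d f = dep F P m d f := by
  rcases hn with h | h
  · refine ⟨md, hm, le_rfl, hT, ?_⟩
    unfold dep
    rw [h]
  · exact ⟨m, le_rfl, hm, h, rfl⟩

/-! ### the largest aligned prime -/

open Classical in
/-- the aligned primes -/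
noncomputable def alSet (F : FL M) (P : Par) (b c s s' : ℕ) (h : ℤ) : Finset ℕ :=
  (PrefixMx882.free M b ∪ PrefixMx882.free M c).filter fun p => ∃ f f', Al F P b c s s' h p f f'

/-- **the largest aligned prime** -/
theorem exists_top {b c s s' : ℕ} {h : ℤ} (hne : (alSet F P b c s s' h).Nonempty) :
    ∃ p f f', Al F P b c s s' h p f f' ∧ ∀ q ∈ alSet F P b c s s' h, q ≤ p := by
  classical
  have h1 := (alSet F P b c s s' h).max'_mem hne
  obtain ⟨f, f', h2⟩ := (Finset.mem_filter.1 h1).2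
  exact ⟨_, f, f', h2, fun q hq => (alSet F P b c s s' h).le_max' q hq⟩

/-- all aligned primes are at most the cut of the scale of the largest one -/
theorem al_le_cut (hY : StrictMono P.Y) {b c s s' p : ℕ} {h : ℤ} {f f' : ℚ}
    (ha : Al F P b c s s' h p f f') (htop : ∀ q ∈ alSet F P b c s s' h, q ≤ p) :
    ∀ q ∈ alSet F P b c s s' h, q ≤ P.cut (ms F P b c p) :=
  fun q hq => (htop q hq).trans (ha.le_cut hY)

/-! ### kinds of the explained primes, reference scale `2^m` -/

/-- at a missing prime `p` of `d` the centre `f` (depth measured at the cut `cut m`) is too deep,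
or a conflicting centre `f₂` is used; `m₁` = scale at which `f` is the tree centre of `d` with the
same depth -/
def AltN (F : FL M) (P : Par) (m d : ℕ) (f : ℚ) (p : ℕ) : Prop :=
  P.thr d (P.blk p) < dep F P m d f ∨ ∃ (m₁ m₂ : ℕ) (f₂ : ℚ), m ≤ m₁ ∧ m₁ < m₂ ∧
    TC F P m₁ d f ∧ dep F P m₁ d f = dep F P m d f ∧ f ≠ f₂ ∧ TC F P m₂ d f₂ ∧
    dep F P m₂ d f₂ ≤ P.thr d (P.blk p) ∧ Fc F P d p = some f₂ ∧ P.Y (P.blk p) ≤ P.cut m₂ ∧
    (F.uu (P.cut m) d : ℝ) ≤ 2 * dep F P m d f * dep F P m₂ d f₂ * P.L ∧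
    (2 : ℝ) ^ m ≤ 2 * dep F P m d f * dep F P m₂ d f₂

lemma uu_le_uu {x y d : ℕ} (hM : 0 < M) (hd : d ∣ M) (hxy : x ≤ y) :
    (F.uu x d : ℝ) ≤ F.uu y d := by
  have h1 : F.uu x d ∣ F.uu y d := FL.uu_dvd_uu hxy
  exact_mod_cast Nat.le_of_dvd (FL.uu_pos y d) h1

theorem altN_of_alt (hL : 0 < P.L) (hM : 0 < M) (hcut : Monotone P.cut) {m m' d p : ℕ} {f : ℚ}
    (hd : d ∣ M) (hm : m ≤ m') (hT : TC F P m' d f) (hdep : dep F P m' d f = dep F P m d f)
    (ha : Alt F P m' d f p) : AltN F P m d f p := by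
  rcases ha with h | ⟨m₂, f₂, h1, h2, h3, h4, h5, h6⟩
  · exact Or.inl (hdep ▸ h)
  · refine Or.inr ⟨m', m₂, f₂, hm, h1, hT, hdep, h2, h3, h4, h5, h6, ?_, ?_⟩
    · rw [← hdep]
      exact (uu_le_uu hM hd (hcut hm)).trans
        (conflict_uu (F := F) (P := P) hL hM hcut hd h1.le h2)
    · rw [← hdep]
      refine le_trans ?_ (conflict_scale hL hM hcut hd h1.le hT h2)
      exact pow_le_pow_right₀ (by norm_num) hm

/-- explained prime missing in a normal `b = g s` -/
theorem altN_left (hL : 0 < P.L) (hM : 0 < M) (hN : (M : ℝ) / P.L ≤ P.N)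
    (hE : ∀ m, P.m0 ≤ m → 2 * P.E m ^ 3 < 2 ^ m) (hcut : Monotone P.cut)
    {g s s' m mb p : ℕ} {f f' : ℚ} {h : ℤ} (hb : g * s ∣ M) (hm0 : P.m0 ≤ m) (hm : m ≤ mb)
    (hT : TC F P mb (g * s) f) (hn : Norm F P m mb (g * s) f)
    (hp : P.Y (P.blk p) ≤ P.cut m) (hpp : p.Prime) (hg : 0 < g) (hs : 0 < s) (hs' : 0 < s')
    (hcop : Nat.Coprime s s') (h0 : BoostCx972.gap f f' s s' h = 0)
    (hk : ¬ killedL (lamR F P) (g * s) (g * s') s s' h)
    (hpa : p ∣ alC (g * s') (g * s) f' f) : AltN F P m (g * s) f p := by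
  obtain ⟨m', h1, _, h3, h4⟩ := hn.index hm hT
  exact altN_of_alt hL hM hcut hb h1 h3 h4
    (alt_left hL hM hN hE hb (hm0.trans h1) h3 (hp.trans (hcut h1)) hpp hg hs hs' hcop h0 hk hpa)

/-- explained prime missing in a normal `c = g s'` -/
theorem altN_right (hL : 0 < P.L) (hM : 0 < M) (hN : (M : ℝ) / P.L ≤ P.N)
    (hE : ∀ m, P.m0 ≤ m → 2 * P.E m ^ 3 < 2 ^ m) (hcut : Monotone P.cut)
    {g s s' m mc p : ℕ} {f f' : ℚ} {h : ℤ} (hc : g * s' ∣ M) (hm0 : P.m0 ≤ m) (hm : m ≤ mc)
    (hT : TC F P mc (g * s') f') (hn : Norm F P m mc (g * s') f')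
    (hp : P.Y (P.blk p) ≤ P.cut m) (hpp : p.Prime) (hg : 0 < g) (hs : 0 < s) (hs' : 0 < s')
    (hcop : Nat.Coprime s s') (h0 : BoostCx972.gap f f' s s' h = 0)
    (hk : ¬ killedL (lamR F P) (g * s) (g * s') s s' h)
    (hpa : p ∣ alC (g * s) (g * s') f f') : AltN F P m (g * s') f' p := by
  obtain ⟨m', h1, _, h3, h4⟩ := hn.index hm hT
  exact altN_of_alt hL hM hcut hc h1 h3 h4
    (alt_right hL hM hN hE hc (hm0.trans h1) h3 (hp.trans (hcut h1)) hpp hg hs hs' hcop h0 hk hpa)

/-- **the `(H)`/`(L)` pairs of a reference scale `2^m`**: common point of two normal centres, largest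
explained differing prime `p ≤ cut m`. `LabPair` of `PairR_14` is the case `mb = mc = m`. -/
structure ShPair (F : FL M) (P : Par) (m mb mc g s s' : ℕ) (h : ℤ) (f f' : ℚ) (p : ℕ) : Prop where
  hmb : m ≤ mb
  hmc : m ≤ mc
  tcb : TC F P mb (g * s) f
  tcc : TC F P mc (g * s') f'
  nb : Norm F P m mb (g * s) f
  nc : Norm F P m mc (g * s') f'
  pt : BoostCx972.gap f f' s s' h = 0
  prime : p.Prime
  le : p ≤ P.cut m
  /-- `p` is explained, and the member missing it does not use its centre -/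
  alt : (p ∣ s' ∧ p ∣ alC (g * s') (g * s) f' f ∧ AltN F P m (g * s) f p) ∨
    (p ∣ s ∧ p ∣ alC (g * s) (g * s') f f' ∧ AltN F P m (g * s') f' p)
  /-- no prime in `(p, cut]` is explained (`LDecx500.Top`; with prime powers stronger than `top`) -/
  topE : ∀ r : ℕ, r.Prime → p < r → r ≤ P.cut m →
    ¬ r ∣ alC (g * s) (g * s') f f' ∧ ¬ r ∣ alC (g * s') (g * s) f' f
  /-- the differing primes in `(p, cut]` are unexplained -/
  top : ∀ r : ℕ, r.Prime → p < r → r ≤ P.cut m →
    (r ∣ s → r ∣ k0 F (P.cut m) (g * s) f) ∧ (r ∣ s' → r ∣ k0 F (P.cut m) (g * s') f')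

/-- the weak form of `Top` follows from the strong one -/
lemma top_of_topE (hM : 0 < M) {g s s' x p : ℕ} {f f' : ℚ} (hb : g * s ∣ M) (hc : g * s' ∣ M)
    (hcop : Nat.Coprime s s')
    (ht : ∀ r : ℕ, r.Prime → p < r → r ≤ x →
      ¬ r ∣ alC (g * s) (g * s') f f' ∧ ¬ r ∣ alC (g * s') (g * s) f' f) :
    ∀ r : ℕ, r.Prime → p < r → r ≤ x →
      (r ∣ s → r ∣ k0 F x (g * s) f) ∧ (r ∣ s' → r ∣ k0 F x (g * s') f') := by
  have hg0 : g * s ≠ 0 := (Nat.pos_of_dvd_of_pos hb hM).ne'
  have hg0' : g * s' ≠ 0 := (Nat.pos_of_dvd_of_pos hc hM).ne'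
  have hg : 0 < g := Nat.pos_of_ne_zero fun h => hg0 (by rw [h, zero_mul])
  have hs : 0 < s := Nat.pos_of_ne_zero fun h => hg0 (by rw [h, mul_zero])
  have hs' : 0 < s' := Nat.pos_of_ne_zero fun h => hg0' (by rw [h, mul_zero])
  intro r hr hpr hrx
  obtain ⟨h1, h2⟩ := ht r hr hpr hrx
  constructor
  · intro hrs
    by_contra hcon
    exact h1 (Pairx14.expl_of_not_dvd hM hb hg hs' hcop.symm (isC_k0 (F := F) _ _ f) hr hrx hrs
      hcon)
  · intro hrs
    by_contra hcon
    exact h2 (Pairx14.expl_of_not_dvd hM hc hg hs hcop (isC_k0 (F := F) _ _ f') hr hrx hrs hcon)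

lemma ShPair.of_labPair (hL : 0 < P.L) (hM : 0 < M) (hcut : Monotone P.cut)
    {m g s s' p : ℕ} {h : ℤ} {f f' : ℚ} (hb : g * s ∣ M) (hc : g * s' ∣ M)
    (hl : LabPair F P m g s s' h f f' p)
    (ht : ∀ r : ℕ, r.Prime → p < r → r ≤ P.cut m →
      ¬ r ∣ alC (g * s) (g * s') f f' ∧ ¬ r ∣ alC (g * s') (g * s) f' f) :
    ShPair F P m m m g s s' h f f' p where
  hmb := le_rfl
  hmc := le_rfl
  tcb := hl.tcb
  tcc := hl.tcc
  nb := Or.inr hl.tcb
  nc := Or.inr hl.tcc
  pt := hl.pt
  prime := hl.prime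
  le := hl.le
  alt := by
    rcases hl.alt with ⟨h1, h2, h3⟩ | ⟨h1, h2, h3⟩
    · exact Or.inl ⟨h1, h2, altN_of_alt hL hM hcut hb le_rfl hl.tcb rfl h3⟩
    · exact Or.inr ⟨h1, h2, altN_of_alt hL hM hcut hc le_rfl hl.tcc rfl h3⟩
  topE := ht
  top := hl.top

/-- constructor from the data of `LDecx500.cover_rich` (own scale) -/
lemma ShPair.of_rich (hL : 0 < P.L) (hM : 0 < M) (hcut : Monotone P.cut)
    {m g s s' p : ℕ} {h : ℤ} {f f' : ℚ} (hb : g * s ∣ M) (hc : g * s' ∣ M)
    (hcop : Nat.Coprime s s')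
    (tb : TC F P m (g * s) f) (tc : TC F P m (g * s') f')
    (h0 : BoostCx972.gap f f' s s' h = 0) (hp : p.Prime) (hpx : p ≤ P.cut m)
    (ha : (p ∣ s' ∧ p ∣ alC (g * s') (g * s) f' f ∧ Alt F P m (g * s) f p) ∨
      (p ∣ s ∧ p ∣ alC (g * s) (g * s') f f' ∧ Alt F P m (g * s') f' p))
    (ht : ∀ r : ℕ, r.Prime → p < r → r ≤ P.cut m →
      ¬ r ∣ alC (g * s) (g * s') f f' ∧ ¬ r ∣ alC (g * s') (g * s) f' f) :
    ShPair F P m m m g s s' h f f' p where
  hmb := le_rfl
  hmc := le_rfl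
  tcb := tb
  tcc := tc
  nb := Or.inr tb
  nc := Or.inr tc
  pt := h0
  prime := hp
  le := hpx
  alt := by
    rcases ha with ⟨h1, h2, h3⟩ | ⟨h1, h2, h3⟩
    · exact Or.inl ⟨h1, h2, altN_of_alt hL hM hcut hb le_rfl tb rfl h3⟩
    · exact Or.inr ⟨h1, h2, altN_of_alt hL hM hcut hc le_rfl tc rfl h3⟩
  topE := ht
  top := top_of_topE hM hb hc hcop ht

/-- **split of a pair with a common point of two normal centres**: no explained differing prime
`≤ cut m`, or `ShPair` -/
theorem split_same (hL : 0 < P.L) (hM : 0 < M) (hN : (M : ℝ) / P.L ≤ P.N)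
    (hE : ∀ m, P.m0 ≤ m → 2 * P.E m ^ 3 < 2 ^ m) (hcut : Monotone P.cut)
    {m : ℕ} (hact : ∀ p, p ≤ P.cut m → P.Y (P.blk p) ≤ P.cut m)
    {g s s' mb mc : ℕ} {f f' : ℚ} {h : ℤ} (hb : g * s ∣ M) (hc : g * s' ∣ M) (hm0 : P.m0 ≤ m)
    (hmb : m ≤ mb) (hmc : m ≤ mc) (tb : TC F P mb (g * s) f) (tc : TC F P mc (g * s') f')
    (nb : Norm F P m mb (g * s) f) (nc : Norm F P m mc (g * s') f')
    (hcop : Nat.Coprime s s') (h0 : BoostCx972.gap f f' s s' h = 0)
    (hk : ¬ killedL (lamR F P) (g * s) (g * s') s s' h) :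
    NoEx (P.cut m) (g * s) (g * s') f f' ∨ ∃ p, ShPair F P m mb mc g s s' h f f' p := by
  classical
  have hg0 : g * s ≠ 0 := (Nat.pos_of_dvd_of_pos hb hM).ne'
  have hg0' : g * s' ≠ 0 := (Nat.pos_of_dvd_of_pos hc hM).ne'
  have hg : 0 < g := Nat.pos_of_ne_zero fun h => hg0 (by rw [h, zero_mul])
  have hs : 0 < s := Nat.pos_of_ne_zero fun h => hg0 (by rw [h, mul_zero])
  have hs' : 0 < s' := Nat.pos_of_ne_zero fun h => hg0' (by rw [h, mul_zero])
  set S := (Finset.range (P.cut m + 1)).filter (fun p => p.Prime ∧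
    (p ∣ alC (g * s) (g * s') f f' ∨ p ∣ alC (g * s') (g * s) f' f)) with hS
  have hmem : ∀ p, p ∈ S ↔ p ≤ P.cut m ∧ p.Prime ∧
      (p ∣ alC (g * s) (g * s') f f' ∨ p ∣ alC (g * s') (g * s) f' f) := by
    intro p
    rw [hS, Finset.mem_filter, Finset.mem_range, Nat.lt_succ_iff]
  rcases S.eq_empty_or_nonempty with he | hne
  · left
    intro p hp hpx
    have h1 : p ∉ S := by rw [he]; exact Finset.notMem_empty p
    constructor
    · intro hd; exact h1 ((hmem p).2 ⟨hpx, hp, Or.inl hd⟩)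
    · intro hd; exact h1 ((hmem p).2 ⟨hpx, hp, Or.inr hd⟩)
  right
  set p := S.max' hne with hp
  obtain ⟨hpx, hpp, hpe⟩ := (hmem p).1 (S.max'_mem hne)
  have htop : ∀ r : ℕ, r.Prime → p < r → r ≤ P.cut m →
      ¬ r ∣ alC (g * s) (g * s') f f' ∧ ¬ r ∣ alC (g * s') (g * s) f' f := by
    intro r hr hpr hrx
    have hrS : r ∉ S := fun hc => by
      have := S.le_max' r hc
      omega
    constructor
    · intro hd; exact hrS ((hmem r).2 ⟨hrx, hr, Or.inl hd⟩)
    · intro hd; exact hrS ((hmem r).2 ⟨hrx, hr, Or.inr hd⟩)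
  refine ⟨p, hmb, hmc, tb, tc, nb, nc, h0, hpp, hpx, ?_, htop, top_of_topE hM hb hc hcop htop⟩
  · rcases hpe with h1 | h1
    · right
      exact ⟨h1.trans (al_dvd_s hg hs hs' hcop h0), h1, altN_right hL hM hN hE hcut hc hm0 hmc tc nc
        (hact p hpx) hpp hg hs hs' hcop h0 hk h1⟩
    · left
      exact ⟨h1.trans (al'_dvd hg hs hs' hcop h0), h1, altN_left hL hM hN hE hcut hb hm0 hmb tb nb
        (hact p hpx) hpp hg hs hs' hcop h0 hk h1⟩

/-- **CASE B split at the largest aligned prime**: with `m = ms F P b c p` one of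
not good at `cut m` | a member is not normal (mismatch, depth above the cut) | no explained prime
`≤ cut m` | `ShPair` -/
theorem split_aligned (hL : 0 < P.L) (hM : 0 < M) (hN : (M : ℝ) / P.L ≤ P.N)
    (hE : ∀ m, P.m0 ≤ m → 2 * P.E m ^ 3 < 2 ^ m) (hcut : Monotone P.cut)
    (hact : ∀ m p, p ≤ P.cut m → P.Y (P.blk p) ≤ P.cut m)
    {g s s' p : ℕ} {f f' : ℚ} {h : ℤ} (hb : g * s ∣ M) (hc : g * s' ∣ M)
    (hcop : Nat.Coprime s s') (ha : Al F P (g * s) (g * s') s s' h p f f')
    (hk : ¬ killedL (lamR F P) (g * s) (g * s') s s' h) :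
    ¬ F.good (P.cut (ms F P (g * s) (g * s') p)) (g * s) (g * s') ∨
    (¬ TC F P (ms F P (g * s) (g * s') p) (g * s) f ∧
      (P.cut (ms F P (g * s) (g * s') p) : ℝ) < dep F P (mst F P (g * s) p) (g * s) f) ∨
    (¬ TC F P (ms F P (g * s) (g * s') p) (g * s') f' ∧
      (P.cut (ms F P (g * s) (g * s') p) : ℝ) < dep F P (mst F P (g * s') p) (g * s') f') ∨
    (F.good (P.cut (ms F P (g * s) (g * s') p)) (g * s) (g * s') ∧
      Norm F P (ms F P (g * s) (g * s') p) (mst F P (g * s) p) (g * s) f ∧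
      Norm F P (ms F P (g * s) (g * s') p) (mst F P (g * s') p) (g * s') f' ∧
      (NoEx (P.cut (ms F P (g * s) (g * s') p)) (g * s) (g * s') f f' ∨
        ∃ q, ShPair F P (ms F P (g * s) (g * s') p) (mst F P (g * s) p) (mst F P (g * s') p)
          g s s' h f f' q)) := by
  classical
  obtain ⟨a1, _, a3, _⟩ := Fc_spec ha.used
  obtain ⟨b1, _, b3, _⟩ := Fc_spec ha.used'
  have hmb : ms F P (g * s) (g * s') p ≤ mst F P (g * s) p := min_le_left _ _
  have hmc : ms F P (g * s) (g * s') p ≤ mst F P (g * s') p := min_le_right _ _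
  have hm0 : P.m0 ≤ ms F P (g * s) (g * s') p := le_min a1 b1
  by_cases hx : F.good (P.cut (ms F P (g * s) (g * s') p)) (g * s) (g * s')
  · by_cases nb : Norm F P (ms F P (g * s) (g * s') p) (mst F P (g * s) p) (g * s) f
    · by_cases nc : Norm F P (ms F P (g * s) (g * s') p) (mst F P (g * s') p) (g * s') f'
      · exact Or.inr (Or.inr (Or.inr ⟨hx, nb, nc, split_same hL hM hN hE hcut (hact _) hb hc hm0
          hmb hmc a3 b3 nb nc hcop ha.pt hk⟩))
      · obtain ⟨h1, h2⟩ := lt_dep_of_not_norm hM hcut hc hmc nc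
        exact Or.inr (Or.inr (Or.inl ⟨h2, h1⟩))
    · obtain ⟨h1, h2⟩ := lt_dep_of_not_norm hM hcut hb hmb nb
      exact Or.inr (Or.inl ⟨h2, h1⟩)
  · exact Or.inl hx

/-- **no explained prime and pure: the scale of the pair is at least `2^m / E`** -/
theorem scale_of_pure (hM : 0 < M) {g s s' m : ℕ} {f f' : ℚ} {h : ℤ} (hb : g * s ∣ M)
    (hc : g * s' ∣ M) (hcop : Nat.Coprime s s') (h0 : BoostCx972.gap f f' s s' h = 0)
    (hT : TC F P m (g * s) f) (hx : F.good (P.cut m) (g * s) (g * s'))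
    (hl : F.ell (P.cut m) (g * s') = 1) (hn : NoEx (P.cut m) (g * s) (g * s') f f') :
    (2 : ℝ) ^ m * P.L ≤ g * P.E m := by
  have h1 := uu_le_pure (F := F) hM hb hc hcop h0 hx hl hn
  have h2 : (F.uu (P.cut m) (g * s) : ℝ) ≤ g * k0 F (P.cut m) (g * s) f := by exact_mod_cast h1
  refine (hT.scl.trans h2).trans ?_
  exact mul_le_mul_of_nonneg_left hT.den (Nat.cast_nonneg _)

end rule

end Crest.Agent.R4C.Sharedx11
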