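import Crest.Agent.R4C.VDef_24

/-!
# Row 4, GW section, vector case: the worlds `vw` are `Ok`; target `TBud` of `VDef_24` (helper322)

* `vw_ok'` : `World.Ok (vw ..)` for any `Par` with `2^i ≤ cut i`, `16 < E i` (`i ≥ m0`), `3 ≤ m0`,
  `M / L ≤ N`;
* `vw_ok`  : the same in `Ev` form at `ParOf` (all `Setup`, all `a a' s G`);
* **`tbud γ : TBud γ`**, `T = 9 + log2 KV + k`.
-/

set_option autoImplicit false

open Finset
open Crest.Agent.R4C.Basex935 Crest.Agent.R4C.Cutx50 Crest.Agent.R4C.PrefixMx882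
open Crest.Agent.R4C.FLDefx935 Crest.Agent.R4C.Rulex945 Crest.Agent.R4C.PureClsx863
open Crest.Agent.R4C.PureL2x232 (hiFL)
open Crest.Agent.R4C.GWdefx982 Crest.Agent.R4C.NHx656
open Crest.Agent.R4C.Splitx945 Crest.Agent.R4C.Spinex946 Crest.Agent.R4C.Bridgex882
open Crest.Agent.R4C.CrCoinx935
open Crest.Agent.R4C.VDefx24
open Crest.Agent.R4C.HDx529 (Y3 kapV gn)

namespace Crest.Agent.R4C.TBudx322

/-- the worlds are `Ok`, general parameters -/
theorem vw_ok' {M : ℕ} (hM : 0 < M) (F : FL M) {P : Par} {δ : ℝ} {a a' s G : ℕ}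
    (hG : G ∈ cores (hiFL hM (yc a a') F)) (hL : 0 < P.L) (hcut : Monotone P.cut)
    (hcut2 : ∀ i, 2 ^ i ≤ P.cut i) (hm0 : 3 ≤ P.m0) (hN : (M : ℝ) / P.L ≤ P.N)
    (hE : ∀ i, P.m0 ≤ i → 16 < P.E i) : (vw hM F P δ a a' s G).Ok where
  hN := PM_pos G
  hG := Nat.pos_of_dvd_of_pos (mem_cores.1 hG).1.1 (upp_pos _ _)
  hL := by
    show 0 < P.L / 2 ^ s
    positivity
  hcut := hcut
  hcut2 := hcut2
  hi0 := hm0.trans (le_max_left _ _)
  htop := by
    show ((G * PM (hiFL hM (yc a a') F) G : ℕ) : ℝ) < 2 ^ (P.N + s + 1) * (P.L / 2 ^ s)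
    have h0 : upp (yc a a') M ≤ M := Nat.le_of_dvd hM (upp_dvd_self _ _)
    have h1 : G * PM (hiFL hM (yc a a') F) G ≤ M :=
      (Nat.le_of_dvd (upp_pos _ _) (mul_PM_dvd (upp_pos _ _) hG)).trans h0
    have h2 : ((G * PM (hiFL hM (yc a a') F) G : ℕ) : ℝ) ≤ M := by exact_mod_cast h1
    have h3 : (M : ℝ) ≤ P.N * P.L := (div_le_iff₀ hL).1 hN
    have h4 : (P.N : ℝ) < 2 ^ (P.N + 1) := by
      have h5 : P.N < 2 ^ P.N := Nat.lt_two_pow_self
      have h6 : (P.N : ℝ) < 2 ^ P.N := by exact_mod_cast h5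
      have h7 : (2 : ℝ) ^ P.N ≤ 2 ^ (P.N + 1) := pow_le_pow_right₀ (by norm_num) (by omega)
      linarith
    have h8 : (P.N : ℝ) * P.L < 2 ^ (P.N + 1) * P.L := mul_lt_mul_of_pos_right h4 hL
    have h9 : (2 : ℝ) ^ (P.N + s + 1) * (P.L / 2 ^ s) = 2 ^ (P.N + 1) * P.L := by
      have h10 : (2 : ℝ) ^ (P.N + s + 1) = 2 ^ (P.N + 1) * 2 ^ s := by
        rw [← pow_add]; congr 1; omega
      rw [h10]
      field_simp
    rw [h9]
    linarith
  hσ := le_rfl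
  hθ := fun i hi => by
    show 1 < P.E i / 16
    have h1 := hE i ((le_max_left _ _).trans hi)
    linarith
  hK1 := le_rfl
  hc := one_pos

/-- the numerical conditions at `ParOf` -/
lemma par_cond {cp : ℝ} {A m0 : ℕ} (hcp : 0 < cp) (hA : 1 ≤ A) (hm0 : 5 / cp ≤ m0) :
    ∀ (γ L : ℝ) (M : ℕ) (B : Finset ℕ), 0 < L →
      Monotone (ParOf cp A m0 γ L M B).cut ∧ (∀ i, 2 ^ i ≤ (ParOf cp A m0 γ L M B).cut i) ∧
      (M : ℝ) / (ParOf cp A m0 γ L M B).L ≤ (ParOf cp A m0 γ L M B).N ∧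
      (∀ i, (ParOf cp A m0 γ L M B).m0 ≤ i → 16 < (ParOf cp A m0 γ L M B).E i) := by
  intro γ L M B hL
  refine ⟨fun i j hij => Nat.pow_le_pow_right (by norm_num) (Nat.mul_le_mul_left A hij),
    fun i => Nat.pow_le_pow_right (by norm_num) (Nat.le_mul_of_pos_left i hA), Nat.le_ceil _,
    fun i hi => ?_⟩
  show (16 : ℝ) < (2 : ℝ) ^ (cp * i)
  have hi' : (m0 : ℝ) ≤ i := by exact_mod_cast hi
  have h1 : (4 : ℝ) < cp * i := by
    have h2 : 5 ≤ m0 * cp := (div_le_iff₀ hcp).1 hm0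
    nlinarith
  calc (16 : ℝ) = (2 : ℝ) ^ (4 : ℝ) := by norm_num
    _ < (2 : ℝ) ^ (cp * i) := Real.rpow_lt_rpow_of_exponent_lt (by norm_num) h1

/-- **the worlds are `Ok`**, `Ev` form -/
theorem vw_ok (γ : ℝ) : Ev fun cp η A m0 => ∀ (L : ℝ) (M : ℕ) (B : Finset ℕ) (F : FL M)
    (hS : Setup η L M B F) (δ : ℝ) (a a' s G : ℕ), G ∈ cores (hiFL hS.hM (yc a a') F) →
    (vw hS.hM F (ParOf cp A m0 γ L M B) δ a a' s G).Ok := by
  refine ((Ev.basic.and (Ev.le_m0 fun cp _ _ => 5 / cp)).and (Ev.le_m0 fun _ _ _ => 3)).mono ?_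
  rintro cp η A m0 ⟨⟨⟨h1, _, _, _, _, h6, _⟩, h8⟩, h9⟩ L M B F hS δ a a' s G hG
  obtain ⟨c1, c2, c3, c4⟩ := par_cond h1 h6 h8 γ L M B hS.hL
  exact vw_ok' hS.hM F hG hS.hL c1 c2 (by exact_mod_cast h9) c3 c4

open Classical in
/-- **target `TBud`** -/
theorem tbud (γ : ℝ) : TBud γ := by
  refine (vw_ok γ).mono ?_
  intro cp η A m0 hok KV k hKV
  have hlog : 0 ≤ Real.logb 2 KV := Real.logb_nonneg (by norm_num) hKV
  refine ⟨9 + Real.logb 2 KV + k, by positivity, ?_⟩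
  intro L M B F hS a a' s b hb Z w hZ hw
  have hZok : Z.Ok := by
    rw [hZ]
    exact hok L M B F hS _ a a' s _ (HighFLx863.H0_mem hS.hM F hb)
  have hwN : w ∣ Z.N := by
    rw [hZ, hw]
    exact HighFLx863.hw_dvd hS.hM F hb
  set P := ParOf cp A m0 γ L M B with hP
  set KV' : ℝ := KV * 2 ^ (k * (a + a')) with hKV'
  have hKV0 : 0 < KV := by linarith
  have h1' : (1 : ℝ) ≤ (2 : ℝ) ^ (k * (a + a')) := one_le_pow₀ (by norm_num)
  have hK1 : 1 ≤ KV' := by rw [hKV']; nlinarith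
  have hK0 : 0 < KV' := by linarith
  set D : ℕ := ⌈KV'⌉₊ with hD
  have hD1 : 1 ≤ D := Nat.one_le_ceil_iff.2 hK0
  have hAct : ∀ p ∈ Act F P Z.N (yc a a') w b, 1 ≤ p := by
    intro p hp
    unfold Act at hp
    have h2 := (mem_filter.1 hp).2.1
    omega
  have key := FamBudx252.budget_act hZok hwN hAct hD1
  have hlogD : (Nat.log 2 D : ℝ) ≤ 1 + Real.logb 2 KV + k * (a + a') := by
    have hc0 : D ≠ 0 := by omega
    have h4 : (2 : ℝ) ^ (Nat.log 2 D) ≤ (D : ℝ) := by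
      exact_mod_cast Nat.pow_log_le_self 2 hc0
    have h5 : (D : ℝ) ≤ 2 * KV' := by
      have := (Nat.ceil_lt_add_one hK0.le).le
      linarith
    have h7 := Real.logb_le_logb_of_le (by norm_num : (1 : ℝ) < 2) (by positivity) (h4.trans h5)
    rw [Real.logb_mul (by norm_num) hK0.ne', Real.logb_self_eq_one (by norm_num),
      Real.logb_pow, Real.logb_self_eq_one (by norm_num), mul_one, hKV',
      Real.logb_mul hKV0.ne' (by positivity), Real.logb_pow,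
      Real.logb_self_eq_one (by norm_num)] at h7
    push_cast at h7
    linarith
  have hsum : ∑ z ∈ Z.Zs.filter (fun z => w ∈ (Z.Nd z).biUnion Z.S),
      (Y3 Z z w + kapV Z KV' z) * Wb F P Z (yc a a') z w b ≤
      ∑ z ∈ Z.Zs with w ∈ Z.zd.zone z, FamBudx252.VA Z (Act F P Z.N (yc a a') w b) w z.1 *
        (FamBudx252.Y3 Z z w + min 1 ((D : ℝ) / ((Z.pz z : ℝ) + 1))) := by
    have hset : Z.Zs.filter (fun z => w ∈ (Z.Nd z).biUnion Z.S) =
        Z.Zs.filter (fun z => w ∈ Z.zd.zone z) := by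
      refine filter_congr fun z _ => ?_
      exact Iff.rfl
    rw [hset]
    refine sum_le_sum fun z _ => ?_
    rw [mul_comm]
    refine mul_le_mul_of_nonneg_left ?_ (FamBudx252.VA_nonneg hAct w z.1)
    refine add_le_add (le_of_eq rfl) ?_
    unfold kapV
    exact min_le_min le_rfl (div_le_div_of_nonneg_right (Nat.le_ceil _) (by positivity))
  refine hsum.trans (key.trans ?_)
  have ha : (0 : ℝ) ≤ (a : ℝ) := Nat.cast_nonneg a
  have ha' : (0 : ℝ) ≤ (a' : ℝ) := Nat.cast_nonneg a'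
  have hk : (0 : ℝ) ≤ (k : ℝ) := Nat.cast_nonneg k
  nlinarith [mul_nonneg hlog ha, mul_nonneg hlog ha']

end Crest.Agent.R4C.TBudx322
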