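import Crest.Agent.R4C.HDeltaG_60
import Crest.Agent.R4C.HypVw_516
import Crest.Agent.R4C.TBud_322
import Crest.Agent.R4C.RelGn_15

/-!
# Row 4, GW section, vector case: the target `TOk` of `VDef_24` (helper60)

* `pow8_le`, `sup_bd`, `cls_lt` : numerics;
* `grow_vw`, `sq_vw` : the conditions of `VDepth_952` and `ZCell_60` for the worlds `vw`;
* `Dl_bd` : `3 Dl (Cl (2^a) (2^a')) 2 ≤ 2^(7 (a + a' + 1))`;
* **`tok`** : `TOk γ`.
-/

set_option autoImplicit false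

open Finset
open Crest.Agent.R4C.Basex935 Crest.Agent.R4C.Cutx50 Crest.Agent.R4C.PrefixMx882
open Crest.Agent.R4C.FLDefx935 Crest.Agent.R4C.Rulex945 Crest.Agent.R4C.PureClsx863
open Crest.Agent.R4C.PureL2x232 (hiFL)
open Crest.Agent.R4C.GWdefx982 Crest.Agent.R4C.VDefx24
open Crest.Agent.R4C.Splitx945 Crest.Agent.R4C.Spinex946 Crest.Agent.R4C.Bridgex882
open Crest.Agent.R4C.CrCoinx935
open Crest.Agent.R4C.HDx529 (gn)
open Crest.Agent.R4C.RelDegx15 (Rel Cl Dl)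

namespace Crest.Agent.R4C.TOkx60

/-! ### numerics -/

lemma pow8_le {cp : ℝ} (hcp : 0 < cp) : ∃ m1 : ℕ, ∀ i : ℕ, m1 ≤ i →
    384 * ((i : ℝ) + 1) ^ 8 ≤ (2 : ℝ) ^ (cp * i) := by
  have hr : (1 : ℝ) < (2 : ℝ) ^ cp := Real.one_lt_rpow (by norm_num) hcp
  have h := (isLittleO_pow_const_const_pow_of_one_lt (R := ℝ) 8 hr).def
    (c := 1 / 98304) (by norm_num)
  obtain ⟨m, hm⟩ := Filter.eventually_atTop.1 h
  refine ⟨max m 1, fun i hi => ?_⟩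
  have h1 := hm i ((le_max_left _ _).trans hi)
  have hi1 : (1 : ℝ) ≤ i := by exact_mod_cast (le_max_right _ _).trans hi
  rw [Real.norm_of_nonneg (by positivity), Real.norm_of_nonneg (by positivity)] at h1
  have h2 : ((i : ℝ) + 1) ^ 8 ≤ (2 * i) ^ 8 :=
    pow_le_pow_left₀ (by positivity) (by linarith) 8
  have h3 : (2 : ℝ) ^ (cp * i) = ((2 : ℝ) ^ cp) ^ i := by
    rw [Real.rpow_mul (by norm_num), Real.rpow_natCast]
  rw [h3]
  have h4 : (2 * (i : ℝ)) ^ 8 = 256 * (i : ℝ) ^ 8 := by ring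
  linarith

lemma lin_exp {δ : ℝ} (hδ : 0 < δ) (p : ℕ) :
    ((p : ℝ) + 1) * (2 : ℝ) ^ (-(δ * p)) ≤ 1 + 1 / (δ * Real.log 2) := by
  have hl : 0 < Real.log 2 := Real.log_pos (by norm_num)
  set d : ℝ := δ * Real.log 2 with hd
  have hd0 : 0 < d := by positivity
  have e1 : (2 : ℝ) ^ (-(δ * p)) = Real.exp (-(d * p)) := by
    rw [Real.rpow_def_of_pos (by norm_num)]
    congr 1
    rw [hd]; ring
  rw [e1]
  have h1 := Real.add_one_le_exp (d * p)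
  have hp : (0 : ℝ) ≤ p := Nat.cast_nonneg p
  have h2 : ((p : ℝ) + 1) ≤ (1 + 1 / d) * Real.exp (d * p) := by
    have h3 : ((p : ℝ) + 1) ≤ (1 + 1 / d) * (d * p + 1) := by
      have e : (1 + 1 / d) * (d * p + 1) = d * p + 1 + p + 1 / d := by
        field_simp; ring
      rw [e]
      have : 0 ≤ d * p := by positivity
      have : 0 < 1 / d := by positivity
      linarith
    refine h3.trans (mul_le_mul_of_nonneg_left h1 (by positivity))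
  calc ((p : ℝ) + 1) * Real.exp (-(d * p))
      ≤ ((1 + 1 / d) * Real.exp (d * p)) * Real.exp (-(d * p)) :=
        mul_le_mul_of_nonneg_right h2 (Real.exp_pos _).le
    _ = 1 + 1 / d := by
        rw [mul_assoc, ← Real.exp_add]
        simp

lemma sup_bd {c cp : ℝ} (hc : 0 < c) (hcp : 0 < cp) : ∃ K : ℝ, 0 ≤ K ∧ ∀ p : ℕ,
    ((p : ℝ) + 1) * (((2 : ℝ) ^ (cp * p) / 16) ^ (-c) + (2 : ℝ) ^ (-(c * p))) ≤ K := by
  have hl : 0 < Real.log 2 := Real.log_pos (by norm_num)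
  refine ⟨16 ^ c * (1 + 1 / (c * cp * Real.log 2)) + (1 + 1 / (c * Real.log 2)), by positivity,
    fun p => ?_⟩
  have e1 : ((2 : ℝ) ^ (cp * p) / 16) ^ (-c) = 16 ^ c * (2 : ℝ) ^ (-(c * cp * p)) := by
    rw [Real.div_rpow (by positivity) (by norm_num), ← Real.rpow_mul (by norm_num),
      Real.rpow_neg (by norm_num : (0 : ℝ) ≤ 16), div_inv_eq_mul, mul_comm]
    congr 2
    ring
  have h1 := lin_exp (mul_pos hc hcp) p
  have h2 := lin_exp hc p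
  have h3 : (0 : ℝ) ≤ 16 ^ c := by positivity
  rw [e1, mul_add]
  have h4 : ((p : ℝ) + 1) * (16 ^ c * (2 : ℝ) ^ (-(c * cp * p))) ≤
      16 ^ c * (1 + 1 / (c * cp * Real.log 2)) := by
    calc ((p : ℝ) + 1) * (16 ^ c * (2 : ℝ) ^ (-(c * cp * p)))
        = 16 ^ c * (((p : ℝ) + 1) * (2 : ℝ) ^ (-(c * cp * p))) := by ring
      _ ≤ _ := mul_le_mul_of_nonneg_left h1 h3
  linarith

lemma cls_lt {a a' i : ℕ} (h : iA a a' ≤ i) : 2 ^ (a + a') < (i + 1) ^ 8 := by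
  have hne : {i : ℕ | 2 ^ (a + a') < (i + 1) ^ 8}.Nonempty := by
    refine ⟨2 ^ (a + a'), ?_⟩
    show 2 ^ (a + a') < (2 ^ (a + a') + 1) ^ 8
    exact (Nat.lt_succ_self _).trans_le (Nat.le_self_pow (by norm_num) _)
  have h1 : 2 ^ (a + a') < (iA a a' + 1) ^ 8 := Nat.sInf_mem hne
  exact h1.trans_le (Nat.pow_le_pow_left (by omega) 8)

/-- the constant of `Grow` -/
noncomputable def DD (a a' : ℕ) : ℝ := 64 * (2 * 2 ^ a + 2 * 2 ^ a' + 2)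

lemma DD_le (a a' : ℕ) : DD a a' ≤ 384 * 2 ^ (a + a') := by
  unfold DD
  have h1 : (1 : ℝ) ≤ 2 ^ a := one_le_pow₀ (by norm_num)
  have h2 : (1 : ℝ) ≤ 2 ^ a' := one_le_pow₀ (by norm_num)
  rw [pow_add]
  nlinarith

lemma Dl_bd (a a' : ℕ) :
    3 * (Dl (Cl (2 ^ a) (2 ^ a')) 2 : ℝ) ≤ 2 ^ (7 * (a + a' + 1)) := by
  have h := RelDegx15.Dl_le (A := 2 ^ a) (B := 2 ^ a') 2
  have h1 : ⌊(2 : ℝ) / 2⌋₊ = 1 := by norm_num
  rw [h1] at h
  have h2 : 3 * Dl (Cl (2 ^ a) (2 ^ a')) 2 ≤ 2 ^ (7 * (a + a' + 1)) := by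
    have a1 : 1 ≤ 2 ^ a := Nat.one_le_two_pow
    have a2 : 1 ≤ 2 ^ a' := Nat.one_le_two_pow
    have e : 2 ^ (7 * (a + a' + 1)) = 128 * ((2 ^ a) ^ 7 * (2 ^ a') ^ 7) := by
      rw [← pow_mul, ← pow_mul, ← pow_add]
      rw [show (128 : ℕ) = 2 ^ 7 by norm_num, ← pow_add]
      congr 1
      ring
    rw [e]
    generalize 2 ^ a = x at *
    generalize 2 ^ a' = y at *
    have h3 : 2 * 1 + 4 * x + 4 * y + 1 ≤ 11 * (x * y) := by nlinarith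
    calc 3 * Dl (Cl x y) 2 ≤ 3 * (2 * x * y ^ 2 * (2 * 1 + 4 * x + 4 * y + 1)) :=
          Nat.mul_le_mul_left _ h
      _ ≤ 3 * (2 * x * y ^ 2 * (11 * (x * y))) :=
          Nat.mul_le_mul_left _ (Nat.mul_le_mul_left _ h3)
      _ = 66 * (x ^ 2 * y ^ 3) := by ring
      _ ≤ 128 * (x ^ 7 * y ^ 7) := by
          refine Nat.mul_le_mul (by norm_num) (Nat.mul_le_mul ?_ ?_)
          · exact Nat.pow_le_pow_right a1 (by norm_num)
          · exact Nat.pow_le_pow_right a2 (by norm_num)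
  exact_mod_cast h2

/-! ### the worlds -/

section vw

variable {cp η γ L δ : ℝ} {A m0 M : ℕ} {B : Finset ℕ} {F : FL M}

lemma theta_vw (hM : 0 < M) (a a' s G i : ℕ) :
    (vw hM F (ParOf cp A m0 γ L M B) δ a a' s G).θ i = (2 : ℝ) ^ (cp * i) / 16 := rfl

lemma i0_vw (hM : 0 < M) {a a' s G i : ℕ}
    (h : (vw hM F (ParOf cp A m0 γ L M B) δ a a' s G).i0 ≤ i) : m0 ≤ i ∧ iA a a' ≤ i :=
  ⟨(le_max_left _ _).trans h, ((le_max_right _ _).trans (le_max_right _ _)).trans h⟩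

lemma DD_vw (hm : ∀ i : ℕ, m0 ≤ i → 384 * ((i : ℝ) + 1) ^ 8 ≤ (2 : ℝ) ^ (cp * i)) (hM : 0 < M)
    {a a' s G i : ℕ} (h : (vw hM F (ParOf cp A m0 γ L M B) δ a a' s G).i0 ≤ i) :
    DD a a' ≤ (2 : ℝ) ^ (cp * i) := by
  obtain ⟨h1, h2⟩ := i0_vw hM h
  have h3 : ((2 ^ (a + a') : ℕ) : ℝ) < (((i + 1) ^ 8 : ℕ) : ℝ) := by exact_mod_cast cls_lt h2
  push_cast at h3
  have h4 := hm i h1
  have h5 := DD_le a a'
  linarith

lemma pow_le_two {cp : ℝ} (hcp0 : 0 < cp) {n : ℕ} (hn : (n : ℝ) * cp ≤ 1) (i : ℕ) :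
    ((2 : ℝ) ^ (cp * i)) ^ n ≤ 2 ^ i := by
  rw [← Real.rpow_natCast, ← Real.rpow_mul (by norm_num), ← Real.rpow_natCast (2 : ℝ) i]
  refine Real.rpow_le_rpow_of_exponent_le (by norm_num) ?_
  have hi : (0 : ℝ) ≤ i := Nat.cast_nonneg i
  nlinarith

theorem grow_vw (hcp0 : 0 < cp) (hcp : cp ≤ 1 / 4)
    (hm : ∀ i : ℕ, m0 ≤ i → 384 * ((i : ℝ) + 1) ^ 8 ≤ (2 : ℝ) ^ (cp * i)) (hM : 0 < M)
    (a a' s G : ℕ) :
    VDepthx952.Grow (vw hM F (ParOf cp A m0 γ L M B) δ a a' s G) (DD a a') where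
  hD := by
    unfold DD
    have h1 : (1 : ℝ) ≤ 2 ^ a := one_le_pow₀ (by norm_num)
    have h2 : (1 : ℝ) ≤ 2 ^ a' := one_le_pow₀ (by norm_num)
    linarith
  mono := by
    intro i j _ hij
    rw [theta_vw, theta_vw]
    refine div_le_div_of_nonneg_right ?_ (by norm_num)
    refine Real.rpow_le_rpow_of_exponent_le (by norm_num) ?_
    have : (i : ℝ) ≤ j := by exact_mod_cast hij
    nlinarith
  small := by
    intro i hi
    have h1 := DD_vw hm hM hi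
    have h2 := pow_le_two hcp0 (n := 4) (by push_cast; linarith) i
    rw [theta_vw]
    set E : ℝ := (2 : ℝ) ^ (cp * i) with hE
    have hE0 : 0 < E := Real.rpow_pos_of_pos (by norm_num) _
    have hD0 : 0 ≤ DD a a' := by unfold DD; positivity
    have h3 : DD a a' * (E / 16) ≤ E * (E / 16) := mul_le_mul_of_nonneg_right h1 (by positivity)
    have h4 : (DD a a' * (E / 16)) ^ 2 ≤ (E * (E / 16)) ^ 2 :=
      pow_le_pow_left₀ (by positivity) h3 2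
    have h5 : (E * (E / 16)) ^ 2 = E ^ 4 / 256 := by ring
    have h6 : 0 < E ^ 4 := by positivity
    linarith
  gr := by
    intro i j hi hij
    have h1 := DD_vw hm hM hi
    rw [theta_vw, theta_vw]
    set E : ℝ := (2 : ℝ) ^ (cp * i) with hE
    have hE0 : 0 < E := Real.rpow_pos_of_pos (by norm_num) _
    have h2 : E * E ≤ (2 : ℝ) ^ (cp * j) := by
      rw [hE, ← Real.rpow_add (by norm_num)]
      refine Real.rpow_le_rpow_of_exponent_le (by norm_num) ?_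
      have : (2 : ℝ) * i ≤ j := by exact_mod_cast hij
      nlinarith
    have h3 : DD a a' * (E / 16) ≤ E * (E / 16) := mul_le_mul_of_nonneg_right h1 (by positivity)
    linarith

lemma sq_vw (hcp0 : 0 < cp) (hcp : cp ≤ 1 / 4) (hM : 0 < M) (a a' s G i : ℕ) :
    128 * (vw hM F (ParOf cp A m0 γ L M B) δ a a' s G).θ i ^ 2 ≤ 2 ^ i := by
  rw [theta_vw]
  have h2 := pow_le_two hcp0 (n := 2) (by push_cast; linarith) i
  have h3 : (0 : ℝ) < 2 ^ i := by positivity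
  have h4 : 128 * ((2 : ℝ) ^ (cp * i) / 16) ^ 2 = ((2 : ℝ) ^ (cp * i)) ^ 2 / 2 := by ring
  rw [h4]
  linarith

end vw

/-- the members of the class -/
lemma cl_cond {a a' : ℕ} : ∀ p ∈ Cl (2 ^ a) (2 ^ a'), 64 * ((p.1 : ℝ) + p.2 + 2) ≤ DD a a' := by
  intro p hp
  have h := (RelDegx15.mem_Cl.1 hp).1
  have h1 : ((p.1 : ℕ) : ℝ) ≤ 2 * 2 ^ a := by exact_mod_cast h.1.2.le
  have h2 : ((p.2 : ℕ) : ℝ) ≤ 2 * 2 ^ a' := by exact_mod_cast h.2.2.le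
  unfold DD
  linarith

lemma cl_pos {a a' : ℕ} : ∀ p ∈ Cl (2 ^ a) (2 ^ a'), 0 < p.1 ∧ 0 < p.2 := by
  intro p hp
  have h := (RelDegx15.mem_Cl.1 hp).1
  have a1 : 1 ≤ 2 ^ a := Nat.one_le_two_pow
  have a2 : 1 ≤ 2 ^ a' := Nat.one_le_two_pow
  omega

lemma DD_symm (a a' : ℕ) : DD a a' = DD a' a := by
  unfold DD; ring

/-- **target `TOk`** -/
theorem tok (γ : ℝ) : TOk γ := by
  have hpow : Ev fun cp _ _ m0 => ∀ i : ℕ, m0 ≤ i →
      384 * ((i : ℝ) + 1) ^ 8 ≤ (2 : ℝ) ^ (cp * i) := by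
    refine Ev.of_m0 fun cp η A h1 _ => ?_
    obtain ⟨m1, hm1⟩ := pow8_le h1
    exact ⟨m1, fun m0 hm i hi => hm1 i (hm.trans hi)⟩
  refine (((Ev.basic.and hpow).and (TBudx322.vw_ok γ)).and (HypVwx516.hyp_vw γ)).mono ?_
  rintro cp η A m0 ⟨⟨⟨⟨hcp0, hcp, -⟩, hm⟩, hok⟩, C1, c, hC1, hc, hyp⟩
  have hcp4 : cp ≤ 1 / 4 := by linarith
  obtain ⟨K, hK0, hK⟩ := sup_bd hc hcp0
  refine ⟨4 * C1, 1 + 128 * K + 72, 7, by linarith, by linarith, ?_⟩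
  intro L M B F hS a a' s G hG Z hZ
  have hZok : Z.Ok := by rw [hZ]; exact hok L M B F hS _ a a' s G hG
  have hH := hyp L M B F hS a a' s G hG Z hZ hZok
  have hσ : Z.σ ≤ 1 := by rw [hZ]; exact zero_le_one
  have hGr : VDepthx952.Grow Z (DD a a') := by rw [hZ]; exact grow_vw hcp0 hcp4 hm hS.hM a a' s G
  have hsq : ∀ i, Z.i0 ≤ i → 128 * Z.θ i ^ 2 ≤ 2 ^ i := by
    intro i _
    rw [hZ]; exact sq_vw hcp0 hcp4 hS.hM a a' s G i
  have hθ : ∀ p : ℕ, Z.θ p = (2 : ℝ) ^ (cp * p) / 16 := by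
    intro p; rw [hZ]; rfl
  set n : ℕ := a + a' with hn
  have hP : (1 : ℝ) ≤ 2 ^ (7 * n) := one_le_pow₀ (by norm_num)
  have hKV : (1 : ℝ) ≤ (1 + 128 * K + 72) * 2 ^ (7 * n) := by nlinarith
  have hKE : (0 : ℝ) ≤ 18 * (((n + 3 : ℕ) : ℝ) + 1) := by positivity
  have hΔ : (2 : ℝ) ≤ 2 ^ (7 * (n + 1)) := by
    calc (2 : ℝ) = 2 ^ 1 := by norm_num
      _ ≤ _ := pow_le_pow_right₀ (by norm_num) (by omega)
  have hnum : ∀ p : ℕ, Z.i0 ≤ p → 2 ^ (7 * (n + 1)) * (Z.θ p ^ (-c) + (2 : ℝ) ^ (-(c * p))) +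
      18 * (((n + 3 : ℕ) : ℝ) + 1) / ((p : ℝ) + 1) ≤
      (1 + 128 * K + 72) * 2 ^ (7 * n) / ((p : ℝ) + 1) := by
    intro p _
    have hp0 : (0 : ℝ) < (p : ℝ) + 1 := by positivity
    have h1 := hK p
    rw [← hθ] at h1
    have h2 : (Z.θ p ^ (-c) + (2 : ℝ) ^ (-(c * p))) ≤ K / ((p : ℝ) + 1) := by
      rw [le_div_iff₀ hp0]
      linarith
    have h3 : (2 : ℝ) ^ (7 * (n + 1)) = 128 * 2 ^ (7 * n) := by
      rw [mul_add, pow_add]; norm_num; ring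
    have h4 : ((n + 3 : ℕ) : ℝ) + 1 ≤ 4 * 2 ^ (7 * n) := by
      have h5 : n + 1 ≤ 2 ^ n := Nat.lt_two_pow_self
      have h6 : (2 : ℕ) ^ n ≤ 2 ^ (7 * n) := Nat.pow_le_pow_right (by norm_num) (by omega)
      have h7 : n + 3 + 1 ≤ 4 * 2 ^ (7 * n) := by omega
      exact_mod_cast h7
    have h8 : 2 ^ (7 * (n + 1)) * (Z.θ p ^ (-c) + (2 : ℝ) ^ (-(c * p))) ≤
        128 * K * 2 ^ (7 * n) / ((p : ℝ) + 1) := by
      rw [h3]
      calc 128 * 2 ^ (7 * n) * (Z.θ p ^ (-c) + (2 : ℝ) ^ (-(c * p)))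
          ≤ 128 * 2 ^ (7 * n) * (K / ((p : ℝ) + 1)) :=
            mul_le_mul_of_nonneg_left h2 (by positivity)
        _ = _ := by ring
    have h9 : 18 * (((n + 3 : ℕ) : ℝ) + 1) / ((p : ℝ) + 1) ≤
        72 * 2 ^ (7 * n) / ((p : ℝ) + 1) := by
      refine div_le_div_of_nonneg_right ?_ hp0.le
      linarith
    have h10 : (1 + 128 * K + 72) * 2 ^ (7 * n) / ((p : ℝ) + 1) =
        2 ^ (7 * n) / ((p : ℝ) + 1) + 128 * K * 2 ^ (7 * n) / ((p : ℝ) + 1) +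
          72 * 2 ^ (7 * n) / ((p : ℝ) + 1) := by ring
    have h11 : (0 : ℝ) ≤ 2 ^ (7 * n) / ((p : ℝ) + 1) := by positivity
    rw [h10]
    linarith
  have hD1 := Dl_bd a a'
  have hD2 := Dl_bd a' a
  rw [show a' + a + 1 = n + 1 by omega] at hD2
  constructor
  · have h := HDeltaGx60.ok_529 hZok hσ (W := Cl (2 ^ a) (2 ^ a')) cl_pos (R0 := 2) zero_le_two hGr
      cl_cond hΔ hD1 (by rw [RelDegx15.Cl_swap]; exact hD2) hsq hKV hC1 hc.le hKE hH hnum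
    exact h
  · have h := HDeltaGx60.ok_529 hZok hσ (W := Cl (2 ^ a') (2 ^ a)) cl_pos (R0 := 2) zero_le_two
      (D := DD a a') hGr (by rw [DD_symm]; exact cl_cond) hΔ hD2
      (by rw [RelDegx15.Cl_swap]; exact hD1) hsq hKV hC1 hc.le hKE hH hnum
    have e : (fun ν ν' => RR Z a a' ν' ν) = Rel Z (Cl (2 ^ a') (2 ^ a)) 2 := by
      funext ν ν'
      exact propext (RelDegx15.relT_Cl hZok)
    rw [e]
    exact h

end Crest.Agent.R4C.TOkx60
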