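import Crest.Agent.R4C.GWwt_360
import Crest.Agent.R4C.KyPure_971

/-!
# Row 4, GW section, vector case: the weight of a pair in the form of `rel_total` (helper559)

`F' = hiFL hM y F`, `G ∈ cores F'`, `N = PM F' G`, `upp y b = G * z`, `upp y c = G * z'`,
`x = cut i` (own scale), `gcd z z' = low x z = low x z'`.

* `kk F' G x z β β' = 1 / (nu0 G * ν_{N_x}(low x z) * gcd β β')` : the kernel of one node;
* `kk_mul` : `gcd ν ν kk = nu0 G * (ν_N z ν_N z' / ν(node))`;
* `bst_low` : the low boost depends on the low parts only;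
* `Ww_anti`, `Ww_le_one`, `Ww_nonneg` : the weight decreases with the cut;
* **`weight_frm`** : 360's `weight_low` in the form `frm`;
* **`pair_weight`** : off `CKyP`, `B1` replaced by `1 + log₂ (u v)`.
-/

set_option autoImplicit false

namespace Crest.Agent.R4C.VecWtx559

open Finset Crest.Agent.R4C.Basex935 Crest.Agent.R4C.FLDefx935 Crest.Agent.R4C.BoostCx972
  Crest.Agent.R4C.CrCoinx935 Crest.Agent.R4C.CrCountx935 Crest.Agent.R4C.Bridgex882
  Crest.Agent.R4C.PrefixMx882 Crest.Agent.R4C.Rulex945 Crest.Agent.R4C.Sharedx11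
  Crest.Agent.R4C.Splitx945 Crest.Agent.R4C.BoostTopx19 Crest.Agent.R4C.BoostAlx100
  Crest.Agent.R4C.Cutx50 Crest.Agent.R4C.PureClsx863 Crest.Agent.R4C.PureL2x232
  Crest.Agent.R4C.Spinex946 Crest.Agent.R4C.KyClsx971
open Crest.Agent.R4C.GWwtx360 (Ww)

/-! ### the kernel of a node -/

lemma nu0_pos' {M : ℕ} {F : FL M} (hM : 0 < M) {G : ℕ} (hG : G ∈ cores F) : 0 < nu0 F G := by
  have hG0 : 0 < G := Nat.pos_of_dvd_of_pos (mem_cores.1 hG).1.1 hM
  have hR := RR_pos hM hG
  unfold nu0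
  have h1 : (0 : ℝ) < ((RR F G).totient : ℝ) := by exact_mod_cast Nat.totient_pos.2 hR
  positivity

/-- the kernel of the node of `z` at the cut `x` -/
noncomputable def kk {M : ℕ} (F : FL M) (G x z β β' : ℕ) : ℝ :=
  1 / (nu0 F G * nu (low x (PM F G)) (low x z) * (Nat.gcd β β' : ℝ))

lemma kk_nonneg {M : ℕ} (F : FL M) (G x z β β' : ℕ) : 0 ≤ kk F G x z β β' := by
  unfold kk
  have h1 := nu0_nonneg (F := F) G
  have h2 := nu_nonneg (low x (PM F G)) (low x z)
  positivity

/-- **mass of the kernel** -/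
theorem kk_mul {M : ℕ} {F : FL M} (hM : 0 < M) {G z z' x : ℕ} (hG : G ∈ cores F)
    (hz : z ∣ PM F G) (hz' : z' ∣ PM F G) :
    (Nat.gcd (G * z) (G * z') : ℝ) * nu M (G * z) * nu M (G * z') *
        kk F G x z (G * z) (G * z') =
      nu0 F G * (nu (PM F G) z * nu (PM F G) z' / nu (low x (PM F G)) (low x z)) := by
  have hN := PM_pos (F := F) G
  have hl : low x z ∣ low x (PM F G) := low_dvd x hN.ne' hz
  have hg : 0 < nu (low x (PM F G)) (low x z) := nu_pos (low_pos x _) hl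
  have h0 := nu0_pos' hM hG
  have hG0 : 0 < G := Nat.pos_of_dvd_of_pos (mem_cores.1 hG).1.1 hM
  have hz0 : 0 < z := Nat.pos_of_dvd_of_pos hz hN
  have hgc : 0 < Nat.gcd (G * z) (G * z') := Nat.gcd_pos_of_pos_left _ (Nat.mul_pos hG0 hz0)
  have hgR : (0 : ℝ) < (Nat.gcd (G * z) (G * z') : ℝ) := by exact_mod_cast hgc
  rw [nu_class hM hG hz, nu_class hM hG hz']
  unfold kk
  field_simp

/-! ### the low boost -/

/-- the low boost is a function of the low parts -/
theorem bst_low (y M b c : ℕ) :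
    BoostRx398.bst (prQ y) M b c =
      BoostRx398.bst (prQ y) (low y M) (low y b) (low y c) := by
  classical
  unfold BoostRx398.bst
  refine prod_congr rfl fun p hp => ?_
  have hpy : p ≤ y := (GWwtx360.mem_prQ.1 hp).1
  rw [fact_low, fact_low, fact_low, if_pos hpy, if_pos hpy, if_pos hpy]

/-! ### the weights -/

lemma Ww_nonneg (N : ℕ) (coin : ℕ → Prop) (y x w : ℕ) : 0 ≤ Ww N coin y x w := by
  classical
  unfold Ww
  exact GWwtx360.prod_fac_nonneg fun p hp => GWwtx360.prime_free (mem_filter.1 hp).1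

lemma Ww_le_one (N : ℕ) (coin : ℕ → Prop) (y x w : ℕ) : Ww N coin y x w ≤ 1 := by
  classical
  unfold Ww
  exact prod_le_one (fun p hp =>
    (GWwtx360.fac_pos (GWwtx360.prime_free (mem_filter.1 hp).1)).le)
    fun p _ => GWwtx360.fac_le_one p

/-- the weight decreases with the cut -/
lemma Ww_anti (N : ℕ) (coin : ℕ → Prop) (y w : ℕ) {x x' : ℕ} (h : x ≤ x') :
    Ww N coin y x' w ≤ Ww N coin y x w := by
  classical
  unfold Ww
  refine GWwtx360.prod_fac_anti (fun p hp => GWwtx360.prime_free (mem_filter.1 hp).1) ?_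
  intro p hp
  rw [mem_filter] at hp ⊢
  exact ⟨hp.1, hp.2.1, hp.2.2.1.trans h, hp.2.2.2⟩

/-! ### the pair -/

section pair

variable {M : ℕ} {F : FL M} {P : Par}

/-- the constant of `weight_frm` for `x = 2^(A i)`, `Q = 2^(A (2 i))` -/
noncomputable def Cw : ℝ := Real.exp 200 * (Real.exp (22 / Real.log 2) * 2)

lemma Cw_pos : 0 < Cw := by unfold Cw; positivity

set_option maxHeartbeats 800000 in
open Classical in
/-- **the weight of a far pair, kernel form** -/
theorem weight_frm (hM : 0 < M) (hL : 0 < P.L) (hY : ∀ i, P.Y i = 2 ^ i)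
    (hthr : ∀ b i, P.thr b i ≤ Real.exp ((P.Y (i - 1) : ℝ) ^ (4 / 5 : ℝ)))
    {b c y G z z' x Q : ℕ} (hb : b ∣ M) (hc : c ∣ M)
    (hG : G ∈ cores (hiFL hM y F)) (hz : z ∣ PM (hiFL hM y F) G) (hz' : z' ∣ PM (hiFL hM y F) G)
    (eb : upp y b = G * z) (ec : upp y c = G * z') (hlow : low x z = low x z')
    (hgcd : Nat.gcd z z' = low x z) (hx : 2 ≤ x) (hxQ : x ≤ Q)
    (hgood : F.good x b c) {h : ℤ} (hl : h ∈ Lnk P.γ P.L b c)
    (hal : AlLe F P b c h Q) (hLg : P.L ≤ (Nat.gcd b c : ℕ)) :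
    (Nat.gcd b c : ℝ) * nu M b * nu M c * boostB M (lamR F P) b c h ≤
      Real.exp 200 * (Real.exp (22 / Real.log 2) * (Real.log Q / Real.log x)) *
        PureL2x232.B1 b c *
        ((Nat.gcd b c : ℝ) * nu M b * nu M c *
          (kk (hiFL hM y F) G x z (upp y b) (upp y c) *
            BoostRx398.bst (prQ y) (low y M) (low y b) (low y c) *
            min (Ww (PM (hiFL hM y F) G) (fun p => lamR F P b p = none) y x z)
              (Ww (PM (hiFL hM y F) G) (fun p => lamR F P c p = none) y x z'))) := by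
  have h1 := GWwtx360.weight_low hM hL hY hthr hb hc hG hz hz' eb ec hlow hgcd hx hxQ hgood hl
    hal hLg
  refine h1.trans (le_of_eq ?_)
  have hMy : 0 < upp y M := upp_pos y M
  have hb0 : b ≠ 0 := (Nat.pos_of_dvd_of_pos hb hM).ne'
  have hc0 : c ≠ 0 := (Nat.pos_of_dvd_of_pos hc hM).ne'
  have e2 : nu M b = nu (low y M) (low y b) * nu (upp y M) (upp y b) := by
    conv_lhs => rw [← low_mul_upp y hb0]
    exact nu_low_upp hM (low_dvd y hM.ne' hb) (upp_dvd y hM.ne' hb)
  have e3 : nu M c = nu (low y M) (low y c) * nu (upp y M) (upp y c) := by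
    conv_lhs => rw [← low_mul_upp y hc0]
    exact nu_low_upp hM (low_dvd y hM.ne' hc) (upp_dvd y hM.ne' hc)
  have e4 := GWwtx360.gcd_cut hM hb hc y
  have e5 := kk_mul (F := hiFL hM y F) (x := x) hMy hG hz hz'
  rw [← eb, ← ec] at e5
  rw [← bst_low, ← e5, e4, e2, e3]
  push_cast
  ring

end pair

section par

variable {M : ℕ} {F : FL M} {cp γ L : ℝ} {A m0 : ℕ} {B : Finset ℕ}

/-- the constant of `pair_weight` -/
noncomputable def C9 : ℝ := Cw * Real.exp 2

lemma C9_pos : 0 < C9 := mul_pos Cw_pos (Real.exp_pos _)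

set_option maxHeartbeats 800000 in
open Classical in
/-- **THE WEIGHT OF A PAIR OF THE VECTOR CLASS**: own index `i`, off `CKyP` -/
theorem pair_weight (hM : 0 < M) (hL : 0 < L) (hA : 1 ≤ A) {i : ℕ} (hi : 2 ≤ i)
    {b c y G z z' : ℕ} (hb : b ∣ M) (hc : c ∣ M)
    (hG : G ∈ cores (hiFL hM y F)) (hz : z ∣ PM (hiFL hM y F) G) (hz' : z' ∣ PM (hiFL hM y F) G)
    (eb : upp y b = G * z) (ec : upp y c = G * z')
    (hlow : low ((ParOf cp A m0 γ L M B).cut i) z = low ((ParOf cp A m0 γ L M B).cut i) z')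
    (hgcd : Nat.gcd z z' = low ((ParOf cp A m0 γ L M B).cut i) z) {h : ℤ}
    (hl : h ∈ Lnk γ L b c) (hF : FarA F (ParOf cp A m0 γ L M B) i b c h)
    (hK : ¬ CKyP F (ParOf cp A m0 γ L M B) b c h) :
    (Nat.gcd b c : ℝ) * nu M b * nu M c * boostB M (lamOf cp A m0 γ L M B F) b c h ≤
      C9 * (1 + Real.logb 2
        (low ((ParOf cp A m0 γ L M B).cut i) (b / Nat.gcd b c) *
          low ((ParOf cp A m0 γ L M B).cut i) (c / Nat.gcd b c) : ℕ)) *
        ((Nat.gcd b c : ℝ) * nu M b * nu M c *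
          (kk (hiFL hM y F) G ((ParOf cp A m0 γ L M B).cut i) z (upp y b) (upp y c) *
            BoostRx398.bst (prQ y) (low y M) (low y b) (low y c) *
            min (Ww (PM (hiFL hM y F) G) (fun p => lamOf cp A m0 γ L M B F b p = none) y
                ((ParOf cp A m0 γ L M B).cut i) z)
              (Ww (PM (hiFL hM y F) G) (fun p => lamOf cp A m0 γ L M B F c p = none) y
                ((ParOf cp A m0 γ L M B).cut i) z'))) := by
  set P := ParOf cp A m0 γ L M B with hP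
  have hi1 : 1 ≤ i := by omega
  have hx2 : 2 ≤ P.cut i := two_le_cut hA hi1
  have hxQ : P.cut i ≤ P.cut (2 * i) := cut_mono' (by omega)
  have hb0 : 0 < b := Nat.pos_of_dvd_of_pos hb hM
  have hc0 : 0 < c := Nat.pos_of_dvd_of_pos hc hM
  have hLg : L ≤ (Nat.gcd b c : ℝ) := by
    have h2 : (1 : ℝ) ≤ 2 ^ i := one_le_pow₀ (by norm_num)
    have h4 : (2 : ℝ) ^ i * L ≤ (Nat.gcd b c : ℝ) := hF.lo
    nlinarith
  have h1 := weight_frm (F := F) (P := P) hM hL (fun i => rfl) (fun b i => min_le_right _ _)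
    hb hc hG hz hz' eb ec hlow hgcd hx2 hxQ hF.good hl hF.al hLg
  have h3 : 3 ≤ P.cut i := by
    rw [hP, cut_eq]
    have h4 : 2 ≤ A * i := hi.trans (Nat.le_mul_of_pos_left _ hA)
    have h5 : 2 ^ 2 ≤ 2 ^ (A * i) := Nat.pow_le_pow_right (by norm_num) h4
    omega
  have hT : LevT F P i b c h := LevT.of_FarA hL h3 hF
  have hB := KyPurex971.B1_off_low hT hK hb0 hc0 (KyPurex971.t_le_cut hA i)
  have hg : 0 < Nat.gcd b c := Nat.gcd_pos_of_pos_left _ hb0
  set uv := low (P.cut i) (b / Nat.gcd b c) * low (P.cut i) (c / Nat.gcd b c) with huv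
  have huv0 : uv ≠ 0 := (Nat.mul_pos (low_pos _ _) (low_pos _ _)).ne'
  have hpl := prod_pf_le_log huv0
  have hB' : PureL2x232.B1 b c ≤ Real.exp 2 * (1 + Real.logb 2 uv) :=
    hB.trans (mul_le_mul_of_nonneg_left hpl (Real.exp_pos _).le)
  have hr : Real.log (P.cut (2 * i) : ℕ) / Real.log (P.cut i : ℕ) = 2 := GWwtx360.log_ratio hA hi1
  rw [hr] at h1
  set KK := (Nat.gcd b c : ℝ) * nu M b * nu M c *
          (kk (hiFL hM y F) G (P.cut i) z (upp y b) (upp y c) *
            BoostRx398.bst (prQ y) (low y M) (low y b) (low y c) *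
            min (Ww (PM (hiFL hM y F) G) (fun p => lamR F P b p = none) y (P.cut i) z)
              (Ww (PM (hiFL hM y F) G) (fun p => lamR F P c p = none) y (P.cut i) z')) with hKK
  have hKK0 : 0 ≤ KK := by
    refine mul_nonneg (mul_nonneg (mul_nonneg (by positivity) (nu_nonneg _ _)) (nu_nonneg _ _))
      (mul_nonneg (mul_nonneg (kk_nonneg _ _ _ _ _ _) (bst_nonneg _ _ _ _))
        (le_min (Ww_nonneg _ _ _ _ _) (Ww_nonneg _ _ _ _ _)))
  refine h1.trans ?_
  calc Real.exp 200 * (Real.exp (22 / Real.log 2) * 2) * PureL2x232.B1 b c * KK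
      ≤ Real.exp 200 * (Real.exp (22 / Real.log 2) * 2) *
          (Real.exp 2 * (1 + Real.logb 2 uv)) * KK :=
        mul_le_mul_of_nonneg_right (mul_le_mul_of_nonneg_left hB' (by positivity)) hKK0
    _ = C9 * (1 + Real.logb 2 uv) * KK := by
        unfold C9 Cw
        ring

end par

end Crest.Agent.R4C.VecWtx559
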