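import Crest.Agent.R4C.VDef_24
import Crest.Agent.R4C.VecWt_559

/-!
# Row 4, GW section, vector case: the last inequality of `TPair` (helper360)

* `Wc_le_VA` : the actual coins of the full word: `Wc F P y (cut i) b ≤ VA Z (Act ..) w j` if `j ≤ i`
  and no nominal coin fails above `cut j`;
* `B1_vec`   : `B1 b c ≤ 8 · 2^((a+a')/4) · offW b · offW c`;
* `kap2_ge`  : one pair of nodes of the kernel;
* **`tpair_weight`** : the inequality of `TPair`.
-/

set_option autoImplicit false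

namespace Crest.Agent.R4C.VWtx360

open Finset Crest.Agent.R4C.Basex935 Crest.Agent.R4C.FLDefx935 Crest.Agent.R4C.BoostCx972
  Crest.Agent.R4C.CrCoinx935 Crest.Agent.R4C.CrCountx935 Crest.Agent.R4C.Bridgex882
  Crest.Agent.R4C.PrefixMx882 Crest.Agent.R4C.Rulex945 Crest.Agent.R4C.Sharedx11
  Crest.Agent.R4C.Splitx945 Crest.Agent.R4C.BoostTopx19 Crest.Agent.R4C.BoostAlx100
  Crest.Agent.R4C.Cutx50 Crest.Agent.R4C.PureClsx863 Crest.Agent.R4C.Spinex946
  Crest.Agent.R4C.GWdefx982 Crest.Agent.R4C.VecPairx19 Crest.Agent.R4C.VDefx24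
open Crest.Agent.R4C.PureL2x232 (hiFL)
open Crest.Agent.R4C.GWwtx360 (Vw Wc weight_pair prod_pf_mono prod_fac_anti VR_mul_le Vw_upp
  log_ratio fac_pos prime_free)
open Crest.Agent.R4C.FamBudx252 (Good VA)

/-! ### products -/

lemma prod_pf_card (S : Finset ℕ) (hS : ∀ p ∈ S, 2 ≤ p) :
    ∏ p ∈ S, pf p ≤ (S.card : ℝ) + 1 := by
  classical
  revert hS
  refine Finset.induction_on_max S ?_ ?_
  · intro _; simp
  · intro a S ha ih hS
    have haS : a ∉ S := fun h => lt_irrefl a (ha a h)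
    rw [prod_insert haS, card_insert_of_notMem haS]
    have h1 := ih fun p hp => hS p (mem_insert_of_mem hp)
    have h2 : 2 ≤ a := hS a (mem_insert_self _ _)
    have h3 : S.card + 2 ≤ a := by
      have h4 : S ⊆ Ico 2 a := fun p hp =>
        mem_Ico.2 ⟨hS p (mem_insert_of_mem hp), ha p hp⟩
      have h5 := card_le_card h4
      rw [Nat.card_Ico] at h5
      omega
    have h3' : (S.card : ℝ) + 2 ≤ a := by exact_mod_cast h3
    have hc0 : (0 : ℝ) ≤ S.card := Nat.cast_nonneg _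
    have h6 : pf a ≤ ((S.card : ℝ) + 2) / (S.card + 1) := by
      unfold pf
      have ha0 : (0 : ℝ) < a := by linarith
      have h7 : (1 - 1 / (a : ℝ))⁻¹ = a / (a - 1) := by
        have : (a : ℝ) - 1 ≠ 0 := by linarith
        field_simp
      rw [h7, div_le_div_iff₀ (by linarith) (by linarith)]
      nlinarith
    have h8 : 0 ≤ ∏ p ∈ S, pf p := prod_nonneg fun p hp => by
      have h9 : (2 : ℝ) ≤ p := by exact_mod_cast hS p (mem_insert_of_mem hp)
      unfold pf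
      have : 1 / (p : ℝ) ≤ 1 := by
        rw [div_le_one (by linarith)]
        linarith
      exact inv_nonneg.2 (by linarith)
    calc pf a * ∏ p ∈ S, pf p ≤ (((S.card : ℝ) + 2) / (S.card + 1)) * ((S.card : ℝ) + 1) :=
          mul_le_mul h6 h1 h8 (by positivity)
      _ = _ := by
        push_cast
        field_simp
        ring

lemma prod_pf_dvd (m : ℕ) (hm : 0 < m) {S : Finset ℕ} (hS : S ⊆ m.primeFactors) :
    ∏ p ∈ S, pf p ≤ (Nat.log 2 m : ℝ) + 1 := by
  refine (prod_pf_mono (fun p hp => Nat.prime_of_mem_primeFactors hp) hS).trans ?_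
  refine (prod_pf_card _ fun p hp => (Nat.prime_of_mem_primeFactors hp).two_le).trans ?_
  have h0 : 2 ^ m.primeFactors.card ≤ m := by
    calc 2 ^ m.primeFactors.card = ∏ _p ∈ m.primeFactors, 2 := by rw [prod_const]
      _ ≤ ∏ p ∈ m.primeFactors, p :=
          prod_le_prod' fun p hp => (Nat.prime_of_mem_primeFactors hp).two_le
      _ ≤ m := Nat.le_of_dvd hm (Nat.prod_primeFactors_dvd m)
  have h1 : m.primeFactors.card ≤ Nat.log 2 m := Nat.le_log_of_pow_le (by norm_num) h0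
  have h2 : (m.primeFactors.card : ℝ) ≤ Nat.log 2 m := by exact_mod_cast h1
  linarith

section main

variable {M : ℕ} {F : FL M} {P : Par}

/-- actual coins: the product over the coins of `b` in `(y, cut i]` is at most the weight -/
lemma Wc_le_VA (hM : 0 < M) {y G w d i j : ℕ} (hG : G ∈ cores (hiFL hM y F))
    (hw : w ∣ PM (hiFL hM y F) G) (ed : upp y d = G * w) {Z : World}
    (hZN : Z.N = PM (hiFL hM y F) G) (hZc : Z.cut = P.cut) (hcut : Monotone P.cut) (hj : j ≤ i)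
    (hgd : Good Z (Act F P Z.N y w d) w j) :
    Wc F P y (P.cut i) d ≤ VA Z (Act F P Z.N y w d) w j := by
  classical
  have hMy : 0 < upp y M := upp_pos y M
  have hN := PM_pos (F := hiFL hM y F) G
  have hG0 : G ≠ 0 := (Nat.pos_of_dvd_of_pos (mem_cores.1 hG).1.1 hMy).ne'
  unfold VA
  rw [if_pos hgd, hZc]
  unfold Wc Act
  refine prod_fac_anti (fun p hp => prime_free (mem_filter.1 hp).1) ?_
  intro p hp
  simp only [mem_filter, mem_free, hZN] at hp ⊢
  obtain ⟨⟨⟨h2, h3⟩, h4, h5⟩, h6⟩ := hp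
  have h7 := (Nat.factorization_le_iff_dvd (mul_ne_zero hG0 hN.ne') hMy.ne').2
    (mul_PM_dvd (F := hiFL hM y F) hMy hG) p
  rw [fact_mul_word hMy hG dvd_rfl, fact_upp, if_pos (by omega)] at h7
  have h8 : d.factorization p = G.factorization p + w.factorization p := by
    rw [← fact_mul_word hMy hG hw, ← ed, fact_upp, if_pos (by omega)]
  refine ⟨⟨?_, ?_⟩, h4, h6.trans (hcut hj), h5⟩
  · rw [← Nat.support_factorization, Finsupp.mem_support_iff]
    omega
  · omega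

/-- `n + 2 ≤ 8 · 2^(n/4)` -/
lemma num_le (n : ℝ) (hn : 0 ≤ n) : n + 2 ≤ 8 * (2 : ℝ) ^ (n / 4) := by
  have h1 : (2 : ℝ) ^ (n / 4) = Real.exp (Real.log 2 * (n / 4)) := by
    rw [← Real.rpow_def_of_pos (by norm_num)]
  have h2 := Real.add_one_le_exp (Real.log 2 * (n / 4))
  have h3 := Real.log_two_gt_d9
  rw [h1]
  nlinarith

/-- the boost of the differing primes -/
lemma B1_vec (hM : 0 < M) {b c i a a' e X0 : ℕ} (hb : b ∣ M) (hc : c ∣ M)
    (hgood : F.good (P.cut i) b c) (hcl : VCl P i a a' e b c) (hX0 : X0 ≤ P.cut i) :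
    PureL2x232.B1 b c ≤ 8 * (2 : ℝ) ^ ((a + a' : ℝ) / 4) *
      (B1Levx52.offW F X0 b * B1Levx52.offW F X0 c) := by
  classical
  set x := P.cut i with hx
  set s := b / Nat.gcd b c with hs
  set s' := c / Nat.gcd b c with hs'
  have hb0 : 0 < b := Nat.pos_of_dvd_of_pos hb hM
  have hc0 : 0 < c := Nat.pos_of_dvd_of_pos hc hM
  have hg0 : 0 < Nat.gcd b c := Nat.gcd_pos_of_pos_left c hb0
  have hs0 : 0 < s := Nat.div_pos (Nat.le_of_dvd hb0 (Nat.gcd_dvd_left b c)) hg0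
  have hs0' : 0 < s' := Nat.div_pos (Nat.le_of_dvd hc0 (Nat.gcd_dvd_right b c)) hg0
  set D := (s * s').primeFactors with hD
  have hDp : ∀ p ∈ D, p.Prime := fun p hp => Nat.prime_of_mem_primeFactors hp
  have e1 : PureL2x232.B1 b c = ∏ p ∈ D, pf p := rfl
  rw [e1, ← prod_filter_mul_prod_filter_not D (fun p => x < p) pf]
  have h1 : ∏ p ∈ D.filter (fun p => x < p), pf p ≤
      B1Levx52.offW F X0 b * B1Levx52.offW F X0 c := by
    have h2 : ∏ p ∈ D.filter (fun p => x < p), pf p ≤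
        B1Levx52.offW F x b * B1Levx52.offW F x c := B1Levx52.B1_le (F := F) hM hb hc hgood
    refine h2.trans (mul_le_mul (B1Levx52.offW_anti hX0 b) (B1Levx52.offW_anti hX0 c) ?_ ?_)
    · linarith [B1Levx52.one_le_offW (F := F) x c]
    · linarith [B1Levx52.one_le_offW (F := F) X0 b]
  obtain ⟨l1, l2, _⟩ := hcl
  have hu0 : 0 < low x s := low_pos _ _
  have hv0 : 0 < low x s' := low_pos _ _
  have h2 : ∏ p ∈ D.filter (fun p => ¬ x < p), pf p ≤ 8 * (2 : ℝ) ^ ((a + a' : ℝ) / 4) := by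
    have hsub : D.filter (fun p => ¬ x < p) ⊆ (low x s * low x s').primeFactors := by
      intro p hp
      rw [mem_filter] at hp
      have hpp := hDp p hp.1
      have hpx : p ≤ x := not_lt.1 hp.2
      have h3 := Nat.dvd_of_mem_primeFactors hp.1
      rw [Nat.mem_primeFactors]
      refine ⟨hpp, ?_, (Nat.mul_pos hu0 hv0).ne'⟩
      rcases (Nat.Prime.dvd_mul hpp).1 h3 with h4 | h4
      · refine Dvd.dvd.mul_right ?_ _
        rw [hpp.dvd_iff_one_le_factorization hu0.ne', fact_low, if_pos hpx]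
        exact hpp.factorization_pos_of_dvd hs0.ne' h4
      · refine Dvd.dvd.mul_left ?_ _
        rw [hpp.dvd_iff_one_le_factorization hv0.ne', fact_low, if_pos hpx]
        exact hpp.factorization_pos_of_dvd hs0'.ne' h4
    refine (prod_pf_dvd _ (Nat.mul_pos hu0 hv0) hsub).trans ?_
    have h3 : low x s < 2 ^ (a + 1) := by
      rw [← l1]; exact Nat.lt_pow_succ_log_self (by norm_num) _
    have h4 : low x s' < 2 ^ (a' + 1) := by
      rw [← l2]; exact Nat.lt_pow_succ_log_self (by norm_num) _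
    have h5 : low x s * low x s' < 2 ^ (a + a' + 2) := by
      calc low x s * low x s' < 2 ^ (a + 1) * 2 ^ (a' + 1) :=
            Nat.mul_lt_mul'' h3 h4
        _ = 2 ^ (a + a' + 2) := by rw [← pow_add]; congr 1; omega
    have h6 : Nat.log 2 (low x s * low x s') < a + a' + 2 :=
      Nat.log_lt_of_lt_pow (Nat.mul_pos hu0 hv0).ne' h5
    have h7 : (Nat.log 2 (low x s * low x s') : ℝ) + 1 ≤ (a + a' : ℝ) + 2 := by
      have : Nat.log 2 (low x s * low x s') + 1 ≤ a + a' + 2 := h6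
      exact_mod_cast this
    exact h7.trans (num_le _ (by positivity))
  have n1 : 0 ≤ ∏ p ∈ D.filter (fun p => ¬ x < p), pf p := prod_nonneg fun p hp =>
    (GWwtx360.pf_pos (hDp p (mem_filter.1 hp).1)).le
  have n2 : 0 ≤ ∏ p ∈ D.filter (fun p => x < p), pf p := prod_nonneg fun p hp =>
    (GWwtx360.pf_pos (hDp p (mem_filter.1 hp).1)).le
  rw [mul_comm]
  exact mul_le_mul h2 h1 n2 (n1.trans h2)

open Classical in
/-- one pair of nodes of the kernel -/
lemma kap2_ge {Z : World} (hg0 : ∀ ν, 0 ≤ Z.g ν) {R : Node → Node → Prop} {z z' ν ν' : Node}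
    {w w' : ℕ} (hν : ν ∈ Z.Nd z) (hν' : ν' ∈ Z.Nd z') (hR : R ν ν')
    (hm : (w ∈ Z.A z ν ∧ w' ∈ Z.S ν') ∨ (w ∈ Z.S ν ∧ w' ∈ Z.A z' ν')) :
    1 / Z.g ν ≤ kap2 Z R z z' w w' := by
  unfold kap2
  have h0 : ∀ x y : Node, 0 ≤ (if R x y ∧ ((w ∈ Z.A z x ∧ w' ∈ Z.S y) ∨
      (w ∈ Z.S x ∧ w' ∈ Z.A z' y)) then 1 / Z.g x else 0) := by
    intro x y
    split_ifs
    · exact one_div_nonneg.2 (hg0 x)
    · exact le_rfl
  calc 1 / Z.g ν = (if R ν ν' ∧ ((w ∈ Z.A z ν ∧ w' ∈ Z.S ν') ∨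
      (w ∈ Z.S ν ∧ w' ∈ Z.A z' ν')) then 1 / Z.g ν else 0) := by rw [if_pos ⟨hR, hm⟩]
    _ ≤ ∑ y ∈ Z.Nd z', (if R ν y ∧ ((w ∈ Z.A z ν ∧ w' ∈ Z.S y) ∨
      (w ∈ Z.S ν ∧ w' ∈ Z.A z' y)) then 1 / Z.g ν else 0) :=
        single_le_sum (f := fun y => (if R ν y ∧ ((w ∈ Z.A z ν ∧ w' ∈ Z.S y) ∨
          (w ∈ Z.S ν ∧ w' ∈ Z.A z' y)) then 1 / Z.g ν else 0)) (fun y _ => h0 ν y) hν'
    _ ≤ _ := single_le_sum (f := fun x => ∑ y ∈ Z.Nd z', (if R x y ∧ ((w ∈ Z.A z x ∧ w' ∈ Z.S y) ∨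
          (w ∈ Z.S x ∧ w' ∈ Z.A z' y)) then 1 / Z.g x else 0))
        (fun x _ => sum_nonneg fun y _ => h0 x y) hν

/-- the constant -/
noncomputable def CW : ℝ := Real.exp 200 * (Real.exp (22 / Real.log 2) * 2) * 8

lemma CW_pos : 0 < CW := by unfold CW; positivity

set_option maxHeartbeats 1600000 in
open Classical in
/-- **the last inequality of `TPair`** -/
theorem tpair_weight (hM : 0 < M) (hL : 0 < P.L) (hY : ∀ i, P.Y i = 2 ^ i)
    (hthr : ∀ b i, P.thr b i ≤ Real.exp ((P.Y (i - 1) : ℝ) ^ (4 / 5 : ℝ))) {A : ℕ} (hA : 1 ≤ A)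
    (hcut : ∀ m, P.cut m = 2 ^ (A * m)) {i a a' e G w w' u v l b c X0 : ℕ} {h : ℤ} (hi : 1 ≤ i)
    (hV : VP hM F P (yc a a') i G w w' u v l b c h) (hfar : FarA F P i b c h)
    (hcl : VCl P i a a' e b c) (hl : h ∈ Lnk P.γ P.L b c) (hX0 : X0 ≤ P.cut i)
    {Z : World} (hZN : Z.N = PM (hiFL hM (yc a a') F) G) (hZc : Z.cut = P.cut)
    {R : Node → Node → Prop} {z z' ν ν' : Node} (hν : ν ∈ Z.Nd z) (hν' : ν' ∈ Z.Nd z')
    (hR : R ν ν') (hgν : Z.g ν = nu (low (P.cut i) Z.N) (low (P.cut i) w))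
    (hm : (w ∈ Z.A z ν ∧ w' ∈ Z.S ν') ∨ (w ∈ Z.S ν ∧ w' ∈ Z.A z' ν'))
    (hz : z.1 ≤ i) (hz' : z'.1 ≤ i)
    (hG1 : Good Z (Act F P Z.N (yc a a') w b) w z.1)
    (hG2 : Good Z (Act F P Z.N (yc a a') w' c) w' z'.1) :
    boostB M (lamR F P) b c h ≤ CW * (2 : ℝ) ^ ((a + a' : ℝ) / 4) *
      (B1Levx52.offW F X0 b * B1Levx52.offW F X0 c) *
      (kap2 Z R z z' w w' / (VR (hiFL hM (yc a a') F) G * (Nat.gcd w w' : ℝ)) *
        BoostRx398.bst (prQ (yc a a')) (low (yc a a') M) (low (yc a a') b) (low (yc a a') c) *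
        min (Wb F P Z (yc a a') z w b) (Wb F P Z (yc a a') z' w' c)) := by
  set y := yc a a' with hy
  set F' := hiFL hM y F with hF'
  set x := P.cut i with hx
  set N := PM F' G with hNdef
  have hMy : 0 < upp y M := upp_pos y M
  have hN : 0 < N := PM_pos (F := F') G
  have hmono : Monotone P.cut := fun m n hmn => by
    rw [hcut, hcut]
    exact Nat.pow_le_pow_right (by norm_num) (Nat.mul_le_mul_left _ hmn)
  have hx2 : 2 ≤ x := by
    rw [hx, hcut]
    calc 2 = 2 ^ 1 := by norm_num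
      _ ≤ 2 ^ (A * i) := Nat.pow_le_pow_right (by norm_num) (Nat.mul_pos hA hi)
  have hXQ : x ≤ P.cut (2 * i) := hmono (by omega)
  have hLg : P.L ≤ (Nat.gcd b c : ℕ) := by
    have h1 := hfar.lo
    have h2 : (1 : ℝ) ≤ 2 ^ i := one_le_pow₀ (by norm_num)
    nlinarith
  have hb0 : b ≠ 0 := (Nat.pos_of_dvd_of_pos hV.hb hM).ne'
  have hc0 : c ≠ 0 := (Nat.pos_of_dvd_of_pos hV.hc hM).ne'
  have hw0 : 0 < w := Nat.pos_of_dvd_of_pos hV.hw hN
  have heq : ∀ p, p.Prime → y < p → p ≤ x → b.factorization p = c.factorization p := by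
    intro p _ hyp hpx
    have h1 : (low x w').factorization p = (low x w).factorization p := by rw [hV.low_eq]
    rw [fact_low, fact_low, if_pos hpx, if_pos hpx] at h1
    have h2 : (upp y b).factorization p = b.factorization p := by
      rw [fact_upp, if_pos (by omega)]
    have h3 : (upp y c).factorization p = c.factorization p := by
      rw [fact_upp, if_pos (by omega)]
    rw [← h2, ← h3, hV.ub, hV.uc, fact_mul_word hMy hV.hG hV.hw, fact_mul_word hMy hV.hG hV.hw', h1]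
  -- the weight of the pair
  have h1 := weight_pair (F := F) (P := P) (y := y) hM hV.hb hV.hc hL hY hthr hx2 hXQ hfar.good hl
    hfar.al hLg heq
  have hr : Real.log (P.cut (2 * i) : ℕ) / Real.log (x : ℕ) = 2 := by
    rw [hx, hcut, hcut]; exact log_ratio hA hi
  rw [hr] at h1
  have hB1 := B1_vec (F := F) (P := P) hM hV.hb hV.hc hfar.good hcl hX0
  -- the masses
  set g := nu (low x N) (low x w) with hg
  have hlw : low x w ∣ low x N := low_dvd x hN.ne' hV.hw
  have hgpos : 0 < g := nu_pos (low_pos x _) hlw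
  have hnpos : (0 : ℝ) < (low x w : ℕ) := by exact_mod_cast low_pos x w
  have hVR : 0 < VR F' G := by
    unfold VR
    have hR := RR_pos hMy hV.hG
    have h2 : (0 : ℝ) < ((PureClsx863.RR F' G).totient : ℝ) := by
      exact_mod_cast Nat.totient_pos.2 hR
    positivity
  have h2 : VR F' G * ((low x w : ℝ) * g) ≤ Vw M y x b := by
    have h3 := VR_mul_le (x := x) (y := y) hMy hV.hG hV.hw
    rw [← hV.ub, Vw_upp] at h3
    exact h3
  have hK2 : 1 / g ≤ kap2 Z R z z' w w' := by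
    have h3 := kap2_ge (Z := Z) (fun ν => nu_nonneg _ _) hν hν' hR hm
    rw [hgν, hZN] at h3
    exact h3
  -- the coins
  have hW1 := Wc_le_VA (F := F) (P := P) hM hV.hG hV.hw hV.ub hZN hZc hmono hz hG1
  have hW2 := Wc_le_VA (F := F) (P := P) hM hV.hG hV.hw' hV.uc hZN hZc hmono hz' hG2
  set bo := boostB M (lamR F P) b c h with hbo'
  have hbo : 0 ≤ bo := Spinex946.boostB_nonneg M (lamR F P) b c h
  rw [VecWtx559.bst_low] at h1
  set bs := BoostRx398.bst (prQ y) (low y M) (low y b) (low y c) with hbs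
  have hbs0 : 0 ≤ bs := bst_nonneg _ _ _ _
  have hgw : (Nat.gcd w w' : ℝ) = (low x w : ℕ) := by rw [hV.gcd_w]
  set mn := min (Wb F P Z y z w b) (Wb F P Z y z' w' c) with hmn
  have hmin : min (Wc F P y x b) (Wc F P y x c) ≤ mn := min_le_min hW1 hW2
  have hWc0 : 0 ≤ min (Wc F P y x b) (Wc F P y x c) :=
    le_min (GWwtx360.Wc_nonneg _ _ _) (GWwtx360.Wc_nonneg _ _ _)
  have hmn0 : 0 ≤ mn := hWc0.trans hmin
  set E := Real.exp 200 * (Real.exp (22 / Real.log 2) * 2) with hE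
  have hE0 : 0 ≤ E := by positivity
  set T := (2 : ℝ) ^ ((a + a' : ℝ) / 4) * (B1Levx52.offW F X0 b * B1Levx52.offW F X0 c) with hT
  have hB1' : PureL2x232.B1 b c ≤ 8 * T := by rw [hT]; linarith [hB1]
  have hT0 : 0 ≤ 8 * T := (B1_nonneg b c).trans hB1'
  -- `VR n g bo ≤ E 8 T bs mn`
  have h3 : VR F' G * ((low x w : ℝ) * g) * bo ≤ E * (8 * T) * (bs * mn) := by
    calc VR F' G * ((low x w : ℝ) * g) * bo ≤ Vw M y x b * bo :=
          mul_le_mul_of_nonneg_right h2 hbo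
      _ ≤ E * PureL2x232.B1 b c * (bs * min (Wc F P y x b) (Wc F P y x c)) := h1
      _ ≤ E * (8 * T) * (bs * mn) := by
          refine mul_le_mul (mul_le_mul_of_nonneg_left hB1' hE0)
            (mul_le_mul_of_nonneg_left hmin hbs0) (mul_nonneg hbs0 hWc0) (mul_nonneg hE0 hT0)
  have h4 : bo ≤ E * (8 * T) * (bs * mn) * ((1 / g) / (VR F' G * (low x w : ℝ))) := by
    have h5 : 0 < VR F' G * ((low x w : ℝ) * g) := by positivity
    have h6 : bo ≤ E * (8 * T) * (bs * mn) / (VR F' G * ((low x w : ℝ) * g)) := by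
      rw [le_div_iff₀ h5, mul_comm bo]
      exact h3
    refine h6.trans (le_of_eq ?_)
    field_simp
  have h5 : (1 / g) / (VR F' G * (low x w : ℝ)) ≤
      kap2 Z R z z' w w' / (VR F' G * (low x w : ℝ)) :=
    div_le_div_of_nonneg_right hK2 (by positivity)
  have h6 : 0 ≤ E * (8 * T) * (bs * mn) :=
    mul_nonneg (mul_nonneg hE0 hT0) (mul_nonneg hbs0 hmn0)
  refine (h4.trans (mul_le_mul_of_nonneg_left h5 h6)).trans (le_of_eq ?_)
  rw [hgw, hT, CW, ← hE]
  ring

end main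

end Crest.Agent.R4C.VWtx360
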