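import Crest.Agent.R4C.GoodV_20
import Crest.Agent.R4C.VWt_360
import Crest.Agent.R4C.KillV_19
import Crest.Agent.R4C.TBud_322
import Crest.Agent.R4C.HyOf_281

/-!
# Row 4, GW section, vector case: the pair side `VDef_24.TPair` (helper20)

Plug of `exists_vp_cls`, `VP.window` (19), `rel_of_link` (15), `killV` (19), `good_birth'` (20),
`tpair_weight` (360), `vw_ok` (322).
-/

set_option autoImplicit false

open Finset
open Crest.Agent.R4C.Basex935 Crest.Agent.R4C.Cutx50 Crest.Agent.R4C.PrefixMx882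
open Crest.Agent.R4C.FLDefx935 Crest.Agent.R4C.Rulex945 Crest.Agent.R4C.PureClsx863
open Crest.Agent.R4C.PureL2x232 (hiFL)
open Crest.Agent.R4C.GWdefx982 Crest.Agent.R4C.NHx656 Crest.Agent.R4C.VecPairx19
open Crest.Agent.R4C.Splitx945 Crest.Agent.R4C.Spinex946 Crest.Agent.R4C.CrCoinx935
open Crest.Agent.R4C.Bridgex882
open Crest.Agent.R4C.VDefx24
open Crest.Agent.R4C.HyOfx281 (Num evNum hy_of_num)

namespace Crest.Agent.R4C.TPairx20

/-- `(i+1)^8 ≤ 2^(cp (i-1))` for large `i` -/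
lemma exists_pow (cp : ℝ) (hcp : 0 < cp) :
    ∃ m1 : ℕ, ∀ i : ℕ, m1 ≤ i → ((i : ℝ) + 1) ^ 8 ≤ (2 : ℝ) ^ (cp * ((i : ℝ) - 1)) := by
  set r : ℝ := (2 : ℝ) ^ cp with hr
  have hr1 : 1 < r := Real.one_lt_rpow (by norm_num) hcp
  have hr0 : 0 < r := by linarith
  have h := tendsto_pow_const_div_const_pow_of_one_lt 8 hr1
  have h2 : (0 : ℝ) < 1 / r ^ 2 := by positivity
  have h3 := (h.eventually (gt_mem_nhds h2))
  obtain ⟨m1, hm1⟩ := Filter.eventually_atTop.1 h3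
  refine ⟨m1, fun i hi => ?_⟩
  have h4 := hm1 (i + 1) (by omega)
  have hp : (0 : ℝ) < r ^ (i + 1) := by positivity
  rw [div_lt_iff₀ hp] at h4
  push_cast at h4
  refine h4.le.trans (le_of_eq ?_)
  have e : (2 : ℝ) ^ (cp * ((i : ℝ) - 1)) * r ^ 2 = r ^ (i + 1) := by
    rw [hr, ← Real.rpow_natCast, ← Real.rpow_natCast, ← Real.rpow_mul (by norm_num),
      ← Real.rpow_mul (by norm_num), ← Real.rpow_add (by norm_num)]
    congr 1
    push_cast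
    ring
  rw [← e]
  field_simp

lemma ev_pow : Ev fun cp _ _ m0 => ∀ i : ℕ, m0 ≤ i →
    ((i : ℝ) + 1) ^ 8 ≤ (2 : ℝ) ^ (cp * ((i : ℝ) - 1)) :=
  Ev.of_m0 fun cp _ _ hcp _ => by
    obtain ⟨m1, h⟩ := exists_pow cp hcp
    exact ⟨m1, fun m0 hm i hi => h i (hm.trans hi)⟩

/-- numerics of the kill -/
lemma kill_num {cp : ℝ} {A i : ℕ} (hcp : 0 < cp) (hcp2 : cp ≤ 1 / 200) (hA : 1 ≤ A) (hi : 2 ≤ i)
    (h : ((i : ℝ) + 1) ^ 8 ≤ (2 : ℝ) ^ (cp * ((i : ℝ) - 1))) :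
    3 * (1 / 2 * ((i : ℝ) + 1) ^ 8 * (2 : ℝ) ^ (cp * i)) ^ 2 ≤ (2 : ℝ) ^ i ∧
    1 / 2 * ((i : ℝ) + 1) ^ 8 * (2 : ℝ) ^ (cp * i) ≤ (2 : ℝ) ^ ((i : ℝ) / 8) ∧
    1 / 2 * ((i : ℝ) + 1) ^ 8 * (2 : ℝ) ^ (cp * i) ≤
      (2 : ℝ) ^ (cp * (((A + 1) * i : ℕ) - 1 : ℝ)) := by
  have hi' : (2 : ℝ) ≤ i := by exact_mod_cast hi
  have hA' : (1 : ℝ) ≤ A := by exact_mod_cast hA
  have h0 : (0 : ℝ) < (2 : ℝ) ^ (cp * i) := by positivity
  set K := 1 / 2 * ((i : ℝ) + 1) ^ 8 * (2 : ℝ) ^ (cp * i) with hK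
  have hK0 : 0 ≤ K := by positivity
  have h1 : K ≤ 1 / 2 * (2 : ℝ) ^ (cp * (2 * i - 1)) := by
    calc K ≤ 1 / 2 * (2 : ℝ) ^ (cp * ((i : ℝ) - 1)) * (2 : ℝ) ^ (cp * i) :=
          mul_le_mul_of_nonneg_right (mul_le_mul_of_nonneg_left h (by norm_num)) h0.le
      _ = 1 / 2 * (2 : ℝ) ^ (cp * (2 * i - 1)) := by
          rw [mul_assoc, ← Real.rpow_add (by norm_num)]
          congr 2
          ring
  have h2 : (1 / 2 : ℝ) * (2 : ℝ) ^ (cp * (2 * i - 1)) ≤ (2 : ℝ) ^ (cp * (2 * i - 1)) := by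
    have : (0 : ℝ) < (2 : ℝ) ^ (cp * (2 * i - 1)) := by positivity
    linarith
  refine ⟨?_, ?_, ?_⟩
  · have h3 : K ^ 2 ≤ (1 / 2 * (2 : ℝ) ^ (cp * (2 * i - 1))) ^ 2 := pow_le_pow_left₀ hK0 h1 2
    have h4 : (1 / 2 * (2 : ℝ) ^ (cp * (2 * i - 1))) ^ 2 =
        1 / 4 * (2 : ℝ) ^ (2 * (cp * (2 * i - 1))) := by
      have : (2 : ℝ) ^ (2 * (cp * (2 * i - 1))) = ((2 : ℝ) ^ (cp * (2 * i - 1))) ^ 2 := by
        rw [← Real.rpow_natCast, ← Real.rpow_mul (by norm_num)]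
        congr 1
        push_cast
        ring
      rw [this]
      ring
    have h5 : (2 : ℝ) ^ (2 * (cp * (2 * i - 1))) ≤ (2 : ℝ) ^ ((i : ℕ) : ℝ) := by
      refine Real.rpow_le_rpow_of_exponent_le (by norm_num) ?_
      have : cp * (2 * i - 1) ≤ 1 / 200 * (2 * i - 1) :=
        mul_le_mul_of_nonneg_right hcp2 (by linarith)
      linarith
    rw [Real.rpow_natCast] at h5
    have h6 : (0 : ℝ) < 2 ^ i := by positivity
    rw [h4] at h3
    linarith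
  · refine (h1.trans h2).trans (Real.rpow_le_rpow_of_exponent_le (by norm_num) ?_)
    have : cp * (2 * i - 1) ≤ 1 / 200 * (2 * i - 1) :=
      mul_le_mul_of_nonneg_right hcp2 (by linarith)
    linarith
  · refine (h1.trans h2).trans (Real.rpow_le_rpow_of_exponent_le (by norm_num) ?_)
    refine mul_le_mul_of_nonneg_left ?_ hcp.le
    push_cast
    nlinarith

/-- windows -/
lemma win_of {a u l y b κ : ℕ} (hl : 0 < l) (hκ : κ ≤ 1) (hlb : low y b = l * u) (h1 : 2 ^ a ≤ u)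
    (h2 : u < 2 ^ (a + 1)) : win a (Nat.log 2 l + κ) y b := by
  have a1 := Nat.pow_log_le_self 2 hl.ne'
  have a2 := Nat.lt_pow_succ_log_self (b := 2) (by norm_num) l
  set J := Nat.log 2 l with hJ
  refine ⟨?_, ?_⟩
  · rw [hlb]
    calc 2 ^ (a + (J + κ)) ≤ 2 ^ (a + (J + 1)) := Nat.pow_le_pow_right (by norm_num) (by omega)
      _ = 2 * (2 ^ J * 2 ^ a) := by rw [← pow_add, ← pow_succ']; congr 1; ring
      _ ≤ 2 * (l * u) := Nat.mul_le_mul_left _ (Nat.mul_le_mul a1 h1)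
  · rw [hlb]
    calc l * u < 2 ^ (J + 1) * 2 ^ (a + 1) := Nat.mul_lt_mul'' a2 h2
      _ = 2 ^ (a + J + 2) := by rw [← pow_add]; congr 1; ring
      _ ≤ 2 ^ (a + (J + κ) + 2) := Nat.pow_le_pow_right (by norm_num) (by omega)

lemma s_bd {l κ : ℕ} (hl : 0 < l) (hκ : κ ≤ 1) :
    2 ^ (Nat.log 2 l + κ) ≤ 2 * l ∧ l < 2 ^ (Nat.log 2 l + κ + 1) := by
  have a1 := Nat.pow_log_le_self 2 hl.ne'
  have a2 := Nat.lt_pow_succ_log_self (b := 2) (by norm_num) l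
  set J := Nat.log 2 l with hJ
  refine ⟨?_, ?_⟩
  · calc 2 ^ (J + κ) ≤ 2 ^ (J + 1) := Nat.pow_le_pow_right (by norm_num) (by omega)
      _ = 2 * 2 ^ J := by rw [pow_succ']
      _ ≤ _ := Nat.mul_le_mul_left _ a1
  · exact a2.trans_le (Nat.pow_le_pow_right (by norm_num) (by omega))

open Classical in
/-- **target `TPair`** -/
theorem tpair (γ : ℝ) (X0 : ℕ) : TPair γ X0 := by
  refine (((((TBudx322.vw_ok γ).and evNum).and ev_pow).and
    (Ev.le_A fun _ _ => 10)).and (Ev.le_m0 fun _ _ _ => X0)).mono ?_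
  rintro cp η A m0 ⟨⟨⟨⟨hok, hnum⟩, hpow⟩, hA⟩, hX⟩
  have hA10 : 10 ≤ A := by exact_mod_cast hA
  have hXm : X0 ≤ m0 := by exact_mod_cast hX
  have hA1 : 1 ≤ A := by omega
  refine ⟨VWtx360.CW, VWtx360.CW_pos.le, ?_⟩
  intro L M B F hS a a' e b hb c hc _ h hl hk hvc
  obtain ⟨i, hfar, hdom, hpure, huv, hcl, hq⟩ := hvc
  set P := ParOf cp A m0 γ L M B with hP
  have hM := hS.hM
  have hL : 0 < P.L := hS.hL
  have hbM : b ∣ M := hS.dvd hb
  have hcM : c ∣ M := hS.dvd hc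
  have him0 : m0 ≤ i := hfar.m0
  have hi14 : 14 ≤ i := hnum.m0_14.trans him0
  set u := low (P.cut i) (b / Nat.gcd b c) with hu
  set v := low (P.cut i) (c / Nat.gcd b c) with hv
  obtain ⟨hu1, hu2, hv1, hv2, hu3, hv3, h4⟩ := hcl.bounds
  have hup : 0 < u := low_pos _ _
  have hvp : 0 < v := low_pos _ _
  have huvN : u * v < (i + 1) ^ 8 := by
    have : ((u * v : ℕ) : ℝ) < ((i + 1) ^ 8 : ℕ) := by push_cast; exact huv
    exact_mod_cast this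
  -- `4 u v ≤ cut i`
  have h4cut : 4 * (u * v) ≤ P.cut i := by
    show 4 * (u * v) ≤ 2 ^ (A * i)
    have h3 : i + 1 ≤ 2 ^ i := Nat.lt_two_pow_self
    have h4 : (i + 1) ^ 8 ≤ (2 ^ i) ^ 8 := Nat.pow_le_pow_left h3 8
    have h5 : (4 : ℕ) ≤ 2 ^ (2 * i) := by
      calc (4 : ℕ) = 2 ^ 2 := by norm_num
        _ ≤ _ := Nat.pow_le_pow_right (by norm_num) (by omega)
    calc 4 * (u * v) ≤ 2 ^ (2 * i) * (2 ^ i) ^ 8 := Nat.mul_le_mul h5 (huvN.le.trans h4)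
      _ = 2 ^ (10 * i) := by rw [← pow_mul, ← pow_add]; congr 1; ring
      _ ≤ 2 ^ (A * i) := Nat.pow_le_pow_right (by norm_num) (Nat.mul_le_mul_right _ hA10)
  have hV := exists_vp_cls hM F P hbM hcM hL hfar hpure hl hcl h4cut
  change VP hM F P (yc a a') i (HighFLx863.H0 hM F (yc a a') b)
    (HighFLx863.hw hM F (yc a a') b) (HighFLx863.hw hM F (yc a a') c) u v
    (Nat.gcd (low (yc a a') b) (low (yc a a') c)) b c h at hV
  set y := yc a a' with hy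
  set l := Nat.gcd (low y b) (low y c) with hlg
  obtain ⟨κ, hκ, hw1, hw2⟩ := hV.window hL
  have hHc : HighFLx863.H0 hM F y b = HighFLx863.H0 hM F y c := hV.Gc.symm
  refine ⟨hHc, Nat.log 2 l + κ, win_of hV.l_pos hκ hV.lb hu1 hu2,
    win_of hV.l_pos hκ hV.lc hv1 hv2, ?_⟩
  intro Z w w' hZ hwe hwe'
  set s := Nat.log 2 l + κ with hs
  obtain ⟨hs1, hs2⟩ := s_bd hV.l_pos hκ
  rw [← hs] at hs1 hs2
  rw [← hwe, ← hwe'] at hV
  rw [← hwe] at hw1 hw2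
  set G := HighFLx863.H0 hM F y b with hG
  have hZok : Z.Ok := by rw [hZ]; exact hok L M B F hS _ a a' _ G hV.hG
  have eN : Z.N = PM (hiFL hM y F) G := by rw [hZ]; rfl
  have eG : Z.G0 = G := by rw [hZ]; rfl
  have eL : Z.L = L / 2 ^ s := by rw [hZ]; rfl
  have ecut : Z.cut = P.cut := by rw [hZ]; rfl
  have eγ : Z.γ = γ := by rw [hZ]; rfl
  have ei0 : Z.i0 = max P.m0 (max (GWinstx982.iD (hiFL hM y F) P G) (iA a a')) := by rw [hZ]; rfl
  have eθ : ∀ j, Z.θ j = (2 : ℝ) ^ (cp * j) / 16 := by rw [hZ]; intro j; rfl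
  have hwN : w ∣ Z.N := by rw [eN]; exact hV.hw
  have hwN' : w' ∣ Z.N := by rw [eN]; exact hV.hw'
  -- the first index
  have hi0 : Z.i0 ≤ i := by
    rw [ei0]
    refine max_le him0 (max_le (GWinstx982.iD_le hV.D_le) ?_)
    refine Nat.sInf_le ?_
    show 2 ^ (a + a') < (i + 1) ^ 8
    calc 2 ^ (a + a') = 2 ^ a * 2 ^ a' := pow_add _ _ _
      _ ≤ u * v := Nat.mul_le_mul hu1 hv1
      _ < _ := huvN
  -- nodes
  have hnd : Z.nd i w := by
    refine ⟨hi0, ?_, ?_⟩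
    · show (2 : ℝ) ^ i * Z.L ≤ ((Z.G0 * low (Z.cut i) w : ℕ) : ℝ)
      rw [eL, eG, ecut]; exact hw1
    · show ((Z.G0 * low (Z.cut i) w : ℕ) : ℝ) < 2 ^ (i + 1) * Z.L
      rw [eL, eG, ecut]; exact hw2
  have hlow : low (Z.cut i) w = low (Z.cut i) w' := by rw [ecut]; exact hV.low_eq.symm
  have hnd' : Z.nd i w' := (GWnodex863.nd_congr' hlow).1 hnd
  -- the relation
  have htt : Z.tt i w = ((G * low (P.cut i) w : ℕ) : ℝ) / (L / 2 ^ s) := by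
    show ((Z.G0 * low (Z.cut i) w : ℕ) : ℝ) / Z.L = _
    rw [eL, eG, ecut]
  have hR : RR Z a a' (Z.lab i w) (Z.lab i w') := by
    refine RelDegx15.rel_of_link (W := RelDegx15.Cl (2 ^ a) (2 ^ a')) (R := 2) (p := (u, v))
      (h := h) hZok hwN hwN' hnd hlow ?_ ?_
    · refine RelDegx15.mem_Cl.2 ⟨⟨⟨hu1, ?_⟩, hv1, ?_⟩, hV.cop⟩
      · show u < 2 * 2 ^ a
        rw [← pow_succ']; exact hu2
      · show v < 2 * 2 ^ a'
        rw [← pow_succ']; exact hv2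
    · have h5 := hV.link
      have ey : ∀ x, Z.yy i x = (upp (P.cut i) x : ℝ) * γ := by
        intro x
        show (upp (Z.cut i) x : ℝ) * Z.γ = _
        rw [ecut, eγ]
      rw [htt, ey, ey]
      refine h5.le.trans ?_
      set e0 : ℝ := ((G * low (P.cut i) w : ℕ) : ℝ) with he0
      have h2i : (0 : ℝ) < 2 ^ i * (P.L / 2 ^ s) := by positivity
      have he0p : 0 < e0 := lt_of_lt_of_le h2i hw1
      have hl0 : (0 : ℝ) < l := by exact_mod_cast hV.l_pos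
      have hsl : (2 : ℝ) ^ s ≤ 2 * l := by exact_mod_cast hs1
      have h2s : (0 : ℝ) < 2 ^ s := by positivity
      have hL' : 0 < L := hS.hL
      show L / ((l : ℝ) * e0) ≤ 2 / (e0 / (L / 2 ^ s))
      rw [div_div_eq_mul_div, div_le_div_iff₀ (mul_pos hl0 he0p) he0p, mul_div_assoc',
        div_mul_eq_mul_div, le_div_iff₀ h2s]
      have h6 := mul_le_mul_of_nonneg_left hsl (mul_nonneg hL'.le he0p.le)
      linarith
  -- numerics
  have hθi : Z.θ i = (2 : ℝ) ^ (cp * i) / 16 := eθ i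
  have hui : (u : ℝ) ≤ ((i : ℝ) + 1) ^ 8 := by
    have : u ≤ (i + 1) ^ 8 := (Nat.le_mul_of_pos_right u hvp).trans huvN.le
    exact_mod_cast this
  have hvi : (v : ℝ) ≤ ((i : ℝ) + 1) ^ 8 := by
    have : v ≤ (i + 1) ^ 8 := (Nat.le_mul_of_pos_left v hup).trans huvN.le
    exact_mod_cast this
  obtain ⟨k1, k2, k3⟩ := kill_num (A := A) (i := i) hnum.cp_pos hnum.cp_le hA1 (by omega)
    (hpow i him0)
  have hSw := GWnodex863.mem_S_lab hZok hwN hnd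
  have hSw' := GWnodex863.mem_S_lab hZok hwN' hnd'
  have hNd := GWnodex863.mem_Nd_zone hZok hwN hnd
  have hNd' := GWnodex863.mem_Nd_zone hZok hwN' hnd'
  have hm : (w ∈ Z.A (Z.zone i w) (Z.lab i w) ∧ w' ∈ Z.S (Z.lab i w')) ∨
      (w ∈ Z.S (Z.lab i w) ∧ w' ∈ Z.A (Z.zone i w') (Z.lab i w')) := by
    by_contra hcon
    push Not at hcon
    have n1 : w ∉ Z.A (Z.zone i w) (Z.lab i w) := fun h5 => hcon.1 h5 hSw'
    have n2 : w' ∉ Z.A (Z.zone i w') (Z.lab i w') := fun h5 => hcon.2 hSw h5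
    refine hq.2.2 (KillVx19.killV (hy_of_num hnum (γ := γ) (B := B) hM hS.hL F) hA1 hnum.cp_pos.le
      hV hl hk hfar hs1 hs2 hZok eG eL ecut eγ
      (fun K ν x x' h1 h2 h3 => GWcellx284.on_cell hZok h1 h2 h3) hNd hNd' rfl rfl hSw hSw' n1 n2
      (K' := 1 / 2 * ((i : ℝ) + 1) ^ 8 * (2 : ℝ) ^ (cp * i)) ?_ ?_ k1 k2 k3)
    · rw [hθi]
      have h5 : (0 : ℝ) < (2 : ℝ) ^ (cp * i) := by positivity
      nlinarith [mul_le_mul_of_nonneg_right hui h5.le]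
    · rw [hθi]
      have h5 : (0 : ℝ) < (2 : ℝ) ^ (cp * i) := by positivity
      nlinarith [mul_le_mul_of_nonneg_right hvi h5.le]
  -- coins
  have hR1 : (1 : ℝ) ≤ 4 * ((i : ℝ) + 1) ^ 8 := by
    have h5 : (1 : ℝ) ≤ ((i : ℝ) + 1) ^ 8 := one_le_pow₀ (by linarith [Nat.cast_nonneg (α := ℝ) i])
    linarith
  have hwb := win_of (y := y) (b := b) (κ := κ) hV.l_pos hκ hV.lb hu1 hu2
  have hwc := win_of (y := y) (b := c) (κ := κ) hV.l_pos hκ hV.lc hv1 hv2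
  rw [← hs] at hwb hwc
  have hcp4 : cp ≤ 1 / 4 := hnum.cp_le.trans (by norm_num)
  have hG1 := GoodVx20.good_birth' (F := F) (B := B) (γ := γ) (m0 := m0) hM hS.hL hA10 hcp4 hbM hZ
    hZok (GoodVx20.win_lo hwb) (GoodVx20.win_hi a' hwb) (l := i) (by rw [← hwe]; exact hnd) hR1
    hq.1
  have hG2 := GoodVx20.good_birth' (F := F) (B := B) (γ := γ) (m0 := m0) hM hS.hL hA10 hcp4 hcM
    (a := a) (a' := a') (by rw [hZ, hHc]) hZok (GoodVx20.win_lo hwc) (GoodVx20.win_hi' a hwc)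
    (l := i) (by rw [← hwe']; exact hnd') hR1 hq.2.1
  rw [← hwe] at hG1
  rw [← hwe'] at hG2
  refine ⟨Z.zone i w, GWnodex863.zone_mem_Zs hZok hwN hnd, Z.zone i w',
    GWnodex863.zone_mem_Zs hZok hwN' hnd', ?_⟩
  have hXi : X0 ≤ P.cut i := by
    have h5 : i ≤ P.cut i := by
      show i ≤ 2 ^ (A * i)
      exact (Nat.lt_two_pow_self (n := i)).le.trans
        (Nat.pow_le_pow_right (by norm_num) (Nat.le_mul_of_pos_left i (by omega)))
    omega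
  exact VWtx360.tpair_weight (P := P) hM hL (fun _ => rfl)
    (fun d j => HyOfx281.thr_le_exp d j) hA1 (fun _ => rfl) (by omega) hV hfar hcl hl hXi eN ecut
    hNd hNd' hR (by rw [← ecut]; rfl) hm (GWnodex863.bi_le i w) (GWnodex863.bi_le i w') hG1 hG2

end Crest.Agent.R4C.TPairx20
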