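import Crest.Agent.R4C.NearTot_360
import Crest.Agent.R4C.PureB1_232
import Crest.Agent.R4C.S4c_682

/-!
# Row 4, top: bookkeeping of the factor `B1` of the differing primes (helper971)

`cof b c = (b/g)(c/g)`, `iy y n = ∑_{p ∣ n, p > y} 1/p` (Ky_952), `B1` (PureB1_232).

* `ky_total` : ALL pairs `b ≠ c` of `B`, all scales, with a weight `W b c ≤ exp (y b c)` (boost of
  the aligned primes; `y b c` also dominates `|log (g/L)|`), times `B1`, restricted to the event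
  `1 ≤ iy (y b c) (cof b c)` : total `≤ C (L ν B)`.
* `B1_off`, `B1_off_log`, `B1_off_gap` : off the event `B1` is bounded by the primes `≤ y`.
-/

set_option autoImplicit false

open Finset

namespace Crest.Agent.R4C.Topx971

open Crest.Agent.R4C.Basex935 Crest.Agent.R4C.Kyx952 Crest.Agent.R4C.NearTotx360

/-- `B1` -/
noncomputable abbrev B1 (b c : ℕ) : ℝ := Crest.Agent.R4C.PureL2x232.B1 b c

/-- `B1` as a product over the primes of `cof` -/
lemma B1_eq (b c : ℕ) : B1 b c = ∏ p ∈ (cof b c).primeFactors, (1 - 1 / (p : ℝ))⁻¹ := rfl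

/-- the low part of `B1` -/
noncomputable def B1lo (y : ℝ) (b c : ℕ) : ℝ :=
  ∏ p ∈ (cof b c).primeFactors.filter (fun p : ℕ => (p : ℝ) ≤ y), (1 - 1 / (p : ℝ))⁻¹

lemma one_le_inv' {p : ℕ} (hp : p.Prime) : 1 ≤ (1 - 1 / (p : ℝ))⁻¹ := by
  have h1 : (1 : ℝ) / p < 1 := by
    rw [div_lt_one (by exact_mod_cast hp.pos)]
    exact_mod_cast hp.one_lt
  refine (one_le_inv₀ (by linarith)).2 ?_
  have : (0 : ℝ) ≤ 1 / p := by positivity
  linarith

lemma one_le_B1 (b c : ℕ) : 1 ≤ B1 b c := by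
  rw [B1_eq]
  calc (1 : ℝ) = ∏ _p ∈ (cof b c).primeFactors, (1 : ℝ) := by rw [prod_const_one]
    _ ≤ _ := prod_le_prod (fun _ _ => zero_le_one) fun p hp =>
      one_le_inv' (Nat.prime_of_mem_primeFactors hp)

lemma one_le_B1lo (y : ℝ) (b c : ℕ) : 1 ≤ B1lo y b c := by
  unfold B1lo
  calc (1 : ℝ) = ∏ _p ∈ (cof b c).primeFactors.filter (fun p : ℕ => (p : ℝ) ≤ y), (1 : ℝ) := by
        rw [prod_const_one]
    _ ≤ _ := prod_le_prod (fun _ _ => zero_le_one) fun p hp =>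
      one_le_inv' (Nat.prime_of_mem_primeFactors (mem_filter.1 hp).1)

/-- `B1 ≤ B1lo y * exp (2 iy y)` -/
lemma B1_le_lo_mul (y : ℝ) (b c : ℕ) : B1 b c ≤ B1lo y b c * Real.exp (2 * iy y (cof b c)) := by
  classical
  rw [B1_eq]
  unfold B1lo iy
  rw [← Finset.prod_filter_mul_prod_filter_not (cof b c).primeFactors
    (fun p : ℕ => (p : ℝ) ≤ y)]
  refine mul_le_mul_of_nonneg_left ?_ (zero_le_one.trans (one_le_B1lo y b c))
  rw [mul_sum, Real.exp_sum]
  have e : (cof b c).primeFactors.filter (fun p : ℕ => ¬ (p : ℝ) ≤ y) =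
      (cof b c).primeFactors.filter (fun p : ℕ => y < (p : ℝ)) := by
    refine filter_congr fun p _ => not_le
  rw [e]
  exact prod_le_prod
    (fun p hp => (inv_pos' (Nat.prime_of_mem_primeFactors (mem_filter.1 hp).1)).le)
    fun p hp => inv_le_exp' (Nat.prime_of_mem_primeFactors (mem_filter.1 hp).1)

/-- off the event -/
lemma B1_off {y : ℝ} {b c : ℕ} (h : iy y (cof b c) < 1) :
    B1 b c ≤ Real.exp 2 * B1lo y b c := by
  refine (B1_le_lo_mul y b c).trans ?_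
  rw [mul_comm]
  refine mul_le_mul_of_nonneg_right ?_ (zero_le_one.trans (one_le_B1lo y b c))
  rw [Real.exp_le_exp]
  linarith

/-- Mertens for the low part -/
lemma B1lo_le_log {y : ℝ} (hy : 1 ≤ y) (b c : ℕ) :
    B1lo y b c ≤ S4cx682.CM * (1 + Real.log y) := by
  have h1 : 1 ≤ ⌊y⌋₊ := Nat.le_floor (by exact_mod_cast hy)
  refine (S4cx682.prod_inv_le_of_subset ⌊y⌋₊ h1 _ fun p hp => ?_).trans ?_
  · rw [mem_filter] at hp
    exact ⟨Nat.prime_of_mem_primeFactors hp.1, Nat.le_floor hp.2⟩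
  · have h2 : Real.log ⌊y⌋₊ ≤ Real.log y :=
      Real.log_le_log (by exact_mod_cast h1) (Nat.floor_le (by linarith))
    have := S4cx682.CM_pos
    gcongr

/-- off the event: logarithmic bound -/
lemma B1_off_log {y : ℝ} (hy : 1 ≤ y) {b c : ℕ} (h : iy y (cof b c) < 1) :
    B1 b c ≤ Real.exp 2 * S4cx682.CM * (1 + Real.log y) := by
  refine (B1_off h).trans ?_
  rw [mul_assoc]
  exact mul_le_mul_of_nonneg_left (B1lo_le_log hy b c) (Real.exp_pos _).le

/-- the low part only sees the primes `≤ Z` if `cof` has no prime in `(Z, y]` -/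
lemma B1lo_gap {y Z : ℝ} {b c : ℕ}
    (h : ∀ p ∈ (cof b c).primeFactors, Z < (p : ℝ) → y < (p : ℝ)) :
    B1lo y b c ≤ B1lo Z b c := by
  classical
  unfold B1lo
  refine prod_mono' ?_ _ fun p hp =>
    one_le_inv' (Nat.prime_of_mem_primeFactors (mem_filter.1 hp).1)
  intro p hp
  rw [mem_filter] at hp ⊢
  refine ⟨hp.1, ?_⟩
  by_contra hc
  exact absurd (h p hp.1 (not_le.1 hc)) (not_lt.2 hp.2)

/-- off the event, with a gap `(Z, y]`: only the low word -/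
lemma B1_off_gap {y Z : ℝ} (hZ : 1 ≤ Z) {b c : ℕ} (h : iy y (cof b c) < 1)
    (hg : ∀ p ∈ (cof b c).primeFactors, Z < (p : ℝ) → y < (p : ℝ)) :
    B1 b c ≤ Real.exp 2 * S4cx682.CM * (1 + Real.log Z) := by
  refine (B1_off h).trans ?_
  rw [mul_assoc]
  exact mul_le_mul_of_nonneg_left ((B1lo_gap hg).trans (B1lo_le_log hZ b c)) (Real.exp_pos _).le

lemma iy_anti {y z : ℝ} (h : y ≤ z) (n : ℕ) : iy z n ≤ iy y n := by
  unfold iy
  refine sum_le_sum_of_subset_of_nonneg ?_ fun p _ _ => by positivity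
  intro p hp
  rw [mem_filter] at hp ⊢
  exact ⟨hp.1, lt_of_le_of_lt h hp.2⟩

/-- crude bound of `B1` by the levels `2^l`, `l ≥ k`, on the event `K_{2^k}` -/
lemma B1_levels (b c k J : ℕ) (hJ : iy ((2 ^ (k + J) : ℕ) : ℝ) (cof b c) < 1)
    (hk : 1 ≤ iy ((2 ^ k : ℕ) : ℝ) (cof b c)) :
    B1 b c ≤ ∑ j ∈ range J, 2 * Real.exp (2 * ((k + j : ℕ) + 2)) * KY ((2 ^ (k + j) : ℕ) : ℝ) 1 b c := by
  classical
  have h1 : B1 b c ≤ Real.exp (2 * iy ((1 : ℕ) : ℝ) (cof b c)) := by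
    have h := B1_le_lo_mul ((1 : ℕ) : ℝ) b c
    have e : B1lo ((1 : ℕ) : ℝ) b c = 1 := by
      unfold B1lo
      rw [filter_eq_empty_iff.2, prod_empty]
      intro p hp hc
      have h2 := (Nat.prime_of_mem_primeFactors hp).two_le
      have h3 : p ≤ 1 := by exact_mod_cast hc
      omega
    rwa [e, one_mul] at h
  have h2 := iy_blocks (y := 1) one_pos (cof b c) k
  rw [mul_one] at h2
  have h3 : Real.exp (2 * iy ((1 : ℕ) : ℝ) (cof b c)) ≤
      Real.exp (2 * (k : ℝ)) * Real.exp (2 * iy ((2 ^ k : ℕ) : ℝ) (cof b c)) := by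
    rw [← Real.exp_add, Real.exp_le_exp]
    linarith
  have h4 := level (y := 2 ^ k) (by positivity) (cof b c) J (by rwa [mul_comm, ← pow_add])
  have hJ0 : 0 < J := by
    rcases Nat.eq_zero_or_pos J with h | h
    · rw [h, add_zero] at hJ
      linarith
    · exact h
  have h5 : ∀ j : ℕ, (if 1 ≤ iy ((2 ^ j * 2 ^ k : ℕ) : ℝ) (cof b c) then (1 : ℝ) else 0) =
      KY ((2 ^ (k + j) : ℕ) : ℝ) 1 b c := by
    intro j
    unfold KY
    rw [mul_comm (2 ^ j) (2 ^ k), ← pow_add]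
  have h6 : Real.exp 2 ≤ ∑ j ∈ range J, Real.exp (2 * ((j : ℝ) + 2)) *
      KY ((2 ^ (k + j) : ℕ) : ℝ) 1 b c := by
    have h7 : Real.exp (2 * (((0 : ℕ) : ℝ) + 2)) * KY ((2 ^ (k + 0) : ℕ) : ℝ) 1 b c ≤
        ∑ j ∈ range J, Real.exp (2 * ((j : ℝ) + 2)) * KY ((2 ^ (k + j) : ℕ) : ℝ) 1 b c :=
      single_le_sum (f := fun j : ℕ => Real.exp (2 * ((j : ℝ) + 2)) *
        KY ((2 ^ (k + j) : ℕ) : ℝ) 1 b c)
        (fun j _ => mul_nonneg (Real.exp_pos _).le (KY_nonneg _ _ _ _)) (mem_range.2 hJ0)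
    have h8 : KY ((2 ^ (k + 0) : ℕ) : ℝ) 1 b c = 1 := by
      unfold KY
      rw [add_zero, if_pos hk]
    rw [h8, mul_one] at h7
    refine le_trans ?_ h7
    rw [Real.exp_le_exp]
    norm_num
  simp only [h5] at h4
  calc B1 b c ≤ Real.exp (2 * (k : ℝ)) * Real.exp (2 * iy ((2 ^ k : ℕ) : ℝ) (cof b c)) :=
        h1.trans h3
    _ ≤ Real.exp (2 * (k : ℝ)) * (2 * ∑ j ∈ range J, Real.exp (2 * ((j : ℝ) + 2)) *
      KY ((2 ^ (k + j) : ℕ) : ℝ) 1 b c) := by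
        refine mul_le_mul_of_nonneg_left ?_ (Real.exp_pos _).le
        linarith
    _ = _ := by
        rw [mul_sum, mul_sum]
        refine sum_congr rfl fun j _ => ?_
        have : Real.exp (2 * ((k + j : ℕ) + 2)) = Real.exp (2 * (k : ℝ)) *
            Real.exp (2 * ((j : ℝ) + 2)) := by
          rw [← Real.exp_add]
          congr 1
          push_cast
          ring
        rw [this]
        ring


/-! ### the total of the event -/

/-- one level, all windows -/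
lemma win_energy {C2 A y : ℝ} (hC2 : 0 < C2) {M : ℕ} {B : Finset ℕ} (hB : B ⊆ M.divisors)
    (H : ∀ (X : ℝ) (f f' : ℕ → ℝ), 0 < X →
      (∀ x, 0 ≤ f x) → (∀ x, f x ≤ 1) → (∀ x, 0 ≤ f' x) → (∀ x, f' x ≤ 1) →
      ∑ b ∈ M.divisors, ∑ c ∈ M.divisors,
        (if X < (Nat.gcd b c : ℝ) ∧ (Nat.gcd b c : ℝ) ≤ 2 * X then
          (Nat.gcd b c : ℝ) * nu M b * nu M c * (f b * f' c * KY y 1 b c)
        else 0) ≤ C2 * X ^ (1 / 2 : ℝ) * Real.exp (-(A * y)) *
          ((∑ b ∈ M.divisors, nu M b * f b) ^ (3 / 4 : ℝ) *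
            (∑ b ∈ M.divisors, nu M b * f' b) ^ (3 / 4 : ℝ)))
    {X0 : ℝ} (hX0 : 0 < X0) (I : ℕ) :
    ∑ b ∈ B, ∑ c ∈ B, (if X0 < (Nat.gcd b c : ℝ) ∧ (Nat.gcd b c : ℝ) ≤ 2 ^ I * X0 then
        (Nat.gcd b c : ℝ) * nu M b * nu M c * KY y 1 b c else 0) ≤
      I * (C2 * (2 ^ I * X0) ^ (1 / 2 : ℝ) * Real.exp (-(A * y)) *
        (∑ b ∈ B, nu M b) ^ (3 / 2 : ℝ)) := by
  classical
  set f : ℕ → ℝ := fun b => if b ∈ B then 1 else 0 with hf
  have hf0 : ∀ x, 0 ≤ f x := fun x => by simp only [hf]; split_ifs <;> norm_num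
  have hf1 : ∀ x, f x ≤ 1 := fun x => by simp only [hf]; split_ifs <;> norm_num
  have hnu : 0 ≤ ∑ b ∈ B, nu M b := sum_nonneg fun b _ => nu_nonneg M b
  have hmass : ∑ b ∈ M.divisors, nu M b * f b = ∑ b ∈ B, nu M b := by
    simp only [hf, mul_ite, mul_one, mul_zero]
    rw [← sum_filter]
    congr 1
    ext b
    rw [mem_filter]
    exact ⟨fun h => h.2, fun h => ⟨hB h, h⟩⟩
  have hpow : (∑ b ∈ B, nu M b) ^ (3 / 4 : ℝ) * (∑ b ∈ B, nu M b) ^ (3 / 4 : ℝ) =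
      (∑ b ∈ B, nu M b) ^ (3 / 2 : ℝ) := by
    rcases hnu.eq_or_lt with h | h
    · rw [← h, Real.zero_rpow (by norm_num), Real.zero_rpow (by norm_num), zero_mul]
    · rw [← Real.rpow_add h]
      norm_num
  -- one window
  have hwin : ∀ i ∈ range I, ∑ b ∈ B, ∑ c ∈ B,
      (if 2 ^ i * X0 < (Nat.gcd b c : ℝ) ∧ (Nat.gcd b c : ℝ) ≤ 2 * (2 ^ i * X0) then
        (Nat.gcd b c : ℝ) * nu M b * nu M c * KY y 1 b c else 0) ≤
      C2 * (2 ^ I * X0) ^ (1 / 2 : ℝ) * Real.exp (-(A * y)) *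
        (∑ b ∈ B, nu M b) ^ (3 / 2 : ℝ) := by
    intro i hi
    have h1 := H (2 ^ i * X0) f f (by positivity) hf0 hf1 hf0 hf1
    rw [hmass, hpow] at h1
    have h2 : ∑ b ∈ B, ∑ c ∈ B,
        (if 2 ^ i * X0 < (Nat.gcd b c : ℝ) ∧ (Nat.gcd b c : ℝ) ≤ 2 * (2 ^ i * X0) then
          (Nat.gcd b c : ℝ) * nu M b * nu M c * KY y 1 b c else 0) ≤
        ∑ b ∈ M.divisors, ∑ c ∈ M.divisors,
          (if 2 ^ i * X0 < (Nat.gcd b c : ℝ) ∧ (Nat.gcd b c : ℝ) ≤ 2 * (2 ^ i * X0) then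
            (Nat.gcd b c : ℝ) * nu M b * nu M c * (f b * f c * KY y 1 b c) else 0) := by
      have hnn : ∀ b c : ℕ, 0 ≤
          (if 2 ^ i * X0 < (Nat.gcd b c : ℝ) ∧ (Nat.gcd b c : ℝ) ≤ 2 * (2 ^ i * X0) then
            (Nat.gcd b c : ℝ) * nu M b * nu M c * (f b * f c * KY y 1 b c) else 0) := by
        intro b c
        split_ifs
        · have := nu_nonneg M b
          have := nu_nonneg M c
          have := hf0 b
          have := hf0 c
          have := KY_nonneg y 1 b c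
          positivity
        · exact le_rfl
      calc _ = ∑ b ∈ B, ∑ c ∈ B,
            (if 2 ^ i * X0 < (Nat.gcd b c : ℝ) ∧ (Nat.gcd b c : ℝ) ≤ 2 * (2 ^ i * X0) then
              (Nat.gcd b c : ℝ) * nu M b * nu M c * (f b * f c * KY y 1 b c) else 0) := by
            refine sum_congr rfl fun b hb => sum_congr rfl fun c hc => ?_
            have e1 : f b = 1 := by simp only [hf]; rw [if_pos hb]
            have e2 : f c = 1 := by simp only [hf]; rw [if_pos hc]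
            rw [e1, e2, one_mul, one_mul]
        _ ≤ ∑ b ∈ B, ∑ c ∈ M.divisors, _ := sum_le_sum fun b hb =>
            sum_le_sum_of_subset_of_nonneg hB fun c _ _ => hnn b c
        _ ≤ _ := sum_le_sum_of_subset_of_nonneg hB fun b _ _ => sum_nonneg fun c _ => hnn b c
    refine h2.trans (h1.trans ?_)
    refine mul_le_mul_of_nonneg_right ?_ (Real.rpow_nonneg hnu _)
    refine mul_le_mul_of_nonneg_right ?_ (Real.exp_pos _).le
    refine mul_le_mul_of_nonneg_left ?_ hC2.le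
    refine Real.rpow_le_rpow (by positivity) ?_ (by norm_num)
    refine mul_le_mul_of_nonneg_right ?_ hX0.le
    exact pow_le_pow_right₀ (by norm_num) (mem_range.1 hi).le
  -- cover by windows
  have hcov : ∀ b c : ℕ,
      (if X0 < (Nat.gcd b c : ℝ) ∧ (Nat.gcd b c : ℝ) ≤ 2 ^ I * X0 then
        (Nat.gcd b c : ℝ) * nu M b * nu M c * KY y 1 b c else 0) ≤
      ∑ i ∈ range I, (if 2 ^ i * X0 < (Nat.gcd b c : ℝ) ∧
          (Nat.gcd b c : ℝ) ≤ 2 * (2 ^ i * X0) then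
        (Nat.gcd b c : ℝ) * nu M b * nu M c * KY y 1 b c else 0) := by
    intro b c
    have h0 : 0 ≤ (Nat.gcd b c : ℝ) * nu M b * nu M c * KY y 1 b c := by
      have := nu_nonneg M b
      have := nu_nonneg M c
      have := KY_nonneg y 1 b c
      positivity
    have hnn : ∀ i ∈ range I, 0 ≤ (if 2 ^ i * X0 < (Nat.gcd b c : ℝ) ∧
          (Nat.gcd b c : ℝ) ≤ 2 * (2 ^ i * X0) then
        (Nat.gcd b c : ℝ) * nu M b * nu M c * KY y 1 b c else 0) := by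
      intro i _
      split_ifs
      · exact h0
      · exact le_rfl
    by_cases h : X0 < (Nat.gcd b c : ℝ) ∧ (Nat.gcd b c : ℝ) ≤ 2 ^ I * X0
    · rw [if_pos h]
      -- minimal `i` with `gcd ≤ 2^(i+1) X0`
      have hex : ∃ i : ℕ, (Nat.gcd b c : ℝ) ≤ 2 ^ i * X0 := ⟨I, h.2⟩
      set i := Nat.find hex with hi
      have hi1 : (Nat.gcd b c : ℝ) ≤ 2 ^ i * X0 := Nat.find_spec hex
      have hi2 : i ≤ I := Nat.find_min' hex h.2
      have hi0 : i ≠ 0 := by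
        intro h0'
        rw [h0', pow_zero, one_mul] at hi1
        linarith [h.1]
      obtain ⟨j, hj⟩ := Nat.exists_eq_succ_of_ne_zero hi0
      have hj1 : 2 ^ j * X0 < (Nat.gcd b c : ℝ) := by
        have := Nat.find_min hex (m := j) (by omega)
        exact not_le.1 this
      have hj2 : (Nat.gcd b c : ℝ) ≤ 2 * (2 ^ j * X0) := by
        rw [hj, Nat.succ_eq_add_one, pow_succ] at hi1
        linarith
      refine le_trans ?_ (single_le_sum hnn (mem_range.2 (show j < I by omega)))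
      rw [if_pos ⟨hj1, hj2⟩]
    · rw [if_neg h]
      exact sum_nonneg hnn
  calc _ ≤ ∑ b ∈ B, ∑ c ∈ B, ∑ i ∈ range I, (if 2 ^ i * X0 < (Nat.gcd b c : ℝ) ∧
          (Nat.gcd b c : ℝ) ≤ 2 * (2 ^ i * X0) then
        (Nat.gcd b c : ℝ) * nu M b * nu M c * KY y 1 b c else 0) :=
        sum_le_sum fun b _ => sum_le_sum fun c _ => hcov b c
    _ = ∑ i ∈ range I, ∑ b ∈ B, ∑ c ∈ B, (if 2 ^ i * X0 < (Nat.gcd b c : ℝ) ∧
          (Nat.gcd b c : ℝ) ≤ 2 * (2 ^ i * X0) then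
        (Nat.gcd b c : ℝ) * nu M b * nu M c * KY y 1 b c else 0) := by
        rw [sum_comm]
        rw [sum_congr rfl fun c _ => sum_comm]
        rw [sum_comm]
        refine sum_congr rfl fun i _ => ?_
        rw [sum_comm]
    _ ≤ ∑ i ∈ range I, C2 * (2 ^ I * X0) ^ (1 / 2 : ℝ) * Real.exp (-(A * y)) *
        (∑ b ∈ B, nu M b) ^ (3 / 2 : ℝ) := sum_le_sum hwin
    _ = _ := by rw [sum_const, card_range, nsmul_eq_mul]

/-- numerical bound of one level -/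
lemma ky_num {C2 L V : ℝ} (hC2 : 0 < C2) (hL : 0 < L) (hV : 0 ≤ V) (hm : L * V ≤ 1) (l : ℕ) :
    L * (2 * Real.exp (2 * ((l : ℝ) + 2)) * Real.exp (2 ^ (l + 1)) *
      (((2 ^ (l + 3) + 1 : ℕ) : ℝ) * (C2 * (2 ^ (2 ^ (l + 3) + 1) *
        (Real.exp (-2 ^ (l + 1)) * L / 2)) ^ (1 / 2 : ℝ) * Real.exp (-(18 * (2 : ℝ) ^ l)) *
        V ^ (3 / 2 : ℝ)))) ≤ 2 * Real.exp 4 * C2 * (1 / 2) ^ l * (L * V) := by
  have h1 : (((2 ^ (l + 3) + 1 : ℕ) : ℝ)) ≤ Real.exp (8 * 2 ^ l) := by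
    have := Real.add_one_le_exp ((8 : ℝ) * 2 ^ l)
    refine le_trans (le_of_eq ?_) this
    push_cast
    ring
  have h2 : (2 ^ (2 ^ (l + 3) + 1) * (Real.exp (-2 ^ (l + 1)) * L / 2)) ^ (1 / 2 : ℝ) ≤
      Real.exp (4 * 2 ^ l) * L ^ (1 / 2 : ℝ) := by
    have h3 : (2 : ℝ) ^ (2 ^ (l + 3) + 1) * (Real.exp (-2 ^ (l + 1)) * L / 2) ≤
        Real.exp (8 * 2 ^ l) * L := by
      have h4 : (2 : ℝ) ^ (2 ^ (l + 3)) ≤ Real.exp (8 * 2 ^ l) := by
        have h5 : (2 : ℝ) ≤ Real.exp 1 := by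
          have := Real.add_one_le_exp (1 : ℝ)
          linarith
        calc (2 : ℝ) ^ (2 ^ (l + 3)) ≤ Real.exp 1 ^ (2 ^ (l + 3)) :=
              pow_le_pow_left₀ (by norm_num) h5 _
          _ = Real.exp (8 * 2 ^ l) := by
              rw [← Real.exp_nat_mul]
              congr 1
              push_cast
              ring
      have h6 : Real.exp (-2 ^ (l + 1)) ≤ 1 := by
        rw [Real.exp_le_one_iff]
        have : (0 : ℝ) ≤ 2 ^ (l + 1) := by positivity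
        linarith
      rw [pow_succ]
      calc (2 : ℝ) ^ 2 ^ (l + 3) * 2 * (Real.exp (-2 ^ (l + 1)) * L / 2) =
            (2 : ℝ) ^ 2 ^ (l + 3) * Real.exp (-2 ^ (l + 1)) * L := by ring
        _ ≤ Real.exp (8 * 2 ^ l) * 1 * L := by
            refine mul_le_mul_of_nonneg_right ?_ hL.le
            exact mul_le_mul h4 h6 (Real.exp_pos _).le (Real.exp_pos _).le
        _ = _ := by rw [mul_one]
    calc _ ≤ (Real.exp (8 * 2 ^ l) * L) ^ (1 / 2 : ℝ) :=
          Real.rpow_le_rpow (by positivity) h3 (by norm_num)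
      _ = Real.exp (8 * 2 ^ l) ^ (1 / 2 : ℝ) * L ^ (1 / 2 : ℝ) :=
          Real.mul_rpow (Real.exp_pos _).le hL.le
      _ = _ := by
          rw [← Real.exp_mul]
          congr 2
          ring
  have h3 : L * (L ^ (1 / 2 : ℝ) * V ^ (3 / 2 : ℝ)) ≤ L * V := by
    have h4 : L * L ^ (1 / 2 : ℝ) = L ^ (3 / 2 : ℝ) := by
      nth_rewrite 1 [← Real.rpow_one L]
      rw [← Real.rpow_add hL]
      norm_num
    calc L * (L ^ (1 / 2 : ℝ) * V ^ (3 / 2 : ℝ)) = L ^ (3 / 2 : ℝ) * V ^ (3 / 2 : ℝ) := by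
          rw [← mul_assoc, h4]
      _ = (L * V) ^ (3 / 2 : ℝ) := (Real.mul_rpow hL.le hV).symm
      _ ≤ (L * V) := by
          rcases (mul_nonneg hL.le hV).eq_or_lt with h | h
          · rw [← h, Real.zero_rpow (by norm_num)]
          · calc (L * V) ^ (3 / 2 : ℝ) ≤ (L * V) ^ (1 : ℝ) :=
                Real.rpow_le_rpow_of_exponent_ge h hm (by norm_num)
              _ = _ := Real.rpow_one _
  have h5 : Real.exp (2 * ((l : ℝ) + 2)) ≤ Real.exp 4 * Real.exp (2 * 2 ^ l) := by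
    rw [← Real.exp_add, Real.exp_le_exp]
    have : (l : ℝ) ≤ 2 ^ l := by exact_mod_cast (Nat.lt_two_pow_self (n := l)).le
    linarith
  have h6 : Real.exp (2 ^ (l + 1)) = Real.exp (2 * 2 ^ l) := by
    congr 1
    ring
  have h7 : Real.exp (-(2 : ℝ) ^ l) ≤ (1 / 2) ^ l := by
    have h8 : Real.exp (-(1 : ℝ)) ≤ 1 / 2 := by
      have h9 := Real.add_one_le_exp (1 : ℝ)
      rw [Real.exp_neg, ← one_div]
      exact one_div_le_one_div_of_le (by norm_num) (by linarith)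
    calc Real.exp (-(2 : ℝ) ^ l) ≤ Real.exp (-(l : ℝ)) := by
          rw [Real.exp_le_exp]
          have : (l : ℝ) ≤ 2 ^ l := by exact_mod_cast (Nat.lt_two_pow_self (n := l)).le
          linarith
      _ = Real.exp (-(1 : ℝ)) ^ l := by
          rw [← Real.exp_nat_mul]
          congr 1
          ring
      _ ≤ _ := pow_le_pow_left₀ (Real.exp_pos _).le h8 l
  have hV' : 0 ≤ V ^ (3 / 2 : ℝ) := Real.rpow_nonneg hV _
  have hL' : 0 ≤ L ^ (1 / 2 : ℝ) := Real.rpow_nonneg hL.le _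
  calc L * (2 * Real.exp (2 * ((l : ℝ) + 2)) * Real.exp (2 ^ (l + 1)) *
      (((2 ^ (l + 3) + 1 : ℕ) : ℝ) * (C2 * (2 ^ (2 ^ (l + 3) + 1) *
        (Real.exp (-2 ^ (l + 1)) * L / 2)) ^ (1 / 2 : ℝ) * Real.exp (-(18 * (2 : ℝ) ^ l)) *
        V ^ (3 / 2 : ℝ))))
      ≤ L * (2 * (Real.exp 4 * Real.exp (2 * 2 ^ l)) * Real.exp (2 * 2 ^ l) *
      (Real.exp (8 * 2 ^ l) * (C2 * (Real.exp (4 * 2 ^ l) * L ^ (1 / 2 : ℝ)) *
        Real.exp (-(18 * (2 : ℝ) ^ l)) * V ^ (3 / 2 : ℝ)))) := by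
        rw [h6]
        have := Real.exp_pos (2 * (2 : ℝ) ^ l)
        gcongr
    _ = 2 * Real.exp 4 * C2 * (Real.exp (2 * 2 ^ l) * Real.exp (2 * 2 ^ l) *
        Real.exp (8 * 2 ^ l) * Real.exp (4 * 2 ^ l) * Real.exp (-(18 * (2 : ℝ) ^ l))) *
        (L * (L ^ (1 / 2 : ℝ) * V ^ (3 / 2 : ℝ))) := by ring
    _ ≤ 2 * Real.exp 4 * C2 * (1 / 2) ^ l * (L * V) := by
        refine mul_le_mul ?_ h3 (by positivity) (by positivity)
        refine mul_le_mul_of_nonneg_left ?_ (by positivity)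
        rw [← Real.exp_add, ← Real.exp_add, ← Real.exp_add, ← Real.exp_add]
        refine le_trans ?_ h7
        rw [Real.exp_le_exp]
        have : (0 : ℝ) ≤ 2 ^ l := by positivity
        linarith


/-- pointwise: `W * B1` on the event is at most a sum over the levels -/
lemma ky_point {M : ℕ} {b c : ℕ} {L y w : ℝ} (hb : b ∈ M.divisors) (hc : c ∈ M.divisors)
    (hL : 0 < L) {l1 : ℕ} (hy : (2 : ℝ) ^ l1 ≤ y) (hw0 : 0 ≤ w) (hw : w ≤ Real.exp y)
    (hg1 : (Nat.gcd b c : ℝ) ≤ Real.exp y * L) (hg2 : L ≤ Real.exp y * Nat.gcd b c)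
    (hK : 1 ≤ iy y (cof b c)) :
    w * B1 b c ≤ ∑ l ∈ (range (2 * M + 2)).filter (fun l => l1 ≤ l),
      2 * Real.exp (2 * ((l : ℝ) + 2)) * Real.exp (2 ^ (l + 1)) *
        (if Real.exp (-2 ^ (l + 1)) * L / 2 < (Nat.gcd b c : ℝ) ∧
          (Nat.gcd b c : ℝ) ≤ 2 ^ (2 ^ (l + 3) + 1) * (Real.exp (-2 ^ (l + 1)) * L / 2) then
          KY (2 ^ l) 1 b c else 0) := by
  classical
  have hM : 0 < M := by
    have := (Nat.mem_divisors.1 hb).2
    omega
  have hb0 : b ≠ 0 := (Nat.pos_of_mem_divisors hb).ne'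
  have hc0 : c ≠ 0 := (Nat.pos_of_mem_divisors hc).ne'
  have hbM : b ≤ M := Nat.le_of_dvd hM (Nat.dvd_of_mem_divisors hb)
  have hcM : c ≤ M := Nat.le_of_dvd hM (Nat.dvd_of_mem_divisors hc)
  have hprime : ∀ p ∈ (cof b c).primeFactors, p ≤ M := by
    intro p hp
    have hpp := Nat.prime_of_mem_primeFactors hp
    have hd := Nat.dvd_of_mem_primeFactors hp
    unfold cof at hd
    rcases (Nat.Prime.dvd_mul hpp).1 hd with h | h
    · exact (Nat.le_of_dvd (Nat.div_pos (Nat.gcd_le_left c (by omega)) (Nat.gcd_pos_of_pos_left c (by omega))) h).trans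
        ((Nat.div_le_self _ _).trans hbM)
    · exact (Nat.le_of_dvd (Nat.div_pos (Nat.gcd_le_right b (by omega)) (Nat.gcd_pos_of_pos_left c (by omega))) h).trans
        ((Nat.div_le_self _ _).trans hcM)
  have hy1 : 1 ≤ y := by
    have : (1 : ℝ) ≤ 2 ^ l1 := one_le_pow₀ (by norm_num)
    linarith
  have hyM : y < M := by
    by_contra h
    have h1 : iy y (cof b c) = 0 := by
      unfold iy
      refine sum_eq_zero fun p hp => ?_
      rw [mem_filter] at hp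
      have h2 : (p : ℝ) ≤ M := by exact_mod_cast hprime p hp.1
      linarith [hp.2, not_lt.1 h]
    rw [h1] at hK
    linarith
  -- the level `k` of `y`
  have hfl : 1 ≤ ⌊y⌋₊ := Nat.le_floor (by exact_mod_cast hy1)
  set k := Nat.log 2 ⌊y⌋₊ with hk
  have hk1 : ((2 ^ k : ℕ) : ℝ) ≤ y := by
    have h2 : 2 ^ k ≤ ⌊y⌋₊ := Nat.pow_log_le_self 2 (by omega)
    exact (by exact_mod_cast h2 : ((2 ^ k : ℕ) : ℝ) ≤ (⌊y⌋₊ : ℝ)).trans
      (Nat.floor_le (by linarith))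
  have hk2 : y < 2 ^ (k + 1) := by
    have h2 : ⌊y⌋₊ < 2 ^ (k + 1) := Nat.lt_pow_succ_log_self (by norm_num) _
    have h3 : ⌊y⌋₊ + 1 ≤ 2 ^ (k + 1) := h2
    have h4 : ((⌊y⌋₊ + 1 : ℕ) : ℝ) ≤ ((2 ^ (k + 1) : ℕ) : ℝ) := by exact_mod_cast h3
    push_cast at h4
    exact (Nat.lt_floor_add_one y).trans_le h4
  have hk3 : l1 ≤ k := by
    refine Nat.le_log_of_pow_le (by norm_num) (Nat.le_floor ?_)
    push_cast
    exact hy
  have hkM : k ≤ M := by
    have h2 : k < 2 ^ k := Nat.lt_two_pow_self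
    have h3 : ((2 ^ k : ℕ) : ℝ) < M := lt_of_le_of_lt hk1 hyM
    have h4 : 2 ^ k < M := by exact_mod_cast h3
    omega
  have hlev := B1_levels b c k M (by
    rw [iy_zero_of_large hprime]
    · norm_num
    · have h2 : M < 2 ^ M := Nat.lt_two_pow_self
      have h3 : 2 ^ M ≤ 2 ^ (k + M) := Nat.pow_le_pow_right (by norm_num) (by omega)
      omega) (hK.trans (iy_anti hk1 _))
  have hterm : ∀ j ∈ range M, w * (2 * Real.exp (2 * ((k + j : ℕ) + 2)) *
      KY ((2 ^ (k + j) : ℕ) : ℝ) 1 b c) ≤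
      2 * Real.exp (2 * (((k + j : ℕ) : ℝ) + 2)) * Real.exp (2 ^ (k + j + 1)) *
        (if Real.exp (-2 ^ (k + j + 1)) * L / 2 < (Nat.gcd b c : ℝ) ∧
          (Nat.gcd b c : ℝ) ≤ 2 ^ (2 ^ (k + j + 3) + 1) *
            (Real.exp (-2 ^ (k + j + 1)) * L / 2) then
          KY (2 ^ (k + j)) 1 b c else 0) := by
    intro j _
    have hyl : y ≤ 2 ^ (k + j + 1) := by
      refine hk2.le.trans (pow_le_pow_right₀ (by norm_num) (by omega))
    have hpos : 0 < Real.exp (-2 ^ (k + j + 1)) * L := mul_pos (Real.exp_pos _) hL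
    have hyl' : Real.exp y ≤ Real.exp (2 ^ (k + j + 1)) := Real.exp_le_exp.2 hyl
    have h1 : Real.exp (-2 ^ (k + j + 1)) * L ≤ (Nat.gcd b c : ℝ) := by
      rw [Real.exp_neg, inv_mul_le_iff₀ (Real.exp_pos _)]
      exact hg2.trans (mul_le_mul_of_nonneg_right hyl' (by positivity))
    have h2 : (Nat.gcd b c : ℝ) ≤ 2 ^ (2 ^ (k + j + 3) + 1) *
            (Real.exp (-2 ^ (k + j + 1)) * L / 2) := by
      have h3 : (Nat.gcd b c : ℝ) ≤ Real.exp (2 ^ (k + j + 1)) * L :=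
        hg1.trans (mul_le_mul_of_nonneg_right hyl' hL.le)
      refine h3.trans ?_
      have h4 : Real.exp (2 ^ (k + j + 1)) ≤
          2 ^ (2 ^ (k + j + 3)) * Real.exp (-2 ^ (k + j + 1)) := by
        rw [Real.exp_neg, ← div_eq_mul_inv, le_div_iff₀ (Real.exp_pos _), ← Real.exp_add]
        have h5 : Real.exp 1 ≤ 2 ^ 2 := by
          have := Real.exp_one_lt_d9
          norm_num at this ⊢
          linarith
        calc Real.exp (2 ^ (k + j + 1) + 2 ^ (k + j + 1)) = Real.exp 1 ^ (2 ^ (k + j + 2)) := by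
              rw [← Real.exp_nat_mul]
              congr 1
              push_cast
              ring
          _ ≤ (2 ^ 2) ^ (2 ^ (k + j + 2)) := pow_le_pow_left₀ (Real.exp_pos _).le h5 _
          _ = 2 ^ (2 ^ (k + j + 3)) := by
              rw [← pow_mul]
              congr 1
              ring
      calc Real.exp (2 ^ (k + j + 1)) * L ≤
          2 ^ (2 ^ (k + j + 3)) * Real.exp (-2 ^ (k + j + 1)) * L :=
            mul_le_mul_of_nonneg_right h4 hL.le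
        _ = _ := by rw [pow_succ (2 : ℝ) (2 ^ (k + j + 3))]; ring
    rw [if_pos ⟨by linarith, h2⟩]
    have h6 : w ≤ Real.exp (2 ^ (k + j + 1)) := hw.trans hyl'
    have h7 := KY_nonneg (2 ^ (k + j)) 1 b c
    have e : (((2 ^ (k + j) : ℕ) : ℝ)) = 2 ^ (k + j) := by push_cast; ring
    rw [e]
    calc w * (2 * Real.exp (2 * (((k + j : ℕ) : ℝ) + 2)) * KY (2 ^ (k + j)) 1 b c) ≤
        Real.exp (2 ^ (k + j + 1)) *
          (2 * Real.exp (2 * (((k + j : ℕ) : ℝ) + 2)) * KY (2 ^ (k + j)) 1 b c) :=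
          mul_le_mul_of_nonneg_right h6 (by positivity)
      _ = _ := by ring
  calc w * B1 b c ≤ w * ∑ j ∈ range M, 2 * Real.exp (2 * ((k + j : ℕ) + 2)) *
        KY ((2 ^ (k + j) : ℕ) : ℝ) 1 b c := mul_le_mul_of_nonneg_left hlev hw0
    _ = ∑ j ∈ range M, w * (2 * Real.exp (2 * ((k + j : ℕ) + 2)) *
        KY ((2 ^ (k + j) : ℕ) : ℝ) 1 b c) := by rw [mul_sum]
    _ ≤ ∑ j ∈ range M, 2 * Real.exp (2 * (((k + j : ℕ) : ℝ) + 2)) *
        Real.exp (2 ^ (k + j + 1)) *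
        (if Real.exp (-2 ^ (k + j + 1)) * L / 2 < (Nat.gcd b c : ℝ) ∧
          (Nat.gcd b c : ℝ) ≤ 2 ^ (2 ^ (k + j + 3) + 1) *
            (Real.exp (-2 ^ (k + j + 1)) * L / 2) then
          KY (2 ^ (k + j)) 1 b c else 0) := sum_le_sum hterm
    _ = ∑ l ∈ (range M).image (fun j => k + j), 2 * Real.exp (2 * ((l : ℝ) + 2)) *
        Real.exp (2 ^ (l + 1)) *
        (if Real.exp (-2 ^ (l + 1)) * L / 2 < (Nat.gcd b c : ℝ) ∧
          (Nat.gcd b c : ℝ) ≤ 2 ^ (2 ^ (l + 3) + 1) *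
            (Real.exp (-2 ^ (l + 1)) * L / 2) then
          KY (2 ^ l) 1 b c else 0) := by
        rw [sum_image]
        intro i _ j _ h
        simpa using h
    _ ≤ _ := by
        refine sum_le_sum_of_subset_of_nonneg ?_ fun l _ _ => ?_
        · intro l hl
          rw [mem_image] at hl
          obtain ⟨j, hj, rfl⟩ := hl
          rw [mem_range] at hj
          rw [mem_filter, mem_range]
          omega
        · have := KY_nonneg (2 ^ l) 1 b c
          split_ifs <;> positivity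

/-- **TOTAL OF THE EVENT** `1 ≤ iy (y b c) (cof b c)`, all scales, weights `W ≤ exp (y b c)` and
the factor `B1` included -/
theorem ky_total : ∃ (C : ℝ) (y1 : ℝ), 0 < C ∧ 1 ≤ y1 ∧
    ∀ (M : ℕ) (B : Finset ℕ) (L : ℝ), 0 < L → B ⊆ M.divisors →
      L * ∑ b ∈ B, nu M b ≤ 1 → ∀ (W y : ℕ → ℕ → ℝ),
      (∀ b ∈ B, ∀ c ∈ B, 1 ≤ iy (y b c) (cof b c) → y1 ≤ y b c ∧ 0 ≤ W b c ∧
        W b c ≤ Real.exp (y b c) ∧ (Nat.gcd b c : ℝ) ≤ Real.exp (y b c) * L ∧
        L ≤ Real.exp (y b c) * Nat.gcd b c) →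
      L * ∑ b ∈ B, ∑ c ∈ B, (if 1 ≤ iy (y b c) (cof b c) then
        (Nat.gcd b c : ℝ) * nu M b * nu M c * (W b c * B1 b c) else 0) ≤
      C * (L * ∑ b ∈ B, nu M b) := by
  classical
  obtain ⟨C2, hC2, H⟩ := energy_ky (κ := 3 / 4) (by norm_num) (by norm_num)
  obtain ⟨y0, hy01, H⟩ := H 18 1 (by norm_num) one_pos
  obtain ⟨l1, hl1⟩ : ∃ l1 : ℕ, y0 ≤ 2 ^ l1 := by
    obtain ⟨n, hn⟩ := pow_unbounded_of_one_lt y0 (by norm_num : (1 : ℝ) < 2)
    exact ⟨n, hn.le⟩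
  refine ⟨4 * Real.exp 4 * C2, 2 ^ l1, by positivity, one_le_pow₀ (by norm_num), ?_⟩
  intro M B L hL hB hmass W y hW
  have hV : 0 ≤ ∑ b ∈ B, nu M b := sum_nonneg fun b _ => nu_nonneg M b
  set V := ∑ b ∈ B, nu M b with hVdef
  have hM : B.Nonempty → M ≠ 0 := fun ⟨b, hb⟩ => (Nat.mem_divisors.1 (hB hb)).2
  rcases B.eq_empty_or_nonempty with hBe | hBn
  · have : V = 0 := by rw [hVdef, hBe, sum_empty]
    rw [hBe, sum_empty, mul_zero, this]
    simp
  have hM0 := hM hBn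
  -- the window sum of a level
  set S : ℕ → ℝ := fun l => ∑ b ∈ B, ∑ c ∈ B,
    (if Real.exp (-2 ^ (l + 1)) * L / 2 < (Nat.gcd b c : ℝ) ∧
      (Nat.gcd b c : ℝ) ≤ 2 ^ (2 ^ (l + 3) + 1) * (Real.exp (-2 ^ (l + 1)) * L / 2) then
      (Nat.gcd b c : ℝ) * nu M b * nu M c * KY (2 ^ l) 1 b c else 0) with hS
  have hSle : ∀ l, l1 ≤ l → S l ≤ ((2 ^ (l + 3) + 1 : ℕ) : ℝ) * (C2 * (2 ^ (2 ^ (l + 3) + 1) *
        (Real.exp (-2 ^ (l + 1)) * L / 2)) ^ (1 / 2 : ℝ) * Real.exp (-(18 * (2 : ℝ) ^ l)) *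
        V ^ (3 / 2 : ℝ)) := by
    intro l hl
    refine win_energy (A := 18) (y := 2 ^ l) hC2 hB ?_ (X0 := Real.exp (-2 ^ (l + 1)) * L / 2)
      (by positivity) (2 ^ (l + 3) + 1)
    intro X f f' hX hf hf1 hf' hf1'
    have h1 := H (2 ^ l) (hl1.trans (pow_le_pow_right₀ (by norm_num) hl)) M X f f' hM0 hX hf hf1
      hf' hf1'
    have e : (2 * (3 / 4) - 1 : ℝ) = 1 / 2 := by norm_num
    rwa [e] at h1
  -- pointwise
  have hpt : ∀ b ∈ B, ∀ c ∈ B, (if 1 ≤ iy (y b c) (cof b c) then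
        (Nat.gcd b c : ℝ) * nu M b * nu M c * (W b c * B1 b c) else 0) ≤
      ∑ l ∈ (range (2 * M + 2)).filter (fun l => l1 ≤ l),
        2 * Real.exp (2 * ((l : ℝ) + 2)) * Real.exp (2 ^ (l + 1)) *
        (if Real.exp (-2 ^ (l + 1)) * L / 2 < (Nat.gcd b c : ℝ) ∧
          (Nat.gcd b c : ℝ) ≤ 2 ^ (2 ^ (l + 3) + 1) * (Real.exp (-2 ^ (l + 1)) * L / 2) then
          (Nat.gcd b c : ℝ) * nu M b * nu M c * KY (2 ^ l) 1 b c else 0) := by
    intro b hb c hc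
    have hnn : 0 ≤ (Nat.gcd b c : ℝ) * nu M b * nu M c := by
      have := nu_nonneg M b
      have := nu_nonneg M c
      positivity
    by_cases hK : 1 ≤ iy (y b c) (cof b c)
    · rw [if_pos hK]
      obtain ⟨h1, h2, h3, h4, h5⟩ := hW b hb c hc hK
      have h6 := ky_point (hB hb) (hB hc) hL h1 h2 h3 h4 h5 hK
      refine (mul_le_mul_of_nonneg_left h6 hnn).trans (le_of_eq ?_)
      rw [mul_sum]
      refine sum_congr rfl fun l _ => ?_
      split_ifs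
      · ring
      · ring
    · rw [if_neg hK]
      refine sum_nonneg fun l _ => ?_
      have := KY_nonneg (2 ^ l) 1 b c
      split_ifs <;> positivity
  have hsum : ∑ b ∈ B, ∑ c ∈ B, (if 1 ≤ iy (y b c) (cof b c) then
        (Nat.gcd b c : ℝ) * nu M b * nu M c * (W b c * B1 b c) else 0) ≤
      ∑ l ∈ (range (2 * M + 2)).filter (fun l => l1 ≤ l),
        2 * Real.exp (2 * ((l : ℝ) + 2)) * Real.exp (2 ^ (l + 1)) * S l := by
    calc _ ≤ ∑ b ∈ B, ∑ c ∈ B, ∑ l ∈ (range (2 * M + 2)).filter (fun l => l1 ≤ l),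
        2 * Real.exp (2 * ((l : ℝ) + 2)) * Real.exp (2 ^ (l + 1)) *
        (if Real.exp (-2 ^ (l + 1)) * L / 2 < (Nat.gcd b c : ℝ) ∧
          (Nat.gcd b c : ℝ) ≤ 2 ^ (2 ^ (l + 3) + 1) * (Real.exp (-2 ^ (l + 1)) * L / 2) then
          (Nat.gcd b c : ℝ) * nu M b * nu M c * KY (2 ^ l) 1 b c else 0) :=
          sum_le_sum fun b hb => sum_le_sum fun c hc => hpt b hb c hc
      _ = ∑ l ∈ (range (2 * M + 2)).filter (fun l => l1 ≤ l), ∑ b ∈ B, ∑ c ∈ B,
        2 * Real.exp (2 * ((l : ℝ) + 2)) * Real.exp (2 ^ (l + 1)) *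
        (if Real.exp (-2 ^ (l + 1)) * L / 2 < (Nat.gcd b c : ℝ) ∧
          (Nat.gcd b c : ℝ) ≤ 2 ^ (2 ^ (l + 3) + 1) * (Real.exp (-2 ^ (l + 1)) * L / 2) then
          (Nat.gcd b c : ℝ) * nu M b * nu M c * KY (2 ^ l) 1 b c else 0) := by
          rw [sum_comm]
          rw [sum_congr rfl fun c _ => sum_comm]
          rw [sum_comm]
          refine sum_congr rfl fun i _ => ?_
          rw [sum_comm]
      _ = _ := by
          refine sum_congr rfl fun l _ => ?_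
          rw [hS, mul_sum]
          refine sum_congr rfl fun b _ => ?_
          rw [mul_sum]
  calc _ ≤ L * ∑ l ∈ (range (2 * M + 2)).filter (fun l => l1 ≤ l),
        2 * Real.exp (2 * ((l : ℝ) + 2)) * Real.exp (2 ^ (l + 1)) * S l :=
        mul_le_mul_of_nonneg_left hsum hL.le
    _ = ∑ l ∈ (range (2 * M + 2)).filter (fun l => l1 ≤ l),
        L * (2 * Real.exp (2 * ((l : ℝ) + 2)) * Real.exp (2 ^ (l + 1)) * S l) := by rw [mul_sum]
    _ ≤ ∑ l ∈ (range (2 * M + 2)).filter (fun l => l1 ≤ l),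
        2 * Real.exp 4 * C2 * (1 / 2) ^ l * (L * V) := by
        refine sum_le_sum fun l hl => ?_
        refine le_trans ?_ (ky_num hC2 hL hV hmass l)
        refine mul_le_mul_of_nonneg_left ?_ hL.le
        exact mul_le_mul_of_nonneg_left (hSle l (mem_filter.1 hl).2) (by positivity)
    _ ≤ ∑ l ∈ range (2 * M + 2), 2 * Real.exp 4 * C2 * (1 / 2) ^ l * (L * V) := by
        refine sum_le_sum_of_subset_of_nonneg (filter_subset _ _) fun l _ _ => ?_
        have := mul_nonneg hL.le hV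
        positivity
    _ = 2 * Real.exp 4 * C2 * (L * V) * ∑ l ∈ range (2 * M + 2), (1 / 2 : ℝ) ^ l := by
        rw [mul_sum (range (2 * M + 2))]
        exact sum_congr rfl fun l _ => by ring
    _ ≤ 2 * Real.exp 4 * C2 * (L * V) * 2 := by
        refine mul_le_mul_of_nonneg_left ?_ ?_
        · rw [geom_sum_eq (by norm_num)]
          have : (0 : ℝ) < (1 / 2) ^ (2 * M + 2) := by positivity
          rw [div_le_iff_of_neg (by norm_num)]
          linarith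
        · have := mul_nonneg hL.le hV
          positivity
    _ = _ := by ring

end Crest.Agent.R4C.Topx971
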