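import Crest.Agent.R4C.BigTwistR_22
import Crest.Agent.R4C.BoostAl_100

/-!
# Row 4: the class CTw at one level, plain energy of two sets (helper100)

`TwLev F P t b c` : some offset `h` of the pair is in the class `CTw` at the level `t` and linked.
**`tw_sets`** : for `S, S' ⊆ divisors M` with `L ν(S), L ν(S') ≤ 1`
`Σ_{b ∈ S} Σ_{c ∈ S'} [TwLev t b c] gcd ν ν ≤ C (2^((t+1)/2))^η (E t ^ 4)^(-((1-η)/4 - ε)) sqrt(ν S ν S')`,
all scales of the gcd and all depths together (over 22's `big_twistR`).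
-/

set_option autoImplicit false

namespace Crest.Agent.R4C.TwSetsx100

open Finset Crest.Agent.R4C.Basex935 Crest.Agent.R4C.FLDefx935 Crest.Agent.R4C.BoostCx972
  Crest.Agent.R4C.CrCoinx935 Crest.Agent.R4C.CrCountx935 Crest.Agent.R4C.Bridgex882
  Crest.Agent.R4C.PrefixMx882 Crest.Agent.R4C.Rulex945 Crest.Agent.R4C.Sharedx11
  Crest.Agent.R4C.Splitx945 Crest.Agent.R4C.TwPairx100 Crest.Agent.R4C.MismAx100
  Crest.Agent.R4C.BigTwistRx22

variable {M : ℕ} {F : FL M} {P : Par}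

/-! ### the pair side -/

/-- linked offset -/
def Lk (γ L : ℝ) (b c : ℕ) (h : ℤ) : Prop :=
  (Nat.gcd b c : ℝ) * |(((b / Nat.gcd b c : ℕ) : ℝ) - (c / Nat.gcd b c : ℕ)) * γ + h| ≤ L

lemma Lk.symm {γ L : ℝ} {b c : ℕ} {h : ℤ} (hl : Lk γ L b c h) : Lk γ L c b (-h) := by
  unfold Lk at hl ⊢
  rw [Nat.gcd_comm c b]
  have e : (((c / Nat.gcd b c : ℕ) : ℝ) - (b / Nat.gcd b c : ℕ)) * γ + ((-h : ℤ) : ℝ) =
      -((((b / Nat.gcd b c : ℕ) : ℝ) - (c / Nat.gcd b c : ℕ)) * γ + h) := by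
    push_cast; ring
  rw [e, abs_neg]
  exact hl

lemma lk_of_mem {γ L : ℝ} {b c : ℕ} {h : ℤ} (hb : 0 < b) (hl : h ∈ Lnk γ L b c) :
    Lk γ L b c h := by
  unfold Lnk at hl
  rw [mem_Hf] at hl
  have hg : (0 : ℝ) < (Nat.gcd b c : ℕ) := by
    exact_mod_cast Nat.gcd_pos_of_pos_left _ hb
  unfold Lk
  calc (Nat.gcd b c : ℝ) * |(((b / Nat.gcd b c : ℕ) : ℝ) - (c / Nat.gcd b c : ℕ)) * γ + h|
      ≤ (Nat.gcd b c : ℝ) * (L / (Nat.gcd b c : ℕ)) := mul_le_mul_of_nonneg_left hl.le hg.le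
    _ = L := by field_simp

/-- one side of the class at the level `t` -/
def TwOne (F : FL M) (P : Par) (t b c : ℕ) : Prop :=
  ∃ (h : ℤ) (m : ℕ) (f f' : ℚ), F.good (P.cut t) b c ∧
    gap f f' (b / Nat.gcd b c) (c / Nat.gcd b c) h = 0 ∧ Lk P.γ P.L b c h ∧ t ≤ m ∧ P.m0 ≤ t ∧
    TC F P m b f ∧ TC F P t c f' ∧ P.E t ^ 4 < dep F P m b f ∧
    (Nat.gcd b c : ℝ) ^ 2 ≤ 2 ^ (t + 1) * P.L ^ 2

/-- **the class CTw at the level `t`** -/
def TwLev (F : FL M) (P : Par) (t b c : ℕ) : Prop :=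
  ∃ h ∈ Lnk P.γ P.L b c, ∃ m f f', BP F P t b c h f f' ∧ t ≤ m ∧
    ((TC F P m b f ∧ TC F P t c f' ∧ P.E t ^ 4 < dep F P m b f) ∨
      (TC F P m c f' ∧ TC F P t b f ∧ P.E t ^ 4 < dep F P m c f'))

lemma TwLev.split {t b c : ℕ} (hM : 0 < M) (hb : b ∣ M) (hc : c ∣ M) (h : TwLev F P t b c) :
    TwOne F P t b c ∨ TwOne F P t c b := by
  obtain ⟨h, hl, m, f, f', hB, htm, h1⟩ := h
  have hb0 := Nat.pos_of_dvd_of_pos hb hM
  have hl' := lk_of_mem hb0 hl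
  have hm0 : P.m0 ≤ t := by have := hB.m0; omega
  rcases h1 with ⟨h1, h2, h3⟩ | ⟨h1, h2, h3⟩
  · exact Or.inl ⟨h, m, f, f', hB.good, hB.pt, hl', htm, hm0, h1, h2, h3, hB.scl⟩
  · refine Or.inr ⟨-h, m, f', f, FL.good_symm hb hc hB.good, ?_, hl'.symm, htm, hm0, h1, h2, h3, ?_⟩
    · rw [Nat.gcd_comm c b]
      exact MismAx100.gap_symm hB.pt
    · rw [Nat.gcd_comm c b]
      exact hB.scl

/-- the big twist of a pair of the class -/
lemma btr_of_one {t b c : ℕ} (hM : 0 < M) (hL : 0 < P.L) (hcut : Monotone P.cut)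
    (hb : b ∣ M) (hc : c ∣ M) (h : TwOne F P t b c) :
    ∃ j : ℕ, P.E t ^ 4 < 2 ^ (j + 1) ∧
      BTR F P (2 ^ j) (((2 : ℝ) ^ j) ^ (1 / 2 : ℝ) / 2) b c := by
  obtain ⟨h, m, f, f', hg, hpt, hl, htm, hm0, h1, h2, h3, _⟩ := h
  have hb0 := Nat.pos_of_dvd_of_pos hb hM
  have hc0 := Nat.pos_of_dvd_of_pos hc hM
  have hgp : 0 < Nat.gcd b c := Nat.gcd_pos_of_pos_left _ hb0
  have eb : Nat.gcd b c * (b / Nat.gcd b c) = b := Nat.mul_div_cancel' (Nat.gcd_dvd_left _ _)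
  have ec : Nat.gcd b c * (c / Nat.gcd b c) = c := Nat.mul_div_cancel' (Nat.gcd_dvd_right _ _)
  have hcop : Nat.Coprime (b / Nat.gcd b c) (c / Nat.gcd b c) := Nat.coprime_div_gcd_div_gcd hgp
  have hK1 : 1 ≤ dep F P m b f := one_le_dep m b f
  obtain ⟨j, hj1, hj2⟩ := exists_nat_pow_near hK1 (one_lt_two (α := ℝ))
  refine ⟨j, h3.trans hj2, ?_⟩
  refine BTR_of_gcd hM hb (hm0.trans htm) h1 hj1 (by rw [pow_succ] at hj2; linarith) ?_
  -- the twist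
  have hd2 : dep F P t c f' ≤ P.E t ^ 2 := h2.dep_le hL
  have hd1 : 1 ≤ dep F P t c f' := one_le_dep t c f'
  have hbig : dep F P t c f' ^ 2 ≤ dep F P m b f := by
    calc dep F P t c f' ^ 2 ≤ (P.E t ^ 2) ^ 2 := pow_le_pow_left₀ (by linarith) hd2 2
      _ = P.E t ^ 4 := by ring
      _ ≤ _ := h3.le
  have h5 := twist_big (F := F) (P := P) (g := Nat.gcd b c) (s := b / Nat.gcd b c)
    (s' := c / Nat.gcd b c) (h := h) (f := f) (f' := f') hM hL hcut (by rw [eb]; exact hb)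
    (by rw [ec]; exact hc) hcop htm (by rw [eb, ec]; exact hg) hpt hl
    (by rw [eb, ec]; exact hbig)
  rw [eb] at h5
  refine le_trans ?_ h5
  have h6 : ((2 : ℝ) ^ j) ^ (1 / 2 : ℝ) ≤ dep F P m b f ^ (1 / 2 : ℝ) :=
    Real.rpow_le_rpow (by positivity) hj1 (by norm_num)
  linarith

/-! ### the sums -/

/-- a scale below `G` -/
lemma exists_scale {G g : ℝ} (hg : 0 < g) (hG : 0 < G) (h : g ≤ G) :
    ∃ i : ℕ, G / 2 ^ i ≤ g ∧ g < 2 * (G / 2 ^ i) := by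
  classical
  have hex : ∃ i : ℕ, G ≤ 2 ^ i * g := by
    obtain ⟨n, hn⟩ := pow_unbounded_of_one_lt (G / g) (one_lt_two (α := ℝ))
    exact ⟨n, by rw [div_lt_iff₀ hg] at hn; exact hn.le⟩
  obtain ⟨n, hn, hmin⟩ : ∃ n : ℕ, G ≤ 2 ^ n * g ∧ ∀ k < n, ¬ G ≤ 2 ^ k * g :=
    ⟨Nat.find hex, Nat.find_spec hex, fun k hk => Nat.find_min hex hk⟩
  refine ⟨n, ?_, ?_⟩
  · rw [div_le_iff₀ (by positivity)]
    linarith
  · rcases Nat.eq_zero_or_pos n with h0 | h0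
    · rw [h0, pow_zero, div_one]; linarith
    · obtain ⟨k, rfl⟩ : ∃ k, n = k + 1 := ⟨n - 1, by omega⟩
      have h1 := hmin k (Nat.lt_succ_self k)
      rw [not_le] at h1
      have h2 : 2 * (G / 2 ^ (k + 1)) = G / 2 ^ k := by
        rw [pow_succ]
        field_simp
      rw [h2, lt_div_iff₀ (by positivity)]
      linarith

/-- geometric sum of the depths -/
lemma sum_depth {a Y : ℝ} (ha : 0 < a) (hY : 0 < Y) (J : ℕ) :
    ∑ j ∈ (range J).filter (fun j => Y < (2 : ℝ) ^ (j + 1)), ((2 : ℝ) ^ j) ^ (-a) ≤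
      (2 : ℝ) ^ a * (1 - (2 : ℝ) ^ (-a))⁻¹ * Y ^ (-a) := by
  have h2a : (2 : ℝ) ^ (-a) < 1 := Real.rpow_lt_one_of_one_lt_of_neg (by norm_num) (by linarith)
  have h2a0 : (0 : ℝ) < (2 : ℝ) ^ (-a) := Real.rpow_pos_of_pos (by norm_num) _
  have hinv : 0 < (1 - (2 : ℝ) ^ (-a))⁻¹ := inv_pos.2 (by linarith)
  classical
  set T := (range J).filter (fun j => Y < (2 : ℝ) ^ (j + 1)) with hT
  rcases T.eq_empty_or_nonempty with he | hne
  · rw [he, sum_empty]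
    have : 0 < Y ^ (-a) := Real.rpow_pos_of_pos hY _
    positivity
  set j0 := T.min' hne with hj0
  have hj0T := T.min'_mem hne
  have hj0Y : Y < (2 : ℝ) ^ (j0 + 1) := (mem_filter.1 hj0T).2
  have hpw : ∀ j : ℕ, ((2 : ℝ) ^ j) ^ (-a) = ((2 : ℝ) ^ (-a)) ^ j := by
    intro j
    rw [← Real.rpow_natCast, ← Real.rpow_mul (by norm_num), ← Real.rpow_natCast,
      ← Real.rpow_mul (by norm_num)]
    congr 1
    ring
  have h1 : ∑ j ∈ T, ((2 : ℝ) ^ j) ^ (-a) ≤ ∑ i ∈ range J, ((2 : ℝ) ^ (-a)) ^ (j0 + i) := by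
    have h2 : ∑ j ∈ T, ((2 : ℝ) ^ j) ^ (-a) =
        ∑ i ∈ T.image (fun j => j - j0), ((2 : ℝ) ^ (-a)) ^ (j0 + i) := by
      rw [sum_image]
      · refine sum_congr rfl fun j hj => ?_
        rw [hpw]
        congr 1
        have := T.min'_le j hj
        omega
      · intro a' ha' b' hb' hab
        have h3 := T.min'_le a' ha'
        have h4 := T.min'_le b' hb'
        simp only at hab
        omega
    rw [h2]
    refine sum_le_sum_of_subset_of_nonneg ?_ fun i _ _ => by positivity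
    intro i hi
    rw [mem_image] at hi
    obtain ⟨j, hj, rfl⟩ := hi
    have := mem_range.1 (mem_filter.1 hj).1
    rw [mem_range]
    omega
  have h2 : ∑ i ∈ range J, ((2 : ℝ) ^ (-a)) ^ (j0 + i) =
      ((2 : ℝ) ^ (-a)) ^ j0 * ∑ i ∈ range J, ((2 : ℝ) ^ (-a)) ^ i := by
    rw [mul_sum]
    exact sum_congr rfl fun i _ => pow_add _ _ _
  have h3 : ∑ i ∈ range J, ((2 : ℝ) ^ (-a)) ^ i ≤ (1 - (2 : ℝ) ^ (-a))⁻¹ := by
    have := Summable.sum_le_tsum (range J) (fun j _ => pow_nonneg h2a0.le j)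
      (summable_geometric_of_lt_one h2a0.le h2a)
    rwa [tsum_geometric_of_lt_one h2a0.le h2a] at this
  have h4 : ((2 : ℝ) ^ (-a)) ^ j0 ≤ (2 : ℝ) ^ a * Y ^ (-a) := by
    rw [← hpw]
    have h5 : Y / 2 ≤ (2 : ℝ) ^ j0 := by rw [pow_succ] at hj0Y; linarith
    calc ((2 : ℝ) ^ j0) ^ (-a) ≤ (Y / 2) ^ (-a) :=
          Real.rpow_le_rpow_of_nonpos (by positivity) h5 (by linarith)
      _ = _ := by
          rw [Real.div_rpow hY.le (by norm_num), Real.rpow_neg (by norm_num : (0:ℝ) ≤ 2),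
            div_inv_eq_mul, mul_comm]
  rw [h2] at h1
  refine h1.trans ?_
  calc ((2 : ℝ) ^ (-a)) ^ j0 * ∑ i ∈ range J, ((2 : ℝ) ^ (-a)) ^ i
      ≤ ((2 : ℝ) ^ a * Y ^ (-a)) * (1 - (2 : ℝ) ^ (-a))⁻¹ :=
        mul_le_mul h4 h3 (sum_nonneg fun i _ => by positivity)
          (by have : 0 < Y ^ (-a) := Real.rpow_pos_of_pos hY _
              positivity)
    _ = _ := by ring

/-- geometric sum of the scales -/
lemma sum_scale {G η : ℝ} (hη : 0 < η) (hG : 0 < G) (I : ℕ) :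
    ∑ i ∈ range I, (G / 2 ^ i) ^ η ≤ (1 - (2 : ℝ) ^ (-η))⁻¹ * G ^ η := by
  have h2a : (2 : ℝ) ^ (-η) < 1 := Real.rpow_lt_one_of_one_lt_of_neg (by norm_num) (by linarith)
  have h2a0 : (0 : ℝ) < (2 : ℝ) ^ (-η) := Real.rpow_pos_of_pos (by norm_num) _
  have h1 : ∀ i : ℕ, (G / 2 ^ i) ^ η = G ^ η * ((2 : ℝ) ^ (-η)) ^ i := by
    intro i
    rw [Real.div_rpow hG.le (by positivity), div_eq_mul_inv, ← Real.rpow_neg (by positivity)]
    congr 1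
    rw [← Real.rpow_natCast, ← Real.rpow_mul (by norm_num), ← Real.rpow_natCast,
      ← Real.rpow_mul (by norm_num)]
    congr 1
    ring
  rw [sum_congr rfl fun i _ => h1 i, ← mul_sum, mul_comm]
  refine mul_le_mul_of_nonneg_right ?_ (by positivity)
  have := Summable.sum_le_tsum (range I) (fun j _ => pow_nonneg h2a0.le j)
    (summable_geometric_of_lt_one h2a0.le h2a)
  rwa [tsum_geometric_of_lt_one h2a0.le h2a] at this

/-- indicator -/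
noncomputable def ind (S : Finset ℕ) (b : ℕ) : ℝ := if b ∈ S then 1 else 0

lemma ind_nonneg (S : Finset ℕ) (b : ℕ) : 0 ≤ ind S b := by
  unfold ind; split_ifs <;> norm_num

lemma ind_le_one (S : Finset ℕ) (b : ℕ) : ind S b ≤ 1 := by
  unfold ind; split_ifs <;> norm_num

lemma sum_ind {S : Finset ℕ} (hS : S ⊆ M.divisors) (w : ℕ → ℝ) :
    ∑ b ∈ M.divisors, w b * ind S b = ∑ b ∈ S, w b := by
  classical
  rw [← sum_subset hS]
  · exact sum_congr rfl fun b hb => by unfold ind; rw [if_pos hb, mul_one]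
  · intro b _ hb
    unfold ind
    rw [if_neg hb, mul_zero]

open Classical in
/-- one side, two sets -/
theorem tw_one {η ε : ℝ} (hη : 0 < η) (_hη1 : η < 1) (hε : 0 < ε) (hε1 : ε < (1 - η) / 4) :
    ∃ C : ℝ, 0 < C ∧ ∀ (M : ℕ) (F : FL M) (P : Par) (S S' : Finset ℕ) (t : ℕ), 0 < M →
      S ⊆ M.divisors → S' ⊆ M.divisors → 0 < P.L → P.L * ∑ b ∈ S, nu M b ≤ 1 →
      P.L * ∑ b ∈ S', nu M b ≤ 1 → Monotone P.cut → (∀ m, P.m0 ≤ m → 16 * P.E m ^ 6 < 2 ^ m) →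
      (∀ m, P.m0 ≤ m → 2 * P.E m ^ 2 ≤ P.cut m) → 0 < P.E t →
      ∑ b ∈ S, ∑ c ∈ S', (if TwOne F P t b c then
        (Nat.gcd b c : ℝ) * nu M b * nu M c else 0) ≤
        C * ((2 : ℝ) ^ ((t + 1 : ℝ) / 2)) ^ η * (P.E t ^ 4) ^ (-((1 - η) / 4 - ε)) *
          Real.sqrt ((∑ b ∈ S, nu M b) * ∑ b ∈ S', nu M b) := by
  have ht : 1 / 2 < (1 + η) / 2 := by linarith
  have ht1 : (1 + η) / 2 < 1 := by linarith
  obtain ⟨C, hC, hbt⟩ := big_twistR ht ht1 hε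
  set a : ℝ := (1 - η) / 4 - ε with ha
  have ha0 : 0 < a := by linarith
  have h2a : (2 : ℝ) ^ (-a) < 1 := Real.rpow_lt_one_of_one_lt_of_neg (by norm_num) (by linarith)
  have h2η : (2 : ℝ) ^ (-η) < 1 := Real.rpow_lt_one_of_one_lt_of_neg (by norm_num) (by linarith)
  have hi1 : 0 < (1 - (2 : ℝ) ^ (-a))⁻¹ := inv_pos.2 (by linarith)
  have hi2 : 0 < (1 - (2 : ℝ) ^ (-η))⁻¹ := inv_pos.2 (by linarith)
  set C1 : ℝ := C * (1 - (2 : ℝ) ^ (-η))⁻¹ * ((2 : ℝ) ^ ((1 - η) / 2) *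
    ((2 : ℝ) ^ a * (1 - (2 : ℝ) ^ (-a))⁻¹)) with hC1
  refine ⟨C1, by positivity, ?_⟩
  intro M F P S S' t hM hS hS' hL hm hm' hcut hE6 hEc hEt
  set G : ℝ := (2 : ℝ) ^ ((t + 1 : ℝ) / 2) * P.L with hG
  have hG0 : 0 < G := by positivity
  set E1 : ℝ := ∑ b ∈ S, nu M b with hE1
  set E2 : ℝ := ∑ b ∈ S', nu M b with hE2
  have hE1n : 0 ≤ E1 := sum_nonneg fun b _ => nu_nonneg M b
  have hE2n : 0 ≤ E2 := sum_nonneg fun b _ => nu_nonneg M b
  -- indices of a pair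
  have hex : ∀ b c : ℕ, ∃ ij : ℕ × ℕ, b ∣ M → c ∣ M → TwOne F P t b c →
      G / 2 ^ ij.1 ≤ (Nat.gcd b c : ℝ) ∧ (Nat.gcd b c : ℝ) < 2 * (G / 2 ^ ij.1) ∧
      P.E t ^ 4 < 2 ^ (ij.2 + 1) ∧
      BTR F P (2 ^ ij.2) (((2 : ℝ) ^ ij.2) ^ (1 / 2 : ℝ) / 2) b c := by
    intro b c
    by_cases h0 : b ∣ M ∧ c ∣ M ∧ TwOne F P t b c
    · obtain ⟨hb, hc, h1⟩ := h0
      obtain ⟨j, hj1, hj2⟩ := btr_of_one hM hL hcut hb hc h1
      have hgp : (0 : ℝ) < (Nat.gcd b c : ℕ) := by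
        exact_mod_cast Nat.gcd_pos_of_pos_left _ (Nat.pos_of_dvd_of_pos hb hM)
      have hgG : (Nat.gcd b c : ℝ) ≤ G := by
        obtain ⟨_, _, _, _, _, _, _, _, _, _, _, _, h2⟩ := h1
        have h3 : G ^ 2 = 2 ^ (t + 1) * P.L ^ 2 := by
          rw [hG, mul_pow, ← Real.rpow_natCast, ← Real.rpow_mul (by norm_num)]
          congr 1
          rw [show ((t : ℝ) + 1) / 2 * ((2 : ℕ) : ℝ) = ((t + 1 : ℕ) : ℝ) by push_cast; ring,
            Real.rpow_natCast]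
        rw [← h3] at h2
        exact le_of_sq_le_sq h2 hG0.le
      obtain ⟨i, hi1, hi2⟩ := exists_scale hgp hG0 hgG
      exact ⟨(i, j), fun _ _ _ => ⟨hi1, hi2, hj1, hj2⟩⟩
    · exact ⟨(0, 0), fun hb hc h => absurd ⟨hb, hc, h⟩ h0⟩
  choose ij hij using hex
  set I : ℕ := (S ×ˢ S').sup (fun p => (ij p.1 p.2).1) + 1 with hI
  set J : ℕ := (S ×ˢ S').sup (fun p => (ij p.1 p.2).2) + 1 with hJ
  set TJ := (range J).filter (fun j => P.E t ^ 4 < (2 : ℝ) ^ (j + 1)) with hTJ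
  -- the big twist form
  set W : ℕ → ℕ → ℝ := fun i j => ∑ b ∈ M.divisors, ∑ c ∈ M.divisors,
        (if G / 2 ^ i ≤ (Nat.gcd b c : ℝ) ∧ (Nat.gcd b c : ℝ) < 2 * (G / 2 ^ i) ∧
          BTR F P (2 ^ j) (((2 : ℝ) ^ j) ^ (1 / 2 : ℝ) / 2) b c then
          (Nat.gcd b c : ℝ) * nu M b * nu M c * (ind S b * ind S' c) else 0) with hW
  have hg0 : ∀ b c, 0 ≤ (Nat.gcd b c : ℝ) * nu M b * nu M c := fun b c =>
    mul_nonneg (mul_nonneg (Nat.cast_nonneg _) (nu_nonneg _ _)) (nu_nonneg _ _)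
  have hii : ∀ b c, 0 ≤ ind S b * ind S' c := fun b c =>
    mul_nonneg (ind_nonneg _ _) (ind_nonneg _ _)
  have hterm : ∀ i j b c, 0 ≤ (if G / 2 ^ i ≤ (Nat.gcd b c : ℝ) ∧
      (Nat.gcd b c : ℝ) < 2 * (G / 2 ^ i) ∧
          BTR F P (2 ^ j) (((2 : ℝ) ^ j) ^ (1 / 2 : ℝ) / 2) b c then
          (Nat.gcd b c : ℝ) * nu M b * nu M c * (ind S b * ind S' c) else (0 : ℝ)) := by
    intro i j b c
    split_ifs
    · exact mul_nonneg (hg0 b c) (hii b c)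
    · exact le_rfl
  -- step 1
  have s1 : ∑ b ∈ S, ∑ c ∈ S', (if TwOne F P t b c then
        (Nat.gcd b c : ℝ) * nu M b * nu M c else 0) ≤ ∑ i ∈ range I, ∑ j ∈ TJ, W i j := by
    have e1 : ∑ i ∈ range I, ∑ j ∈ TJ, W i j = ∑ b ∈ M.divisors, ∑ c ∈ M.divisors,
        ∑ i ∈ range I, ∑ j ∈ TJ, (if G / 2 ^ i ≤ (Nat.gcd b c : ℝ) ∧
          (Nat.gcd b c : ℝ) < 2 * (G / 2 ^ i) ∧
          BTR F P (2 ^ j) (((2 : ℝ) ^ j) ^ (1 / 2 : ℝ) / 2) b c then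
          (Nat.gcd b c : ℝ) * nu M b * nu M c * (ind S b * ind S' c) else (0 : ℝ)) := by
      rw [hW]
      calc ∑ i ∈ range I, ∑ j ∈ TJ, ∑ b ∈ M.divisors, ∑ c ∈ M.divisors, _ 
          = ∑ i ∈ range I, ∑ b ∈ M.divisors, ∑ j ∈ TJ, ∑ c ∈ M.divisors, _ :=
            sum_congr rfl fun i _ => sum_comm
        _ = ∑ b ∈ M.divisors, ∑ i ∈ range I, ∑ j ∈ TJ, ∑ c ∈ M.divisors, _ := sum_comm
        _ = ∑ b ∈ M.divisors, ∑ i ∈ range I, ∑ c ∈ M.divisors, ∑ j ∈ TJ, _ :=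
            sum_congr rfl fun b _ => sum_congr rfl fun i _ => sum_comm
        _ = ∑ b ∈ M.divisors, ∑ c ∈ M.divisors, ∑ i ∈ range I, ∑ j ∈ TJ, _ :=
            sum_congr rfl fun b _ => sum_comm
    rw [e1]
    have hnn : ∀ b c, 0 ≤ ∑ i ∈ range I, ∑ j ∈ TJ, (if G / 2 ^ i ≤ (Nat.gcd b c : ℝ) ∧
          (Nat.gcd b c : ℝ) < 2 * (G / 2 ^ i) ∧
          BTR F P (2 ^ j) (((2 : ℝ) ^ j) ^ (1 / 2 : ℝ) / 2) b c then
          (Nat.gcd b c : ℝ) * nu M b * nu M c * (ind S b * ind S' c) else (0 : ℝ)) := fun b c =>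
      sum_nonneg fun i _ => sum_nonneg fun j _ => hterm i j b c
    refine le_trans (sum_le_sum fun b hb => ?_)
      (sum_le_sum_of_subset_of_nonneg hS fun b _ _ => sum_nonneg fun c _ => hnn b c)
    refine le_trans (sum_le_sum fun c hc => ?_)
      (sum_le_sum_of_subset_of_nonneg hS' fun c _ _ => hnn b c)
    by_cases h1 : TwOne F P t b c
    · rw [if_pos h1]
      obtain ⟨h2, h3, h4, h5⟩ := hij b c (Nat.dvd_of_mem_divisors (hS hb))
        (Nat.dvd_of_mem_divisors (hS' hc)) h1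
      have hi : (ij b c).1 ∈ range I := by
        rw [mem_range, hI, Nat.lt_succ_iff]
        exact Finset.le_sup (f := fun p : ℕ × ℕ => (ij p.1 p.2).1)
          (mem_product.2 ⟨hb, hc⟩ : (b, c) ∈ S ×ˢ S')
      have hj : (ij b c).2 ∈ TJ := by
        rw [hTJ, mem_filter, mem_range, hJ, Nat.lt_succ_iff]
        exact ⟨Finset.le_sup (f := fun p : ℕ × ℕ => (ij p.1 p.2).2)
          (mem_product.2 ⟨hb, hc⟩ : (b, c) ∈ S ×ˢ S'), h4⟩
      refine le_trans ?_ (single_le_sum (f := fun i => ∑ j ∈ TJ, (if G / 2 ^ i ≤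
          (Nat.gcd b c : ℝ) ∧ (Nat.gcd b c : ℝ) < 2 * (G / 2 ^ i) ∧
          BTR F P (2 ^ j) (((2 : ℝ) ^ j) ^ (1 / 2 : ℝ) / 2) b c then
          (Nat.gcd b c : ℝ) * nu M b * nu M c * (ind S b * ind S' c) else (0 : ℝ)))
        (fun i _ => sum_nonneg fun j _ => hterm i j b c) hi)
      refine le_trans ?_ (single_le_sum (f := fun j => (if G / 2 ^ (ij b c).1 ≤
          (Nat.gcd b c : ℝ) ∧ (Nat.gcd b c : ℝ) < 2 * (G / 2 ^ (ij b c).1) ∧
          BTR F P (2 ^ j) (((2 : ℝ) ^ j) ^ (1 / 2 : ℝ) / 2) b c then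
          (Nat.gcd b c : ℝ) * nu M b * nu M c * (ind S b * ind S' c) else (0 : ℝ)))
        (fun j _ => hterm _ j b c) hj)
      rw [if_pos ⟨h2, h3, h5⟩]
      unfold ind
      rw [if_pos hb, if_pos hc]
      linarith
    · rw [if_neg h1]
      exact hnn b c
  -- step 2 : the bound of one box
  have s2 : ∀ i j : ℕ, W i j ≤ (C * (2 : ℝ) ^ ((1 - η) / 2) *
      (E1 ^ ((1 + η) / 2) * E2 ^ ((1 + η) / 2))) *
      ((G / 2 ^ i) ^ η * ((2 : ℝ) ^ j) ^ (-a)) := by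
    intro i j
    have h1 := hbt M F P (G / 2 ^ i) (2 ^ j) (((2 : ℝ) ^ j) ^ (1 / 2 : ℝ) / 2) (ind S) (ind S')
      hM (by positivity) (one_le_pow₀ (by norm_num)) (by positivity) hL hcut hE6 hEc
      (ind_nonneg S) (ind_le_one S) (ind_nonneg S') (ind_le_one S')
    rw [sum_ind hS, sum_ind hS'] at h1
    refine h1.trans (le_of_eq ?_)
    have e1 : 2 * ((1 + η) / 2) - 1 = η := by ring
    have e2 : 1 - (1 + η) / 2 = (1 - η) / 2 := by ring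
    rw [e1, e2]
    have hx : (0 : ℝ) < (2 : ℝ) ^ j := by positivity
    have e3 : (1 / (((2 : ℝ) ^ j) ^ (1 / 2 : ℝ) / 2)) ^ ((1 - η) / 2) =
        (2 : ℝ) ^ ((1 - η) / 2) * ((2 : ℝ) ^ j) ^ (-((1 - η) / 4)) := by
      have e4 : 1 / (((2 : ℝ) ^ j) ^ (1 / 2 : ℝ) / 2) = 2 * ((2 : ℝ) ^ j) ^ (-(1 / 2) : ℝ) := by
        rw [Real.rpow_neg hx.le]
        have : ((2 : ℝ) ^ j) ^ (1 / 2 : ℝ) ≠ 0 := (Real.rpow_pos_of_pos hx _).ne'
        field_simp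
      rw [e4, Real.mul_rpow (by norm_num) (by positivity), ← Real.rpow_mul hx.le]
      congr 2
      ring
    have e5 : ((2 : ℝ) ^ j) ^ ε * ((2 : ℝ) ^ j) ^ (-((1 - η) / 4)) = ((2 : ℝ) ^ j) ^ (-a) := by
      rw [← Real.rpow_add hx]
      congr 1
      rw [ha]; ring
    rw [e3, ← e5]
    ring
  -- step 3
  have s3 : ∑ i ∈ range I, ∑ j ∈ TJ, W i j ≤ (C * (2 : ℝ) ^ ((1 - η) / 2) *
      (E1 ^ ((1 + η) / 2) * E2 ^ ((1 + η) / 2))) *
      (((1 - (2 : ℝ) ^ (-η))⁻¹ * G ^ η) *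
        ((2 : ℝ) ^ a * (1 - (2 : ℝ) ^ (-a))⁻¹ * (P.E t ^ 4) ^ (-a))) := by
    refine (sum_le_sum fun i _ => sum_le_sum fun j _ => s2 i j).trans ?_
    simp_rw [← mul_sum]
    refine mul_le_mul_of_nonneg_left ?_ (by positivity)
    rw [← sum_mul]
    refine mul_le_mul (sum_scale hη hG0 I) (sum_depth ha0 (by positivity) J)
      (sum_nonneg fun j _ => by positivity) (by positivity)
  -- step 4 : the masses
  have s4 : G ^ η * (E1 ^ ((1 + η) / 2) * E2 ^ ((1 + η) / 2)) ≤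
      ((2 : ℝ) ^ ((t + 1 : ℝ) / 2)) ^ η * Real.sqrt (E1 * E2) := by
    rw [hG, Real.mul_rpow (by positivity) hL.le, mul_assoc]
    refine mul_le_mul_of_nonneg_left ?_ (by positivity)
    have e1 : E1 ^ ((1 + η) / 2) * E2 ^ ((1 + η) / 2) =
        (E1 * E2) ^ (η / 2) * (E1 * E2) ^ (1 / 2 : ℝ) := by
      rw [← Real.mul_rpow hE1n hE2n, ← Real.rpow_add_of_nonneg (mul_nonneg hE1n hE2n)
        (by positivity) (by norm_num)]
      congr 1
      ring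
    rw [e1, Real.sqrt_eq_rpow, ← mul_assoc]
    refine mul_le_of_le_one_left (by positivity) ?_
    have e2 : P.L ^ η = (P.L * P.L) ^ (η / 2) := by
      rw [← sq, ← Real.rpow_natCast, ← Real.rpow_mul hL.le]
      congr 1
      push_cast
      ring
    rw [e2, ← Real.mul_rpow (by positivity) (mul_nonneg hE1n hE2n)]
    refine Real.rpow_le_one (by positivity) ?_ (by positivity)
    calc P.L * P.L * (E1 * E2) = (P.L * E1) * (P.L * E2) := by ring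
      _ ≤ 1 * 1 := mul_le_mul hm hm' (mul_nonneg hL.le hE2n) (by norm_num)
      _ = 1 := by norm_num
  refine s1.trans (s3.trans ?_)
  have hEa : 0 ≤ (P.E t ^ 4) ^ (-a) := by positivity
  calc (C * (2 : ℝ) ^ ((1 - η) / 2) *
      (E1 ^ ((1 + η) / 2) * E2 ^ ((1 + η) / 2))) *
      (((1 - (2 : ℝ) ^ (-η))⁻¹ * G ^ η) *
        ((2 : ℝ) ^ a * (1 - (2 : ℝ) ^ (-a))⁻¹ * (P.E t ^ 4) ^ (-a)))
      = (C1 * (P.E t ^ 4) ^ (-a)) * (G ^ η * (E1 ^ ((1 + η) / 2) * E2 ^ ((1 + η) / 2))) := by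
        rw [hC1]; ring
    _ ≤ (C1 * (P.E t ^ 4) ^ (-a)) * (((2 : ℝ) ^ ((t + 1 : ℝ) / 2)) ^ η * Real.sqrt (E1 * E2)) :=
        mul_le_mul_of_nonneg_left s4 (by positivity)
    _ = _ := by ring

open Classical in
/-- **CLASS CTw AT ONE LEVEL, TWO SETS** -/
theorem tw_sets {η ε : ℝ} (hη : 0 < η) (hη1 : η < 1) (hε : 0 < ε) (hε1 : ε < (1 - η) / 4) :
    ∃ C : ℝ, 0 < C ∧ ∀ (M : ℕ) (F : FL M) (P : Par) (S S' : Finset ℕ) (t : ℕ), 0 < M →
      S ⊆ M.divisors → S' ⊆ M.divisors → 0 < P.L → P.L * ∑ b ∈ S, nu M b ≤ 1 →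
      P.L * ∑ b ∈ S', nu M b ≤ 1 → Monotone P.cut → (∀ m, P.m0 ≤ m → 16 * P.E m ^ 6 < 2 ^ m) →
      (∀ m, P.m0 ≤ m → 2 * P.E m ^ 2 ≤ P.cut m) → 0 < P.E t →
      ∑ b ∈ S, ∑ c ∈ S', (if TwLev F P t b c then
        (Nat.gcd b c : ℝ) * nu M b * nu M c else 0) ≤
        C * ((2 : ℝ) ^ ((t + 1 : ℝ) / 2)) ^ η * (P.E t ^ 4) ^ (-((1 - η) / 4 - ε)) *
          Real.sqrt ((∑ b ∈ S, nu M b) * ∑ b ∈ S', nu M b) := by
  obtain ⟨C, hC, h⟩ := tw_one hη hη1 hε hε1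
  refine ⟨2 * C, by positivity, ?_⟩
  intro M F P S S' t hM hS hS' hL hm hm' hcut hE6 hEc hEt
  have h1 := h M F P S S' t hM hS hS' hL hm hm' hcut hE6 hEc hEt
  have h2 := h M F P S' S t hM hS' hS hL hm' hm hcut hE6 hEc hEt
  have hg0 : ∀ b c, 0 ≤ (Nat.gcd b c : ℝ) * nu M b * nu M c := fun b c =>
    mul_nonneg (mul_nonneg (Nat.cast_nonneg _) (nu_nonneg _ _)) (nu_nonneg _ _)
  have h3 : ∑ b ∈ S, ∑ c ∈ S', (if TwLev F P t b c then
        (Nat.gcd b c : ℝ) * nu M b * nu M c else 0) ≤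
      ∑ b ∈ S, ∑ c ∈ S', (if TwOne F P t b c then (Nat.gcd b c : ℝ) * nu M b * nu M c else 0) +
      ∑ c ∈ S', ∑ b ∈ S, (if TwOne F P t c b then
        (Nat.gcd c b : ℝ) * nu M c * nu M b else 0) := by
    rw [sum_comm (s := S') (t := S), ← sum_add_distrib]
    refine sum_le_sum fun b hb => ?_
    rw [← sum_add_distrib]
    refine sum_le_sum fun c hc => ?_
    by_cases h4 : TwLev F P t b c
    · rw [if_pos h4]
      rcases h4.split hM (Nat.dvd_of_mem_divisors (hS hb)) (Nat.dvd_of_mem_divisors (hS' hc)) with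
        h5 | h5
      · rw [if_pos h5]
        have : (0 : ℝ) ≤ (if TwOne F P t c b then (Nat.gcd c b : ℝ) * nu M c * nu M b else 0) := by
          split_ifs
          · exact hg0 c b
          · exact le_rfl
        linarith
      · rw [if_pos h5, Nat.gcd_comm c b]
        have h6 : (0 : ℝ) ≤ (if TwOne F P t b c then (Nat.gcd b c : ℝ) * nu M b * nu M c else 0) := by
          split_ifs
          · exact hg0 b c
          · exact le_rfl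
        have h7 : (Nat.gcd b c : ℝ) * nu M b * nu M c = (Nat.gcd b c : ℝ) * nu M c * nu M b := by
          ring
        linarith
    · rw [if_neg h4]
      refine add_nonneg ?_ ?_
      · split_ifs
        · exact hg0 b c
        · exact le_rfl
      · split_ifs
        · exact hg0 c b
        · exact le_rfl
  refine h3.trans ((add_le_add h1 h2).trans (le_of_eq ?_))
  rw [mul_comm (∑ b ∈ S', nu M b) (∑ b ∈ S, nu M b)]
  ring

end Crest.Agent.R4C.TwSetsx100
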