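import Crest.Agent.R4C.UnexplR_208
import Crest.Agent.R4C.IIIR_256
import Crest.Agent.Lib.Mertens

/-!
# The class UNEXPLAINED DEFICIT, total at one scale (helper208)

`Sm_le`  : `∏_{p ≤ x} (1-1/p)⁻¹ ≤ C log x`;
`ud_tot` : `F : FL M`, cut `x ≥ T`, closed window `T L ≤ gcd ≤ 2 T L`, all low words:
`L Σ_{good, UD b c ∨ UD c b} gcd ν ν f g
   ≤ C T^η ((log x · E^3/T)^((1-η)/2) + x^(-δ)) (L Σ ν f)^((1+η)/2) (L Σ ν g)^((1+η)/2)`
(`256`'s `IIIR` + `491`'s `lemQ`).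
-/

set_option autoImplicit false

namespace Crest.Agent.R4C.UDtotx208

open Finset
open Crest.Agent.R4C.Basex935 Crest.Agent.R4C.Cutx50 Crest.Agent.R4C.FLDefx935
open Crest.Agent.R4C.UnexplRx208 Crest.Agent.R4C.Pairx14

open Classical

/-- `∏_{p ≤ x} (1-1/p)⁻¹ ≤ C log x` -/
theorem Sm_le : ∃ C : ℝ, 0 < C ∧ ∀ x : ℕ, 2 ≤ x → IIIRx256.Sm x ≤ C * Real.log x := by
  refine ⟨2 * (Real.exp (22 / Real.log 2) / Real.log 2), by
    have := Real.log_pos (by norm_num : (1:ℝ) < 2); positivity, fun x hx => ?_⟩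
  have hl2 : 0 < Real.log 2 := Real.log_pos (by norm_num)
  have hxR : (2:ℝ) ≤ x := by exact_mod_cast hx
  have hlx : 0 < Real.log x := Real.log_pos (by linarith)
  have h1 := (Crest.Agent.Lib.Mertens.mertens_three 2 x le_rfl hxR).1
  set P := ∏ p ∈ Crest.Agent.Lib.Mertens.pr 2 x, (1 - 1 / (p : ℝ)) with hP
  have hset : (x + 1).primesBelow = insert 2 (Crest.Agent.Lib.Mertens.pr 2 x) := by
    ext p
    rw [Nat.mem_primesBelow, Finset.mem_insert, Crest.Agent.Lib.Mertens.mem_pr (by norm_num)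
      (by positivity)]
    constructor
    · rintro ⟨h2, h3⟩
      by_cases hp : p = 2
      · exact Or.inl hp
      · right
        have := h3.two_le
        refine ⟨⟨?_, ?_⟩, h3⟩
        · have : 2 < p := by omega
          exact_mod_cast this
        · have : p ≤ x := by omega
          exact_mod_cast this
    · rintro (h2 | ⟨⟨h2, h3⟩, h4⟩)
      · subst h2; exact ⟨by omega, Nat.prime_two⟩
      · have : p ≤ x := by exact_mod_cast h3
        exact ⟨by omega, h4⟩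
  have hnot : (2:ℕ) ∉ Crest.Agent.Lib.Mertens.pr 2 x := by
    rw [Crest.Agent.Lib.Mertens.mem_pr (by norm_num) (by positivity)]
    rintro ⟨⟨h2, _⟩, _⟩
    norm_num at h2
  have hPpos : 0 < P := by
    refine lt_of_lt_of_le ?_ h1
    positivity
  have e1 : IIIRx256.Sm x = 2 * P⁻¹ := by
    unfold IIIRx256.Sm
    rw [hset, Finset.prod_insert hnot, hP, ← Finset.prod_inv_distrib]
    congr 1
    · rw [Real.rpow_neg_one]; norm_num
    · refine Finset.prod_congr rfl fun p _ => ?_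
      rw [Real.rpow_neg_one, one_div]
  have h2 : P⁻¹ ≤ Real.exp (22 / Real.log 2) / Real.log 2 * Real.log x := by
    have h3 : P⁻¹ ≤ (Real.exp (-(22 / Real.log 2)) * (Real.log 2 / Real.log x))⁻¹ :=
      inv_anti₀ (by positivity) h1
    refine h3.trans (le_of_eq ?_)
    rw [mul_inv, Real.exp_neg, inv_inv, inv_div]
    ring
  rw [e1]
  calc 2 * P⁻¹ ≤ 2 * (Real.exp (22 / Real.log 2) / Real.log 2 * Real.log x) := by linarith
    _ = _ := by ring

/-- density of the relation on initial segments -/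
lemma RU_density' {M : ℕ} (F : FL M) {γ T E : ℝ} {x : ℕ} (hE : 1 ≤ E) (hT : 1 ≤ T) (hx : E < x)
    (b N : ℕ) :
    ((((Finset.Icc 1 N).filter (fun n => IIIRx256.Rough x n ∧ RU F γ T E x b n)).card : ℕ) : ℝ) ≤
      2 * (12 / x + 96 * E ^ 3 / T) * N := by
  have hρ : 0 ≤ 12 / (x : ℝ) + 96 * E ^ 3 / T := by positivity
  rcases Nat.eq_zero_or_pos N with hN | hN
  · subst hN; simp
  set K := Nat.log 2 N with hK
  set S := (Finset.Icc 1 N).filter (fun n => IIIRx256.Rough x n ∧ RU F γ T E x b n) with hS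
  have hmap : ∀ l ∈ S, Nat.log 2 l ∈ range (K + 1) := by
    intro l hl
    rw [hS, Finset.mem_filter, Finset.mem_Icc] at hl
    rw [Finset.mem_range]
    have := Nat.log_mono_right (b := 2) hl.1.2
    omega
  have hcard : S.card = ∑ j ∈ range (K + 1), (S.filter (fun l => Nat.log 2 l = j)).card :=
    Finset.card_eq_sum_card_fiberwise hmap
  have hj : ∀ j ∈ range (K + 1), (((S.filter (fun l => Nat.log 2 l = j)).card : ℕ) : ℝ) ≤
      (12 / (x : ℝ) + 96 * E ^ 3 / T) * 2 ^ j := by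
    intro j _
    refine LemQx491.lemQ ((F.lam x b : ℝ) * γ) E T hE hT x hx (2 ^ j)
      (one_le_pow₀ (by norm_num)) _ ?_
    intro l hl
    rw [Finset.mem_filter, hS, Finset.mem_filter, Finset.mem_Icc] at hl
    obtain ⟨⟨h0, h1, h2⟩, h3⟩ := hl
    have hl0 : l ≠ 0 := by omega
    refine ⟨?_, ?_, h1, h2⟩
    · have : 2 ^ j ≤ l := by rw [← h3]; exact Nat.pow_log_le_self 2 hl0
      exact_mod_cast this
    · have : l < 2 ^ (j + 1) := by rw [← h3]; exact Nat.lt_pow_succ_log_self (by norm_num) l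
      have h4 : (l : ℝ) < 2 ^ (j + 1) := by exact_mod_cast this
      rw [pow_succ] at h4
      linarith
  rw [hcard]
  push_cast
  refine (Finset.sum_le_sum hj).trans ?_
  rw [← Finset.mul_sum]
  have hgeo : ∑ j ∈ range (K + 1), (2:ℝ) ^ j ≤ 2 * N := by
    have h5 : ∑ j ∈ range (K + 1), (2:ℝ) ^ j = 2 ^ (K + 1) - 1 := by
      rw [geom_sum_eq (by norm_num)]; norm_num
    have h6 : (2:ℝ) ^ K ≤ N := by
      have : 2 ^ K ≤ N := Nat.pow_log_le_self 2 (by omega)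
      exact_mod_cast this
    rw [h5, pow_succ]; linarith
  calc (12 / (x : ℝ) + 96 * E ^ 3 / T) * ∑ j ∈ range (K + 1), (2:ℝ) ^ j
      ≤ (12 / (x : ℝ) + 96 * E ^ 3 / T) * (2 * N) := mul_le_mul_of_nonneg_left hgeo hρ
    _ = _ := by ring

/-- the energy in a half-open window -/
noncomputable def eU {M : ℕ} (F : FL M) (γ T E : ℝ) (x : ℕ) (X : ℝ) (f g : ℕ → ℝ) : ℝ :=
  ∑ b ∈ M.divisors, ∑ c ∈ M.divisors,
    (if X < (Nat.gcd b c : ℝ) ∧ (Nat.gcd b c : ℝ) ≤ 2 * X then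
      (Nat.gcd b c : ℝ) * nu M b * nu M c * (f b * g c *
        (if F.good x b c ∧ UD F γ T E x b c then 1 else 0)) else 0)

theorem eU_le {κ : ℝ} (hκ : 1 / 2 < κ) (hκ1 : κ < 1) :
    ∃ δ C : ℝ, 0 < δ ∧ 0 < C ∧
      ∀ (M : ℕ) (F : FL M) (x : ℕ) (γ T E X : ℝ) (f g : ℕ → ℝ), 0 < M → 2 ≤ x → 0 < X →
      1 ≤ E → 1 ≤ T → E < x → T ≤ x →
      (∀ b, 0 ≤ f b) → (∀ b, f b ≤ 1) → (∀ b, 0 ≤ g b) → (∀ b, g b ≤ 1) →
      eU F γ T E x X f g ≤ C * X ^ (2 * κ - 1) *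
        ((Real.log x * (E ^ 3 / T)) ^ (1 - κ) + (x : ℝ) ^ (-δ)) *
          ((∑ b ∈ M.divisors, nu M b * f b) ^ κ * (∑ b ∈ M.divisors, nu M b * g b) ^ κ) := by
  obtain ⟨δ, C, hδ, hδ1, hC, h⟩ := IIIRx256.IIIR hκ hκ1
  obtain ⟨C1, hC1, hSm⟩ := Sm_le
  refine ⟨δ, C * (24 + 432 * C1), hδ, by positivity, ?_⟩
  intro M F x γ T E X f g hM hx2 hX hE hT hx hTx hf hf1 hg hg1
  have hT0 : 0 < T := by linarith
  have hxR : (2:ℝ) ≤ x := by exact_mod_cast hx2
  have hlog2 : (1:ℝ) / 2 ≤ Real.log x := by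
    have h1 : Real.log 2 ≤ Real.log x := Real.log_le_log (by norm_num) hxR
    have h2 : (0.6931471803 : ℝ) < Real.log 2 := Real.log_two_gt_d9
    linarith
  have hρ0 : 0 ≤ 2 * (12 / (x : ℝ) + 96 * E ^ 3 / T) := by positivity
  have h1 := h M F x X _ f g (fun b l => RU F γ T E x b l) hM.ne' (by omega) hX hρ0 hf hf1 hg hg1
    (fun b _ N => by
      have h2 := RU_density' F (γ := γ) hE hT hx b N
      convert h2 using 2)
  have hρ : 12 / (x : ℝ) + 96 * E ^ 3 / T ≤ 108 * (E ^ 3 / T) := by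
    have h2 : 12 / (x : ℝ) ≤ 12 / T := div_le_div_of_nonneg_left (by norm_num) hT0 hTx
    have h3 : 12 / T ≤ 12 * (E ^ 3 / T) := by
      rw [mul_div_assoc']
      refine div_le_div_of_nonneg_right ?_ hT0.le
      have : (1:ℝ) ≤ E ^ 3 := one_le_pow₀ hE
      linarith
    have h4 : 96 * E ^ 3 / T = 96 * (E ^ 3 / T) := by ring
    rw [h4]; linarith
  have hET : 0 ≤ E ^ 3 / T := by positivity
  have hlogx : 0 ≤ Real.log x := by linarith
  set Q := Real.log x * (E ^ 3 / T) with hQ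
  have hQ0 : 0 ≤ Q := mul_nonneg hlogx hET
  have hin : 12 / (x : ℝ) + 2 * IIIRx256.Sm x * (2 * (12 / (x : ℝ) + 96 * E ^ 3 / T)) ≤
      (24 + 432 * C1) * Q := by
    have h2 : 12 / (x : ℝ) ≤ 24 * Q := by
      have h3 : 12 / (x : ℝ) ≤ 12 * (E ^ 3 / T) := by
        have h4 : 12 / (x : ℝ) ≤ 12 / T := div_le_div_of_nonneg_left (by norm_num) hT0 hTx
        refine h4.trans ?_
        rw [mul_div_assoc']
        refine div_le_div_of_nonneg_right ?_ hT0.le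
        have : (1:ℝ) ≤ E ^ 3 := one_le_pow₀ hE
        linarith
      have h5 : E ^ 3 / T ≤ 2 * Q := by
        rw [hQ]
        calc E ^ 3 / T = 2 * (1 / 2 * (E ^ 3 / T)) := by ring
          _ ≤ 2 * (Real.log x * (E ^ 3 / T)) :=
              mul_le_mul_of_nonneg_left (mul_le_mul_of_nonneg_right hlog2 hET) (by norm_num)
      linarith
    have h6 : 2 * IIIRx256.Sm x * (2 * (12 / (x : ℝ) + 96 * E ^ 3 / T)) ≤ 432 * C1 * Q := by
      calc 2 * IIIRx256.Sm x * (2 * (12 / (x : ℝ) + 96 * E ^ 3 / T))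
          ≤ 2 * (C1 * Real.log x) * (2 * (108 * (E ^ 3 / T))) := by
            refine mul_le_mul ?_ ?_ hρ0 (by positivity)
            · exact mul_le_mul_of_nonneg_left (hSm x hx2) (by norm_num)
            · exact mul_le_mul_of_nonneg_left hρ (by norm_num)
        _ = 432 * C1 * Q := by rw [hQ]; ring
    linarith
  have h7 : (12 / (x : ℝ) + 2 * IIIRx256.Sm x * (2 * (12 / (x : ℝ) + 96 * E ^ 3 / T))) ^ (1 - κ) ≤
      (24 + 432 * C1) * Q ^ (1 - κ) := by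
    calc (12 / (x : ℝ) + 2 * IIIRx256.Sm x * (2 * (12 / (x : ℝ) + 96 * E ^ 3 / T))) ^ (1 - κ)
        ≤ ((24 + 432 * C1) * Q) ^ (1 - κ) := by
          refine Real.rpow_le_rpow ?_ hin (by linarith)
          have := IIIRx256.Sm_nonneg x
          positivity
      _ = (24 + 432 * C1) ^ (1 - κ) * Q ^ (1 - κ) := Real.mul_rpow (by positivity) hQ0
      _ ≤ (24 + 432 * C1) ^ (1:ℝ) * Q ^ (1 - κ) := by
          refine mul_le_mul_of_nonneg_right ?_ (Real.rpow_nonneg hQ0 _)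
          exact Real.rpow_le_rpow_of_exponent_le (by linarith) (by linarith)
      _ = _ := by rw [Real.rpow_one]
  have hm0 : 0 ≤ (∑ b ∈ M.divisors, nu M b * f b) ^ κ * (∑ b ∈ M.divisors, nu M b * g b) ^ κ :=
    mul_nonneg (Real.rpow_nonneg (Finset.sum_nonneg fun b _ => mul_nonneg (nu_nonneg _ _) (hf b)) _)
      (Real.rpow_nonneg (Finset.sum_nonneg fun b _ => mul_nonneg (nu_nonneg _ _) (hg b)) _)
  refine le_trans (le_of_eq ?_) (h1.trans ?_)
  · unfold eU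
    rfl
  · refine mul_le_mul_of_nonneg_right ?_ hm0
    have hXκ : 0 ≤ X ^ (2 * κ - 1) := Real.rpow_nonneg hX.le _
    have hxδ : 0 ≤ (x : ℝ) ^ (-δ) := Real.rpow_nonneg (Nat.cast_nonneg _) _
    have hQκ : 0 ≤ Q ^ (1 - κ) := Real.rpow_nonneg hQ0 _
    calc C * X ^ (2 * κ - 1) * ((12 / (x : ℝ) + 2 * IIIRx256.Sm x *
          (2 * (12 / (x : ℝ) + 96 * E ^ 3 / T))) ^ (1 - κ) + (x : ℝ) ^ (-δ))
        ≤ C * X ^ (2 * κ - 1) * ((24 + 432 * C1) * Q ^ (1 - κ) +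
          (24 + 432 * C1) * (x : ℝ) ^ (-δ)) := by
          refine mul_le_mul_of_nonneg_left ?_ (by positivity)
          refine add_le_add h7 ?_
          refine le_mul_of_one_le_left hxδ ?_
          linarith
      _ = _ := by ring

/-- **UNEXPLAINED DEFICIT, total at one scale** -/
theorem ud_tot {η : ℝ} (hη : 0 < η) (hη1 : η < 1) :
    ∃ δ C : ℝ, 0 < δ ∧ 0 < C ∧
      ∀ (M : ℕ) (F : FL M) (x : ℕ) (γ T E L : ℝ) (f g : ℕ → ℝ), 0 < M → 2 ≤ x → 0 < L →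
      1 ≤ E → 1 ≤ T → E < x → T ≤ x →
      (∀ b, 0 ≤ f b) → (∀ b, f b ≤ 1) → (∀ b, 0 ≤ g b) → (∀ b, g b ≤ 1) →
      L * ∑ b ∈ M.divisors, ∑ c ∈ M.divisors,
        (if T * L ≤ (Nat.gcd b c : ℝ) ∧ (Nat.gcd b c : ℝ) ≤ 2 * (T * L) ∧ F.good x b c ∧
          (UD F γ T E x b c ∨ UD F γ T E x c b) then
          (Nat.gcd b c : ℝ) * nu M b * nu M c * (f b * g c) else 0) ≤
      C * T ^ η * ((Real.log x * (E ^ 3 / T)) ^ ((1 - η) / 2) + (x : ℝ) ^ (-δ)) *
        ((L * ∑ b ∈ M.divisors, nu M b * f b) ^ ((1 + η) / 2) *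
          (L * ∑ b ∈ M.divisors, nu M b * g b) ^ ((1 + η) / 2)) := by
  obtain ⟨δ, C, hδ, hC, h⟩ := eU_le (κ := (1 + η) / 2) (by linarith) (by linarith)
  refine ⟨δ, 4 * C, hδ, by positivity, ?_⟩
  intro M F x γ T E L f g hM hx2 hL hE hT hx hTx hf hf1 hg hg1
  have hT0 : 0 < T := by linarith
  have e1 : 2 * ((1 + η) / 2) - 1 = η := by ring
  have e2 : 1 - (1 + η) / 2 = (1 - η) / 2 := by ring
  rw [e1, e2] at h
  set W := (Real.log x * (E ^ 3 / T)) ^ ((1 - η) / 2) + (x : ℝ) ^ (-δ) with hW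
  set m := ∑ b ∈ M.divisors, nu M b * f b with hm
  set m' := ∑ b ∈ M.divisors, nu M b * g b with hm'
  have hm0 : 0 ≤ m := Finset.sum_nonneg fun b _ => mul_nonneg (nu_nonneg _ _) (hf b)
  have hm0' : 0 ≤ m' := Finset.sum_nonneg fun b _ => mul_nonneg (nu_nonneg _ _) (hg b)
  have hlogx : 0 ≤ Real.log x := Real.log_nonneg (by
    have : (2:ℝ) ≤ x := by exact_mod_cast hx2
    linarith)
  have hW0 : 0 ≤ W := by
    have : 0 ≤ Real.log x * (E ^ 3 / T) := mul_nonneg hlogx (by positivity)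
    exact add_nonneg (Real.rpow_nonneg this _) (Real.rpow_nonneg (Nat.cast_nonneg _) _)
  -- pointwise: four half-open energies
  have hpt : ∑ b ∈ M.divisors, ∑ c ∈ M.divisors,
        (if T * L ≤ (Nat.gcd b c : ℝ) ∧ (Nat.gcd b c : ℝ) ≤ 2 * (T * L) ∧ F.good x b c ∧
          (UD F γ T E x b c ∨ UD F γ T E x c b) then
          (Nat.gcd b c : ℝ) * nu M b * nu M c * (f b * g c) else 0) ≤
      (eU F γ T E x (T * L / 2) f g + eU F γ T E x (T * L) f g) +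
        (eU F γ T E x (T * L / 2) g f + eU F γ T E x (T * L) g f) := by
    have hsw : ∀ X, eU F γ T E x X g f = ∑ b ∈ M.divisors, ∑ c ∈ M.divisors,
        (if X < (Nat.gcd c b : ℝ) ∧ (Nat.gcd c b : ℝ) ≤ 2 * X then
          (Nat.gcd c b : ℝ) * nu M c * nu M b * (g c * f b *
            (if F.good x c b ∧ UD F γ T E x c b then 1 else 0)) else 0) := by
      intro X; unfold eU; rw [Finset.sum_comm]
    rw [hsw, hsw]
    unfold eU
    simp_rw [← Finset.sum_add_distrib]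
    refine Finset.sum_le_sum fun b hb => Finset.sum_le_sum fun c hc => ?_
    have hb := Nat.dvd_of_mem_divisors hb
    have hc := Nat.dvd_of_mem_divisors hc
    have hp : 0 ≤ (Nat.gcd b c : ℝ) * nu M b * nu M c * (f b * g c) :=
      mul_nonneg (mul_nonneg (mul_nonneg (by positivity) (nu_nonneg _ _)) (nu_nonneg _ _))
        (mul_nonneg (hf _) (hg _))
    have hnn : ∀ (X : ℝ) (P : Prop) [Decidable P], 0 ≤ (if X < (Nat.gcd b c : ℝ) ∧
        (Nat.gcd b c : ℝ) ≤ 2 * X then (Nat.gcd b c : ℝ) * nu M b * nu M c *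
          (f b * g c * (if P then 1 else 0)) else 0) := by
      intro X P _
      split_ifs
      · rw [mul_one]; exact hp
      · rw [mul_zero, mul_zero]
      · exact le_rfl
    have ec : ∀ (X : ℝ) (P : Prop) [Decidable P], (if X < (Nat.gcd c b : ℝ) ∧
        (Nat.gcd c b : ℝ) ≤ 2 * X then (Nat.gcd c b : ℝ) * nu M c * nu M b *
          (g c * f b * (if P then 1 else 0)) else 0) = (if X < (Nat.gcd b c : ℝ) ∧
        (Nat.gcd b c : ℝ) ≤ 2 * X then (Nat.gcd b c : ℝ) * nu M b * nu M c *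
          (f b * g c * (if P then 1 else 0)) else 0) := by
      intro X P _
      rw [Nat.gcd_comm c b]
      split_ifs <;> ring
    simp only [ec]
    have n1 := hnn (T * L / 2) (F.good x b c ∧ UD F γ T E x b c)
    have n2 := hnn (T * L) (F.good x b c ∧ UD F γ T E x b c)
    have n3 := hnn (T * L / 2) (F.good x c b ∧ UD F γ T E x c b)
    have n4 := hnn (T * L) (F.good x c b ∧ UD F γ T E x c b)
    by_cases hcon : T * L ≤ (Nat.gcd b c : ℝ) ∧ (Nat.gcd b c : ℝ) ≤ 2 * (T * L) ∧ F.good x b c ∧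
          (UD F γ T E x b c ∨ UD F γ T E x c b)
    · rw [if_pos hcon]
      obtain ⟨g1, g2, g3, g4⟩ := hcon
      have hTL : 0 < T * L := by positivity
      rcases g4 with g4 | g4
      · by_cases hg5 : T * L < (Nat.gcd b c : ℝ)
        · have e : (if T * L < (Nat.gcd b c : ℝ) ∧ (Nat.gcd b c : ℝ) ≤ 2 * (T * L) then
              (Nat.gcd b c : ℝ) * nu M b * nu M c * (f b * g c *
              (if F.good x b c ∧ UD F γ T E x b c then 1 else 0)) else 0) =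
              (Nat.gcd b c : ℝ) * nu M b * nu M c * (f b * g c) := by
            rw [if_pos ⟨hg5, g2⟩, if_pos ⟨g3, g4⟩, mul_one]
          linarith
        · have e : (if T * L / 2 < (Nat.gcd b c : ℝ) ∧ (Nat.gcd b c : ℝ) ≤ 2 * (T * L / 2) then
              (Nat.gcd b c : ℝ) * nu M b * nu M c * (f b * g c *
              (if F.good x b c ∧ UD F γ T E x b c then 1 else 0)) else 0) =
              (Nat.gcd b c : ℝ) * nu M b * nu M c * (f b * g c) := by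
            rw [if_pos ⟨by linarith, by linarith⟩, if_pos ⟨g3, g4⟩, mul_one]
          linarith
      · have g3' := FL.good_symm hb hc g3
        by_cases hg5 : T * L < (Nat.gcd b c : ℝ)
        · have e : (if T * L < (Nat.gcd b c : ℝ) ∧ (Nat.gcd b c : ℝ) ≤ 2 * (T * L) then
              (Nat.gcd b c : ℝ) * nu M b * nu M c * (f b * g c *
              (if F.good x c b ∧ UD F γ T E x c b then 1 else 0)) else 0) =
              (Nat.gcd b c : ℝ) * nu M b * nu M c * (f b * g c) := by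
            rw [if_pos ⟨hg5, g2⟩, if_pos ⟨g3', g4⟩, mul_one]
          linarith
        · have e : (if T * L / 2 < (Nat.gcd b c : ℝ) ∧ (Nat.gcd b c : ℝ) ≤ 2 * (T * L / 2) then
              (Nat.gcd b c : ℝ) * nu M b * nu M c * (f b * g c *
              (if F.good x c b ∧ UD F γ T E x c b then 1 else 0)) else 0) =
              (Nat.gcd b c : ℝ) * nu M b * nu M c * (f b * g c) := by
            rw [if_pos ⟨by linarith, by linarith⟩, if_pos ⟨g3', g4⟩, mul_one]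
          linarith
    · rw [if_neg hcon]; linarith
  have hX1 : (T * L / 2) ^ η ≤ (T * L) ^ η :=
    Real.rpow_le_rpow (by positivity) (by linarith [mul_pos hT0 hL]) hη.le
  have b1 := h M F x γ T E (T * L / 2) f g hM hx2 (by positivity) hE hT hx hTx hf hf1 hg hg1
  have b2 := h M F x γ T E (T * L) f g hM hx2 (by positivity) hE hT hx hTx hf hf1 hg hg1
  have b3 := h M F x γ T E (T * L / 2) g f hM hx2 (by positivity) hE hT hx hTx hg hg1 hf hf1
  have b4 := h M F x γ T E (T * L) g f hM hx2 (by positivity) hE hT hx hTx hg hg1 hf hf1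
  have hmm : 0 ≤ m ^ ((1 + η) / 2) * m' ^ ((1 + η) / 2) :=
    mul_nonneg (Real.rpow_nonneg hm0 _) (Real.rpow_nonneg hm0' _)
  have hbase : C * (T * L / 2) ^ η * W * (m ^ ((1 + η) / 2) * m' ^ ((1 + η) / 2)) ≤
      C * (T * L) ^ η * W * (m ^ ((1 + η) / 2) * m' ^ ((1 + η) / 2)) := by
    refine mul_le_mul_of_nonneg_right ?_ hmm
    refine mul_le_mul_of_nonneg_right ?_ hW0
    exact mul_le_mul_of_nonneg_left hX1 hC.le
  have hsw : m' ^ ((1 + η) / 2) * m ^ ((1 + η) / 2) = m ^ ((1 + η) / 2) * m' ^ ((1 + η) / 2) :=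
    mul_comm _ _
  rw [hsw] at b3 b4
  have htot : ∑ b ∈ M.divisors, ∑ c ∈ M.divisors,
        (if T * L ≤ (Nat.gcd b c : ℝ) ∧ (Nat.gcd b c : ℝ) ≤ 2 * (T * L) ∧ F.good x b c ∧
          (UD F γ T E x b c ∨ UD F γ T E x c b) then
          (Nat.gcd b c : ℝ) * nu M b * nu M c * (f b * g c) else 0) ≤
      4 * (C * (T * L) ^ η * W * (m ^ ((1 + η) / 2) * m' ^ ((1 + η) / 2))) := by
    linarith
  have eL : L * L ^ η = L ^ ((1 + η) / 2) * L ^ ((1 + η) / 2) := by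
    rw [← Real.rpow_add hL, ← Real.rpow_one_add' hL.le (by linarith)]
    congr 1; ring
  calc L * _ ≤ L * (4 * (C * (T * L) ^ η * W * (m ^ ((1 + η) / 2) * m' ^ ((1 + η) / 2)))) :=
        mul_le_mul_of_nonneg_left htot hL.le
    _ = 4 * C * T ^ η * W * ((L * L ^ η) * (m ^ ((1 + η) / 2) * m' ^ ((1 + η) / 2))) := by
        rw [Real.mul_rpow hT0.le hL.le]; ring
    _ = _ := by
        rw [eL, Real.mul_rpow hL.le hm0, Real.mul_rpow hL.le hm0']; ring


/-- numbers of one scale -/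
lemma scale_num {η δ : ℝ} (hη : 0 < η) (hη1 : η ≤ 1 / 20) {A m : ℕ} (hA : 1 ≤ A)
    (hAδ : 3 / 10 ≤ A * δ) (hm : 1 ≤ m) {E : ℝ} (hE : 1 ≤ E) (hE2 : E ≤ 2 ^ ((m : ℝ) / 24)) :
    (2 ^ m : ℝ) ^ η * ((Real.log ((2 ^ (A * m) : ℕ) : ℝ) * (E ^ 3 / 2 ^ m)) ^ ((1 - η) / 2) +
      (((2 ^ (A * m) : ℕ) : ℝ)) ^ (-δ)) ≤ 11 * A * 2 ^ (-(m : ℝ) / 4) := by
  have hmR : (1:ℝ) ≤ m := by exact_mod_cast hm
  have hAR : (1:ℝ) ≤ A := by exact_mod_cast hA
  have h2 : (0:ℝ) < 2 := by norm_num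
  have e0 : (2 ^ m : ℝ) ^ η = 2 ^ (η * m) := by
    rw [← Real.rpow_natCast, ← Real.rpow_mul h2.le]; congr 1; ring
  have eT : (2 ^ m : ℝ) = 2 ^ (m : ℝ) := (Real.rpow_natCast 2 m).symm
  have ex : (((2 ^ (A * m) : ℕ) : ℝ)) = 2 ^ ((A : ℝ) * m) := by
    push_cast
    rw [← Real.rpow_natCast]; push_cast; rfl
  have hlog : Real.log ((2 ^ (A * m) : ℕ) : ℝ) ≤ A * m := by
    rw [ex, Real.log_rpow h2]
    have : Real.log 2 < 1 := by
      have := Real.log_two_lt_d9; linarith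
    have hAm : 0 < (A:ℝ) * m := by positivity
    nlinarith
  have hlog0 : 0 ≤ Real.log ((2 ^ (A * m) : ℕ) : ℝ) := Real.log_natCast_nonneg _
  have hE3 : E ^ 3 / 2 ^ m ≤ 2 ^ (-(7 / 8) * (m : ℝ)) := by
    have h3 : E ^ 3 ≤ 2 ^ ((m : ℝ) / 8) := by
      calc E ^ 3 ≤ (2 ^ ((m : ℝ) / 24)) ^ 3 := pow_le_pow_left₀ (by linarith) hE2 3
        _ = 2 ^ ((m : ℝ) / 8) := by
            rw [← Real.rpow_natCast, ← Real.rpow_mul h2.le]; congr 1; push_cast; ring
    rw [eT, div_le_iff₀ (by positivity), ← Real.rpow_add h2]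
    refine h3.trans (le_of_eq ?_)
    congr 1; ring
  have hE30 : 0 ≤ E ^ 3 / 2 ^ m := by positivity
  have hAm1 : 1 ≤ (A:ℝ) * m := by nlinarith
  -- first term
  have t1 : (Real.log ((2 ^ (A * m) : ℕ) : ℝ) * (E ^ 3 / 2 ^ m)) ^ ((1 - η) / 2) ≤
      (A * m) * 2 ^ (-(7 / 8) * (m : ℝ) * (19 / 40)) := by
    calc (Real.log ((2 ^ (A * m) : ℕ) : ℝ) * (E ^ 3 / 2 ^ m)) ^ ((1 - η) / 2)
        ≤ ((A * m) * 2 ^ (-(7 / 8) * (m : ℝ))) ^ ((1 - η) / 2) :=
          Real.rpow_le_rpow (mul_nonneg hlog0 hE30)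
            (mul_le_mul hlog hE3 hE30 (by positivity)) (by linarith)
      _ = (A * m) ^ ((1 - η) / 2) * (2 ^ (-(7 / 8) * (m : ℝ))) ^ ((1 - η) / 2) :=
          Real.mul_rpow (by positivity) (by positivity)
      _ ≤ (A * m) ^ (1:ℝ) * (2 ^ (-(7 / 8) * (m : ℝ))) ^ (19 / 40 : ℝ) := by
          refine mul_le_mul ?_ ?_ (by positivity) (by positivity)
          · exact Real.rpow_le_rpow_of_exponent_le hAm1 (by linarith)
          · refine Real.rpow_le_rpow_of_exponent_ge (by positivity) ?_ (by linarith)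
            refine Real.rpow_le_one_of_one_le_of_nonpos (by norm_num) ?_
            linarith
      _ = _ := by rw [Real.rpow_one, ← Real.rpow_mul h2.le]
  have t2 : (((2 ^ (A * m) : ℕ) : ℝ)) ^ (-δ) ≤ 2 ^ (-(3 / 10) * (m : ℝ)) := by
    rw [ex, ← Real.rpow_mul h2.le]
    refine Real.rpow_le_rpow_of_exponent_le (by norm_num) ?_
    nlinarith
  have hηm : (2:ℝ) ^ (η * m) ≤ 2 ^ ((1 / 20 : ℝ) * m) :=
    Real.rpow_le_rpow_of_exponent_le (by norm_num) (mul_le_mul_of_nonneg_right hη1 (by linarith))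
  -- `m ≤ 10 · 2^(m/10)`
  have hm2 : (m : ℝ) ≤ 10 * (2:ℝ) ^ ((1 / 10 : ℝ) * m) * 1 := by
    have h5 : 1 + ((1 / 10 : ℝ) * m) * Real.log 2 ≤ (2:ℝ) ^ ((1 / 10 : ℝ) * m) := by
      rw [Real.rpow_def_of_pos h2]
      have := Real.add_one_le_exp (Real.log 2 * ((1 / 10 : ℝ) * m))
      linarith
    have h6 : (0.6931471803 : ℝ) < Real.log 2 := Real.log_two_gt_d9
    have h7 : ((1 / 10 : ℝ) * m) * (1 / 2) ≤ ((1 / 10 : ℝ) * m) * Real.log 2 :=
      mul_le_mul_of_nonneg_left (by linarith) (by positivity)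
    have h8 : 2 ^ ((1 / 10 : ℝ) * m) * (2:ℝ) ^ ((1 / 10 : ℝ) * m) ≥ 0 := by positivity
    -- square root trick is not needed: use the bound with exponent `m/20` squared
    have h9 : 1 + ((1 / 20 : ℝ) * m) * Real.log 2 ≤ (2:ℝ) ^ ((1 / 20 : ℝ) * m) := by
      rw [Real.rpow_def_of_pos h2]
      have := Real.add_one_le_exp (Real.log 2 * ((1 / 20 : ℝ) * m))
      linarith
    have h10 : (2:ℝ) ^ ((1 / 10 : ℝ) * m) = 2 ^ ((1 / 20 : ℝ) * m) * 2 ^ ((1 / 20 : ℝ) * m) := by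
      rw [← Real.rpow_add h2]; congr 1; ring
    have h11 : 1 + (1 / 40 : ℝ) * m ≤ (2:ℝ) ^ ((1 / 20 : ℝ) * m) := by
      have : ((1 / 20 : ℝ) * m) * (1 / 2) ≤ ((1 / 20 : ℝ) * m) * Real.log 2 :=
        mul_le_mul_of_nonneg_left (by linarith) (by positivity)
      linarith
    have h12 : (1 + (1 / 40 : ℝ) * m) * (1 + (1 / 40 : ℝ) * m) ≤ (2:ℝ) ^ ((1 / 10 : ℝ) * m) := by
      rw [h10]
      exact mul_le_mul h11 h11 (by positivity) (by positivity)
    nlinarith [sq_nonneg ((1 / 40 : ℝ) * m - 1)]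
  rw [e0]
  calc (2:ℝ) ^ (η * m) * ((Real.log ((2 ^ (A * m) : ℕ) : ℝ) * (E ^ 3 / 2 ^ m)) ^ ((1 - η) / 2) +
      (((2 ^ (A * m) : ℕ) : ℝ)) ^ (-δ))
      ≤ 2 ^ ((1 / 20 : ℝ) * m) * ((A * m) * 2 ^ (-(7 / 8) * (m : ℝ) * (19 / 40)) +
        2 ^ (-(3 / 10) * (m : ℝ))) := by
        refine mul_le_mul hηm (add_le_add t1 t2) ?_ (by positivity)
        exact add_nonneg (Real.rpow_nonneg (mul_nonneg hlog0 hE30) _)
          (Real.rpow_nonneg (Nat.cast_nonneg _) _)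
    _ ≤ 2 ^ ((1 / 20 : ℝ) * m) * ((A * (10 * (2:ℝ) ^ ((1 / 10 : ℝ) * m) * 1)) *
          2 ^ (-(7 / 8) * (m : ℝ) * (19 / 40)) + 2 ^ (-(3 / 10) * (m : ℝ))) := by
        refine mul_le_mul_of_nonneg_left ?_ (by positivity)
        refine add_le_add ?_ le_rfl
        refine mul_le_mul_of_nonneg_right ?_ (by positivity)
        exact mul_le_mul_of_nonneg_left hm2 (by positivity)
    _ = 10 * A * 2 ^ ((1 / 20 : ℝ) * m + (1 / 10 : ℝ) * m + -(7 / 8) * (m : ℝ) * (19 / 40)) +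
          2 ^ ((1 / 20 : ℝ) * m + -(3 / 10) * (m : ℝ)) := by
        rw [Real.rpow_add h2, Real.rpow_add h2, Real.rpow_add h2]; ring
    _ ≤ 10 * A * 2 ^ (-(m : ℝ) / 4) + A * 2 ^ (-(m : ℝ) / 4) := by
        refine add_le_add ?_ ?_
        · refine mul_le_mul_of_nonneg_left ?_ (by positivity)
          exact Real.rpow_le_rpow_of_exponent_le (by norm_num) (by nlinarith)
        · calc (2:ℝ) ^ ((1 / 20 : ℝ) * m + -(3 / 10) * (m : ℝ)) ≤ 2 ^ (-(m : ℝ) / 4) :=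
                Real.rpow_le_rpow_of_exponent_le (by norm_num) (by nlinarith)
            _ = 1 * 2 ^ (-(m : ℝ) / 4) := (one_mul _).symm
            _ ≤ A * 2 ^ (-(m : ℝ) / 4) := mul_le_mul_of_nonneg_right hAR (by positivity)
    _ = _ := by ring

/-- **UNEXPLAINED DEFICIT at the scale `2^m`, cut `2^(A m)`, sets, bounded weight `w`.**
`A0` depends on `η` only; `E ≤ 2^(m/24)`. -/
theorem ud_scale {η : ℝ} (hη : 0 < η) (hη1 : η ≤ 1 / 20) :
    ∃ A0 : ℕ, ∃ C : ℝ, 1 ≤ A0 ∧ 0 < C ∧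
      ∀ (A : ℕ), A0 ≤ A → ∀ (M : ℕ) (F : FL M) (m : ℕ) (γ E L W : ℝ) (B : Finset ℕ)
        (w : ℕ → ℕ → ℝ), 0 < M → B ⊆ M.divisors → 1 ≤ m → 0 < L → 1 ≤ E →
        E ≤ 2 ^ ((m : ℝ) / 24) → 0 ≤ W → (∀ b c, w b c ≤ W) →
        L * ∑ b ∈ B, ∑ c ∈ B,
          (if 2 ^ m * L ≤ (Nat.gcd b c : ℝ) ∧ (Nat.gcd b c : ℝ) ≤ 2 * (2 ^ m * L) ∧
            F.good (2 ^ (A * m)) b c ∧
            (UD F γ (2 ^ m) E (2 ^ (A * m)) b c ∨ UD F γ (2 ^ m) E (2 ^ (A * m)) c b) then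
            (Nat.gcd b c : ℝ) * nu M b * nu M c * w b c else 0) ≤
        C * A * W * 2 ^ (-(m : ℝ) / 4) * (L * ∑ b ∈ B, nu M b) ^ (1 + η) := by
  obtain ⟨δ, C, hδ, hC, h⟩ := ud_tot hη (by linarith)
  obtain ⟨A1, hA1⟩ := exists_nat_ge (3 / 10 / δ)
  refine ⟨A1 + 1, 11 * C, by omega, by positivity, ?_⟩
  intro A hA M F m γ E L W B w hM hB hm hL hE hE2 hW hw
  have hA1' : 1 ≤ A := by omega
  have hAδ : 3 / 10 ≤ A * δ := by
    have h1 : (A1 : ℝ) ≤ A := by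
      have : A1 ≤ A := by omega
      exact_mod_cast this
    have h2 : 3 / 10 / δ ≤ A := hA1.trans h1
    rwa [div_le_iff₀ hδ] at h2
  have hmR : (1:ℝ) ≤ m := by exact_mod_cast hm
  have hAm : m ≤ A * m := Nat.le_mul_of_pos_left m hA1'
  have hx2 : 2 ≤ 2 ^ (A * m) := by
    calc 2 = 2 ^ 1 := by norm_num
      _ ≤ 2 ^ (A * m) := Nat.pow_le_pow_right (by norm_num) (by omega)
  have hTx : (2:ℝ) ^ m ≤ ((2 ^ (A * m) : ℕ) : ℝ) := by
    push_cast
    exact pow_le_pow_right₀ (by norm_num) hAm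
  have hEx : E < ((2 ^ (A * m) : ℕ) : ℝ) := by
    refine lt_of_lt_of_le ?_ hTx
    refine lt_of_le_of_lt hE2 ?_
    rw [← Real.rpow_natCast]
    exact Real.rpow_lt_rpow_of_exponent_lt (by norm_num) (by linarith)
  have hT1 : (1:ℝ) ≤ 2 ^ m := one_le_pow₀ (by norm_num)
  set f : ℕ → ℝ := fun b => if b ∈ B then 1 else 0 with hf
  have hf0 : ∀ b, 0 ≤ f b := fun b => by simp only [hf]; split_ifs <;> norm_num
  have hf1 : ∀ b, f b ≤ 1 := fun b => by simp only [hf]; split_ifs <;> norm_num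
  have h1 := h M F (2 ^ (A * m)) γ (2 ^ m) E L f f hM hx2 hL hE hT1 hEx hTx hf0 hf1 hf0 hf1
  have hmass : ∑ b ∈ M.divisors, nu M b * f b = ∑ b ∈ B, nu M b := by
    simp only [hf, mul_ite, mul_one, mul_zero]
    rw [← Finset.sum_filter]
    refine Finset.sum_congr ?_ fun _ _ => rfl
    ext b
    rw [Finset.mem_filter]
    exact ⟨fun h => h.2, fun h => ⟨hB h, h⟩⟩
  rw [hmass] at h1
  set μ := L * ∑ b ∈ B, nu M b with hμ
  have hμ0 : 0 ≤ μ := mul_nonneg hL.le (Finset.sum_nonneg fun b _ => nu_nonneg _ _)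
  have hμμ : μ ^ ((1 + η) / 2) * μ ^ ((1 + η) / 2) = μ ^ (1 + η) := by
    rw [← Real.rpow_add_of_nonneg hμ0 (by linarith) (by linarith)]; congr 1; ring
  rw [hμμ] at h1
  -- compare the sums
  have h2 : ∑ b ∈ B, ∑ c ∈ B,
          (if 2 ^ m * L ≤ (Nat.gcd b c : ℝ) ∧ (Nat.gcd b c : ℝ) ≤ 2 * (2 ^ m * L) ∧
            F.good (2 ^ (A * m)) b c ∧
            (UD F γ (2 ^ m) E (2 ^ (A * m)) b c ∨ UD F γ (2 ^ m) E (2 ^ (A * m)) c b) then
            (Nat.gcd b c : ℝ) * nu M b * nu M c * w b c else 0) ≤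
      W * ∑ b ∈ M.divisors, ∑ c ∈ M.divisors,
        (if 2 ^ m * L ≤ (Nat.gcd b c : ℝ) ∧ (Nat.gcd b c : ℝ) ≤ 2 * (2 ^ m * L) ∧
            F.good (2 ^ (A * m)) b c ∧
            (UD F γ (2 ^ m) E (2 ^ (A * m)) b c ∨ UD F γ (2 ^ m) E (2 ^ (A * m)) c b) then
          (Nat.gcd b c : ℝ) * nu M b * nu M c * (f b * f c) else 0) := by
    rw [Finset.mul_sum]
    refine le_trans ?_ (Finset.sum_le_sum_of_subset_of_nonneg hB fun b _ _ => ?_)
    · refine Finset.sum_le_sum fun b hb => ?_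
      rw [Finset.mul_sum]
      refine le_trans ?_ (Finset.sum_le_sum_of_subset_of_nonneg hB fun c _ _ => ?_)
      · refine Finset.sum_le_sum fun c hc => ?_
        have hfb : f b = 1 := by simp only [hf]; rw [if_pos hb]
        have hfc : f c = 1 := by simp only [hf]; rw [if_pos hc]
        rw [hfb, hfc]
        split_ifs
        · have hp : 0 ≤ (Nat.gcd b c : ℝ) * nu M b * nu M c :=
            mul_nonneg (mul_nonneg (by positivity) (nu_nonneg _ _)) (nu_nonneg _ _)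
          calc (Nat.gcd b c : ℝ) * nu M b * nu M c * w b c
              ≤ (Nat.gcd b c : ℝ) * nu M b * nu M c * W := mul_le_mul_of_nonneg_left (hw b c) hp
            _ = _ := by ring
        · rw [mul_zero]
      · refine mul_nonneg hW ?_
        split_ifs
        · exact mul_nonneg (mul_nonneg (mul_nonneg (by positivity) (nu_nonneg _ _))
            (nu_nonneg _ _)) (mul_nonneg (hf0 _) (hf0 _))
        · exact le_rfl
    · refine mul_nonneg hW (Finset.sum_nonneg fun c _ => ?_)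
      split_ifs
      · exact mul_nonneg (mul_nonneg (mul_nonneg (by positivity) (nu_nonneg _ _))
          (nu_nonneg _ _)) (mul_nonneg (hf0 _) (hf0 _))
      · exact le_rfl
  have hnum := scale_num (δ := δ) hη hη1 hA1' hAδ hm hE hE2
  have hμη : 0 ≤ μ ^ (1 + η) := Real.rpow_nonneg hμ0 _
  calc L * _ ≤ L * (W * _) := mul_le_mul_of_nonneg_left h2 hL.le
    _ = W * (L * _) := by ring
    _ ≤ W * (C * (2 ^ m) ^ η * ((Real.log ((2 ^ (A * m) : ℕ) : ℝ) * (E ^ 3 / 2 ^ m)) ^ ((1 - η) / 2) +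
          ((2 ^ (A * m) : ℕ) : ℝ) ^ (-δ)) * μ ^ (1 + η)) := mul_le_mul_of_nonneg_left h1 hW
    _ = W * C * μ ^ (1 + η) * ((2 ^ m) ^ η *
          ((Real.log ((2 ^ (A * m) : ℕ) : ℝ) * (E ^ 3 / 2 ^ m)) ^ ((1 - η) / 2) +
          ((2 ^ (A * m) : ℕ) : ℝ) ^ (-δ))) := by ring
    _ ≤ W * C * μ ^ (1 + η) * (11 * A * 2 ^ (-(m : ℝ) / 4)) :=
        mul_le_mul_of_nonneg_left hnum (by positivity)
    _ = _ := by ring

end Crest.Agent.R4C.UDtotx208
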