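import Crest.Agent.R4C.RareFL_208
import Crest.Agent.R4C.LemQ_491
import Crest.Agent.R4C.Pair_14

/-!
# The class UNEXPLAINED DEFICIT (helper208)

`unexpl` : LEMMA III-R (`rare_fl`) with LEMMA Q (`lemQ`) for the literal relation `Pairx14.UD`;
`unexpl'` : the same with the roles of `b, c` exchanged;
`unexpl_T` : at the scale `X = T L`, cut `x ≥ T`, energy
`L Σ ≤ C (n+1)^2 T^(2κ-1) (108 E^3/T)^(1-κ) (L m)^κ (L m')^κ`.
-/

set_option autoImplicit false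

namespace Crest.Agent.R4C.UnexplRx208

open Finset
open Crest.Agent.R4C.Basex935 Crest.Agent.R4C.Cutx50 Crest.Agent.R4C.FLDefx935
open Crest.Agent.R4C.RareFLx208 Crest.Agent.R4C.Pairx14

open Classical

variable {M : ℕ}

/-- the relation of Lemma Q with a free integer `l` -/
def RU (F : FL M) (γ T E : ℝ) (x b l : ℕ) : Prop :=
  ∃ (k : ℕ) (a : ℤ), 1 ≤ k ∧ (k : ℝ) ≤ E ∧ IsCoprime a (k : ℤ) ∧ ¬ ((l : ℕ) : ℤ) ∣ a ∧
    |(F.lam x b : ℝ) * γ - (a : ℝ) / (k * (l : ℕ))| ≤ E / (T * (l : ℕ))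

lemma UD_iff (F : FL M) (γ T E : ℝ) (x b c : ℕ) :
    UD F γ T E x b c ↔ RU F γ T E x b (F.ell x c) := Iff.rfl

/-- density of the relation -/
lemma RU_density (F : FL M) {γ T E : ℝ} {x : ℕ} (hE : 1 ≤ E) (hT : 1 ≤ T) (hx : E < x)
    (b j : ℕ) :
    ((M.divisors.filter (fun l => Nat.log 2 l = j ∧
      (∀ p : ℕ, p.Prime → p ∣ l → x < p) ∧ RU F γ T E x b l)).card : ℝ) ≤
      (12 / x + 96 * E ^ 3 / T) * 2 ^ j := by
  refine LemQx491.lemQ ((F.lam x b : ℝ) * γ) E T hE hT x hx (2 ^ j)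
    (one_le_pow₀ (by norm_num)) _ ?_
  intro l hl
  rw [Finset.mem_filter] at hl
  obtain ⟨h0, h1, h2, h3⟩ := hl
  have hl0 : l ≠ 0 := (Nat.pos_of_mem_divisors h0).ne'
  refine ⟨?_, ?_, h2, h3⟩
  · have : 2 ^ j ≤ l := by rw [← h1]; exact Nat.pow_log_le_self 2 hl0
    exact_mod_cast this
  · have : l < 2 ^ (j + 1) := by rw [← h1]; exact Nat.lt_pow_succ_log_self (by norm_num) l
    have h4 : (l : ℝ) < 2 ^ (j + 1) := by exact_mod_cast this
    rw [pow_succ] at h4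
    linarith

/-- one term of the unexplained energy -/
noncomputable def tU (F : FL M) (γ T E : ℝ) (x n : ℕ) (X : ℝ) (f g : ℕ → ℝ) (b c : ℕ) : ℝ :=
  if X ≤ (Nat.gcd b c : ℝ) ∧ (Nat.gcd b c : ℝ) < 2 * X ∧ F.good x b c ∧ UD F γ T E x b c ∧
      low x b ≤ 2 ^ n * Nat.gcd (low x b) (low x c) ∧
      low x c ≤ 2 ^ n * Nat.gcd (low x b) (low x c) then
    (Nat.gcd b c : ℝ) * nu M b * nu M c * (f b * g c) else 0

/-- **UNEXPLAINED DEFICIT**, one scale, cofactors of the low words `≤ 2^n` -/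
theorem unexpl {κ : ℝ} (hκ : 1 / 2 < κ) (hκ1 : κ < 1) :
    ∃ C : ℝ, 0 < C ∧ ∀ (M : ℕ) (F : FL M) (x n : ℕ) (γ T E X : ℝ) (f g : ℕ → ℝ),
      0 < M → 1 ≤ E → 1 ≤ T → E < x → 0 < X → (∀ b, 0 ≤ f b) → (∀ b, f b ≤ 1) →
      (∀ b, 0 ≤ g b) → (∀ b, g b ≤ 1) →
      ∑ b ∈ M.divisors, ∑ c ∈ M.divisors, tU F γ T E x n X f g b c ≤
        C * (n + 1) ^ 2 * (X ^ (2 * κ - 1) * (12 / x + 96 * E ^ 3 / T) ^ (1 - κ)) *
          ((∑ b ∈ M.divisors, nu M b * f b) ^ κ * (∑ b ∈ M.divisors, nu M b * g b) ^ κ) := by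
  obtain ⟨C, hC, h⟩ := rare_fl hκ hκ1
  refine ⟨C, hC, ?_⟩
  intro M F x n γ T E X f g hM hE hT hx hX hf hf1 hg hg1
  have hρ : 0 ≤ 12 / (x : ℝ) + 96 * E ^ 3 / T := by positivity
  exact h M F x n _ X (fun b l => RU F γ T E x b l) f g hM hρ hX hf hf1 hg hg1
    (fun b j _ _ => RU_density F hE hT hx b j)

/-- the same with the deficit of `b` unexplained -/
theorem unexpl' {κ : ℝ} (hκ : 1 / 2 < κ) (hκ1 : κ < 1) :
    ∃ C : ℝ, 0 < C ∧ ∀ (M : ℕ) (F : FL M) (x n : ℕ) (γ T E X : ℝ) (f g : ℕ → ℝ),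
      0 < M → 1 ≤ E → 1 ≤ T → E < x → 0 < X → (∀ b, 0 ≤ f b) → (∀ b, f b ≤ 1) →
      (∀ b, 0 ≤ g b) → (∀ b, g b ≤ 1) →
      ∑ b ∈ M.divisors, ∑ c ∈ M.divisors, (if X ≤ (Nat.gcd b c : ℝ) ∧
        (Nat.gcd b c : ℝ) < 2 * X ∧ F.good x b c ∧ (UD F γ T E x b c ∨ UD F γ T E x c b) ∧
        low x b ≤ 2 ^ n * Nat.gcd (low x b) (low x c) ∧
        low x c ≤ 2 ^ n * Nat.gcd (low x b) (low x c) then
          (Nat.gcd b c : ℝ) * nu M b * nu M c * (f b * g c) else 0) ≤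
        C * (n + 1) ^ 2 * (X ^ (2 * κ - 1) * (12 / x + 96 * E ^ 3 / T) ^ (1 - κ)) *
          ((∑ b ∈ M.divisors, nu M b * f b) ^ κ * (∑ b ∈ M.divisors, nu M b * g b) ^ κ) := by
  obtain ⟨C, hC, h⟩ := unexpl hκ hκ1
  refine ⟨2 * C, by positivity, ?_⟩
  intro M F x n γ T E X f g hM hE hT hx hX hf hf1 hg hg1
  have h1 := h M F x n γ T E X f g hM hE hT hx hX hf hf1 hg hg1
  have h2 := h M F x n γ T E X g f hM hE hT hx hX hg hg1 hf hf1
  rw [Finset.sum_comm] at h2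
  have h3 : ∑ b ∈ M.divisors, ∑ c ∈ M.divisors, (if X ≤ (Nat.gcd b c : ℝ) ∧
        (Nat.gcd b c : ℝ) < 2 * X ∧ F.good x b c ∧ (UD F γ T E x b c ∨ UD F γ T E x c b) ∧
        low x b ≤ 2 ^ n * Nat.gcd (low x b) (low x c) ∧
        low x c ≤ 2 ^ n * Nat.gcd (low x b) (low x c) then
          (Nat.gcd b c : ℝ) * nu M b * nu M c * (f b * g c) else 0) ≤
      ∑ b ∈ M.divisors, ∑ c ∈ M.divisors,
        (tU F γ T E x n X f g b c + tU F γ T E x n X g f c b) := by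
    refine Finset.sum_le_sum fun b hb => Finset.sum_le_sum fun c hc => ?_
    have hb := Nat.dvd_of_mem_divisors hb
    have hc := Nat.dvd_of_mem_divisors hc
    have hp : 0 ≤ (Nat.gcd b c : ℝ) * nu M b * nu M c * (f b * g c) :=
      mul_nonneg (mul_nonneg (mul_nonneg (by positivity) (nu_nonneg _ _)) (nu_nonneg _ _))
        (mul_nonneg (hf _) (hg _))
    have hp' : 0 ≤ (Nat.gcd c b : ℝ) * nu M c * nu M b * (g c * f b) :=
      mul_nonneg (mul_nonneg (mul_nonneg (by positivity) (nu_nonneg _ _)) (nu_nonneg _ _))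
        (mul_nonneg (hg _) (hf _))
    have hn1 : 0 ≤ tU F γ T E x n X f g b c := by
      unfold tU; split_ifs; exacts [hp, le_rfl]
    have hn2 : 0 ≤ tU F γ T E x n X g f c b := by
      unfold tU; split_ifs; exacts [hp', le_rfl]
    split_ifs with hcon
    · obtain ⟨g1, g2, g3, g4, g5, g6⟩ := hcon
      rcases g4 with g4 | g4
      · have e : tU F γ T E x n X f g b c =
            (Nat.gcd b c : ℝ) * nu M b * nu M c * (f b * g c) := by
          unfold tU; rw [if_pos ⟨g1, g2, g3, g4, g5, g6⟩]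
        rw [← e]; linarith
      · have e : tU F γ T E x n X g f c b =
            (Nat.gcd b c : ℝ) * nu M b * nu M c * (f b * g c) := by
          unfold tU
          rw [if_pos]
          · rw [Nat.gcd_comm c b]; ring
          · rw [Nat.gcd_comm c b, Nat.gcd_comm (low x c) (low x b)]
            exact ⟨g1, g2, FL.good_symm hb hc g3, g4, g6, g5⟩
        rw [← e]; linarith
    · linarith
  refine h3.trans ?_
  simp_rw [Finset.sum_add_distrib]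
  calc _ ≤ _ := add_le_add h1 h2
    _ = _ := by ring

/-- scale form: `X = T L`, `x ≥ T ≥ E`, energy `L Σ` -/
theorem unexpl_T {κ : ℝ} (hκ : 1 / 2 < κ) (hκ1 : κ < 1) :
    ∃ C : ℝ, 0 < C ∧ ∀ (M : ℕ) (F : FL M) (x n : ℕ) (γ T E L : ℝ) (f g : ℕ → ℝ),
      0 < M → 0 < L → 1 ≤ E → 1 ≤ T → E < x → T ≤ x → (∀ b, 0 ≤ f b) → (∀ b, f b ≤ 1) →
      (∀ b, 0 ≤ g b) → (∀ b, g b ≤ 1) →
      L * ∑ b ∈ M.divisors, ∑ c ∈ M.divisors, (if T * L ≤ (Nat.gcd b c : ℝ) ∧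
        (Nat.gcd b c : ℝ) < 2 * (T * L) ∧ F.good x b c ∧ (UD F γ T E x b c ∨ UD F γ T E x c b) ∧
        low x b ≤ 2 ^ n * Nat.gcd (low x b) (low x c) ∧
        low x c ≤ 2 ^ n * Nat.gcd (low x b) (low x c) then
          (Nat.gcd b c : ℝ) * nu M b * nu M c * (f b * g c) else 0) ≤
        C * (n + 1) ^ 2 * (T ^ (2 * κ - 1) * (E ^ 3 / T) ^ (1 - κ)) *
          ((L * ∑ b ∈ M.divisors, nu M b * f b) ^ κ *
            (L * ∑ b ∈ M.divisors, nu M b * g b) ^ κ) := by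
  obtain ⟨C, hC, h⟩ := unexpl' hκ hκ1
  refine ⟨C * 108, by positivity, ?_⟩
  intro M F x n γ T E L f g hM hL hE hT hx hTx hf hf1 hg hg1
  have hT0 : 0 < T := by linarith
  have hE0 : 0 < E := by linarith
  have h1 := h M F x n γ T E (T * L) f g hM hE hT hx (by positivity) hf hf1 hg hg1
  set m := ∑ b ∈ M.divisors, nu M b * f b with hm
  set m' := ∑ b ∈ M.divisors, nu M b * g b with hm'
  have hm0 : 0 ≤ m := Finset.sum_nonneg fun b _ => mul_nonneg (nu_nonneg _ _) (hf b)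
  have hm0' : 0 ≤ m' := Finset.sum_nonneg fun b _ => mul_nonneg (nu_nonneg _ _) (hg b)
  have hx0 : (0:ℝ) < x := by linarith
  have hρ : 12 / (x : ℝ) + 96 * E ^ 3 / T ≤ 108 * (E ^ 3 / T) := by
    have h2 : 12 / (x : ℝ) ≤ 12 / T := div_le_div_of_nonneg_left (by norm_num) hT0 hTx
    have h3 : 12 / T ≤ 12 * (E ^ 3 / T) := by
      rw [mul_div_assoc']
      refine div_le_div_of_nonneg_right ?_ hT0.le
      have : (1:ℝ) ≤ E ^ 3 := one_le_pow₀ hE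
      linarith
    have h4 : 96 * E ^ 3 / T = 96 * (E ^ 3 / T) := by ring
    rw [h4]; linarith
  have hρ' : (12 / (x : ℝ) + 96 * E ^ 3 / T) ^ (1 - κ) ≤ 108 * (E ^ 3 / T) ^ (1 - κ) := by
    calc (12 / (x : ℝ) + 96 * E ^ 3 / T) ^ (1 - κ) ≤ (108 * (E ^ 3 / T)) ^ (1 - κ) :=
          Real.rpow_le_rpow (by positivity) hρ (by linarith)
      _ = 108 ^ (1 - κ) * (E ^ 3 / T) ^ (1 - κ) := Real.mul_rpow (by norm_num) (by positivity)
      _ ≤ 108 ^ (1:ℝ) * (E ^ 3 / T) ^ (1 - κ) := by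
          refine mul_le_mul_of_nonneg_right ?_ (by positivity)
          exact Real.rpow_le_rpow_of_exponent_le (by norm_num) (by linarith)
      _ = _ := by rw [Real.rpow_one]
  have hmm : 0 ≤ m ^ κ * m' ^ κ := mul_nonneg (Real.rpow_nonneg hm0 _) (Real.rpow_nonneg hm0' _)
  have e1 : L * (L ^ (2 * κ - 1)) = L ^ κ * L ^ κ := by
    rw [← Real.rpow_add hL, ← Real.rpow_one_add' hL.le (by linarith)]
    congr 1; ring
  have hTκ : 0 ≤ T ^ (2 * κ - 1) := Real.rpow_nonneg hT0.le _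
  calc L * _ ≤ L * (C * (n + 1) ^ 2 * ((T * L) ^ (2 * κ - 1) *
        (12 / (x : ℝ) + 96 * E ^ 3 / T) ^ (1 - κ)) * (m ^ κ * m' ^ κ)) :=
        mul_le_mul_of_nonneg_left h1 hL.le
    _ ≤ L * (C * (n + 1) ^ 2 * ((T * L) ^ (2 * κ - 1) *
        (108 * (E ^ 3 / T) ^ (1 - κ))) * (m ^ κ * m' ^ κ)) := by
        refine mul_le_mul_of_nonneg_left ?_ hL.le
        refine mul_le_mul_of_nonneg_right ?_ hmm
        refine mul_le_mul_of_nonneg_left ?_ (by positivity)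
        exact mul_le_mul_of_nonneg_left hρ' (by positivity)
    _ = _ := by
        rw [Real.mul_rpow hT0.le hL.le, Real.mul_rpow hL.le hm0, Real.mul_rpow hL.le hm0']
        calc L * (C * (↑n + 1) ^ 2 * (T ^ (2 * κ - 1) * L ^ (2 * κ - 1) *
              (108 * (E ^ 3 / T) ^ (1 - κ))) * (m ^ κ * m' ^ κ))
            = C * 108 * (n + 1) ^ 2 * (T ^ (2 * κ - 1) * (E ^ 3 / T) ^ (1 - κ)) *
              ((L * L ^ (2 * κ - 1)) * (m ^ κ * m' ^ κ)) := by ring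
          _ = _ := by rw [e1]; ring

end Crest.Agent.R4C.UnexplRx208
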