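import Crest.Agent.R4C.VecPure_520
import Crest.Agent.R4C.BoostR_398
import Crest.Agent.R4C.PrefixM_882
import Crest.Agent.R4C.HeavyL_50

/-!
# Row 4: scalar / vector NON-PURE part by the layer cake (helper50, note 3325)

* `layer_form` : a bilinear bound for sets (functions in `[0,1]`) gives the bound for the kernel
  `min (P z) (Q z')`: `≤ 4 E (Ex P)^{1/2} (Ex Q)^{1/2}`.
* `low_min` : the low kernel of one word with the FULL boost is
  `≤ min (Ex F / s') (Ex G / s)`.
* `np_class` : pairs whose upper words satisfy `N` (with a bilinear bound `E` for sets) and whose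
  low word is a function `w` of the upper words, `w.1 ≥ A`, `w.2 ≥ B`:
  boosted energy `≤ 4 E (A B)^{-1/2} (Ex f)^{1/2} (Ex g)^{1/2}`.
-/

set_option autoImplicit false

open Finset
open Crest.Agent.R4C.Basex935 Crest.Agent.R4C.Cutx50 Crest.Agent.R4C.HeavyLx50
open Crest.Agent.R4C.BoostRx398 (bst tf one_le_tf)
open Crest.Agent.R4C.FixedWordx423 (wd wd_pos wd_inj_right wd_inj_left wd_swap)

namespace Crest.Agent.R4C.VecNPx50

/-! ### layer cake -/

/-- dyadic layer -/
noncomputable def lay (k : ℕ) (x : ℝ) : ℝ := if (1 / 2 : ℝ) ^ (k + 1) < x then 1 else 0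

lemma lay_nonneg (k : ℕ) (x : ℝ) : 0 ≤ lay k x := by unfold lay; split_ifs <;> norm_num

lemma lay_le_one (k : ℕ) (x : ℝ) : lay k x ≤ 1 := by unfold lay; split_ifs <;> norm_num

lemma sum_lay_le (K : ℕ) {x : ℝ} (hx : 0 ≤ x) :
    ∑ k ∈ range K, (1 / 2 : ℝ) ^ k * lay k x ≤ 4 * x := by
  have key : ∑ k ∈ range K, (1 / 2 : ℝ) ^ k * lay k x ≤ max 0 (4 * x - 2 * (1 / 2 : ℝ) ^ K) := by
    induction K with
    | zero => simp
    | succ K ih =>
      rw [Finset.sum_range_succ]
      have hp : (0 : ℝ) < (1 / 2 : ℝ) ^ K := by positivity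
      have hs : (1 / 2 : ℝ) ^ (K + 1) = (1 / 2 : ℝ) ^ K * (1 / 2) := pow_succ _ _
      unfold lay at *
      split_ifs with h
      · rw [hs] at h
        have h1 : 0 ≤ 4 * x - 2 * (1 / 2 : ℝ) ^ K := by linarith
        rw [max_eq_right h1] at ih
        rw [hs]
        refine le_trans ?_ (le_max_right _ _)
        linarith
      · rw [mul_zero, add_zero]
        refine ih.trans (max_le_max le_rfl ?_)
        rw [hs]
        linarith
  refine key.trans (max_le (by linarith) ?_)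
  have hp : (0 : ℝ) < (1 / 2 : ℝ) ^ K := by positivity
  linarith

lemma min_le_lay {K : ℕ} {x y : ℝ} (hx1 : x ≤ 1)
    (hxK : x ≤ 0 ∨ (1 / 2 : ℝ) ^ K < x) (hyK : y ≤ 0 ∨ (1 / 2 : ℝ) ^ K < y) :
    min x y ≤ ∑ k ∈ range K, (1 / 2 : ℝ) ^ k * (lay k x * lay k y) := by
  have hnn : ∀ k ∈ range K, (0 : ℝ) ≤ (1 / 2 : ℝ) ^ k * (lay k x * lay k y) := fun k _ =>
    mul_nonneg (by positivity) (mul_nonneg (lay_nonneg _ _) (lay_nonneg _ _))
  set m := min x y with hm
  rcases le_or_gt m 0 with h0 | h0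
  · exact h0.trans (Finset.sum_nonneg hnn)
  have hx0 : 0 < x := lt_of_lt_of_le h0 (min_le_left _ _)
  have hy0 : 0 < y := lt_of_lt_of_le h0 (min_le_right _ _)
  have hKm : (1 / 2 : ℝ) ^ K < m := by
    rcases hxK with h | h
    · linarith
    rcases hyK with h' | h'
    · linarith
    exact lt_min h h'
  have hm1 : m ≤ 1 := (min_le_left _ _).trans hx1
  have hK0 : K ≠ 0 := by
    rintro rfl
    simp only [pow_zero] at hKm
    linarith
  obtain ⟨K', rfl⟩ := Nat.exists_eq_succ_of_ne_zero hK0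
  have hex : ∃ k : ℕ, (1 / 2 : ℝ) ^ (k + 1) < m := ⟨K', hKm⟩
  classical
  set k0 := Nat.find hex with hk0
  have h1 : (1 / 2 : ℝ) ^ (k0 + 1) < m := Nat.find_spec hex
  have h2 : k0 ≤ K' := Nat.find_min' hex hKm
  have h3 : m ≤ (1 / 2 : ℝ) ^ k0 := by
    rcases Nat.eq_zero_or_pos k0 with h4 | h4
    · rw [h4, pow_zero]; exact hm1
    · have h5 := Nat.find_min hex (m := k0 - 1) (by omega)
      rw [show k0 - 1 + 1 = k0 by omega] at h5
      exact not_lt.1 h5
  refine le_trans ?_ (Finset.single_le_sum hnn (Finset.mem_range.2 (Nat.lt_succ_of_le h2)))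
  have h6 : lay k0 x = 1 := by
    unfold lay; rw [if_pos (lt_of_lt_of_le h1 (min_le_left _ _))]
  have h7 : lay k0 y = 1 := by
    unfold lay; rw [if_pos (lt_of_lt_of_le h1 (min_le_right _ _))]
  rw [h6, h7, mul_one, mul_one]
  exact h3

lemma exists_level (s : Finset ℕ) (P : ℕ → ℝ) :
    ∃ K : ℕ, ∀ K' ≥ K, ∀ z ∈ s, P z ≤ 0 ∨ (1 / 2 : ℝ) ^ K' < P z := by
  classical
  induction s using Finset.induction_on with
  | empty => exact ⟨0, fun _ _ z hz => absurd hz (Finset.notMem_empty z)⟩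
  | insert a s _ ih =>
    obtain ⟨K, hK⟩ := ih
    rcases le_or_gt (P a) 0 with h | h
    · refine ⟨K, fun K' hK' z hz => ?_⟩
      rcases Finset.mem_insert.1 hz with rfl | hz
      · exact Or.inl h
      · exact hK K' hK' z hz
    · obtain ⟨n, hn⟩ := exists_pow_lt_of_lt_one h (by norm_num : (1 / 2 : ℝ) < 1)
      refine ⟨max K n, fun K' hK' z hz => ?_⟩
      rcases Finset.mem_insert.1 hz with rfl | hz
      · refine Or.inr (lt_of_le_of_lt ?_ hn)
        exact pow_le_pow_of_le_one (by norm_num) (by norm_num) (le_trans (le_max_right _ _) hK')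
      · exact hK K' (le_trans (le_max_left _ _) hK') z hz

/-- the bilinear bound for functions with values in `[0,1]` -/
def SetBd (M : ℕ) (k : ℕ → ℕ → ℝ) (E : ℝ) : Prop :=
  ∀ f g : ℕ → ℝ, (∀ b, 0 ≤ f b) → (∀ b, 0 ≤ g b) → (∀ b, f b ≤ 1) → (∀ b, g b ≤ 1) →
    frm M (fun z z' => k z z' * (f z * g z')) ≤ E * (√(Ex M f) * √(Ex M g))

lemma Ex_sum {ι : Type*} (s : Finset ι) (M : ℕ) (F : ι → ℕ → ℝ) :
    ∑ x ∈ s, Ex M (F x) = Ex M (fun b => ∑ x ∈ s, F x b) := by
  unfold Ex
  rw [Finset.sum_comm]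
  refine Finset.sum_congr rfl fun b _ => ?_
  rw [Finset.mul_sum]

lemma Ex_mul_left (M : ℕ) (a : ℝ) (f : ℕ → ℝ) : Ex M (fun b => a * f b) = a * Ex M f := by
  unfold Ex
  rw [Finset.mul_sum]
  exact Finset.sum_congr rfl fun b _ => by ring

/-- **layer cake** -/
theorem layer_form {M : ℕ} (hM : 0 < M) {k : ℕ → ℕ → ℝ} (hk : ∀ z z', 0 ≤ k z z')
    {E : ℝ} (hE0 : 0 ≤ E) (hE : SetBd M k E) {P Q : ℕ → ℝ}
    (hP0 : ∀ b, 0 ≤ P b) (hQ0 : ∀ b, 0 ≤ Q b) (hP1 : ∀ b, P b ≤ 1) :
    frm M (fun z z' => k z z' * min (P z) (Q z')) ≤ 4 * E * (√(Ex M P) * √(Ex M Q)) := by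
  obtain ⟨K1, hK1⟩ := exists_level M.divisors P
  obtain ⟨K2, hK2⟩ := exists_level M.divisors Q
  set K := max K1 K2 with hK
  have h1 : frm M (fun z z' => k z z' * min (P z) (Q z')) ≤
      ∑ i ∈ range K, (1 / 2 : ℝ) ^ i *
        frm M (fun z z' => k z z' * (lay i (P z) * lay i (Q z'))) := by
    have e : ∀ i ∈ range K, (1 / 2 : ℝ) ^ i *
        frm M (fun z z' => k z z' * (lay i (P z) * lay i (Q z'))) =
        frm M (fun z z' => k z z' * ((1 / 2 : ℝ) ^ i * (lay i (P z) * lay i (Q z')))) := by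
      intro i _
      unfold frm
      rw [Finset.mul_sum]
      refine Finset.sum_congr rfl fun b _ => ?_
      rw [Finset.mul_sum]
      exact Finset.sum_congr rfl fun c _ => by ring
    rw [Finset.sum_congr rfl e, frm_sum]
    refine frm_mono fun z z' hz hz' => ?_
    rw [← Finset.mul_sum]
    refine mul_le_mul_of_nonneg_left ?_ (hk z z')
    exact min_le_lay (hP1 z)
        (hK1 K (le_max_left _ _) z (Nat.mem_divisors.2 ⟨hz, hM.ne'⟩))
        (hK2 K (le_max_right _ _) z' (Nat.mem_divisors.2 ⟨hz', hM.ne'⟩))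
  refine h1.trans ?_
  have h2 : ∀ i ∈ range K, (1 / 2 : ℝ) ^ i *
      frm M (fun z z' => k z z' * (lay i (P z) * lay i (Q z'))) ≤
      E * (√((1 / 2 : ℝ) ^ i * Ex M (fun z => lay i (P z))) *
        √((1 / 2 : ℝ) ^ i * Ex M (fun z => lay i (Q z)))) := by
    intro i _
    have h3 := hE (fun z => lay i (P z)) (fun z => lay i (Q z)) (fun _ => lay_nonneg _ _)
      (fun _ => lay_nonneg _ _) (fun _ => lay_le_one _ _) (fun _ => lay_le_one _ _)
    have h4 : (0 : ℝ) ≤ (1 / 2 : ℝ) ^ i := by positivity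
    rw [Real.sqrt_mul h4, Real.sqrt_mul h4]
    calc _ ≤ (1 / 2 : ℝ) ^ i * (E * (√(Ex M (fun z => lay i (P z))) *
          √(Ex M (fun z => lay i (Q z))))) := mul_le_mul_of_nonneg_left h3 h4
      _ = E * ((√((1 / 2 : ℝ) ^ i) * √((1 / 2 : ℝ) ^ i)) * (√(Ex M (fun z => lay i (P z))) *
          √(Ex M (fun z => lay i (Q z))))) := by rw [Real.mul_self_sqrt h4]; ring
      _ = _ := by ring
  refine (Finset.sum_le_sum h2).trans ?_
  rw [← Finset.mul_sum]
  have hl : ∀ R : ℕ → ℝ, (∀ b, 0 ≤ R b) → ∑ i ∈ range K, (1 / 2 : ℝ) ^ i *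
      Ex M (fun z => lay i (R z)) ≤ 4 * Ex M R := by
    intro R hR
    have e : ∀ i ∈ range K, (1 / 2 : ℝ) ^ i * Ex M (fun z => lay i (R z)) =
        Ex M (fun z => (1 / 2 : ℝ) ^ i * lay i (R z)) := fun i _ => (Ex_mul_left _ _ _).symm
    rw [Finset.sum_congr rfl e, Ex_sum, ← Ex_mul_left]
    exact Ex_mono _ fun b _ => sum_lay_le K (hR b)
  have h5 := Real.sum_sqrt_mul_sqrt_le (range K)
    (f := fun i => (1 / 2 : ℝ) ^ i * Ex M (fun z => lay i (P z)))
    (g := fun i => (1 / 2 : ℝ) ^ i * Ex M (fun z => lay i (Q z)))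
    (fun i => mul_nonneg (by positivity) (Ex_nonneg _ fun _ => lay_nonneg _ _))
    (fun i => mul_nonneg (by positivity) (Ex_nonneg _ fun _ => lay_nonneg _ _))
  have h6 := Real.sqrt_le_sqrt (hl P hP0)
  have h7 := Real.sqrt_le_sqrt (hl Q hQ0)
  have h8 : √(4 * Ex M P) = 2 * √(Ex M P) := by
    rw [Real.sqrt_mul (by norm_num), show (4 : ℝ) = 2 ^ 2 by norm_num, Real.sqrt_sq (by norm_num)]
  have h9 : √(4 * Ex M Q) = 2 * √(Ex M Q) := by
    rw [Real.sqrt_mul (by norm_num), show (4 : ℝ) = 2 ^ 2 by norm_num, Real.sqrt_sq (by norm_num)]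
  rw [h8] at h6
  rw [h9] at h7
  calc _ ≤ E * ((2 * √(Ex M P)) * (2 * √(Ex M Q))) :=
        mul_le_mul_of_nonneg_left (h5.trans (mul_le_mul h6 h7 (Real.sqrt_nonneg _)
          (by positivity))) hE0
    _ = _ := by ring

/-! ### the boost -/

lemma bst_symm (S : Finset ℕ) (M b c : ℕ) : bst S M b c = bst S M c b := by
  unfold bst
  refine Finset.prod_congr rfl fun p _ => ?_
  by_cases h : b.factorization p = c.factorization p
  · rw [h]
  · rw [if_neg (fun hh => h hh.1), if_neg (fun hh => h hh.1.symm)]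

lemma bst_nonneg (S : Finset ℕ) (M b c : ℕ) : 0 ≤ bst S M b c := by
  unfold bst
  refine Finset.prod_nonneg fun p _ => ?_
  split_ifs with h
  · have hpp : p.Prime := by
      by_contra hn
      rw [Nat.factorization_eq_zero_of_not_prime M hn] at h
      omega
    exact zero_le_one.trans (one_le_tf hpp)
  · exact zero_le_one

/-- the boost is paid by the diagonal factor `c ν(c)` -/
lemma nu_bst {M c : ℕ} (hM : 0 < M) (hc : c ∣ M) (S : Finset ℕ) (b : ℕ) :
    ((c : ℝ) * nu M c) * bst S M b c ≤ 1 := by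
  classical
  rw [PrefixMx882.diag hM hc]
  set T := S.filter (fun p => b.factorization p = c.factorization p ∧
    b.factorization p < M.factorization p) with hT
  have h1 : bst S M b c = ∏ p ∈ T, tf p := by
    unfold bst
    rw [hT, Finset.prod_filter]
  have hsub : T ⊆ PrefixMx882.free M c := by
    intro p hp
    rw [hT, Finset.mem_filter] at hp
    unfold PrefixMx882.free
    rw [Finset.mem_filter, ← Nat.support_factorization, Finsupp.mem_support_iff]
    omega
  have hprime : ∀ p ∈ PrefixMx882.free M c, p.Prime := by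
    intro p hp
    unfold PrefixMx882.free at hp
    exact Nat.prime_of_mem_primeFactors (Finset.mem_filter.1 hp).1
  have h2 : ∏ p ∈ T, tf p ≤ ∏ p ∈ PrefixMx882.free M c, tf p := by
    rw [← Finset.prod_sdiff hsub]
    have h4 : 1 ≤ ∏ p ∈ PrefixMx882.free M c \ T, tf p :=
      Finset.prod_induction _ (fun x : ℝ => 1 ≤ x)
        (fun a b ha hb => one_le_mul_of_one_le_of_one_le ha hb) le_rfl
        (fun p hp => one_le_tf (hprime p (Finset.mem_sdiff.1 hp).1))
    have h5 : 0 ≤ ∏ p ∈ T, tf p :=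
      Finset.prod_nonneg fun p hp => zero_le_one.trans (one_le_tf (hprime p (hsub hp)))
    nlinarith
  rw [h1]
  have h3 : 0 ≤ ∏ p ∈ PrefixMx882.free M c, (1 - 1 / (p : ℝ)) :=
    Finset.prod_nonneg fun p hp => by
      have h2 : (2 : ℝ) ≤ p := by exact_mod_cast (hprime p hp).two_le
      have : 1 / (p : ℝ) ≤ 1 / 2 := one_div_le_one_div_of_le (by norm_num) h2
      linarith
  refine (mul_le_mul_of_nonneg_left h2 h3).trans (le_of_eq ?_)
  rw [← Finset.prod_mul_distrib]
  refine Finset.prod_eq_one fun p hp => ?_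
  have h2 : (2 : ℝ) ≤ p := by exact_mod_cast (hprime p hp).two_le
  have : 1 / (p : ℝ) ≤ 1 / 2 := one_div_le_one_div_of_le (by norm_num) h2
  unfold tf
  exact mul_inv_cancel₀ (by linarith)

/-- one side with the boost -/
lemma gcd_nu_bst {M b c : ℕ} (hM : 0 < M) (hc : c ∣ M) (S : Finset ℕ) :
    (Nat.gcd b c : ℝ) * nu M c * bst S M b c ≤ 1 / ((wd b c).2 : ℝ) := by
  have hc0 : 0 < c := Nat.pos_of_dvd_of_pos hc hM
  have hg : 0 < Nat.gcd b c := Nat.gcd_pos_of_pos_right _ hc0
  have hg' : (0 : ℝ) < Nat.gcd b c := by exact_mod_cast hg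
  have hc' : (0 : ℝ) < c := by exact_mod_cast hc0
  have e : ((wd b c).2 : ℝ) = (c : ℝ) / Nat.gcd b c := by
    unfold FixedWordx423.wd
    rw [Nat.cast_div (Nat.gcd_dvd_right b c) hg'.ne']
  rw [e, one_div_div]
  have h := nu_bst hM hc S b
  have h1 : nu M c * bst S M b c ≤ 1 / c := by
    rw [le_div_iff₀ hc']
    linarith
  calc (Nat.gcd b c : ℝ) * nu M c * bst S M b c = Nat.gcd b c * (nu M c * bst S M b c) := by ring
    _ ≤ Nat.gcd b c * (1 / (c : ℝ)) := mul_le_mul_of_nonneg_left h1 hg'.le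
    _ = Nat.gcd b c / c := by ring

/-- the boost is multiplicative over the cut -/
lemma bst_cut (S : Finset ℕ) {M y u u' z z' : ℕ} (hu : u ∣ low y M)
    (hu' : u' ∣ low y M) (hz : z ∣ upp y M) (hz' : z' ∣ upp y M) :
    bst S M (u * z) (u' * z') = bst S (low y M) u u' * bst S (upp y M) z z' := by
  unfold bst
  rw [← Finset.prod_mul_distrib]
  have hu0 : u ≠ 0 := (Nat.pos_of_dvd_of_pos hu (low_pos y M)).ne'
  have hu0' : u' ≠ 0 := (Nat.pos_of_dvd_of_pos hu' (low_pos y M)).ne'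
  have hz0 : z ≠ 0 := (Nat.pos_of_dvd_of_pos hz (upp_pos y M)).ne'
  have hz0' : z' ≠ 0 := (Nat.pos_of_dvd_of_pos hz' (upp_pos y M)).ne'
  refine Finset.prod_congr rfl fun p _ => ?_
  rw [Nat.factorization_mul hu0 hz0, Nat.factorization_mul hu0' hz0', Finsupp.add_apply,
    Finsupp.add_apply, fact_low, fact_upp]
  by_cases hp : p ≤ y
  · have e1 : z.factorization p = 0 := fact_zero_of_dvd_part (fun p => ¬ p ≤ y) hz (not_not.2 hp)
    have e2 : z'.factorization p = 0 := fact_zero_of_dvd_part (fun p => ¬ p ≤ y) hz' (not_not.2 hp)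
    rw [e1, e2, add_zero, add_zero, if_pos hp, if_neg (not_not.2 hp)]
    simp
  · have e1 : u.factorization p = 0 := fact_zero_of_dvd_part (fun p => p ≤ y) hu hp
    have e2 : u'.factorization p = 0 := fact_zero_of_dvd_part (fun p => p ≤ y) hu' hp
    rw [e1, e2, zero_add, zero_add, if_neg hp, if_pos hp]
    simp

/-! ### the low kernel of one word -/

open Classical in
lemma low_right {M : ℕ} (hM : 0 < M) (S : Finset ℕ) (x : ℕ × ℕ) {F G : ℕ → ℝ}
    (hF : ∀ b, 0 ≤ F b) (hG1 : ∀ b, G b ≤ 1) :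
    frm M (fun u u' => if wd u u' = x then bst S M u u' * (F u * G u') else 0) ≤
      Ex M F / (x.2 : ℝ) := by
  unfold frm Ex
  rw [Finset.sum_div]
  refine Finset.sum_le_sum fun b hb => ?_
  have hb0 : 0 < b := Nat.pos_of_mem_divisors hb
  have hνF : 0 ≤ nu M b * F b := mul_nonneg (nu_nonneg _ _) (hF b)
  have hterm : ∀ c ∈ M.divisors, wd b c = x →
      (Nat.gcd b c : ℝ) * nu M b * nu M c * (bst S M b c * (F b * G c)) ≤
        nu M b * F b / (x.2 : ℝ) := by
    intro c hc h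
    have h1 := gcd_nu_bst (b := b) hM (Nat.dvd_of_mem_divisors hc) S
    rw [h] at h1
    have h2 : 0 ≤ (Nat.gcd b c : ℝ) * nu M c * bst S M b c :=
      mul_nonneg (mul_nonneg (Nat.cast_nonneg _) (nu_nonneg _ _)) (bst_nonneg _ _ _ _)
    calc _ = (nu M b * F b) * ((Nat.gcd b c : ℝ) * nu M c * bst S M b c * G c) := by ring
      _ ≤ (nu M b * F b) * (1 / (x.2 : ℝ)) := by
          refine mul_le_mul_of_nonneg_left (le_trans ?_ h1) hνF
          calc _ ≤ (Nat.gcd b c : ℝ) * nu M c * bst S M b c * 1 :=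
                mul_le_mul_of_nonneg_left (hG1 c) h2
            _ = _ := mul_one _
      _ = _ := by ring
  by_cases hex : ∃ c ∈ M.divisors, wd b c = x
  · obtain ⟨c0, hc0, h0⟩ := hex
    rw [Finset.sum_eq_single_of_mem c0 hc0]
    · beta_reduce
      rw [if_pos h0]
      exact hterm c0 hc0 h0
    · intro c _ hne
      beta_reduce
      rw [if_neg, mul_zero]
      intro h
      exact hne (wd_inj_right hb0 h h0)
  · rw [Finset.sum_eq_zero]
    · positivity
    · intro c hc
      beta_reduce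
      rw [if_neg, mul_zero]
      intro h
      exact hex ⟨c, hc, h⟩

open Classical in
lemma low_left {M : ℕ} (hM : 0 < M) (S : Finset ℕ) (x : ℕ × ℕ) {F G : ℕ → ℝ}
    (hG : ∀ b, 0 ≤ G b) (hF1 : ∀ b, F b ≤ 1) :
    frm M (fun u u' => if wd u u' = x then bst S M u u' * (F u * G u') else 0) ≤
      Ex M G / (x.1 : ℝ) := by
  have h := low_right hM S x.swap hG hF1
  rw [← frm_swap] at h
  simp only [Prod.snd_swap] at h
  refine le_trans (le_of_eq ?_) h
  refine frm_congr fun b c _ _ => ?_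
  have e : (wd b c = x) ↔ (wd c b = x.swap) := by
    rw [wd_swap b c]
    exact ⟨fun h => by rw [h], fun h => Prod.swap_injective h⟩
  by_cases hw : wd b c = x
  · rw [if_pos hw, if_pos (e.1 hw), bst_symm, mul_comm (F b)]
  · rw [if_neg hw, if_neg (fun h => hw (e.2 h))]

/-! ### one class -/

open Classical in
/-- **non-pure pairs (or any relation with a bilinear bound for sets), one class of words, with
the full boost** -/
theorem np_class {M : ℕ} (hM : 0 < M) (y : ℕ) (S : Finset ℕ) {N : ℕ → ℕ → Prop} {E : ℝ}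
    (hE0 : 0 ≤ E)
    (hN : SetBd (upp y M) (fun z z' => if N z z' then bst S (upp y M) z z' else 0) E)
    {A B : ℝ} (hA : 1 ≤ A) (hB : 1 ≤ B) (P : ℕ → ℕ → Prop) (w : ℕ → ℕ → ℕ × ℕ)
    (hP : ∀ b c, b ∣ M → c ∣ M → P b c → N (upp y b) (upp y c))
    (hw : ∀ b c, b ∣ M → c ∣ M → P b c → wd (low y b) (low y c) = w (upp y b) (upp y c) ∧
      A ≤ (w (upp y b) (upp y c)).1 ∧ B ≤ (w (upp y b) (upp y c)).2)
    {f g : ℕ → ℝ} (hf : ∀ b, 0 ≤ f b) (hg : ∀ b, 0 ≤ g b) (hf1 : ∀ b, f b ≤ 1)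
    (hg1 : ∀ b, g b ≤ 1) :
    frm M (fun b c => if P b c then bst S M b c * (f b * g c) else 0) ≤
      4 * E / √(A * B) * (√(Ex M f) * √(Ex M g)) := by
  have hA0 : 0 < A := by linarith
  have hB0 : 0 < B := by linarith
  set M0 := low y M with hM0
  set M1 := upp y M with hM1
  have hM0p : 0 < M0 := low_pos y M
  have hM1p : 0 < M1 := upp_pos y M
  set Vf : ℕ → ℝ := fun z => Ex M0 (fun u => f (u * z)) with hVf
  set Vg : ℕ → ℝ := fun z => Ex M0 (fun u => g (u * z)) with hVg
  have hVf0 : ∀ z, 0 ≤ Vf z := fun z => Ex_nonneg _ fun _ => hf _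
  have hVg0 : ∀ z, 0 ≤ Vg z := fun z => Ex_nonneg _ fun _ => hg _
  have hVf1 : ∀ z, Vf z ≤ 1 := fun z =>
    (Ex_mono _ fun b _ => hf1 (b * z)).trans (le_of_eq (Ex_const hM0p 1))
  have hkey : frm M (fun b c => if P b c then bst S M b c * (f b * g c) else 0) ≤
      frm M1 (fun z z' => (if N z z' then bst S M1 z z' else 0) *
        min (1 / B * Vf z) (1 / A * Vg z')) := by
    rw [frm_low_upp hM y]
    unfold frm
    refine Finset.sum_le_sum fun z hz => Finset.sum_le_sum fun z' hz' => ?_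
    have hzd := Nat.dvd_of_mem_divisors hz
    have hzd' := Nat.dvd_of_mem_divisors hz'
    refine mul_le_mul_of_nonneg_left ?_
      (mul_nonneg (mul_nonneg (by positivity) (nu_nonneg _ _)) (nu_nonneg _ _))
    have hdiv : ∀ u T, u ∣ M0 → T ∣ M1 → u * T ∣ M := by
      intro u T hu hT
      have := Nat.mul_dvd_mul hu hT
      rwa [low_mul_upp y hM.ne'] at this
    by_cases hex : ∃ u u', u ∣ M0 ∧ u' ∣ M0 ∧ P (u * z) (u' * z')
    · obtain ⟨u1, u1', hu1, hu1', hP1⟩ := hex
      have hNN : N z z' := by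
        have := hP _ _ (hdiv _ _ hu1 hzd) (hdiv _ _ hu1' hzd') hP1
        rwa [upp_of_mul hu1 hzd, upp_of_mul hu1' hzd'] at this
      have hww := hw _ _ (hdiv _ _ hu1 hzd) (hdiv _ _ hu1' hzd') hP1
      rw [upp_of_mul hu1 hzd, upp_of_mul hu1' hzd'] at hww
      set x := w z z' with hx
      beta_reduce
      rw [if_pos hNN]
      have hin : frm M0 (fun n n' => if P (n * z) (n' * z') then
            bst S M (n * z) (n' * z') * (f (n * z) * g (n' * z')) else 0) ≤
          bst S M1 z z' * frm M0 (fun u u' => if wd u u' = x then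
            bst S M0 u u' * (f (u * z) * g (u' * z')) else 0) := by
        unfold frm
        rw [Finset.mul_sum]
        refine Finset.sum_le_sum fun u hu => ?_
        rw [Finset.mul_sum]
        refine Finset.sum_le_sum fun u' hu' => ?_
        have hud := Nat.dvd_of_mem_divisors hu
        have hud' := Nat.dvd_of_mem_divisors hu'
        have hwt : 0 ≤ (Nat.gcd u u' : ℝ) * nu M0 u * nu M0 u' :=
          mul_nonneg (mul_nonneg (by positivity) (nu_nonneg _ _)) (nu_nonneg _ _)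
        beta_reduce
        by_cases hPP : P (u * z) (u' * z')
        · have h2 := (hw _ _ (hdiv _ _ hud hzd) (hdiv _ _ hud' hzd') hPP).1
          rw [low_of_mul hud hzd, low_of_mul hud' hzd', upp_of_mul hud hzd,
            upp_of_mul hud' hzd'] at h2
          rw [if_pos hPP, if_pos h2, bst_cut S hud hud' hzd hzd']
          exact le_of_eq (by ring)
        · rw [if_neg hPP, mul_zero]
          refine mul_nonneg (bst_nonneg _ _ _ _) (mul_nonneg hwt ?_)
          split_ifs
          · exact mul_nonneg (bst_nonneg _ _ _ _) (mul_nonneg (hf _) (hg _))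
          · exact le_rfl
      refine hin.trans (mul_le_mul_of_nonneg_left (le_min ?_ ?_) (bst_nonneg _ _ _ _))
      · refine (low_right hM0p S x (F := fun u => f (u * z)) (G := fun u => g (u * z'))
          (fun _ => hf _) (fun _ => hg1 _)).trans ?_
        rw [div_eq_mul_one_div, mul_comm]
        refine mul_le_mul_of_nonneg_right ?_ (hVf0 z)
        exact one_div_le_one_div_of_le hB0 hww.2.2
      · refine (low_left hM0p S x (F := fun u => f (u * z)) (G := fun u => g (u * z'))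
          (fun _ => hg _) (fun _ => hf1 _)).trans ?_
        rw [div_eq_mul_one_div, mul_comm]
        refine mul_le_mul_of_nonneg_right ?_ (hVg0 z')
        exact one_div_le_one_div_of_le hA0 hww.2.1
    · push Not at hex
      have h0 : frm M0 (fun n n' => if P (n * z) (n' * z') then
            bst S M (n * z) (n' * z') * (f (n * z) * g (n' * z')) else 0) = 0 := by
        unfold frm
        refine Finset.sum_eq_zero fun u hu => Finset.sum_eq_zero fun u' hu' => ?_
        beta_reduce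
        rw [if_neg (hex u u' (Nat.dvd_of_mem_divisors hu) (Nat.dvd_of_mem_divisors hu')), mul_zero]
      refine (le_of_eq h0).trans ?_
      refine mul_nonneg ?_ (le_min (mul_nonneg (by positivity) (hVf0 z))
        (mul_nonneg (by positivity) (hVg0 z')))
      split_ifs
      · exact bst_nonneg _ _ _ _
      · exact le_rfl
  refine hkey.trans ?_
  have hlay := layer_form hM1p (k := fun z z' => if N z z' then bst S M1 z z' else 0)
    (fun z z' => by
      show 0 ≤ (if N z z' then bst S M1 z z' else 0)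
      split_ifs
      · exact bst_nonneg _ _ _ _
      · exact le_rfl) hE0 hN
    (P := fun z => 1 / B * Vf z) (Q := fun z => 1 / A * Vg z)
    (fun b => mul_nonneg (by positivity) (hVf0 b)) (fun b => mul_nonneg (by positivity) (hVg0 b))
    (fun b => by
      have h1 : 1 / B ≤ 1 := by rw [div_le_one hB0]; exact hB
      calc 1 / B * Vf b ≤ 1 * 1 := mul_le_mul h1 (hVf1 b) (hVf0 b) zero_le_one
        _ = 1 := one_mul 1)
  refine hlay.trans (le_of_eq ?_)
  have e1 : Ex M1 (fun z => 1 / B * Vf z) = 1 / B * Ex M f := by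
    rw [Ex_mul_left]
    congr 1
    exact Ex_mass hM y f
  have e2 : Ex M1 (fun z => 1 / A * Vg z) = 1 / A * Ex M g := by
    rw [Ex_mul_left]
    congr 1
    exact Ex_mass hM y g
  rw [e1, e2, Real.sqrt_mul (by positivity), Real.sqrt_mul (by positivity),
    Real.sqrt_mul hA0.le, one_div, one_div, Real.sqrt_inv, Real.sqrt_inv]
  have hsA : 0 < √A := Real.sqrt_pos.2 hA0
  have hsB : 0 < √B := Real.sqrt_pos.2 hB0
  field_simp

end Crest.Agent.R4C.VecNPx50
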