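import Crest.Agent.R4C.VecNPw_50
import Crest.Agent.R4C.B1Lev_52

/-!
# Row 4: the NON-PURE class with all boosts (helper50)

`np_final` : for a set `B` of divisors of `M`, `F : FL M` with shares (`flam_full`), all pairs of `B`
which for some block `j ≥ j0` are good and non-pure at `Xj j`, with a small low word determined by
the upper words, weight `≤ bst (pr (Xj j)) M b c * B1 b c` : energy `≤ C (1 + A) 2^{-j0/2} ν(B)`.
`np_final_dbl` : the same for a doubling family of words.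
-/

set_option autoImplicit false

open Finset
open Crest.Agent.R4C.Basex935 Crest.Agent.R4C.Cutx50 Crest.Agent.R4C.HeavyLx50
open Crest.Agent.R4C.FLDefx935
open Crest.Agent.R4C.BoostRx398 (bst tf one_le_tf)
open Crest.Agent.R4C.VecPurex520 (Dbl)
open Crest.Agent.R4C.NonPureBlkx559 (Xj)
open Crest.Agent.R4C.FLShx326 (Shares)

namespace Crest.Agent.R4C.VecNPx50

open Classical in
lemma setBd_sets {M : ℕ} {k : ℕ → ℕ → ℝ} {E : ℝ} (h : SetBd M k E) {S S' : Finset ℕ}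
    (hS : S ⊆ M.divisors) (hS' : S' ⊆ M.divisors) :
    ∑ b ∈ S, ∑ c ∈ S', (Nat.gcd b c : ℝ) * nu M b * nu M c * k b c ≤
      E * √((∑ b ∈ S, nu M b) * ∑ c ∈ S', nu M c) := by
  have h1 := h (fun b => if b ∈ S then 1 else 0) (fun b => if b ∈ S' then 1 else 0)
    (fun b => by split_ifs <;> norm_num) (fun b => by split_ifs <;> norm_num)
    (fun b => by split_ifs <;> norm_num) (fun b => by split_ifs <;> norm_num)
  have e : ∀ T : Finset ℕ, T ⊆ M.divisors →
      Ex M (fun b => if b ∈ T then (1 : ℝ) else 0) = ∑ b ∈ T, nu M b := by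
    intro T hT
    unfold Ex
    simp only [mul_ite, mul_one, mul_zero]
    rw [← Finset.sum_filter]
    congr 1
    ext b
    simp only [Finset.mem_filter]
    exact ⟨fun h => h.2, fun h => ⟨hT h, h⟩⟩
  have hm0 : 0 ≤ ∑ b ∈ S, nu M b := Finset.sum_nonneg fun _ _ => nu_nonneg _ _
  rw [e S hS, e S' hS', ← Real.sqrt_mul hm0] at h1
  refine le_trans (le_of_eq ?_) h1
  unfold frm
  rw [← Finset.sum_subset hS]
  · refine Finset.sum_congr rfl fun z hz => ?_
    rw [← Finset.sum_subset hS']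
    · refine Finset.sum_congr rfl fun z' hz' => ?_
      simp [hz, hz']
    · intro z' _ hz'
      simp [hz']
  · intro z _ hz
    refine Finset.sum_eq_zero fun z' _ => ?_
    simp [hz]

lemma B1hi_eq (X b c : ℕ) : B1hi X b c = B1Levx52.B1 X b c := by
  unfold B1hi B1Levx52.B1
  refine Finset.prod_congr ?_ fun p _ => rfl
  ext p
  simp

open Classical in
/-- **the non-pure class with all boosts** -/
theorem np_final : ∃ C : ℝ, 0 ≤ C ∧ ∀ (M : ℕ) (F : FL M) (B : Finset ℕ) (A s : ℝ), 0 < M →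
    B ⊆ M.divisors → Shares F B A s → 0 ≤ A → 3 / 4 ≤ s → ∀ j0 : ℕ, 1 ≤ j0 →
    ∀ P : ℕ → ℕ → ℕ → Prop,
    (∀ j, j0 ≤ j → ∀ b c, b ∣ M → c ∣ M → P j b c → NPX F (Xj j) b c) →
    (∀ j, j0 ≤ j → Uniq M (Xj j) (P j)) →
    ∀ W : ℕ → ℕ → ℝ,
    (∀ j, j0 ≤ j → ∀ b ∈ B, ∀ c ∈ B, P j b c →
      W b c ≤ bst (pr (Xj j)) M b c * PureL2x232.B1 b c) →
    ∑ b ∈ B, ∑ c ∈ B, (if ∃ j, j0 ≤ j ∧ P j b c then
        (Nat.gcd b c : ℝ) * nu M b * nu M c * W b c else 0) ≤
      C * (1 + A) * ((√2)⁻¹) ^ j0 * ∑ b ∈ B, nu M b := by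
  obtain ⟨C, hC, h⟩ := np_SetBdw
  obtain ⟨C2, hC2, h2⟩ := B1Levx52.good_B1
  have hs2 : 1 < √2 := by
    rw [← Real.sqrt_one]; exact Real.sqrt_lt_sqrt (by norm_num) (by norm_num)
  set r : ℝ := (√2)⁻¹ with hr
  have hr0 : 0 < r := by positivity
  have hr1 : r < 1 := inv_lt_one_of_one_lt₀ hs2
  have hR : 0 < (1 - r)⁻¹ := inv_pos.2 (by linarith)
  refine ⟨128 * (1 + C2) * C * (1 - r)⁻¹, by positivity,
    fun M F B A s hM hB hSh hA hs j0 hj0 P hP hU W hW => ?_⟩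
  set m := ∑ b ∈ B, nu M b with hm
  have hm0 : 0 ≤ m := Finset.sum_nonneg fun _ _ => nu_nonneg _ _
  have hwt : ∀ b c, 0 ≤ (Nat.gcd b c : ℝ) * nu M b * nu M c := fun b c =>
    mul_nonneg (mul_nonneg (by positivity) (nu_nonneg _ _)) (nu_nonneg _ _)
  set K : ℕ → ℕ → ℕ → ℝ := fun j b c => (Nat.gcd b c : ℝ) * nu M b * nu M c *
    (if P j b c then bst (pr (Xj j)) M b c * lw (Xj j) b c else 0) with hK
  have hK0 : ∀ j b c, 0 ≤ K j b c := by
    intro j b c
    refine mul_nonneg (hwt b c) ?_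
    split_ifs
    · exact mul_nonneg (bst_nonneg _ _ _ _) (lw_nonneg _ _ _)
    · exact le_rfl
  have h1 : ∀ b ∈ B, ∀ c ∈ B, (if ∃ j, j0 ≤ j ∧ P j b c then
        (Nat.gcd b c : ℝ) * nu M b * nu M c * W b c else 0) ≤
      ∑ j ∈ Finset.Ico j0 (M + 1), 8 * (K j b c * B1Levx52.B1 (Xj j) b c) := by
    intro b hb c hc
    have hbM := Nat.dvd_of_mem_divisors (hB hb)
    have hcM := Nat.dvd_of_mem_divisors (hB hc)
    have hb0 : 0 < b := Nat.pos_of_dvd_of_pos hbM hM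
    have hc0 : 0 < c := Nat.pos_of_dvd_of_pos hcM hM
    have hnn : ∀ j ∈ Finset.Ico j0 (M + 1), (0 : ℝ) ≤ 8 * (K j b c * B1Levx52.B1 (Xj j) b c) :=
      fun j _ => mul_nonneg (by norm_num) (mul_nonneg (hK0 j b c) (B1Levx52.B1_nonneg _ _ _))
    by_cases hex : ∃ j, j0 ≤ j ∧ P j b c
    · rw [if_pos hex]
      obtain ⟨j, hj, hPj⟩ := hex
      have hn := hP j hj b c hbM hcM hPj
      have hjM : j < M + 1 := by
        have := hn.np
        rw [not_and_or] at this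
        rcases this with h5 | h5
        · exact Xj_lt hM h5
        · exact Xj_lt hM h5
      refine le_trans ?_ (Finset.single_le_sum hnn (Finset.mem_Ico.2 ⟨hj, hjM⟩))
      simp only [hK]
      rw [if_pos hPj]
      have h3 := B1_split_cut (Xj j) hb0 hc0
      rw [B1hi_eq] at h3
      calc (Nat.gcd b c : ℝ) * nu M b * nu M c * W b c
          ≤ (Nat.gcd b c : ℝ) * nu M b * nu M c *
            (bst (pr (Xj j)) M b c * (8 * lw (Xj j) b c * B1Levx52.B1 (Xj j) b c)) :=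
            mul_le_mul_of_nonneg_left ((hW j hj b hb c hc hPj).trans
              (mul_le_mul_of_nonneg_left h3 (bst_nonneg _ _ _ _))) (hwt b c)
        _ = _ := by ring
    · rw [if_neg hex]
      exact Finset.sum_nonneg hnn
  refine (Finset.sum_le_sum fun b hb => Finset.sum_le_sum fun c hc => h1 b hb c hc).trans ?_
  have hswap : ∑ b ∈ B, ∑ c ∈ B, ∑ j ∈ Finset.Ico j0 (M + 1),
      8 * (K j b c * B1Levx52.B1 (Xj j) b c) =
      ∑ j ∈ Finset.Ico j0 (M + 1), 8 * ∑ b ∈ B, ∑ c ∈ B, K j b c * B1Levx52.B1 (Xj j) b c := by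
    rw [Finset.sum_congr rfl fun b _ => Finset.sum_comm, Finset.sum_comm]
    refine Finset.sum_congr rfl fun j _ => ?_
    rw [Finset.mul_sum]
    refine Finset.sum_congr rfl fun b _ => ?_
    rw [Finset.mul_sum]
  rw [hswap]
  have hj : ∀ j ∈ Finset.Ico j0 (M + 1),
      8 * ∑ b ∈ B, ∑ c ∈ B, K j b c * B1Levx52.B1 (Xj j) b c ≤
        (128 * (1 + C2 * A) * C * m) * r ^ j := by
    intro j hj
    rw [Finset.mem_Ico] at hj
    have hj1 : 1 ≤ j := by omega
    have hset := h M F hM j hj1 (P j) (hP j hj.1) (hU j hj.1)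
    have h3 := h2 M F B A s hM hB hSh hA hs (Xj j) (K j) (C * r ^ j) (by positivity)
      (fun b _ c _ => hK0 j b c)
      (fun b hb c hc hne => by
        have hbM := Nat.dvd_of_mem_divisors (hB hb)
        have hcM := Nat.dvd_of_mem_divisors (hB hc)
        by_contra hng
        apply hne
        simp only [hK]
        rw [if_neg, mul_zero]
        intro hPj
        exact hng (hP j hj.1 b c hbM hcM hPj).good)
      (fun S S' hS hS' => setBd_sets hset (hS.trans hB) (hS'.trans hB))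
    calc 8 * ∑ b ∈ B, ∑ c ∈ B, K j b c * B1Levx52.B1 (Xj j) b c
        ≤ 8 * (16 * (1 + C2 * A) * (C * r ^ j) * m) := mul_le_mul_of_nonneg_left h3 (by norm_num)
      _ = _ := by ring
  refine (Finset.sum_le_sum hj).trans ?_
  rw [← Finset.mul_sum]
  have hgeo : ∑ j ∈ Finset.Ico j0 (M + 1), r ^ j ≤ r ^ j0 * (1 - r)⁻¹ := by
    rw [Finset.sum_Ico_eq_sum_range]
    have : ∀ k ∈ Finset.range (M + 1 - j0), r ^ (j0 + k) = r ^ j0 * r ^ k := fun k _ => pow_add _ _ _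
    rw [Finset.sum_congr rfl this, ← Finset.mul_sum]
    refine mul_le_mul_of_nonneg_left ?_ (by positivity)
    exact sum_le_hasSum _ (fun n _ => pow_nonneg hr0.le n) (hasSum_geometric_of_lt_one hr0.le hr1)
  have hA1 : 1 + C2 * A ≤ (1 + C2) * (1 + A) := by nlinarith [mul_nonneg hC2 hA]
  calc 128 * (1 + C2 * A) * C * m * ∑ j ∈ Finset.Ico j0 (M + 1), r ^ j
      ≤ 128 * ((1 + C2) * (1 + A)) * C * m * (r ^ j0 * (1 - r)⁻¹) := by
        refine mul_le_mul ?_ hgeo (Finset.sum_nonneg fun _ _ => by positivity) (by positivity)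
        refine mul_le_mul_of_nonneg_right (mul_le_mul_of_nonneg_right ?_ hC.le) hm0
        linarith
    _ = _ := by ring

open Classical in
/-- **the non-pure class, doubling family of words** (dominant words, or the empty word) -/
theorem np_final_dbl : ∃ C : ℝ, 0 ≤ C ∧ ∀ (M : ℕ) (F : FL M) (B : Finset ℕ) (A s : ℝ), 0 < M →
    B ⊆ M.divisors → Shares F B A s → 0 ≤ A → 3 / 4 ≤ s → ∀ j0 : ℕ, 1 ≤ j0 →
    ∀ D : ℕ → ℕ → ℕ → ℕ → Prop, Dbl D → ∀ W : ℕ → ℕ → ℝ,
    (∀ j, j0 ≤ j → ∀ b ∈ B, ∀ c ∈ B, NPD F D j b c →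
      W b c ≤ bst (pr (Xj j)) M b c * PureL2x232.B1 b c) →
    ∑ b ∈ B, ∑ c ∈ B, (if ∃ j, j0 ≤ j ∧ NPD F D j b c then
        (Nat.gcd b c : ℝ) * nu M b * nu M c * W b c else 0) ≤
      C * (1 + A) * ((√2)⁻¹) ^ j0 * ∑ b ∈ B, nu M b := by
  obtain ⟨C, hC, h⟩ := np_final
  refine ⟨C, hC, fun M F B A s hM hB hSh hA hs j0 hj0 D hD W hW => ?_⟩
  exact h M F B A s hM hB hSh hA hs j0 hj0 (NPD F D) (fun j _ b c _ _ hPP => hPP.1)
    (fun j _ => uniq_dbl hM hD (fun b c _ _ hPP => ⟨hPP.2, hPP.1.size⟩)) W hW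

end Crest.Agent.R4C.VecNPx50
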