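import Crest.Agent.R4C.VecNPj_50
import Crest.Agent.R4C.PureB1_232

/-!
# Row 4: the non-pure class with the boost and the label factor of the low word (helper50)

* `SetBd` algebra : `SetBd.mono`, `SetBd.sum`.
* `prod_pf_le` : `∏_{p ∣ n} (1 - 1/p)⁻¹ ≤ log₂ n + 1 ≤ 8 n^{1/4}`.
* `np_blockw` : one block, all words, weight `bst S M b c * (u u')^{1/4}` (`u, u'` the low word).
* `np_SetBdw` : block `j` : constant `C ((√2)⁻¹)^j`.
* `B1_split_cut` : `B1 b c ≤ 8 (u u')^{1/4} B1hi X b c`.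
-/

set_option autoImplicit false

open Finset
open Crest.Agent.R4C.Basex935 Crest.Agent.R4C.Cutx50 Crest.Agent.R4C.HeavyLx50
open Crest.Agent.R4C.FLDefx935
open Crest.Agent.R4C.BoostRx398 (bst tf one_le_tf)
open Crest.Agent.R4C.FixedWordx423 (wd wd_pos)
open Crest.Agent.R4C.VecPurex520 (Dbl)
open Crest.Agent.R4C.NonPureBlkx559 (Xj Xj_two log_Xj)

namespace Crest.Agent.R4C.VecNPx50

/-! ### products over primes -/

lemma prod_pf_card : ∀ (n : ℕ) (S : Finset ℕ), S.card = n → (∀ p ∈ S, 2 ≤ p) →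
    ∏ p ∈ S, (1 - 1 / (p : ℝ))⁻¹ ≤ (S.card : ℝ) + 1 := by
  intro n
  induction n with
  | zero =>
    intro S hS _
    rw [Finset.card_eq_zero] at hS
    subst hS
    simp
  | succ n ih =>
    intro S hS h2
    have hne : S.Nonempty := by
      rw [← Finset.card_pos]; omega
    set m := S.max' hne with hm
    have hmS : m ∈ S := S.max'_mem hne
    have hcard : (S.erase m).card = n := by
      rw [Finset.card_erase_of_mem hmS]; omega
    have hsub : S ⊆ Finset.Icc 2 m := fun p hp => Finset.mem_Icc.2 ⟨h2 p hp, S.le_max' p hp⟩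
    have hmn : n + 2 ≤ m := by
      have := Finset.card_le_card hsub
      rw [Nat.card_Icc] at this
      omega
    have h1 := ih (S.erase m) hcard (fun p hp => h2 p (Finset.mem_of_mem_erase hp))
    rw [← Finset.mul_prod_erase S _ hmS, hS]
    rw [hcard] at h1
    have hmR : (n : ℝ) + 2 ≤ m := by exact_mod_cast hmn
    have hn0 : (0 : ℝ) ≤ n := by positivity
    have hm0 : (0 : ℝ) < m := by linarith
    have h3 : 0 < 1 - 1 / (m : ℝ) := by
      rw [sub_pos, div_lt_one hm0]; linarith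
    have h4 : (1 - 1 / (m : ℝ))⁻¹ ≤ ((n : ℝ) + 2) / (n + 1) := by
      rw [inv_le_comm₀ h3 (by positivity), inv_div]
      have h5 : 1 / (m : ℝ) ≤ 1 / ((n : ℝ) + 2) := one_div_le_one_div_of_le (by positivity) hmR
      have h6 : ((n : ℝ) + 1) / (n + 2) = 1 - 1 / ((n : ℝ) + 2) := by field_simp; ring
      rw [h6]; linarith
    calc (1 - 1 / (m : ℝ))⁻¹ * ∏ p ∈ S.erase m, (1 - 1 / (p : ℝ))⁻¹
        ≤ (((n : ℝ) + 2) / (n + 1)) * ((n : ℝ) + 1) :=
          mul_le_mul h4 h1 (Finset.prod_nonneg fun p hp => by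
            have h7 : (2 : ℝ) ≤ p := by exact_mod_cast h2 p (Finset.mem_of_mem_erase hp)
            have : 1 / (p : ℝ) ≤ 1 / 2 := one_div_le_one_div_of_le (by norm_num) h7
            exact inv_nonneg.2 (by linarith)) (by positivity)
      _ = ((n + 1 : ℕ) : ℝ) + 1 := by push_cast; field_simp; ring

lemma card_pf_le {n : ℕ} (hn : 0 < n) : n.primeFactors.card ≤ Nat.log 2 n := by
  refine (Nat.le_log_iff_pow_le (by norm_num) hn.ne').2 ?_
  calc 2 ^ n.primeFactors.card = ∏ _p ∈ n.primeFactors, 2 := by rw [Finset.prod_const]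
    _ ≤ ∏ p ∈ n.primeFactors, p :=
        Finset.prod_le_prod (fun _ _ => by norm_num) fun p hp =>
          (Nat.prime_of_mem_primeFactors hp).two_le
    _ ≤ n := Nat.le_of_dvd hn (Nat.prod_primeFactors_dvd n)

lemma prod_pf_le {n : ℕ} (hn : 0 < n) :
    ∏ p ∈ n.primeFactors, (1 - 1 / (p : ℝ))⁻¹ ≤ 8 * (n : ℝ) ^ (1 / 4 : ℝ) := by
  have h1 := prod_pf_card _ n.primeFactors rfl
    (fun p hp => (Nat.prime_of_mem_primeFactors hp).two_le)
  have h2 : (n.primeFactors.card : ℝ) ≤ (Nat.log 2 n : ℝ) := by exact_mod_cast card_pf_le hn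
  have hnR : (0 : ℝ) < n := by exact_mod_cast hn
  have h3 : (Nat.log 2 n : ℝ) * Real.log 2 ≤ Real.log n := by
    have h4 : ((2 : ℝ) ^ (Nat.log 2 n)) ≤ n := by
      exact_mod_cast Nat.pow_log_le_self 2 hn.ne'
    have h5 := Real.log_le_log (by positivity) h4
    rwa [Real.log_pow] at h5
  have h6 : 1 + Real.log n / 4 ≤ (n : ℝ) ^ (1 / 4 : ℝ) := by
    rw [Real.rpow_def_of_pos hnR]
    have := Real.add_one_le_exp (Real.log n * (1 / 4))
    linarith
  have h7 : (1 : ℝ) / 2 < Real.log 2 := by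
    have := Real.log_two_gt_d9; linarith
  have h8 : (0 : ℝ) ≤ (Nat.log 2 n : ℝ) := by positivity
  nlinarith

/-! ### one class with the weight of the low word -/

/-- the weight of the low word at the cut `X` -/
noncomputable def lw (X b c : ℕ) : ℝ :=
  ((low X (wd b c).1 * low X (wd b c).2 : ℕ) : ℝ) ^ (1 / 4 : ℝ)

lemma lw_nonneg (X b c : ℕ) : 0 ≤ lw X b c := by unfold lw; positivity

/-- `ρ = 2^{-1/4}` -/
noncomputable def rho4 : ℝ := (2 : ℝ) ^ (-(1 / 4 : ℝ))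

lemma rho4_pos : 0 < rho4 := Real.rpow_pos_of_pos (by norm_num) _

lemma rho4_lt : rho4 < 1 := Real.rpow_lt_one_of_one_lt_of_neg (by norm_num) (by norm_num)

lemma pow4 (a : ℕ) : ((2 : ℝ) ^ (1 / 4 : ℝ)) ^ a = ((2 : ℝ) ^ a) ^ (1 / 4 : ℝ) := by
  rw [← Real.rpow_natCast ((2 : ℝ) ^ (1 / 4 : ℝ)) a, ← Real.rpow_natCast (2 : ℝ) a,
    ← Real.rpow_mul (by norm_num), ← Real.rpow_mul (by norm_num), mul_comm]

lemma lw_cls {X a a' e b c : ℕ} (h : Cls X a a' e b c) :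
    lw X b c ≤ 2 * ((2 : ℝ) ^ (1 / 4 : ℝ)) ^ a * ((2 : ℝ) ^ (1 / 4 : ℝ)) ^ a' := by
  have h3 : ((low X (wd b c).1 : ℕ) : ℝ) ≤ 2 ^ (a + 1) := by
    have : low X (wd b c).1 < 2 ^ (a + 1) := by
      rw [← h.1]; exact Nat.lt_pow_succ_log_self (by norm_num) _
    exact_mod_cast this.le
  have h4 : ((low X (wd b c).2 : ℕ) : ℝ) ≤ 2 ^ (a' + 1) := by
    have : low X (wd b c).2 < 2 ^ (a' + 1) := by
      rw [← h.2.1]; exact Nat.lt_pow_succ_log_self (by norm_num) _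
    exact_mod_cast this.le
  have h5 : lw X b c ≤ ((2 : ℝ) ^ (a + 1) * 2 ^ (a' + 1)) ^ (1 / 4 : ℝ) := by
    unfold lw
    refine Real.rpow_le_rpow (by positivity) ?_ (by norm_num)
    push_cast
    exact mul_le_mul h3 h4 (by positivity) (by positivity)
  have h6 : ((2 : ℝ) ^ (a + 1) * 2 ^ (a' + 1)) ^ (1 / 4 : ℝ) =
      (4 : ℝ) ^ (1 / 4 : ℝ) * (((2 : ℝ) ^ (1 / 4 : ℝ)) ^ a * ((2 : ℝ) ^ (1 / 4 : ℝ)) ^ a') := by
    rw [pow4, pow4, show (2 : ℝ) ^ (a + 1) * 2 ^ (a' + 1) = 4 * (2 ^ a * 2 ^ a') by ring,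
      Real.mul_rpow (by norm_num) (by positivity), Real.mul_rpow (by positivity) (by positivity)]
  have h7 : (4 : ℝ) ^ (1 / 4 : ℝ) ≤ 2 := by
    have h8 : (4 : ℝ) ^ (1 / 4 : ℝ) ≤ (4 : ℝ) ^ (1 / 2 : ℝ) :=
      Real.rpow_le_rpow_of_exponent_le (by norm_num) (by norm_num)
    have h9 : (4 : ℝ) ^ (1 / 2 : ℝ) = 2 := by
      rw [← Real.sqrt_eq_rpow, show (4 : ℝ) = 2 ^ 2 by norm_num, Real.sqrt_sq (by norm_num)]
    linarith
  have h10 : (0 : ℝ) ≤ ((2 : ℝ) ^ (1 / 4 : ℝ)) ^ a * ((2 : ℝ) ^ (1 / 4 : ℝ)) ^ a' := by positivity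
  refine h5.trans (le_trans (le_of_eq h6) ?_)
  calc _ ≤ 2 * (((2 : ℝ) ^ (1 / 4 : ℝ)) ^ a * ((2 : ℝ) ^ (1 / 4 : ℝ)) ^ a') :=
        mul_le_mul_of_nonneg_right h7 h10
    _ = _ := by ring

lemma geo4_le (N : ℕ) : ∑ a ∈ range N, rho4 ^ a ≤ (1 - rho4)⁻¹ :=
  sum_le_hasSum _ (fun n _ => pow_nonneg rho4_pos.le n)
    (hasSum_geometric_of_lt_one rho4_pos.le rho4_lt)

lemma rho4_sq (a : ℕ) : ((2 : ℝ) ^ (1 / 4 : ℝ)) ^ a * (1 / √((2 : ℝ) ^ a)) = rho4 ^ a := by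
  have h1 : √((2 : ℝ) ^ a) = ((2 : ℝ) ^ (1 / 2 : ℝ)) ^ a := by
    rw [Real.sqrt_eq_rpow, ← Real.rpow_natCast, ← Real.rpow_natCast, ← Real.rpow_mul (by norm_num),
      ← Real.rpow_mul (by norm_num), mul_comm]
  have h2 : 1 / ((2 : ℝ) ^ (1 / 2 : ℝ)) ^ a = ((2 : ℝ) ^ (-(1 / 2 : ℝ))) ^ a := by
    rw [Real.rpow_neg (by norm_num), inv_pow, one_div]
  rw [h1, h2, ← mul_pow]
  congr 1
  unfold rho4
  rw [← Real.rpow_add (by norm_num)]
  norm_num

open Classical in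
/-- **one block, all classes, weight `bst · (u u')^{1/4}`** -/
theorem np_blockw : ∃ C : ℝ, 0 < C ∧ ∀ (M : ℕ) (F : FL M), 0 < M → ∀ X : ℕ, 2 ≤ X →
    ∀ S : Finset ℕ, (∀ p ∈ S, p ≤ X) → ∀ P : ℕ → ℕ → Prop,
    (∀ b c, b ∣ M → c ∣ M → P b c → NPX F X b c) → Uniq M X P →
    SetBd M (fun b c => if P b c then bst S M b c * lw X b c else 0)
      (C * (Real.log X) ^ (-(1 / 2 : ℝ))) := by
  obtain ⟨C, hC, h⟩ := np_one
  have hr0 := rho4_pos
  have hr1 := rho4_lt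
  have hR : 0 < (1 - rho4)⁻¹ := inv_pos.2 (by linarith)
  refine ⟨4 * C * (1 - rho4)⁻¹ ^ 2, by positivity,
    fun M F hM X hX S hS P hP hU f g hf hg hf1 hg1 => ?_⟩
  have hX' : (2 : ℝ) ≤ (X : ℝ) := by exact_mod_cast hX
  have hlog : 0 < Real.log X := Real.log_pos (by linarith)
  set D := √(Ex M f) * √(Ex M g) with hD
  have hD0 : 0 ≤ D := mul_nonneg (Real.sqrt_nonneg _) (Real.sqrt_nonneg _)
  set L := (Real.log X) ^ (-(1 / 2 : ℝ)) with hL
  have hL0 : 0 ≤ L := Real.rpow_nonneg hlog.le _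
  have hbf : ∀ b c, 0 ≤ bst S M b c * (f b * g c) := fun b c =>
    mul_nonneg (bst_nonneg _ _ _ _) (mul_nonneg (hf _) (hg _))
  set T : Finset (ℕ × ℕ × ℕ) := range (M + 1) ×ˢ (range (M + 1) ×ˢ range 2) with hT
  set κ : ℝ := (2 : ℝ) ^ (1 / 4 : ℝ) with hκ
  have hκ0 : 0 < κ := Real.rpow_pos_of_pos (by norm_num) _
  have h1 : frm M (fun b c => (if P b c then bst S M b c * lw X b c else 0) * (f b * g c)) ≤
      ∑ t ∈ T, frm M (fun b c => (2 * κ ^ t.1 * κ ^ t.2.1) *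
        (if P b c ∧ Cls X t.1 t.2.1 t.2.2 b c then bst S M b c * (f b * g c) else 0)) := by
    rw [frm_sum]
    refine frm_mono fun b c hb hc => ?_
    have hnn : ∀ t ∈ T, (0 : ℝ) ≤ (2 * κ ^ t.1 * κ ^ t.2.1) *
        (if P b c ∧ Cls X t.1 t.2.1 t.2.2 b c then bst S M b c * (f b * g c) else 0) := by
      intro t _
      refine mul_nonneg (by positivity) ?_
      split_ifs
      · exact hbf b c
      · exact le_rfl
    by_cases hPP : P b c
    · obtain ⟨a, ha, a', ha', e, he, hcls⟩ := exists_cls (X := X) hM hb hc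
      have hmem : (a, a', e) ∈ T := by
        rw [hT, Finset.mem_product, Finset.mem_product]
        exact ⟨ha, ha', he⟩
      refine le_trans ?_ (Finset.single_le_sum hnn hmem)
      rw [if_pos hPP, if_pos ⟨hPP, hcls⟩]
      calc bst S M b c * lw X b c * (f b * g c) = lw X b c * (bst S M b c * (f b * g c)) := by ring
        _ ≤ _ := mul_le_mul_of_nonneg_right (lw_cls hcls) (hbf b c)
    · rw [if_neg hPP, zero_mul]
      exact Finset.sum_nonneg hnn
  refine h1.trans ?_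
  have h2 : ∀ t ∈ T, frm M (fun b c => (2 * κ ^ t.1 * κ ^ t.2.1) *
        (if P b c ∧ Cls X t.1 t.2.1 t.2.2 b c then bst S M b c * (f b * g c) else 0)) ≤
      (2 * (C * L * D)) * (rho4 ^ t.1 * rho4 ^ t.2.1) := by
    intro t _
    have e : frm M (fun b c => (2 * κ ^ t.1 * κ ^ t.2.1) *
        (if P b c ∧ Cls X t.1 t.2.1 t.2.2 b c then bst S M b c * (f b * g c) else 0)) =
        (2 * κ ^ t.1 * κ ^ t.2.1) * frm M (fun b c =>
        (if P b c ∧ Cls X t.1 t.2.1 t.2.2 b c then bst S M b c * (f b * g c) else 0)) := by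
      unfold frm
      rw [Finset.mul_sum]
      refine Finset.sum_congr rfl fun b _ => ?_
      rw [Finset.mul_sum]
      exact Finset.sum_congr rfl fun c _ => by ring
    rw [e]
    refine (mul_le_mul_of_nonneg_left (h M F hM X hX S hS P hP hU t.1 t.2.1 t.2.2 f g hf hg hf1 hg1)
      (by positivity)).trans (le_of_eq ?_)
    rw [Real.sqrt_mul (by positivity), ← rho4_sq, ← rho4_sq]
    have k1 : √((2 : ℝ) ^ t.1) ≠ 0 := by positivity
    have k2 : √((2 : ℝ) ^ t.2.1) ≠ 0 := by positivity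
    field_simp
    rw [hL, hD]
    ring
  refine (Finset.sum_le_sum h2).trans ?_
  rw [← Finset.mul_sum, hT, Finset.sum_product]
  have hg4 := geo4_le (M + 1)
  have h3 : ∀ a ∈ range (M + 1), ∑ x ∈ range (M + 1) ×ˢ range 2, rho4 ^ a * rho4 ^ x.1 ≤
      rho4 ^ a * (2 * (1 - rho4)⁻¹) := by
    intro a _
    rw [Finset.sum_product]
    simp only [Finset.sum_const, Finset.card_range, nsmul_eq_mul]
    rw [← Finset.mul_sum, ← Finset.mul_sum]
    have h4 : 0 ≤ rho4 ^ a := by positivity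
    push_cast
    nlinarith
  have h5 : ∑ a ∈ range (M + 1), ∑ x ∈ range (M + 1) ×ˢ range 2, rho4 ^ a * rho4 ^ x.1 ≤
      2 * (1 - rho4)⁻¹ ^ 2 := by
    refine (Finset.sum_le_sum h3).trans ?_
    rw [← Finset.sum_mul]
    calc _ ≤ (1 - rho4)⁻¹ * (2 * (1 - rho4)⁻¹) := mul_le_mul_of_nonneg_right hg4 (by positivity)
      _ = _ := by ring
  calc 2 * (C * L * D) * _ ≤ 2 * (C * L * D) * (2 * (1 - rho4)⁻¹ ^ 2) :=
        mul_le_mul_of_nonneg_left h5 (by positivity)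
    _ = _ := by ring

/-! ### block `j` -/

lemma log_pow_le {j : ℕ} (hj1 : 1 ≤ j) :
    (Real.log (Xj j)) ^ (-(1 / 2 : ℝ)) ≤ (√(Real.log 2 / 2))⁻¹ * ((√2)⁻¹) ^ j := by
  have hl2 : 0 < Real.log 2 := Real.log_pos (by norm_num)
  have hlX : 0 < Real.log (Xj j) := lt_of_lt_of_le (by positivity) (log_Xj hj1)
  rw [Real.rpow_neg hlX.le, ← Real.sqrt_eq_rpow]
  have h2 : √(2 ^ j * (Real.log 2 / 2)) ≤ √(Real.log (Xj j)) := Real.sqrt_le_sqrt (log_Xj hj1)
  have h3 : √((2 : ℝ) ^ j * (Real.log 2 / 2)) = (√2) ^ j * √(Real.log 2 / 2) := by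
    rw [Real.sqrt_mul (by positivity)]
    congr 1
    have : ((2 : ℝ) ^ j) = ((√2) ^ j) ^ 2 := by
      rw [← pow_mul, mul_comm, pow_mul, Real.sq_sqrt (by norm_num)]
    rw [this, Real.sqrt_sq (by positivity)]
  rw [h3] at h2
  have h4 : 0 < (√2) ^ j * √(Real.log 2 / 2) := by positivity
  calc (√(Real.log (Xj j)))⁻¹ ≤ ((√2) ^ j * √(Real.log 2 / 2))⁻¹ := inv_anti₀ h4 h2
    _ = (√(Real.log 2 / 2))⁻¹ * ((√2)⁻¹) ^ j := by rw [mul_inv, inv_pow]; ring

lemma SetBd.mono {M : ℕ} {k k' : ℕ → ℕ → ℝ} {E E' : ℝ} (h : SetBd M k E)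
    (hk : ∀ b c, b ∣ M → c ∣ M → k' b c ≤ k b c) (hE : E ≤ E') : SetBd M k' E' := by
  intro f g hf hg hf1 hg1
  refine le_trans (frm_mono fun b c hb hc => ?_) ((h f g hf hg hf1 hg1).trans
    (mul_le_mul_of_nonneg_right hE (mul_nonneg (Real.sqrt_nonneg _) (Real.sqrt_nonneg _))))
  exact mul_le_mul_of_nonneg_right (hk b c hb hc) (mul_nonneg (hf _) (hg _))

lemma SetBd.sum {ι : Type*} (s : Finset ι) {M : ℕ} {k : ι → ℕ → ℕ → ℝ} {E : ι → ℝ}
    (h : ∀ i ∈ s, SetBd M (k i) (E i)) :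
    SetBd M (fun b c => ∑ i ∈ s, k i b c) (∑ i ∈ s, E i) := by
  intro f g hf hg hf1 hg1
  have e : frm M (fun z z' => (∑ i ∈ s, k i z z') * (f z * g z')) =
      ∑ i ∈ s, frm M (fun z z' => k i z z' * (f z * g z')) := by
    rw [frm_sum]
    refine frm_congr fun b c _ _ => ?_
    rw [Finset.sum_mul]
  rw [e, Finset.sum_mul]
  exact Finset.sum_le_sum fun i hi => h i hi f g hf hg hf1 hg1

open Classical in
/-- block `j`, any relation with words determined by the upper words -/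
theorem np_SetBdw : ∃ C : ℝ, 0 < C ∧ ∀ (M : ℕ) (F : FL M), 0 < M → ∀ j : ℕ, 1 ≤ j →
    ∀ P : ℕ → ℕ → Prop, (∀ b c, b ∣ M → c ∣ M → P b c → NPX F (Xj j) b c) →
    Uniq M (Xj j) P →
    SetBd M (fun b c => if P b c then bst (pr (Xj j)) M b c * lw (Xj j) b c else 0)
      (C * ((√2)⁻¹) ^ j) := by
  obtain ⟨C, hC, h⟩ := np_blockw
  have hl2 : 0 < Real.log 2 := Real.log_pos (by norm_num)
  refine ⟨C * (√(Real.log 2 / 2))⁻¹, by positivity, fun M F hM j hj P hP hU => ?_⟩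
  refine (h M F hM (Xj j) (Xj_two hj) (pr (Xj j)) (fun p hp => (mem_pr.1 hp).1) P hP hU).mono
    (fun _ _ _ _ => le_rfl) ?_
  calc C * (Real.log (Xj j)) ^ (-(1 / 2 : ℝ)) ≤
        C * ((√(Real.log 2 / 2))⁻¹ * ((√2)⁻¹) ^ j) :=
        mul_le_mul_of_nonneg_left (log_pow_le hj) hC.le
    _ = _ := by ring

/-! ### the label factor -/

open Crest.Agent.R4C.PureL2x232 (B1)

/-- the label factor above the cut -/
noncomputable def B1hi (X b c : ℕ) : ℝ :=
  ∏ p ∈ (((b / Nat.gcd b c) * (c / Nat.gcd b c)).primeFactors.filter (fun p => X < p)),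
    (1 - 1 / (p : ℝ))⁻¹

lemma inv_pf_nonneg {p : ℕ} (hp : p.Prime) : (0 : ℝ) ≤ (1 - 1 / (p : ℝ))⁻¹ := by
  have h7 : (2 : ℝ) ≤ p := by exact_mod_cast hp.two_le
  have : 1 / (p : ℝ) ≤ 1 / 2 := one_div_le_one_div_of_le (by norm_num) h7
  exact inv_nonneg.2 (by linarith)

lemma B1hi_nonneg (X b c : ℕ) : 0 ≤ B1hi X b c :=
  Finset.prod_nonneg fun _ hp =>
    inv_pf_nonneg (Nat.prime_of_mem_primeFactors (Finset.mem_filter.1 hp).1)

lemma B1_split_cut (X : ℕ) {b c : ℕ} (hb : 0 < b) (hc : 0 < c) :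
    B1 b c ≤ 8 * lw X b c * B1hi X b c := by
  have hw := wd_pos hb hc
  have hs0 : (wd b c).1 ≠ 0 := hw.1.ne'
  have hs0' : (wd b c).2 ≠ 0 := hw.2.ne'
  have hlow : 0 < low X (wd b c).1 * low X (wd b c).2 := Nat.mul_pos (low_pos _ _) (low_pos _ _)
  have h1 : ∏ p ∈ (((b / Nat.gcd b c) * (c / Nat.gcd b c)).primeFactors.filter (fun p => ¬ X < p)),
      (1 - 1 / (p : ℝ))⁻¹ ≤ 8 * lw X b c := by
    have e : ((b / Nat.gcd b c) * (c / Nat.gcd b c)).primeFactors.filter (fun p => ¬ X < p) =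
        (low X (wd b c).1 * low X (wd b c).2).primeFactors := by
      ext p
      rw [Finset.mem_filter, ← Nat.support_factorization, ← Nat.support_factorization,
        Finsupp.mem_support_iff, Finsupp.mem_support_iff]
      change ((wd b c).1 * (wd b c).2).factorization p ≠ 0 ∧ ¬ X < p ↔ _
      rw [Nat.factorization_mul hs0 hs0',
        Nat.factorization_mul (low_pos X _).ne' (low_pos X _).ne', Finsupp.add_apply,
        Finsupp.add_apply, fact_low, fact_low]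
      by_cases hp : p ≤ X
      · rw [if_pos hp, if_pos hp]
        constructor
        · intro h; exact h.1
        · intro h; exact ⟨h, by omega⟩
      · rw [if_neg hp, if_neg hp]
        constructor
        · intro h; exact absurd h.2 (by omega)
        · intro h; omega
    rw [e]
    exact prod_pf_le hlow
  have h2 : B1 b c = B1hi X b c *
      ∏ p ∈ (((b / Nat.gcd b c) * (c / Nat.gcd b c)).primeFactors.filter (fun p => ¬ X < p)),
      (1 - 1 / (p : ℝ))⁻¹ := by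
    unfold B1 B1hi
    rw [Finset.prod_filter_mul_prod_filter_not]
  rw [h2, mul_comm]
  exact mul_le_mul_of_nonneg_right h1 (B1hi_nonneg _ _ _)

end Crest.Agent.R4C.VecNPx50
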