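import Crest.Agent.R4C.GWnode_863
import Crest.Agent.R4C.GWcell_284

/-!
# Row 4, GW section: one cell per zone and prefix (helper60)

World `Z` of `GWdef_982`, growth `128 θ(i)² ≤ 2^i`.

* `frac_pin`    : two points `y, y'` of depth `< K` at scale `t m`, `|m y - m y' - z| < 3/t`,
                  prime factors of `m` `≥ K`: `z = m z₁`.
* `cell_up`     : same node at `j0`, both light at the next node `j` (same prefix): same node at `j`.
* **`cell_unique`** : two nodes of one zone with the same index and the same prefix are equal.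
* `lab_eq_of_zone` : word form.
-/

set_option autoImplicit false

open Finset
open Crest.Agent.R4C.Basex935 Crest.Agent.R4C.Cutx50 Crest.Agent.R4C.PrefixMx882
open Crest.Agent.R4C.Cellx863 Crest.Agent.R4C.GWdefx982
open Crest.Agent.R4C.NHx656 (On frac_unique)
open Crest.Agent.R4C.GWcellx284 (tt_pos Q_mul mesh_pos' four_le_e1 dist_of_cell pos_eq)
open Crest.Agent.R4C.GWnodex863

namespace Crest.Agent.R4C.ZCellx60

/-! ### arithmetic -/

/-- a small number is coprime to a number with large prime factors -/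
lemma coprime_of_lt {k m : ℕ} {K : ℝ} (hk : 0 < k) (hkK : (k : ℝ) < K)
    (hm : ∀ p : ℕ, p.Prime → p ∣ m → K ≤ p) : Nat.Coprime k m := by
  refine Nat.Coprime.symm (Nat.coprime_of_dvd ?_)
  intro p hp hpm hpk
  have h1 := hm p hp hpm
  have h2 : (p : ℝ) ≤ k := by exact_mod_cast Nat.le_of_dvd hk hpk
  linarith

/-- two points of depth `< K` at the scale `t m` whose multiples by `m` agree up to `3/t`: the
integer part is a multiple of `m` -/
lemma frac_pin {K t y y' : ℝ} {m : ℕ} {z : ℤ} (hm0 : 0 < m) (ht : 0 < t)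
    (hm : ∀ p : ℕ, p.Prime → p ∣ m → K ≤ p) (hK : 8 * K ^ 2 ≤ t)
    (h : On K y (t * m)) (h' : On K y' (t * m)) (hz : |(m : ℝ) * y - m * y' - z| < 3 / t) :
    ∃ z₁ : ℤ, z = m * z₁ := by
  have hK1 : 1 < K := h.one_lt
  have hmR : (0 : ℝ) < m := by exact_mod_cast hm0
  obtain ⟨a, k, hk, hak⟩ := h
  obtain ⟨a', k', hk', hak'⟩ := h'
  have hk0 : (0 : ℝ) < k := by exact_mod_cast hk
  have hk0' : (0 : ℝ) < k' := by exact_mod_cast hk'
  have e0 : ∀ (b : ℤ) (l : ℕ) (x : ℝ), (0 : ℝ) < l →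
      t * |(m : ℝ) * x - ((m * b : ℤ) : ℝ) / l| = t * m * |x - b / l| := by
    intro b l x _
    have : (m : ℝ) * x - ((m * b : ℤ) : ℝ) / l = m * (x - b / l) := by push_cast; ring
    rw [this, abs_mul, Nat.abs_cast, mul_assoc]
  have h1 : (k : ℝ) * max 1 (t * |(m : ℝ) * y - ((m * a : ℤ) : ℝ) / k|) < K := by
    rw [e0 a k y hk0]; exact hak
  have h2 : (k' : ℝ) * max 1 (t * |(m : ℝ) * y - ((m * a' + z * k' : ℤ) : ℝ) / k'|) < 4 * K := by
    have e1 : (m : ℝ) * y - ((m * a' + z * k' : ℤ) : ℝ) / k' =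
        ((m : ℝ) * y' - ((m * a' : ℤ) : ℝ) / k') + ((m : ℝ) * y - m * y' - z) := by
      push_cast
      field_simp
      ring
    have h3 : t * |(m : ℝ) * y - ((m * a' + z * k' : ℤ) : ℝ) / k'| ≤ t * m * |y' - a' / k'| + 3 := by
      rw [e1]
      have h4 := abs_add_le ((m : ℝ) * y' - ((m * a' : ℤ) : ℝ) / k') ((m : ℝ) * y - m * y' - z)
      have h5 := mul_le_mul_of_nonneg_left h4 ht.le
      rw [mul_add, e0 a' k' y' hk0'] at h5
      have h6 : t * |(m : ℝ) * y - m * y' - z| ≤ 3 := by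
        rw [lt_div_iff₀ ht] at hz
        linarith
      linarith
    have h7 : max 1 (t * |(m : ℝ) * y - ((m * a' + z * k' : ℤ) : ℝ) / k'|) ≤
        4 * max 1 (t * m * |y' - a' / k'|) := by
      have h8 := le_max_left (1 : ℝ) (t * m * |y' - a' / k'|)
      have h9 := le_max_right (1 : ℝ) (t * m * |y' - a' / k'|)
      exact max_le (by linarith) (by linarith)
    calc (k' : ℝ) * max 1 (t * |(m : ℝ) * y - ((m * a' + z * k' : ℤ) : ℝ) / k'|)
        ≤ k' * (4 * max 1 (t * m * |y' - a' / k'|)) := mul_le_mul_of_nonneg_left h7 hk0'.le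
      _ = 4 * (k' * max 1 (t * m * |y' - a' / k'|)) := by ring
      _ < 4 * K := by linarith
  have h3 : K * (4 * K) * (1 / t + 1 / t) ≤ 1 := by
    have : K * (4 * K) * (1 / t + 1 / t) = 8 * K ^ 2 / t := by ring
    rw [this, div_le_one ht]; exact hK
  have h4 := frac_unique hk hk' ht ht h1 h2 h3
  -- `m a k' = (m a' + z k') k`
  have hkK : (k : ℝ) < K :=
    lt_of_le_of_lt (by nlinarith [le_max_left (1 : ℝ) (t * m * |y - a / k|)]) hak
  have hkK' : (k' : ℝ) < K :=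
    lt_of_le_of_lt (by nlinarith [le_max_left (1 : ℝ) (t * m * |y' - a' / k'|)]) hak'
  have c1 : Nat.Coprime k m := coprime_of_lt hk hkK hm
  have c2 : Nat.Coprime k' m := coprime_of_lt hk' hkK' hm
  have h5 : (m : ℤ) ∣ z * (k * k' : ℕ) := by
    refine ⟨a * k' - a' * k, ?_⟩
    push_cast
    linarith
  have h6 : IsCoprime (m : ℤ) ((k * k' : ℕ) : ℤ) := by
    rw [Nat.isCoprime_iff_coprime]
    exact (Nat.Coprime.mul_left c1 c2).symm
  exact h6.dvd_of_dvd_mul_right h5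

/-- floors: `X - X'` close to `Q z₁`, `Q₀ ≥ 3` divides the difference of the floors and `Q` -/
lemma floor_pin {X X' : ℝ} {Q Q0 : ℕ} {z₁ : ℤ} (hQ0 : 3 ≤ Q0) (hd : Q0 ∣ Q)
    (h : |X - X' - Q * z₁| < 3 / 2) (hc : ⌊X⌋ ≡ ⌊X'⌋ [ZMOD (Q0 : ℤ)]) :
    ⌊X⌋ ≡ ⌊X'⌋ [ZMOD (Q : ℤ)] := by
  have h1 := Int.floor_le X
  have h2 := Int.lt_floor_add_one X
  have h3 := Int.floor_le X'
  have h4 := Int.lt_floor_add_one X'
  rw [abs_lt] at h
  have h5 : |⌊X⌋ - ⌊X'⌋ - Q * z₁| ≤ 2 := by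
    have a1 : ((⌊X⌋ - ⌊X'⌋ - Q * z₁ : ℤ) : ℝ) < 3 := by push_cast; linarith
    have a2 : (-3 : ℝ) < ((⌊X⌋ - ⌊X'⌋ - Q * z₁ : ℤ) : ℝ) := by push_cast; linarith
    have b1 : (⌊X⌋ - ⌊X'⌋ - Q * z₁ : ℤ) < 3 := by exact_mod_cast a1
    have b2 : (-3 : ℤ) < (⌊X⌋ - ⌊X'⌋ - Q * z₁ : ℤ) := by exact_mod_cast a2
    rw [abs_le]
    omega
  have h6 : (Q0 : ℤ) ∣ ⌊X⌋ - ⌊X'⌋ - Q * z₁ := by
    refine dvd_sub ?_ ?_
    · exact (Int.modEq_iff_dvd.1 hc.symm)
    · exact Dvd.dvd.mul_right (by exact_mod_cast hd) _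
  have h7 : ⌊X⌋ - ⌊X'⌋ - Q * z₁ = 0 := by
    refine Int.eq_zero_of_abs_lt_dvd h6 ?_
    have : (3 : ℤ) ≤ Q0 := by exact_mod_cast hQ0
    omega
  refine Int.modEq_iff_dvd.2 ⟨-z₁, ?_⟩
  linarith

/-! ### the world -/

variable {Z : World}

lemma three_le_Q (hZ : Z.Ok) {i w : ℕ} (hnd : Z.nd i w) : 3 ≤ Z.Q i w := by
  have h1 := Q_mul hZ hnd
  have h2 := mesh_bounds hZ.hL (four_le_e1 hZ hnd)
  have h3 : (8 : ℝ) * Z.L ≤ Z.e i w := by
    refine le_trans ?_ hnd.2.1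
    have : (8 : ℝ) ≤ 2 ^ i := by
      calc (8 : ℝ) = 2 ^ 3 := by norm_num
        _ ≤ 2 ^ i := pow_le_pow_right₀ (by norm_num) (hZ.hi0.trans hnd.1)
    exact mul_le_mul_of_nonneg_right this hZ.hL.le
  by_contra hlt
  push Not at hlt
  have h4 : (Z.Q i w : ℝ) ≤ 2 := by exact_mod_cast (by omega : Z.Q i w ≤ 2)
  have h5 : (Z.Q i w : ℝ) * mesh Z.L (Z.e1 w) ≤ 2 * (3 * Z.L) :=
    mul_le_mul h4 h2.2 (by have := hZ.hL; linarith) (by norm_num)
  have := hZ.hL
  linarith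

/-- the cell index in terms of the point at the node `i` -/
lemma cel_eq (hZ : Z.Ok) {i w : ℕ} (hw : 0 < w) (hnd : Z.nd i w) :
    Z.cel w = ⌊(Z.Q i w : ℝ) * Z.yy i w + Z.σ⌋ := by
  have hμ := mesh_pos' hZ hnd
  have h1 := Q_mul hZ hnd
  unfold World.cel Nc
  congr 2
  rw [pos_eq (i := i) hw, ← h1]
  field_simp

/-- the point at a lower node -/
lemma yy_down (hZ : Z.Ok) {i j w : ℕ} (hw : 0 < w) (hij : i ≤ j) :
    ∃ m : ℕ, 0 < m ∧ low (Z.cut j) w = low (Z.cut i) w * m ∧ Z.yy i w = m * Z.yy j w ∧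
      Z.tt j w = Z.tt i w * m ∧ (∀ p : ℕ, p.Prime → p ∣ m → Z.cut i < p) := by
  have hcut := hZ.hcut hij
  have hd : low (Z.cut i) w ∣ low (Z.cut j) w := by
    rw [← low_low hcut w]; exact low_dvd_self _ _
  obtain ⟨m, hm⟩ := hd
  have hl0 : 0 < low (Z.cut i) w := low_pos _ _
  have hm0 : 0 < m := by
    rcases Nat.eq_zero_or_pos m with h | h
    · rw [h, mul_zero] at hm
      exact absurd hm (low_pos _ _).ne'
    · exact h
  have hup : upp (Z.cut i) w = m * upp (Z.cut j) w := by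
    have h1 := low_mul_upp (Z.cut i) hw.ne'
    have h2 := low_mul_upp (Z.cut j) hw.ne'
    rw [hm] at h2
    have h3 : low (Z.cut i) w * upp (Z.cut i) w = low (Z.cut i) w * (m * upp (Z.cut j) w) := by
      rw [h1, ← mul_assoc]; exact h2.symm
    exact Nat.eq_of_mul_eq_mul_left hl0 h3
  refine ⟨m, hm0, hm, ?_, ?_, ?_⟩
  · unfold World.yy
    rw [hup]; push_cast; ring
  · unfold World.tt World.e
    rw [hm]; push_cast; ring
  · intro p hp hpm
    by_contra hle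
    push Not at hle
    have h1 : (low (Z.cut j) w).factorization p = (low (Z.cut i) w).factorization p := by
      rw [fact_low, fact_low, if_pos hle, if_pos (hle.trans hcut)]
    have h2 : (low (Z.cut j) w).factorization p =
        (low (Z.cut i) w).factorization p + m.factorization p := by
      rw [hm, Nat.factorization_mul hl0.ne' hm0.ne']; rfl
    have h3 : 1 ≤ m.factorization p :=
      (hp.dvd_iff_one_le_factorization hm0.ne').1 hpm
    omega

/-- **step**: the same node at `j0`, both points of depth `< 4 θ(j0)` at `j > j0`, same prefix at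
`j`: the same node at `j` -/
theorem cell_up (hZ : Z.Ok) (hθ : ∀ i, Z.i0 ≤ i → 128 * Z.θ i ^ 2 ≤ 2 ^ i) {j0 j w w' : ℕ}
    (hw : 0 < w) (hw' : 0 < w') (hj : j0 ≤ j) (hnd0 : Z.nd j0 w) (hnd : Z.nd j w)
    (hlow : low (Z.cut j) w = low (Z.cut j) w') (hlab : Z.lab j0 w = Z.lab j0 w')
    (h1 : On (4 * Z.θ j0) (Z.yy j w) (Z.tt j w)) (h2 : On (4 * Z.θ j0) (Z.yy j w') (Z.tt j w')) :
    Z.lab j w = Z.lab j w' := by
  obtain ⟨m, hm0, hm, hy, ht, hp⟩ := yy_down hZ hw hj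
  obtain ⟨m', hm0', hm', hy', ht', hp'⟩ := yy_down hZ hw' hj
  have hlow0 : low (Z.cut j0) w = low (Z.cut j0) w' := low_of_lab hlab
  have hmm : m' = m := by
    rw [hlow, hlow0, hm'] at hm
    exact Nat.eq_of_mul_eq_mul_left (low_pos _ _) hm
  subst hmm
  have htt0 : Z.tt j0 w = Z.tt j0 w' := by unfold World.tt; rw [e_congr hlow0]
  have ht0 := tt_pos hZ j0 w
  have hcel0 : Z.cel w ≡ Z.cel w' [ZMOD (Z.Q j0 w : ℤ)] := by
    have h := congrArg (fun ν : Node => ν.2.2) hlab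
    have h' : Z.cel w % (Z.Q j0 w : ℤ) = Z.cel w' % (Z.Q j0 w' : ℤ) := h
    rw [← Q_congr hZ hnd0 hlow0] at h'
    exact h'
  obtain ⟨z, hz⟩ := dist_of_cell hZ hw hw' hnd0 hlow0 hcel0
  have h2i : (2 : ℝ) ^ j0 ≤ Z.tt j0 w := by
    unfold World.tt
    rw [le_div_iff₀ hZ.hL]
    exact hnd0.2.1
  have hθ0 := hZ.hθ j0 hnd0.1
  have hθ1 := hθ j0 hnd0.1
  have hcut2 : (2 : ℝ) ^ j0 ≤ Z.cut j0 := by exact_mod_cast hZ.hcut2 j0
  have hpK : ∀ p : ℕ, p.Prime → p ∣ m' → 4 * Z.θ j0 ≤ p := by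
    intro p hpp hpm
    have a1 : (Z.cut j0 : ℝ) < p := by exact_mod_cast hp p hpp hpm
    nlinarith
  rw [ht] at h1
  rw [ht', ← htt0] at h2
  rw [hy, hy'] at hz
  obtain ⟨z₁, hz₁⟩ := frac_pin (K := 4 * Z.θ j0) hm0 ht0 hpK
    (by nlinarith) h1 h2 hz
  -- floors
  have hmR : (0 : ℝ) < m' := by exact_mod_cast hm0
  have hd : |Z.yy j w - Z.yy j w' - z₁| < 3 / Z.tt j w := by
    have e1 : (m' : ℝ) * Z.yy j w - m' * Z.yy j w' - z = m' * (Z.yy j w - Z.yy j w' - z₁) := by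
      rw [hz₁]; push_cast; ring
    rw [e1, abs_mul, Nat.abs_cast, lt_div_iff₀ ht0] at hz
    rw [ht, lt_div_iff₀ (mul_pos ht0 hmR)]
    nlinarith
  have hQQ : Z.Q j w' = Z.Q j w := (Q_congr hZ hnd hlow).symm
  have hndw' : Z.nd j w' := (nd_congr' hlow).1 hnd
  have hQpos : (0 : ℝ) < Z.Q j w := by
    have := three_le_Q hZ hnd
    exact_mod_cast (by omega : 0 < Z.Q j w)
  have hbound : (Z.Q j w : ℝ) * (3 / Z.tt j w) ≤ 3 / 2 := by
    have hμ := (mesh_bounds hZ.hL (four_le_e1 hZ hnd)).1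
    have hμ0 := mesh_pos' hZ hnd
    have h3 := Q_mul hZ hnd
    have he : (0 : ℝ) < Z.e j w := by exact_mod_cast e_pos hZ j w
    have hL := hZ.hL
    unfold World.tt
    rw [← h3]
    have : (Z.Q j w : ℝ) * (3 / ((Z.Q j w : ℝ) * mesh Z.L (Z.e1 w) / Z.L)) =
        3 * Z.L / mesh Z.L (Z.e1 w) := by
      field_simp
    rw [this, div_le_div_iff₀ hμ0 (by norm_num)]
    linarith
  have hfl : |((Z.Q j w : ℝ) * Z.yy j w + Z.σ) - ((Z.Q j w : ℝ) * Z.yy j w' + Z.σ) -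
      (Z.Q j w : ℝ) * z₁| < 3 / 2 := by
    have e1 : ((Z.Q j w : ℝ) * Z.yy j w + Z.σ) - ((Z.Q j w : ℝ) * Z.yy j w' + Z.σ) -
      (Z.Q j w : ℝ) * z₁ = (Z.Q j w : ℝ) * (Z.yy j w - Z.yy j w' - z₁) := by ring
    rw [e1, abs_mul, Nat.abs_cast]
    calc (Z.Q j w : ℝ) * |Z.yy j w - Z.yy j w' - z₁| < (Z.Q j w : ℝ) * (3 / Z.tt j w) :=
        mul_lt_mul_of_pos_left hd hQpos
      _ ≤ 3 / 2 := hbound
  have c1 := cel_eq hZ hw hnd
  have c2 := cel_eq hZ hw' hndw'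
  rw [hQQ] at c2
  have key := floor_pin (three_le_Q hZ hnd0) (Q_dvd hZ hnd0 hj) hfl (by
    rw [← c1, ← c2]; exact hcel0)
  rw [← c1, ← c2] at key
  unfold World.lab
  rw [hlow, hQQ]
  exact Prod.ext rfl (Prod.ext rfl key)

/-- the previous node -/
lemma prev_spec {j w : ℕ} (h : Z.hasPrev j w) :
    Z.prev j w < j ∧ Z.nd (Z.prev j w) w ∧ ∀ i, i < j → Z.nd i w → i ≤ Z.prev j w := by
  classical
  obtain ⟨i', h1, h2⟩ := h
  have h3 : Z.prev j w < j ∧ Z.nd (Z.prev j w) w := by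
    unfold World.prev
    exact Nat.findGreatest_spec (P := fun i' => i' < j ∧ Z.nd i' w) h1.le ⟨h1, h2⟩
  refine ⟨h3.1, h3.2, fun i h4 h5 => ?_⟩
  unfold World.prev
  exact Nat.le_findGreatest h4.le ⟨h4, h5⟩

/-- **two words of one zone with the same prefix at the node `j` are in one node at `j`** -/
theorem lab_eq_of_zone (hZ : Z.Ok) (hθ : ∀ i, Z.i0 ≤ i → 128 * Z.θ i ^ 2 ≤ 2 ^ i) {w w' : ℕ}
    (hw : w ∣ Z.N) (hw' : w' ∣ Z.N) : ∀ {j : ℕ}, Z.nd j w →
    low (Z.cut j) w = low (Z.cut j) w' → Z.zone j w = Z.zone j w' → Z.lab j w = Z.lab j w' := by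
  intro j
  induction j using Nat.strong_induction_on with
  | _ j ih =>
    intro hnd hlow hz
    have hw0 : 0 < w := Nat.pos_of_dvd_of_pos hw hZ.hN
    have hw0' : 0 < w' := Nat.pos_of_dvd_of_pos hw' hZ.hN
    have hnd' : Z.nd j w' := (nd_congr' hlow).1 hnd
    have hbb : Z.bi j w = Z.bi j w' := congrArg (fun ν : Node => ν.1) hz
    by_cases hb : Z.birth j w
    · rw [zone_of_birth hb] at hz
      have h1 : Z.bi j w' = j := by rw [← hbb]; exact bi_of_birth hb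
      have h2 : Z.zone j w' = Z.lab j w' := by unfold World.zone; rw [h1]
      rw [hz, h2]
    · have hb' : ¬ Z.birth j w' := by
        intro hb'
        have h1 : Z.bi j w = j := by rw [hbb]; exact bi_of_birth hb'
        exact hb (h1 ▸ birth_bi hnd)
      have hl : Z.hasPrev j w ∧ Z.light j w := by
        by_contra hc; exact hb ⟨hnd, hc⟩
      have hl' : Z.hasPrev j w' ∧ Z.light j w' := by
        by_contra hc; exact hb' ⟨hnd', hc⟩
      obtain ⟨p1, p2, p3⟩ := prev_spec hl.1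
      obtain ⟨q1, q2, q3⟩ := prev_spec hl'.1
      have hpq : Z.prev j w' = Z.prev j w := by
        refine le_antisymm ?_ ?_
        · exact p3 _ q1 ((nd_congr hZ q1.le hlow).2 q2)
        · exact q3 _ p1 ((nd_congr hZ p1.le hlow).1 p2)
      have hlow0 := low_congr hZ p1.le hlow
      -- the zone at `prev`
      have hbi : ∀ {u : ℕ}, Z.nd j u → ¬ Z.birth j u → Z.prev j u < j → Z.nd (Z.prev j u) u →
          (∀ i, i < j → Z.nd i u → i ≤ Z.prev j u) → Z.zone (Z.prev j u) u = Z.zone j u := by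
        intro u hu1 hu2 hu3 hu4 hu5
        have h1 := birth_bi hu1
        have h2 : Z.bi j u < j := by
          rcases Nat.lt_or_ge (Z.bi j u) j with h | h
          · exact h
          · exact absurd (le_antisymm (bi_le j u) h ▸ h1) hu2
        have h3 : Z.bi j u ≤ Z.prev j u := hu5 _ h2 h1.1
        have h4 : Z.bi (Z.prev j u) u = Z.bi j u :=
          le_antisymm (le_bi ((bi_le _ _).trans hu3.le) (birth_bi hu4)) (le_bi h3 h1)
        unfold World.zone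
        rw [h4]
      have hz0 : Z.zone (Z.prev j w) w = Z.zone (Z.prev j w) w' := by
        rw [hbi hnd hb p1 p2 p3]
        have h1 := hbi hnd' hb' q1 q2 q3
        rw [hpq] at h1
        rw [h1]; exact hz
      have hlab := ih _ p1 p2 hlow0 hz0
      have o1 := GWcellx284.on_of_light hZ hw hnd hl.2
      have o2 := GWcellx284.on_of_light hZ hw' hnd' hl'.2
      rw [hpq] at o2
      exact cell_up hZ hθ hw0 hw0' p1.le p2 hnd hlow hlab o1 o2

/-- **one cell per zone and prefix** -/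
theorem cell_unique (hZ : Z.Ok) (hθ : ∀ i, Z.i0 ≤ i → 128 * Z.θ i ^ 2 ≤ 2 ^ i) {z ν ν' : Node}
    (hν : ν ∈ Z.Nd z) (hν' : ν' ∈ Z.Nd z) (h1 : ν.1 = ν'.1) (h2 : ν.2.1 = ν'.2.1) : ν = ν' := by
  obtain ⟨w, a1, a2, a3, a4⟩ := (mem_Nd hZ).1 hν
  obtain ⟨w', b1, b2, b3, b4⟩ := (mem_Nd hZ).1 hν'
  have hl : low (Z.cut ν.1) w = ν.2.1 := congrArg (fun ν : Node => ν.2.1) a3
  have hl' : low (Z.cut ν'.1) w' = ν'.2.1 := congrArg (fun ν : Node => ν.2.1) b3
  rw [← h1] at b2 b3 b4 hl'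
  have h3 := lab_eq_of_zone hZ hθ a1 b1 a2 (by rw [hl, hl', h2]) (by rw [a4, b4])
  rw [← a3, ← b3, h3]

end Crest.Agent.R4C.ZCellx60
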